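import Vale.Agent.P088.StA

/-!
# P088: algebra of symbol bounds
-/

open MeasureTheory Set Metric Filter
open scoped ContDiff Topology

noncomputable section
namespace Vale.Agent.P088
open Vale.Agent.P136 (D Dp Dm Sm Tst contDiffAt_D D_add_at D_mul_at D_const D_const_mul_at)

namespace SbAlg

variable {X : Type} [NormedAddCommGroup X] [NormedSpace ℝ X] {κ : Type} {v : κ → X} {p : X}

theorem Ds_nil (f : X → ℝ) : Ds v [] f = f := rfl

theorem Ds_cons (i : κ) (l : List κ) (f : X → ℝ) : Ds v (i :: l) f = D (v i) (Ds v l f) := rfl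

theorem Ds_concat (i : κ) (l : List κ) (f : X → ℝ) : Ds v (l ++ [i]) f = Ds v l (D (v i) f) := by
  unfold Ds
  rw [List.foldr_append]
  rfl

theorem D_ev {f g : X → ℝ} (h : f =ᶠ[𝓝 p] g) (u : X) : D u f =ᶠ[𝓝 p] D u g := by
  filter_upwards [h.fderiv (𝕜 := ℝ)] with x hx
  simp only [D, hx]

theorem Ds_ev {f g : X → ℝ} (h : f =ᶠ[𝓝 p] g) (l : List κ) : Ds v l f =ᶠ[𝓝 p] Ds v l g := by
  induction l with
  | nil => exact h
  | cons i l ih => exact D_ev ih _

theorem Ds_cd {f : X → ℝ} (h : ContDiffAt ℝ ∞ f p) (l : List κ) : ContDiffAt ℝ ∞ (Ds v l f) p := by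
  induction l with
  | nil => exact h
  | cons i l ih => exact contDiffAt_D ih _

theorem ev_diff {f : X → ℝ} (h : ContDiffAt ℝ ∞ f p) : ∀ᶠ x in 𝓝 p, DifferentiableAt ℝ f x := by
  have h1 : ContDiffAt ℝ 1 f p := h.of_le (by norm_cast)
  filter_upwards [h1.eventually (by simp)] with x hx using hx.differentiableAt one_ne_zero

theorem Ds_add {f g : X → ℝ} (hf : ContDiffAt ℝ ∞ f p) (hg : ContDiffAt ℝ ∞ g p) (l : List κ) :
    Ds v l (fun x => f x + g x) =ᶠ[𝓝 p] fun x => Ds v l f x + Ds v l g x := by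
  induction l with
  | nil => exact EventuallyEq.rfl
  | cons i l ih =>
    refine (D_ev ih (v i)).trans ?_
    filter_upwards [ev_diff (Ds_cd (v := v) hf l), ev_diff (Ds_cd (v := v) hg l)] with x h1 h2
    exact D_add_at h1 h2 _

theorem Ds_cmul {f : X → ℝ} (hf : ContDiffAt ℝ ∞ f p) (c : ℝ) (l : List κ) :
    Ds v l (fun x => c * f x) =ᶠ[𝓝 p] fun x => c * Ds v l f x := by
  induction l with
  | nil => exact EventuallyEq.rfl
  | cons i l ih =>
    refine (D_ev ih (v i)).trans ?_
    filter_upwards [ev_diff (Ds_cd (v := v) hf l)] with x h1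
    exact D_const_mul_at h1 _ _

theorem Ds_const (c : ℝ) (l : List κ) : ∃ c' : ℝ, Ds v l (fun _ => c) = fun _ => c' := by
  induction l with
  | nil => exact ⟨c, rfl⟩
  | cons i l ih =>
    obtain ⟨c', h⟩ := ih
    exact ⟨0, by rw [Ds_cons, h]; funext x; exact D_const _ _ _⟩

variable {k : ℕ} {L w w' : ℝ} {f g : X → ℝ}

theorem nonneg (h : SB v k w L f p) : 0 ≤ w := by
  have := h [] (Nat.zero_le _)
  simp only [List.length_nil, pow_zero, mul_one] at this
  exact (abs_nonneg _).trans this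

theorem congr (e : f =ᶠ[𝓝 p] g) (h : SB v k w L f p) : SB v k w L g p := fun l hl => by
  rw [← (Ds_ev (v := v) e l).eq_of_nhds]
  exact h l hl

theorem mono (hL : 0 ≤ L) {k' : ℕ} {L' : ℝ} (h : SB v k w L f p) (hk : k' ≤ k) (hw : w ≤ w')
    (hL' : L ≤ L') : SB v k' w' L' f p := fun l hl =>
  (h l (hl.trans hk)).trans (mul_le_mul hw (pow_le_pow_left₀ hL hL' _) (pow_nonneg hL _)
    ((nonneg h).trans hw))

theorem const (hL : 0 ≤ L) (c : ℝ) : SB v k |c| L (fun _ => c) p := fun l _ => by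
  cases l with
  | nil => simp [Ds_nil]
  | cons i l =>
    obtain ⟨c', h⟩ := Ds_const (v := v) c l
    rw [Ds_cons, h, D_const, abs_zero]
    positivity

theorem deriv1 (i : κ) (h : SB1 v (k + 1) w L f p) : SB v k (w * L) L (D (v i) f) p :=
  fun l hl => by
    have := h (l ++ [i]) (by simp) (by simpa using hl)
    rw [Ds_concat, List.length_append, List.length_singleton, pow_succ'] at this
    rw [mul_assoc]
    exact this

theorem deriv (i : κ) (h : SB v (k + 1) w L f p) : SB v k (w * L) L (D (v i) f) p :=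
  deriv1 i fun l _ hl => h l hl

theorem cmul (hf : ContDiffAt ℝ ∞ f p) (h : SB v k w L f p) (c : ℝ) :
    SB v k (|c| * w) L (fun x => c * f x) p := fun l hl => by
  rw [(Ds_cmul (v := v) hf c l).eq_of_nhds, abs_mul, mul_assoc]
  exact mul_le_mul_of_nonneg_left (h l hl) (abs_nonneg _)

theorem add (hf : ContDiffAt ℝ ∞ f p) (hg : ContDiffAt ℝ ∞ g p) (h : SB v k w L f p)
    (h' : SB v k w' L g p) : SB v k (w + w') L (fun x => f x + g x) p := fun l hl => by
  rw [(Ds_add (v := v) hf hg l).eq_of_nhds, add_mul]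
  exact (abs_add_le _ _).trans (add_le_add (h l hl) (h' l hl))

theorem sub (hf : ContDiffAt ℝ ∞ f p) (hg : ContDiffAt ℝ ∞ g p) (h : SB v k w L f p)
    (h' : SB v k w' L g p) : SB v k (w + w') L (fun x => f x - g x) p := by
  have h1 := add hf (contDiffAt_const.mul hg) h (cmul hg h' (-1))
  simp only [abs_neg, abs_one, one_mul, neg_mul, ← sub_eq_add_neg] at h1
  exact h1

theorem mul (hL : 0 ≤ L) (hf : ContDiffAt ℝ ∞ f p) (hg : ContDiffAt ℝ ∞ g p) (h : SB v k w L f p)
    (h' : SB v k w' L g p) : SB v k (2 ^ k * w * w') L (fun x => f x * g x) p := by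
  induction k generalizing f g w w' with
  | zero =>
    intro l hl
    obtain rfl := List.eq_nil_of_length_eq_zero (Nat.le_zero.1 hl)
    have h1 := h [] le_rfl
    have h2 := h' [] le_rfl
    simp only [List.length_nil, pow_zero, mul_one, one_mul, Ds_nil] at h1 h2 ⊢
    rw [abs_mul]
    exact mul_le_mul h1 h2 (abs_nonneg _) (nonneg h)
  | succ k ih =>
    intro l hl
    have hw := nonneg h
    have hw' := nonneg h'
    rcases List.eq_nil_or_concat l with rfl | ⟨l', i, rfl⟩
    · have h1 := h [] (Nat.zero_le _)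
      have h2 := h' [] (Nat.zero_le _)
      simp only [List.length_nil, pow_zero, mul_one, Ds_nil] at h1 h2 ⊢
      rw [abs_mul]
      have h3 : (1 : ℝ) ≤ 2 ^ (k + 1) := one_le_pow₀ (by norm_num)
      have h4 := mul_le_mul h1 h2 (abs_nonneg _) hw
      have h5 := mul_nonneg hw hw'
      nlinarith
    · rw [List.concat_eq_append] at hl ⊢
      have hl' : l'.length ≤ k := by simpa using hl
      have e : (fun x => f x * D (v i) g x + D (v i) f x * g x) =ᶠ[𝓝 p]
          D (v i) (fun x => f x * g x) := by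
        filter_upwards [ev_diff hf, ev_diff hg] with x h1 h2
        exact (D_mul_at h1 h2 _).symm
      have a1 := ih hf (contDiffAt_D hg (v i)) (mono hL h (Nat.le_succ k) le_rfl le_rfl) (deriv i h')
      have a2 := ih (contDiffAt_D hf (v i)) hg (deriv i h) (mono hL h' (Nat.le_succ k) le_rfl le_rfl)
      have a3 := congr e (add (hf.mul (contDiffAt_D hg (v i))) ((contDiffAt_D hf (v i)).mul hg)
        a1 a2) l' hl'
      rw [Ds_concat, List.length_append, List.length_singleton]
      refine a3.trans (le_of_eq ?_)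
      ring

theorem sum (hL : 0 ≤ L) {J : Type} (s : Finset J) (f : J → X → ℝ) (w : J → ℝ)
    (hf : ∀ j ∈ s, ContDiffAt ℝ ∞ (f j) p) (h : ∀ j ∈ s, SB v k (w j) L (f j) p) :
    SB v k (∑ j ∈ s, w j) L (fun x => ∑ j ∈ s, f j x) p := by
  classical
  induction s using Finset.induction_on with
  | empty => simpa using const (v := v) (k := k) (p := p) hL 0
  | insert a s ha ih =>
    simp only [Finset.sum_insert ha]
    exact add (hf a (Finset.mem_insert_self _ _))
      (ContDiffAt.sum fun j hj => hf j (Finset.mem_insert_of_mem hj))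
      (h a (Finset.mem_insert_self _ _))
      (ih (fun j hj => hf j (Finset.mem_insert_of_mem hj))
        fun j hj => h j (Finset.mem_insert_of_mem hj))

theorem sd (hL : 0 ≤ L) {f' g' : X → ℝ} {ε : ℝ} (hf : ContDiffAt ℝ ∞ f p) (hg : ContDiffAt ℝ ∞ g p)
    (hf' : ContDiffAt ℝ ∞ f' p) (hg' : ContDiffAt ℝ ∞ g' p) (h : SD v k w L ε f g p)
    (h' : SD v k w' L ε f' g' p) :
    SD v k (w + w') L ε (fun x => f x + f' x) (fun x => g x + g' x) p ∧
      SD v k (2 ^ (k + 1) * w * w') L ε (fun x => f x * f' x) (fun x => g x * g' x) p := by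
  have hw := nonneg h.1
  have hw' := nonneg h'.1
  have e2 : (2 : ℝ) ^ k * w * w' ≤ 2 ^ (k + 1) * w * w' := by
    have : (0 : ℝ) ≤ 2 ^ k * w * w' := by positivity
    rw [pow_succ]
    linarith
  refine ⟨⟨add hf hf' h.1 h'.1, add hg hg' h.2.1 h'.2.1, ?_⟩,
    mono hL (mul hL hf hf' h.1 h'.1) le_rfl e2 le_rfl,
    mono hL (mul hL hg hg' h.2.1 h'.2.1) le_rfl e2 le_rfl, ?_⟩
  · have a := add (hf.sub hg) (hf'.sub hg') h.2.2 h'.2.2
    refine mono hL (congr (Eventually.of_forall fun x => ?_) a) le_rfl (le_of_eq (by ring)) le_rfl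
    simp only
    ring
  · have a := add ((hf.sub hg).mul hf') (hg.mul (hf'.sub hg'))
      (mul hL (hf.sub hg) hf' h.2.2 h'.1) (mul hL hg (hf'.sub hg') h.2.1 h'.2.2)
    refine mono hL (congr (Eventually.of_forall fun x => ?_) a) le_rfl (le_of_eq (by ring)) le_rfl
    simp only
    ring

end SbAlg

open SbAlg in
theorem s_sbAlg : S_sbAlg := fun _ _ _ _ _ _ _ _ hL =>
  ⟨fun _ _ _ e h => congr e h, fun _ _ _ _ _ h hk hw hL' => mono hL h hk hw hL', const hL,
    fun _ _ i h => deriv i h, fun _ _ i h => deriv1 i h, fun _ _ c hf h => cmul hf h c,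
    fun _ _ _ _ hf hg h h' => ⟨add hf hg h h', sub hf hg h h', mul hL hf hg h h'⟩,
    fun _ s f w hf h => sum hL s f w hf h,
    fun _ _ _ _ _ _ _ hf hg hf' hg' h h' _ => sd hL hf hg hf' hg' h h'⟩

end Vale.Agent.P088
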