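import Vale.Agent.P088.StP
import Vale.Agent.P088.SbAlg

/-!
# P088: graded bounds for the zero-order coefficients
-/

open MeasureTheory Set Metric Filter
open scoped ContDiff Topology

noncomputable section
namespace Vale.Agent.P088
open Vale.Agent.P136 (D Dp Dm Sm Tst D_add_at D_sub_at D_mul_at D_const D_const_mul_at D_sum_at
  D_comm)

namespace CcoB

/-- A bound for a number. -/
structure V (c a x : ℝ) : Prop where
  c0 : 0 ≤ c
  a0 : 0 ≤ a
  bd : |x| ≤ c * a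

section V
variable {c c' a a' x y : ℝ} {m : ℕ}

theorem V.add (h : V c a x) (h' : V c' a y) : V (c + c') a (x + y) :=
  ⟨add_nonneg h.c0 h'.c0, h.a0, (abs_add_le _ _).trans (by linarith [h.bd, h'.bd])⟩

theorem V.sub (h : V c a x) (h' : V c' a y) : V (c + c') a (x - y) :=
  ⟨add_nonneg h.c0 h'.c0, h.a0, (abs_sub _ _).trans (by linarith [h.bd, h'.bd])⟩

theorem V.mul (h : V c a x) (h' : V c' a' y) : V (c * c') (a * a') (x * y) :=
  ⟨mul_nonneg h.c0 h'.c0, mul_nonneg h.a0 h'.a0, by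
    rw [abs_mul, mul_mul_mul_comm]
    exact mul_le_mul h.bd h'.bd (abs_nonneg _) (mul_nonneg h.c0 h.a0)⟩

theorem V.kmul (h : V c a x) (k : ℝ) : V (|k| * c) a (k * x) :=
  ⟨mul_nonneg (abs_nonneg _) h.c0, h.a0, by
    rw [abs_mul, mul_assoc]
    exact mul_le_mul_of_nonneg_left h.bd (abs_nonneg _)⟩

theorem V.mono (h : V c a x) (ha : a ≤ 2 * a') : V (c * 2) a' x :=
  ⟨mul_nonneg h.c0 zero_le_two, by linarith [h.a0], h.bd.trans (by
    rw [mul_assoc]
    exact mul_le_mul_of_nonneg_left ha h.c0)⟩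

theorem V.sum {f : Fin m → ℝ} (hc : 0 ≤ c) (ha : 0 ≤ a) (h : ∀ i, V c a (f i)) :
    V (m * c) a (∑ i, f i) :=
  ⟨by positivity, ha, (Finset.abs_sum_le_sum_abs _ _).trans
    ((Finset.sum_le_sum fun i _ => (h i).bd).trans (by simp [mul_assoc]))⟩

theorem V.le (h : V c a x) {C : ℝ} (hC : |c| ≤ C) : |x| ≤ C * a :=
  h.bd.trans (mul_le_mul_of_nonneg_right ((le_abs_self _).trans hC) h.a0)

end V

variable {X : Type} [NormedAddCommGroup X] [NormedSpace ℝ X] {κ : Type} {m : ℕ}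

/-- A symbol bound with a separate constant. -/
structure G (u : κ → X) (p : X) (k : ℕ) (c a L : ℝ) (f : X → ℝ) : Prop where
  sm : Sm f
  c0 : 0 ≤ c
  a0 : 0 ≤ a
  L0 : 0 ≤ L
  bd : SB u k (c * a) L f p

/-- Bounds for the value and the first derivatives. -/
structure H (u : κ → X) (p : X) (c a b : ℝ) (f : X → ℝ) : Prop where
  sm : Sm f
  v0 : V c a (f p)
  b0 : 0 ≤ b
  v1 : ∀ i, V c b (D (u i) f p)

section G
variable {u : κ → X} {v : Fin m → X} {p : X} {k : ℕ} {c c' a a' b b' L : ℝ} {f g : X → ℝ}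

theorem G.val (h : G u p k c a L f) : V c a (f p) :=
  ⟨h.c0, h.a0, by simpa [Ds] using h.bd [] (Nat.zero_le _)⟩

theorem G.mono (h : G u p k c a L f) {k' : ℕ} {L' : ℝ} (hk : k' ≤ k) (ha : a ≤ a')
    (hL : L ≤ L') : G u p k' c a' L' f :=
  ⟨h.sm, h.c0, h.a0.trans ha, h.L0.trans hL,
    SbAlg.mono h.L0 h.bd hk (mul_le_mul_of_nonneg_left ha h.c0) hL⟩

theorem G.sub (h : G u p k c a L f) (h' : G u p k c' a L g) :
    G u p k (c + c') a L fun x => f x - g x :=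
  ⟨h.sm.sub h'.sm, add_nonneg h.c0 h'.c0, h.a0, h.L0, by
    rw [add_mul]
    exact SbAlg.sub h.sm.contDiffAt h'.sm.contDiffAt h.bd h'.bd⟩

theorem G.add (h : G u p k c a L f) (h' : G u p k c' a L g) :
    G u p k (c + c') a L fun x => f x + g x :=
  ⟨h.sm.add h'.sm, add_nonneg h.c0 h'.c0, h.a0, h.L0, by
    rw [add_mul]
    exact SbAlg.add h.sm.contDiffAt h'.sm.contDiffAt h.bd h'.bd⟩

theorem G.mul (h : G u p k c a L f) (h' : G u p k c' a' L g) :
    G u p k (2 ^ k * c * c') (a * a') L fun x => f x * g x :=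
  ⟨h.sm.mul h'.sm, mul_nonneg (mul_nonneg (by positivity) h.c0) h'.c0, mul_nonneg h.a0 h'.a0, h.L0,
    SbAlg.mono h.L0 (SbAlg.mul h.L0 h.sm.contDiffAt h'.sm.contDiffAt h.bd h'.bd) le_rfl
      (le_of_eq (by ring)) le_rfl⟩

theorem G.kmul (h : G u p k c a L f) (r : ℝ) : G u p k (|r| * c) a L fun x => r * f x :=
  ⟨h.sm.cmul r, mul_nonneg (abs_nonneg _) h.c0, h.a0, h.L0, by
    rw [mul_assoc]
    exact SbAlg.cmul h.sm.contDiffAt h.bd r⟩

theorem G.sum {F : Fin m → X → ℝ} (hc : 0 ≤ c) (ha : 0 ≤ a) (hL : 0 ≤ L)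
    (h : ∀ i, G u p k c a L (F i)) : G u p k (m * c) a L fun x => ∑ i, F i x :=
  ⟨Sm.sum fun i _ => (h i).sm, by positivity, ha, hL, by
    simpa [mul_assoc] using SbAlg.sum hL Finset.univ F (fun _ => c * a)
      (fun i _ => (h i).sm.contDiffAt) fun i _ => (h i).bd⟩

theorem G.D (h : G u p (k + 1) c a L f) (i : κ) : G u p k c (a * L) L (D (u i) f) :=
  ⟨h.sm.D _, h.c0, mul_nonneg h.a0 h.L0, h.L0, by
    rw [← mul_assoc]
    exact SbAlg.deriv i h.bd⟩

theorem G.toH (h : G u p (k + 1) c a L f) : H u p c a (a * L) f :=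
  ⟨h.sm, h.val, mul_nonneg h.a0 h.L0, fun i => (h.D i).val⟩

theorem G.xx {γ : Fin m → Fin m → X → ℝ} (hγ : ∀ i j, G u p k c 1 L (γ i j))
    (hf : ∀ j, G u p k c' a L (P136.D (v j) f)) (i : Fin m) :
    G u p k (m * (2 ^ k * c * c')) a L (XX v γ f i) :=
  have h := fun j => ((hγ i j).mul (hf j)).mono le_rfl (one_mul _).le le_rfl
  G.sum (h i).c0 (h i).a0 (h i).L0 h

theorem G.dir {Y : Fin m → X → ℝ} (hc : 0 ≤ c) (hc' : 0 ≤ c') (ha : 0 ≤ a) (ha' : 0 ≤ a')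
    (hL : 0 ≤ L) (hY : ∀ i, G u p k c a L (Y i)) (hf : ∀ j, G u p k c' a' L (P136.D (v j) f)) :
    G u p k (m * (2 ^ k * c * c')) (a * a') L (dir v Y f) :=
  G.sum (by positivity) (by positivity) hL fun i => (hY i).mul (hf i)

theorem G.dvg (e : Fin m → κ) {Y : Fin m → X → ℝ} (hc : 0 ≤ c) (ha : 0 ≤ a) (hL : 0 ≤ L)
    (hY : ∀ i, G u p (k + 1) c a L (Y i)) :
    G u p k (m * c) (a * L) L (dvg (fun i => u (e i)) Y) :=
  G.sum hc (by positivity) hL fun i => (hY i).D (e i)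

theorem H.mono (h : H u p c a b f) (ha : a ≤ 2 * a') (hb : b ≤ 2 * b') : H u p (c * 2) a' b' f :=
  ⟨h.sm, h.v0.mono ha, by linarith [h.b0], fun i => (h.v1 i).mono hb⟩

theorem H.add (h : H u p c a b f) (h' : H u p c' a b g) :
    H u p (c + c') a b fun x => f x + g x :=
  ⟨h.sm.add h'.sm, h.v0.add h'.v0, h.b0, fun i => by
    rw [D_add_at (h.sm.dAt p) (h'.sm.dAt p)]
    exact (h.v1 i).add (h'.v1 i)⟩

theorem H.sub (h : H u p c a b f) (h' : H u p c' a b g) :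
    H u p (c + c') a b fun x => f x - g x :=
  ⟨h.sm.sub h'.sm, h.v0.sub h'.v0, h.b0, fun i => by
    rw [D_sub_at (h.sm.dAt p) (h'.sm.dAt p)]
    exact (h.v1 i).sub (h'.v1 i)⟩

theorem H.kmul (h : H u p c a b f) (r : ℝ) : H u p (|r| * c) a b fun x => r * f x :=
  ⟨h.sm.cmul r, h.v0.kmul r, h.b0, fun i => by
    rw [D_const_mul_at (h.sm.dAt p)]
    exact (h.v1 i).kmul r⟩

theorem H.mul (h : H u p c a b f) (h' : H u p c' a' b' g) :
    H u p (c * c') (a * a') (a * b' + b * a') fun x => f x * g x :=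
  have h0 := add_nonneg (mul_nonneg h.v0.a0 h'.b0) (mul_nonneg h.b0 h'.v0.a0)
  ⟨h.sm.mul h'.sm, h.v0.mul h'.v0, h0, fun i => ⟨mul_nonneg h.v0.c0 h'.v0.c0, h0, by
    rw [D_mul_at (h.sm.dAt p) (h'.sm.dAt p), mul_add]
    exact (abs_add_le _ _).trans
      (add_le_add (h.v0.mul (h'.v1 i)).bd ((h.v1 i).mul h'.v0).bd)⟩⟩

theorem H.sum {F : Fin m → X → ℝ} (hc : 0 ≤ c) (ha : 0 ≤ a) (hb : 0 ≤ b)
    (h : ∀ i, H u p c a b (F i)) : H u p (m * c) a b fun x => ∑ i, F i x :=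
  ⟨Sm.sum fun i _ => (h i).sm, V.sum hc ha fun i => (h i).v0, hb, fun j => by
    rw [D_sum_at _ fun i _ => (h i).sm.dAt p]
    exact V.sum hc hb fun i => (h i).v1 j⟩

theorem phiG {φ : X → ℝ} {w₀ h S : ℝ} (hφ : Sm φ) (h0 : ∀ i, |P136.D (u i) φ p| ≤ w₀)
    (h1 : ∀ i j, SB u 2 h S (P136.D (u i) (P136.D (u j) φ)) p) (hk : k ≤ 3) (hw : w₀ ≤ a)
    (hL : 0 ≤ L) (h2 : ∀ n < k, h * S ^ n ≤ a * L ^ (n + 1)) (i : κ) :
    G u p k 1 a L (P136.D (u i) φ) := by
  refine ⟨hφ.D _, zero_le_one, ((abs_nonneg _).trans (h0 i)).trans hw, hL, fun l hl => ?_⟩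
  rcases List.eq_nil_or_concat' l with rfl | ⟨l', j, rfl⟩
  · simpa [Ds] using (h0 i).trans hw
  · simp only [List.length_append, List.length_singleton] at hl ⊢
    rw [SbAlg.Ds_concat, one_mul]
    exact (h1 j i l' (by omega)).trans (h2 _ (by omega))

end G

section id
variable (v : Fin m → X) (γ : Fin m → Fin m → X → ℝ) (φ : X → ℝ) (P : Fin m → X → ℝ)

def Q0 (i k : Fin m) : X → ℝ :=
  fun p => 8 * XX v γ (XX v γ φ k) i p - 4 * dir v (XX v γ φ) (γ i k) p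

def Q1 (i k : Fin m) : X → ℝ := fun p =>
  (8 * (dir v P φ p * γ i k p) - 16 * (XX v γ φ i p * P k p)) +
    (8 * XX v γ (P k) i p - 4 * dvg v (fun l q => γ i k q * P l q) p)

def YY (Q : Fin m → Fin m → X → ℝ) (k : Fin m) : X → ℝ :=
  fun q => ∑ i, (Q i k q + Q k i q) * D (v i) φ q

theorem Qsplit (i k : Fin m) (q : X) : Qco v γ φ P i k q = Q0 v γ φ i k q + Q1 v γ φ P i k q := by
  simp only [Qco, Q0, Q1, XX]
  ring

theorem cco0 (p : X) :
    cco v γ φ 0 p = 1 / 2 * dvg v (YY v φ (Q0 v γ φ)) p + 2 * dgd v γ (dgd v γ φ) p := by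
  have e1 : ∀ f : X → ℝ, dir v 0 f = fun _ => 0 := fun f => funext fun q => by simp [dir]
  have e2 : ∀ Y : Fin m → X → ℝ, dir v Y (fun _ => 0) = fun _ => 0 :=
    fun Y => funext fun q => by simp [dir, D_const]
  have e3 : dvg v (fun _ _ => 0) = fun _ => 0 := funext fun q => by simp [dvg, D_const]
  have e4 : XX v γ (fun _ => 0) = fun _ _ => 0 :=
    funext fun i => funext fun q => by simp [XX, D_const]
  have e5 : (0 : Fin m → X → ℝ) = fun _ _ => 0 := rfl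
  have e6 : Qco v γ φ 0 = Q0 v γ φ := by
    funext i k q
    rw [Qsplit, Q1, e1, e5]
    simp only [e3, e4, mul_zero, zero_mul, sub_zero, add_zero]
  have e7 : dgd v γ (fun _ => 0) p = 0 := by rw [dgd, e4, e3]
  rw [cco, e6]
  simp only [e1]
  simp only [e5, e2, e3, mul_zero, zero_mul, sub_zero, add_zero, Finset.sum_const_zero]
  rw [e7, mul_zero, add_zero]
  rfl

variable {v γ φ P}

theorem ccoP (h0 : ∀ k, Sm (YY v φ (Q0 v γ φ) k)) (h1 : ∀ k, Sm (YY v φ (Q1 v γ φ P) k)) (p : X) :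
    cco v γ φ P p - cco v γ φ 0 p = 1 / 2 * (∑ k, D (v k) (YY v φ (Q1 v γ φ P) k) p) +
      8 * (∑ k, dir v (XX v γ φ) (P k) p * D (v k) φ p) -
      8 * (dvg v P p * dir v (XX v γ φ) φ p) -
      4 * (∑ i, ∑ k, dir v P (γ i k) p * D (v i) φ p * D (v k) φ p) -
      4 * dir v P (dir v (XX v γ φ) φ) p - 8 * dir v (XX v γ φ) (dir v P φ) p -
      4 * dvg v (fun l q => dgd v γ φ q * P l q) p + 4 * dgd v γ (dir v P φ) p := by
  have e : (fun k q => ∑ i, (Qco v γ φ P i k q + Qco v γ φ P k i q) * D (v i) φ q) =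
      fun k q => YY v φ (Q0 v γ φ) k q + YY v φ (Q1 v γ φ P) k q := by
    funext k q
    rw [YY, YY, ← Finset.sum_add_distrib]
    refine Finset.sum_congr rfl fun i _ => ?_
    rw [Qsplit, Qsplit]
    ring
  have e2 : dvg v (fun k q => YY v φ (Q0 v γ φ) k q + YY v φ (Q1 v γ φ P) k q) p =
      dvg v (YY v φ (Q0 v γ φ)) p + ∑ k, D (v k) (YY v φ (Q1 v γ φ P) k) p := by
    rw [dvg, dvg, ← Finset.sum_add_distrib]
    exact Finset.sum_congr rfl fun k _ => D_add_at ((h0 k).dAt p) ((h1 k).dAt p) _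
  rw [cco0, cco, e, e2]
  ring

/-- The lower-order part of `Q0`. -/
def rem (v : Fin m → X) (γ : Fin m → Fin m → X → ℝ) (φ : X → ℝ) (p : X) (i k : Fin m) : ℝ :=
  8 * (∑ j, γ i j p * ∑ l, D (v j) (γ k l) p * D (v l) φ p) - 4 * dir v (XX v γ φ) (γ i k) p

theorem Q0_eq (hγ : SmM γ) (hφ : Sm φ) (p : X) (i k : Fin m) : Q0 v γ φ i k p =
    8 * (∑ j, ∑ l, γ i j p * γ k l p * D (v j) (D (v l) φ) p) + rem v γ φ p i k := by
  have e : ∀ j, D (v j) (XX v γ φ k) p =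
      ∑ l, (γ k l p * D (v j) (D (v l) φ) p + D (v j) (γ k l) p * D (v l) φ p) := fun j => by
    refine (D_sum_at _ (fun l _ => ((hγ k l).mul (hφ.D _)).dAt p) _).trans ?_
    exact Finset.sum_congr rfl fun l _ => D_mul_at ((hγ k l).dAt p) ((hφ.D _).dAt p) _
  rw [Q0, rem, XX]
  simp only [e, Finset.sum_add_distrib, mul_add, Finset.mul_sum, mul_assoc]
  ring

theorem cco1 (hγ : SmM γ) (hφ : Sm φ) (hQ : ∀ i k, Sm (Q0 v γ φ i k)) (p : X) :
    cco v γ φ 0 p - 8 * ∑ i, ∑ j, ∑ k, ∑ l,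
      γ i j p * γ k l p * D (v i) (D (v k) φ) p * D (v j) (D (v l) φ) p =
    1 / 2 * (∑ k, ∑ i, D (v k) (fun q => Q0 v γ φ i k q + Q0 v γ φ k i q) p * D (v i) φ p) +
      (∑ i, ∑ k, rem v γ φ p i k * D (v i) (D (v k) φ) p) + 2 * dgd v γ (dgd v γ φ) p := by
  have e : dvg v (YY v φ (Q0 v γ φ)) p =
      (∑ k, ∑ i, Q0 v γ φ i k p * D (v i) (D (v k) φ) p) +
      (∑ k, ∑ i, Q0 v γ φ k i p * D (v k) (D (v i) φ) p) +
      ∑ k, ∑ i, D (v k) (fun q => Q0 v γ φ i k q + Q0 v γ φ k i q) p * D (v i) φ p := by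
    rw [dvg, ← Finset.sum_add_distrib, ← Finset.sum_add_distrib]
    refine Finset.sum_congr rfl fun k _ => ?_
    refine (D_sum_at _ (fun i _ => (((hQ i k).add (hQ k i)).mul (hφ.D _)).dAt p) _).trans ?_
    rw [← Finset.sum_add_distrib, ← Finset.sum_add_distrib]
    refine Finset.sum_congr rfl fun i _ => ?_
    rw [D_mul_at (((hQ i k).add (hQ k i)).dAt p) ((hφ.D _).dAt p), D_comm hφ (v i) (v k), add_mul]
  have e2 : ∑ i, ∑ k, Q0 v γ φ i k p * D (v i) (D (v k) φ) p = 8 * (∑ i, ∑ j, ∑ k, ∑ l,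
      γ i j p * γ k l p * D (v i) (D (v k) φ) p * D (v j) (D (v l) φ) p) +
      ∑ i, ∑ k, rem v γ φ p i k * D (v i) (D (v k) φ) p := by
    rw [Finset.mul_sum, ← Finset.sum_add_distrib]
    refine Finset.sum_congr rfl fun i _ => ?_
    rw [Finset.sum_comm, Finset.mul_sum, ← Finset.sum_add_distrib]
    refine Finset.sum_congr rfl fun k _ => ?_
    rw [Q0_eq hγ hφ, add_mul, mul_assoc, Finset.sum_mul]
    refine congrArg (fun y => 8 * y + _) (Finset.sum_congr rfl fun j _ => ?_)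
    rw [Finset.sum_mul]
    exact Finset.sum_congr rfl fun l _ => by ring
  rw [cco0, e, Finset.sum_comm, e2]
  ring

end id

theorem est1 (m : ℕ) (B : ℝ) (hB : 0 ≤ B) : ∃ C₁ C₂ : ℝ, ∀ (X : Type)
    [NormedAddCommGroup X] [NormedSpace ℝ X] (v : Fin m → X) (γ : Fin m → Fin m → X → ℝ)
    (φ : X → ℝ) (p : X) (w₀ h S : ℝ), SmM γ → Sm φ → 1 ≤ S → 0 ≤ w₀ → 0 ≤ h →
    (∀ i j, SB v 3 B 1 (γ i j) p) → (∀ i, |D (v i) φ p| ≤ w₀) →
    (∀ i j, SB v 2 h S (D (v i) (D (v j) φ)) p) →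
    V C₁ (w₀ * h * S + w₀ ^ 2 + h * S ^ 2 + w₀) (cco v γ φ 0 p - 8 * ∑ i, ∑ j, ∑ k, ∑ l,
        γ i j p * γ k l p * D (v i) (D (v k) φ) p * D (v j) (D (v l) φ) p) ∧
    V C₂ (h + w₀) (dgd v γ φ p) := by
  apply Exists.intro
  apply Exists.intro
  intro X _ _ v γ φ p w₀ h S sγ sφ hS hw hh a1 a2 a3
  have hS0 : 0 ≤ S := zero_le_one.trans hS
  have hγ : ∀ k ≤ 3, ∀ i j, G v p k B 1 1 (γ i j) := fun k hk i j =>
    G.mono ⟨sγ i j, hB, zero_le_one, zero_le_one, by simpa using a1 i j⟩ hk le_rfl le_rfl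
  have hφ : ∀ k ≤ 2, ∀ i, G v p (k + 1) 1 (h * S ^ k + w₀) 1 (D (v i) φ) := fun k hk =>
    phiG sφ a2 a3 (by omega) (le_add_of_nonneg_left (by positivity)) zero_le_one fun n hn => by
      rw [one_pow, mul_one]
      exact (mul_le_mul_of_nonneg_left (pow_le_pow_right₀ hS (by omega)) hh).trans
        (le_add_of_nonneg_right hw)
  have b1 := mul_nonneg hw hh
  have b2 := mul_le_mul_of_nonneg_left hS b1
  have b3 : 0 ≤ h * S ^ 2 := by positivity
  have b4 := sq_nonneg w₀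
  constructor
  · have hX := G.xx (hγ 2 (by norm_num)) (hφ 1 one_le_two)
    have hQ : ∀ i k, G v p 1 _ ((h * S ^ 1 + w₀) * 1) 1 (Q0 v γ φ i k) := fun i k =>
      ((G.xx (hγ 1 (by norm_num)) (fun j => (hX k).D j) i).kmul 8).sub
        ((G.dir (by positivity) hB (by positivity) zero_le_one zero_le_one
          (fun j => (hX j).mono one_le_two le_rfl le_rfl)
          fun j => ((hγ 2 (by norm_num) i k).D j).mono le_rfl (one_mul _).le le_rfl).kmul 4)
    have v1 : ∀ i, V 1 w₀ (D (v i) φ p) := fun i => ⟨zero_le_one, hw, by simpa using a2 i⟩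
    have v2 : ∀ i j, V 1 h (D (v i) (D (v j) φ) p) := fun i j =>
      ⟨zero_le_one, hh, by simpa [Ds] using a3 i j [] (Nat.zero_le _)⟩
    have vX : ∀ i, V _ (1 * w₀) (XX v γ φ i p) := fun i =>
      V.sum (by positivity) (by positivity) fun j => (hγ 0 (by norm_num) i j).val.mul (v1 j)
    have vr : ∀ i k, V _ (w₀ * 2) (rem v γ φ p i k) := fun i k =>
      (((V.sum (by positivity) (by positivity) fun j => (hγ 0 (by norm_num) i j).val.mul
        (V.sum (by positivity) (by positivity) fun l =>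
          ((hγ 1 (by norm_num) k l).D j).val.mul (v1 l))).mono (by linarith)).kmul 8).sub
      (((V.sum (by positivity) (by positivity) fun l => (vX l).mul
        ((hγ 1 (by norm_num) i k).D l).val).mono (by linarith)).kmul 4)
    have h3 := G.dvg id (by positivity) (by positivity) zero_le_one
      (G.xx (hγ 3 le_rfl) (hφ 2 le_rfl))
    have h4 := G.dvg id (by positivity) (by positivity) zero_le_one
      (G.xx (v := v) (hγ 1 (by norm_num)) fun j => h3.D j)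
    rw [cco1 sγ sφ fun i k => (hQ i k).sm]
    exact ((((V.sum (by positivity) (by positivity) fun k => V.sum (by positivity) (by positivity)
      fun i => (((hQ i k).add (hQ k i)).D k).val.mul (v1 i)).mono (by nlinarith)).kmul (1 / 2)).add
      ((V.sum (by positivity) (by positivity) fun i => V.sum (by positivity) (by positivity)
        fun k => (vr i k).mul (v2 i k)).mono (by nlinarith))).add
      ((h4.val.mono (by nlinarith)).kmul 2)
  · exact (G.dvg id (by positivity) (by positivity) zero_le_one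
      (G.xx (hγ 1 (by norm_num)) (hφ 0 zero_le_two))).val.mono (by nlinarith)

theorem est2 (m : ℕ) (B : ℝ) (hB : 0 ≤ B) : ∃ C₁ C₂ : ℝ, ∀ (X : Type)
    [NormedAddCommGroup X] [NormedSpace ℝ X] (v w : Fin m → X) (γ γ' : Fin m → Fin m → X → ℝ)
    (φ : X → ℝ) (p : X) (h S : ℝ), SmM γ → SmM γ' → Sm φ → 1 ≤ S → 0 ≤ h →
    (∀ i j, SB (Sum.elim v w) 2 B 1 (γ i j) p) → (∀ i j, SB (Sum.elim v w) 2 B 1 (γ' i j) p) →
    (∀ a i, SB (Sum.elim v w) 2 h S (D (w a) (D (v i) φ)) p) →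
    (∀ a, V C₁ (h * S) (tht v w γ φ a p)) ∧
    V C₂ (h * S * S) (2 * dvg w (fun b q => ∑ a, γ' a b q * tht v w γ φ a q) p) := by
  apply Exists.intro
  apply Exists.intro
  intro X _ _ v w γ γ' φ p h S sγ sγ' sφ hS hh a1 a2 a3
  have hS0 : 0 ≤ S := zero_le_one.trans hS
  have hγ : ∀ i j, G (Sum.elim v w) p 2 B 1 S (γ i j) := fun i j =>
    G.mono ⟨sγ i j, hB, zero_le_one, zero_le_one, by simpa using a1 i j⟩ le_rfl le_rfl hS
  have hγ' : ∀ i j, G (Sum.elim v w) p 1 B 1 S (γ' i j) := fun i j =>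
    G.mono ⟨sγ' i j, hB, zero_le_one, zero_le_one, by simpa using a2 i j⟩ one_le_two le_rfl hS
  have hφ : ∀ a j, G (Sum.elim v w) p 2 1 h S (D (v j) (D (w a) φ)) := fun a j =>
    ⟨(sφ.D _).D _, zero_le_one, hh, hS0, by
      rw [D_comm sφ, one_mul]
      exact a3 a j⟩
  have ht : ∀ a, G (Sum.elim v w) p 1 _ (h * S) S (tht v w γ φ a) := fun a =>
    G.dvg Sum.inl (by positivity) hh hS0 (G.xx hγ (hφ a))
  exact ⟨fun a => (ht a).val, (G.dvg Sum.inr (by positivity) (by positivity) hS0 fun b =>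
    G.sum (by positivity) (by positivity) hS0 fun a =>
      ((hγ' a b).mul (ht a)).mono le_rfl (one_mul _).le le_rfl).val.kmul 2⟩

theorem est3 (m : ℕ) (B : ℝ) (hB : 0 ≤ B) : ∃ C : ℝ, ∀ (X : Type)
    [NormedAddCommGroup X] [NormedSpace ℝ X] (v : Fin m → X) (γ : Fin m → Fin m → X → ℝ)
    (φ : X → ℝ) (P : Fin m → X → ℝ) (p : X) (w₀ h S w₂ Λ : ℝ), SmM γ → Sm φ → (∀ i, Sm (P i)) →
    1 ≤ S → S ≤ Λ → 0 ≤ w₀ → 0 ≤ h → 0 ≤ w₂ →
    (∀ i j, SB v 3 B 1 (γ i j) p) → (∀ i, |D (v i) φ p| ≤ w₀) →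
    (∀ i j, SB v 2 h S (D (v i) (D (v j) φ)) p) → (∀ i, SB v 2 w₂ Λ (P i) p) →
    V C (w₂ * ((w₀ + Λ) * (Λ * w₀ + h))) (cco v γ φ P p - cco v γ φ 0 p) := by
  apply Exists.intro
  intro X _ _ v γ φ P p w₀ h S w₂ Λ sγ sφ sP hS hΛ hw hh hw2 a1 a2 a3 a4
  have hS0 : 0 ≤ S := zero_le_one.trans hS
  have hΛ1 : 1 ≤ Λ := hS.trans hΛ
  have hΛ0 : 0 < Λ := one_pos.trans_le hΛ1
  have hL : 0 ≤ Λ := hΛ0.le
  have hγ : ∀ k ≤ 3, ∀ i j, G v p k B 1 Λ (γ i j) := fun k hk i j =>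
    G.mono ⟨sγ i j, hB, zero_le_one, zero_le_one, by simpa using a1 i j⟩ hk le_rfl hΛ1
  have hP : ∀ k ≤ 2, ∀ i, G v p k 1 w₂ Λ (P i) := fun k hk i =>
    G.mono ⟨sP i, zero_le_one, hw2, hL, by simpa using a4 i⟩ hk le_rfl le_rfl
  have hφ : ∀ i, G v p 2 1 (w₀ + h / Λ) Λ (D (v i) φ) :=
    phiG sφ a2 a3 (by norm_num) (le_add_of_nonneg_right (by positivity)) hL fun n _ => by
      have e : (w₀ + h / Λ) * Λ ^ (n + 1) = h * Λ ^ n + w₀ * Λ ^ (n + 1) := by
        field_simp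
        ring
      rw [e]
      exact (mul_le_mul_of_nonneg_left (pow_le_pow_left₀ hS0 hΛ n) hh).trans
        (le_add_of_nonneg_right (by positivity))
  have e : (w₀ + h / Λ) * Λ = Λ * w₀ + h := by field_simp
  generalize hE : Λ * w₀ + h = E at e ⊢
  have b0 : Λ * w₀ ≤ E := by linarith
  have hE0 : 0 ≤ E := by linarith [mul_nonneg hL hw]
  have b1 := mul_le_mul_of_nonneg_left b0 hw2
  have b2 := mul_le_mul_of_nonneg_left b1 hw
  have b3 := mul_le_mul_of_nonneg_left b1 hL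
  have b4 : 0 ≤ w₂ * w₀ * E := by positivity
  have b5 : 0 ≤ w₂ * Λ * E := by positivity
  have b6 : 0 ≤ w₂ * w₀ := by positivity
  have b7 : 0 ≤ w₂ * Λ := by positivity
  have b8 : 0 ≤ w₂ * E := by positivity
  have b9 : 0 ≤ w₂ * Λ * Λ := by positivity
  have Hφ : ∀ i, H v p 1 w₀ E (D (v i) φ) := fun i =>
    ⟨sφ.D _, ⟨zero_le_one, hw, by simpa using a2 i⟩, hE0, fun j => e ▸ ((hφ i).D j).val⟩
  have Hγ := fun i j => (hγ 1 (by norm_num) i j).toH
  have HP := fun i => (hP 1 (by norm_num) i).toH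
  have HX : ∀ i, H v p _ w₀ E (XX v γ φ i) := fun i =>
    H.sum (by positivity) hw hE0 fun j => ((Hγ i j).mul (Hφ j)).mono (by linarith) (by linarith)
  have HD : H v p _ (w₂ * w₀) (w₂ * E) (dir v P φ) :=
    H.sum (by positivity) b6 b8 fun j => ((HP j).mul (Hφ j)).mono (by linarith) (by linarith)
  have HR : H v p _ (w₀ * w₀) (w₀ * E + E * w₀) (dir v (XX v γ φ) φ) :=
    H.sum (by positivity) (by positivity) (by positivity) fun j => (HX j).mul (Hφ j)
  have HQ : ∀ i k, H v p _ (w₂ * (w₀ + Λ)) (w₂ * (E + Λ * Λ)) (Q1 v γ φ P i k) := fun i k =>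
    ((((HD.mul (Hγ i k)).mono (by linarith) (by linarith)).kmul 8).sub
      ((((HX i).mul (HP k)).mono (by linarith) (by linarith)).kmul 16)).add
    ((((G.xx (hγ 1 (by norm_num)) (fun j => (hP 2 le_rfl k).D j) i).toH.mono (by linarith)
      (by linarith)).kmul 8).sub
      (((G.dvg id (by positivity) (by positivity) hL fun l => (hγ 2 (by norm_num) i k).mul
        (hP 2 le_rfl l)).toH.mono (by linarith) (by linarith)).kmul 4))
  have HY : ∀ k, H v p _ _ _ (YY v φ (Q1 v γ φ P) k) := fun k =>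
    H.sum (by positivity) (by positivity) (by positivity) fun i =>
      ((HQ i k).add (HQ k i)).mul (Hφ i)
  have gX := G.xx (hγ 2 (by norm_num)) hφ
  have gd := G.dvg id (by positivity) (by positivity) hL gX
  have gD := G.dir zero_le_one zero_le_one hw2 (by positivity) hL (hP 2 le_rfl) hφ
  have sX : ∀ i, Sm (XX v γ φ i) := fun i => (gX i).sm
  have sQ : ∀ i k, Sm (Q0 v γ φ i k) := fun i k =>
    (Sm.cmul 8 (Sm.sum fun j _ => (sγ i j).mul ((sX k).D _))).sub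
      (Sm.cmul 4 (Sm.sum fun j _ => (sX j).mul ((sγ i k).D _)))
  rw [ccoP (fun k => Sm.sum fun i _ => ((sQ i k).add (sQ k i)).mul (sφ.D _)) fun k => (HY k).sm]
  have e7 : (w₀ + h / Λ) * Λ * w₂ * Λ = w₂ * Λ * E := by rw [e]; ring
  have e8 : w₂ * (w₀ + h / Λ) * Λ * Λ = w₂ * Λ * E := by rw [← e]; ring
  exact ((((((((((V.sum (by positivity) (by positivity) fun k => (HY k).v1 k).mono
    (by linarith)).kmul (1 / 2)).add
    (((V.sum (by positivity) (by positivity) fun k => (V.sum (by positivity) (by positivity)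
      fun i => (HX i).v0.mul ((HP k).v1 i)).mul (Hφ k).v0).mono (by linarith)).kmul 8)).sub
    ((((V.sum (by positivity) (by positivity) fun i => (HP i).v1 i).mul HR.v0).mono
      (by linarith)).kmul 8)).sub
    (((V.sum (by positivity) (by positivity) fun i => V.sum (by positivity) (by positivity)
      fun k => ((V.sum (by positivity) (by positivity) fun l => (HP l).v0.mul
        ((Hγ i k).v1 l)).mul (Hφ i).v0).mul (Hφ k).v0).mono (by linarith)).kmul 4)).sub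
    (((V.sum (by positivity) (by positivity) fun i => (HP i).v0.mul (HR.v1 i)).mono
      (by linarith)).kmul 4)).sub
    (((V.sum (by positivity) (by positivity) fun i => (HX i).v0.mul (HD.v1 i)).mono
      (by linarith)).kmul 8)).sub
    (((G.dvg id (by positivity) (by positivity) hL fun l =>
      gd.mul (hP 1 one_le_two l)).val.mono (by linarith)).kmul 4)).add
    (((G.dvg id (by positivity) (by positivity) hL (G.xx (v := v) (hγ 1 (by norm_num))
      fun j => gD.D j)).val.mono (by linarith)).kmul 4))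

end CcoB

open CcoB in
theorem s_ccoB : S_ccoB := by
  intro m B hB
  obtain ⟨C₁, C₂, h1⟩ := est1 m B (zero_le_one.trans hB)
  obtain ⟨C₃, C₄, h2⟩ := est2 m B (zero_le_one.trans hB)
  obtain ⟨C₅, h3⟩ := est3 m B (zero_le_one.trans hB)
  have := abs_nonneg C₁
  have := abs_nonneg C₂
  have := abs_nonneg C₃
  have := abs_nonneg C₄
  have := abs_nonneg C₅
  refine ⟨1 + |C₁| + |C₂| + |C₃| + |C₄| + |C₅|, by linarith,
    fun X _ _ v w γ γ' φ P p w₀ h S w₂ Λ a1 _ a2 _ a3 a4 a5 a6 a7 a8 a9 =>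
    ⟨fun b1 b2 b3 => ?_, fun b1 b2 b3 => ?_⟩⟩
  · obtain ⟨c1, c2⟩ := h1 X v γ φ p w₀ h S a1 a3 a5 a7 a8 b1 b2 b3
    refine ⟨c1.le (by linarith), c2.le (by linarith), fun b4 =>
      ((h3 X v γ φ P p w₀ h S w₂ Λ a1 a3 a4 a5 a6 a7 a8 a9 b1 b2 b3 b4).le
        (C := 1 + |C₁| + |C₂| + |C₃| + |C₄| + |C₅|) (by linarith)).trans (le_of_eq (by ring))⟩
  · obtain ⟨c1, c2⟩ := h2 X v w γ γ' φ p h S a1 a2 a3 a5 a8 b1 b2 b3
    refine ⟨fun a => ?_, ?_⟩
    · rw [mul_assoc]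
      exact (c1 a).le (by linarith)
    · rw [cmx, sub_sub_cancel_left, abs_neg, mul_assoc, sq, ← mul_assoc h]
      exact c2.le (by linarith)

end Vale.Agent.P088
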