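import Vale.Agent.P088.SbAlg

/-!
# P088: symbol bounds under linear maps, the inverse matrix, Taylor bounds
-/

open MeasureTheory Set Metric Filter
open scoped ContDiff Topology

noncomputable section
namespace Vale.Agent.P088
open Vale.Agent.P136 (D Dp Dm Sm Tst contDiffAt_D D_add_at D_mul_at D_const D_const_mul_at D_sum_at)

namespace SbLin
open SbAlg

section lin
variable {X Y : Type} [NormedAddCommGroup X] [NormedSpace ℝ X] [NormedAddCommGroup Y]
  [NormedSpace ℝ Y] {κ κ' : Type}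

theorem Ds_sum {v : κ → X} {p : X} {J : Type} (s : Finset J) {f : J → X → ℝ} (c : J → ℝ)
    (hf : ∀ j, ContDiffAt ℝ ∞ (f j) p) (l : List κ) :
    Ds v l (fun x => ∑ j ∈ s, c j * f j x) =ᶠ[𝓝 p] fun x => ∑ j ∈ s, c j * Ds v l (f j) x := by
  induction l with
  | nil => exact EventuallyEq.rfl
  | cons i l ih =>
    refine (D_ev ih (v i)).trans ?_
    have h1 : ∀ᶠ x in 𝓝 p, ∀ j ∈ s, DifferentiableAt ℝ (Ds v l (f j)) x :=
      (eventually_all_finset s).2 fun j _ => ev_diff (Ds_cd (hf j) l)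
    filter_upwards [h1] with x hx
    rw [D_sum_at s (fun j hj => (hx j hj).const_mul (c j))]
    exact Finset.sum_congr rfl fun j hj => D_const_mul_at (hx j hj) _ _

theorem cd_aff (T : X →L[ℝ] Y) (c : Y) {p : X} {f : Y → ℝ} (hf : ContDiffAt ℝ ∞ f (T p + c)) :
    ContDiffAt ℝ ∞ (fun x => f (T x + c)) p :=
  ContDiffAt.comp (g := f) (f := fun x => T x + c) p hf (T.contDiff.contDiffAt.add contDiffAt_const)

theorem lin [Fintype κ'] {v : κ → X} {v' : κ' → Y} (T : X →L[ℝ] Y) (c : Y) {t : κ → κ' → ℝ}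
    {A : ℝ} {p : X} (hT : ∀ i, T (v i) = ∑ j, t i j • v' j) (hA : ∀ i, ∑ j, |t i j| ≤ A)
    (l : List κ) : ∀ (f : Y → ℝ) (B : ℝ), 0 ≤ B → ContDiffAt ℝ ∞ f (T p + c) →
      (∀ l' : List κ', l'.length = l.length → |Ds v' l' f (T p + c)| ≤ B) →
      |Ds v l (fun x => f (T x + c)) p| ≤ B * A ^ l.length := by
  induction l using List.reverseRecOn with
  | nil =>
    intro f B _ _ h
    simpa [Ds_nil] using h [] rfl
  | append_singleton l i ih =>
    intro f B hB hf h
    have hA0 : 0 ≤ A := (Finset.sum_nonneg fun j _ => abs_nonneg _).trans (hA i)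
    have hc : ContinuousAt (fun x => T x + c) p := T.continuous.continuousAt.add continuousAt_const
    have e : D (v i) (fun x => f (T x + c)) =ᶠ[𝓝 p]
        fun x => ∑ j, t i j * D (v' j) f (T x + c) := by
      filter_upwards [hc.eventually (ev_diff hf)] with x hx
      have h1 : HasFDerivAt (fun x => f (T x + c)) ((fderiv ℝ f (T x + c)).comp T) x :=
        HasFDerivAt.comp (g := f) (f := fun x => T x + c) x hx.hasFDerivAt
          (T.hasFDerivAt.add_const c)
      simp only [D]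
      rw [h1.fderiv, ContinuousLinearMap.comp_apply, hT, map_sum]
      simp only [map_smul, smul_eq_mul]
    rw [Ds_concat, (Ds_ev (v := v) e l).eq_of_nhds,
      (Ds_sum (v := v) Finset.univ (f := fun j x => D (v' j) f (T x + c)) (t i)
        (fun j => cd_aff T c (contDiffAt_D hf (v' j))) l).eq_of_nhds]
    have h2 : ∀ j, |Ds v l (fun x => D (v' j) f (T x + c)) p| ≤ B * A ^ l.length := fun j =>
      ih (D (v' j) f) B hB (contDiffAt_D hf _) fun l' hl' => by
        rw [← Ds_concat]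
        exact h _ (by simp [hl'])
    calc _ ≤ ∑ j, |t i j| * (B * A ^ l.length) := by
          refine (Finset.abs_sum_le_sum_abs _ _).trans (Finset.sum_le_sum fun j _ => ?_)
          rw [abs_mul]
          exact mul_le_mul_of_nonneg_left (h2 j) (abs_nonneg _)
      _ ≤ A * (B * A ^ l.length) := by
          rw [← Finset.sum_mul]
          exact mul_le_mul_of_nonneg_right (hA i) (by positivity)
      _ = _ := by rw [List.length_append, List.length_singleton]; ring

theorem lin0 [Fintype κ'] {v : κ → X} {v' : κ' → Y} (T : X →L[ℝ] Y) (c : Y) {t : κ → κ' → ℝ}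
    {A w L : ℝ} {k : ℕ} {f : Y → ℝ} {p : X} (hL : 0 ≤ L) (hT : ∀ i, T (v i) = ∑ j, t i j • v' j)
    (hA : ∀ i, ∑ j, |t i j| ≤ A) (hf : ContDiffAt ℝ ∞ f (T p + c))
    (h : SB v' k w L f (T p + c)) : SB v k w (A * L) (fun x => f (T x + c)) p := by
  intro l hl
  have hw := nonneg h
  refine (lin T c hT hA l f (w * L ^ l.length) (by positivity) hf fun l' hl' => ?_).trans
    (le_of_eq ?_)
  · rw [← hl']
    exact h l' (hl'.le.trans hl)
  · rw [mul_pow]
    ring

theorem lin1 [Fintype κ'] {v : κ → X} {v' : κ' → Y} (T : X →L[ℝ] Y) (c : Y) {t : κ → κ' → ℝ}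
    {A w L : ℝ} {k : ℕ} {f : Y → ℝ} {p : X} (hL : 0 ≤ L) (hT : ∀ i, T (v i) = ∑ j, t i j • v' j)
    (hA : ∀ i, ∑ j, |t i j| ≤ A) (hf : ContDiffAt ℝ ∞ f (T p + c)) (hw : 0 ≤ w)
    (h : SB1 v' k w L f (T p + c)) : SB1 v k w (A * L) (fun x => f (T x + c)) p := by
  intro l hl0 hl
  refine (lin T c hT hA l f (w * L ^ l.length) (by positivity) hf fun l' hl' => ?_).trans
    (le_of_eq ?_)
  · rw [← hl']
    refine h l' (fun e => hl0 ?_) (hl'.le.trans hl)
    rw [e] at hl'
    exact List.eq_nil_of_length_eq_zero hl'.symm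
  · rw [mul_pow]
    ring

theorem taylor [Fintype κ] (v : κ → X) (f : X → ℝ) (p : X) (h : κ → ℝ) (k : ℕ) (A : ℝ)
    (hf : ∀ s ∈ Icc (0 : ℝ) 1, ContDiffAt ℝ ∞ f (p + s • ∑ i, h i • v i))
    (hb : ∀ s ∈ Icc (0 : ℝ) 1, ∀ l : List κ, l.length = k →
      |Ds v l f (p + s • ∑ i, h i • v i)| ≤ A)
    (h0 : ∀ l : List κ, l ≠ [] → l.length < k → Ds v l f p = 0) (hk : 1 ≤ k) :
    |f (p + ∑ i, h i • v i) - f p| ≤ A * (∑ i, |h i|) ^ k := by
  set H : X := ∑ i, h i • v i with hH
  set g : ℕ → ℝ → ℝ := fun j s => Ds (fun _ : Unit => H) (List.replicate j ()) f (p + s • H) with hg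
  have key : ∀ (j : ℕ) (q : X) (B : ℝ), 0 ≤ B → ContDiffAt ℝ ∞ f q →
      (∀ l : List κ, l.length = j → |Ds v l f q| ≤ B) →
      |Ds (fun _ : Unit => H) (List.replicate j ()) f q| ≤ B * (∑ i, |h i|) ^ j := by
    intro j q B hB hq hl
    have := lin (v := fun _ : Unit => H) (v' := v) (ContinuousLinearMap.id ℝ X) 0
      (t := fun _ i => h i) (A := ∑ i, |h i|) (p := q) (fun _ => rfl) (fun _ => le_rfl)
      (List.replicate j ()) f B hB (by simpa using hq) (by simpa using hl)
    simpa using this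
  have der : ∀ j, ∀ s ∈ Icc (0 : ℝ) 1, HasDerivAt (g j) (g (j + 1) s) s := by
    intro j s hs
    have h1 : HasDerivAt (fun s : ℝ => p + s • H) H s := by
      simpa using ((hasDerivAt_id s).smul_const H).const_add p
    have h2 := ((Ds_cd (v := fun _ : Unit => H) (hf s hs) (List.replicate j ())).differentiableAt
      (by simp)).hasFDerivAt
    exact h2.comp_hasDerivAt s h1
  have mv : ∀ j B, (∀ s ∈ Icc (0 : ℝ) 1, |g (j + 1) s| ≤ B) → ∀ s ∈ Icc (0 : ℝ) 1,
      |g j s - g j 0| ≤ B := by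
    intro j B hB s hs
    have h1 := Convex.norm_image_sub_le_of_norm_hasDerivWithin_le (f := g j) (f' := g (j + 1))
      (s := Icc 0 1) (C := B) (fun x hx => (der j x hx).hasDerivWithinAt) hB (convex_Icc 0 1)
      (left_mem_Icc.2 zero_le_one) hs
    have hB0 : 0 ≤ B := (abs_nonneg _).trans (hB s hs)
    rw [sub_zero, Real.norm_of_nonneg hs.1] at h1
    exact h1.trans (mul_le_of_le_one_right hB0 hs.2)
  rcases isEmpty_or_nonempty κ with hκ | ⟨⟨a⟩⟩
  · have e : H = 0 := by simp [hH]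
    have e2 : ∑ i, |h i| = 0 := by simp
    rw [e, e2, add_zero, sub_self, abs_zero, zero_pow (by omega), mul_zero]
  have hA : 0 ≤ A := (abs_nonneg _).trans
    (hb 0 (left_mem_Icc.2 zero_le_one) (List.replicate k a) (by simp))
  have ind : ∀ m j, j + m = k → 1 ≤ j → ∀ s ∈ Icc (0 : ℝ) 1, |g j s| ≤ A * (∑ i, |h i|) ^ k := by
    intro m
    induction m with
    | zero =>
      intro j hj _ s hs
      obtain rfl : j = k := by omega
      exact key j _ A hA (hf s hs) (hb s hs)
    | succ m ih =>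
      intro j hj hj1 s hs
      have h1 := mv j _ (ih (j + 1) (by omega) (by omega)) s hs
      have h2 : g j 0 = 0 := by
        have h3 := key j (p + (0 : ℝ) • H) 0 le_rfl (hf 0 (left_mem_Icc.2 zero_le_one))
          fun l hl => by
            rw [zero_smul, add_zero, h0 l (by rintro rfl; simp at hl; omega) (by omega), abs_zero]
        rw [zero_mul] at h3
        exact abs_nonpos_iff.1 h3
      rwa [h2, sub_zero] at h1
  have h4 := mv 0 _ (ind (k - 1) 1 (by omega) le_rfl) 1 (right_mem_Icc.2 zero_le_one)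
  simpa [hg, Ds_nil] using h4

end lin

section inv
variable {n : ℕ}

theorem sm_det {M : En n → Matrix (Fin n) (Fin n) ℝ} (h : ∀ i j, Sm fun x => M x i j) :
    Sm fun x => (M x).det := by
  simp only [Matrix.det_apply']
  exact ContDiff.sum fun σ _ => contDiff_const.mul (contDiff_prod fun i _ => h _ _)

theorem sm_inv {M : En n → Matrix (Fin n) (Fin n) ℝ} (h : ∀ i j, Sm fun x => M x i j)
    (hd : ∀ x, (M x).det ≠ 0) (i j : Fin n) : Sm fun x => (M x)⁻¹ i j := by
  simp only [Matrix.inv_def, Ring.inverse_eq_inv', Matrix.smul_apply, smul_eq_mul,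
    Matrix.adjugate_apply]
  refine ((sm_det h).inv hd).mul (sm_det (M := fun x => (M x).updateRow j (Pi.single i 1))
    fun a b => ?_)
  simp only [Matrix.updateRow_apply]
  split_ifs
  · exact contDiff_const
  · exact h a b

theorem exists_SB (k : ℕ) (H : Fin n → Fin n → En n → ℝ) (x : En n) :
    ∃ w, ∀ i j, SB ee k w 1 (H i j) x := by
  have h1 : (univ ×ˢ {l : List (Fin n) | l.length ≤ k} :
      Set ((Fin n × Fin n) × List (Fin n))).Finite :=
    finite_univ.prod (List.finite_length_le _ k)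
  obtain ⟨w, hw⟩ := (h1.image fun r => |Ds ee r.2 (H r.1.1 r.1.2) x|).bddAbove
  refine ⟨w, fun i j l hl => ?_⟩
  rw [one_pow, mul_one]
  exact hw ⟨((i, j), l), ⟨mem_univ _, hl⟩, rfl⟩

/-- the fixed point argument for `H = -E - H E` -/
theorem near_fix {k : ℕ} {om : ℝ} {E H : Fin n → Fin n → En n → ℝ} (hE : SmM E) (hH : SmM H)
    (hom : n * 2 ^ k * om ≤ 1 / 2) {x : En n} (hb : ∀ i j, SB ee k om 1 (E i j) x)
    (e : ∀ i j y, H i j y = -1 * E i j y - ∑ l, H i l y * E l j y) (i j : Fin n) :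
    SB ee k (2 * om) 1 (H i j) x := by
  set S : Set ℝ := {w | ∀ i j, SB ee k w 1 (H i j) x} with hS
  have hne : S.Nonempty := exists_SB k H x
  have hbd : BddBelow S := ⟨0, fun w hw => nonneg (hw i j)⟩
  have hin : sInf S ∈ S := fun a b l hl => by
    rw [one_pow, mul_one]
    refine le_csInf hne fun w hw => ?_
    simpa using hw a b l hl
  have h0 := nonneg (hin i j)
  have hstep : om + sInf S / 2 ∈ S := fun a b => by
    have h1 := cmul (hE a b).contDiffAt (hb a b) (-1)
    have h2 := sum zero_le_one Finset.univ (fun l y => H a l y * E l b y)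
      (fun _ => 2 ^ k * sInf S * om) (fun l _ => ((hH a l).mul (hE l b)).contDiffAt)
      (fun l _ => mul zero_le_one (hH a l).contDiffAt (hE l b).contDiffAt (hin a l) (hb l b))
    have h3 := sub (contDiffAt_const.mul (hE a b).contDiffAt)
      (Vale.Agent.P136.Sm.sum fun l _ => (hH a l).mul (hE l b)).contDiffAt h1 h2
    refine mono zero_le_one (congr (Eventually.of_forall fun y => (e a b y).symm) h3) le_rfl ?_ le_rfl
    simp only [abs_neg, abs_one, one_mul, Finset.sum_const, Finset.card_univ, Fintype.card_fin,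
      nsmul_eq_mul]
    nlinarith [mul_le_mul_of_nonneg_right hom h0]
  have h4 := csInf_le hbd hstep
  exact mono zero_le_one (hin i j) le_rfl (by linarith) le_rfl

theorem inv (n k : ℕ) : ∃ C om₀ : ℝ, 1 ≤ C ∧ 0 < om₀ ∧ ∀ (γ : MatF n) (om : ℝ), SmM γ → SymM γ →
    om ≤ om₀ → Near k om γ →
    SmM (fun i j x => (Matrix.of fun a b => γ a b x)⁻¹ i j) ∧
    SymM (fun i j x => (Matrix.of fun a b => γ a b x)⁻¹ i j) ∧
    Near k (C * om) (fun i j x => (Matrix.of fun a b => γ a b x)⁻¹ i j) ∧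
    (∀ x i j, ∑ l, γ i l x * (Matrix.of fun a b => γ a b x)⁻¹ l j = if i = j then 1 else 0) ∧
    ∀ x (ξ : Fin n → ℝ), |bil (fun i j => γ i j x) ξ ξ - ∑ i, ξ i ^ 2| ≤ C * om * ∑ i, ξ i ^ 2 := by
  have hn : (0 : ℝ) ≤ n := Nat.cast_nonneg n
  have h2k : (1 : ℝ) ≤ 2 ^ k := one_le_pow₀ (by norm_num)
  refine ⟨n + 2, 1 / (2 * (n + 1) * 2 ^ k), by linarith, by positivity, ?_⟩
  intro γ om hs hy hom hN
  have hom1 : om * (2 * (n + 1) * 2 ^ k) ≤ 1 := by rwa [le_div_iff₀ (by positivity)] at hom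
  have h0 : ∀ i j x, |γ i j x - if i = j then 1 else 0| ≤ om := fun i j x => by
    simpa [Ds_nil] using hN i j x [] (Nat.zero_le _)
  have hd : ∀ x, (Matrix.of fun a b => γ a b x).det ≠ 0 := fun x => by
    refine det_ne_zero_of_sum_row_lt_diag fun a => ?_
    have ho : 0 ≤ om := (abs_nonneg _).trans (h0 a a x)
    have h1 : ∑ j ∈ Finset.univ.erase a, ‖(Matrix.of fun a b => γ a b x) a j‖ ≤ n * om := by
      refine (Finset.sum_le_card_nsmul _ _ om fun j hj => ?_).trans ?_
      · have := h0 a j x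
        rw [if_neg (Finset.ne_of_mem_erase hj).symm, sub_zero] at this
        exact this
      · rw [nsmul_eq_mul]
        refine mul_le_mul_of_nonneg_right ?_ ho
        exact_mod_cast (Finset.card_erase_le).trans (by simp)
    have h2 := h0 a a x
    rw [if_pos rfl] at h2
    have h3 : 1 - om ≤ ‖(Matrix.of fun a b => γ a b x) a a‖ := by
      have := le_abs_self (γ a a x)
      have := (abs_le.1 h2).1
      show 1 - om ≤ |γ a a x|
      linarith
    have h4 : om * (2 * (n + 1)) ≤ om * (2 * (n + 1) * 2 ^ k) :=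
      mul_le_mul_of_nonneg_left (le_mul_of_one_le_right (by positivity) h2k) ho
    nlinarith
  have hG : SmM (fun i j x => (Matrix.of fun a b => γ a b x)⁻¹ i j) :=
    sm_inv (M := fun x => Matrix.of fun a b => γ a b x) (fun i j => hs i j) hd
  refine ⟨hG, fun i j => funext fun x => ?_, fun i j x => ?_, fun x i j => ?_, fun x ξ => ?_⟩
  · have h1 : (Matrix.of fun a b => γ a b x).transpose = Matrix.of fun a b => γ a b x := by
      ext a b
      exact congrFun (hy b a) x
    have h2 := Matrix.transpose_nonsing_inv (Matrix.of fun a b => γ a b x)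
    rw [h1] at h2
    exact (congrFun (congrFun h2 i) j).symm
  · have ho : 0 ≤ om := (abs_nonneg _).trans (h0 i j x)
    have h1 := near_fix (k := k) (om := om) (E := fun i j y => γ i j y - if i = j then 1 else 0)
      (H := fun i j y => (Matrix.of fun a b => γ a b y)⁻¹ i j - if i = j then 1 else 0)
      (fun a b => (hs a b).sub contDiff_const) (fun a b => (hG a b).sub contDiff_const)
      (by nlinarith [mul_nonneg ho (zero_le_one.trans h2k)]) (fun a b => hN a b x)
      (fun a b y => ?_) i j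
    · exact mono zero_le_one h1 le_rfl (by nlinarith) le_rfl
    · have h2 := congrFun (congrFun (Matrix.nonsing_inv_mul (Matrix.of fun a b => γ a b y)
        (hd y).isUnit) a) b
      rw [Matrix.mul_apply, Matrix.one_apply] at h2
      simp only [Matrix.of_apply] at h2
      simp only [sub_mul, mul_sub, Finset.sum_sub_distrib, h2, mul_ite, ite_mul, mul_one, mul_zero,
        one_mul, zero_mul, Finset.sum_ite_eq, Finset.sum_ite_eq', Finset.mem_univ, if_true]
      split_ifs <;> ring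
  · have h2 := congrFun (congrFun (Matrix.mul_nonsing_inv (Matrix.of fun a b => γ a b x)
      (hd x).isUnit) i) j
    rw [Matrix.mul_apply, Matrix.one_apply] at h2
    exact h2
  · have e : bil (fun i j => γ i j x) ξ ξ - ∑ i, ξ i ^ 2 =
        ∑ i, ∑ j, (γ i j x - if i = j then 1 else 0) * ξ i * ξ j := by
      simp only [bil, sub_mul, Finset.sum_sub_distrib, ite_mul, one_mul, zero_mul,
        Finset.sum_ite_eq, Finset.mem_univ, if_true, sq]
    have h1 : |∑ i, ∑ j, (γ i j x - if i = j then 1 else 0) * ξ i * ξ j| ≤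
        ∑ i, ∑ j, om * ((ξ i ^ 2 + ξ j ^ 2) / 2) := by
      refine (Finset.abs_sum_le_sum_abs _ _).trans (Finset.sum_le_sum fun i _ =>
        (Finset.abs_sum_le_sum_abs _ _).trans (Finset.sum_le_sum fun j _ => ?_))
      rw [mul_assoc, abs_mul]
      refine mul_le_mul (h0 i j x) ?_ (abs_nonneg _) ((abs_nonneg _).trans (h0 i j x))
      rw [abs_le]
      constructor <;> nlinarith [sq_nonneg (ξ i - ξ j), sq_nonneg (ξ i + ξ j)]
    have h2 : ∑ i, ∑ j, om * ((ξ i ^ 2 + ξ j ^ 2) / 2) = n * (om * ∑ i, ξ i ^ 2) := by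
      simp only [← Finset.mul_sum, ← Finset.sum_div, Finset.sum_add_distrib, Finset.sum_const,
        Finset.card_univ, Fintype.card_fin, nsmul_eq_mul]
      ring
    have h3 : 0 ≤ om * ∑ i, ξ i ^ 2 := by
      rw [Finset.mul_sum]
      exact Finset.sum_nonneg fun i _ => mul_nonneg ((abs_nonneg _).trans (h0 i i x)) (sq_nonneg _)
    rw [e]
    nlinarith

end inv
end SbLin

open SbLin in
theorem s_sbLin (_h : S_sbAlg) (_hc : S_sbComp) : S_sbLin :=
  ⟨fun _ _ _ _ _ _ _ _ _ _ _ T c _ _ _ _ _ _ _ hL hT hA hf =>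
    ⟨lin0 T c hL hT hA hf, lin1 T c hL hT hA hf⟩, SbLin.inv,
    fun _ _ _ _ _ v f p h k A => taylor v f p h k A⟩

end Vale.Agent.P088
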