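import Vale.Agent.P088.StP
import Vale.Agent.P088.SbLin

/-!
# P088: the mixed lower-order terms away from the diagonal
-/

open MeasureTheory Set Metric
open scoped ContDiff Topology

noncomputable section
namespace Vale.Agent.P088
open Vale.Agent.P136 (D Dp Dm Sm Tst D_comm)

namespace EBm

theorem amgm {x ε P Q : ℝ} (hε : 0 ≤ ε) (hP : 0 ≤ P) (hQ : 0 ≤ Q) (h : x ^ 2 ≤ ε ^ 2 * (P * Q))
    (s t : ℝ) : x * s * t ≤ ε / 2 * (P * s ^ 2 + Q * t ^ 2) := by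
  refine le_of_sq_le_sq ?_ (by positivity)
  have h1 := mul_le_mul_of_nonneg_right h (sq_nonneg (s * t))
  have h2 := mul_nonneg (sq_nonneg ε) (sq_nonneg (P * s ^ 2 - Q * t ^ 2))
  linarith

theorem abs_sum_le {m : ℕ} {a : Fin m → ℝ} {A : ℝ} (ha : ∀ i, |a i| ≤ A) :
    |∑ i, a i| ≤ m * A :=
  (Finset.abs_sum_le_sum_abs _ _).trans ((Finset.sum_le_sum fun i _ => ha i).trans (by simp))

theorem abs_mul_le {a b A B : ℝ} (ha : |a| ≤ A) (hb : |b| ≤ B) : |a * b| ≤ A * B := by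
  rw [abs_mul]
  exact mul_le_mul ha hb (abs_nonneg _) ((abs_nonneg _).trans ha)

variable {n : ℕ} {ι : Type} {f : Fx} {c : Cx n ι} {p : X2 n}

theorem n2_nonneg (ζ : Fin n → ℝ) : 0 ≤ n2 ζ := Finset.sum_nonneg fun _ _ => sq_nonneg _

theorem sum_up {γ : Fin n → Fin n → ℝ} (h : ∀ i j, |γ i j| ≤ 2) {a : Fin n → ℝ} {A : ℝ}
    (ha : ∀ i, |a i| ≤ A) (ζ : Fin n → ℝ) :
    |∑ i, a i * up γ ζ i| ≤ n * (A * (n * (2 * √(n2 ζ)))) :=
  abs_sum_le fun i => abs_mul_le (ha i) (abs_sum_le fun j => abs_mul_le (h i j)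
    (Real.abs_le_sqrt (Finset.single_le_sum (f := fun i => ζ i ^ 2) (fun _ _ => sq_nonneg _)
      (Finset.mem_univ j))))

theorem sb_res {κ κ' : Type} {v : κ → X2 n} {v' : κ' → X2 n} (e : κ' → κ) (he : ∀ i, v' i = v (e i))
    {k : ℕ} {w L : ℝ} {F : X2 n → ℝ} (h : SB v k w L F p) : SB v' k w L F p := by
  intro l hl
  have e1 : Ds v' l F = Ds v (l.map e) F := by
    unfold Ds
    rw [List.foldr_map]
    simp only [he]
  rw [e1, ← List.length_map e]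
  exact h _ (by rwa [List.length_map])

theorem sb_val {κ : Type} {v : κ → X2 n} {k : ℕ} {w L : ℝ} {F : X2 n → ℝ} (h : SB v k w L F p) :
    |F p| ≤ w := (h [] (Nat.zero_le k)).trans_eq (by simp)

theorem sb_gam {γ : MatF n} (hs : SmM γ) (hn : Near 8 1 γ) (T : X2 n →L[ℝ] En n)
    (hT : ∀ i, ∑ j, |T (exy i) j| ≤ 1) (i j : Fin n) :
    SB exy 2 2 1 (fun q => γ i j (T q)) p := by
  have h0 : ContDiffAt ℝ ∞ (fun y => γ i j y - if i = j then 1 else 0) (T p + 0) :=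
    ((hs i j).sub contDiff_const).contDiffAt
  have h1 := SbAlg.add h0 contDiffAt_const (hn i j _)
    (SbAlg.const zero_le_one (if i = j then 1 else 0))
  have h2 := SbLin.lin0 (v := exy) (v' := ee) T 0 (t := fun a b => T (exy a) b) (A := 1)
    zero_le_one (fun a => by ext b; simp [ee, Pi.single_apply]) hT (h0.add contDiffAt_const) h1
  simp only [sub_add_cancel, add_zero, mul_one] at h2
  exact SbAlg.mono zero_le_one h2 (by norm_num) (by split_ifs <;> norm_num) le_rfl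

/-- The bounds for the coefficients. -/
structure Co (f : Fx) (c : Cx n ι) (p : X2 n) (K : ℝ) : Prop where
  cm : |cM f c p| ≤ K * AA f c p ^ 2
  t1 : ∀ ζ, |∑ a, thx f c a p * up (g2 c p) ζ a| ≤ K * (AA f c p * vv f c p) * √(n2 ζ)
  t2 : ∀ ζ, |∑ a, thy f c a p * up (g1 c p) ζ a| ≤ K * (AA f c p * vv f c p) * √(n2 ζ)
  t3 : ∀ a ζ, |∑ i, D (ey a) (D (ex i) (phi f c)) p * up (g1 c p) ζ i| ≤
    K * (AA f c p * vv f c p) * √(n2 ζ)
  t4 : ∀ a ζ, |∑ i, D (ey a) (D (ey i) (phi f c)) p * up (g2 c p) ζ i| ≤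
    K * (AA f c p * vv f c p) * √(n2 ζ)
  t5 : ∀ a, |thx f c a p| ≤ K * (AA f c p * vv f c p)
  t6 : ∀ a, |tht ey ey (onY c.γ₂) (phi f c) a p| ≤ K * (AA f c p * vv f c p)

theorem coef (hB : S_ccoB) (n : ℕ) {C : ℝ} (hC : 1 ≤ C) : ∃ K₀ : ℝ, 1 ≤ K₀ ∧
    ∀ (ι : Type) (f : Fx) (c : Cx n ι) (p : X2 n) (L K : ℝ), c.Ok f 1 L → Sm (phi f c) →
      1 ≤ vv f c p → vv f c p ^ 2 ≤ AA f c p → W3 f c C p → K₀ ≤ K → Co f c p K := by
  obtain ⟨B, hB1, hB⟩ := hB n 2 one_le_two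
  have hn : (0 : ℝ) ≤ n := n.cast_nonneg
  have p1 : 0 ≤ B * C := by positivity
  have p2 : 0 ≤ 32 * (n : ℝ) ^ 4 * C ^ 2 := by positivity
  have p3 : 0 ≤ 2 * (n : ℝ) ^ 2 * (B * C) := by positivity
  refine ⟨1 + B * C + 32 * n ^ 4 * C ^ 2 + 2 * n ^ 2 * (B * C), by linarith,
    fun ι f c p L K hc sφ v1 hv w3 hK => ?_⟩
  obtain ⟨-, -, -, -, -, s1, y1, n1, s2, y2, n2', -⟩ := hc
  have v0 : 0 ≤ vv f c p := zero_le_one.trans v1
  have A0 : 0 ≤ AA f c p := (sq_nonneg _).trans hv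
  have S1 : SmM (onX c.γ₁) := fun i j => (s1 i j).comp contDiff_fst
  have S2 : SmM (onY c.γ₂) := fun i j => (s2 i j).comp contDiff_snd
  have Y1 : SymM (onX c.γ₁) := fun i j => funext fun p => congrFun (y1 i j) p.1
  have Y2 : SymM (onY c.γ₂) := fun i j => funext fun p => congrFun (y2 i j) p.2
  have g1' : ∀ i j, SB exy 2 2 1 (onX c.γ₁ i j) p :=
    sb_gam s1 n1 (ContinuousLinearMap.fst ℝ _ _) fun i => by
      rcases i with i | i <;> simp [exy, ex, ey, ee, apply_ite abs]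
  have g2' : ∀ i j, SB exy 2 2 1 (onY c.γ₂ i j) p :=
    sb_gam s2 n2' (ContinuousLinearMap.snd ℝ _ _) fun i => by
      rcases i with i | i <;> simp [exy, ex, ey, ee, apply_ite abs]
  have hφ : ∀ a i, SB exy 2 (C * AA f c p) (vv f c p) (D (ey a) (D (exy i) (phi f c))) p :=
    fun a i => SbAlg.mono v0 (w3.2.1 a i) (by norm_num) le_rfl le_rfl
  have b1 : ∀ i j, |g1 c p i j| ≤ 2 := fun i j => sb_val (g1' i j)
  have b2 : ∀ i j, |g2 c p i j| ≤ 2 := fun i j => sb_val (g2' i j)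
  have b3 : ∀ a i, |D (ey a) (D (exy i) (phi f c)) p| ≤ C * AA f c p := fun a i => sb_val (hφ a i)
  have key := fun v w γ γ' a1 a2 a3 a4 => (hB (X2 n) v w γ γ' (phi f c) (fun _ _ => 0) p 0
    (C * AA f c p) (vv f c p) 0 (vv f c p) a1 a2 a3 a4 sφ (fun _ => contDiff_const) v1 le_rfl
    le_rfl (by positivity) le_rfl).2
  obtain ⟨k1, k2⟩ := key ex ey _ _ S1 Y1 S2 Y2 g1' g2' fun a i => hφ a (Sum.inl i)
  have r1 : ∀ i : Fin n ⊕ Fin n, Sum.elim ey ex i = exy i.swap := fun i => by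
    rcases i with i | i <;> rfl
  have r2 : ∀ i : Fin n ⊕ Fin n, Sum.elim ey ey i = exy (Sum.inr (Sum.elim id id i)) :=
    fun i => by rcases i with i | i <;> rfl
  obtain ⟨k3, -⟩ := key ey ex _ _ S2 Y2 S1 Y1 (fun i j => sb_res _ r1 (g2' i j))
    (fun i j => sb_res _ r1 (g1' i j)) fun a i => by
      rw [D_comm sφ]; exact sb_res _ r1 (hφ i (Sum.inl a))
  obtain ⟨k4, -⟩ := key ey ey _ _ S2 Y2 S2 Y2 (fun i j => sb_res _ r2 (g2' i j))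
    (fun i j => sb_res _ r2 (g2' i j)) fun a i => sb_res _ r2 (hφ a (Sum.inr i))
  have Av : 0 ≤ AA f c p * vv f c p := mul_nonneg A0 v0
  have b4 : C * AA f c p ≤ B * (C * AA f c p) * vv f c p :=
    (le_mul_of_one_le_left (by positivity) hB1).trans (le_mul_of_one_le_right (by positivity) v1)
  have u1 : B * (C * AA f c p) * vv f c p ≤ K * (AA f c p * vv f c p) := by
    have := mul_le_mul_of_nonneg_right (by linarith : B * C ≤ K) Av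
    linarith
  have u2 : ∀ ζ : Fin n → ℝ, n * (B * (C * AA f c p) * vv f c p * (n * (2 * √(n2 ζ)))) ≤
      K * (AA f c p * vv f c p) * √(n2 ζ) := fun ζ => by
    have := mul_le_mul_of_nonneg_right (by linarith : 2 * n ^ 2 * (B * C) ≤ K)
      (mul_nonneg Av (Real.sqrt_nonneg (n2 ζ)))
    linarith
  refine ⟨?_, fun ζ => (sum_up b2 k1 ζ).trans (u2 ζ), fun ζ => (sum_up b1 k3 ζ).trans (u2 ζ),
    fun a ζ => (sum_up b1 (fun i => (b3 a (Sum.inl i)).trans b4) ζ).trans (u2 ζ),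
    fun a ζ => (sum_up b2 (fun i => (b3 a (Sum.inr i)).trans b4) ζ).trans (u2 ζ),
    fun a => (k1 a).trans u1, fun a => (k4 a).trans u1⟩
  have k5 := abs_sum_le fun i => abs_sum_le fun j => abs_sum_le fun a => abs_sum_le fun b =>
    abs_mul_le (abs_mul_le (abs_mul_le (b1 i j) (b2 a b)) (b3 a (Sum.inl i))) (b3 b (Sum.inl j))
  have k6 := abs_le.1 k5
  have k7 := abs_le.1 k2
  have k8 := mul_le_mul_of_nonneg_left hv (mul_nonneg p1 A0)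
  have k9 := mul_le_mul_of_nonneg_right (by linarith : B * C + 32 * n ^ 4 * C ^ 2 ≤ K)
    (sq_nonneg (AA f c p))
  simp only [g1, g2, exy, Sum.elim_inl] at k6
  simp only [onX, onY] at k7
  unfold cM
  rw [abs_le]
  constructor <;> linarith [k6.1, k6.2, k7.1, k7.2]

theorem quart {A C v y δ a m r : ℝ} (A0 : 0 ≤ A) (y0 : 0 ≤ y) (v1 : 1 ≤ v)
    (δ0 : 0 ≤ δ) (h1 : A ≤ C * y * v) (h2 : v ^ 8 ≤ δ * y) (h3 : y ≤ a) (h4 : y ≤ m)
    (h5 : y ^ 2 ≤ C * r) : A ^ 4 ≤ C ^ 5 * δ * (a ^ 2 * (m * r)) := by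
  have h6 : v ^ 4 ≤ δ * m :=
    ((pow_le_pow_right₀ v1 (by norm_num)).trans h2).trans (mul_le_mul_of_nonneg_left h4 δ0)
  calc A ^ 4 ≤ (C * y * v) ^ 4 := pow_le_pow_left₀ A0 h1 4
    _ = C ^ 4 * (y ^ 2 * y ^ 2 * v ^ 4) := by ring
    _ ≤ C ^ 4 * (a ^ 2 * (C * r) * (δ * m)) := by
      have := (sq_nonneg y).trans h5
      gcongr
    _ = _ := by ring

theorem lin {A C v y δ G : ℝ} (A0 : 0 < A) (v1 : 1 ≤ v) (G0 : 0 ≤ G) (δ0 : 0 ≤ δ)
    (y0 : 0 ≤ y) (h1 : A ^ 2 * v ^ 2 ≤ δ * y * G) (h2 : y * v ≤ C * A) : A * v ≤ C * δ * G := by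
  have h3 : y ≤ C * A := (le_mul_of_one_le_right y0 v1).trans h2
  have h4 : δ * y * G ≤ δ * (C * A) * G := by gcongr
  have h5 : A ^ 2 * v ≤ A ^ 2 * v ^ 2 :=
    mul_le_mul_of_nonneg_left (by nlinarith) (sq_nonneg A)
  exact le_of_mul_le_mul_left (by linarith) A0

/-- The comparison of the weights. -/
structure Wt (f : Fx) (c : Cx n ι) (p : X2 n) (K δ : ℝ) : Prop where
  X0 : 0 ≤ AA f c p * vv f c p
  y0 : 0 ≤ my f c p
  yx : my f c p ≤ mx f c p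
  x0 : 0 ≤ GX f c p
  g0 : 0 ≤ GY f c p
  q : AA f c p ^ 4 ≤ K * δ * (GX f c p * GY f c p)
  a1 : AA f c p ^ 2 * vv f c p ^ 2 ≤ δ * my f c p * GX f c p
  a2 : AA f c p ^ 2 * vv f c p ^ 2 ≤ δ * my f c p * GY f c p
  l1 : AA f c p * vv f c p ≤ K * δ * GX f c p
  l2 : AA f c p * vv f c p ≤ K * δ * GY f c p
  r : ry f c p + 1 ≤ 2 * δ * GY f c p

theorem basic {C δ : ℝ} (hL : 1 ≤ c.L0) (w0 : W0 f c) (w2 : W2 f c C δ p) (δ1 : δ ≤ 1) :
    1 ≤ vv f c p ∧ vv f c p ^ 2 ≤ AA f c p ∧ 1 ≤ al f c p := by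
  obtain ⟨-, -, F0, hv, s2, -⟩ := w0.2.2.1 p
  have v1 := hL.trans hv
  have h1 : vv f c p ^ 2 ≤ FF f c p :=
    ((pow_le_pow_right₀ v1 (by norm_num)).trans w2.1).trans (mul_le_of_le_one_left F0.le δ1)
  exact ⟨v1, h1.trans (le_mul_of_one_le_right F0.le (one_le_pow₀ (by linarith))),
    ((one_le_pow₀ v1).trans h1).trans (le_mul_of_one_le_right F0.le (by linarith))⟩

theorem wts {C₂ C₃ C₄ C₅ Cn δ K : ℝ} (hL : 1 ≤ c.L0) (w0 : W0 f c) (w2 : W2 f c C₂ δ p)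
    (w3 : W3 f c C₃ p) (w4 : W4 f c C₄ δ p) (wx : W5x f c Cn C₅ δ p) (wy : W5y f c Cn C₅ δ p)
    (hp : p ∉ Nr f c 1) (δ0 : 0 < δ) (δ1 : δ ≤ 1) (c3 : 0 ≤ C₃) (K1 : 1 ≤ K)
    (K3 : C₃ ^ 2 ≤ K) (K5 : C₅ ^ 5 * (Cn * f.tau) ^ 2 ≤ K) : Wt f c p K δ := by
  obtain ⟨v1, hA, a1⟩ := basic hL w0 w2 δ1
  obtain ⟨hQ, -, F0, -, -, rx0, ry0, -, -, -, -, fp0, R0, -⟩ := w0.2.2.1 p
  have v0 := zero_le_one.trans v1
  have A0 : 0 < AA f c p := (pow_pos (one_pos.trans_le v1) 2).trans_le hA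
  have y0 : 0 ≤ my f c p := mul_nonneg (mul_nonneg (le_trans (by positivity) hQ) F0.le) v0
  have yx : my f c p ≤ mx f c p := le_add_of_nonneg_right fp0
  have x0 := y0.trans yx
  have AH : AA f c p ≤ HX f c p := le_add_of_nonneg_right (mul_nonneg fp0
    (add_nonneg v0 ((zero_le_one.trans hL).trans (w0.2.1 p.1).2.1)))
  have GX0 : 0 ≤ GX f c p := by unfold GX; split_ifs <;> positivity
  have GY0 : 0 ≤ GY f c p := by unfold GY; split_ifs <;> positivity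
  have sx4 : p ∈ sX f c 1 → p ∈ sX f c 4 := fun h => ⟨h.1, h.2.trans (by linarith)⟩
  have sy4 : p ∈ sY f c 1 → p ∈ sY f c 4 := fun h => ⟨h.1, h.2.trans (by linarith)⟩
  obtain ⟨u1, u2, u3, u4⟩ := w4.2.1 hp
  have v8 := (w2.2.2.2.2.2.2.2.2.2.2.2.2.2.1 hp).2
  have yv : my f c p * vv f c p ≤ C₃ ^ 2 * AA f c p := by
    have h1 := mul_le_mul_of_nonneg_right w3.2.2.2.2.1 v0
    have h2 := mul_le_mul_of_nonneg_left w3.2.2.2.2.2.1 c3
    linarith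
  have yv' := yv.trans (mul_le_mul_of_nonneg_right K3 A0.le)
  refine ⟨mul_nonneg A0.le v0, y0, yx, GX0, GY0, ?_, u3, u4, lin A0 v1 GX0 δ0.le y0 u3 yv',
    lin A0 v1 GY0 δ0.le y0 u4 yv', ?_⟩
  · by_cases hx : p ∈ sX f c 1
    · obtain ⟨-, -, e1, -, -, -, -, e2, -, -, e3, -, -, e4, -⟩ := wx (sx4 hx)
      rw [GX, GY, if_pos hx, if_neg fun h => e1 (sy4 h)]
      refine (quart A0.le y0 v1 δ0.le (AH.trans e3) v8 (yx.trans e2) le_rfl e4).trans ?_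
      have := mul_le_mul_of_nonneg_right K5
        (by positivity : 0 ≤ δ * (al f c p ^ 2 * (my f c p * ry f c p)))
      linarith
    · by_cases hy : p ∈ sY f c 1
      · obtain ⟨-, -, -, -, e2, -, -, e3, -, -, e4, -⟩ := wy (sy4 hy)
        rw [GX, GY, if_neg hx, if_pos hy]
        refine (quart A0.le y0 v1 δ0.le e3 v8 e2 yx
          ((pow_le_pow_left₀ y0 yx 2).trans e4)).trans ?_
        have := mul_le_mul_of_nonneg_right K5
          (by positivity : 0 ≤ δ * (al f c p ^ 2 * (mx f c p * rx f c p)))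
        linarith
      · rw [GX, GY, if_neg hx, if_neg hy]
        have h1 := mul_le_mul ((pow_le_pow_left₀ A0.le AH 2).trans (u1 hx).1) (u2 hy).1
          (sq_nonneg _) (by positivity)
        have h2 := mul_le_mul_of_nonneg_right (δ1.trans K1)
          (by positivity : 0 ≤ δ * (mx f c p * rx f c p * (my f c p * ry f c p)))
        linarith
  · by_cases hy : p ∈ sY f c 1
    · obtain ⟨-, -, -, -, -, -, e1, -⟩ := wy (sy4 hy)
      rw [GY, if_pos hy]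
      have h1 := le_mul_of_one_le_left (by positivity : 0 ≤ ry f c p + al f c p)
        (one_le_pow₀ (n := 8) v1)
      have h2 : 0 ≤ δ * al f c p ^ 2 := by positivity
      linarith
    · rw [GY, if_neg hy]
      have h1 := (one_le_mul_of_one_le_of_one_le a1 (one_le_pow₀ (n := 4) v1)).trans (u2 hy).2
      have h2 := mul_le_of_le_one_left ry0 δ1
      have h3 := mul_le_mul_of_nonneg_right ((one_le_pow₀ v1).trans v8) ry0
      linarith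

theorem fin {K δ η : ℝ} (co : Co f c p K) (w : Wt f c p K δ) (K1 : 1 ≤ K) (δ0 : 0 < δ)
    (δ1 : δ ≤ 1) (η0 : 0 < η) (h1 : 2 * δ ≤ η) (h2 : 64 * K ^ 4 * δ ≤ (η / 2) ^ 2)
    (g q q' : ℝ) (ζ ζ' : Fin n → ℝ) :
    ZM f c p g q ζ ζ' ≤ η * (mx f c p * n2 ζ + my f c p * n2 ζ' + GX f c p * g ^ 2 +
      GY f c p * q ^ 2) ∧
    (∀ a, |BO f c p a g q ζ ζ'| * |q'| ≤ η * (mx f c p * n2 ζ + my f c p * n2 ζ' +
      GX f c p * g ^ 2 + GY f c p * (q ^ 2 + q' ^ 2))) ∧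
    ry f c p + 1 ≤ η * GY f c p := by
  obtain ⟨X0, y0, yx, x0, g0, q4, a1, a2, l1, l2, r⟩ := w
  have m0 := y0.trans yx
  have K0 : 0 ≤ K := zero_le_one.trans K1
  have e0 : 0 ≤ η / 2 := by positivity
  have k2 : 64 * K ^ 2 * δ ≤ (η / 2) ^ 2 := le_trans (by gcongr; norm_num) h2
  have k3 : 4 * K ^ 3 * δ ≤ (η / 2) ^ 2 := le_trans (by gcongr <;> norm_num) h2
  have k4 : 64 * K ^ 4 * δ ^ 2 ≤ (η / 2) ^ 2 := le_trans (by gcongr; nlinarith) h2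
  rw [← mul_pow] at a1 a2
  obtain ⟨c0, c1, c2, c3, c4, c5, c6⟩ := co
  generalize AA f c p * vv f c p = X at *
  have hA : ∀ {P Q : ℝ}, 0 ≤ P → 0 ≤ Q → X ^ 2 ≤ δ * P * Q → ∀ s t : ℝ,
      8 * K * X * s * t ≤ η / 2 / 2 * (P * s ^ 2 + Q * t ^ 2) := fun {P Q} hP hQ h => by
    refine amgm e0 hP hQ ?_
    have b1 := mul_le_mul_of_nonneg_left h (by positivity : 0 ≤ 64 * K ^ 2)
    have b2 := mul_le_mul_of_nonneg_right k2 (mul_nonneg hP hQ)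
    linarith
  have hL : ∀ {P Q : ℝ}, 0 ≤ P → 0 ≤ Q → X ≤ K * δ * P → X ≤ K * δ * Q → ∀ s t : ℝ,
      8 * K * X * s * t ≤ η / 2 / 2 * (P * s ^ 2 + Q * t ^ 2) := fun {P Q} hP hQ h h' => by
    refine amgm e0 hP hQ ?_
    have b1 := mul_le_mul_of_nonneg_left (mul_le_mul h h' X0 (X0.trans h))
      (by positivity : 0 ≤ 64 * K ^ 2)
    have b2 := mul_le_mul_of_nonneg_right k4 (mul_nonneg hP hQ)
    linarith
  have a3 : X ^ 2 ≤ δ * mx f c p * GY f c p := a2.trans (by gcongr)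
  have n1 := Real.sq_sqrt (n2_nonneg ζ)
  have n1' := Real.sq_sqrt (n2_nonneg ζ')
  have z1 := mul_nonneg η0.le (mul_nonneg m0 (n2_nonneg ζ))
  have z2 := mul_nonneg η0.le (mul_nonneg y0 (n2_nonneg ζ'))
  have z3 := mul_nonneg η0.le (mul_nonneg x0 (sq_nonneg g))
  have z4 := mul_nonneg η0.le (mul_nonneg g0 (sq_nonneg q))
  refine ⟨?_, fun a => ?_, r.trans (mul_le_mul_of_nonneg_right h1 g0)⟩
  · have t0 := amgm (x := 2 * cM f c p) e0 x0 g0 (by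
      have b0 := pow_le_pow_left₀ (abs_nonneg _) c0 2
      have b1 := mul_le_mul_of_nonneg_left q4 (sq_nonneg K)
      have b2 := mul_le_mul_of_nonneg_right k3 (mul_nonneg x0 g0)
      rw [sq_abs] at b0
      linarith) g q
    have t1 := hA y0 x0 a1 (√(n2 ζ')) |g|
    have t2 := hA m0 g0 a3 (√(n2 ζ)) |q|
    have t3 := (le_abs_self _).trans (abs_mul_le (le_refl |g|) (c1 ζ'))
    have t4 := (le_abs_self _).trans (abs_mul_le (le_refl |q|) (c2 ζ))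
    rw [sq_abs, n1'] at t1
    rw [sq_abs, n1] at t2
    unfold ZM
    linarith
  · have t1 := hA m0 g0 a3 (√(n2 ζ)) |q'|
    have t2 := hA y0 g0 a2 (√(n2 ζ')) |q'|
    have t3 := hL x0 g0 l1 l2 |g| |q'|
    have t4 := hL g0 g0 l2 l2 |q| |q'|
    have s1 := abs_le.1 (c3 a ζ)
    have s2 := abs_le.1 (c4 a ζ')
    have s3 := abs_le.1 (abs_mul_le (c5 a) (le_refl |g|))
    have s4 := abs_le.1 (abs_mul_le (c6 a) (le_refl |q|))
    have s5 : 0 ≤ K * X * |g| := by positivity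
    have s6 : 0 ≤ K * X * |q| := by positivity
    have hb : |BO f c p a g q ζ ζ'| ≤ 8 * K * X * (√(n2 ζ) + √(n2 ζ') + |g| + |q|) := by
      unfold BO
      rw [abs_le]
      constructor <;> linarith [s1.1, s1.2, s2.1, s2.2, s3.1, s3.2, s4.1, s4.2]
    have t5 := mul_le_mul_of_nonneg_right hb (abs_nonneg q')
    simp only [sq_abs, n1, n1'] at t1 t2 t3 t4
    linarith

end EBm

open EBm in
theorem s_EBm (h0 : S_w0) (h2 : S_w2) (h3 : S_w3) (h4 : S_w4) (h5 : S_w5) (hB : S_ccoB) :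
    S_EBm := by
  intro n ι f hf η η0
  obtain ⟨C₂, -, h2⟩ := h2 n ι f hf
  obtain ⟨C₃, c3, h3⟩ := h3 n ι f hf
  obtain ⟨C₄, -, h4⟩ := h4 n ι f hf
  obtain ⟨Cn, -, h5⟩ := h5 n
  obtain ⟨C₅, c5, h5⟩ := h5 ι f hf
  obtain ⟨K₀, k0, hK⟩ := coef hB n c3
  obtain ⟨K, K0, K3, K5⟩ : ∃ K, K₀ ≤ K ∧ C₃ ^ 2 ≤ K ∧ C₅ ^ 5 * (Cn * f.tau) ^ 2 ≤ K :=
    ⟨max K₀ (max _ _), le_max_left _ _, le_max_of_le_right (le_max_left _ _),
      le_max_of_le_right (le_max_right _ _)⟩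
  have K1 := k0.trans K0
  obtain ⟨δ, δ0, δ1, δ2, δ3⟩ : ∃ δ : ℝ, 0 < δ ∧ δ ≤ 1 ∧ 2 * δ ≤ η ∧
      64 * K ^ 4 * δ ≤ (η / 2) ^ 2 := by
    refine ⟨min 1 (min (η / 2) ((η / 2) ^ 2 / (64 * K ^ 4))), by positivity, min_le_left _ _,
      ?_, ?_⟩
    · linarith [(min_le_right 1 _).trans (min_le_left (η / 2) ((η / 2) ^ 2 / (64 * K ^ 4)))]
    · rw [mul_comm, ← le_div_iff₀ (by positivity)]
      exact (min_le_right _ _).trans (min_le_right _ _)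
  refine ((((((Ev.ok f one_pos 0).and (h0 n ι f hf)).and (h2 δ δ0)).and h3).and (h4 δ δ0)).and
    (h5 δ δ0)).mono ?_
  rintro c ⟨⟨⟨⟨⟨hc, w0⟩, w2⟩, w3⟩, w4⟩, w5⟩ p hp hN g q q' ζ ζ'
  obtain ⟨v1, hv, -⟩ := basic hc.2.1 w0 (w2 p hp) δ1
  exact fin (hK ι f c p 0 K hc w0.1.2.2.2.2.2.2.2.2.2.2.2.2.2.2.2.2.2.1 v1 hv (w3 p hp) K0)
    (wts hc.2.1 w0 (w2 p hp) (w3 p hp) (w4 p hp) (w5 p hp).1 (w5 p hp).2 hN δ0 δ1
      (zero_le_one.trans c3) K1 K3 K5) K1 δ0 δ1 η0 δ2 δ3 g q q' ζ ζ'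

end Vale.Agent.P088
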