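import Vale.Agent.P088.StP
import Vale.Agent.P088.SbAlg

/-!
# P088: the lower-order terms near the diagonal
-/

open MeasureTheory Set Metric
open scoped ContDiff Topology

noncomputable section
namespace Vale.Agent.P088
open Vale.Agent.P136 (D Dp Dm Sm Tst D_add_at D_const_mul_at D_congr)

namespace EBn
variable {n : ℕ}

lemma n2_nn (ζ : Fin n → ℝ) : 0 ≤ n2 ζ := Finset.sum_nonneg fun _ _ => sq_nonneg _

lemma n2_le {a : Fin n → ℝ} {A : ℝ} (h : ∀ i, a i ^ 2 ≤ A) : n2 a ≤ n * A := by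
  have := Finset.sum_le_sum (s := Finset.univ) fun i _ => h i
  simpa [n2] using this

lemma dot {a : Fin n → ℝ} {A : ℝ} (h : ∀ i, a i ^ 2 ≤ A) (b : Fin n → ℝ) :
    (∑ i, a i * b i) ^ 2 ≤ n * A * n2 b :=
  (Finset.sum_mul_sq_le_sq_mul_sq _ _ _).trans (mul_le_mul_of_nonneg_right (n2_le h) (n2_nn b))

lemma dd {a : Fin n → ℝ} {γ : Fin n → Fin n → ℝ} {H : ℝ} (h : ∀ i j, (a i * γ i j) ^ 2 ≤ H)
    (ζ : Fin n → ℝ) : (∑ i, a i * up γ ζ i) ^ 2 ≤ n ^ 3 * H * n2 ζ := by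
  have h1 : ∀ i, (a i * up γ ζ i) ^ 2 ≤ n * H * n2 ζ := fun i => by
    have := dot (h i) ζ
    simpa only [up, Finset.mul_sum, mul_assoc] using this
  have h2 := dot h1 fun _ => 1
  have h3 : n2 (fun _ : Fin n => (1 : ℝ)) = n := by simp [n2]
  simp only [mul_one, h3] at h2
  exact h2.trans (le_of_eq (by ring))

lemma am {P X Y ε : ℝ} (h : P ^ 2 ≤ X * Y) (hX : 0 ≤ X) (hY : 0 ≤ Y) (hε : 0 < ε) :
    8 * |P| ≤ ε * X + 16 / ε * Y := by
  refine abs_le_of_sq_le_sq' ?_ (by positivity) |>.2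
  have e : ε * X * (16 / ε * Y) = 16 * (X * Y) := by field_simp
  nlinarith [sq_nonneg (ε * X - 16 / ε * Y), sq_abs P]

lemma p1 {cX cY cM g q α nl E V K η m T1 T2 T3 T4 U1 U2 U3 U4 : ℝ} (hη : 0 < η) (hm : 1 ≤ m)
    (hK : 0 ≤ K) (hnl : 0 ≤ nl) (hE : 0 ≤ E) (hV : 0 ≤ V)
    (h1 : |cX - 2 * cM + cY| ≤ K * nl) (h2 : (cM - cY) ^ 2 ≤ K * (α ^ 2 * nl))
    (h3 : cY ≤ 8 * m * (1 + η / 2) * α ^ 2) (t1 : T1 ^ 2 ≤ K * (E * nl))
    (t2 : T2 ^ 2 ≤ K * (V * nl)) (t3 : T3 ^ 2 ≤ K * (V * nl)) (t4 : T4 ^ 2 ≤ K * (α ^ 2 * V))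
    (u1 : U1 ^ 2 ≤ K * V) (u2 : U2 ^ 2 ≤ K * nl) (u3 : U3 ^ 2 ≤ K * V) (u4 : U4 ^ 2 ≤ K * nl)
    (hs : 512 * K * nl ≤ η * α ^ 2) :
    cX * g ^ 2 + cY * q ^ 2 + 2 * cM * g * q + 8 * g * (T1 + T2 + T3) + 8 * (g + q) * T4 +
      256 * (U1 ^ 2 + U2 ^ 2 * g ^ 2 + U3 ^ 2 + U4 ^ 2 * q ^ 2) ≤
      8 * m * (1 + η) * (α ^ 2 * (g + q) ^ 2) + η * E +
        (2 + 1000 * K + 32 / η * K) * (nl * g ^ 2 + V) := by
  have hg := sq_nonneg g
  have hr := sq_nonneg (g + q)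
  have a1 := mul_le_mul_of_nonneg_right ((le_abs_self _).trans h1) hg
  have a2 := le_abs_self ((cM - cY) * g * (g + q))
  have a2' := am (P := (cM - cY) * g * (g + q)) (X := α ^ 2 * (g + q) ^ 2) (Y := K * (nl * g ^ 2))
    (by linarith only [mul_le_mul_of_nonneg_right h2 (mul_nonneg hg hr)]) (by positivity)
    (by positivity) hη
  have a3 := mul_le_mul_of_nonneg_right h3 hr
  have b1 := am (P := g * T1) (X := E) (Y := K * (nl * g ^ 2))
    (by linarith only [mul_le_mul_of_nonneg_right t1 hg]) hE (by positivity) hη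
  have b2 := am (P := g * T2) (X := V) (Y := K * (nl * g ^ 2))
    (by linarith only [mul_le_mul_of_nonneg_right t2 hg]) hV (by positivity) one_pos
  have b3 := am (P := g * T3) (X := V) (Y := K * (nl * g ^ 2))
    (by linarith only [mul_le_mul_of_nonneg_right t3 hg]) hV (by positivity) one_pos
  have b4 := am (P := (g + q) * T4) (X := α ^ 2 * (g + q) ^ 2) (Y := K * V)
    (by linarith only [mul_le_mul_of_nonneg_right t4 hr]) (by positivity) (by positivity) hη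
  have c2 := mul_le_mul_of_nonneg_right u2 hg
  have c4 := mul_le_mul u4 (show q ^ 2 ≤ 2 * (g + q) ^ 2 + 2 * g ^ 2 by
    nlinarith [sq_nonneg (2 * g + q)]) (sq_nonneg _) (by positivity)
  have c5 := mul_le_mul_of_nonneg_right hs hr
  have d1 := mul_le_mul_of_nonneg_right hm (show 0 ≤ η * (α ^ 2 * (g + q) ^ 2) by positivity)
  have d2 : 0 ≤ η * (α ^ 2 * (g + q) ^ 2) := by positivity
  have d3 : 0 ≤ K * (nl * g ^ 2) := by positivity
  have d4 : 0 ≤ K * V := by positivity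
  have d5 : 0 ≤ nl * g ^ 2 := by positivity
  have d6 : 0 ≤ 16 / η * (K * V) := by positivity
  have e1 := le_abs_self (g * T1)
  have e2 := le_abs_self (g * T2)
  have e3 := le_abs_self (g * T3)
  have e4 := le_abs_self ((g + q) * T4)
  have e5 := abs_nonneg ((cM - cY) * g * (g + q))
  have e6 : 32 / η * K = 2 * (16 / η * K) := by ring
  rw [e6]
  linarith

lemma p2 {g q q' nl E V K η S1 S2 S3 θ θ' : ℝ} (hη : 0 < η) (hK : 0 ≤ K) (hnl : 0 ≤ nl)
    (hE : 0 ≤ E) (hV : 0 ≤ V) (s1 : S1 ^ 2 ≤ K * (E * nl)) (s2 : S2 ^ 2 ≤ K * (V * nl))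
    (s3 : S3 ^ 2 ≤ K * (V * nl)) (h : |θ| ≤ K * nl) (h' : |θ'| ≤ K * nl) :
    |8 * (S1 + S2 + S3) - 4 * θ * g - 4 * θ' * q| * |q'| ≤
      η * E + (2 + 1000 * K + 32 / η * K) * (nl * (g ^ 2 + q ^ 2 + q' ^ 2) + V) := by
  have hq := sq_nonneg q'
  have b1 := am (P := q' * S1) (X := E) (Y := K * (nl * q' ^ 2))
    (by linarith only [mul_le_mul_of_nonneg_right s1 hq]) hE (by positivity) hη
  have b2 := am (P := q' * S2) (X := V) (Y := K * (nl * q' ^ 2))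
    (by linarith only [mul_le_mul_of_nonneg_right s2 hq]) hV (by positivity) one_pos
  have b3 := am (P := q' * S3) (X := V) (Y := K * (nl * q' ^ 2))
    (by linarith only [mul_le_mul_of_nonneg_right s3 hq]) hV (by positivity) one_pos
  have c : ∀ {t x : ℝ}, |t| ≤ K * nl → 2 * |t * x * q'| ≤ K * nl * (x ^ 2 + q' ^ 2) := by
    intro t x ht
    rw [mul_assoc, abs_mul, abs_mul, mul_left_comm]
    exact mul_le_mul ht (by nlinarith [sq_nonneg (|x| - |q'|), sq_abs x, sq_abs q'])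
      (by positivity) (by positivity)
  have c1 := c (x := g) h
  have c2 := c (x := q) h'
  have d1 : 0 ≤ K * (nl * g ^ 2) := by positivity
  have d2 : 0 ≤ K * (nl * q ^ 2) := by positivity
  have d3 : 0 ≤ K * (nl * q' ^ 2) := by positivity
  have d4 : 0 ≤ K * V := by positivity
  have d5 : 0 ≤ nl * (g ^ 2 + q ^ 2 + q' ^ 2) := by positivity
  have d6 : 0 ≤ 16 / η * (K * (nl * (2 * g ^ 2 + 2 * q ^ 2 + q' ^ 2) + 2 * V)) := by positivity
  have e6 : 32 / η * K = 2 * (16 / η * K) := by ring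
  rw [e6, ← abs_mul, abs_le]
  have f1 := abs_le.1 (le_refl |q' * S1|)
  have f2 := abs_le.1 (le_refl |q' * S2|)
  have f3 := abs_le.1 (le_refl |q' * S3|)
  have f4 := abs_le.1 (le_refl |θ * g * q'|)
  have f5 := abs_le.1 (le_refl |θ' * q * q'|)
  constructor <;> linarith [f1.1, f1.2, f2.1, f2.2, f3.1, f3.2, f4.1, f4.2, f5.1, f5.2]

/-- The scalar sizes. -/
lemma sc {a L v Q F σ C η : ℝ} (ha : 0 < a) (hL : 1 ≤ L) (hv : 1 ≤ v) (hQ : 0 ≤ Q) (hF : 0 < F)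
    (h2 : 2 ≤ σ) (h3 : σ ≤ 2 + η) (hη : η ≤ 1 / 2) (hLa : L ^ 20 ≤ η * a)
    (hα : |F * σ - a| ≤ η * a) (hvL : v ≤ C * L) (hC : 1 ≤ C) :
    1 ≤ a * L ^ 2 * (1 + Q * F) ∧
    v ^ 2 * (F * σ * √Q + v) ^ 2 ≤ 14 * C ^ 4 * (a * L ^ 2 * (1 + Q * F)) ∧
    F * σ * v ^ 2 * (1 + Q * F) ≤ 2 * C ^ 2 * (a * L ^ 2 * (1 + Q * F)) ∧
    (F * σ) ^ 2 * (√Q + 1 / a ^ 2) ^ 2 ≤ 20 * (a * L ^ 2 * (1 + Q * F)) := by
  have hP : 0 ≤ Q * F := by positivity
  have hL2 : 1 ≤ L ^ 2 := one_le_pow₀ hL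
  have haL : L ^ 2 ≤ a := by
    have := pow_le_pow_right₀ hL (show 2 ≤ 20 by norm_num)
    nlinarith
  have ha1 : 1 ≤ a := hL2.trans haL
  have hα2 : F * σ ≤ 2 * a := by have := (abs_le.1 hα).2; nlinarith
  have hz : (F * σ * √Q) ^ 2 ≤ 6 * (a * (Q * F)) := by
    rw [mul_pow, Real.sq_sqrt hQ]
    have := mul_le_mul hα2 (show σ ≤ 3 by linarith) (by linarith) (by positivity)
    nlinarith [mul_le_mul_of_nonneg_right this hP]
  have hv2 : v ^ 2 ≤ C ^ 2 * L ^ 2 := by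
    rw [← mul_pow]; exact pow_le_pow_left₀ (by linarith) hvL 2
  have hC2 : 1 ≤ C ^ 2 := one_le_pow₀ hC
  have haa : 1 ≤ a * L ^ 2 := one_le_mul_of_one_le_of_one_le ha1 hL2
  refine ⟨one_le_mul_of_one_le_of_one_le haa (by linarith), ?_, ?_, ?_⟩
  · have e1 : (F * σ * √Q + v) ^ 2 ≤ 12 * C ^ 2 * (a * (1 + Q * F)) := by
      have f1 : v ^ 2 ≤ C ^ 2 * a := hv2.trans (by gcongr)
      have f2 := mul_le_mul_of_nonneg_right hC2 (show 0 ≤ a * (Q * F) by positivity)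
      have f3 : 0 ≤ C ^ 2 * a := by positivity
      nlinarith [sq_nonneg (F * σ * √Q - v)]
    have e2 := mul_le_mul hv2 e1 (sq_nonneg _) (by positivity)
    have e3 : 0 ≤ C ^ 4 * (a * L ^ 2 * (1 + Q * F)) := by positivity
    nlinarith
  · have := mul_le_mul_of_nonneg_right (mul_le_mul hα2 hv2 (sq_nonneg _) (by positivity))
      (show 0 ≤ 1 + Q * F by positivity)
    linarith
  · have e1 : F * σ * (1 / a ^ 2) ≤ 2 := by
      rw [mul_one_div, div_le_iff₀ (by positivity)]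
      nlinarith
    have e2 : (F * σ * (1 / a ^ 2)) ^ 2 ≤ 2 ^ 2 := pow_le_pow_left₀ (by positivity) e1 2
    have e3 := mul_le_mul_of_nonneg_left hL2 (show 0 ≤ a * (Q * F) by positivity)
    have e4 : 0 ≤ a * (Q * F) * L ^ 2 := by positivity
    nlinarith [sq_nonneg (F * σ * √Q - F * σ * (1 / a ^ 2))]

lemma sb0 {X κ : Type} [NormedAddCommGroup X] [NormedSpace ℝ X] {v : κ → X} {k : ℕ} {w L : ℝ}
    {f : X → ℝ} {p : X} (h : SB v k w L f p) : |f p| ≤ w := by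
  simpa [Ds] using h [] (Nat.zero_le _)

lemma sb_ey {k : ℕ} {w L : ℝ} {f : X2 n → ℝ} {p : X2 n} (h : SB exy k w L f p) :
    SB ey k w L f p := fun l hl => by
  have e : ∀ l : List (Fin n), Ds exy (l.map Sum.inr) f = Ds ey l f := fun l => by
    induction l with
    | nil => rfl
    | cons i l ih => rw [List.map_cons, SbAlg.Ds_cons, ih]; rfl
  have := h (l.map Sum.inr) (by simpa using hl)
  rwa [e, List.length_map] at this

lemma near2 {γ : MatF n} (h : Near 8 1 γ) (i j : Fin n) (x : En n) : |γ i j x| ≤ 2 := by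
  have := abs_le.1 (sb0 (h i j x))
  rw [abs_le]
  split_ifs at this <;> constructor <;> linarith [this.1, this.2]

lemma sq4 {x : ℝ} (h : |x| ≤ 2) : x ^ 2 ≤ 4 := by
  have := pow_le_pow_left₀ (abs_nonneg x) h 2
  rw [sq_abs] at this
  linarith

lemma sb_onY {γ : MatF n} (hs : SmM γ) (h : Near 8 1 γ) (i j : Fin n) (p : X2 n) {v : ℝ}
    (hv : 1 ≤ v) : SB ey 1 2 v (onY γ i j) p := fun l hl => by
  match l, hl with
  | [], _ => simpa [Ds, onY] using near2 h i j p.2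
  | [k], _ =>
    have h1 := h i j p.2 [k] (by simp)
    have e : D (ey k) (onY γ i j) p = D (ee k) (γ i j) p.2 := by
      have := ((hs i j).dAt p.2).hasFDerivAt.comp p (hasFDerivAt_snd (𝕜 := ℝ) (p := p))
      simp only [D]
      rw [show onY γ i j = γ i j ∘ Prod.snd from rfl, this.fderiv]
      simp [ey]
    simp only [Ds, List.foldr, D, fderiv_sub_const, List.length_singleton, pow_one,
      mul_one] at h1 e ⊢
    rw [e]
    linarith

lemma tht_bd {γ : MatF n} (hs : SmM γ) (hs' : SmM (onY γ)) (h : Near 8 1 γ) {φ : X2 n → ℝ}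
    (hφ : Sm φ) {p : X2 n} {v w : ℝ} (hv : 1 ≤ v) (a : Fin n)
    (hb : ∀ j, SB exy 4 w v (D (ey j) (D (ey a) φ)) p) :
    |tht ey ey (onY γ) φ a p| ≤ 4 * n ^ 2 * w * v := by
  have h1 : ∀ i, |D (ey i) (XX ey (onY γ) (D (ey a) φ) i) p| ≤ n * (4 * w) * v := fun i => by
    have := SbAlg.sum (v := ey) (k := 1) (p := p) (zero_le_one.trans hv) Finset.univ
      (fun j q => onY γ i j q * D (ey j) (D (ey a) φ) q) (fun _ => 2 ^ 1 * 2 * w)
      (fun j _ => ((hs' i j).mul ((hφ.D _).D _)).contDiffAt) fun j _ =>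
        SbAlg.mul (zero_le_one.trans hv) (hs' i j).contDiffAt ((hφ.D _).D _).contDiffAt
          (sb_onY hs h i j p hv) (SbAlg.mono (zero_le_one.trans hv) (sb_ey (hb j)) (by norm_num)
            le_rfl le_rfl)
    have := this [i] le_rfl
    simp only [Finset.sum_const, Finset.card_univ, Fintype.card_fin, nsmul_eq_mul,
      List.length_singleton, pow_one] at this
    exact this.trans (le_of_eq (by ring))
  refine (Finset.abs_sum_le_sum_abs _ Finset.univ).trans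
    ((Finset.sum_le_sum fun i _ => h1 i).trans ?_)
  simp only [Finset.sum_const, Finset.card_univ, Fintype.card_fin, nsmul_eq_mul]
  exact le_of_eq (by ring)

lemma mix_eq {φ Ψ l : X2 n → ℝ} {p : X2 n} {c : ℝ} (hΨ : Sm Ψ) (hl : Sm l)
    (e : φ =ᶠ[𝓝 p] fun q => Ψ q + c * l q) (u w w' : X2 n) :
    D u (D w φ) p + D u (D w' φ) p =
      D u (D (w + w') Ψ) p + c * (D u (D w l) p + D u (D w' l) p) := by
  have h1 : ∀ w, D u (D w φ) p = D u (D w Ψ) p + c * D u (D w l) p := fun w => by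
    rw [D_congr (SbAlg.D_ev e w), show D w (fun q => Ψ q + c * l q) =
      fun q => D w Ψ q + c * D w l q from funext fun q => by
        rw [D_add_at (hΨ.dAt q) ((hl.cmul c).dAt q), D_const_mul_at (hl.dAt q)],
      D_add_at ((hΨ.D w).dAt p) (((hl.D w).cmul c).dAt p), D_const_mul_at ((hl.D w).dAt p)]
  rw [h1, h1, show D (w + w') Ψ = fun q => D w Ψ q + D w' Ψ q from funext fun q => by simp [D],
    D_add_at ((hΨ.D w).dAt p) ((hΨ.D w').dAt p)]
  ring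

lemma sqle {x y : ℝ} (h : |x| ≤ y) : x ^ 2 ≤ y ^ 2 := by
  have := pow_le_pow_left₀ (abs_nonneg x) h 2
  rwa [sq_abs] at this

variable {ι : Type} {f : Fx} {c : Cx n ι} {p : X2 n} {C η : ℝ}

/-- The pointwise sizes near the diagonal. -/
def Fa (f : Fx) (c : Cx n ι) (p : X2 n) (C η : ℝ) : Prop :=
  1 ≤ vv f c p ∧ 0 < al f c p ∧ 0 ≤ Psi f c p ∧ 1 ≤ nl f c p ∧ nl f c p ≤ η * al f c p ^ 2 ∧
  vv f c p ^ 2 * (z0 f c p + vv f c p) ^ 2 ≤ 14 * C ^ 4 * nl f c p ∧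
  al f c p * vv f c p ^ 2 * (1 + Psi f c p) ≤ 2 * C ^ 2 * nl f c p ∧
  (∀ i j, g1 c p i j ^ 2 ≤ 4 ∧ g2 c p i j ^ 2 ≤ 4 ∧
    al f c p ^ 2 * (g2 c p i j - g1 c p i j) ^ 2 ≤ 20 * nl f c p) ∧
  (∀ i, Px f c i p ^ 2 ≤ 4 * n ^ 2 * C ^ 2 * vv f c p ^ 2 ∧
    Py f c i p ^ 2 ≤ 4 * n ^ 2 * C ^ 2 * vv f c p ^ 2 ∧
    D (ex i) (phi f c) p ^ 2 ≤ C ^ 2 * (z0 f c p + vv f c p) ^ 2 ∧
    D (ey i) (phi f c) p ^ 2 ≤ C ^ 2 * (z0 f c p + vv f c p) ^ 2) ∧
  (∀ a i, D (ey a) (D (ey i) (phi f c)) p ^ 2 ≤ 9 * C ^ 2 * al f c p ^ 2 ∧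
    (D (ey a) (D (ex i) (phi f c)) p + D (ey a) (D (ey i) (phi f c)) p) ^ 2 ≤
      4 * C ^ 4 * (vv f c p ^ 2 * (z0 f c p + vv f c p) ^ 2)) ∧
  (∀ a, |tht ey ey (onY c.γ₂) (phi f c) a p| ≤ 12 * n ^ 2 * C * (al f c p * vv f c p)) ∧
  ∀ ζ, bil (g1 c p) ζ ζ ≤ 2 * n2 ζ ∧ bil (g2 c p) ζ ζ ≤ 2 * n2 ζ ∧ n2 ζ / 2 ≤ bil (gm c p) ζ ζ

lemma facts {Cq C1 C2 C3 : ℝ} (hf : f.Ok) (hc : c.Ok f 1 1) (h0 : W0 f c) (hq : WQ c Cq η p)
    (h1 : W1 f c C1 p) (h2 : W2 f c C2 η p) (h3 : W3 f c C3 p) (hD : p ∈ Dom f c)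
    (hN : p ∈ Nr f c 16) (hη0 : 0 < η) (hη : η ≤ 1 / 2) (hC : 1 ≤ C) (hCq : Cq ≤ C)
    (hC1 : C1 ≤ C) (hC2 : C2 ≤ C) (hC3 : C3 ≤ C) (hCw : f.Cw ≤ C) : Fa f c p C η := by
  obtain ⟨⟨-, -, -, -, -, -, -, -, -, sΨ, -, -, sl, -, -, -, -, sφ, hs⟩, hx, hp, -, he⟩ := h0
  have sY : SmM (onY c.γ₂) := hs.2.2.2.2.2.2.2.2.2.2.2.2.2.2.2.2.2.2.2.2.2.2.2.2.2.1
  obtain ⟨ha, hL, -⟩ := hx p.1
  obtain ⟨hQ, -, hF, hv, hσ, -, -, hvp, hvp', -, -, -, -, -, -, -, -, hb⟩ := hp p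
  obtain ⟨-, hL0, -, -, -, -, -, n1, s2, -, n2', -⟩ := hc
  obtain ⟨-, hLa, -, -, -, -, -, -, -, -, -, -, hn, -⟩ := h2
  obtain ⟨-, -, hα, -, hσ', hvL, -, hQt, hnl, -⟩ := hn hN
  obtain ⟨eφ, efp⟩ := (he p).1 hQt
  have eS : St f c p = 0 := ((he p).2.1 (by linarith only [hQt, sq_nonneg f.t0])).1.eq_of_nhds
  replace hQ : 0 ≤ QQ c p := le_trans (by positivity) hQ
  replace hL := hL0.trans hL
  replace hv := hL0.trans hv
  have hC0 : 0 ≤ C := zero_le_one.trans hC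
  have hz : 0 ≤ z0 f c p := by unfold z0 al; positivity
  have hal : 0 < al f c p := by unfold al; positivity
  obtain ⟨a0, a1, a2, a3⟩ := sc ha hL hv hQ hF hσ hσ' hη hLa hα
    (hvL.trans (by gcongr)) hC
  have hA : AA f c p ≤ 3 * al f c p := by
    have := mul_le_mul_of_nonneg_left (show sig f c p ≤ 3 by linarith only [hσ', hη]) hal.le
    unfold AA; unfold al at this ⊢; linarith only [this]
  have hA0 : 0 ≤ AA f c p := by unfold AA; positivity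
  have hCA : C3 * AA f c p ≤ 3 * C * al f c p :=
    (mul_le_mul hC3 hA hA0 hC0).trans (le_of_eq (by ring))
  have hP : ∀ {γ : Fin n → Fin n → ℝ}, (∀ i j, γ i j ^ 2 ≤ 4) → ∀ i,
      up γ (fun i => vp f c p * mv p i) i ^ 2 ≤ 4 * n ^ 2 * C ^ 2 * vv f c p ^ 2 := by
    intro γ hγ i
    have e1 : ∀ i, (vp f c p * mv p i) ^ 2 ≤ (vv f c p * C) ^ 2 := fun i => sqle (by
      rw [abs_mul, abs_of_nonneg hvp]
      exact mul_le_mul (by linarith only [hvp', mul_le_mul_of_nonneg_left hσ hvp])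
        ((sb0 (hq.2.2.2.1 i).2.2.1).trans hCq) (abs_nonneg _) (zero_le_one.trans hv))
    refine (dot (hγ i) _).trans ((mul_le_mul_of_nonneg_left (n2_le e1) (by positivity)).trans
      (le_of_eq (by ring)))
  have g1b : ∀ i j, g1 c p i j ^ 2 ≤ 4 := fun i j => sq4 (near2 n1 i j _)
  have g2b : ∀ i j, g2 c p i j ^ 2 ≤ 4 := fun i j => sq4 (near2 n2' i j _)
  refine ⟨hv, hal, by unfold Psi; positivity, a0, hnl, a1, a2, fun i j => ⟨g1b i j, g2b i j, ?_⟩,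
    fun i => ⟨?_, ?_, ?_, ?_⟩, fun a i => ⟨?_, ?_⟩, fun a => ?_,
    fun ζ => ⟨(hb ζ).2.1, (hb ζ).2.2.2.1, (hb ζ).2.2.2.2.1⟩⟩
  · refine le_trans (mul_le_mul_of_nonneg_left (sqle ?_) (sq_nonneg _)) a3
    obtain ⟨-, -, e1, e2⟩ := hq.2.2.2.2.1 i j
    have e3 := sb0 (hD.2 i j)
    have e4 := mul_le_mul_of_nonneg_right hη (Real.sqrt_nonneg (QQ c p))
    rw [abs_le] at e1 e2 e3 ⊢
    unfold g1
    constructor <;> linarith only [e1.1, e1.2, e2.1, e2.2, e3.1, e3.2, e4]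
  · have : pcx f c p = fun i => vp f c p * mv p i := funext fun i => by simp [pcx, sx, eS]
    rw [Px, this]
    exact hP g1b i
  · have : pcy f c p = fun i => vp f c p * mv p i := funext fun i => by simp [pcy, sy, eS]
    rw [Py, this]
    exact hP g2b i
  · rw [← mul_pow]
    refine sqle ((h3.2.2.1 i).1.trans ?_)
    rw [efp, add_zero]
    gcongr
  · rw [← mul_pow]
    exact sqle ((h3.2.2.1 i).2.trans (by gcongr))
  · exact (sqle ((sb0 (h3.2.1 a (.inr i))).trans hCA)).trans (le_of_eq (by ring))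
  · rw [mix_eq sΨ sl eφ]
    obtain ⟨-, -, -, -, -, -, l1, -, -, -, -, -, -, -, l2⟩ := h1
    have e1 : |D (ey a) (D (ex i + ey i) (Psi f c)) p| ≤ _ := ((l2 i).2 (.inr a)).1
    have e2 : |D (ey a) (D (ex i) (lu f c)) p| ≤ C1 * vv f c p ^ 2 :=
      l1 [.inr a, .inl i] (by simp) (by simp)
    have e3 : |D (ey a) (D (ey i) (lu f c)) p| ≤ C1 * vv f c p ^ 2 :=
      l1 [.inr a, .inr i] (by simp) (by simp)
    have hw : 1 ≤ f.Cw := hf.2.2.2.2.2.2.2.2.2.2.2.1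
    refine (sqle (y := 2 * C ^ 2 * (vv f c p * (z0 f c p + vv f c p))) ?_).trans
      (le_of_eq (by ring))
    have e4 : C1 * z0 f c p * vv f c p ≤ 2 * C ^ 2 * z0 f c p * vv f c p := by
      gcongr
      nlinarith only [hC, hC1]
    have e5 : C1 * vv f c p ^ 2 ≤ C * vv f c p ^ 2 := by gcongr
    refine (abs_add_le _ _).trans ?_
    rw [abs_mul, abs_of_nonneg (zero_le_one.trans hw)]
    have e6 := mul_le_mul hCw ((abs_add_le _ _).trans (add_le_add (e2.trans e5) (e3.trans e5)))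
      (abs_nonneg _) hC0
    linarith only [e1, e4, e6]
  · refine (tht_bd s2 sY n2' sφ hv a fun j => h3.2.1 j (.inr a)).trans ?_
    have := mul_le_mul_of_nonneg_left hCA (show 0 ≤ 4 * (n : ℝ) ^ 2 * vv f c p by positivity)
    linarith only [this]

lemma up_add (γ : Fin n → Fin n → ℝ) (γ' : Fin n → Fin n → ℝ) (ζ ζ' : Fin n → ℝ) (i : Fin n) :
    up γ' ζ' i = up γ' (ζ' - ζ) i + up γ ζ i + up (fun i j => γ' i j - γ i j) ζ i := by
  simp only [up, ← Finset.sum_add_distrib, Pi.sub_apply]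
  exact Finset.sum_congr rfl fun _ _ => by ring

lemma rho_eq (v : Fin n → X2 n) (γ : Fin n → Fin n → X2 n → ℝ) (φ : X2 n → ℝ) (p : X2 n) :
    rho v γ φ p = bil (fun i j => γ i j p) (fun i => D (v i) φ p) fun i => D (v i) φ p := by
  simp only [rho, dir, XX, bil, Finset.sum_mul]
  exact Finset.sum_congr rfl fun _ _ => Finset.sum_congr rfl fun _ _ => by ring

lemma main {K N e : ℝ} (h : Fa f c p C η) (hC : 1 ≤ C) (hN : 1 ≤ N) (he : 0 < e)
    (hK : ∀ (a : ℝ) (i j : ℕ), 0 ≤ a → a ≤ 224 → i ≤ 4 → j ≤ 8 → a * n ^ i * C ^ j ≤ K)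
    (hη : 512 * K * η ≤ e)
    (c1 : |cX f c p - 2 * cM f c p + cY f c p| ≤ C * nl f c p)
    (c2 : (cM f c p - cY f c p) ^ 2 ≤ C * al f c p ^ 2 * nl f c p)
    (c3 : cY f c p ≤ 8 * n * (1 + e / 2) * al f c p ^ 2)
    (c4 : ∀ a, |thx f c a p| ≤ C * al f c p * vv f c p ∧ |thy f c a p| ≤ C * al f c p * vv f c p ∧
      (thx f c a p - thy f c a p) ^ 2 ≤ C * vv f c p ^ 2 * nl f c p)
    (g q q' : ℝ) (ζ ζ' : Fin n → ℝ) :
    ZO f c p g q ζ ζ' ≤ 8 * n * (1 + e) * (al f c p ^ 2 * (g + q) ^ 2) +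
      e * (rh f c N p * al f c p * gV c p ζ ζ') +
      (2 + 1000 * K + 32 / e * K) * (nl f c p * g ^ 2 + vv f c p ^ 2 * (n2 ζ + n2 ζ')) ∧
    (∀ a, |BO f c p a g q ζ ζ'| * |q'| ≤ e * (rh f c N p * al f c p * gV c p ζ ζ') +
      (2 + 1000 * K + 32 / e * K) *
        (nl f c p * (g ^ 2 + q ^ 2 + q' ^ 2) + vv f c p ^ 2 * (n2 ζ + n2 ζ'))) ∧
    ry f c p + 1 ≤ (2 + 1000 * K + 32 / e * K) * nl f c p ∧
    rx f c p + 1 ≤ (2 + 1000 * K + 32 / e * K) * nl f c p := by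
  obtain ⟨hv, hal, hΨ, hnl, hnη, s1, s2, hg, hP, hφ, hθ, hb⟩ := h
  have hC0 : 0 ≤ C := zero_le_one.trans hC
  have hv0 : 0 ≤ vv f c p := zero_le_one.trans hv
  have hn0 : 0 ≤ nl f c p := zero_le_one.trans hnl
  have hv2 : 1 ≤ vv f c p ^ 2 := one_le_pow₀ hv
  have hK0 : 0 ≤ K := by simpa using hK 0 0 0 le_rfl (by norm_num) (by norm_num) (by norm_num)
  have kk : ∀ {T R : ℝ} (a : ℝ) (i j : ℕ), T ≤ a * n ^ i * C ^ j * R → 0 ≤ R → 0 ≤ a → a ≤ 224 →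
      i ≤ 4 → j ≤ 8 → T ≤ K * R := fun a i j h1 h2 h3 h4 h5 h6 =>
    h1.trans (mul_le_mul_of_nonneg_right (hK a i j h3 h4 h5 h6) h2)
  have hz := n2_nn ζ
  have hz' := n2_nn ζ'
  have hw := n2_nn (ζ' - ζ)
  have hgV : n2 (ζ' - ζ) / 2 ≤ gV c p ζ ζ' := (hb _).2.2
  have hgV0 : 0 ≤ gV c p ζ ζ' := le_trans (by positivity) hgV
  have hrh0 : 0 ≤ rh f c N p := by unfold rh; positivity
  have hrh : 1 ≤ rh f c N p * (1 + Psi f c p) := by
    have hN2 : 1 ≤ N ^ 2 := one_le_pow₀ hN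
    rw [rh, div_mul_eq_mul_div, le_div_iff₀ (by positivity)]
    linarith only [mul_le_mul_of_nonneg_right hN2 hΨ]
  set E := rh f c N p * al f c p * gV c p ζ ζ' with hE
  set V := vv f c p ^ 2 * (n2 ζ + n2 ζ') with hV
  have hE0 : 0 ≤ E := by positivity
  have hV0 : 0 ≤ V := by positivity
  have hVz : vv f c p ^ 2 * n2 ζ ≤ V := by rw [hV]; gcongr; linarith only [hz']
  have hVz' : vv f c p ^ 2 * n2 ζ' ≤ V := by rw [hV]; gcongr; linarith only [hz]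
  have hEw : al f c p ^ 2 * vv f c p ^ 2 * n2 (ζ' - ζ) ≤ 4 * C ^ 2 * (E * nl f c p) := by
    have e1 := mul_le_mul_of_nonneg_left s2 hE0
    have e2 := mul_le_mul_of_nonneg_left hrh
      (show 0 ≤ al f c p ^ 2 * vv f c p ^ 2 * gV c p ζ ζ' by positivity)
    have e3 := mul_le_mul_of_nonneg_left hgV (show 0 ≤ al f c p ^ 2 * vv f c p ^ 2 by positivity)
    rw [hE] at e1 ⊢
    linarith only [e1, e2, e3]
  have s1' : (z0 f c p + vv f c p) ^ 2 ≤ 14 * C ^ 4 * nl f c p :=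
    (le_mul_of_one_le_left (sq_nonneg _) hv2).trans s1
  have s2' : al f c p * vv f c p ≤ 2 * C ^ 2 * nl f c p := by
    refine le_trans ?_ s2
    rw [mul_assoc]
    gcongr
    nlinarith only [hv, mul_nonneg (sq_nonneg (vv f c p)) hΨ]
  have hn3 : 0 ≤ (n : ℝ) ^ 3 := by positivity
  have mm : ∀ {x y a b : ℝ}, x ^ 2 ≤ a → y ^ 2 ≤ b → (x * y) ^ 2 ≤ a * b := fun h1 h2 => by
    rw [mul_pow]; exact mul_le_mul h1 h2 (sq_nonneg _) ((sq_nonneg _).trans h1)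
  have hr : ∀ {γ : Fin n → Fin n → ℝ} {d : Fin n → ℝ}, bil γ d d ≤ 2 * n2 d →
      (∀ i, d i ^ 2 ≤ C ^ 2 * (z0 f c p + vv f c p) ^ 2) →
      bil γ d d + 1 ≤ (2 + 1000 * K + 32 / e * K) * nl f c p := by
    intro γ d h1 h2
    have e1 := kk (T := bil γ d d) (R := nl f c p) 28 1 6 (by
      have := mul_le_mul_of_nonneg_left s1' (show 0 ≤ 2 * n * C ^ 2 by positivity)
      linarith only [this, h1, n2_le h2]) hn0 (by norm_num) (by norm_num) (by norm_num)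
      (by norm_num)
    have e2 : 0 ≤ 32 / e * K * nl f c p := by positivity
    linarith only [e1, e2, hnl, mul_nonneg hK0 hn0]
  refine ⟨?_, fun a => ?_, by rw [ry, rho_eq]; exact hr (hb _).2.1 fun i => (hP i).2.2.2,
    by rw [rx, rho_eq]; exact hr (hb _).1 fun i => (hP i).2.2.1⟩
  · rcases Nat.eq_zero_or_pos n with rfl | hn
    · have : ZO f c p g q ζ ζ' = 0 := by simp [ZO, cX, cY, cM, cco, cmx, dvg, dir, dgd]
      rw [this]
      positivity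
    have u1 : ∀ {P ξ : Fin n → ℝ}, (∀ i, P i ^ 2 ≤ 4 * n ^ 2 * C ^ 2 * vv f c p ^ 2) →
        vv f c p ^ 2 * n2 ξ ≤ V → (∑ i, P i * ξ i) ^ 2 ≤ K * V := fun {P ξ} h1 h2 =>
      kk 4 3 2 (by
        have := mul_le_mul_of_nonneg_left h2 (show 0 ≤ 4 * (n : ℝ) ^ 3 * C ^ 2 by positivity)
        linarith only [this, dot h1 ξ]) hV0 (by norm_num) (by norm_num) (by norm_num) (by norm_num)
    have u2 : ∀ {P d : Fin n → ℝ}, (∀ i, P i ^ 2 ≤ 4 * n ^ 2 * C ^ 2 * vv f c p ^ 2) →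
        (∀ i, d i ^ 2 ≤ C ^ 2 * (z0 f c p + vv f c p) ^ 2) →
        (∑ i, P i * d i) ^ 2 ≤ K * nl f c p := fun {P d} h1 h2 =>
      kk 56 4 8 (by
        have e1 := mul_le_mul_of_nonneg_left (n2_le h2)
          (show 0 ≤ n * (4 * n ^ 2 * C ^ 2 * vv f c p ^ 2) by positivity)
        have := mul_le_mul_of_nonneg_left s1 (show 0 ≤ 4 * (n : ℝ) ^ 4 * C ^ 4 by positivity)
        linarith only [this, e1, dot h1 d]) hn0 (by norm_num) (by norm_num) (by norm_num)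
        (by norm_num)
    refine le_of_eq_of_le ?_ (p1 (g := g) (q := q)
      (T1 := ∑ a, thx f c a p * up (g2 c p) (ζ' - ζ) a)
      (T2 := ∑ a, (thx f c a p - thy f c a p) * up (g1 c p) ζ a)
      (T3 := ∑ a, thx f c a p * up (fun i j => g2 c p i j - g1 c p i j) ζ a)
      (T4 := ∑ a, thy f c a p * up (g1 c p) ζ a) he (Nat.one_le_cast.2 hn) hK0 hn0 hE0 hV0
      (kk 1 0 1 (by linarith only [c1]) hn0 (by norm_num) (by norm_num) (by norm_num)
        (by norm_num))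
      (kk 1 0 1 (by linarith only [c2]) (by positivity) (by norm_num) (by norm_num) (by norm_num)
        (by norm_num)) c3
      (kk 16 3 4 ?_ (by positivity) (by norm_num) (by norm_num) (by norm_num) (by norm_num))
      (kk 4 3 1 ?_ (by positivity) (by norm_num) (by norm_num) (by norm_num) (by norm_num))
      (kk 20 3 2 ?_ (by positivity) (by norm_num) (by norm_num) (by norm_num) (by norm_num))
      (kk 4 3 2 ?_ (by positivity) (by norm_num) (by norm_num) (by norm_num) (by norm_num))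
      (u1 (fun i => (hP i).1) hVz) (u2 (fun i => (hP i).1) fun i => (hP i).2.2.1)
      (u1 (fun i => (hP i).2.1) hVz') (u2 (fun i => (hP i).2.1) fun i => (hP i).2.2.2) ?_)
    · simp only [ZO, dir, up_add (g1 c p) (g2 c p) ζ ζ', mul_add, sub_mul, Finset.sum_add_distrib,
        Finset.sum_sub_distrib]
      ring
    · have e1 := dd (fun i j => mm (sqle (c4 i).1) (hg i j).2.1) (ζ' - ζ)
      have e2 := mul_le_mul_of_nonneg_left hEw (show 0 ≤ 4 * (n : ℝ) ^ 3 * C ^ 2 by positivity)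
      linarith only [e1, e2]
    · have e1 := dd (fun i j => mm (c4 i).2.2 (hg i j).1) ζ
      have e2 := mul_le_mul_of_nonneg_left hVz
        (show 0 ≤ 4 * (n : ℝ) ^ 3 * C * nl f c p by positivity)
      linarith only [e1, e2]
    · have e1 := dd (a := fun a => thx f c a p) (γ := fun i j => g2 c p i j - g1 c p i j)
        (H := 20 * C ^ 2 * vv f c p ^ 2 * nl f c p) (fun i j => by
          have := mul_le_mul_of_nonneg_left (hg i j).2.2
            (show 0 ≤ C ^ 2 * vv f c p ^ 2 by positivity)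
          linarith only [this, mm (sqle (c4 i).1) (le_refl ((g2 c p i j - g1 c p i j) ^ 2))]) ζ
      have e2 := mul_le_mul_of_nonneg_left hVz
        (show 0 ≤ 20 * (n : ℝ) ^ 3 * C ^ 2 * nl f c p by positivity)
      linarith only [e1, e2]
    · have e1 := dd (fun i j => mm (sqle (c4 i).2.1) (hg i j).1) ζ
      have e2 := mul_le_mul_of_nonneg_left hVz
        (show 0 ≤ 4 * (n : ℝ) ^ 3 * C ^ 2 * al f c p ^ 2 by positivity)
      linarith only [e1, e2]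
    · have e1 := mul_le_mul_of_nonneg_left hnη (show 0 ≤ 512 * K by positivity)
      linarith only [e1, mul_le_mul_of_nonneg_right hη (sq_nonneg (al f c p))]
  · refine le_of_eq_of_le ?_ (p2 (g := g) (q := q) (q' := q') (θ := thx f c a p)
      (θ' := tht ey ey (onY c.γ₂) (phi f c) a p)
      (S1 := ∑ i, D (ey a) (D (ey i) (phi f c)) p * up (g2 c p) (ζ' - ζ) i)
      (S2 := ∑ i, (D (ey a) (D (ex i) (phi f c)) p + D (ey a) (D (ey i) (phi f c)) p) *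
        up (g1 c p) ζ i)
      (S3 := ∑ i, D (ey a) (D (ey i) (phi f c)) p * up (fun i j => g2 c p i j - g1 c p i j) ζ i)
      he hK0 hn0 hE0 hV0
      (kk 144 3 4 ?_ (by positivity) (by norm_num) (by norm_num) (by norm_num) (by norm_num))
      (kk 224 3 8 ?_ (by positivity) (by norm_num) (by norm_num) (by norm_num) (by norm_num))
      (kk 180 3 2 ?_ (by positivity) (by norm_num) (by norm_num) (by norm_num) (by norm_num))
      (kk 2 0 3 ?_ hn0 (by norm_num) (by norm_num) (by norm_num) (by norm_num))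
      (kk 24 2 3 ?_ hn0 (by norm_num) (by norm_num) (by norm_num) (by norm_num)))
    · congr 2
      simp only [BO, up_add (g1 c p) (g2 c p) ζ ζ', mul_add, add_mul, Finset.sum_add_distrib]
      ring
    · have e1 := dd (fun i j => mm (hφ a i).1 (hg i j).2.1) (ζ' - ζ)
      have e2 := mul_le_mul_of_nonneg_left hEw (show 0 ≤ 36 * (n : ℝ) ^ 3 * C ^ 2 by positivity)
      have e3 := mul_le_mul_of_nonneg_left hv2
        (show 0 ≤ 36 * (n : ℝ) ^ 3 * C ^ 2 * al f c p ^ 2 * n2 (ζ' - ζ) by positivity)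
      linarith only [e1, e2, e3]
    · have e1 := dd (fun i j => mm (hφ a i).2 (hg i j).1) ζ
      have e2 := mul_le_mul_of_nonneg_left hVz
        (show 0 ≤ 224 * (n : ℝ) ^ 3 * C ^ 8 * nl f c p by positivity)
      have e3 := mul_le_mul_of_nonneg_left s1'
        (show 0 ≤ 16 * (n : ℝ) ^ 3 * C ^ 4 * (vv f c p ^ 2 * n2 ζ) by positivity)
      linarith only [e1, e2, e3]
    · have e1 := dd (a := fun i => D (ey a) (D (ey i) (phi f c)) p)
        (γ := fun i j => g2 c p i j - g1 c p i j) (H := 180 * C ^ 2 * nl f c p) (fun i j => by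
          have := mul_le_mul_of_nonneg_left (hg i j).2.2 (show 0 ≤ 9 * C ^ 2 by positivity)
          linarith only [this, mm (hφ a i).1 (le_refl ((g2 c p i j - g1 c p i j) ^ 2))]) ζ
      have e2 := mul_le_mul_of_nonneg_left ((le_mul_of_one_le_left hz hv2).trans hVz)
        (show 0 ≤ 180 * (n : ℝ) ^ 3 * C ^ 2 * nl f c p by positivity)
      linarith only [e1, e2]
    · linarith only [(c4 a).1, mul_le_mul_of_nonneg_left s2' hC0]
    · linarith only [hθ a, mul_le_mul_of_nonneg_left s2'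
        (show 0 ≤ 12 * (n : ℝ) ^ 2 * C by positivity)]

end EBn

open EBn in
theorem s_EBn (h0 : S_w0) (hq : S_wq) (h1 : S_w1) (h2 : S_w2) (h3 : S_w3) (he : S_ebc) :
    S_EBn := by
  intro n ι f hf e N he0 hN
  obtain ⟨Cq, hCq, hq⟩ := hq n
  obtain ⟨C1, hC1, h1⟩ := h1 n ι f hf
  obtain ⟨C2, hC2, h2⟩ := h2 n ι f hf
  obtain ⟨C3, hC3, h3⟩ := h3 n ι f hf
  obtain ⟨Ce, hCe, he⟩ := he n ι f hf
  have hw : 1 ≤ f.Cw := hf.2.2.2.2.2.2.2.2.2.2.2.1
  obtain ⟨C, hC⟩ : ∃ C, C = Cq + C1 + C2 + C3 + Ce + f.Cw := ⟨_, rfl⟩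
  have hC0 : 1 ≤ C := by linarith
  obtain ⟨K, hK⟩ : ∃ K, K = 224 * ((n : ℝ) + 1) ^ 4 * C ^ 8 := ⟨_, rfl⟩
  have hK0 : 0 < K := by rw [hK]; positivity
  have hη : 0 < min (1 / 2) (e / (512 * K)) := by positivity
  refine ⟨2 + 1000 * K + 32 / e * K, by
    have : 0 ≤ 32 / e * K := by positivity
    linarith, ?_⟩
  refine (((((((Ev.ok f one_pos 1).and (h0 n ι f hf)).and (hq ι f hf _ hη)).and h1).and
    (h2 _ hη)).and h3).and (he _ (half_pos he0))).mono ?_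
  rintro c ⟨⟨⟨⟨⟨⟨a0, a1⟩, a2⟩, a3⟩, a4⟩, a5⟩, a6⟩ p hD hN'
  have F := facts hf a0 a1 (a2 p hD.1) (a3 p hD.1) (a4 p hD.1) (a5 p hD.1) hD hN' hη
    (min_le_left _ _) hC0 (by linarith) (by linarith) (by linarith) (by linarith) (by linarith)
  obtain ⟨b1, b2, b3, b4⟩ := a6 p hD hN'
  have hCe' : Ce ≤ C := by linarith
  have hv := zero_le_one.trans F.1
  have hal := F.2.1
  have hnl := zero_le_one.trans F.2.2.2.1
  refine main F hC0 hN he0 (fun a i j h1 h2 h3 h4 => ?_) ?_ (b1.trans (by gcongr))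
    (b2.trans (by gcongr)) b3 fun a => ⟨(b4 a).1.trans (by gcongr), (b4 a).2.1.trans (by gcongr),
      (b4 a).2.2.trans (by gcongr)⟩
  · rw [hK]
    refine mul_le_mul (mul_le_mul h2 ((pow_le_pow_left₀ (by positivity) (by linarith) i).trans
      (pow_le_pow_right₀ (by linarith [n.cast_nonneg (α := ℝ)]) h3)) (by positivity)
      (by norm_num)) (pow_le_pow_right₀ hC0 h4) (by positivity) (by positivity)
  · rw [← le_div_iff₀' (by positivity)]
    exact min_le_right _ _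

end Vale.Agent.P088
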