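import Vale.Agent.P088.EBxA

/-!
# P088: lower-order terms away from the diagonal
-/

open MeasureTheory Set Metric
open scoped ContDiff Topology

noncomputable section
namespace Vale.Agent.P088
open Vale.Agent.P136 (D Dp Dm Sm Tst)

namespace EBx

variable {n : ℕ} {ι : Type} {f : Fx} {c : Cx n ι} {p : X2 n}

/-- Relations between the constants. -/
structure Par (n : ℕ) (B K N C Cn q ε C₁ C₃ C₅ C₆ N₅ N₆ : ℝ) : Prop where
  B1 : 1 ≤ B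
  N1 : 1 ≤ N
  NK : N ≤ K
  C1 : 1 ≤ C
  n1 : 1 ≤ Cn
  q1 : 1 ≤ q
  k1 : C ^ 2 * Cn ≤ K
  k2 : 40 * n * C * q ≤ K
  k3 : Cn ≤ N
  k4 : 8 * n * Cn ≤ N
  k5 : n ^ 4 * (4 * (3 + q + q ^ 2 + Cn) ^ 3 * Cn) ≤ N
  ε0 : 0 < ε
  ε1 : ε ≤ 1
  c1 : C₁ ≤ C
  c3 : C₃ ≤ C
  c5 : C₅ ≤ C
  c6 : C₆ ≤ C
  n5 : N₅ ≤ Cn
  n6 : N₆ ≤ Cn

theorem tau (hf : f.Ok) : 0 ≤ f.tau ∧ f.tau ≤ 1 := by
  obtain ⟨h1, h2, h3, h4, h5, h6, -, -, h7, h8, h9, -⟩ := hf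
  have a1 : 0 ≤ f.T0 / f.lam := by positivity
  have a2 : f.T0 / f.lam ≤ 1 / 2 := by
    rw [div_le_iff₀ h1]
    nlinarith [mul_le_mul_of_nonneg_right h4 (sq_nonneg f.lam)]
  unfold Fx.tau
  constructor <;> linarith

theorem sm_mv (i : Fin n) : Sm fun p : X2 n => mv p i := by
  change ContDiff ℝ ∞ fun p : X2 n => ((1 / 2 : ℝ) • (p.1 + p.2)) i
  fun_prop

theorem near0 {γ : MatF n} {om : ℝ} (hn : Near 8 om γ) (i j : Fin n) (x : En n) :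
    |γ i j x - if i = j then 1 else 0| ≤ om := by
  have := val (hn i j x)
  exact this

theorem near1 {γ : MatF n} (hs : SmM γ) (hn : Near 8 1 γ) (T : X2 n →L[ℝ] En n)
    {v : Fin n → X2 n} (hT : ∀ i, T (v i) = ee i) (i j : Fin n) :
    SB v 3 2 1 (fun q => γ i j (T q)) p := by
  have h1 := SbAlg.add ((hs i j).sub contDiff_const).contDiffAt contDiffAt_const (hn i j (T p + 0))
    (SbAlg.mono zero_le_one (SbAlg.const (v := ee) (k := 8) zero_le_one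
      (if i = j then (1 : ℝ) else 0)) le_rfl (w' := 1) (by split_ifs <;> simp) le_rfl)
  simp only [sub_add_cancel] at h1
  have h2 := SbLin.lin0 (v := v) (v' := ee) T 0 (t := fun a b => if a = b then 1 else 0) (A := 1)
    zero_le_one (fun a => by simp [hT]) (fun a => by simp [apply_ite abs]) (hs i j).contDiffAt h1
  simp only [add_zero, mul_one] at h2
  exact SbAlg.mono zero_le_one h2 (by norm_num) (by norm_num) le_rfl

theorem grad {v : Fin n → X2 n} {γ : Fin n → Fin n → X2 n → ℝ} {φ : X2 n → ℝ}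
    (pos : ∀ ζ, n2 ζ / 2 ≤ bil (fun i j => γ i j p) ζ ζ) (i : Fin n) :
    D (v i) φ p ^ 2 ≤ 2 * rho v γ φ p := by
  have e1 : rho v γ φ p = bil (fun i j => γ i j p) (fun i => D (v i) φ p) fun i => D (v i) φ p := by
    simp only [rho, dir, XX, bil, Finset.sum_mul]
    exact Finset.sum_congr rfl fun i _ => Finset.sum_congr rfl fun j _ => by ring
  have h3 : D (v i) φ p ^ 2 ≤ n2 fun i => D (v i) φ p :=
    Finset.single_le_sum (f := fun i => D (v i) φ p ^ 2) (fun _ _ => sq_nonneg _)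
      (Finset.mem_univ i)
  linarith [pos fun i => D (v i) φ p]

variable {B K N C Cn q ε C₁ C₂ C₃ C₄ C₅ C₆ N₅ N₆ : ℝ}

theorem com (h : Par n B K N C Cn q ε C₁ C₃ C₅ C₆ N₅ N₆) (hc : c.Ok f (ε / 2) 0) (w0 : W0 f c)
    (w2 : W2 f c C₂ (ε ^ 2) p) : 1 ≤ vv f c p ∧ 1 ≤ al f c p ∧ 0 ≤ AA f c p ∧ 0 ≤ my f c p := by
  obtain ⟨q1, -, F0, hv, σ2, -⟩ := w0.2.2.1 p
  have v1 : 1 ≤ vv f c p := hc.2.1.trans hv
  have F1 : 1 ≤ FF f c p := ((one_le_pow₀ v1).trans w2.1).trans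
    (mul_le_of_le_one_left F0.le (pow_le_one₀ h.ε0.le h.ε1))
  have Q0 : 0 ≤ QQ c p := le_trans (by positivity) q1
  exact ⟨v1, one_le_mul_of_one_le_of_one_le F1 (by linarith), mul_nonneg F0.le (sq_nonneg _),
    mul_nonneg (mul_nonneg Q0 F0.le) (by linarith)⟩

theorem main (h : Par n B K N C Cn q ε C₁ C₃ C₅ C₆ N₅ N₆) (hf : f.Ok) (hc : c.Ok f (ε / 2) 0)
    (w0 : W0 f c) (wq : WQ c q 1 p) (A1 : 1 ≤ al f c p) (hQ : 2 * f.t0 ^ 2 < QQ c p)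
    {v : Fin n → X2 n} {γ : Fin n → Fin n → X2 n → ℝ}
    (hγ : ∀ i j, |γ i j p - if i = j then 1 else 0| ≤ ε / 2)
    (hh : ∀ i j, |D (v i) (D (v j) (phi f c)) p -
      al f c p * (Gm c p i j - zt c p i * zt c p j / QQ c p)| ≤ (ε ^ 2 + N₅ * f.tau) * al f c p) :
    mn v γ (phi f c) p ≤ (n - 1 + N * (ε + f.tau)) * al f c p ^ 2 := by
  obtain ⟨τ0, τ1⟩ := tau hf
  obtain ⟨-, -, -, -, -, -, -, -, -, -, -, -, -, g1, -, g2, g3, -⟩ := w0.2.2.1 p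
  obtain ⟨-, -, -, -, -, -, -, -, -, sy, nr, -⟩ := hc
  obtain ⟨-, -, -, u1, u2, -⟩ := wq
  have Q0 : 0 < QQ c p := lt_of_le_of_lt (by positivity) hQ
  have ε0 := h.ε0
  have ε1 := h.ε1
  have q1 := h.q1
  have n1 := h.n1
  have q2 : 0 ≤ q ^ 2 := sq_nonneg q
  have b : ∀ (i j : Fin n) (x : ℝ), |x - if i = j then 1 else 0| ≤ ε / 2 →
      |x| ≤ 3 + q + q ^ 2 + Cn := fun i j x hx => by
    have := abs_le.1 hx
    refine abs_le.2 ?_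
    split_ifs at this <;> constructor <;> linarith
  have cτ : Cn * f.tau ≤ Cn := mul_le_of_le_one_right (by linarith) τ1
  have cτ0 : 0 ≤ Cn * f.tau := by positivity
  refine (mn_on (K := 3 + q + q ^ 2 + Cn) (s := ε + Cn * f.tau) Q0.ne' (by linarith)
    (fun i j => congrFun (sy i j) _) g3 g2 g1 (fun i j => b i j _ (hγ i j))
    (fun i j => b i j _ (near0 nr i j _)) (fun i j => ?_) (fun i j => ?_)
    fun i j => (hh i j).trans ?_).trans ?_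
  · have a1 := abs_le.1 (hγ i j)
    have a2 := abs_le.1 (near0 nr i j (mid p))
    exact abs_le.2 ⟨by linarith, by linarith⟩
  · have a1 : |zt c p i * zt c p j / QQ c p| ≤ q ^ 2 := by
      rw [abs_div, abs_of_pos Q0, div_le_iff₀ Q0, abs_mul]
      calc _ ≤ q * √(QQ c p) * (q * √(QQ c p)) :=
            mul_le_mul (u1 i).1 (u1 j).1 (abs_nonneg _) (by positivity)
        _ = q ^ 2 * √(QQ c p) ^ 2 := by ring
        _ = _ := by rw [Real.sq_sqrt Q0.le]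
    linarith [abs_sub (Gm c p i j) (zt c p i * zt c p j / QQ c p), val (u2 i j).2.1]
  · have := h.n5
    have : ε ^ 2 ≤ ε := by nlinarith only [ε0, ε1]
    gcongr
  · refine mul_le_mul_of_nonneg_right (add_le_add_right ?_ _) (sq_nonneg _)
    have a1 : ε + Cn * f.tau ≤ Cn * (ε + f.tau) := by
      linarith [le_mul_of_one_le_left ε0.le n1]
    calc _ ≤ (n : ℝ) ^ 4 * (4 * (3 + q + q ^ 2 + Cn) ^ 3 * (Cn * (ε + f.tau))) := by gcongr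
      _ = n ^ 4 * (4 * (3 + q + q ^ 2 + Cn) ^ 3 * Cn) * (ε + f.tau) := by ring
      _ ≤ _ := mul_le_mul_of_nonneg_right h.k5 (by linarith)

/-- The first part of the graded bounds, for entries bounded by two. -/
def CB (n : ℕ) (B : ℝ) : Prop := ∀ (v : Fin n → X2 n) (γ : Fin n → Fin n → X2 n → ℝ)
  (φ : X2 n → ℝ) (P : Fin n → X2 n → ℝ) (p : X2 n), SmM γ → SymM γ → Sm φ → (∀ i, Sm (P i)) →
  (∀ i j, SB v 3 2 1 (γ i j) p) → HB B v γ φ P p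

open Classical in
theorem ptx (h : Par n B K N C Cn q ε C₁ C₃ C₅ C₆ N₅ N₆) (hB : CB n B) (hf : f.Ok)
    (hc : c.Ok f (ε / 2) 0) (w0 : W0 f c) (wq : WQ c q 1 p) (w1 : W1 f c C₁ p)
    (w2 : W2 f c C₂ (ε ^ 2) p) (w3 : W3 f c C₃ p) (w4 : W4 f c C₄ (ε ^ 2) p)
    (w5 : W5x f c N₅ C₅ (ε ^ 2) p) (w6 : W6 f c N₆ C₆ p) (hp : p ∉ Nr f c 1) (g : ℝ)
    (ζ : Fin n → ℝ) :
    ZX f c p g ζ ≤ cc n B * K ^ 3 * ε * (mx f c p * n2 ζ + GX f c p * g ^ 2) +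
      if p ∈ sX f c 1 then (8 * ((n : ℝ) - 1) + cc n B * N ^ 2 * f.tau) * (al f c p ^ 2 * g ^ 2) +
        cc n B * N ^ 2 * f.tau * (dX f c p * n2 ζ) else 0 := by
  obtain ⟨τ0, τ1⟩ := tau hf
  obtain ⟨v1, A1, A0, m0⟩ := com h hc w0 w2
  have hm := fun hQ => main (v := ex) (γ := onX c.γ₁) h hf hc w0 wq A1 hQ
    fun i j => near0 hc.2.2.2.2.2.2.2.1 i j p.1
  obtain ⟨⟨-, -, -, -, -, -, -, -, -, -, -, -, -, -, -, -, -, sφ, -, -, -, -, -, -, -, svp, -, -, -,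
    sP, -, -, -, -, -, -, -, -, -, -, -, sγ, yγ, -⟩, hx0, hp0, -, hev⟩ := w0
  obtain ⟨-, -, -, -, -, r0, -, -, -, -, -, fp0, R0, -, -, -, -, hb⟩ := hp0 p
  obtain ⟨-, L1, -, -, -, s1, -, n1, -⟩ := hc
  have hγ : ∀ i j, SB ex 3 2 1 (onX c.γ₁ i j) p :=
    near1 s1 (n1.mono (by linarith [h.ε1])) (ContinuousLinearMap.fst ℝ _ _) fun _ => rfl
  have v0 : 0 ≤ vv f c p := by linarith
  have vS : vv f c p ≤ SS f c p := le_add_of_nonneg_right (by linarith [(hx0 p.1).2.1])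
  have S0 := v0.trans vS
  have H0 : 0 ≤ HX f c p := add_nonneg A0 (mul_nonneg fp0 S0)
  have ρ0 := Real.sqrt_nonneg (rx f c p + al f c p)
  have a0 : 0 ≤ al f c p := by linarith
  have C0 : 0 ≤ C := by linarith [h.C1]
  have N0 : 0 ≤ Cn := by linarith [h.n1]
  have c1 := h.c1
  have c3 := h.c3
  have c5 := h.c5
  have c6 := h.c6
  have n5 := h.n5
  have n6 := h.n6
  refine side (vp := vp f c) (s := fun j x => sx f c x j) (far := p ∈ Far f c) (C := C) (Cn := Cn)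
    (q := q) (V := vv f c p) (H := HX f c p) (S := SS f c p) (r := rx f c p)
    (hB ex (onX c.γ₁) (phi f c) (Px f c) p sγ yγ sφ (fun i => (sP i).2.2.1) hγ) h.B1 h.N1 h.NK h.C1
    h.n1 h.q1 h.k1 h.k2 h.k3 h.k4 h.ε0 h.ε1 τ0 τ1 (fun i j => val (hγ i j))
    (fun a b Λ hΛ ha hb i => ?_) (grad fun ζ => (hb ζ).1)
    (fun i j => SbAlg.mono S0 (w3.1 i j) le_rfl (by gcongr) le_rfl) v1 vS A1 r0 H0
    (w2.2.2.2.2.2.2.2.2.2.2.2.2.2.1 hp).1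
    (SbAlg.mono v0 (sub_dir Sum.inl w1.2.2.2.2.1) le_rfl (by gcongr) le_rfl) (fun hF j => ?_)
    (fun hF => ⟨fun j => SbAlg.mono v0 (sub_dir Sum.inl (w6 hF j).1.2.2.2.1) le_rfl c6 le_rfl,
      fun j => SbAlg.mono (by positivity) (w6 hF j).1.2.2.2.2.1 le_rfl (by gcongr) le_rfl⟩)
    (fun hs => ⟨((w4.2.1 hp).1 hs).1, ((w4.2.1 hp).1 hs).2,
      fun hF => ((w4.2.2.1 hF).1 hs).2.1⟩) (fun hs => ?_) g ζ
  · have := sbP (σ := -1) (by simp) sγ svp sm_mv (fun j => (sP j).1) hγ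
      (fun j => SbAlg.mono zero_le_one (sub_dir Sum.inl (wq.2.2.2.1 j).2.2.1) (by norm_num) le_rfl
        le_rfl) hΛ (ha i) hb i
    simp only [neg_one_mul, ← sub_eq_add_neg] at this
    exact this
  · filter_upwards [((hev p).2.1 (not_le.1 hF)).1] with x hx
    simp [sx, hx]
  · have h4 : p ∈ sX f c 4 := ⟨hs.1, hs.2.trans (by gcongr; norm_num)⟩
    obtain ⟨u1, -, -, -, u2, -, u3, u4, -, u5, u6, -⟩ := w5 h4
    have hF : p ∈ Far f c := by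
      change f.t0 ^ 2 ≤ _
      linarith [sq_nonneg f.t0]
    have u7 : my f c p ≤ Cn * al f c p := by
      have : N₅ * f.tau ≤ Cn := (mul_le_mul_of_nonneg_right n5 τ0).trans
        (mul_le_of_le_one_right (by linarith [h.n1]) τ1)
      exact ((le_add_of_nonneg_right fp0).trans u4).trans (by gcongr)
    refine ⟨hF, u2.trans (by gcongr), u6.trans ?_, u5, fun j => SbAlg.mono (by positivity)
      ((w6 hF j).2.1 h4).1 le_rfl (by gcongr) le_rfl, fun j => SbAlg.mono (by positivity)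
      ((w6 hF j).2.1 h4).2 le_rfl (by gcongr) le_rfl, hm u1 u3⟩
    calc _ ≤ C * (Cn * al f c p) * vv f c p := by gcongr
      _ = _ := by ring

open Classical in
theorem pty (h : Par n B K N C Cn q ε C₁ C₃ C₅ C₆ N₅ N₆) (hB : CB n B) (hf : f.Ok)
    (hc : c.Ok f (ε / 2) 0) (w0 : W0 f c) (wq : WQ c q 1 p) (w1 : W1 f c C₁ p)
    (w2 : W2 f c C₂ (ε ^ 2) p) (w3 : W3 f c C₃ p) (w4 : W4 f c C₄ (ε ^ 2) p)
    (w5 : W5y f c N₅ C₅ (ε ^ 2) p) (w6 : W6 f c N₆ C₆ p) (hp : p ∉ Nr f c 1) (g : ℝ)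
    (ζ : Fin n → ℝ) :
    ZY f c p g ζ ≤ cc n B * K ^ 3 * ε * (my f c p * n2 ζ + GY f c p * g ^ 2) +
      if p ∈ sY f c 1 then (8 * ((n : ℝ) - 1) + cc n B * N ^ 2 * f.tau) * (al f c p ^ 2 * g ^ 2) +
        cc n B * N ^ 2 * f.tau * (dY f c p * n2 ζ) else 0 := by
  obtain ⟨τ0, τ1⟩ := tau hf
  obtain ⟨v1, A1, A0, m0⟩ := com h hc w0 w2
  have hm := fun hQ => main (v := ey) (γ := onY c.γ₂) h hf hc w0 wq A1 hQ
    fun i j => near0 hc.2.2.2.2.2.2.2.2.2.2.1 i j p.2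
  obtain ⟨⟨-, -, -, -, -, -, -, -, -, -, -, -, -, -, -, -, -, sφ, -, -, -, -, -, -, -, svp, -, -, -,
    sP, -, -, -, -, -, -, -, -, -, -, -, -, -, sγ, yγ⟩, -, hp0, -, hev⟩ := w0
  obtain ⟨-, -, -, -, -, -, r0, -, -, -, -, -, R0, -, -, -, -, hb⟩ := hp0 p
  obtain ⟨-, -, -, -, -, -, -, -, s1, -, n1, -⟩ := hc
  have hγ : ∀ i j, SB ey 3 2 1 (onY c.γ₂ i j) p :=
    near1 s1 (n1.mono (by linarith [h.ε1])) (ContinuousLinearMap.snd ℝ _ _) fun _ => rfl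
  have v0 : 0 ≤ vv f c p := by linarith
  have ρ0 := Real.sqrt_nonneg (ry f c p + al f c p)
  have a0 : 0 ≤ al f c p := by linarith
  have C0 : 0 ≤ C := by linarith [h.C1]
  have N0 : 0 ≤ Cn := by linarith [h.n1]
  have c1 := h.c1
  have c3 := h.c3
  have c5 := h.c5
  have c6 := h.c6
  have n5 := h.n5
  have n6 := h.n6
  refine side (vp := vp f c) (s := fun j x => sy f c x j) (far := p ∈ Far f c) (C := C) (Cn := Cn)
    (q := q) (V := vv f c p) (H := AA f c p) (S := vv f c p) (r := ry f c p)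
    (hB ey (onY c.γ₂) (phi f c) (Py f c) p sγ yγ sφ (fun i => (sP i).2.2.2) hγ) h.B1 h.N1 h.NK h.C1
    h.n1 h.q1 h.k1 h.k2 h.k3 h.k4 h.ε0 h.ε1 τ0 τ1 (fun i j => val (hγ i j))
    (fun a b Λ hΛ ha hb i => ?_) (grad fun ζ => (hb ζ).2.2.1)
    (fun i j => SbAlg.mono v0 (sub_dir Sum.inr (w3.2.1 i (Sum.inr j))) le_rfl (by gcongr) le_rfl)
    v1 le_rfl A1 r0 A0 (w2.2.2.2.2.2.2.2.2.2.2.2.2.2.1 hp).2
    (SbAlg.mono v0 (sub_dir Sum.inr w1.2.2.2.2.1) le_rfl (by gcongr) le_rfl) (fun hF j => ?_)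
    (fun hF => ⟨fun j => SbAlg.mono v0 (sub_dir Sum.inr (w6 hF j).1.2.2.2.1) le_rfl c6 le_rfl,
      fun j => SbAlg.mono (by positivity) (w6 hF j).1.2.2.2.2.2 le_rfl (by gcongr) le_rfl⟩)
      (fun hs => ⟨((w4.2.1 hp).2.1 hs).1, ((w4.2.1 hp).2.1 hs).2,
      fun hF => ((w4.2.2.1 hF).2 hs).2⟩) (fun hs => ?_) g ζ
  · have := sbP (σ := 1) (by simp) sγ svp sm_mv (fun j => (sP j).2.1) hγ
      (fun j => SbAlg.mono zero_le_one (sub_dir Sum.inr (wq.2.2.2.1 j).2.2.1) (by norm_num) le_rfl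
        le_rfl) hΛ (ha i) hb i
    simp only [one_mul] at this
    exact this
  · filter_upwards [((hev p).2.1 (not_le.1 hF)).1] with x hx
    simp [sy, hx]
  · have h4 : p ∈ sY f c 4 := ⟨hs.1, hs.2.trans (by gcongr; norm_num)⟩
    obtain ⟨u1, -, -, u3, u4, -, u5, u6, -⟩ := w5 h4
    have hF : p ∈ Far f c := by
      change f.t0 ^ 2 ≤ _
      linarith [sq_nonneg f.t0]
    have u7 : my f c p ≤ Cn * al f c p := by
      have : N₅ * f.tau ≤ Cn := (mul_le_mul_of_nonneg_right n5 τ0).trans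
        (mul_le_of_le_one_right (by linarith [h.n1]) τ1)
      exact u4.trans (by gcongr)
    refine ⟨hF, le_mul_of_one_le_left v0 h.C1, u6.trans ?_, u5, fun j => SbAlg.mono (by positivity)
      ((w6 hF j).2.2 h4).1 le_rfl (by gcongr) le_rfl, fun j => SbAlg.mono (by positivity)
      ((w6 hF j).2.2 h4).2 le_rfl (by gcongr) le_rfl, hm u1 u3⟩
    calc _ ≤ C * (Cn * al f c p) * vv f c p := by gcongr
      _ = _ := by ring

open Classical in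
theorem both (h0 : S_w0) (hq : S_wq) (h1 : S_w1) (h2 : S_w2) (h3 : S_w3) (h4 : S_w4) (h5 : S_w5)
    (h6 : S_w6) (hB : S_ccoB) (n : ℕ) : ∃ Cn : ℝ, 1 ≤ Cn ∧ ∀ (ι : Type) (f : Fx), f.Ok →
    ∀ η : ℝ, 0 < η → Ev f fun c : Cx n ι => ∀ p ∈ Om2 c, p ∉ Nr f c 1 → ∀ (g : ℝ) (ζ : Fin n → ℝ),
    (ZX f c p g ζ ≤ η * (mx f c p * n2 ζ + GX f c p * g ^ 2) +
      if p ∈ sX f c 1 then (8 * ((n : ℝ) - 1) + Cn * f.tau) * (al f c p ^ 2 * g ^ 2) +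
        Cn * f.tau * (dX f c p * n2 ζ) else 0) ∧
    ZY f c p g ζ ≤ η * (my f c p * n2 ζ + GY f c p * g ^ 2) +
      if p ∈ sY f c 1 then (8 * ((n : ℝ) - 1) + Cn * f.tau) * (al f c p ^ 2 * g ^ 2) +
        Cn * f.tau * (dY f c p * n2 ζ) else 0 := by
  obtain ⟨q, q1, hq⟩ := hq n
  obtain ⟨N₅, n5, h5⟩ := h5 n
  obtain ⟨N₆, n6, h6⟩ := h6 n
  obtain ⟨B, B1, hB⟩ := hB n 2 one_le_two
  have hB' : CB n B := fun v γ φ P p a1 a2 a3 a4 a5 w₀ h S w₂ Λ b1 b2 b3 b4 b5 b6 b7 => by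
    obtain ⟨e1, -, e2⟩ :=
      (hB (X2 n) v v γ γ φ P p w₀ h S w₂ Λ a1 a2 a1 a2 a3 a4 b1 b2 b3 b4 b5).1 a5 b6 b7
    exact ⟨e1, e2⟩
  obtain ⟨Cn, hn⟩ : ∃ Cn, Cn = N₅ + N₆ := ⟨_, rfl⟩
  have n1 : 1 ≤ Cn := by linarith
  have p1 : 0 ≤ 8 * n * Cn := by positivity
  have p2 : 0 ≤ (n : ℝ) ^ 4 * (4 * (3 + q + q ^ 2 + Cn) ^ 3 * Cn) := by positivity
  obtain ⟨N, hN⟩ : ∃ N, N = Cn + 8 * n * Cn + n ^ 4 * (4 * (3 + q + q ^ 2 + Cn) ^ 3 * Cn) :=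
    ⟨_, rfl⟩
  have N1 : 1 ≤ N := by linarith
  have c1 : 1 ≤ cc n B := by
    have : 0 ≤ 32 * (n : ℝ) ^ 4 + 4096 * n ^ 2 + 1024 * n := by positivity
    unfold cc
    linarith
  refine ⟨cc n B * N ^ 2, one_le_mul_of_one_le_of_one_le c1 (one_le_pow₀ N1),
    fun ι f hf η η0 => ?_⟩
  obtain ⟨C₁, d1, h1⟩ := h1 n ι f hf
  obtain ⟨C₂, -, h2⟩ := h2 n ι f hf
  obtain ⟨C₃, d3, h3⟩ := h3 n ι f hf
  obtain ⟨C₄, -, h4⟩ := h4 n ι f hf
  obtain ⟨C₅, d5, h5⟩ := h5 ι f hf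
  obtain ⟨C₆, d6, h6⟩ := h6 ι f hf
  obtain ⟨C, hC⟩ : ∃ C, C = C₁ + C₃ + C₅ + C₆ := ⟨_, rfl⟩
  have C1 : 1 ≤ C := by linarith
  have p3 : 0 ≤ C ^ 2 * Cn := by positivity
  have p4 : 0 ≤ 40 * n * C * q := by positivity
  obtain ⟨K, hK⟩ : ∃ K, K = N + C ^ 2 * Cn + 40 * n * C * q := ⟨_, rfl⟩
  have K0 : 0 < K := by linarith
  have p5 : 0 < cc n B * K ^ 3 := by positivity
  obtain ⟨ε, ε0, ε1, ε2⟩ : ∃ ε : ℝ, 0 < ε ∧ ε ≤ 1 ∧ cc n B * K ^ 3 * ε ≤ η :=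
    ⟨min 1 (η / (cc n B * K ^ 3)), by positivity, min_le_left _ _,
      (le_div_iff₀' p5).1 (min_le_right _ _)⟩
  have h : Par n B K N C Cn q ε C₁ C₃ C₅ C₆ N₅ N₆ :=
    ⟨B1, N1, by linarith, C1, n1, q1, by linarith, by linarith, by linarith, by linarith,
      by linarith, ε0, ε1, by linarith, by linarith, by linarith, by linarith, by linarith,
      by linarith⟩
  have e2 := pow_pos ε0 2
  refine (((((((((h0 n ι f hf).and (hq ι f hf 1 one_pos)).and h1).and (h2 _ e2)).and h3).and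
    (h4 _ e2)).and (h5 _ e2)).and h6).and (Ev.ok f (half_pos ε0) 0)).mono ?_
  rintro c ⟨⟨⟨⟨⟨⟨⟨⟨w0, wq⟩, w1⟩, w2⟩, w3⟩, w4⟩, w5⟩, w6⟩, hc⟩ p hp hp' g ζ
  obtain ⟨-, -, -, m0⟩ := com h hc w0 (w2 p hp)
  obtain ⟨-, -, -, -, -, r0, r0', -, -, -, -, fp0, -⟩ := w0.2.2.1 p
  have m1 : 0 ≤ mx f c p := add_nonneg m0 fp0
  have z0 := n2_nonneg ζ
  have g1 : 0 ≤ GX f c p := by unfold GX; split_ifs <;> positivity
  have g2 : 0 ≤ GY f c p := by unfold GY; split_ifs <;> positivity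
  exact ⟨(ptx h hB' hf hc w0 (wq p hp) (w1 p hp) (w2 p hp) (w3 p hp) (w4 p hp) (w5 p hp).1 (w6 p hp)
      hp' g ζ).trans (add_le_add_left (mul_le_mul_of_nonneg_right ε2 (by positivity)) _),
    (pty h hB' hf hc w0 (wq p hp) (w1 p hp) (w2 p hp) (w3 p hp) (w4 p hp) (w5 p hp).2 (w6 p hp)
      hp' g ζ).trans (add_le_add_left (mul_le_mul_of_nonneg_right ε2 (by positivity)) _)⟩

end EBx

theorem s_EBx (h0 : S_w0) (hq : S_wq) (h1 : S_w1) (h2 : S_w2) (h3 : S_w3) (h4 : S_w4) (h5 : S_w5)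
    (h6 : S_w6) (hB : S_ccoB) : S_EBx := fun n => by
  obtain ⟨Cn, a, h⟩ := EBx.both h0 hq h1 h2 h3 h4 h5 h6 hB n
  exact ⟨Cn, a, fun ι f hf η η0 => (h ι f hf η η0).mono fun c hc p hp hp' g ζ => (hc p hp hp' g ζ).1⟩

theorem s_EBy (h0 : S_w0) (hq : S_wq) (h1 : S_w1) (h2 : S_w2) (h3 : S_w3) (h4 : S_w4) (h5 : S_w5)
    (h6 : S_w6) (hB : S_ccoB) : S_EBy := fun n => by
  obtain ⟨Cn, a, h⟩ := EBx.both h0 hq h1 h2 h3 h4 h5 h6 hB n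
  exact ⟨Cn, a, fun ι f hf η η0 => (h ι f hf η η0).mono fun c hc p hp hp' g ζ => (hc p hp hp' g ζ).2⟩

end Vale.Agent.P088
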