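import Vale.Agent.P088.StP
import Vale.Agent.P088.SbLin

/-!
# P088: lower-order terms away from the diagonal, the general estimate for one variable
-/

open MeasureTheory Set Metric
open scoped ContDiff Topology

noncomputable section
namespace Vale.Agent.P088
open Vale.Agent.P136 (D Dp Dm Sm Tst)

namespace EBx

variable {n : ℕ} {X : Type} [NormedAddCommGroup X] [NormedSpace ℝ X] {v : Fin n → X}
  {γ : Fin n → Fin n → X → ℝ} {φ : X → ℝ} {P : Fin n → X → ℝ} {p : X}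

/-- The main term. -/
def mn (v : Fin n → X) (γ : Fin n → Fin n → X → ℝ) (φ : X → ℝ) (p : X) : ℝ :=
  ∑ i, ∑ j, ∑ k, ∑ l, γ i j p * γ k l p * D (v i) (D (v k) φ) p * D (v j) (D (v l) φ) p

/-- The graded bounds at a point. -/
def HB (B : ℝ) (v : Fin n → X) (γ : Fin n → Fin n → X → ℝ) (φ : X → ℝ) (P : Fin n → X → ℝ)
    (p : X) : Prop := ∀ w₀ h S w₂ Λ : ℝ, 1 ≤ S → S ≤ Λ → 0 ≤ w₀ → 0 ≤ h → 0 ≤ w₂ →
  (∀ i, |D (v i) φ p| ≤ w₀) → (∀ i j, SB v 2 h S (D (v i) (D (v j) φ)) p) →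
  |cco v γ φ 0 p - 8 * mn v γ φ p| ≤ B * (w₀ * h * S + w₀ ^ 2 + h * S ^ 2 + w₀) ∧
    ((∀ i, SB v 2 w₂ Λ (P i) p) → |cco v γ φ P p - cco v γ φ 0 p| ≤
      B * w₂ * (Λ * w₀ ^ 2 + w₀ * h + Λ ^ 2 * w₀ + Λ * h))

/-- The quantity to be estimated. -/
def ZZ (v : Fin n → X) (γ : Fin n → Fin n → X → ℝ) (φ : X → ℝ) (P : Fin n → X → ℝ) (p : X)
    (g : ℝ) (ζ : Fin n → ℝ) : ℝ :=
  cco v γ φ P p * g ^ 2 + 256 * ((∑ i, P i p * ζ i) ^ 2 + dir v P φ p ^ 2 * g ^ 2)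

theorem val {κ : Type} {v : κ → X} {k : ℕ} {w L : ℝ} {f : X → ℝ} (h : SB v k w L f p) :
    |f p| ≤ w := by
  simpa [SbAlg.Ds_nil] using h [] (Nat.zero_le _)

theorem sub_dir {κ κ' : Type} {v : κ → X} {k : ℕ} {w L : ℝ} {f : X → ℝ} (e : κ' → κ)
    (h : SB v k w L f p) : SB (fun i => v (e i)) k w L f p := fun l hl => by
  have := h (l.map e) (by simpa using hl)
  rwa [Ds, List.foldr_map, List.length_map] at this

theorem n2_nonneg (ζ : Fin n → ℝ) : 0 ≤ n2 ζ := Finset.sum_nonneg fun _ _ => sq_nonneg _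

theorem cs {a : Fin n → ℝ} {w : ℝ} (h : ∀ i, |a i| ≤ w) (ζ : Fin n → ℝ) :
    (∑ i, a i * ζ i) ^ 2 ≤ n * w ^ 2 * n2 ζ := by
  refine (Finset.sum_mul_sq_le_sq_mul_sq _ _ _).trans
    (mul_le_mul_of_nonneg_right ?_ (n2_nonneg ζ))
  calc ∑ i, a i ^ 2 ≤ ∑ _i : Fin n, w ^ 2 :=
        Finset.sum_le_sum fun i _ => sq_le_sq' (abs_le.1 (h i)).1 (abs_le.1 (h i)).2
    _ = _ := by simp

theorem zb {a w w₀ : ℝ} (h : cco v γ φ P p ≤ a) (hP : ∀ i, |P i p| ≤ w)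
    (hg : ∀ i, |D (v i) φ p| ≤ w₀) (g : ℝ) (ζ : Fin n → ℝ) :
    ZZ v γ φ P p g ζ ≤ (a + 256 * n ^ 2 * (w * w₀) ^ 2) * g ^ 2 + 256 * n * w ^ 2 * n2 ζ := by
  have h1 := cs hP ζ
  have h2 : dir v P φ p ^ 2 ≤ n ^ 2 * (w * w₀) ^ 2 := by
    refine (cs hP fun i => D (v i) φ p).trans ?_
    have : n2 (fun i => D (v i) φ p) ≤ n * w₀ ^ 2 := by
      calc _ ≤ ∑ _i : Fin n, w₀ ^ 2 :=
            Finset.sum_le_sum fun i _ => sq_le_sq' (abs_le.1 (hg i)).1 (abs_le.1 (hg i)).2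
        _ = _ := by simp
    calc _ ≤ n * w ^ 2 * (n * w₀ ^ 2) := by gcongr
      _ = _ := by ring
  unfold ZZ
  nlinarith [mul_le_mul_of_nonneg_right h (sq_nonneg g), mul_le_mul_of_nonneg_right h2 (sq_nonneg g)]

theorem sum4 {t : Fin n → Fin n → Fin n → Fin n → ℝ} {a : ℝ} (h : ∀ i j k l, t i j k l ≤ a) :
    ∑ i, ∑ j, ∑ k, ∑ l, t i j k l ≤ n ^ 4 * a := by
  calc _ ≤ ∑ _i : Fin n, ∑ _j : Fin n, ∑ _k : Fin n, ∑ _l : Fin n, a := by gcongr; apply h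
    _ = _ := by simp; ring

theorem mn_le {h : ℝ} (hγ : ∀ i j, |γ i j p| ≤ 2) (hh : ∀ i j, |D (v i) (D (v j) φ) p| ≤ h) :
    mn v γ φ p ≤ n ^ 4 * (4 * h ^ 2) := by
  refine sum4 fun i j k l => (le_abs_self _).trans ?_
  have := (abs_nonneg _).trans (hh i k)
  rw [abs_mul, abs_mul, abs_mul]
  calc _ ≤ 2 * 2 * h * h := by gcongr <;> first | apply hγ | apply hh
    _ = _ := by ring

theorem four {a b c d a' b' c' d' K s : ℝ} (ha : |a| ≤ K) (hb : |b| ≤ K) (hc : |c| ≤ K)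
    (hb' : |b'| ≤ K) (hc' : |c'| ≤ K) (hd' : |d'| ≤ K) (e1 : |a - a'| ≤ s) (e2 : |b - b'| ≤ s)
    (e3 : |c - c'| ≤ s) (e4 : |d - d'| ≤ s) : a * b * c * d - a' * b' * c' * d' ≤ 4 * K ^ 3 * s := by
  have K0 := (abs_nonneg _).trans ha
  have s0 := (abs_nonneg _).trans e1
  have g : ∀ x y z t : ℝ, |x| ≤ K → |y| ≤ K → |z| ≤ K → |t| ≤ s → x * y * z * t ≤ K ^ 3 * s := by
    intro x y z t hx hy hz ht
    refine (le_abs_self _).trans ?_
    rw [abs_mul, abs_mul, abs_mul]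
    calc _ ≤ K * K * K * s := by gcongr
      _ = _ := by ring
  linarith [g a b c _ ha hb hc e4, g a b d' _ ha hb hd' e3, g a c' d' _ ha hc' hd' e2,
    g b' c' d' _ hb' hc' hd' e1]

theorem trace {M G : Fin n → Fin n → ℝ} {z : Fin n → ℝ} {Q : ℝ} (Q0 : Q ≠ 0)
    (hM : ∀ i j, M i j = M j i) (hG : ∀ i j, G i j = G j i)
    (hI : ∀ i j, ∑ l, M i l * G l j = if i = j then 1 else 0) (hz : bil M z z = Q) :
    ∑ i, ∑ j, ∑ k, ∑ l, M i j * M k l * (G i k - z i * z k / Q) * (G j l - z j * z l / Q) =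
      n - 1 := by
  have hU : ∀ j k, ∑ i, M j i * (G i k - z i * z k / Q) =
      (if j = k then 1 else 0) - (∑ i, M j i * z i) * z k / Q := fun j k => by
    rw [← hI, Finset.sum_mul, Finset.sum_div, ← Finset.sum_sub_distrib]
    exact Finset.sum_congr rfl fun i _ => by ring
  have hy : ∑ j, (∑ i, M j i * z i) * z j = Q := by
    rw [← hz, bil]
    refine Finset.sum_congr rfl fun j _ => ?_
    rw [Finset.sum_mul]
    exact Finset.sum_congr rfl fun i _ => by ring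
  obtain ⟨y, hy'⟩ : ∃ y : Fin n → ℝ, ∀ j, ∑ i, M j i * z i = y j := ⟨_, fun _ => rfl⟩
  simp only [hy'] at hU hy
  calc _ = ∑ j, ∑ k, (∑ i, M j i * (G i k - z i * z k / Q)) *
        ∑ l, M k l * (G l j - z l * z j / Q) := by
        rw [Finset.sum_comm]
        refine Finset.sum_congr rfl fun j _ => ?_
        rw [Finset.sum_comm]
        refine Finset.sum_congr rfl fun k _ => ?_
        rw [Finset.sum_mul_sum]
        refine Finset.sum_congr rfl fun i _ => Finset.sum_congr rfl fun l _ => ?_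
        rw [hM i j, hG j l]
        ring
    _ = ∑ j, ∑ k, ((if j = k then 1 - 2 * (y j * z j / Q) else 0) +
        y j * z j / Q * (y k * z k / Q)) := by
        refine Finset.sum_congr rfl fun j _ => Finset.sum_congr rfl fun k _ => ?_
        rw [hU, hU]
        by_cases h : j = k
        · subst h; simp; ring
        · rw [if_neg h, if_neg (Ne.symm h), if_neg h]; ring
    _ = _ := by
        have e : ∑ j, y j * z j / Q = 1 := by rw [← Finset.sum_div, hy, div_self Q0]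
        simp only [Finset.sum_add_distrib, Finset.sum_ite_eq, Finset.mem_univ, if_true,
          Finset.sum_sub_distrib, ← Finset.mul_sum, ← Finset.sum_mul, e]
        simp
        ring

theorem mn_on {M G : Fin n → Fin n → ℝ} {z : Fin n → ℝ} {Q A K s : ℝ} (Q0 : Q ≠ 0) (A0 : 0 < A)
    (hM : ∀ i j, M i j = M j i) (hG : ∀ i j, G i j = G j i)
    (hI : ∀ i j, ∑ l, M i l * G l j = if i = j then 1 else 0) (hz : bil M z z = Q)
    (hγ : ∀ i j, |γ i j p| ≤ K) (hM' : ∀ i j, |M i j| ≤ K) (e1 : ∀ i j, |γ i j p - M i j| ≤ s)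
    (hP : ∀ i j, |G i j - z i * z j / Q| + s ≤ K)
    (e2 : ∀ i j, |D (v i) (D (v j) φ) p - A * (G i j - z i * z j / Q)| ≤ s * A) :
    mn v γ φ p ≤ (n - 1 + n ^ 4 * (4 * K ^ 3 * s)) * A ^ 2 := by
  have e3 : ∀ i j, |D (v i) (D (v j) φ) p / A - (G i j - z i * z j / Q)| ≤ s := fun i j => by
    rw [div_sub' A0.ne', abs_div, abs_of_pos A0, div_le_iff₀ A0]
    exact e2 i j
  have e4 : ∀ i j, |D (v i) (D (v j) φ) p / A| ≤ K := fun i j => by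
    linarith [abs_sub_abs_le_abs_sub (D (v i) (D (v j) φ) p / A) (G i j - z i * z j / Q), e3 i j,
      hP i j]
  have e5 : ∀ i j, |G i j - z i * z j / Q| ≤ K := fun i j => by
    linarith [hP i j, (abs_nonneg _).trans (e1 i j)]
  have h := sum4 fun i j k l => four (hγ i j) (hγ k l) (e4 i k) (hM' k l) (e5 i k) (e5 j l) (e1 i j)
    (e1 k l) (e3 i k) (e3 j l)
  simp only [Finset.sum_sub_distrib] at h
  rw [trace Q0 hM hG hI hz] at h
  refine le_trans (le_of_eq ?_) (mul_le_mul_of_nonneg_right (sub_le_iff_le_add'.1 h) (sq_nonneg A))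
  simp only [mn, Finset.sum_mul]
  refine Finset.sum_congr rfl fun i _ => Finset.sum_congr rfl fun j _ =>
    Finset.sum_congr rfl fun k _ => Finset.sum_congr rfl fun l _ => ?_
  field_simp

theorem sbP {vp : X → ℝ} {m s : Fin n → X → ℝ} {σ a b q Λ : ℝ} (hσ : |σ| = 1) (sγ : SmM γ)
    (svp : Sm vp) (sm : ∀ j, Sm (m j)) (ss : ∀ j, Sm (s j)) (hγ : ∀ i j, SB v 3 2 1 (γ i j) p)
    (hm : ∀ j, SB v 2 q 1 (m j) p) (hΛ : 1 ≤ Λ) (hv : SB v 2 a Λ vp p)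
    (hs : ∀ j, SB v 2 b Λ (s j) p) (i : Fin n) :
    SB v 2 (n * (8 * (4 * a * q + b))) Λ
      (fun x => ∑ j, γ i j x * (vp x * m j x + σ * s j x)) p := by
  have L0 : 0 ≤ Λ := by linarith
  have h := SbAlg.sum (v := v) (k := 2) (p := p) L0 Finset.univ
    (fun j x => γ i j x * (vp x * m j x + σ * s j x)) (fun _ => 8 * (4 * a * q + b))
    (fun j _ => ((sγ i j).mul ((svp.mul (sm j)).add ((ss j).cmul σ))).contDiffAt) fun j _ => by
      have h1 := SbAlg.mul L0 svp.contDiffAt (sm j).contDiffAt hv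
        (SbAlg.mono zero_le_one (hm j) le_rfl le_rfl hΛ)
      have h2 := SbAlg.add (svp.mul (sm j)).contDiffAt ((ss j).cmul σ).contDiffAt h1
        (SbAlg.cmul (ss j).contDiffAt (hs j) σ)
      have h3 := SbAlg.mul L0 (sγ i j).contDiffAt
        ((svp.mul (sm j)).add ((ss j).cmul σ)).contDiffAt
        (SbAlg.mono zero_le_one (hγ i j) (by norm_num) le_rfl hΛ) h2
      exact SbAlg.mono L0 h3 le_rfl (by rw [hσ]; exact le_of_eq (by ring)) le_rfl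
  simpa using h

/-- The combinatorial constant. -/
def cc (n : ℕ) (B : ℝ) : ℝ := 32 * n ^ 4 + 4096 * n ^ 2 + 1024 * n + 49 * B + 8

theorem off {B K ε μ ρ H S W Λ : ℝ} (hB : HB B v γ φ P p) (B1 : 1 ≤ B) (K1 : 1 ≤ K)
    (hγ : ∀ i j, |γ i j p| ≤ 2) (hg : ∀ i, |D (v i) φ p| ≤ 2 * ρ)
    (hh : ∀ i j, SB v 2 (K * H) S (D (v i) (D (v j) φ)) p) (hP : ∀ i, SB v 2 (K * W) Λ (P i) p)
    (ε1 : ε ≤ 1) (μ0 : 0 ≤ μ) (H0 : 0 ≤ H) (W0 : 0 ≤ W) (S1 : 1 ≤ S) (SΛ : S ≤ Λ) (ρ1 : 1 ≤ ρ)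
    (a1 : H ≤ ε * μ * ρ) (a2 : S ^ 2 ≤ ε * μ) (a3 : W ≤ 2 * (ε * μ)) (a4 : W ≤ 2 * ρ)
    (a5 : Λ ≤ 2 * (ε * μ)) (g : ℝ) (ζ : Fin n → ℝ) :
    ZZ v γ φ P p g ζ ≤ cc n B * K ^ 2 * ε * (μ ^ 2 * n2 ζ + μ ^ 2 * ρ ^ 2 * g ^ 2) := by
  obtain ⟨b1, b2⟩ := hB (2 * ρ) (K * H) S (K * W) Λ S1 SΛ (by linarith) (by positivity)
    (by positivity) hg hh
  have b3 := mn_le hγ fun i j => val (hh i j)
  replace b2 := b2 hP
  obtain ⟨t, ht⟩ : ∃ t, t = ε * μ := ⟨_, rfl⟩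
  rw [← ht] at a1 a2 a3 a5
  have S2 : S ≤ S ^ 2 := by nlinarith
  have t1 : 1 ≤ t := by linarith
  have tμ : t ≤ μ := by rw [ht]; exact mul_le_of_le_one_left μ0 ε1
  obtain ⟨U, hU⟩ : ∃ U, U = t ^ 2 * ρ ^ 2 := ⟨_, rfl⟩
  have Λ0 : 0 ≤ Λ := by linarith
  have ρ2 : ρ ≤ ρ ^ 2 := by nlinarith
  have c0 : ρ ^ 2 ≤ U := by rw [hU]; exact le_mul_of_one_le_left (by positivity) (one_le_pow₀ t1)
  have c1 : H ^ 2 ≤ U := by rw [hU, ← mul_pow]; gcongr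
  have c2 : ρ * H * S ≤ U := by
    calc _ ≤ ρ * (t * ρ) * t := by gcongr; linarith
      _ = U := by rw [hU]; ring
  have c3 : H * S ^ 2 ≤ U := by
    calc _ ≤ t * ρ ^ 2 * t := by gcongr; exact a1.trans (by gcongr)
      _ = U := by rw [hU]; ring
  have c4 : W * (Λ * ρ ^ 2) ≤ 4 * U := by
    calc _ ≤ 2 * t * (2 * t * ρ ^ 2) := by gcongr
      _ = _ := by rw [hU]; ring
  have c5 : W * (ρ * H) ≤ 2 * U := by
    calc _ ≤ 2 * t * (ρ * (t * ρ)) := by gcongr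
      _ = _ := by rw [hU]; ring
  have c6 : W * (Λ ^ 2 * ρ) ≤ 8 * U := by
    calc _ ≤ 2 * ρ * ((2 * t) ^ 2 * ρ) := by gcongr
      _ = _ := by rw [hU]; ring
  have c7 : W * (Λ * H) ≤ 4 * U := by
    calc _ ≤ 2 * ρ * (2 * t * (t * ρ)) := by gcongr
      _ = _ := by rw [hU]; ring
  have c8 : (W * ρ) ^ 2 ≤ 4 * U := by
    calc _ ≤ (2 * t * ρ) ^ 2 := by gcongr
      _ = _ := by rw [hU]; ring
  have U0 : 0 ≤ U := by rw [hU]; positivity
  have K0 : 0 ≤ K := by linarith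
  have KU : U ≤ K * U := le_mul_of_one_le_left U0 K1
  have KU2 : K * U ≤ K ^ 2 * U := by gcongr; nlinarith
  have d1 : 2 * ρ * (K * H) * S + (2 * ρ) ^ 2 + K * H * S ^ 2 + 2 * ρ ≤ 9 * (K ^ 2 * U) := by
    linarith [mul_le_mul_of_nonneg_left c2 K0, mul_le_mul_of_nonneg_left c3 K0]
  have d2 : K * W * (Λ * (2 * ρ) ^ 2 + 2 * ρ * (K * H) + Λ ^ 2 * (2 * ρ) + Λ * (K * H)) ≤
      40 * (K ^ 2 * U) := by
    linarith [mul_le_mul_of_nonneg_left c4 K0, mul_le_mul_of_nonneg_left c5 (sq_nonneg K),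
      mul_le_mul_of_nonneg_left c6 K0, mul_le_mul_of_nonneg_left c7 (sq_nonneg K)]
  have d3 : (n : ℝ) ^ 4 * (4 * (K * H) ^ 2) ≤ n ^ 4 * (4 * (K ^ 2 * U)) := by
    rw [mul_pow]; gcongr
  have d4 : cco v γ φ P p ≤ (32 * n ^ 4 + 49 * B) * (K ^ 2 * U) := by
    rw [mul_assoc B] at b2
    linarith [(abs_le.1 b1).2, (abs_le.1 b2).2, mul_le_mul_of_nonneg_left d1 (zero_le_one.trans B1),
      mul_le_mul_of_nonneg_left d2 (zero_le_one.trans B1)]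
  have d5 : t ^ 2 ≤ ε * μ ^ 2 := by
    calc t ^ 2 = t * t := sq t
      _ ≤ t * μ := by gcongr
      _ = _ := by rw [ht]; ring
  refine (zb d4 (fun i => val (hP i)) hg g ζ).trans ?_
  have n0 : (0 : ℝ) ≤ n := Nat.cast_nonneg n
  have e1 : (32 * n ^ 4 + 49 * B) * (K ^ 2 * U) + 256 * n ^ 2 * (K * W * (2 * ρ)) ^ 2 ≤
      cc n B * (K ^ 2 * U) := by
    have : (n : ℝ) ^ 2 * K ^ 2 * (W * ρ) ^ 2 ≤ n ^ 2 * K ^ 2 * (4 * U) := by gcongr
    have : 0 ≤ (1024 * n + 8) * (K ^ 2 * U) := by positivity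
    unfold cc
    linarith
  have e2 : 256 * n * (K * W) ^ 2 ≤ cc n B * (K ^ 2 * t ^ 2) := by
    have : n * (K * W) ^ 2 ≤ n * (K * (2 * t)) ^ 2 := by gcongr
    have : 0 ≤ (32 * n ^ 4 + 4096 * n ^ 2 + 49 * B + 8) * (K ^ 2 * t ^ 2) := by positivity
    unfold cc
    linarith
  have c0 : 0 ≤ cc n B := by unfold cc; positivity
  have := n2_nonneg ζ
  calc _ ≤ cc n B * (K ^ 2 * (ε * μ ^ 2 * ρ ^ 2)) * g ^ 2 +
        cc n B * (K ^ 2 * (ε * μ ^ 2)) * n2 ζ := by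
        refine add_le_add (mul_le_mul_of_nonneg_right ?_ (sq_nonneg g))
          (mul_le_mul_of_nonneg_right ?_ this)
        · exact e1.trans (by rw [hU]; gcongr)
        · exact e2.trans (by gcongr)
    _ = _ := by ring

theorem on {B K N ε τ ρ A V M Λ : ℝ} (hB : HB B v γ φ P p) (B1 : 1 ≤ B) (N1 : 1 ≤ N) (NK : N ≤ K)
    (hg : ∀ i, |D (v i) φ p| ≤ 2 * ρ)
    (hh : ∀ i j, SB v 2 (K * (A * V)) (K * V) (D (v i) (D (v j) φ)) p)
    (hh' : ∀ i j, SB v 2 (N * A) Λ (D (v i) (D (v j) φ)) p)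
    (hP : ∀ i, SB v 2 (K + N * τ * Λ) Λ (P i) p) (hm : mn v γ φ p ≤ (n - 1 + N * (ε + τ)) * A ^ 2)
    (ε0 : 0 < ε) (ε1 : ε ≤ 1) (τ0 : 0 ≤ τ) (τ1 : τ ≤ 1) (A1 : 1 ≤ A) (V1 : 1 ≤ V) (ρ0 : 0 < ρ)
    (hΛ : Λ * ρ = A) (Aρ : A ≤ ρ ^ 2) (a1 : V ^ 4 * ρ ≤ ε * A) (hM : 1 ≤ ε * M) (g : ℝ)
    (ζ : Fin n → ℝ) :
    ZZ v γ φ P p g ζ ≤ cc n B * K ^ 3 * ε * (M * n2 ζ + A ^ 2 * g ^ 2) +
      ((8 * ((n : ℝ) - 1) + cc n B * N ^ 2 * τ) * (A ^ 2 * g ^ 2) +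
        cc n B * N ^ 2 * τ * (Λ ^ 2 * n2 ζ)) := by
  have K1 : 1 ≤ K := N1.trans NK
  have K0 : 0 ≤ K := by linarith
  have N0 : 0 ≤ N := by linarith
  have B0 : 0 ≤ B := by linarith
  have V4 : 1 ≤ V ^ 4 := one_le_pow₀ V1
  have r1 : ρ ≤ ε * A := (le_mul_of_one_le_left ρ0.le V4).trans a1
  have l1 : 1 ≤ ε * Λ := le_of_mul_le_mul_right (by rw [mul_assoc, hΛ]; linarith) ρ0
  have Λ0 : 0 < Λ := (mul_pos_iff_of_pos_left ε0).1 (by linarith)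
  have Λ1 : 1 ≤ Λ := l1.trans (mul_le_of_le_one_left Λ0.le ε1)
  have l2 : Λ ^ 2 ≤ A := by
    refine le_of_mul_le_mul_right ?_ (pow_pos ρ0 2)
    rw [← mul_pow, hΛ, sq]
    gcongr
  have ρ1 : 1 ≤ ρ := le_of_sq_le_sq (by linarith) ρ0.le
  obtain ⟨T, hT⟩ : ∃ T, T = ε * A ^ 2 := ⟨_, rfl⟩
  have T0 : 0 ≤ T := by rw [hT]; positivity
  have c1 : ρ * (A * V ^ 2) ≤ T := by
    calc _ ≤ ρ * (A * V ^ 4) := by gcongr; norm_num
      _ = V ^ 4 * ρ * A := by ring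
      _ ≤ ε * A * A := by gcongr
      _ = T := by rw [hT]; ring
  have c2 : ρ ^ 2 ≤ T := by
    calc _ ≤ (ε * A) ^ 2 := by gcongr
      _ = ε * T := by rw [hT]; ring
      _ ≤ T := mul_le_of_le_one_left T0 ε1
  have c3 : A * V ^ 3 ≤ T := by
    calc _ ≤ A * (V ^ 4 * ρ) := by
          gcongr
          exact (pow_le_pow_right₀ V1 (by norm_num)).trans (le_mul_of_one_le_right (by linarith) ρ1)
      _ ≤ A * (ε * A) := by gcongr
      _ = T := by rw [hT]; ring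
  have c4 : ρ ≤ T := by nlinarith
  have K2 : K ^ 2 * T ≤ K ^ 3 * T := by gcongr; norm_num
  have K3 : T ≤ K ^ 3 * T := le_mul_of_one_le_left T0 (one_le_pow₀ K1)
  have b1 := (hB (2 * ρ) (K * (A * V)) (K * V) 0 (K * V) (one_le_mul_of_one_le_of_one_le K1 V1)
    le_rfl (by linarith) (by positivity) le_rfl hg hh).1
  have b2 := (hB (2 * ρ) (N * A) Λ (K + N * τ * Λ) Λ Λ1 le_rfl (by linarith) (by positivity)
    (by positivity) hg hh').2 hP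
  have d1 : 2 * ρ * (K * (A * V)) * (K * V) + (2 * ρ) ^ 2 + K * (A * V) * (K * V) ^ 2 + 2 * ρ ≤
      9 * (K ^ 3 * T) := by
    linarith [mul_le_mul_of_nonneg_left c1 (sq_nonneg K),
      mul_le_mul_of_nonneg_left c3 (pow_nonneg K0 3)]
  have d2 : K + N * τ * Λ ≤ (K * ε + N * τ) * Λ := by
    linarith [mul_le_mul_of_nonneg_left l1 K0]
  have d3 : Λ * (Λ * (2 * ρ) ^ 2 + 2 * ρ * (N * A) + Λ ^ 2 * (2 * ρ) + Λ * (N * A)) ≤
      9 * N * A ^ 2 := by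
    have e : Λ * (Λ * (2 * ρ) ^ 2 + 2 * ρ * (N * A) + Λ ^ 2 * (2 * ρ) + Λ * (N * A)) =
        4 * (Λ * ρ) ^ 2 + 2 * N * A * (Λ * ρ) + 2 * Λ ^ 2 * (Λ * ρ) + Λ ^ 2 * (N * A) := by ring
    rw [e, hΛ]
    have : Λ ^ 2 * A ≤ A * A := by gcongr
    have : Λ ^ 2 * (N * A) ≤ A * (N * A) := by gcongr
    have : A ^ 2 ≤ N * A ^ 2 := le_mul_of_one_le_left (by positivity) N1
    linarith
  have d4 : B * (K + N * τ * Λ) *
      (Λ * (2 * ρ) ^ 2 + 2 * ρ * (N * A) + Λ ^ 2 * (2 * ρ) + Λ * (N * A)) ≤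
      B * (K * ε + N * τ) * (9 * N * A ^ 2) := by
    calc _ ≤ B * ((K * ε + N * τ) * Λ) *
          (Λ * (2 * ρ) ^ 2 + 2 * ρ * (N * A) + Λ ^ 2 * (2 * ρ) + Λ * (N * A)) := by gcongr
      _ = B * (K * ε + N * τ) * (Λ *
          (Λ * (2 * ρ) ^ 2 + 2 * ρ * (N * A) + Λ ^ 2 * (2 * ρ) + Λ * (N * A))) := by ring
      _ ≤ _ := by gcongr
  obtain ⟨Y, hY⟩ : ∃ Y, Y = N ^ 2 * τ * A ^ 2 := ⟨_, rfl⟩
  have Y0 : 0 ≤ Y := by rw [hY]; positivity
  have f1 : N * T ≤ K ^ 3 * T := by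
    gcongr; exact NK.trans (le_self_pow₀ K1 (by norm_num))
  have f2 : N * τ * A ^ 2 ≤ Y := by
    rw [hY]; gcongr; exact le_self_pow₀ N1 (by norm_num)
  have f3 : K * N * T ≤ K ^ 3 * T := by
    refine le_trans ?_ K2
    rw [sq]; gcongr
  have d5 : cco v γ φ P p ≤
      8 * (n - 1) * A ^ 2 + (8 + 18 * B) * (K ^ 3 * T) + (8 + 9 * B) * Y := by
    have e1 : B * (K * ε + N * τ) * (9 * N * A ^ 2) = 9 * B * (K * N * T) + 9 * B * Y := by
      rw [hT, hY]; ring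
    have e2 : (n - 1 + N * (ε + τ)) * A ^ 2 = (n - 1) * A ^ 2 + N * T + N * τ * A ^ 2 := by
      rw [hT]; ring
    linarith [(abs_le.1 b1).2, (abs_le.1 b2).2, mul_le_mul_of_nonneg_left d1 B0,
      mul_le_mul_of_nonneg_left f3 B0]
  have w1 : (K + N * τ * Λ) ^ 2 ≤ 2 * K ^ 2 + 2 * (N ^ 2 * τ * Λ ^ 2) := by
    have : N ^ 2 * Λ ^ 2 * τ * τ ≤ N ^ 2 * Λ ^ 2 * τ := mul_le_of_le_one_right (by positivity) τ1
    linarith [sq_nonneg (K - N * τ * Λ)]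
  have w2 : ((K + N * τ * Λ) * (2 * ρ)) ^ 2 ≤ 8 * (K ^ 3 * T) + 8 * Y := by
    have e : N ^ 2 * τ * Λ ^ 2 * ρ ^ 2 = Y := by rw [hY, ← hΛ]; ring
    linarith [mul_le_mul_of_nonneg_right w1 (sq_nonneg ρ),
      mul_le_mul_of_nonneg_left c2 (sq_nonneg K)]
  have w3 : K ^ 2 ≤ K ^ 3 * (ε * M) :=
    (pow_le_pow_right₀ K1 (by norm_num)).trans (le_mul_of_one_le_right (by positivity) hM)
  refine (zb d5 (fun i => val (hP i)) hg g ζ).trans ?_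
  have n0 : (0 : ℝ) ≤ n := Nat.cast_nonneg n
  have e1 : 8 * (n - 1) * A ^ 2 + (8 + 18 * B) * (K ^ 3 * T) + (8 + 9 * B) * Y +
      256 * n ^ 2 * ((K + N * τ * Λ) * (2 * ρ)) ^ 2 ≤
      8 * (n - 1) * A ^ 2 + cc n B * (K ^ 3 * T) + cc n B * Y := by
    have : 0 ≤ (32 * n ^ 4 + 2048 * n ^ 2 + 1024 * n + 31 * B) * (K ^ 3 * T) := by positivity
    have : 0 ≤ (32 * n ^ 4 + 2048 * n ^ 2 + 1024 * n + 40 * B) * Y := by positivity
    unfold cc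
    linarith [mul_le_mul_of_nonneg_left w2 (sq_nonneg (n : ℝ))]
  have e2 : 256 * n * (K + N * τ * Λ) ^ 2 ≤
      cc n B * (K ^ 3 * (ε * M)) + cc n B * (N ^ 2 * τ * Λ ^ 2) := by
    have : 0 ≤ (32 * n ^ 4 + 4096 * n ^ 2 + 512 * n + 49 * B + 8) * (K ^ 3 * (ε * M)) := by
      have : 0 ≤ ε * M := by linarith
      positivity
    have : 0 ≤ (32 * n ^ 4 + 4096 * n ^ 2 + 512 * n + 49 * B + 8) * (N ^ 2 * τ * Λ ^ 2) := by
      positivity
    unfold cc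
    linarith [mul_le_mul_of_nonneg_left w1 n0, mul_le_mul_of_nonneg_left w3 n0]
  refine (add_le_add (mul_le_mul_of_nonneg_right e1 (sq_nonneg g))
    (mul_le_mul_of_nonneg_right e2 (n2_nonneg ζ))).trans (le_of_eq ?_)
  rw [hT, hY]
  ring

theorem side {vp : X → ℝ} {s : Fin n → X → ℝ} {B K N C Cn q ε τ A V H S M r : ℝ} {far cr : Prop}
    [Decidable cr] (hB : HB B v γ φ P p) (B1 : 1 ≤ B) (N1 : 1 ≤ N) (NK : N ≤ K) (C1 : 1 ≤ C)
    (n1 : 1 ≤ Cn) (q1 : 1 ≤ q) (k1 : C ^ 2 * Cn ≤ K) (k2 : 40 * n * C * q ≤ K) (k3 : Cn ≤ N)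
    (k4 : 8 * n * Cn ≤ N) (ε0 : 0 < ε) (ε1 : ε ≤ 1) (τ0 : 0 ≤ τ) (τ1 : τ ≤ 1)
    (hγ : ∀ i j, |γ i j p| ≤ 2)
    (hsb : ∀ a b Λ : ℝ, 1 ≤ Λ → (Fin n → SB v 2 a Λ vp p) → (∀ j, SB v 2 b Λ (s j) p) →
      ∀ i, SB v 2 (n * (8 * (4 * a * q + b))) Λ (P i) p)
    (hg : ∀ i, D (v i) φ p ^ 2 ≤ 2 * r) (hH : ∀ i j, SB v 4 (C * H) S (D (v i) (D (v j) φ)) p)
    (V1 : 1 ≤ V) (VS : V ≤ S) (A1 : 1 ≤ A) (r0 : 0 ≤ r) (H0 : 0 ≤ H) (hS : S ^ 8 ≤ ε ^ 2 * M)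
    (hv : SB v 6 (C * V) V vp p) (nf : ¬far → ∀ j, s j =ᶠ[𝓝 p] fun _ => 0)
    (hf : far → (Fin n → SB v 3 C V vp p) ∧
      ∀ j, SB v 3 (C * A / √(r + A)) (H / √(r + A) + S) (s j) p)
    (ho : ¬cr → H ^ 2 ≤ ε ^ 2 * M * r ∧ A * S ^ 4 ≤ ε ^ 2 * r ∧
      (far → A ^ 2 / (r + A) ≤ ε ^ 2 * M))
    (hc : cr → far ∧ S ≤ C * V ∧ H ≤ C * Cn * (A * V) ∧ V ^ 8 * (r + A) ≤ ε ^ 2 * A ^ 2 ∧
      (∀ j, SB v 3 (Cn * τ * A / √(r + A)) (A / √(r + A)) (s j) p) ∧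
      (∀ i, SB v 4 (Cn * √(r + A)) (A / √(r + A)) (D (v i) φ) p) ∧
      mn v γ φ p ≤ (n - 1 + N * (ε + τ)) * A ^ 2) (g : ℝ) (ζ : Fin n → ℝ) :
    ZZ v γ φ P p g ζ ≤ cc n B * K ^ 3 * ε * (M * n2 ζ + (if cr then A ^ 2 else M * r) * g ^ 2) +
      if cr then (8 * ((n : ℝ) - 1) + cc n B * N ^ 2 * τ) * (A ^ 2 * g ^ 2) +
        cc n B * N ^ 2 * τ * (A ^ 2 / (r + A) * n2 ζ) else 0 := by
  have K1 : 1 ≤ K := N1.trans NK
  have S1 : 1 ≤ S := V1.trans VS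
  have n0 : (0 : ℝ) ≤ n := Nat.cast_nonneg n
  have CK : C ≤ K := (le_self_pow₀ C1 two_ne_zero).trans
    ((le_mul_of_one_le_right (by positivity) n1).trans k1)
  have M1 : 1 ≤ ε ^ 2 * M := (one_le_pow₀ S1).trans hS
  have M0 : 0 < M := (mul_pos_iff_of_pos_left (pow_pos ε0 2)).1 (by linarith)
  have R0 : 0 < r + A := by linarith
  have ρ0 : 0 < √(r + A) := Real.sqrt_pos.2 R0
  have ρ2 : √(r + A) ^ 2 = r + A := Real.sq_sqrt R0.le
  have k5 : n * (8 * (4 * C * q)) ≤ K := by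
    have : 0 ≤ n * C * q := by positivity
    linarith
  split_ifs with h
  · obtain ⟨f1, c1, c2, c3, c4, c5, c6⟩ := hc h
    have Λ0 : 0 ≤ A / √(r + A) := by positivity
    have hΛ : A / √(r + A) * √(r + A) = A := div_mul_cancel₀ _ ρ0.ne'
    have a1 : V ^ 4 * √(r + A) ≤ ε * A :=
      le_of_sq_le_sq (by rw [mul_pow, mul_pow, ρ2, ← pow_mul]; exact c3) (by positivity)
    have a2 : V ≤ A / √(r + A) := by
      rw [le_div_iff₀ ρ0]
      exact (mul_le_mul_of_nonneg_right (le_self_pow₀ V1 (by norm_num)) ρ0.le).trans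
        (a1.trans (mul_le_of_le_one_left (by linarith) ε1))
    have key := on hB B1 N1 NK (ρ := √(r + A)) (M := M)
      (fun i => abs_le_of_sq_le_sq (by rw [mul_pow, ρ2]; linarith [hg i]) (by positivity))
      (fun i j => SbAlg.mono (by linarith) (hH i j) (by norm_num) (by
        calc C * H ≤ C * (C * Cn * (A * V)) := by gcongr
          _ = C ^ 2 * Cn * (A * V) := by ring
          _ ≤ _ := by gcongr) (c1.trans (by gcongr)))
      (fun i j => SbAlg.mono Λ0 (SbAlg.deriv i (c5 j)) (by norm_num) (by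
        rw [mul_assoc, mul_comm (√(r + A)), hΛ]; gcongr) le_rfl)
      (fun i => SbAlg.mono Λ0 (hsb _ _ _ (V1.trans a2)
        (fun j => SbAlg.mono (by linarith) ((hf f1).1 j) (by norm_num) le_rfl a2)
        (fun j => SbAlg.mono Λ0 (c4 j) (by norm_num) le_rfl le_rfl) i) le_rfl (by
          have : 8 * n * Cn * (τ * (A / √(r + A))) ≤ N * (τ * (A / √(r + A))) := by gcongr
          rw [mul_div_assoc]
          linarith) le_rfl)
      c6 ε0 ε1 τ0 τ1 A1 V1 ρ0 hΛ (by linarith)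
      a1 (M1.trans (by gcongr; nlinarith only [ε0, ε1])) g ζ
    rwa [div_pow, ρ2] at key
  · obtain ⟨o1, o2, o3⟩ := ho h
    have e2 : ε ^ 2 ≤ 1 := pow_le_one₀ ε0.le ε1
    have S4 : 1 ≤ S ^ 4 := one_le_pow₀ S1
    have rA : A * S ^ 4 ≤ r := o2.trans (mul_le_of_le_one_left r0 e2)
    have rA' : A ≤ r := (le_mul_of_one_le_right (by linarith) S4).trans rA
    have rS : S ^ 4 ≤ r := (le_mul_of_one_le_left (by linarith) A1).trans rA
    have μ2 : √M ^ 2 = M := Real.sq_sqrt M0.le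
    have s2 : √r ^ 2 = r := Real.sq_sqrt r0
    have μ0 := Real.sqrt_nonneg M
    have s1 : 1 ≤ √r := Real.one_le_sqrt.2 (by linarith)
    have a1 : H ≤ ε * √M * √r :=
      le_of_sq_le_sq (by rw [mul_pow, mul_pow, μ2, s2]; exact o1) (by positivity)
    have a2 : S ^ 2 ≤ ε * √M := le_of_sq_le_sq (by
      rw [mul_pow, μ2, ← pow_mul]; exact (pow_le_pow_right₀ S1 (by norm_num)).trans hS)
      (by positivity)
    have a3 : S ≤ ε * √M := (le_self_pow₀ S1 two_ne_zero).trans a2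
    obtain ⟨W, Λ, W0, SΛ, w1, w2, w3, w4⟩ : ∃ W Λ : ℝ, 0 ≤ W ∧ S ≤ Λ ∧ W ≤ 2 * (ε * √M) ∧
        W ≤ 2 * √r ∧ Λ ≤ 2 * (ε * √M) ∧ ∀ i, SB v 2 (K * W) Λ (P i) p := by
      by_cases f1 : far
      · obtain ⟨u1, u2⟩ := hf f1
        have α0 : 0 ≤ A / √(r + A) := by positivity
        have β0 : 0 ≤ H / √(r + A) := by positivity
        have α1 : A / √(r + A) ≤ ε * √M :=
          le_of_sq_le_sq (by rw [div_pow, mul_pow, μ2, ρ2]; exact o3 f1) (by positivity)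
        have sρ : √r ≤ √(r + A) := Real.sqrt_le_sqrt (by linarith)
        have α2 : A / √(r + A) ≤ √r := by
          rw [div_le_iff₀ ρ0]
          calc A ≤ √r * √r := by rw [← sq, s2]; exact rA'
            _ ≤ _ := by gcongr
        have β1 : H / √(r + A) ≤ ε * √M := by
          rw [div_le_iff₀ ρ0]
          exact a1.trans (by gcongr)
        refine ⟨1 + A / √(r + A), H / √(r + A) + S, by linarith, by linarith, by linarith,
          by linarith, by linarith, fun i => SbAlg.mono (by linarith) (hsb _ _ _ (by linarith)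
            (fun j => SbAlg.mono (by linarith) (u1 j) (by norm_num) le_rfl (by linarith))
            (fun j => SbAlg.mono (by linarith) (u2 j) (by norm_num) le_rfl le_rfl) i) le_rfl ?_
            le_rfl⟩
        have e1 : 8 * n * C ≤ K := by
          have : n * C ≤ n * C * q := le_mul_of_one_le_right (by positivity) q1
          have : 0 ≤ n * C := by positivity
          linarith
        rw [mul_div_assoc]
        linarith [mul_le_mul_of_nonneg_right e1 α0]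
      · have e1 : S ≤ √r := Real.le_sqrt_of_sq_le
          ((pow_le_pow_right₀ S1 (by norm_num)).trans rS)
        refine ⟨V, S, by linarith, le_rfl, by linarith, by linarith, by linarith, fun i =>
          SbAlg.mono (by linarith) (hsb _ 0 _ S1
            (fun _ => SbAlg.mono (by linarith) hv (by norm_num) le_rfl VS)
            (fun j => SbAlg.congr (nf f1 j).symm (SbAlg.mono (by linarith)
              (SbAlg.const (L := S) (by linarith) 0) le_rfl (by simp) le_rfl)) i) le_rfl ?_ le_rfl⟩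
        linarith [mul_le_mul_of_nonneg_right k5 (zero_le_one.trans V1)]
    have key := off hB B1 K1 hγ (ρ := √r)
      (fun i => abs_le_of_sq_le_sq (by rw [mul_pow, s2]; linarith [hg i]) (by positivity))
      (fun i j => SbAlg.mono (by linarith) (hH i j) (by norm_num) (by gcongr) le_rfl) w4 ε1 μ0 H0
      W0 S1 SΛ s1 a1 a2 w1 w2 w3 g ζ
    rw [μ2, s2] at key
    rw [add_zero]
    refine key.trans ?_
    have := n2_nonneg ζ
    have : 0 ≤ cc n B := by unfold cc; positivity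
    gcongr
    norm_num

end EBx

end Vale.Agent.P088
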