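import Vale.Agent.P088.EbcD

/-!
# P088: the zero-order coefficients near the diagonal
-/

open MeasureTheory Set Metric Filter
open scoped ContDiff Topology

noncomputable section
namespace Vale.Agent.P088
open Vale.Agent.P136 (D Dp Dm Sm Tst)

namespace Ebc

variable {n : ℕ} {ι : Type} {f : Fx} {c : Cx n ι}

theorem ar1 {K Cv ε F v R : ℝ} (hK : 0 ≤ K) (hC : 1 ≤ Cv) (hε0 : 0 ≤ ε) (hε : ε * F ^ 2 ≤ 1)
    (v1 : 1 ≤ v) (vF : v ^ 2 ≤ F) (hR0 : 0 ≤ R) :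
    ε * (K * F ^ 2) ≤ Cv ^ 2 * K * (F * v ^ 2) ∧ K * (F * v ^ 2) ≤ Cv ^ 2 * (K * (F * v ^ 2)) ∧
    K * F ^ 2 * (Cv * R) ≤ Cv ^ 2 * K * (F ^ 2 * R) ∧ ε * (K * (F * v)) ≤ Cv ^ 2 * K * v ∧
    K * (F * v) ≤ Cv ^ 2 * (K * (F * v)) := by
  have hv2 : 1 ≤ v ^ 2 := one_le_pow₀ v1
  have hF1 : 1 ≤ F := hv2.trans vF
  have hN : 1 ≤ F * v ^ 2 := one_le_mul_of_one_le_of_one_le hF1 hv2
  have hC2 : 1 ≤ Cv ^ 2 := one_le_pow₀ hC
  have hCC : Cv ≤ Cv ^ 2 := by nlinarith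
  have k2 : K * (F * v ^ 2) ≤ Cv ^ 2 * (K * (F * v ^ 2)) :=
    le_mul_of_one_le_left (by positivity) hC2
  refine ⟨?_, k2, ?_, ?_, le_mul_of_one_le_left (by positivity) hC2⟩
  · have a1 := mul_le_mul_of_nonneg_left hε hK
    have a2 := mul_le_mul_of_nonneg_left hN hK
    linarith
  · have := mul_le_mul_of_nonneg_left hCC (by positivity : 0 ≤ K * F ^ 2 * R)
    linarith
  · have a0 := mul_le_mul_of_nonneg_left hF1 (by positivity : 0 ≤ ε * F)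
    have a1 : ε * F ≤ 1 := by linarith
    have a2 := mul_le_mul_of_nonneg_left a1 (by positivity : 0 ≤ K * v)
    have a3 : K * v ≤ Cv ^ 2 * (K * v) := le_mul_of_one_le_left (by positivity) hC2
    linarith

theorem core {K K' Cv ε A R : ℝ} {p : X2 n} (hK : 0 ≤ K) (hK' : 0 ≤ K') (hC : 1 ≤ Cv)
    (hA : A = Cv ^ 2 * (6 * K + 4 * K')) (hR : R = vv f c p * (n * ‖zz p‖))
    (w0 : W0 f c) (r : Rs1 f c K p ε) (rs : ∀ s ∈ Icc (0 : ℝ) 1, Rs1 f c K (seg p s) 4)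
    (hF : ∀ s ∈ Icc (0 : ℝ) 1, 0 ≤ FF f c (seg p s) ∧ FF f c (seg p s) ≤ FF f c p)
    (hv : ∀ s ∈ Icc (0 : ℝ) 1, 0 ≤ vv f c (seg p s) ∧ vv f c (seg p s) ≤ Cv * vv f c p)
    (d : |cY0 f c (pd0 p) - 8 * n * (2 * FF f c (pd0 p)) ^ 2| ≤
        K' * (FF f c (pd0 p) * vv f c (pd0 p) ^ 2) ∧
      |M0 f c (pd0 p) - 8 * n * (2 * FF f c (pd0 p)) ^ 2| ≤
        K' * (FF f c (pd0 p) * vv f c (pd0 p) ^ 2))
    (hε0 : 0 ≤ ε) (hε : ε * FF f c p ^ 2 ≤ 1) (v1 : 1 ≤ vv f c p)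
    (vF : vv f c p ^ 2 ≤ FF f c p) :
    |cX f c p - 2 * cM f c p + cY f c p| ≤
      A * (FF f c p * vv f c p ^ 2 + FF f c p ^ 2 * R ^ 2) ∧
    |cM f c p - cY f c p| ≤ A * (FF f c p * vv f c p ^ 2 + FF f c p ^ 2 * R) ∧
    cY f c p ≤ 8 * n * (2 * FF f c p) ^ 2 + A * (FF f c p * vv f c p ^ 2 + FF f c p ^ 2 * R) ∧
    ∀ a, |thx f c a p| ≤ A * (FF f c p * vv f c p) ∧ |thy f c a p| ≤ A * (FF f c p * vv f c p) ∧
      |thx f c a p - thy f c a p| ≤ A * (vv f c p + FF f c p * vv f c p * R) := by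
  obtain ⟨s1, s2, s3, s4⟩ := r.sm
  have hL : 0 ≤ Cv * vv f c p := by positivity
  have m2 : ∀ {G : X2 n → ℝ} {s : ℝ}, s ∈ Icc (0 : ℝ) 1 →
      SB exy 2 (K * FF f c (seg p s) ^ 2) (vv f c (seg p s)) G (seg p s) →
      SB exy 2 (K * FF f c p ^ 2) (Cv * vv f c p) G (seg p s) := fun hs h =>
    SbAlg.mono (hv _ hs).1 h le_rfl (mul_le_mul_of_nonneg_left
      (pow_le_pow_left₀ (hF _ hs).1 (hF _ hs).2 2) hK) (hv _ hs).2
  have m1 : ∀ {G : X2 n → ℝ} {s : ℝ}, s ∈ Icc (0 : ℝ) 1 →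
      SB exy 1 (K * (FF f c (seg p s) * vv f c (seg p s))) (vv f c (seg p s)) G (seg p s) →
      SB exy 1 (K * (FF f c p * (Cv * vv f c p))) (Cv * vv f c p) G (seg p s) := fun hs h =>
    SbAlg.mono (hv _ hs).1 h le_rfl (mul_le_mul_of_nonneg_left
      (mul_le_mul (hF _ hs).2 (hv _ hs).2 (hv _ hs).1 ((hF _ hs).1.trans (hF _ hs).2)) hK)
      (hv _ hs).2
  have T1 := tay2 (G := fun q => cX0 f c q - 2 * M0 f c q + cY0 f c q)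
    ((s1.sub (s3.cmul 2)).add s2) hL (fun s hs => SbAlg.add (s1.sub (s3.cmul 2)).contDiffAt
      s2.contDiffAt (SbAlg.sub s1.contDiffAt (s3.cmul 2).contDiffAt (m2 hs (rs s hs).x.2.1)
        (SbAlg.cmul s3.contDiffAt (m2 hs (rs s hs).m.2.1) 2)) (m2 hs (rs s hs).y.2.1))
    fun q => by
      have := cY0_swap w0 q.swap
      rw [Prod.swap_swap] at this
      rw [cY0_swap w0, M0_swap w0, this]
      ring
  have T2 := tay1 s3 hL fun s hs =>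
    SbAlg.mono hL (m2 hs (rs s hs).m.2.1) (by omega : 1 ≤ 2) le_rfl le_rfl
  have T3 := tay1 s2 hL fun s hs =>
    SbAlg.mono hL (m2 hs (rs s hs).y.2.1) (by omega : 1 ≤ 2) le_rfl le_rfl
  have T4 := fun a => tay1 (s4 a).1 hL fun s hs => m1 hs ((rs s hs).tx a).2.1
  have T5 := fun a => tay1 (s4 a).2 hL fun s hs => m1 hs ((rs s hs).ty a).2.1
  have E1 : cY0 f c (pd0 p) = cX0 f c (pd0 p) := cY0_swap w0 (pd0 p)
  have E2 : ∀ a, tx0 f c a (pd0 p) = ty0 f c a (pd0 p) := fun a => tx0_swap w0 a (pd0 p)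
  have e1 := sb_zero r.x.2.2
  have e2 := sb_zero r.y.2.2
  have e3 := sb_zero r.m.2.2
  have e4 := r.r
  have e5 := fun a => sb_zero (r.tx a).2.2
  have e6 := fun a => sb_zero (r.ty a).2.2
  have e7 := fun a => sb_zero (r.tx a).1
  have e8 := fun a => sb_zero (r.ty a).1
  obtain ⟨f1, f2⟩ := hF 0 ⟨le_rfl, zero_le_one⟩
  obtain ⟨g1, g2⟩ := hv 0 ⟨le_rfl, zero_le_one⟩
  rw [seg_zero] at f1 f2 g1 g2
  have hR0 : 0 ≤ R := by rw [hR]; positivity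
  rw [mul_assoc Cv, ← hR] at T1 T2 T3 T4 T5
  rw [abs_two] at T1
  have d0 : K' * (FF f c (pd0 p) * vv f c (pd0 p) ^ 2) ≤
      K' * (FF f c p * (Cv * vv f c p) ^ 2) :=
    mul_le_mul_of_nonneg_left (mul_le_mul f2 (pow_le_pow_left₀ g1 g2 2) (by positivity)
      (f1.trans f2)) hK'
  have d1 := d.1.trans d0
  have d2 := d.2.trans d0
  have d3 : 8 * (n : ℝ) * (2 * FF f c (pd0 p)) ^ 2 ≤ 8 * n * (2 * FF f c p) ^ 2 :=
    mul_le_mul_of_nonneg_left (pow_le_pow_left₀ (by positivity) (by linarith) 2) (by positivity)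
  generalize FF f c p = F at *
  generalize vv f c p = v at *
  obtain ⟨k1, k2, k3, k4, k5⟩ := ar1 hK hC hε0 hε v1 vF hR0
  have hF0 : 0 ≤ F := f1.trans f2
  have hv0 : 0 ≤ v := zero_le_one.trans v1
  have p1 : 0 ≤ Cv ^ 2 * K * (F * v ^ 2) := by positivity
  have p2 : 0 ≤ Cv ^ 2 * K' * (F * v ^ 2) := by positivity
  have p3 : 0 ≤ Cv ^ 2 * K * (F ^ 2 * R ^ 2) := by positivity
  have p4 : 0 ≤ Cv ^ 2 * K' * (F ^ 2 * R ^ 2) := by positivity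
  have p5 : 0 ≤ Cv ^ 2 * K * (F ^ 2 * R) := by positivity
  have p6 : 0 ≤ Cv ^ 2 * K' * (F ^ 2 * R) := by positivity
  have p7 : 0 ≤ Cv ^ 2 * K * (F * v) := by positivity
  have p8 : 0 ≤ Cv ^ 2 * K' * (F * v) := by positivity
  have p9 : 0 ≤ Cv ^ 2 * K * v := by positivity
  have p10 : 0 ≤ Cv ^ 2 * K' * v := by positivity
  have p11 : 0 ≤ Cv ^ 2 * K * (F * v * R) := by positivity
  have p12 : 0 ≤ Cv ^ 2 * K' * (F * v * R) := by positivity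
  rw [abs_le] at T1 T2 T3 e1 e2 e3 e4 d1 d2
  subst hA
  refine ⟨abs_le.2 ⟨?_, ?_⟩, abs_le.2 ⟨?_, ?_⟩, ?_, fun a => ⟨?_, ?_, ?_⟩⟩
  · linarith only [T1.1, e1.1, e2.1, e3.2, e4.2, d1.1, d2.2, E1, k1, k2, p3, p4]
  · linarith only [T1.2, e1.2, e2.2, e3.1, e4.1, d1.2, d2.1, E1, k1, k2, p3, p4]
  · linarith only [T2.1, T3.2, e2.2, e3.1, e4.1, d1.2, d2.1, k1, k2, k3, p1, p2, p5, p6]
  · linarith only [T2.2, T3.1, e2.1, e3.2, e4.2, d1.1, d2.2, k1, k2, k3, p1, p2, p5, p6]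
  · linarith only [T3.2, e2.2, d1.2, d3, k1, k3, p1, p2, p5, p6]
  · linarith only [e7 a, k5, p7, p8]
  · linarith only [e8 a, k5, p7, p8]
  · have a1 := abs_le.1 (T4 a)
    have a2 := abs_le.1 (T5 a)
    have a3 := abs_le.1 (e5 a)
    have a4 := abs_le.1 (e6 a)
    exact abs_le.2 ⟨by linarith only [a1.1, a2.2, a3.1, a4.2, E2 a, k4, p9, p10, p11, p12],
      by linarith only [a1.2, a2.1, a3.2, a4.1, E2 a, k4, p9, p10, p11, p12]⟩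

theorem mkGd {om L C₁ C₂ C₃ η η' ε : ℝ} {p : X2 n} (hc : c.Ok f om L) (ho : om ≤ 1)
    (w0 : W0 f c) (w1 : W1 f c C₁ p) (wq : WQ c C₂ η' p) (w2 : W2 f c C₃ η p) (hη : η ≤ 1)
    (hp : p ∈ Nr f c 16) (he : 0 ≤ ε)
    (bs : ∀ i j, SB ee 6 ε 1 (fun y => c.γ₁ i j y - c.γ₂ i j y) p.1) : Gd f c C₁ C₂ p ε := by
  obtain ⟨-, a1, -, -, -, a2, -, a3, a4, -, a5, -⟩ := hc
  obtain ⟨b1, -, -, -, -, -, -, -, -, -, -, -, b2, -⟩ := w2
  obtain ⟨-, b3, -, -, b4, -, -, b5, -⟩ := b2 hp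
  obtain ⟨q1, -, q2, q3, -⟩ := w0.2.2.1 p
  have hv : 1 ≤ vv f c p := a1.trans q3
  have hQ0 : 0 ≤ QQ c p := le_trans (by positivity) q1
  refine ⟨w0, a2, a4, a3.mono ho, a5.mono ho, w1, fun i => (wq.2.2.2.1 i).2.2.1, hv, ?_,
    by linarith, ?_, b5, he, bs⟩
  · have := pow_le_pow_right₀ hv (by norm_num : 2 ≤ 20)
    nlinarith
  · have := mul_le_mul_of_nonneg_right (pow_le_pow_right₀ hv (by norm_num : 2 ≤ 8)) hQ0
    linarith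

theorem fin {A C₂ C F v Q R N a θ η n x1 x2 x3 : ℝ} {J : Type} {y1 y2 : J → ℝ} (hA : 0 ≤ A)
    (hn : 0 ≤ n) (hC : C = 1 + A + (A + 2 * A ^ 2) * ((1 + 2 * n ^ 2) * C₂ ^ 2))
    (v1 : 1 ≤ v) (hθ0 : 0 ≤ θ) (hθ1 : θ ≤ 1) (vF : v ^ 2 ≤ θ ^ 2 * F) (hQ : 0 ≤ Q)
    (vQ : v ^ 2 * Q ≤ θ ^ 2) (hR : R ^ 2 ≤ 2 * n ^ 2 * (v ^ 2 * Q))
    (hN : F * v ^ 2 * (1 + Q * F) ≤ C₂ ^ 2 * N) (hN0 : 0 ≤ N) (ha : 2 * F ≤ a)
    (hθ : A * (1 + 2 * n) * θ ≤ η)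
    (h : |x1 - 2 * x2 + x3| ≤ A * (F * v ^ 2 + F ^ 2 * R ^ 2) ∧
      |x2 - x3| ≤ A * (F * v ^ 2 + F ^ 2 * R) ∧
      x3 ≤ 8 * n * (2 * F) ^ 2 + A * (F * v ^ 2 + F ^ 2 * R) ∧
      ∀ j, |y1 j| ≤ A * (F * v) ∧ |y2 j| ≤ A * (F * v) ∧ |y1 j - y2 j| ≤ A * (v + F * v * R)) :
    |x1 - 2 * x2 + x3| ≤ C * N ∧ (x2 - x3) ^ 2 ≤ C * a ^ 2 * N ∧
      (1 ≤ n → x3 ≤ 8 * n * (1 + η) * a ^ 2) ∧
      ∀ j, |y1 j| ≤ C * a * v ∧ |y2 j| ≤ C * a * v ∧ (y1 j - y2 j) ^ 2 ≤ C * v ^ 2 * N := by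
  obtain ⟨h1, h2, h3, h4⟩ := h
  have t2 : θ ^ 2 ≤ θ := by nlinarith only [hθ0, hθ1]
  have hv2 : 1 ≤ v ^ 2 := one_le_pow₀ v1
  have hF0 : 0 ≤ F := by
    by_contra hh
    have := mul_nonpos_of_nonneg_of_nonpos (sq_nonneg θ) (not_le.1 hh).le
    linarith only [this, vF, hv2]
  have vF1 : v ^ 2 ≤ θ * F := vF.trans (mul_le_mul_of_nonneg_right t2 hF0)
  have vF2 : v ^ 2 ≤ F := vF1.trans (mul_le_of_le_one_left hF0 hθ1)
  have hN1 : 1 ≤ F * v ^ 2 := one_le_mul_of_one_le_of_one_le (hv2.trans vF2) hv2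
  obtain ⟨B, hB⟩ : ∃ B, B = (1 + 2 * n ^ 2) * C₂ ^ 2 := ⟨_, rfl⟩
  rw [← hB] at hC
  have hB0 : 0 ≤ B := by rw [hB]; positivity
  have k1 : F * v ^ 2 + F ^ 2 * R ^ 2 ≤ B * N := by
    have a1 := mul_le_mul_of_nonneg_left hR (sq_nonneg F)
    have a2 := mul_le_mul_of_nonneg_left hN (by positivity : 0 ≤ 1 + 2 * n ^ 2)
    have a3 : 0 ≤ n ^ 2 * (F * v ^ 2) := by positivity
    have a4 : 0 ≤ F ^ 2 * v ^ 2 * Q := by positivity
    rw [hB]; linarith only [a1, a2, a3, a4]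
  have c1 : A * B ≤ C := by linarith only [hC, hA, mul_nonneg (sq_nonneg A) hB0]
  have c2 : 2 * A ^ 2 * B ≤ C := by linarith only [hC, hA, mul_nonneg hA hB0]
  have c3 : A ≤ C := by linarith only [hC, mul_nonneg hA hB0, mul_nonneg (sq_nonneg A) hB0]
  have c4 : A * (F * v) ≤ C * a * v := by
    rw [mul_assoc]
    exact mul_le_mul c3 (mul_le_mul_of_nonneg_right (by linarith) (by linarith)) (by positivity)
      (hA.trans c3)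
  refine ⟨?_, ?_, fun n1 => ?_, fun j => ⟨(h4 j).1.trans c4, (h4 j).2.1.trans c4, ?_⟩⟩
  · refine h1.trans ((mul_le_mul_of_nonneg_left k1 hA).trans ?_)
    rw [← mul_assoc]
    exact mul_le_mul_of_nonneg_right c1 hN0
  · have a1 : (x2 - x3) ^ 2 ≤ (A * (F * v ^ 2 + F ^ 2 * R)) ^ 2 := sq_le_sq' (abs_le.1 h2).1
      (abs_le.1 h2).2
    have a2 : (v ^ 2 + F * R) ^ 2 ≤ 2 * (B * N) := by
      have := mul_le_mul_of_nonneg_right vF2 (sq_nonneg v)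
      linarith only [sq_nonneg (v ^ 2 - F * R), this, k1]
    have a3 : F ^ 2 ≤ a ^ 2 := pow_le_pow_left₀ hF0 (by linarith) 2
    calc (x2 - x3) ^ 2 ≤ A ^ 2 * F ^ 2 * (v ^ 2 + F * R) ^ 2 := a1.trans (le_of_eq (by ring))
      _ ≤ A ^ 2 * a ^ 2 * (2 * (B * N)) :=
        mul_le_mul (mul_le_mul_of_nonneg_left a3 (sq_nonneg A)) a2 (sq_nonneg _) (by positivity)
      _ = 2 * A ^ 2 * B * (a ^ 2 * N) := by ring
      _ ≤ C * (a ^ 2 * N) := mul_le_mul_of_nonneg_right c2 (by positivity)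
      _ = _ := by ring
  · have a1 : R ≤ 2 * n * θ := by
      refine (abs_le_of_sq_le_sq' ?_ (by positivity)).2
      have := mul_le_mul_of_nonneg_left vQ (by positivity : 0 ≤ 2 * n ^ 2)
      linarith only [mul_nonneg (sq_nonneg n) (sq_nonneg θ), this, hR]
    have a2 : F * v ^ 2 + F ^ 2 * R ≤ (1 + 2 * n) * θ * F ^ 2 := by
      have b1 := mul_le_mul_of_nonneg_left vF1 hF0
      have b2 := mul_le_mul_of_nonneg_left a1 (sq_nonneg F)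
      linarith only [b1, b2]
    have a3 := mul_le_mul_of_nonneg_left a2 hA
    have a4 := mul_le_mul_of_nonneg_right hθ (sq_nonneg F)
    have hη : 0 ≤ η := le_trans (by positivity) hθ
    have a5 : (2 * F) ^ 2 ≤ a ^ 2 := pow_le_pow_left₀ (by positivity) ha 2
    have a6 := mul_le_mul_of_nonneg_left a5 (by positivity : 0 ≤ 8 * n * (1 + η))
    have a7 := mul_le_mul_of_nonneg_right n1 (by positivity : 0 ≤ η * F ^ 2)
    have a8 : 0 ≤ n * (η * F ^ 2) := by positivity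
    linarith only [h3, a3, a4, a6, a7, a8]
  · have h5 := abs_le.1 (h4 j).2.2
    have a1 : (y1 j - y2 j) ^ 2 ≤ (A * (v + F * v * R)) ^ 2 := sq_le_sq' h5.1 h5.2
    have a2 : (1 + F * R) ^ 2 ≤ 2 * (B * N) := by
      linarith only [sq_nonneg (1 - F * R), k1, hN1]
    calc (y1 j - y2 j) ^ 2 ≤ A ^ 2 * v ^ 2 * (1 + F * R) ^ 2 := a1.trans (le_of_eq (by ring))
      _ ≤ A ^ 2 * v ^ 2 * (2 * (B * N)) := mul_le_mul_of_nonneg_left a2 (by positivity)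
      _ = 2 * A ^ 2 * B * (v ^ 2 * N) := by ring
      _ ≤ C * (v ^ 2 * N) := mul_le_mul_of_nonneg_right c2 (by positivity)
      _ = _ := by ring

end Ebc

open Ebc in
theorem s_ebc (h0 : S_w0) (hq : S_wq) (hh : S_hess) (h1 : S_w1) (h2 : S_w2) (hB : S_ccoB)
    (hm : S_wm) : S_ebc := by
  intro n ι f hf
  obtain ⟨Cq, cq, hq⟩ := hq n
  obtain ⟨C₁, c1, h1⟩ := h1 n ι f hf
  obtain ⟨C₂, c2, h2⟩ := h2 n ι f hf
  obtain ⟨Cm, cm, hm⟩ := hm n ι f hf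
  have hw : 0 ≤ f.Cw := zero_le_one.trans hf.2.2.2.2.2.2.2.2.2.2.2.1
  obtain ⟨K, hK, s1⟩ := step1 n ι f hw (zero_le_one.trans c1) (zero_le_one.trans cq)
  obtain ⟨K', hK', s2⟩ := diag hh hB n ι hf (zero_le_one.trans c1) (zero_le_one.trans cq) hK
  obtain ⟨A, hA⟩ : ∃ A, A = (Cm * Cm) ^ 2 * (6 * K + 4 * K') := ⟨_, rfl⟩
  have hA0 : 0 ≤ A := by rw [hA]; positivity
  refine ⟨1 + A + (A + 2 * A ^ 2) * ((1 + 2 * n ^ 2) * C₂ ^ 2),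
    by rw [add_assoc]; exact le_add_of_nonneg_right (by positivity), fun η hη => ?_⟩
  obtain ⟨θ, hθ0, hθ1, hθ⟩ : ∃ θ : ℝ, 0 < θ ∧ θ ≤ 1 ∧ A * (1 + 2 * n) * θ ≤ η := by
    refine ⟨min 1 (η / (A * (1 + 2 * n) + 1)), by positivity, min_le_left _ _, ?_⟩
    have a1 := (le_div_iff₀ (by positivity)).1 (min_le_right 1 (η / (A * (1 + 2 * n) + 1)))
    have a2 : 0 < min 1 (η / (A * (1 + 2 * n) + 1)) := by positivity
    linarith
  have hθ2 : θ ^ 2 ≤ 1 := pow_le_one₀ hθ0.le hθ1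
  refine ((Ev.ok f one_pos 1).and ((h0 n ι f hf).and ((hq ι f hf 1 one_pos).and
    (h1.and ((h2 (θ ^ 2) (by positivity)).and hm))))).mono ?_
  rintro c ⟨hc, w0, wq, w1, w2, wm, -⟩ p ⟨hp, bs⟩ hn
  have hL : 1 ≤ c.L0 := hc.2.1
  obtain ⟨q1, -, q2, -, q3, -⟩ := w0.2.2.1 p
  have hQ0 : 0 ≤ QQ c p := le_trans (by positivity) q1
  have ha0 := (w0.2.1 p.1).1
  have hL0 : 0 ≤ LX f c p.1 := by linarith [(w0.2.1 p.1).2.1]
  have g := mkGd hc le_rfl w0 (w1 p hp) (wq p hp) (w2 p hp) hθ2 hn (by positivity) bs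
  have hF : ∀ s ∈ Icc (0 : ℝ) 1, 0 ≤ FF f c (seg p s) ∧ FF f c (seg p s) ≤ FF f c p :=
    fun s hs => ⟨(w0.2.2.1 _).2.2.1.le, FF_seg hf hL hQ0 g.hQ hs⟩
  have gs : ∀ s ∈ Icc (0 : ℝ) 1, Gd f c C₁ Cq (seg p s) 4 := fun s hs => by
    have hp' := Om2_seg hp hs
    refine mkGd hc le_rfl w0 (w1 _ hp') (wq _ hp') (w2 _ hp') hθ2 ?_ (by norm_num) fun i j =>
      SbAlg.mono zero_le_one (SbAlg.sub (g.s1 i j).contDiffAt (g.s2 i j).contDiffAt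
        (sb_near g.s1 g.n1 i j _) (sb_near g.s2 g.n2 i j _)) (by omega) (by norm_num) le_rfl
    refine le_trans (mul_le_mul (pow_le_pow_left₀ ?_ ?_ 2) (hF s hs).2 (hF s hs).1
      (sq_nonneg _)) hn <;> rw [QQ_seg]
    · positivity
    · exact mul_le_of_le_one_left hQ0 (pow_le_one₀ hs.1 hs.2)
  have hv : ∀ s ∈ Icc (0 : ℝ) 1, 0 ≤ vv f c (seg p s) ∧
      vv f c (seg p s) ≤ Cm * Cm * vv f c p := fun s hs => by
    refine ⟨zero_le_one.trans (gs s hs).v1, (wm _).2.1.trans ?_⟩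
    rw [mul_assoc, uu_seg]
    refine mul_le_mul_of_nonneg_left (le_trans (cl_anti _ (by linarith) _ ?_) (wm p).1)
      (by linarith)
    have := Real.sqrt_le_sqrt (Om_seg hf hQ0 g.hQ hs)
    linarith
  have g0 := gs 0 ⟨le_rfl, zero_le_one⟩
  have hp0 := Om2_seg hp (s := 0) ⟨le_rfl, zero_le_one⟩
  rw [seg_zero] at g0 hp0
  obtain ⟨b1, -, -, -, -, -, -, -, -, -, -, -, b2, -⟩ := w2 p hp
  obtain ⟨-, b3, -, b4, -, b5, -⟩ := b2 hn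
  have hFa : FF f c p ≤ aX f c p.1 := by
    have := mul_le_mul_of_nonneg_right hθ2 ha0.le
    linarith [(abs_le.1 b4).2]
  have k := core hK hK' (by nlinarith) hA rfl w0 (s1 c p _ g) (fun s hs => s1 c _ _ (gs s hs))
    hF hv (s2 c _ _ _ _ g0 (s1 c _ _ g0) (wq _ hp0) (by simp [zz, pd0])) g.he
    (by
      rw [one_div, inv_mul_le_iff₀ (by positivity), mul_one]
      exact pow_le_pow_left₀ q2.le hFa 2) g.v1 g.vF
  have hv1 := g.v1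
  obtain ⟨z1, z2, z3, z4⟩ := fin (N := nl f c p) (a := al f c p) (Q := QQ c p) (C₂ := C₂) hA0
    (Nat.cast_nonneg n) rfl hv1 hθ0.le hθ1
    ((pow_le_pow_right₀ hv1 (by norm_num : 2 ≤ 20)).trans b1) hQ0
    ((mul_le_mul_of_nonneg_right (pow_le_pow_right₀ hv1 (by norm_num : 2 ≤ 8)) hQ0).trans b3)
    (by
      have := mul_le_mul_of_nonneg_left q1 (by positivity : 0 ≤ 2 * (n : ℝ) ^ 2 * vv f c p ^ 2)
      linarith)
    (by
      unfold nl Psi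
      rw [← mul_assoc]
      refine mul_le_mul_of_nonneg_right ?_ (by positivity)
      have := mul_le_mul hFa (pow_le_pow_left₀ (by linarith) b5 2) (sq_nonneg _) ha0.le
      linarith)
    (by unfold nl Psi; positivity) (by unfold al; nlinarith) hθ k
  refine ⟨z1, z2, ?_, z4⟩
  rcases Nat.eq_zero_or_pos n with rfl | hn1
  · simp [cY, cco, dvg, dir, dgd]
  · exact z3 (by exact_mod_cast hn1)

end Vale.Agent.P088
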