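import Vale.Agent.P088.StA

/-!
# P088: symbol calculus, composition
-/

open MeasureTheory Set Metric Filter
open scoped ContDiff Topology

noncomputable section
namespace Vale.Agent.P088
open Vale.Agent.P136 (D Dp Dm Sm Tst)

namespace SbComp
variable {X : Type} [NormedAddCommGroup X] [NormedSpace ℝ X] {κ : Type}

theorem sb1_succ {v : κ → X} {k : ℕ} {w L : ℝ} {g : X → ℝ} {p : X}
    (h : ∀ i, SB v k (w * L) L (D (v i) g) p) : SB1 v (k + 1) w L g p := by
  intro l hl hk
  obtain ⟨l', i, rfl⟩ := (List.eq_nil_or_concat' l).resolve_left hl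
  have := h i l' (by simpa using hk)
  rw [List.length_append, List.length_singleton, pow_succ', ← mul_assoc]
  unfold Ds at this ⊢
  rwa [List.foldr_append]

theorem sb_of {v : κ → X} {k : ℕ} {w L : ℝ} {g : X → ℝ} {p : X} (h0 : |g p| ≤ w)
    (h : SB1 v k w L g p) : SB v k w L g p := by
  intro l hl
  by_cases e : l = []
  · subst e
    simpa [Ds] using h0
  · exact h l e hl

theorem sb1_mono {v : κ → X} {k k' : ℕ} {w w' L : ℝ} {g : X → ℝ} {p : X} (h : SB1 v k w L g p)
    (hL : 0 ≤ L) (hk : k' ≤ k) (hw : w ≤ w') : SB1 v k' w' L g p := fun l h1 h2 =>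
  (h l h1 (h2.trans hk)).trans (mul_le_mul_of_nonneg_right hw (pow_nonneg hL _))

theorem chain {f : X → ℝ} {F : ℝ → ℝ} {p : X} (hf : ContDiffAt ℝ ∞ f p)
    (hF : ContDiffAt ℝ ∞ F (f p)) (a : X) :
    (fun x => deriv F (f x) * D a f x) =ᶠ[𝓝 p] D a fun x => F (f x) := by
  have h1 := (hf.of_le (m := 1) (by norm_cast)).eventually (by simp)
  have h2 := hf.continuousAt.eventually ((hF.of_le (m := 1) (by norm_cast)).eventually (by simp))
  filter_upwards [h1, h2] with x a1 a2
  have := ((a2.differentiableAt one_ne_zero).hasDerivAt.comp_hasFDerivAt x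
    (a1.differentiableAt one_ne_zero).hasFDerivAt).fderiv
  unfold D
  rw [show (fun x => F (f x)) = F ∘ f from rfl, this]
  rfl

theorem unif (k : ℕ) (m : ℕ → ℝ) : ∃ M, 1 ≤ M ∧ ∀ j ≤ k, m j ≤ M := by
  have h : 0 ≤ ∑ j ∈ Finset.range (k + 1), |m j| := Finset.sum_nonneg fun _ _ => abs_nonneg _
  refine ⟨1 + ∑ j ∈ Finset.range (k + 1), |m j|, by linarith, fun j hj => ?_⟩
  have := Finset.single_le_sum (f := fun j => |m j|) (fun _ _ => abs_nonneg _)
    (Finset.mem_range.2 (Nat.lt_succ_of_le hj))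
  linarith [le_abs_self (m j)]

theorem main (h : S_sbAlg) (k : ℕ) : ∃ C : ℝ, 1 ≤ C ∧ ∀ (X : Type) [NormedAddCommGroup X]
    [NormedSpace ℝ X] (κ : Type) (v : κ → X) (L w : ℝ) (p : X) (f : X → ℝ), 0 ≤ L →
    ContDiffAt ℝ ∞ f p → SB1 v k w L f p → ∀ (F : ℝ → ℝ) (A : ℝ), ContDiffAt ℝ ∞ F (f p) → 0 ≤ A →
    (∀ j < k, |iteratedDeriv (j + 1) F (f p)| * w ^ (j + 1) ≤ A) →
    SB1 v k (C * A) L (fun x => F (f x)) p := by
  induction k with
  | zero =>
    exact ⟨1, le_rfl, fun X _ _ κ v L w p f _ _ _ F A _ _ _ l h1 h2 =>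
      absurd (List.length_eq_zero_iff.1 (Nat.le_zero.1 h2)) h1⟩
  | succ k ih =>
    obtain ⟨C, hC, ih⟩ := ih
    have h2 : (1 : ℝ) ≤ 2 ^ k := one_le_pow₀ one_le_two
    refine ⟨2 ^ k * C, one_le_mul_of_one_le_of_one_le h2 hC,
      fun X _ _ κ v L w p f hL hf hs F A hF hA hb => sb1_succ fun i => ?_⟩
    obtain ⟨A', h0, h1, h3⟩ : ∃ A', 0 ≤ A' ∧ A' * w ≤ A ∧
        ∀ j ≤ k, |iteratedDeriv (j + 1) F (f p)| * w ^ j ≤ A' := by
      rcases lt_or_ge 0 w with hw | hw
      · refine ⟨A / w, by positivity, (div_mul_cancel₀ _ hw.ne').le, fun j hj => ?_⟩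
        rw [le_div_iff₀ hw, mul_assoc, ← pow_succ]
        exact hb j (Nat.lt_succ_of_le hj)
      · obtain ⟨M, hM, hM'⟩ := unif k fun j => |iteratedDeriv (j + 1) F (f p)| * w ^ j
        exact ⟨M, by linarith, by nlinarith, hM'⟩
    have hF' : ContDiffAt ℝ ∞ (deriv F) (f p) := hF.derivWithin (by simp)
    have h4 : SB v k (C * A') L (fun x => deriv F (f x)) p := by
      refine sb_of ?_ (ih X κ v L w p f hL hf (sb1_mono hs hL k.le_succ le_rfl) _ A' hF' h0
        fun j hj => ?_)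
      · have := h3 0 k.zero_le
        rw [pow_zero, mul_one, zero_add, iteratedDeriv_one] at this
        nlinarith
      · rw [← iteratedDeriv_succ']
        exact h3 _ hj
    obtain ⟨a1, a2, -, -, a5, -, a7, -⟩ := h X κ v k L p hL
    have hD : ContDiffAt ℝ ∞ (D (v i) f) p :=
      (hf.fderiv_right (m := ∞) (by simp)).clm_apply contDiffAt_const
    refine a2 _ k _ _ L (a1 _ _ _ (chain hf hF (v i))
      (a7 _ _ _ _ (hF'.comp p hf) hD h4 (a5 f w i hs)).2.2) le_rfl ?_ le_rfl
    have : 0 ≤ 2 ^ k * C * L := by positivity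
    nlinarith [mul_le_mul_of_nonneg_left h1 this]

theorem rpow_bd (r : ℝ) (j : ℕ) {y w B : ℝ} (hy : 0 < y) (hw : 0 ≤ w) (h : w ≤ B * y) :
    |iteratedDeriv j (fun x : ℝ => x ^ r) y| * w ^ j ≤
      |(descPochhammer ℝ j).eval r| * B ^ j * y ^ r := by
  rw [iteratedDeriv_eq_iterate, Real.iter_deriv_rpow_const, abs_mul,
    abs_of_pos (Real.rpow_pos_of_pos hy _), Real.rpow_sub_natCast hy.ne', mul_assoc, mul_assoc]
  refine mul_le_mul_of_nonneg_left ?_ (abs_nonneg _)
  have h1 : w ^ j ≤ B ^ j * y ^ j := by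
    rw [← mul_pow]
    exact pow_le_pow_left₀ hw h j
  have h2 : 0 < y ^ r := Real.rpow_pos_of_pos hy _
  rw [div_mul_eq_mul_div, div_le_iff₀ (by positivity)]
  nlinarith [mul_le_mul_of_nonneg_left h1 h2.le]

theorem cut_smooth : ContDiff ℝ ∞ cut :=
  Real.smoothTransition.contDiff.comp (contDiff_const.sub contDiff_id)

theorem cut_supp (j : ℕ) : HasCompactSupport (iteratedDeriv (j + 1) cut) := by
  induction j with
  | zero =>
    rw [zero_add, iteratedDeriv_one]
    refine HasCompactSupport.intro (isCompact_Icc (a := 1) (b := 2)) fun x hx => ?_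
    rcases not_and_or.1 hx with h | h
    · have : cut =ᶠ[𝓝 x] fun _ => 1 := by
        filter_upwards [Iio_mem_nhds (not_le.1 h)] with y hy
        exact Real.smoothTransition.one_of_one_le (by linarith [mem_Iio.1 hy])
      rw [this.deriv_eq, deriv_const]
    · have : cut =ᶠ[𝓝 x] fun _ => 0 := by
        filter_upwards [Ioi_mem_nhds (not_le.1 h)] with y hy
        exact Real.smoothTransition.zero_of_nonpos (by linarith [mem_Ioi.1 hy])
      rw [this.deriv_eq, deriv_const]
  | succ j ih =>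
    rw [iteratedDeriv_succ]
    exact ih.deriv

theorem cut_bd (j : ℕ) : ∃ M, ∀ y, |iteratedDeriv j cut y| ≤ M := by
  cases j with
  | zero =>
    exact ⟨1, fun y => abs_le.2 ⟨neg_one_lt_zero.le.trans (Real.smoothTransition.nonneg _),
      Real.smoothTransition.le_one _⟩⟩
  | succ j =>
    exact (cut_supp j).exists_bound_of_continuous
      (cut_smooth.continuous_iteratedDeriv _ (by exact_mod_cast le_top))

end SbComp

open SbComp in
theorem s_sbComp (h : S_sbAlg) : S_sbComp := by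
  intro k
  obtain ⟨C, hC, hm⟩ := main h k
  choose m hm' using cut_bd
  obtain ⟨M, hM, hM'⟩ := unif k fun j => max (m j)
    (max |(descPochhammer ℝ j).eval (-1)| |(descPochhammer ℝ j).eval (1 / 2)|)
  have hCM : C ≤ C * M := le_mul_of_one_le_right (by linarith) hM
  refine ⟨C * M, hC.trans hCM, fun X _ _ κ v L w p f hL hf hs => ?_⟩
  have key : ∀ w, SB1 v k w L f p → ∀ (F : ℝ → ℝ) (A A' : ℝ), ContDiffAt ℝ ∞ F (f p) →
      (∀ j ≤ k, |iteratedDeriv j F (f p)| * w ^ j ≤ A) → C * A ≤ A' →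
      SB v k A' L (fun x => F (f x)) p := fun w hs F A A' hF hb hA => by
    have h0 := hb 0 k.zero_le
    rw [pow_zero, mul_one, iteratedDeriv_zero] at h0
    have h1 := (abs_nonneg _).trans h0
    exact sb_of (by nlinarith) (sb1_mono (hm X κ v L w p f hL hf hs F A hF h1
      fun j hj => hb _ hj) hL le_rfl hA)
  have hs' : SB1 v k (max w 0) L f p := sb1_mono hs hL le_rfl (le_max_left _ _)
  have hw0 : 0 ≤ max w 0 := le_max_right _ _
  refine ⟨fun F A hF hb => key w hs F A _ hF hb ?_, fun hw => ?_, fun B hB hy hw => ?_,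
    fun B hB hw => ?_⟩
  · have h0 := hb 0 k.zero_le
    rw [pow_zero, mul_one] at h0
    exact mul_le_mul_of_nonneg_right hCM ((abs_nonneg _).trans h0)
  · refine key _ hs' Real.exp (Real.exp (f p)) _ Real.contDiff_exp.contDiffAt (fun j _ => ?_)
      (mul_le_mul_of_nonneg_right hCM (Real.exp_pos _).le)
    rw [iteratedDeriv_eq_iterate, Real.iter_deriv_exp, abs_of_pos (Real.exp_pos _)]
    exact mul_le_of_le_one_right (Real.exp_pos _).le (pow_le_one₀ hw0 (max_le hw zero_le_one))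
  · have hw' : max w 0 ≤ B * f p := max_le hw (by positivity)
    have hr : ∀ r : ℝ, (∀ j ≤ k, |(descPochhammer ℝ j).eval r| ≤ M) → ∀ j ≤ k,
        |iteratedDeriv j (fun x : ℝ => x ^ r) (f p)| * max w 0 ^ j ≤ M * B ^ j * f p ^ r :=
      fun r hr j hj => (rpow_bd r j hy hw0 hw').trans (mul_le_mul_of_nonneg_right
        (mul_le_mul_of_nonneg_right (hr j hj) (by positivity)) (by positivity))
    have hr' : ∀ r : ℝ, (∀ j ≤ k, |(descPochhammer ℝ j).eval r| ≤ M) →
        SB v k (C * M * B ^ k * f p ^ r) L (fun x => f x ^ r) p := fun r h =>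
      key _ hs' (fun x => x ^ r) (M * B ^ k * f p ^ r) _ (Real.contDiffAt_rpow_const_of_ne hy.ne')
        (fun j hj => (hr r h j hj).trans (by gcongr)) (by ring_nf; rfl)
    have b1 : ∀ j ≤ k, |(descPochhammer ℝ j).eval (-1)| ≤ M := fun j hj =>
      ((le_max_left _ _).trans (le_max_right _ _)).trans (hM' j hj)
    have b2 : ∀ j ≤ k, |(descPochhammer ℝ j).eval (1 / 2)| ≤ M := fun j hj =>
      ((le_max_right _ _).trans (le_max_right _ _)).trans (hM' j hj)
    refine ⟨?_, ?_, ?_⟩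
    · simpa only [Real.rpow_neg_one, div_eq_mul_inv] using hr' _ b1
    · simpa only [Real.sqrt_eq_rpow] using hr' _ b2
    · rw [mul_assoc]
      refine hm X κ v L _ p f hL hf hs' Real.log _ (Real.contDiffAt_log.2 hy.ne') (by positivity)
        fun j hj => ?_
      have e : deriv Real.log = fun x : ℝ => x ^ (-1 : ℝ) := funext fun x => by
        rw [Real.deriv_log, Real.rpow_neg_one]
      have h1 := hr _ b1 j hj.le
      rw [iteratedDeriv_succ', e, pow_succ, ← mul_assoc]
      refine (mul_le_mul h1 hw' hw0 (by positivity)).trans ?_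
      rw [Real.rpow_neg_one, show M * B ^ j * (f p)⁻¹ * (B * f p) = M * B ^ (j + 1) by
        rw [pow_succ]; field_simp]
      gcongr
      exact hj
  · refine key _ hs' cut (M * B ^ k) _ cut_smooth.contDiffAt (fun j hj => ?_) (mul_assoc _ _ _).ge
    refine mul_le_mul ((hm' j _).trans ((le_max_left _ _).trans (hM' j hj)))
      ((pow_le_pow_left₀ hw0 (max_le hw (by linarith)) j).trans (pow_le_pow_right₀ hB hj))
      (by positivity) (by linarith)

end Vale.Agent.P088
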