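import Vale.Agent.P088.StP
import Vale.Agent.P088.SbAlg
import Vale.Agent.P088.SbComp
import Vale.Agent.P088.SbLin

/-!
# P088: a uniform symbol calculus for pairs of functions
-/

open MeasureTheory Set Metric Filter
open scoped ContDiff Topology

noncomputable section
namespace Vale.Agent.P088
open Vale.Agent.P136 (D Dp Dm Sm Tst D_sub_at)

namespace Ebc

/-- A family of points with scales. -/
structure Fam (X κ' T : Type) where
  u : κ' → X
  p : T → X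
  L : T → ℝ
  a : T → ℝ
  ε : T → ℝ
  hL : ∀ t, 1 ≤ L t
  ha : ∀ t, L t ≤ a t
  hε : ∀ t, 0 ≤ ε t

variable {X : Type} [NormedAddCommGroup X] [NormedSpace ℝ X] {κ' T : Type}

/-- Uniform bounds of weight `a ^ i * L ^ j`. -/
def OD (M : Fam X κ' T) (k i j : ℕ) (f g : T → X → ℝ) : Prop :=
  ∃ C, 0 ≤ C ∧ ∀ t, Sm (f t) ∧ Sm (g t) ∧
    SD M.u k (C * (M.a t ^ i * M.L t ^ j)) (M.L t) (M.ε t) (f t) (g t) (M.p t)

variable {M : Fam X κ' T} {k i j : ℕ} {f g f' g' : T → X → ℝ}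

theorem Fam.L0 (M : Fam X κ' T) (t : T) : 0 ≤ M.L t := zero_le_one.trans (M.hL t)

theorem Fam.a0 (M : Fam X κ' T) (t : T) : 0 ≤ M.a t := (M.L0 t).trans (M.ha t)

theorem sd_mono {κ : Type} {v : κ → X} {k k' : ℕ} {w w' L ε : ℝ} {f g : X → ℝ} {p : X}
    (h : SD v k w L ε f g p) (hL : 0 ≤ L) (hε : 0 ≤ ε) (hk : k' ≤ k) (hw : w ≤ w') :
    SD v k' w' L ε f g p :=
  ⟨SbAlg.mono hL h.1 hk hw le_rfl, SbAlg.mono hL h.2.1 hk hw le_rfl,
    SbAlg.mono hL h.2.2 hk (mul_le_mul_of_nonneg_left hw hε) le_rfl⟩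

theorem OD.lo (h : OD M k i j f g) (k' : ℕ) (hk : k' ≤ k) : OD M k' i j f g := by
  obtain ⟨C, hC, h⟩ := h
  exact ⟨C, hC, fun t => ⟨(h t).1, (h t).2.1, sd_mono (h t).2.2 (M.L0 t) (M.hε t) hk le_rfl⟩⟩

theorem OD.up (h : OD M k i (j + 1) f g) : OD M k (i + 1) j f g := by
  obtain ⟨C, hC, h⟩ := h
  refine ⟨C, hC, fun t => ⟨(h t).1, (h t).2.1,
    sd_mono (h t).2.2 (M.L0 t) (M.hε t) le_rfl (mul_le_mul_of_nonneg_left ?_ hC)⟩⟩
  have h1 := M.L0 t
  have h2 := M.a0 t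
  have h3 := mul_le_mul_of_nonneg_left (M.ha t) (by positivity : 0 ≤ M.a t ^ i * M.L t ^ j)
  calc M.a t ^ i * M.L t ^ (j + 1) = M.a t ^ i * M.L t ^ j * M.L t := by ring
    _ ≤ M.a t ^ i * M.L t ^ j * M.a t := h3
    _ = _ := by ring

theorem OD.congr (h : OD M k i j f g) (h1 : ∀ t x, f t x = f' t x) (h2 : ∀ t x, g t x = g' t x) :
    OD M k i j f' g' := by
  have e1 : f = f' := funext fun t => funext (h1 t)
  have e2 : g = g' := funext fun t => funext (h2 t)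
  rwa [← e1, ← e2]

theorem OD.congr_ev (h : OD M k i j f g) (hs : ∀ t, Sm (f' t))
    (e : ∀ t, f t =ᶠ[𝓝 (M.p t)] f' t) : OD M k i j f' g := by
  obtain ⟨C, hC, h⟩ := h
  refine ⟨C, hC, fun t => ⟨hs t, (h t).2.1, SbAlg.congr (e t) (h t).2.2.1, (h t).2.2.2.1,
    SbAlg.congr ?_ (h t).2.2.2.2⟩⟩
  filter_upwards [e t] with x hx
  rw [hx]

theorem OD.of_SB {C : ℝ} (hC : 0 ≤ C) (h : ∀ t, Sm (f t) ∧
    SB M.u k (C * (M.a t ^ i * M.L t ^ j)) (M.L t) (f t) (M.p t)) : OD M k i j f f := by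
  refine ⟨C, hC, fun t => ⟨(h t).1, (h t).1, (h t).2, (h t).2, ?_⟩⟩
  have h0 := SbAlg.const (v := M.u) (k := k) (p := M.p t) (M.L0 t) 0
  have h1 := M.L0 t
  have h2 := M.a0 t
  have h3 := M.hε t
  simp only [sub_self]
  exact SbAlg.mono h1 h0 le_rfl (by rw [abs_zero]; positivity) le_rfl

theorem OD.const (c : ℝ) : OD M k 0 0 (fun _ _ => c) (fun _ _ => c) :=
  OD.of_SB (abs_nonneg c) fun t =>
    ⟨contDiff_const, by simpa using SbAlg.const (v := M.u) (k := k) (p := M.p t) (M.L0 t) c⟩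

theorem OD.add (h : OD M k i j f g) (h' : OD M k i j f' g') :
    OD M k i j (fun t x => f t x + f' t x) (fun t x => g t x + g' t x) := by
  obtain ⟨C, hC, h⟩ := h
  obtain ⟨C', hC', h'⟩ := h'
  refine ⟨C + C', by positivity, fun t => ⟨(h t).1.add (h' t).1, (h t).2.1.add (h' t).2.1, ?_⟩⟩
  rw [add_mul]
  exact (SbAlg.sd (M.L0 t) (h t).1.contDiffAt (h t).2.1.contDiffAt (h' t).1.contDiffAt
    (h' t).2.1.contDiffAt (h t).2.2 (h' t).2.2).1

theorem OD.mul {i' j' : ℕ} (h : OD M k i j f g) (h' : OD M k i' j' f' g') :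
    OD M k (i + i') (j + j') (fun t x => f t x * f' t x) (fun t x => g t x * g' t x) := by
  obtain ⟨C, hC, h⟩ := h
  obtain ⟨C', hC', h'⟩ := h'
  refine ⟨2 ^ (k + 1) * C * C', by positivity,
    fun t => ⟨(h t).1.mul (h' t).1, (h t).2.1.mul (h' t).2.1, ?_⟩⟩
  have := (SbAlg.sd (M.L0 t) (h t).1.contDiffAt (h t).2.1.contDiffAt (h' t).1.contDiffAt
    (h' t).2.1.contDiffAt (h t).2.2 (h' t).2.2).2
  refine sd_mono this (M.L0 t) (M.hε t) le_rfl (le_of_eq ?_)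
  ring

theorem OD.cmul (c : ℝ) (h : OD M k i j f g) :
    OD M k i j (fun t x => c * f t x) (fun t x => c * g t x) := by
  simpa using (OD.const c).mul h

theorem OD.sub (h : OD M k i j f g) (h' : OD M k i j f' g') :
    OD M k i j (fun t x => f t x - f' t x) (fun t x => g t x - g' t x) :=
  (h.add (h'.cmul (-1))).congr (fun _ _ => by ring) (fun _ _ => by ring)

theorem OD.sum {J : Type} [Fintype J] {f g : J → T → X → ℝ} (h : ∀ l, OD M k i j (f l) (g l)) :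
    OD M k i j (fun t x => ∑ l, f l t x) (fun t x => ∑ l, g l t x) := by
  classical
  have key : ∀ s : Finset J,
      OD M k i j (fun t x => ∑ l ∈ s, f l t x) (fun t x => ∑ l ∈ s, g l t x) := by
    intro s
    induction s using Finset.induction_on with
    | empty =>
      refine OD.of_SB (f := fun _ _ => ∑ l ∈ (∅ : Finset J), (0 : ℝ)) le_rfl fun t =>
        ⟨contDiff_const, ?_⟩
      simpa using SbAlg.const (v := M.u) (k := k) (p := M.p t) (M.L0 t) 0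
    | insert l s hl ih =>
      exact ((h l).add ih).congr (fun _ _ => by rw [Finset.sum_insert hl])
        (fun _ _ => by rw [Finset.sum_insert hl])
  exact key _

theorem OD.D {w : X} (hw : ∃ l, w = M.u l) (h : OD M (k + 1) i j f g) :
    OD M k i (j + 1) (fun t => D w (f t)) (fun t => D w (g t)) := by
  obtain ⟨l, rfl⟩ := hw
  obtain ⟨C, hC, h⟩ := h
  refine ⟨C, hC, fun t => ⟨(h t).1.D _, (h t).2.1.D _, ?_⟩⟩
  obtain ⟨s1, s2, h1, h2, h3⟩ := h t
  have e : C * (M.a t ^ i * M.L t ^ (j + 1)) = C * (M.a t ^ i * M.L t ^ j) * M.L t := by ring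
  rw [e]
  refine ⟨SbAlg.deriv l h1, SbAlg.deriv l h2, ?_⟩
  rw [← mul_assoc]
  exact SbAlg.congr (Eventually.of_forall fun x => D_sub_at (s1.dAt x) (s2.dAt x) _)
    (SbAlg.deriv l h3)

variable {κ : Type} [Fintype κ] {v w : κ → X}

theorem OD.dvg (hv : ∀ l, ∃ l', v l = M.u l') {Y Y' : T → κ → X → ℝ}
    (h : ∀ l, OD M (k + 1) i j (fun t => Y t l) (fun t => Y' t l)) :
    OD M k i (j + 1) (fun t => dvg v (Y t)) (fun t => dvg v (Y' t)) :=
  OD.sum fun l => (h l).D (hv l)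

theorem OD.dir {i' j' : ℕ} {Y Y' : T → κ → X → ℝ}
    (h : ∀ l, OD M k i j (fun t => Y t l) (fun t => Y' t l))
    (h' : ∀ l, OD M k i' j' (fun t => P136.D (v l) (f t)) (fun t => P136.D (v l) (g t))) :
    OD M k (i + i') (j + j') (fun t => dir v (Y t) (f t)) (fun t => dir v (Y' t) (g t)) :=
  OD.sum fun l => (h l).mul (h' l)

variable {γ γ' δ δ' : T → κ → κ → X → ℝ}

theorem OD.XX (hγ : ∀ a b, OD M k 0 0 (fun t => γ t a b) (fun t => γ' t a b))
    (h' : ∀ l, OD M k i j (fun t => P136.D (v l) (f t)) (fun t => P136.D (v l) (g t))) (a : κ) :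
    OD M k i j (fun t => XX v (γ t) (f t) a) (fun t => XX v (γ' t) (g t) a) := by
  have := OD.sum fun l => (hγ a l).mul (h' l)
  rw [Nat.zero_add, Nat.zero_add] at this
  exact this

theorem OD.dgd (hv : ∀ l, ∃ l', v l = M.u l')
    (hγ : ∀ a b, OD M (k + 1) 0 0 (fun t => γ t a b) (fun t => γ' t a b))
    (h' : ∀ l, OD M (k + 1) i j (fun t => P136.D (v l) (f t)) (fun t => P136.D (v l) (g t))) :
    OD M k i (j + 1) (fun t => dgd v (γ t) (f t)) (fun t => dgd v (γ' t) (g t)) :=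
  OD.dvg hv (OD.XX hγ h')

theorem od_cco (hv : ∀ l, ∃ l', v l = M.u l') {P P' : T → κ → X → ℝ}
    (hγ : ∀ a b, OD M 5 0 0 (fun t => γ t a b) (fun t => γ' t a b))
    (hφ : ∀ l, OD M 5 1 0 (fun t => D (v l) (f t)) (fun t => D (v l) (g t)))
    (hP : ∀ l, OD M 4 0 1 (fun t => P t l) (fun t => P' t l)) :
    OD M 2 2 2 (fun t => cco v (γ t) (f t) (P t)) (fun t => cco v (γ' t) (g t) (P' t)) := by
  have hX := OD.XX hγ hφ
  have hρ : OD M 5 2 0 _ _ := OD.dir hX hφ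
  have hPφ : OD M 4 1 1 _ _ := OD.dir hP fun l => (hφ l).lo 4 (by omega)
  have hd : OD M 4 1 1 _ _ := OD.dgd hv hγ hφ
  have hQ : ∀ a b, OD M 3 1 1 (fun t => Qco v (γ t) (f t) (P t) a b)
      (fun t => Qco v (γ' t) (g t) (P' t) a b) := by
    intro a b
    have t1 : OD M 3 1 1 _ _ :=
      OD.sum fun l => ((hγ a l).lo 3 (by omega)).mul (((hX b).lo 4 (by omega)).D (hv l))
    have t2 : OD M 3 1 1 _ _ :=
      OD.dir (v := v) (fun l => (hX l).lo 3 (by omega)) fun l => ((hγ a b).lo 4 (by omega)).D (hv l)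
    have t3 : OD M 3 1 1 _ _ := ((hPφ.lo 3 (by omega)).cmul 8).mul ((hγ a b).lo 3 (by omega))
    have t4 : OD M 3 1 1 _ _ := (((hX a).lo 3 (by omega)).cmul 16).mul ((hP b).lo 3 (by omega))
    have t5 : OD M 3 0 2 _ _ := OD.sum fun l => ((hγ a l).lo 3 (by omega)).mul ((hP b).D (hv l))
    have t6 : OD M 3 0 2 _ _ := OD.dvg hv (Y := fun t l q => γ t a b q * P t l q)
      (Y' := fun t l q => γ' t a b q * P' t l q) fun l => ((hγ a b).lo 4 (by omega)).mul (hP l)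
    exact (((((t1.cmul 8).sub (t2.cmul 4)).add t3).sub t4).add (t5.up.cmul 8)).sub (t6.up.cmul 4)
  have u1 : OD M 2 2 2 _ _ := OD.dvg hv
    (Y := fun t k q => ∑ l, (Qco v (γ t) (f t) (P t) l k q + Qco v (γ t) (f t) (P t) k l q) *
      D (v l) (f t) q)
    (Y' := fun t k q => ∑ l, (Qco v (γ' t) (g t) (P' t) l k q + Qco v (γ' t) (g t) (P' t) k l q) *
      D (v l) (g t) q)
    fun b => OD.sum fun l => ((hQ l b).add (hQ b l)).mul ((hφ l).lo 3 (by omega))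
  have u2 : OD M 2 2 2 _ _ := OD.sum fun b =>
    (OD.dir (v := v) (fun l => (hX l).lo 2 (by omega)) fun l => ((hP b).lo 3 (by omega)).D (hv l)).mul ((hφ b).lo 2 (by omega))
  have u3 : OD M 2 2 2 _ _ := ((OD.dvg hv fun l => (hP l).lo 3 (by omega)).cmul 8).mul (hρ.lo 2 (by omega))
  have u4 : OD M 2 2 2 _ _ := OD.sum fun a => OD.sum fun b =>
    ((OD.dir (v := v) (fun l => (hP l).lo 2 (by omega)) fun l => ((hγ a b).lo 3 (by omega)).D (hv l)).mul
      ((hφ a).lo 2 (by omega))).mul ((hφ b).lo 2 (by omega))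
  have u5 : OD M 2 2 2 _ _ :=
    OD.dir (v := v) (fun l => (hP l).lo 2 (by omega)) fun l => (hρ.lo 3 (by omega)).D (hv l)
  have u6 : OD M 2 2 2 _ _ :=
    OD.dir (v := v) (fun l => (hX l).lo 2 (by omega)) fun l => (hPφ.lo 3 (by omega)).D (hv l)
  have u7 : OD M 2 1 3 _ _ := OD.dgd hv (fun a b => (hγ a b).lo 3 (by omega)) fun l => hd.D (hv l)
  have u8 : OD M 2 1 3 _ _ := OD.dvg hv (Y := fun t l q => dgd v (γ t) (f t) q * P t l q)
    (Y' := fun t l q => dgd v (γ' t) (g t) q * P' t l q) fun l => (hd.lo 3 (by omega)).mul ((hP l).lo 3 (by omega))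
  have u9 : OD M 2 1 3 _ _ := OD.dgd hv (fun a b => (hγ a b).lo 3 (by omega)) fun l => hPφ.D (hv l)
  exact ((((((((u1.cmul (1 / 2)).add (u2.cmul 8)).sub u3).sub (u4.cmul 4)).sub (u5.cmul 4)).sub
    (u6.cmul 8)).add (u7.up.cmul 2)).sub (u8.up.cmul 4)).add (u9.up.cmul 4)

theorem od_tht (hv : ∀ l, ∃ l', v l = M.u l')
    (hγ : ∀ a b, OD M 5 0 0 (fun t => γ t a b) (fun t => γ' t a b))
    (hφ : ∀ l, OD M 5 1 0 (fun t => D (w l) (f t)) (fun t => D (w l) (g t))) (a : κ) :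
    OD M 3 1 2 (fun t => tht v w (γ t) (f t) a) (fun t => tht v w (γ' t) (g t) a) :=
  OD.dgd hv (fun a b => (hγ a b).lo 4 (by omega)) fun l => (hφ a).D (hv l)

/-- The main part of the mixed coefficient. -/
def mm (v w : κ → X) (γ₁ γ₂ : κ → κ → X → ℝ) (φ : X → ℝ) : X → ℝ := fun p =>
  8 * ∑ i, ∑ j, ∑ a, ∑ b, γ₁ i j p * γ₂ a b p * D (w a) (D (v i) φ) p * D (w b) (D (v j) φ) p

theorem od_mm (hw : ∀ l, ∃ l', w l = M.u l')
    (hγ : ∀ a b, OD M 5 0 0 (fun t => γ t a b) (fun t => γ' t a b))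
    (hδ : ∀ a b, OD M 5 0 0 (fun t => δ t a b) (fun t => δ' t a b))
    (hφ : ∀ l, OD M 5 1 0 (fun t => D (v l) (f t)) (fun t => D (v l) (g t))) :
    OD M 4 2 2 (fun t => mm v w (γ t) (δ t) (f t)) (fun t => mm v w (γ' t) (δ' t) (g t)) :=
  OD.cmul 8 (OD.sum fun i => OD.sum fun j => OD.sum fun a => OD.sum fun b =>
    ((((hγ i j).lo 4 (by omega)).mul ((hδ a b).lo 4 (by omega))).mul ((hφ i).D (hw a))).mul ((hφ j).D (hw b)))

theorem od_cmx (hv : ∀ l, ∃ l', v l = M.u l') (hw : ∀ l, ∃ l', w l = M.u l')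
    (hγ : ∀ a b, OD M 5 0 0 (fun t => γ t a b) (fun t => γ' t a b))
    (hδ : ∀ a b, OD M 5 0 0 (fun t => δ t a b) (fun t => δ' t a b))
    (hφ : ∀ l, OD M 5 1 0 (fun t => D (w l) (f t)) (fun t => D (w l) (g t))) :
    OD M 2 1 3 (fun t x => cmx v w (γ t) (δ t) (f t) x - mm v w (γ t) (δ t) (f t) x)
      (fun t x => cmx v w (γ' t) (δ' t) (g t) x - mm v w (γ' t) (δ' t) (g t) x) := by
  have u : OD M 2 1 3 _ _ := OD.dvg hw
    (Y := fun t b q => ∑ a, δ t a b q * tht v w (γ t) (f t) a q)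
    (Y' := fun t b q => ∑ a, δ' t a b q * tht v w (γ' t) (g t) a q)
    fun b => OD.sum fun a => ((hδ a b).lo 3 (by omega)).mul (od_tht hv hγ hφ a)
  exact (u.cmul (-2)).congr (fun t x => by simp only [cmx, mm]; ring)
    (fun t x => by simp only [cmx, mm]; ring)

end Ebc

end Vale.Agent.P088
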