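import Vale.Agent.P088.EbcA

/-!
# P088: symbol bounds for the zero-order coefficients near the diagonal
-/

open MeasureTheory Set Metric Filter
open scoped ContDiff Topology

noncomputable section
namespace Vale.Agent.P088
open Vale.Agent.P136 (D Dp Dm Sm Tst D_add_at D_const_mul_at)

namespace Ebc

variable {n : ℕ} {ι : Type}

theorem sb_fst {g : En n → ℝ} (hg : Sm g) {k : ℕ} {w : ℝ} {p : X2 n} (h : SB ee k w 1 g p.1) :
    SB exy k w 1 (fun q => g q.1) p := by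
  have := SbLin.lin0 (v := exy) (v' := ee) (ContinuousLinearMap.fst ℝ (En n) (En n)) 0
    (t := fun i j => Sum.elim (fun i => if i = j then (1 : ℝ) else 0) (fun _ => 0) i) (A := 1)
    (w := w) (L := 1) (k := k) (f := g) (p := p) zero_le_one
    (by rintro (i | i) <;> simp [exy, ex, ey]) (by rintro (i | i) <;> simp [abs_ite])
    hg.contDiffAt (by simpa using h)
  simpa using this

theorem sb_snd {g : En n → ℝ} (hg : Sm g) {k : ℕ} {w : ℝ} {p : X2 n} (h : SB ee k w 1 g p.2) :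
    SB exy k w 1 (fun q => g q.2) p := by
  have := SbLin.lin0 (v := exy) (v' := ee) (ContinuousLinearMap.snd ℝ (En n) (En n)) 0
    (t := fun i j => Sum.elim (fun _ => 0) (fun i => if i = j then (1 : ℝ) else 0) i) (A := 1)
    (w := w) (L := 1) (k := k) (f := g) (p := p) zero_le_one
    (by rintro (i | i) <;> simp [exy, ex, ey]) (by rintro (i | i) <;> simp [abs_ite])
    hg.contDiffAt (by simpa using h)
  simpa using this

theorem sb_near {γ : MatF n} (hs : SmM γ) (h : Near 8 1 γ) (i j : Fin n) (x : En n) :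
    SB ee 8 2 1 (γ i j) x := by
  have h1 := SbAlg.add (f := fun y => γ i j y - if i = j then 1 else 0)
    ((hs i j).sub contDiff_const).contDiffAt contDiff_const.contDiffAt (h i j x)
    (SbAlg.const (k := 8) (v := ee) (p := x) zero_le_one (if i = j then (1 : ℝ) else 0))
  simp only [sub_add_cancel] at h1
  refine SbAlg.mono zero_le_one h1 le_rfl ?_ le_rfl
  split_ifs <;> norm_num

theorem sm_mv (i : Fin n) : Sm fun p : X2 n => mv p i := by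
  unfold mv mid Sm
  fun_prop

section defs
variable (f : Fx) (c : Cx n ι)

/-- The model multiplier. -/
def P0 (γ : Fin n → Fin n → X2 n → ℝ) (i : Fin n) : X2 n → ℝ :=
  fun q => ∑ j, γ i j q * (vp f c q * mv q j)
def cX0 : X2 n → ℝ := cco ex (onX c.γ₂) (ph0 f c) (P0 f c (onX c.γ₂))
def cY0 : X2 n → ℝ := cco ey (onY c.γ₂) (ph0 f c) (P0 f c (onY c.γ₂))
def M0 : X2 n → ℝ := mm ex ey (onX c.γ₂) (onY c.γ₂) (ph0 f c)
def M1 : X2 n → ℝ := mm ex ey (onX c.γ₁) (onY c.γ₂) (phi f c)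
def tx0 (a : Fin n) : X2 n → ℝ := tht ex ey (onX c.γ₂) (ph0 f c) a
def ty0 (a : Fin n) : X2 n → ℝ := tht ey ex (onY c.γ₂) (ph0 f c) a

/-- The hypotheses at a point near the diagonal. -/
structure Gd (C₁ C₂ : ℝ) (p : X2 n) (ε : ℝ) : Prop where
  w0 : W0 f c
  s1 : SmM c.γ₁
  s2 : SmM c.γ₂
  n1 : Near 8 1 c.γ₁
  n2 : Near 8 1 c.γ₂
  w1 : W1 f c C₁ p
  mb : ∀ i, SB exy 6 C₂ 1 (fun p => mv p i) p
  v1 : 1 ≤ vv f c p
  vF : vv f c p ^ 2 ≤ FF f c p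
  sg : sig f c p ≤ 3
  vQ : vv f c p ^ 2 * QQ c p ≤ 1
  hQ : QQ c p < f.t0 ^ 2 / 4
  he : 0 ≤ ε
  bs : ∀ i j, SB ee 6 ε 1 (fun y => c.γ₁ i j y - c.γ₂ i j y) p.1

/-- The conclusions at such a point. -/
structure Rs1 (K : ℝ) (p : X2 n) (ε : ℝ) : Prop where
  x : SD exy 2 (K * FF f c p ^ 2) (vv f c p) ε (cX f c) (cX0 f c) p
  y : SD exy 2 (K * FF f c p ^ 2) (vv f c p) ε (cY f c) (cY0 f c) p
  m : SD exy 2 (K * FF f c p ^ 2) (vv f c p) ε (M1 f c) (M0 f c) p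
  r : |cM f c p - M1 f c p| ≤ K * (FF f c p * vv f c p ^ 2)
  tx : ∀ a, SD exy 1 (K * (FF f c p * vv f c p)) (vv f c p) ε (thx f c a) (tx0 f c a) p
  ty : ∀ a, SD exy 1 (K * (FF f c p * vv f c p)) (vv f c p) ε (thy f c a) (ty0 f c a) p
  h : ∀ i j, SB exy 2 (K * FF f c p) (vv f c p) (D (exy i) (D (exy j) (ph0 f c))) p
  P : ∀ i, SB exy 2 (K * vv f c p) (vv f c p) (P0 f c (onY c.γ₂) i) p
  sm : Sm (cX0 f c) ∧ Sm (cY0 f c) ∧ Sm (M0 f c) ∧ ∀ a, Sm (tx0 f c a) ∧ Sm (ty0 f c a)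

end defs

/-- The index type of the family. -/
abbrev TT0 (n : ℕ) (ι : Type) (f : Fx) (C₁ C₂ : ℝ) : Type :=
  {t : Cx n ι × X2 n × ℝ // Gd f t.1 C₁ C₂ t.2.1 t.2.2}

/-- The family. -/
def fam (n : ℕ) (ι : Type) (f : Fx) (C₁ C₂ : ℝ) :
    Fam (X2 n) (Fin n ⊕ Fin n) (TT0 n ι f C₁ C₂) where
  u := exy
  p t := t.1.2.1
  L t := vv f t.1.1 t.1.2.1
  a t := FF f t.1.1 t.1.2.1 / vv f t.1.1 t.1.2.1
  ε t := t.1.2.2
  hL t := t.2.v1
  ha t := by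
    have := t.2.v1
    rw [le_div_iff₀ (by linarith), ← sq]
    exact t.2.vF
  hε t := t.2.he

variable {f : Fx} {C₁ C₂ : ℝ}

theorem Gd.sm {c : Cx n ι} {p : X2 n} {ε : ℝ} (h : Gd f c C₁ C₂ p ε) :
    Sm (Psi f c) ∧ Sm (lu f c) ∧ Sm (ph0 f c) ∧ Sm (phi f c) ∧ Sm (vp f c) ∧
      ∀ i, Sm (Px f c i) ∧ Sm (Py f c i) := by
  obtain ⟨⟨-, -, -, -, -, -, -, -, -, a1, -, -, a2, a3, -, -, -, a4, -, -, -, -, -, -, -, a5, -, -,
    -, a6, -⟩, -⟩ := h.w0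
  exact ⟨a1, a2, a3, a4, a5, fun i => (a6 i).2.2⟩

theorem Gd.dphi (hC : 0 ≤ C₁) (hw : 0 ≤ f.Cw) {c : Cx n ι} {p : X2 n} {ε : ℝ}
    (h : Gd f c C₁ C₂ p ε) (i : Fin n ⊕ Fin n) :
    SB exy 5 ((9 * C₁ + f.Cw * C₁) * (FF f c p / vv f c p)) (vv f c p)
      (D (exy i) (ph0 f c)) p := by
  obtain ⟨s1, s2, -⟩ := h.sm
  obtain ⟨-, -, -, -, -, -, b1, -, -, -, b2, -⟩ := h.w1
  obtain ⟨-, -, b3, -⟩ := h.w0
  obtain ⟨q1, -, q2, -, q3, -⟩ := b3 p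
  have hv := h.v1
  have hv0 : 0 < vv f c p := by linarith
  have hQ0 : 0 ≤ QQ c p := le_trans (by positivity) q1
  have ha : vv f c p ≤ FF f c p / vv f c p := by
    rw [le_div_iff₀ hv0, ← sq]; exact h.vF
  have hs : vv f c p * √(QQ c p) ≤ 1 := by
    refine abs_le_of_sq_le_sq' ?_ zero_le_one |>.2
    rw [mul_pow, Real.sq_sqrt hQ0, one_pow]; exact h.vQ
  have hz : z0 f c p ≤ 9 * (FF f c p / vv f c p) := by
    rw [← mul_div_assoc, le_div_iff₀ hv0]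
    unfold z0 al
    have e : FF f c p * sig f c p * √(QQ c p) * vv f c p =
      FF f c p * (sig f c p * (vv f c p * √(QQ c p))) := by ring
    rw [e, mul_comm 9]
    refine mul_le_mul_of_nonneg_left ?_ q2.le
    have := mul_le_mul h.sg hs (by positivity) (by norm_num : (0 : ℝ) ≤ 3)
    linarith
  have hA : AA f c p ≤ 9 * FF f c p := by
    unfold AA
    rw [mul_comm 9]
    refine mul_le_mul_of_nonneg_left ?_ q2.le
    nlinarith [h.sg]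
  have t1 : SB exy 5 (9 * C₁ * (FF f c p / vv f c p)) (vv f c p) (D (exy i) (Psi f c)) p := by
    refine SbComp.sb_of (((b2 i).1).trans ?_) (SbComp.sb1_succ fun j => ?_)
    · nlinarith
    · refine SbAlg.mono hv0.le ((b2 j).2 i) le_rfl ?_ le_rfl
      rw [mul_assoc, div_mul_cancel₀ _ hv0.ne']
      nlinarith
  have t2 := SbAlg.cmul (s2.D _).contDiffAt (SbAlg.deriv1 i b1) f.Cw
  have t3 := SbAlg.add (s1.D _).contDiffAt (contDiff_const.mul (s2.D _)).contDiffAt t1 t2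
  refine SbAlg.mono hv0.le (SbAlg.congr (Eventually.of_forall fun x => ?_) t3) le_rfl ?_ le_rfl
  · have e : ph0 f c = fun y => Psi f c y + f.Cw * lu f c y := rfl
    rw [e, D_add_at (s1.dAt x) ((s2.cmul _).dAt x), D_const_mul_at (s2.dAt x)]
  · rw [abs_of_nonneg hw]
    have := mul_le_mul_of_nonneg_left ha (mul_nonneg hw hC)
    nlinarith

theorem Gd.evP {c : Cx n ι} {p : X2 n} {ε : ℝ} (h : Gd f c C₁ C₂ p ε) :
    ph0 f c =ᶠ[𝓝 p] phi f c ∧ ∀ i, P0 f c (onX c.γ₁) i =ᶠ[𝓝 p] Px f c i ∧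
      P0 f c (onY c.γ₂) i =ᶠ[𝓝 p] Py f c i := by
  obtain ⟨-, -, b3, -, b4⟩ := h.w0
  have hQ := h.hQ
  have e := ((b4 p).2.1 (by nlinarith [sq_nonneg f.t0])).1
  refine ⟨((b4 p).1 hQ).1.symm, fun i => ⟨?_, ?_⟩⟩
  · filter_upwards [e] with q hq
    simp only [P0, Px, up, pcx, sx, hq, Pi.zero_apply, zero_mul, zero_div, sub_zero, g1, onX]
  · filter_upwards [e] with q hq
    simp only [P0, Py, up, pcy, sy, hq, Pi.zero_apply, zero_mul, zero_div, add_zero, g2, onY]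

theorem unif {J : Type} [Fintype J] {P : J → ℝ → Prop} (hm : ∀ j C C', C ≤ C' → P j C → P j C')
    (h : ∀ j, ∃ C, 0 ≤ C ∧ P j C) : ∃ C, 0 ≤ C ∧ ∀ j, P j C := by
  choose C h0 h using h
  exact ⟨∑ j, C j, Finset.sum_nonneg fun j _ => h0 j, fun j => hm j _ _
    (Finset.single_le_sum (fun j _ => h0 j) (Finset.mem_univ j)) (h j)⟩

theorem OD.unif {X κ' T : Type} [NormedAddCommGroup X] [NormedSpace ℝ X] {M : Fam X κ' T}
    {k i j : ℕ} {J : Type} [Fintype J] {f g : J → T → X → ℝ} (h : ∀ l, OD M k i j (f l) (g l)) :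
    ∃ C, 0 ≤ C ∧ ∀ C', C ≤ C' → ∀ t l, SD M.u k (C' * (M.a t ^ i * M.L t ^ j)) (M.L t) (M.ε t)
      (f l t) (g l t) (M.p t) := by
  have hm : ∀ l C C', C ≤ C' → (∀ t, SD M.u k (C * (M.a t ^ i * M.L t ^ j)) (M.L t) (M.ε t)
      (f l t) (g l t) (M.p t)) → ∀ t, SD M.u k (C' * (M.a t ^ i * M.L t ^ j)) (M.L t) (M.ε t)
      (f l t) (g l t) (M.p t) := fun l C C' hC h t => by
    have h1 := M.L0 t
    have h2 := M.a0 t
    exact sd_mono (h t) h1 (M.hε t) le_rfl (mul_le_mul_of_nonneg_right hC (by positivity))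
  obtain ⟨C, hC, h⟩ := Ebc.unif hm fun l =>
    (h l).imp fun C hC => ⟨hC.1, fun t => (hC.2 t).2.2⟩
  exact ⟨C, hC, fun C' hC' t l => hm l C C' hC' (h l) t⟩

theorem OD.sm {X κ' T : Type} [NormedAddCommGroup X] [NormedSpace ℝ X] {M : Fam X κ' T}
    {k i j : ℕ} {f g : T → X → ℝ} (h : OD M k i j f g) (t : T) : Sm (g t) :=
  (h.choose_spec.2 t).2.1

theorem step1 (n : ℕ) (ι : Type) (f : Fx) (hw : 0 ≤ f.Cw) {C₁ C₂ : ℝ} (h1 : 0 ≤ C₁)
    (h2 : 0 ≤ C₂) : ∃ K, 0 ≤ K ∧ ∀ (c : Cx n ι) p ε, Gd f c C₁ C₂ p ε → Rs1 f c K p ε := by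
  have hx : ∀ l, ∃ l', ex l = (fam n ι f C₁ C₂).u l' := fun l => ⟨Sum.inl l, rfl⟩
  have hy : ∀ l, ∃ l', ey l = (fam n ι f C₁ C₂).u l' := fun l => ⟨Sum.inr l, rfl⟩
  have gX : ∀ a b, OD (fam n ι f C₁ C₂) 5 0 0 (fun t => onX t.1.1.γ₁ a b)
      (fun t => onX t.1.1.γ₂ a b) := fun a b => ⟨2, by norm_num, fun t =>
    ⟨(t.2.s1 a b).comp contDiff_fst, (t.2.s2 a b).comp contDiff_fst,
      SbAlg.mono zero_le_one (sb_fst (t.2.s1 a b) (sb_near t.2.s1 t.2.n1 a b _)) (by omega)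
        (by simp) t.2.v1,
      SbAlg.mono zero_le_one (sb_fst (t.2.s2 a b) (sb_near t.2.s2 t.2.n2 a b _)) (by omega)
        (by simp) t.2.v1,
      SbAlg.mono zero_le_one (sb_fst ((t.2.s1 a b).sub (t.2.s2 a b)) (t.2.bs a b)) (by omega)
        (by have := t.2.he; simp only [fam, pow_zero]; linarith) t.2.v1⟩⟩
  have gY : ∀ a b, OD (fam n ι f C₁ C₂) 5 0 0 (fun t => onY t.1.1.γ₂ a b)
      (fun t => onY t.1.1.γ₂ a b) := fun a b => OD.of_SB (C := 2) (by norm_num) fun t =>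
    ⟨(t.2.s2 a b).comp contDiff_snd,
      SbAlg.mono zero_le_one (sb_snd (t.2.s2 a b) (sb_near t.2.s2 t.2.n2 a b _)) (by omega)
        (by simp) t.2.v1⟩
  have d0 : ∀ i, OD (fam n ι f C₁ C₂) 5 1 0 (fun t => D (exy i) (ph0 f t.1.1))
      (fun t => D (exy i) (ph0 f t.1.1)) := fun i =>
    OD.of_SB (C := 9 * C₁ + f.Cw * C₁) (by positivity) fun t =>
      ⟨t.2.sm.2.2.1.D _, by simpa [fam] using t.2.dphi h1 hw i⟩
  have d1 : ∀ i, OD (fam n ι f C₁ C₂) 5 1 0 (fun t => D (exy i) (phi f t.1.1))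
      (fun t => D (exy i) (ph0 f t.1.1)) := fun i =>
    (d0 i).congr_ev (fun t => t.2.sm.2.2.2.1.D _) fun t => SbAlg.D_ev t.2.evP.1 _
  have hvp : OD (fam n ι f C₁ C₂) 5 0 1 (fun t => vp f t.1.1) (fun t => vp f t.1.1) :=
    OD.of_SB h1 fun t => ⟨t.2.sm.2.2.2.2.1, by
      have := t.2.v1
      exact SbAlg.mono (by linarith) t.2.w1.2.2.2.2.1 (by omega) (by simp [fam]) le_rfl⟩
  have hmv : ∀ j, OD (fam n ι f C₁ C₂) 5 0 0 (fun _ q => mv q j) (fun _ q => mv q j) := fun j =>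
    OD.of_SB h2 fun t => ⟨sm_mv j,
      SbAlg.mono zero_le_one (t.2.mb j) (by omega) (by simp) t.2.v1⟩
  have pX : ∀ i, OD (fam n ι f C₁ C₂) 4 0 1 (fun t => Px f t.1.1 i)
      (fun t => P0 f t.1.1 (onX t.1.1.γ₂) i) := fun i =>
    OD.congr_ev (f := fun t : TT0 n ι f C₁ C₂ => P0 f t.1.1 (onX t.1.1.γ₁) i)
      ((OD.sum fun j => (gX i j).mul (hvp.mul (hmv j))).lo 4 (by omega))
      (fun t => (t.2.sm.2.2.2.2.2 i).1) fun t => (t.2.evP.2 i).1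
  have pY : ∀ i, OD (fam n ι f C₁ C₂) 4 0 1 (fun t => Py f t.1.1 i)
      (fun t => P0 f t.1.1 (onY t.1.1.γ₂) i) := fun i =>
    OD.congr_ev (f := fun t : TT0 n ι f C₁ C₂ => P0 f t.1.1 (onY t.1.1.γ₂) i)
      ((OD.sum fun j => (gY i j).mul (hvp.mul (hmv j))).lo 4 (by omega))
      (fun t => (t.2.sm.2.2.2.2.2 i).2) fun t => (t.2.evP.2 i).2
  have o1 := od_cco hx gX (fun l => d1 (Sum.inl l)) pX
  have o2 := od_cco hy gY (fun l => d1 (Sum.inr l)) pY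
  have o3 := (od_mm (v := ex) hy gX gY fun l => d1 (Sum.inl l)).lo 2 (by omega)
  have o5 := fun a => (od_tht (w := ey) hx gX (fun l => d1 (Sum.inr l)) a).lo 1 (by omega)
  have o6 := fun a => (od_tht (w := ex) hy gY (fun l => d1 (Sum.inl l)) a).lo 1 (by omega)
  obtain ⟨K1, k1, r1⟩ := OD.unif fun _ : Unit => o1
  obtain ⟨K2, k2, r2⟩ := OD.unif fun _ : Unit => o2
  obtain ⟨K3, k3, r3⟩ := OD.unif fun _ : Unit => o3
  obtain ⟨K4, k4, r4⟩ := OD.unif fun _ : Unit => od_cmx hx hy gX gY fun l => d1 (Sum.inr l)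
  obtain ⟨K5, k5, r5⟩ := OD.unif o5
  obtain ⟨K6, k6, r6⟩ := OD.unif o6
  obtain ⟨K7, k7, r7⟩ := OD.unif fun a : (Fin n ⊕ Fin n) × (Fin n ⊕ Fin n) =>
    ((d0 a.2).D (w := exy a.1) ⟨a.1, rfl⟩).lo 2 (by omega)
  obtain ⟨K8, k8, r8⟩ := OD.unif fun a => (pY a).lo 2 (by omega)
  refine ⟨K1 + K2 + K3 + K4 + K5 + K6 + K7 + K8, by positivity, fun c p ε h => ?_⟩
  have hv : vv f c p ≠ 0 := by have := h.v1; positivity
  have e22 : (FF f c p / vv f c p) ^ 2 * vv f c p ^ 2 = FF f c p ^ 2 := by field_simp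
  have e13 : (FF f c p / vv f c p) ^ 1 * vv f c p ^ 3 = FF f c p * vv f c p ^ 2 := by field_simp
  have e12 : (FF f c p / vv f c p) ^ 1 * vv f c p ^ 2 = FF f c p * vv f c p := by field_simp
  have e11 : (FF f c p / vv f c p) ^ 1 * vv f c p ^ (0 + 1) = FF f c p := by
    rw [zero_add]; field_simp
  have e01 : (FF f c p / vv f c p) ^ 0 * vv f c p ^ 1 = vv f c p := by simp
  refine ⟨?_, ?_, ?_, ?_, fun a => ?_, fun a => ?_, fun i j => ?_, fun i => ?_,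
    o1.sm ⟨(c, p, ε), h⟩, o2.sm ⟨(c, p, ε), h⟩, o3.sm ⟨(c, p, ε), h⟩,
    fun a => ⟨(o5 a).sm ⟨(c, p, ε), h⟩, (o6 a).sm ⟨(c, p, ε), h⟩⟩⟩
  · rw [← e22]; exact r1 _ (by linarith) ⟨(c, p, ε), h⟩ ()
  · rw [← e22]; exact r2 _ (by linarith) ⟨(c, p, ε), h⟩ ()
  · rw [← e22]; exact r3 _ (by linarith) ⟨(c, p, ε), h⟩ ()
  · rw [← e13]
    have := (r4 (K1 + K2 + K3 + K4 + K5 + K6 + K7 + K8) (by linarith) ⟨(c, p, ε), h⟩ ()).1 []
      (by simp)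
    rw [List.length_nil, pow_zero, mul_one] at this
    exact this
  · rw [← e12]; exact r5 _ (by linarith) ⟨(c, p, ε), h⟩ a
  · rw [← e12]; exact r6 _ (by linarith) ⟨(c, p, ε), h⟩ a
  · have := (r7 (K1 + K2 + K3 + K4 + K5 + K6 + K7 + K8) (by linarith) ⟨(c, p, ε), h⟩ (i, j)).1
    rw [← e11]; exact this
  · have := (r8 (K1 + K2 + K3 + K4 + K5 + K6 + K7 + K8) (by linarith) ⟨(c, p, ε), h⟩ i).2.1
    simp only [fam] at this
    rw [e01] at this; exact this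

end Ebc

end Vale.Agent.P088
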