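import Vale.Agent.P088.EbcB

/-!
# P088: symmetry under the swap and Taylor expansion at the diagonal
-/

open MeasureTheory Set Metric Filter
open scoped ContDiff Topology

noncomputable section
namespace Vale.Agent.P088
open Vale.Agent.P136 (D Dp Dm Sm Tst D_comm)

namespace Ebc

variable {n : ℕ} {ι : Type}

theorem D_sw (w : X2 n) (g : X2 n → ℝ) (p : X2 n) :
    D w.swap g p.swap = D w (fun q => g q.swap) p := by
  have := (ContinuousLinearEquiv.prodComm ℝ (En n) (En n)).comp_right_fderiv (f := g) (x := p)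
  exact (congrArg (fun A : X2 n →L[ℝ] ℝ => A w) this).symm

theorem D_swy (i : Fin n) (g : X2 n → ℝ) (p : X2 n) :
    D (ey i) g p.swap = D (ex i) (fun q => g q.swap) p := D_sw (ex i) g p

theorem D_swx (i : Fin n) (g : X2 n → ℝ) (p : X2 n) :
    D (ex i) g p.swap = D (ey i) (fun q => g q.swap) p := D_sw (ey i) g p

theorem mv_swap (p : X2 n) : mv p.swap = mv p := by
  funext i
  simp only [mv, mid, Prod.fst_swap, Prod.snd_swap, add_comm]

theorem sum4 {κ : Type} [Fintype κ] (F : κ → κ → κ → κ → ℝ) :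
    ∑ i, ∑ j, ∑ a, ∑ b, F i j a b = ∑ a, ∑ b, ∑ i, ∑ j, F i j a b := by
  have := Finset.sum_comm (s := Finset.univ) (t := Finset.univ)
    (f := fun (x : κ × κ) (y : κ × κ) => F x.1 x.2 y.1 y.2)
  simpa only [Fintype.sum_prod_type] using this

variable {f : Fx} {c : Cx n ι}

theorem cY0_swap (h : W0 f c) (p : X2 n) : cY0 f c p.swap = cX0 f c p := by
  have h1 : ∀ q : X2 n, ph0 f c q.swap = ph0 f c q := fun q => (h.2.2.2.1 q).2.2.2.2.1
  have h2 : ∀ q : X2 n, vp f c q.swap = vp f c q := fun q => (h.2.2.2.1 q).2.2.2.2.2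
  simp only [cX0, cY0, cco, Qco, dvg, dir, XX, dgd, D_swy, onX, onY, P0, Prod.snd_swap, h1, h2,
    mv_swap]
  rfl

theorem tx0_swap (h : W0 f c) (a : Fin n) (p : X2 n) : tx0 f c a p.swap = ty0 f c a p := by
  have h1 : ∀ q : X2 n, ph0 f c q.swap = ph0 f c q := fun q => (h.2.2.2.1 q).2.2.2.2.1
  simp only [tx0, ty0, tht, dvg, XX, dgd, D_swy, D_swx, onX, onY, Prod.fst_swap, h1]
  rfl

theorem M0_swap (h : W0 f c) (p : X2 n) : M0 f c p.swap = M0 f c p := by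
  have h1 : ∀ q : X2 n, ph0 f c q.swap = ph0 f c q := fun q => (h.2.2.2.1 q).2.2.2.2.1
  have hs : Sm (ph0 f c) := h.1.2.2.2.2.2.2.2.2.2.2.2.2.2.1
  simp only [M0, mm, D_swy, D_swx, onX, onY, Prod.fst_swap, Prod.snd_swap, h1]
  rw [sum4]
  refine congrArg (8 * ·) (Finset.sum_congr rfl fun i _ => Finset.sum_congr rfl fun j _ =>
    Finset.sum_congr rfl fun a _ => Finset.sum_congr rfl fun b _ => ?_)
  rw [D_comm hs (ex i) (ey a), D_comm hs (ex j) (ey b)]
  ring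

/-- Directions transversal to the diagonal. -/
def dv (i : Fin n) : X2 n := ey i - ex i

/-- The projection to the diagonal. -/
def pd0 (p : X2 n) : X2 n := (mid p, mid p)

/-- The segment from the diagonal to `p`. -/
def seg (p : X2 n) (s : ℝ) : X2 n := pd0 p + s • ∑ i, (zz p i / 2) • dv i

theorem W_eq (p : X2 n) :
    ∑ i, (zz p i / 2) • dv i = (-((1 / 2 : ℝ) • zz p), (1 / 2 : ℝ) • zz p) := by
  refine Prod.ext ?_ ?_
  · ext j
    simp [Prod.fst_sum, dv, ex, ey, ee, Pi.single_apply]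
    ring
  · ext j
    simp [Prod.snd_sum, dv, ex, ey, ee, Pi.single_apply]
    ring

theorem mid_seg (p : X2 n) (s : ℝ) : mid (seg p s) = mid p := by
  simp only [seg, W_eq, pd0, mid, Prod.fst_add, Prod.snd_add, Prod.smul_mk]
  module

theorem zz_seg (p : X2 n) (s : ℝ) : zz (seg p s) = s • zz p := by
  rw [seg, W_eq]
  simp only [pd0, zz, Prod.fst_add, Prod.snd_add, Prod.smul_mk]
  module

theorem seg_one (p : X2 n) : pd0 p + ∑ i, (zz p i / 2) • dv i = p := by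
  rw [W_eq]
  refine Prod.ext ?_ ?_ <;> simp only [pd0, mid, zz, Prod.fst_add, Prod.snd_add] <;> module

theorem seg_zero (p : X2 n) : seg p 0 = pd0 p := by simp [seg]

theorem QQ_seg (p : X2 n) (s : ℝ) : QQ c (seg p s) = s ^ 2 * QQ c p := by
  simp only [QQ, zt, Gm, mid_seg, zz_seg, PiLp.smul_apply, smul_eq_mul, Finset.mul_sum,
    Finset.sum_mul]
  exact Finset.sum_congr rfl fun i _ => Finset.sum_congr rfl fun j _ => by ring

theorem uu_seg (p : X2 n) (s : ℝ) : uu (seg p s) = uu p := by simp only [uu, mid_seg]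

theorem Om2_seg {p : X2 n} (hp : p ∈ Om2 c) {s : ℝ} (hs : s ∈ Icc (0 : ℝ) 1) :
    seg p s ∈ Om2 c := by
  obtain ⟨h1, h2⟩ := hp
  obtain ⟨s0, s1⟩ := hs
  have key : ∀ a b : ℝ, 0 ≤ a → 0 ≤ b → a + b = 1 →
      ‖a • (p.1 - c.p0) + b • (p.2 - c.p0)‖ ≤ 1 / 2 := fun a b ha hb hab => by
    refine (norm_add_le _ _).trans ?_
    rw [norm_smul, norm_smul, Real.norm_of_nonneg ha, Real.norm_of_nonneg hb]
    nlinarith
  constructor
  · have e : (seg p s).1 - c.p0 =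
        ((1 + s) / 2) • (p.1 - c.p0) + ((1 - s) / 2) • (p.2 - c.p0) := by
      rw [seg, W_eq]
      simp only [pd0, mid, zz, Prod.fst_add, Prod.smul_mk]
      module
    rw [e]; exact key _ _ (by linarith) (by linarith) (by ring)
  · have e : (seg p s).2 - c.p0 =
        ((1 - s) / 2) • (p.1 - c.p0) + ((1 + s) / 2) • (p.2 - c.p0) := by
      rw [seg, W_eq]
      simp only [pd0, mid, zz, Prod.snd_add, Prod.smul_mk]
      module
    rw [e]; exact key _ _ (by linarith) (by linarith) (by ring)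

theorem sb_dv {G : X2 n → ℝ} (hG : Sm G) {k : ℕ} {w L : ℝ} (hL : 0 ≤ L) {q : X2 n}
    (h : SB exy k w L G q) : SB dv k w (2 * L) G q := by
  have := SbLin.lin0 (v := dv) (v' := exy) (ContinuousLinearMap.id ℝ (X2 n)) 0
    (t := fun i j => Sum.elim (fun j => if i = j then (-1 : ℝ) else 0)
      (fun j => if i = j then (1 : ℝ) else 0) j) (A := 2)
    (w := w) (L := L) (k := k) (f := G) (p := q) hL
    (fun i => by simp [exy, dv, Fintype.sum_sum_type, sub_eq_neg_add])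
    (fun i => by simp [Fintype.sum_sum_type, abs_ite]; norm_num)
    hG.contDiffAt (by simpa using h)
  simpa using this

theorem tay {G : X2 n → ℝ} (hG : Sm G) {k : ℕ} (hk : 1 ≤ k) {w L : ℝ} (hL : 0 ≤ L) {p : X2 n}
    (hb : ∀ s ∈ Icc (0 : ℝ) 1, SB exy k w L G (seg p s))
    (h0 : ∀ l : List (Fin n), l ≠ [] → l.length < k → Ds dv l G (pd0 p) = 0) :
    |G p - G (pd0 p)| ≤ w * (L * (n * ‖zz p‖)) ^ k := by
  have h1 := SbLin.taylor dv G (pd0 p) (fun i => zz p i / 2) k (w * (2 * L) ^ k)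
    (fun _ _ => hG.contDiffAt) (fun s hs l hl => hl ▸ sb_dv hG hL (hb s hs) l hl.le) h0 hk
  rw [seg_one] at h1
  have hw := SbAlg.nonneg (hb 0 ⟨le_rfl, zero_le_one⟩)
  have h2 : ∑ i, |zz p i / 2| ≤ n * ‖zz p‖ / 2 := by
    have : ∀ i, |zz p i / 2| ≤ ‖zz p‖ / 2 := fun i => by
      rw [abs_div, abs_two]
      have := PiLp.norm_apply_le (zz p) i
      rw [Real.norm_eq_abs] at this
      linarith
    refine (Finset.sum_le_sum fun i _ => this i).trans (le_of_eq ?_)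
    simp [mul_div_assoc]
  refine h1.trans ?_
  rw [mul_assoc, ← mul_pow]
  refine mul_le_mul_of_nonneg_left (pow_le_pow_left₀ (by positivity) ?_ k) hw
  nlinarith

theorem tay1 {G : X2 n → ℝ} (hG : Sm G) {w L : ℝ} (hL : 0 ≤ L) {p : X2 n}
    (hb : ∀ s ∈ Icc (0 : ℝ) 1, SB exy 1 w L G (seg p s)) :
    |G p - G (pd0 p)| ≤ w * (L * (n * ‖zz p‖)) := by
  simpa using tay hG le_rfl hL hb fun l h1 h2 => absurd (List.length_eq_zero_iff.1 (by omega)) h1

theorem tay2 {G : X2 n → ℝ} (hG : Sm G) {w L : ℝ} (hL : 0 ≤ L) {p : X2 n}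
    (hb : ∀ s ∈ Icc (0 : ℝ) 1, SB exy 2 w L G (seg p s)) (hs : ∀ q : X2 n, G q.swap = G q) :
    |G p - G (pd0 p)| ≤ w * (L * (n * ‖zz p‖)) ^ 2 := by
  refine tay hG (by norm_num) hL hb fun l h1 h2 => ?_
  obtain ⟨i, rfl⟩ : ∃ i, l = [i] := List.length_eq_one_iff.1 (by
    have := List.length_pos_iff.2 h1
    omega)
  have e := D_swy i G (pd0 p)
  simp only [hs] at e
  have e2 : D (dv i) G (pd0 p) = D (ey i) G (pd0 p) - D (ex i) G (pd0 p) := by
    simp only [D, dv, map_sub]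
  exact e2.trans (sub_eq_zero.2 e)

theorem cl_anti (L0 : ℝ) (hL : 0 < L0) (J : ℕ) {y y' : ℝ} (h : y ≤ y') : cl L0 J y' ≤ cl L0 J y :=
  max_le_max le_rfl (one_div_le_one_div_of_le (lt_max_of_lt_right (by positivity))
    (max_le_max h le_rfl))

theorem Om_seg (hf : f.Ok) {p : X2 n} (h0 : 0 ≤ QQ c p) (hQ : QQ c p < f.t0 ^ 2 / 4) {s : ℝ}
    (hs : s ∈ Icc (0 : ℝ) 1) : f.Om (QQ c (seg p s)) ≤ f.Om (QQ c p) := by
  have h1 := hf.2.2.2.2.2.2.2.2.2.2.2.2.2.2.2.1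
  have h2 : s ^ 2 * QQ c p ≤ QQ c p := by
    have : s ^ 2 ≤ 1 := pow_le_one₀ hs.1 hs.2
    nlinarith
  have h3 : QQ c p ≤ f.t0 ^ 2 := by nlinarith [sq_nonneg f.t0]
  rw [QQ_seg, h1 _ h3, h1 _ (h2.trans h3)]
  linarith

theorem FF_seg (hf : f.Ok) (hL : 1 ≤ c.L0) {p : X2 n} (h0 : 0 ≤ QQ c p)
    (hQ : QQ c p < f.t0 ^ 2 / 4) {s : ℝ} (hs : s ∈ Icc (0 : ℝ) 1) :
    FF f c (seg p s) ≤ FF f c p := by
  refine Finset.sum_le_sum fun j _ => ?_
  have h1 : 0 ≤ wj f.K c.L0 c.sg j := by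
    unfold wj omj
    positivity
  refine mul_le_mul_of_nonneg_left (Real.exp_le_exp.2 ?_) h1
  rw [uu_seg]
  refine add_le_add le_rfl (Real.sqrt_le_sqrt ?_)
  have := mul_le_mul_of_nonneg_left (Om_seg hf h0 hQ hs) (sq_nonneg (omj c.L0 j))
  linarith

end Ebc

end Vale.Agent.P088
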