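import Vale.Agent.P088.EbcC

/-!
# P088: the zero-order coefficients on the diagonal
-/

open MeasureTheory Set Metric Filter
open scoped ContDiff Topology

noncomputable section
namespace Vale.Agent.P088
open Vale.Agent.P136 (D Dp Dm Sm Tst D_add_at D_const_mul_at)

namespace Ebc

variable {n : ℕ} {ι : Type}

theorem alg0 {γ G : Fin n → Fin n → ℝ} (hs : ∀ i j, γ i j = γ j i) (hs' : ∀ i j, G i j = G j i)
    (hi : ∀ i j, ∑ l, γ i l * G l j = if i = j then 1 else 0) (s : ℝ) :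
    ∑ i, ∑ j, ∑ k, ∑ l, γ i j * γ k l * (s * G i k) * (s * G j l) = n * s ^ 2 := by
  rw [Finset.sum_comm]
  have e : ∀ j, ∑ i, ∑ k, ∑ l, γ i j * γ k l * (s * G i k) * (s * G j l) = s ^ 2 := by
    intro j
    rw [Finset.sum_comm]
    have e2 : ∀ k, ∑ i, ∑ l, γ i j * γ k l * (s * G i k) * (s * G j l) =
        s ^ 2 * ((∑ i, γ j i * G i k) * ∑ l, γ k l * G l j) := by
      intro k
      rw [Finset.sum_mul_sum, Finset.mul_sum]
      refine Finset.sum_congr rfl fun i _ => ?_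
      rw [Finset.mul_sum]
      refine Finset.sum_congr rfl fun l _ => ?_
      rw [hs i j, hs' j l]
      ring
    simp [e2, hi]
  simp [e]

theorem alg {γ G A : Fin n → Fin n → ℝ} (hs : ∀ i j, γ i j = γ j i) (hs' : ∀ i j, G i j = G j i)
    (hi : ∀ i j, ∑ l, γ i l * G l j = if i = j then 1 else 0) {s B δ : ℝ}
    (hγ : ∀ i j, |γ i j| ≤ 2) (hG : ∀ i j, |G i j| ≤ B) (hA : ∀ i k, |A i k - s * G i k| ≤ δ) :
    |∑ i, ∑ j, ∑ k, ∑ l, γ i j * γ k l * A i k * A j l - n * s ^ 2| ≤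
      n ^ 4 * (4 * (2 * |s| * B * δ + δ ^ 2)) := by
  rw [← alg0 hs hs' hi s]
  simp only [← Finset.sum_sub_distrib]
  have key : ∀ i j k l, |γ i j * γ k l * A i k * A j l - γ i j * γ k l * (s * G i k) * (s * G j l)|
      ≤ 4 * (2 * |s| * B * δ + δ ^ 2) := by
    intro i j k l
    have hδ : 0 ≤ δ := (abs_nonneg _).trans (hA i j)
    have hB : 0 ≤ B := (abs_nonneg _).trans (hG i j)
    have e : γ i j * γ k l * A i k * A j l - γ i j * γ k l * (s * G i k) * (s * G j l) =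
        γ i j * γ k l * ((A i k - s * G i k) * (s * G j l) + s * G i k * (A j l - s * G j l) +
          (A i k - s * G i k) * (A j l - s * G j l)) := by ring
    have b1 : |γ i j * γ k l| ≤ 4 := by
      rw [abs_mul]
      have := mul_le_mul (hγ i j) (hγ k l) (abs_nonneg _) (by norm_num)
      linarith
    have b2 : ∀ a b, |s * G a b| ≤ |s| * B := fun a b => by
      rw [abs_mul]; exact mul_le_mul_of_nonneg_left (hG a b) (abs_nonneg _)
    have b3 : |(A i k - s * G i k) * (s * G j l)| ≤ δ * (|s| * B) := by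
      rw [abs_mul]; exact mul_le_mul (hA i k) (b2 j l) (abs_nonneg _) hδ
    have b4 : |s * G i k * (A j l - s * G j l)| ≤ |s| * B * δ := by
      rw [abs_mul]; exact mul_le_mul (b2 i k) (hA j l) (abs_nonneg _) (by positivity)
    have b5 : |(A i k - s * G i k) * (A j l - s * G j l)| ≤ δ * δ := by
      rw [abs_mul]; exact mul_le_mul (hA i k) (hA j l) (abs_nonneg _) hδ
    rw [e, abs_mul]
    refine mul_le_mul b1 ((abs_add_three _ _ _).trans ?_) (abs_nonneg _) (by norm_num)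
    nlinarith
  have gen : ∀ (F : Fin n → ℝ) (b : ℝ), (∀ i, |F i| ≤ b) → |∑ i, F i| ≤ n * b := fun F b h =>
    (Finset.abs_sum_le_sum_abs _ _).trans
      ((Finset.sum_le_sum fun i _ => h i).trans (le_of_eq (by simp)))
  refine (gen _ _ fun i => gen _ _ fun j => gen _ _ fun k => gen _ _ fun l => key i j k l).trans
    (le_of_eq ?_)
  ring

theorem sb_ey {k : ℕ} {w L : ℝ} {g : X2 n → ℝ} {p : X2 n} (h : SB exy k w L g p) :
    SB ey k w L g p := fun l hl => by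
  have := h (l.map Sum.inr) (by simpa using hl)
  rw [List.length_map] at this
  unfold Ds at this ⊢
  rwa [List.foldr_map] at this

theorem sb_zero {κ : Type} {X : Type} [NormedAddCommGroup X] [NormedSpace ℝ X] {v : κ → X} {k : ℕ}
    {w L : ℝ} {g : X → ℝ} {p : X} (h : SB v k w L g p) : |g p| ≤ w := by
  simpa [Ds] using h [] (by simp)

variable {f : Fx} {c : Cx n ι}

theorem diag_facts (hh : S_hess) (hf : f.Ok) {C₁ C₂ C₃ η ε : ℝ} {q : X2 n}
    (h : Gd f c C₁ C₂ q ε) (hq : WQ c C₃ η q) (hz : zz q = 0) :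
    al f c q = 2 * FF f c q ∧ (∀ i, |D (exy i) (ph0 f c) q| ≤ f.Cw * C₁ * vv f c q) ∧
    (∀ i k, |D (ey i) (D (ey k) (ph0 f c)) q - al f c q * Gm c q i k| ≤
      f.Cw * C₁ * vv f c q ^ 2) ∧
    ∀ i k, |D (ey k) (D (ex i) (ph0 f c)) q - -al f c q * Gm c q i k| ≤
      f.Cw * C₁ * vv f c q ^ 2 := by
  have hQ : QQ c q = 0 := by simp [QQ, hz]
  have hw : 0 ≤ f.Cw := zero_le_one.trans hf.2.2.2.2.2.2.2.2.2.2.2.1
  obtain ⟨s1, s2, -⟩ := h.sm
  obtain ⟨-, -, -, -, -, -, b1, -, -, -, b2, -⟩ := h.w1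
  obtain ⟨-, -, q3, -, -, -, q7, -⟩ := hq
  simp only [hQ, Real.sqrt_zero, mul_zero, abs_nonpos_iff] at q3 q7
  have e : ph0 f c = fun y => Psi f c y + f.Cw * lu f c y := rfl
  have d1 : ∀ w, D w (ph0 f c) = fun x => D w (Psi f c) x + f.Cw * D w (lu f c) x := fun w =>
    funext fun x => by
      rw [e, D_add_at (s1.dAt x) ((s2.cmul _).dAt x), D_const_mul_at (s2.dAt x)]
  have d2 : ∀ i j, |D (exy i) (D (exy j) (ph0 f c)) q -
      al f c q / 2 * D (exy i) (D (exy j) (QQ c)) q| ≤ f.Cw * C₁ * vv f c q ^ 2 := by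
    intro i j
    have hm : my f c q = 0 := by simp [my, Psi, hQ]
    rw [d1, D_add_at ((s1.D _).dAt q) (((s2.D _).cmul _).dAt q), D_const_mul_at ((s2.D _).dAt q),
      (hh n ι f c hf h.w0 q (exy i) (exy j)).2.1, (q3 i).1, (q3 j).1, hm]
    have := b1 [i, j] (by simp) (by simp)
    simp only [S2, hQ, zero_mul, mul_zero, add_zero, zero_add, add_sub_cancel_left, abs_mul,
      abs_of_nonneg hw, mul_assoc]
    exact mul_le_mul_of_nonneg_left this hw
  refine ⟨by simp [al, sig, hQ, mul_comm], fun i => ?_, fun i k => ?_, fun i k => ?_⟩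
  · have t1 := (b2 i).1
    simp only [z0, hQ, Real.sqrt_zero, mul_zero, abs_nonpos_iff] at t1
    have t2 := b1 [i] (by simp) (by simp)
    rw [d1]
    simp only [t1, zero_add, abs_mul, abs_of_nonneg hw, mul_assoc]
    exact mul_le_mul_of_nonneg_left (by simpa [Ds] using t2) hw
  · have t := d2 (Sum.inr i) (Sum.inr k)
    have t2 : D (exy (Sum.inr i)) (D (exy (Sum.inr k)) (QQ c)) q = 2 * Gm c q i k :=
      sub_eq_zero.1 (q7 i k).2.2
    rw [t2] at t
    refine le_of_eq_of_le (congrArg _ ?_) t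
    simp only [exy, Sum.elim_inr]
    ring
  · have t := d2 (Sum.inr k) (Sum.inl i)
    have t2 : D (exy (Sum.inr k)) (D (exy (Sum.inl i)) (QQ c)) q = -(2 * Gm c q k i) :=
      eq_neg_of_add_eq_zero_left (q7 k i).2.1
    rw [t2, (h.w0.2.2.1 q).2.2.2.2.2.2.2.2.2.2.2.2.2.2.2.2.1 k i] at t
    refine le_of_eq_of_le (congrArg _ ?_) t
    simp only [exy, Sum.elim_inr, Sum.elim_inl]
    ring

theorem diag (hh : S_hess) (hB : S_ccoB) (n : ℕ) (ι : Type) {f : Fx} (hf : f.Ok) {C₁ C₃ K : ℝ}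
    (h1 : 0 ≤ C₁) (h3 : 0 ≤ C₃) (hK : 0 ≤ K) : ∃ K', 0 ≤ K' ∧
    ∀ (c : Cx n ι) (q : X2 n) (C₂ η ε : ℝ), Gd f c C₁ C₂ q ε → Rs1 f c K q ε → WQ c C₃ η q →
      zz q = 0 → |cY0 f c q - 8 * n * (2 * FF f c q) ^ 2| ≤ K' * (FF f c q * vv f c q ^ 2) ∧
        |M0 f c q - 8 * n * (2 * FF f c q) ^ 2| ≤ K' * (FF f c q * vv f c q ^ 2) := by
  obtain ⟨CB, hCB, hB⟩ := hB n 2 (by norm_num)
  have hw : 0 ≤ f.Cw := zero_le_one.trans hf.2.2.2.2.2.2.2.2.2.2.2.1
  obtain ⟨W, hW⟩ : ∃ W, W = f.Cw * C₁ := ⟨_, rfl⟩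
  have hW0 : 0 ≤ W := by rw [hW]; positivity
  have hCB0 : 0 ≤ CB := by linarith
  refine ⟨32 * n ^ 4 * (4 * C₃ * W + W ^ 2) + CB * (W * K + W ^ 2 + K + W) +
    CB * K * (W ^ 2 + W * K + W + K), by positivity, fun c q C₂ η ε h r hq hz => ?_⟩
  obtain ⟨a1, a2, a3, a4⟩ := diag_facts hh hf h hq hz
  rw [← hW] at a2 a3 a4
  rw [a1] at a3 a4
  obtain ⟨-, -, s3, -, s5, -⟩ := h.sm
  have hv := h.v1
  have hF := h.vF
  obtain ⟨⟨-, -, -, -, -, -, -, -, -, -, -, -, -, -, -, -, -, -, -, -, -, -, -, -, -, -, -, -, -,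
    -, -, -, -, -, -, -, -, -, -, -, -, -, -, sy, sy'⟩, -, b3, -⟩ := h.w0
  obtain ⟨-, -, -, -, -, -, -, -, -, -, -, -, -, -, -, i1, i2, -⟩ := b3 q
  have hmid : mid q = q.2 := by
    have : q.1 = q.2 := (sub_eq_zero.1 hz).symm
    rw [mid, this]; module
  have hmid' : q.1 = mid q := by rw [hmid]; exact (sub_eq_zero.1 hz).symm
  have gs : ∀ i j, gm c q i j = gm c q j i := fun i j => by
    have := congrFun (sy' i j) (q.1, mid q)
    exact this
  have gb : ∀ i j, |gm c q i j| ≤ 2 := fun i j => by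
    have := sb_zero (sb_near h.s2 h.n2 i j (mid q))
    exact this
  have Gb : ∀ i j, |Gm c q i j| ≤ C₃ := fun i j => by
    have := sb_zero (hq.2.2.2.2.1 i j).2.1
    exact this
  have m1 := alg gs i2 i1 gb Gb a3
  have m2 := alg gs i2 i1 gb Gb (A := fun i k => D (ey k) (D (ex i) (ph0 f c)) q) a4
  have hF0 : 1 ≤ FF f c q := by nlinarith
  rw [abs_neg, neg_sq] at m2
  rw [abs_of_nonneg (by linarith : 0 ≤ 2 * FF f c q)] at m1 m2
  obtain ⟨c1, -, c2⟩ := (hB (X2 n) ey ex (onY c.γ₂) (onY c.γ₂) (ph0 f c) (P0 f c (onY c.γ₂)) q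
    (W * vv f c q) (K * FF f c q) (vv f c q) (K * vv f c q) (vv f c q) sy sy' sy sy' s3
    (fun i => Sm.sum fun j _ => (sy i j).mul (s5.mul (sm_mv j))) hv le_rfl (by positivity)
    (by positivity) (by positivity)).1
    (fun i j => sb_ey (SbAlg.mono zero_le_one (sb_snd (h.s2 i j) (sb_near h.s2 h.n2 i j _))
      (by omega) le_rfl le_rfl)) (fun i => a2 (Sum.inr i))
    fun i j => sb_ey (r.h (Sum.inr i) (Sum.inr j))
  have c3 := c2 fun i => sb_ey (r.P i)
  have eY : ∀ i j, onY c.γ₂ i j q = gm c q i j := fun i j => by simp only [onY, gm, hmid]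
  have eX : ∀ i j, onX c.γ₂ i j q = gm c q i j := fun i j => by simp only [onX, gm, ← hmid']
  simp only [eY] at c1
  generalize FF f c q = F at *
  generalize vv f c q = v at *
  have n1 : v ^ 2 ≤ F * v ^ 2 := by nlinarith
  have n2 : v ≤ F * v ^ 2 := by nlinarith
  have n3 : v ^ 4 ≤ F * v ^ 2 := by nlinarith
  have t1 : 8 * ((n : ℝ) ^ 4 * (4 * (2 * (2 * F) * C₃ * (W * v ^ 2) + (W * v ^ 2) ^ 2))) ≤
      32 * n ^ 4 * (4 * C₃ * W + W ^ 2) * (F * v ^ 2) := by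
    have := mul_le_mul_of_nonneg_left n3 (by positivity : 0 ≤ 32 * (n : ℝ) ^ 4 * W ^ 2)
    nlinarith
  have t2 : CB * (W * v * (K * F) * v + (W * v) ^ 2 + K * F * v ^ 2 + W * v) ≤
      CB * (W * K + W ^ 2 + K + W) * (F * v ^ 2) := by
    rw [mul_assoc CB]
    refine mul_le_mul_of_nonneg_left ?_ hCB0
    have := mul_le_mul_of_nonneg_left n1 (sq_nonneg W)
    have := mul_le_mul_of_nonneg_left n2 hW0
    nlinarith
  have t3 : CB * (K * v) * (v * (W * v) ^ 2 + W * v * (K * F) + v ^ 2 * (W * v) + v * (K * F)) ≤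
      CB * K * (W ^ 2 + W * K + W + K) * (F * v ^ 2) := by
    have := mul_le_mul_of_nonneg_left n3 (by positivity : 0 ≤ CB * K * (W ^ 2 + W))
    nlinarith
  have p2 : 0 ≤ CB * (W * K + W ^ 2 + K + W) * (F * v ^ 2) := by positivity
  have p3 : 0 ≤ CB * K * (W ^ 2 + W * K + W + K) * (F * v ^ 2) := by positivity
  rw [add_mul, add_mul]
  constructor
  · unfold cY0
    rw [abs_le] at m1 c1 c3 ⊢
    constructor <;> linarith [m1.1, m1.2, c1.1, c1.2, c3.1, c3.2]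
  · simp only [M0, mm, eX, eY]
    rw [abs_le] at m2 ⊢
    constructor <;> linarith [m2.1, m2.2]

end Ebc

end Vale.Agent.P088
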