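import Vale.Agent.P088.Top

/-!
# P088: Seeley extension across a hyperplane, and gluing along a hyperplane
-/

open Set Metric Filter
open scoped ContDiff Topology Manifold Nat

noncomputable section
namespace Vale.Agent.P088
open Vale.Agent.P136 (D Sm contDiffOn_D dAt_of_on)
namespace Ext
variable {n : ℕ}

/-- The covector with the given components. -/
def cv (c : Fin n → ℝ) : En n →L[ℝ] ℝ := ∑ i, c i • EuclideanSpace.proj i

lemma cv_eq (L : En n →L[ℝ] ℝ) : cv (fun i => L (ee i)) = L := by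
  ext v
  conv_rhs => rw [← (EuclideanSpace.basisFun (Fin n) ℝ).sum_repr v]
  simp [cv, ee, mul_comm]

/-- A class of functions that is stable under coordinate derivatives consists of smooth functions. -/
lemma smooth_of_class {V : Set (En n)} (hV : IsOpen V) (C : (En n → ℝ) → Prop)
    (hC : ∀ u, C u → ∃ v : Fin n → En n → ℝ, (∀ i, C (v i)) ∧
      ∀ x ∈ V, HasFDerivAt u (cv fun i => v i x) x) : ∀ u, C u → ContDiffOn ℝ ∞ u V := by
  have key : ∀ m : ℕ, ∀ u, C u → ContDiffOn ℝ m u V := by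
    intro m
    induction m with
    | zero =>
      intro u hu
      obtain ⟨v, -, h⟩ := hC u hu
      exact contDiffOn_zero.2 fun x hx => (h x hx).continuousAt.continuousWithinAt
    | succ m ih =>
      intro u hu
      obtain ⟨v, hv, h⟩ := hC u hu
      rw [Nat.cast_succ, contDiffOn_succ_iff_fderiv_of_isOpen hV]
      refine ⟨fun x hx => (h x hx).differentiableAt.differentiableWithinAt, by simp, ?_⟩
      exact (ContDiffOn.sum fun i _ => (ih _ (hv i)).smul contDiffOn_const).congr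
        fun x hx => (h x hx).fderiv
  exact fun u hu => contDiffOn_infty.2 fun m => key m u hu

lemma sin_pow (p : ℕ) : Real.sin (2 * Real.pi / 3 * 2 ^ p) = (-1) ^ p * (√3 / 2) ∧
    Real.cos (2 * Real.pi / 3 * 2 ^ p) = -1 / 2 := by
  induction p with
  | zero =>
    have : 2 * Real.pi / 3 * 2 ^ 0 = Real.pi - Real.pi / 3 := by ring
    rw [this, Real.sin_pi_sub, Real.cos_pi_sub, Real.sin_pi_div_three, Real.cos_pi_div_three]
    norm_num
  | succ p ih =>
    have : 2 * Real.pi / 3 * 2 ^ (p + 1) = 2 * (2 * Real.pi / 3 * 2 ^ p) := by ring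
    rw [this, Real.sin_two_mul, Real.cos_two_mul, ih.1, ih.2]
    exact ⟨by ring, by norm_num⟩

/-- The sequences of Seeley. -/
lemma exists_seq : ∃ a b : ℕ → ℝ, (∀ j, 0 < b j) ∧
    ∀ p : ℕ, HasSum (fun j => a j * (-b j) ^ p) 1 := by
  refine ⟨fun j => 2 / √3 * ((-1) ^ j * (2 * Real.pi / 3) ^ (2 * j + 1) / (2 * j + 1)!),
    fun j => 2 ^ (2 * j + 1), fun j => by positivity, fun p => ?_⟩
  have h := (Real.hasSum_sin (2 * Real.pi / 3 * 2 ^ p)).mul_left (2 / √3 * (-1) ^ p)
  rw [(sin_pow p).1] at h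
  convert! h using 1
  · funext j
    rw [neg_pow (2 ^ (2 * j + 1) : ℝ), mul_pow _ (2 ^ p : ℝ), ← pow_mul, ← pow_mul, mul_comm p]
    ring
  · have h3 : (√3 : ℝ) ≠ 0 := by positivity
    have : ((-1 : ℝ) ^ p) ^ 2 = 1 := by rw [← pow_mul, mul_comm, pow_mul]; simp
    field_simp
    exact this.symm

variable [NeZero n]

lemma c0 : Continuous fun y : En n => y 0 := (EuclideanSpace.proj (𝕜 := ℝ) (0 : Fin n)).continuous

lemma cl0 (s : Set ℝ) :
    closure ((fun y : En n => y 0) ⁻¹' s) = (fun y : En n => y 0) ⁻¹' closure s :=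
  (((EuclideanSpace.proj (𝕜 := ℝ) (0 : Fin n)).isOpenMap fun t =>
    ⟨t • ee 0, by simp [ee]⟩).preimage_closure_eq_closure_preimage c0 s).symm

/-- A continuous derivative off the hyperplane is a derivative everywhere. -/
lemma deriv_across {u : En n → ℝ} {u' : En n → En n →L[ℝ] ℝ} (hu : Continuous u)
    (hu' : Continuous u') (h : ∀ x : En n, x 0 ≠ 0 → HasFDerivAt u (u' x) x) (x : En n) :
    HasFDerivAt u (u' x) x := by
  have key : ∀ s : Set ℝ, Convex ℝ s → IsOpen s → (∀ t ∈ s, t ≠ 0) →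
      HasFDerivWithinAt u (u' x) ((fun y : En n => y 0) ⁻¹' closure s) x := fun s h1 h2 h3 => by
    rw [← cl0]
    refine hasFDerivWithinAt_closure_of_tendsto_fderiv
      (fun y hy => (h y (h3 _ hy)).differentiableAt.differentiableWithinAt)
      (h1.linear_preimage (EuclideanSpace.proj (𝕜 := ℝ) (0 : Fin n)).toLinearMap)
      (h2.preimage c0) (fun y _ => hu.continuousWithinAt) ?_
    exact (hu'.continuousWithinAt (x := x)).tendsto.congr'
      (eventually_nhdsWithin_of_forall fun y hy => (h y (h3 _ hy)).fderiv.symm)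
  have := (key _ (convex_Ioi 0) isOpen_Ioi fun t ht => ne_of_gt ht).union
    (key _ (convex_Iio 0) isOpen_Iio fun t ht => ne_of_lt ht)
  rwa [← preimage_union, closure_Ioi, closure_Iio, union_comm, Iic_union_Ici, preimage_univ,
    hasFDerivWithinAt_univ] at this

/-- The closed half space. -/
def HH (n : ℕ) [NeZero n] : Set (En n) := {x | 0 ≤ x 0}

lemma uH : UniqueDiffOn ℝ (HH n) := by
  have := (𝓡∂ n).uniqueDiffOn
  rwa [range_modelWithCornersEuclideanHalfSpace] at this

lemma H_nhds {x : En n} (h : 0 < x 0) : HH n ∈ 𝓝 x :=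
  mem_of_superset ((isOpen_lt continuous_const c0).mem_nhds h) fun y hy =>
    le_of_lt (show 0 < y 0 from hy)

/-- Smooth on the half space, zero outside `K`. -/
def Cl (K : Set (En n)) (F : En n → ℝ) : Prop :=
  ContDiffOn ℝ ∞ F (HH n) ∧ ∀ x ∈ HH n, x ∉ K → F x = 0

/-- Coordinate derivatives within the half space. -/
def dH (i : Fin n) (F : En n → ℝ) : En n → ℝ := fun x => fderivWithin ℝ F (HH n) x (ee i)

lemma Cl.dH {K : Set (En n)} (hK : IsCompact K) {F : En n → ℝ} (h : Cl K F) (i : Fin n) :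
    Cl K (dH i F) := by
  refine ⟨(h.1.fderivWithin uH (m := ∞) (by simp)).clm_apply contDiffOn_const, fun x h1 h2 => ?_⟩
  have : F =ᶠ[𝓝[HH n] x] fun _ => 0 := by
    filter_upwards [self_mem_nhdsWithin,
      mem_nhdsWithin_of_mem_nhds (hK.isClosed.isOpen_compl.mem_nhds h2)] with y h3 h4
    exact h.2 y h3 h4
  simp [Ext.dH, this.fderivWithin_eq (h.2 x h1 h2)]

lemma Cl.bd {K : Set (En n)} (hK : IsCompact K) {F : En n → ℝ} (h : Cl K F) :
    ∃ C, ∀ x ∈ HH n, ‖F x‖ ≤ C := by
  obtain ⟨C, hC⟩ := (hK.inter_right (isClosed_le continuous_const c0)).exists_bound_of_continuousOn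
    (h.1.continuousOn.mono inter_subset_right)
  refine ⟨max C 0, fun x hx => ?_⟩
  by_cases h1 : x ∈ K
  · exact (hC x ⟨h1, hx⟩).trans (le_max_left _ _)
  · simp [h.2 x hx h1]

lemma Cl.has {K : Set (En n)} {F : En n → ℝ} (h : Cl K F) {x : En n} (hx : 0 < x 0) :
    HasFDerivAt F (cv fun i => Ext.dH i F x) x := by
  unfold Ext.dH
  rw [cv_eq]
  exact ((h.1.differentiableOn (by simp)) x hx.le).hasFDerivWithinAt.hasFDerivAt (H_nhds hx)

/-- The reflection with factor `b`. -/
def RR (b : ℝ) : En n →L[ℝ] En n :=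
  ContinuousLinearMap.id ℝ _ - (EuclideanSpace.proj (0 : Fin n)).smulRight ((1 + b) • ee 0)

lemma RR_zero (b : ℝ) (x : En n) : RR b x 0 = -b * x 0 := by
  simp [RR, ee]; ring

lemma RR_fix (b : ℝ) {x : En n} (h : x 0 = 0) : RR b x = x := by simp [RR, h]

lemma cv_RR (c : Fin n → ℝ) (b : ℝ) :
    (cv c).comp (RR b) = cv fun i => (-b) ^ (if i = 0 then 1 else 0) * c i := by
  rw [← cv_eq ((cv c).comp (RR b))]
  congr 1
  funext i
  by_cases h : i = 0
  · subst h
    simp [cv, RR, ee]
    ring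
  · simp [cv, RR, ee, h, Ne.symm h]

open Classical in
/-- The extension operator, with the weight `p`. -/
def EE (a b : ℕ → ℝ) (p : ℕ) (F : En n → ℝ) (x : En n) : ℝ :=
  if 0 ≤ x 0 then F x else ∑' j, a j * (-b j) ^ p * F (RR (b j) x)

section
variable {a b : ℕ → ℝ} (hb : ∀ j, 0 < b j) (ha : ∀ p : ℕ, HasSum (fun j => a j * (-b j) ^ p) 1)
  {K : Set (En n)} (hK : IsCompact K)
include hb ha hK

omit ha hK in
lemma RR_mem (j : ℕ) {x : En n} (h : x 0 ≤ 0) : RR (b j) x ∈ HH n := by
  show 0 ≤ RR (b j) x 0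
  rw [RR_zero]
  nlinarith [hb j]

lemma term_bd {F : En n → ℝ} (h : Cl K F) (p : ℕ) : ∃ u : ℕ → ℝ, Summable u ∧
    ∀ j (x : En n), x 0 ≤ 0 → ‖a j * (-b j) ^ p * F (RR (b j) x)‖ ≤ u j := by
  obtain ⟨C, hC⟩ := h.bd hK
  refine ⟨fun j => ‖a j * (-b j) ^ p‖ * C, (ha p).summable.norm.mul_right C, fun j x hx => ?_⟩
  rw [norm_mul]
  exact mul_le_mul_of_nonneg_left (hC _ (RR_mem hb j hx)) (norm_nonneg _)

lemma EE_cont {F : En n → ℝ} (h : Cl K F) (p : ℕ) : Continuous (EE a b p F) := by
  obtain ⟨u, u1, u2⟩ := term_bd hb ha hK h p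
  refine continuous_if_le continuous_const c0 h.1.continuousOn
    (continuousOn_tsum (fun j => continuousOn_const.mul (h.1.continuousOn.comp
      (RR (b j)).continuous.continuousOn fun x hx => RR_mem hb j hx)) u1 u2) fun x hx => ?_
  simp_rw [RR_fix _ hx.symm]
  rw [tsum_mul_right, (ha p).tsum_eq, one_mul]

lemma EE_has {F : En n → ℝ} (h : Cl K F) (p : ℕ) (x : En n) : HasFDerivAt (EE a b p F)
    (cv fun i => EE a b (p + if i = 0 then 1 else 0) (dH i F) x) x := by
  refine deriv_across (u' := fun x => cv fun i => EE a b (p + if i = 0 then 1 else 0) (dH i F) x)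
    (EE_cont hb ha hK h p) (continuous_finsetSum _ fun i _ =>
      (EE_cont hb ha hK (h.dH hK i) _).smul continuous_const) (fun x hx => ?_) x
  rcases hx.lt_or_gt with hx | hx
  · have hO : IsOpen {y : En n | y 0 < 0} := isOpen_lt c0 continuous_const
    choose u u1 u2 using fun i => term_bd hb ha hK (h.dH hK i) (p + if i = 0 then 1 else 0)
    obtain ⟨w, w1, w2⟩ := term_bd hb ha hK h p
    have key := hasFDerivAt_tsum_of_isPreconnected (𝕜 := ℝ) (s := {y : En n | y 0 < 0})
      (f := fun j y => a j * (-b j) ^ p * F (RR (b j) y))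
      (f' := fun j y => cv fun i => a j * (-b j) ^ (p + if i = 0 then 1 else 0) *
        dH i F (RR (b j) y))
      (u := fun j => ∑ i, u i j * ‖(EuclideanSpace.proj i : En n →L[ℝ] ℝ)‖)
      (summable_sum fun i _ => (u1 i).mul_right _) hO
      ((convex_Iio (0 : ℝ)).linear_preimage
        (EuclideanSpace.proj (𝕜 := ℝ) (0 : Fin n)).toLinearMap).isPreconnected
      (fun j y hy => ?_) (fun j y hy => ?_) hx
      (w1.of_norm_bounded fun j => w2 j x hx.le) hx
    · refine (key.congr_of_eventuallyEq ?_).congr_fderiv ?_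
      · filter_upwards [hO.mem_nhds hx] with y hy
        exact if_neg (not_le.2 hy)
      · have hs := fun i => (u1 i).of_norm_bounded fun j => u2 i j x hx.le
        unfold cv
        rw [Summable.tsum_finsetSum fun i _ => (hs i).smul_const _]
        refine Finset.sum_congr rfl fun i _ => ?_
        rw [(hs i).tsum_smul_const]
        simp only [EE, if_neg (not_le.2 hx)]
    · have h1 : 0 < RR (b j) y 0 := by
        rw [RR_zero]
        nlinarith [hb j, show y 0 < 0 from hy]
      refine (((h.has h1).comp y (RR (b j)).hasFDerivAt).const_mul _).congr_fderiv ?_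
      rw [cv_RR]
      simp only [cv, Finset.smul_sum, smul_smul, pow_add, mul_assoc]
    · refine (norm_sum_le _ _).trans (Finset.sum_le_sum fun i _ => ?_)
      rw [norm_smul]
      exact mul_le_mul_of_nonneg_right (u2 i j y (le_of_lt hy)) (norm_nonneg _)
  · simp only [EE, if_pos hx.le]
    refine (h.has hx).congr_of_eventuallyEq ?_
    filter_upwards [H_nhds hx] with y hy
    exact if_pos hy

end

/-- The extension theorem of Seeley for compactly supported functions. -/
lemma seeley {K : Set (En n)} (hK : IsCompact K) {F : En n → ℝ} (h : Cl K F) :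
    ∃ g : En n → ℝ, Sm g ∧ EqOn g F (HH n) := by
  obtain ⟨a, b, hb, ha⟩ := exists_seq
  refine ⟨EE a b 0 F, contDiffOn_univ.1 (smooth_of_class isOpen_univ
    (fun u => ∃ p F, Cl K F ∧ u = EE a b p F) ?_ _ ⟨0, F, h, rfl⟩), fun x hx => if_pos hx⟩
  rintro _ ⟨p, F, hF, rfl⟩
  exact ⟨_, fun i => ⟨_, _, hF.dH hK i, rfl⟩, fun x _ => EE_has hb ha hK hF p x⟩

end Ext

open Ext

theorem s_ext : S_ext := by
  intro n _ f x₀ r r' hr hf
  rcases le_or_gt r' 0 with h0 | h0
  · exact ⟨fun _ => 0, contDiff_const, fun x hx => by simp [ball_eq_empty.2 h0] at hx⟩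
  let χ : ContDiffBump x₀ := ⟨r', (r + r') / 2, h0, by linarith⟩
  have h1 : ∀ x ∉ closedBall x₀ ((r + r') / 2), χ x = 0 := fun x hx =>
    χ.zero_of_le_dist (le_of_lt (by simpa using hx))
  refine (seeley (isCompact_closedBall x₀ ((r + r') / 2)) (F := fun x => χ x * f x)
    ⟨fun x hx => ?_, fun x _ hx => by simp [h1 x hx]⟩).imp fun g hg => ⟨hg.1, fun x hx => by
      rw [hg.2 hx.2]
      simp [χ.one_of_mem_closedBall (ball_subset_closedBall hx.1)]⟩
  by_cases h2 : x ∈ ball x₀ r
  · refine χ.contDiff.contDiffWithinAt.mul ((hf x ⟨h2, hx⟩).mono_of_mem_nhdsWithin ?_)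
    exact inter_mem (mem_nhdsWithin_of_mem_nhds (isOpen_ball.mem_nhds h2)) self_mem_nhdsWithin
  · have h3 : x ∉ closedBall x₀ ((r + r') / 2) := fun h =>
      h2 (closedBall_subset_ball (by linarith) h)
    refine (contDiffAt_const (c := (0 : ℝ))).congr_of_eventuallyEq ?_ |>.contDiffWithinAt
    filter_upwards [isClosed_closedBall.isOpen_compl.mem_nhds h3] with y hy
    simp [h1 y hy]

theorem s_glue : S_glue := by
  intro n _ f g V hV hf hg h
  have key := smooth_of_class hV (fun u => ∃ h : En n → ℝ, ContDiffOn ℝ ∞ h V ∧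
    (∀ y ∈ V, y 0 = 0 → ∀ l : List (Fin n), Ds ee l h y = 0) ∧
    u = fun y => if 0 ≤ y 0 then h y else 0) ?_ _ ⟨_, hf.sub hg, h, rfl⟩
  · refine (key.add hg).congr fun y _ => ?_
    split_ifs <;> simp
  rintro _ ⟨h, h1, h2, rfl⟩
  refine ⟨fun i y => if 0 ≤ y 0 then D (ee i) h y else 0,
    fun i => ⟨_, contDiffOn_D hV h1 _, fun y hy h0 l => ?_, rfl⟩, fun x hx => ?_⟩
  · simpa [Ds, List.foldr_append] using h2 y hy h0 (l ++ [i])
  have hd := (dAt_of_on hV h1 hx).hasFDerivAt
  rw [← cv_eq (fderiv ℝ h x)] at hd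
  rcases lt_trichotomy (x 0) 0 with h0 | h0 | h0
  · simp only [if_neg (not_le.2 h0), cv, zero_smul, Finset.sum_const_zero]
    refine (hasFDerivAt_const (0 : ℝ) x).congr_of_eventuallyEq ?_
    filter_upwards [(isOpen_lt c0 continuous_const).mem_nhds h0] with y hy
    exact if_neg (not_le.2 hy)
  · have h3 : ∀ i, D (ee i) h x = 0 := fun i => h2 x hx h0 [i]
    have h4 : h x = 0 := h2 x hx h0 []
    have h5 : (cv fun i => if 0 ≤ x 0 then D (ee i) h x else 0) = 0 := by simp [h3, cv]
    have h6 : (cv fun i => fderiv ℝ h x (ee i)) = 0 := by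
      rw [← h5]; simp only [if_pos h0.ge]; rfl
    rw [h6] at hd
    rw [h5, ← hasFDerivWithinAt_univ, ← union_compl_self (HH n)]
    refine (hd.hasFDerivWithinAt.congr (fun y hy => if_pos hy) (if_pos h0.ge)).union
      ((hasFDerivWithinAt_const (0 : ℝ) x _).congr (fun y hy => if_neg hy) (by simp [h4]))
  · simp only [if_pos h0.le]
    refine hd.congr_of_eventuallyEq ?_
    filter_upwards [H_nhds h0] with y hy
    exact if_pos hy

end Vale.Agent.P088
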