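import Vale.Agent.P088.FockEx

/-!
# P088: the commutation relations on harmonic polynomials
-/

open MeasureTheory Set Metric
open scoped ContDiff Topology

noncomputable section
namespace Vale.Agent.P088
open Vale.Agent.P136 MvPolynomial

namespace FockAlg
open FockEx

variable {n k k' : ℕ} {H K K' : MvPolynomial (Fin n) ℝ}

/-- The polynomial `|w|²`. -/
def rr (n : ℕ) : MvPolynomial (Fin n) ℝ := ∑ a, X a * X a

lemma rr_hom : (rr n).IsHomogeneous 2 :=
  IsHomogeneous.sum _ _ _ fun a _ => (isHomogeneous_X ℝ a).mul (isHomogeneous_X ℝ a)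

lemma pd_X (a b : Fin n) : pderiv a (X b : MvPolynomial (Fin n) ℝ) = if a = b then 1 else 0 := by
  by_cases h : a = b
  · rw [h, pderiv_X_self, if_pos rfl]
  · rw [pderiv_X_of_ne (Ne.symm h), if_neg h]

lemma pd_rr (a : Fin n) : pderiv a (rr n) = 2 * X a := by
  simp only [rr, map_sum, pderiv_mul, pd_X, ite_mul, mul_ite, one_mul, mul_one, zero_mul,
    mul_zero, Finset.sum_add_distrib, Finset.sum_ite_eq, Finset.mem_univ, if_true, two_mul]

lemma pd_zero (h : K ∈ hV n 0) (a : Fin n) : pderiv a K = 0 := by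
  have h1 := (mem_hV.1 h).1
  rw [← totalDegree_zero_iff_isHomogeneous, totalDegree_eq_zero_iff_eq_C] at h1
  rw [h1, pderiv_C]

lemma gI_rr (h : H.IsHomogeneous k) : 2 * gI (rr n * H) = (n + k) * gI H := by
  have h1 : ∑ a, gI (pderiv a (X a * H)) = ∑ a, 2 * gI (X a * (X a * H)) :=
    Finset.sum_congr rfl fun a _ => gI_pderiv a _
  rw [← Finset.mul_sum, ← map_sum, ← map_sum] at h1
  simp only [pderiv_mul, pderiv_X_self, one_mul, Finset.sum_add_distrib, h.sum_X_mul_pderiv,
    Finset.sum_const, Finset.card_univ, Fintype.card_fin, map_add, map_nsmul,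
    ← mul_assoc, ← Finset.sum_mul] at h1
  rw [rr, ← h1, add_mul, nsmul_eq_mul, nsmul_eq_mul]

lemma pd_orth (hH : H ∈ hV n k') (hK : K ∈ hV n k) (hk : k ≤ k') (a : Fin n) :
    gI (H * pderiv a K) = 0 ∧ gI (H * (rr n * pderiv a K)) = 0 := by
  cases k with
  | zero => simp only [pd_zero hK, mul_zero, map_zero, and_self]
  | succ k =>
    have h1 := pd_mem hK a
    have h2 : gI (H * pderiv a K) = 0 := orth hH h1 (by omega)
    have h3 := gI_rr ((mem_hV.1 hH).1.mul (mem_hV.1 h1).1)
    rw [h2, mul_zero, mul_left_comm] at h3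
    exact ⟨h2, by linarith⟩

lemma pd_orth2 (hH : H ∈ hV n k) (hK : K ∈ hV n k) (a b : Fin n) :
    gI (H * pderiv a (pderiv b K)) = 0 ∧ gI (H * (rr n * pderiv a (pderiv b K))) = 0 := by
  cases k with
  | zero => simp only [pd_zero hK, mul_zero, map_zero, and_self]
  | succ k => exact pd_orth hH (pd_mem hK b) (Nat.le_succ k) a

lemma adjX (H K : MvPolynomial (Fin n) ℝ) (a : Fin n) :
    2 * gI (H * (X a * K)) = gI (pderiv a H * K) + gI (H * pderiv a K) := by
  rw [mul_left_comm, ← gI_pderiv, pderiv_mul, map_add]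

/-- The raising operator. -/
def up (k : ℕ) (a : Fin n) (K : MvPolynomial (Fin n) ℝ) : MvPolynomial (Fin n) ℝ :=
  (2 : ℝ) • (X a * K) - (2 / (2 * (k : ℝ) + n - 2)) • (rr n * pderiv a K)

lemma lap_mul (P Q : MvPolynomial (Fin n) ℝ) : lap (P * Q) =
    lap P * Q + 2 * ∑ a, pderiv a P * pderiv a Q + P * lap Q := by
  simp only [lap_apply, pderiv_mul, map_add, Finset.sum_add_distrib, Finset.sum_mul,
    Finset.mul_sum, two_mul]
  ring

lemma lap_X (a : Fin n) : lap (X a : MvPolynomial (Fin n) ℝ) = 0 := by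
  rw [lap_apply]
  refine Finset.sum_eq_zero fun b _ => ?_
  rw [pd_X]
  split_ifs
  · exact pderiv_one
  · exact map_zero _

lemma lap_rr : lap (rr n) = (2 * n : ℝ) • (1 : MvPolynomial (Fin n) ℝ) := by
  rw [lap_apply]
  simp only [pd_rr, two_mul, map_add, pderiv_X_self, Finset.sum_const, Finset.card_univ,
    Fintype.card_fin, add_smul, Nat.cast_smul_eq_nsmul, smul_add]

lemma up_mem (hn : 3 ≤ n) (hK : K ∈ hV n k) (a : Fin n) : up k a K ∈ hV n (k + 1) := by
  have h0 : lap K = 0 := by rw [lap_apply]; exact (mem_hV.1 hK).2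
  have h1 : (X a * K).IsHomogeneous (k + 1) := by
    rw [add_comm]
    exact (isHomogeneous_X ℝ a).mul (mem_hV.1 hK).1
  have h2 : lap (X a * K) = (2 : ℝ) • pderiv a K := by
    rw [lap_mul, lap_X, h0]
    simp only [pd_X, ite_mul, one_mul, zero_mul, Finset.sum_ite_eq', Finset.mem_univ, if_true,
      mul_zero, zero_add, add_zero, two_mul, two_smul]
  have h3 : (rr n * pderiv a K).IsHomogeneous (k + 1) ∧
      lap (rr n * pderiv a K) = (2 * (2 * (k : ℝ) + n - 2)) • pderiv a K := by
    cases k with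
    | zero =>
      rw [pd_zero hK, mul_zero, map_zero, smul_zero]
      exact ⟨isHomogeneous_zero _ _ _, rfl⟩
    | succ k =>
      have h4 := mem_hV.1 (pd_mem hK a)
      refine ⟨?_, ?_⟩
      · have h5 := (rr_hom (n := n)).mul h4.1
        rwa [add_comm] at h5
      · rw [lap_mul, lap_rr, lap_apply, h4.2]
        simp only [pd_rr, mul_assoc, ← Finset.mul_sum, h4.1.sum_X_mul_pderiv]
        simp only [smul_mul_assoc, one_mul, mul_zero, add_zero, two_mul,
          ← Nat.cast_smul_eq_nsmul ℝ, ← add_smul]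
        congr 1
        push_cast
        ring
  have h6 : (2 * (k : ℝ) + n - 2) ≠ 0 := by
    have h7 : (3 : ℝ) ≤ n := by exact_mod_cast hn
    have h8 : (0 : ℝ) ≤ k := Nat.cast_nonneg k
    linarith
  refine ⟨(homogeneousSubmodule (Fin n) ℝ (k + 1)).sub_mem (Submodule.smul_mem _ _ h1)
    (Submodule.smul_mem _ _ h3.1), ?_⟩
  show lap (up k a K) = 0
  rw [up, map_sub, map_smul, map_smul, h2, h3.2, smul_smul, smul_smul, ← sub_smul]
  have e1 : (2 : ℝ) * 2 - 2 / (2 * (k : ℝ) + n - 2) * (2 * (2 * (k : ℝ) + n - 2)) = 0 := by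
    field_simp
    ring
  rw [e1, zero_smul]

lemma up_adj (hH : H ∈ hV n (k + 1)) (hK : K ∈ hV n k) (a : Fin n) :
    gI (H * up k a K) = gI (pderiv a H * K) := by
  have h1 := pd_orth hH hK (Nat.le_succ k) a
  rw [up, mul_sub, mul_smul_comm, mul_smul_comm, map_sub, map_smul, map_smul, smul_eq_mul,
    smul_eq_mul, adjX, h1.1, h1.2]
  ring

lemma up_up (hn : 3 ≤ n) (hK : K ∈ hV n k) (hK' : K' ∈ hV n k) (a b : Fin n) :
    gI (up k b K' * up k a K) = (if a = b then 2 * gI (K * K') else 0) +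
      gI (pderiv b K * pderiv a K') -
      2 / (2 * (k : ℝ) + n - 2) * gI (pderiv a K * pderiv b K') := by
  have h1 := adjX K (pderiv a K') b
  have h2 := adjX K (pderiv b K') a
  rw [(pd_orth2 hK hK' _ _).1, add_zero] at h1 h2
  have h3 := (pd_orth2 hK hK' a b).2
  have e1 : K * pderiv a (X b * K') =
      (if a = b then K * K' else 0) + K * (X b * pderiv a K') := by
    rw [pderiv_mul, pd_X]
    split_ifs <;> ring
  have e2 : K * pderiv a (rr n * pderiv b K') = K * (X a * pderiv b K') +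
      K * (X a * pderiv b K') + K * (rr n * pderiv a (pderiv b K')) := by
    rw [pderiv_mul, pd_rr]
    ring
  rw [up_adj (up_mem hn hK' b) hK, mul_comm, up, map_sub, Derivation.map_smul,
    Derivation.map_smul, mul_sub, mul_smul_comm, mul_smul_comm, map_sub, map_smul, map_smul,
    smul_eq_mul, smul_eq_mul, e1, e2, map_add, map_add, map_add, h3, ← h1, ← h2]
  split_ifs
  · ring
  · rw [map_zero]
    ring

lemma ev_inj {P Q : MvPolynomial (Fin n) ℝ} (h : ∀ w, ev P w = ev Q w) : P = Q :=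
  MvPolynomial.funext fun x => h (WithLp.toLp 2 x)

lemma parseval {d : ℕ} {p : Fin d → MvPolynomial (Fin n) ℝ}
    (hp : ∀ i j, gI (p i * p j) = if i = j then 1 else 0) {Q : MvPolynomial (Fin n) ℝ}
    {t : Fin d → ℝ} (hQ : Q = ∑ j, t j • p j) :
    (∀ j, gI (Q * p j) = t j) ∧ ∀ R, gI (Q * R) = ∑ j, gI (Q * p j) * gI (p j * R) := by
  have h1 : ∀ R, gI (Q * R) = ∑ j, t j * gI (p j * R) := by
    intro R
    simp only [hQ, Finset.sum_mul, smul_mul_assoc, map_sum, map_smul, smul_eq_mul]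
  have h2 : ∀ j, gI (Q * p j) = t j := by
    intro j
    simp only [h1, hp, mul_ite, mul_one, mul_zero, Finset.sum_ite_eq', Finset.mem_univ, if_true]
  exact ⟨h2, fun R => by simp only [h2, h1 R]⟩

end FockAlg

open FockEx FockAlg in
theorem s_fockAlg : S_fockAlg := by
  intro n hn F hF
  obtain ⟨-, -, h3, h4, h5, h6, -, h8⟩ := hF
  choose p hp1 hp2 using h6
  have hp : ∀ k j, F.H k j = ev (p k j) := fun k j => funext (hp2 k j)
  have hm : ∀ k j, p k j ∈ hV n k := by
    intro k j
    refine mem_hV.2 ⟨hp1 k j, ev_inj fun w => ?_⟩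
    have h1 := h3 k j w
    simp only [hp, D_ev] at h1
    simp only [ev, map_sum, map_zero] at h1 ⊢
    exact h1
  have ho : ∀ k i j, gI (p k i * p k j) = if i = j then 1 else 0 := by
    intro k i j
    have h1 := h4 k i k j
    simp only [hp, Sigma.mk.injEq, heq_eq_eq, true_and] at h1
    rw [← h1]
    change ∫ w, ev (p k i * p k j) w * gs w ^ 2 = _
    rw [ev_mul]
  have hs : ∀ k, ∀ Q ∈ hV n k, ∀ R, gI (Q * R) = ∑ j, gI (Q * p k j) * gI (p k j * R) := by
    intro k Q hQ
    obtain ⟨t, ht⟩ := h5 k Q (mem_hV.1 hQ).1 (mem_hV.1 hQ).2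
    refine (parseval (ho k) (t := t) (ev_inj fun w => ?_)).2
    rw [ev_sum]
    simp only [← hp]
    exact ht w
  have hc : ∀ a k i j, gI (pderiv a (p (k + 1) j) * p k i) = F.c a k i j := by
    intro a k i j
    refine (parseval (ho k) (t := fun i => F.c a k i j) (ev_inj fun w => ?_)).1 i
    rw [ev_sum, ← D_ev]
    simp only [← hp]
    exact h8 a k j w
  have hu : ∀ k a b i i', F.up k a b i i' = gI (pderiv a (p k i) * pderiv b (p k i')) := by
    intro k a b i i'
    cases k with
    | zero => rw [pd_zero (hm 0 i), zero_mul, map_zero]; rfl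
    | succ k =>
      rw [hs k _ (pd_mem (hm _ i) a)]
      refine Finset.sum_congr rfl fun h _ => ?_
      rw [mul_comm (p k h), hc, hc]
  refine ⟨fun a b k i i' => ?_, fun k i i' => ?_⟩
  · have h1 := up_up hn (hm k i) (hm k i') a b
    rw [hs _ _ (up_mem hn (hm k i') b), ← hu, ← hu, ho] at h1
    have e1 : (if a = b then 2 * (if i = i' then (1 : ℝ) else 0) else 0) =
        if a = b ∧ i = i' then 2 else 0 := by
      by_cases h2 : a = b <;> by_cases h3 : i = i' <;> simp [h2, h3]
    rw [← e1, ← h1]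
    refine Finset.sum_congr rfl fun j _ => ?_
    rw [mul_comm (up _ _ _), up_adj (hm _ j) (hm k i'), up_adj (hm _ j) (hm k i), hc, hc,
      mul_comm]
  · simp only [hu, ← map_sum]
    rw [FockEx.energy (hm k i), ho]
    split_ifs <;> simp

end Vale.Agent.P088
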