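import Vale.Agent.P088.StA

/-!
# P088: Bessel and tail bounds for derivatives of the harmonic basis
-/

open MeasureTheory Set Metric
open scoped ContDiff Topology

noncomputable section
namespace Vale.Agent.P088
open Vale.Agent.P136 (D Sm D_mul_at D_sum_at D_const_mul_at D_comm D_const)

namespace FockBes

variable {n : ℕ}

/-- Continuous functions of at most exponential growth. -/
def PG (f : En n → ℝ) : Prop :=
  Continuous f ∧ ∃ C N : ℝ, 0 ≤ C ∧ 0 ≤ N ∧ ∀ w, |f w| ≤ C * Real.exp (N * ‖w‖)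

theorem PG.add {f g : En n → ℝ} (hf : PG f) (hg : PG g) : PG fun w => f w + g w := by
  obtain ⟨c1, C, N, h1, h2, h3⟩ := hf
  obtain ⟨c2, C', N', h4, h5, h6⟩ := hg
  refine ⟨c1.add c2, C + C', N + N', by positivity, by positivity, fun w => ?_⟩
  rw [add_mul]
  refine (abs_add_le _ _).trans (add_le_add ((h3 w).trans ?_) ((h6 w).trans ?_)) <;> gcongr <;>
    linarith

theorem PG.mul {f g : En n → ℝ} (hf : PG f) (hg : PG g) : PG fun w => f w * g w := by
  obtain ⟨c1, C, N, h1, h2, h3⟩ := hf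
  obtain ⟨c2, C', N', h4, h5, h6⟩ := hg
  refine ⟨c1.mul c2, C * C', N + N', by positivity, by positivity, fun w => ?_⟩
  rw [abs_mul, add_mul, Real.exp_add, mul_mul_mul_comm]
  exact mul_le_mul (h3 w) (h6 w) (abs_nonneg _) (by positivity)

theorem PG.bdd {f : En n → ℝ} (hf : Continuous f) {C : ℝ} (h : ∀ w, |f w| ≤ C) : PG f :=
  ⟨hf, C, 0, (abs_nonneg _).trans (h 0), le_rfl, fun w => by simpa using h w⟩

theorem PG.const (c : ℝ) : PG fun _ : En n => c := PG.bdd continuous_const fun _ => le_rfl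

theorem PG.sq {f : En n → ℝ} (hf : PG f) : PG fun w => f w ^ 2 := by
  simpa only [pow_two] using hf.mul hf

theorem PG.sum {I : Type} (s : Finset I) {f : I → En n → ℝ} (hf : ∀ i ∈ s, PG (f i)) :
    PG fun w => ∑ i ∈ s, f i w := by
  classical
  induction s using Finset.induction_on with
  | empty => simpa using PG.const 0
  | insert i s hi ih =>
    simp only [Finset.sum_insert hi]
    exact (hf i (Finset.mem_insert_self _ _)).add
      (ih fun j hj => hf j (Finset.mem_insert_of_mem hj))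

theorem PG.coord (a : Fin n) : PG fun w : En n => w a := by
  refine ⟨by fun_prop, 1, 1, zero_le_one, zero_le_one, fun w => ?_⟩
  have := Real.add_one_le_exp ‖w‖
  have h : |w a| ≤ ‖w‖ := PiLp.norm_apply_le w a
  rw [one_mul, one_mul]
  linarith

theorem PG.hom {f : En n → ℝ} (hf : Continuous f) {k : ℕ}
    (h : ∀ (s : ℝ) w, f (s • w) = s ^ k * f w) : PG f := by
  obtain ⟨M, hM⟩ := (isCompact_closedBall (0 : En n) 1).exists_bound_of_continuousOn
    hf.continuousOn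
  have M0 : 0 ≤ M := (norm_nonneg _).trans (hM 0 (mem_closedBall_self zero_le_one))
  refine ⟨hf, M, k, M0, k.cast_nonneg, fun w => ?_⟩
  have hp : 0 < ‖w‖ + 1 := by positivity
  have e : w = (‖w‖ + 1) • (‖w‖ + 1)⁻¹ • w := by rw [smul_inv_smul₀ hp.ne']
  have h1 := hM ((‖w‖ + 1)⁻¹ • w) (by
    rw [mem_closedBall_zero_iff, norm_smul, Real.norm_of_nonneg (inv_pos.2 hp).le,
      inv_mul_le_iff₀ hp]
    linarith)
  rw [e, h, ← e, abs_mul, mul_comm, Real.exp_nat_mul, abs_of_pos (pow_pos hp k)]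
  exact mul_le_mul h1 (pow_le_pow_left₀ hp.le (Real.add_one_le_exp _) k) (by positivity) M0

theorem gs_sq (w : En n) : gs w ^ 2 = Real.exp (-‖w‖ ^ 2) := by
  rw [gs, ← Real.exp_nat_mul]
  congr 1
  push_cast
  ring

theorem gs_cont : Continuous (gs : En n → ℝ) := by
  unfold gs
  fun_prop

theorem PG.int {f : En n → ℝ} (hf : PG f) : Integrable fun w => f w * gs w ^ 2 := by
  obtain ⟨c1, C, N, h1, h2, h3⟩ := hf
  have hi := (GaussianFourier.integrable_cexp_neg_mul_sq_norm_add (V := En n)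
    (b := ((1 / 2 : ℝ) : ℂ)) (by simp) 0 0).norm
  refine (hi.const_mul (C * Real.exp (N ^ 2 / 2))).mono'
    (c1.mul (gs_cont.pow 2)).aestronglyMeasurable (ae_of_all _ fun w => ?_)
  rw [zero_mul, add_zero, ← Complex.ofReal_pow, ← Complex.ofReal_neg, ← Complex.ofReal_mul,
    Complex.norm_exp_ofReal, norm_mul, gs_sq, Real.norm_of_nonneg (Real.exp_pos _).le, mul_assoc,
    ← Real.exp_add]
  refine (mul_le_mul_of_nonneg_right (h3 w) (Real.exp_pos _).le).trans ?_
  rw [mul_assoc, ← Real.exp_add]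
  refine mul_le_mul_of_nonneg_left (Real.exp_le_exp.2 ?_) h1
  nlinarith [sq_nonneg (N - ‖w‖)]

/-- The decaying weight. -/
def ph (m : ℕ) (w : En n) : ℝ := ((1 + ‖w‖ ^ 2) ^ m)⁻¹

theorem ph_pos (m : ℕ) (w : En n) : 0 < ph m w := by
  unfold ph
  positivity

theorem ph_le (m : ℕ) (w : En n) : ph m w ≤ 1 :=
  inv_le_one_of_one_le₀ (one_le_pow₀ (le_add_of_nonneg_right (sq_nonneg _)))

theorem PG.ph (m : ℕ) : PG (ph m : En n → ℝ) :=
  PG.bdd (Continuous.inv₀ (by fun_prop) fun w => by positivity) fun w =>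
    (abs_of_pos (ph_pos m w)).trans_le (ph_le m w)

theorem rho_fd (m : ℕ) (w : En n) : HasFDerivAt (fun w : En n => ph m w * gs w ^ 2)
    ((-(1 + m * ph 1 w) * (ph m w * gs w ^ 2)) • (2 • innerSL ℝ w)) w := by
  have hp : 0 < 1 + ‖w‖ ^ 2 := by positivity
  have h1 := ((((hasDerivAt_id (‖w‖ ^ 2)).const_add 1).pow m).inv (pow_pos hp m).ne').mul
    (hasDerivAt_id (‖w‖ ^ 2)).neg.exp
  have h2 : HasDerivAt (fun q : ℝ => ((1 + q) ^ m)⁻¹ * Real.exp (-q))
      (-(1 + m * ph 1 w) * (ph m w * gs w ^ 2)) (‖w‖ ^ 2) := by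
    refine h1.congr_deriv ?_
    simp only [ph, gs_sq, Pi.inv_apply, Pi.pow_apply, Pi.neg_apply, id]
    cases m with
    | zero => simp
    | succ m =>
      simp only [Nat.add_sub_cancel]
      field_simp
      ring
  simp only [gs_sq, ph] at h2 ⊢
  exact h2.comp_hasFDerivAt w (hasStrictFDerivAt_norm_sq w).hasFDerivAt

theorem rho_D (m : ℕ) (a : Fin n) (w : En n) : D (ee a) (fun w : En n => ph m w * gs w ^ 2) w =
    -(2 * w a * (1 + m * ph 1 w) * ph m w) * gs w ^ 2 := by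
  rw [D, (rho_fd m w).fderiv]
  simp [ee, EuclideanSpace.inner_single_right]
  ring

theorem sm_Ds {h : En n → ℝ} (hh : Sm h) (l : List (Fin n)) : Sm (Ds ee l h) := by
  induction l with
  | nil => exact hh
  | cons a l ih => exact ih.D _

theorem D_lin {I : Type} (s : Finset I) (t : I → ℝ) {g : I → En n → ℝ} (hg : ∀ i ∈ s, Sm (g i))
    (a : Fin n) : D (ee a) (fun w => ∑ i ∈ s, t i * g i w) =
      fun w => ∑ i ∈ s, t i * D (ee a) (g i) w := by
  funext w
  rw [D_sum_at s fun i hi => ((hg i hi).cmul (t i)).dAt w]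
  exact Finset.sum_congr rfl fun i hi => D_const_mul_at ((hg i hi).dAt w) _ _

theorem Ds_lin {I : Type} (s : Finset I) (t : I → ℝ) {g : I → En n → ℝ} (hg : ∀ i ∈ s, Sm (g i))
    (l : List (Fin n)) : Ds ee l (fun w => ∑ i ∈ s, t i * g i w) =
      fun w => ∑ i ∈ s, t i * Ds ee l (g i) w := by
  induction l with
  | nil => rfl
  | cons a l ih =>
    change D (ee a) (Ds ee l _) = _
    rw [ih, D_lin s t fun i hi => sm_Ds (hg i hi) l]
    rfl

/-- Harmonic functions with derivatives of controlled growth. -/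
def Hh (h : En n → ℝ) : Prop :=
  Sm h ∧ (∀ w, ∑ a, D (ee a) (D (ee a) h) w = 0) ∧ ∀ l, PG (Ds ee l h)

theorem Hh.D {h : En n → ℝ} (hh : Hh h) (b : Fin n) : Hh (D (ee b) h) := by
  refine ⟨hh.1.D _, fun w => ?_, fun l => ?_⟩
  · have e : ∀ a, P136.D (ee a) (P136.D (ee a) (P136.D (ee b) h)) =
        P136.D (ee b) (P136.D (ee a) (P136.D (ee a) h)) := fun a => by
      rw [D_comm hh.1 (ee a) (ee b), D_comm (hh.1.D _) (ee a) (ee b)]
    simp only [e]
    rw [← D_sum_at _ fun a _ => ((hh.1.D _).D _).dAt w]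
    simp only [hh.2.1, D_const]
  · have := hh.2.2 (l ++ [b])
    rwa [Ds, List.foldr_append] at this

theorem Hh.lin {I : Type} (s : Finset I) (t : I → ℝ) {g : I → En n → ℝ} (hg : ∀ i ∈ s, Hh (g i)) :
    Hh fun w => ∑ i ∈ s, t i * g i w := by
  refine ⟨P136.Sm.sum fun i hi => (hg i hi).1.cmul _, fun w => ?_, fun l => ?_⟩
  · have e : ∀ a, P136.D (ee a) (P136.D (ee a) fun w => ∑ i ∈ s, t i * g i w) w =
        ∑ i ∈ s, t i * P136.D (ee a) (P136.D (ee a) (g i)) w := fun a =>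
      congrFun (Ds_lin s t (fun i hi => (hg i hi).1) [a, a]) w
    simp only [e]
    rw [Finset.sum_comm]
    exact Finset.sum_eq_zero fun i hi => by rw [← Finset.mul_sum, (hg i hi).2.1, mul_zero]
  · rw [Ds_lin s t fun i hi => (hg i hi).1]
    exact PG.sum s fun i hi => (PG.const _).mul ((hg i hi).2.2 l)

theorem ibp_core {h : En n → ℝ} (hh : Hh h) (m : ℕ) :
    ∫ w, (∑ a, D (ee a) h w ^ 2) * ph m w * gs w ^ 2 =
      ∫ w, (∑ a, 2 * w a * (1 + m * ph 1 w) * h w * D (ee a) h w) * ph m w * gs w ^ 2 := by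
  have p0 : PG h := hh.2.2 []
  have p1 : ∀ a, PG (D (ee a) h) := fun a => hh.2.2 [a]
  have p2 : ∀ a, PG (D (ee a) (D (ee a) h)) := fun a => hh.2.2 [a, a]
  have pβ : ∀ a, PG fun w : En n => 2 * w a * (1 + m * ph 1 w) := fun a =>
    ((PG.const 2).mul (PG.coord a)).mul ((PG.const 1).add ((PG.const m).mul (PG.ph 1)))
  have dρ : ∀ w : En n, DifferentiableAt ℝ (fun w : En n => ph m w * gs w ^ 2) w := fun w =>
    (rho_fd m w).differentiableAt
  have e1 : ∀ a w, fderiv ℝ (fun w => h w * (ph m w * gs w ^ 2)) w (ee a) * D (ee a) h w =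
      D (ee a) h w ^ 2 * ph m w * gs w ^ 2 -
        2 * w a * (1 + m * ph 1 w) * h w * D (ee a) h w * ph m w * gs w ^ 2 := fun a w => by
    have := D_mul_at (hh.1.dAt w) (dρ w) (ee a)
    rw [rho_D, D] at this
    rw [this]
    ring
  have i1 : ∀ a, Integrable fun w => D (ee a) h w ^ 2 * ph m w * gs w ^ 2 := fun a =>
    ((p1 a).sq.mul (PG.ph m)).int
  have i2 : ∀ a, Integrable fun w : En n =>
      2 * w a * (1 + m * ph 1 w) * h w * D (ee a) h w * ph m w * gs w ^ 2 := fun a =>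
    ((((pβ a).mul p0).mul (p1 a)).mul (PG.ph m)).int
  have i3 : ∀ {g : En n → ℝ}, PG g → Integrable fun w => h w * (ph m w * gs w ^ 2) * g w :=
    fun hg => ((p0.mul hg).mul (PG.ph m)).int.congr (ae_of_all _ fun w => by ring)
  have e2 : ∀ a, ∫ w, h w * (ph m w * gs w ^ 2) * D (ee a) (D (ee a) h) w =
      -((∫ w, D (ee a) h w ^ 2 * ph m w * gs w ^ 2) -
        ∫ w, 2 * w a * (1 + m * ph 1 w) * h w * D (ee a) h w * ph m w * gs w ^ 2) := fun a => by
    rw [← integral_sub (i1 a) (i2 a)]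
    simp only [← e1]
    exact integral_mul_fderiv_eq_neg_fderiv_mul_of_integrable
      (by simp only [e1]; exact (i1 a).sub (i2 a)) (i3 (p2 a)) (i3 (p1 a))
      (fun w _ => (hh.1.dAt w).mul (dρ w)) fun w _ => (hh.1.D _).dAt w
  have e3 : ∑ a, ∫ w, h w * (ph m w * gs w ^ 2) * D (ee a) (D (ee a) h) w = 0 := by
    rw [← integral_finsetSum _ fun a _ => i3 (p2 a)]
    simp only [← Finset.mul_sum, hh.2.1, mul_zero, integral_zero]
  simp only [e2, Finset.sum_neg_distrib, neg_eq_zero, Finset.sum_sub_distrib, sub_eq_zero] at e3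
  simp only [Finset.sum_mul]
  rw [integral_finsetSum _ fun a _ => i1 a, integral_finsetSum _ fun a _ => i2 a, e3]

theorem one_le_sum {h : En n → ℝ} (hh : Hh h) (m : ℕ) (a : Fin n) :
    ∫ w, D (ee a) h w ^ 2 * ph m w * gs w ^ 2 ≤
      ∫ w, (∑ a, D (ee a) h w ^ 2) * ph m w * gs w ^ 2 := by
  refine integral_mono ((hh.2.2 [a]).sq.mul (PG.ph m)).int
    ((PG.sum _ fun b _ => (hh.2.2 [b]).sq).mul (PG.ph m)).int fun w => ?_
  have := ph_pos m w
  have h1 : D (ee a) h w ^ 2 ≤ ∑ a, D (ee a) h w ^ 2 :=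
    Finset.single_le_sum (f := fun a => D (ee a) h w ^ 2) (fun _ _ => sq_nonneg _)
      (Finset.mem_univ a)
  dsimp only
  gcongr

theorem cacc {h : En n → ℝ} (hh : Hh h) (m : ℕ) (a : Fin n) :
    ∫ w, D (ee a) h w ^ 2 * ph (m + 1) w * gs w ^ 2 ≤
      4 * ((m : ℝ) + 2) ^ 2 * ∫ w, h w ^ 2 * ph m w * gs w ^ 2 := by
  refine (one_le_sum hh _ a).trans ?_
  have i1 := ((PG.sum Finset.univ fun b _ => (hh.2.2 [b]).sq).mul (PG.ph (m + 1))).int
  have i2 := ((hh.2.2 []).sq.mul (PG.ph m)).int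
  have i3 := ((PG.sum Finset.univ fun a _ => ((((PG.const 2).mul (PG.coord a)).mul
    ((PG.const 1).add ((PG.const ((m + 1 : ℕ) : ℝ)).mul (PG.ph 1)))).mul (hh.2.2 [])).mul
      (hh.2.2 [a])).mul (PG.ph (m + 1))).int
  have h1 := integral_mono i3 ((i1.const_mul (1 / 2)).add (i2.const_mul (2 * ((m : ℝ) + 2) ^ 2)))
    fun w => by
      change (∑ a, 2 * w a * (1 + ((m + 1 : ℕ) : ℝ) * ph 1 w) * h w * D (ee a) h w) *
        ph (m + 1) w * gs w ^ 2 ≤ 1 / 2 * ((∑ a, D (ee a) h w ^ 2) * ph (m + 1) w * gs w ^ 2) +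
          2 * ((m : ℝ) + 2) ^ 2 * (h w ^ 2 * ph m w * gs w ^ 2)
      have b0 := ph_pos 1 w
      have b1 := ph_le 1 w
      have b2 := ph_pos (m + 1) w
      have b3 : ‖w‖ ^ 2 * ph (m + 1) w ≤ ph m w := by
        rw [ph, ph, pow_succ (1 + _), mul_inv, mul_comm, mul_assoc]
        refine mul_le_of_le_one_right (by positivity) ?_
        rw [inv_mul_le_iff₀ (by positivity)]
        linarith
      have b4 : (1 + ((m + 1 : ℕ) : ℝ) * ph 1 w) ^ 2 ≤ ((m : ℝ) + 2) ^ 2 := by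
        refine pow_le_pow_left₀ (by positivity) ?_ 2
        push_cast
        nlinarith [Nat.cast_nonneg (α := ℝ) m]
      obtain ⟨β, hβ⟩ : ∃ β, β = 1 + ((m + 1 : ℕ) : ℝ) * ph 1 w := ⟨_, rfl⟩
      simp only [← hβ] at b4 ⊢
      have b5 : ∑ a, 2 * w a * β * h w * D (ee a) h w ≤
          1 / 2 * ∑ a, D (ee a) h w ^ 2 + 2 * β ^ 2 * h w ^ 2 * ‖w‖ ^ 2 := by
        rw [EuclideanSpace.real_norm_sq_eq, Finset.mul_sum, Finset.mul_sum,
          ← Finset.sum_add_distrib]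
        exact Finset.sum_le_sum fun a _ => by
          nlinarith [sq_nonneg (D (ee a) h w - 2 * w a * β * h w)]
      have b6 : β ^ 2 * h w ^ 2 * (‖w‖ ^ 2 * ph (m + 1) w) ≤
          ((m : ℝ) + 2) ^ 2 * h w ^ 2 * ph m w := by gcongr
      have b7 := mul_le_mul_of_nonneg_right b5 b2.le
      have b8 := sq_nonneg (gs w)
      nlinarith [mul_le_mul_of_nonneg_right b7 b8, mul_le_mul_of_nonneg_right b6 b8]
  rw [integral_add' (i1.const_mul _) (i2.const_mul _), integral_const_mul, integral_const_mul] at h1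
  have h2 := ibp_core hh (m + 1)
  change ∫ w, (∑ a, 2 * w a * (1 + ((m + 1 : ℕ) : ℝ) * ph 1 w) * h w * D (ee a) h w) *
    ph (m + 1) w * gs w ^ 2 ≤ (1 / 2 * ∫ w, (∑ a, D (ee a) h w ^ 2) * ph (m + 1) w * gs w ^ 2) +
      2 * ((m : ℝ) + 2) ^ 2 * ∫ w, h w ^ 2 * ph m w * gs w ^ 2 at h1
  linarith

theorem cacc_l {h : En n → ℝ} (hh : Hh h) (l : List (Fin n)) (hl : l.length ≤ 2) :
    ∫ w, Ds ee l h w ^ 2 * ph l.length w * gs w ^ 2 ≤ 576 * ∫ w, h w ^ 2 * ph 0 w * gs w ^ 2 := by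
  have h0 : 0 ≤ ∫ w, h w ^ 2 * ph 0 w * gs w ^ 2 := integral_nonneg fun w => by
    have := ph_pos 0 w
    positivity
  match l, hl with
  | [], _ =>
    change ∫ w, h w ^ 2 * ph 0 w * gs w ^ 2 ≤ _
    linarith
  | [a], _ =>
    have := cacc hh 0 a
    change ∫ w, D (ee a) h w ^ 2 * ph (0 + 1) w * gs w ^ 2 ≤ _
    push_cast at this
    linarith
  | [a, b], _ =>
    have h1 := cacc hh 0 b
    have h2 := cacc (hh.D b) 1 a
    change ∫ w, D (ee a) (D (ee b) h) w ^ 2 * ph (1 + 1) w * gs w ^ 2 ≤ _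
    push_cast at h1 h2
    rw [zero_add] at h1
    linarith

theorem euler {h : En n → ℝ} (hh : Sm h) {k : ℕ} (hk : ∀ (s : ℝ) w, h (s • w) = s ^ k * h w)
    (w : En n) : ∑ a, w a * D (ee a) h w = k * h w := by
  have h1 : HasDerivAt (fun s : ℝ => h (s • w)) (fderiv ℝ h w w) 1 :=
    HasFDerivAt.comp_hasDerivAt_of_eq 1 (hh.dAt w).hasFDerivAt
      (by simpa using (hasDerivAt_id (1 : ℝ)).smul_const w) (by simp)
  simp only [hk] at h1
  have h2 := h1.unique ((hasDerivAt_pow k (1 : ℝ)).mul_const (h w))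
  rw [one_pow, mul_one] at h2
  have e : ∑ a, w a • ee a = w := by
    simpa [ee] using (EuclideanSpace.basisFun (Fin n) ℝ).sum_repr w
  have h3 := congrArg (fderiv ℝ h w) e
  rw [h2, map_sum] at h3
  simpa only [map_smul, smul_eq_mul, D] using h3

theorem grad_le {h : En n → ℝ} (hh : Hh h) {k : ℕ} (hk : ∀ (s : ℝ) w, h (s • w) = s ^ k * h w)
    (a : Fin n) : ∫ w, D (ee a) h w ^ 2 * gs w ^ 2 ≤ 2 * k * ∫ w, h w ^ 2 * gs w ^ 2 := by
  have h1 := (one_le_sum hh 0 a).trans_eq (ibp_core hh 0)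
  simp only [ph, pow_zero, inv_one, mul_one, Nat.cast_zero, zero_mul, add_zero] at h1
  refine h1.trans_eq ?_
  rw [← integral_const_mul]
  refine integral_congr_ae (ae_of_all _ fun w => ?_)
  have e : ∑ a, 2 * w a * h w * D (ee a) h w = 2 * h w * ∑ a, w a * D (ee a) h w := by
    rw [Finset.mul_sum]
    exact Finset.sum_congr rfl fun a _ => by ring
  dsimp only
  rw [e, euler hh.1 hk]
  ring

theorem scale {h : En n → ℝ} {k : ℕ} (hk : ∀ (s : ℝ) w, h (s • w) = s ^ k * h w) :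
    2 ^ k * ∫ w, h w ^ 2 * gs w ^ 2 * gs w ^ 2 ≤ ∫ w, h w ^ 2 * gs w ^ 2 := by
  have h1 := Measure.integral_comp_smul volume (fun w : En n => h w ^ 2 * gs w ^ 2) (√2)
  have s2 : √2 ^ 2 = (2 : ℝ) := Real.sq_sqrt zero_le_two
  have s1 : (1 : ℝ) ≤ √2 := Real.one_le_sqrt.2 one_le_two
  have e : ∀ w : En n, h (√2 • w) ^ 2 * gs (√2 • w) ^ 2 =
      2 ^ k * (h w ^ 2 * gs w ^ 2 * gs w ^ 2) := fun w => by
    rw [hk, gs_sq, gs_sq, mul_pow, ← pow_mul, mul_comm k, pow_mul, s2, norm_smul, mul_pow,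
      Real.norm_eq_abs, sq_abs, s2, mul_assoc, mul_assoc, ← Real.exp_add]
    congr 3
    ring
  simp only [e] at h1
  rw [← integral_const_mul, h1, smul_eq_mul]
  refine mul_le_of_le_one_left (integral_nonneg fun w => by positivity) ?_
  rw [abs_of_nonneg (by positivity)]
  exact inv_le_one_of_one_le₀ (one_le_pow₀ s1)

theorem norm_lin {I : Type} [DecidableEq I] (s : Finset I) (t : I → ℝ) {g : I → En n → ℝ}
    (hg : ∀ i, PG (g i)) (ho : ∀ i j, ∫ w, g i w * g j w * gs w ^ 2 = if i = j then 1 else 0) :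
    ∫ w, (∑ i ∈ s, t i * g i w) ^ 2 * gs w ^ 2 = ∑ i ∈ s, t i ^ 2 := by
  have e : ∀ w, (∑ i ∈ s, t i * g i w) ^ 2 * gs w ^ 2 =
      ∑ i ∈ s, ∑ j ∈ s, t i * t j * (g i w * g j w * gs w ^ 2) := fun w => by
    rw [sq, Finset.sum_mul_sum, Finset.sum_mul]
    refine Finset.sum_congr rfl fun i _ => ?_
    rw [Finset.sum_mul]
    exact Finset.sum_congr rfl fun j _ => by ring
  have i1 : ∀ i j, Integrable fun w => t i * t j * (g i w * g j w * gs w ^ 2) := fun i j =>
    ((hg i).mul (hg j)).int.const_mul _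
  simp only [e]
  rw [integral_finsetSum _ fun i _ => integrable_finsetSum _ fun j _ => i1 i j]
  refine Finset.sum_congr rfl fun i hi => ?_
  rw [integral_finsetSum _ fun j _ => i1 i j]
  simp only [integral_const_mul, ho, mul_ite, mul_one, mul_zero]
  rw [Finset.sum_ite_eq, if_pos hi, sq]

theorem dual {I : Type} (s : Finset I) {g : I → En n → ℝ} (hg : ∀ i, Continuous (g i))
    {u A B : En n → ℝ} (hu : Continuous u) (hs : HasCompactSupport u) (hA : Integrable A)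
    (hB : Integrable B) {c : ℝ} (hc : 0 < c)
    (h1 : ∀ w, 2 * (u w * (∑ i ∈ s, (∫ w, u w * g i w * gs w) * g i w) * gs w) ≤
      c * A w + c⁻¹ * B w)
    (h2 : ∫ w, B w ≤ c * ∑ i ∈ s, (∫ w, u w * g i w * gs w) ^ 2) :
    ∑ i ∈ s, (∫ w, u w * g i w * gs w) ^ 2 ≤ c * ∫ w, A w := by
  have i1 : ∀ i, Integrable fun w => u w * g i w * gs w := fun i =>
    ((hu.mul (hg i)).mul gs_cont).integrable_of_hasCompactSupport hs.mul_right.mul_right
  generalize ht : (fun i => ∫ w, u w * g i w * gs w) = t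
  have ht' : ∀ i, ∫ w, u w * g i w * gs w = t i := congrFun ht
  simp only [ht'] at h1 h2 ⊢
  have e : ∀ w, 2 * (u w * (∑ i ∈ s, t i * g i w) * gs w) =
      ∑ i ∈ s, 2 * t i * (u w * g i w * gs w) := fun w => by
    rw [Finset.mul_sum, Finset.sum_mul, Finset.mul_sum]
    exact Finset.sum_congr rfl fun i _ => by ring
  simp only [e] at h1
  have h3 := integral_mono (integrable_finsetSum s fun i _ => (i1 i).const_mul (2 * t i))
    ((hA.const_mul c).add (hB.const_mul c⁻¹)) h1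
  rw [integral_add' (hA.const_mul c) (hB.const_mul c⁻¹), integral_const_mul, integral_const_mul,
    integral_finsetSum s fun i _ => (i1 i).const_mul (2 * t i)] at h3
  simp only [integral_const_mul, ht'] at h3
  simp only [mul_assoc, ← sq, ← Finset.mul_sum] at h3
  rw [← inv_mul_le_iff₀ hc] at h2
  linarith

/-- The span of the basis in one degree. -/
def Deg (F : Fock n) (k : ℕ) (h : En n → ℝ) : Prop :=
  ∃ t : Fin (F.d k) → ℝ, h = fun w => ∑ j, t j * F.H k j w

variable {F : Fock n}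

theorem Deg.hom (hF : F.Ok) {k : ℕ} {h : En n → ℝ} (hh : Deg F k h) (s : ℝ) (w : En n) :
    h (s • w) = s ^ k * h w := by
  obtain ⟨t, rfl⟩ := hh
  simp only [hF.2.1, Finset.mul_sum]
  exact Finset.sum_congr rfl fun j _ => by ring

theorem Deg.sm (hF : F.Ok) {k : ℕ} {h : En n → ℝ} (hh : Deg F k h) : Sm h := by
  obtain ⟨t, rfl⟩ := hh
  exact P136.Sm.sum fun j _ => (hF.1 k j).cmul _

theorem Deg.d0 (hF : F.Ok) {h : En n → ℝ} (hh : Deg F 0 h) (a : Fin n) :
    D (ee a) h = fun _ => 0 := by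
  obtain ⟨t, rfl⟩ := hh
  rw [D_lin _ t fun j _ => hF.1 0 j]
  simp only [hF.2.2.2.2.2.2.1, mul_zero, Finset.sum_const_zero]

theorem Deg.d1 (hF : F.Ok) {k : ℕ} {h : En n → ℝ} (hh : Deg F (k + 1) h) (a : Fin n) :
    Deg F k (D (ee a) h) := by
  obtain ⟨t, rfl⟩ := hh
  rw [D_lin _ t fun j _ => hF.1 _ j]
  refine ⟨fun i => ∑ j, t j * F.c a k i j, funext fun w => ?_⟩
  simp only [hF.2.2.2.2.2.2.2, Finset.mul_sum, Finset.sum_mul, mul_assoc]
  exact Finset.sum_comm

theorem Deg.ds (hF : F.Ok) {k : ℕ} {h : En n → ℝ} (hh : Deg F k h) (l : List (Fin n)) :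
    (Ds ee l h = fun _ => 0) ∨ ∃ m, m + l.length = k ∧ Deg F m (Ds ee l h) := by
  induction l with
  | nil => exact Or.inr ⟨k, rfl, hh⟩
  | cons a l ih =>
    rcases ih with e | ⟨m, e, hm⟩
    · left
      change D (ee a) (Ds ee l h) = _
      rw [e]
      exact funext fun w => D_const _ _ _
    · cases m with
      | zero => exact Or.inl (hm.d0 hF a)
      | succ m => exact Or.inr ⟨m, by rw [List.length_cons]; omega, hm.d1 hF a⟩

theorem Deg.hh (hF : F.Ok) {k : ℕ} {h : En n → ℝ} (hh : Deg F k h) : Hh h := by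
  refine ⟨hh.sm hF, fun w => ?_, fun l => ?_⟩
  · obtain ⟨t, rfl⟩ := hh
    have e : ∀ a, D (ee a) (D (ee a) fun w => ∑ j, t j * F.H k j w) w =
        ∑ j, t j * D (ee a) (D (ee a) (F.H k j)) w := fun a =>
      congrFun (Ds_lin _ t (fun j _ => hF.1 k j) [a, a]) w
    simp only [e]
    rw [Finset.sum_comm]
    exact Finset.sum_eq_zero fun j _ => by rw [← Finset.mul_sum, hF.2.2.1, mul_zero]
  · rcases hh.ds hF l with e | ⟨m, -, hm⟩
    · rw [e]
      exact PG.const 0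
    · exact PG.hom (hm.sm hF).continuous (hm.hom hF)

theorem deg_basis (F : Fock n) (k : ℕ) (j : Fin (F.d k)) : Deg F k (F.H k j) :=
  ⟨Pi.single j 1, funext fun w => by simp [Pi.single_apply]⟩

theorem Deg.norm (hF : F.Ok) {k : ℕ} {h : En n → ℝ} (hh : Deg F k h) (l : List (Fin n)) :
    ∫ w, Ds ee l h w ^ 2 * gs w ^ 2 ≤
      (2 * ((k : ℝ) + 1)) ^ l.length * ∫ w, h w ^ 2 * gs w ^ 2 := by
  have h0 : ∀ g : En n → ℝ, 0 ≤ ∫ w, g w ^ 2 * gs w ^ 2 := fun g =>
    integral_nonneg fun w => by positivity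
  induction l with
  | nil => exact (one_mul _).ge
  | cons a l ih =>
    change ∫ w, D (ee a) (Ds ee l h) w ^ 2 * gs w ^ 2 ≤ _
    rcases hh.ds hF l with e | ⟨m, e, hm⟩
    · simp only [e, D_const, ne_eq, OfNat.ofNat_ne_zero, not_false_eq_true, zero_pow, zero_mul,
        integral_zero]
      exact mul_nonneg (by positivity) (h0 h)
    · refine (grad_le (hm.hh hF) (hm.hom hF) a).trans ?_
      have : (m : ℝ) ≤ k + 1 := by exact_mod_cast (by omega : m ≤ k + 1)
      rw [List.length_cons, pow_succ', mul_assoc (2 * ((k : ℝ) + 1))]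
      exact mul_le_mul (by linarith) ih (h0 _) (by positivity)

theorem Deg.tail (hF : F.Ok) {k : ℕ} {h : En n → ℝ} (hh : Deg F k h) (l : List (Fin n))
    (hl : l.length ≤ 2) : 2 ^ k * ∫ w, Ds ee l h w ^ 2 * gs w ^ 2 * gs w ^ 2 ≤
      576 * ((k : ℝ) + 1) ^ l.length * ∫ w, h w ^ 2 * gs w ^ 2 := by
  have h0 : 0 ≤ ∫ w, h w ^ 2 * gs w ^ 2 := integral_nonneg fun w => by positivity
  rcases hh.ds hF l with e | ⟨m, e, hm⟩
  · simp only [e, ne_eq, OfNat.ofNat_ne_zero, not_false_eq_true, zero_pow, zero_mul,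
      integral_zero, mul_zero]
    positivity
  · have h1 := (scale (hm.hom hF)).trans (hh.norm hF l)
    have h2 : (2 : ℝ) ^ l.length ≤ 4 := (pow_le_pow_right₀ one_le_two hl).trans (by norm_num)
    have h3 := mul_le_mul_of_nonneg_left h1 (show (0 : ℝ) ≤ 2 ^ l.length by positivity)
    rw [← mul_assoc, ← pow_add, add_comm l.length, e, mul_pow] at h3
    refine h3.trans ?_
    rw [← mul_assoc, ← mul_assoc]
    gcongr
    exact (mul_le_mul h2 h2 (by positivity) (by norm_num)).trans (by norm_num)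

theorem amgm {c p u x g : ℝ} (hc : 0 < c) (hp : 0 < p) :
    2 * (u * x * g) ≤ c * (p * u ^ 2) + c⁻¹ * (x ^ 2 * p⁻¹ * g ^ 2) := by
  have h : 0 ≤ (c * p * u - x * g) ^ 2 / (c * p) := by positivity
  have e : (c * p * u - x * g) ^ 2 / (c * p) =
      c * (p * u ^ 2) + c⁻¹ * (x ^ 2 * p⁻¹ * g ^ 2) - 2 * (u * x * g) := by
    field_simp
    ring
  linarith

theorem bes1 {I : Type} [DecidableEq I] (s : Finset I) {g : I → En n → ℝ} (hb : ∀ i, Hh (g i))
    (ho : ∀ i j, ∫ w, g i w * g j w * gs w ^ 2 = if i = j then 1 else 0) {u : En n → ℝ}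
    (hu : Continuous u) (hs : HasCompactSupport u) (l : List (Fin n)) (hl : l.length ≤ 2) :
    ∑ i ∈ s, (∫ w, u w * Ds ee l (g i) w * gs w) ^ 2 ≤
      576 * ∫ w, (1 + ‖w‖ ^ 2) ^ l.length * u w ^ 2 := by
  have hH := Hh.lin s (fun i => ∫ w, u w * Ds ee l (g i) w * gs w) fun i _ => hb i
  have eH := Ds_lin s (fun i => ∫ w, u w * Ds ee l (g i) w * gs w) (fun i _ => (hb i).1) l
  have c1 : Continuous fun w : En n => (1 + ‖w‖ ^ 2) ^ l.length * u w ^ 2 := by fun_prop
  refine dual s (g := fun i => Ds ee l (g i)) (fun i => ((hb i).2.2 l).1) hu hs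
    (c1.integrable_of_hasCompactSupport (hs.comp_left (g := fun x => x ^ 2) (by simp)).mul_left)
    ((hH.2.2 l).sq.mul (PG.ph l.length)).int (by norm_num) (fun w => ?_) ?_
  · rw [eH]
    exact amgm (by norm_num) (by positivity)
  · refine (cacc_l hH l hl).trans_eq ?_
    simp only [ph, pow_zero, inv_one, mul_one]
    rw [norm_lin (g := g) s _ (fun i => (hb i).2.2 []) ho]

theorem bes2 (hF : F.Ok) {u : En n → ℝ} (hu : Continuous u) (hs : HasCompactSupport u)
    (l : List (Fin n)) (hl : l.length ≤ 2) (k : ℕ) (R : ℝ) (hR : ∀ w, u w ≠ 0 → ‖w‖ ^ 2 ≤ R) :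
    ∑ j, (∫ w, u w * Ds ee l (F.H k j) w * gs w) ^ 2 ≤
      576 * ((k : ℝ) + 1) ^ l.length * Real.exp R / 2 ^ k * ∫ w, u w ^ 2 := by
  have hb : ∀ j, Hh (F.H k j) := fun j => (deg_basis F _ _).hh hF
  have dH : Deg F k fun w => ∑ j, (∫ w, u w * Ds ee l (F.H k j) w * gs w) * F.H k j w := ⟨_, rfl⟩
  have eH := Ds_lin Finset.univ (fun j => ∫ w, u w * Ds ee l (F.H k j) w * gs w)
    (fun j _ => (hb j).1) l
  have pg : PG fun w : En n => gs w ^ 2 := PG.bdd (gs_cont.pow 2) (C := 1) fun w => by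
    rw [gs_sq, abs_of_pos (Real.exp_pos _), Real.exp_le_one_iff]
    exact neg_nonpos.2 (sq_nonneg _)
  have hc : 0 < 576 * ((k : ℝ) + 1) ^ l.length * Real.exp R / 2 ^ k := by positivity
  have c1 : Continuous fun w : En n => u w ^ 2 := by fun_prop
  refine dual Finset.univ (g := fun j => Ds ee l (F.H k j)) (fun j => ((hb j).2.2 l).1) hu hs
    (c1.integrable_of_hasCompactSupport (hs.comp_left (g := fun x => x ^ 2) (by simp)))
    ((((dH.hh hF).2.2 l).sq.mul pg).int.const_mul (Real.exp R)) hc (fun w => ?_) ?_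
  · rw [eH]
    by_cases h0 : u w = 0
    · rw [h0, zero_mul, zero_mul, mul_zero]
      positivity
    · have h1 : 1 ≤ Real.exp R * gs w ^ 2 := by
        rw [gs_sq, ← Real.exp_add]
        exact Real.one_le_exp (by linarith [hR w h0])
      refine (amgm hc one_pos).trans ?_
      rw [one_mul, inv_one, mul_one, mul_comm (Real.exp R), mul_assoc _ (gs w ^ 2) (Real.exp R),
        mul_comm (gs w ^ 2) (Real.exp R)]
      exact add_le_add le_rfl (mul_le_mul_of_nonneg_left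
        (le_mul_of_one_le_right (by positivity) h1) (inv_pos.2 hc).le)
  · have h1 := dH.tail hF l hl
    rw [norm_lin (g := F.H k) Finset.univ _ (fun j => (hb j).2.2 []) fun i j => by
      simpa using hF.2.2.2.1 k i k j] at h1
    rw [integral_const_mul, div_mul_eq_mul_div, le_div_iff₀ (by positivity)]
    have h2 := mul_le_mul_of_nonneg_left h1 (Real.exp_pos R).le
    linarith

end FockBes

open FockBes in
theorem s_bes : S_bes := by
  intro n
  refine ⟨576, by norm_num, fun F hF u hu hs l hl => ⟨fun K => ?_, bes2 hF hu hs l hl⟩⟩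
  rw [Finset.sum_sigma']
  exact bes1 (I := Σ k, Fin (F.d k)) (g := fun i => F.H i.1 i.2) _
    (fun i => (deg_basis F _ _).hh hF) (fun i j => hF.2.2.2.1 _ _ _ _) hu hs l hl

end Vale.Agent.P088
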