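import Vale.Agent.P088.StA

/-!
# P088: polynomials are dense in the Gaussian space
-/

open MeasureTheory Set Metric
open scoped ContDiff Topology RealInnerProductSpace

noncomputable section
namespace Vale.Agent.P088
namespace FockDense

variable {n : ℕ}

/-- An integrable function with vanishing Fourier transform vanishes. -/
theorem fourier_uniq {F : En n → ℝ} (hF : Integrable F volume)
    (h : ∀ ξ : En n, ∫ w, (F w : ℂ) * Complex.exp ((⟪w, ξ⟫ : ℝ) * Complex.I) = 0) :
    F =ᵐ[volume] 0 := by
  have key : ∀ G : En n → ℝ, Integrable G volume → ∀ ξ : En n,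
      charFun (volume.withDensity fun w => ENNReal.ofReal (G w)) ξ =
        ∫ w, ((max (G w) 0 : ℝ) : ℂ) * Complex.exp ((⟪w, ξ⟫ : ℝ) * Complex.I) := by
    intro G hG ξ
    rw [charFun_apply, integral_withDensity_eq_integral_toReal_smul₀
      hG.aemeasurable.ennreal_ofReal (ae_of_all _ fun _ => ENNReal.ofReal_lt_top)]
    refine integral_congr_ae (ae_of_all _ fun w => ?_)
    simp only [ENNReal.toReal_ofReal', Complex.real_smul]
  have hi : ∀ G : En n → ℝ, Integrable G volume → ∀ ξ : En n,
      Integrable (fun w => (G w : ℂ) * Complex.exp ((⟪w, ξ⟫ : ℝ) * Complex.I)) volume := by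
    intro G hG ξ
    refine hG.ofReal.mul_bdd (c := 1) (Continuous.aestronglyMeasurable (by fun_prop))
      (ae_of_all _ fun w => ?_)
    rw [Complex.norm_exp_ofReal_mul_I]
  have h1 := isFiniteMeasure_withDensity_ofReal hF.2
  have h2 := isFiniteMeasure_withDensity_ofReal hF.neg.2
  have h3 : (volume.withDensity fun w => ENNReal.ofReal (F w)) =
      volume.withDensity fun w => ENNReal.ofReal ((-F) w) := by
    refine Measure.ext_of_charFun (funext fun ξ => ?_)
    rw [key F hF, key (-F) hF.neg, ← sub_eq_zero, ← integral_sub (hi _ hF.pos_part ξ)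
      (hi _ hF.neg.pos_part ξ), ← h ξ]
    refine integral_congr_ae (ae_of_all _ fun w => ?_)
    simp only [Pi.neg_apply]
    rw [← sub_mul, ← Complex.ofReal_sub, max_zero_sub_max_neg_zero_eq_self]
  rw [withDensity_eq_iff_of_sigmaFinite hF.aemeasurable.ennreal_ofReal
    hF.neg.aemeasurable.ennreal_ofReal] at h3
  filter_upwards [h3] with w hw
  have := congrArg ENNReal.toReal hw
  simp only [ENNReal.toReal_ofReal', Pi.neg_apply] at this
  rw [Pi.zero_apply, ← max_zero_sub_max_neg_zero_eq_self (F w), this, sub_self]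

/-- Termwise integration of the exponential series. -/
theorem series {F X : En n → ℝ} (hF : AEStronglyMeasurable F volume) (hX : Continuous X)
    (hi : Integrable (fun w => |F w| * Real.exp |X w|) volume)
    (h : ∀ m : ℕ, ∫ w, F w * X w ^ m = 0) :
    ∫ w, (F w : ℂ) * Complex.exp (X w * Complex.I) = 0 := by
  have hr : ∀ x : ℝ, HasSum (fun m : ℕ => x ^ m / (m.factorial : ℝ)) (Real.exp x) := fun x => by
    rw [Real.exp_eq_exp_ℝ]
    exact NormedSpace.expSeries_div_hasSum_exp x
  have hc : ∀ x : ℂ, HasSum (fun m : ℕ => x ^ m / (m.factorial : ℂ)) (Complex.exp x) :=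
    fun x => by
      rw [Complex.exp_eq_exp_ℂ]
      exact NormedSpace.expSeries_div_hasSum_exp x
  have key := hasSum_integral_of_dominated_convergence (μ := volume)
    (F := fun (m : ℕ) w => (F w : ℂ) * ((X w * Complex.I) ^ m / (m.factorial : ℂ)))
    (f := fun w => (F w : ℂ) * Complex.exp (X w * Complex.I))
    (fun (m : ℕ) w => |F w| * (|X w| ^ m / (m.factorial : ℝ)))
    (fun m => (Complex.continuous_ofReal.comp_aestronglyMeasurable hF).mul
      (Continuous.aestronglyMeasurable (by fun_prop)))
    (fun m => ae_of_all _ fun w => by simp)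
    (ae_of_all _ fun w => ((hr _).mul_left _).summable)
    (hi.congr (ae_of_all _ fun w => ((hr _).mul_left _).tsum_eq.symm))
    (ae_of_all _ fun w => (hc _).mul_left _)
  have h0 : ∀ m : ℕ, ∫ w, (F w : ℂ) * ((X w * Complex.I) ^ m / (m.factorial : ℂ)) = 0 := by
    intro m
    have e : ∀ w, (F w : ℂ) * ((X w * Complex.I) ^ m / (m.factorial : ℂ)) =
        ((F w * X w ^ m : ℝ) : ℂ) * (Complex.I ^ m / (m.factorial : ℂ)) := fun w => by
      push_cast
      ring
    simp only [e]
    rw [integral_mul_const, integral_complex_ofReal, h m, Complex.ofReal_zero, zero_mul]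
  simp only [h0] at key
  exact key.unique hasSum_zero

theorem gs_cont : Continuous (gs : En n → ℝ) := by
  unfold gs
  fun_prop

theorem memLp_exp (ξ : En n) : MemLp (fun w : En n => gs w * Real.exp ⟪w, ξ⟫) 2 volume := by
  have hc : Continuous fun w : En n => gs w * Real.exp ⟪w, ξ⟫ := gs_cont.mul (by fun_prop)
  refine (memLp_two_iff_integrable_sq hc.aestronglyMeasurable).2 ?_
  have := (GaussianFourier.integrable_cexp_neg_mul_sq_norm_add (b := 1) (by simp) 2 ξ).norm
  refine this.congr (ae_of_all _ fun w => ?_)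
  have e : (-1 * (‖w‖ : ℂ) ^ 2 + 2 * ((⟪ξ, w⟫ : ℝ) : ℂ)) =
      ((-‖w‖ ^ 2 + 2 * ⟪w, ξ⟫ : ℝ) : ℂ) := by
    rw [real_inner_comm]
    push_cast
    ring
  simp only [e, Complex.norm_exp_ofReal, gs]
  rw [← Real.exp_add, sq (Real.exp _), ← Real.exp_add]
  congr 1
  ring

end FockDense

open FockDense

theorem s_dense : S_dense := by
  intro n f hf h
  have hE : ∀ ξ : En n, Integrable (fun w => f w * gs w ^ 2 * Real.exp ⟪w, ξ⟫) volume := by
    intro ξ
    refine (hf.integrable_mul (memLp_exp ξ)).congr (ae_of_all _ fun w => ?_)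
    simp only [Pi.mul_apply]
    ring
  have hF : Integrable (fun w => f w * gs w ^ 2) volume := by simpa using hE 0
  have h0 : (fun w => f w * gs w ^ 2) =ᵐ[volume] 0 := by
    refine fourier_uniq hF fun ξ => series hF.1 (by fun_prop) ?_ fun m => ?_
    · refine ((hE ξ).norm.add (hE (-ξ)).norm).mono'
        (hF.1.norm.mul (Continuous.aestronglyMeasurable (by fun_prop)))
        (ae_of_all _ fun w => ?_)
      simp only [Pi.add_apply, norm_mul, Real.norm_eq_abs, abs_abs, Real.abs_exp, inner_neg_right]
      rw [← mul_add, abs_mul]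
      refine mul_le_mul_of_nonneg_left ?_ (by positivity)
      rcases abs_choice ⟪w, ξ⟫ with e | e <;> rw [e]
      · exact le_add_of_nonneg_right (Real.exp_pos _).le
      · exact le_add_of_nonneg_left (Real.exp_pos _).le
    · rw [← h ((∑ i, MvPolynomial.C (ξ i) * MvPolynomial.X i) ^ m)]
      refine integral_congr_ae (ae_of_all _ fun w => ?_)
      simp only [map_pow, map_sum, map_mul, MvPolynomial.eval_C, MvPolynomial.eval_X,
        PiLp.inner_apply, RCLike.inner_apply, conj_trivial]
      ring
  filter_upwards [h0] with w hw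
  exact (mul_eq_zero.1 hw).resolve_right (pow_pos (Real.exp_pos _) 2).ne'

end Vale.Agent.P088
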