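import Vale.Agent.P088.StA

/-!
# P088: orthonormal bases of the harmonic homogeneous polynomials
-/

open MeasureTheory Set Metric
open scoped ContDiff Topology

noncomputable section
namespace Vale.Agent.P088
open Vale.Agent.P136 MvPolynomial

namespace FockEx

variable {n : ℕ}

/-- The polynomial function. -/
def ev (P : MvPolynomial (Fin n) ℝ) : En n → ℝ := fun w => eval (fun i => w i) P

lemma sm_co (i : Fin n) : Sm fun w : En n => w i := (EuclideanSpace.proj (𝕜 := ℝ) i).contDiff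

lemma D_co (a i : Fin n) (w : En n) :
    D (ee a) (fun w : En n => w i) w = if a = i then 1 else 0 := by
  have : D (ee a) (fun w : En n => w i) w = ee a i := by
    have h := (EuclideanSpace.proj i : En n →L[ℝ] ℝ).fderiv (x := w)
    exact congrArg (fun T : En n →L[ℝ] ℝ => T (ee a)) h
  rw [this]
  simp [ee, eq_comm]

lemma ev_C (c : ℝ) : ev (C c : MvPolynomial (Fin n) ℝ) = fun _ => c := by
  funext w; simp [ev]

lemma ev_add (P Q : MvPolynomial (Fin n) ℝ) : ev (P + Q) = fun w => ev P w + ev Q w := by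
  funext w; simp [ev]

lemma ev_mul (P Q : MvPolynomial (Fin n) ℝ) : ev (P * Q) = fun w => ev P w * ev Q w := by
  funext w; simp [ev]

lemma ev_mulX (P : MvPolynomial (Fin n) ℝ) (i : Fin n) :
    ev (P * X i) = fun w => ev P w * w i := by
  funext w; simp [ev]

lemma sm_ev (P : MvPolynomial (Fin n) ℝ) : Sm (ev P) := by
  induction P using MvPolynomial.induction_on with
  | C c => rw [ev_C]; exact Sm.const c
  | add P Q hP hQ => rw [ev_add]; exact hP.add hQ
  | mul_X P i hP => rw [ev_mulX]; exact hP.mul (sm_co i)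

lemma D_ev (a : Fin n) (P : MvPolynomial (Fin n) ℝ) : D (ee a) (ev P) = ev (pderiv a P) := by
  funext w
  induction P using MvPolynomial.induction_on with
  | C c => rw [ev_C, D_const]; simp [ev]
  | add P Q hP hQ =>
    rw [ev_add, D_add_at ((sm_ev P).dAt w) ((sm_ev Q).dAt w), hP, hQ, map_add, ev_add]
  | mul_X P i hP =>
    rw [ev_mulX, D_mul_at ((sm_ev P).dAt w) ((sm_co i).dAt w), hP, D_co]
    by_cases h : a = i
    · subst h; simp [ev]; ring
    · simp [ev, h, Ne.symm h]; ring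

lemma ev_smul {P : MvPolynomial (Fin n) ℝ} {k : ℕ} (h : P.IsHomogeneous k) (s : ℝ) (w : En n) :
    ev P (s • w) = s ^ k * ev P w := by
  simp only [ev, eval_eq', Finset.mul_sum]
  refine Finset.sum_congr rfl fun d hd => ?_
  have h1 : ∑ i, d i = k := by
    have := h (mem_support_iff.1 hd)
    rw [← this, Finsupp.weight_apply, Finsupp.sum_fintype _ _ (by simp)]
    simp
  simp only [PiLp.smul_apply, smul_eq_mul, mul_pow, Finset.prod_mul_distrib,
    Finset.prod_pow_eq_pow_sum, h1]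
  ring

lemma ev_bound (P : MvPolynomial (Fin n) ℝ) :
    ∀ ε : ℝ, 0 < ε → ∃ K : ℝ, ∀ w, |ev P w| ≤ K * Real.exp (ε * ‖w‖ ^ 2) := by
  induction P using MvPolynomial.induction_on with
  | C c =>
    refine fun ε hε => ⟨|c|, fun w => ?_⟩
    rw [ev_C]
    exact le_mul_of_one_le_right (abs_nonneg _) (Real.one_le_exp (by positivity))
  | add P Q hP hQ =>
    intro ε hε
    obtain ⟨K, hK⟩ := hP ε hε
    obtain ⟨L, hL⟩ := hQ ε hε
    refine ⟨K + L, fun w => ?_⟩
    rw [ev_add, add_mul]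
    exact (abs_add_le _ _).trans (add_le_add (hK w) (hL w))
  | mul_X P i hP =>
    intro ε hε
    obtain ⟨K, hK⟩ := hP (ε / 2) (by positivity)
    refine ⟨K * (1 + 2 / ε), fun w => ?_⟩
    have h1 : |w i| ≤ ‖w‖ := PiLp.norm_apply_le w i
    have h2 := Real.add_one_le_exp (ε / 2 * ‖w‖ ^ 2)
    have h3 : |w i| ≤ (1 + 2 / ε) * Real.exp (ε / 2 * ‖w‖ ^ 2) := by
      refine h1.trans (le_trans ?_ (mul_le_mul_of_nonneg_left h2 (by positivity)))
      have e : (1 + 2 / ε) * (ε / 2 * ‖w‖ ^ 2 + 1) =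
          ‖w‖ ^ 2 + 1 + (ε / 2 * ‖w‖ ^ 2 + 2 / ε) := by
        field_simp
        ring
      have : 0 ≤ ε / 2 * ‖w‖ ^ 2 + 2 / ε := by positivity
      rw [e]
      nlinarith [sq_nonneg (‖w‖ - 1)]
    have e : Real.exp (ε * ‖w‖ ^ 2) =
        Real.exp (ε / 2 * ‖w‖ ^ 2) * Real.exp (ε / 2 * ‖w‖ ^ 2) := by
      rw [← Real.exp_add]
      ring_nf
    rw [ev_mulX, abs_mul, e]
    refine (mul_le_mul (hK w) h3 (abs_nonneg _) ((abs_nonneg _).trans (hK w))).trans_eq ?_
    ring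

lemma gs_sq (w : En n) : gs w ^ 2 = Real.exp (-‖w‖ ^ 2) := by
  rw [gs, sq, ← Real.exp_add]
  ring_nf

lemma sm_nsq : Sm fun w : En n => -‖w‖ ^ 2 := (contDiff_norm_sq ℝ).neg

lemma sm_gs : Sm fun w : En n => gs w ^ 2 := by
  simp only [gs_sq]
  exact sm_nsq.exp

lemma D_gs (a : Fin n) (w : En n) :
    D (ee a) (fun w : En n => gs w ^ 2) w = -(2 * w a * gs w ^ 2) := by
  simp only [gs_sq]
  rw [D_exp_at (sm_nsq.dAt w), D_neg]
  have : D (ee a) (fun w : En n => ‖w‖ ^ 2) w = 2 * w a := by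
    simp [D, fderiv_norm_sq_apply, ee, EuclideanSpace.inner_single_right]
  rw [this]
  ring

lemma int_ev (P : MvPolynomial (Fin n) ℝ) : Integrable fun w : En n => ev P w * gs w ^ 2 := by
  obtain ⟨K, hK⟩ := ev_bound P (1 / 2) (by norm_num)
  have h := (GaussianFourier.integrable_cexp_neg_mul_sq_norm_add (V := En n) (b := 1 / 2)
    (by norm_num) 0 0).norm.const_mul K
  refine h.mono' ((sm_ev P).mul sm_gs).cont.aestronglyMeasurable (ae_of_all _ fun w => ?_)
  have e : (-(1 / 2 : ℂ) * (‖w‖ : ℂ) ^ 2 + 0 * (inner ℝ (0 : En n) w : ℝ)) =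
      ((-(1 / 2) * ‖w‖ ^ 2 : ℝ) : ℂ) := by
    push_cast
    ring
  rw [e, Complex.norm_exp_ofReal, Real.norm_eq_abs, abs_mul, abs_of_nonneg (sq_nonneg (gs w)),
    gs_sq]
  refine (mul_le_mul_of_nonneg_right (hK w) (Real.exp_pos _).le).trans_eq ?_
  rw [mul_assoc, ← Real.exp_add]
  ring_nf

/-- The Gaussian integral as a linear functional. -/
def gI : MvPolynomial (Fin n) ℝ →ₗ[ℝ] ℝ where
  toFun P := ∫ w : En n, ev P w * gs w ^ 2
  map_add' P Q := by
    rw [← integral_add (int_ev P) (int_ev Q)]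
    simp only [ev_add, add_mul]
  map_smul' c P := by
    rw [RingHom.id_apply, smul_eq_mul, ← integral_const_mul]
    simp only [ev, smul_eval, mul_assoc]

lemma gI_pderiv (a : Fin n) (P : MvPolynomial (Fin n) ℝ) :
    gI (pderiv a P) = 2 * gI (X a * P) := by
  have e : ∀ w : En n, ev P w * D (ee a) (fun w : En n => gs w ^ 2) w =
      -2 * (ev (X a * P) w * gs w ^ 2) := fun w => by
    rw [D_gs, mul_comm (X a), ev_mulX]
    ring
  have h : ∫ w : En n, ev P w * D (ee a) (fun w : En n => gs w ^ 2) w =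
      -∫ w : En n, D (ee a) (ev P) w * gs w ^ 2 :=
    integral_mul_fderiv_eq_neg_fderiv_mul_of_integrable
      (by simpa only [← D_ev, D] using int_ev (pderiv a P))
      (((int_ev (X a * P)).const_mul (-2)).congr (ae_of_all _ fun w => (e w).symm)) (int_ev P)
      (fun w _ => (sm_ev P).dAt w) (fun w _ => sm_gs.dAt w)
  simp only [e, D_ev] at h
  rw [integral_const_mul] at h
  change ∫ w : En n, ev (pderiv a P) w * gs w ^ 2 = 2 * ∫ w : En n, ev (X a * P) w * gs w ^ 2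
  linarith

lemma gI_pos {P : MvPolynomial (Fin n) ℝ} (h : P ≠ 0) : 0 < gI (P * P) := by
  have h0 : ∀ w : En n, 0 ≤ ev (P * P) w * gs w ^ 2 := fun w => by
    rw [ev_mul]
    exact mul_nonneg (mul_self_nonneg _) (sq_nonneg _)
  refine lt_of_le_of_ne (integral_nonneg h0) fun e => h ?_
  have h1 := (integral_eq_zero_iff_of_nonneg h0 (int_ev (P * P))).1 e.symm
  have h2 := (((sm_ev (P * P)).mul sm_gs).cont.ae_eq_iff_eq volume continuous_zero).1 h1
  refine MvPolynomial.funext fun x => ?_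
  have h3 := congrFun h2 (WithLp.toLp 2 x)
  rw [ev_mul, gs_sq] at h3
  simpa [ev] using h3

/-- The Laplacian. -/
def lap : MvPolynomial (Fin n) ℝ →ₗ[ℝ] MvPolynomial (Fin n) ℝ :=
  ∑ a, (pderiv a).toLinearMap ∘ₗ (pderiv a).toLinearMap

lemma lap_apply (P : MvPolynomial (Fin n) ℝ) : lap P = ∑ a, pderiv a (pderiv a P) := by
  simp [lap]

/-- Harmonic homogeneous polynomials. -/
def hV (n k : ℕ) : Submodule ℝ (MvPolynomial (Fin n) ℝ) :=
  homogeneousSubmodule (Fin n) ℝ k ⊓ LinearMap.ker lap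

lemma mem_hV {k : ℕ} {P : MvPolynomial (Fin n) ℝ} :
    P ∈ hV n k ↔ P.IsHomogeneous k ∧ ∑ a, pderiv a (pderiv a P) = 0 := by
  rw [← lap_apply]
  rfl

lemma pd_comm (a b : Fin n) (P : MvPolynomial (Fin n) ℝ) :
    pderiv a (pderiv b P) = pderiv b (pderiv a P) := by
  refine MvPolynomial.funext fun x => ?_
  have h := congrFun (D_comm (sm_ev P) (ee a) (ee b)) (WithLp.toLp 2 x)
  rwa [D_ev, D_ev, D_ev, D_ev] at h

lemma pd_mem {k : ℕ} {P : MvPolynomial (Fin n) ℝ} (h : P ∈ hV n (k + 1)) (a : Fin n) :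
    pderiv a P ∈ hV n k := by
  rw [mem_hV] at h ⊢
  refine ⟨h.1.pderiv, ?_⟩
  simp only [fun b => pd_comm b a, ← map_sum, h.2, map_zero]

lemma energy {k : ℕ} {P : MvPolynomial (Fin n) ℝ} (h : P ∈ hV n k) (Q : MvPolynomial (Fin n) ℝ) :
    gI (∑ a, pderiv a P * pderiv a Q) = 2 * k * gI (P * Q) := by
  rw [mem_hV] at h
  have h1 : ∑ a, gI (pderiv a (pderiv a P * Q)) = ∑ a, 2 * gI (X a * (pderiv a P * Q)) :=
    Finset.sum_congr rfl fun a _ => gI_pderiv a _
  rw [← Finset.mul_sum, ← map_sum, ← map_sum] at h1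
  simp only [pderiv_mul, Finset.sum_add_distrib, ← mul_assoc, ← Finset.sum_mul, h.2, zero_mul,
    zero_add, h.1.sum_X_mul_pderiv] at h1
  rw [h1, smul_mul_assoc, map_nsmul, nsmul_eq_mul, mul_assoc]

lemma orth {k k' : ℕ} {P Q : MvPolynomial (Fin n) ℝ} (h : P ∈ hV n k) (h' : Q ∈ hV n k')
    (hk : k ≠ k') : gI (P * Q) = 0 := by
  have h1 := energy h Q
  have h2 := energy h' P
  simp only [mul_comm (pderiv _ Q), mul_comm Q, h1] at h2
  have h3 : (k : ℝ) - k' ≠ 0 := sub_ne_zero.2 (Nat.cast_injective.ne hk)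
  exact (mul_eq_zero.1 (by linarith : ((k : ℝ) - k') * gI (P * Q) = 0)).resolve_left h3

lemma onb (n k : ℕ) : ∃ (d : ℕ) (p : Fin d → MvPolynomial (Fin n) ℝ), (∀ j, p j ∈ hV n k) ∧
    (∀ i j, gI (p i * p j) = if i = j then 1 else 0) ∧
    ∀ x ∈ hV n k, ∃ t : Fin d → ℝ, x = ∑ j, t j • p j := by
  have : Module.Finite ℝ (homogeneousSubmodule (Fin n) ℝ k) :=
    Module.Finite.iff_fg.2 (homogeneousSubmodule_fg _ _ k)
  have : Module.Finite ℝ (hV n k) := Submodule.finiteDimensional_of_le inf_le_left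
  obtain ⟨v, hv⟩ := LinearMap.BilinForm.exists_orthogonal_basis (V := hV n k)
    (B := ((LinearMap.mul ℝ _).compr₂ gI).domRestrict₁₂ (hV n k) (hV n k))
    ⟨fun x y => congrArg gI (mul_comm x.1 y.1)⟩
  have h0 : ∀ j, 0 < √(gI ((v j).1 * (v j).1)) := fun j =>
    Real.sqrt_pos.2 (gI_pos fun e => v.ne_zero j (Subtype.ext e))
  refine ⟨_, fun j => (√(gI ((v j).1 * (v j).1)))⁻¹ • (v j).1,
    fun j => (hV n k).smul_mem _ (v j).2, fun i j => ?_, fun x hx => ?_⟩
  · rw [smul_mul_smul_comm, map_smul, smul_eq_mul]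
    split_ifs with h
    · subst h
      rw [← mul_inv, Real.mul_self_sqrt (Real.sqrt_pos.1 (h0 i)).le,
        inv_mul_cancel₀ (Real.sqrt_pos.1 (h0 i)).ne']
    · have : gI ((v i).1 * (v j).1) = 0 := hv h
      rw [this, mul_zero]
  · refine ⟨fun j => v.repr ⟨x, hx⟩ j * √(gI ((v j).1 * (v j).1)), ?_⟩
    have := congrArg Subtype.val (v.sum_repr ⟨x, hx⟩).symm
    simp only [AddSubmonoidClass.coe_finsetSum, SetLike.val_smul] at this
    refine this.trans (Finset.sum_congr rfl fun j _ => ?_)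
    rw [smul_smul, mul_inv_cancel_right₀ (h0 j).ne']

lemma ev_sum {d : ℕ} (t : Fin d → ℝ) (p : Fin d → MvPolynomial (Fin n) ℝ) (w : En n) :
    ev (∑ j, t j • p j) w = ∑ j, t j * ev (p j) w := by
  simp [ev, smul_eval]

end FockEx

open FockEx in
theorem s_fock : S_fock := by
  intro n
  choose d p p1 p2 p3 using onb n
  choose c hc using fun a k j => p3 k _ (pd_mem (p1 (k + 1) j) a)
  refine ⟨⟨d, fun k j => ev (p k j), fun a k i j => c a k j i⟩, fun k j => sm_ev _,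
    fun k j => ev_smul (mem_hV.1 (p1 k j)).1, fun k j w => ?_, fun k j k' j' => ?_,
    fun k P h1 h2 => ?_, fun k j => ⟨_, (mem_hV.1 (p1 k j)).1, fun _ => rfl⟩, fun a j w => ?_,
    fun a k j w => ?_⟩
  · simp only [D_ev]
    simp only [ev, ← map_sum, (mem_hV.1 (p1 k j)).2, map_zero]
  · have e : ∫ w, ev (p k j) w * ev (p k' j') w * gs w ^ 2 = gI (p k j * p k' j') := by
      change _ = ∫ w, ev (p k j * p k' j') w * gs w ^ 2
      rw [ev_mul]
    refine e.trans ?_
    by_cases hk : k = k'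
    · subst hk
      simp [p2]
    · rw [orth (p1 k j) (p1 k' j') hk, if_neg fun h => hk (congrArg Sigma.fst h)]
  · obtain ⟨t, ht⟩ := p3 k P (mem_hV.2 ⟨h1, h2⟩)
    exact ⟨t, fun w => (congrArg (ev · w) ht).trans (ev_sum _ _ w)⟩
  · have h := (mem_hV.1 (p1 0 j)).1
    rw [← totalDegree_zero_iff_isHomogeneous, totalDegree_eq_zero_iff_eq_C] at h
    change D (ee a) (ev (p 0 j)) w = 0
    rw [h, ev_C, D_const]
  · change D (ee a) (ev (p (k + 1) j)) w = _
    rw [D_ev, hc, ev_sum]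

end Vale.Agent.P088
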