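import Mathlib

/-!
# P088: abstract creation and annihilation operators
-/

open scoped InnerProductSpace

noncomputable section
namespace Vale.Agent.P088.FockN1

/-- Annihilation operators `c` and creation operators `d` on a dense domain `V`. -/
structure Osc (n : ℕ) (V E : Type) [AddCommGroup V] [Module ℝ V] [NormedAddCommGroup E]
    [InnerProductSpace ℝ E] where
  ι : V →ₗ[ℝ] E
  c : Fin n → V →ₗ[ℝ] V
  d : Fin n → V →ₗ[ℝ] V
  inj : ∀ P, ι P = 0 → P = 0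
  adj : ∀ a P Q, ⟪ι (c a P), ι Q⟫_ℝ = ⟪ι P, ι (d a Q)⟫_ℝ
  cd : ∀ a b P, c a (d b P) = d b (c a P) + if a = b then (2 : ℝ) • P else 0
  cc : ∀ a b P, c a (c b P) = c b (c a P)
  dd : ∀ a b P, d a (d b P) = d b (d a P)

namespace Osc
variable {n : ℕ} {V E : Type} [AddCommGroup V] [Module ℝ V] [NormedAddCommGroup E]
  [InnerProductSpace ℝ E] (S : Osc n V E)

/-- The number operator. -/
def N : V →ₗ[ℝ] V := ∑ a, S.d a ∘ₗ S.c a

/-- The Laplacian. -/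
def L : V →ₗ[ℝ] V := ∑ a, S.c a ∘ₗ S.c a

/-- Its adjoint. -/
def M : V →ₗ[ℝ] V := ∑ a, S.d a ∘ₗ S.d a

lemma N_app (P : V) : S.N P = ∑ a, S.d a (S.c a P) := by simp [N]
lemma L_app (P : V) : S.L P = ∑ a, S.c a (S.c a P) := by simp [L]
lemma M_app (P : V) : S.M P = ∑ a, S.d a (S.d a P) := by simp [M]

lemma adj' (a : Fin n) (P Q : V) : ⟪S.ι (S.d a P), S.ι Q⟫_ℝ = ⟪S.ι P, S.ι (S.c a Q)⟫_ℝ := by
  rw [real_inner_comm, ← S.adj, real_inner_comm]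

lemma N_inner (P Q : V) : ⟪S.ι (S.N P), S.ι Q⟫_ℝ = ∑ a, ⟪S.ι (S.c a P), S.ι (S.c a Q)⟫_ℝ := by
  rw [N_app, map_sum, sum_inner]
  exact Finset.sum_congr rfl fun a _ => S.adj' a _ _

lemma N_symm (P Q : V) : ⟪S.ι (S.N P), S.ι Q⟫_ℝ = ⟪S.ι P, S.ι (S.N Q)⟫_ℝ := by
  rw [real_inner_comm (S.ι (S.N Q)), N_inner, N_inner]
  exact Finset.sum_congr rfl fun a _ => real_inner_comm _ _

lemma L_adj (P Q : V) : ⟪S.ι (S.L P), S.ι Q⟫_ℝ = ⟪S.ι P, S.ι (S.M Q)⟫_ℝ := by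
  rw [L_app, M_app, map_sum, map_sum, sum_inner, inner_sum]
  exact Finset.sum_congr rfl fun a _ => by rw [S.adj, S.adj]

lemma N_d (b : Fin n) (P : V) : S.N (S.d b P) = S.d b (S.N P) + (2 : ℝ) • S.d b P := by
  rw [N_app, N_app, map_sum]
  have : ∀ a, S.d a (S.c a (S.d b P)) =
      S.d b (S.d a (S.c a P)) + if a = b then (2 : ℝ) • S.d b P else 0 := fun a => by
    rw [S.cd, map_add, S.dd]
    split_ifs with h
    · rw [h, map_smul]
    · rw [map_zero]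
  simp only [this, Finset.sum_add_distrib, Finset.sum_ite_eq', Finset.mem_univ, if_true]

lemma N_c (b : Fin n) (P : V) : S.N (S.c b P) = S.c b (S.N P) - (2 : ℝ) • S.c b P := by
  rw [N_app, N_app, map_sum, eq_sub_iff_add_eq]
  have : ∀ a, S.c b (S.d a (S.c a P)) =
      S.d a (S.c a (S.c b P)) + if b = a then (2 : ℝ) • S.c b P else 0 := fun a => by
    rw [S.cd, S.cc]
    split_ifs with h
    · rw [h]
    · rfl
  simp only [this, Finset.sum_add_distrib, Finset.sum_ite_eq, Finset.mem_univ, if_true]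

lemma LM (P : V) : S.L (S.M P) = S.M (S.L P) + (8 : ℝ) • S.N P + (8 * n : ℝ) • P := by
  have h : ∀ a b, S.c a (S.c a (S.d b (S.d b P))) = S.d b (S.d b (S.c a (S.c a P))) +
      if a = b then (8 : ℝ) • S.d a (S.c a P) + (8 : ℝ) • P else 0 := fun a b => by
    by_cases hab : a = b
    · subst hab
      simp only [S.cd, if_true, map_add, map_smul]
      module
    · simp only [S.cd, if_neg hab, add_zero]
  rw [L_app, M_app, M_app, L_app, N_app]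
  simp only [map_sum, h, Finset.sum_add_distrib, Finset.sum_ite_eq, Finset.mem_univ, if_true,
    Finset.sum_const, Finset.card_univ, Fintype.card_fin, Finset.smul_sum]
  rw [Finset.sum_comm, add_assoc, ← Nat.cast_smul_eq_nsmul ℝ, smul_smul, mul_comm]

/-- Eigenvectors of the number operator. -/
def G (r : ℝ) : Submodule ℝ V := LinearMap.ker (S.N - r • LinearMap.id)

variable {S}

lemma mem_G {r : ℝ} {P : V} : P ∈ S.G r ↔ S.N P = r • P := by simp [G, sub_eq_zero]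

lemma G_d {r : ℝ} {P : V} (h : P ∈ S.G r) (b : Fin n) : S.d b P ∈ S.G (r + 2) := by
  rw [mem_G] at h ⊢; rw [N_d, h, map_smul, add_smul]

lemma G_c {r : ℝ} {P : V} (h : P ∈ S.G r) (b : Fin n) : S.c b P ∈ S.G (r - 2) := by
  rw [mem_G] at h ⊢; rw [N_c, h, map_smul, sub_smul]

lemma G_L {r : ℝ} {P : V} (h : P ∈ S.G r) : S.L P ∈ S.G (r - 4) := by
  rw [L_app]
  exact Submodule.sum_mem _ fun a _ => by convert G_c (G_c h a) a using 2; ring

lemma G_M {r : ℝ} {P : V} (h : P ∈ S.G r) : S.M P ∈ S.G (r + 4) := by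
  rw [M_app]
  exact Submodule.sum_mem _ fun a _ => by convert G_d (G_d h a) a using 2; ring

lemma G_sum {r : ℝ} {P : V} (h : P ∈ S.G r) :
    ∑ a, ‖S.ι (S.c a P)‖ ^ 2 = r * ‖S.ι P‖ ^ 2 := by
  have := S.N_inner P P
  rw [mem_G.1 h, map_smul, real_inner_smul_left] at this
  simpa only [real_inner_self_eq_norm_sq] using this.symm

lemma c_le {r : ℝ} {P : V} (h : P ∈ S.G r) (a : Fin n) :
    ‖S.ι (S.c a P)‖ ^ 2 ≤ r * ‖S.ι P‖ ^ 2 := by
  rw [← G_sum h]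
  exact Finset.single_le_sum (f := fun a => ‖S.ι (S.c a P)‖ ^ 2) (fun _ _ => sq_nonneg _)
    (Finset.mem_univ a)

lemma d_le {r : ℝ} {P : V} (h : P ∈ S.G r) (a : Fin n) :
    ‖S.ι (S.d a P)‖ ^ 2 ≤ (r + 2) * ‖S.ι P‖ ^ 2 := by
  have h1 := c_le h a
  have h2 := S.adj' a P (S.d a P)
  rw [S.cd, if_pos rfl, map_add, map_smul, inner_add_right, real_inner_smul_right,
    ← S.adj a P (S.c a P)] at h2
  simp only [real_inner_self_eq_norm_sq] at h2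
  linarith

lemma G_neg {r : ℝ} {P : V} (h : P ∈ S.G r) (hr : r < 0) : P = 0 := by
  have h1 := G_sum h
  have h2 : 0 ≤ ∑ a, ‖S.ι (S.c a P)‖ ^ 2 := Finset.sum_nonneg fun _ _ => sq_nonneg _
  have h3 : ‖S.ι P‖ ^ 2 = 0 := by nlinarith [sq_nonneg ‖S.ι P‖]
  exact S.inj _ (by simpa using h3)

lemma G_orth {r s : ℝ} {P Q : V} (h : P ∈ S.G r) (h' : Q ∈ S.G s) (hrs : r ≠ s) :
    ⟪S.ι P, S.ι Q⟫_ℝ = 0 := by
  have := S.N_symm P Q
  rw [mem_G.1 h, mem_G.1 h', map_smul, map_smul, real_inner_smul_left,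
    real_inner_smul_right, ← sub_eq_zero, ← sub_mul] at this
  exact (mul_eq_zero.1 this).resolve_left (sub_ne_zero.2 hrs)

lemma norm_sum (K : ℕ) (s : ℝ) (f : ℕ → V) (hf : ∀ m : ℕ, f m ∈ S.G (2 * m + s)) :
    ‖S.ι (∑ m ∈ Finset.range K, f m)‖ ^ 2 = ∑ m ∈ Finset.range K, ‖S.ι (f m)‖ ^ 2 := by
  rw [map_sum, ← real_inner_self_eq_norm_sq, sum_inner]
  refine Finset.sum_congr rfl fun m hm => ?_
  rw [inner_sum, Finset.sum_eq_single m, real_inner_self_eq_norm_sq]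
  · intro k _ hk
    refine G_orth (hf m) (hf k) fun e => hk ?_
    have : (k : ℝ) = m := by linarith
    exact_mod_cast this
  · exact fun h => absurd hm h

lemma surj (hn : 1 ≤ n) (m : ℕ) : ∀ r : ℝ, r < m → ∀ l : ℝ, 0 ≤ l → ∀ Y ∈ S.G r,
    ∃ Z ∈ S.G r, S.L (S.M Z) + l • Z = Y := by
  have h0 : ∀ r : ℝ, r < 0 → ∀ l : ℝ, ∀ Y ∈ S.G r, ∃ Z ∈ S.G r, S.L (S.M Z) + l • Z = Y :=
    fun r hr l Y hY => ⟨0, zero_mem _, by simp [G_neg hY hr]⟩
  induction m with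
  | zero => exact fun r hr l _ => h0 r (by simpa using hr) l
  | succ m ih =>
    intro r hr l hl Y hY
    rcases lt_or_ge r 0 with h | h
    · exact h0 r h l Y hY
    have hn' : (1 : ℝ) ≤ n := by exact_mod_cast hn
    have hμ : 0 < l + 8 * r + 8 * n := by positivity
    obtain ⟨W, hW, e⟩ := ih (r - 4) (by push_cast at hr; linarith) _ hμ.le _ (G_L hY)
    have hW' : S.M W ∈ S.G r := by simpa using G_M hW
    have hZ : (l + 8 * r + 8 * n)⁻¹ • (Y - S.M W) ∈ S.G r :=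
      Submodule.smul_mem _ _ (sub_mem hY hW')
    refine ⟨_, hZ, ?_⟩
    have e1 : S.L ((l + 8 * r + 8 * n)⁻¹ • (Y - S.M W)) = W := by
      rw [map_smul, map_sub, ← e, add_sub_cancel_left, smul_smul, inv_mul_cancel₀ hμ.ne',
        one_smul]
    have e2 : (l + 8 * r + 8 * n) • (l + 8 * r + 8 * n)⁻¹ • (Y - S.M W) = Y - S.M W := by
      rw [smul_smul, mul_inv_cancel₀ hμ.ne', one_smul]
    rw [LM, e1, mem_G.1 hZ]
    generalize (l + 8 * r + 8 * n)⁻¹ • (Y - S.M W) = Z at e2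
    rw [sub_eq_iff_eq_add'.1 e2.symm]
    module

lemma decomp (m : ℕ) {Q : V} (hQ : Q ∈ S.G (2 * m)) : ∃ h Z, Q = h + S.M Z ∧ h ∈ S.G (2 * m) ∧
    S.L h = 0 ∧ Z ∈ S.G (2 * m + -4) ∧ ‖S.ι h‖ ^ 2 ≤ ‖S.ι Q‖ ^ 2 ∧
    ((m : ℝ) + 1) * ‖S.ι Z‖ ^ 2 ≤ ‖S.ι Q‖ ^ 2 := by
  rcases Nat.eq_zero_or_pos n with hn | hn
  · subst hn
    exact ⟨Q, 0, by simp, hQ, by simp [L_app], zero_mem _, le_rfl, by simp⟩
  obtain ⟨Z, hZ, e⟩ := surj hn (2 * m) (2 * m - 4) (by push_cast; linarith) 0 le_rfl _ (G_L hQ)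
  rw [zero_smul, add_zero] at e
  have hL : S.L (Q - S.M Z) = 0 := by rw [map_sub, e, sub_self]
  have h1 : ‖S.ι Q‖ ^ 2 = ‖S.ι (Q - S.M Z)‖ ^ 2 + ‖S.ι (S.M Z)‖ ^ 2 := by
    have : S.ι Q = S.ι (Q - S.M Z) + S.ι (S.M Z) := by rw [← map_add, sub_add_cancel]
    rw [this, norm_add_sq_real, ← S.L_adj, hL, map_zero, inner_zero_left]
    ring
  have h2 : ‖S.ι (S.M Z)‖ ^ 2 =
      ‖S.ι (S.L Z)‖ ^ 2 + (8 * (2 * m - 4) + 8 * n) * ‖S.ι Z‖ ^ 2 := by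
    rw [← real_inner_self_eq_norm_sq, ← S.L_adj, LM, mem_G.1 hZ]
    simp only [map_add, map_smul, inner_add_left, real_inner_smul_left,
      real_inner_self_eq_norm_sq]
    rw [real_inner_comm, ← S.L_adj, real_inner_self_eq_norm_sq]
    ring
  refine ⟨_, Z, (sub_add_cancel _ _).symm, sub_mem hQ (by simpa using G_M hZ), hL,
    by simpa [sub_eq_add_neg] using hZ, by nlinarith [sq_nonneg ‖S.ι (S.M Z)‖], ?_⟩
  rcases lt_or_ge m 2 with hm | hm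
  · have : (m : ℝ) < 2 := by exact_mod_cast hm
    rw [G_neg hZ (by linarith)]
    simp
  · have : (2 : ℝ) ≤ m := by exact_mod_cast hm
    have hn' : (1 : ℝ) ≤ n := by exact_mod_cast hn
    nlinarith [sq_nonneg ‖S.ι (Q - S.M Z)‖, sq_nonneg ‖S.ι (S.L Z)‖, sq_nonneg ‖S.ι Z‖,
      mul_nonneg (show 0 ≤ 15 * (m : ℝ) - 33 + 8 * n by linarith) (sq_nonneg ‖S.ι Z‖)]

variable {u v : E} {α : ℕ → ℝ} {A : ℝ}

/-- The data of the estimate. -/
structure Dat (S : Osc n V E) (u v : E) (α : ℕ → ℝ) (A : ℝ) : Prop where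
  hv : ∀ Z, ⟪u, S.ι (S.M Z)⟫_ℝ = ⟪v, S.ι Z⟫_ℝ
  h0 : ∀ m, 0 ≤ α m
  hh : ∀ (m : ℕ) (h : V), h ∈ S.G (2 * m) → S.L h = 0 → ⟪u, S.ι h⟫_ℝ ^ 2 ≤ α m * ‖S.ι h‖ ^ 2
  hA : ∀ K, ∑ m ∈ Finset.range K, ((m : ℝ) + 1) * α m ≤ A

lemma key (hD : Dat S u v α A) (K : ℕ) (Q : ℕ → V) (q : ℕ → ℝ) (hQ : ∀ m : ℕ, Q m ∈ S.G (2 * m))
    (hq : ∀ m : ℕ, ‖S.ι (Q m)‖ ^ 2 ≤ ((m : ℝ) + 1) * q m) :
    ⟪u, S.ι (∑ m ∈ Finset.range K, Q m)⟫_ℝ ^ 2 ≤
      2 * (A + ‖v‖ ^ 2) * ∑ m ∈ Finset.range K, q m := by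
  choose h Z e hG hL hZ h1 h2 using fun m => decomp m (hQ m)
  have hp : ∀ m : ℕ, (0 : ℝ) < m + 1 := fun m => by positivity
  have hq0 : ∀ m, 0 ≤ q m := fun m =>
    (mul_nonneg_iff_of_pos_left (hp m)).1 ((sq_nonneg _).trans (hq m))
  have e1 : ⟪u, S.ι (∑ m ∈ Finset.range K, Q m)⟫_ℝ =
      ∑ m ∈ Finset.range K, ⟪u, S.ι (h m)⟫_ℝ + ⟪v, S.ι (∑ m ∈ Finset.range K, Z m)⟫_ℝ := by
    rw [← hD.hv, Finset.sum_congr rfl fun m _ => e m, Finset.sum_add_distrib, map_add,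
      inner_add_right, map_sum S.M, map_sum S.ι h, inner_sum]
  have hs : 0 ≤ ∑ m ∈ Finset.range K, q m := Finset.sum_nonneg fun m _ => hq0 m
  have b1 : (∑ m ∈ Finset.range K, ⟪u, S.ι (h m)⟫_ℝ) ^ 2 ≤ A * ∑ m ∈ Finset.range K, q m := by
    refine (Finset.sum_sq_le_sum_mul_sum_of_sq_le_mul _ (f := fun m : ℕ => ((m : ℝ) + 1) * α m)
      (g := q) (fun m _ => mul_nonneg (hp m).le (hD.h0 m)) (fun m _ => hq0 m)
      fun m _ => ?_).trans (mul_le_mul_of_nonneg_right (hD.hA K) hs)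
    have := mul_le_mul_of_nonneg_left ((h1 m).trans (hq m)) (hD.h0 m)
    have := hD.hh m _ (hG m) (hL m)
    linarith
  have b2 : ⟪v, S.ι (∑ m ∈ Finset.range K, Z m)⟫_ℝ ^ 2 ≤ ‖v‖ ^ 2 * ∑ m ∈ Finset.range K, q m := by
    have h3 := real_inner_mul_inner_self_le v (S.ι (∑ m ∈ Finset.range K, Z m))
    rw [real_inner_self_eq_norm_sq, real_inner_self_eq_norm_sq, norm_sum K _ Z hZ, ← sq] at h3
    refine h3.trans (mul_le_mul_of_nonneg_left (Finset.sum_le_sum fun m _ => ?_) (sq_nonneg _))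
    have h4 := (h2 m).trans (hq m)
    exact le_of_mul_le_mul_left h4 (hp m)
  rw [e1]
  nlinarith [sq_nonneg (∑ m ∈ Finset.range K, ⟪u, S.ι (h m)⟫_ℝ -
    ⟪v, S.ι (∑ m ∈ Finset.range K, Z m)⟫_ℝ)]

lemma gen {T : Submodule ℝ V} (hT : T = ⨆ m : ℕ, S.G (2 * m)) (a : Fin n) {P : V} (hP : P ∈ T) :
    S.c a P + S.d a P ∈ T := by
  subst hT
  refine Submodule.iSup_induction _ (motive := fun P => S.c a P + S.d a P ∈ ⨆ m : ℕ, S.G (2 * m))
    hP (fun m P hP => add_mem ?_ ?_) (by simp) fun P Q hP hQ => ?_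
  · cases m with
    | zero => rw [G_neg (G_c hP a) (by simp)]; exact zero_mem _
    | succ m =>
      refine Submodule.mem_iSup_of_mem m ?_
      convert G_c hP a using 2
      push_cast; ring
  · refine Submodule.mem_iSup_of_mem (m + 1) ?_
    convert G_d hP a using 2
    push_cast; ring
  · rw [map_add, map_add, add_add_add_comm]
    exact add_mem hP hQ

lemma bound (hD : Dat S u v α A) {P : V} (hP : P ∈ ⨆ m : ℕ, S.G (2 * m)) :
    ⟪u, S.ι P⟫_ℝ ^ 2 ≤ 2 * (A + ‖v‖ ^ 2) * ‖S.ι P‖ ^ 2 ∧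
      ∀ a, ⟪u, S.ι (S.c a P + S.d a P)⟫_ℝ ^ 2 ≤ 16 * (A + ‖v‖ ^ 2) * ‖S.ι P‖ ^ 2 := by
  obtain ⟨f, hf, e⟩ := (Submodule.mem_iSup_iff_exists_finsupp _ _).1 hP
  obtain ⟨K, hK⟩ := f.support.exists_nat_subset_range
  rw [Finsupp.sum_of_support_subset f (hK.trans (Finset.range_subset_range.2 K.le_succ)) _
    fun _ _ => rfl] at e
  have hn := norm_sum (K + 1) 0 f (by simpa using hf)
  rw [e] at hn
  have hA : 0 ≤ A + ‖v‖ ^ 2 := add_nonneg (by simpa using hD.hA 0) (sq_nonneg _)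
  refine ⟨?_, fun a => ?_⟩
  · have := key hD (K + 1) f (fun m => ‖S.ι (f m)‖ ^ 2) hf fun m => by
      nlinarith [sq_nonneg ‖S.ι (f m)‖, (Nat.cast_nonneg m : (0 : ℝ) ≤ m)]
    rwa [e, ← hn] at this
  have b1 := key hD K (fun m => S.c a (f (m + 1))) (fun m => 2 * ‖S.ι (f (m + 1))‖ ^ 2)
    (fun m => by convert G_c (hf (m + 1)) a using 2; push_cast; ring)
    fun m => by have := c_le (hf (m + 1)) a; push_cast at this; linarith
  have b2 := key hD (K + 2) (fun m => Nat.casesOn m 0 fun m => S.d a (f m))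
    (fun m => Nat.casesOn m 0 fun m => 2 * ‖S.ι (f m)‖ ^ 2)
    (fun m => by
      cases m with
      | zero => exact zero_mem _
      | succ m => convert G_d (hf m) a using 2; push_cast; ring)
    fun m => by
      cases m with
      | zero => simp
      | succ m =>
        have := d_le (hf m) a
        push_cast
        nlinarith [sq_nonneg ‖S.ι (f m)‖]
  have e1 : ∑ m ∈ Finset.range K, S.c a (f (m + 1)) = S.c a P := by
    rw [← e, Finset.sum_range_succ', map_add, map_sum, G_neg (G_c (hf 0) a) (by simp), add_zero]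
  rw [Finset.sum_range_succ' _ (K + 1), Finset.sum_range_succ' _ (K + 1)] at b2
  simp only [Nat.rec_zero, add_zero] at b2
  rw [← map_sum, e, ← Finset.mul_sum, ← hn] at b2
  rw [e1, ← Finset.mul_sum] at b1
  have h4 : ∑ m ∈ Finset.range K, ‖S.ι (f (m + 1))‖ ^ 2 ≤ ‖S.ι P‖ ^ 2 := by
    rw [hn, Finset.sum_range_succ']
    exact le_add_of_nonneg_right (sq_nonneg _)
  have h5 := mul_le_mul_of_nonneg_left h4 hA
  rw [map_add, inner_add_right]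
  nlinarith [sq_nonneg (⟪u, S.ι (S.c a P)⟫_ℝ - ⟪u, S.ι (S.d a P)⟫_ℝ)]

end Osc
end Vale.Agent.P088.FockN1
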