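import Vale.Agent.P088.StA
import Vale.Agent.P088.FockN1a

/-!
# P088: the number-operator inequality
-/

open MeasureTheory MvPolynomial
open scoped InnerProductSpace ContDiff

noncomputable section
namespace Vale.Agent.P088
open Vale.Agent.P136

namespace FockN1
variable {n : ℕ}

/-- Polynomials. -/
abbrev Pol (n : ℕ) : Type := MvPolynomial (Fin n) ℝ

/-- The function given by a polynomial. -/
def ev (P : Pol n) (w : En n) : ℝ := eval (fun i => w i) P

lemma ev_C (a : ℝ) : ev (C a : Pol n) = fun _ => a := by funext w; simp [ev]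
lemma ev_add (P Q : Pol n) : ev (P + Q) = fun w => ev P w + ev Q w := by funext w; simp [ev]
lemma ev_mul (P Q : Pol n) : ev (P * Q) = fun w => ev P w * ev Q w := by funext w; simp [ev]
lemma ev_mulX (P : Pol n) (i : Fin n) : ev (P * X i) = fun w => ev P w * w i := by
  funext w; simp [ev]

lemma sm_coord (i : Fin n) : Sm fun w : En n => w i :=
  (EuclideanSpace.proj (𝕜 := ℝ) i).contDiff

lemma D_coord (a i : Fin n) (w : En n) :
    D (ee a) (fun w : En n => w i) w = if a = i then 1 else 0 := by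
  have : (fun w : En n => w i) = EuclideanSpace.proj (𝕜 := ℝ) i := rfl
  rw [D, this, ContinuousLinearMap.fderiv]
  simp [ee, eq_comm]

lemma sm_ev (P : Pol n) : Sm (ev P) := by
  induction P using MvPolynomial.induction_on with
  | C a => rw [ev_C]; exact Sm.const a
  | add p q hp hq => rw [ev_add]; exact hp.add hq
  | mul_X p i hp => rw [ev_mulX]; exact hp.mul (sm_coord i)

lemma D_ev (a : Fin n) (P : Pol n) (w : En n) : D (ee a) (ev P) w = ev (pderiv a P) w := by
  induction P using MvPolynomial.induction_on with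
  | C c => rw [ev_C, D_const]; simp [ev]
  | add p q hp hq =>
    rw [ev_add, D_add_at ((sm_ev p).dAt w) ((sm_ev q).dAt w), hp, hq, map_add, ev_add]
  | mul_X p i hp =>
    rw [ev_mulX, D_mul_at ((sm_ev p).dAt w) ((sm_coord i).dAt w), hp, D_coord]
    by_cases h : a = i
    · simp [ev, h, mul_comm]
    · simp [ev, h, Ne.symm h, mul_comm]

lemma sm_ph : Sm fun w : En n => ‖w‖ ^ 2 / 2 := (contDiff_norm_sq ℝ).div_const 2

lemma D_ph (a : Fin n) (w : En n) : D (ee a) (fun w : En n => ‖w‖ ^ 2 / 2) w = w a := by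
  have h := ((hasStrictFDerivAt_norm_sq w).hasFDerivAt).const_mul (2 : ℝ)⁻¹
  simp only [D, div_eq_inv_mul]
  rw [h.fderiv]
  simp [ee, EuclideanSpace.inner_single_right]

lemma sm_gs : Sm (gs : En n → ℝ) := sm_ph.neg.exp

lemma D_gs (a : Fin n) (w : En n) : D (ee a) gs w = -(w a * gs w) := by
  have := D_exp_at (sm_ph.neg.dAt w) (ee a)
  rw [D_neg, D_ph] at this
  exact this.trans (by rw [gs]; ring)

lemma ev_le (P : Pol n) : ∀ ε : ℝ, 0 < ε → ∃ K : ℝ, 0 ≤ K ∧ ∀ w,
    |ev P w| ≤ K * Real.exp (ε * ‖w‖ ^ 2) := by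
  induction P using MvPolynomial.induction_on with
  | C c =>
    refine fun ε hε => ⟨|c|, abs_nonneg c, fun w => ?_⟩
    rw [ev_C]
    exact le_mul_of_one_le_right (abs_nonneg c) (Real.one_le_exp (by positivity))
  | add p q hp hq =>
    intro ε hε
    obtain ⟨K, hK, h⟩ := hp ε hε
    obtain ⟨K', hK', h'⟩ := hq ε hε
    refine ⟨K + K', by positivity, fun w => ?_⟩
    rw [ev_add, add_mul]
    exact (abs_add_le _ _).trans (add_le_add (h w) (h' w))
  | mul_X p i hp =>
    intro ε hε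
    obtain ⟨K, hK, h⟩ := hp (ε / 2) (by positivity)
    refine ⟨K * (1 + 2 / ε), by positivity, fun w => ?_⟩
    have h1 : |w i| ≤ ‖w‖ := PiLp.norm_apply_le w i
    have h2 := Real.add_one_le_exp (ε / 2 * ‖w‖ ^ 2)
    have h3 : (1 + 2 / ε) * (ε / 2 * ‖w‖ ^ 2 + 1) = 1 + ‖w‖ ^ 2 + ε / 2 * ‖w‖ ^ 2 + 2 / ε := by
      field_simp; ring
    have h4 : |w i| ≤ (1 + 2 / ε) * Real.exp (ε / 2 * ‖w‖ ^ 2) := by
      refine le_trans ?_ (mul_le_mul_of_nonneg_left h2 (by positivity))
      have : 0 ≤ ε / 2 * ‖w‖ ^ 2 + 2 / ε := by positivity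
      nlinarith [sq_nonneg (‖w‖ - 1), norm_nonneg w]
    rw [ev_mulX, abs_mul, show ε * ‖w‖ ^ 2 = ε / 2 * ‖w‖ ^ 2 + ε / 2 * ‖w‖ ^ 2 by ring,
      Real.exp_add, mul_mul_mul_comm]
    exact mul_le_mul (h w) h4 (abs_nonneg _) (by positivity)

lemma int_ev (P : Pol n) : Integrable fun w => ev P w * gs w ^ 2 := by
  obtain ⟨K, hK, h⟩ := ev_le P (1 / 2) (by norm_num)
  have h1 := (GaussianFourier.integrable_cexp_neg_mul_sq_norm_add (V := En n) (b := 1 / 2)
    (by norm_num) 0 0).norm.const_mul K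
  refine h1.mono' ((sm_ev P).mul (sm_gs.pow 2)).cont.aestronglyMeasurable
    (Filter.Eventually.of_forall fun w => ?_)
  have e : (-(1 / 2 : ℂ) * (‖w‖ : ℂ) ^ 2 + 0 * (⟪(0 : En n), w⟫_ℝ : ℝ)) =
      ((-(1 / 2 * ‖w‖ ^ 2) : ℝ) : ℂ) := by push_cast; ring
  rw [e, Complex.norm_exp_ofReal, Real.norm_eq_abs, abs_mul, abs_of_nonneg (sq_nonneg (gs w))]
  refine (mul_le_mul_of_nonneg_right (h w) (sq_nonneg _)).trans (le_of_eq ?_)
  rw [gs, sq (Real.exp _), mul_assoc, ← Real.exp_add, ← Real.exp_add]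
  congr 2; ring

lemma int2 (P Q : Pol n) : Integrable fun w => ev P w * (ev Q w * gs w ^ 2) := by
  simpa only [ev_mul, mul_assoc] using int_ev (P * Q)

lemma memLp_ev (P : Pol n) : MemLp (fun w => ev P w * gs w) 2 volume := by
  rw [memLp_two_iff_integrable_sq ((sm_ev P).mul sm_gs).cont.aestronglyMeasurable]
  exact (int2 P P).congr (Filter.Eventually.of_forall fun w => by ring)

/-- The Hilbert space. -/
abbrev LL (n : ℕ) : Type := Lp ℝ 2 (volume : Measure (En n))

lemma inner_toLp {f g : En n → ℝ} (hf : MemLp f 2 volume) (hg : MemLp g 2 volume) :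
    ⟪hf.toLp f, hg.toLp g⟫_ℝ = ∫ w, f w * g w := by
  rw [L2.inner_def]
  refine integral_congr_ae ?_
  filter_upwards [hf.coeFn_toLp, hg.coeFn_toLp] with w h1 h2
  rw [h1, h2]; simp [mul_comm]

/-- The embedding of the polynomials. -/
def io : Pol n →ₗ[ℝ] LL n where
  toFun P := (memLp_ev P).toLp _
  map_add' P Q := by
    rw [← MemLp.toLp_add]
    exact MemLp.toLp_congr _ _ (Filter.Eventually.of_forall fun w => by simp [ev, add_mul])
  map_smul' c P := by
    rw [RingHom.id_apply, ← MemLp.toLp_const_smul]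
    exact MemLp.toLp_congr _ _ (Filter.Eventually.of_forall fun w => by simp [ev, mul_assoc])

lemma inner_io {f : En n → ℝ} (hf : MemLp f 2 volume) (Q : Pol n) :
    ⟪hf.toLp f, io Q⟫_ℝ = ∫ w, f w * (ev Q w * gs w) := inner_toLp _ (memLp_ev Q)

lemma io_io (P Q : Pol n) : ⟪io P, io Q⟫_ℝ = ∫ w, ev P w * (ev Q w * gs w ^ 2) := by
  refine (inner_toLp (memLp_ev P) (memLp_ev Q)).trans ?_
  congr 1; funext w; ring

/-- The annihilation operators. -/
def cO (a : Fin n) : Pol n →ₗ[ℝ] Pol n := (pderiv a).toLinearMap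

/-- The creation operators. -/
def dO (a : Fin n) : Pol n →ₗ[ℝ] Pol n := (2 : ℝ) • LinearMap.mulLeft ℝ (X a) - cO a

lemma cO_app (a : Fin n) (P : Pol n) : cO a P = pderiv a P := rfl
lemma dO_app (a : Fin n) (P : Pol n) : dO a P = (2 : ℝ) • (X a * P) - pderiv a P := rfl

lemma ev_dO (a : Fin n) (P : Pol n) (w : En n) :
    ev (dO a P) w = 2 * w a * ev P w - ev (pderiv a P) w := by
  simp [dO_app, ev, mul_assoc]

lemma pd_comm (a b : Fin n) (P : Pol n) : pderiv a (pderiv b P) = pderiv b (pderiv a P) := by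
  induction P using MvPolynomial.induction_on with
  | C c => simp
  | add p q hp hq => simp [hp, hq]
  | mul_X p i hp =>
    simp only [Derivation.leibniz, pderiv_X, smul_eq_mul, map_add, hp, Pi.single_apply]
    split_ifs <;> simp <;> ring

lemma gs_pos (w : En n) : 0 < gs w := Real.exp_pos _

/-- The oscillator algebra on the polynomials. -/
def osc (n : ℕ) : Osc n (Pol n) (LL n) where
  ι := io
  c := cO
  d := dO
  inj P h := by
    have h1 : (fun w => ev P w * gs w) =ᵐ[volume] fun _ => 0 := by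
      refine (memLp_ev P).coeFn_toLp.symm.trans ?_
      rw [show (memLp_ev P).toLp _ = 0 from h]
      exact Lp.coeFn_zero _ _ _
    have h2 := (((sm_ev P).mul sm_gs).cont.ae_eq_iff_eq volume continuous_const).1 h1
    refine MvPolynomial.funext fun x => ?_
    have h3 := congrFun h2 (WithLp.toLp 2 x)
    simpa [ev, (gs_pos _).ne'] using h3
  adj a P Q := by
    have hg : Sm fun w => ev Q w * gs w ^ 2 := (sm_ev Q).mul (sm_gs.pow 2)
    have hD : ∀ w, fderiv ℝ (fun w => ev Q w * gs w ^ 2) w (ee a) =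
        -(ev (dO a Q) w * gs w ^ 2) := fun w => by
      have := D_mul_at ((sm_ev Q).dAt w) ((sm_gs.mul sm_gs).dAt w) (ee a)
      rw [D_mul_at (sm_gs.dAt w) (sm_gs.dAt w), D_gs, D_ev] at this
      simp only [sq]
      exact this.trans (by rw [ev_dO]; ring)
    have hP : ∀ w, fderiv ℝ (ev P) w (ee a) = ev (cO a P) w := D_ev a P
    have := integral_mul_fderiv_eq_neg_fderiv_mul_of_integrable (μ := volume) (f := ev P)
      (g := fun w => ev Q w * gs w ^ 2) (v := ee a) (by simpa only [hP] using int2 _ Q)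
      (by simp only [hD, mul_neg]; exact (int2 P _).neg) (int2 P Q)
      (fun w _ => (sm_ev P).dAt w) fun w _ => hg.dAt w
    simp only [hD, hP, mul_neg, integral_neg, neg_inj] at this
    rw [io_io, io_io, this]
  cd a b P := by
    simp only [cO_app, dO_app, map_sub, Derivation.map_smul, Derivation.leibniz, pderiv_X,
      smul_eq_mul, pd_comm a b, Pi.single_apply, eq_comm (a := b)]
    split_ifs
    · simp; abel
    · simp
  cc := pd_comm
  dd a b P := by
    simp only [dO_app, map_sub, Derivation.leibniz, pderiv_X, pderiv_C,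
      smul_eq_mul, pd_comm a b, Pi.single_apply, eq_comm (a := b), smul_eq_C_mul]
    ring

lemma cd_eq (a : Fin n) (P : Pol n) :
    (osc n).c a P + (osc n).d a P = (2 : ℝ) • (X a * P) := add_sub_cancel _ _

lemma top_mem (P : Pol n) : P ∈ ⨆ m : ℕ, (osc n).G (2 * m) := by
  induction P using MvPolynomial.induction_on with
  | C c =>
    refine Submodule.mem_iSup_of_mem 0 (Osc.mem_G.2 ?_)
    simp [Osc.N_app, osc, cO_app]
  | add p q hp hq => exact add_mem hp hq
  | mul_X p i hp =>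
    have := Submodule.smul_mem _ (2 : ℝ)⁻¹ (Osc.gen rfl i hp)
    rwa [cd_eq, smul_smul, inv_mul_cancel₀ two_ne_zero, one_smul, mul_comm] at this

lemma euler {m : ℕ} {h : Pol n} (e : ∑ a, X a * pderiv a h = (m : ℝ) • h) :
    h.IsHomogeneous m := by
  have key : ∀ (P : Pol n) (s : Fin n →₀ ℕ),
      coeff s (∑ a, X a * pderiv a P) = (s.degree : ℝ) * coeff s P := fun P s => by
    induction P using MvPolynomial.induction_on' with
    | monomial u c =>
      rw [(isHomogeneous_monomial c rfl).sum_X_mul_pderiv, coeff_smul, coeff_monomial]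
      split_ifs with h
      · simp [h]
      · simp
    | add p q hp hq => simp only [map_add, mul_add, Finset.sum_add_distrib, coeff_add, hp, hq]
  intro s hs
  have := key h s
  rw [e, coeff_smul, smul_eq_mul] at this
  have h2 : s.degree = m := by exact_mod_cast (mul_right_cancel₀ hs this).symm
  rwa [Finsupp.degree_eq_weight_one] at h2

lemma harm {F : Fock n} (hF : F.Ok) {u : En n → ℝ} (hu : MemLp u 2 volume) (m : ℕ) (h : Pol n)
    (hG : h ∈ (osc n).G (2 * m)) (hL : (osc n).L h = 0) :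
    ⟪hu.toLp u, io h⟫_ℝ ^ 2 ≤ (∑ j, (∫ w, u w * F.H m j w * gs w) ^ 2) * ‖io h‖ ^ 2 := by
  obtain ⟨-, -, -, horth, hspan, hpoly, -, -⟩ := hF
  rw [Osc.L_app] at hL
  change ∑ a, pderiv a (pderiv a h) = 0 at hL
  have hN : ∑ a, ((2 : ℝ) • (X a * pderiv a h) - pderiv a (pderiv a h)) = (2 * m : ℝ) • h :=
    ((osc n).N_app h).symm.trans (Osc.mem_G.1 hG)
  rw [Finset.sum_sub_distrib, hL, sub_zero, ← Finset.smul_sum, mul_smul] at hN
  obtain ⟨t, ht⟩ := hspan m h (euler (smul_right_injective _ two_ne_zero hN)) hL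
  choose p _ hp using hpoly m
  have e : h = ∑ j, t j • p j := MvPolynomial.funext fun x => by
    simpa [hp] using ht (WithLp.toLp 2 x)
  have hon : Orthonormal ℝ fun j => io (p j) := orthonormal_iff_ite.2 fun i j => by
    have := horth m i m j
    simp only [hp, Sigma.mk.inj_iff, heq_eq_eq, true_and, mul_assoc] at this
    exact (io_io _ _).trans this
  have e1 : ‖io h‖ ^ 2 = ∑ j, t j ^ 2 := by
    rw [← real_inner_self_eq_norm_sq, e, map_sum]
    simp only [map_smul]
    rw [hon.inner_sum]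
    simp [sq]
  have e2 : ⟪hu.toLp u, io h⟫_ℝ = ∑ j, (∫ w, u w * F.H m j w * gs w) * t j := by
    rw [e, map_sum, inner_sum]
    refine Finset.sum_congr rfl fun j _ => ?_
    rw [map_smul, real_inner_smul_right, inner_io, mul_comm]
    simp only [hp, mul_assoc, ev]
  rw [e1, e2]
  exact Finset.sum_mul_sq_le_sq_mul_sq _ _ _

lemma mem_tst {u : En n → ℝ} (hu : Tst u) : MemLp u 2 volume :=
  hu.sm.cont.memLp_of_hasCompactSupport hu.2

lemma step {u : En n → ℝ} (hu : Tst u) (a : Fin n) (Q : Pol n) :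
    ∫ w, u w * (ev (dO a Q) w * gs w) =
      ∫ w, Dp (fun w : En n => ‖w‖ ^ 2 / 2) (ee a) u w * (ev Q w * gs w) := by
  have hg : Sm fun w => ev Q w * gs w := (sm_ev Q).mul sm_gs
  have h0 := integral_D (μ := volume) (hu.mul_right hg) (ee a)
  have h1 : ∀ w, Dp (fun w : En n => ‖w‖ ^ 2 / 2) (ee a) u w * (ev Q w * gs w) =
      u w * (ev (dO a Q) w * gs w) + D (ee a) (fun w => u w * (ev Q w * gs w)) w := fun w => by
    rw [D_mul_at (hu.sm.dAt w) (hg.dAt w), D_mul_at ((sm_ev Q).dAt w) (sm_gs.dAt w), D_gs, D_ev,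
      ev_dO, Dp, D_ph]
    ring
  simp only [h1]
  rw [integral_add (hu.mul_right ((sm_ev _).mul sm_gs)).integrable
    ((hu.mul_right hg).D _).integrable, h0, add_zero]

lemma dense_le (hd : S_dense) (g : LL n) {K : ℝ} (hK : 0 ≤ K)
    (h : ∀ P, ⟪g, io P⟫_ℝ ^ 2 ≤ K * ‖io P‖ ^ 2) : ‖g‖ ^ 2 ≤ K := by
  have h1 : (LinearMap.range (io (n := n)))ᗮ = ⊥ := by
    refine (Submodule.eq_bot_iff _).2 fun s hs => ?_
    have e : ∀ w, s w / gs w * gs w = s w := fun w => div_mul_cancel₀ _ (gs_pos w).ne'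
    have h2 := hd n (fun w => s w / gs w) (by simpa only [e] using Lp.memLp s) fun P => by
      have := (Submodule.mem_orthogonal' _ _).1 hs _ ⟨P, rfl⟩
      rw [← Lp.toLp_coeFn s (Lp.memLp s), inner_io] at this
      refine Eq.trans ?_ this
      congr 1; funext w
      rw [ev, ← e w]
      simp only [e]
      have := (gs_pos w).ne'
      field_simp
    rw [Lp.eq_zero_iff_ae_eq_zero]
    filter_upwards [h2] with w hw
    rw [← e w, hw]; simp
  have h2 : Dense (Set.range (io (n := n))) :=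
    Submodule.dense_iff_topologicalClosure_eq_top.2 (Submodule.topologicalClosure_eq_top_iff.2 h1)
  have h3 : ⟪g, g⟫_ℝ ^ 2 ≤ K * ‖g‖ ^ 2 :=
    DenseRange.induction_on (p := fun s => ⟪g, s⟫_ℝ ^ 2 ≤ K * ‖s‖ ^ 2) h2 g
      (isClosed_le (by fun_prop) (by fun_prop)) h
  rw [real_inner_self_eq_norm_sq] at h3
  rcases (sq_nonneg ‖g‖).eq_or_lt with h4 | h4
  · rwa [← h4]
  · exact le_of_mul_le_mul_right (by rwa [← sq]) h4

lemma norm_toLp {f : En n → ℝ} (hf : MemLp f 2 volume) : ‖hf.toLp f‖ ^ 2 = ∫ w, f w ^ 2 := by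
  rw [← real_inner_self_eq_norm_sq, inner_toLp]
  simp only [sq]

end FockN1
open FockN1

theorem s_n1 (hd : S_dense) : S_n1 := by
  intro n
  refine ⟨2 + 4 * n, by have : (0 : ℝ) ≤ n := n.cast_nonneg; linarith, fun F hF u A hu hA => ?_⟩
  have ht : ∀ a : Fin n, Tst (Dp (fun w : En n => ‖w‖ ^ 2 / 2) (ee a)
      (Dp (fun w : En n => ‖w‖ ^ 2 / 2) (ee a) u)) := fun a => Tst.Dp sm_ph (Tst.Dp sm_ph hu _) _
  have hc : Tst (ccG u) := Tst.sum _ fun a _ => ht a
  have hD : Osc.Dat (osc n) ((mem_tst hu).toLp u) ((mem_tst hc).toLp _)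
      (fun m => ∑ j, (∫ w, u w * F.H m j w * gs w) ^ 2) A :=
    ⟨fun Z => by
      rw [Osc.M_app, map_sum, inner_sum]
      refine Eq.trans ?_ (inner_io _ Z).symm
      simp only [ccG, Finset.sum_mul]
      rw [integral_finsetSum _ fun a _ => ((ht a).mul_right ((sm_ev Z).mul sm_gs)).integrable]
      exact Finset.sum_congr rfl fun a _ => (inner_io _ _).trans
        ((step hu a _).trans (step (Tst.Dp sm_ph hu _) a Z)),
    fun m => Finset.sum_nonneg fun _ _ => sq_nonneg _, harm hF _, hA⟩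
  have hB : 0 ≤ A + ‖(mem_tst hc).toLp _‖ ^ 2 :=
    add_nonneg (by simpa using hA 0) (sq_nonneg _)
  have b0 := dense_le hd _ (mul_nonneg two_pos.le hB) fun P => (Osc.bound hD (top_mem P)).1
  have b1 : ∀ a : Fin n, ∫ w : En n, (w a * u w) ^ 2 ≤ 4 * (A + ‖(mem_tst hc).toLp _‖ ^ 2) :=
    fun a => by
    have hx := mem_tst (Tst.mul_left (sm_coord a) hu)
    rw [← norm_toLp hx]
    refine dense_le hd _ (mul_nonneg (by norm_num) hB) fun P => ?_
    have h1 := (Osc.bound hD (top_mem P)).2 a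
    have h2 : ⟪(mem_tst hu).toLp u, io (X a * P)⟫_ℝ = ⟪hx.toLp _, io P⟫_ℝ := by
      rw [inner_io, inner_io, mul_comm (X a), ev_mulX]
      congr 1; funext w; ring
    rw [cd_eq, map_smul, real_inner_smul_right] at h1
    change (2 * ⟪_, io _⟫_ℝ) ^ 2 ≤ _ * ‖io P‖ ^ 2 at h1
    rw [h2] at h1
    linarith
  rw [norm_toLp] at b0
  rw [← norm_toLp (mem_tst hc)]
  have e : ∀ w : En n, (1 + ‖w‖ ^ 2) * u w ^ 2 = u w ^ 2 + ∑ a, (w a * u w) ^ 2 := fun w => by
    simp only [EuclideanSpace.real_norm_sq_eq, mul_pow, add_mul, one_mul, Finset.sum_mul]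
  have hi : ∀ a : Fin n, Integrable fun w : En n => (w a * u w) ^ 2 := fun a =>
    (Tst.mul_left (sm_coord a) hu).sq.integrable
  simp only [e]
  rw [integral_add hu.sq.integrable (integrable_finsetSum _ fun a _ => hi a),
    integral_finsetSum _ fun a _ => hi a]
  have := Finset.sum_le_sum fun a (_ : a ∈ Finset.univ) => b1 a
  rw [Finset.sum_const, Finset.card_univ, Fintype.card_fin, nsmul_eq_mul] at this
  linarith

end Vale.Agent.P088
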