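import Vale.Agent.P088.StA

/-!
# P088: a smooth orthonormal frame near the identity
-/

open MeasureTheory Set Filter
open scoped ContDiff Topology

noncomputable section
namespace Vale.Agent.P088
open Vale.Agent.P136

namespace Frame

variable {n : ℕ} {T : Type} {l : Filter T} {k : ℕ} {w w' om : T → ℝ} {f g : T → En n → ℝ}

/-- Families of smooth functions with symbol bounds `O(w)` along the filter `l`. -/
def Cls (l : Filter T) (k : ℕ) (w : T → ℝ) (f : T → En n → ℝ) : Prop :=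
  ∃ C : ℝ, 0 ≤ C ∧ ∀ᶠ t in l, Sm (f t) ∧ ∀ x, SB ee k (C * w t) 1 (f t) x

lemma sb_val {v : ℝ} {u : En n → ℝ} {x : En n} (h : SB ee k v 1 u x) : |u x| ≤ v := by
  have h1 := h [] (Nat.zero_le _)
  simpa [Ds] using h1

lemma sb_mono (h : S_sbAlg) {v v' : ℝ} {u : En n → ℝ} {x : En n} (hu : SB ee k v 1 u x)
    (hv : v ≤ v') : SB ee k v' 1 u x :=
  (h (En n) (Fin n) ee k 1 x zero_le_one).2.1 u k v v' 1 hu le_rfl hv le_rfl

lemma Cls.congr (hf : Cls l k w f) (e : ∀ᶠ t in l, g t = f t) : Cls l k w g := by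
  obtain ⟨C, hC, h1⟩ := hf
  refine ⟨C, hC, ?_⟩
  filter_upwards [h1, e] with t h2 h3
  rw [h3]
  exact h2

lemma Cls.mono (h : S_sbAlg) (hf : Cls l k w f) (e : ∀ᶠ t in l, w t ≤ w' t) : Cls l k w' f := by
  obtain ⟨C, hC, h1⟩ := hf
  refine ⟨C, hC, ?_⟩
  filter_upwards [h1, e] with t h2 h3
  exact ⟨h2.1, fun x => sb_mono h (h2.2 x) (mul_le_mul_of_nonneg_left h3 hC)⟩

lemma cls_const (h : S_sbAlg) (c : ℝ) : Cls l k (fun _ => 1) fun _ (_ : En n) => c :=
  ⟨|c|, abs_nonneg c, Eventually.of_forall fun _ => ⟨Sm.const c, fun x => by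
    rw [mul_one]
    exact (h (En n) (Fin n) ee k 1 x zero_le_one).2.2.1 c⟩⟩

lemma cls_zero (h : S_sbAlg) : Cls l k w fun _ (_ : En n) => 0 :=
  ⟨0, le_rfl, Eventually.of_forall fun _ => ⟨Sm.const 0, fun x => by
    have h1 := (h (En n) (Fin n) ee k 1 x zero_le_one).2.2.1 0
    rw [abs_zero] at h1
    rw [zero_mul]
    exact h1⟩⟩

lemma Cls.add (h : S_sbAlg) (hf : Cls l k w f) (hg : Cls l k w g) :
    Cls l k w fun t x => f t x + g t x := by
  obtain ⟨C, hC, h1⟩ := hf
  obtain ⟨C', hC', h2⟩ := hg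
  refine ⟨C + C', add_nonneg hC hC', ?_⟩
  filter_upwards [h1, h2] with t h3 h4
  refine ⟨h3.1.add h4.1, fun x => ?_⟩
  rw [add_mul]
  exact ((h (En n) (Fin n) ee k 1 x zero_le_one).2.2.2.2.2.2.1 _ _ _ _ h3.1.contDiffAt
    h4.1.contDiffAt (h3.2 x) (h4.2 x)).1

lemma Cls.mul (h : S_sbAlg) (hf : Cls l k w f) (hg : Cls l k (fun _ => 1) g) :
    Cls l k w fun t x => f t x * g t x := by
  obtain ⟨C, hC, h1⟩ := hf
  obtain ⟨C', hC', h2⟩ := hg
  refine ⟨2 ^ k * C * C', by positivity, ?_⟩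
  filter_upwards [h1, h2] with t h3 h4
  refine ⟨h3.1.mul h4.1, fun x => ?_⟩
  have e1 : 2 ^ k * C * C' * w t = 2 ^ k * (C * w t) * (C' * 1) := by ring
  rw [e1]
  exact ((h (En n) (Fin n) ee k 1 x zero_le_one).2.2.2.2.2.2.1 _ _ _ _ h3.1.contDiffAt
    h4.1.contDiffAt (h3.2 x) (h4.2 x)).2.2

lemma Cls.inv_sqrt (h : S_sbAlg) (hc : S_sbComp) (hf : Cls l k (fun _ => 1) f)
    (h0 : ∀ᶠ t in l, ∀ x, 1 / 2 ≤ f t x) :
    Cls l k (fun _ => 1) (fun t x => (f t x)⁻¹) ∧ Cls l k (fun _ => 1) fun t x => √(f t x) := by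
  obtain ⟨C, hC, h1⟩ := hf
  obtain ⟨C₁, hC₁, h2⟩ := hc k
  have hB : (1 : ℝ) ≤ 2 * C + 1 := by linarith
  have hK : 0 ≤ C₁ * (2 * C + 1) ^ k := by positivity
  have key : ∀ᶠ t in l, Sm (f t) ∧ ∀ x, 1 / 2 ≤ f t x ∧ f t x ≤ C ∧
      SB ee k (C₁ * (2 * C + 1) ^ k / f t x) 1 (fun y => (f t y)⁻¹) x ∧
      SB ee k (C₁ * (2 * C + 1) ^ k * √(f t x)) 1 (fun y => √(f t y)) x := by
    filter_upwards [h1, h0] with t h3 h4
    refine ⟨h3.1, fun x => ?_⟩
    have h5 : SB ee k C 1 (f t) x := by simpa using h3.2 x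
    have h6 := (h2 (En n) (Fin n) ee 1 C x (f t) zero_le_one h3.1.contDiffAt
      fun q _ hq => h5 q hq).2.2.1 (2 * C + 1) hB (by linarith [h4 x]) (by nlinarith [h4 x])
    exact ⟨h4 x, (le_abs_self _).trans (sb_val h5), h6.1, h6.2.1⟩
  constructor
  · refine ⟨2 * (C₁ * (2 * C + 1) ^ k), by positivity, ?_⟩
    filter_upwards [key] with t ht
    refine ⟨ContDiff.inv ht.1 fun x => ne_of_gt (by linarith [(ht.2 x).1]), fun x => ?_⟩
    refine sb_mono h (ht.2 x).2.2.1 ?_
    rw [div_le_iff₀ (by linarith [(ht.2 x).1])]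
    nlinarith [(ht.2 x).1]
  · refine ⟨C₁ * (2 * C + 1) ^ k * √C, by positivity, ?_⟩
    filter_upwards [key] with t ht
    refine ⟨ContDiff.sqrt ht.1 fun x => ne_of_gt (by linarith [(ht.2 x).1]), fun x => ?_⟩
    refine sb_mono h (ht.2 x).2.2.2 ?_
    rw [mul_one]
    exact mul_le_mul_of_nonneg_left (Real.sqrt_le_sqrt (ht.2 x).2.1) hK

/-- `f = c + O(om)`. -/
def Nr (l : Filter T) (k : ℕ) (om : T → ℝ) (f : T → En n → ℝ) (c : ℝ) : Prop :=
  Cls l k om fun t x => f t x - c

variable {c d : ℝ}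

lemma Nr.bd (h : S_sbAlg) (ho : Tendsto om l (𝓝 0)) (hf : Nr l k om f c) :
    Cls l k (fun _ => 1) f :=
  ((Cls.mono h hf (ho.eventually (eventually_le_nhds zero_lt_one))).add h (cls_const h c)).congr
    (Eventually.of_forall fun t => funext fun x => by ring)

lemma Nr.add (h : S_sbAlg) (hf : Nr l k om f c) (hg : Nr l k om g d) :
    Nr l k om (fun t x => f t x + g t x) (c + d) :=
  (Cls.add h hf hg).congr (Eventually.of_forall fun t => funext fun x => by ring)

lemma Nr.sub (h : S_sbAlg) (hf : Nr l k om f c) (hg : Nr l k om g d) :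
    Nr l k om (fun t x => f t x - g t x) (c - d) :=
  (Cls.add h hf (Cls.mul h hg (cls_const h (-1)))).congr
    (Eventually.of_forall fun t => funext fun x => by ring)

lemma Nr.mul (h : S_sbAlg) (ho : Tendsto om l (𝓝 0)) (hf : Nr l k om f c) (hg : Nr l k om g d) :
    Nr l k om (fun t x => f t x * g t x) (c * d) :=
  (Cls.add h (Cls.mul h hf (hg.bd h ho)) (Cls.mul h hg (cls_const h c))).congr
    (Eventually.of_forall fun t => funext fun x => by ring)

lemma nr_const (h : S_sbAlg) (c : ℝ) : Nr l k om (fun _ (_ : En n) => c) c :=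
  (cls_zero h).congr (Eventually.of_forall fun t => funext fun x => by ring)

lemma nr_sum (h : S_sbAlg) {J : Type} (s : Finset J) {F : J → T → En n → ℝ} {a : J → ℝ}
    (hF : ∀ j, Nr l k om (F j) (a j)) :
    Nr l k om (fun t x => ∑ j ∈ s, F j t x) (∑ j ∈ s, a j) := by
  classical
  induction s using Finset.induction_on with
  | empty => simpa using nr_const h 0
  | insert j s hj ih =>
    simp only [Finset.sum_insert hj]
    exact (hF j).add h ih

lemma Nr.half (ho : Tendsto om l (𝓝 0)) (hf : Nr l k om f 1) :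
    ∀ᶠ t in l, ∀ x, 1 / 2 ≤ f t x := by
  obtain ⟨C, -, h1⟩ := hf
  have h2 : Tendsto (fun t => C * om t) l (𝓝 0) := by simpa using ho.const_mul C
  filter_upwards [h1, h2.eventually (eventually_le_nhds (show (0 : ℝ) < 1 / 2 by norm_num))]
    with t h3 h4 x
  have h5 := (abs_le.1 (sb_val (h3.2 x))).1
  linarith

lemma Nr.isqrt (h : S_sbAlg) (hc : S_sbComp) (ho : Tendsto om l (𝓝 0)) (hf : Nr l k om f 1) :
    Nr l k om (fun t x => (√(f t x))⁻¹) 1 := by
  have h0 := hf.half ho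
  have h1 := ((hf.bd h ho).inv_sqrt h hc h0).2
  have h2 : ∀ᶠ t in l, ∀ x, 1 / 2 ≤ √(f t x) := by
    filter_upwards [h0] with t ht x
    exact Real.le_sqrt_of_sq_le (by linarith [ht x])
  have h3 := (h1.inv_sqrt h hc h2).1
  have h4 := ((h1.add h (cls_const h 1)).inv_sqrt h hc (Eventually.of_forall fun t x => by
    linarith [Real.sqrt_nonneg (f t x)])).1
  refine (Cls.mul h (Cls.mul h (Cls.mul h hf h3) h4) (cls_const h (-1))).congr ?_
  filter_upwards [h0, h2] with t h5 h6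
  funext x
  have h7 : f t x = √(f t x) ^ 2 := (Real.sq_sqrt (by linarith [h5 x])).symm
  have h8 := h6 x
  generalize √(f t x) = r at h7 h8 ⊢
  have h9 : r ≠ 0 := by linarith
  have h10 : r + 1 ≠ 0 := by linarith
  rw [h7]
  field_simp
  ring

/-- The bilinear form. -/
def bf (γ : Fin n → Fin n → ℝ) (u v : Fin n → ℝ) : ℝ := ∑ i, ∑ j, u i * γ i j * v j

lemma bf_comm {γ : Fin n → Fin n → ℝ} (hγ : ∀ i j, γ i j = γ j i) (u v : Fin n → ℝ) :
    bf γ u v = bf γ v u := by
  rw [bf, Finset.sum_comm]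
  exact Finset.sum_congr rfl fun i _ => Finset.sum_congr rfl fun j _ => by rw [hγ j i]; ring

lemma bf_lin (γ : Fin n → Fin n → ℝ) (u u' v v' : Fin n → ℝ) (a a' b b' : ℝ) :
    bf γ (fun i => a * u i - a' * u' i) (fun i => b * v i - b' * v' i) =
      a * b * bf γ u v - a * b' * bf γ u v' - a' * b * bf γ u' v + a' * b' * bf γ u' v' := by
  simp only [bf, Finset.mul_sum, ← Finset.sum_add_distrib, ← Finset.sum_sub_distrib]
  exact Finset.sum_congr rfl fun i _ => Finset.sum_congr rfl fun j _ => by ring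

/-- One step of the orthonormalisation. -/
lemma step_alg {γ : Fin n → Fin n → ℝ} (hγ : ∀ i j, γ i j = γ j i) (E : Fin n → Fin n → ℝ)
    (s : Finset (Fin n)) (m : Fin n) (hm : m ∉ s) (ρ : ℝ) (hρ : ρ * ρ * bf γ (E m) (E m) = 1)
    (hE : ∀ a ∈ s, ∀ b, bf γ (E a) (E b) = if a = b then 1 else 0) (a : Fin n)
    (ha : a ∈ insert m s) (b : Fin n) :
    bf γ (fun i => (if a = m then ρ else 1) * E a i -
        (if a = m then 0 else bf γ (E a) (E m) * ρ * ρ) * E m i)
      (fun i => (if b = m then ρ else 1) * E b i -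
        (if b = m then 0 else bf γ (E b) (E m) * ρ * ρ) * E m i) = if a = b then 1 else 0 := by
  rw [bf_lin]
  by_cases h1 : a = m
  · subst h1
    by_cases h2 : b = a
    · subst h2
      simp only [if_true]
      linear_combination hρ
    · simp only [if_true, h2, if_false, Ne.symm h2, bf_comm hγ (E b) (E a)]
      linear_combination (-(ρ * bf γ (E a) (E b))) * hρ
  · have h3 : a ∈ s := (Finset.mem_insert.1 ha).resolve_left h1
    have h4 : bf γ (E a) (E m) = 0 := by rw [hE a h3 m, if_neg h1]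
    by_cases h2 : b = m
    · subst h2
      simp only [if_true, h1, if_false, h4]
      ring
    · simp only [h1, h2, if_false, h4, hE a h3 b]
      ring

lemma main (h : S_sbAlg) (hc : S_sbComp) (ho : Tendsto om l (𝓝 0)) {γ : T → MatF n}
    (hγ : ∀ i j, Nr l k om (fun t => γ t i j) (if i = j then 1 else 0))
    (hs : ∀ᶠ t in l, SymM (γ t)) (s : Finset (Fin n)) : ∃ E : T → MatF n,
      (∀ a i, Nr l k om (fun t => E t a i) (if a = i then 1 else 0)) ∧ ∀ᶠ t in l, ∀ x, ∀ a ∈ s, ∀ b,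
        bf (fun i j => γ t i j x) (fun i => E t a i x) (fun i => E t b i x) =
          if a = b then 1 else 0 := by
  induction s using Finset.induction_on with
  | empty =>
    exact ⟨fun _ a i _ => if a = i then 1 else 0, fun a i => nr_const h _,
      Eventually.of_forall fun t x a ha => absurd ha (Finset.notMem_empty a)⟩
  | insert m s hm ih =>
    obtain ⟨E, hE1, hE2⟩ := ih
    have hG : ∀ a b, Nr l k om (fun t x => bf (fun i j => γ t i j x) (fun i => E t a i x)
        (fun i => E t b i x)) (if a = b then 1 else 0) := by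
      intro a b
      have h1 := nr_sum h Finset.univ fun i => nr_sum h Finset.univ fun j =>
        ((hE1 a i).mul h ho (hγ i j)).mul h ho (hE1 b j)
      have e1 : (∑ i, ∑ j, (if a = i then (1 : ℝ) else 0) * (if i = j then 1 else 0) *
          (if b = j then 1 else 0)) = if a = b then 1 else 0 := by
        simp [eq_comm]
      rw [e1] at h1
      exact h1
    have hm1 := hG m m
    rw [if_pos rfl] at hm1
    have hρ := hm1.isqrt h hc ho
    refine ⟨fun t a i x => (if a = m then (√(bf (fun i j => γ t i j x) (fun i => E t m i x)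
        (fun i => E t m i x)))⁻¹ else 1) * E t a i x -
      (if a = m then 0 else bf (fun i j => γ t i j x) (fun i => E t a i x) (fun i => E t m i x) *
        (√(bf (fun i j => γ t i j x) (fun i => E t m i x) (fun i => E t m i x)))⁻¹ *
        (√(bf (fun i j => γ t i j x) (fun i => E t m i x) (fun i => E t m i x)))⁻¹) * E t m i x,
      fun a i => ?_, ?_⟩
    · by_cases h1 : a = m
      · have h2 := hρ.mul h ho (hE1 a i)
        rw [one_mul] at h2
        simpa only [h1, if_true, zero_mul, sub_zero] using h2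
      · have h2 := (hE1 a i).sub h ((((hG a m).mul h ho hρ).mul h ho hρ).mul h ho (hE1 m i))
        simpa only [h1, if_false, one_mul, zero_mul, sub_zero] using h2
    · filter_upwards [hE2, hs, hm1.half ho] with t h1 h2 h3 x a ha b
      refine step_alg (fun i j => congrFun (h2 i j) x) (fun a i => E t a i x) s m hm _ ?_ (h1 x)
        a ha b
      have h4 := h3 x
      rw [← mul_inv, Real.mul_self_sqrt (by linarith)]
      exact inv_mul_cancel₀ (by linarith)

end Frame

open _root_.Vale.Agent.P088.Frame in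
theorem s_frame (h : S_sbAlg) (hc : S_sbComp) (hl : S_sbLin) : S_frame := by
  intro n k
  obtain ⟨l, hl'⟩ : ∃ l : Filter (MatF n × ℝ), l = comap Prod.snd (𝓝 0) ⊓
    𝓟 {t | SmM t.1 ∧ SymM t.1 ∧ 0 ≤ t.2 ∧ Near k t.2 t.1} := ⟨_, rfl⟩
  have ho : Tendsto (Prod.snd : MatF n × ℝ → ℝ) l (𝓝 0) := by
    rw [hl']
    exact tendsto_comap.mono_left inf_le_left
  have ha : ∀ᶠ t in l, SmM t.1 ∧ SymM t.1 ∧ 0 ≤ t.2 ∧ Near k t.2 t.1 := by
    rw [hl']
    exact eventually_inf_principal.2 (Eventually.of_forall fun t ht => ht)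
  obtain ⟨E, hE1, hE2⟩ := main (γ := Prod.fst) h hc ho (fun i j => ⟨1, zero_le_one, by
    filter_upwards [ha] with t ht
    refine ⟨(ht.1 i j).sub (Sm.const _), fun x => ?_⟩
    rw [one_mul]
    exact ht.2.2.2 i j x⟩) (ha.mono fun t ht => ht.2.1) Finset.univ
  choose C hC0 hC using hE1
  have hC1 : ∀ a i, C a i ≤ 1 + ∑ a, ∑ i, C a i := by
    intro a i
    have h1 : C a i ≤ ∑ i, C a i :=
      Finset.single_le_sum (fun j _ => hC0 a j) (Finset.mem_univ i)
    have h2 : ∑ i, C a i ≤ ∑ a, ∑ i, C a i :=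
      Finset.single_le_sum (f := fun a => ∑ i, C a i)
        (fun b _ => Finset.sum_nonneg fun j _ => hC0 b j) (Finset.mem_univ a)
    linarith
  have key : ∀ᶠ t in l, SmM (E t) ∧ Near k ((1 + ∑ a, ∑ i, C a i) * t.2) (E t) ∧
      ∀ x a b, ∑ i, ∑ j, E t a i x * t.1 i j x * E t b j x = if a = b then 1 else 0 := by
    filter_upwards [eventually_all.2 fun a => eventually_all.2 fun i => hC a i, hE2, ha]
      with t h1 h2 h3
    refine ⟨fun a i => ?_, fun a i x => sb_mono h ((h1 a i).2 x)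
      (mul_le_mul_of_nonneg_right (hC1 a i) h3.2.2.1), fun x a b => h2 x a (Finset.mem_univ a) b⟩
    have h4 := (h1 a i).1.add (Sm.const (if a = i then (1 : ℝ) else 0))
    simpa only [sub_add_cancel] using h4
  rw [hl', eventually_inf_principal, eventually_comap, Metric.eventually_nhds_iff] at key
  obtain ⟨ε, hε, key⟩ := key
  refine ⟨1 + ∑ a, ∑ i, C a i, ε / 2, ?_, half_pos hε, fun γ om h1 h2 h3 h4 => ?_⟩
  · have h1 : 0 ≤ ∑ a, ∑ i, C a i :=
      Finset.sum_nonneg fun b _ => Finset.sum_nonneg fun j _ => hC0 b j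
    linarith
  · by_cases h5 : 0 ≤ om
    · have h6 : dist om 0 < ε := by
        rw [Real.dist_eq, sub_zero, abs_of_nonneg h5]
        linarith
      exact ⟨E (γ, om), key h6 (γ, om) rfl ⟨h1, h2, h5, h4⟩⟩
    · have h6 : ∀ (i : Fin n), False := fun i =>
        h5 ((abs_nonneg _).trans (sb_val (h4 i i 0)))
      exact ⟨γ, h1, fun i => (h6 i).elim, fun _ a => (h6 a).elim⟩

end Vale.Agent.P088
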