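import Vale.Agent.P088.StA

/-!
# P088: tools for the integral identities (exact densities, product rules)
-/

open MeasureTheory Set
open scoped ContDiff Topology

noncomputable section
namespace Vale.Agent.P088
open Vale.Agent.P136

namespace IdT

section alg
variable {κ : Type} [Fintype κ]

lemma swap2 {g : κ → κ → ℝ} (hs : ∀ i j, g i j = g j i) (a b : κ → ℝ) :
    ∑ i, a i * ∑ j, g i j * b j = ∑ j, (∑ i, g j i * a i) * b j := by
  simp only [Finset.mul_sum, Finset.sum_mul]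
  rw [Finset.sum_comm]
  exact Finset.sum_congr rfl fun j _ => Finset.sum_congr rfl fun i _ => by rw [hs i j]; ring

lemma quad_eq (g : κ → κ → ℝ) (a b : κ → ℝ) :
    ∑ i, ∑ j, g i j * a i * b j = ∑ i, a i * ∑ j, g i j * b j := by
  simp only [Finset.mul_sum]
  exact Finset.sum_congr rfl fun i _ => Finset.sum_congr rfl fun j _ => by ring

/-- expansion of a quadratic form at `s a + t b` -/
lemma quad_expand (g : κ → κ → ℝ) (a b : κ → ℝ) (s t : ℝ) :
    ∑ i, ∑ k, g i k * (s * a i + b i * t) * (s * a k + b k * t) =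
      s ^ 2 * (∑ i, ∑ k, g i k * a i * a k) +
        s * t * (∑ k, (∑ i, (g i k + g k i) * b i) * a k) +
        (∑ i, ∑ k, g i k * b i * b k) * t ^ 2 := by
  have e : ∑ k, (∑ i, (g i k + g k i) * b i) * a k =
      (∑ i, ∑ k, g i k * b i * a k) + ∑ i, ∑ k, g i k * a i * b k := by
    simp only [add_mul, Finset.sum_add_distrib, Finset.sum_mul]
    rw [Finset.sum_comm]
    refine congrArg₂ (· + ·) rfl ?_
    exact Finset.sum_congr rfl fun i _ => Finset.sum_congr rfl fun k _ => by ring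
  rw [e]
  simp only [mul_add, Finset.mul_sum, Finset.sum_mul, ← Finset.sum_add_distrib]
  exact Finset.sum_congr rfl fun i _ => Finset.sum_congr rfl fun k _ => by ring

end alg

section pt
variable {X : Type} [NormedAddCommGroup X] [NormedSpace ℝ X] {κ : Type} [Fintype κ]
  {v : κ → X} {γ : κ → κ → X → ℝ} {φ f g u : X → ℝ} {Y : κ → X → ℝ}

omit [NormedAddCommGroup X] [NormedSpace ℝ X] [Fintype κ] in
lemma sym_at (hs : SymM γ) (p : X) (i j : κ) : γ i j p = γ j i p := by rw [hs i j]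

lemma sm_XX (hγ : SmM γ) (hf : Sm f) (i : κ) : Sm (XX v γ f i) :=
  Sm.sum fun j _ => (hγ i j).mul (hf.D _)

lemma tst_XX (hγ : SmM γ) (hf : Tst f) (i : κ) : Tst (XX v γ f i) :=
  Tst.sum _ fun j _ => Tst.mul_left (hγ i j) (hf.D _)

lemma sm_dvg (hY : ∀ i, Sm (Y i)) : Sm (dvg v Y) := Sm.sum fun i _ => (hY i).D _

lemma tst_dvg (hY : ∀ i, Tst (Y i)) : Tst (dvg v Y) := Tst.sum _ fun i _ => (hY i).D _

lemma sm_dgd (hγ : SmM γ) (hf : Sm f) : Sm (dgd v γ f) := sm_dvg (sm_XX hγ hf)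

lemma tst_dgd (hγ : SmM γ) (hf : Tst f) : Tst (dgd v γ f) := tst_dvg (tst_XX hγ hf)

lemma sm_dir (hY : ∀ i, Sm (Y i)) (hf : Sm f) : Sm (dir v Y f) :=
  Sm.sum fun i _ => (hY i).mul (hf.D _)

lemma tst_dir (hY : ∀ i, Sm (Y i)) (hf : Tst f) : Tst (dir v Y f) :=
  Tst.sum _ fun i _ => Tst.mul_left (hY i) (hf.D _)

lemma sm_rho (hγ : SmM γ) (hφ : Sm φ) : Sm (rho v γ φ) := sm_dir (sm_XX hγ hφ) hφ

lemma tst_Zm (hγ : SmM γ) (hφ : Sm φ) (hf : Tst f) (i : κ) : Tst (Zm v γ φ f i) :=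
  Tst.sum _ fun j _ => Tst.mul_left (hγ i j) (Tst.Dm hφ hf _)

lemma tst_Zp (hγ : SmM γ) (hφ : Sm φ) (hf : Tst f) (i : κ) :
    Tst fun p => ∑ j, γ i j p * Dp φ (v j) f p :=
  Tst.sum _ fun j _ => Tst.mul_left (hγ i j) (Tst.Dp hφ hf _)

lemma tst_Lm (hγ : SmM γ) (hφ : Sm φ) (hf : Tst f) : Tst (Lm v γ φ f) :=
  Tst.sum _ fun i _ => Tst.Dm hφ (tst_Zm hγ hφ hf i) _

lemma tst_Lp (hγ : SmM γ) (hφ : Sm φ) (hf : Tst f) : Tst (Lp' v γ φ f) :=
  Tst.sum _ fun i _ => Tst.Dp hφ (tst_Zp hγ hφ hf i) _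

lemma tst_quad {c : κ → κ → X → ℝ} {a b : κ → X → ℝ} (hc : ∀ i j, Sm (c i j))
    (ha : ∀ i, Sm (a i)) (hb : ∀ i, Tst (b i)) :
    Tst fun p => ∑ i, ∑ j, c i j p * a i p * b j p :=
  Tst.sum _ fun i _ => Tst.sum _ fun j _ => Tst.mul_left ((hc i j).mul (ha i)) (hb j)

lemma D_sq (hf : Sm f) (w p : X) : D w (fun q => f q ^ 2) p = 2 * f p * D w f p := by
  simp only [pow_two]
  rw [D_mul_at (hf.dAt p) (hf.dAt p)]
  ring

lemma dvg_mul (hf : Sm f) (hY : ∀ i, Sm (Y i)) (p : X) :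
    dvg v (fun i q => f q * Y i q) p = f p * dvg v Y p + dir v Y f p := by
  simp only [dvg, dir, D_mul_at (hf.dAt p) ((hY _).dAt p), Finset.sum_add_distrib,
    Finset.mul_sum, mul_comm (D _ f p)]

lemma dir_mul (hf : Sm f) (hg : Sm g) (p : X) :
    dir v Y (fun q => f q * g q) p = f p * dir v Y g p + dir v Y f p * g p := by
  simp only [dir, D_mul_at (hf.dAt p) (hg.dAt p), Finset.mul_sum, Finset.sum_mul,
    ← Finset.sum_add_distrib]
  exact Finset.sum_congr rfl fun i _ => by ring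

lemma dir_sq (hf : Sm f) (p : X) : dir v Y (fun q => f q ^ 2) p = 2 * f p * dir v Y f p := by
  simp only [dir, D_sq hf, Finset.mul_sum]
  exact Finset.sum_congr rfl fun i _ => by ring

lemma dir_smul (c : X → ℝ) (p : X) :
    dir v (fun i q => c q * Y i q) f p = c p * dir v Y f p := by
  simp only [dir, Finset.mul_sum, mul_assoc]

lemma dir_sum {J : Type} (s : Finset J) {F : J → X → ℝ} (hF : ∀ j ∈ s, Sm (F j)) (p : X) :
    dir v Y (fun q => ∑ j ∈ s, F j q) p = ∑ j ∈ s, dir v Y (F j) p := by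
  simp only [dir, D_sum_at s fun j hj => (hF j hj).dAt p, Finset.mul_sum]
  exact Finset.sum_comm

lemma dir_XX (hs : SymM γ) (p : X) : dir v (XX v γ f) g p = dir v (XX v γ g) f p := by
  simp only [dir, XX]
  rw [← swap2 (sym_at hs p)]
  exact Finset.sum_congr rfl fun i _ => mul_comm _ _

lemma quad_D (p : X) :
    ∑ i, ∑ j, γ i j p * D (v i) f p * D (v j) g p = dir v (XX v γ g) f p := by
  rw [quad_eq]
  exact Finset.sum_congr rfl fun i _ => mul_comm _ _

lemma Dm_sum {J : Type} (s : Finset J) {F : J → X → ℝ} (hF : ∀ j ∈ s, Sm (F j)) (w p : X) :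
    Dm φ w (fun q => ∑ j ∈ s, F j q) p = ∑ j ∈ s, Dm φ w (F j) p := by
  simp only [Dm, D_sum_at s fun j hj => (hF j hj).dAt p, Finset.mul_sum, Finset.sum_add_distrib,
    Finset.sum_neg_distrib]

lemma Dp_sum {J : Type} (s : Finset J) {F : J → X → ℝ} (hF : ∀ j ∈ s, Sm (F j)) (w p : X) :
    Dp φ w (fun q => ∑ j ∈ s, F j q) p = ∑ j ∈ s, Dp φ w (F j) p := by
  simp only [Dp, D_sum_at s fun j hj => (hF j hj).dAt p, Finset.mul_sum, Finset.sum_add_distrib]

lemma Lp_eq (hγ : SmM γ) (hs : SymM γ) (hφ : Sm φ) (hu : Sm u) (p : X) :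
    Lp' v γ φ u p = dgd v γ u p + 2 * dir v (XX v γ φ) u p +
      (dgd v γ φ p + rho v γ φ p) * u p := by
  have e : ∀ i, (fun p => ∑ j, γ i j p * Dp φ (v j) u p) =
      fun p => XX v γ u i p + u p * XX v γ φ i p := by
    intro i
    funext p
    simp only [Dp, XX, Finset.mul_sum, ← Finset.sum_add_distrib]
    exact Finset.sum_congr rfl fun j _ => by ring
  have e2 : Lp' v γ φ u p = dgd v γ u p + dvg v (fun i q => u q * XX v γ φ i q) p +
      (dir v (XX v γ u) φ p + rho v γ φ p * u p) := by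
    simp only [Lp', e]
    simp only [Dp, dgd, dvg, dir, rho, Finset.sum_mul, ← Finset.sum_add_distrib]
    refine Finset.sum_congr rfl fun i _ => ?_
    rw [D_add_at ((sm_XX hγ hu i).dAt p) ((hu.mul (sm_XX hγ hφ i)).dAt p)]
    ring
  rw [e2, dvg_mul hu (sm_XX hγ hφ), dir_XX (f := u) hs, dgd, dgd]
  ring

lemma Lm_eq (hγ : SmM γ) (hs : SymM γ) (hφ : Sm φ) (hu : Sm u) (p : X) :
    Lm v γ φ u p = dgd v γ u p - 2 * dir v (XX v γ φ) u p +
      (rho v γ φ p - dgd v γ φ p) * u p := by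
  have e : ∀ i, Zm v γ φ u i = fun p => u p * XX v γ φ i p - XX v γ u i p := by
    intro i
    funext p
    simp only [Zm, Dm, XX, Finset.mul_sum, ← Finset.sum_sub_distrib]
    exact Finset.sum_congr rfl fun j _ => by ring
  have e2 : Lm v γ φ u p = dgd v γ u p - dvg v (fun i q => u q * XX v γ φ i q) p +
      (rho v γ φ p * u p - dir v (XX v γ u) φ p) := by
    simp only [Lm, e]
    simp only [Dm, dgd, dvg, dir, rho, Finset.sum_mul, ← Finset.sum_add_distrib,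
      ← Finset.sum_sub_distrib]
    refine Finset.sum_congr rfl fun i _ => ?_
    rw [D_sub_at ((hu.mul (sm_XX hγ hφ i)).dAt p) ((sm_XX hγ hu i).dAt p)]
    ring
  rw [e2, dvg_mul hu (sm_XX hγ hφ), dir_XX (f := u) hs, dgd, dgd]
  ring

lemma quad_st (hs : SymM γ) (s : ℝ) (p : X) :
    ∑ i, ∑ j, γ i j p * (s * D (v i) u p + D (v i) φ p * u p) *
        (s * D (v j) u p + D (v j) φ p * u p) =
      s ^ 2 * dir v (XX v γ u) u p + 2 * s * u p * dir v (XX v γ φ) u p +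
        rho v γ φ p * u p ^ 2 := by
  have e : ∑ k, (∑ i, (γ i k p + γ k i p) * D (v i) φ p) * D (v k) u p =
      2 * dir v (XX v γ φ) u p := by
    simp only [dir, XX, Finset.mul_sum, Finset.sum_mul]
    exact Finset.sum_congr rfl fun k _ => Finset.sum_congr rfl fun i _ => by
      rw [sym_at hs p i k]; ring
  rw [quad_expand (fun i j => γ i j p), e, quad_D, quad_D, rho]
  ring

lemma quad_Dm (hs : SymM γ) (p : X) :
    ∑ i, ∑ j, γ i j p * Dm φ (v i) u p * Dm φ (v j) u p =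
      dir v (XX v γ u) u p - 2 * u p * dir v (XX v γ φ) u p + rho v γ φ p * u p ^ 2 := by
  have := quad_st (v := v) (φ := φ) (u := u) hs (-1) p
  simp only [neg_one_mul] at this
  simp only [Dm]
  rw [this]
  ring

lemma quad_Dp (hs : SymM γ) (p : X) :
    ∑ i, ∑ j, γ i j p * Dp φ (v i) u p * Dp φ (v j) u p =
      dir v (XX v γ u) u p + 2 * u p * dir v (XX v γ φ) u p + rho v γ φ p * u p ^ 2 := by
  have := quad_st (v := v) (φ := φ) (u := u) hs 1 p
  simp only [one_mul] at this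
  simp only [Dp]
  rw [this]
  ring

end pt

section ex
variable {X : Type} [MeasurableSpace X] {μ : Measure X} {f g : X → ℝ}

/-- integrable functions with integral zero -/
def Ex (μ : Measure X) (f : X → ℝ) : Prop := Integrable f μ ∧ ∫ p, f p ∂μ = 0

lemma Ex.congr (h : Ex μ f) (e : ∀ p, g p = f p) : Ex μ g := by
  rw [show g = f from funext e]
  exact h

lemma Ex.add (h : Ex μ f) (h' : Ex μ g) : Ex μ fun p => f p + g p :=
  ⟨h.1.add h'.1, by rw [integral_add h.1 h'.1, h.2, h'.2, add_zero]⟩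

lemma Ex.sub (h : Ex μ f) (h' : Ex μ g) : Ex μ fun p => f p - g p :=
  ⟨h.1.sub h'.1, by rw [integral_sub h.1 h'.1, h.2, h'.2, sub_zero]⟩

lemma Ex.cmul (h : Ex μ f) (c : ℝ) : Ex μ fun p => c * f p :=
  ⟨h.1.const_mul c, by rw [integral_const_mul, h.2, mul_zero]⟩

lemma Ex.sum {J : Type} [Fintype J] {F : J → X → ℝ} (h : ∀ j, Ex μ (F j)) :
    Ex μ fun p => ∑ j, F j p :=
  ⟨integrable_finsetSum _ fun j _ => (h j).1, by
    rw [integral_finsetSum _ fun j _ => (h j).1]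
    exact Finset.sum_eq_zero fun j _ => (h j).2⟩

lemma Ex.eq {k : X → ℝ} (h : Ex μ k) (hg : Integrable g μ) (e : ∀ p, f p = g p + k p) :
    ∫ p, f p ∂μ = ∫ p, g p ∂μ := by
  simp only [e]
  rw [integral_add hg h.1, h.2, add_zero]

lemma Ex.eq2 {k g' : X → ℝ} (h : Ex μ k) (hg : Integrable g μ) (hg' : Integrable g' μ)
    (e : ∀ p, f p = g p + g' p + k p) : ∫ p, f p ∂μ = ∫ p, g p ∂μ + ∫ p, g' p ∂μ := by
  rw [← integral_add hg hg']
  exact h.eq (hg.add hg') e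

end ex

section ex2
variable {X : Type} [NormedAddCommGroup X] [NormedSpace ℝ X] [FiniteDimensional ℝ X]
  [MeasurableSpace X] [BorelSpace X] (μ : Measure X) [μ.IsAddHaarMeasure] {κ : Type} [Fintype κ]
  {v : κ → X} {γ : κ → κ → X → ℝ} {φ f g u m : X → ℝ} {Y : κ → X → ℝ}

lemma exD (hf : Tst f) (w : X) : Ex μ (D w f) := ⟨(hf.D w).integrable, integral_D hf w⟩

lemma exDvg (v : κ → X) (hY : ∀ i, Tst (Y i)) : Ex μ (dvg v Y) :=
  Ex.sum fun i => exD μ (hY i) (v i)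

lemma exAdj (φ : X → ℝ) (hf : Tst f) (hg : Sm g) (w : X) :
    Ex μ fun p => Dp φ w f p * g p - f p * Dm φ w g p :=
  (exD μ (hf.mul_right hg) w).congr fun p => by
    rw [D_mul_at (hf.sm.dAt p) (hg.dAt p)]
    simp only [Dp, Dm]
    ring

/-- the divergence of `u² Y` -/
lemma exZ1 (v : κ → X) (hu : Tst u) (hY : ∀ i, Sm (Y i)) :
    Ex μ fun p => 2 * u p * dir v Y u p + dvg v Y p * u p ^ 2 :=
  (exDvg μ v fun i => hu.sq.mul_right (hY i)).congr fun p => by
    rw [dvg_mul hu.sq.sm hY, dir_sq hu.sm]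
    ring

/-- the divergence of `m u γ du - u² γ dm / 2` -/
lemma exZ2 (v : κ → X) (hγ : SmM γ) (hs : SymM γ) (hu : Tst u) (hm : Sm m) :
    Ex μ fun p => m p * u p * dgd v γ u p + m p * dir v (XX v γ u) u p -
      1 / 2 * dgd v γ m p * u p ^ 2 :=
  ((exDvg μ v fun i => (Tst.mul_left hm hu).mul_right (sm_XX hγ hu.sm i)).sub
    ((exZ1 μ v hu (sm_XX hγ hm)).cmul (1 / 2))).congr fun p => by
    rw [dvg_mul (hm.mul hu.sm) (sm_XX hγ hu.sm), dir_mul hm hu.sm, dir_XX (f := u) (g := m) hs,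
      dgd, dgd]
    ring

end ex2

end IdT

end Vale.Agent.P088
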