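import Vale.Agent.P088.StI
import Vale.Agent.P088.IdTool

/-!
# P088: control of the zero-order terms by the gradient
-/

open MeasureTheory Set Metric
open scoped ContDiff Topology

noncomputable section
namespace Vale.Agent.P088
open Vale.Agent.P136

namespace GC
open IdT

lemma far {m ρ H₀ H W G K δ : ℝ} (hm : 1 ≤ m) (hρ : 0 ≤ ρ) (hH : 0 < H₀) (hK : 1 ≤ K)
    (h0 : 0 < δ) (hδ : δ ≤ 1) (h1 : H₀ ^ 2 ≤ δ ^ 2 / 2 * m * ρ) (h2 : m ≤ K * H₀)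
    (h3 : H ≤ K * H₀) (h4 : W ≤ K * H₀) (hG0 : 0 ≤ G) (hG : G ^ 2 ≤ 2 * ρ) :
    m * (2 * H + G) + 2 * G * W ≤ 4 * K ^ 2 * δ * (m * ρ) := by
  have a : H₀ ≤ δ ^ 2 / 2 * K * ρ := by
    refine le_of_mul_le_mul_left ?_ hH
    calc H₀ * H₀ ≤ δ ^ 2 / 2 * m * ρ := by rwa [← sq]
      _ ≤ δ ^ 2 / 2 * (K * H₀) * ρ := by gcongr
      _ = _ := by ring
  have b : G * H₀ ≤ δ * (m * ρ) := by
    refine (sq_le_sq₀ (by positivity) (by positivity)).1 ?_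
    calc (G * H₀) ^ 2 = G ^ 2 * H₀ ^ 2 := by ring
      _ ≤ (2 * ρ) * (δ ^ 2 / 2 * m * ρ) := by gcongr
      _ = δ ^ 2 * ρ ^ 2 * m * 1 := by ring
      _ ≤ δ ^ 2 * ρ ^ 2 * m * m := by gcongr
      _ = _ := by ring
  have hmρ : 0 ≤ δ * (m * ρ) := by positivity
  have c1 : m * H ≤ K ^ 2 * (δ * (m * ρ)) / 2 :=
    calc m * H ≤ m * (K * (δ ^ 2 / 2 * K * ρ)) := by gcongr; exact h3.trans (by gcongr)
      _ = K ^ 2 * (δ * (m * ρ)) / 2 * δ := by ring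
      _ ≤ K ^ 2 * (δ * (m * ρ)) / 2 * 1 := by gcongr
      _ = _ := mul_one _
  have c2 : K * (G * H₀) ≤ K ^ 2 * (δ * (m * ρ)) :=
    mul_le_mul (by nlinarith) b (by positivity) (by positivity)
  have c3 := mul_le_mul_of_nonneg_left h2 hG0
  have c4 := mul_le_mul_of_nonneg_left h4 hG0
  linarith

lemma crit {m a v ρ H W G T K₁ K₂ : ℝ} (hm : 0 ≤ m) (ha : 0 ≤ a) (hρ : 0 ≤ ρ) (hv : 1 ≤ v)
    (hK₁ : 0 ≤ K₁) (hK₂ : 0 ≤ K₂) (h1 : m ≤ T * a) (h2 : H ≤ K₁ * a) (h3 : W ≤ K₂ * m * v)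
    (h4 : v ^ 8 * (ρ + a) ≤ a ^ 2) (hG0 : 0 ≤ G) (hG : G ^ 2 ≤ 2 * ρ) :
    m * (2 * H + G) + 2 * G * W ≤ T * (2 * K₁ + 2 + 4 * K₂) * a ^ 2 := by
  have a1 : G * v ≤ 2 * a := by
    refine (sq_le_sq₀ (by positivity) (by positivity)).1 ?_
    calc (G * v) ^ 2 = G ^ 2 * v ^ 2 := by ring
      _ ≤ (2 * (ρ + a)) * v ^ 8 := by
          gcongr
          · linarith
          · norm_num
      _ ≤ _ := by nlinarith
  have a2 : G ≤ 2 * a := (le_mul_of_one_le_right hG0 hv).trans a1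
  calc m * (2 * H + G) + 2 * G * W ≤ m * (2 * (K₁ * a) + 2 * a) + 2 * G * (K₂ * m * v) := by gcongr
    _ = m * (2 * (K₁ * a) + 2 * a + 2 * K₂ * (G * v)) := by ring
    _ ≤ T * a * (2 * (K₁ * a) + 2 * a + 2 * K₂ * (2 * a)) := by
        gcongr
        exact hm.trans h1
    _ = _ := by ring

lemma near {P v L a A z C C₂ : ℝ} (hP : 0 ≤ P) (hv : 1 ≤ v) (hL : 1 ≤ L) (ha : 1 ≤ a)
    (hC : 1 ≤ C) (hC₂ : 1 ≤ C₂) (hz : 0 ≤ z) (h1 : v ≤ C₂ * L) (h2 : A ≤ 9 * a)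
    (h3 : z ^ 2 = A * P) (h4 : P * v ≤ C * z) :
    P * v * (2 * (C * A) + C * (z + v)) + 2 * (C * (z + v)) * (C * (z * v)) ≤
      72 * C ^ 2 * C₂ ^ 2 * (a * L ^ 2 * (1 + P)) := by
  have b0 : v ≤ C₂ ^ 2 * L ^ 2 := by
    rw [← mul_pow]; exact h1.trans (le_self_pow₀ (hv.trans h1) two_ne_zero)
  have b1 : v ^ 2 ≤ C₂ ^ 2 * L ^ 2 := by rw [← mul_pow]; gcongr
  have b2 : z ^ 2 ≤ 9 * a * P := by rw [h3]; gcongr
  have b3 : z ≤ 9 * a * (1 + P) := by nlinarith [sq_nonneg (z - 1)]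
  have b4 : z ^ 2 * v ≤ 9 * a * (1 + P) * (C₂ ^ 2 * L ^ 2) := by
    gcongr
    exact b2.trans (by gcongr; linarith)
  have b5 : z * v ^ 2 ≤ 9 * a * (1 + P) * (C₂ ^ 2 * L ^ 2) := by gcongr
  have b6 : P * v * (C * A) ≤ (1 + P) * (C₂ ^ 2 * L ^ 2) * (C ^ 2 * (9 * a)) :=
    calc P * v * (C * A) ≤ P * v * (C * (9 * a)) := by gcongr
      _ ≤ _ := by
          gcongr
          · linarith
          · nlinarith
  have b7 : P * v * (C * (z + v)) ≤ C * (z * v) * (C * (z + v)) :=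
    mul_le_mul_of_nonneg_right (h4.trans (mul_le_mul_of_nonneg_left
      (le_mul_of_one_le_right hz hv) (by positivity))) (by positivity)
  have b8 := mul_le_mul_of_nonneg_left (add_le_add b4 b5) (show 0 ≤ 3 * C ^ 2 by positivity)
  linarith

section gen
variable {X : Type} [NormedAddCommGroup X] [NormedSpace ℝ X] {n : ℕ} {v : Fin n → X}
  {γ : Fin n → Fin n → X → ℝ} {φ w u : X → ℝ} {p : X}

lemma sum2_le {F : Fin n → Fin n → ℝ} {B : ℝ} (h : ∀ i j, |F i j| ≤ B) :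
    |∑ i, ∑ j, F i j| ≤ (n : ℝ) ^ 2 * B := by
  refine (Finset.abs_sum_le_sum_abs _ _).trans ?_
  refine (Finset.sum_le_sum fun i _ => (Finset.abs_sum_le_sum_abs _ _).trans
    (Finset.sum_le_sum fun j _ => h i j)).trans_eq ?_
  simp only [Finset.sum_const, Finset.card_univ, Fintype.card_fin, nsmul_eq_mul]
  ring

lemma divB (hγ : SmM γ) (hφ : Sm φ) (hw : Sm w) {H G W : ℝ} (h0 : ∀ i j, |γ i j p| ≤ 2)
    (h1 : ∀ i j, |D (v i) (γ i j) p| ≤ 1) (hH : ∀ i j, |D (v i) (D (v j) φ) p| ≤ H)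
    (hG : ∀ j, |D (v j) φ p| ≤ G) (hW : ∀ i, |D (v i) w p| ≤ W) (hw0 : 0 ≤ w p) :
    |dvg v (fun i q => w q * XX v γ φ i q) p| ≤
      (n : ℝ) ^ 2 * (w p * (2 * H + G) + 2 * G * W) := by
  have e : dvg v (fun i q => w q * XX v γ φ i q) p = ∑ i, ∑ j,
      (w p * (γ i j p * D (v i) (D (v j) φ) p + D (v i) (γ i j) p * D (v j) φ p) +
        γ i j p * D (v j) φ p * D (v i) w p) := by
    rw [dvg_mul hw (sm_XX hγ hφ)]
    simp only [dvg, dir, Finset.sum_add_distrib, ← Finset.mul_sum, ← Finset.sum_mul]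
    congr 2
    rw [← Finset.sum_add_distrib]
    refine Finset.sum_congr rfl fun i _ => ?_
    rw [← Finset.sum_add_distrib]
    refine (D_sum_at _ (fun j _ => ((hγ i j).mul (hφ.D _)).dAt p) _).trans ?_
    exact Finset.sum_congr rfl fun j _ => D_mul_at ((hγ i j).dAt p) ((hφ.D _).dAt p) _
  rw [e]
  refine sum2_le fun i j => (abs_add_le _ _).trans (add_le_add ?_ ?_)
  · rw [abs_mul, abs_of_nonneg hw0]
    refine mul_le_mul_of_nonneg_left ((abs_add_le _ _).trans (add_le_add ?_ ?_)) hw0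
    · rw [abs_mul]
      exact mul_le_mul (h0 i j) (hH i j) (abs_nonneg _) zero_le_two
    · rw [abs_mul]
      exact (mul_le_mul (h1 i j) (hG j) (abs_nonneg _) zero_le_one).trans_eq (one_mul _)
  · have := (abs_nonneg _).trans (hG j)
    rw [abs_mul, abs_mul]
    exact mul_le_mul (mul_le_mul (h0 i j) (hG j) (abs_nonneg _) zero_le_two) (hW i) (abs_nonneg _)
      (by positivity)

lemma grad_le (h : ∀ ζ, n2 ζ / 2 ≤ bil (fun i j => γ i j p) ζ ζ) (j : Fin n) :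
    |D (v j) φ p| ≤ √(2 * rho v γ φ p) := by
  have h1 := h fun i => D (v i) φ p
  have h2 : bil (fun i j => γ i j p) (fun i => D (v i) φ p) (fun i => D (v i) φ p) =
      rho v γ φ p := quad_D p
  have h3 : D (v j) φ p ^ 2 ≤ n2 fun i => D (v i) φ p :=
    Finset.single_le_sum (f := fun i => D (v i) φ p ^ 2) (fun _ _ => sq_nonneg _)
      (Finset.mem_univ j)
  exact Real.abs_le_sqrt (by linarith)

end gen

lemma main (hCI : S_CI) {n : ℕ} {v : Fin n → X2 n} {γ : Fin n → Fin n → X2 n → ℝ}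
    {φ w u E : X2 n → ℝ} (hγ : SmM γ) (hs : SymM γ) (hφ : Sm φ) (hu : Tst u) (hw : Sm w)
    (hw0 : ∀ p, 0 ≤ w p) (hb : ∀ p ζ, n2 ζ / 2 ≤ bil (fun i j => γ i j p) ζ ζ ∧
      bil (fun i j => γ i j p) ζ ζ ≤ 2 * n2 ζ) (hE : Integrable E) (hE0 : ∀ p, 0 ≤ E p)
    (h : ∀ p ∈ tsupport u, |dvg v (fun i q => w q * XX v γ φ i q) p| * u p ^ 2 ≤
      w p * rho v γ φ p / 2 * u p ^ 2 + E p) :
    ∫ p, w p * rho v γ φ p * u p ^ 2 ≤
      4 * (∫ p, w p * n2 fun i => Dm φ (v i) u p) + 2 * ∫ p, E p := by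
  have h1 := (hCI (X2 n) volume (Fin n) v γ φ u w hγ hs hφ hu hw).2.2.1
  have n0 : ∀ ζ : Fin n → ℝ, 0 ≤ n2 ζ := fun ζ => Finset.sum_nonneg fun _ _ => sq_nonneg _
  have h2 : 0 ≤ ∫ p, w p * ∑ i, ∑ j, γ i j p * D (v i) u p * D (v j) u p :=
    integral_nonneg fun p => mul_nonneg (hw0 p)
      (le_trans (div_nonneg (n0 _) zero_le_two) (hb p fun i => D (v i) u p).1)
  have i1 : Integrable fun p => w p * n2 fun i => Dm φ (v i) u p :=
    (Tst.mul_left hw (Tst.sum _ fun i _ => (Tst.Dm hφ hu _).sq)).integrable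
  have h3 : ∫ p, w p * ∑ i, ∑ j, γ i j p * Dm φ (v i) u p * Dm φ (v j) u p ≤
      2 * ∫ p, w p * n2 fun i => Dm φ (v i) u p := by
    rw [← integral_const_mul]
    refine integral_mono (Tst.mul_left hw (tst_quad hγ (fun i => hφ.Dm hu.sm _)
      fun i => Tst.Dm hφ hu _)).integrable (i1.const_mul 2) fun p => ?_
    have := mul_le_mul_of_nonneg_left (hb p fun i => Dm φ (v i) u p).2 (hw0 p)
    simp only [bil] at this ⊢
    linarith
  have i2 : Integrable fun p => w p * rho v γ φ p * u p ^ 2 :=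
    (Tst.mul_left (hw.mul (sm_rho hγ hφ)) hu.sq).integrable
  have h4 : 1 / 2 * (∫ p, w p * rho v γ φ p * u p ^ 2) - ∫ p, E p ≤
      ∫ p, (w p * rho v γ φ p + dvg v (fun i q => w q * XX v γ φ i q) p) * u p ^ 2 := by
    rw [← integral_const_mul, ← integral_sub (i2.const_mul _) hE]
    refine integral_mono ((i2.const_mul _).sub hE) (Tst.mul_left ((hw.mul (sm_rho hγ hφ)).add
      (sm_dvg fun i => hw.mul (sm_XX hγ hφ i))) hu.sq).integrable fun p => ?_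
    by_cases hp : p ∈ tsupport u
    · have a := h p hp
      have b := mul_le_mul_of_nonneg_right
        (neg_abs_le (dvg v (fun i q => w q * XX v γ φ i q) p)) (sq_nonneg (u p))
      simp only
      linarith
    · have := hE0 p
      simp only [image_eq_zero_of_notMem_tsupport hp]
      linarith
  linarith

lemma near_b {n : ℕ} {γ : MatF n} (hγ : SmM γ) (h : Near 8 1 γ) (x : En n) (i j : Fin n) :
    |γ i j x| ≤ 2 ∧ |D (ee i) (γ i j) x| ≤ 1 := by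
  constructor
  · have h1 : |γ i j x - if i = j then 1 else 0| ≤ 1 * 1 ^ 0 := h i j x [] (by simp)
    rw [abs_le] at h1 ⊢
    split_ifs at h1 <;> constructor <;> linarith [h1.1, h1.2]
  · have h1 : |D (ee i) (fun y => γ i j y - if i = j then 1 else 0) x| ≤ 1 * 1 ^ 1 :=
      h i j x [i] (by simp)
    rw [D_sub_at ((hγ i j).dAt x) (differentiableAt_const _), D_const] at h1
    simpa using h1

lemma D_fst {n : ℕ} {F : En n → ℝ} (hF : Sm F) (p : X2 n) (i : Fin n) :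
    D (ex i) (fun p : X2 n => F p.1) p = D (ee i) F p.1 := by
  simp only [D]
  rw [show (fun p : X2 n => F p.1) = F ∘ Prod.fst from rfl,
    fderiv_comp p (hF.dAt _) differentiableAt_fst, fderiv_fst]
  rfl

lemma D_snd {n : ℕ} {F : En n → ℝ} (hF : Sm F) (p : X2 n) (i : Fin n) :
    D (ey i) (fun p : X2 n => F p.2) p = D (ee i) F p.2 := by
  simp only [D]
  rw [show (fun p : X2 n => F p.2) = F ∘ Prod.snd from rfl,
    fderiv_comp p (hF.dAt _) differentiableAt_snd, fderiv_snd]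
  rfl

lemma hess {x a G z z' Q C e : ℝ} (ha : 0 ≤ a) (hQ : 0 < Q) (h1 : |G| ≤ C) (h2 : |z| ≤ C * √Q)
    (h3 : |z'| ≤ C * √Q) (h : |x - a * (G - z * z' / Q)| ≤ e * a) : |x| ≤ (C + C ^ 2 + e) * a := by
  have b1 : |z * z' / Q| ≤ C ^ 2 := by
    rw [abs_div, abs_of_pos hQ, div_le_iff₀ hQ, abs_mul]
    calc |z| * |z'| ≤ C * √Q * (C * √Q) :=
          mul_le_mul h2 h3 (abs_nonneg _) ((abs_nonneg _).trans h2)
      _ = C ^ 2 * (√Q * √Q) := by ring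
      _ = _ := by rw [Real.mul_self_sqrt hQ.le]
  have b2 : |a * (G - z * z' / Q)| ≤ a * (C + C ^ 2) := by
    rw [abs_mul, abs_of_nonneg ha]
    exact mul_le_mul_of_nonneg_left ((abs_sub _ _).trans (add_le_add h1 b1)) ha
  have b3 := abs_add_le (x - a * (G - z * z' / Q)) (a * (G - z * z' / Q))
  rw [sub_add_cancel] at b3
  linarith

lemma cut_one {s : ℝ} (h : s ≤ 1) : cut s = 1 := Real.smoothTransition.one_of_one_le (by linarith)

section pt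
variable {n : ℕ} {ι : Type} {f : Fx} {c : Cx n ι} {p : X2 n} {Cq C₂ C₃ C₄ C₅ Cn η δ K : ℝ}

/-- Elementary sizes at a point. -/
structure Sz (f : Fx) (c : Cx n ι) (p : X2 n) : Prop where
  Q : 0 ≤ QQ c p
  P : 0 ≤ Psi f c p
  v : 1 ≤ vv f c p
  L : 1 ≤ LX f c p.1
  hal : 0 < al f c p
  A : 0 < AA f c p
  z : 0 ≤ z0 f c p
  hfp : 0 ≤ fp f c p
  hmy : 0 ≤ my f c p
  hmx : my f c p ≤ mx f c p
  hnl : 0 ≤ nl f c p
  z2 : z0 f c p ^ 2 = AA f c p * Psi f c p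

lemma sz (h0 : W0 f c) (hL : 1 ≤ c.L0) (p : X2 n) : Sz f c p := by
  obtain ⟨-, hx, hp, -⟩ := h0
  obtain ⟨q1, -, hF, hv, hs, -, -, -, -, -, -, hfp, -⟩ := hp p
  have hQ : 0 ≤ QQ c p := le_trans (by positivity) q1
  have hs0 : 0 < sig f c p := by linarith
  have hv1 := hL.trans hv
  have hP : 0 ≤ Psi f c p := mul_nonneg hQ hF.le
  have hal : 0 < al f c p := mul_pos hF hs0
  have ha := (hx p.1).1
  refine ⟨hQ, hP, hv1, hL.trans (hx p.1).2.1, hal, mul_pos hF (pow_pos hs0 2),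
    mul_nonneg hal.le (Real.sqrt_nonneg _), hfp, mul_nonneg hP (by linarith),
    le_add_of_nonneg_right hfp, by unfold nl; positivity, ?_⟩
  unfold z0 AA Psi al
  rw [mul_pow, Real.sq_sqrt hQ]
  ring

/-- Facts near the diagonal. -/
lemma nearF (h0 : W0 f c) (hL : 1 ≤ c.L0) (hη : η ≤ 1) (h2 : W2 f c C₂ η p)
    (hp : p ∈ Nr f c 16) : 1 ≤ aX f c p.1 ∧ AA f c p ≤ 9 * aX f c p.1 ∧
      vv f c p ≤ C₂ * LX f c p.1 ∧ fp f c p = 0 := by
  have s := sz h0 hL p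
  obtain ⟨-, a2, -, -, -, -, -, -, -, -, -, -, hN, -⟩ := h2
  obtain ⟨-, -, -, b4, b5, b6, -, b8, -⟩ := hN hp
  obtain ⟨-, hx, hq, -, hloc⟩ := h0
  obtain ⟨-, -, hF, -, hs, -⟩ := hq p
  have ha := (hx p.1).1
  have h1 := mul_le_mul_of_nonneg_right hη ha.le
  refine ⟨?_, ?_, b6, ((hloc p).1 b8).2⟩
  · linarith [one_le_pow₀ (n := 20) s.L]
  · have h3 : FF f c p ≤ aX f c p.1 := by linarith [(abs_le.1 b4).2]
    have h4 : sig f c p ^ 2 ≤ 3 ^ 2 := by gcongr; linarith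
    calc AA f c p ≤ aX f c p.1 * 3 ^ 2 := mul_le_mul h3 h4 (sq_nonneg _) ha.le
      _ = _ := by ring

/-- The constant of the estimate. -/
def KK (n : ℕ) (Cq C₂ C₃ C₅ T : ℝ) : ℝ :=
  (n : ℝ) ^ 2 * (72 * C₃ ^ 2 * C₂ ^ 2 + T * (2 * (Cq + Cq ^ 2 + (1 + T)) + 2 + 4 * (C₃ ^ 2 * C₅)))

lemma cases3 {d wρ a b N₁ N₂ T : ℝ} {s t : Prop} (hw : 0 ≤ wρ) (ha : 0 ≤ a) (hb : 0 ≤ b)
    (h1 : 0 ≤ N₁) (h2 : 0 ≤ N₂) (hT : (n : ℝ) ^ 2 * (4 * T * δ) ≤ 1 / 2)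
    (c1 : s → d ≤ (n : ℝ) ^ 2 * (N₁ * a)) (c2 : t → d ≤ (n : ℝ) ^ 2 * (N₂ * b))
    (c3 : ¬ s → ¬ t → d ≤ (n : ℝ) ^ 2 * (4 * T * δ * wρ)) :
    (s → d ≤ (n : ℝ) ^ 2 * (N₁ + N₂) * a) ∧
      (¬ s → d ≤ wρ / 2 + (n : ℝ) ^ 2 * (N₁ + N₂) * b) := by
  have e1 : 0 ≤ (n : ℝ) ^ 2 * (N₂ * a) := by positivity
  have e2 : 0 ≤ (n : ℝ) ^ 2 * (N₁ * b) := by positivity
  have e3 : 0 ≤ (n : ℝ) ^ 2 * (N₂ * b) := by positivity
  refine ⟨fun hs => by linarith [c1 hs], fun hs => ?_⟩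
  by_cases ht : t
  · linarith [c2 ht]
  · have := mul_le_mul_of_nonneg_right hT hw
    linarith [c3 hs ht]

lemma ptx (h0 : W0 f c) (hc : c.Ok f 1 1) (hq : WQ c Cq 1 p) (h2 : W2 f c C₂ η p)
    (h3 : W3 f c C₃ p) (h4 : W4 f c C₄ η p) (h5 : W5x f c Cn C₅ η p) (cq : 1 ≤ Cq) (c2 : 1 ≤ C₂)
    (c3 : 1 ≤ C₃) (c5 : 1 ≤ C₅) (hT : 0 ≤ Cn * f.tau) (ht : 0 < f.t0) (d0 : 0 < δ) (d1 : δ ≤ 1)
    (hδ : (n : ℝ) ^ 2 * (4 * (C₃ ^ 2) ^ 2 * δ) ≤ 1 / 2) (hη : η ≤ δ ^ 2 / 2) :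
    (p ∈ Nr f c 1 → |dvg ex (fun i q => mx f c q * XX ex (onX c.γ₁) (phi f c) i q) p| ≤
      KK n Cq C₂ C₃ C₅ (Cn * f.tau) * nl f c p) ∧
    (p ∉ Nr f c 1 → |dvg ex (fun i q => mx f c q * XX ex (onX c.γ₁) (phi f c) i q) p| ≤
      mx f c p * rx f c p / 2 + KK n Cq C₂ C₃ C₅ (Cn * f.tau) * (chX f c p ^ 2 * al f c p ^ 2)) := by
  have s := sz h0 hc.2.1 p
  have η1 : η ≤ 1 := by nlinarith
  have nF := nearF h0 hc.2.1 η1 h2
  obtain ⟨-, -, -, -, -, g1, -, g2, -⟩ := hc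
  obtain ⟨⟨-, -, -, -, -, -, -, -, -, -, -, -, -, -, -, -, -, sphi, -, -, -, -, -, -, -, -, -, -,
    -, -, smx, -, -, -, -, -, -, -, -, -, -, m1, -⟩, -, hp, -, hloc⟩ := h0
  obtain ⟨-, -, -, -, -, hr, -, -, -, -, -, -, hR, -, -, -, -, hb⟩ := hp p
  obtain ⟨a1, -, a3, -, a5, a6, a7, a8⟩ := h3
  have hm0 := s.hmy.trans s.hmx
  have dB := fun {H G W : ℝ} => divB (v := ex) (p := p) (H := H) (G := G) (W := W) m1 sphi smx
    (fun i j => (near_b g1 g2 p.1 i j).1)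
    (fun i j => (D_fst (g1 i j) p i).symm ▸ (near_b g1 g2 p.1 i j).2)
  have hH : ∀ i j, |D (ex i) (D (ex j) (phi f c)) p| ≤ C₃ * HX f c p := fun i j => by
    simpa [Ds] using a1 i j [] (by simp)
  have hG := grad_le (v := ex) (γ := onX c.γ₁) (φ := phi f c) fun ζ => (hb ζ).1
  have hG2 : √(2 * rx f c p) ^ 2 ≤ 2 * rx f c p := (Real.sq_sqrt (by positivity)).le
  have hS : 0 ≤ fp f c p * SS f c p := mul_nonneg s.hfp (by unfold SS; linarith [s.v, s.L])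
  have hX : 0 < HX f c p := add_pos_of_pos_of_nonneg s.A hS
  have hW : ∀ i, |D (ex i) (mx f c) p| ≤ C₃ ^ 2 * HX f c p := fun i => (a8 i).1.trans (by
    rw [sq, mul_assoc, HX, mul_add C₃ (AA f c p)]
    exact mul_le_mul_of_nonneg_left (add_le_add a6 (le_mul_of_one_le_left hS c3)) (by positivity))
  have hC : C₃ * HX f c p ≤ C₃ ^ 2 * HX f c p := by gcongr; nlinarith
  refine cases3 (t := p ∈ sX f c 1) (mul_nonneg hm0 hr) s.hnl (by positivity) (by positivity)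
    (by positivity) hδ (fun h => ?_) (fun h => ?_) fun h h' => ?_
  · obtain ⟨n1, n2, n3, n4⟩ := nF (le_trans h (by norm_num) : QQ c p ^ 2 * FF f c p ≤ 16)
    refine (dB (H := C₃ * AA f c p) (G := C₃ * (z0 f c p + vv f c p))
      (W := C₃ * (z0 f c p * vv f c p)) (fun i j => by simpa [HX, n4] using hH i j)
      (fun j => by simpa [n4] using (a3 j).1) (fun j => by simpa [n4] using (a8 j).1) hm0).trans ?_
    rw [mx, n4, add_zero]
    exact mul_le_mul_of_nonneg_left (near s.P s.v s.L n1 c3 c2 s.z n3 n2 s.z2 a5) (sq_nonneg _)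
  · obtain ⟨b1, -, -, -, -, -, b7, b8, -, b10, b11, -⟩ := h5 ⟨h.1, h.2.trans (by gcongr; norm_num)⟩
    have hQ : 0 < QQ c p := lt_trans (by positivity) b1
    have e : chX f c p = 1 := by
      rw [chX, ((hloc p).2.2.2.1 b1).eq_of_nhds, cut_one (by rw [div_le_iff₀ hR]; exact h.2)]
      simp
    rw [e, one_pow, one_mul]
    refine (dB (H := (Cq + Cq ^ 2 + (1 + Cn * f.tau)) * al f c p) (fun i j => ?_) hG hW hm0).trans
      (mul_le_mul_of_nonneg_left (crit (v := vv f c p) hm0 s.hal.le hr s.v (by positivity)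
        (by positivity) b8 le_rfl ?_ (b10.trans (mul_le_of_le_one_left (sq_nonneg _) η1))
        (Real.sqrt_nonneg _) hG2) (sq_nonneg _))
    · refine hess s.hal.le hQ ?_ (hq.2.2.2.1 i).1 (hq.2.2.2.1 j).1 ((b7 i j).trans ?_)
      · simpa [Ds] using (hq.2.2.2.2.1 i j).2.1 [] (by simp)
      · have := s.hal; gcongr
    · have := s.v
      have := s.hmx
      calc C₃ ^ 2 * HX f c p ≤ C₃ ^ 2 * (C₅ * mx f c p * vv f c p) := by
            gcongr; exact b11.trans (by gcongr)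
        _ = _ := by ring
  · have b1 := ((h4.2.1 h).1 h').1
    have b2 := (h2.2.2.2.2.2.2.2.2.2.2.2.2.2.1 h).1
    have b3 : 1 ≤ SS f c p ^ 8 := one_le_pow₀ (by unfold SS; linarith [s.v, s.L])
    exact (dB hH hG hW hm0).trans (mul_le_mul_of_nonneg_left (far
      (b3.trans (b2.trans (mul_le_of_le_one_left hm0 η1))) hr hX (one_le_pow₀ c3) d0 d1
      (b1.trans (by gcongr)) (a7.trans hC) hC le_rfl (Real.sqrt_nonneg _) hG2) (sq_nonneg _))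

lemma pty (h0 : W0 f c) (hc : c.Ok f 1 1) (hq : WQ c Cq 1 p) (h2 : W2 f c C₂ η p)
    (h3 : W3 f c C₃ p) (h4 : W4 f c C₄ η p) (h5 : W5y f c Cn C₅ η p) (cq : 1 ≤ Cq) (c2 : 1 ≤ C₂)
    (c3 : 1 ≤ C₃) (c5 : 1 ≤ C₅) (hT : 0 ≤ Cn * f.tau) (ht : 0 < f.t0) (d0 : 0 < δ) (d1 : δ ≤ 1)
    (hδ : (n : ℝ) ^ 2 * (4 * (C₃ ^ 2) ^ 2 * δ) ≤ 1 / 2) (hη : η ≤ δ ^ 2 / 2) :
    (p ∈ Nr f c 1 → |dvg ey (fun i q => my f c q * XX ey (onY c.γ₂) (phi f c) i q) p| ≤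
      KK n Cq C₂ C₃ C₅ (Cn * f.tau) * nl f c p) ∧
    (p ∉ Nr f c 1 → |dvg ey (fun i q => my f c q * XX ey (onY c.γ₂) (phi f c) i q) p| ≤
      my f c p * ry f c p / 2 + KK n Cq C₂ C₃ C₅ (Cn * f.tau) * (chY f c p ^ 2 * al f c p ^ 2)) := by
  have s := sz h0 hc.2.1 p
  have η1 : η ≤ 1 := by nlinarith
  have nF := nearF h0 hc.2.1 η1 h2
  obtain ⟨-, -, -, -, -, -, -, -, g1, -, g2, -⟩ := hc
  obtain ⟨⟨-, -, -, -, -, -, -, -, -, -, -, -, -, -, -, -, -, sphi, -, -, -, -, -, -, -, -, -, -,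
    -, -, -, smy, -, -, -, -, -, -, -, -, -, -, -, m1, -⟩, -, hp, -, hloc⟩ := h0
  obtain ⟨-, -, -, -, -, -, hr, -, -, -, -, -, hR, -, -, -, -, hb⟩ := hp p
  obtain ⟨-, a1, a3, -, a5, a6, -, a8⟩ := h3
  have hm0 := s.hmy
  have dB := fun {H G W : ℝ} => divB (v := ey) (p := p) (H := H) (G := G) (W := W) m1 sphi smy
    (fun i j => (near_b g1 g2 p.2 i j).1)
    (fun i j => (D_snd (g1 i j) p i).symm ▸ (near_b g1 g2 p.2 i j).2)
  have hH : ∀ i j, |D (ey i) (D (ey j) (phi f c)) p| ≤ C₃ * AA f c p := fun i j => by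
    simpa [Ds, exy] using a1 i (.inr j) [] (by simp)
  have hG := grad_le (v := ey) (γ := onY c.γ₂) (φ := phi f c) fun ζ => (hb ζ).2.2.1
  have hG2 : √(2 * ry f c p) ^ 2 ≤ 2 * ry f c p := (Real.sq_sqrt (by positivity)).le
  have hX := s.A
  have hZ : C₃ * (z0 f c p * vv f c p) ≤ C₃ ^ 2 * AA f c p := by rw [sq, mul_assoc]; gcongr
  have hW : ∀ i, |D (ey i) (my f c) p| ≤ C₃ ^ 2 * AA f c p := fun i => (a8 i).2.trans hZ
  have hC : C₃ * AA f c p ≤ C₃ ^ 2 * AA f c p := by gcongr; nlinarith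
  refine cases3 (t := p ∈ sY f c 1) (mul_nonneg hm0 hr) s.hnl (by positivity) (by positivity)
    (by positivity) hδ (fun h => ?_) (fun h => ?_) fun h h' => ?_
  · obtain ⟨n1, n2, n3, -⟩ := nF (le_trans h (by norm_num) : QQ c p ^ 2 * FF f c p ≤ 16)
    exact (dB hH (fun j => (a3 j).2) (fun j => (a8 j).2) hm0).trans
      (mul_le_mul_of_nonneg_left (near s.P s.v s.L n1 c3 c2 s.z n3 n2 s.z2 a5) (sq_nonneg _))
  · obtain ⟨b1, -, -, b7, b8, -, b10, b11, -⟩ := h5 ⟨h.1, h.2.trans (by gcongr; norm_num)⟩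
    have hQ : 0 < QQ c p := lt_trans (by positivity) b1
    have e : chY f c p = 1 := by
      rw [chY, ((hloc p).2.2.2.1 b1).eq_of_nhds, cut_one (by rw [div_le_iff₀ hR]; exact h.2)]
      simp
    rw [e, one_pow, one_mul]
    refine (dB (H := (Cq + Cq ^ 2 + (1 + Cn * f.tau)) * al f c p) (fun i j => ?_) hG hW hm0).trans
      (mul_le_mul_of_nonneg_left (crit (v := vv f c p) hm0 s.hal.le hr s.v (by positivity)
        (by positivity) b8 le_rfl ?_ (b10.trans (mul_le_of_le_one_left (sq_nonneg _) η1))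
        (Real.sqrt_nonneg _) hG2) (sq_nonneg _))
    · refine hess s.hal.le hQ ?_ (hq.2.2.2.1 i).1 (hq.2.2.2.1 j).1 ((b7 i j).trans ?_)
      · simpa [Ds] using (hq.2.2.2.2.1 i j).2.1 [] (by simp)
      · have := s.hal; gcongr
    · calc C₃ ^ 2 * AA f c p ≤ C₃ ^ 2 * (C₅ * my f c p * vv f c p) := by gcongr
        _ = _ := by ring
  · have b1 := ((h4.2.1 h).2.1 h').1
    have b2 := (h2.2.2.2.2.2.2.2.2.2.2.2.2.2.1 h).2
    have b3 : 1 ≤ vv f c p ^ 8 := one_le_pow₀ s.v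
    have b4 : my f c p ≤ C₃ ^ 2 * AA f c p := a5.trans (le_trans (mul_le_mul_of_nonneg_left
      (le_mul_of_one_le_right s.z s.v) (by positivity)) hZ)
    exact (dB hH hG hW hm0).trans (mul_le_mul_of_nonneg_left (far
      (b3.trans (b2.trans (mul_le_of_le_one_left hm0 η1))) hr hX (one_le_pow₀ c3) d0 d1
      (b1.trans (by gcongr)) b4 hC le_rfl (Real.sqrt_nonneg _) hG2) (sq_nonneg _))

lemma ind {S : Set (X2 n)} (hS : MeasurableSet S) {F G : X2 n → ℝ} (hF : Integrable F)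
    (hG : Integrable G) : Integrable (fun p => F p + S.indicator G p) ∧
      ∫ p, (F p + S.indicator G p) = (∫ p, F p) + ∫ p in S, G p :=
  ⟨hF.add (hG.indicator hS), by rw [integral_add hF (hG.indicator hS), integral_indicator hS]⟩

lemma ms (h0 : W0 f c) (r : ℝ) : MeasurableSet (Nr f c r) := by
  obtain ⟨⟨-, -, -, -, sQ, -, sF, -⟩, -⟩ := h0
  exact (isClosed_le ((sQ.cont.pow 2).mul sF.cont) continuous_const).measurableSet

/-- The estimate for one component. -/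
lemma comp (hCI : S_CI) (h0 : W0 f c) (hL : 1 ≤ c.L0) (hK : 0 ≤ K) (hη : 4 * K * η ≤ 1)
    {g q : X2 n → ℝ} (hg : Tst g) (hq : Tst q) (sg : tsupport g ⊆ Om2 c) (sq : tsupport q ⊆ Om2 c)
    (h2 : ∀ p ∈ Om2 c, p ∈ Nr f c 16 → nl f c p ≤ η * al f c p ^ 2)
    (hx : ∀ p ∈ Om2 c, (p ∈ Nr f c 1 →
      |dvg ex (fun i q => mx f c q * XX ex (onX c.γ₁) (phi f c) i q) p| ≤ K * nl f c p) ∧
      (p ∉ Nr f c 1 → |dvg ex (fun i q => mx f c q * XX ex (onX c.γ₁) (phi f c) i q) p| ≤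
        mx f c p * rx f c p / 2 + K * (chX f c p ^ 2 * al f c p ^ 2)))
    (hy : ∀ p ∈ Om2 c, (p ∈ Nr f c 1 →
      |dvg ey (fun i q => my f c q * XX ey (onY c.γ₂) (phi f c) i q) p| ≤ K * nl f c p) ∧
      (p ∉ Nr f c 1 → |dvg ey (fun i q => my f c q * XX ey (onY c.γ₂) (phi f c) i q) p| ≤
        my f c p * ry f c p / 2 + K * (chY f c p ^ 2 * al f c p ^ 2))) :
    (∫ p, mx f c p * rx f c p * g p ^ 2) + ∫ p, my f c p * ry f c p * q p ^ 2 ≤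
      (6 * K + 4) * ((∫ p, mx f c p * n2 (zx f c g p)) + (∫ p, my f c p * n2 (zy f c q p)) +
        (∫ p in Nr f c 16, nl f c p * g p ^ 2) + (∫ p, chX f c p ^ 2 * al f c p ^ 2 * g p ^ 2) +
        ∫ p, chY f c p ^ 2 * al f c p ^ 2 * q p ^ 2) +
      ∫ p in Nr f c 1, al f c p ^ 2 * (g p + q p) ^ 2 := by
  have s := sz h0 hL
  have m16 := ms h0 16
  have m1 := ms h0 1
  obtain ⟨⟨-, -, -, -, -, -, -, -, -, -, sal, -, -, -, -, -, -, sphi, -, -, -, -, snl, -, -, -, -,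
    -, -, -, smx, smy, -, -, -, scx, scy, -, -, -, -, m₁, y₁, m₂, y₂⟩, -, hp, -⟩ := h0
  have n0 : ∀ ζ : Fin n → ℝ, 0 ≤ n2 ζ := fun ζ => Finset.sum_nonneg fun _ _ => sq_nonneg _
  have hmx := fun p => (s p).hmy.trans (s p).hmx
  have sub : ∀ p, p ∈ Nr f c 1 → p ∈ Nr f c 16 := fun p h =>
    (le_trans h (by norm_num) : QQ c p ^ 2 * FF f c p ≤ 16)
  have ti : ∀ {F : X2 n → ℝ}, Tst F → Integrable F := fun h => h.integrable
  have i1 := (ti (Tst.mul_left ((scx.pow 2).mul (sal.pow 2)) hg.sq)).const_mul K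
  have i2 := (ti (Tst.mul_left ((scy.pow 2).mul (sal.pow 2)) hq.sq)).const_mul K
  have i3 := ti (Tst.mul_left snl hg.sq)
  have i4 := (ti (Tst.mul_left (sal.pow 2) (hg.add hq).sq)).const_mul (1 / 2)
  obtain ⟨j1, e1⟩ := ind m16 i1 (i3.const_mul K)
  obtain ⟨j2, e2⟩ := ind m16 i2 (i3.const_mul (2 * K))
  obtain ⟨j3, e3⟩ := ind m1 j2 i4
  have k1 : ∀ (a : ℝ) p, 0 ≤ a → 0 ≤ (Nr f c 16).indicator (fun p => a * (nl f c p * g p ^ 2)) p :=
    fun a p ha => indicator_nonneg (fun p _ => by have := (s p).hnl; positivity) p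
  have k2 : ∀ p, 0 ≤ (Nr f c 1).indicator (fun p => 1 / 2 * (al f c p ^ 2 * (g p + q p) ^ 2)) p :=
    indicator_nonneg fun p _ => by positivity
  have X := main hCI (v := ex) m₁ y₁ sphi hg smx hmx (fun p ζ => by
    obtain ⟨-, -, -, -, -, -, -, -, -, -, -, -, -, -, -, -, -, hb⟩ := hp p
    exact ⟨(hb ζ).1, (hb ζ).2.1⟩) j1 (fun p => add_nonneg (by positivity) (k1 _ p hK)) fun p h => by
      have a1 := mul_nonneg (hmx p) (hp p).2.2.2.2.2.1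
      by_cases h' : p ∈ Nr f c 1
      · have a := mul_le_mul_of_nonneg_right ((hx p (sg h)).1 h') (sq_nonneg (g p))
        rw [indicator_of_mem (sub p h')]
        have a2 : 0 ≤ mx f c p * rx f c p / 2 * g p ^ 2 := by positivity
        have a3 : 0 ≤ K * (chX f c p ^ 2 * al f c p ^ 2 * g p ^ 2) := by positivity
        unfold rx at a2
        linarith
      · have a := mul_le_mul_of_nonneg_right ((hx p (sg h)).2 h') (sq_nonneg (g p))
        unfold rx at a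
        linarith [k1 K p hK]
  have Y := main hCI (v := ey) m₂ y₂ sphi hq smy (fun p => (s p).hmy) (fun p ζ => by
    obtain ⟨-, -, -, -, -, -, -, -, -, -, -, -, -, -, -, -, -, hb⟩ := hp p
    exact ⟨(hb ζ).2.2.1, (hb ζ).2.2.2.1⟩) j3
    (fun p => add_nonneg (add_nonneg (by positivity) (k1 _ p (by positivity))) (k2 p)) fun p h => by
      have a1 := mul_nonneg (s p).hmy (hp p).2.2.2.2.2.2.1
      by_cases h' : p ∈ Nr f c 1
      · have a := mul_le_mul_of_nonneg_right ((hy p (sq h)).1 h') (sq_nonneg (q p))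
        rw [indicator_of_mem (sub p h'), indicator_of_mem h']
        have a2 : 0 ≤ my f c p * ry f c p / 2 * q p ^ 2 := by positivity
        have a3 : 0 ≤ K * (chY f c p ^ 2 * al f c p ^ 2 * q p ^ 2) := by positivity
        have a4 := mul_le_mul_of_nonneg_left (show q p ^ 2 ≤ 2 * g p ^ 2 + 2 * (g p + q p) ^ 2 by
          nlinarith [sq_nonneg (2 * g p + q p)]) (mul_nonneg hK (s p).hnl)
        have a5 := mul_le_mul_of_nonneg_left (h2 p (sq h) (sub p h'))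
          (show 0 ≤ 2 * K * (g p + q p) ^ 2 by positivity)
        have a6 := mul_le_mul_of_nonneg_left hη
          (show 0 ≤ al f c p ^ 2 * (g p + q p) ^ 2 by positivity)
        unfold ry at a2
        linarith
      · have a := mul_le_mul_of_nonneg_right ((hy p (sq h)).2 h') (sq_nonneg (q p))
        unfold ry at a
        linarith [k1 (2 * K) p (by positivity), k2 p]
  rw [e1] at X
  rw [e3, e2] at Y
  simp only [integral_const_mul] at X Y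
  have p1 : 0 ≤ ∫ p, mx f c p * n2 (zx f c g p) :=
    integral_nonneg fun p => mul_nonneg (hmx p) (n0 _)
  have p2 : 0 ≤ ∫ p, my f c p * n2 (zy f c q p) :=
    integral_nonneg fun p => mul_nonneg (s p).hmy (n0 _)
  have p3 : 0 ≤ ∫ p in Nr f c 16, nl f c p * g p ^ 2 :=
    integral_nonneg fun p => mul_nonneg (s p).hnl (sq_nonneg _)
  have p4 : 0 ≤ ∫ p, chX f c p ^ 2 * al f c p ^ 2 * g p ^ 2 := integral_nonneg fun p => by positivity
  have p5 : 0 ≤ ∫ p, chY f c p ^ 2 * al f c p ^ 2 * q p ^ 2 := integral_nonneg fun p => by positivity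
  unfold zx at p1 ⊢
  unfold zy at p2 ⊢
  unfold rx ry
  nlinarith [mul_nonneg hK p1, mul_nonneg hK p2, mul_nonneg hK p4, mul_nonneg hK p5]

end pt

end GC

open GC in
theorem s_GC (h0 : S_w0) (hq : S_wq) (h2 : S_w2) (h3 : S_w3) (h4 : S_w4) (h5 : S_w5)
    (hCI : S_CI) : S_GC := by
  intro n ι _ f hf
  obtain ⟨Cq, cq, hq⟩ := hq n
  obtain ⟨C₂, c2, h2⟩ := h2 n ι f hf
  obtain ⟨C₃, c3, h3⟩ := h3 n ι f hf
  obtain ⟨C₄, -, h4⟩ := h4 n ι f hf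
  obtain ⟨Cn, cn, h5⟩ := h5 n
  obtain ⟨C₅, c5, h5⟩ := h5 ι f hf
  have h0 := h0 n ι f hf
  have hq := hq ι f hf 1 one_pos
  obtain ⟨f1, -, -, -, f5, -, -, -, f9, f10, -⟩ := hf
  have hT : 0 ≤ Cn * f.tau := by
    have : 0 ≤ f.t1 := by linarith
    unfold Fx.tau
    positivity
  obtain ⟨δ, d0, d1, hδ⟩ : ∃ δ : ℝ, 0 < δ ∧ δ ≤ 1 ∧ (n : ℝ) ^ 2 * (4 * (C₃ ^ 2) ^ 2 * δ) ≤ 1 / 2 := by
    have a : 0 ≤ (n : ℝ) ^ 2 * (4 * (C₃ ^ 2) ^ 2) := by positivity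
    refine ⟨1 / (2 * ((n : ℝ) ^ 2 * (4 * (C₃ ^ 2) ^ 2)) + 1), by positivity, ?_, ?_⟩
    · rw [div_le_one (by positivity)]; linarith
    · rw [← mul_assoc, mul_one_div, div_le_iff₀ (by positivity)]; linarith
  have hK : 0 ≤ KK n Cq C₂ C₃ C₅ (Cn * f.tau) := by unfold KK; positivity
  obtain ⟨η, e0, e1, e2⟩ : ∃ η : ℝ, 0 < η ∧ η ≤ δ ^ 2 / 2 ∧
      4 * KK n Cq C₂ C₃ C₅ (Cn * f.tau) * η ≤ 1 := by
    refine ⟨min (δ ^ 2 / 2) (1 / (4 * KK n Cq C₂ C₃ C₅ (Cn * f.tau) + 1)), by positivity,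
      min_le_left _ _, (mul_le_mul_of_nonneg_left (min_le_right _ _) (by positivity)).trans ?_⟩
    rw [mul_one_div, div_le_one (by positivity)]
    linarith
  refine ⟨6 * KK n Cq C₂ C₃ C₅ (Cn * f.tau) + 4, by linarith, ((((((h0.and hq).and (h2 η e0)).and
    h3).and (h4 η e0)).and (h5 η e0)).and (Ev.ok f one_pos 1)).mono ?_⟩
  rintro c ⟨⟨⟨⟨⟨⟨w0, wq⟩, w2⟩, w3⟩, w4⟩, w5⟩, hc⟩ g q ⟨hT', -⟩
  simp only [Gn, A1, NN, Sx, Sy, Rr, I0, IX, IY, rr, Measure.restrict_univ,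
    ← Finset.sum_add_distrib, Finset.mul_sum]
  refine Finset.sum_le_sum fun s _ => ?_
  obtain ⟨t1, t2, t3, t4⟩ := hT' s
  exact comp hCI w0 hc.2.1 hK e2 t1 t2 (fun p h => (t3 h).1) (fun p h => (t4 h).1)
    (fun p h h' => ((w2 p h).2.2.2.2.2.2.2.2.2.2.2.2.1 h').2.2.2.2.2.2.2.2.1)
    (fun p h => ptx w0 hc (wq p h) (w2 p h) (w3 p h) (w4 p h) (w5 p h).1 cq c2 c3 c5 hT f9 d0 d1
      hδ e1)
    fun p h => pty w0 hc (wq p h) (w2 p h) (w3 p h) (w4 p h) (w5 p h).2 cq c2 c3 c5 hT f9 d0 d1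
      hδ e1

end Vale.Agent.P088
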