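import Vale.Agent.P088.GIA

/-!
# P088: the global inequality
-/

open MeasureTheory Set Metric
open scoped ContDiff Topology

noncomputable section
namespace Vale.Agent.P088
open Vale.Agent.P136 (D Dp Dm Sm Tst)

namespace GI

section smooth
variable {X : Type} [NormedAddCommGroup X] [NormedSpace ℝ X] {κ : Type} [Fintype κ]
  {v w : κ → X} {γ γ' : κ → κ → X → ℝ} {φ : X → ℝ} {P : κ → X → ℝ}
open IdT Vale.Agent.P136

lemma smQ (hγ : SmM γ) (hφ : Sm φ) (hP : ∀ i, Sm (P i)) (i k : κ) : Sm (Qco v γ φ P i k) := by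
  have hX := sm_XX (v := v) hγ hφ
  exact ((((((Sm.sum fun j _ => (hγ i j).mul ((hX k).D _)).cmul 8).sub
    ((sm_dir hX (hγ i k)).cmul 4)).add (((sm_dir hP hφ).cmul 8).mul (hγ i k))).sub
    (((hX i).cmul 16).mul (hP k))).add
    ((Sm.sum fun j _ => (hγ i j).mul ((hP k).D _)).cmul 8)).sub
    ((sm_dvg fun l => (hγ i k).mul (hP l)).cmul 4)

lemma smC (hγ : SmM γ) (hφ : Sm φ) (hP : ∀ i, Sm (P i)) : Sm (cco v γ φ P) := by
  have hX := sm_XX (v := v) hγ hφ
  have hρ := sm_dir (v := v) hX hφ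
  have hπ := sm_dir (v := v) hP hφ
  have hm := sm_dgd (v := v) hγ hφ
  have hW : ∀ k, Sm fun q => ∑ i, (Qco v γ φ P i k q + Qco v γ φ P k i q) * D (v i) φ q :=
    fun k => Sm.sum fun i _ => ((smQ hγ hφ hP i k).add (smQ hγ hφ hP k i)).mul (hφ.D _)
  exact (((((((((sm_dvg hW).cmul (1 / 2)).add
    ((Sm.sum fun k _ => (sm_dir hX (hP k)).mul (hφ.D _)).cmul 8)).sub
    (((sm_dvg hP).cmul 8).mul hρ)).sub
    ((Sm.sum fun i _ => Sm.sum fun k _ =>
      ((sm_dir hP (hγ i k)).mul (hφ.D _)).mul (hφ.D _)).cmul 4)).sub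
    ((sm_dir hP hρ).cmul 4)).sub ((sm_dir hX hπ).cmul 8)).add ((sm_dgd hγ hm).cmul 2)).sub
    ((sm_dvg fun l => hm.mul (hP l)).cmul 4)).add ((sm_dgd hγ hπ).cmul 4)

lemma smT (hγ : SmM γ) (hφ : Sm φ) (a : κ) : Sm (tht v w γ φ a) := sm_dgd hγ (hφ.D _)

lemma smM (hγ : SmM γ) (hγ' : SmM γ') (hφ : Sm φ) : Sm (cmx v w γ γ' φ) :=
  ((Sm.sum fun i _ => Sm.sum fun j _ => Sm.sum fun a _ => Sm.sum fun b _ =>
    (((hγ i j).mul (hγ' a b)).mul ((hφ.D _).D _)).mul ((hφ.D _).D _)).cmul 8).sub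
    ((sm_dvg fun b => Sm.sum fun a _ => (hγ' a b).mul (smT hγ hφ a)).cmul 2)

end smooth

variable {n : ℕ} {ι : Type}

/-- `a` is the integral of `h` -/
def R (a : ℝ) (h : X2 n → ℝ) : Prop := Integrable h ∧ a = ∫ p, h p

section R
variable {a b : ℝ} {h k : X2 n → ℝ} {K : Set (X2 n)}

lemma R.add (h1 : R a h) (h2 : R b k) : R (a + b) fun p => h p + k p :=
  ⟨h1.1.add h2.1, by rw [integral_add h1.1 h2.1, h1.2, h2.2]⟩

lemma R.sub (h1 : R a h) (h2 : R b k) : R (a - b) fun p => h p - k p :=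
  ⟨h1.1.sub h2.1, by rw [integral_sub h1.1 h2.1, h1.2, h2.2]⟩

lemma R.cmul (h1 : R a h) (t : ℝ) : R (t * a) fun p => t * h p :=
  ⟨h1.1.const_mul t, by rw [integral_const_mul, h1.2]⟩

lemma R.sum {J : Type} [Fintype J] {a : J → ℝ} {F : J → X2 n → ℝ} (h : ∀ j, R (a j) (F j)) :
    R (∑ j, a j) fun p => ∑ j, F j p :=
  ⟨integrable_finsetSum _ fun j _ => (h j).1, by
    rw [integral_finsetSum _ fun j _ => (h j).1]
    exact Finset.sum_congr rfl fun j _ => (h j).2⟩

lemma R.le (h1 : R a h) (h2 : R b k) (hle : ∀ p, h p ≤ k p) : a ≤ b := by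
  rw [h1.2, h2.2]; exact integral_mono h1.1 h2.1 hle

lemma R0 (hK : IsCompact K) {S : Set (X2 n)} (hS : IsClosed S) (hc : ContinuousOn h S)
    (h0 : ∀ p, p ∉ K → h p = 0) : R (∫ p in S, h p) fun p => ind S p (h p) := by
  have h1 : IntegrableOn h S :=
    ((hc.mono inter_subset_left).integrableOn_compact (hK.inter_left hS)).of_forall_sdiff_eq_zero
      hS.measurableSet fun p hp => h0 p fun h => hp.2 ⟨hp.1, h⟩
  exact ⟨(integrable_indicator_iff hS.measurableSet).2 h1,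
    (integral_indicator hS.measurableSet).symm⟩

lemma R1 (hK : IsCompact K) (hc : Continuous h) (h0 : ∀ p, p ∉ K → h p = 0) :
    R (∫ p, h p) h := ⟨hc.integrable_of_hasCompactSupport (HasCompactSupport.intro hK h0), rfl⟩

lemma R2 (hK : IsCompact K) (hc : Continuous h) (h0 : ∀ p, p ∉ K → h p = 0) :
    R (∫ p in univ, h p) h := by
  rw [Measure.restrict_univ]; exact R1 hK hc h0

end R

lemma csum {F : Fin n → X2 n → ℝ} (h : ∀ i, Continuous (F i)) : Continuous fun p => ∑ i, F i p :=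
  continuous_finsetSum _ fun i _ => h i

lemma cn2 {ζ : X2 n → Fin n → ℝ} (h : Continuous ζ) : Continuous fun p => n2 (ζ p) := by
  unfold n2; fun_prop

lemma cbil {γ : X2 n → Fin n → Fin n → ℝ} {a b : X2 n → Fin n → ℝ}
    (h : ∀ i j, Continuous fun p => γ p i j) (ha : Continuous a) (hb : Continuous b) :
    Continuous fun p => bil (γ p) (a p) (b p) := by
  unfold bil; fun_prop

lemma cup {γ : X2 n → Fin n → Fin n → ℝ} {a : X2 n → Fin n → ℝ}
    (h : ∀ i j, Continuous fun p => γ p i j) (ha : Continuous a) (i : Fin n) :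
    Continuous fun p => up (γ p) (a p) i := by
  unfold up; fun_prop

variable [Fintype ι] {f : Fx} {c : Cx n ι} {g q : ι → X2 n → ℝ}

/-- the data of an admissible pair -/
structure Dat (f : Fx) (c : Cx n ι) (g q : ι → X2 n → ℝ) (K : Set (X2 n)) : Prop where
  cpt : IsCompact K
  sub : K ⊆ Dom f c
  g0 : ∀ s p, p ∉ K → g s p = 0
  q0 : ∀ s p, p ∉ K → q s p = 0
  x0 : ∀ s p, p ∉ K → zx f c (g s) p = 0
  y0 : ∀ s p, p ∉ K → zy f c (q s) p = 0
  cg : ∀ s, Continuous (g s)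
  cq : ∀ s, Continuous (q s)
  cx : ∀ s, Continuous (zx f c (g s))
  cy : ∀ s, Continuous (zy f c (q s))

lemma dat (hφ : Sm (phi f c)) (h : TT f c g q) : ∃ K, Dat f c g q K := by
  have h1 : ∀ s p, p ∉ ⋃ s, (tsupport (g s) ∪ tsupport (q s)) →
      p ∉ tsupport (g s) ∧ p ∉ tsupport (q s) := fun s p hp =>
    ⟨fun h => hp (mem_iUnion.2 ⟨s, Or.inl h⟩), fun h => hp (mem_iUnion.2 ⟨s, Or.inr h⟩)⟩
  exact ⟨⋃ s, (tsupport (g s) ∪ tsupport (q s)),
    isCompact_iUnion fun s => (h.1 s).1.2.isCompact.union (h.1 s).2.1.2.isCompact,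
    iUnion_subset fun s => union_subset (h.1 s).2.2.1 (h.1 s).2.2.2,
    fun s p hp => image_eq_zero_of_notMem_tsupport (h1 s p hp).1,
    fun s p hp => image_eq_zero_of_notMem_tsupport (h1 s p hp).2,
    fun s p hp => funext fun i => image_eq_zero_of_notMem_tsupport
      (f := Dm (phi f c) (ex i) (g s)) fun h => (h1 s p hp).1 (P136.tsupport_Dm _ _ _ h),
    fun s p hp => funext fun i => image_eq_zero_of_notMem_tsupport
      (f := Dm (phi f c) (ey i) (q s)) fun h => (h1 s p hp).2 (P136.tsupport_Dm _ _ _ h),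
    fun s => (h.1 s).1.1.continuous, fun s => (h.1 s).2.1.1.continuous,
    fun s => continuous_pi fun i => (hφ.Dm (h.1 s).1.1 _).continuous,
    fun s => continuous_pi fun i => (hφ.Dm (h.1 s).2.1.1 _).continuous⟩

variable {K : Set (X2 n)}

lemma rhs (h0 : W0 f c) (d : Dat f c g q K) (CG : ℝ) :
    R ((∑ s, ∫ p, HQ f c p (zx f c (g s) p) (zy f c (q s) p)) -
      (∑ s, ∫ p, ZO f c p (g s p) (q s p) (zx f c (g s) p) (zy f c (q s) p)) -
      CG * (∑ s, ∑ s', ∑ a, ∫ p,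
        |BO f c p a (g s p) (q s p) (zx f c (g s) p) (zy f c (q s) p)| * |q s' p|) -
      CG * (IY f c q (fun _ => 1) univ + I0 (fun p => ry f c p + 1) univ q))
    fun p => (∑ s, HQ f c p (zx f c (g s) p) (zy f c (q s) p)) -
      (∑ s, ZO f c p (g s p) (q s p) (zx f c (g s) p) (zy f c (q s) p)) -
      CG * (∑ s, ∑ s', ∑ a,
        |BO f c p a (g s p) (q s p) (zx f c (g s) p) (zy f c (q s) p)| * |q s' p|) -
      CG * (∑ s, 1 * n2 (zy f c (q s) p) + ∑ s, (ry f c p + 1) * q s p ^ 2) := by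
  obtain ⟨⟨-, -, -, -, -, -, -, -, -, -, -, -, -, -, -, -, -, hφ, -, -, -, -, -, -, -, -, -, -,
    hry, hP, -, -, -, -, -, -, -, -, -, -, -, h1, -, h2, -⟩, -⟩ := h0
  have hg := d.cg
  have hq := d.cq
  have hx := d.cx
  have hy := d.cy
  have xi := fun s i => (continuous_apply i).comp (hx s)
  have yi := fun s i => (continuous_apply i).comp (hy s)
  have ux := fun s => cup (γ := g1 c) (fun i j => (h1 i j).continuous) (hx s)
  have uy := fun s => cup (γ := g2 c) (fun i j => (h2 i j).continuous) (hy s)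
  have hD := fun v w => ((hφ.D v).D w).continuous
  have hPx := fun i => (hP i).2.2.1
  have hPy := fun i => (hP i).2.2.2
  have a1 := fun i k => (smQ (v := ex) h1 hφ hPx i k).continuous
  have a2 := fun i k => (smQ (v := ey) h2 hφ hPy i k).continuous
  have a3 : Continuous (cX f c) := (smC h1 hφ hPx).continuous
  have a4 : Continuous (cY f c) := (smC h2 hφ hPy).continuous
  have a5 : Continuous (cM f c) := (smM h1 h2 hφ).continuous
  have a6 : ∀ a, Continuous (thx f c a) := fun a => (smT h1 hφ a).continuous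
  have a7 : ∀ a, Continuous (thy f c a) := fun a => (smT h2 hφ a).continuous
  have a8 := fun a => (smT (v := ey) (w := ey) h2 hφ a).continuous
  have a9 := (IdT.sm_dir (v := ex) hPx hφ).continuous
  have a10 := (IdT.sm_dir (v := ey) hPy hφ).continuous
  have a11 := fun i => (hPx i).continuous
  have a12 := fun i => (hPy i).continuous
  have a13 := hry.continuous
  refine (((R.sum fun s => R1 d.cpt ?_ fun p hp => ?_).sub
    (R.sum fun s => R1 d.cpt ?_ fun p hp => ?_)).sub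
    ((R.sum fun s => R.sum fun s' => R.sum fun a => R1 d.cpt ?_ fun p hp => ?_).cmul CG)).sub
    (((R.sum fun s => R2 d.cpt ?_ fun p hp => ?_).add
      (R.sum fun s => R2 d.cpt ?_ fun p hp => ?_)).cmul CG)
  · exact ((csum fun i => csum fun k => ((a1 i k).mul (xi s i)).mul (xi s k)).add
      (csum fun i => csum fun k => ((a2 i k).mul (yi s i)).mul (yi s k))).add
      (continuous_const.mul (csum fun i => csum fun a => ((hD _ _).mul (ux s i)).mul (uy s a)))
  · simp [HQ, mixd, up, d.x0 s p hp, d.y0 s p hp]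
  · exact (((((a3.mul ((hg s).pow 2)).add (a4.mul ((hq s).pow 2))).add
      (((continuous_const.mul a5).mul (hg s)).mul (hq s))).add
      ((continuous_const.mul (hg s)).mul (csum fun a => (a6 a).mul (uy s a)))).add
      ((continuous_const.mul (hq s)).mul (csum fun a => (a7 a).mul (ux s a)))).add
      (continuous_const.mul (((((csum fun i => (a11 i).mul (xi s i)).pow 2).add
        ((a9.pow 2).mul ((hg s).pow 2))).add ((csum fun i => (a12 i).mul (yi s i)).pow 2)).add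
        ((a10.pow 2).mul ((hq s).pow 2))))
  · simp [ZO, d.g0 s p hp, d.q0 s p hp, d.x0 s p hp, d.y0 s p hp]
  · exact ((((continuous_const.mul (csum fun i => (hD _ _).mul (ux s i))).add
      (continuous_const.mul (csum fun i => (hD _ _).mul (uy s i)))).sub
      ((continuous_const.mul (a6 a)).mul (hg s))).sub
      ((continuous_const.mul (a8 a)).mul (hq s))).abs.mul (hq s').abs
  · simp [d.q0 s' p hp]
  · exact continuous_const.mul (cn2 (hy s))
  · simp [n2, d.y0 s p hp]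
  · exact (a13.add continuous_const).mul ((hq s).pow 2)
  · simp [d.q0 s p hp]

lemma lhs (h0 : W0 f c) (hp : ∀ p, Pos f c p) (ht : 0 < f.t0) (d : Dat f c g q K)
    (c₀ η η₂ C Cn : ℝ) {N : ℝ} (hN : 1 ≤ N) :
    ∃ h, R (c₀ * (A1 f c g q + A3 f c g q + A5 f c g q) + 8 * (1 - η) * A2 f c g q N +
      8 * (1 - η) * (1 - 2 * f.e1) * (A4 f c g q (sX f c 4) + A4 f c g q (sY f c 4)) -
      C * (V2 f c g q + NN f c g) - Cn * f.tau * (Dx f c g + Dy f c q) -
      8 * n * (1 + η) * Rr f c g q 1 - η₂ * (A1 f c g q + Gn f c g q) -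
      (8 * ((n : ℝ) - 1) + η + Cn * f.tau) * (Sx f c g + Sy f c q)) h ∧
      ∀ p, h p =
        ∑ s, TT0 f c c₀ η η₂ C Cn N p (g s p) (q s p) (zx f c (g s) p) (zy f c (q s) p) := by
  obtain ⟨⟨-, -, hgm, -, hQ, -, hF, hv, -, hΨ, hal, -, -, -, -, -, -, -, -, -, -, -, hnl, -, -, -,
    -, hrx, hry, -, hmx, hmy, hdX, hdY, hRs, hcX, hcY, -, -, -, -, h1, -, h2, -⟩, -⟩ := h0
  have hg := d.cg
  have hq := d.cq
  have hx := d.cx
  have hy := d.cy
  have nx := fun s => cn2 (hx s)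
  have ny := fun s => cn2 (hy s)
  have hK := d.cpt
  have cQ := hQ.continuous
  have cF := hF.continuous
  have cv := hv.continuous
  have cal := hal.continuous
  have cnl := hnl.continuous
  have crx := hrx.continuous
  have cry := hry.continuous
  have cmx := hmx.continuous
  have cmy := hmy.continuous
  have cdX := hdX.continuous
  have cdY := hdY.continuous
  have cRs := hRs.continuous
  have ccX := hcX.continuous
  have ccY := hcY.continuous
  have kN : ∀ r, IsClosed (Nr f c r) := fun r => isClosed_le (by fun_prop) continuous_const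
  have kF : IsClosed (Far f c) := isClosed_le continuous_const cQ
  have kX : IsClosed (sX f c 4) :=
    (isClosed_le continuous_const cQ).inter (isClosed_le crx (continuous_const.mul cRs))
  have kY : IsClosed (sY f c 4) :=
    (isClosed_le continuous_const cQ).inter (isClosed_le cry (continuous_const.mul cRs))
  have Qp : ∀ p, f.t0 ^ 2 / 4 ≤ QQ c p → 0 < QQ c p := fun p h => lt_of_lt_of_le (by positivity) h
  have gd := fun s => cbil (γ := gm c) (fun i j => (hgm i j).continuous) ((hy s).sub (hx s))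
    ((hy s).sub (hx s))
  have r1 : R (A1 f c g q) fun p => ∑ s, mx f c p * n2 (zx f c (g s) p) +
      ∑ s, my f c p * n2 (zy f c (q s) p) :=
    (R.sum fun s => R2 hK (cmx.mul (nx s)) fun p hp => by simp [n2, d.x0 s p hp]).add
      (R.sum fun s => R2 hK (cmy.mul (ny s)) fun p hp => by simp [n2, d.y0 s p hp])
  have r2 : R (A2 f c g q N) fun p =>
      ∑ s, rh f c N p * al f c p * gV c p (zx f c (g s) p) (zy f c (q s) p) :=
    R.sum fun s => R1 hK (((continuous_const.div (continuous_const.add hΨ.continuous) fun p =>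
      (add_pos_of_pos_of_nonneg (pow_pos (by linarith) 2) (hp p).Psi).ne').mul cal).mul (gd s))
      fun p hp => by simp [gV, bil, d.x0 s p hp, d.y0 s p hp]
  have r3 : R (A3 f c g q) fun p =>
      ∑ s, al f c p / vv f c p * n2 (zy f c (q s) p - zx f c (g s) p) :=
    R.sum fun s => R2 hK ((cal.div cv fun p => by have := (hp p).v; positivity).mul
      (cn2 ((hy s).sub (hx s)))) fun p hp => by simp [n2, d.x0 s p hp, d.y0 s p hp]
  have r4 : ∀ S, IsClosed S → (∀ p ∈ S, f.t0 ^ 2 / 4 ≤ QQ c p) → R (A4 f c g q S) fun p =>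
      ∑ s, ind S p (al f c p * piZ c p (zy f c (q s) p - zx f c (g s) p)) := fun S hS hS' =>
    R.sum fun s => R0 hK hS (cal.continuousOn.mul ((gd s).continuousOn.sub
      (ContinuousOn.div (Continuous.continuousOn (by unfold zd zz; fun_prop)) cQ.continuousOn
        fun p hp => (Qp p (hS' p hp)).ne')))
      fun p hp => by simp [piZ, bil, zd, d.x0 s p hp, d.y0 s p hp]
  have r5 : R (A5 f c g q) fun p =>
      ∑ s, ind (sX f c 4 ∪ sY f c 4) p (dm2 f c p (zx f c (g s) p) (zy f c (q s) p)) :=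
    R.sum fun s => R0 hK (kX.union kY) (ContinuousOn.div (Continuous.continuousOn
      (((cbil (γ := g1 c) (fun i j => (h1 i j).continuous)
        (continuous_pi fun i => (hΨ.D (ex i)).continuous) (hx s)).add
      (cbil (γ := g2 c) (fun i j => (h2 i j).continuous)
        (continuous_pi fun i => (hΨ.D (ey i)).continuous) (hy s))).pow 2))
      hΨ.continuous.continuousOn fun p h =>
        (mul_pos (Qp p (h.elim (fun h => h.1) fun h => h.1)) (hp p).F).ne')
      fun p hp => by simp [dm2, dZ, bil, d.x0 s p hp, d.y0 s p hp]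
  have r6 : R (V2 f c g q) fun p => ∑ s, vv f c p ^ 2 * n2 (zx f c (g s) p) +
      ∑ s, vv f c p ^ 2 * n2 (zy f c (q s) p) :=
    (R.sum fun s => R2 hK ((cv.pow 2).mul (nx s)) fun p hp => by simp [n2, d.x0 s p hp]).add
      (R.sum fun s => R2 hK ((cv.pow 2).mul (ny s)) fun p hp => by simp [n2, d.y0 s p hp])
  have r7 : R (NN f c g) fun p => ∑ s, ind (Nr f c 16) p (nl f c p * g s p ^ 2) :=
    R.sum fun s => R0 hK (kN 16) (by fun_prop) fun p hp => by simp [d.g0 s p hp]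
  have r8 : R (Dx f c g) fun p => ∑ s, ind (Far f c) p (dX f c p * n2 (zx f c (g s) p)) :=
    R.sum fun s => R0 hK kF (cdX.mul (nx s)).continuousOn fun p hp => by simp [n2, d.x0 s p hp]
  have r9 : R (Dy f c q) fun p => ∑ s, ind (Far f c) p (dY f c p * n2 (zy f c (q s) p)) :=
    R.sum fun s => R0 hK kF (cdY.mul (ny s)).continuousOn fun p hp => by simp [n2, d.y0 s p hp]
  have r10 : R (Rr f c g q 1) fun p =>
      ∑ s, ind (Nr f c 1) p (al f c p ^ 2 * (g s p + q s p) ^ 2) :=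
    R.sum fun s => R0 (h := fun p => al f c p ^ 2 * (g s p + q s p) ^ 2) hK (kN 1) (by fun_prop)
      fun p hp => by simp [d.g0 s p hp, d.q0 s p hp]
  have r11 : R (Gn f c g q) fun p => ∑ s, mx f c p * rx f c p * g s p ^ 2 +
      ∑ s, my f c p * ry f c p * q s p ^ 2 :=
    (R.sum fun s => R2 hK (by fun_prop) fun p hp => by simp [d.g0 s p hp]).add
      (R.sum fun s => R2 hK (by fun_prop) fun p hp => by simp [d.q0 s p hp])
  have r12 : R (Sx f c g) fun p => ∑ s, chX f c p ^ 2 * al f c p ^ 2 * g s p ^ 2 :=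
    R.sum fun s => R2 hK (by fun_prop) fun p hp => by simp [d.g0 s p hp]
  have r13 : R (Sy f c q) fun p => ∑ s, chY f c p ^ 2 * al f c p ^ 2 * q s p ^ 2 :=
    R.sum fun s => R2 hK (by fun_prop) fun p hp => by simp [d.q0 s p hp]
  refine ⟨_, (((((((((r1.add r3).add r5).cmul c₀).add (r2.cmul _)).add
    (((r4 _ kX fun _ h => h.1).add (r4 _ kY fun _ h => h.1)).cmul _)).sub
    ((r6.add r7).cmul C)).sub ((r8.add r9).cmul _)).sub (r10.cmul _)).sub
    ((r1.add r11).cmul η₂)).sub ((r12.add r13).cmul _), fun p => ?_⟩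
  simp only [TT0, T1, Finset.sum_add_distrib, Finset.sum_sub_distrib, ← Finset.mul_sum]

end GI

theorem s_GI (h0 : S_w0) (h2 : S_w2) (h5 : S_w5) (hG : S_GI0) (hPL : S_PL) (hn : S_EBn)
    (hX : S_EBx) (hY : S_EBy) (hM : S_EBm) : S_GI := by
  intro n
  obtain ⟨CnP, hCnP, hPL⟩ := hPL n
  obtain ⟨CnX, hCnX, hX⟩ := hX n
  obtain ⟨CnY, hCnY, hY⟩ := hY n
  obtain ⟨Cn5, -, h5⟩ := h5 n
  refine ⟨CnP + CnX + CnY, by linarith, fun ι _ f hf η N hη hη1 hN => ?_⟩
  obtain ⟨CG, hCG, hG⟩ := hG n ι f hf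
  obtain ⟨c₀, CP, hc₀, hCP, hPL⟩ := hPL ι f hf (η / 2) N (by linarith) (by linarith) hN
  obtain ⟨M, hMe⟩ : ∃ M, M = CG * ((Fintype.card ι : ℝ) * n) := ⟨_, rfl⟩
  have hM0 : 0 ≤ M := by rw [hMe]; positivity
  obtain ⟨C', hC', hn⟩ := hn n ι f hf (η / (2 * (1 + M))) N (by positivity) hN
  obtain ⟨C2, -, h2⟩ := h2 n ι f hf
  obtain ⟨C5, -, h5⟩ := h5 ι f hf
  have hK : 0 < C' * (CG + 2 * M) := by positivity
  have hK' : 0 ≤ C' * (1 + M) := by positivity
  refine ⟨c₀, CP + C' * (1 + M) + CG + 2 * (C' * (CG + 2 * M)), hc₀, by linarith,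
    fun η₂ hη₂ => ?_⟩
  have hη₃ : 0 < min η η₂ / (2 + 2 * M + CG) := by positivity
  have e3 : min η η₂ / (2 + 2 * M + CG) * (2 + 2 * M + CG) = min η η₂ :=
    div_mul_cancel₀ _ (by positivity)
  refine ((((((((((h0 n ι f hf).and hG).and hPL).and hn).and (hX ι f hf _ hη₃)).and
    (hY ι f hf _ hη₃)).and (hM n ι f hf _ hη₃)).and
    (h2 (η / (C' * (CG + 2 * M))) (by positivity))).and (h5 1 one_pos)).and
    (Ev.ok f one_pos 0)).mono ?_
  rintro c ⟨⟨⟨⟨⟨⟨⟨⟨⟨w0, hG⟩, hPL⟩, hn⟩, hX⟩, hY⟩, hM⟩, h2⟩, h5⟩, hc⟩ g q hT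
  have hn1 : 1 ≤ n := by
    rcases Nat.eq_zero_or_pos n with rfl | h
    · have := hc.2.2.2.2.1
      rw [Subsingleton.elim c.p0 0, norm_zero] at this
      exact absurd this zero_ne_one
    · exact h
  have hn' : (1 : ℝ) ≤ n := by exact_mod_cast hn1
  have hp := GI.pos w0 hc.2.1 hc.2.2.2.2.2.2.2.2.2.1
  obtain ⟨f1, -, -, f2, f3, -, -, -, f4, f5, -⟩ := hf
  have hτ : 0 ≤ f.tau := add_nonneg (by linarith) (by positivity)
  obtain ⟨K, d⟩ := GI.dat w0.1.2.2.2.2.2.2.2.2.2.2.2.2.2.2.2.2.2.1 hT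
  obtain ⟨h, hR, hh⟩ := GI.lhs w0 hp f4 d c₀ η η₂
    (CP + C' * (1 + M) + CG + 2 * (C' * (CG + 2 * M))) (CnP + CnX + CnY) hN
  have e1 : η / (2 * (1 + M)) * (1 + M) = η / 2 := by field_simp
  have e2 : 8 * n * (η / (2 * (1 + M))) + 2 * (η / (C' * (CG + 2 * M))) * (C' * (CG + 2 * M)) ≤
      8 * n * η := by
    have a1 : η / (2 * (1 + M)) ≤ η / 2 := div_le_div_of_nonneg_left hη.le two_pos (by linarith)
    have a2 := mul_le_mul_of_nonneg_left a1 (by positivity : (0 : ℝ) ≤ 8 * n)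
    have a3 := mul_le_mul_of_nonneg_right hn' hη.le
    rw [mul_assoc 2, div_mul_cancel₀ _ hK.ne']
    linarith
  have key := hR.le (GI.rhs w0 d CG) fun p => by
    rw [hh]
    by_cases hpK : p ∈ K
    · have hD := d.sub hpK
      obtain ⟨B, W, b1, b2⟩ := GI.pt (hp p) hn1 hτ f2 hη.le hη₂.le hη₃.le hM0 (by linarith)
        (by linarith) (by linarith) (by linarith) (by linarith) (by linarith) rfl
        (by rw [e1]; linarith) e2 rfl (e3.trans_le (min_le_left _ _))
        (e3.trans_le (min_le_right _ _)) (hPL p hD) (hn p hD) (hX p hD.1) (hY p hD.1) (hM p hD.1)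
        (fun h => ((h2 p hD.1).2.2.2.2.2.2.2.2.2.2.2.2.1 h).2.2.2.2.2.2.2.2.1)
        (fun h => ⟨((h5 p hD.1).1 h).1, ((h5 p hD.1).1 h).2.2.1⟩) (fun h => ((h5 p hD.1).2 h).1)
        (fun h => ((w0.2.2.2.2 p).2.2.2.1 h).self_of_nhds)
      rw [← Finset.sum_add_distrib]
      subst hMe
      exact GI.ptsum (by linarith) (fun s s' a => b1 a _ _ _ _ _) fun s => b2 _ _ _ _
    · simp [GI.TT0, GI.T1, GI.ind_zero, n2, gV, piZ, bil, zd, dm2, dZ, HQ, mixd, up, ZO,
        d.g0 _ p hpK, d.q0 _ p hpK, d.x0 _ p hpK, d.y0 _ p hpK]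
  have := hG g q hT
  linarith

end Vale.Agent.P088
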