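import Vale.Agent.P088.StI
import Vale.Agent.P088.IdTool

/-!
# P088: the global identity
-/

open MeasureTheory Set Metric
open scoped ContDiff Topology

noncomputable section
namespace Vale.Agent.P088
open Vale.Agent.P136 (D Dp Dm Sm Tst)
open Vale.Agent.P136 IdT

namespace GI0

section pt
variable {X : Type} [NormedAddCommGroup X] [NormedSpace ℝ X] {κ : Type} [Fintype κ]
  {v w : κ → X} {γ γ' : κ → κ → X → ℝ} {φ u g q q' b : X → ℝ} {P : κ → X → ℝ}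

lemma sm_Qco (hγ : SmM γ) (hφ : Sm φ) (hP : ∀ i, Sm (P i)) (i k : κ) : Sm (Qco v γ φ P i k) :=
  (((((Sm.cmul 8 (Sm.sum fun j _ => (hγ i j).mul ((sm_XX hγ hφ k).D _))).sub
    (Sm.cmul 4 (sm_dir (sm_XX hγ hφ) (hγ i k)))).add
    ((Sm.cmul 8 (sm_dir hP hφ)).mul (hγ i k))).sub ((Sm.cmul 16 (sm_XX hγ hφ i)).mul (hP k))).add
    (Sm.cmul 8 (Sm.sum fun j _ => (hγ i j).mul ((hP k).D _)))).sub
    (Sm.cmul 4 (sm_dvg fun l => (hγ i k).mul (hP l)))

lemma sm_cco (hγ : SmM γ) (hφ : Sm φ) (hP : ∀ i, Sm (P i)) : Sm (cco v γ φ P) :=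
  ((((((((Sm.cmul (1 / 2) (sm_dvg fun k => Sm.sum fun i _ =>
    ((sm_Qco hγ hφ hP i k).add (sm_Qco hγ hφ hP k i)).mul (hφ.D _))).add
    (Sm.cmul 8 (Sm.sum fun k _ => (sm_dir (sm_XX hγ hφ) (hP k)).mul (hφ.D _)))).sub
    ((Sm.cmul 8 (sm_dvg hP)).mul (sm_dir (sm_XX hγ hφ) hφ))).sub
    (Sm.cmul 4 (Sm.sum fun i _ => Sm.sum fun k _ =>
      ((sm_dir hP (hγ i k)).mul (hφ.D _)).mul (hφ.D _)))).sub
    (Sm.cmul 4 (sm_dir hP (sm_dir (sm_XX hγ hφ) hφ)))).sub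
    (Sm.cmul 8 (sm_dir (sm_XX hγ hφ) (sm_dir hP hφ)))).add
    (Sm.cmul 2 (sm_dgd hγ (sm_dgd hγ hφ)))).sub
    (Sm.cmul 4 (sm_dvg fun l => (sm_dgd hγ hφ).mul (hP l)))).add
    (Sm.cmul 4 (sm_dgd hγ (sm_dir hP hφ)))

lemma sm_tht (hγ : SmM γ) (hφ : Sm φ) (a : κ) : Sm (tht v w γ φ a) := sm_dgd hγ (hφ.D _)

lemma sm_cmx (hγ : SmM γ) (hγ' : SmM γ') (hφ : Sm φ) : Sm (cmx v w γ γ' φ) :=
  (Sm.cmul 8 (Sm.sum fun i _ => Sm.sum fun j _ => Sm.sum fun a _ => Sm.sum fun b _ =>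
    (((hγ i j).mul (hγ' a b)).mul ((hφ.D _).D _)).mul ((hφ.D _).D _))).sub
    (Sm.cmul 2 (sm_dvg fun b => Sm.sum fun a _ => (hγ' a b).mul (sm_tht hγ hφ a)))

variable (v w γ γ' φ u g q q' b P)

def q1 : X → ℝ := fun p => ∑ i, ∑ k, Qco v γ φ P i k p * Dm φ (v i) u p * Dm φ (v k) u p

def z1 : X → ℝ := fun p => cco v γ φ P p * u p ^ 2 +
  256 * ((∑ i, P i p * Dm φ (v i) u p) ^ 2 + dir v P φ p ^ 2 * u p ^ 2)

def m1 : X → ℝ := fun p =>
  ∑ i, ∑ a, D (w a) (D (v i) φ) p * Zm v γ φ g i p * Zm w γ' φ q a p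

def m2 : X → ℝ := fun p => 2 * cmx v w γ γ' φ p * g p * q p +
  8 * g p * (∑ a, tht v w γ φ a p * Zm w γ' φ q a p) +
  8 * q p * (∑ i, tht w v γ' φ i p * Zm v γ φ g i p)

def bo (a : κ) : X → ℝ := fun p =>
  4 * (∑ i, D (w a) (D (v i) φ) p * Zm v γ φ g i p) - 2 * tht v w γ φ a p * g p

def rm (a : κ) : X → ℝ := fun p => Dp φ (v a) q p * (b p * Lp' v γ φ q' p +
    2 * (∑ i, XX v γ b i p * Dp φ (v i) q' p) + dgd v γ b p * q' p) +
  ∑ i, ∑ j, D (v a) (γ i j) p * Dm φ (v j) q p * (b p * Dp φ (v i) q' p + D (v i) b p * q' p)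

def ww : X → ℝ := fun p => (∑ i, Dm φ (v i) q p ^ 2) + (rho v γ φ p + 1) * q p ^ 2

variable {v w γ γ' φ u g q q' b P}

lemma t_q1 (hγ : SmM γ) (hφ : Sm φ) (hP : ∀ i, Sm (P i)) (hu : Tst u) : Tst (q1 v γ φ u P) :=
  tst_quad (sm_Qco hγ hφ hP) (fun _ => (hu.Dm hφ _).sm) fun _ => hu.Dm hφ _

lemma t_n1 (hφ : Sm φ) (hP : ∀ i, Sm (P i)) (hu : Tst u) : Tst fun p =>
    256 * ((∑ i, P i p * Dm φ (v i) u p) ^ 2 + dir v P φ p ^ 2 * u p ^ 2) :=
  Tst.const_mul 256 ((Tst.sum _ fun i _ => (hu.Dm hφ _).mul_left (hP i)).sq.add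
    (hu.sq.mul_left ((sm_dir hP hφ).pow 2)))

lemma t_z1 (hγ : SmM γ) (hφ : Sm φ) (hP : ∀ i, Sm (P i)) (hu : Tst u) : Tst (z1 v γ φ u P) :=
  (hu.sq.mul_left (sm_cco hγ hφ hP)).add (t_n1 hφ hP hu)

lemma t_m1 (hγ : SmM γ) (hγ' : SmM γ') (hφ : Sm φ) (hg : Tst g) (hq : Tst q) :
    Tst (m1 v w γ γ' φ g q) :=
  tst_quad (c := fun i a => D (w a) (D (v i) φ)) (fun _ _ => (hφ.D _).D _)
    (fun i => (tst_Zm hγ hφ hg i).sm) fun a => tst_Zm hγ' hφ hq a

lemma t_m2 (hγ : SmM γ) (hγ' : SmM γ') (hφ : Sm φ) (hg : Tst g) (hq : Tst q) :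
    Tst (m2 v w γ γ' φ g q) :=
  ((hq.mul_left ((Sm.cmul 2 (sm_cmx hγ hγ' hφ)).mul hg.sm)).add
    ((Tst.const_mul 8 hg).mul_right
      (Sm.sum fun a _ => (sm_tht hγ hφ a).mul (tst_Zm hγ' hφ hq a).sm))).add
    ((Tst.const_mul 8 hq).mul_right
      (Sm.sum fun a _ => (sm_tht hγ' hφ a).mul (tst_Zm hγ hφ hg a).sm))

lemma t_bo (hγ : SmM γ) (hφ : Sm φ) (hg : Tst g) (a : κ) : Tst (bo v w γ φ g a) :=
  (Tst.const_mul 4 (Tst.sum _ fun i _ => (tst_Zm hγ hφ hg i).mul_left ((hφ.D _).D _))).sub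
    (hg.mul_left (Sm.cmul 2 (sm_tht hγ hφ a)))

lemma t_rm (hγ : SmM γ) (hφ : Sm φ) (hq : Tst q) (hq' : Tst q') (hb : Sm b) (a : κ) :
    Tst (rm v γ φ q q' b a) :=
  ((hq.Dp hφ _).mul_right (((hb.mul (tst_Lp hγ hφ hq').sm).add
    (Sm.cmul 2 (Sm.sum fun i _ => (sm_XX hγ hb i).mul (hq'.Dp hφ _).sm))).add
    ((sm_dgd hγ hb).mul hq'.sm))).add
    (Tst.sum _ fun i _ => Tst.sum _ fun j _ => ((hq.Dm hφ _).mul_left ((hγ i j).D _)).mul_right
      ((hb.mul (hq'.Dp hφ _).sm).add ((hb.D _).mul hq'.sm)))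

lemma t_w1 (hφ : Sm φ) (hq : Tst q) : Tst fun p => ∑ i, Dm φ (v i) q p ^ 2 :=
  Tst.sum _ fun _ _ => (hq.Dm hφ _).sq

lemma t_w2 (hγ : SmM γ) (hφ : Sm φ) (hq : Tst q) : Tst fun p => (rho v γ φ p + 1) * q p ^ 2 :=
  hq.sq.mul_left ((sm_rho hγ hφ).add (Sm.const 1))

lemma t_ww (hγ : SmM γ) (hφ : Sm φ) (hq : Tst q) : Tst (ww v γ φ q) :=
  (t_w1 hφ hq).add (t_w2 hγ hφ hq)

lemma Dp_eq (a p : X) : Dp φ a u p = 2 * D a φ p * u p - Dm φ a u p := by
  unfold Dp Dm; ring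

lemma Nop_eq (p : X) :
    Nop v φ P u p = 8 * dir v P φ p * u p - 4 * ∑ i, P i p * Dm φ (v i) u p := by
  simp only [Nop, dir, Dp_eq, Finset.mul_sum, Finset.sum_mul, ← Finset.sum_sub_distrib]
  exact Finset.sum_congr rfl fun i _ => by ring

lemma Lp_zero {p : X} (h : p ∉ tsupport u) : Lp' v γ φ u p = 0 := by
  refine Finset.sum_eq_zero fun i _ => image_eq_zero_of_notMem_tsupport fun h1 => h ?_
  refine closure_minimal (fun x hx => ?_) (isClosed_tsupport u) (tsupport_Dp _ _ _ h1)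
  by_contra h2
  exact hx (Finset.sum_eq_zero fun j _ => by
    rw [image_eq_zero_of_notMem_tsupport fun h3 => h2 (tsupport_Dp _ _ _ h3), mul_zero])

lemma sum_le {F : κ → ℝ} {M : ℝ} (h : ∀ i, |F i| ≤ M) : |∑ i, F i| ≤ Fintype.card κ * M :=
  (Finset.abs_sum_le_sum_abs _ _).trans ((Finset.sum_le_card_nsmul _ _ M fun i _ => h i).trans
    (le_of_eq (nsmul_eq_mul _ _)))

lemma abs_mul_le {x y A B : ℝ} (hx : |x| ≤ A) (hy : |y| ≤ B) : |x * y| ≤ A * B := by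
  rw [abs_mul]; exact mul_le_mul hx hy (abs_nonneg _) ((abs_nonneg _).trans hx)

lemma abs_add_le' {x y A B : ℝ} (hx : |x| ≤ A) (hy : |y| ≤ B) : |x + y| ≤ A + B :=
  (abs_add_le _ _).trans (add_le_add hx hy)

lemma dgd_le {p : X} {M : ℝ} (hγ : SmM γ) (hb : Sm b) (h0 : ∀ i j, |γ i j p| ≤ 2)
    (h1 : ∀ k i j, |D (v k) (γ i j) p| ≤ 1) (h2 : ∀ i, |D (v i) b p| ≤ M)
    (h3 : ∀ i j, |D (v i) (D (v j) b) p| ≤ M) :
    |dgd v γ b p| ≤ Fintype.card κ * (Fintype.card κ * (2 * M + 1 * M)) := by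
  refine sum_le fun i => ?_
  unfold XX
  rw [D_sum_at _ fun j _ => ((hγ i j).mul (hb.D _)).dAt p]
  refine sum_le fun j => ?_
  rw [D_mul_at ((hγ i j).dAt p) ((hb.D _).dAt p)]
  exact abs_add_le' (abs_mul_le (h0 i j) (h3 i j)) (abs_mul_le (h1 i i j) (h2 j))

lemma ww_le {p : X} (hr : ∀ i, D (v i) φ p ^ 2 ≤ 2 * rho v γ φ p) (h0 : 0 ≤ rho v γ φ p) :
    ∃ T : ℝ, T ^ 2 = 16 * ww v γ φ q p ∧ |q p| ≤ T ∧
      ∀ i, |Dp φ (v i) q p| ≤ T ∧ |Dm φ (v i) q p| ≤ T := by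
  have h1 : ∀ i, Dm φ (v i) q p ^ 2 ≤ ∑ i, Dm φ (v i) q p ^ 2 := fun i =>
    Finset.single_le_sum (f := fun i => Dm φ (v i) q p ^ 2) (fun _ _ => sq_nonneg _)
      (Finset.mem_univ i)
  have h2 : 0 ≤ ∑ i, Dm φ (v i) q p ^ 2 := Finset.sum_nonneg fun _ _ => sq_nonneg _
  have h3 : 0 ≤ rho v γ φ p * q p ^ 2 := mul_nonneg h0 (sq_nonneg _)
  have h4 := sq_nonneg (q p)
  refine ⟨√(16 * ww v γ φ q p), Real.sq_sqrt ?_, Real.abs_le_sqrt ?_,
    fun i => ⟨Real.abs_le_sqrt ?_, Real.abs_le_sqrt ?_⟩⟩ <;> unfold ww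
  · nlinarith
  · nlinarith
  · rw [Dp_eq]
    nlinarith [h1 i, mul_le_mul_of_nonneg_right (hr i) h4,
      sq_nonneg (2 * D (v i) φ p * q p + Dm φ (v i) q p)]
  · nlinarith [h1 i]

/-- The constant in the bound for the remainder. -/
def cr (N K ε : ℝ) : ℝ := 16 * (K ^ 2 / ε + (2 * (N * K) + K + N * (N * (K * (2 * K)))))

lemma rm_ge {p : X} {K ε : ℝ} (a : κ) (hε : 0 < ε) (hK : 0 ≤ K)
    (hr : ∀ i, D (v i) φ p ^ 2 ≤ 2 * rho v γ φ p) (h0 : 0 ≤ rho v γ φ p) (k0 : |b p| ≤ K)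
    (k1 : ∀ i, |XX v γ b i p| ≤ K) (k2 : |dgd v γ b p| ≤ K) (k3 : ∀ i j, |D (v a) (γ i j) p| ≤ K)
    (k4 : ∀ i, |D (v i) b p| ≤ K) :
    -(ε * Lp' v γ φ q' p ^ 2 + cr (Fintype.card κ) K ε * (ww v γ φ q p + ww v γ φ q' p)) ≤
      2 * rm v γ φ q q' b a p := by
  obtain ⟨T, t1, -, t3⟩ := ww_le (q := q) hr h0
  obtain ⟨T', s1, s2, s3⟩ := ww_le (q := q') hr h0
  have a1 := abs_mul_le (t3 a).1 (abs_add_le' (abs_add_le' (abs_mul_le k0 (le_refl |Lp' v γ φ q' p|))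
    (abs_mul_le (abs_two (α := ℝ)).le (sum_le fun i => abs_mul_le (k1 i) (s3 i).1)))
    (abs_mul_le k2 s2))
  have a2 := sum_le fun i => sum_le fun j => abs_mul_le (abs_mul_le (k3 i j) (t3 j).2)
    (abs_add_le' (abs_mul_le k0 (s3 i).1) (abs_mul_le (k4 i) s2))
  have a3 := neg_le_of_abs_le (abs_add_le' a1 a2)
  have a4 := two_mul_le_add_mul_sq (a := |Lp' v γ φ q' p|) (b := K * T) hε
  have a5 : 0 ≤ 2 * (Fintype.card κ * K) + K + Fintype.card κ * (Fintype.card κ * (K * (2 * K))) := by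
    positivity
  have a6 := mul_le_mul_of_nonneg_left (two_mul_le_add_sq T T') a5
  have a7 : 0 ≤ K ^ 2 / ε * T' ^ 2 := by positivity
  rw [sq_abs] at a4
  have e1 : ww v γ φ q p = T ^ 2 / 16 := by linarith
  have e2 : ww v γ φ q' p = T' ^ 2 / 16 := by linarith
  have e3 : ε⁻¹ * (K * T) ^ 2 = K ^ 2 / ε * T ^ 2 := by ring
  rw [e1, e2]
  unfold cr rm
  linarith

end pt

section int
variable {X : Type} [NormedAddCommGroup X] [NormedSpace ℝ X] [FiniteDimensional ℝ X]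
  [MeasurableSpace X] [BorelSpace X] (μ : Measure X) [μ.IsAddHaarMeasure] {κ : Type} [Fintype κ]
  {v w : κ → X} {γ γ' : κ → κ → X → ℝ} {φ u g q q' b : X → ℝ} {P : κ → X → ℝ}

lemma di (hDI : S_DI) (hγ : SmM γ) (hs : SymM γ) (hφ : Sm φ) (hP : ∀ i, Sm (P i)) (hu : Tst u) :
    (∫ p, Lp' v γ φ u p ^ 2 ∂μ) / 2 + ∫ p, q1 v γ φ u P p ∂μ - ∫ p, z1 v γ φ u P p ∂μ ≤
      ∫ p, Lm v γ φ u p ^ 2 ∂μ := by
  have tL := tst_Lp (v := v) hγ hφ hu
  have tN : Tst (Nop v φ P u) :=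
    Tst.const_mul 4 (Tst.sum _ fun i _ => (hu.Dp hφ _).mul_left (hP i))
  have i1 : Integrable (fun p => Lp' v γ φ u p ^ 2 / 2) μ := tL.sq.integrable.div_const 2
  have i2 := (t_n1 (v := v) hφ hP hu).integrable (μ := μ)
  have h := integral_mono (iadd i1 tN.sq.integrable) (iadd (tL.add tN).sq.integrable i2)
    fun p => by
      simp only [Nop_eq]
      nlinarith [sq_nonneg (Lp' v γ φ u p + 2 * (8 * dir v P φ p * u p -
        4 * ∑ i, P i p * Dm φ (v i) u p)),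
        sq_nonneg (2 * dir v P φ p * u p + ∑ i, P i p * Dm φ (v i) u p),
        sq_nonneg (∑ i, P i p * Dm φ (v i) u p)]
  rw [integral_add i1 tN.sq.integrable, integral_add (tL.add tN).sq.integrable i2,
    integral_div] at h
  unfold z1 q1
  rw [hDI X μ κ v γ φ u P hγ hs hφ hu hP,
    integral_add (hu.sq.mul_left (sm_cco hγ hφ hP)).integrable i2]
  linarith

lemma mi (hMI : S_MI) (hγ : SmM γ) (hs : SymM γ) (hγ' : SmM γ') (hs' : SymM γ') (hφ : Sm φ)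
    (hg : Tst g) (hq : Tst q) (h1 : ∀ i j a p, D (w a) (γ i j) p = 0)
    (h2 : ∀ a b i p, D (v i) (γ' a b) p = 0) :
    2 * ∫ p, Lm v γ φ g p * Lm w γ' φ q p ∂μ = 2 * ∫ p, Lp' w γ' φ g p * Lp' v γ φ q p ∂μ +
      16 * ∫ p, m1 v w γ γ' φ g q p ∂μ - ∫ p, m2 v w γ γ' φ g q p ∂μ := by
  rw [(hMI X μ κ v w γ γ' φ g q hγ hs hγ' hs' hφ hg hq h1 h2).1, mul_add, add_sub_assoc,
    ← integral_const_mul 16, ← integral_sub ((t_m1 hγ hγ' hφ hg hq).integrable.const_mul 16)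
      (t_m2 hγ hγ' hφ hg hq).integrable, add_right_inj, ← integral_const_mul]
  refine integral_congr_ae (Filter.Eventually.of_forall fun p => ?_)
  simp only [m1, m2]
  ring

lemma mb (hMI : S_MI) (hMB : S_MB) (hγ : SmM γ) (hs : SymM γ) (hγ' : SmM γ') (hs' : SymM γ')
    (hφ : Sm φ) (hg : Tst g) (hq : Tst q) (hq' : Tst q') (hb : Sm b)
    (h1 : ∀ i j a p, D (w a) (γ i j) p = 0) (h2 : ∀ a b i p, D (v i) (γ' a b) p = 0)
    (h3 : ∀ i p, D (v i) b p = 0) (a : κ) {K ε C : ℝ} (k0 : ∀ p, |b p| ≤ K)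
    (hr : ∀ p, -(ε * Lp' w γ' φ q' p ^ 2 + C * (ww w γ' φ q p + ww w γ' φ q' p)) ≤
      2 * rm w γ' φ q q' b a p) :
    2 * ∫ p, b p * Dp φ (w a) g p * Lp' v γ φ q' p ∂μ -
      K * ∫ p, |2 * (bo v w γ φ g a p + bo w w γ' φ q a p)| * |q' p| ∂μ -
      ε * ∫ p, Lp' w γ' φ q' p ^ 2 ∂μ - C * (∫ p, ww w γ' φ q p ∂μ + ∫ p, ww w γ' φ q' p ∂μ) ≤
    2 * ∫ p, (Lm v γ φ g p + Lm w γ' φ q p) * Dm φ (w a) (fun p => b p * q' p) p ∂μ := by
  have tD := (hq'.mul_left hb).Dm hφ (w a)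
  have tb := t_bo (v := v) (w := w) hγ hφ hg a
  have tb' := t_bo (v := w) (w := w) hγ' hφ hq a
  have i1 := ((tb.mul_right hb).mul_right hq'.sm).integrable (μ := μ)
  have i2 := ((tb'.mul_right hb).mul_right hq'.sm).integrable (μ := μ)
  have i3 := (t_rm (v := w) hγ' hφ hq hq' hb a).integrable (μ := μ)
  have i4 : Integrable (fun p => |2 * (bo v w γ φ g a p + bo w w γ' φ q a p)| * |q' p|) μ := by
    simp only [← abs_mul]
    exact ((Tst.const_mul 2 (tb.add tb')).mul_right hq'.sm).integrable.abs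
  have i5 := (tst_Lp (v := w) hγ' hφ hq').sq.integrable (μ := μ)
  have i6 := (t_ww (v := w) hγ' hφ hq).integrable (μ := μ)
  have i7 := (t_ww (v := w) hγ' hφ hq').integrable (μ := μ)
  have e1 := (hMI X μ κ v w γ γ' φ g q' hγ hs hγ' hs' hφ hg hq' h1 h2).2 b a hb h3
  have e2 : ∫ p, Lm w γ' φ q p * Dm φ (w a) (fun p => b p * q' p) p ∂μ =
      ∫ p, bo w w γ' φ q a p * b p * q' p ∂μ + ∫ p, rm w γ' φ q q' b a p ∂μ := by
    rw [hMB X μ κ w γ' φ q q' b a hγ' hs' hφ hq hq' hb, ← integral_add i2 i3]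
    refine integral_congr_ae (Filter.Eventually.of_forall fun p => ?_)
    simp only [bo, rm]
    ring
  have a1 := integral_mono (i4.const_mul K).neg ((iadd i1 i2).const_mul 2) fun p => by
    refine le_trans ?_ (neg_abs_le _)
    have := abs_mul_le (k0 p) (le_refl |2 * (bo v w γ φ g a p + bo w w γ' φ q a p) * q' p|)
    rw [abs_mul (2 * _)] at this
    exact neg_le_neg (le_trans (le_of_eq (by congr 1; ring)) this)
  have a2 := integral_mono (iadd (i5.const_mul ε) ((iadd i6 i7).const_mul C)).neg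
    (i3.const_mul 2) hr
  simp only [Pi.neg_apply, integral_neg] at a1 a2
  rw [integral_const_mul, integral_const_mul, integral_add i1 i2] at a1
  rw [integral_add (i5.const_mul ε) ((iadd i6 i7).const_mul C), integral_const_mul,
    integral_const_mul, integral_const_mul, integral_add i6 i7] at a2
  simp only [add_mul]
  rw [integral_add (tD.mul_left (tst_Lm hγ hφ hg).sm).integrable
    (tD.mul_left (tst_Lm hγ' hφ hq).sm).integrable, e1, e2]
  unfold bo at a1 ⊢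
  linarith

end int

lemma assemble {ι κ : Type} [Fintype ι] [Fintype κ] {qx qy H Z X G W : ι → ℝ}
    {Y B : ι → κ → ι → ℝ} {K ε C C' : ℝ}
    (h : ∀ s, qx s / 2 + qy s / 2 + H s - Z s + 2 * X s + ∑ a, ∑ s',
      (2 * Y s a s' - K * B s a s' - ε * qy s' - C' * (W s + W s')) ≤ G s)
    (hc : ∀ s', X s' + ∑ a, ∑ s, Y s a s' = 0) (hx : ∀ s, 0 ≤ qx s) (hy : ∀ s, 0 ≤ qy s)
    (hB : ∀ s a s', 0 ≤ B s a s') (hW : ∀ s, 0 ≤ W s)
    (hε : ε * (Fintype.card ι * Fintype.card κ) ≤ 1 / 4) (hK : K ≤ C)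
    (hC : 2 * C' * (Fintype.card ι * Fintype.card κ) ≤ C) :
    (∑ s, qx s + ∑ s, qy s) / 4 + ∑ s, H s - ∑ s, Z s - C * (∑ s, ∑ s', ∑ a, B s a s') -
      C * ∑ s, W s ≤ ∑ s, G s := by
  have h1 := Finset.sum_le_sum fun s (_ : s ∈ Finset.univ) => h s
  have h2 := Finset.sum_eq_zero fun s (_ : s ∈ Finset.univ) => hc s
  have e1 : ∑ s', ∑ a, ∑ s, Y s a s' = ∑ s, ∑ a, ∑ s', Y s a s' := by
    rw [Finset.sum_comm, Finset.sum_comm (s := (Finset.univ : Finset ι))]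
    exact Finset.sum_congr rfl fun a _ => Finset.sum_comm
  have e2 : ∑ s, ∑ s', ∑ a, B s a s' = ∑ s, ∑ a, ∑ s', B s a s' :=
    Finset.sum_congr rfl fun a _ => Finset.sum_comm
  simp only [Finset.sum_add_distrib, Finset.sum_sub_distrib, ← Finset.mul_sum, ← Finset.sum_div,
    Finset.sum_const, Finset.card_univ, nsmul_eq_mul] at h1 h2
  have p1 : 0 ≤ ∑ s, qx s := Finset.sum_nonneg fun s _ => hx s
  have p2 := mul_le_mul_of_nonneg_right hε (Finset.sum_nonneg fun s (_ : s ∈ Finset.univ) => hy s)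
  have p3 := mul_le_mul_of_nonneg_right hC (Finset.sum_nonneg fun s (_ : s ∈ Finset.univ) => hW s)
  have p4 := mul_le_mul_of_nonneg_right hK (Finset.sum_nonneg fun s (_ : s ∈ Finset.univ) =>
    Finset.sum_nonneg fun a (_ : a ∈ Finset.univ) =>
      Finset.sum_nonneg fun s' (_ : s' ∈ Finset.univ) => hB s a s')
  rw [e1] at h2
  rw [e2]
  linarith

variable {n : ℕ}

lemma D_snd {h : En n → ℝ} (hh : Sm h) (u : X2 n) :
    D u (fun p : X2 n => h p.2) = fun p => D u.2 h p.2 := by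
  funext p
  exact congrArg (fun L : X2 n →L[ℝ] ℝ => L u)
    ((hh.dAt p.2).hasFDerivAt.comp p (ContinuousLinearMap.snd ℝ (En n) (En n)).hasFDerivAt).fderiv

lemma D_fst {h : En n → ℝ} (hh : Sm h) (u : X2 n) :
    D u (fun p : X2 n => h p.1) = fun p => D u.1 h p.1 := by
  funext p
  exact congrArg (fun L : X2 n →L[ℝ] ℝ => L u)
    ((hh.dAt p.1).hasFDerivAt.comp p (ContinuousLinearMap.fst ℝ (En n) (En n)).hasFDerivAt).fderiv

lemma D_ex {h : En n → ℝ} (hh : Sm h) (i : Fin n) (p : X2 n) :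
    D (ex i) (fun p : X2 n => h p.2) p = 0 := by
  rw [D_snd hh]; exact map_zero (fderiv ℝ h p.2)

lemma D_ey {h : En n → ℝ} (hh : Sm h) (i : Fin n) (p : X2 n) :
    D (ey i) (fun p : X2 n => h p.1) p = 0 := by
  rw [D_fst hh]; exact map_zero (fderiv ℝ h p.1)

lemma rm_ge' {γ : MatF n} {b : En n → ℝ} {φ q q' : X2 n → ℝ} {M ε : ℝ} (hγ : SmM γ)
    (hN : Near 8 1 γ) (hb : Sm b) (hM : ∀ x, SB ee 4 M 1 b x) (hε : 0 < ε) (a : Fin n) (p : X2 n)
    (hr : ∀ ζ, n2 ζ / 2 ≤ bil (fun i j => γ i j p.2) ζ ζ) :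
    |b p.2| ≤ 1 + M + n * (2 * M) + n * (n * (2 * M + 1 * M)) ∧
    -(ε * Lp' ey (onY γ) φ q' p ^ 2 + cr n (1 + M + n * (2 * M) + n * (n * (2 * M + 1 * M))) ε *
      (ww ey (onY γ) φ q p + ww ey (onY γ) φ q' p)) ≤
      2 * rm ey (onY γ) φ q q' (fun p => b p.2) a p := by
  have b0 : |b p.2| ≤ M := by simpa [Ds] using hM p.2 [] (by simp)
  have M0 : 0 ≤ M := (abs_nonneg _).trans b0
  have b1 : ∀ i, |D (ey i) (fun p : X2 n => b p.2) p| ≤ M := fun i => by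
    rw [D_snd hb]; simpa [Ds, ey] using hM p.2 [i] (by simp)
  have b2 : ∀ i j, |D (ey i) (D (ey j) fun p : X2 n => b p.2) p| ≤ M := fun i j => by
    rw [D_snd hb, D_snd (hb.D _)]; simpa [Ds, ey] using hM p.2 [i, j] (by simp)
  have g0 : ∀ i j, |onY γ i j p| ≤ 2 := fun i j => by
    have h1 : |γ i j p.2 - if i = j then 1 else 0| ≤ 1 := by
      simpa [Ds] using hN i j p.2 [] (by simp)
    rw [abs_le] at h1 ⊢
    unfold onY
    split_ifs at h1 <;> constructor <;> linarith [h1.1, h1.2]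
  have g1 : ∀ k i j, |D (ey k) (onY γ i j) p| ≤ 1 := fun k i j => by
    have h1 : |D (ee k) (fun y => γ i j y - if i = j then 1 else 0) p.2| ≤ 1 := by
      simpa [Ds] using hN i j p.2 [k] (by simp)
    rw [D_sub_at ((hγ i j).dAt _) (differentiableAt_const _), D_const, sub_zero] at h1
    unfold onY
    rw [D_snd (hγ i j)]
    exact h1
  have sγ : SmM (onY γ) := fun i j => (hγ i j).comp contDiff_snd
  have r1 : n2 (fun i => D (ey i) φ p) / 2 ≤ rho ey (onY γ) φ p :=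
    (hr _).trans (le_of_eq (quad_D (v := ey) (γ := onY γ) (f := φ) (g := φ) p))
  have r2 : ∀ i, D (ey i) φ p ^ 2 ≤ n2 fun i => D (ey i) φ p := fun i =>
    Finset.single_le_sum (f := fun i => D (ey i) φ p ^ 2) (fun _ _ => sq_nonneg _)
      (Finset.mem_univ i)
  have r3 : 0 ≤ n2 fun i => D (ey i) φ p := Finset.sum_nonneg fun _ _ => sq_nonneg _
  have p1 : 0 ≤ (n : ℝ) * (2 * M) := by positivity
  have p2 : 0 ≤ (n : ℝ) * (n * (2 * M + 1 * M)) := by positivity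
  have d1 := dgd_le sγ (hb.comp contDiff_snd) g0 g1 b1 b2
  have d2 : ∀ i, |XX ey (onY γ) (fun p : X2 n => b p.2) i p| ≤ Fintype.card (Fin n) * (2 * M) :=
    fun i => sum_le fun j => abs_mul_le (g0 i j) (b1 j)
  simp only [Fintype.card_fin] at d1 d2
  refine ⟨by linarith, ?_⟩
  have := rm_ge (q := q) (q' := q') (b := fun p : X2 n => b p.2)
    (K := 1 + M + n * (2 * M) + n * (n * (2 * M + 1 * M))) a hε (by linarith)
    (fun i => by linarith [r2 i]) (by linarith) (by linarith) (fun i => by linarith [d2 i])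
    (d1.trans (by linarith)) (fun i j => by linarith [g1 a i j]) fun i => by linarith [b1 i]
  rwa [Fintype.card_fin] at this

end GI0

open GI0 in
theorem s_GI0 (h0 : S_w0) (hDI : S_DI) (hMI : S_MI) (hMB : S_MB) : S_GI0 := by
  intro n ι _ f hf
  have M0 : 0 ≤ f.Mb := hf.2.2.2.2.2.2.2.2.2.2.2.2.1
  obtain ⟨K, hK⟩ : ∃ K, K = 1 + f.Mb + n * (2 * f.Mb) + n * (n * (2 * f.Mb + 1 * f.Mb)) :=
    ⟨_, rfl⟩
  have K0 : 0 ≤ K := by rw [hK]; positivity
  obtain ⟨N, hN⟩ : ∃ N : ℝ, N = Fintype.card ι * Fintype.card (Fin n) := ⟨_, rfl⟩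
  have N0 : 0 ≤ N := by rw [hN]; positivity
  obtain ⟨ε, hε⟩ : ∃ ε, ε = 1 / (4 * (N + 1)) := ⟨_, rfl⟩
  have ε0 : 0 < ε := by rw [hε]; positivity
  have ε1 : ε * N ≤ 1 / 4 := by
    rw [hε, div_mul_eq_mul_div, div_le_div_iff₀ (by positivity) (by positivity)]
    linarith
  have C0 : 0 ≤ 2 * cr n K ε * N := by unfold cr; positivity
  refine ⟨1 + K + 2 * cr n K ε * N, by linarith,
    ((h0 n ι f hf).and (Ev.ok f one_pos 1)).mono ?_⟩
  rintro c ⟨hw, -, -, -, -, -, s1, -, -, s2, -, nr, sb, bb⟩ g q ⟨ht, hT⟩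
  obtain ⟨⟨-, -, -, -, -, -, -, -, -, -, -, -, -, -, -, -, -, hφ, -, -, -, -, -, -, -, -, -, -, -,
    hP, -, -, -, -, -, -, -, -, -, -, -, m1', y1, m2', y2⟩, -, hp, -⟩ := hw
  have hg := fun s => (ht s).1
  have hq := fun s => (ht s).2.1
  have hb : ∀ a s s', Sm fun p : X2 n => c.b a s s' p.2 := fun a s s' =>
    (sb a s s').comp contDiff_snd
  have z1' : ∀ i j a p, D (ey a) (onX c.γ₁ i j) p = 0 := fun i j a p => D_ey (s1 i j) a p
  have z2' : ∀ a b i p, D (ex i) (onY c.γ₂ a b) p = 0 := fun a b i p => D_ex (s2 a b) i p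
  have hr := fun s s' a (p : X2 n) => rm_ge' (φ := phi f c) (q := q s) (q' := q s') s2 nr
    (sb a s' s) (bb a s' s) ε0 a p fun ζ => ((hp p).2.2.2.2.2.2.2.2.2.2.2.2.2.2.2.2.2 ζ).2.2.1
  rw [← hK] at hr
  have eW : IY f c q (fun _ => 1) univ + I0 (fun p => ry f c p + 1) univ q =
      ∑ s, ∫ p, ww ey (onY c.γ₂) (phi f c) (q s) p := by
    unfold IY I0
    rw [← Finset.sum_add_distrib]
    refine Finset.sum_congr rfl fun s _ => ?_
    simp only [Measure.restrict_univ, one_mul]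
    exact (integral_add (t_w1 hφ (hq s)).integrable (t_w2 m2' hφ (hq s)).integrable).symm
  rw [eW]
  refine assemble (K := K) (ε := ε) (C' := cr n K ε)
    (X := fun s => ∫ p, Lp' ey (onY c.γ₂) (phi f c) (g s) p * Lp' ex (onX c.γ₁) (phi f c) (q s) p)
    (Y := fun s a s' => ∫ p, c.b a s' s p.2 * Dp (phi f c) (ey a) (g s) p *
      Lp' ex (onX c.γ₁) (phi f c) (q s') p)
    (B := fun s a s' => ∫ p,
      |BO f c p a (g s p) (q s p) (zx f c (g s) p) (zy f c (q s) p)| * |q s' p|)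
    (fun s => ?_) (fun s => ?_) (fun s => integral_nonneg fun _ => sq_nonneg _)
    (fun s => integral_nonneg fun _ => sq_nonneg _)
    (fun s a s' => integral_nonneg fun _ => mul_nonneg (abs_nonneg _) (abs_nonneg _))
    (fun s => integral_nonneg fun p => add_nonneg (Finset.sum_nonneg fun _ _ => sq_nonneg _)
      (mul_nonneg (add_nonneg (hp p).2.2.2.2.2.2.1 zero_le_one) (sq_nonneg _)))
    (hN ▸ ε1) (by linarith) (by rw [← hN]; linarith)
  · have tA := tst_Lm (v := ex) m1' hφ (hg s)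
    have tB := tst_Lm (v := ey) m2' hφ (hq s)
    have tD := fun a s' => ((hq s').mul_left (hb a s' s)).Dm hφ (ey a)
    have tE := Tst.sum Finset.univ fun a _ => Tst.sum Finset.univ fun s' _ => tD a s'
    have i1 := tA.sq.integrable (μ := volume)
    have i2 := tB.sq.integrable (μ := volume)
    have i3 := (tB.mul_left tA.sm).integrable (μ := volume)
    have i4 := fun a s' => ((tD a s').mul_left (tA.add tB).sm).integrable (μ := volume)
    have i5 := fun a => integrable_finsetSum Finset.univ fun s' _ => i4 a s'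
    have i6 := integrable_finsetSum Finset.univ fun a _ => i5 a
    have a1 := integral_mono (iadd (iadd (iadd i1 i2) (i3.const_mul 2)) (i6.const_mul 2))
      (tA.add (tB.add tE)).sq.integrable fun p => by
        simp only [← Finset.mul_sum]
        nlinarith [sq_nonneg (∑ a, ∑ s', Dm (phi f c) (ey a)
          (fun x => c.b a s' s x.2 * q s' x) p)]
    rw [integral_add (iadd (iadd i1 i2) (i3.const_mul 2)) (i6.const_mul 2),
      integral_add (iadd i1 i2) (i3.const_mul 2), integral_add i1 i2, integral_const_mul,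
      integral_const_mul, integral_finsetSum _ fun a _ => i5 a, Finset.mul_sum,
      Finset.sum_congr rfl fun a _ => by
        rw [integral_finsetSum _ fun s' _ => i4 a s', Finset.mul_sum]] at a1
    have a2 := di volume (v := ex) hDI m1' y1 hφ (fun i => (hP i).2.2.1) (hg s)
    have a3 := di volume (v := ey) hDI m2' y2 hφ (fun i => (hP i).2.2.2) (hq s)
    have a4 := mi volume hMI m1' y1 m2' y2 hφ (hg s) (hq s) z1' z2'
    have a5 := Finset.sum_le_sum fun a (_ : a ∈ Finset.univ) =>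
      Finset.sum_le_sum fun s' (_ : s' ∈ Finset.univ) =>
        mb volume hMI hMB m1' y1 m2' y2 hφ (hg s) (hq s) (hq s') (hb a s' s) z1' z2'
          (fun i p => D_ex (sb a s' s) i p) a (fun p => (hr s s' a p).1) fun p => (hr s s' a p).2
    have j1 := (t_q1 (v := ex) m1' hφ (fun i => (hP i).2.2.1) (hg s)).integrable (μ := volume)
    have j2 := (t_q1 (v := ey) m2' hφ (fun i => (hP i).2.2.2) (hq s)).integrable (μ := volume)
    have j3 := (t_m1 (v := ex) (w := ey) m1' m2' hφ (hg s) (hq s)).integrable (μ := volume)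
    have j4 := (t_z1 (v := ex) m1' hφ (fun i => (hP i).2.2.1) (hg s)).integrable (μ := volume)
    have j5 := (t_z1 (v := ey) m2' hφ (fun i => (hP i).2.2.2) (hq s)).integrable (μ := volume)
    have j6 := (t_m2 (v := ex) (w := ey) m1' m2' hφ (hg s) (hq s)).integrable (μ := volume)
    have e1 := (integral_add (iadd j1 j2) (j3.const_mul 16)).trans
      (congrArg₂ (· + ·) (integral_add j1 j2) (integral_const_mul _ _))
    have e2 := (integral_add (iadd j4 j5) j6).trans (congrArg (· + _) (integral_add j4 j5))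
    have e3 : ∫ p, ZO f c p (g s p) (q s p) (zx f c (g s) p) (zy f c (q s) p) =
        ∫ p, (z1 ex (onX c.γ₁) (phi f c) (g s) (Px f c) p +
          z1 ey (onY c.γ₂) (phi f c) (q s) (Py f c) p +
          m2 ex ey (onX c.γ₁) (onY c.γ₂) (phi f c) (g s) (q s) p) := by
      refine integral_congr_ae (Filter.Eventually.of_forall fun p => ?_)
      simp only [ZO, z1, m2, cX, cY, cM, thx, thy, zx, zy, up, Zm, g1, g2, onX, onY]
      ring
    have e4 : ∀ a p, BO f c p a (g s p) (q s p) (zx f c (g s) p) (zy f c (q s) p) =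
        2 * (bo ex ey (onX c.γ₁) (phi f c) (g s) a p + bo ey ey (onY c.γ₂) (phi f c) (q s) a p) := by
      intro a p
      simp only [BO, bo, thx, zx, zy, up, Zm, g1, g2, onX, onY]
      ring
    have e5 : ∫ p, HQ f c p (zx f c (g s) p) (zy f c (q s) p) = _ := e1
    have e6 : ∫ p, Gf f c g q s p ^ 2 = ∫ p, (Lm ex (onX c.γ₁) (phi f c) (g s) p +
      (Lm ey (onY c.γ₂) (phi f c) (q s) p + ∑ a, ∑ s', Dm (phi f c) (ey a)
        (fun x => c.b a s' s x.2 * q s' x) p)) ^ 2 := rfl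
    simp only [e4]
    rw [e3, e2, e5, e6]
    linarith
  · have tL := tst_Lp (v := ex) m1' hφ (hq s)
    have i1 := (tL.mul_left (tst_Lp (v := ey) m2' hφ (hg s)).sm).integrable (μ := volume)
    have i4 := fun a s' =>
      (tL.mul_left ((hb a s s').mul ((hg s').Dp hφ (ey a)).sm)).integrable (μ := volume)
    have i5 := fun a => integrable_finsetSum Finset.univ fun s' _ => i4 a s'
    rw [Finset.sum_congr rfl fun a _ => (integral_finsetSum _ fun s' _ => i4 a s').symm,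
      ← integral_finsetSum _ fun a _ => i5 a,
      ← integral_add i1 (integrable_finsetSum _ fun a _ => i5 a)]
    refine integral_eq_zero_of_ae (Filter.Eventually.of_forall fun p => ?_)
    simp only [← Finset.sum_mul, ← add_mul, Pi.zero_apply]
    by_cases h : p ∈ tsupport (q s)
    · exact mul_eq_zero_of_left (hT p (Or.inl ⟨s, h⟩) s) _
    · exact mul_eq_zero_of_right _ (Lp_zero h)

end Vale.Agent.P088
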