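import Vale.Agent.P088.StI
import Vale.Agent.P088.IdTool

/-!
# P088: the global inequality, pointwise part
-/

open MeasureTheory Set Metric
open scoped ContDiff Topology

noncomputable section
namespace Vale.Agent.P088
open Vale.Agent.P136 (D Dp Dm Sm Tst)

namespace GI

open Classical in
def ind {X : Type} (S : Set X) (p : X) (x : ℝ) : ℝ := if p ∈ S then x else 0

lemma ind_mem {X : Type} {S : Set X} {p : X} (h : p ∈ S) (x : ℝ) : ind S p x = x := if_pos h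

lemma ind_not {X : Type} {S : Set X} {p : X} (h : p ∉ S) (x : ℝ) : ind S p x = 0 := if_neg h

lemma ind_nonneg {X : Type} (S : Set X) (p : X) {x : ℝ} (h : 0 ≤ x) : 0 ≤ ind S p x := by
  unfold ind; split_ifs; exacts [h, le_rfl]

lemma ind_zero {X : Type} (S : Set X) (p : X) : ind S p 0 = 0 := by simp [ind]

lemma near {n η η₁ η' η₂ M CG C' CP C t tP T1 RA H Z a b v nl al ry g q iD A G E S : ℝ}
    (hP : T1 + 4 * η * RA - CP * (v * a + v * b) - tP * iD ≤ H)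
    (hZ : Z ≤ 8 * n * (1 + η₁) * (al * (g + q) ^ 2) + η₁ * RA + C' * (nl * g ^ 2 + v * (a + b)))
    (hr : ry + 1 ≤ C' * nl) (hnl : nl ≤ η' * al) (h1 : η₁ * (1 + M) ≤ 4 * η)
    (h2 : 8 * n * η₁ + 2 * η' * (C' * (CG + 2 * M)) ≤ 8 * n * η)
    (hC : C = CP + C' * (1 + M) + CG + 2 * (C' * (CG + 2 * M))) (ht : tP ≤ t) (hRA : 0 ≤ RA)
    (ha : 0 ≤ a) (hb : 0 ≤ b) (hv : 1 ≤ v) (hn : 0 ≤ nl) (hal : 0 ≤ al) (hD : 0 ≤ iD)
    (hM : 0 ≤ M) (hCG : 0 ≤ CG) (hC' : 0 ≤ C') (hCP : 0 ≤ CP) (hA : 0 ≤ η₂ * (A + G))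
    (hS : 0 ≤ E * S) :
    T1 - C * (v * a + v * b + nl * g ^ 2) - t * iD - 8 * n * (1 + η) * (al * (g + q) ^ 2) -
        η₂ * (A + G) - E * S ≤
      H - Z - CG * (1 * b + (ry + 1) * q ^ 2) -
        M * (η₁ * RA + C' * (nl * (g ^ 2 + q ^ 2) + v * (a + b)) + C' * nl * q ^ 2) := by
  have e1 := mul_le_mul_of_nonneg_right h1 hRA
  have e2 := mul_le_mul_of_nonneg_right h2 (mul_nonneg hal (sq_nonneg (g + q)))
  have e3 := mul_le_mul_of_nonneg_right ht hD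
  have e4 := mul_le_mul_of_nonneg_left (mul_le_mul_of_nonneg_right hr (sq_nonneg q)) hCG
  have e5 := mul_le_mul_of_nonneg_left (mul_le_mul_of_nonneg_right hv hb) hCG
  have hK : 0 ≤ C' * (CG + 2 * M) := by positivity
  have e6 : nl * q ^ 2 ≤ 2 * (nl * g ^ 2) + 2 * η' * (al * (g + q) ^ 2) := by
    have := mul_le_mul_of_nonneg_right hnl (sq_nonneg (g + q))
    have := mul_nonneg hn (sq_nonneg (2 * g + q))
    linarith
  have e7 := mul_le_mul_of_nonneg_left e6 hK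
  have hv0 : 0 ≤ v := by linarith
  have e8 : 0 ≤ CG * (v * a) := by positivity
  have e9 : 0 ≤ C' * (CG + 2 * M) * (v * a + v * b) := by positivity
  have e10 : 0 ≤ (CP + CG) * (nl * g ^ 2) := by positivity
  subst hC
  linarith

lemma far {η η₂ η₃ M CG CP C t tP tX tY T1 RA H ZX ZY ZM a b v A B GX GY GA GB SX SY iX iY jX jY
    E ry q N : ℝ}
    (hP : T1 + 4 * η * RA - CP * (v * a + v * b) - tP * (iX + iY) ≤ H)
    (hX : ZX ≤ η₃ * (A + GX) + jX) (hY : ZY ≤ η₃ * (B + GY * q ^ 2) + jY)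
    (hZ : ZM ≤ η₃ * (A + B + GX + GY * q ^ 2)) (hr : ry + 1 ≤ η₃ * GY)
    (hjX : jX ≤ E * SX + tX * iX) (hjY : jY ≤ E * SY + tY * iY) (hGX : GX ≤ GA + SX)
    (hGY : GY * q ^ 2 ≤ GB + SY) (h1 : η₃ * (2 + 2 * M + CG) ≤ η) (h2 : η₃ * (2 + 2 * M + CG) ≤ η₂)
    (hC : CP + CG ≤ C) (ht : t = tP + tX + tY) (hRA : 0 ≤ η * RA) (ha : 0 ≤ a) (hb : 0 ≤ b)
    (hv : 1 ≤ v) (hA : 0 ≤ A) (hB : 0 ≤ B) (hGX0 : 0 ≤ GX) (hGA : 0 ≤ GA) (hGB : 0 ≤ GB)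
    (hSX : 0 ≤ SX) (hSY : 0 ≤ SY) (hiX : 0 ≤ tY * iX) (hiY : 0 ≤ tX * iY) (hM : 0 ≤ M)
    (hCG : 0 ≤ CG) (h3 : 0 ≤ η₃) (hN : 0 ≤ C * N) :
    T1 - C * (v * a + v * b + N) - t * (iX + iY) - 0 - η₂ * (A + B + (GA + GB)) -
        (E + η) * (SX + SY) ≤
      H - (ZX + ZY + ZM) - CG * (1 * b + (ry + 1) * q ^ 2) -
        M * (η₃ * (A + B + GX + GY * q ^ 2) + η₃ * GY * q ^ 2) := by
  have hK : 0 ≤ η₃ * (2 + 2 * M + CG) := by positivity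
  have e1 := mul_le_mul_of_nonneg_left hGX hK
  have e2 := mul_le_mul_of_nonneg_left hGY hK
  have e3 := mul_le_mul_of_nonneg_right h1 (add_nonneg hSX hSY)
  have e4 := mul_le_mul_of_nonneg_right h2 (add_nonneg (add_nonneg hA hB) (add_nonneg hGA hGB))
  have e5 := mul_le_mul_of_nonneg_left (mul_le_mul_of_nonneg_right hr (sq_nonneg q)) hCG
  have e6 := mul_le_mul_of_nonneg_left (mul_le_mul_of_nonneg_right hv hb) hCG
  have hv0 : 0 ≤ v := by linarith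
  have e7 := mul_le_mul_of_nonneg_right hC (by positivity : 0 ≤ v * a + v * b)
  have e8 : 0 ≤ CG * (v * a) := by positivity
  have e9 : 0 ≤ η₃ * (M + CG) * (A + B + GX) := by positivity
  subst ht
  linarith

variable {n : ℕ} {ι : Type}

lemma n2_nonneg (ζ : Fin n → ℝ) : 0 ≤ n2 ζ := Finset.sum_nonneg fun _ _ => sq_nonneg _

lemma bil_cs {γ : Fin n → Fin n → ℝ} (hs : ∀ i j, γ i j = γ j i) (h0 : ∀ ξ, 0 ≤ bil γ ξ ξ)
    (z ζ : Fin n → ℝ) : 0 ≤ bil γ ζ ζ - bil γ z ζ ^ 2 / bil γ z z := by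
  rcases (h0 z).eq_or_lt with h | h
  · rw [← h, div_zero, sub_zero]; exact h0 ζ
  have h1 := h0 fun i => 1 * ζ i + z i * (-(bil γ z ζ / bil γ z z))
  have h2 : ∑ k, (∑ i, (γ i k + γ k i) * z i) * ζ k = 2 * bil γ z ζ := by
    simp only [bil, Finset.mul_sum, Finset.sum_mul]
    rw [Finset.sum_comm]
    exact Finset.sum_congr rfl fun i _ => Finset.sum_congr rfl fun k _ => by rw [hs k i]; ring
  rw [bil, IdT.quad_expand, h2] at h1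
  refine h1.trans (le_of_eq ?_)
  change 1 ^ 2 * bil γ ζ ζ + _ + bil γ z z * _ = _
  field_simp
  ring

variable (f : Fx) (c : Cx n ι)

/-- the positive part of the density -/
def T1 (c₀ η N : ℝ) (p : X2 n) (ζ ζ' : Fin n → ℝ) : ℝ :=
  c₀ * (mx f c p * n2 ζ + my f c p * n2 ζ' + al f c p / vv f c p * n2 (ζ' - ζ) +
      ind (sX f c 4 ∪ sY f c 4) p (dm2 f c p ζ ζ')) +
    8 * (1 - η) * (rh f c N p * al f c p * gV c p ζ ζ') +
    8 * (1 - η) * (1 - 2 * f.e1) * (ind (sX f c 4) p (al f c p * piZ c p (ζ' - ζ)) +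
      ind (sY f c 4) p (al f c p * piZ c p (ζ' - ζ)))

/-- the density of the left-hand side -/
def TT0 (c₀ η η₂ C Cn N : ℝ) (p : X2 n) (g q : ℝ) (ζ ζ' : Fin n → ℝ) : ℝ :=
  T1 f c c₀ η N p ζ ζ' -
    C * (vv f c p ^ 2 * n2 ζ + vv f c p ^ 2 * n2 ζ' + ind (Nr f c 16) p (nl f c p * g ^ 2)) -
    Cn * f.tau * (ind (Far f c) p (dX f c p * n2 ζ) + ind (Far f c) p (dY f c p * n2 ζ')) -
    8 * n * (1 + η) * ind (Nr f c 1) p (al f c p ^ 2 * (g + q) ^ 2) -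
    η₂ * (mx f c p * n2 ζ + my f c p * n2 ζ' +
      (mx f c p * rx f c p * g ^ 2 + my f c p * ry f c p * q ^ 2)) -
    (8 * ((n : ℝ) - 1) + η + Cn * f.tau) *
      (chX f c p ^ 2 * al f c p ^ 2 * g ^ 2 + chY f c p ^ 2 * al f c p ^ 2 * q ^ 2)

/-- elementary positivity -/
structure Pos (p : X2 n) : Prop where
  Q : 0 ≤ QQ c p
  Psi : 0 ≤ Psi f c p
  v : 1 ≤ vv f c p
  al : 0 ≤ al f c p
  mx : 0 ≤ mx f c p
  my : 0 ≤ my f c p
  rx : 0 ≤ rx f c p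
  ry : 0 ≤ ry f c p
  nl : 0 ≤ nl f c p
  dX : 0 ≤ dX f c p
  dY : 0 ≤ dY f c p
  F : 0 < FF f c p
  Rs : 0 < Rs f c p
  gV : ∀ ζ ζ', 0 ≤ gV c p ζ ζ'
  piZ : ∀ ζ, 0 ≤ piZ c p ζ

variable {f c}

lemma pos (h0 : W0 f c) (hL : 1 ≤ c.L0) (hs : SymM c.γ₂) (p : X2 n) : Pos f c p := by
  obtain ⟨-, hx, hp, -⟩ := h0
  obtain ⟨q1, -, hF, hv, hσ, hrx, hry, -, -, -, -, hfp, hRs, hQ, hz, -, -, hb⟩ := hp p
  have hQ0 : 0 ≤ QQ c p := le_trans (by positivity) q1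
  have hΨ : 0 ≤ Psi f c p := mul_nonneg hQ0 hF.le
  have hv1 : 1 ≤ vv f c p := hL.trans hv
  have hal : 0 ≤ al f c p := mul_nonneg hF.le (by linarith)
  have hmy : 0 ≤ my f c p := mul_nonneg hΨ (by linarith)
  have hg : ∀ ξ, 0 ≤ bil (gm c p) ξ ξ := fun ξ =>
    le_trans (by have := n2_nonneg ξ; positivity) (hb ξ).2.2.2.2.1
  refine ⟨hQ0, hΨ, hv1, hal, add_nonneg hmy hfp, hmy, hrx, hry, ?_, ?_, ?_, hF, hRs,
    fun _ _ => hg _, fun ζ => ?_⟩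
  · have := (hx p.1).1
    unfold P088.nl; positivity
  · unfold P088.dX; positivity
  · unfold P088.dY; positivity
  · rw [P088.piZ, ← hz, ← hQ]
    exact bil_cs (fun i j => congrFun (hs i j) _) hg _ _

lemma plA {c₀ η N CP CnP : ℝ} {p : X2 n} {ζ ζ' : Fin n → ℝ} (hp : Pos f c p) (hη : 0 ≤ η)
    (he : f.e1 ≤ 1 / 100) (hd : p ∈ sX f c 4 → p ∉ sY f c 4)
    (h : er f c c₀ 0 p ζ ζ' + 8 * (1 - η / 2) * (rh f c N p * al f c p * gV c p ζ ζ') +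
      gsd f c (η / 2) c₀ p ζ ζ' - CP * vv f c p ^ 2 * (n2 ζ + n2 ζ') -
      CnP * f.tau * dfc f c p ζ ζ' ≤ HQ f c p ζ ζ') :
    T1 f c c₀ η N p ζ ζ' + 4 * η * (rh f c N p * al f c p * gV c p ζ ζ') -
      CP * (vv f c p ^ 2 * n2 ζ + vv f c p ^ 2 * n2 ζ') -
      CnP * f.tau * (ind (Far f c) p (dX f c p * n2 ζ) + ind (Far f c) p (dY f c p * n2 ζ')) ≤
      HQ f c p ζ ζ' := by
  have h1 : dfc f c p ζ ζ' =
      ind (Far f c) p (dX f c p * n2 ζ) + ind (Far f c) p (dY f c p * n2 ζ') := by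
    unfold dfc ind; split_ifs <;> simp
  have h2 : 0 ≤ η * (1 - 2 * f.e1) * (al f c p * piZ c p (ζ' - ζ)) :=
    mul_nonneg (mul_nonneg hη (by linarith)) (mul_nonneg hp.al (hp.piZ _))
  rw [h1] at h
  unfold er gsd at h
  unfold T1
  by_cases hX : p ∈ sX f c 4
  · rw [if_pos (mem_union_left _ hX)] at h
    rw [ind_mem hX, ind_not (hd hX), ind_mem (mem_union_left _ hX)]
    linarith
  · by_cases hY : p ∈ sY f c 4
    · rw [if_pos (mem_union_right _ hY)] at h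
      rw [ind_mem hY, ind_not hX, ind_mem (mem_union_right _ hY)]
      linarith
    · rw [if_neg (fun h => h.elim hX hY)] at h
      rw [ind_not hY, ind_not hX, ind_not (S := sX f c 4 ∪ sY f c 4) (fun h => h.elim hX hY)]
      linarith

lemma cut_one {s : ℝ} (h : s ≤ 1) : cut s = 1 :=
  Real.smoothTransition.one_of_one_le (by linarith)

open Classical in
lemma crit {P : Prop} {E E' t ch a d m : ℝ} {S : Set (X2 n)} {p : X2 n} (g : ℝ)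
    (h : P → ch = 1 ∧ p ∈ S) (hE : E ≤ E') (hE' : 0 ≤ E') (ht : 0 ≤ t) (hd : 0 ≤ d)
    (hm : 0 ≤ m) :
    (if P then E * (a ^ 2 * g ^ 2) + t * d else 0) ≤ E' * (ch ^ 2 * a ^ 2 * g ^ 2) + t * ind S p d ∧
      0 ≤ (if P then a ^ 2 else m) * g ^ 2 ∧
      (if P then a ^ 2 else m) * g ^ 2 ≤ m * g ^ 2 + ch ^ 2 * a ^ 2 * g ^ 2 := by
  split_ifs with hP
  · rw [(h hP).1, ind_mem (h hP).2]
    have := mul_le_mul_of_nonneg_right hE (by positivity : 0 ≤ a ^ 2 * g ^ 2)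
    have := mul_nonneg hm (sq_nonneg g)
    exact ⟨by linarith, by positivity, by linarith⟩
  · have := ind_nonneg S p hd
    exact ⟨by positivity, by positivity, le_add_of_nonneg_right (by positivity)⟩

open Classical in
lemma pt {c₀ η η₁ η' η₂ η₃ N M CG C' CP C CnP CnX CnY Cn : ℝ} {p : X2 n} (hp : Pos f c p)
    (hn : 1 ≤ n) (hτ : 0 ≤ f.tau) (he : f.e1 ≤ 1 / 100) (hη : 0 ≤ η) (hη₂ : 0 ≤ η₂)
    (hη₃ : 0 ≤ η₃) (hM : 0 ≤ M) (hCG : 0 ≤ CG) (hC' : 0 ≤ C') (hCP : 0 ≤ CP) (hP0 : 0 ≤ CnP)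
    (hX0 : 0 ≤ CnX) (hY0 : 0 ≤ CnY) (hCn : Cn = CnP + CnX + CnY) (h1 : η₁ * (1 + M) ≤ 4 * η)
    (h2 : 8 * n * η₁ + 2 * η' * (C' * (CG + 2 * M)) ≤ 8 * n * η)
    (hC : C = CP + C' * (1 + M) + CG + 2 * (C' * (CG + 2 * M)))
    (h3 : η₃ * (2 + 2 * M + CG) ≤ η) (h4 : η₃ * (2 + 2 * M + CG) ≤ η₂)
    (hPL : ∀ ζ ζ', er f c c₀ 0 p ζ ζ' + 8 * (1 - η / 2) * (rh f c N p * al f c p * gV c p ζ ζ') +
      gsd f c (η / 2) c₀ p ζ ζ' - CP * vv f c p ^ 2 * (n2 ζ + n2 ζ') -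
      CnP * f.tau * dfc f c p ζ ζ' ≤ HQ f c p ζ ζ')
    (hB : p ∈ Nr f c 16 → ∀ (g q q' : ℝ) (ζ ζ' : Fin n → ℝ),
      ZO f c p g q ζ ζ' ≤ 8 * n * (1 + η₁) * (al f c p ^ 2 * (g + q) ^ 2) +
        η₁ * (rh f c N p * al f c p * gV c p ζ ζ') +
        C' * (nl f c p * g ^ 2 + vv f c p ^ 2 * (n2 ζ + n2 ζ')) ∧
      (∀ a, |BO f c p a g q ζ ζ'| * |q'| ≤ η₁ * (rh f c N p * al f c p * gV c p ζ ζ') +
        C' * (nl f c p * (g ^ 2 + q ^ 2 + q' ^ 2) + vv f c p ^ 2 * (n2 ζ + n2 ζ'))) ∧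
      ry f c p + 1 ≤ C' * nl f c p ∧ rx f c p + 1 ≤ C' * nl f c p)
    (hX : p ∉ Nr f c 1 → ∀ (g : ℝ) (ζ : Fin n → ℝ),
      ZX f c p g ζ ≤ η₃ * (mx f c p * n2 ζ + GX f c p * g ^ 2) +
        if p ∈ sX f c 1 then (8 * ((n : ℝ) - 1) + CnX * f.tau) * (al f c p ^ 2 * g ^ 2) +
          CnX * f.tau * (dX f c p * n2 ζ) else 0)
    (hY : p ∉ Nr f c 1 → ∀ (q : ℝ) (ζ' : Fin n → ℝ),
      ZY f c p q ζ' ≤ η₃ * (my f c p * n2 ζ' + GY f c p * q ^ 2) +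
        if p ∈ sY f c 1 then (8 * ((n : ℝ) - 1) + CnY * f.tau) * (al f c p ^ 2 * q ^ 2) +
          CnY * f.tau * (dY f c p * n2 ζ') else 0)
    (hZ : p ∉ Nr f c 1 → ∀ (g q q' : ℝ) (ζ ζ' : Fin n → ℝ),
      ZM f c p g q ζ ζ' ≤ η₃ * (mx f c p * n2 ζ + my f c p * n2 ζ' + GX f c p * g ^ 2 +
        GY f c p * q ^ 2) ∧
      (∀ a, |BO f c p a g q ζ ζ'| * |q'| ≤ η₃ * (mx f c p * n2 ζ + my f c p * n2 ζ' +
        GX f c p * g ^ 2 + GY f c p * (q ^ 2 + q' ^ 2))) ∧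
      ry f c p + 1 ≤ η₃ * GY f c p)
    (hnl : p ∈ Nr f c 16 → nl f c p ≤ η' * al f c p ^ 2)
    (h5 : p ∈ sX f c 4 → 2 * f.t0 ^ 2 < QQ c p ∧ p ∉ sY f c 4)
    (h6 : p ∈ sY f c 4 → 2 * f.t0 ^ 2 < QQ c p) (hth : 2 * f.t0 ^ 2 < QQ c p → thI f c p = 0) :
    ∃ (B : ℝ → ℝ → (Fin n → ℝ) → (Fin n → ℝ) → ℝ) (W : ℝ),
      (∀ a g q q' ζ ζ', |BO f c p a g q ζ ζ'| * |q'| ≤ B g q ζ ζ' + W * q' ^ 2) ∧
      ∀ g q ζ ζ', TT0 f c c₀ η η₂ C Cn N p g q ζ ζ' ≤ HQ f c p ζ ζ' - ZO f c p g q ζ ζ' -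
        CG * (1 * n2 ζ' + (ry f c p + 1) * q ^ 2) - M * (B g q ζ ζ' + W * q ^ 2) := by
  have hA := fun ζ ζ' => plA hp hη he (fun h => (h5 h).2) (hPL ζ ζ')
  have hRA : ∀ ζ ζ', 0 ≤ rh f c N p * al f c p * gV c p ζ ζ' := fun ζ ζ' => by
    have := hp.Psi; have := hp.al; have := hp.gV ζ ζ'
    unfold rh; positivity
  have hv : 1 ≤ vv f c p ^ 2 := one_le_pow₀ hp.v
  have hn' : (1 : ℝ) ≤ n := by exact_mod_cast hn
  have hmx := hp.mx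
  have hmy := hp.my
  have hrx := hp.rx
  have hry := hp.ry
  have hiX := fun ζ : Fin n → ℝ => ind_nonneg (Far f c) p (mul_nonneg hp.dX (n2_nonneg ζ))
  have hiY := fun ζ : Fin n → ℝ => ind_nonneg (Far f c) p (mul_nonneg hp.dY (n2_nonneg ζ))
  have hE : 0 ≤ 8 * ((n : ℝ) - 1) + Cn * f.tau := by
    have : 0 ≤ Cn * f.tau := by rw [hCn]; positivity
    linarith
  by_cases hN : p ∈ Nr f c 1
  · have h16 : p ∈ Nr f c 16 := le_trans (show _ ≤ (1 : ℝ) from hN) (by norm_num)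
    refine ⟨fun g q ζ ζ' => η₁ * (rh f c N p * al f c p * gV c p ζ ζ') +
      C' * (nl f c p * (g ^ 2 + q ^ 2) + vv f c p ^ 2 * (n2 ζ + n2 ζ')), C' * nl f c p,
      fun a g q q' ζ ζ' => ((hB h16 g q q' ζ ζ').2.1 a).trans (le_of_eq (by ring)),
      fun g q ζ ζ' => ?_⟩
    unfold TT0
    rw [ind_mem hN, ind_mem h16]
    have := n2_nonneg ζ
    have := n2_nonneg ζ'
    exact near (hA ζ ζ') (hB h16 g q 0 ζ ζ').1 (hB h16 g q 0 ζ ζ').2.2.1 (hnl h16) h1 h2 hC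
      (mul_le_mul_of_nonneg_right (by linarith) hτ) (hRA ζ ζ') (n2_nonneg ζ) (n2_nonneg ζ') hv
      hp.nl (sq_nonneg _) (add_nonneg (hiX ζ) (hiY ζ')) hM hCG hC' hCP (by positivity)
      (mul_nonneg (by linarith) (by positivity))
  · refine ⟨fun g q ζ ζ' => η₃ * (mx f c p * n2 ζ + my f c p * n2 ζ' + GX f c p * g ^ 2 +
      GY f c p * q ^ 2), η₃ * GY f c p,
      fun a g q q' ζ ζ' => ((hZ hN g q q' ζ ζ').2.1 a).trans (le_of_eq (by ring)),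
      fun g q ζ ζ' => ?_⟩
    have hR := hp.Rs
    have c1 : p ∈ sX f c 1 → chX f c p = 1 ∧ p ∈ Far f c := fun h => by
      have hQ := (h5 ⟨h.1, h.2.trans (by linarith)⟩).1
      refine ⟨?_, show f.t0 ^ 2 ≤ _ by linarith [sq_nonneg f.t0]⟩
      rw [chX, hth hQ, cut_one ((div_le_iff₀ hR).2 h.2), sub_zero, one_mul]
    have c2 : p ∈ sY f c 1 → chY f c p = 1 ∧ p ∈ Far f c := fun h => by
      have hQ := h6 ⟨h.1, h.2.trans (by linarith)⟩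
      refine ⟨?_, show f.t0 ^ 2 ≤ _ by linarith [sq_nonneg f.t0]⟩
      rw [chY, hth hQ, cut_one ((div_le_iff₀ hR).2 h.2), sub_zero, one_mul]
    have t1 := mul_nonneg hP0 hτ
    have t2 := mul_nonneg hX0 hτ
    have t3 := mul_nonneg hY0 hτ
    have ht : Cn * f.tau = CnP * f.tau + CnX * f.tau + CnY * f.tau := by rw [hCn]; ring
    obtain ⟨x1, x2, x3⟩ := crit (a := al f c p) (E := 8 * ((n : ℝ) - 1) + CnX * f.tau) g c1
      (by linarith) hE t2 (mul_nonneg hp.dX (n2_nonneg ζ)) (mul_nonneg hmx hrx)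
    obtain ⟨y1, -, y3⟩ := crit (a := al f c p) (E := 8 * ((n : ℝ) - 1) + CnY * f.tau) q c2
      (by linarith) hE t3 (mul_nonneg hp.dY (n2_nonneg ζ')) (mul_nonneg hmy hry)
    have hC0 : CP + CG ≤ C := by
      have : 0 ≤ C' * (1 + M) + 2 * (C' * (CG + 2 * M)) := by positivity
      linarith
    have := far (hA ζ ζ') (hX hN g ζ) (hY hN q ζ') (hZ hN g q 0 ζ ζ').1 (hZ hN g q 0 ζ ζ').2.2
      x1 y1 x3 y3 h3 h4 hC0 ht (mul_nonneg hη (hRA ζ ζ')) (n2_nonneg ζ) (n2_nonneg ζ') hv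
      (mul_nonneg hmx (n2_nonneg ζ)) (mul_nonneg hmy (n2_nonneg ζ')) x2 (by positivity)
      (by positivity) (by positivity) (by positivity) (mul_nonneg t3 (hiX ζ))
      (mul_nonneg t2 (hiY ζ')) hM hCG hη₃ (mul_nonneg (by linarith)
        (ind_nonneg (Nr f c 16) p (mul_nonneg hp.nl (sq_nonneg g))))
    have e : ZO f c p g q ζ ζ' = ZX f c p g ζ + ZY f c p q ζ' + ZM f c p g q ζ ζ' := by
      unfold ZO ZX ZY ZM; ring
    unfold TT0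
    rw [ind_not hN, e]
    linarith

lemma ptsum [Fintype ι] {T H Z R B W : ι → ℝ} {b : ι → ι → Fin n → ℝ} {CG : ℝ} (hCG : 0 ≤ CG)
    (h1 : ∀ s s' a, b s s' a ≤ B s + W s')
    (h2 : ∀ s, T s ≤ H s - Z s - CG * R s - CG * (Fintype.card ι * n) * (B s + W s)) :
    ∑ s, T s ≤ ∑ s, H s - ∑ s, Z s - CG * ∑ s, ∑ s', ∑ a, b s s' a - CG * ∑ s, R s := by
  have h3 : ∑ s, ∑ s', ∑ a, b s s' a ≤ Fintype.card ι * n * ∑ s, (B s + W s) := by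
    refine (Finset.sum_le_sum fun s _ => Finset.sum_le_sum fun s' _ =>
      Finset.sum_le_sum fun a _ => h1 s s' a).trans (le_of_eq ?_)
    simp only [Finset.sum_const, Finset.card_univ, Fintype.card_fin, nsmul_eq_mul,
      Finset.sum_add_distrib, ← Finset.mul_sum]
    ring
  have h4 := Finset.sum_le_sum fun s (_ : s ∈ Finset.univ) => h2 s
  simp only [Finset.sum_sub_distrib, ← Finset.mul_sum] at h4
  have := mul_le_mul_of_nonneg_left h3 hCG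
  linarith

end GI

end Vale.Agent.P088
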