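import Vale.Agent.P088.GnStm

/-!
# P088, the gain: absorption of the first-order terms
-/

open MeasureTheory Set Metric Filter
open scoped ContDiff Topology InnerProductSpace

noncomputable section
namespace Vale.Agent.P088.Gain
open Vale.Agent.P136 (D Dp Dm Sm Tst)

namespace GnAbs

theorem int {n : ℕ} {K : Set (En n)} (hK : IsCompact K) {w f : En n → ℝ} (hw : Continuous w)
    (hf : Continuous f) (h : ∀ x, x ∉ K → f x = 0) : Integrable fun x => w x * f x :=
  (hw.mul hf).integrable_of_hasCompactSupport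
    (HasCompactSupport.intro hK fun x hx => by simp [h x hx])

end GnAbs

theorem g_abs (hast : G_ast) : G_abs := by
  intro n ι _ φ γ₁ γ₂ b aw Lw U K p C A B l hc hl haw haw0 hA hB hL hd
  choose n₀ n₁ c0 c1 hz hp hb hΓ using fun a => hast n ι φ γ₁ γ₂ b _ _ U K p C (l a) hc (hl a)
  obtain ⟨-, -, -, w0, w1, -, -, hK, -, -, hC, -⟩ := hc
  have i0 := fun a => GnAbs.int hK w0 (c0 a) fun x hx => (hz a x hx).1
  have i1 := fun a => GnAbs.int hK w1 (c1 a) fun x hx => (hz a x hx).2
  have i2 := fun (c : ℝ) a =>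
    GnAbs.int hK (continuous_const (y := c)) (c1 a) fun x hx => (hz a x hx).2
  have i3 := fun a => GnAbs.int hK haw (c0 a) fun x hx => (hz a x hx).1
  have i4 : Integrable (K.indicator fun _ => B) :=
    (integrable_indicator_iff hK.measurableSet).2 (integrableOn_const hK.measure_lt_top.ne)
  have i5 : Integrable fun x => ∑ e, A * n₁ e x := integrable_finsetSum _ fun e _ => i2 A e
  have key : ∀ a, (∫ x, aw x * Lw x ^ 2 * n₀ a x) + ∫ x, Lw x ^ 2 * n₁ a x ≤
      C * ∫ x, (∑ e, A * n₁ e x + K.indicator (fun _ => B) x) := fun a => by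
    have hnn : ∀ x, 0 ≤ ∑ e, A * n₁ e x + K.indicator (fun _ => B) x := fun x =>
      add_nonneg (Finset.sum_nonneg fun e _ => mul_nonneg hA (hp e x).2)
        (indicator_nonneg (fun _ _ => hB) x)
    refine hΓ a _ (i5.add i4) hnn fun x W hW => ?_
    by_cases hx : x ∈ K
    · refine (hd x hx W hW a).trans ?_
      rw [indicator_of_mem hx, add_mul, ← Finset.mul_sum, mul_assoc, Finset.sum_mul]
      exact add_le_add_left (mul_le_mul_of_nonneg_left
        (Finset.sum_le_sum fun e _ => (hb e x W hW).2) hA) _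
    · have e : dgd ee γ₁ (fun z => l a z W) x = 0 :=
        ddk_zero hK.isClosed γ₁ (fun z hz => (hl a).2.2.2 z W hz hW) x hx
      rw [e, zero_pow two_ne_zero]
      exact mul_nonneg (hnn x) (wn_nonneg φ p x W)
  have e1 : ∫ x, (∑ e, A * n₁ e x + K.indicator (fun _ => B) x) =
      (∑ e, ∫ x, A * n₁ e x) + B * volume.real K := by
    rw [integral_add i5 i4, integral_finsetSum _ fun e _ => i2 A e,
      integral_indicator_const _ hK.measurableSet, smul_eq_mul, mul_comm]
  have k1 := Finset.sum_le_sum fun a (_ : a ∈ Finset.univ) => key a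
  rw [Finset.sum_add_distrib, Finset.sum_const, Finset.card_univ, nsmul_eq_mul, e1] at k1
  have k2 : Fintype.card ι * C * ∑ e, ∫ x, A * n₁ e x ≤ ∑ e, ∫ x, Lw x ^ 2 * n₁ e x := by
    rw [Finset.mul_sum]
    refine Finset.sum_le_sum fun e _ => ?_
    rw [← integral_const_mul]
    refine integral_mono ((i2 A e).const_mul _) (i1 e) fun x => ?_
    dsimp only
    rw [← mul_assoc]
    exact mul_le_mul_of_nonneg_right (hL x).2 (hp e x).2
  have k3 : ∑ a, ∫ x, aw x * n₀ a x ≤ ∑ a, ∫ x, aw x * Lw x ^ 2 * n₀ a x :=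
    Finset.sum_le_sum fun a _ => integral_mono (i3 a) (i0 a) fun x =>
      mul_le_mul_of_nonneg_right (le_mul_of_one_le_right (haw0 x) (hL x).1) (hp a x).1
  refine ⟨fun x => ∑ a, n₀ a x, continuous_finsetSum _ fun a _ => c0 a,
    fun x => Finset.sum_nonneg fun a _ => (hp a x).1, fun V => ?_, fun x W hW a => ?_⟩
  · simp only [Finset.mul_sum]
    refine (setIntegral_le_integral (integrable_finsetSum _ fun a _ => i3 a)
      (ae_of_all _ fun x => Finset.sum_nonneg fun a _ => mul_nonneg (haw0 x) (hp a x).1)).trans ?_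
    rw [integral_finsetSum _ fun a _ => i3 a]
    linarith
  · exact (hb a x W hW).1.trans (mul_le_mul_of_nonneg_right
      (Finset.single_le_sum (f := fun a => n₀ a x) (fun a _ => (hp a x).1) (Finset.mem_univ a))
      (wn_nonneg φ p x W))

end Vale.Agent.P088.Gain
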