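import Vale.Agent.P088.GnStm

/-!
# P088, the gain: the estimate for sections of the dual bundle
-/

open MeasureTheory Set Metric Filter
open scoped ContDiff Topology InnerProductSpace

noncomputable section
namespace Vale.Agent.P088.Gain
open Vale.Agent.P136 (D Dp Dm Sm Tst)

namespace GnAst

variable {n : ℕ} {ι : Type} [Fintype ι] {p : En n} {H : Type} [NormedAddCommGroup H]
  [InnerProductSpace ℝ H]

/-- Weighted Cauchy-Schwarz. -/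
theorem cs_Wp (hmf : G_mf) {φ : X2 n → ℝ} (hφ : Sm φ) (x : En n) (u v : HL n ι (Y0 p))
    {W : ι → En n → ℝ} (hv : ∀ a, cp v a =ᵐ[volume.restrict (Y0 p)] W a) :
    ⟪u, v⟫_ℝ ^ 2 ≤ Wp φ p x u * wn φ p x W := by
  obtain ⟨A, -, hA⟩ := hmf n ι p _ hφ.exp
  obtain ⟨B, -, hB⟩ := hmf n ι p _ hφ.neg.exp
  have e1 : ⟪u, v⟫_ℝ = ⟪A x u, B x v⟫_ℝ := by
    rw [St1.inner_eq, St1.inner_eq]
    refine Finset.sum_congr rfl fun a _ => integral_congr_ae ?_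
    filter_upwards [hA x u a, hB x v a] with y h1 h2
    rw [h1, h2, Real.exp_neg]
    field_simp
  have e2 : ‖A x u‖ ^ 2 = Wp φ p x u := by
    rw [St1.norm_sq_eq]
    refine Finset.sum_congr rfl fun a _ => integral_congr_ae ?_
    filter_upwards [hA x u a] with y h1
    rw [h1, mul_pow, ← Real.exp_nat_mul]
    norm_num
  have e3 : ‖B x v‖ ^ 2 = wn φ p x W := by
    rw [St1.norm_sq_eq]
    refine Finset.sum_congr rfl fun a _ => integral_congr_ae ?_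
    filter_upwards [hB x v a, hv a] with y h1 h2
    rw [h1, h2, mul_pow, ← Real.exp_nat_mul]
    norm_num
  rw [e1, ← e2, ← e3, ← mul_pow, ← sq_abs]
  exact pow_le_pow_left₀ (abs_nonneg _) (abs_real_inner_le_norm _ _) 2

theorem D_inner {V : Type} [NormedAddCommGroup V] [InnerProductSpace ℝ V] {k : En n → V}
    (hk : ContDiff ℝ ∞ k) (v : V) (j : Fin n) :
    D (ee j) (fun x => ⟪k x, v⟫_ℝ) = fun x => ⟪dk k j x, v⟫_ℝ := by
  funext x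
  have hd : DifferentiableAt ℝ k x := hk.differentiable (by simp) x
  simp only [D, dk]
  rw [fderiv_inner_apply ℝ hd (differentiableAt_const _)]
  simp

theorem dgd_inner {V : Type} [NormedAddCommGroup V] [InnerProductSpace ℝ V] {k : En n → V}
    {γ : MatF n} (hγ : SmM γ) (hk : ContDiff ℝ ∞ k) (v : V) (x : En n) :
    dgd ee γ (fun x => ⟪k x, v⟫_ℝ) x = ⟪ddk γ k x, v⟫_ℝ := by
  have e : ∀ i, XX ee γ (fun x => ⟪k x, v⟫_ℝ) i = fun z => ⟪∑ j, γ i j z • dk k j z, v⟫_ℝ := by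
    intro i
    funext z
    simp only [XX, D_inner hk, sum_inner, real_inner_smul_left]
  simp only [dgd, dvg, e, D_inner (sm_gk hγ hk _)]
  rw [ddk, sum_inner]

theorem exists_S [CompleteSpace H] (hw2s : G_w2s) (hslm : G_slm) (P : H →L[ℝ] HL n ι (Y0 p))
    {M : En n → HL n ι (Y0 p) →L[ℝ] HL n ι (Y0 p)} (hM : ContDiff ℝ ∞ M)
    (hco : ∀ x, ∃ C : ℝ, 0 < C ∧ ∀ u, C * ‖u‖ * ‖u‖ ≤ ⟪M x (P u), P u⟫_ℝ) :
    ∃ S : En n → (H →L[ℝ] ℝ) →L[ℝ] H, ContDiff ℝ ∞ S ∧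
      ∀ x l h, ⟪M x (P (S x l)), P h⟫_ℝ = l h := by
  let B : En n → H →L[ℝ] H →L[ℝ] ℝ := fun x => (innerSL ℝ).bilinearComp (M x ∘L P) P
  have hBa : ∀ x u v, B x u v = ⟪M x (P u), P v⟫_ℝ := fun x u v => by simp [B]
  have hB : ContDiff ℝ ∞ B := hw2s (En n) _ _ B fun u => hw2s (En n) _ ℝ _ fun v => by
    simp only [hBa]
    exact (hM.clm_apply contDiff_const).inner ℝ contDiff_const
  obtain ⟨S, hS, hS'⟩ := hslm (En n) H B hB fun x => by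
    obtain ⟨C, hC, h⟩ := hco x
    exact ⟨C, hC, fun u => by rw [hBa]; exact h u⟩
  exact ⟨S, hS, fun x l h => by rw [← hBa]; exact hS' x l h⟩

theorem quad_eq {φ : X2 n → ℝ} (hφ : Sm φ) (P : H →L[ℝ] HL n ι (Y0 p))
    (Rp : H →ₗ[ℝ] (ι → En n → ℝ)) (h1 : ∀ h a, cp (P h) a =ᵐ[volume.restrict (Y0 p)] Rp h a)
    (nR : ∀ h, nrm (Y0 p) (Rp h) = ‖h‖ ^ 2) {M : En n → HL n ι (Y0 p) →L[ℝ] HL n ι (Y0 p)}
    (hM : ∀ x u a, cp (M x u) a =ᵐ[volume.restrict (Y0 p)]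
      fun y => Real.exp (-(2 * φ (x, y))) * cp u a y) (x : En n) :
    (∀ u, ⟪M x (P u), P u⟫_ℝ = wn φ p x (Rp u)) ∧
    (∀ u, Wp φ p x (M x (P u)) = wn φ p x (Rp u)) ∧
    ∃ C : ℝ, 0 < C ∧ ∀ u, C * ‖u‖ * ‖u‖ ≤ ⟪M x (P u), P u⟫_ℝ := by
  have hBw : ∀ u, ⟪M x (P u), P u⟫_ℝ = wn φ p x (Rp u) := by
    intro u
    rw [St1.inner_eq]
    refine Finset.sum_congr rfl fun a _ => integral_congr_ae ?_
    filter_upwards [hM x (P u) a, h1 u a] with y a1 a2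
    rw [a1, a2]; ring
  refine ⟨hBw, fun u => ?_, ?_⟩
  · refine Finset.sum_congr rfl fun a _ => integral_congr_ae ?_
    filter_upwards [hM x (P u) a, h1 u a] with y a1 a2
    rw [a1, a2, Real.exp_neg]
    field_simp
  · have cw : Continuous fun y => 2 * φ (x, y) := slice (hφ.cmul 2).cont x
    obtain ⟨A, hA⟩ := bdd_Y0 cw p
    refine ⟨Real.exp (-A), Real.exp_pos _, fun u => ?_⟩
    rw [hBw, mul_assoc, ← pow_two, ← nR, nrm, wn, Finset.mul_sum]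
    refine Finset.sum_le_sum fun a _ => ?_
    have hl : MemLp (Rp u a) 2 (volume.restrict (Y0 p)) := (St1.l2_cp (P u) a).ae_eq (h1 u a)
    rw [← integral_const_mul]
    refine setIntegral_mono_on (hl.integrable_sq.const_mul _) (int_w cw.neg.rexp hl)
      measurableSet_ball fun y hy => ?_
    exact mul_le_mul_of_nonneg_right (Real.exp_le_exp.2 (neg_le_neg
      ((le_abs_self _).trans (hA y hy)))) (sq_nonneg _)

theorem exists_l [CompleteSpace H] (hw2s : G_w2s) {L : Op n ι} (hL : L.Good) {K : Set (En n)}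
    (P : H →L[ℝ] HL n ι (Y0 p)) (Rp : H →ₗ[ℝ] (ι → En n → ℝ)) (hR : ∀ h, IsS L p (Rp h))
    (h1 : ∀ h a, cp (P h) a =ᵐ[volume.restrict (Y0 p)] Rp h a)
    (h2 : ∀ W, IsS L p W → ∃ h : H, ∀ a, cp (P h) a =ᵐ[volume.restrict (Y0 p)] W a)
    (nR : ∀ h, nrm (Y0 p) (Rp h) = ‖h‖ ^ 2) {l : En n → (ι → En n → ℝ) → ℝ} (hl : Adm L p K l) :
    ∃ l' : En n → H →L[ℝ] ℝ, ContDiff ℝ ∞ l' ∧ (∀ x h, l' x h = l x (Rp h)) ∧
      ∀ W, IsS L p W → ∃ h : H, (∀ a, cp (P h) a =ᵐ[volume.restrict (Y0 p)] W a) ∧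
        (fun x => l x W) = fun x => l' x h := by
  obtain ⟨hl0, hl1, hl2, -⟩ := hl
  have z0 : ∀ x W, IsS L p W → nrm (Y0 p) W = 0 → l x W = 0 := by
    intro x W hW h0
    obtain ⟨C, hC⟩ := hl1 x
    have := hC W hW
    rw [h0, mul_zero] at this
    exact (pow_eq_zero_iff two_ne_zero).1 (le_antisymm this (sq_nonneg _))
  let T : En n → H →ₗ[ℝ] ℝ := fun x =>
    { toFun := fun h => l x (Rp h)
      map_add' := fun h h' => by
        have e : Rp (h + h') = linF (Rp h) 1 (Rp h') := by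
          funext a y; simp [linF]
        rw [e, hl0 x _ _ 1 (hR h) (hR h'), one_mul]
      map_smul' := fun c h => by
        have e : Rp (c • h) = linF (Rp 0) c (Rp h) := by
          funext a y; simp [linF]
        rw [e, hl0 x _ _ c (hR 0) (hR h), z0 x _ (hR 0) (by rw [nR]; simp), zero_add]
        rfl }
  have bd : ∀ x, ∃ A : ℝ, ∀ h : H, ‖T x h‖ ≤ A * ‖h‖ := by
    intro x
    obtain ⟨C, hC⟩ := hl1 x
    refine ⟨√|C|, fun h => abs_le.2 (abs_le_of_sq_le_sq' ?_ (by positivity))⟩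
    rw [mul_pow, Real.sq_sqrt (abs_nonneg _), ← nR]
    exact (hC _ (hR h)).trans (mul_le_mul_of_nonneg_right (le_abs_self _) (St1.nrm_nonneg _ _))
  refine ⟨fun x => (T x).mkContinuousOfExistsBound (bd x),
    hw2s (En n) _ ℝ _ fun h => hl2 (Rp h) (hR h), fun _ _ => rfl, fun W hW => ?_⟩
  obtain ⟨h, hh⟩ := h2 W hW
  refine ⟨h, hh, funext fun x => ?_⟩
  have hs : IsS L p (linF W (-1) (Rp h)) :=
    ⟨St1.sol_lin hL isOpen_ball hW.1 (hR h).1 _, St1.l2_lin hW.2 (hR h).2 _⟩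
  have z : nrm (Y0 p) (linF W (-1) (Rp h)) = 0 := by
    rw [St1.nrm_congr (W' := 0) fun a => ?_]
    · simp [nrm]
    · filter_upwards [hh a, h1 h a] with y a1 a2
      simp [linF, ← a1, ← a2]
  have := z0 x _ hs z
  rw [hl0 x _ _ _ hW (hR h)] at this
  change l x W = l x (Rp h)
  linarith

theorem abstract_est [CompleteSpace H] (hw2s : G_w2s) (hslm : G_slm) (hmf : G_mf) (hev : G_ev)
    (hlim : G_lim) {φ : X2 n → ℝ} {γ₁ γ₂ : MatF n} {b : ConF n ι} {w₀ w₁ : En n → ℝ}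
    {U K : Set (En n)} {C : ℝ} {l : En n → (ι → En n → ℝ) → ℝ}
    (hc : Ctx φ γ₁ γ₂ b w₀ w₁ U K p C) (hl : Adm (op0 γ₂ b) p K l)
    (P : H →L[ℝ] HL n ι (Y0 p)) (Rp : H →ₗ[ℝ] (ι → En n → ℝ))
    (hR : ∀ h, IsS (op0 γ₂ b) p (Rp h))
    (h1 : ∀ h a, cp (P h) a =ᵐ[volume.restrict (Y0 p)] Rp h a)
    (h2 : ∀ W, IsS (op0 γ₂ b) p W → ∃ h : H, ∀ a, cp (P h) a =ᵐ[volume.restrict (Y0 p)] W a)
    (nR : ∀ h, nrm (Y0 p) (Rp h) = ‖h‖ ^ 2)
    (horth : ∀ Ξ : HL n ι (Y0 p), (∀ h, ⟪Ξ, P h⟫_ℝ = 0) →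
      Ξ ∈ closure (RT (op0 γ₂ b) p : Set (HL n ι (Y0 p)))) :
    ∃ n₀ n₁ : En n → ℝ, Continuous n₀ ∧ Continuous n₁ ∧ (∀ x, x ∉ K → n₀ x = 0 ∧ n₁ x = 0) ∧
      (∀ x, 0 ≤ n₀ x ∧ 0 ≤ n₁ x) ∧
      (∀ x W, IsS (op0 γ₂ b) p W → l x W ^ 2 ≤ n₀ x * wn φ p x W ∧
        ∑ j, D (ee j) (fun z => l z W) x ^ 2 ≤ n₁ x * wn φ p x W) ∧
      ∀ Γ : En n → ℝ, Integrable Γ → (∀ x, 0 ≤ Γ x) →
        (∀ x W, IsS (op0 γ₂ b) p W → dgd ee γ₁ (fun z => l z W) x ^ 2 ≤ Γ x * wn φ p x W) →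
        (∫ x, w₀ x * n₀ x) + ∫ x, w₁ x * n₁ x ≤ C * ∫ x, Γ x := by
  have hφ := hc.1
  have hγ := hc.2.1
  have hL := hc.2.2.1
  have hK : IsClosed K := hc.2.2.2.2.2.2.2.1.isClosed
  obtain ⟨l', hl', hl'a, h3⟩ := exists_l hw2s hL P Rp hR h1 h2 nR hl
  obtain ⟨M, hM, hM'⟩ := hmf n ι p _ (hφ.cmul 2).neg.exp
  have hq := quad_eq hφ P Rp h1 nR hM'
  obtain ⟨S, hS, hS'⟩ := exists_S hw2s hslm P hM fun x => (hq x).2.2
  obtain ⟨g, hgd⟩ : ∃ g : En n → H, g = fun x => S x (l' x) := ⟨_, rfl⟩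
  have hg : ContDiff ℝ ∞ g := hgd ▸ hS.clm_apply hl'
  have hg0 : ∀ x, x ∉ K → g x = 0 := fun x hx => by
    have : l' x = 0 := by ext h; simp [hl'a, hl.2.2.2 x _ hx (hR h)]
    simp [hgd, this]
  obtain ⟨k, hkd⟩ : ∃ k : En n → HL n ι (Y0 p), k = fun x => M x (P (g x)) := ⟨_, rfl⟩
  have hk : ContDiff ℝ ∞ k := hkd ▸ hM.clm_apply (P.contDiff.comp hg)
  have hk0 : ∀ x, x ∉ K → k x = 0 := fun x hx => by simp [hkd, hg0 x hx]
  have e0 : ∀ h : H, (fun x => l' x h) = fun x => ⟪k x, P h⟫_ℝ := fun h =>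
    funext fun x => by rw [← hS' x (l' x) h, hkd, hgd]
  refine ⟨fun x => Wp φ p x (k x), fun x => ∑ j, Wp φ p x (dk k j x),
    cont_Wp hmf hφ hk.continuous,
    continuous_finsetSum _ fun j _ => cont_Wp hmf hφ (sm_dk hk j).continuous,
    fun x hx => ⟨by simp only [hk0 x hx, Wp_zero],
      Finset.sum_eq_zero fun j _ => by rw [dk_zero hK hk0 j x hx, Wp_zero]⟩,
    fun x => ⟨Wp_nonneg _ _ _ _, Finset.sum_nonneg fun _ _ => Wp_nonneg _ _ _ _⟩,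
    fun x W hW => ?_, fun Γ hΓ hΓ0 hΓ' => ?_⟩
  · obtain ⟨h, a1, a2⟩ := h3 W hW
    constructor
    · rw [congrFun a2 x, congrFun (e0 h) x]
      exact cs_Wp hmf hφ x _ _ a1
    · rw [a2, e0, Finset.sum_mul]
      refine Finset.sum_le_sum fun j _ => ?_
      rw [D_inner hk]
      exact cs_Wp hmf hφ x _ _ a1
  · obtain ⟨Λ, hΛa⟩ : ∃ Λ : En n → H →L[ℝ] ℝ, ∀ x h, Λ x h = ⟪ddk γ₁ k x, P h⟫_ℝ :=
      ⟨fun x => innerSL ℝ (ddk γ₁ k x) ∘L P, fun x h => by simp⟩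
    have hΛ : ContDiff ℝ ∞ Λ := hw2s (En n) _ ℝ Λ fun h => by
      simp only [hΛa]
      exact (sm_ddk hγ hk).inner ℝ contDiff_const
    have hG : ContDiff ℝ ∞ fun x => S x (Λ x) := hS.clm_apply hΛ
    refine hlim n ι φ γ₁ γ₂ b w₀ w₁ U K p C k (fun x => ddk γ₁ k x - M x (P (S x (Λ x))))
      (fun x => Rp (g x)) Γ hc ⟨hk, fun x => (hR _).1, fun x hx => by simp only [hg0 x hx, map_zero],
        fun x a => ?_, fun th hth a =>
          hev n ι H _ p Rp g th hL (fun h => ⟨hR h, (nR h).le⟩) hg hth a⟩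
      ((sm_ddk hγ hk).continuous.sub (hM.clm_apply (P.contDiff.comp hG)).continuous)
      (fun x => horth _ fun h => ?_) (fun x hx => ?_) hΓ fun x => ?_
    · filter_upwards [hM' x (P (g x)) a, h1 (g x) a] with y a1 a2
      rw [← a2, hkd]; exact a1
    · rw [inner_sub_left, hS', hΛa, sub_self]
    · have : Λ x = 0 := by ext h; simp [hΛa, ddk_zero hK γ₁ hk0 x hx]
      simp [this, ddk_zero hK γ₁ hk0 x hx]
    · simp only [sub_sub_cancel]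
      rw [(hq x).2.1]
      have a1 := hΓ' x (Rp (S x (Λ x))) (hR _)
      have a2 : (fun y => l y (Rp (S x (Λ x)))) = fun y => l' y (S x (Λ x)) :=
        funext fun y => (hl'a y _).symm
      rw [a2, e0, dgd_inner hγ hk, ← hΛa, ← hS' x (Λ x), (hq x).1] at a1
      rcases (wn_nonneg φ p x (Rp (S x (Λ x)))).eq_or_lt with h | h
      · rw [← h]; exact hΓ0 x
      · rw [pow_two] at a1; exact le_of_mul_le_mul_right a1 h

end GnAst

open GnAst in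
theorem g_ast (hw2s : G_w2s) (hslm : G_slm) (hmf : G_mf) (hrep : G_rep) (hev : G_ev)
    (hlim : G_lim) : G_ast := by
  intro n ι _ φ γ₁ γ₂ b w₀ w₁ U K p C l hc hl
  obtain ⟨⟨Rp, hR⟩, h2⟩ := hrep n ι (op0 γ₂ b) p hc.2.2.1
  refine abstract_est (H := (RT (op0 γ₂ b) p)ᗮ) hw2s hslm hmf hev hlim hc hl
    (RT (op0 γ₂ b) p)ᗮ.subtypeL Rp (fun h => (hR h).1) (fun h => (hR h).2)
    (fun W hW => ⟨⟨_, h2 W hW⟩, fun a => St1.cp_tl hW.2 a⟩) (fun h => ?_) fun Ξ hΞ => ?_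
  · rw [← St1.nrm_congr (hR h).2]; exact (St1.norm_sq_eq h.1).symm
  · have : Ξ ∈ (RT (op0 γ₂ b) p)ᗮᗮ := by
      rw [Submodule.mem_orthogonal']
      intro u hu
      exact hΞ ⟨u, hu⟩
    rwa [Submodule.orthogonal_orthogonal_eq_closure] at this

end Vale.Agent.P088.Gain
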