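import Vale.Agent.P088.GnStm

/-!
# P088, the gain: elementary properties of the scalar weight
-/

open MeasureTheory Set Metric Filter
open scoped ContDiff Topology InnerProductSpace

noncomputable section
namespace Vale.Agent.P088.Gain
open Vale.Agent.P136 (D Dp Dm Sm Tst)

namespace GnAu

lemma om_pos {L0 : ℝ} (h : 1 ≤ L0) (j : ℕ) : 0 < omj L0 j := by
  unfold omj
  have : 0 < L0 := by linarith
  positivity

lemma w_pos (K : ℕ) {L0 : ℝ} (sg : ℝ) (h : 1 ≤ L0) (j : ℕ) : 0 < wj K L0 sg j := by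
  unfold wj
  have := om_pos h j
  positivity

lemma t_pos (K : ℕ) {L0 : ℝ} (sg u : ℝ) (h : 1 ≤ L0) (j : ℕ) :
    0 < wj K L0 sg j * Real.exp (omj L0 j * u + 1) :=
  mul_pos (w_pos K sg h j) (Real.exp_pos _)

lemma s_pos (K : ℕ) {L0 : ℝ} (sg u : ℝ) (J : ℕ) (h : 1 ≤ L0) :
    0 < ∑ j ∈ Finset.range (J + 1), wj K L0 sg j * Real.exp (omj L0 j * u + 1) :=
  Finset.sum_pos (fun j _ => t_pos K sg u h j) ⟨0, by simp⟩

lemma a_pos (K : ℕ) {L0 : ℝ} (sg : ℝ) (J : ℕ) (h : 1 ≤ L0) (u : ℝ) : 0 < aU K L0 sg J u := by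
  unfold aU
  have := s_pos K sg u J h
  linarith

lemma a_low (K : ℕ) {L0 sg : ℝ} (J : ℕ) (h : 1 ≤ L0) (hs : 0 ≤ sg) {u : ℝ} (hu : 0 ≤ u) :
    Real.exp L0 ≤ aU K L0 sg J u := by
  unfold aU
  have h1 : wj K L0 sg 0 * Real.exp (omj L0 0 * u + 1) ≤
      ∑ j ∈ Finset.range (J + 1), wj K L0 sg j * Real.exp (omj L0 j * u + 1) :=
    Finset.single_le_sum (f := fun j => wj K L0 sg j * Real.exp (omj L0 j * u + 1))
      (fun j _ => (t_pos K sg u h j).le) (by simp)
  have h0 : omj L0 0 = L0 := by simp [omj]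
  have h2 : Real.exp L0 ≤ wj K L0 sg 0 * Real.exp (omj L0 0 * u + 1) := by
    unfold wj
    rw [h0, mul_assoc, ← Real.exp_add]
    have h3 : (1 : ℝ) ≤ L0 ^ (2 * K) := one_le_pow₀ h
    have h4 : Real.exp L0 ≤ Real.exp (2 * L0 - L0 * (1 - sg) + (L0 * u + 1)) := by
      apply Real.exp_le_exp.mpr
      have : 0 ≤ L0 * sg := mul_nonneg (by linarith) hs
      have : 0 ≤ L0 * u := mul_nonneg (by linarith) hu
      nlinarith
    exact h4.trans (le_mul_of_one_le_left (Real.exp_pos _).le h3)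
  have := Real.exp_pos L0
  linarith

lemma l_nonneg (K : ℕ) {L0 : ℝ} (sg : ℝ) (J : ℕ) (h : 1 ≤ L0) (u : ℝ) : 0 ≤ LU K L0 sg J u := by
  unfold LU
  refine div_nonneg (mul_nonneg (by norm_num) (Finset.sum_nonneg fun j _ => ?_))
    (a_pos K sg J h u).le
  exact (mul_pos (om_pos h j) (t_pos K sg u h j)).le

lemma a_conv (K : ℕ) {L0 : ℝ} (sg : ℝ) (J : ℕ) (h : 1 ≤ L0) (u u' : ℝ) :
    aU K L0 sg J u * Real.exp (LU K L0 sg J u * (u' - u)) ≤ aU K L0 sg J u' := by
  have hL : LU K L0 sg J u * aU K L0 sg J u =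
      2 * ∑ j ∈ Finset.range (J + 1), omj L0 j * (wj K L0 sg j * Real.exp (omj L0 j * u + 1)) := by
    unfold LU
    exact div_mul_cancel₀ _ (a_pos K sg J h u).ne'
  generalize LU K L0 sg J u = L at hL ⊢
  unfold aU at hL ⊢
  have h1 : ∀ j ∈ Finset.range (J + 1),
      Real.exp (L * (u' - u)) * (1 - L * (u' - u)) *
          (wj K L0 sg j * Real.exp (omj L0 j * u + 1)) +
        Real.exp (L * (u' - u)) * (u' - u) *
          (omj L0 j * (wj K L0 sg j * Real.exp (omj L0 j * u + 1))) ≤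
      wj K L0 sg j * Real.exp (omj L0 j * u' + 1) := by
    intro j _
    have e1 : Real.exp (omj L0 j * u' + 1) = Real.exp (omj L0 j * u + 1) *
        (Real.exp (L * (u' - u)) * Real.exp ((omj L0 j - L) * (u' - u))) := by
      rw [← Real.exp_add, ← Real.exp_add]
      congr 1
      ring
    have e2 := Real.add_one_le_exp ((omj L0 j - L) * (u' - u))
    have e3 := mul_le_mul_of_nonneg_left e2
      (mul_pos (t_pos K sg u h j) (Real.exp_pos (L * (u' - u)))).le
    rw [e1]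
    linarith
  have h2 := Finset.sum_le_sum h1
  rw [Finset.sum_add_distrib, ← Finset.mul_sum, ← Finset.mul_sum] at h2
  have h3 : Real.exp (L * (u' - u)) * (u' - u) * (L * (2 * ∑ j ∈ Finset.range (J + 1),
      wj K L0 sg j * Real.exp (omj L0 j * u + 1))) = Real.exp (L * (u' - u)) * (u' - u) *
      (2 * ∑ j ∈ Finset.range (J + 1),
        omj L0 j * (wj K L0 sg j * Real.exp (omj L0 j * u + 1))) := by rw [hL]
  linarith

lemma a_mono (K : ℕ) {L0 : ℝ} (sg : ℝ) (J : ℕ) (h : 1 ≤ L0) : Monotone (aU K L0 sg J) := by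
  intro u u' hu
  refine le_trans ?_ (a_conv K sg J h u u')
  refine le_mul_of_one_le_right (a_pos K sg J h u).le (Real.one_le_exp ?_)
  exact mul_nonneg (l_nonneg K sg J h u) (by linarith)

lemma a_up (K : ℕ) {d : ℝ} (hd : 0 < d) {L0 sg : ℝ} (J : ℕ) {u : ℝ} (h : 1 ≤ L0)
    (hu : d ≤ 1 - sg - u) : aU K L0 sg J u ≤
      2 * (Real.exp (2 * L0 + 1) * (((2 * K + 1).factorial : ℝ) / d ^ (2 * K + 1)) * 2) := by
  unfold aU
  have hc : 0 < Real.exp (2 * L0 + 1) * (((2 * K + 1).factorial : ℝ) / d ^ (2 * K + 1)) := by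
    positivity
  have h1 : ∀ j ∈ Finset.range (J + 1), wj K L0 sg j * Real.exp (omj L0 j * u + 1) ≤
      Real.exp (2 * L0 + 1) * (((2 * K + 1).factorial : ℝ) / d ^ (2 * K + 1)) *
        (1 / 2 : ℝ) ^ j := by
    intro j _
    have ho := om_pos h j
    have e1 := Real.pow_div_factorial_le_exp (omj L0 j * d) (by positivity) (2 * K + 1)
    rw [div_le_iff₀ (by positivity), mul_pow] at e1
    have e2 : Real.exp (2 * L0 - omj L0 j * (1 - sg)) * Real.exp (omj L0 j * u + 1) *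
        Real.exp (omj L0 j * d) ≤ Real.exp (2 * L0 + 1) := by
      rw [← Real.exp_add, ← Real.exp_add]
      apply Real.exp_le_exp.mpr
      have := mul_le_mul_of_nonneg_left hu ho.le
      linarith
    have e3 : (1 : ℝ) ≤ omj L0 j * (1 / 2 : ℝ) ^ j := by
      unfold omj
      rw [mul_assoc, ← mul_pow]
      simpa using h
    have e4 : omj L0 j ^ (2 * K) * d ^ (2 * K + 1) ≤
        Real.exp (omj L0 j * d) * ((2 * K + 1).factorial : ℝ) * (1 / 2 : ℝ) ^ j := by
      calc omj L0 j ^ (2 * K) * d ^ (2 * K + 1)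
          ≤ omj L0 j ^ (2 * K) * d ^ (2 * K + 1) * (omj L0 j * (1 / 2 : ℝ) ^ j) :=
            le_mul_of_one_le_right (by positivity) e3
        _ = omj L0 j ^ (2 * K + 1) * d ^ (2 * K + 1) * (1 / 2 : ℝ) ^ j := by ring
        _ ≤ _ := mul_le_mul_of_nonneg_right e1 (by positivity)
    unfold wj
    have e5 : omj L0 j ^ (2 * K) ≤ Real.exp (omj L0 j * d) *
        ((((2 * K + 1).factorial : ℝ) / d ^ (2 * K + 1)) * (1 / 2 : ℝ) ^ j) := by
      rw [div_mul_eq_mul_div, ← mul_div_assoc, le_div_iff₀ (by positivity)]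
      linarith
    calc omj L0 j ^ (2 * K) * Real.exp (2 * L0 - omj L0 j * (1 - sg)) *
          Real.exp (omj L0 j * u + 1)
        = omj L0 j ^ (2 * K) * (Real.exp (2 * L0 - omj L0 j * (1 - sg)) *
          Real.exp (omj L0 j * u + 1)) := by ring
      _ ≤ Real.exp (omj L0 j * d) *
          ((((2 * K + 1).factorial : ℝ) / d ^ (2 * K + 1)) * (1 / 2 : ℝ) ^ j) *
          (Real.exp (2 * L0 - omj L0 j * (1 - sg)) * Real.exp (omj L0 j * u + 1)) :=
        mul_le_mul_of_nonneg_right e5 (by positivity)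
      _ = Real.exp (2 * L0 - omj L0 j * (1 - sg)) * Real.exp (omj L0 j * u + 1) *
          Real.exp (omj L0 j * d) *
          ((((2 * K + 1).factorial : ℝ) / d ^ (2 * K + 1)) * (1 / 2 : ℝ) ^ j) := by ring
      _ ≤ Real.exp (2 * L0 + 1) *
          ((((2 * K + 1).factorial : ℝ) / d ^ (2 * K + 1)) * (1 / 2 : ℝ) ^ j) :=
        mul_le_mul_of_nonneg_right e2 (by positivity)
      _ = _ := by ring
  have h2 := Finset.sum_le_sum h1
  rw [← Finset.mul_sum] at h2
  have h3 := mul_le_mul_of_nonneg_left (sum_geometric_two_le (J + 1)) hc.le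
  linarith

lemma sq_le {w : ℝ} (hw : 0 ≤ w) (q : ℝ) : √(1 + w ^ 2 * q) ≤ 1 + w * √q := by
  have h0 : 0 ≤ w * √q := by positivity
  refine Real.sqrt_le_iff.mpr ⟨by linarith, ?_⟩
  have h1 : q ≤ √q ^ 2 := by
    rcases le_total 0 q with h | h
    · exact (Real.sq_sqrt h).ge
    · exact h.trans (sq_nonneg _)
  have h2 := mul_le_mul_of_nonneg_left h1 (sq_nonneg w)
  nlinarith

end GnAu

theorem g_au : G_au := by
  refine ⟨fun K L0 sg J h hs => ⟨GnAu.a_pos K sg J h, fun u hu => GnAu.a_low K J h hs hu,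
    GnAu.l_nonneg K sg J h, GnAu.a_conv K sg J h, GnAu.a_mono K sg J h⟩,
    fun K d hd => ⟨_, fun L0 sg J u h hu => GnAu.a_up K hd J h hu⟩, fun n ι f c P h => ?_⟩
  unfold FF aU Ej bj
  refine mul_le_mul_of_nonneg_left (Finset.sum_le_sum fun j _ => ?_) (by norm_num)
  refine mul_le_mul_of_nonneg_left (Real.exp_le_exp.mpr ?_) (GnAu.w_pos _ _ h j).le
  have := GnAu.sq_le (GnAu.om_pos h j).le (f.Om (QQ c P))
  linarith

end Vale.Agent.P088.Gain
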