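import Vale.Agent.P088.GnStm

/-!
# P088, the gain: conjugated operators
-/

open MeasureTheory Set Metric Filter
open scoped ContDiff Topology InnerProductSpace

noncomputable section
namespace Vale.Agent.P088.Gain
open Vale.Agent.P136 (D Dp Dm Sm Tst)

namespace GnConj

section gen
variable {X : Type} [NormedAddCommGroup X] [NormedSpace ℝ X] {κ : Type} [Fintype κ]

theorem sm_XX (v : κ → X) {γ : κ → κ → X → ℝ} (hγ : SmM γ) {k : X → ℝ} (hk : Sm k) (i : κ) :
    Sm (XX v γ k i) := P136.Sm.sum fun j _ => (hγ i j).mul (hk.D _)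

theorem Lp_exp (v : κ → X) {γ : κ → κ → X → ℝ} (hγ : SmM γ) {φ k : X → ℝ} (hφ : Sm φ)
    (hk : Sm k) (p : X) :
    Lp' v γ φ (fun P => Real.exp (-φ P) * k P) p = Real.exp (-φ p) * dgd v γ k p := by
  have e : ∀ i, (fun p => ∑ j, γ i j p * Dp φ (v j) (fun P => Real.exp (-φ P) * k P) p) =
      fun p => Real.exp (-φ p) * XX v γ k i p := fun i => by
    funext q
    simp only [P136.Dp_exp_neg hφ hk, XX, Finset.mul_sum]
    exact Finset.sum_congr rfl fun j _ => by ring
  simp only [Lp', e, P136.Dp_exp_neg hφ (sm_XX v hγ hk _), dgd, dvg, Finset.mul_sum]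

theorem Lm_exp (v : κ → X) {γ : κ → κ → X → ℝ} (hγ : SmM γ) {φ k : X → ℝ} (hφ : Sm φ)
    (hk : Sm k) (p : X) :
    Lm v γ φ (fun P => Real.exp (φ P) * k P) p = Real.exp (φ p) * dgd v γ k p := by
  have e : ∀ i, Zm v γ φ (fun P => Real.exp (φ P) * k P) i =
      fun p => Real.exp (φ p) * -XX v γ k i p := fun i => by
    funext q
    simp only [Zm, P136.Dm_exp hφ hk, XX, Finset.mul_sum, mul_neg, ← Finset.sum_neg_distrib]
    exact Finset.sum_congr rfl fun j _ => by ring
  simp only [Lm, e, P136.Dm_exp hφ (sm_XX v hγ hk _).neg, P136.D_neg, dgd, dvg, Finset.mul_sum]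
  simp only [mul_neg, neg_neg]

end gen

variable {n : ℕ}

theorem sm_onY {γ : MatF n} (hγ : SmM γ) : SmM (onY γ) := fun i j => (hγ i j).comp contDiff_snd

theorem sm_onX {γ : MatF n} (hγ : SmM γ) : SmM (onX γ) := fun i j => (hγ i j).comp contDiff_fst

theorem D_ey' {f : X2 n → ℝ} (hf : Sm f) (i : Fin n) (x y : En n) :
    D (ey i) f (x, y) = D (ee i) (fun y => f (x, y)) y := congrFun (D_ey hf i x) y

theorem dgd_ey {γ : MatF n} (hγ : SmM γ) {k : X2 n → ℝ} (hk : Sm k) (x y : En n) :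
    dgd ey (onY γ) k (x, y) = dgd ee γ (fun z => k (x, z)) y := by
  unfold dgd dvg
  refine Finset.sum_congr rfl fun i _ => ?_
  rw [D_ey' (sm_XX ey (sm_onY hγ) hk i)]
  refine congrArg (fun f => D (ee i) f y) (funext fun z => ?_)
  exact Finset.sum_congr rfl fun j _ => by rw [D_ey' hk]; rfl

end GnConj

theorem g_conj : G_conj := by
  intro n ι _ φ γ b u s x y hφ hγ hb hu
  refine ⟨?_, ?_, GnConj.Lm_exp ex (GnConj.sm_onX hγ) hφ (hu s) _⟩
  · simp only [L2b, Op.app, op0, GnConj.Lp_exp ey (GnConj.sm_onY hγ) hφ (hu s),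
      GnConj.dgd_ey hγ (hu s), P136.Dp_exp_neg hφ (hu _), GnConj.D_ey' (hu _), zero_mul,
      Finset.sum_const_zero, add_zero, mul_add, Finset.mul_sum]
    refine congrArg _ (Finset.sum_congr rfl fun i _ => Finset.sum_congr rfl fun a _ => ?_)
    ring
  · have hb2 : ∀ i a, Sm fun p : X2 n => b i a s p.2 * u a p := fun i a =>
      P136.Sm.mul ((hb i a s).comp contDiff_snd) (hu a)
    have e : ∀ i a, (fun p : X2 n => b i a s p.2 * (Real.exp (φ p) * u a p)) =
        fun p => Real.exp (φ p) * (b i a s p.2 * u a p) := fun i a => by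
      funext p
      ring
    have hs : ∀ a, Sm fun z => u a (x, z) := fun a => (hu a).comp (contDiff_prodMk_right x)
    have e2 : ∀ i a, D (ey i) (fun p : X2 n => b i a s p.2 * u a p) (x, y) =
        b i a s y * D (ee i) (fun z => u a (x, z)) y + D (ee i) (b i a s) y * u a (x, y) :=
      fun i a => (GnConj.D_ey' (hb2 i a) i x y).trans
        (P136.D_mul_at ((hb i a s).dAt y) ((hs a).dAt y) _)
    simp only [d2b, Op.app, Op.T, op0, GnConj.Lm_exp ey (GnConj.sm_onY hγ) hφ (hu s),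
      GnConj.dgd_ey hγ (hu s), e, P136.Dm_exp hφ (hb2 _ _), e2, zero_sub, add_assoc, mul_add,
      Finset.mul_sum, neg_mul, Finset.sum_mul, ← Finset.sum_neg_distrib]
    refine congrArg _ ?_
    rw [Finset.sum_comm (s := Finset.univ (α := ι)), ← Finset.sum_add_distrib]
    refine Finset.sum_congr rfl fun i _ => ?_
    rw [← Finset.sum_add_distrib]
    exact Finset.sum_congr rfl fun a _ => by ring

end Vale.Agent.P088.Gain
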