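import Vale.Agent.P088.GnStm

/-!
# P088, the gain: assembly of the steps
-/

open MeasureTheory Set Metric Filter
open scoped ContDiff Topology InnerProductSpace

noncomputable section
namespace Vale.Agent.P088.Gain
open Vale.Agent.P136 (D Dp Dm Sm Tst)

namespace GnCore
variable {n : ℕ} {ι : Type} [Fintype ι]

theorem exists_fx (hp : S_prof) {τ lam δ Cw Mb : ℝ} {K : ℕ} (hτ : 0 < τ) (hl : 0 < lam)
    (hδ : 0 < δ) (hC : 1 ≤ Cw) (hM : 0 ≤ Mb) (hK : 20 ≤ K) : ∃ f : Fx, f.Ok ∧ f.tau ≤ τ ∧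
      f.e1 ≤ τ ∧ 2 * f.lam ≤ lam ∧ 256 * f.t1 ≤ δ ∧ f.Cw = Cw ∧ f.Mb = Mb ∧ f.K = K := by
  obtain ⟨l, l0, l1, l2⟩ : ∃ l : ℝ, 0 < l ∧ l ≤ 1 / 8 ∧ l ≤ lam / 2 :=
    ⟨min (1 / 8) (lam / 2), by positivity, min_le_left _ _, min_le_right _ _⟩
  obtain ⟨e, e0, e1, e2⟩ : ∃ e : ℝ, 0 < e ∧ e ≤ 1 / 100 ∧ e ≤ τ :=
    ⟨min (1 / 100) τ, by positivity, min_le_left _ _, min_le_right _ _⟩
  obtain ⟨t, t0, t1, t2, t3⟩ : ∃ t : ℝ, 0 < t ∧ t ≤ l / 10 ∧ t ≤ δ / 256 ∧ t ≤ τ / 2 :=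
    ⟨min (l / 10) (min (δ / 256) (τ / 2)), by positivity, min_le_left _ _,
      (min_le_right _ _).trans (min_le_left _ _), (min_le_right _ _).trans (min_le_right _ _)⟩
  have h1 : e * l ^ 2 ≤ 1 := by nlinarith [mul_pos l0 l0]
  obtain ⟨s, Om, s0, s1, s2⟩ := hp l (e * l ^ 2 / 100 / 8) t l0 (by linarith) (by positivity)
    (by linarith) t0
  refine ⟨⟨l, e * l ^ 2 / 100 / 8, s, t, e * l ^ 2 / 100, e, Cw, Mb, K, Om⟩,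
    ⟨l0, l1, e0, e1, by positivity, le_of_eq (by ring), by positivity, le_of_eq (by ring), s0, s1,
      by linarith, hC, hM, hK, s2⟩, ?_, e2, by linarith, by linarith, rfl, rfl, rfl⟩
  have h2 : e * l ^ 2 / 100 / l = e * l / 100 := by field_simp
  show t + e * l ^ 2 / 100 / l ≤ τ
  rw [h2]
  nlinarith

theorem isS_op0 {L : Op n ι} {p : En n} (h : ∀ x ∈ U0 p, ∀ a a', L.c a a' x = 0) :
    IsS (op0 L.γ L.b) p = IsS L p := by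
  have e : ∀ W : ι → En n → ℝ, ∀ x ∈ Y0 p, ∀ a, (op0 L.γ L.b).app W a x = L.app W a x := by
    intro W x hx a
    simp only [Op.app, op0, h x (ball_subset_ball (by norm_num) hx)]
  funext W
  refine propext ⟨fun h => ⟨⟨h.1.1, fun x hx a => ?_⟩, h.2⟩, fun h => ⟨⟨h.1.1, fun x hx a => ?_⟩, h.2⟩⟩
  · rw [← e W x hx, h.1.2 x hx]
  · rw [e W x hx, h.1.2 x hx]

omit [Fintype ι] in
theorem good_op0 {L : Op n ι} (h : L.Good) : (op0 L.γ L.b).Good :=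
  ⟨h.1, h.2.1, h.2.2.1, fun _ _ => contDiff_const, h.2.2.2.2⟩

variable {k : ℕ} {om Ci : ℝ} {M : ℕ → ℝ} {L₁ L₂ : Op n ι} {p x : En n} {φ : X2 n → ℝ}
  {W : ι → En n → ℝ}

theorem jet_bd (hwn : G_wn) (hφ : Continuous φ) (hi : IE2 n ι k om M Ci) (hCi : 0 ≤ Ci)
    (hL : L₂.Bd k om M) (hx : x ∈ ball p (1 / 5)) {ℓ CA Cw C₁ : ℝ} {C₀ : ℕ} (h4 : 4 ≤ Real.exp ℓ)
    (hA : ∀ y, ‖y - x‖ * Real.exp ℓ ≤ 1 → φ (x, y) ≤ CA + Cw * ℓ)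
    (hC : 2 * Cw + n + 4 = 4 * C₀) (hW : IsS L₂ p W) :
    (C₁ / Real.exp (2 * ℓ) ^ C₀) ^ 2 * j2 W x ≤ C₁ ^ 2 * Ci * Real.exp (2 * CA) * wn φ p x W := by
  have r0 : 0 < Real.exp (-ℓ) := Real.exp_pos _
  have r1 : Real.exp (-ℓ) * Real.exp ℓ = 1 := by rw [← Real.exp_add]; simp
  have r2 : Real.exp (-ℓ) ≤ 1 / 4 := by nlinarith
  have hs : ball x (Real.exp (-ℓ)) ⊆ Y0 p := ball_subset_ball' (by
    have := mem_ball.1 hx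
    linarith)
  have a1 := (hi L₂ x _ W hL r0 (by linarith) (St1.sol_mono hW.1 hs) (St1.l2_mono hW.2 hs)).2
  have a2 := (hwn n ι φ p x W hφ).2.1 _ (CA + Cw * ℓ) isOpen_ball hs (fun y hy => hA y (by
    have := mem_ball_iff_norm.1 hy
    nlinarith [Real.exp_pos ℓ])) hW.2
  have a3 := a1.trans (mul_le_mul_of_nonneg_left a2 hCi)
  have e1 : (C₁ / Real.exp (2 * ℓ) ^ C₀) ^ 2 =
      C₁ ^ 2 * Real.exp (-(2 * Cw * ℓ)) * Real.exp (-ℓ) ^ (n + 4) := by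
    rw [div_pow, ← Real.exp_nat_mul, ← Real.exp_nat_mul, ← Real.exp_nat_mul, mul_assoc,
      ← Real.exp_add, div_eq_mul_inv, ← Real.exp_neg]
    congr 2
    push_cast
    linear_combination ℓ * hC
  have e2 : Real.exp (2 * CA) = Real.exp (-(2 * Cw * ℓ)) * Real.exp (2 * (CA + Cw * ℓ)) := by
    rw [← Real.exp_add]
    congr 1
    ring
  have a4 := mul_le_mul_of_nonneg_left a3
    (by positivity : 0 ≤ C₁ ^ 2 * Real.exp (-(2 * Cw * ℓ)))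
  rw [e1, e2]
  refine le_of_eq_of_le (by ring) (a4.trans_eq (by ring))

theorem cut_bd (hwn : G_wn) (hφ : Continuous φ) (hi : IE2 n ι k om M Ci) (hCi : 0 ≤ Ci)
    (hL : L₂.Bd k om M) {lam δ ρ Cs B : ℝ} {W' : ι → En n → ℝ} (r0 : 0 < ρ) (r1 : ρ ≤ 1)
    (hCs : 0 ≤ Cs) (hρ : ball x ρ ⊆ Vis p lam δ x) (hB : ∀ y ∈ Vis p lam δ x, φ (x, y) ≤ B)
    (hW : IsS L₂ p W) (hW' : vg W' x ≤ Cs * nrm (Vis p lam δ x) W) :
    vg W' x + vg W x ≤ (Cs + Ci / ρ ^ (n + 2)) * Real.exp (2 * B) * wn φ p x W := by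
  have hv : Vis p lam δ x ⊆ Y0 p := inter_subset_left
  have hs := hρ.trans hv
  have a1 := (hi L₂ x _ W hL r0 r1 (St1.sol_mono hW.1 hs) (St1.l2_mono hW.2 hs)).1
  have a2 := (hwn n ι φ p x W hφ).2.1 _ B (St1.isOpen_Vis p lam δ x) hv hB hW.2
  have a3 : vg W x ≤ Ci / ρ ^ (n + 2) * nrm (Vis p lam δ x) W := by
    rw [div_mul_eq_mul_div, le_div_iff₀ (by positivity)]
    exact a1.trans (mul_le_mul_of_nonneg_left (St1.nrm_mono (St1.l2_mono hW.2 hv) hρ) hCi)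
  have a4 := mul_le_mul_of_nonneg_left a2 (by positivity : 0 ≤ Cs + Ci / ρ ^ (n + 2))
  linarith

theorem dgd_congr {f g : En n → ℝ} (γ : MatF n) (h : f =ᶠ[𝓝 x] g) :
    dgd ee γ f x = dgd ee γ g x := by
  have h2 : ∀ i, XX ee γ f i =ᶠ[𝓝 x] XX ee γ g i := fun i => by
    filter_upwards [h.eventuallyEq_nhds] with y hy
    simp only [XX, fun j => P136.D_congr hy (ee j)]
  simp only [dgd, dvg, fun i => P136.D_congr (h2 i) (ee i)]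

/-- The closeness of the two operators. -/
def Cl (L₁ L₂ : Op n ι) (E : ℝ) (x : En n) : Prop :=
  (∀ i j, SB ee 6 E 1 (fun y => L₁.γ i j y - L₂.γ i j y) x) ∧
    ∀ i a a', |L₁.b i a a' x - L₂.b i a a' x| ≤ E

omit [Fintype ι] in
theorem sm_w {f : Fx} {c : Cx n ι} (w0 : W0 f c) : Sm (phi f c) ∧ Sm (aX f c) ∧ Sm (LX f c) := by
  obtain ⟨-, -, -, -, -, -, -, -, -, -, -, -, -, -, -, -, -, h0, -, -, -, -, -, -, -, -, -, -, -,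
    -, -, -, -, -, -, -, -, h1, h2, -⟩ := w0.1
  exact ⟨h0, h1, h2⟩

theorem ctx_of {f : Fx} {c : Cx n ι} {C C₁ : ℝ} {C₀ : ℕ} {U K : Set (En n)} (w0 : W0 f c)
    (w1 : ∀ g q, TT f c g q → I0 (fun p => aX f c p.1 * LX f c p.1 ^ 2) univ g +
      IX f c g (fun p => LX f c p.1 ^ 2) univ ≤ C * GG f c g q) (hC : 0 ≤ C) (h₁ : SmM c.γ₁)
    (h₂ : (op0 c.γ₂ c.b).Good) (hU : IsOpen U) (hK : IsCompact K) (hKU : K ⊆ U)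
    (hx0 : U ⊆ ball c.p0 (1 / 4)) (hC₀ : 3 ≤ C₀) (ha : ∀ x, 1 ≤ aX f c x ∧ C₁ ≤ aX f c x)
    (hcl : ∀ x ∈ U, ∀ i j, SB ee 6 (C₁ / aX f c x ^ C₀) 1 (fun y => c.γ₁ i j y - c.γ₂ i j y) x) :
    Ctx (phi f c) c.γ₁ c.γ₂ c.b (fun x => aX f c x * LX f c x ^ 2) (fun x => LX f c x ^ 2) U K
      c.p0 C := by
  obtain ⟨sφ, sa, sL⟩ := sm_w w0
  refine ⟨sφ, h₁, h₂, sa.cont.mul (sL.cont.pow 2), sL.cont.pow 2,
    fun x => ⟨mul_nonneg (by linarith [ha x]) (sq_nonneg _), sq_nonneg _⟩, hU, hK, hKU, hx0, hC,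
    fun g q hgq hz => ?_⟩
  have hD : U ×ˢ Y0 c.p0 ⊆ Dom f c := by
    rintro ⟨x, y⟩ ⟨hx, hy⟩
    refine ⟨⟨?_, (mem_ball_iff_norm.1 hy).le⟩, fun i j => ?_⟩
    · exact (mem_ball_iff_norm.1 (hx0 hx)).le.trans (by norm_num)
    · refine (hcl x hx i j).mono le_rfl ?_
      obtain ⟨h1, h2⟩ := ha x
      rw [div_le_div_iff₀ (pow_pos (by linarith) _) (pow_pos (by linarith) _), one_mul]
      calc C₁ * aX f c x ^ 2 ≤ aX f c x * aX f c x ^ 2 :=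
            mul_le_mul_of_nonneg_right h2 (sq_nonneg _)
        _ = aX f c x ^ 3 := by ring
        _ ≤ _ := pow_le_pow_right₀ h1 hC₀
  have := w1 g q ⟨fun s => ⟨(hgq s).1.1, (hgq s).2.1, (hgq s).1.2.trans hD,
    (hgq s).2.2.trans hD⟩, hz⟩
  simp only [I0, IX, GG, Gf, zx, n2, Measure.restrict_univ] at this
  exact this

theorem pw_of (hwn : G_wn) {k' : ℕ} {om' δ lam ρ A Cs B CA Cw C₁ : ℝ} {C₀ : ℕ} {ℓ : ℝ}
    {T : (ι → En n → ℝ) → ι → En n → ℝ} (hφ : Continuous φ) (hi : IE2 n ι k om M Ci)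
    (hCi : 0 ≤ Ci) (b1 : L₁.Bd k' om' M) (b2 : L₂.Bd k om M) (hA : 0 ≤ A) (hpw : PW n ι M δ A)
    (g1 : IsOpen (X0 p δ)) (hx : x ∈ X0 p δ) (hx5 : x ∈ ball p (1 / 5)) (hx1 : ‖x‖ ≤ 1)
    (t1 : TP L₁ L₂ p lam δ Cs T) (hc : ∀ a a', L₁.c a a' x = 0 ∧ L₂.c a a' x = 0)
    (hcl : Cl L₁ L₂ (C₁ / Real.exp (2 * ℓ) ^ C₀) x) (r0 : 0 < ρ) (r1 : ρ ≤ 1) (hCs : 0 ≤ Cs)
    (hρ : ‖x‖ ^ 2 ≤ 1 - δ → ball x ρ ⊆ Vis p lam δ x)
    (hB : ‖x‖ ^ 2 ≤ 1 - δ → ∀ y ∈ Vis p lam δ x, φ (x, y) ≤ B) (h4 : 4 ≤ Real.exp ℓ)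
    (hCA : ∀ y, ‖y - x‖ * Real.exp ℓ ≤ 1 → φ (x, y) ≤ CA + Cw * ℓ)
    (hC : 2 * Cw + n + 4 = 4 * C₀) (hW : IsS L₂ p W) (a : ι) :
    dgd ee L₁.γ (fun z => sec p δ T a z W) x ^ 2 ≤
      A * ∑ e, ∑ j, D (ee j) (fun z => sec p δ T e z W) x ^ 2 +
        A * (C₁ ^ 2 * Ci * Real.exp (2 * CA) + (Cs + Ci / ρ ^ (n + 2)) * Real.exp (2 * B)) *
          wn φ p x W := by
  have hy0 : X0 p δ ⊆ Y0 p := inter_subset_left.trans (ball_subset_ball (by norm_num))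
  have e : ∀ a, (fun z => sec p δ T a z W) =ᶠ[𝓝 x] fun y => chi δ y * (T W a y - W a y) :=
    fun a => by
      filter_upwards [g1.mem_nhds hx] with y hy
      exact indicator_of_mem hy _
  have hw := wn_nonneg φ p x W
  have a1 := hpw _ _ _ _ L₁ L₂ (X0 p δ) W (T W) x b1 b2.1 g1 hx hx1 (t1 W hW).1.1
    (St1.sol_mono hW.1 hy0) hc (fun i j => (hcl.1 i j).mono (by norm_num) le_rfl) hcl.2
    (by positivity) (fun u1 u2 => cut_bd hwn hφ hi hCi b2 r0 r1 hCs (hρ u2) (hB u2) hW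
      (((t1 W hW).2 x hx5 u1).2 u2)) a
  have a2 := mul_le_mul_of_nonneg_left (jet_bd (C₁ := C₁) hwn hφ hi hCi b2 hx5 h4 hCA hC hW) hA
  rw [dgd_congr _ (e a)]
  simp only [fun a j => P136.D_congr (e a) (ee j)]
  linarith

theorem fin_of (hwn : G_wn) {n₀ ℓ CC : ℝ} {C₀ : ℕ} {s : ℝ} (hφ : Continuous φ) (h0 : 0 ≤ n₀)
    (hW : Sol L₂ (Y0 p) W 0) (hb : ∀ y ∈ Y0 p, ∀ a, |W a y| ≤ ‖y - x‖ ^ 2)
    (hs : L2On (Y0 p) W → s ≤ n₀ * wn φ p x W)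
    (hC : ∫ y in Y0 p, Real.exp (-(2 * φ (x, y))) * ‖y - x‖ ^ 4 ≤
      CC * Real.exp (-(4 * C₀ * ℓ))) :
    s ≤ Fintype.card ι * CC * n₀ / Real.exp (2 * ℓ) ^ (2 * C₀) := by
  obtain ⟨u1, u2⟩ := (hwn n ι φ p x W hφ).2.2 hW.1 hb
  have u6 : Real.exp (-(4 * C₀ * ℓ)) = (Real.exp (2 * ℓ) ^ (2 * C₀))⁻¹ := by
    rw [← Real.exp_nat_mul, ← Real.exp_neg]
    congr 1
    push_cast
    ring
  rw [u6] at hC
  refine (hs u1).trans ((mul_le_mul_of_nonneg_left (u2.trans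
    (mul_le_mul_of_nonneg_left hC (Nat.cast_nonneg _))) h0).trans_eq ?_)
  rw [div_eq_mul_inv]
  ring

theorem inner (habs : G_abs) (hgeo : G_geo) (hsec : G_sec) (hwn : G_wn) {f : Fx} {c : Cx n ι}
    {δ lam ρ A Cs B CA CC C C₁ : ℝ} {C₀ : ℕ} (w0 : W0 f c)
    (w1 : ∀ g q, TT f c g q → I0 (fun p => aX f c p.1 * LX f c p.1 ^ 2) univ g +
      IX f c g (fun p => LX f c p.1 ^ 2) univ ≤ C * GG f c g q) (w2 : WA f c CA)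
    (w3 : WB f c lam δ B) (w4 : WC f c CC) (hC : 0 ≤ C) (hCC : 0 ≤ CC) (c4 : c.γ₁ = L₁.γ)
    (c5 : c.γ₂ = L₂.γ) (c6 : c.b = L₂.b) (p1 : ‖c.p0‖ = 1) (hδ : 0 < δ) (d2 : δ ≤ 1 / 200)
    (hi : IE2 n ι k om M Ci) (hCi : 0 ≤ Ci) (b1 : L₁.Bd k om M) (b2 : L₂.Bd k om M) (hA : 0 ≤ A)
    (hpw : PW n ι M δ A) (hst : St1 L₁ L₂ c.p0 lam δ Cs) (hCs : 0 ≤ Cs) (r0 : 0 < ρ) (r1 : ρ ≤ 1)
    (hρ : ∀ x ∈ ball c.p0 (1 / 5), ‖x‖ ^ 2 ≤ 1 - δ → ball x ρ ⊆ Vis c.p0 lam δ x)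
    (hc : ∀ x ∈ U0 c.p0, ∀ a a', L₁.c a a' x = 0 ∧ L₂.c a a' x = 0)
    (hcl : ∀ x ∈ X0 c.p0 δ, Cl L₁ L₂ (C₁ / aX f c x ^ C₀) x) (hC₀ : 3 ≤ C₀)
    (hCw : 2 * f.Cw + n + 4 = 4 * C₀) (ha : ∀ x, 16 ≤ aX f c x ∧ C₁ ≤ aX f c x)
    (q2 : 1 ≤ c.L0) (q4 : Fintype.card ι * C * A ≤ c.L0) :
    ∃ n₀ : En n → ℝ, Continuous n₀ ∧ (∀ x, 0 ≤ n₀ x) ∧
      ∫ x in X1 c.p0 δ, aX f c x * n₀ x ≤ Fintype.card ι * CC * (Fintype.card ι * C *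
        (A * (C₁ ^ 2 * Ci * Real.exp (2 * CA) + (Cs + Ci / ρ ^ (n + 2)) * Real.exp (2 * B))) *
        volume.real (closedBall (0 : En n) 1)) ∧
      ∀ W W' : ι → En n → ℝ, Sol L₂ (Y0 c.p0) W 0 → Cont L₁ c.p0 δ W W' → ∀ x ∈ X1 c.p0 δ,
        (∀ y ∈ Y0 c.p0, ∀ a, |W a y| ≤ ‖y - x‖ ^ 2) →
        ∀ a, W' a x ^ 2 ≤ n₀ x / aX f c x ^ (2 * C₀) := by
  obtain ⟨g1, -, -, -, g5, g6, g7, g8, g9, -⟩ := (hgeo n δ hδ d2).1 c.p0 p1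
  obtain ⟨T, t1, t2, t3⟩ := hsec n ι L₁ L₂ c.p0 lam δ Cs b1.1 b2.1 p1 hδ d2 hst
  obtain ⟨sφ, sa, -⟩ := sm_w w0
  have hL : ∀ x, c.L0 ≤ LX f c x := fun x => (w0.2.1 x).2.1
  have hea : ∀ x, Real.exp (2 * lX f c x) = aX f c x := fun x => (w0.2.1 x).2.2.2.1
  have hx0 : X0 c.p0 δ ⊆ ball c.p0 (1 / 4) := inter_subset_left
  have hy0 : X0 c.p0 δ ⊆ Y0 c.p0 := hx0.trans (ball_subset_ball (by norm_num))
  have hop := isS_op0 (L := L₂) (p := c.p0) fun x hx a a' => (hc x hx a a').2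
  have ctx := ctx_of (C₁ := C₁) w0 w1 hC (c4 ▸ b1.1.1) (by rw [c5, c6]; exact good_op0 b2.1) g1 g5
    g6 hx0 hC₀ (fun x => ⟨by linarith [ha x], (ha x).2⟩)
    (fun x hx => by rw [c4, c5]; exact (hcl x hx).1)
  rw [c4, c5, c6] at ctx
  obtain ⟨n₀, z1, z2, z3, z4⟩ := habs n ι (phi f c) L₁.γ L₂.γ L₂.b (aX f c) (LX f c) _ _ _ C A
    (A * (C₁ ^ 2 * Ci * Real.exp (2 * CA) + (Cs + Ci / ρ ^ (n + 2)) * Real.exp (2 * B)))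
    (sec c.p0 δ T) ctx
    (fun a => by have := t2 a; unfold Adm at this ⊢; rw [hop]; exact this) sa.cont
    (fun x => by linarith [ha x]) hA (by positivity)
    (fun x => by have := hL x; constructor <;> nlinarith) (fun x hx W hW a =>
      pw_of hwn (ℓ := lX f c x) sφ.cont hi hCi b1 b2 hA hpw g1 (g6 hx) (g7 hx)
        (mem_closedBall_zero_iff.1 (g8 hx)) t1
        (hc x (ball_subset_ball (by norm_num) (g7 hx))) (by rw [hea]; exact hcl x (g6 hx)) r0 r1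
        hCs (hρ x (g7 hx)) (w3 x (hx0 (g6 hx)))
        (by
          have h1 := hea x
          rw [two_mul, Real.exp_add] at h1
          nlinarith [ha x, Real.exp_pos (lX f c x)])
        (fun y hy => w2 x y (hx0 (g6 hx)) hy) hCw (hop ▸ hW) a)
  have hcc : 0 ≤ Fintype.card ι * CC := by positivity
  refine ⟨fun x => Fintype.card ι * CC * n₀ x, continuous_const.mul z1,
    fun x => mul_nonneg hcc (z2 x), ?_, fun W W' hW hW' x hx hb a => ?_⟩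
  · simp only [fun x => mul_left_comm (aX f c x) (Fintype.card ι * CC)]
    rw [integral_const_mul]
    exact mul_le_mul_of_nonneg_left ((z3 _).trans (mul_le_mul_of_nonneg_left
      (measureReal_mono g8 measure_closedBall_lt_top.ne) (by positivity))) hcc
  · have u3 := w4 x (hx0 (g9 hx))
    rw [hCw] at u3
    have u4 : W a x = 0 := by simpa using hb x (hy0 (g9 hx)) a
    rw [← hea]
    refine fin_of hwn sφ.cont (z2 x) hW hb (fun u1 => ?_) u3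
    have u5 := z4 x W (by rw [hop]; exact ⟨hW, u1⟩) a
    rwa [t3 W W' ⟨hW, u1⟩ hW' x hx a, u4, sub_zero] at u5

end GnCore

namespace GnCore

theorem maxes {L a b c d : ℝ} (h : max a (max b (max c d)) ≤ L) : a ≤ L ∧ b ≤ L ∧ c ≤ L ∧ d ≤ L := by
  simpa only [max_le_iff] using h

theorem bds {n : ℕ} {ι : Type} {L : Op n ι} {k₁ k₂ : ℕ} {a b c : ℝ} {M : ℕ → ℝ}
    (h : L.Bd (max 8 (max k₁ k₂)) (min a (min b c)) M) :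
    L.Bd k₁ a M ∧ L.Bd k₂ b M ∧ L.Bd 8 c M :=
  ⟨St1.bd_mono h ((le_max_left _ _).trans (le_max_right _ _)) (min_le_left _ _),
    St1.bd_mono h ((le_max_right _ _).trans (le_max_right _ _))
      ((min_le_right _ _).trans (min_le_left _ _)),
    St1.bd_mono h (le_max_left _ _) ((min_le_right _ _).trans (min_le_right _ _))⟩

theorem nums {L0 sg δ C₁ : ℝ} (h : 16 ≤ L0) (h' : C₁ ≤ L0) (s : sg ≤ δ / 32) (d : δ ≤ 1 / 200) :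
    1 ≤ L0 ∧ sg ≤ 1 / 4 ∧ 32 * sg ≤ δ ∧ ∀ a, Real.exp L0 ≤ a → 16 ≤ a ∧ C₁ ≤ a := by
  refine ⟨by linarith, by linarith, by linarith, fun a ha => ?_⟩
  constructor <;> linarith [Real.add_one_le_exp L0]

theorem cw {n C₀ : ℕ} (h : n + 4 ≤ C₀) : (1 : ℝ) ≤ 2 * C₀ - n / 2 - 2 ∧
    2 * (2 * C₀ - n / 2 - 2 : ℝ) + n + 4 = 4 * C₀ ∧ 3 ≤ C₀ := by
  have h' : (n : ℝ) + 4 ≤ C₀ := by exact_mod_cast h
  exact ⟨by linarith [Nat.cast_nonneg (α := ℝ) n], by ring, by omega⟩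

theorem pos {a b c d e g r v w x y : ℝ} {m : ℕ} (ha : 0 ≤ a) (hb : 0 ≤ b) (hc : 0 ≤ c) (hd : 0 ≤ d)
    (he : 0 ≤ e) (hg : 0 ≤ g) (hr : 0 < r) (hv : 0 ≤ v) :
    0 ≤ a * b * (a * c * (d * (w ^ 2 * e * Real.exp x + (g + e / r ^ m) * Real.exp y)) * v) := by
  positivity

end GnCore

open GnCore in
theorem gain_core (hME : S_ME) (hst : S_st1) (hp : S_prof) (h0 : S_w0) (habs : G_abs)
    (hgeo : G_geo) (hsec : G_sec) (hpw : G_pw) (hie : G_ie2) (hwn : G_wn) (hau : G_au)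
    (hwa : G_wa) (hwb : G_wb) (hwc : G_wc) : S_gain := by
  intro n hn ι _ _ M
  obtain ⟨k₁, om₁, lam, δ₁, o1, l0, d1, hst⟩ := hst n hn ι M
  obtain ⟨τ, hτ, hME⟩ := hME n hn ι
  obtain ⟨k₂, om₂, o2, hie⟩ := hie n ι
  obtain ⟨Ci, hCi, hie⟩ := hie M
  refine ⟨min δ₁ (1 / 200), lt_min d1 (by norm_num), fun δ hδ hδ' K C₀ hK hC₀ C₁ => ?_⟩
  have d2 : δ ≤ 1 / 200 := hδ'.trans (min_le_right _ _)
  obtain ⟨Cs, hCs, hst⟩ := hst δ hδ (hδ'.trans (min_le_left _ _))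
  obtain ⟨ρ, r0, r1, hρ⟩ := (hgeo n δ hδ d2).2 lam l0
  obtain ⟨A, hA, hpw⟩ := hpw n ι M δ hδ
  obtain ⟨f, fok, f1, f2, f3, f4, f5, f6, rfl⟩ := exists_fx hp hτ l0 hδ (cw hC₀).1
    (abs_nonneg (M 4)) hK
  have hCw : 2 * f.Cw + n + 4 = 4 * C₀ := f5 ▸ (cw hC₀).2.1
  obtain ⟨C, hC, ev1⟩ := hME f fok f1 f2
  obtain ⟨CA, ev2⟩ := hwa n ι f fok
  obtain ⟨Bv, ev3⟩ := hwb n ι f lam δ fok hδ f3 f4
  obtain ⟨CC, hCC, ev4⟩ := hwc n ι f fok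
  obtain ⟨om₃, L₃, o3, ev⟩ := ((((h0 n ι f fok).and ev1).and ev2).and ev3).and ev4
  refine ⟨max 8 (max k₁ k₂), min om₁ (min om₂ om₃),
    max L₃ (max 16 (max C₁ (Fintype.card ι * C * A))), δ / 32, lt_min o1 (lt_min o2 o3),
    div_pos hδ (by norm_num), fun L0 hL0 => ?_⟩
  obtain ⟨q1, q2, q3, q4⟩ := maxes hL0
  refine ⟨Fintype.card ι * CC * (Fintype.card ι * C *
    (A * (C₁ ^ 2 * Ci * Real.exp (2 * CA) + (Cs + Ci / ρ ^ (n + 2)) * Real.exp (2 * Bv L0))) *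
    volume.real (closedBall (0 : En n) 1)),
    pos (Nat.cast_nonneg _) hCC hC hA hCi hCs r0 measureReal_nonneg,
    fun sg J L₁ L₂ p G₁ G₂ s0 s1 hS hc hcl => ?_⟩
  obtain ⟨p1, b1, b2, hS⟩ := hS
  obtain ⟨u1, u2, u3, u4⟩ := nums q2 q3 s1 d2
  obtain ⟨⟨⟨⟨w0, w1⟩, w2⟩, w3⟩, w4⟩ := ev ⟨L0, sg, J, p, L₁.γ, L₂.γ, L₂.b⟩
    ⟨q1, u1, s0, u2, p1, b1.1.1, b1.1.2.1, (bds b1).2.2.2.1, b2.1.1, b2.1.2.1,
      (bds b2).2.2.2.1, b2.1.2.2.1, fun i a a' x =>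
        ((b2.2.2 4 x).2.1 i a a').mono le_rfl (f6 ▸ le_abs_self _)⟩
  have key := inner habs hgeo hsec hwn w0 w1 w2 (w3 u3) w4 hC hCC rfl rfl rfl
    p1 hδ d2 hie hCi (bds b1).2.1 (bds b2).2.1 hA hpw
    (hst L₁ L₂ p G₁ G₂ ⟨p1, (bds b1).1, (bds b2).1, hS⟩) hCs r0 r1 (hρ p) hc hcl (cw hC₀).2.2 hCw
    (fun x => u4 _ ((hau.1 f.K L0 sg J u1 s0).2.1 _ (sq_nonneg _))) u1 q4
  exact key

end Vale.Agent.P088.Gain
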