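import Vale.Agent.P088.GnStm

/-!
# P088, the gain: the main estimate applied to the kernel with a cutoff
-/

open MeasureTheory Set Metric Filter
open scoped ContDiff Topology InnerProductSpace

noncomputable section
namespace Vale.Agent.P088.Gain
open Vale.Agent.P136 (D Dp Dm Sm Tst)

namespace GnCut
variable {n : ℕ} {ι : Type} [Fintype ι] {p : En n}

/-- Fubini for a function whose slices vanish off `Y0 p`. -/
theorem fub {F : X2 n → ℝ} {f : En n → En n → ℝ} (hF : Integrable F)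
    (h0 : ∀ x y, y ∉ Y0 p → F (x, y) = 0)
    (hf : ∀ x, ∀ᵐ y ∂(volume.restrict (Y0 p)), F (x, y) = f x y) :
    (∫ P, F P = ∫ x, ∫ y in Y0 p, f x y) ∧ Integrable fun x => ∫ y in Y0 p, f x y := by
  have hi : Integrable F ((volume : Measure (En n)).prod volume) := hF
  have e : ∀ x, ∫ y in Y0 p, f x y = ∫ y, F (x, y) := fun x => by
    rw [← integral_congr_ae (hf x)]
    exact setIntegral_eq_integral_of_forall_compl_eq_zero fun y hy => h0 x y hy
  simp only [e]
  exact ⟨integral_prod F hi, hi.integral_prod_left⟩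

theorem red {F : ι → X2 n → ℝ} {w : En n → ℝ} {φ : X2 n → ℝ} {th : En n → ℝ}
    {u : En n → ι → En n → ℝ} (hw : Continuous w) (hF : ∀ a, Tst (F a))
    (h0 : ∀ a x y, y ∉ Y0 p → F a (x, y) = 0)
    (hf : ∀ a x, ∀ᵐ y ∂(volume.restrict (Y0 p)),
      F a (x, y) ^ 2 = (Real.exp (φ (x, y)) * (th y * u x a y)) ^ 2) :
    (∑ a, ∫ P, w P.1 * F a P ^ 2 = ∫ x, w x * Wc φ p th x (u x)) ∧
      Integrable fun x => w x * Wc φ p th x (u x) := by
  have r := fun a => fub (p := p) (F := fun P => w P.1 * F a P ^ 2)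
    (f := fun x y => w x * (Real.exp (2 * φ (x, y)) * (th y * u x a y) ^ 2))
    ((hF a).sq.integrable_cmul (hw.comp continuous_fst)) (fun x y hy => by simp [h0 a x y hy])
    fun x => (hf a x).mono fun y hy => by
      rw [hy, mul_pow, ← Real.exp_nat_mul]
      norm_num
  simp only [integral_const_mul] at r
  simp only [Wc, Finset.mul_sum]
  refine ⟨?_, integrable_finsetSum _ fun a _ => (r a).2⟩
  rw [integral_finsetSum _ fun a _ => (r a).2]
  exact Finset.sum_congr rfl fun a _ => (r a).1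

theorem test_of {f : X2 n → ℝ} {A B U V : Set (En n)} (hf : Sm f) (hA : IsCompact A)
    (hB : IsCompact B) (hU : A ⊆ U) (hV : B ⊆ V) (h : ∀ P, f P ≠ 0 → P.1 ∈ A ∧ P.2 ∈ B) :
    IsTest (U ×ˢ V) f ∧ tsupport f ⊆ A ×ˢ B := by
  have hs : tsupport f ⊆ A ×ˢ B := closure_minimal (fun P hP => h P hP) (hA.prod hB).isClosed
  exact ⟨⟨⟨hf, (hA.prod hB).of_isClosed_subset (isClosed_tsupport _) hs⟩,
    hs.trans (prod_mono hU hV)⟩, hs⟩

theorem ddk_rep (hdrep : G_drep) {γ : MatF n} (hγ : SmM γ) {k : En n → HL n ι (Y0 p)}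
    (hk : ContDiff ℝ ∞ k) {κ : X2 n → ℝ} (hκ : Sm κ) {th : En n → ℝ} (hth : Continuous th) (a : ι)
    (h : ∀ x, (fun y => th y * cp (k x) a y) =ᵐ[volume.restrict (Y0 p)] fun y => κ (x, y))
    (x : En n) : (fun y => th y * cp (ddk γ k x) a y) =ᵐ[volume.restrict (Y0 p)]
      fun y => dgd ex (onX γ) κ (x, y) := by
  have h1 := hdrep n ι p k κ th a hk hκ hth h
  have h2 : ∀ i, ∀ z, (fun y => th y * cp (∑ j, γ i j z • dk k j z) a y)
      =ᵐ[volume.restrict (Y0 p)] fun y => XX ex (onX γ) κ i (z, y) := by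
    intro i z
    filter_upwards [cp_sum Finset.univ (fun j => γ i j z • dk k j z) a,
      ae_all_iff.2 fun j => cp_smul (γ i j z) (dk k j z) a, ae_all_iff.2 fun j => h1 z j]
      with y a1 a2 a3
    rw [a1, Finset.mul_sum]
    refine Finset.sum_congr rfl fun j _ => ?_
    rw [a2, mul_left_comm, a3]
    rfl
  have h3 := fun i => hdrep n ι p _ _ th a (sm_gk hγ hk i) (P136.Sm.sum fun j _ =>
    P136.Sm.mul ((hγ i j).comp contDiff_fst) (hκ.D (ex j))) hth (h2 i) x i
  filter_upwards [cp_sum Finset.univ (fun i => dk (fun z => ∑ j, γ i j z • dk k j z) i x) a,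
    ae_all_iff.2 h3] with y a1 a2
  rw [ddk, a1, Finset.mul_sum]
  exact Finset.sum_congr rfl fun i _ => a2 i

theorem tst_Lm {v : Fin n → X2 n} {γ : Fin n → Fin n → X2 n → ℝ} {φ f : X2 n → ℝ} (hγ : SmM γ)
    (hφ : Sm φ) (hf : Tst f) : Tst (Lm v γ φ f) :=
  P136.Tst.sum _ fun i _ => P136.Tst.Dm hφ (P136.Tst.sum _ fun j _ =>
    P136.Tst.mul_left (hγ i j) (P136.Tst.Dm hφ hf _)) _

theorem dgd_zero {v : Fin n → X2 n} (γ : Fin n → Fin n → X2 n → ℝ) {f : X2 n → ℝ} {P : X2 n}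
    (h : P ∉ tsupport f) : dgd v γ f P = 0 := by
  have h0 : ∀ i, tsupport (XX v γ f i) ⊆ tsupport f := fun i =>
    closure_minimal (fun Q hQ => by_contra fun h2 => hQ (Finset.sum_eq_zero fun j _ => by
      rw [P136.D_eq_zero_of_notMem h2, mul_zero])) (isClosed_tsupport f)
  simp only [dgd, dvg, fun i => P136.D_eq_zero_of_notMem (fun h1 => h (h0 i h1)) (v i),
    Finset.sum_const_zero]

end GnCut

open GnCut in
theorem g_cut (hdrep : G_drep) (hconj : G_conj) : G_cut := by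
  intro n ι _ φ γ₁ γ₂ b w₀ w₁ U K K' p C ρ ρ' k G th σ ctx ker hth hth1 r1 r2 r3 hσ hK' hKU' hσ0
  obtain ⟨hφ, h₁, h₂, c0, c1, -, -, hK, hKU, hU, -, hme⟩ := ctx
  obtain ⟨hk, hG, hG0, hkG, hsm⟩ := ker
  have hsm := hsm th hth
  obtain ⟨γ, hγ⟩ : ∃ γ : ι → X2 n → ℝ, γ = fun a P => th P.2 * G P.1 a P.2 := ⟨_, rfl⟩
  have hγs : ∀ a, Sm (γ a) := hγ ▸ hsm
  obtain ⟨κ, hκ⟩ : ∃ κ : ι → X2 n → ℝ, κ = fun a P => Real.exp (-(2 * φ P)) * γ a P := ⟨_, rfl⟩
  have hκs : ∀ a, Sm (κ a) := fun a => hκ ▸ (hφ.cmul 2).neg.exp.mul (hγs a)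
  have hg' : (fun a P => Real.exp (φ P) * κ a P) = fun a P => Real.exp (-φ P) * γ a P := by
    funext a P
    simp only [hκ]
    rw [← mul_assoc, ← Real.exp_add]
    congr 2
    ring
  have κ0 : ∀ a P, κ a P ≠ 0 → P.1 ∈ K ∧ P.2 ∈ tsupport th := by
    intro a P hP
    constructor
    · by_contra h
      exact hP (by simp [hκ, hγ, hG0 P.1 h])
    · by_contra h
      exact hP (by simp [hκ, hγ, image_eq_zero_of_notMem_tsupport h])
  have hρ : closedBall p ρ' ⊆ ball p ρ := closedBall_subset_ball r3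
  have hρ' : ball p ρ ⊆ Y0 p := ball_subset_ball r2
  have Tκ := fun a => test_of (hκs a) hK hth.1.2 hKU hth.2 (κ0 a)
  have Tg := fun a => test_of (hφ.exp.mul (hκs a)) hK hth.1.2 hKU hth.2
    fun P hP => κ0 a P (right_ne_zero_of_mul hP)
  have Tq := fun a => test_of (hφ.exp.mul (hσ a)) hK' (isCompact_closedBall p ρ') hKU'
    (hρ.trans hρ') fun P hP => hσ0 a P (right_ne_zero_of_mul hP)
  have main := hme (fun a P => Real.exp (φ P) * κ a P) (fun a P => Real.exp (φ P) * σ a P)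
    (fun a => ⟨(Tg a).1, (Tq a).1⟩) (by
      rintro ⟨x, y⟩ hP s
      rw [hg', (hconj n ι φ γ₂ b γ s x y hφ h₂.1 h₂.2.2.1 hγs).1]
      by_cases hx : x ∈ K
      · have hy : y ∈ ball p ρ := by
          rcases hP with ⟨a, ha⟩ | hP
          · exact hρ ((Tq a).2 ha).2
          · have h1 := mem_ball.1 (hU (hKU hx))
            have h2 : dist y x ≤ 1 / 10 := by rw [dist_eq_norm]; exact hP
            exact mem_ball.2 (by linarith [dist_triangle y x p])
        rw [St1.app_congr _ (W' := G x) fun a => ?_, (hG x).2 y (hρ' hy)]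
        · simp
        · filter_upwards [isOpen_ball.mem_nhds hy] with z hz
          simp [hγ, hth1 z hz]
      · have : (fun a z => γ a (x, z)) = 0 := by
          funext a z
          simp [hγ, hG0 x hx]
        rw [this, St1.app_zero, mul_zero])
  have ae0 : ∀ a x, (fun y => th y * cp (k x) a y) =ᵐ[volume.restrict (Y0 p)]
      fun y => κ a (x, y) := fun a x => (hkG x a).mono fun y hy => by
    simp only [hy, hκ, hγ]
    ring
  have nκ : ∀ a x y, y ∉ Y0 p → (x, y) ∉ tsupport (κ a) := fun a x y hy h =>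
    hy (hth.2 ((Tκ a).2 h).2)
  have sT0 : ∀ a x y, y ∉ closedBall p ρ' → (op0 γ₂ b).T.app (fun e z => σ e (x, z)) a y = 0 := by
    intro a x y hy
    rw [St1.app_congr _ (W' := 0) fun e => ?_, St1.app_zero]
    filter_upwards [isClosed_closedBall.isOpen_compl.mem_nhds hy] with z hz
    by_contra h
    exact hz (hσ0 e (x, z) h).2
  have q0 := red (φ := φ) (th := th) (u := fun x => cp (k x)) c0 (fun a => (Tg a).1.1)
    (fun a x y hy => by simp [image_eq_zero_of_notMem_tsupport (nκ a x y hy)])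
    fun a x => (ae0 a x).mono fun y hy => by
      beta_reduce at hy
      rw [hy]
  have q1 := fun j => red (φ := φ) (th := th) (u := fun x => cp (dk k j x)) c1
    (fun a => P136.Tst.Dm hφ (Tg a).1.1 (ex j))
    (fun a x y hy => by
      rw [P136.Dm_exp hφ (hκs a)]
      simp [P136.D_eq_zero_of_notMem (nκ a x y hy)])
    fun a x => (hdrep n ι p k (κ a) th a hk (hκs a) hth.1.1.continuous (ae0 a) x j).mono
      fun y hy => by
        beta_reduce at hy
        rw [P136.Dm_exp hφ (hκs a), neg_sq, hy]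
  have e12 : ∀ a x y, Lm ex (onX γ₁) φ (fun P => Real.exp (φ P) * κ a P) (x, y) +
      d2b γ₂ b φ (fun a P => Real.exp (φ P) * σ a P) a (x, y) = Real.exp (φ (x, y)) *
      (dgd ex (onX γ₁) (κ a) (x, y) + (op0 γ₂ b).T.app (fun e z => σ e (x, z)) a y) := by
    intro a x y
    rw [(hconj n ι φ γ₁ b κ a x y hφ h₁ h₂.2.2.1 hκs).2.2,
      (hconj n ι φ γ₂ b σ a x y hφ h₂.1 h₂.2.2.1 hσ).2.1, mul_add]
  have q2 := red (p := p) (φ := φ) (th := th) (w := fun _ => 1)
    (u := fun x a y => cp (ddk γ₁ k x) a y + (op0 γ₂ b).T.app (fun e z => σ e (x, z)) a y)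
    (F := fun a P => Lm ex (onX γ₁) φ (fun P => Real.exp (φ P) * κ a P) P +
      d2b γ₂ b φ (fun a P => Real.exp (φ P) * σ a P) a P) continuous_const
    (fun a => (tst_Lm (fun i j => (h₁ i j).comp contDiff_fst) hφ (Tg a).1.1).add
      ((tst_Lm (fun i j => (h₂.1 i j).comp contDiff_snd) hφ (Tq a).1.1).add
        (P136.Tst.sum _ fun i _ => P136.Tst.sum _ fun e _ => P136.Tst.Dm hφ
          (P136.Tst.mul_left ((h₂.2.2.1 i e a).comp contDiff_snd) (Tq e).1.1) _)))
    (fun a x y hy => by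
      rw [e12, sT0 a x y fun h => hy (hρ' (hρ h)), dgd_zero _ (nκ a x y hy)]
      simp)
    fun a x => (ddk_rep hdrep h₁ hk (hκs a) hth.1.1.continuous a (ae0 a) x).mono fun y hy => by
      beta_reduce at hy
      rw [e12, mul_add (th y), hy]
      by_cases h : y ∈ closedBall p ρ'
      · rw [hth1 y (hρ h), one_mul]
      · rw [sT0 a x y h, mul_zero]
  simp only [one_mul] at q2
  refine ⟨q2.2, le_of_eq_of_le ?_ (main.trans_eq (by rw [q2.1]))⟩
  rw [q0.1]
  congr 1
  simp only [Finset.mul_sum]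
  rw [integral_finsetSum _ fun j _ => (q1 j).2, Finset.sum_congr rfl fun j _ => (q1 j).1.symm,
    Finset.sum_comm]
  refine Finset.sum_congr rfl fun a _ => (integral_finsetSum _ fun j _ => ?_).symm
  exact (P136.Tst.Dm hφ (Tg a).1.1 (ex j)).sq.integrable_cmul (c1.comp continuous_fst)

end Vale.Agent.P088.Gain
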