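import Vale.Agent.P088.GnStm

/-!
# P088, the gain: elementary geometry
-/

open MeasureTheory Set Metric Filter
open scoped ContDiff Topology InnerProductSpace

noncomputable section
namespace Vale.Agent.P088.Gain
open Vale.Agent.P136 (D Dp Dm Sm Tst)

namespace GnGeo

variable {n : ℕ} {p x : En n} {δ : ℝ}

lemma nsq (hp : ‖p‖ = 1) (a b : ℝ) (x : En n) :
    ‖a • p + b • x‖ ^ 2 = a ^ 2 + 2 * a * b * ⟪p, x⟫_ℝ + b ^ 2 * ‖x‖ ^ 2 := by
  rw [norm_add_sq_real, norm_smul, norm_smul, hp, real_inner_smul_left, real_inner_smul_right,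
    mul_pow, mul_pow, Real.norm_eq_abs, Real.norm_eq_abs, sq_abs, sq_abs]
  ring

lemma dsq (hp : ‖p‖ = 1) (a : ℝ) (x : En n) :
    dist x (a • p) ^ 2 = a ^ 2 - 2 * a * ⟪p, x⟫_ℝ + ‖x‖ ^ 2 := by
  rw [dist_eq_norm, show x - a • p = (-a) • p + (1 : ℝ) • x by module, nsq hp]
  ring

lemma dsq1 (hp : ‖p‖ = 1) (x : En n) : dist x p ^ 2 = 1 - 2 * ⟪p, x⟫_ℝ + ‖x‖ ^ 2 := by
  simpa using dsq hp 1 x

lemma dist_smul (hp : ‖p‖ = 1) (a b : ℝ) : dist (a • p) (b • p) = |a - b| := by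
  rw [dist_eq_norm, ← sub_smul, norm_smul, hp, mul_one, Real.norm_eq_abs]

lemma q_ball (hp : ‖p‖ = 1) : (9 / 8 : ℝ) • p ∈ ball p (1 / 4) := by
  have := dist_smul hp (9 / 8) 1
  rw [one_smul] at this
  rw [mem_ball, this, abs_of_pos] <;> norm_num

lemma q_mem (hp : ‖p‖ = 1) (h0 : 0 < δ) : (9 / 8 : ℝ) • p ∈ X0 p δ := by
  refine ⟨q_ball hp, ?_⟩
  show 1 - 3 * δ < ‖(9 / 8 : ℝ) • p‖ ^ 2
  rw [norm_smul, hp, Real.norm_eq_abs, mul_one, sq_abs]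
  linarith

lemma star (hp : ‖p‖ = 1) (h0 : 0 < δ) : StarConvex ℝ ((9 / 8 : ℝ) • p) (X0 p δ) := by
  intro y hy a b ha hb hab
  refine ⟨convex_ball p _ (q_ball hp) hy.1 ha hb hab, ?_⟩
  have h1 : 1 - 3 * δ < ‖y‖ ^ 2 := hy.2
  have h2 := pow_le_pow_left₀ dist_nonneg (mem_ball.1 hy.1).le 2
  rw [dsq1 hp] at h2
  show 1 - 3 * δ < _
  rw [smul_smul, nsq hp]
  have k1 : 0 ≤ a * b * (9 / 4 * ⟪p, y⟫_ℝ - 2 * (1 - 3 * δ)) :=
    mul_nonneg (mul_nonneg ha hb) (by linarith)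
  have k2 : 0 ≤ b ^ 2 * (‖y‖ ^ 2 - (1 - 3 * δ)) := mul_nonneg (sq_nonneg b) (by linarith)
  have e : 1 - 3 * δ = (a + b) ^ 2 * (1 - 3 * δ) := by rw [hab]; ring
  rcases ha.eq_or_lt with rfl | ha
  · rw [zero_add] at hab
    subst hab
    linarith
  · have k3 : 0 < a ^ 2 * (81 / 64 - (1 - 3 * δ)) := mul_pos (by positivity) (by linarith)
    linarith

lemma kk_ball (hp : ‖p‖ = 1) (h1 : δ ≤ 1 / 200) : KK p δ ⊆ ball p (1 / 5) := fun x hx => by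
  have a1 : 1 - 2 * δ ≤ ‖x‖ ^ 2 := hx.2
  have a2 := pow_le_pow_left₀ dist_nonneg (mem_closedBall.1 hx.1) 2
  rw [dsq hp] at a2
  refine mem_ball.2 (lt_of_pow_lt_pow_left₀ 2 (by norm_num) ?_)
  rw [dsq1 hp]
  linarith

end GnGeo

open GnGeo in
theorem g_geo : G_geo := by
  intro n δ h0 h1
  refine ⟨fun p hp => ⟨isOpen_ball.inter (isOpen_lt continuous_const (by fun_prop)),
    ((star hp h0).isPathConnected (q_mem hp h0)).isConnected.isPreconnected,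
    isOpen_ball.sdiff isClosed_closedBall,
    ⟨_, q_mem hp h0, ball_subset_ball (by norm_num) (q_ball hp), ?_⟩,
    (isCompact_closedBall _ _).inter_right (isClosed_le continuous_const (by fun_prop)),
    fun x hx => ⟨ball_subset_ball (by norm_num) (kk_ball hp h1 hx), ?_⟩, kk_ball hp h1,
    inter_subset_left.trans (closedBall_subset_closedBall' ?_),
    fun x hx => ⟨ball_subset_ball (by norm_num) hx.1, ?_⟩, fun x hx hk => ?_⟩, fun lam hl => ?_⟩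
  · rw [mem_closedBall, dist_smul hp, abs_of_pos] <;> norm_num
  · have : 1 - 2 * δ ≤ ‖x‖ ^ 2 := hx.2
    show 1 - 3 * δ < _
    linarith
  · rw [dist_zero_right, norm_smul, hp]
    norm_num
  · have : 1 - δ ≤ ‖x‖ ^ 2 := hx.2
    show 1 - 3 * δ < _
    linarith
  · refine or_iff_not_imp_right.2 fun h =>
      ⟨ball_subset_ball (by norm_num) hx.1, fun h' => hk ⟨h', not_lt.1 h⟩⟩
  · obtain ⟨ρ, ρ0, e⟩ : ∃ ρ : ℝ, 0 < ρ ∧ ρ * (2 * (2 + lam)) = δ :=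
      ⟨δ / (2 * (2 + lam)), by positivity, div_mul_cancel₀ _ (by positivity)⟩
    have l1 := mul_pos ρ0 hl
    refine ⟨ρ, ρ0, by linarith, fun p x hx hn y hy => ⟨?_, ?_⟩⟩
    · have := dist_triangle y x p
      rw [mem_ball] at hx hy
      exact mem_ball.2 (by linarith)
    · have a1 : ‖y - x‖ < ρ := mem_ball_iff_norm.1 hy
      have a2 : ‖x‖ ≤ 1 := abs_le_of_sq_le_sq' (by linarith) zero_le_one |>.2
      have a3 : ‖(1 / 2 : ℝ) • (x + y)‖ ≤ ‖x‖ + ρ / 2 := by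
        rw [show (1 / 2 : ℝ) • (x + y) = x + (1 / 2 : ℝ) • (y - x) by module]
        refine (norm_add_le _ _).trans ?_
        rw [norm_smul, Real.norm_of_nonneg (by norm_num)]
        linarith
      have a4 := pow_le_pow_left₀ (norm_nonneg _) a3 2
      have a5 := mul_le_mul_of_nonneg_left (show ρ ≤ 1 by linarith) ρ0.le
      show ‖(1 / 2 : ℝ) • (x + y)‖ ^ 2 + lam * ‖y - x‖ < 1 - δ / 8
      linarith [mul_lt_mul_of_pos_left a1 hl, mul_le_mul_of_nonneg_left a2 ρ0.le]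

end Vale.Agent.P088.Gain
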