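import Vale.Agent.P088.St1Defs

/-!
# P088, first stage: the pointwise bound and the commutator with a cutoff function
-/

open MeasureTheory Set Metric Filter
open scoped ContDiff Topology InnerProductSpace

noncomputable section
namespace Vale.Agent.P088
open Vale.Agent.P136 (D Dp Dm Sm Tst D_mul_at D_sum_at D_congr D_add_at D_const contDiffOn_D
  dAt_of_on)

namespace St1Vg
variable {n : ℕ} {ι : Type} [Fintype ι]

theorem ell {γ : Fin n → Fin n → ℝ}
    (h : ∀ i j, |γ i j - if i = j then 1 else 0| ≤ 1 / (2 * (n + 1))) (ξ : Fin n → ℝ) :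
    1 / 2 * ∑ i, ξ i ^ 2 ≤ ∑ i, ∑ j, γ i j * ξ i * ξ j := by
  set om : ℝ := 1 / (2 * (n + 1)) with hom
  have h1 : ∀ i j, (if i = j then ξ i ^ 2 else 0) - om / 2 * (ξ i ^ 2 + ξ j ^ 2)
      ≤ γ i j * ξ i * ξ j := by
    intro i j
    obtain ⟨h2, h3⟩ := abs_le.1 (h i j)
    have h4 : (if i = j then ξ i ^ 2 else 0) = (if i = j then 1 else 0) * ξ i * ξ j := by
      split_ifs with hij
      · rw [hij]
        ring
      · ring
    rw [h4]
    generalize (if i = j then (1 : ℝ) else 0) = d at h2 h3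
    nlinarith [mul_nonneg (sub_nonneg.2 h2) (sq_nonneg (ξ i + ξ j)),
      mul_nonneg (sub_nonneg.2 h3) (sq_nonneg (ξ i - ξ j))]
  refine le_trans ?_ (Finset.sum_le_sum fun i _ => Finset.sum_le_sum fun j _ => h1 i j)
  simp only [Finset.sum_sub_distrib, Finset.sum_ite_eq, Finset.mem_univ, if_true,
    ← Finset.mul_sum, Finset.sum_add_distrib, Finset.sum_const, Finset.card_univ,
    Fintype.card_fin, nsmul_eq_mul]
  have hS : 0 ≤ ∑ i, ξ i ^ 2 := Finset.sum_nonneg fun _ _ => sq_nonneg _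
  have h5 : om * n ≤ 1 / 2 := by
    rw [hom, div_mul_eq_mul_div, div_le_div_iff₀ (by positivity) (by positivity)]
    linarith
  nlinarith [mul_le_mul_of_nonneg_right h5 hS]

theorem Ds_zero (l : List (Fin n)) : Ds ee l (0 : En n → ℝ) = 0 := by
  induction l with
  | nil => rfl
  | cons i l ih =>
    show D (ee i) (Ds ee l 0) = 0
    rw [ih]
    funext x
    exact D_const 0 _ x

theorem expand {L : Op n ι} (hL : L.Good) {V : Set (En n)} (hV : IsOpen V) {θ : En n → ℝ}
    (hθ : Sm θ) {W : ι → En n → ℝ} (hW : SmOn V W) {x : En n} (hx : x ∈ V) (a : ι) :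
    L.app (mulF θ W) a x = θ x * L.app W a x +
      (∑ i, ∑ j, (D (ee i) θ x * (L.γ i j x * D (ee j) (W a) x) +
        (L.γ i j x * (D (ee j) θ x * D (ee i) (W a) x + D (ee i) (D (ee j) θ) x * W a x) +
          D (ee i) (L.γ i j) x * (D (ee j) θ x * W a x))) +
      ∑ i, ∑ a', L.b i a a' x * (D (ee i) θ x * W a' x)) := by
  have h1 : ∀ a' j, ∀ y ∈ V, D (ee j) (mulF θ W a') y =
      θ y * D (ee j) (W a') y + D (ee j) θ y * W a' y := fun a' j y hy =>
    D_mul_at (hθ.dAt y) (dAt_of_on hV (hW a') hy) _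
  have hd : DifferentiableAt ℝ (W a) x := dAt_of_on hV (hW a) hx
  have hd1 : ∀ j, DifferentiableAt ℝ (D (ee j) (W a)) x := fun j =>
    dAt_of_on hV (contDiffOn_D hV (hW a) _) hx
  have hγ : ∀ i j, DifferentiableAt ℝ (L.γ i j) x := fun i j => (hL.1 i j).dAt x
  have hXX : ∀ i, DifferentiableAt ℝ (XX ee L.γ (W a) i) x := fun i =>
    DifferentiableAt.fun_sum fun j _ => (hγ i j).mul (hd1 j)
  have h3 : ∀ j, DifferentiableAt ℝ (fun y => D (ee j) θ y * W a y) x := fun j =>
    ((hθ.D _).dAt x).mul hd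
  have h2 : ∀ i, D (ee i) (XX ee L.γ (mulF θ W a) i) x = θ x * D (ee i) (XX ee L.γ (W a) i) x +
      ∑ j, (D (ee i) θ x * (L.γ i j x * D (ee j) (W a) x) +
        (L.γ i j x * (D (ee j) θ x * D (ee i) (W a) x + D (ee i) (D (ee j) θ) x * W a x) +
          D (ee i) (L.γ i j) x * (D (ee j) θ x * W a x))) := by
    intro i
    have e : XX ee L.γ (mulF θ W a) i =ᶠ[𝓝 x] fun y => θ y * XX ee L.γ (W a) i y +
        ∑ j, L.γ i j y * (D (ee j) θ y * W a y) := by
      filter_upwards [hV.mem_nhds hx] with y hy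
      simp only [XX, h1 a _ y hy, Finset.mul_sum, ← Finset.sum_add_distrib]
      exact Finset.sum_congr rfl fun j _ => by ring
    rw [D_congr e, D_add_at ((hθ.dAt x).fun_mul (hXX i))
      (DifferentiableAt.fun_sum fun j _ => (hγ i j).fun_mul (h3 j)), D_mul_at (hθ.dAt x) (hXX i),
      D_sum_at _ fun j _ => (hγ i j).fun_mul (h3 j), Finset.sum_add_distrib, ← Finset.mul_sum,
      add_assoc]
    congr 2
    refine Finset.sum_congr rfl fun j _ => ?_
    rw [D_mul_at (hγ i j) (h3 j), D_mul_at ((hθ.D _).dAt x) hd]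
  have h4 : ∀ i a', L.b i a a' x * D (ee i) (mulF θ W a') x =
      θ x * (L.b i a a' x * D (ee i) (W a') x) + L.b i a a' x * (D (ee i) θ x * W a' x) := by
    intro i a'
    rw [h1 a' i x hx]
    ring
  have h5 : ∀ a', L.c a a' x * mulF θ W a' x = θ x * (L.c a a' x * W a' x) := by
    intro a'
    simp only [mulF]
    ring
  simp only [Op.app, dgd, dvg, h2, h4, h5]
  simp only [Finset.sum_add_distrib, ← Finset.mul_sum]
  ring

theorem m3 {a b c A B C : ℝ} (ha : |a| ≤ A) (hb : |b| ≤ B) (hc : |c| ≤ C) :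
    |a * (b * c)| ≤ A * B * C := by
  rw [abs_mul, abs_mul, mul_assoc]
  have hA := (abs_nonneg a).trans ha
  have hB := (abs_nonneg b).trans hb
  gcongr

end St1Vg

theorem s1_vg (hie : S_ie) : S1_vg := by
  intro n ι _
  obtain ⟨k, hk⟩ := hie n ι 1
  refine ⟨k, 1 / (2 * (n + 1)), by positivity, fun M r hr hr1 => ?_⟩
  obtain ⟨C, hC, h⟩ := hk (1 / 2) (M k) (by norm_num)
  refine ⟨Fintype.card ι * ((n + 1) * (C / r ^ (2 + n))), by positivity, ?_⟩
  intro L x W hL hS h2
  have hN := St1.nrm_nonneg (ball x r) W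
  have hb : L.BdOn (ball x r) k (1 / 2) (M k) := fun y _ =>
    ⟨St1Vg.ell fun i j => by simpa [Ds] using hL.2.1 i j y [] (Nat.zero_le _), hL.2.2 k y⟩
  have h3 := h L x r (nrm (ball x r) W) W 0 hL.1 hr hr1 hb hS (fun a => contDiffOn_const) h2 le_rfl
    (fun l _ => by
      simp only [Pi.zero_apply, St1Vg.Ds_zero]
      exact ⟨fun a => MemLp.zero, by simpa [nrm] using hN⟩)
  have hx : x ∈ ball x (r / 2) := mem_ball_self (by positivity)
  have hp : 0 < r ^ (2 + n) := by positivity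
  have h4 : ∀ a, W a x ^ 2 ≤ C / r ^ (2 + n) * nrm (ball x r) W := by
    intro a
    have h5 := h3 [] (Nat.zero_le _) a x hx
    rw [div_mul_eq_mul_div, le_div_iff₀ hp]
    refine le_trans (mul_le_mul_of_nonneg_left ?_ (sq_nonneg _)) h5
    exact pow_le_pow_of_le_one hr.le hr1 (by simp)
  have h6 : ∀ a j, D (ee j) (W a) x ^ 2 ≤ C / r ^ (2 + n) * nrm (ball x r) W := by
    intro a j
    have h5 := h3 [j] le_rfl a x hx
    rw [div_mul_eq_mul_div, le_div_iff₀ hp]
    exact h5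
  refine (Finset.sum_le_sum fun a _ => add_le_add (h4 a)
    (Finset.sum_le_sum fun j _ => h6 a j)).trans (le_of_eq ?_)
  simp only [Finset.sum_const, Finset.card_univ, Fintype.card_fin, nsmul_eq_mul]
  ring

theorem s1_com : S1_com := by
  intro n ι _ M B
  refine ⟨Fintype.card ι * ((n * (n * 4) + n * Fintype.card ι) * (|M 1| * |B|)) ^ 2,
    by positivity, ?_⟩
  intro k om L V θ W x hL hV hx hS hθ hB
  have hv : 0 ≤ vg W x := Finset.sum_nonneg fun a _ => by positivity
  have ha : ∀ a, W a x ^ 2 + ∑ j, D (ee j) (W a) x ^ 2 ≤ vg W x := fun a =>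
    Finset.single_le_sum (f := fun a => W a x ^ 2 + ∑ j, D (ee j) (W a) x ^ 2)
      (fun a _ => by positivity) (Finset.mem_univ a)
  have w0 : ∀ a, |W a x| ≤ √(vg W x) := fun a => Real.abs_le_sqrt (by
    have : 0 ≤ ∑ j, D (ee j) (W a) x ^ 2 := by positivity
    linarith [ha a])
  have w1 : ∀ a j, |D (ee j) (W a) x| ≤ √(vg W x) := fun a j => Real.abs_le_sqrt (by
    have := Finset.single_le_sum (f := fun j => D (ee j) (W a) x ^ 2)
      (fun j _ => sq_nonneg _) (Finset.mem_univ j)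
    linarith [ha a, sq_nonneg (W a x)])
  have g0 : ∀ i j, |L.γ i j x| ≤ |M 1| := fun i j =>
    le_trans (by simpa [Ds] using (hL.2.2 1 x).1 i j [] (Nat.zero_le _)) (le_abs_self _)
  have g1 : ∀ i j, |D (ee i) (L.γ i j) x| ≤ |M 1| := fun i j =>
    le_trans (by simpa [Ds] using (hL.2.2 1 x).1 i j [i] le_rfl) (le_abs_self _)
  have b0 : ∀ i a a', |L.b i a a' x| ≤ |M 1| := fun i a a' =>
    le_trans (by simpa [Ds] using (hL.2.2 1 x).2.1 i a a' [] (Nat.zero_le _)) (le_abs_self _)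
  have t1 : ∀ i, |D (ee i) θ x| ≤ |B| := fun i =>
    le_trans (by simpa [Ds] using hB [i] (by simp)) (le_abs_self _)
  have t2 : ∀ i j, |D (ee i) (D (ee j) θ) x| ≤ |B| := fun i j =>
    le_trans (by simpa [Ds] using hB [i, j] (by simp)) (le_abs_self _)
  have key : ∀ a, |L.app (mulF θ W) a x| ≤
      (n * (n * 4) + n * Fintype.card ι) * (|M 1| * |B|) * √(vg W x) := by
    intro a
    rw [St1Vg.expand hL.1 hV hθ hS.1 hx a, hS.2 x hx a, Pi.zero_apply, Pi.zero_apply, mul_zero,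
      zero_add]
    refine (abs_add_le _ _).trans ((add_le_add
      ((Finset.abs_sum_le_sum_abs _ _).trans (Finset.sum_le_sum (g := fun _ =>
        ∑ _j : Fin n, 4 * (|M 1| * |B| * √(vg W x))) fun i _ =>
          (Finset.abs_sum_le_sum_abs _ _).trans (Finset.sum_le_sum fun j _ => ?_)))
      ((Finset.abs_sum_le_sum_abs _ _).trans (Finset.sum_le_sum (g := fun _ =>
        ∑ _a : ι, |M 1| * |B| * √(vg W x)) fun i _ =>
          (Finset.abs_sum_le_sum_abs _ _).trans (Finset.sum_le_sum fun a' _ =>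
            St1Vg.m3 (b0 i a a') (t1 i) (w0 a'))))).trans (le_of_eq ?_))
    · have e1 := abs_le.1 (St1Vg.m3 (t1 i) (g0 i j) (w1 a j))
      have e2 := abs_le.1 (St1Vg.m3 (g0 i j) (t1 j) (w1 a i))
      have e3 := abs_le.1 (St1Vg.m3 (g0 i j) (t2 i j) (w0 a))
      have e4 := abs_le.1 (St1Vg.m3 (g1 i j) (t1 j) (w0 a))
      rw [abs_le]
      constructor <;> linarith [e1.1, e1.2, e2.1, e2.2, e3.1, e3.2, e4.1, e4.2]
    · simp only [Finset.sum_const, Finset.card_univ, Fintype.card_fin, nsmul_eq_mul]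
      ring
  refine (Finset.sum_le_sum (g := fun _ =>
    ((n * (n * 4) + n * Fintype.card ι) * (|M 1| * |B|)) ^ 2 * vg W x) fun a _ => ?_).trans
    (le_of_eq ?_)
  · have h1 := pow_le_pow_left₀ (abs_nonneg _) (key a) 2
    rwa [sq_abs, mul_pow, Real.sq_sqrt hv] at h1
  · simp only [Finset.sum_const, Finset.card_univ, nsmul_eq_mul]
    ring

end Vale.Agent.P088
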