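import Vale.Agent.P088.GnStm
import Vale.Agent.P088.St1Vg

/-!
# P088, the gain: interior estimates, evaluation, weighted norms
-/

open MeasureTheory Set Metric Filter
open scoped ContDiff Topology InnerProductSpace

noncomputable section
namespace Vale.Agent.P088.Gain
open Vale.Agent.P136 (D Dp Dm Sm Tst)

namespace GnIe
variable {n : ℕ} {ι : Type} [Fintype ι]

theorem rhs_zero (U : Set (En n)) (r : ℝ) {N : ℝ} (hN : 0 ≤ N) (l : List (Fin n)) :
    L2On U (fun a => Ds ee l ((0 : ι → En n → ℝ) a)) ∧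
      r ^ (4 + 2 * l.length) * nrm U (fun a => Ds ee l ((0 : ι → En n → ℝ) a)) ≤ N := by
  simp only [Pi.zero_apply, St1Vg.Ds_zero]
  exact ⟨fun a => MemLp.zero, by simpa [nrm] using hN⟩

end GnIe

theorem g_pt (hie : S_ie) : G_pt := by
  intro n ι _ L p y hL hy
  obtain ⟨k, hk⟩ := hie n ι 0
  obtain ⟨r₀, hr₀, hs⟩ : ∃ r, 0 < r ∧ ball y r ⊆ Y0 p := Metric.isOpen_iff.1 isOpen_ball y hy
  have hr : 0 < min r₀ 1 := lt_min hr₀ one_pos
  have hs' : ball y (min r₀ 1) ⊆ Y0 p := (ball_subset_ball (min_le_left _ _)).trans hs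
  obtain ⟨c, M, hc, hb⟩ := Lt1.bdOn hL (isCompact_closedBall y (min r₀ 1)) k
  obtain ⟨C, hC, h⟩ := hk c M hc
  refine ⟨C / min r₀ 1 ^ n, by positivity, fun W hW a => ?_⟩
  have h3 := h L y (min r₀ 1) (nrm (Y0 p) W) W 0 hL hr (min_le_right _ _)
    (fun z hz => hb z (ball_subset_closedBall hz)) (St1.sol_mono hW.1 hs')
    (fun a => contDiffOn_const) (St1.l2_mono hW.2 hs') (St1.nrm_mono hW.2 hs')
    (fun l _ => GnIe.rhs_zero _ _ (St1.nrm_nonneg _ _) l) [] le_rfl a y
    (mem_ball_self (by positivity))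
  rw [div_mul_eq_mul_div, le_div_iff₀ (by positivity)]
  simpa [Ds] using h3

theorem g_ev (hw2s : G_w2s) (hpt : G_pt) : G_ev := by
  intro n ι _ H _ _ _ L p Rp g th hL hR hg hth a
  have bd : ∀ y, ∃ A : ℝ, ∀ h : H, ‖th y * Rp h a y‖ ≤ A * ‖h‖ := by
    intro y
    by_cases hy : y ∈ Y0 p
    · obtain ⟨C, hC, h1⟩ := hpt n ι L p y hL hy
      refine ⟨|th y| * √C, fun h => ?_⟩
      have e3 : Rp h a y ^ 2 ≤ C * ‖h‖ ^ 2 :=
        (h1 _ (hR h).1 a).trans (mul_le_mul_of_nonneg_left (hR h).2 hC)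
      rw [norm_mul, mul_assoc, Real.norm_eq_abs, Real.norm_eq_abs]
      refine mul_le_mul_of_nonneg_left ?_ (abs_nonneg _)
      refine abs_le.2 (abs_le_of_sq_le_sq' ?_ (by positivity))
      rw [mul_pow, Real.sq_sqrt hC]
      exact e3
    · exact ⟨0, fun h => by simp [image_eq_zero_of_notMem_tsupport fun hh => hy (hth.2 hh)]⟩
  let l : En n → H →ₗ[ℝ] ℝ := fun y =>
    { toFun := fun h => th y * Rp h a y
      map_add' := fun h h' => by simp [mul_add]
      map_smul' := fun s h => by simp [mul_left_comm] }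
  let ev : En n → H →L[ℝ] ℝ := fun y => (l y).mkContinuousOfExistsBound (bd y)
  have hev : ContDiff ℝ ∞ ev := hw2s (En n) _ ℝ ev fun h =>
    (Tst.mul_on isOpen_ball hth.1 hth.2 ((hR h).1.1.1 a)).1
  exact (hev.comp contDiff_snd).clm_apply (hg.comp contDiff_fst)

theorem g_ie2 (hie : S_ie) : G_ie2 := by
  intro n ι _
  obtain ⟨k, hk⟩ := hie n ι 2
  refine ⟨k, 1 / (2 * (n + 1)), by positivity, fun M => ?_⟩
  obtain ⟨C, hC, h⟩ := hk (1 / 2) (M k) (by norm_num)
  refine ⟨Fintype.card ι * ((n + 1) ^ 2 * C), by positivity, ?_⟩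
  intro L x r W hL hr hr1 hS h2
  have hN := St1.nrm_nonneg (ball x r) W
  have hb : L.BdOn (ball x r) k (1 / 2) (M k) := fun y _ =>
    ⟨St1Vg.ell fun i j => by simpa [Ds] using hL.2.1 i j y [] (Nat.zero_le _), hL.2.2 k y⟩
  have h3 := h L x r (nrm (ball x r) W) W 0 hL.1 hr hr1 hb hS (fun a => contDiffOn_const) h2 le_rfl
    (fun l _ => GnIe.rhs_zero _ _ hN l)
  have hx : x ∈ ball x (r / 2) := mem_ball_self (by positivity)
  have h4 : ∀ a, W a x ^ 2 * r ^ (n + 2) ≤ C * nrm (ball x r) W := by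
    intro a
    refine le_trans (mul_le_mul_of_nonneg_left ?_ (sq_nonneg _)) (h3 [] (Nat.zero_le _) a x hx)
    exact pow_le_pow_of_le_one hr.le hr1 (by simp)
  have h5 : ∀ a j, D (ee j) (W a) x ^ 2 * r ^ (n + 2) ≤ C * nrm (ball x r) W := by
    intro a j
    have h6 := h3 [j] (by simp) a x hx
    rw [add_comm n 2]
    exact h6
  have h6 : ∀ a j, D (ee j) (W a) x ^ 2 * r ^ (n + 4) ≤ C * nrm (ball x r) W := fun a j =>
    le_trans (mul_le_mul_of_nonneg_left (pow_le_pow_of_le_one hr.le hr1 (by omega))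
      (sq_nonneg _)) (h5 a j)
  have h7 : ∀ a i j, D (ee i) (D (ee j) (W a)) x ^ 2 * r ^ (n + 4) ≤ C * nrm (ball x r) W := by
    intro a i j
    have h8 := h3 [i, j] le_rfl a x hx
    rw [add_comm n 4]
    exact h8
  have hn : (0 : ℝ) ≤ n := Nat.cast_nonneg n
  have hc : (0 : ℝ) ≤ Fintype.card ι := Nat.cast_nonneg _
  have hCN : 0 ≤ C * nrm (ball x r) W := mul_nonneg hC hN
  constructor
  · simp only [vg, Finset.sum_mul, add_mul]
    refine (Finset.sum_le_sum fun a _ => add_le_add (h4 a)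
      (Finset.sum_le_sum fun j _ => h5 a j)).trans ?_
    simp only [Finset.sum_const, Finset.card_univ, Fintype.card_fin, nsmul_eq_mul]
    rw [mul_assoc, mul_assoc]
    refine mul_le_mul_of_nonneg_left ?_ hc
    nlinarith [mul_nonneg hn hCN, mul_nonneg hn (mul_nonneg hn hCN)]
  · simp only [j2, Finset.sum_mul, add_mul]
    refine (Finset.sum_le_sum fun a _ => add_le_add (Finset.sum_le_sum fun j _ => h6 a j)
      (Finset.sum_le_sum fun i _ => Finset.sum_le_sum fun j _ => h7 a i j)).trans ?_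
    simp only [Finset.sum_const, Finset.card_univ, Fintype.card_fin, nsmul_eq_mul]
    rw [mul_assoc, mul_assoc]
    refine mul_le_mul_of_nonneg_left ?_ hc
    nlinarith [mul_nonneg hn hCN, mul_nonneg hn (mul_nonneg hn hCN)]

theorem g_wn : G_wn := by
  intro n ι _ φ p x W hφ
  have hw : Continuous fun y => Real.exp (-(2 * φ (x, y))) :=
    Real.continuous_exp.comp (continuous_const.mul (slice hφ x)).neg
  refine ⟨wn_nonneg φ p x W, fun V B hV hVY hB hW => ?_, fun hW hb => ?_⟩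
  · unfold nrm wn
    rw [Finset.mul_sum]
    refine Finset.sum_le_sum fun a _ => ?_
    have h1 := int_w hw (hW a)
    refine le_trans ?_ (mul_le_mul_of_nonneg_left (setIntegral_mono_set h1
      (Eventually.of_forall fun y => by positivity) hVY.eventuallyLE) (Real.exp_pos _).le)
    rw [← integral_const_mul]
    refine setIntegral_mono_on ((St1.l2_sq hW a).mono_set hVY) ((h1.mono_set hVY).const_mul _)
      hV.measurableSet fun y hy => ?_
    rw [← mul_assoc, ← Real.exp_add]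
    exact le_mul_of_one_le_left (sq_nonneg _) (Real.one_le_exp (by linarith [hB y hy]))
  · have hc : Continuous fun y : En n => ‖y - x‖ ^ 2 := by fun_prop
    obtain ⟨A, hA⟩ := bdd_Y0 hc p
    have hl : L2On (Y0 p) W := fun a => MemLp.of_bound
      ((hW a).continuousOn.aestronglyMeasurable measurableSet_ball) A
      ((ae_Y0 p).mono fun y hy => (hb y hy a).trans ((le_abs_self _).trans (hA y hy)))
    refine ⟨hl, ?_⟩
    have h2 : MemLp (fun y : En n => ‖y - x‖ ^ 2) 2 (volume.restrict (Y0 p)) :=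
      MemLp.of_bound hc.aestronglyMeasurable A ((ae_Y0 p).mono hA)
    have h3 := int_w hw h2
    simp only [← pow_mul] at h3
    refine (Finset.sum_le_sum (g := fun _ =>
      ∫ y in Y0 p, Real.exp (-(2 * φ (x, y))) * ‖y - x‖ ^ 4) fun a _ => ?_).trans (le_of_eq ?_)
    · refine setIntegral_mono_on (int_w hw (hl a)) h3 measurableSet_ball fun y hy => ?_
      refine mul_le_mul_of_nonneg_left ?_ (Real.exp_pos _).le
      have h4 := pow_le_pow_left₀ (abs_nonneg _) (hb y hy a) 2
      rwa [sq_abs, ← pow_mul] at h4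
    · simp only [Finset.sum_const, Finset.card_univ, nsmul_eq_mul]

end Vale.Agent.P088.Gain
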