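import Vale.Agent.P088.GnStm

/-!
# P088, the gain: removing the cutoffs
-/

open MeasureTheory Set Metric Filter
open scoped ContDiff Topology InnerProductSpace

noncomputable section
namespace Vale.Agent.P088.Gain
open Vale.Agent.P136 (D Dp Dm Sm Tst)

namespace GnLim
variable {n : ℕ} {ι : Type} [Fintype ι] {p : En n} {φ : X2 n → ℝ}

/-- Exhaustion of the ball by cutoffs. -/
theorem exhaust (p : En n) {ρ R : ℝ} (h0 : 0 < ρ) (h : ρ < R) : ∃ th : ℕ → En n → ℝ,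
    (∀ m, IsTest (ball p R) (th m)) ∧ (∀ m y, 0 ≤ th m y ∧ th m y ≤ 1) ∧
    (∀ m, ∀ y ∈ ball p ρ, th m y = 1) ∧ ∀ y ∈ ball p R, ∀ᶠ m in atTop, th m y = 1 := by
  have hr : ∀ m : ℕ, ρ ≤ R - (R - ρ) / (m + 1) ∧ R - (R - ρ) / (m + 1) < R := by
    intro m
    have h1 : (R - ρ) / (m + 1) ≤ R - ρ :=
      div_le_self (by linarith) (by linarith [Nat.cast_nonneg (α := ℝ) m])
    have h2 : 0 < (R - ρ) / (m + 1) := div_pos (by linarith) (by positivity)
    constructor <;> linarith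
  let B : ℕ → ContDiffBump p := fun m =>
    ⟨R - (R - ρ) / (m + 1), (R - (R - ρ) / (m + 1) + R) / 2, by linarith [(hr m).1],
      by linarith [(hr m).2]⟩
  refine ⟨fun m => B m, fun m => ⟨⟨(B m).contDiff, (B m).hasCompactSupport⟩, ?_⟩,
    fun m y => ⟨(B m).nonneg, (B m).le_one⟩, fun m y hy => (B m).one_of_mem_closedBall ?_,
    fun y hy => ?_⟩
  · rw [(B m).tsupport_eq]
    exact closedBall_subset_ball (by show (_ + R) / 2 < R; linarith [(hr m).2])
  · exact ball_subset_closedBall (ball_subset_ball (hr m).1 hy)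
  · have ht : Tendsto (fun m : ℕ => R - (R - ρ) / ((m : ℝ) + 1)) atTop (𝓝 (R - 0)) :=
      tendsto_const_nhds.sub (Tendsto.const_div_atTop
        (tendsto_atTop_add_const_right _ 1 tendsto_natCast_atTop_atTop) _)
    rw [sub_zero] at ht
    filter_upwards [ht.eventually (lt_mem_nhds (mem_ball.1 hy))] with m hm
    exact (B m).one_of_mem_closedBall (mem_closedBall.2 hm.le)

theorem pt_le {w t u : ℝ} (hw : 0 ≤ w) (ht : 0 ≤ t ∧ t ≤ 1) : w * (t * u) ^ 2 ≤ w * u ^ 2 := by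
  refine mul_le_mul_of_nonneg_left ?_ hw
  rw [mul_pow]
  exact mul_le_of_le_one_left (sq_nonneg _) (pow_le_one₀ ht.1 ht.2)

theorem i0 (hφ : Sm φ) (x : En n) (u : HL n ι (Y0 p)) (a : ι) :
    IntegrableOn (fun y => Real.exp (2 * φ (x, y)) * cp u a y ^ 2) (Y0 p) :=
  int_w (slice (hφ.cmul 2).exp.cont x) (St1.l2_cp u a)

theorem Wc_nonneg (th : En n → ℝ) (x : En n) (u : ι → En n → ℝ) : 0 ≤ Wc φ p th x u :=
  Finset.sum_nonneg fun _ _ => integral_nonneg fun _ => by positivity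

theorem Wc_le (hφ : Sm φ) {th : En n → ℝ} (h : ∀ y, 0 ≤ th y ∧ th y ≤ 1) (x : En n)
    {u : HL n ι (Y0 p)} {v : ι → En n → ℝ} (e : ∀ a, cp u a =ᵐ[volume.restrict (Y0 p)] v a) :
    Wc φ p th x v ≤ Wp φ p x u :=
  Finset.sum_le_sum fun a _ => integral_mono_of_nonneg (Eventually.of_forall fun y => by positivity)
    (i0 hφ x u a) ((e a).mono fun y hy => by
      simp only [hy]
      exact pt_le (Real.exp_pos _).le (h y))

theorem cont_Wc (hmf : G_mf) (hφ : Sm φ) {th : En n → ℝ} (h : Sm th) {u : En n → HL n ι (Y0 p)}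
    (hu : Continuous u) : Continuous fun x => Wc φ p th x (cp (u x)) := by
  have := cont_quad hmf (P136.Sm.mul (hφ.cmul 2).exp (P136.Sm.pow (h.comp contDiff_snd) 2)) hu
  simp only [Wc, mul_pow, ← mul_assoc]
  exact this

theorem tend_pt (hφ : Sm φ) {th : ℕ → En n → ℝ} (h1 : ∀ m, Continuous (th m))
    (h2 : ∀ m y, 0 ≤ th m y ∧ th m y ≤ 1) (h3 : ∀ y ∈ Y0 p, ∀ᶠ m in atTop, th m y = 1) (x : En n)
    (u : HL n ι (Y0 p)) : Tendsto (fun m => Wc φ p (th m) x (cp u)) atTop (𝓝 (Wp φ p x u)) := by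
  refine tendsto_finsetSum _ fun a _ => tendsto_integral_of_dominated_convergence _
    (fun m => ?_) (i0 hφ x u a) (fun m => Eventually.of_forall fun y => ?_)
    ((ae_Y0 p).mono fun y hy => tendsto_const_nhds.congr' ?_)
  · exact (slice (hφ.cmul 2).exp.cont x).aestronglyMeasurable.mul
      (((h1 m).aestronglyMeasurable.mul (St1.l2_cp u a).1).pow 2)
  · rw [Real.norm_of_nonneg (by positivity)]
    exact pt_le (Real.exp_pos _).le (h2 m y)
  · filter_upwards [h3 y hy] with m hm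
    rw [hm, one_mul]

theorem tend (hmf : G_mf) (hφ : Sm φ) {th : ℕ → En n → ℝ} (h1 : ∀ m, Sm (th m))
    (h2 : ∀ m y, 0 ≤ th m y ∧ th m y ≤ 1) (h3 : ∀ y ∈ Y0 p, ∀ᶠ m in atTop, th m y = 1)
    {w : En n → ℝ} (hw : Continuous w) (hw0 : ∀ x, 0 ≤ w x) {J : Type} [Fintype J]
    {u : J → En n → HL n ι (Y0 p)} (hu : ∀ j, Continuous (u j)) {K : Set (En n)} (hK : IsCompact K)
    (h0 : ∀ j x, x ∉ K → u j x = 0) :
    Tendsto (fun m => ∫ x, w x * ∑ j, Wc φ p (th m) x (cp (u j x))) atTop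
      (𝓝 (∫ x, w x * ∑ j, Wp φ p x (u j x))) := by
  refine tendsto_integral_of_dominated_convergence (fun x => w x * ∑ j, Wp φ p x (u j x))
    (fun m => (hw.mul (continuous_finsetSum _ fun j _ =>
      cont_Wc hmf hφ (h1 m) (hu j))).aestronglyMeasurable)
    ((hw.mul (continuous_finsetSum _ fun j _ =>
      cont_Wp hmf hφ (hu j))).integrable_of_hasCompactSupport
      (HasCompactSupport.intro hK fun x hx => by simp [h0 _ x hx, Wp_zero]))
    (fun m => Eventually.of_forall fun x => ?_) (Eventually.of_forall fun x =>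
      (tendsto_finsetSum _ fun j _ => tend_pt hφ (fun m => (h1 m).cont) h2 h3 x _).const_mul _)
  rw [Real.norm_of_nonneg (mul_nonneg (hw0 x) (Finset.sum_nonneg fun _ _ => Wc_nonneg _ _ _))]
  exact mul_le_mul_of_nonneg_left
    (Finset.sum_le_sum fun j _ => Wc_le hφ (h2 m) x fun _ => EventuallyEq.rfl) (hw0 x)

theorem young2 {s : ℝ} (hs : 0 < s) (A B : ℝ) :
    (A + B) ^ 2 ≤ (1 + s) * A ^ 2 + (1 + s⁻¹) * B ^ 2 := by
  have h1 : 0 ≤ s⁻¹ * (s * A - B) ^ 2 := by positivity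
  have h2 : s⁻¹ * (s * A - B) ^ 2 = (1 + s) * A ^ 2 + (1 + s⁻¹) * B ^ 2 - (A + B) ^ 2 := by
    field_simp
    ring
  linarith

theorem Wp_add_le (hφ : Sm φ) {A s : ℝ} (hs : 0 < s) (x : En n)
    (hA : ∀ y ∈ Y0 p, Real.exp (2 * φ (x, y)) ≤ A) (u v : HL n ι (Y0 p)) :
    Wp φ p x (u + v) ≤ (1 + s) * Wp φ p x u + (1 + s⁻¹) * (A * ‖v‖ ^ 2) := by
  rw [St1.norm_sq_eq]
  simp only [Wp, nrm, Finset.mul_sum, ← Finset.sum_add_distrib]
  refine Finset.sum_le_sum fun a _ => ?_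
  have i1 := (i0 hφ x u a).const_mul (1 + s)
  have i2 := ((St1.l2_cp v a).integrable_sq.const_mul A).const_mul (1 + s⁻¹)
  rw [← integral_const_mul, ← integral_const_mul, ← integral_const_mul, ← integral_add i1 i2]
  refine integral_mono_ae (i0 hφ x _ a) (P136.iadd i1 i2) ?_
  filter_upwards [St1.cp_add u v a, ae_Y0 p] with y h1 h2
  rw [h1]
  have a1 := mul_le_mul_of_nonneg_left (young2 hs (cp u a y) (cp v a y))
    (Real.exp_pos (2 * φ (x, y))).le
  have a2 : (1 + s⁻¹) * (Real.exp (2 * φ (x, y)) * cp v a y ^ 2) ≤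
      (1 + s⁻¹) * (A * cp v a y ^ 2) :=
    mul_le_mul_of_nonneg_left (mul_le_mul_of_nonneg_right (hA y h2) (sq_nonneg _)) (by positivity)
  linarith

theorem fin {X I B : ℝ} (hI : 0 ≤ I) (hB : 0 ≤ B)
    (key : ∀ s δ : ℝ, 0 < s → 0 < δ → X ≤ (1 + s) * I + (1 + s⁻¹) * δ ^ 2 * B) : X ≤ I := by
  refine le_of_forall_pos_le_add fun e he => ?_
  obtain ⟨s, hs⟩ : ∃ s, s = e / (2 * (I + 1)) := ⟨_, rfl⟩
  have hs0 : 0 < s := by rw [hs]; positivity
  have hB' : 0 ≤ (1 + s⁻¹) * B := by positivity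
  have := key s √(e / (2 * ((1 + s⁻¹) * B + 1))) hs0 (by positivity)
  rw [Real.sq_sqrt (by positivity)] at this
  have a1 : s * I ≤ e / 2 := by
    rw [hs, div_mul_eq_mul_div, div_le_div_iff₀ (by positivity) (by norm_num)]
    nlinarith
  have a2 : (1 + s⁻¹) * (e / (2 * ((1 + s⁻¹) * B + 1))) * B ≤ e / 2 := by
    have : (1 + s⁻¹) * (e / (2 * ((1 + s⁻¹) * B + 1))) * B =
        (1 + s⁻¹) * B * e / (2 * ((1 + s⁻¹) * B + 1)) := by ring
    rw [this, div_le_div_iff₀ (by positivity) (by norm_num)]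
    nlinarith
  linarith

end GnLim

open GnLim in
theorem g_lim (_hg : S_green) (happ : G_approx) (hmf : G_mf) (hrng : G_rng) (hcut : G_cut) :
    G_lim := by
  intro n ι _ φ γ₁ γ₂ b w₀ w₁ U K p C k Ξ G Γ ctx ker hΞ hΞ' hΞ0 hΓ hΓ'
  obtain ⟨hφ, h₁, h₂, c0, c1, w0, hUo, hK, hKU, hU, hC, -⟩ := id ctx
  have hk0 := ker_zero ker
  have hΓ0 : ∀ x, 0 ≤ Γ x := fun x => (Wp_nonneg _ _ _ _).trans (hΓ' x)
  obtain ⟨A, hA⟩ := ((isCompact_closedBall p (1 / 4)).prod
    (isCompact_closedBall p (1 / 2))).exists_bound_of_continuousOn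
      (hφ.cmul 2).exp.cont.continuousOn
  have hA0 : 0 ≤ A := (norm_nonneg _).trans (hA (p, p) (by simp))
  obtain ⟨V, hV⟩ : ∃ V, V = volume.real (closedBall p (1 / 4)) := ⟨_, rfl⟩
  have hV0 : 0 ≤ V := hV ▸ measureReal_nonneg
  refine fin (mul_nonneg hC (integral_nonneg hΓ0)) (B := C * (A * V)) (by positivity)
    fun s δ hs hδ => ?_
  obtain ⟨N, θ, t, hθ, ht, happ'⟩ := happ n _ _ Ξ U K δ hΞ hΞ' hUo hK hKU hΞ0 hδ
  obtain ⟨ψ, hψ, hψ'⟩ := hrng n ι _ p N t h₂ ht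
  obtain ⟨r, hr, hr'⟩ := exists_lt_subset_ball (isCompact_iUnion fun m => isCompact_iUnion
    fun a => (hψ m a).1.2).isClosed (iUnion_subset fun m => iUnion_subset fun a => (hψ m a).2)
  have q1 : 7 / 20 ≤ max (7 / 20) r := le_max_left _ _
  have q2 : max (7 / 20) r < 1 / 2 := max_lt (by norm_num) hr
  obtain ⟨th, t1, t2, t3, t4⟩ := exhaust p (ρ := (max (7 / 20) r + 1 / 2) / 2) (R := 1 / 2)
    (by linarith) (by linarith)
  have ce := fun m => hcut n ι φ γ₁ γ₂ b w₀ w₁ U K (⋃ m, tsupport (θ m)) p C _ (max (7 / 20) r) k G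
    (th m) (fun a P => ∑ m, -θ m P.1 * ψ m a P.2) ctx ker (t1 m) (t3 m) (by linarith)
    (by linarith) (by linarith) (fun a => P136.Sm.sum fun m _ =>
      P136.Sm.mul (P136.Sm.neg ((hθ m).1.1.comp contDiff_fst)) ((hψ m a).1.1.comp contDiff_snd))
    (isCompact_iUnion fun m => (hθ m).1.2) (iUnion_subset fun m => (hθ m).2) fun a P hP => by
      obtain ⟨m, -, hm⟩ := Finset.exists_ne_zero_of_sum_ne_zero hP
      exact ⟨mem_iUnion.2 ⟨m, subset_tsupport _ (neg_ne_zero.1 (left_ne_zero_of_mul hm))⟩,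
        ball_subset_closedBall (ball_subset_ball (le_max_right _ _) (hr' (mem_iUnion.2
          ⟨m, mem_iUnion.2 ⟨a, subset_tsupport _ (right_ne_zero_of_mul hm)⟩⟩)))⟩
  have l0 := tend hmf hφ (fun m => (t1 m).1.1) t2 t4 c0 (fun x => (w0 x).1) (J := Unit)
    (u := fun _ => k) (fun _ => ker.1.continuous) hK fun _ => hk0
  simp only [Finset.univ_unique, Finset.sum_singleton] at l0
  have l1 := tend hmf hφ (fun m => (t1 m).1.1) t2 t4 c1 (fun x => (w0 x).2) (u := dk k)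
    (fun j => (sm_dk ker.1 j).continuous) hK (dk_zero hK.isClosed hk0)
  refine le_of_tendsto' (l0.add l1) fun m => (ce m).2.trans ?_
  have iI : Integrable ((closedBall p (1 / 4)).indicator fun _ => (1 + s⁻¹) * (A * δ ^ 2)) :=
    (integrable_indicator_iff measurableSet_closedBall).2
      (integrableOn_const measure_closedBall_lt_top.ne)
  have e : (1 + s) * (C * ∫ x, Γ x) + (1 + s⁻¹) * δ ^ 2 * (C * (A * V)) = C * ∫ x, ((1 + s) * Γ x +
      (closedBall p (1 / 4)).indicator (fun _ => (1 + s⁻¹) * (A * δ ^ 2)) x) := by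
    rw [integral_add (hΓ.const_mul _) iI, integral_const_mul,
      integral_indicator_const _ measurableSet_closedBall, smul_eq_mul, ← hV]
    ring
  rw [e]
  refine mul_le_mul_of_nonneg_left (integral_mono (ce m).1 (P136.iadd (hΓ.const_mul _) iI)
    fun x => ?_) hC
  refine (Wc_le hφ (t2 m) x (u := ddk γ₁ k x + ∑ m, -θ m x • t m) fun a => ?_).trans ?_
  · filter_upwards [St1.cp_add (ddk γ₁ k x) (∑ m, -θ m x • t m) a, hψ' (fun m => -θ m x) a]
      with y a1 a2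
    rw [a1, a2]
  beta_reduce
  by_cases hx : x ∈ closedBall p (1 / 4)
  · have e1 : ddk γ₁ k x + ∑ m, -θ m x • t m =
        (ddk γ₁ k x - Ξ x) + (Ξ x - ∑ m, θ m x • t m) := by
      simp only [neg_smul, Finset.sum_neg_distrib]
      abel
    rw [indicator_of_mem hx, e1]
    refine (Wp_add_le hφ hs x (fun y hy => (le_abs_self _).trans
      (hA (x, y) ⟨hx, ball_subset_closedBall hy⟩)) _ _).trans ?_
    have := pow_le_pow_left₀ (norm_nonneg _) (happ' x) 2
    have := hΓ' x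
    gcongr
  · have z1 : ∀ m, θ m x = 0 := fun m => image_eq_zero_of_notMem_tsupport fun h =>
      hx (ball_subset_closedBall (hU ((hθ m).2 h)))
    rw [indicator_of_notMem hx,
      ddk_zero hK.isClosed γ₁ hk0 x fun h => hx (ball_subset_closedBall (hU (hKU h)))]
    simp only [z1, neg_zero, zero_smul, Finset.sum_const_zero, add_zero, Wp_zero]
    have := hΓ0 x
    positivity

end Vale.Agent.P088.Gain
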