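import Vale.Agent.P088.GnStm

/-!
# P088, the gain: multiplication operators and derivative representatives
-/

open MeasureTheory Set Metric Filter
open scoped ContDiff Topology InnerProductSpace

noncomputable section
namespace Vale.Agent.P088.Gain
open Vale.Agent.P136 (D Dp Dm Sm Tst)

namespace GnMF
variable {n : ℕ} {p : En n}

theorem memTop {φ : En n → ℝ} (h : Continuous φ) (p : En n) :
    MemLp φ ⊤ (volume.restrict (Y0 p)) := by
  obtain ⟨C, hC⟩ := bdd_Y0 h p
  exact memLp_top_of_bound h.aestronglyMeasurable C ((ae_Y0 p).mono hC)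

theorem mulTwo {φ u : En n → ℝ} (h : Continuous φ) (hu : MemLp u 2 (volume.restrict (Y0 p))) :
    MemLp (fun y => φ y * u y) 2 (volume.restrict (Y0 p)) := hu.mul' (memTop h p)

theorem hasF {m : X2 n → ℝ} {f : En n → ℝ} (hm : Sm m) (hf : IntegrableOn f (Y0 p)) (x₀ : En n) :
    DifferentiableAt ℝ (fun x => ∫ y in Y0 p, m (x, y) * f y) x₀ ∧
      ∀ v, fderiv ℝ (fun x => ∫ y in Y0 p, m (x, y) * f y) x₀ v =
        ∫ y in Y0 p, D ((v, 0) : X2 n) m (x₀, y) * f y := by
  have hc : Continuous fun P : X2 n =>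
      (fderiv ℝ m P).comp (ContinuousLinearMap.inl ℝ (En n) (En n)) :=
    (hm.continuous_fderiv (by simp)).clm_comp continuous_const
  obtain ⟨C, hC⟩ := ((isCompact_closedBall x₀ 1).prod
    (isCompact_closedBall p (1 / 2))).exists_bound_of_continuousOn hc.continuousOn
  have hb : ∀ᵐ y ∂(volume.restrict (Y0 p)), ∀ x ∈ ball x₀ 1,
      ‖f y • (fderiv ℝ m (x, y)).comp (ContinuousLinearMap.inl ℝ (En n) (En n))‖ ≤ C * ‖f y‖ :=
    (ae_Y0 p).mono fun y hy x hx => by
      rw [norm_smul, mul_comm]
      exact mul_le_mul_of_nonneg_right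
        (hC (x, y) ⟨ball_subset_closedBall hx, ball_subset_closedBall hy⟩) (norm_nonneg _)
  have hme : AEStronglyMeasurable (fun y => f y • (fderiv ℝ m (x₀, y)).comp
      (ContinuousLinearMap.inl ℝ (En n) (En n))) (volume.restrict (Y0 p)) :=
    hf.1.smul (hc.comp (continuous_const.prodMk continuous_id)).aestronglyMeasurable
  have h1 := hasFDerivAt_integral_of_dominated_of_fderiv_le (μ := volume.restrict (Y0 p))
    (F := fun x y => m (x, y) * f y)
    (F' := fun x y => f y • (fderiv ℝ m (x, y)).comp (ContinuousLinearMap.inl ℝ (En n) (En n)))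
    (ball_mem_nhds x₀ one_pos) (.of_forall fun x => (int_mul (slice hm.cont x) hf).1)
    (int_mul (slice hm.cont x₀) hf) hme hb (hf.norm.const_mul C) (.of_forall fun y x _ =>
      (((hm.dAt (x, y)).hasFDerivAt.comp x (hasFDerivAt_prodMk_left x y)).mul_const (f y)))
  refine ⟨h1.differentiableAt, fun v => ?_⟩
  rw [h1.fderiv, ContinuousLinearMap.integral_apply ((hf.norm.const_mul C).mono' hme
    (hb.mono fun y hy => hy x₀ (mem_ball_self one_pos)))]
  refine integral_congr_ae (.of_forall fun y => ?_)
  simp [D, mul_comm]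

theorem smI {m : X2 n → ℝ} {f : En n → ℝ} (hm : Sm m) (hf : IntegrableOn f (Y0 p)) :
    Sm fun x => ∫ y in Y0 p, m (x, y) * f y := by
  have key : ∀ k : ℕ, ∀ m : X2 n → ℝ, Sm m →
      ContDiff ℝ k fun x => ∫ y in Y0 p, m (x, y) * f y := by
    intro k
    induction k with
    | zero =>
      intro m hm
      exact contDiff_zero.2 (Differentiable.continuous fun x => (hasF hm hf x).1)
    | succ k ih =>
      intro m hm
      rw [Nat.cast_succ, contDiff_succ_iff_fderiv_apply]
      refine ⟨fun x => (hasF hm hf x).1, fun h => absurd h (by simp), fun v => ?_⟩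
      simp only [fun x => (hasF hm hf x).2 v]
      exact ih _ (hm.D _)
  exact contDiff_infty.2 fun k => key k m hm

end GnMF

open GnMF in
theorem g_mf (h : G_w2s) : G_mf := by
  intro n ι _ p m hm
  let M : En n → HL n ι (Y0 p) →L[ℝ] HL n ι (Y0 p) := fun x =>
    (ContinuousLinearMap.lsmul ℝ ℝ).holderL _ ⊤ 2 2 ((memTop (slice hm.cont x) p).toLp _)
  have hM : ∀ x u a, cp (M x u) a =ᵐ[volume.restrict (Y0 p)] fun y => m (x, y) * cp u a y :=
    fun x u a => by
      filter_upwards [(ContinuousLinearMap.lsmul ℝ ℝ).coeFn_holder (r := 2)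
        ((memTop (slice hm.cont x) p).toLp _) u, (memTop (slice hm.cont x) p).coeFn_toLp]
        with y h1 h2
      rw [← h2]
      exact congrArg (fun v : EuclideanSpace ℝ ι => v a) h1
  refine ⟨M, h _ _ _ M fun u => ?_, hM⟩
  have h1 := h _ _ ℝ (fun x => innerSL ℝ (M x u)) fun v => by
    have e : (fun x => innerSL ℝ (M x u) v) =
        fun x => ∑ a, ∫ y in Y0 p, m (x, y) * (cp u a y * cp v a y) := by
      funext x
      rw [innerSL_apply_apply, St1.inner_eq]
      refine Finset.sum_congr rfl fun a _ => integral_congr_ae ?_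
      filter_upwards [hM x u a] with y hy
      rw [hy, mul_assoc]
    rw [e]
    exact Sm.sum fun a _ => smI hm ((St1.l2_cp u a).integrable_mul (St1.l2_cp v a))
  let T : (HL n ι (Y0 p) →L[ℝ] ℝ) →L[ℝ] HL n ι (Y0 p) :=
    (InnerProductSpace.toDual ℝ _).symm.toContinuousLinearEquiv.toContinuousLinearMap
  have e : (fun x => M x u) = fun x => T (innerSL ℝ (M x u)) :=
    funext fun x => ((InnerProductSpace.toDual ℝ _).symm_apply_apply (M x u)).symm
  rw [e]
  exact T.contDiff.comp h1

open GnMF in
theorem g_drep : G_drep := by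
  classical
  intro n ι _ p k κ θ a hk hκ hθ hkκ x j
  have i1 := mulTwo hθ (St1.l2_cp (dk k j x) a)
  have i2 : MemLp (fun y => D (ex j) κ (x, y)) 2 (volume.restrict (Y0 p)) :=
    (memTop (slice (hκ.D _).cont x) p).mono_exponent le_top
  have hf := i1.sub i2
  set f := (fun y => θ y * cp (dk k j x) a y) - fun y => D (ex j) κ (x, y) with hfd
  have hw : L2On (Y0 p) fun e y => if e = a then θ y * f y else 0 := fun e => by
    by_cases h : e = a
    · simpa only [h, if_true] using mulTwo hθ hf
    · simp only [h, if_false]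
      exact MemLp.zero'
  have e : ∀ u : HL n ι (Y0 p), innerSL ℝ (tl (Y0 p) fun e y => if e = a then θ y * f y else 0) u =
      ∫ y in Y0 p, θ y * cp u a y * f y := fun u => by
    rw [innerSL_apply_apply, St1.inner_eq, Finset.sum_eq_single a (fun b _ hb => by
      rw [integral_congr_ae (g := fun _ => 0) ((St1.cp_tl hw b).mono fun y hy => by simp [hy, hb])]
      simp) (by simp)]
    refine integral_congr_ae ((St1.cp_tl hw a).mono fun y hy => ?_)
    simp only [hy, if_true]
    ring
  generalize innerSL ℝ (tl (Y0 p) fun e y => if e = a then θ y * f y else 0) = l at e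
  have e2 : l ∘ k = fun x' => ∫ y in Y0 p, κ (x', y) * f y := by
    funext x'
    rw [Function.comp_apply, e]
    exact integral_congr_ae ((hkκ x').mono fun y hy => congrArg (· * f y) hy)
  have h1 := (hasF hκ (hf.integrable one_le_two) x).2 (ee j)
  rw [← e2, (l.hasFDerivAt.comp x (hk.differentiable (by simp) x).hasFDerivAt).fderiv,
    ContinuousLinearMap.comp_apply, e] at h1
  have h3 : ∫ y in Y0 p, f y ^ 2 = 0 := by
    refine Eq.trans ?_ ((integral_sub (i1.integrable_mul hf) (i2.integrable_mul hf)).trans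
      (sub_eq_zero.2 h1))
    refine integral_congr_ae (.of_forall fun y => ?_)
    simp only [hfd, Pi.mul_apply, Pi.sub_apply]
    ring
  rw [integral_eq_zero_iff_of_nonneg (fun y => sq_nonneg _) hf.integrable_sq] at h3
  filter_upwards [h3] with y hy
  exact sub_eq_zero.1 (pow_eq_zero_iff two_ne_zero |>.1 hy)

end Vale.Agent.P088.Gain
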