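import Vale.Agent.P088.GnStm
import Vale.Agent.P088.St1Vg

/-!
# P088, the gain: the pointwise equation for the section
-/

open MeasureTheory Set Metric Filter
open scoped ContDiff Topology InnerProductSpace

noncomputable section
namespace Vale.Agent.P088.Gain
open Vale.Agent.P136 (D Dp Dm Sm Tst)

namespace GnPw
variable {n : ℕ} {ι : Type} [Fintype ι]

theorem sum2 {α β : Type} [Fintype α] [Fintype β] {f : α → β → ℝ} {c : ℝ}
    (h : ∀ i j, |f i j| ≤ c) : |∑ i, ∑ j, f i j| ≤ Fintype.card α * (Fintype.card β * c) := by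
  refine (Finset.abs_sum_le_sum_abs _ _).trans ((Finset.sum_le_card_nsmul _ _
    (Fintype.card β * c) fun i _ => (Finset.abs_sum_le_sum_abs _ _).trans
      ((Finset.sum_le_card_nsmul _ _ c fun j _ => h i j).trans_eq (by simp))).trans_eq (by simp))

theorem le2 {α β : Type} [Fintype α] [Fintype β] (f : α → β → ℝ) (i : α) (j : β) :
    f i j ^ 2 ≤ ∑ i, ∑ j, f i j ^ 2 :=
  (Finset.single_le_sum (f := fun j => f i j ^ 2) (fun _ _ => sq_nonneg _)
    (Finset.mem_univ j)).trans (Finset.single_le_sum (f := fun i => ∑ j, f i j ^ 2)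
      (fun _ _ => by positivity) (Finset.mem_univ i))

theorem j2_le (W : ι → En n → ℝ) (x : En n) (a : ι) (i j : Fin n) :
    D (ee j) (W a) x ^ 2 ≤ j2 W x ∧ D (ee i) (D (ee j) (W a)) x ^ 2 ≤ j2 W x := by
  have h1 := Finset.single_le_sum (f := fun a => ∑ j, D (ee j) (W a) x ^ 2 +
    ∑ i, ∑ j, D (ee i) (D (ee j) (W a)) x ^ 2) (fun _ _ => by positivity) (Finset.mem_univ a)
  have h2 := Finset.single_le_sum (f := fun j => D (ee j) (W a) x ^ 2) (fun _ _ => sq_nonneg _)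
    (Finset.mem_univ j)
  have h3 := le2 (fun i j => D (ee i) (D (ee j) (W a)) x) i j
  have h4 : 0 ≤ ∑ j, D (ee j) (W a) x ^ 2 := by positivity
  have h5 : 0 ≤ ∑ i, ∑ j, D (ee i) (D (ee j) (W a)) x ^ 2 := by positivity
  unfold j2
  constructor <;> linarith

theorem vg_le (W : ι → En n → ℝ) (x : En n) (a : ι) :
    W a x ^ 2 ≤ vg W x ∧ ∀ j, D (ee j) (W a) x ^ 2 ≤ vg W x := by
  have h1 := Finset.single_le_sum (f := fun a => W a x ^ 2 + ∑ j, D (ee j) (W a) x ^ 2)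
    (fun _ _ => by positivity) (Finset.mem_univ a)
  have h4 : 0 ≤ ∑ j, D (ee j) (W a) x ^ 2 := by positivity
  unfold vg
  refine ⟨by linarith, fun j => ?_⟩
  have h2 := Finset.single_le_sum (f := fun j => D (ee j) (W a) x ^ 2) (fun _ _ => sq_nonneg _)
    (Finset.mem_univ j)
  linarith [sq_nonneg (W a x)]

theorem mul_bd {t d E J S : ℝ} (ht : |t| ≤ E) (hd : d ^ 2 ≤ J) (hS : E ^ 2 * J ≤ S) :
    |t * d| ≤ √S := by
  refine Real.abs_le_sqrt (le_trans ?_ hS)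
  rw [mul_pow]
  exact mul_le_mul (sq_le_sq' (abs_le.1 ht).1 (abs_le.1 ht).2) hd (sq_nonneg _) (sq_nonneg _)

theorem diff {L₁ L₂ : Op n ι} {W : ι → En n → ℝ} {x : En n} {E S : ℝ} (h₁ : L₁.Good)
    (h₂ : L₂.Good) (hW : ∀ a, ContDiffAt ℝ ∞ (W a) x)
    (hc : ∀ a a', L₁.c a a' x = 0 ∧ L₂.c a a' x = 0)
    (hγ : ∀ i j, SB ee 1 E 1 (fun y => L₁.γ i j y - L₂.γ i j y) x)
    (hb : ∀ i a a', |L₁.b i a a' x - L₂.b i a a' x| ≤ E) (hS : E ^ 2 * j2 W x ≤ S) (a : ι) :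
    |L₁.app W a x - L₂.app W a x| ≤ (2 * n * n + n * Fintype.card ι) * √S := by
  have e : L₁.app W a x - L₂.app W a x =
      ∑ i, ∑ j, (L₁.γ i j x - L₂.γ i j x) * D (ee i) (D (ee j) (W a)) x +
      ∑ j, ∑ i, D (ee i) (fun y => L₁.γ i j y - L₂.γ i j y) x * D (ee j) (W a) x +
      ∑ i, ∑ e, (L₁.b i a e x - L₂.b i a e x) * D (ee i) (W e) x := by
    simp only [Op.app, fun e => (hc a e).1, fun e => (hc a e).2, zero_mul, Finset.sum_const_zero,
      add_zero, fun i j => P136.D_sub_at ((h₁.1 i j).dAt x) ((h₂.1 i j).dAt x)]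
    rw [Lt1.dgd_nd (fun i j => (h₁.1 i j).dAt x) (hW a),
      Lt1.dgd_nd (fun i j => (h₂.1 i j).dAt x) (hW a)]
    simp only [sub_mul, Finset.sum_sub_distrib, Finset.sum_mul]
    ring
  have a1 := sum2 fun i j => mul_bd (hγ i j).abs_le (j2_le W x a i j).2 hS
  have a2 := sum2 fun j i => mul_bd ((hγ i j).le (l := [i]) le_rfl) (j2_le W x a i j).1 hS
  have a3 := sum2 fun i e => mul_bd (hb i a e) (j2_le W x e i i).1 hS
  simp only [Fintype.card_fin] at a1 a2 a3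
  rw [e]
  refine (abs_add_three _ _ _).trans ((add_le_add (add_le_add a1 a2) a3).trans_eq (by ring))

theorem cut_zero {δ : ℝ} (hδ : 0 < δ) {x : En n}
    (h : ¬(1 - 2 * δ ≤ ‖x‖ ^ 2 ∧ ‖x‖ ^ 2 ≤ 1 - δ)) (i j : Fin n) :
    D (ee j) (chi δ) x = 0 ∧ D (ee i) (D (ee j) (chi δ)) x = 0 := by
  obtain ⟨c, hc⟩ : ∃ c : ℝ, chi δ =ᶠ[𝓝 x] fun _ => c := by
    rcases not_and_or.1 h with h | h
    · refine ⟨0, ?_⟩
      filter_upwards [(isOpen_lt (f := fun y : En n => ‖y‖ ^ 2) (by fun_prop)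
        continuous_const).mem_nhds (not_le.1 h)] with y hy
      exact chi_zero hδ (le_of_lt hy)
    · refine ⟨1, ?_⟩
      filter_upwards [(isOpen_lt (g := fun y : En n => ‖y‖ ^ 2) continuous_const
        (by fun_prop)).mem_nhds (not_le.1 h)] with y hy
      exact chi_one hδ (le_of_lt hy)
  have h1 : D (ee j) (chi δ) =ᶠ[𝓝 x] fun _ => 0 := by
    filter_upwards [hc.eventuallyEq_nhds] with y hy
    rw [P136.D_congr hy, P136.D_const]
  exact ⟨h1.eq_of_nhds, by rw [P136.D_congr h1, P136.D_const]⟩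

theorem m2 {g t m c : ℝ} (hg : |g| ≤ m) (ht : |t| ≤ c) : |g * t| ≤ m * c := by
  rw [abs_mul]
  exact mul_le_mul hg ht (abs_nonneg _) ((abs_nonneg _).trans hg)

end GnPw

open GnPw in
theorem g_pw : G_pw := by
  intro n ι _ M δ hδ
  obtain ⟨B, hB0, hB⟩ := exists_SB ee (sm_chi (n := n) δ) (isCompact_closedBall 0 1) 2
  refine ⟨(2 * n * n + n * Fintype.card ι + n * (n * (4 * (|M 1| * (B * 2)))) +
    n * (Fintype.card ι * (|M 1| * (B * 2))) + n * (Fintype.card ι * |M 1|)) ^ 2, sq_nonneg _, ?_⟩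
  intro k om E N L₁ L₂ V W W' x b1 h₂ hV hx hx1 s1 s2 hc hγ hb hN hvg a
  obtain ⟨S, hS⟩ : ∃ S, S = ∑ e, ∑ j, D (ee j) (fun y => chi δ y * (W' e y - W e y)) x ^ 2 +
    E ^ 2 * j2 W x + N := ⟨_, rfl⟩
  have p1 : 0 ≤ ∑ e, ∑ j, D (ee j) (fun y => chi δ y * (W' e y - W e y)) x ^ 2 := by positivity
  have p2 : 0 ≤ E ^ 2 * j2 W x := by unfold j2; positivity
  have hu : SmOn V (linF W' (-1) W) := fun a => (s1.1 a).add (contDiffOn_const.mul (s2.1 a))
  have el : ∀ e, mulF (chi δ) (linF W' (-1) W) e = fun y => chi δ y * (W' e y - W e y) :=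
    fun e => funext fun y => by simp only [mulF, linF]; ring
  have g0 : ∀ i j, |L₁.γ i j x| ≤ |M 1| := fun i j =>
    ((b1.2.2 1 x).1 i j).abs_le.trans (le_abs_self _)
  have g1 : ∀ i j, |D (ee i) (L₁.γ i j) x| ≤ |M 1| := fun i j =>
    (((b1.2.2 1 x).1 i j).le (l := [i]) le_rfl).trans (le_abs_self _)
  have b0 : ∀ i a a', |L₁.b i a a' x| ≤ |M 1| := fun i a a' =>
    ((b1.2.2 1 x).2.1 i a a').abs_le.trans (le_abs_self _)
  have key : ∀ i j v, (∃ e, v = linF W' (-1) W e x ∨ ∃ l, v = D (ee l) (linF W' (-1) W e) x) →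
      |D (ee j) (chi δ) x * v| ≤ B * 2 * √S ∧ |D (ee i) (D (ee j) (chi δ)) x * v| ≤ B * 2 * √S := by
    intro i j v hv
    by_cases h : 1 - 2 * δ ≤ ‖x‖ ^ 2 ∧ ‖x‖ ^ 2 ≤ 1 - δ
    · have h1 := hvg h.1 h.2
      have h2 := St1.vg_nonneg W x
      have h3 := St1.vg_nonneg W' x
      have h4 : ∀ s t : ℝ, s ^ 2 ≤ vg W' x → t ^ 2 ≤ vg W x → |s + -1 * t| ≤ 2 * √S := by
        intro s t hs ht
        have a1 := abs_le.1 (Real.abs_le_sqrt (show s ^ 2 ≤ S by linarith))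
        have a2 := abs_le.1 (Real.abs_le_sqrt (show t ^ 2 ≤ S by linarith))
        rw [abs_le]
        constructor <;> linarith [a1.1, a1.2, a2.1, a2.2]
      have h5 : |v| ≤ 2 * √S := by
        obtain ⟨e, rfl | ⟨l, rfl⟩⟩ := hv
        · exact h4 _ _ (vg_le W' x e).1 (vg_le W x e).1
        · have e1 := P136.dAt_of_on hV (s1.1 e) hx
          have e2 := P136.dAt_of_on hV (s2.1 e) hx
          have : D (ee l) (linF W' (-1) W e) x = D (ee l) (W' e) x + -1 * D (ee l) (W e) x := by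
            rw [← P136.D_const_mul_at e2, ← P136.D_add_at e1 (e2.const_mul _)]
            rfl
          rw [this]
          exact h4 _ _ ((vg_le W' x e).2 l) ((vg_le W x e).2 l)
      have hB' := hB x (mem_closedBall_zero_iff.2 hx1)
      rw [mul_assoc]
      exact ⟨m2 (hB'.le (l := [j]) one_le_two) h5, m2 (hB'.le (l := [i, j]) le_rfl) h5⟩
    · rw [(cut_zero hδ h i j).1, (cut_zero hδ h i j).2, zero_mul, abs_zero, and_self]
      positivity
  have e1 := St1Vg.expand b1.1 hV (sm_chi δ) hu hx a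
  rw [St1.app_lin b1.1 hV s1.1 s2.1 hx, s1.2 x hx] at e1
  have a0 := diff (S := S) b1.1 h₂ (fun a => (s2.1 a).contDiffAt (hV.mem_nhds hx)) hc hγ hb
    (by linarith) a
  rw [s2.2 x hx] at a0
  have a1 := sum2 (c := 4 * (|M 1| * (B * 2 * √S)))
    (f := fun i j => D (ee i) (chi δ) x * (L₁.γ i j x * D (ee j) (linF W' (-1) W a) x) +
      (L₁.γ i j x * (D (ee j) (chi δ) x * D (ee i) (linF W' (-1) W a) x +
        D (ee i) (D (ee j) (chi δ)) x * linF W' (-1) W a x) +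
        D (ee i) (L₁.γ i j) x * (D (ee j) (chi δ) x * linF W' (-1) W a x))) fun i j => by
      have c1 := abs_le.1 (m2 (g0 i j) (key i i _ ⟨a, Or.inr ⟨j, rfl⟩⟩).1)
      have c2 := abs_le.1 (m2 (g0 i j) (key i j _ ⟨a, Or.inr ⟨i, rfl⟩⟩).1)
      have c3 := abs_le.1 (m2 (g0 i j) (key i j _ ⟨a, Or.inl rfl⟩).2)
      have c4 := abs_le.1 (m2 (g1 i j) (key i j _ ⟨a, Or.inl rfl⟩).1)
      rw [abs_le]
      constructor <;> linarith [c1.1, c1.2, c2.1, c2.2, c3.1, c3.2, c4.1, c4.2]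
  have a2 := sum2 fun i e => m2 (b0 i a e) (key i i _ ⟨e, Or.inl rfl⟩).1
  have a3 := sum2 fun i e => m2 (b0 i a e) (Real.abs_le_sqrt (show
    D (ee i) (fun y => chi δ y * (W' e y - W e y)) x ^ 2 ≤ S by
      linarith [le2 (fun e j => D (ee j) (fun y => chi δ y * (W' e y - W e y)) x) e i]))
  have a4 := m2 (show |chi δ x| ≤ 1 from abs_le.2 ⟨by linarith [chi_mem δ x], (chi_mem δ x).2⟩) a0
  have e2 : L₁.app (mulF (chi δ) (linF W' (-1) W)) a x =
      dgd ee L₁.γ (fun y => chi δ y * (W' a y - W a y)) x +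
        ∑ i, ∑ e, L₁.b i a e x * D (ee i) (fun y => chi δ y * (W' e y - W e y)) x := by
    simp only [Op.app, el, fun e => (hc a e).1, zero_mul, Finset.sum_const_zero, add_zero]
  simp only [Fintype.card_fin, Pi.zero_apply] at a1 a2 a3 a4 e1
  rw [← hS, ← Real.sq_sqrt (show 0 ≤ S by linarith), ← mul_pow]
  refine sq_le_sq' ?_ ?_ <;>
    linarith [(abs_le.1 a1).1, (abs_le.1 a1).2, (abs_le.1 a2).1, (abs_le.1 a2).2, (abs_le.1 a3).1,
      (abs_le.1 a3).2, (abs_le.1 a4).1, (abs_le.1 a4).2]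

end Vale.Agent.P088.Gain
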