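import Vale.Agent.P088.GnStm

/-!
# P088, the gain: the Hilbert space of solutions
-/

open MeasureTheory Set Metric Filter
open scoped ContDiff Topology InnerProductSpace

noncomputable section
namespace Vale.Agent.P088.Gain
open Vale.Agent.P136 (D Dp Dm Sm Tst)

namespace GnRep

variable {n : ℕ} {ι : Type} [Fintype ι] {L : Op n ι} {U : Set (En n)}

/-- `F` is the class of `L ψ`. -/
def R (L : Op n ι) (U : Set (En n)) (F : HL n ι U) (ψ : ι → En n → ℝ) : Prop :=
  Tests U ψ ∧ ∀ a, cp F a =ᵐ[volume.restrict U] L.app ψ a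

theorem R_zero : R L U 0 fun _ _ => 0 :=
  ⟨fun _ => IsTest.zero, fun a => (cp_zero a).mono fun x hx => hx.trans (St1.app_zero L a x).symm⟩

theorem R_lin (hL : L.Good) {F F' : HL n ι U} {ψ ψ' : ι → En n → ℝ} (h : R L U F ψ)
    (h' : R L U F' ψ') (c : ℝ) : R L U (c • F + F') fun e y => c * ψ e y + ψ' e y := by
  refine ⟨fun a => ((h.1 a).mul_left (Sm.const c)).add (h'.1 a), fun a => ?_⟩
  filter_upwards [St1.cp_add (c • F) F' a, cp_smul c F a, h.2 a, h'.2 a] with x h1 h2 h3 h4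
  have e := Lt1.app_lin hL (x := x) (fun a => (h.1 a).1.1.contDiffAt)
    (fun a => (h'.1 a).1.1.contDiffAt) c 1 a
  simp only [one_mul] at e
  rw [h1, h2, h3, h4, e]

theorem ex_rep (hw : S_weyl) (hL : L.Good) (hT : L.T.Good) {p : En n} (h : (RT L p)ᗮ) :
    ∃ W, (IsS L p W ∧ ∀ a, cp (h : HL n ι (Y0 p)) a =ᵐ[volume.restrict (Y0 p)] W a) ∧
      ∀ a y, y ∉ Y0 p → W a y = 0 := by
  obtain ⟨W, h1, h2⟩ := hw n ι L (Y0 p) (cp (h : HL n ι (Y0 p))) 0 hL isOpen_ball (St1.l2_cp _)
    (fun _ => contDiffOn_const) fun ψ hψ => by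
      have e := Submodule.inner_left_of_mem_orthogonal (K := RT L p)
        (Submodule.subset_span ⟨ψ, hψ, rfl⟩) h.2
      rw [St1.inner_eq] at e
      simp only [Pi.zero_apply, zero_mul, integral_zero, Finset.sum_const_zero]
      refine (Finset.sum_congr rfl fun a _ => integral_congr_ae ?_).trans e
      filter_upwards [St1.cp_tl (St1.tests_l2 (St1.tests_app hT hψ) (Y0 p)) a] with y hy
      rw [hy]
  have e : ∀ a, cp (h : HL n ι (Y0 p)) a =ᵐ[volume.restrict (Y0 p)] (Y0 p).indicator (W a) :=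
    fun a => (h2 a).trans (indicator_ae_eq_restrict measurableSet_ball).symm
  exact ⟨fun a => (Y0 p).indicator (W a), ⟨⟨Lt1.sol_congr isOpen_ball h1 fun a y hy =>
    indicator_of_mem hy _, St1.l2_congr (St1.l2_cp _) e⟩, e⟩, fun a y hy =>
      indicator_of_notMem hy _⟩

end GnRep

open GnRep in
theorem g_rng (hg : S_green) : G_rng := by
  intro n ι _ L p N t hL ht
  have hT := (St1.good_T hg hL).1
  have ex : ∀ F ∈ RT L p, ∃ ψ, R L.T (Y0 p) F ψ := fun F hF => by
    induction hF using Submodule.span_induction with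
    | mem F h =>
      obtain ⟨ψ, h1, rfl⟩ := h
      exact ⟨ψ, h1, St1.cp_tl (St1.tests_l2 (St1.tests_app hT h1) _)⟩
    | zero => exact ⟨_, R_zero⟩
    | add F F' _ _ h h' =>
      obtain ⟨ψ, h⟩ := h
      obtain ⟨ψ', h'⟩ := h'
      exact ⟨_, by simpa only [one_smul] using R_lin hT h h' 1⟩
    | smul c F _ h =>
      obtain ⟨ψ, h⟩ := h
      exact ⟨_, by simpa only [add_zero (c • F)] using R_lin hT h R_zero c⟩
  choose ψ hψ using fun m => ex _ (ht m)
  refine ⟨ψ, fun m => (hψ m).1, fun s => ?_⟩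
  have key : ∀ S : Finset (Fin N),
      R L.T (Y0 p) (∑ m ∈ S, s m • t m) fun e y => ∑ m ∈ S, s m * ψ m e y := fun S => by
    induction S using Finset.induction_on with
    | empty => simpa only [Finset.sum_empty] using R_zero
    | insert i S hi ih => simpa only [Finset.sum_insert hi] using R_lin hT (hψ i) ih (s i)
  exact (key _).2

open GnRep in
theorem g_rep (hw : S_weyl) (hg : S_green) : G_rep := by
  intro n ι _ L p hL
  have hT := (St1.good_T hg hL).1
  constructor
  · choose W hW h0 using ex_rep (p := p) hw hL hT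
    have lin : ∀ (h h' : (RT L p)ᗮ) (c : ℝ), W (h + c • h') = W h + c • W h' := fun h h' c => by
      funext a y
      by_cases hy : y ∈ Y0 p
      · refine St1.eqOn_of_ae (W' := linF (W h) c (W h')) isOpen_ball (hW _).1.1.1
          (St1.sol_lin hL isOpen_ball (hW h).1.1 (hW h').1.1 c).1 (fun b => ?_) a hy
        filter_upwards [(hW (h + c • h')).2 b, (hW h).2 b, (hW h').2 b,
          St1.cp_add (h : HL n ι (Y0 p)) (c • h') b, cp_smul c (h' : HL n ι (Y0 p)) b]
          with x h1 h2 h3 h4 h5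
        rw [← h1, linF, ← h2, ← h3, ← h5, ← h4]
        rfl
      · simp [h0 _ a y hy]
    have z : W 0 = 0 := by simpa using lin 0 0 (-1)
    exact ⟨⟨⟨W, fun h h' => by simpa using lin h h' 1⟩, fun c h => by simpa [z] using lin 0 h c⟩,
      hW⟩
  · intro W hW
    rw [Submodule.mem_orthogonal']
    intro F hF
    refine (Submodule.span_le (p := LinearMap.ker (innerₛₗ ℝ (tl (Y0 p) W)))).2 ?_ hF
    rintro _ ⟨ψ, hψ, rfl⟩
    change ⟪tl (Y0 p) W, tl (Y0 p) (L.T.app ψ)⟫_ℝ = 0
    rw [St1.inner_eq]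
    refine (Finset.sum_congr rfl fun a _ => integral_congr_ae ((St1.cp_tl hW.2 a).mul
      (St1.cp_tl (St1.tests_l2 (St1.tests_app hT hψ) (Y0 p)) a))).trans ?_
    refine (hg n ι L (Y0 p) W ψ hL isOpen_ball hW.1.1 hψ).2.2.trans
      (Finset.sum_eq_zero fun a _ => setIntegral_eq_zero_of_forall_eq_zero fun y hy => ?_)
    rw [hW.1.2 y hy]
    simp

end Vale.Agent.P088.Gain
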