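import Vale.Agent.P088.GnStm

/-!
# P088, the gain: the continuation operator and the section
-/

open MeasureTheory Set Metric Filter
open scoped ContDiff Topology InnerProductSpace

noncomputable section
namespace Vale.Agent.P088.Gain
open Vale.Agent.P136 (D Dp Dm Sm Tst)

namespace GnSec

variable {n : ℕ} {ι : Type} [Fintype ι]

theorem sq_le_vg (W : ι → En n → ℝ) (x : En n) (a : ι) : W a x ^ 2 ≤ vg W x :=
  (le_add_of_nonneg_right (Finset.sum_nonneg fun _ _ => sq_nonneg _)).trans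
    (Finset.single_le_sum (f := fun a => W a x ^ 2 + ∑ j, D (ee j) (W a) x ^ 2)
      (fun _ _ => add_nonneg (sq_nonneg _) (Finset.sum_nonneg fun _ _ => sq_nonneg _))
      (Finset.mem_univ a))

theorem exists_T {L₁ L₂ : Op n ι} {p : En n} {lam δ C : ℝ} (h : St1 L₁ L₂ p lam δ C) :
    ∃ T, TP L₁ L₂ p lam δ C T := by
  have : ∀ W, IsS L₂ p W → ∃ W', Cont L₁ p δ W W' ∧
      ∀ x ∈ ball p (1 / 5), 1 - 2 * δ ≤ ‖x‖ ^ 2 → vg W' x ≤ C * nrm (Y0 p) W ∧
        (‖x‖ ^ 2 ≤ 1 - δ → vg W' x ≤ C * nrm (Vis p lam δ x) W) := fun W hW => h W hW.1 hW.2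
  choose! T hT using this
  exact ⟨T, hT⟩

end GnSec

theorem g_sec (hu : S_ucp) (hgeo : G_geo) (hpt : G_pt) : G_sec := by
  intro n ι _ L₁ L₂ p lam δ C h₁ h₂ hp hδ hδ' hst
  obtain ⟨T, hT⟩ := GnSec.exists_T hst
  obtain ⟨hX, hXc, hO, ⟨x₀, hx₀⟩, hK, hKX, hKb, -, hX1, hoff⟩ := (hgeo n δ hδ hδ').1 p hp
  have hXY : X0 p δ ⊆ Y0 p := fun x hx => ball_subset_ball (by norm_num) hx.1
  have uniq : ∀ W W' W'', Cont L₁ p δ W W' → Cont L₁ p δ W W'' →
      ∀ a, EqOn (W' a) (W'' a) (X0 p δ) := fun W W' W'' h h' =>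
    St1.ucp_eq hu h₁ hX hXc h.1 h'.1 hx₀.1 fun a => by
      filter_upwards [(hX.inter hO).mem_nhds hx₀] with y hy
      rw [h.2 a hy, h'.2 a hy]
  have zero : ∀ a x W, x ∉ KK p δ → IsS L₂ p W → sec p δ T a x W = 0 := by
    intro a x W hx hW
    unfold sec
    by_cases hx0 : x ∈ X0 p δ
    · rw [indicator_of_mem hx0]
      rcases hoff x hx0 hx with h | h
      · rw [(hT W hW).1.2 a ⟨hx0, h⟩, sub_self, mul_zero]
      · rw [chi_zero hδ h.le, zero_mul]
    · exact indicator_of_notMem hx0 _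
  refine ⟨T, hT, fun a => ⟨fun x W W' t hW hW' => ?_, fun x => ?_, fun W hW => ?_, zero a⟩,
    fun W W' hW hc x hx a => ?_⟩
  · have hl : IsS L₂ p (linF W t W') :=
      ⟨St1.sol_lin h₂ isOpen_ball hW.1 hW'.1 t, St1.l2_lin hW.2 hW'.2 t⟩
    have hc : Cont L₁ p δ (linF W t W') (linF (T W) t (T W')) :=
      ⟨St1.sol_lin h₁ hX (hT W hW).1.1 (hT W' hW').1.1 t, fun b y hy => by
        simp only [linF, (hT W hW).1.2 b hy, (hT W' hW').1.2 b hy]⟩
    unfold sec
    by_cases hx0 : x ∈ X0 p δ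
    · simp only [indicator_of_mem hx0]
      rw [uniq _ _ _ (hT _ hl).1 hc a hx0]
      simp only [linF]
      ring
    · simp only [indicator_of_notMem hx0, mul_zero, add_zero]
  · by_cases hx : x ∈ KK p δ
    · obtain ⟨C', -, hC'⟩ := hpt n ι L₂ p x h₂ (hXY (hKX hx))
      refine ⟨2 * C + 2 * C', fun W hW => ?_⟩
      have e1 := (GnSec.sq_le_vg (T W) x a).trans ((hT W hW).2 x (hKb hx) hx.2).1
      have e2 := hC' W hW a
      have e3 : chi δ x ^ 2 ≤ 1 := pow_le_one₀ (chi_mem δ x).1 (chi_mem δ x).2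
      unfold sec
      rw [indicator_of_mem (hKX hx), mul_pow]
      refine (mul_le_of_le_one_left (sq_nonneg _) e3).trans ?_
      nlinarith [sq_nonneg (T W a x + W a x)]
    · exact ⟨0, fun W hW => by rw [zero a x W hx hW]; simp⟩
  · refine contDiff_iff_contDiffAt.2 fun x => ?_
    by_cases hx : x ∈ X0 p δ
    · have e : ContDiffAt ℝ ∞ (fun y => chi δ y * (T W a y - W a y)) x :=
        (sm_chi δ).contDiffAt.mul ((((hT W hW).1.1.1 a).contDiffAt (hX.mem_nhds hx)).sub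
          ((hW.1.1 a).contDiffAt (isOpen_ball.mem_nhds (hXY hx))))
      refine e.congr_of_eventuallyEq ?_
      filter_upwards [hX.mem_nhds hx] with y hy
      exact indicator_of_mem hy _
    · refine (contDiffAt_const (c := (0 : ℝ))).congr_of_eventuallyEq ?_
      filter_upwards [hK.isClosed.isOpen_compl.mem_nhds fun h => hx (hKX h)] with y hy
      exact zero a y W hy hW
  · unfold sec
    rw [indicator_of_mem (hX1 hx), chi_one hδ hx.2, one_mul,
      uniq _ _ _ (hT W hW).1 hc a (hX1 hx)]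

end Vale.Agent.P088.Gain
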