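import Vale.Agent.P088.GnStm

/-!
# P088, the gain: weak smoothness, smooth Lax-Milgram, approximation by partitions of unity
-/

open MeasureTheory Set Metric Filter
open scoped ContDiff Topology Manifold

noncomputable section
namespace Vale.Agent.P088.Gain

namespace GnW2S

variable {E H F : Type} [NormedAddCommGroup E] [NormedSpace ℝ E]
  [FiniteDimensional ℝ E] [NormedAddCommGroup H] [NormedSpace ℝ H] [CompleteSpace H]
  [NormedAddCommGroup F] [NormedSpace ℝ F]

lemma lip {l : E → H →L[ℝ] F} (hl : ∀ h, ContDiff ℝ ∞ (fun x => l x h)) (x₀ : E) :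
    ∃ C : ℝ, 0 ≤ C ∧ ∀ y ∈ closedBall x₀ 1, ‖l y - l x₀‖ ≤ C * ‖y - x₀‖ := by
  obtain ⟨C, hC⟩ := banach_steinhaus
    (g := fun y : closedBall x₀ 1 => ‖(y : E) - x₀‖⁻¹ • (l y - l x₀)) fun h => by
      obtain ⟨C, hC⟩ := (isCompact_closedBall x₀ 1).exists_bound_of_continuousOn
        ((hl h).continuous_fderiv (by simp)).continuousOn
      refine ⟨max C 0, fun y => ?_⟩
      have h1 := (convex_closedBall x₀ 1).norm_image_sub_le_of_norm_fderiv_le
        (fun x _ => (hl h).differentiable (by simp) x)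
        (fun x hx => (hC x hx).trans (le_max_left C 0)) (mem_closedBall_self zero_le_one) y.2
      rw [smul_apply, sub_apply, norm_smul, norm_inv,
        norm_norm]
      exact inv_mul_le_of_le_mul₀ (norm_nonneg _) (le_max_right _ _) (by rwa [mul_comm])
  refine ⟨max C 0, le_max_right _ _, fun y hy => ?_⟩
  by_cases h : y = x₀
  · simp [h]
  have h1 := (hC ⟨y, hy⟩).trans (le_max_left C 0)
  rw [norm_smul, norm_inv, norm_norm, inv_mul_le_iff₀ (norm_pos_iff.2 (sub_ne_zero.2 h)),
    mul_comm] at h1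
  exact h1

lemma cont {l : E → H →L[ℝ] F} (hl : ∀ h, ContDiff ℝ ∞ (fun x => l x h)) : Continuous l := by
  refine continuous_iff_continuousAt.2 fun x₀ => ?_
  obtain ⟨C, -, hC⟩ := lip hl x₀
  refine tendsto_iff_norm_sub_tendsto_zero.2 (squeeze_zero' (.of_forall fun _ => norm_nonneg _)
    (mem_of_superset (closedBall_mem_nhds x₀ one_pos) hC) ?_)
  simpa using (tendsto_norm_sub_self x₀).const_mul C

lemma exists_der {l : E → H →L[ℝ] F} (hl : ∀ h, ContDiff ℝ ∞ (fun x => l x h)) (x : E) :
    ∃ d : E →L[ℝ] H →L[ℝ] F, ∀ v h, d v h = fderiv ℝ (fun x => l x h) x v := by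
  obtain ⟨C, hC0, hC⟩ := lip hl x
  have hd : ∀ h, DifferentiableAt ℝ (fun x => l x h) x := fun h =>
    (hl h).differentiable (by simp) x
  have hb : ∀ h, ‖fderiv ℝ (fun x => l x h) x‖ ≤ C * ‖h‖ := fun h => by
    refine norm_fderiv_le_of_lip' ℝ (by positivity)
      (mem_of_superset (closedBall_mem_nhds x one_pos) fun y hy => ?_)
    have h1 := ((l y - l x).le_opNorm h).trans
      (mul_le_mul_of_nonneg_right (hC y hy) (norm_nonneg h))
    rw [mul_right_comm] at h1
    exact h1
  refine ⟨(LinearMap.mk₂ ℝ (fun v h => fderiv ℝ (fun x => l x h) x v) (fun v w h => map_add _ _ _)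
    (fun c v h => map_smul _ _ _) (fun v h h' => ?_) (fun c v h => ?_)).mkContinuous₂ C
      fun v h => ?_, fun v h => rfl⟩
  · simp only [map_add]
    rw [fderiv_fun_add (hd h) (hd h'), add_apply]
  · simp only [map_smul]
    rw [fderiv_fun_const_smul (hd h), smul_apply]
  · rw [mul_right_comm]
    exact (ContinuousLinearMap.le_opNorm _ v).trans
      (mul_le_mul_of_nonneg_right (hb h) (norm_nonneg v))

lemma der {l : E → H →L[ℝ] F} (hl : ∀ h, ContDiff ℝ ∞ (fun x => l x h)) :
    ∃ d : E → E →L[ℝ] H →L[ℝ] F, (∀ x, HasFDerivAt l (d x) x) ∧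
      ∀ v h, ContDiff ℝ ∞ fun x => d x v h := by
  choose d hd using exists_der hl
  have h1 : ∀ v h, ContDiff ℝ ∞ fun x => d x v h := fun v h => by
    simp only [hd]
    exact ((hl h).fderiv_right (m := ∞) (by simp)).clm_apply contDiff_const
  have h2 : Continuous d := continuous_clm_apply.2 fun v => cont (h1 v)
  refine ⟨d, fun x => ?_, h1⟩
  rw [hasFDerivAt_iff_isLittleO, Asymptotics.isLittleO_iff]
  intro ε hε
  obtain ⟨r, hr, hr'⟩ := (Metric.continuousAt_iff (f := d) (a := x)).1 h2.continuousAt ε hε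
  filter_upwards [ball_mem_nhds x hr] with y hy
  refine ContinuousLinearMap.opNorm_le_bound _ (by positivity) fun h => ?_
  have h3 := (convex_ball x r).norm_image_sub_le_of_norm_fderiv_le' (C := ε * ‖h‖)
    (φ := fderiv ℝ (fun x => l x h) x) (fun z _ => (hl h).differentiable (by simp) z)
    (fun z hz => ContinuousLinearMap.opNorm_le_bound _ (by positivity) fun v => by
      rw [sub_apply, ← hd, ← hd, mul_right_comm]
      have h4 : ‖d z - d x‖ ≤ ε := (dist_eq_norm (d z) (d x)).ge.trans (hr' hz).le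
      exact ((d z - d x).le_opNorm₂ v h).trans (by gcongr)) (mem_ball_self hr) hy
  rw [← hd, mul_right_comm] at h3
  exact h3

lemma contDiff_nat (n : ℕ) : ∀ l : E → H →L[ℝ] F, (∀ h, ContDiff ℝ ∞ (fun x => l x h)) →
    ContDiff ℝ n l := by
  induction n with
  | zero => exact fun l hl => contDiff_zero.2 (cont hl)
  | succ n ih =>
    intro l hl
    obtain ⟨d, hd, hd'⟩ := der hl
    rw [Nat.cast_succ, contDiff_succ_iff_fderiv_apply]
    refine ⟨fun x => (hd x).differentiableAt, by simp, fun v => ?_⟩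
    simp only [(hd _).fderiv]
    exact ih _ (hd' v)

end GnW2S

theorem g_w2s : G_w2s := fun _ _ _ _ _ _ _ _ _ _ _ l hl =>
  contDiff_infty.2 fun n => GnW2S.contDiff_nat n l hl

theorem g_slm : G_slm := by
  intro E H _ _ _ _ _ B hB hc
  have hinv : ∀ x, ∃ e : H ≃L[ℝ] (H →L[ℝ] ℝ), (e : H →L[ℝ] H →L[ℝ] ℝ) = B x := fun x => by
    refine ⟨ContinuousLinearEquiv.ofBijective (B x) ?_ ?_, rfl⟩
    · refine LinearMap.ker_eq_bot'.2 fun u hu => ?_
      obtain ⟨C, hC, h⟩ := hc x
      have h1 := h u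
      have hu' : B x u = 0 := hu
      rw [hu', zero_apply, mul_assoc] at h1
      have h2 : ‖u‖ * ‖u‖ ≤ 0 := nonpos_of_mul_nonpos_right h1 hC
      exact norm_eq_zero.1 (mul_self_eq_zero.1 (le_antisymm h2 (mul_self_nonneg _)))
    · refine LinearMap.range_eq_top.2 fun l => ⟨(hc x).continuousLinearEquivOfBilin.symm
        ((InnerProductSpace.toDual ℝ H).symm l), ?_⟩
      ext h
      have h1 := (hc x).continuousLinearEquivOfBilin_apply
        ((hc x).continuousLinearEquivOfBilin.symm ((InnerProductSpace.toDual ℝ H).symm l)) h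
      rw [ContinuousLinearEquiv.apply_symm_apply, InnerProductSpace.toDual_symm_apply] at h1
      exact h1.symm
  refine ⟨fun x => (B x).inverse, contDiff_iff_contDiffAt.2 fun x => ?_, fun x l h => ?_⟩
  · obtain ⟨e, he⟩ := hinv x
    have h1 := contDiffAt_map_inverse (n := ∞) e
    rw [he] at h1
    exact h1.comp x hB.contDiffAt
  · obtain ⟨e, he⟩ := hinv x
    simp only [← he, ContinuousLinearMap.inverse_equiv]
    simp

theorem g_approx : G_approx := by
  intro n V _ _ S Ξ O K δ hΞ hS hO hK hKO hR hδ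
  choose s hs hs' using fun x => Metric.mem_closure_iff.1 (hS x) δ hδ
  obtain ⟨R, hKR⟩ := hK.isBounded.subset_ball (0 : En n)
  let U : En n → Set (En n) := fun x => {y | dist (Ξ y) (s x) < δ} ∩ (O ∩ ball 0 R)
  have hU : ∀ x, IsOpen (U x) := fun x =>
    (isOpen_lt (hΞ.dist continuous_const) continuous_const).inter (hO.inter isOpen_ball)
  obtain ⟨t, ht⟩ := hK.elim_finite_subcover U hU fun x hx =>
    mem_iUnion.2 ⟨x, hs' x, hKO hx, hKR hx⟩
  let p : Fin t.card → En n := fun k => t.equivFin.symm k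
  obtain ⟨f, hf⟩ := SmoothPartitionOfUnity.exists_isSubordinate 𝓘(ℝ, En n)
    hK.isClosed (fun k => U (p k)) (fun k => hU _) fun x hx => by
      obtain ⟨y, hy, h⟩ := mem_iUnion₂.1 (ht hx)
      exact mem_iUnion.2 ⟨t.equivFin ⟨y, hy⟩, by simpa [p] using h⟩
  refine ⟨t.card, fun k => f k, fun k => s (p k), fun k => ⟨⟨(f k).contMDiff.contDiff, ?_⟩,
    (hf k).trans (inter_subset_right.trans inter_subset_left)⟩, fun k => hs _, fun x => ?_⟩
  · exact (isCompact_closedBall (0 : En n) R).of_isClosed_subset (isClosed_tsupport _)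
      (((hf k).trans (inter_subset_right.trans inter_subset_right)).trans ball_subset_closedBall)
  · have h1 : ∑ k, f k x • Ξ x = Ξ x := by
      by_cases hx : x ∈ K
      · have := f.sum_eq_one hx
        rw [finsum_eq_sum_of_fintype] at this
        rw [← Finset.sum_smul, this, one_smul]
      · simp [hR x hx]
    have h2 : ∑ k, f k x ≤ 1 := by
      have := f.sum_le_one x
      rwa [finsum_eq_sum_of_fintype] at this
    conv_lhs => rw [← h1]
    rw [← Finset.sum_sub_distrib]
    refine (norm_sum_le _ _).trans (le_trans (Finset.sum_le_sum (g := fun k => f k x * δ)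
      fun k _ => ?_) ?_)
    · rw [← smul_sub, norm_smul, Real.norm_of_nonneg (f.nonneg k x)]
      by_cases h0 : f k x = 0
      · simp [h0]
      · refine mul_le_mul_of_nonneg_left ?_ (f.nonneg k x)
        rw [← dist_eq_norm]
        exact (hf k (subset_tsupport _ h0)).1.le
    · rw [← Finset.sum_mul]
      exact mul_le_of_le_one_left hδ.le h2

end Vale.Agent.P088.Gain
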