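import Vale.Agent.P088.GnStm

/-!
# P088, the gain: upper bound for the weight near the diagonal
-/

open MeasureTheory Set Metric Filter
open scoped ContDiff Topology InnerProductSpace

noncomputable section
namespace Vale.Agent.P088.Gain
open Vale.Agent.P136 (D Dp Dm Sm Tst)

namespace GnWa

theorem cl_shift {L : ℝ} (hL : 1 ≤ L) (J : ℕ) (y h : ℝ) (h0 : 0 ≤ h)
    (hh : h * cl L J y ≤ 1 / 2) : cl L J (y - h) ≤ 2 * cl L J y := by
  have hm : 0 < 1 / (L * 2 ^ J) := by positivity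
  set m := 1 / (L * 2 ^ J) with hmd
  have hM : 0 < max y m := lt_max_of_lt_right hm
  have h1 : 1 / max y m ≤ cl L J y := le_max_right _ _
  have h2 : L ≤ cl L J y := le_max_left _ _
  have h3 : h ≤ max y m / 2 := by
    have h4 : h * (1 / max y m) ≤ 1 / 2 := (mul_le_mul_of_nonneg_left h1 h0).trans hh
    rw [mul_one_div, div_le_iff₀ hM] at h4
    linarith
  have h5 : max y m / 2 ≤ max (y - h) m := by
    rcases le_total y m with h6 | h6
    · rw [max_eq_right h6]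
      exact le_max_of_le_right (by linarith)
    · rw [max_eq_left h6] at h3 ⊢
      exact le_max_of_le_left (by linarith)
  have h7 : 1 / max (y - h) m ≤ 2 * (1 / max y m) := by
    calc 1 / max (y - h) m ≤ 1 / (max y m / 2) := one_div_le_one_div_of_le (by linarith) h5
      _ = 2 * (1 / max y m) := by field_simp
  exact max_le (by linarith) (by linarith)

theorem uu_le {n : ℕ} {x y : En n} (hx : ‖x‖ ≤ 5 / 4) (hr : ‖y - x‖ ≤ 1) :
    uu (x, y) ≤ ‖x‖ ^ 2 + 2 * ‖y - x‖ := by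
  have h1 : mid (x, y) = x + (1 / 2 : ℝ) • (y - x) := by
    simp only [mid]
    module
  have h2 : ‖mid (x, y)‖ ≤ ‖x‖ + 1 / 2 * ‖y - x‖ := by
    rw [h1]
    refine (norm_add_le _ _).trans ?_
    rw [norm_smul, Real.norm_eq_abs, abs_of_pos (by norm_num : (0 : ℝ) < 1 / 2)]
  have h3 : uu (x, y) ≤ (‖x‖ + 1 / 2 * ‖y - x‖) ^ 2 := pow_le_pow_left₀ (norm_nonneg _) h2 2
  nlinarith [norm_nonneg x, norm_nonneg (y - x)]

/-- The scalar weight grows by at most the factor `e` on a short interval. -/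
theorem grow {A Lf cf : ℝ → ℝ} {Cm u h : ℝ} (hCm : 1 ≤ Cm) (h0 : 0 ≤ h) (hL : 0 ≤ Lf u)
    (hconv : A (u + h) * Real.exp (Lf (u + h) * (u - (u + h))) ≤ A u) (hA : 0 < A u)
    (h1 : cf u ≤ Cm * Lf u) (h2 : Lf (u + h) ≤ Cm * cf (u + h))
    (h3 : h * cf u ≤ 1 / 2 → cf (u + h) ≤ 2 * cf u) (h4 : h * Cm ^ 2 * Lf u ≤ 1 / 2) :
    A (u + h) ≤ A u * Real.exp 1 := by
  have hC : 0 ≤ Cm := by linarith
  have h5 : h * cf u ≤ 1 / 2 := by
    have h6 : h * cf u ≤ h * (Cm * Lf u) := mul_le_mul_of_nonneg_left h1 h0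
    have h7 : h * (Cm * Lf u) * 1 ≤ h * (Cm * Lf u) * Cm :=
      mul_le_mul_of_nonneg_left hCm (by positivity)
    nlinarith
  have h8 : Lf (u + h) ≤ 2 * (Cm ^ 2 * Lf u) := by
    have h9 : Cm * cf (u + h) ≤ Cm * (2 * (Cm * Lf u)) :=
      mul_le_mul_of_nonneg_left ((h3 h5).trans (by linarith)) hC
    nlinarith
  have h10 : h * Lf (u + h) ≤ 1 := by
    have := mul_le_mul_of_nonneg_left h8 h0
    nlinarith
  have h11 : Lf (u + h) * (u - (u + h)) = -(h * Lf (u + h)) := by ring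
  rw [h11, Real.exp_neg, ← div_eq_mul_inv, div_le_iff₀ (Real.exp_pos _)] at hconv
  exact hconv.trans (mul_le_mul_of_nonneg_left (Real.exp_le_exp.2 h10) hA.le)

theorem size {Cm L a s r : ℝ} (hCm : 1 ≤ Cm) (hL : 1 ≤ L) (hs : 0 < s) (hsa : s ^ 2 = a)
    (h20 : L ^ 20 ≤ 1 / (28 * Cm ^ 2) ^ 2 * a) (hr : 0 ≤ r) (hrs : r * s ≤ 1) :
    14 * r * Cm ^ 2 * L ≤ 1 / 2 := by
  have hC : 0 < Cm := by linarith
  have h1 : L ^ 2 ≤ L ^ 20 := pow_le_pow_right₀ hL (by norm_num)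
  have h2 : (28 * Cm ^ 2 * L) ^ 2 ≤ s ^ 2 := by
    have h3 := h1.trans h20
    rw [one_div_mul_eq_div, le_div_iff₀ (by positivity)] at h3
    rw [hsa]
    calc (28 * Cm ^ 2 * L) ^ 2 = L ^ 2 * (28 * Cm ^ 2) ^ 2 := by ring
      _ ≤ a := h3
  have h4 : 28 * Cm ^ 2 * L ≤ s := (pow_le_pow_iff_left₀ (by positivity) hs.le two_ne_zero).1 h2
  have h5 := mul_le_mul_of_nonneg_left h4 hr
  nlinarith

end GnWa

open GnWa in
theorem g_wa (hau : G_au) (h0 : S_w0) (hm : S_wm) (h2 : S_w2) : G_wa := by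
  intro n ι f hf
  obtain ⟨Cm, hCm, hm⟩ := hm n ι f hf
  obtain ⟨C2, -, h2⟩ := h2 n ι f hf
  have hη : 0 < 1 / (28 * Cm ^ 2) ^ 2 := by positivity
  refine ⟨3 + f.Cw, ((((h0 n ι f hf).and hm).and (h2 _ hη)).and
    (Ev.ok f one_pos (8 / f.t0 ^ 2))).mono ?_⟩
  rintro c ⟨⟨⟨w0, -, hm⟩, w2⟩, hc⟩ x y hx hxy
  obtain ⟨hL0, hL1, hsg, -, hp, -⟩ := hc
  obtain ⟨-, -, -, -, -, -, -, -, ht0, -, -, hCw, -, -, -, hOm, -⟩ := hf
  obtain ⟨apos, aexp, Lnn, aconv, amono⟩ := hau.1 f.K c.L0 c.sg c.J hL1 hsg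
  obtain ⟨ha, hLx, hsa, -⟩ := w0.2.1 x
  obtain ⟨hQ1, hQ2, hF, -⟩ := w0.2.2.1 (x, y)
  have hz : zz (x, y) = y - x := rfl
  rw [hz] at hQ1 hQ2
  have hxp : ‖x - c.p0‖ < 1 / 4 := mem_ball_iff_norm.1 hx
  have hx5 : ‖x‖ ≤ 5 / 4 := by
    have := norm_add_le (x - c.p0) c.p0
    rw [sub_add_cancel] at this
    linarith
  have h20 := (w2 (x, x) ⟨by simp only; linarith, by simp only; linarith⟩).2.1
  have hs : 0 < fX f c x := Real.exp_pos _
  have hr : 0 ≤ ‖y - x‖ := norm_nonneg _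
  have haL : c.L0 ≤ aX f c x := by
    have h3 := aexp (‖x‖ ^ 2) (by positivity)
    have h4 := Real.add_one_le_exp c.L0
    exact (by linarith : c.L0 ≤ Real.exp c.L0).trans h3
  have hs1 : 1 ≤ fX f c x := by
    by_contra h3
    push Not at h3
    nlinarith
  have hr1 : ‖y - x‖ ≤ 1 := by nlinarith
  have hra : ‖y - x‖ ^ 2 * aX f c x ≤ 1 := by
    rw [← hsa, ← mul_pow]
    exact pow_le_one₀ (by positivity) hxy
  have hQ0 : 0 ≤ QQ c (x, y) := le_trans (by positivity) hQ1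
  have hQa : QQ c (x, y) * aX f c x ≤ 2 := by
    have := mul_le_mul_of_nonneg_right hQ2 ha.le
    linarith
  have ht2 : 0 < f.t0 ^ 2 := by positivity
  have hQt : 4 * QQ c (x, y) / f.t0 ^ 2 ≤ 1 := by
    have h3 := mul_le_mul_of_nonneg_left (hL0.trans haL) hQ0
    have h4 : QQ c (x, y) * (8 / f.t0 ^ 2) = 2 * (4 * QQ c (x, y) / f.t0 ^ 2) := by ring
    linarith
  have hff : ff f c (x, y) = 0 := by
    simp only [ff, chf, cut]
    rw [Real.smoothTransition.one_of_one_le (by linarith), sub_self, zero_mul]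
  have hsq : √(f.Om (QQ c (x, y))) ≤ 12 * ‖y - x‖ := by
    rw [div_le_one ht2] at hQt
    rw [hOm _ (by linarith)]
    exact Real.sqrt_le_iff.2 ⟨by positivity, by nlinarith⟩
  have huu := uu_le hx5 hr1
  have hsz := size hCm (hL1.trans hLx) hs hsa h20 hr hxy
  have hg : aU f.K c.L0 c.sg c.J (‖x‖ ^ 2 + 14 * ‖y - x‖) ≤ aX f c x * Real.exp 1 :=
    grow (A := aU f.K c.L0 c.sg c.J) (Lf := LU f.K c.L0 c.sg c.J)
      (cf := fun u => cl c.L0 c.J (1 - c.sg - u)) hCm (by positivity) (Lnn _) (aconv _ _)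
      (apos _) (hm _).1 (hm _).2.1
      (fun h => by
        have h3 := cl_shift hL1 c.J (1 - c.sg - ‖x‖ ^ 2) (14 * ‖y - x‖) (by positivity) h
        rw [sub_sub (1 - c.sg)] at h3
        exact h3) hsz
  have he : Real.exp 1 ≤ 3 := by
    have := Real.exp_one_lt_d9
    linarith
  have hFF : 2 * FF f c (x, y) ≤ aX f c x * 3 :=
    (hau.2.2 n ι f c (x, y) hL1).trans ((amono (by linarith)).trans
      (hg.trans (mul_le_mul_of_nonneg_left he ha.le)))
  have hPsi : Psi f c (x, y) ≤ 3 := by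
    have h3 := mul_le_mul_of_nonneg_left hFF hQ0
    simp only [Psi]
    nlinarith
  have hlu : lu f c (x, y) ≤ lX f c x + 1 := by
    have h3 : aU f.K c.L0 c.sg c.J (uu (x, y)) ≤ aX f c x * Real.exp 1 :=
      (amono (by linarith)).trans hg
    have h4 := Real.log_le_log (apos _) h3
    rw [Real.log_mul ha.ne' (Real.exp_pos _).ne', Real.log_exp] at h4
    have h5 : lX f c x = Real.log (aX f c x) / 2 := rfl
    have h6 : lu f c (x, y) = Real.log (aU f.K c.L0 c.sg c.J (uu (x, y))) / 2 := rfl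
    linarith
  have h7 := mul_le_mul_of_nonneg_left hlu (by linarith : 0 ≤ f.Cw)
  simp only [phi, ph0, hff]
  linarith

end Vale.Agent.P088.Gain
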