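import Vale.Agent.P088.GnStm

/-!
# P088, the gain: upper bound for the weight on the visible set
-/

open MeasureTheory Set Metric Filter
open scoped ContDiff Topology InnerProductSpace

noncomputable section
namespace Vale.Agent.P088.Gain
open Vale.Agent.P136 (D Dp Dm Sm Tst)

namespace GnWb

theorem om_le {lam gam0 t0 t1 : ℝ} {Om : ℝ → ℝ} (h : ProfOk lam gam0 t0 t1 Om) (ht : 0 ≤ t1)
    {q : ℝ} (hq : 0 ≤ q) : √(Om q) ≤ 8 * t1 + lam * √q := by
  rcases hq.eq_or_lt with rfl | hq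
  · rw [h.2.1 0 (sq_nonneg _)]
    simp only [mul_zero, Real.sqrt_zero, add_zero]
    positivity
  · exact (h.2.2 q hq).2.2.1

end GnWb

theorem g_wb (hau : G_au) (h0 : S_w0) : G_wb := by
  intro n ι f lam δ hf hδ hlam ht1
  obtain ⟨B0, hB0⟩ := hau.2.1 f.K (δ / 16) (by positivity)
  refine ⟨fun L => B0 L + f.Cw * (Real.log (B0 L) / 2) + √(B0 L),
    ((h0 n ι f hf).and (Ev.ok f one_pos 0)).mono fun c hc hsg x hx hx1 y hy => ?_⟩
  obtain ⟨⟨-, hX, hP, -⟩, -, hL, hsg0, -⟩ := hc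
  obtain ⟨hl0, -, -, -, -, -, -, -, ht0, ht01, -, hCw, -, -, hprof⟩ := hf
  obtain ⟨hQ0, hQ1, hF, -⟩ := hP (x, y)
  have hz : ‖zz (x, y)‖ ≤ 1 := by
    have h1 := mem_ball_iff_norm.1 hx
    have h2 := mem_ball_iff_norm.1 hy.1
    have h3 : zz (x, y) = (y - c.p0) - (x - c.p0) := by simp [zz]
    rw [h3]
    linarith [norm_sub_le (y - c.p0) (x - c.p0)]
  have hz0 := norm_nonneg (zz (x, y))
  have hQ : 0 ≤ QQ c (x, y) := le_trans (by positivity) hQ0
  have hvis : uu (x, y) + lam * ‖zz (x, y)‖ < 1 - δ / 8 := hy.2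
  have hs : √(QQ c (x, y)) ≤ 2 * ‖zz (x, y)‖ :=
    Real.sqrt_le_iff.2 ⟨by positivity, by nlinarith⟩
  have hom := GnWb.om_le hprof (by linarith) hQ
  have h1 : f.lam * √(QQ c (x, y)) ≤ lam * ‖zz (x, y)‖ := by
    nlinarith [mul_le_mul_of_nonneg_left hs hl0.le, mul_le_mul_of_nonneg_right hlam hz0]
  have hom0 := Real.sqrt_nonneg (f.Om (QQ c (x, y)))
  have hFF : 2 * FF f c (x, y) ≤ B0 c.L0 :=
    (hau.2.2 n ι f c (x, y) hL).trans (hB0 _ _ _ _ hL (by linarith))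
  have hPsi : Psi f c (x, y) ≤ B0 c.L0 := by
    have : QQ c (x, y) ≤ 2 := by nlinarith
    exact (mul_le_mul_of_nonneg_right this hF.le).trans hFF
  have hlu : lu f c (x, y) ≤ Real.log (B0 c.L0) / 2 :=
    div_le_div_of_nonneg_right (Real.log_le_log ((hau.1 _ _ _ _ hL hsg0).1 _)
      (hB0 _ _ _ _ hL (by linarith))) zero_le_two
  have hfX : fX f c x ≤ √(B0 c.L0) := by
    refine Real.le_sqrt_of_sq_le ?_
    rw [(hX x).2.2.1]
    exact hB0 _ _ _ _ hL (by linarith)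
  have hff : ff f c (x, y) ≤ √(B0 c.L0) := by
    refine le_trans (mul_le_of_le_one_left (Real.exp_pos _).le ?_) hfX
    exact sub_le_self _ (Real.smoothTransition.nonneg _)
  have := mul_le_mul_of_nonneg_left hlu (zero_le_one.trans hCw)
  exact add_le_add (add_le_add hPsi this) hff

end Vale.Agent.P088.Gain
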