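import Vale.Agent.P088.GnCore
import Vale.Agent.P088.GnW2S
import Vale.Agent.P088.GnMF
import Vale.Agent.P088.GnRep
import Vale.Agent.P088.GnIe
import Vale.Agent.P088.GnConj
import Vale.Agent.P088.GnCut
import Vale.Agent.P088.GnLim
import Vale.Agent.P088.GnAst
import Vale.Agent.P088.GnAbs
import Vale.Agent.P088.GnGeo
import Vale.Agent.P088.GnSec
import Vale.Agent.P088.GnPw
import Vale.Agent.P088.GnAu
import Vale.Agent.P088.GnWa
import Vale.Agent.P088.GnWb
import Vale.Agent.P088.GnWc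

/-!
# P088: from the main estimate to the gain
-/

namespace Vale.Agent.P088
open Gain

theorem s_gain (hME : S_ME) (hst : S_st1) (hw : S_weyl) (hu : S_ucp) (hie : S_ie) (hg : S_green)
    (hp : S_prof) (h0 : S_w0) (_hq : S_wq) (hm : S_wm) (_hx : S_w1x) (_h1 : S_w1) (h2 : S_w2) :
    S_gain :=
  gain_core hME hst hp h0
    (g_abs (g_ast g_w2s g_slm (g_mf g_w2s) (g_rep hw hg) (g_ev g_w2s (g_pt hie))
      (g_lim hg g_approx (g_mf g_w2s) (g_rng hg) (g_cut g_drep g_conj))))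
    g_geo (g_sec hu g_geo (g_pt hie)) g_pw (g_ie2 hie) g_wn g_au (g_wa g_au h0 hm h2)
    (g_wb g_au h0) (g_wc g_au h0 h2)

end Vale.Agent.P088
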