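import Vale.Agent.P088.LocStm

/-!
# P088, local elliptic theory: basic calculus for `Ds`, `SB`, `HB`, `DK`, cutoffs and scaling
-/

open MeasureTheory Set Metric Filter
open scoped ContDiff Topology Manifold

noncomputable section
namespace Vale.Agent.P088
open Vale.Agent.P136

section Ds
variable {X : Type} [NormedAddCommGroup X] [NormedSpace ℝ X] {κ : Type} {v : κ → X}
  {f g : X → ℝ} {U : Set X} {x : X}

lemma Ds_nil (v : κ → X) (f : X → ℝ) : Ds v [] f = f := rfl

lemma Ds_cons (v : κ → X) (i : κ) (l : List κ) (f : X → ℝ) :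
    Ds v (i :: l) f = D (v i) (Ds v l f) := rfl

lemma Ds_append (v : κ → X) (l l' : List κ) (f : X → ℝ) :
    Ds v (l ++ l') f = Ds v l (Ds v l' f) := List.foldr_append

lemma Ds_snoc (v : κ → X) (l : List κ) (i : κ) (f : X → ℝ) :
    Ds v (l ++ [i]) f = Ds v l (D (v i) f) := Ds_append v l [i] f

lemma sm_Ds (hf : Sm f) (l : List κ) : Sm (Ds v l f) := by
  induction l with
  | nil => exact hf
  | cons i l ih => exact ih.D _

lemma tst_Ds (hf : Tst f) (l : List κ) : Tst (Ds v l f) := by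
  induction l with
  | nil => exact hf
  | cons i l ih => exact ih.D _

lemma contDiffAt_Ds (hf : ContDiffAt ℝ ∞ f x) (l : List κ) : ContDiffAt ℝ ∞ (Ds v l f) x := by
  induction l with
  | nil => exact hf
  | cons i l ih => exact contDiffAt_D ih _

lemma contDiffOn_Ds (hU : IsOpen U) (hf : ContDiffOn ℝ ∞ f U) (l : List κ) :
    ContDiffOn ℝ ∞ (Ds v l f) U := by
  induction l with
  | nil => exact hf
  | cons i l ih => exact contDiffOn_D hU ih _

lemma tsupport_Ds (l : List κ) (f : X → ℝ) : tsupport (Ds v l f) ⊆ tsupport f := by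
  induction l with
  | nil => exact subset_rfl
  | cons i l ih => exact (tsupport_D _ _).trans ih

lemma D_eventuallyEq (h : f =ᶠ[𝓝 x] g) (w : X) : D w f =ᶠ[𝓝 x] D w g :=
  h.eventuallyEq_nhds.mono fun _ hy => D_congr hy w

lemma Ds_congr (h : f =ᶠ[𝓝 x] g) (l : List κ) : Ds v l f =ᶠ[𝓝 x] Ds v l g := by
  induction l with
  | nil => exact h
  | cons i l ih => exact D_eventuallyEq ih _

omit [NormedSpace ℝ X] in
lemma ev_of_eqOn (hU : IsOpen U) (h : EqOn f g U) (hx : x ∈ U) : f =ᶠ[𝓝 x] g :=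
  h.eventuallyEq_of_mem (hU.mem_nhds hx)

lemma D_congr_on (hU : IsOpen U) (h : EqOn f g U) (w : X) : EqOn (D w f) (D w g) U :=
  fun _ hx => D_congr (ev_of_eqOn hU h hx) w

lemma Ds_congr_on (hU : IsOpen U) (h : EqOn f g U) (l : List κ) :
    EqOn (Ds v l f) (Ds v l g) U := fun _ hx => (Ds_congr (ev_of_eqOn hU h hx) l).eq_of_nhds

lemma Ds_zero (l : List κ) : Ds v l (fun _ => (0 : ℝ)) = fun _ => 0 := by
  induction l with
  | nil => rfl
  | cons i l ih => rw [Ds_cons, ih]; funext x; exact D_const _ _ _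

lemma D_cmul (c : ℝ) (f : X → ℝ) (w : X) : D w (fun y => c * f y) = fun y => c * D w f y := by
  funext y
  have : (fun y => c * f y) = c • f := rfl
  simp only [D]
  rw [this, fderiv_const_smul_field]
  rfl

lemma Ds_cmul (c : ℝ) (f : X → ℝ) (l : List κ) :
    Ds v l (fun y => c * f y) = fun y => c * Ds v l f y := by
  induction l with
  | nil => rfl
  | cons i l ih => rw [Ds_cons, ih, D_cmul]; rfl

lemma Ds_neg (f : X → ℝ) (l : List κ) : Ds v l (fun y => -f y) = fun y => -Ds v l f y := by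
  simpa only [neg_mul, one_mul] using Ds_cmul (v := v) (-1) f l

lemma Ds_add_on (hU : IsOpen U) (hf : ContDiffOn ℝ ∞ f U) (hg : ContDiffOn ℝ ∞ g U)
    (l : List κ) : EqOn (Ds v l fun y => f y + g y) (fun y => Ds v l f y + Ds v l g y) U := by
  induction l with
  | nil => exact fun _ _ => rfl
  | cons i l ih =>
    intro x hx
    rw [Ds_cons, D_congr_on hU ih _ hx]
    exact D_add_at (dAt_of_on hU (contDiffOn_Ds hU hf l) hx)
      (dAt_of_on hU (contDiffOn_Ds hU hg l) hx) _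

lemma Ds_add (hf : Sm f) (hg : Sm g) (l : List κ) :
    (Ds v l fun y => f y + g y) = fun y => Ds v l f y + Ds v l g y :=
  funext fun x => Ds_add_on isOpen_univ hf.contDiffOn hg.contDiffOn l (mem_univ x)

lemma Ds_sub (hf : Sm f) (hg : Sm g) (l : List κ) :
    (Ds v l fun y => f y - g y) = fun y => Ds v l f y - Ds v l g y := by
  simp only [sub_eq_add_neg]
  rw [Ds_add hf hg.neg, Ds_neg]

lemma D_mul_on (hU : IsOpen U) (hf : ContDiffOn ℝ ∞ f U) (hg : ContDiffOn ℝ ∞ g U) (w : X) :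
    EqOn (D w fun y => f y * g y) (fun y => f y * D w g y + D w f y * g y) U := fun _ hx =>
  D_mul_at (dAt_of_on hU hf hx) (dAt_of_on hU hg hx) w

lemma list_snoc {k : ℕ} {l : List κ} (h : l.length ≤ k + 1) :
    l = [] ∨ ∃ l' i, l = l' ++ [i] ∧ l'.length ≤ k := by
  rcases List.eq_nil_or_concat l with h0 | ⟨l', i, rfl⟩
  · exact Or.inl h0
  · refine Or.inr ⟨l', i, List.concat_eq_append .., ?_⟩
    simpa using h

/-! ### Test functions -/

lemma IsTest.D (h : IsTest U f) (w : X) : IsTest U (D w f) :=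
  ⟨h.1.D w, (tsupport_D f w).trans h.2⟩

lemma IsTest.Ds (h : IsTest U f) (l : List κ) : IsTest U (Ds v l f) :=
  ⟨tst_Ds h.1 l, (tsupport_Ds l f).trans h.2⟩

lemma IsTest.zero_off (h : IsTest U f) (hx : x ∉ U) : f x = 0 :=
  image_eq_zero_of_notMem_tsupport fun h' => hx (h.2 h')

lemma IsTest.mono {V : Set X} (h : IsTest U f) (hUV : U ⊆ V) : IsTest V f := ⟨h.1, h.2.trans hUV⟩

lemma IsTest.mul_on (hU : IsOpen U) (h : IsTest U f) (hg : ContDiffOn ℝ ∞ g U) :
    IsTest U fun y => f y * g y :=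
  ⟨Tst.mul_on hU h.1 h.2 hg, (tsupport_mul_subset_left (f := f) (g := g)).trans h.2⟩

lemma IsTest.mul_on' (hU : IsOpen U) (h : IsTest U f) (hg : ContDiffOn ℝ ∞ g U) :
    IsTest U fun y => g y * f y := by simpa only [mul_comm] using h.mul_on hU hg

lemma IsTest.mul_right (h : IsTest U f) (hg : Sm g) : IsTest U fun y => f y * g y :=
  ⟨h.1.mul_right hg, (tsupport_mul_subset_left (f := f) (g := g)).trans h.2⟩

lemma IsTest.mul_left (h : IsTest U f) (hg : Sm g) : IsTest U fun y => g y * f y := by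
  simpa only [mul_comm] using h.mul_right hg

lemma IsTest.zero : IsTest U fun _ => (0 : ℝ) := ⟨Tst.zero, by simp [tsupport]⟩

lemma IsTest.add (hf : IsTest U f) (hg : IsTest U g) : IsTest U fun y => f y + g y :=
  ⟨hf.1.add hg.1, (tsupport_add f g).trans (union_subset hf.2 hg.2)⟩

lemma IsTest.neg (hf : IsTest U f) : IsTest U fun y => -f y := by
  simpa only [neg_mul, one_mul] using hf.mul_left (Sm.const (-1))

lemma IsTest.sub (hf : IsTest U f) (hg : IsTest U g) : IsTest U fun y => f y - g y := by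
  simpa only [sub_eq_add_neg] using hf.add hg.neg

lemma IsTest.sum {α : Type*} (s : Finset α) {F : α → X → ℝ} (hF : ∀ i ∈ s, IsTest U (F i)) :
    IsTest U fun y => ∑ i ∈ s, F i y := by
  classical
  induction s using Finset.induction_on with
  | empty => simpa using IsTest.zero
  | insert a s ha ih =>
    simp only [Finset.sum_insert ha]
    exact (hF a (Finset.mem_insert_self _ _)).add
      (ih fun i hi => hF i (Finset.mem_insert_of_mem hi))

lemma isTest_univ (h : Tst f) : IsTest univ f := ⟨h, subset_univ _⟩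

variable [Fintype κ] {γ : κ → κ → X → ℝ}

lemma sm_XX (hγ : SmM γ) (hf : Sm f) (i : κ) : Sm (XX v γ f i) :=
  Sm.sum fun j _ => (hγ i j).mul (hf.D _)

lemma sm_dvg {Y : κ → X → ℝ} (hY : ∀ i, Sm (Y i)) : Sm (dvg v Y) := Sm.sum fun i _ => (hY i).D _

lemma sm_dgd (hγ : SmM γ) (hf : Sm f) : Sm (dgd v γ f) := sm_dvg (sm_XX hγ hf)

lemma sm_dir {Y : κ → X → ℝ} (hY : ∀ i, Sm (Y i)) (hf : Sm f) : Sm (dir v Y f) :=
  Sm.sum fun i _ => (hY i).mul (hf.D _)

lemma on_XX (hU : IsOpen U) (hγ : SmM γ) (hf : ContDiffOn ℝ ∞ f U) (i : κ) :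
    ContDiffOn ℝ ∞ (XX v γ f i) U :=
  ContDiffOn.sum fun j _ => (hγ i j).contDiffOn.mul (contDiffOn_D hU hf _)

lemma on_dvg (hU : IsOpen U) {Y : κ → X → ℝ} (hY : ∀ i, ContDiffOn ℝ ∞ (Y i) U) :
    ContDiffOn ℝ ∞ (dvg v Y) U := ContDiffOn.sum fun i _ => contDiffOn_D hU (hY i) _

lemma on_dgd (hU : IsOpen U) (hγ : SmM γ) (hf : ContDiffOn ℝ ∞ f U) :
    ContDiffOn ℝ ∞ (dgd v γ f) U := on_dvg hU (on_XX hU hγ hf)

lemma IsTest.XX (hγ : SmM γ) (hf : IsTest U f) (i : κ) : IsTest U (XX v γ f i) :=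
  IsTest.sum _ fun j _ => (hf.D _).mul_left (hγ i j)

lemma IsTest.dvg {Y : κ → X → ℝ} (hY : ∀ i, IsTest U (Y i)) : IsTest U (dvg v Y) :=
  IsTest.sum _ fun i _ => (hY i).D _

lemma IsTest.dgd (hγ : SmM γ) (hf : IsTest U f) : IsTest U (dgd v γ f) :=
  IsTest.dvg (hf.XX hγ)

lemma dgd_congr (h : f =ᶠ[𝓝 x] g) : dgd v γ f x = dgd v γ g x :=
  Finset.sum_congr rfl fun i _ => D_congr (by
    filter_upwards [eventually_all.2 fun j => D_eventuallyEq h (v j)] with y hy
    exact Finset.sum_congr rfl fun j _ => by rw [hy j]) _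

/-- The product rule for `dgd`, in divergence form. -/
lemma dgd_mul (hU : IsOpen U) (hγ : SmM γ) (hs : SymM γ) (hf : ContDiffOn ℝ ∞ f U)
    (hg : ContDiffOn ℝ ∞ g U) (hx : x ∈ U) :
    dgd v γ (fun y => f y * g y) x = f x * dgd v γ g x + 2 * ∑ i, XX v γ f i x * D (v i) g x +
      dgd v γ f x * g x := by
  have e : ∀ i, D (v i) (XX v γ (fun y => f y * g y) i) x =
      f x * D (v i) (XX v γ g i) x + D (v i) f x * XX v γ g i x +
        (XX v γ f i x * D (v i) g x + D (v i) (XX v γ f i) x * g x) := fun i => by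
    have h1 : EqOn (XX v γ (fun y => f y * g y) i)
        (fun y => f y * XX v γ g i y + XX v γ f i y * g y) U := fun y hy => by
      simp only [XX, D_mul_on hU hf hg _ hy, Finset.mul_sum, Finset.sum_mul,
        ← Finset.sum_add_distrib]
      exact Finset.sum_congr rfl fun j _ => by ring
    rw [D_congr_on hU h1 _ hx, D_add_at (dAt_of_on hU (hf.mul (on_XX hU hγ hg i)) hx)
      (dAt_of_on hU ((on_XX hU hγ hf i).mul hg) hx), D_mul_on hU hf (on_XX hU hγ hg i) _ hx,
      D_mul_on hU (on_XX hU hγ hf i) hg _ hx]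
  have e2 : ∑ i, D (v i) f x * XX v γ g i x = ∑ i, XX v γ f i x * D (v i) g x := by
    simp only [XX, Finset.mul_sum, Finset.sum_mul]
    rw [Finset.sum_comm]
    exact Finset.sum_congr rfl fun i _ => Finset.sum_congr rfl fun j _ => by rw [hs j i]; ring
  simp only [dgd, dvg, e, Finset.sum_add_distrib, e2, ← Finset.mul_sum, ← Finset.sum_mul]
  ring

end Ds

section SB
variable {X : Type} [NormedAddCommGroup X] [NormedSpace ℝ X] {κ : Type} {v : κ → X}
  {f g : X → ℝ} {U : Set X} {x : X} {k : ℕ} {w w' : ℝ}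

lemma SB_one : SB v k w 1 f x ↔ ∀ l : List κ, l.length ≤ k → |Ds v l f x| ≤ w := by
  simp only [SB, one_pow, mul_one]

lemma SB.le (h : SB v k w 1 f x) {l : List κ} (hl : l.length ≤ k) : |Ds v l f x| ≤ w :=
  SB_one.1 h l hl

lemma SB.abs_le (h : SB v k w 1 f x) : |f x| ≤ w := h.le (l := []) (Nat.zero_le _)

lemma SB.nonneg (h : SB v k w 1 f x) : 0 ≤ w := (abs_nonneg _).trans h.abs_le

lemma SB.mono {k' : ℕ} (h : SB v k w 1 f x) (hk : k' ≤ k) (hw : w ≤ w') : SB v k' w' 1 f x :=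
  SB_one.2 fun _ hl => (h.le (hl.trans hk)).trans hw

lemma SB.D (h : SB v (k + 1) w 1 f x) (i : κ) : SB v k w 1 (D (v i) f) x :=
  SB_one.2 fun l hl => by
    rw [← Ds_snoc]
    exact h.le (by simpa using hl)

lemma SB.Ds {l : List κ} (h : SB v (k + l.length) w 1 f x) : SB v k w 1 (Ds v l f) x :=
  SB_one.2 fun l' hl => by
    rw [← Ds_append]
    exact h.le (by simpa using hl)

lemma SB.succ (h0 : |f x| ≤ w) (h : ∀ i, SB v k w 1 (P136.D (v i) f) x) : SB v (k + 1) w 1 f x :=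
  SB_one.2 fun l hl => by
    rcases list_snoc hl with rfl | ⟨l', i, rfl, h'⟩
    · exact h0
    · rw [Ds_snoc]; exact (h i).le h'

lemma SB.zero (h0 : |f x| ≤ w) : SB v 0 w 1 f x := SB_one.2 fun l hl => by
  obtain rfl := List.length_eq_zero_iff.1 (Nat.le_zero.1 hl)
  exact h0

lemma SB.congr (h : SB v k w 1 f x) (e : f =ᶠ[𝓝 x] g) : SB v k w 1 g x :=
  SB_one.2 fun l hl => by rw [← (Ds_congr e l).eq_of_nhds]; exact h.le hl

lemma SB.cmul (h : SB v k w 1 f x) (c : ℝ) : SB v k (|c| * w) 1 (fun y => c * f y) x :=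
  SB_one.2 fun l hl => by
    rw [Ds_cmul, abs_mul]
    exact mul_le_mul_of_nonneg_left (h.le hl) (abs_nonneg c)

lemma SB.neg (h : SB v k w 1 f x) : SB v k w 1 (fun y => -f y) x :=
  SB_one.2 fun l hl => by rw [Ds_neg, abs_neg]; exact h.le hl

lemma SB.const (c : ℝ) (k : ℕ) (x : X) : SB v k |c| 1 (fun _ => c) x := by
  cases k with
  | zero => exact SB.zero le_rfl
  | succ k =>
    refine SB.succ le_rfl fun i => SB_one.2 fun l _ => ?_
    rw [show P136.D (v i) (fun _ : X => c) = fun _ => 0 from funext fun y => D_const _ _ _, Ds_zero]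
    simp

lemma SB.add_on (hU : IsOpen U) (hx : x ∈ U) (hf : ContDiffOn ℝ ∞ f U) (hg : ContDiffOn ℝ ∞ g U)
    (h : SB v k w 1 f x) (h' : SB v k w' 1 g x) : SB v k (w + w') 1 (fun y => f y + g y) x :=
  SB_one.2 fun l hl => by
    rw [Ds_add_on hU hf hg l hx]
    exact (abs_add_le _ _).trans (add_le_add (h.le hl) (h'.le hl))

lemma SB.add (hf : Sm f) (hg : Sm g) (h : SB v k w 1 f x) (h' : SB v k w' 1 g x) :
    SB v k (w + w') 1 (fun y => f y + g y) x :=
  SB.add_on isOpen_univ (mem_univ x) hf.contDiffOn hg.contDiffOn h h'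

lemma SB.sub (hf : Sm f) (hg : Sm g) (h : SB v k w 1 f x) (h' : SB v k w' 1 g x) :
    SB v k (w + w') 1 (fun y => f y - g y) x := by
  simpa only [sub_eq_add_neg] using SB.add hf hg.neg h h'.neg

lemma SB.sum {α : Type*} (s : Finset α) {F : α → X → ℝ} (hF : ∀ i ∈ s, Sm (F i))
    (h : ∀ i ∈ s, SB v k w 1 (F i) x) : SB v k (s.card * w) 1 (fun y => ∑ i ∈ s, F i y) x := by
  classical
  induction s using Finset.induction_on with
  | empty => simpa using SB.const (v := v) 0 k x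
  | insert a s ha ih =>
    simp only [Finset.sum_insert ha, Finset.card_insert_of_notMem ha]
    refine (SB.add (hF a (Finset.mem_insert_self _ _))
      (Sm.sum fun i hi => hF i (Finset.mem_insert_of_mem hi)) (h a (Finset.mem_insert_self _ _))
      (ih (fun i hi => hF i (Finset.mem_insert_of_mem hi))
        fun i hi => h i (Finset.mem_insert_of_mem hi))).mono le_rfl (le_of_eq ?_)
    push_cast
    ring

lemma SB.mul (hf : Sm f) (hg : Sm g) (h : SB v k w 1 f x) (h' : SB v k w' 1 g x) :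
    SB v k (2 ^ k * (w * w')) 1 (fun y => f y * g y) x := by
  induction k generalizing f g with
  | zero =>
    refine SB.zero ?_
    rw [abs_mul, pow_zero, one_mul]
    exact mul_le_mul h.abs_le h'.abs_le (abs_nonneg _) h.nonneg
  | succ k ih =>
    have p : 0 ≤ w * w' := mul_nonneg h.nonneg h'.nonneg
    refine SB.succ ?_ fun i => ?_
    · rw [abs_mul]
      exact (mul_le_mul h.abs_le h'.abs_le (abs_nonneg _) h.nonneg).trans
        (le_mul_of_one_le_left p (one_le_pow₀ one_le_two))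
    · rw [show P136.D (v i) (fun y => f y * g y) = fun y => f y * P136.D (v i) g y +
        P136.D (v i) f y * g y from funext fun y => D_mul_at (hf.dAt y) (hg.dAt y) _]
      exact (SB.add (hf.mul (hg.D _)) ((hf.D _).mul hg)
        (ih hf (hg.D _) (h.mono k.le_succ le_rfl) (h'.D i))
        (ih (hf.D _) hg (h.D i) (h'.mono k.le_succ le_rfl))).mono le_rfl (le_of_eq (by ring))

lemma exists_SB [Finite κ] (v : κ → X) (hf : Sm f) {K : Set X} (hK : IsCompact K) (k : ℕ) :
    ∃ M : ℝ, 0 ≤ M ∧ ∀ x ∈ K, SB v k M 1 f x := by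
  induction k generalizing f with
  | zero =>
    obtain ⟨M, hM⟩ := hK.exists_bound_of_continuousOn hf.cont.continuousOn
    exact ⟨max M 0, le_max_right _ _, fun x hx => SB.zero ((hM x hx).trans (le_max_left _ _))⟩
  | succ k ih =>
    obtain ⟨M, hM⟩ := hK.exists_bound_of_continuousOn hf.cont.continuousOn
    choose M' h0 hM' using fun i => ih (hf.D (v i))
    obtain ⟨B, hB⟩ := (Set.finite_range M').bddAbove
    exact ⟨max (max M 0) B, (le_max_right _ _).trans (le_max_left _ _), fun x hx =>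
      SB.succ ((hM x hx).trans ((le_max_left _ _).trans (le_max_left _ _))) fun i =>
        (hM' i x hx).mono le_rfl ((hB ⟨i, rfl⟩).trans (le_max_right _ _))⟩

lemma SB.off (hx : x ∉ tsupport f) (hw : 0 ≤ w) : SB v k w 1 f x := SB_one.2 fun l _ => by
  rw [image_eq_zero_of_notMem_tsupport fun h => hx (tsupport_Ds l f h), abs_zero]
  exact hw

lemma exists_SB_tst [Finite κ] (v : κ → X) (hf : Tst f) (k : ℕ) :
    ∃ M : ℝ, 0 ≤ M ∧ ∀ x, SB v k M 1 f x := by
  obtain ⟨M, h0, hM⟩ := exists_SB v hf.1 hf.2.isCompact k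
  refine ⟨M, h0, fun x => ?_⟩
  by_cases hx : x ∈ tsupport f
  exacts [hM x hx, SB.off hx h0]

variable [Fintype κ] {γ : κ → κ → X → ℝ}

lemma SB.XX (hγ : SmM γ) (hf : Sm f) (h : ∀ i j, SB v k w 1 (γ i j) x)
    (h' : SB v (k + 1) w' 1 f x) (i : κ) :
    SB v k (Fintype.card κ * (2 ^ k * (w * w'))) 1 (XX v γ f i) x :=
  SB.sum _ (fun j _ => (hγ i j).mul (hf.D _)) fun j _ => SB.mul (hγ i j) (hf.D _) (h i j) (h'.D j)

lemma SB.dvg {Y : κ → X → ℝ} (hY : ∀ i, Sm (Y i)) (h : ∀ i, SB v (k + 1) w 1 (Y i) x) :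
    SB v k (Fintype.card κ * w) 1 (dvg v Y) x :=
  SB.sum _ (fun i _ => (hY i).D _) fun i _ => (h i).D i

lemma SB.dgd (hγ : SmM γ) (hf : Sm f) (h : ∀ i j, SB v (k + 1) w 1 (γ i j) x)
    (h' : SB v (k + 2) w' 1 f x) :
    SB v k (Fintype.card κ * (Fintype.card κ * (2 ^ (k + 1) * (w * w')))) 1 (dgd v γ f) x :=
  SB.dvg (sm_XX hγ hf) (SB.XX hγ hf h h')

end SB

section integ
variable {n : ℕ} {U V : Set (En n)} {f g ψ a : En n → ℝ} {j : ℕ} {N N' M : ℝ}

lemma iOn (hU : IsOpen U) (hf : ContDiffOn ℝ ∞ f U) (hψ : IsTest U ψ) :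
    IntegrableOn (fun x => f x * ψ x) U := (hψ.mul_on' hU hf).1.integrable.integrableOn

lemma IsTest.setIntegral (hψ : IsTest U ψ) : ∫ x in U, ψ x = ∫ x, ψ x :=
  setIntegral_eq_integral_of_forall_compl_eq_zero fun _ hx => hψ.zero_off hx

lemma IsTest.integral_D (hψ : IsTest U ψ) (w : En n) : ∫ x in U, P136.D w ψ x = 0 := by
  rw [(hψ.D w).setIntegral]; exact P136.integral_D hψ.1 w

/-- Integration by parts on an open set. -/
lemma weak_ibp (hU : IsOpen U) (hf : ContDiffOn ℝ ∞ f U) (hψ : IsTest U ψ) (w : En n) :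
    ∫ x in U, f x * D w ψ x = -∫ x in U, D w f x * ψ x := by
  have h0 := (hψ.mul_on' hU hf).integral_D w
  rw [setIntegral_congr_fun hU.measurableSet (D_mul_on hU hf hψ.1.1.contDiffOn w),
    integral_add (iOn hU hf (hψ.D w)) (iOn hU (contDiffOn_D hU hf w) hψ)] at h0
  linarith

lemma intOn_of_compact {K : Set (En n)} (hK : IsCompact K) (hV : V ⊆ K) (hf : ContinuousOn f K) :
    IntegrableOn f V := (hf.integrableOn_compact hK).mono_set hV

lemma memLp_iff_sq (hU : IsOpen U) (hf : ContinuousOn f U) :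
    MemLp f 2 (volume.restrict U) ↔ IntegrableOn (fun y => f y ^ 2) U :=
  memLp_two_iff_integrable_sq (hf.aestronglyMeasurable hU.measurableSet)

lemma abs_integral_mul_le {μ : Measure (En n)} (hf : MemLp f 2 μ) (hg : MemLp g 2 μ) :
    |∫ x, f x * g x ∂μ| ≤ √(∫ x, f x ^ 2 ∂μ) * √(∫ x, g x ^ 2 ∂μ) := by
  have h := integral_mul_norm_le_Lp_mul_Lq Real.HolderConjugate.two_two
    (f := f) (g := g) (μ := μ) (by simpa using hf) (by simpa using hg)
  refine (abs_integral_le_integral_abs).trans ?_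
  simpa only [abs_mul, Real.norm_eq_abs, Real.rpow_two, sq_abs, Real.sqrt_eq_rpow] using h

lemma tst_memLp (h : Tst f) : MemLp f 2 volume := h.1.continuous.memLp_of_hasCompactSupport h.2

lemma HB.int (h : HB U j g N) : IntegrableOn (fun y => g y ^ 2) U := (h [] (Nat.zero_le _)).1

lemma HB.le (h : HB U j g N) : ∫ y in U, g y ^ 2 ≤ N := (h [] (Nat.zero_le _)).2

lemma HB.nonneg (h : HB U j g N) : 0 ≤ N := (integral_nonneg fun _ => sq_nonneg _).trans h.le

lemma HB.zero (h1 : IntegrableOn (fun y => g y ^ 2) U) (h2 : ∫ y in U, g y ^ 2 ≤ N) :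
    HB U 0 g N := fun l hl => by
  obtain rfl := List.length_eq_zero_iff.1 (Nat.le_zero.1 hl)
  exact ⟨h1, h2⟩

lemma HB.mono {j' : ℕ} (h : HB U j g N) (hj : j' ≤ j) (hN : N ≤ N') : HB U j' g N' :=
  fun l hl => ⟨(h l (hl.trans hj)).1, (h l (hl.trans hj)).2.trans hN⟩

lemma HB.subset (h : HB U j g N) (hV : V ⊆ U) : HB V j g N := fun l hl =>
  ⟨(h l hl).1.mono_set hV, (setIntegral_mono_set (h l hl).1 (.of_forall fun _ => sq_nonneg _)
    hV.eventuallyLE).trans (h l hl).2⟩

lemma HB.D (h : HB U (j + 1) g N) (i : Fin n) : HB U j (D (ee i) g) N := fun l hl => by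
  rw [← Ds_snoc]
  exact h _ (by simpa using hl)

lemma HB.Ds {l : List (Fin n)} (h : HB U (j + l.length) g N) : HB U j (Ds ee l g) N :=
  fun l' hl => by
    rw [← Ds_append]
    exact h _ (by simpa using hl)

lemma HB.succ (h0 : HB U 0 g N) (h : ∀ i, HB U j (P136.D (ee i) g) N) : HB U (j + 1) g N :=
  fun l hl => by
    rcases list_snoc hl with rfl | ⟨l', i, rfl, h'⟩
    · exact h0 [] le_rfl
    · rw [Ds_snoc]; exact h i l' h'

lemma HB.congr (hU : IsOpen U) (h : HB U j f N) (e : EqOn f g U) : HB U j g N := fun l hl => by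
  have e' : EqOn (fun y => P088.Ds ee l f y ^ 2) (fun y => P088.Ds ee l g y ^ 2) U :=
    fun y hy => by simp only [Ds_congr_on hU e l hy]
  rw [← setIntegral_congr_fun hU.measurableSet e']
  exact ⟨(h l hl).1.congr_fun e' hU.measurableSet, (h l hl).2⟩

/-- A bound on a set containing the support is a bound on every set. -/
lemma HB.of_supp (h : HB U j g N) (hs : tsupport g ⊆ U) (V : Set (En n)) : HB V j g N := by
  refine HB.subset (U := univ) (fun l hl => ?_) (subset_univ V)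
  have z : ∀ y, y ∉ U → P088.Ds ee l g y ^ 2 = 0 := fun y hy => by
    rw [image_eq_zero_of_notMem_tsupport fun h' => hy (hs (tsupport_Ds l g h')), sq, mul_zero]
  rw [IntegrableOn, Measure.restrict_univ, ← setIntegral_eq_integral_of_forall_compl_eq_zero z]
  exact ⟨(integrableOn_iff_integrable_of_support_subset fun y hy => by
    by_contra h'; exact hy (z y h')).1 (h l hl).1, (h l hl).2⟩

lemma HB.cmul (h : HB U j g N) (c : ℝ) : HB U j (fun y => c * g y) (c ^ 2 * N) := fun l hl => by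
  simp only [Ds_cmul, mul_pow, integral_const_mul]
  exact ⟨(h l hl).1.const_mul _, mul_le_mul_of_nonneg_left (h l hl).2 (sq_nonneg c)⟩

lemma HB.neg (h : HB U j g N) : HB U j (fun y => -g y) N := fun l hl => by
  simp only [Ds_neg, neg_sq]
  exact h l hl

lemma sq_bound (hU : IsOpen U) (hf : ContinuousOn f U) (hg : IntegrableOn g U)
    (h : ∀ y ∈ U, f y ^ 2 ≤ g y) :
    IntegrableOn (fun y => f y ^ 2) U ∧ ∫ y in U, f y ^ 2 ≤ ∫ y in U, g y := by
  have h1 : IntegrableOn (fun y => f y ^ 2) U :=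
    Integrable.mono' hg ((hf.pow 2).aestronglyMeasurable hU.measurableSet)
      ((ae_restrict_iff' hU.measurableSet).2 (.of_forall fun y hy => by
        rw [Real.norm_of_nonneg (sq_nonneg _)]; exact h y hy))
  exact ⟨h1, setIntegral_mono_on h1 hg hU.measurableSet h⟩

lemma HB.add (hU : IsOpen U) (hf : ContDiffOn ℝ ∞ f U) (hg : ContDiffOn ℝ ∞ g U)
    (h : HB U j f N) (h' : HB U j g N') : HB U j (fun y => f y + g y) (2 * N + 2 * N') := by
  intro l hl
  obtain ⟨a1, a2⟩ := h l hl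
  obtain ⟨b1, b2⟩ := h' l hl
  obtain ⟨c1, c2⟩ := sq_bound hU (contDiffOn_Ds (v := ee) hU (hf.add hg) l).continuousOn
    (iadd (a1.const_mul 2) (b1.const_mul 2)) fun y hy => by
      rw [Ds_add_on hU hf hg l hy]
      nlinarith [sq_nonneg (P088.Ds ee l f y - P088.Ds ee l g y)]
  refine ⟨c1, c2.trans ?_⟩
  rw [integral_add (a1.const_mul 2) (b1.const_mul 2), integral_const_mul, integral_const_mul]
  linarith

lemma HB.sub (hU : IsOpen U) (hf : ContDiffOn ℝ ∞ f U) (hg : ContDiffOn ℝ ∞ g U)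
    (h : HB U j f N) (h' : HB U j g N') : HB U j (fun y => f y - g y) (2 * N + 2 * N') := by
  simpa only [sub_eq_add_neg] using HB.add hU hf hg.neg h h'.neg

lemma HB.zero_fun (U : Set (En n)) (j : ℕ) : HB U j (fun _ => 0) 0 := fun l _ => by
  simp [Ds_zero]

lemma HB.sum {α : Type*} (hU : IsOpen U) (s : Finset α) {F : α → En n → ℝ} (hN : 0 ≤ N)
    (hF : ∀ i ∈ s, ContDiffOn ℝ ∞ (F i) U) (h : ∀ i ∈ s, HB U j (F i) N) :
    HB U j (fun y => ∑ i ∈ s, F i y) (4 ^ s.card * N) := by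
  classical
  induction s using Finset.induction_on with
  | empty => simpa using (HB.zero_fun U j).mono le_rfl hN
  | insert a s ha ih =>
    simp only [Finset.sum_insert ha, Finset.card_insert_of_notMem ha]
    refine (HB.add hU (hF a (Finset.mem_insert_self _ _))
      (ContDiffOn.sum fun i hi => hF i (Finset.mem_insert_of_mem hi))
      (h a (Finset.mem_insert_self _ _)) (ih (fun i hi => hF i (Finset.mem_insert_of_mem hi))
        fun i hi => h i (Finset.mem_insert_of_mem hi))).mono le_rfl ?_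
    have : N ≤ 4 ^ s.card * N := le_mul_of_one_le_left hN (one_le_pow₀ (by norm_num))
    rw [pow_succ]
    linarith

lemma HB.mul (hU : IsOpen U) (ha : ContDiffOn ℝ ∞ a U) (hg : ContDiffOn ℝ ∞ g U)
    (hM : ∀ x ∈ U, SB ee j M 1 a x) (h : HB U j g N) :
    HB U j (fun y => a y * g y) (4 ^ j * (M ^ 2 * N)) := by
  have h0 : ∀ {a g : En n → ℝ} {j : ℕ}, ContDiffOn ℝ ∞ a U → ContDiffOn ℝ ∞ g U →
      (∀ x ∈ U, SB ee j M 1 a x) → HB U j g N → HB U 0 (fun y => a y * g y) (M ^ 2 * N) := by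
    intro a g j ha hg hM h
    obtain ⟨c1, c2⟩ := sq_bound hU (ha.mul hg).continuousOn (h.int.const_mul (M ^ 2))
      fun y hy => by
        rw [mul_pow, ← sq_abs (a y)]
        exact mul_le_mul_of_nonneg_right (pow_le_pow_left₀ (abs_nonneg _) (hM y hy).abs_le 2)
          (sq_nonneg _)
    refine HB.zero c1 (c2.trans ?_)
    rw [integral_const_mul]
    exact mul_le_mul_of_nonneg_left h.le (sq_nonneg M)
  induction j generalizing a g with
  | zero => simpa using h0 ha hg hM h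
  | succ j ih =>
    have p : 0 ≤ M ^ 2 * N := mul_nonneg (sq_nonneg M) h.nonneg
    refine HB.succ ((h0 ha hg hM h).mono le_rfl
      (le_mul_of_one_le_left p (one_le_pow₀ (by norm_num)))) fun i => ?_
    have d1 := contDiffOn_D hU ha (ee i)
    have d2 := contDiffOn_D hU hg (ee i)
    exact ((HB.add hU (ha.mul d2) (d1.mul hg)
      (ih ha d2 (fun x hx => (hM x hx).mono j.le_succ le_rfl) (h.D i))
      (ih d1 hg (fun x hx => (hM x hx).D i) (h.mono j.le_succ le_rfl))).congr hU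
        (D_mul_on hU ha hg _).symm).mono le_rfl (le_of_eq (by ring))

lemma exists_HB_tst (hg : Tst g) (U : Set (En n)) (j : ℕ) : ∃ N, HB U j g N := by
  induction j generalizing g with
  | zero => exact ⟨_, HB.zero hg.sq.integrable.integrableOn le_rfl⟩
  | succ j ih =>
    choose N hN using fun i => ih (hg.D (ee i))
    obtain ⟨B, hB⟩ := (Set.finite_range N).bddAbove
    exact ⟨max (∫ y in U, g y ^ 2) B, HB.succ (HB.zero hg.sq.integrable.integrableOn
      (le_max_left _ _)) fun i => (hN i).mono le_rfl ((hB ⟨i, rfl⟩).trans (le_max_right _ _))⟩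

end integ

section scale
variable {n : ℕ} {ι : Type} [Fintype ι] {x : En n} {s : ℝ} {f : En n → ℝ}

lemma sm_aff (x : En n) (s : ℝ) : ContDiff ℝ ∞ fun z : En n => x + s • z :=
  contDiff_const.add (contDiff_id.const_smul s)

lemma sm_sc (hf : Sm f) (x : En n) (s : ℝ) : Sm (sc x s f) := hf.comp (sm_aff x s)

lemma on_sc {U V : Set (En n)} (hf : ContDiffOn ℝ ∞ f U) (h : ∀ z ∈ V, x + s • z ∈ U) :
    ContDiffOn ℝ ∞ (sc x s f) V := hf.comp (sm_aff x s).contDiffOn h

lemma D_sc (x : En n) (s : ℝ) (f : En n → ℝ) (w : En n) :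
    D w (sc x s f) = fun z => s * sc x s (D w f) z := by
  funext z
  have h := fderiv_comp_smul (𝕜 := ℝ) (f := fun y => f (x + y)) (x := z) s
  rw [fderiv_comp_add_left] at h
  exact congrArg (fun T : En n →L[ℝ] ℝ => T w) h

lemma Ds_sc (x : En n) (s : ℝ) (f : En n → ℝ) (l : List (Fin n)) :
    Ds ee l (sc x s f) = fun z => s ^ l.length * sc x s (Ds ee l f) z := by
  induction l with
  | nil => simp [Ds_nil]
  | cons i l ih =>
    rw [Ds_cons, ih, D_cmul, D_sc]
    funext z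
    simp only [List.length_cons, pow_succ, mul_assoc, Ds_cons]

lemma SB.sc {k : ℕ} {w : ℝ} {z : En n} (h : SB ee k w 1 f (x + s • z)) (hs : |s| ≤ 1) :
    SB ee k w 1 (sc x s f) z := SB_one.2 fun l hl => by
  rw [Ds_sc, abs_mul, abs_pow]
  exact (mul_le_of_le_one_left (abs_nonneg _) (pow_le_one₀ (abs_nonneg _) hs)).trans (h.le hl)

lemma SB.csc {k : ℕ} {w c : ℝ} {z : En n} (h : SB ee k w 1 f (x + s • z)) (hs : |s| ≤ 1)
    (hc : |c| ≤ 1) : SB ee k w 1 (fun y => c * P088.sc x s f y) z :=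
  ((h.sc hs).cmul c).mono le_rfl (mul_le_of_le_one_left h.nonneg hc)

lemma app_sc (L : Op n ι) (x : En n) (s : ℝ) (W : ι → En n → ℝ) (a : ι) (z : En n) :
    (L.sc x s).app (fun a => sc x s (W a)) a z = s ^ 2 * L.app W a (x + s • z) := by
  have e : ∀ i, XX ee (L.sc x s).γ (sc x s (W a)) i = fun z => s * sc x s (XX ee L.γ (W a) i) z :=
    fun i => funext fun z => by
      simp only [XX, Op.sc, D_sc, sc, Finset.mul_sum]
      exact Finset.sum_congr rfl fun j _ => by ring
  simp only [Op.app, dgd, dvg, e, D_cmul, D_sc]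
  simp only [Op.sc, sc, mul_add, Finset.mul_sum]
  refine congrArg₂ _ (congrArg₂ _ (Finset.sum_congr rfl fun i _ => by ring)
    (Finset.sum_congr rfl fun i _ => Finset.sum_congr rfl fun a' _ => by ring))
    (Finset.sum_congr rfl fun i _ => by ring)

omit [Fintype ι] in
lemma good_sc {L : Op n ι} (hL : L.Good) (x : En n) (s : ℝ) : (L.sc x s).Good :=
  ⟨fun i j => sm_sc (hL.1 i j) x s, fun i j => by simp only [Op.sc, hL.2.1 i j],
    fun i a a' => (sm_sc (hL.2.2.1 i a a') x s).cmul s,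
    fun a a' => (sm_sc (hL.2.2.2.1 a a') x s).cmul _, fun _ => hL.2.2.2.2 _⟩

lemma sol_sc {L : Op n ι} {U V : Set (En n)} {W F : ι → En n → ℝ} (h : Sol L U W F)
    (hV : ∀ z ∈ V, x + s • z ∈ U) :
    Sol (L.sc x s) V (fun a => sc x s (W a)) fun a z => s ^ 2 * sc x s (F a) z :=
  ⟨fun a => on_sc (h.1 a) hV, fun z hz a => by rw [app_sc, h.2 _ (hV z hz)]; rfl⟩

lemma mem_ball_sc (hs : 0 < s) {r : ℝ} {z : En n} : x + s • z ∈ ball x (s * r) ↔ z ∈ ball 0 r := by
  rw [mem_ball_iff_norm, add_sub_cancel_left, norm_smul, Real.norm_of_nonneg hs.le,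
    mem_ball_zero_iff, mul_lt_mul_iff_right₀ hs]

lemma ind_sc (hs : 0 < s) (r : ℝ) (f : En n → ℝ) :
    (ball 0 r).indicator (sc x s f) =
      fun z => (fun y => (ball x (s * r)).indicator f (x + y)) (s • z) := by
  funext z
  by_cases hz : z ∈ ball (0 : En n) r
  · simp only [indicator_of_mem hz, indicator_of_mem ((mem_ball_sc hs).2 hz), sc]
  · simp only [indicator_of_notMem hz, indicator_of_notMem (mt (mem_ball_sc hs).1 hz)]

lemma integral_sc (hs : 0 < s) (r : ℝ) (f : En n → ℝ) :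
    ∫ z in ball 0 r, sc x s f z = (s ^ n)⁻¹ * ∫ y in ball x (s * r), f y := by
  rw [← integral_indicator measurableSet_ball, ← integral_indicator measurableSet_ball, ind_sc hs,
    Measure.integral_comp_smul volume (fun y => (ball x (s * r)).indicator f (x + y)) s,
    integral_add_left_eq_self, finrank_euclideanSpace_fin, abs_of_pos (by positivity), smul_eq_mul]

lemma integrableOn_sc (hs : 0 < s) {r : ℝ} (h : IntegrableOn f (ball x (s * r))) :
    IntegrableOn (sc x s f) (ball 0 r) := by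
  rw [← integrable_indicator_iff measurableSet_ball] at h ⊢
  rw [ind_sc hs]
  exact (h.comp_add_left x).comp_smul hs.ne'

/-- Cutoffs with bounds that do not depend on the centre. -/
lemma exists_cut (n k : ℕ) {r R : ℝ} (hr : 0 < r) (hR : r < R) : ∃ K : ℝ, 0 ≤ K ∧ ∀ x : En n,
    ∃ θ : En n → ℝ, Tst θ ∧ tsupport θ ⊆ closedBall x R ∧ (∀ y, 0 ≤ θ y ∧ θ y ≤ 1) ∧
      (∀ y ∈ closedBall x r, θ y = 1) ∧ ∀ y, SB ee k K 1 θ y := by
  let θ0 : ContDiffBump (0 : En n) := ⟨r, R, hr, hR⟩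
  have h0 : Tst θ0 := ⟨θ0.contDiff, θ0.hasCompactSupport⟩
  obtain ⟨K, hK, hb⟩ := exists_SB_tst ee h0 k
  refine ⟨K, hK, fun x => ?_⟩
  have hn : ∀ y : En n, ‖-x + (1 : ℝ) • y‖ = dist y x := fun y => by
    rw [one_smul, dist_eq_norm, neg_add_eq_sub]
  have hsup : tsupport (sc (-x) 1 θ0) ⊆ closedBall x R := by
    refine closure_minimal (fun y hy => ?_) isClosed_closedBall
    by_contra h
    rw [mem_closedBall, not_le] at h
    exact hy (θ0.zero_of_le_dist (by rw [dist_zero_right, hn]; exact h.le))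
  exact ⟨sc (-x) 1 θ0, ⟨sm_sc h0.1 _ _, (isCompact_closedBall x R).of_isClosed_subset
    (isClosed_tsupport _) hsup⟩, hsup, fun y => ⟨θ0.nonneg, θ0.le_one⟩,
    fun y hy => θ0.one_of_mem_closedBall (by rwa [mem_closedBall_zero_iff, hn]),
    fun y => (hb _).sc (by simp)⟩

/-- A cutoff that equals one near a compact set. -/
lemma exists_cut_compact {K U : Set (En n)} (hK : IsCompact K) (hU : IsOpen U) (h : K ⊆ U) :
    ∃ θ : En n → ℝ, IsTest U θ ∧ (∀ y, 0 ≤ θ y ∧ θ y ≤ 1) ∧ ∀ y ∈ K, θ =ᶠ[𝓝 y] fun _ => 1 := by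
  obtain ⟨K', h1, h2, h3⟩ := exists_compact_between hK hU h
  obtain ⟨K'', g1, g2, g3⟩ := exists_compact_between h1 hU h3
  obtain ⟨θ, t1, t2, t3, t4⟩ := exists_contMDiff_support_eq_eq_one_iff (n := ⊤) 𝓘(ℝ, En n)
    isOpen_interior h1.isClosed g2
  have hs : tsupport θ ⊆ K'' := by
    rw [tsupport, t3]
    exact closure_minimal interior_subset g1.isClosed
  refine ⟨θ, ⟨⟨t1.contDiff, g1.of_isClosed_subset (isClosed_tsupport _) hs⟩, hs.trans g3⟩,
    fun y => t2 (mem_range_self y), fun y hy => ?_⟩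
  filter_upwards [mem_interior_iff_mem_nhds.1 (h2 hy)] with z hz using (t4 z).1 hz

end scale

section DK
variable {n : ℕ} {h g a T : En n → ℝ} {k : ℕ} {C C' M N : ℝ}

lemma L2c.integrable (hh : L2c h) : Integrable h := by
  have h1 : IsFiniteMeasure (volume.restrict (tsupport h)) :=
    isFiniteMeasure_restrict.2 hh.2.isCompact.measure_lt_top.ne
  exact (integrableOn_iff_integrable_of_support_subset (subset_tsupport h)).1
    ((hh.1.restrict _).integrable one_le_two)

lemma L2c.int_mul (hh : L2c h) (hT : Tst T) : Integrable fun x => h x * T x :=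
  hh.1.integrable_mul (tst_memLp hT)

lemma L2c.of_tst (hT : Tst T) : L2c T := ⟨tst_memLp hT, hT.2⟩

lemma L2c.mul (hh : L2c h) (ha : Sm a) : L2c fun x => a x * h x := by
  obtain ⟨θ, h1, -, h2⟩ := exists_cut_compact hh.2.isCompact isOpen_univ (subset_univ _)
  have e : (fun x => a x * h x) = fun x => (θ x * a x) * h x := funext fun x => by
    by_cases hx : x ∈ tsupport h
    · rw [(h2 x hx).eq_of_nhds, one_mul]
    · rw [image_eq_zero_of_notMem_tsupport hx, mul_zero, mul_zero]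
  refine ⟨?_, hh.2.mul_left⟩
  rw [e]
  exact MemLp.mul' hh.1 ((h1.1.mul_right ha).1.continuous.memLp_top_of_hasCompactSupport
    (h1.1.mul_right ha).2 _)

lemma L2c.add (hh : L2c h) (hg : L2c g) : L2c fun x => h x + g x := ⟨hh.1.add hg.1, hh.2.add hg.2⟩

lemma L2c.neg (hh : L2c h) : L2c fun x => -h x := ⟨hh.1.neg, hh.2.neg⟩

lemma L2c.sub (hh : L2c h) (hg : L2c g) : L2c fun x => h x - g x := ⟨hh.1.sub hg.1, hh.2.sub hg.2⟩

lemma L2c.sum {α : Type*} (s : Finset α) {F : α → En n → ℝ} (hF : ∀ i ∈ s, L2c (F i)) :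
    L2c fun x => ∑ i ∈ s, F i x := by
  classical
  induction s using Finset.induction_on with
  | empty => simpa using L2c.of_tst Tst.zero
  | insert a s ha ih =>
    simp only [Finset.sum_insert ha]
    exact (hF a (Finset.mem_insert_self _ _)).add
      (ih fun i hi => hF i (Finset.mem_insert_of_mem hi))

lemma DK.mono {k' : ℕ} (H : DK k h C) (hk : k' ≤ k) (hC : C ≤ C') : DK k' h C' :=
  fun l hl Θ hΘ => (H l (hl.trans hk) Θ hΘ).trans
    (mul_le_mul_of_nonneg_right hC (Real.sqrt_nonneg _))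

lemma DK.zero (hh : MemLp h 2 volume) : DK 0 h √(∫ x, h x ^ 2) := fun l hl Θ hΘ => by
  obtain rfl := List.length_eq_zero_iff.1 (Nat.le_zero.1 hl)
  exact abs_integral_mul_le hh (tst_memLp hΘ)

lemma DK.add (hh : L2c h) (hg : L2c g) (H : DK k h C) (H' : DK k g C') :
    DK k (fun x => h x + g x) (C + C') := fun l hl Θ hΘ => by
  simp only [add_mul]
  rw [integral_add (hh.int_mul (tst_Ds hΘ l)) (hg.int_mul (tst_Ds hΘ l))]
  exact (abs_add_le _ _).trans (add_le_add (H l hl Θ hΘ) (H' l hl Θ hΘ))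

lemma DK.neg (H : DK k h C) : DK k (fun x => -h x) C := fun l hl Θ hΘ => by
  simpa only [neg_mul, integral_neg, abs_neg] using H l hl Θ hΘ

lemma DK.sub (hh : L2c h) (hg : L2c g) (H : DK k h C) (H' : DK k g C') :
    DK k (fun x => h x - g x) (C + C') := by
  simpa only [sub_eq_add_neg] using DK.add hh hg.neg H H'.neg

lemma DK.sum {α : Type*} (s : Finset α) {F : α → En n → ℝ} (hF : ∀ i ∈ s, L2c (F i))
    (H : ∀ i ∈ s, DK k (F i) C) : DK k (fun x => ∑ i ∈ s, F i x) (s.card * C) :=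
  fun l hl Θ hΘ => by
    simp only [Finset.sum_mul]
    rw [integral_finsetSum _ fun i hi => (hF i hi).int_mul (tst_Ds hΘ l), mul_assoc,
      ← nsmul_eq_mul, ← Finset.sum_const]
    exact (Finset.abs_sum_le_sum_abs _ _).trans (Finset.sum_le_sum fun i hi => H i hi l hl Θ hΘ)

lemma DK.mul (hh : L2c h) (ha : Sm a) (hM : ∀ x, SB ee k M 1 a x) (hC : 0 ≤ C) (H : DK k h C) :
    DK k (fun x => a x * h x) (2 ^ k * M * C) := by
  have hM0 : 0 ≤ M := (hM 0).nonneg
  have key : ∀ (Θ : En n → ℝ), Tst Θ → ∀ (l₂ l₁ : List (Fin n)) (a : En n → ℝ), Sm a →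
      (∀ x, SB ee l₂.length M 1 a x) → l₁.length + l₂.length ≤ k →
      |∫ x, h x * Ds ee l₁ (fun y => a y * Ds ee l₂ Θ y) x| ≤
        2 ^ l₂.length * M * C * √(∫ x, Θ x ^ 2) := by
    intro Θ hΘ l₂
    induction l₂ with
    | nil =>
      intro l₁ a ha hb hl
      refine (H l₁ hl _ (Tst.mul_left ha hΘ)).trans ?_
      have : ∫ x, (a x * Θ x) ^ 2 ≤ M ^ 2 * ∫ x, Θ x ^ 2 := by
        rw [← integral_const_mul]
        refine integral_mono (Tst.mul_left ha hΘ).sq.integrable (hΘ.sq.integrable.const_mul _)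
          fun x => ?_
        simp only [mul_pow]
        rw [← sq_abs (a x)]
        exact mul_le_mul_of_nonneg_right (pow_le_pow_left₀ (abs_nonneg _) (hb x).abs_le 2)
          (sq_nonneg _)
      calc C * √(∫ x, (a x * Θ x) ^ 2) ≤ C * √(M ^ 2 * ∫ x, Θ x ^ 2) := by gcongr
        _ = _ := by rw [Real.sqrt_mul (sq_nonneg M), Real.sqrt_sq hM0]; simp; ring
    | cons m l ih =>
      intro l₁ a ha hb hl
      have t := tst_Ds (v := ee) hΘ l
      have e : (fun y => a y * Ds ee (m :: l) Θ y) = fun y =>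
          D (ee m) (fun y => a y * Ds ee l Θ y) y - D (ee m) a y * Ds ee l Θ y := funext fun y => by
        rw [D_mul_at (ha.dAt y) (t.sm.dAt y), Ds_cons]; ring
      have t1 := (Tst.mul_left ha t).D (ee m)
      have t2 := Tst.mul_left (ha.D (ee m)) t
      rw [e, Ds_sub t1.sm t2.sm]
      simp only [mul_sub]
      rw [integral_sub (hh.int_mul (tst_Ds t1 l₁)) (hh.int_mul (tst_Ds t2 l₁)), ← Ds_snoc]
      have i1 := ih (l₁ ++ [m]) a ha (fun x => (hb x).mono l.length.le_succ le_rfl)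
        (by simp at hl ⊢; omega)
      have i2 := ih l₁ _ (ha.D (ee m)) (fun x => (hb x).D m) (by simp at hl; omega)
      refine (abs_sub _ _).trans ((add_le_add i1 i2).trans (le_of_eq ?_))
      rw [List.length_cons]; ring
  intro l hl Θ hΘ
  have h1 := key Θ hΘ l [] a ha (fun x => (hM x).mono hl le_rfl) (by simpa using hl)
  simp only [Ds_nil, ← mul_assoc] at h1
  simp only [mul_comm (a _)]
  refine h1.trans ?_
  gcongr
  norm_num

/-- Repeated integration by parts. -/
lemma ibp_Ds (hT : Tst T) (hg : Sm g) (l : List (Fin n)) :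
    |∫ x, T x * Ds ee l g x| = |∫ x, Ds ee l.reverse T x * g x| := by
  induction l generalizing T with
  | nil => rfl
  | cons i l ih =>
    rw [Ds_cons, ibp hT (sm_Ds hg l), abs_neg, ih (hT.D _), List.reverse_cons, Ds_snoc]

lemma DK.of_HB (hT : Tst T) (H : HB univ k T N) : DK k T √N := fun l hl Θ hΘ => by
  rw [ibp_Ds hT hΘ.sm]
  refine (abs_integral_mul_le (tst_memLp (tst_Ds hT _)) (tst_memLp hΘ)).trans
    (mul_le_mul_of_nonneg_right (Real.sqrt_le_sqrt ?_) (Real.sqrt_nonneg _))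
  simpa only [Measure.restrict_univ] using (H l.reverse (by simpa using hl)).2

lemma DK.toHB (hT : Tst T) (H : DK k T C) : HB univ k T (C ^ 2) := fun l hl => by
  have t := tst_Ds (v := ee) hT l
  refine ⟨t.sq.integrable.integrableOn, ?_⟩
  have h1 := H l.reverse (by simpa using hl) _ t
  have h0 : 0 ≤ ∫ x, Ds ee l T x ^ 2 := integral_nonneg fun _ => sq_nonneg _
  rw [ibp_Ds hT t.sm, List.reverse_reverse] at h1
  simp only [← pow_two] at h1
  rw [abs_of_nonneg h0] at h1
  rw [Measure.restrict_univ]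
  nlinarith [Real.sq_sqrt h0, sq_nonneg (C - √(∫ x, Ds ee l T x ^ 2))]

end DK

end Vale.Agent.P088
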