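import Vale.Agent.P088.Lt1Stm
import Vale.Agent.P088.LocBasic

/-! P088, LT1: derivatives, cutoffs, the action of an operator. -/

open MeasureTheory Set Metric Filter
open scoped ContDiff Topology InnerProductSpace Matrix

noncomputable section
namespace Vale.Agent.P088.Lt1
open Vale.Agent.P136 (D Sm Tst)

variable {n : ℕ} {ι : Type} [Fintype ι] [DecidableEq ι]

theorem Ds_app (l l' : List (Fin n)) (f : En n → ℝ) :
    Ds ee (l ++ l') f = Ds ee l (Ds ee l' f) := Ds_append ee l l' f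

theorem Ds_congr {f g : En n → ℝ} {x : En n} (h : f =ᶠ[𝓝 x] g) (l : List (Fin n)) :
    Ds ee l f =ᶠ[𝓝 x] Ds ee l g := P088.Ds_congr h l

theorem Ds_cda {f : En n → ℝ} {x : En n} (h : ContDiffAt ℝ ∞ f x) (l : List (Fin n)) :
    ContDiffAt ℝ ∞ (Ds ee l f) x := contDiffAt_Ds h l

theorem Ds_sm {f : En n → ℝ} (h : Sm f) (l : List (Fin n)) : Sm (Ds ee l f) := sm_Ds h l

theorem Ds_cdOn {f : En n → ℝ} {U : Set (En n)} (hU : IsOpen U) (h : ContDiffOn ℝ ∞ f U)
    (l : List (Fin n)) : ContDiffOn ℝ ∞ (Ds ee l f) U := contDiffOn_Ds hU h l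

theorem ev_dAt {X F : Type} [NormedAddCommGroup X] [NormedSpace ℝ X] [NormedAddCommGroup F]
    [NormedSpace ℝ F] {f : X → F} {x : X} (h : ContDiffAt ℝ ∞ f x) :
    ∀ᶠ y in 𝓝 x, DifferentiableAt ℝ f y :=
  ((h.of_le (m := 1) (by norm_cast)).eventually (by simp)).mono fun _ hy =>
    hy.differentiableAt one_ne_zero

theorem cda_dAt {X F : Type} [NormedAddCommGroup X] [NormedSpace ℝ X] [NormedAddCommGroup F]
    [NormedSpace ℝ F] {f : X → F} {x : X} (h : ContDiffAt ℝ ∞ f x) : DifferentiableAt ℝ f x :=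
  h.differentiableAt (by simp)

theorem Ds_lin {f g : En n → ℝ} {x : En n} (hf : ContDiffAt ℝ ∞ f x) (hg : ContDiffAt ℝ ∞ g x)
    (c d : ℝ) (l : List (Fin n)) :
    Ds ee l (fun y => c * f y + d * g y) x = c * Ds ee l f x + d * Ds ee l g x := by
  induction l using List.reverseRecOn generalizing f g with
  | nil => rfl
  | append_singleton l i ih =>
    rw [Ds_snoc, Ds_snoc, Ds_snoc, ← ih (P136.contDiffAt_D hf _) (P136.contDiffAt_D hg _)]
    refine (Ds_congr ?_ l).eq_of_nhds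
    filter_upwards [ev_dAt hf, ev_dAt hg] with y h1 h2
    rw [P136.D_add_at (h1.const_mul c) (h2.const_mul d), P136.D_const_mul_at h1,
      P136.D_const_mul_at h2]

theorem Ds_add {f g : En n → ℝ} {x : En n} (hf : ContDiffAt ℝ ∞ f x) (hg : ContDiffAt ℝ ∞ g x)
    (l : List (Fin n)) : Ds ee l (fun y => f y + g y) x = Ds ee l f x + Ds ee l g x := by
  simpa only [one_mul] using Ds_lin hf hg 1 1 l

theorem Ds_sub {f g : En n → ℝ} {x : En n} (hf : ContDiffAt ℝ ∞ f x) (hg : ContDiffAt ℝ ∞ g x)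
    (l : List (Fin n)) : Ds ee l (fun y => f y - g y) x = Ds ee l f x - Ds ee l g x := by
  simpa only [one_mul, neg_mul, ← sub_eq_add_neg] using Ds_lin hf hg 1 (-1) l

theorem Ds_cmul {f : En n → ℝ} {x : En n} (hf : ContDiffAt ℝ ∞ f x) (c : ℝ)
    (l : List (Fin n)) : Ds ee l (fun y => c * f y) x = c * Ds ee l f x := by
  simpa only [zero_mul, add_zero] using Ds_lin hf hf c 0 l

theorem Ds_const (c : ℝ) {l : List (Fin n)} (hl : l ≠ []) :
    Ds ee l (fun _ : En n => c) = fun _ => 0 := by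
  obtain ⟨l', i, rfl⟩ := (List.eq_nil_or_concat l).resolve_left hl
  rw [List.concat_eq_append, Ds_snoc, show D (ee i) (fun _ : En n => c) = fun _ => 0 from
    funext fun x => P136.D_const c _ x]
  exact P088.Ds_zero l'

theorem Ds_zero (l : List (Fin n)) : Ds ee l (fun _ : En n => (0 : ℝ)) = fun _ => 0 := P088.Ds_zero l

theorem SB_congr {f g : En n → ℝ} {x : En n} (h : f =ᶠ[𝓝 x] g) {k : ℕ} {w L : ℝ}
    (hg : SB ee k w L g x) : SB ee k w L f x := fun l hl => by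
  rw [(Ds_congr h l).eq_of_nhds]
  exact hg l hl

theorem D_coord (i c : Fin n) (x : En n) :
    D (ee i) (fun y : En n => y c) x = if i = c then 1 else 0 := by
  have h : fderiv ℝ (fun y : En n => y c) x = EuclideanSpace.proj c :=
    (EuclideanSpace.proj (𝕜 := ℝ) c : En n →L[ℝ] ℝ).fderiv
  simp only [D, h, ee]
  simp [eq_comm]

theorem cd_coord {X : Type} [NormedAddCommGroup X] [NormedSpace ℝ X] {u : X → En n} {x : X}
    (h : ContDiffAt ℝ ∞ u x) (c : Fin n) : ContDiffAt ℝ ∞ (fun y => u y c) x :=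
  (EuclideanSpace.proj (𝕜 := ℝ) c : En n →L[ℝ] ℝ).contDiff.contDiffAt.comp x h

theorem D_apply {u : En n → En n} {x : En n} (h : DifferentiableAt ℝ u x) (v : En n) (c : Fin n) :
    D v (fun y => u y c) x = fderiv ℝ u x v c := by
  have := ((EuclideanSpace.proj (𝕜 := ℝ) c : En n →L[ℝ] ℝ).hasFDerivAt.comp x
    h.hasFDerivAt).fderiv
  exact congrArg (fun A : En n →L[ℝ] ℝ => A v) this

/-- The chain rule. -/
theorem D_comp {f : En n → ℝ} {u : En n → En n} {x : En n} (hf : DifferentiableAt ℝ f (u x))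
    (hu : DifferentiableAt ℝ u x) (v : En n) :
    D v (fun y => f (u y)) x = ∑ k, D v (fun y => u y k) x * D (ee k) f (u x) := by
  have h1 : D v (fun y => f (u y)) x = fderiv ℝ f (u x) (fderiv ℝ u x v) :=
    congrArg (fun A : En n →L[ℝ] ℝ => A v) (hf.hasFDerivAt.comp x hu.hasFDerivAt).fderiv
  have h2 : fderiv ℝ u x v = ∑ k, fderiv ℝ u x v k • (ee k : En n) := by
    simpa [ee] using ((EuclideanSpace.basisFun (Fin n) ℝ).sum_repr (fderiv ℝ u x v)).symm
  rw [h1, h2, map_sum]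
  refine Finset.sum_congr rfl fun k _ => ?_
  rw [map_smul, D_apply hu]
  rfl

theorem fam_D {F : ℝ → En n → ℝ} (h : ContDiff ℝ ∞ fun p : ℝ × En n => F p.1 p.2) (v : En n) :
    ContDiff ℝ ∞ fun p : ℝ × En n => D v (F p.1) p.2 := by
  have h1 : ContDiff ℝ ∞ fun p : ℝ × En n => fderiv ℝ (F p.1) p.2 :=
    ContDiff.fderiv (m := ∞) (n := ∞) (f := fun p : ℝ × En n => F p.1) (g := fun p => p.2)
      (h.comp (contDiff_fst.fst.prodMk contDiff_snd)) contDiff_snd (by simp)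
  exact h1.clm_apply contDiff_const

theorem exists_cut {K V : Set (En n)} (hK : IsCompact K) (hV : IsOpen V) (h : K ⊆ V) :
    ∃ χ : En n → ℝ, IsTest V χ ∧ (∀ x, 0 ≤ χ x ∧ χ x ≤ 1) ∧
      ∀ x ∈ K, χ =ᶠ[𝓝 x] fun _ => 1 := exists_cut_compact hK hV h

theorem exists_ext {F : Type} [NormedAddCommGroup F] [NormedSpace ℝ F] {K V : Set (En n)}
    (hK : IsCompact K) (hV : IsOpen V) (h : K ⊆ V) {f : En n → F} (hf : ContDiffOn ℝ ∞ f V) :
    ∃ g : En n → F, ContDiff ℝ ∞ g ∧ ∀ x ∈ K, g =ᶠ[𝓝 x] f := by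
  obtain ⟨χ, h1, -, h2⟩ := exists_cut hK hV h
  refine ⟨fun x => χ x • f x, contDiff_iff_contDiffAt.2 fun x => ?_, fun x hx =>
    (h2 x hx).mono fun y hy => by simp [hy]⟩
  by_cases hx : x ∈ V
  · exact h1.1.1.contDiffAt.smul (hf.contDiffAt (hV.mem_nhds hx))
  · refine (contDiffAt_const (c := (0 : F))).congr_of_eventuallyEq ?_
    filter_upwards [notMem_tsupport_iff_eventuallyEq.1 fun h3 => hx (h1.2 h3)] with y hy
    simp [hy]

omit [DecidableEq ι] in
theorem app_congr (L : Op n ι) {W W' : ι → En n → ℝ} {x : En n} (h : ∀ a, W a =ᶠ[𝓝 x] W' a)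
    (a : ι) : L.app W a x = L.app W' a x := by
  have h1 : ∀ b v, D v (W b) x = D v (W' b) x := fun b v => P136.D_congr (h b) v
  simp only [Op.app, dgd_congr (h a), h1, fun b => (h b).eq_of_nhds]

omit [DecidableEq ι] in
theorem app_eqOn {L₁ L₂ : Op n ι} {O : Set (En n)} (hO : IsOpen O) (h : L₁.EqOn L₂ O)
    (W : ι → En n → ℝ) {x : En n} (hx : x ∈ O) (a : ι) : L₁.app W a x = L₂.app W a x := by
  have h2 : ∀ i, XX ee L₁.γ (W a) i =ᶠ[𝓝 x] XX ee L₂.γ (W a) i := fun i => by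
    filter_upwards [hO.mem_nhds hx] with y hy
    simp only [XX, (h y hy).1]
  simp only [Op.app, dgd, dvg, fun i => P136.D_congr (h2 i) (ee i), (h x hx).2.1, (h x hx).2.2]

theorem dgd_nd {γ : MatF n} {f : En n → ℝ} {x : En n} (hγ : ∀ i j, DifferentiableAt ℝ (γ i j) x)
    (hf : ContDiffAt ℝ ∞ f x) : dgd ee γ f x = ∑ i, ∑ j, γ i j x * D (ee i) (D (ee j) f) x +
      ∑ j, (∑ i, D (ee i) (γ i j) x) * D (ee j) f x := by
  have h1 : ∀ j, DifferentiableAt ℝ (D (ee j) f) x := fun j => cda_dAt (P136.contDiffAt_D hf _)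
  have h2 : ∀ i, D (ee i) (XX ee γ f i) x = ∑ j, (γ i j x * D (ee i) (D (ee j) f) x +
      D (ee i) (γ i j) x * D (ee j) f x) := fun i => by
    unfold XX
    rw [P136.D_sum_at _ fun j _ => (hγ i j).fun_mul (h1 j)]
    exact Finset.sum_congr rfl fun j _ => P136.D_mul_at (hγ i j) (h1 j) _
  simp only [dgd, dvg, h2, Finset.sum_add_distrib, Finset.sum_mul]
  rw [Finset.sum_comm (f := fun i j => D (ee i) (γ i j) x * D (ee j) f x)]

omit [DecidableEq ι] in
theorem app_lin {L : Op n ι} (hL : L.Good) {W W' : ι → En n → ℝ} {x : En n}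
    (h : ∀ a, ContDiffAt ℝ ∞ (W a) x) (h' : ∀ a, ContDiffAt ℝ ∞ (W' a) x) (c d : ℝ) (a : ι) :
    L.app (fun e y => c * W e y + d * W' e y) a x = c * L.app W a x + d * L.app W' a x := by
  have hγ : ∀ i j, DifferentiableAt ℝ (L.γ i j) x := fun i j => (hL.1 i j).dAt x
  have h1 : ∀ e i, D (ee i) (fun y => c * W e y + d * W' e y) x =
      c * D (ee i) (W e) x + d * D (ee i) (W' e) x := fun e i => Ds_lin (h e) (h' e) c d [i]
  have h2 : ∀ i j, D (ee i) (D (ee j) fun y => c * W a y + d * W' a y) x =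
      c * D (ee i) (D (ee j) (W a)) x + d * D (ee i) (D (ee j) (W' a)) x := fun i j =>
    Ds_lin (h a) (h' a) c d [i, j]
  simp only [Op.app]
  rw [dgd_nd hγ ((contDiffAt_const.mul (h a)).add (contDiffAt_const.mul (h' a))), dgd_nd hγ (h a),
    dgd_nd hγ (h' a)]
  simp only [h1, h2, mul_add, Finset.sum_add_distrib, Finset.mul_sum, mul_left_comm _ c,
    mul_left_comm _ d]
  ring

omit [DecidableEq ι] in
theorem app_cda {L : Op n ι} (hL : L.Good) {W : ι → En n → ℝ} {x : En n}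
    (h : ∀ a, ContDiffAt ℝ ∞ (W a) x) (a : ι) : ContDiffAt ℝ ∞ (L.app W a) x := by
  unfold Op.app dgd dvg XX
  exact ((ContDiffAt.sum fun i _ => P136.contDiffAt_D (ContDiffAt.sum fun j _ =>
    (hL.1 i j).contDiffAt.mul (P136.contDiffAt_D (h a) _)) _).add (ContDiffAt.sum fun i _ =>
    ContDiffAt.sum fun b _ => (hL.2.2.1 i a b).contDiffAt.mul (P136.contDiffAt_D (h b) _))).add
    (ContDiffAt.sum fun b _ => (hL.2.2.2.1 a b).contDiffAt.mul (h b))

omit [DecidableEq ι] in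
theorem app_sm {L : Op n ι} (hL : L.Good) {W : ι → En n → ℝ} (h : ∀ a, Sm (W a)) (a : ι) :
    Sm (L.app W a) :=
  contDiff_iff_contDiffAt.2 fun _ => app_cda hL (fun e => (h e).contDiffAt) a

omit [DecidableEq ι] in
theorem app_const (L : Op n ι) (v : ι → ℝ) (a : ι) (x : En n) :
    L.app (fun e _ => v e) a x = ∑ e, L.c a e x * v e := by
  have h1 : ∀ (c : ℝ) (w : En n), D w (fun _ : En n => c) = fun _ => 0 := fun c w =>
    funext fun y => P136.D_const c w y
  have h2 : ∀ i, XX ee L.γ (fun _ => v a) i = fun _ => 0 := fun i => funext fun y => by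
    simp [XX, h1]
  simp [Op.app, dgd, dvg, h1, h2]

omit [DecidableEq ι] in
theorem app_tests {L : Op n ι} (hL : L.Good) {U : Set (En n)} {ψ : ι → En n → ℝ}
    (h : Tests U ψ) : Tests U (L.app ψ) := fun a => by
  have hK : IsCompact (⋃ b, tsupport (ψ b)) := isCompact_iUnion fun b => (h b).1.2
  have h1 : tsupport (L.app ψ a) ⊆ ⋃ b, tsupport (ψ b) := closure_minimal
    (fun y hy => by_contra fun hn => hy (by
      rw [app_congr L (W' := fun _ _ => 0) (fun b => notMem_tsupport_iff_eventuallyEq.1 fun h2 =>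
        hn (mem_iUnion.2 ⟨b, h2⟩)), app_const L fun _ => 0]
      simp)) hK.isClosed
  exact ⟨⟨app_sm hL (fun b => (h b).1.1) a, hK.of_isClosed_subset (isClosed_tsupport _) h1⟩,
    h1.trans (iUnion_subset fun b => (h b).2)⟩

omit [DecidableEq ι] in
theorem sol_mono {L : Op n ι} {U U' : Set (En n)} {W F : ι → En n → ℝ} (h : Sol L U W F)
    (hU : U' ⊆ U) : Sol L U' W F := ⟨fun a => (h.1 a).mono hU, fun x hx => h.2 x (hU hx)⟩

omit [DecidableEq ι] in
theorem sol_congr {L : Op n ι} {U : Set (En n)} (hU : IsOpen U) {W W' F : ι → En n → ℝ}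
    (h : Sol L U W F) (e : ∀ a, EqOn (W' a) (W a) U) : Sol L U W' F :=
  ⟨fun a => (h.1 a).congr (e a), fun x hx a => by
    rw [app_congr L (fun b => (e b).eventuallyEq_of_mem (hU.mem_nhds hx)), h.2 x hx]⟩

omit [DecidableEq ι] in
theorem sol_lin {L : Op n ι} (hL : L.Good) {U : Set (En n)} (hU : IsOpen U)
    {W W' F F' : ι → En n → ℝ} (h : Sol L U W F) (h' : Sol L U W' F') (c d : ℝ) :
    Sol L U (fun a y => c * W a y + d * W' a y) (fun a y => c * F a y + d * F' a y) :=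
  ⟨fun a => (contDiffOn_const.mul (h.1 a)).add (contDiffOn_const.mul (h'.1 a)), fun x hx a => by
    rw [app_lin hL (fun b => (h.1 b).contDiffAt (hU.mem_nhds hx))
      (fun b => (h'.1 b).contDiffAt (hU.mem_nhds hx)), h.2 x hx, h'.2 x hx]⟩

omit [DecidableEq ι] in
theorem bdOn {L : Op n ι} (hL : L.Good) {K : Set (En n)} (hK : IsCompact K) (k : ℕ) :
    ∃ c M : ℝ, 0 < c ∧ L.BdOn K k c M := by
  have hq : Continuous fun p : En n × (Fin n → ℝ) => ∑ i, ∑ j, L.γ i j p.1 * p.2 i * p.2 j :=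
    continuous_finsetSum _ fun i _ => continuous_finsetSum _ fun j _ =>
      (((hL.1 i j).cont.comp continuous_fst).mul (by fun_prop)).mul (by fun_prop)
  obtain ⟨c, hc, hc'⟩ := (hK.prod (isCompact_sphere (0 : Fin n → ℝ) 1)).exists_forall_le'
    hq.continuousOn (a := 0) fun p hp => hL.2.2.2.2 p.1 p.2 fun h0 => by simpa [h0] using hp.2
  choose M1 _ h1 using fun p : Fin n × Fin n => exists_SB ee (hL.1 p.1 p.2) hK k
  choose M2 _ h2 using fun p : Fin n × ι × ι => exists_SB ee (hL.2.2.1 p.1 p.2.1 p.2.2) hK k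
  choose M3 _ h3 using fun p : ι × ι => exists_SB ee (hL.2.2.2.1 p.1 p.2) hK k
  obtain ⟨B1, b1⟩ := (finite_range M1).bddAbove
  obtain ⟨B2, b2⟩ := (finite_range M2).bddAbove
  obtain ⟨B3, b3⟩ := (finite_range M3).bddAbove
  refine ⟨c / (n + 1), max B1 (max B2 B3), by positivity, fun x hx => ⟨fun ξ => ?_, fun i j =>
    (h1 (i, j) x hx).mono le_rfl ((b1 ⟨_, rfl⟩).trans (le_max_left _ _)), fun i a a' =>
    (h2 (i, a, a') x hx).mono le_rfl ((b2 ⟨_, rfl⟩).trans
      ((le_max_left _ _).trans (le_max_right _ _))), fun a a' =>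
    (h3 (a, a') x hx).mono le_rfl ((b3 ⟨_, rfl⟩).trans
      ((le_max_right _ _).trans (le_max_right _ _)))⟩⟩
  rcases eq_or_ne ξ 0 with rfl | h0
  · simp
  have ht : 0 < ‖ξ‖ := norm_pos_iff.2 h0
  have h4 := hc' (x, ‖ξ‖⁻¹ • ξ) ⟨hx, by simp [norm_smul, ht.ne']⟩
  have h5 : ∑ i, ∑ j, L.γ i j x * ξ i * ξ j =
      ‖ξ‖ ^ 2 * ∑ i, ∑ j, L.γ i j x * (‖ξ‖⁻¹ • ξ) i * (‖ξ‖⁻¹ • ξ) j := by
    simp only [Finset.mul_sum, Pi.smul_apply, smul_eq_mul]
    exact Finset.sum_congr rfl fun i _ => Finset.sum_congr rfl fun j _ => by field_simp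
  have h6 : ∑ i, ξ i ^ 2 ≤ n * ‖ξ‖ ^ 2 := by
    have := Finset.sum_le_card_nsmul Finset.univ (fun i => ξ i ^ 2) (‖ξ‖ ^ 2) fun i _ => by
      rw [← sq_abs]
      exact pow_le_pow_left₀ (abs_nonneg _) (norm_le_pi_norm ξ i) 2
    simpa using this
  rw [h5, div_mul_eq_mul_div, div_le_iff₀ (by positivity)]
  have h7 := mul_le_mul_of_nonneg_left h6 hc.le
  have h8 := mul_le_mul_of_nonneg_left h4 (by positivity : 0 ≤ ‖ξ‖ ^ 2 * (n + 1))
  have h9 : 0 ≤ c * ‖ξ‖ ^ 2 := by positivity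
  dsimp only at h8
  nlinarith

theorem det_cdOn {S : MF n ι} {V : Set (En n)} (h : ∀ a a', ContDiffOn ℝ ∞ (S a a') V) :
    ContDiffOn ℝ ∞ (fun x => (mt S x).det) V := by
  simp only [Matrix.det_apply']
  exact ContDiffOn.sum fun σ _ => contDiffOn_const.mul (contDiffOn_prod fun i _ => h _ _)

theorem mi_cdOn {S : MF n ι} {V : Set (En n)} (h : ∀ a a', ContDiffOn ℝ ∞ (S a a') V)
    (hd : ∀ x ∈ V, (mt S x).det ≠ 0) (a a' : ι) : ContDiffOn ℝ ∞ (mi S a a') V := by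
  have e : mi S a a' = fun x => ((mt S x).det)⁻¹ *
      (mt (fun b b' x => if b = a' then (Pi.single a 1 : ι → ℝ) b' else S b b' x) x).det := by
    funext x
    rw [mi, Matrix.inv_def, Matrix.smul_apply, Matrix.adjugate_apply, Ring.inverse_eq_inv',
      smul_eq_mul]
    congr 2
    ext b b'
    simp [Matrix.updateRow_apply, mt]
  rw [e]
  refine ((det_cdOn h).inv hd).mul (det_cdOn fun b b' => ?_)
  by_cases hb : b = a'
  · simp only [hb, if_true]
    exact contDiffOn_const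
  · simp only [hb, if_false]
    exact h b b'

theorem mt_mi (S : MF n ι) (x : En n) : mt (mi S) x = (mt S x)⁻¹ := rfl

omit [DecidableEq ι] in
theorem mt_mm (S S' : MF n ι) (x : En n) : mt (mm S S') x = mt S x * mt S' x := rfl

omit [Fintype ι] [DecidableEq ι] in
theorem mt_mc (S : MF n ι) (Ψ : En n → En n) (x : En n) : mt (mc S Ψ) x = mt S (Ψ x) := rfl

omit [Fintype ι] in
theorem mt_one (x : En n) : mt (one' : MF n ι) x = 1 := rfl

theorem mi_one : mi (one' : MF n ι) = one' := by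
  funext a a' x
  rw [mi, mt_one, inv_one]
  rfl

omit [DecidableEq ι] in
theorem pb_eq (S : MF n ι) (Ψ : En n → En n) (W : ι → En n → ℝ) (a : ι) (y : En n) :
    pb S Ψ W a y = (mt S y *ᵥ fun e => W e (Ψ y)) a := rfl

theorem pb_one (Ψ : En n → En n) (W : ι → En n → ℝ) (a : ι) (y : En n) :
    pb one' Ψ W a y = W a (Ψ y) := by
  rw [pb_eq, mt_one, Matrix.one_mulVec]

theorem gau_one (V : Set (En n)) {μ : En n → ℝ} (h : ContDiffOn ℝ ∞ μ V) (h0 : ∀ y ∈ V, 0 < μ y) :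
    Gau V (one' : MF n ι) μ :=
  ⟨fun _ _ => contDiffOn_const, h, h0, fun y _ => by rw [mt_one, Matrix.det_one]; exact one_ne_zero⟩

theorem Gau.mono {V V' : Set (En n)} {S : MF n ι} {μ : En n → ℝ} (h : Gau V S μ) (hV : V' ⊆ V) :
    Gau V' S μ :=
  ⟨fun a a' => (h.sm a a').mono hV, h.smμ.mono hV, fun y hy => h.pos y (hV hy),
    fun y hy => h.det y (hV hy)⟩

end Vale.Agent.P088.Lt1
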