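import Vale.Agent.P088.St1Defs

/-!
# P088, first stage: toolkit (calculus of `Op.app`, the Hilbert space `HL`, geometry)
-/

open MeasureTheory Set Metric Filter
open scoped ContDiff Topology InnerProductSpace

noncomputable section
namespace Vale.Agent.P088
open Vale.Agent.P136 (D Dp Dm Sm Tst)
namespace St1
variable {n : ℕ} {ι : Type} [Fintype ι] {U V O : Set (En n)} {W W' ψ : ι → En n → ℝ}
  {L L₁ L₂ : Op n ι} {x : En n}

/-! ## Calculus -/

theorem app_congr (L : Op n ι) (h : ∀ a, W a =ᶠ[𝓝 x] W' a) (a : ι) :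
    L.app W a x = L.app W' a x := by
  have h1 : ∀ b v, D v (W b) =ᶠ[𝓝 x] D v (W' b) := fun b v =>
    (h b).eventuallyEq_nhds.mono fun y hy => P136.D_congr hy v
  have h2 : ∀ i, XX ee L.γ (W a) i =ᶠ[𝓝 x] XX ee L.γ (W' a) i := fun i => by
    filter_upwards [eventually_all.2 fun j => h1 a (ee j)] with y hy
    simp only [XX, hy]
  simp only [Op.app, dgd, dvg, fun i => P136.D_congr (h2 i) (ee i), fun b v => (h1 b v).eq_of_nhds,
    fun b => (h b).eq_of_nhds]

theorem app_zero (L : Op n ι) (a : ι) (x : En n) : L.app (0 : ι → En n → ℝ) a x = 0 := by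
  have h1 : ∀ v : En n, D v (0 : En n → ℝ) = 0 := fun v => funext fun y => P136.D_const 0 v y
  have h2 : ∀ i, XX ee L.γ (0 : En n → ℝ) i = 0 := fun i => funext fun y => by simp [XX, h1]
  simp [Op.app, dgd, dvg, h1, h2]

theorem app_congr_op (hO : IsOpen O) (h : L₁.EqOn L₂ O) (hx : x ∈ O) (W : ι → En n → ℝ) (a : ι) :
    L₁.app W a x = L₂.app W a x := by
  have h2 : ∀ i, XX ee L₁.γ (W a) i =ᶠ[𝓝 x] XX ee L₂.γ (W a) i := fun i => by
    filter_upwards [hO.mem_nhds hx] with y hy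
    simp only [XX, (h y hy).1]
  simp only [Op.app, dgd, dvg, fun i => P136.D_congr (h2 i) (ee i), (h x hx).2.1, (h x hx).2.2]

theorem vg_congr (h : ∀ a, W a =ᶠ[𝓝 x] W' a) : vg W x = vg W' x := by
  simp only [vg, fun b v => P136.D_congr (h b) v, fun b => (h b).eq_of_nhds]

theorem vg_nonneg (W : ι → En n → ℝ) (x : En n) : 0 ≤ vg W x :=
  Finset.sum_nonneg fun _ _ => add_nonneg (sq_nonneg _) (Finset.sum_nonneg fun _ _ => sq_nonneg _)

theorem app_lin (hL : L.Good) (hU : IsOpen U) (h : SmOn U W) (h' : SmOn U W') (hx : x ∈ U) (c : ℝ)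
    (a : ι) : L.app (linF W c W') a x = L.app W a x + c * L.app W' a x := by
  have h1 : ∀ b v, ∀ y ∈ U, D v (linF W c W' b) y = D v (W b) y + c * D v (W' b) y :=
    fun b v y hy => by
      have e1 := P136.dAt_of_on hU (h b) hy
      have e2 := P136.dAt_of_on hU (h' b) hy
      rw [← P136.D_const_mul_at e2, ← P136.D_add_at e1 (e2.const_mul c)]
      rfl
  have hX : ∀ f : En n → ℝ, ContDiffOn ℝ ∞ f U → ∀ i, DifferentiableAt ℝ (XX ee L.γ f i) x :=
    fun f hf i => P136.dAt_of_on hU (ContDiffOn.sum fun j _ =>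
      (hL.1 i j).contDiffOn.mul (P136.contDiffOn_D hU hf _)) hx
  have h2 : ∀ i, D (ee i) (XX ee L.γ (linF W c W' a) i) x =
      D (ee i) (XX ee L.γ (W a) i) x + c * D (ee i) (XX ee L.γ (W' a) i) x := fun i => by
    rw [← P136.D_const_mul_at (hX _ (h' a) i), ← P136.D_add_at (hX _ (h a) i)
      ((hX _ (h' a) i).const_mul c)]
    refine P136.D_congr ?_ _
    filter_upwards [hU.mem_nhds hx] with y hy
    simp only [XX, h1 _ _ y hy, Finset.mul_sum, ← Finset.sum_add_distrib]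
    exact Finset.sum_congr rfl fun j _ => by ring
  simp only [Op.app, dgd, dvg, h2, h1 _ _ x hx]
  simp only [linF, mul_add, Finset.sum_add_distrib, Finset.mul_sum, mul_left_comm _ c]
  ring

theorem sol_lin (hL : L.Good) (hU : IsOpen U) (h : Sol L U W 0) (h' : Sol L U W' 0) (c : ℝ) :
    Sol L U (linF W c W') 0 :=
  ⟨fun a => (h.1 a).add (contDiffOn_const.mul (h'.1 a)), fun x hx a => by
    rw [app_lin hL hU h.1 h'.1 hx, h.2 x hx, h'.2 x hx]; simp⟩

/-- The cutoff is identically one near `x`. -/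
theorem app_mulF_one {θ : En n → ℝ} (h : Sol L U W 0) (hx : x ∈ U) (hθ : ∀ᶠ y in 𝓝 x, θ y = 1)
    (a : ι) : L.app (mulF θ W) a x = 0 := by
  rw [app_congr L (W' := W) (fun b => hθ.mono fun y hy => by simp [mulF, hy]), h.2 x hx]
  rfl

/-- The cutoff vanishes near `x`. -/
theorem app_mulF_zero {θ : En n → ℝ} (L : Op n ι) (W : ι → En n → ℝ) (hθ : ∀ᶠ y in 𝓝 x, θ y = 0)
    (a : ι) : L.app (mulF θ W) a x = 0 := by
  rw [app_congr L (W' := 0) (fun b => hθ.mono fun y hy => by simp [mulF, hy]), app_zero]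

theorem ucp_eq (hu : S_ucp) (hL : L.Good) (hU : IsOpen U) (hc : IsPreconnected U)
    (h : Sol L U W 0) (h' : Sol L U W' 0) (hx : x ∈ U) (e : ∀ a, W a =ᶠ[𝓝 x] W' a) (a : ι) :
    EqOn (W a) (W' a) U := fun y hy => by
  have := hu n ι L U _ x hL hU hc (sol_lin hL hU h h' (-1)) hx
    (fun b => (e b).mono fun z hz => by simp [linF, hz]) y hy a
  simp only [linF] at this
  linarith

theorem tests_mono (h : Tests V ψ) (hV : V ⊆ U) : Tests U ψ := fun a => ⟨(h a).1, (h a).2.trans hV⟩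

theorem tests_mulF {θ : En n → ℝ} {K : Set (En n)} (hV : IsOpen V) (h : SmOn V W) (hθ : Sm θ)
    (hK : IsCompact K) (hKV : K ⊆ V) (h0 : ∀ x, x ∉ K → θ x = 0) : Tests V (mulF θ W) := fun a => by
  have h1 : tsupport (mulF θ W a) ⊆ K := closure_minimal
    (fun y hy => by_contra fun hn => hy (by simp [mulF, h0 y hn])) hK.isClosed
  refine ⟨⟨contDiff_iff_contDiffAt.2 fun y => ?_, hK.of_isClosed_subset (isClosed_tsupport _) h1⟩,
    h1.trans hKV⟩
  by_cases hy : y ∈ V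
  · exact hθ.contDiffAt.mul ((h a).contDiffAt (hV.mem_nhds hy))
  · exact contDiffAt_const.congr_of_eventuallyEq
      (notMem_tsupport_iff_eventuallyEq.1 fun h2 => hy (hKV (h1 h2)))

/-- Multiplication of test functions by a smooth function. -/
theorem tests_mul {θ : En n → ℝ} (h : Tests V ψ) (hθ : Sm θ) : Tests V (mulF θ ψ) := fun a =>
  ⟨⟨hθ.mul (h a).1.1, (h a).1.2.mul_left⟩, (tsupport_mul_subset_right (f := θ)).trans (h a).2⟩

theorem tests_app (hL : L.Good) (h : Tests V ψ) : Tests V (L.app ψ) := fun a => by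
  have hK : IsCompact (⋃ b, tsupport (ψ b)) := isCompact_iUnion fun b => (h b).1.2
  have h1 : tsupport (L.app ψ a) ⊆ ⋃ b, tsupport (ψ b) := closure_minimal
    (fun y hy => by_contra fun hn => hy (by
      rw [app_congr L (W' := 0) (fun b => notMem_tsupport_iff_eventuallyEq.1 fun h2 =>
        hn (mem_iUnion.2 ⟨b, h2⟩)), app_zero])) hK.isClosed
  refine ⟨⟨?_, hK.of_isClosed_subset (isClosed_tsupport _) h1⟩,
    h1.trans (iUnion_subset fun b => (h b).2)⟩
  have hs : ∀ b, Sm (ψ b) := fun b => (h b).1.1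
  unfold Op.app dgd dvg XX
  exact ((P136.Sm.sum fun i _ => P136.Sm.D (P136.Sm.sum fun j _ =>
    P136.Sm.mul (hL.1 i j) ((hs a).D _)) _).add (P136.Sm.sum fun i _ => P136.Sm.sum fun b _ =>
    P136.Sm.mul (hL.2.2.1 i a b) ((hs b).D _))).add
    (P136.Sm.sum fun b _ => P136.Sm.mul (hL.2.2.2.1 a b) (hs b))

theorem tests_l2 (h : Tests V ψ) (U : Set (En n)) : L2On U ψ := fun a =>
  (h a).1.1.continuous.memLp_of_hasCompactSupport (h a).1.2

theorem tests_zero (h : Tests V ψ) (hx : x ∉ V) (a : ι) : ψ a x = 0 :=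
  image_eq_zero_of_notMem_tsupport fun h1 => hx ((h a).2 h1)

theorem eqOn_of_ae (hU : IsOpen U) (h : SmOn U W) (h' : SmOn U W')
    (e : ∀ a, W a =ᵐ[volume.restrict U] W' a) (a : ι) : EqOn (W a) (W' a) U :=
  Measure.eqOn_open_of_ae_eq (e a) hU (h a).continuousOn (h' a).continuousOn

theorem good_T (hg : S_green) (hL : L.Good) : L.T.Good ∧ L.T.T = L := by
  have := hg n ι L ∅ 0 0 hL isOpen_empty (fun _ => contDiffOn_empty) fun _ =>
    ⟨⟨contDiff_const, HasCompactSupport.zero⟩, by simp⟩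
  exact ⟨this.1, this.2.1⟩

theorem ds_sm {f : En n → ℝ} (hf : Sm f) (l : List (Fin n)) : Sm (Ds ee l f) := by
  induction l with
  | nil => exact hf
  | cons i l ih => exact ih.D _

theorem ds_neg (f : En n → ℝ) (l : List (Fin n)) (x : En n) :
    Ds ee l (fun y => -f y) x = -Ds ee l f x := by
  induction l generalizing x with
  | nil => rfl
  | cons i l ih =>
    show D _ (Ds ee l _) x = -D _ (Ds ee l f) x
    rw [funext ih, P136.D_neg]

theorem ds_sub {f g : En n → ℝ} (hf : Sm f) (hg : Sm g) (l : List (Fin n)) (x : En n) :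
    Ds ee l (fun y => f y - g y) x = Ds ee l f x - Ds ee l g x := by
  induction l generalizing x with
  | nil => rfl
  | cons i l ih =>
    show D _ (Ds ee l _) x = D _ (Ds ee l f) x - D _ (Ds ee l g) x
    rw [funext ih, P136.D_sub_at ((ds_sm hf l).dAt x) ((ds_sm hg l).dAt x)]

theorem ds_sum {κ : Type} (s : Finset κ) {f : κ → En n → ℝ} (hf : ∀ i ∈ s, Sm (f i))
    (l : List (Fin n)) (x : En n) :
    Ds ee l (fun y => ∑ i ∈ s, f i y) x = ∑ i ∈ s, Ds ee l (f i) x := by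
  induction l generalizing x with
  | nil => rfl
  | cons j l ih =>
    show D _ (Ds ee l _) x = ∑ i ∈ s, D _ (Ds ee l (f i)) x
    rw [funext ih, P136.D_sum_at s fun i hi => (ds_sm (hf i hi) l).dAt x]

/-- The transposed operator lies in the same class, with another sequence of bounds. -/
theorem bd_T (hg : S_green) (n : ℕ) (ι : Type) [Fintype ι] (M : ℕ → ℝ) : ∃ M' : ℕ → ℝ, M 0 ≤ M' 0 ∧
    ∀ (k : ℕ) (om : ℝ) (L : Op n ι), L.Bd k om M → L.T.Bd k om M' := by
  refine ⟨fun j => |M j| + n * |M (j + 1)|, (le_abs_self _).trans (le_add_of_nonneg_right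
    (by positivity)), fun k om L h => ⟨(good_T hg h.1).1, h.2.1, fun j x => ?_⟩⟩
  have h0 : M j ≤ |M j| + n * |M (j + 1)| :=
    (le_abs_self _).trans (le_add_of_nonneg_right (by positivity))
  refine ⟨fun i l m hm => ((h.2.2 j x).1 i l m hm).trans (by simpa using h0),
    fun i a a' m hm => ?_, fun a a' m hm => ?_⟩
  · have := (h.2.2 j x).2.1 i a' a m hm
    show |Ds ee m (fun y => -L.b i a' a y) x| ≤ _
    rw [ds_neg, abs_neg]
    exact this.trans (by simpa using h0)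
  · have hb := fun i => (h.1.2.2.1 i a' a).D (ee i)
    show |Ds ee m (fun y => L.c a' a y - ∑ i, D (ee i) (L.b i a' a) y) x| ≤ _
    rw [ds_sub (h.1.2.2.2.1 a' a) (P136.Sm.sum fun i _ => hb i), ds_sum _ fun i _ => hb i]
    refine (abs_sub _ _).trans ?_
    rw [one_pow, mul_one]
    refine add_le_add (((h.2.2 j x).2.2 a' a m hm).trans (by simpa using le_abs_self _))
      ((Finset.abs_sum_le_sum_abs _ _).trans ?_)
    refine (Finset.sum_le_card_nsmul _ _ |M (j + 1)| fun i _ => ?_).trans (by simp)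
    have := (h.2.2 (j + 1) x).2.1 i a' a (m ++ [i]) (by simpa using hm)
    rw [one_pow, mul_one] at this
    simp only [Ds, List.foldr_append] at this
    exact this.trans (le_abs_self _)

/-! ## The Hilbert space -/

theorem l2_cp (F : HL n ι U) : L2On U (cp F) := fun a => (Lp.memLp F).eval_piLp a

theorem inner_eq (F G : HL n ι U) : ⟪F, G⟫_ℝ = ∑ a, ∫ y in U, cp F a y * cp G a y := by
  rw [L2.inner_def, ← integral_finsetSum _ fun a _ => l2_mul (l2_cp F) (l2_cp G) a]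
  refine integral_congr_ae (Eventually.of_forall fun x => ?_)
  simp only [PiLp.inner_apply, cp, RCLike.inner_apply, conj_trivial, mul_comm]

theorem norm_sq_eq (F : HL n ι U) : ‖F‖ ^ 2 = nrm U (cp F) := by
  rw [← real_inner_self_eq_norm_sq, inner_eq]
  simp only [nrm, sq]

theorem cp_tl (h : L2On U W) (a : ι) : cp (tl U W) a =ᵐ[volume.restrict U] W a := by
  have h1 : MemLp (fun x => (WithLp.toLp 2 fun a => W a x : EuclideanSpace ℝ ι)) 2
      (volume.restrict U) := MemLp.of_eval_piLp h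
  unfold tl
  rw [dif_pos h1]
  exact h1.coeFn_toLp.mono fun x hx => by simp only [cp, hx]

theorem norm_tl (h : L2On U W) : ‖tl U W‖ ^ 2 = nrm U W := by
  rw [norm_sq_eq, nrm_congr (cp_tl h)]

theorem hl_ext {F G : HL n ι U} (h : ∀ a, cp F a =ᵐ[volume.restrict U] cp G a) : F = G := by
  refine Lp.ext ((eventually_all.2 h).mono fun x hx => ?_)
  ext a
  exact hx a

theorem cp_add (F G : HL n ι U) (a : ι) :
    cp (F + G) a =ᵐ[volume.restrict U] fun x => cp F a x + cp G a x :=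
  (Lp.coeFn_add F G).mono fun x hx => by simp only [cp, hx, Pi.add_apply, PiLp.add_apply]

theorem cp_sub (F G : HL n ι U) (a : ι) :
    cp (F - G) a =ᵐ[volume.restrict U] fun x => cp F a x - cp G a x :=
  (Lp.coeFn_sub F G).mono fun x hx => by simp only [cp, hx, Pi.sub_apply, PiLp.sub_apply]

/-- Cauchy-Schwarz. -/
theorem cs (h : L2On U W) (h' : L2On U W') :
    |∑ a, ∫ y in U, W a y * W' a y| ≤ √(nrm U W) * √(nrm U W') := by
  have e : ∑ a, ∫ y in U, W a y * W' a y = ⟪tl U W, tl U W'⟫_ℝ := by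
    rw [inner_eq]
    refine Finset.sum_congr rfl fun a _ => integral_congr_ae ?_
    filter_upwards [cp_tl h a, cp_tl h' a] with x h1 h2
    rw [h1, h2]
  rw [e, ← norm_tl h, ← norm_tl h', Real.sqrt_sq (norm_nonneg _), Real.sqrt_sq (norm_nonneg _)]
  exact abs_real_inner_le_norm _ _

theorem nrm_cp_le (hV : V ⊆ U) (F : HL n ι U) : nrm V (cp F) ≤ ‖F‖ ^ 2 := by
  rw [norm_sq_eq]; exact nrm_mono (l2_cp F) hV

theorem supp_iff {F : HL n ι U} :
    SuppIn O F ↔ ∀ a, ∀ᵐ x ∂(volume.restrict U), x ∉ O → cp F a x = 0 := by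
  refine ⟨fun h a => h.mono fun x hx hO => by simp only [cp, hx hO, PiLp.zero_apply], fun h => ?_⟩
  refine (eventually_all.2 h).mono fun x hx hO => ?_
  ext a
  exact hx a hO

theorem supp_mono {F : HL n ι U} (h : SuppIn O F) (hO : ∀ x ∈ U, x ∈ O → x ∈ V)
    (hU : MeasurableSet U) : SuppIn V F := by
  filter_upwards [h, ae_restrict_mem hU] with x h1 h2 h3
  exact h1 fun h4 => h3 (hO x h2 h4)

theorem supp_add {F G : HL n ι U} (h : SuppIn O F) (h' : SuppIn O G) : SuppIn O (F + G) := by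
  filter_upwards [h, h', Lp.coeFn_add F G] with x h1 h2 h3 h4
  rw [h3, Pi.add_apply, h1 h4, h2 h4, add_zero]

theorem supp_sub {F G : HL n ι U} (h : SuppIn O F) (h' : SuppIn O G) : SuppIn O (F - G) := by
  filter_upwards [h, h', Lp.coeFn_sub F G] with x h1 h2 h3 h4
  rw [h3, Pi.sub_apply, h1 h4, h2 h4, sub_zero]

theorem supp_tl (hU : MeasurableSet U) (h : L2On U W) (h0 : ∀ x ∈ U, x ∉ O → ∀ a, W a x = 0) :
    SuppIn O (tl U W) := supp_iff.2 fun a => by
  filter_upwards [cp_tl h a, ae_restrict_mem hU] with x h1 h2 h3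
  rw [h1, h0 x h2 h3]

theorem inner_disjoint {F G : HL n ι U} (h : SuppIn O F) (h' : SuppIn V G) (hd : Disjoint O V) :
    ⟪F, G⟫_ℝ = 0 := by
  rw [L2.inner_def]
  refine integral_eq_zero_of_ae ?_
  filter_upwards [h, h'] with x h1 h2
  by_cases hx : x ∈ O
  · rw [h2 (Set.disjoint_left.1 hd hx), inner_zero_right]; rfl
  · rw [h1 hx, inner_zero_left]; rfl

/-- The truncation of an element. -/
def ind0 (hV : MeasurableSet V) (F : HL n ι U) : HL n ι U := ((Lp.memLp F).indicator hV).toLp _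

theorem ind0_ae (hV : MeasurableSet V) (F : HL n ι U) :
    ind0 hV F =ᵐ[volume.restrict U] V.indicator F := MemLp.coeFn_toLp _

theorem ind0_le (hV : MeasurableSet V) (F : HL n ι U) : ‖ind0 hV F‖ ≤ ‖F‖ :=
  Lp.norm_le_norm_of_ae_le ((ind0_ae hV F).mono fun x hx => by
    rw [hx]; exact norm_indicator_le_norm_self _ _)

/-- Multiplication by the indicator function of `V`. -/
def ind (U : Set (En n)) (hV : MeasurableSet V) : HL n ι U →L[ℝ] HL n ι U :=
  LinearMap.mkContinuous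
    { toFun := ind0 hV
      map_add' := fun F G => Lp.ext (by
        filter_upwards [ind0_ae hV (F + G), ind0_ae hV F, ind0_ae hV G, Lp.coeFn_add F G,
          Lp.coeFn_add (ind0 hV F) (ind0 hV G)] with x h1 h2 h3 h4 h5
        rw [h1, h5, Pi.add_apply, h2, h3]
        by_cases hx : x ∈ V <;> simp only [indicator, hx, if_true, if_false, h4, Pi.add_apply,
          add_zero])
      map_smul' := fun c F => Lp.ext (by
        filter_upwards [ind0_ae hV (c • F), ind0_ae hV F, Lp.coeFn_smul c F,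
          Lp.coeFn_smul c (ind0 hV F)] with x h1 h2 h4 h5
        rw [h1, RingHom.id_apply, h5, Pi.smul_apply, h2]
        by_cases hx : x ∈ V <;> simp only [indicator, hx, if_true, if_false, h4, Pi.smul_apply,
          smul_zero]) } 1 fun F => by rw [one_mul]; exact ind0_le hV F

theorem cp_ind (hV : MeasurableSet V) (F : HL n ι U) (a : ι) :
    cp (ind U hV F) a =ᵐ[volume.restrict U] V.indicator (cp F a) :=
  (ind0_ae hV F).mono fun x hx => by
    show ind0 hV F x a = _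
    rw [hx]
    by_cases h : x ∈ V <;> simp [h, cp]

theorem ind_symm (hV : MeasurableSet V) (F G : HL n ι U) :
    ⟪ind U hV F, G⟫_ℝ = ⟪F, ind U hV G⟫_ℝ := by
  rw [inner_eq, inner_eq]
  refine Finset.sum_congr rfl fun a _ => integral_congr_ae ?_
  filter_upwards [cp_ind hV F a, cp_ind hV G a] with x h1 h2
  rw [h1, h2]
  by_cases h : x ∈ V <;> simp [h]

theorem ind_adj (hV : MeasurableSet V) :
    ContinuousLinearMap.adjoint (ind (ι := ι) U hV) = ind U hV :=
  ((ContinuousLinearMap.eq_adjoint_iff _ _).2 (ind_symm hV)).symm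

theorem supp_ind (hV : MeasurableSet V) (F : HL n ι U) : SuppIn V (ind U hV F) :=
  supp_iff.2 fun a => (cp_ind hV F a).mono fun x hx h => by rw [hx, indicator_of_notMem h]

theorem ind_self (hV : MeasurableSet V) {F : HL n ι U} (h : SuppIn V F) : ind U hV F = F :=
  hl_ext fun a => by
    filter_upwards [cp_ind hV F a, supp_iff.1 h a] with x h1 h2
    rw [h1]
    by_cases h : x ∈ V
    · rw [indicator_of_mem h]
    · rw [indicator_of_notMem h, h2 h]

theorem norm_ind (hV : MeasurableSet V) (hVU : V ⊆ U) (F : HL n ι U) :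
    ‖ind U hV F‖ ^ 2 = nrm V (cp F) := by
  rw [norm_sq_eq, nrm_congr (cp_ind hV F)]
  refine Finset.sum_congr rfl fun a _ => ?_
  have e : (fun y => V.indicator (cp F a) y ^ 2) = V.indicator fun y => cp F a y ^ 2 := by
    ext y
    by_cases h : y ∈ V <;> simp [h]
  rw [e, setIntegral_indicator hV, inter_eq_right.2 hVU]

theorem norm_ind_le (hV : MeasurableSet V) (F : HL n ι U) : ‖ind U hV F‖ ≤ ‖F‖ :=
  ind0_le hV F

/-- On `V` the truncated element has the same components. -/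
theorem cp_ind_on (hV : MeasurableSet V) (hVU : V ⊆ U) (F : HL n ι U) (a : ι) :
    cp (ind U hV F) a =ᵐ[volume.restrict V] cp F a := by
  filter_upwards [ae_restrict_of_ae_restrict_of_subset hVU (cp_ind hV F a), ae_restrict_mem hV]
    with x h1 h2
  rw [h1, indicator_of_mem h2]

/-- A pairing with an element supported in `V`. -/
theorem inner_le_supp (hV : MeasurableSet V) (hVU : V ⊆ U) {F : HL n ι U} (h : SuppIn V F)
    (G : HL n ι U) : ⟪F, G⟫_ℝ ≤ ‖F‖ * √(nrm V (cp G)) := by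
  rw [← norm_ind hV hVU, Real.sqrt_sq (norm_nonneg _)]
  conv_lhs => rw [← ind_self hV h, ind_symm]
  exact real_inner_le_norm _ _

theorem agree_ae {G₁ G₂ : HL n ι U →L[ℝ] HL n ι U} (h : Agree O G₁ G₂) {F : HL n ι U}
    (hF : SuppIn O F) (hV : MeasurableSet V) (hVU : V ⊆ U) (hVO : V ⊆ O) (a : ι) :
    cp (G₁ F) a =ᵐ[volume.restrict V] cp (G₂ F) a := by
  have h0 : ∀ G : HL n ι U, SuppIn O (ind U hV G) := fun G =>
    (supp_ind hV G).mono fun x hx hO => hx fun h1 => hO (hVO h1)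
  have h1 : ind U hV (G₁ F) = ind U hV (G₂ F) := ext_inner_right ℝ fun G => by
    rw [ind_symm, ind_symm, h F _ hF (h0 G)]
  exact (cp_ind_on hV hVU _ a).symm.trans (h1 ▸ cp_ind_on hV hVU _ a)

/-- An element orthogonal to all `Lᵀ ψ` is a smooth solution. -/
theorem weak_sol (hw : S_weyl) (hg : S_green) (hL : L.Good) (hV : IsOpen V) (hVU : V ⊆ U)
    (F : HL n ι U) (h : ∀ ψ, Tests V ψ → ⟪F, tl U (L.T.app ψ)⟫_ℝ = 0) :
    ∃ W, Sol L V W 0 ∧ L2On V W ∧ ∀ a, W a =ᵐ[volume.restrict V] cp F a := by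
  have h2 : L2On V (cp F) := l2_mono (l2_cp F) hVU
  obtain ⟨W, h3, h4⟩ := hw n ι L V (cp F) 0 hL hV h2 (fun _ => contDiffOn_const) fun ψ hψ => by
    have h5 := tests_app (good_T hg hL).1 hψ
    have h6 : SuppIn V (tl U (L.T.app ψ)) := supp_iff.2 fun a =>
      (cp_tl (tests_l2 h5 U) a).mono fun x hx hn => by rw [hx, tests_zero h5 hn]
    have h7 := h ψ hψ
    rw [inner_eq] at h7
    simp only [Pi.zero_apply, zero_mul, integral_zero, Finset.sum_const_zero]
    rw [← h7]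
    refine Finset.sum_congr rfl fun a _ => ?_
    rw [integral_congr_ae (g := V.indicator fun y => cp F a y * L.T.app ψ a y)
      ((cp_tl (tests_l2 h5 U) a).mono fun x hx => by
        by_cases hn : x ∈ V
        · simp only [hx, indicator_of_mem hn]
        · simp only [hx, indicator_of_notMem hn, tests_zero h5 hn, mul_zero]),
      setIntegral_indicator hV.measurableSet, inter_eq_right.2 hVU]
  exact ⟨W, h3, l2_congr h2 h4, fun a => (h4 a).symm⟩

/-- `G F` is a smooth solution away from the support of `F`. -/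
theorem green_sol (hw : S_weyl) (hg : S_green) {G : HL n ι U →L[ℝ] HL n ι U} (hL : L.Good)
    (hG : IsGreen L U G) (hU : IsOpen U) (hV : IsOpen V) (hVU : V ⊆ U) {F : HL n ι U}
    (hF : SuppIn O F) (hd : Disjoint O V) :
    ∃ W, Sol L V W 0 ∧ L2On V W ∧ ∀ a, W a =ᵐ[volume.restrict V] cp (G F) a :=
  weak_sol hw hg hL hV hVU _ fun ψ hψ => by
    rw [hG.1 F ψ (tests_mono hψ hVU)]
    exact inner_disjoint hF (supp_tl hU.measurableSet (tests_l2 hψ U)
      fun x _ hx => tests_zero hψ hx) hd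

theorem green_adj (hg : S_green) {G : HL n ι U →L[ℝ] HL n ι U} (hL : L.Good)
    (hG : IsGreen L U G) : IsGreen L.T U (ContinuousLinearMap.adjoint G) := by
  refine ⟨fun F ψ hψ => ?_, fun ψ hψ => ext_inner_left ℝ fun F => ?_⟩
  · rw [(good_T hg hL).2, ContinuousLinearMap.adjoint_inner_left, hG.2 ψ hψ]
  · rw [ContinuousLinearMap.adjoint_inner_right, hG.1 F ψ hψ]

theorem pair_T (hg : S_green) (n : ℕ) (ι : Type) [Fintype ι] (M : ℕ → ℝ) : ∃ M' : ℕ → ℝ,
    ∀ (k : ℕ) (om : ℝ) (L₁ L₂ : Op n ι) (U : Set (En n)) (G₁ G₂ : HL n ι U →L[ℝ] HL n ι U),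
      Pair k om M L₁ L₂ U G₁ G₂ → Pair k om M' L₂.T L₁.T U (ContinuousLinearMap.adjoint G₂)
        (ContinuousLinearMap.adjoint G₁) := by
  obtain ⟨M', h0, H⟩ := bd_T hg n ι M
  refine ⟨M', fun k om L₁ L₂ U G₁ G₂ ⟨h1, h2, h3, h4, h5, h6, h7, h8⟩ => ⟨h1, H _ _ _ h3, H _ _ _ h2,
    green_adj hg h3.1 h5, green_adj hg h2.1 h4, ?_, ?_, fun F h hF hh => ?_⟩⟩
  · rw [LinearIsometryEquiv.norm_map]; exact h7.trans h0
  · rw [LinearIsometryEquiv.norm_map]; exact h6.trans h0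
  · rw [ContinuousLinearMap.adjoint_inner_left, ContinuousLinearMap.adjoint_inner_left,
      real_inner_comm, ← h8 h F hh hF, real_inner_comm]

/-! ## Geometry -/

theorem norm_yy {ρ : ℝ} (hρ : 0 ≤ ρ) (hx : x ≠ 0) : ‖yy ρ x‖ = max (1 + ρ) ‖x‖ := by
  have h := norm_pos_iff.2 hx
  rw [yy, norm_smul, Real.norm_of_nonneg (by positivity), div_mul_cancel₀ _ h.ne']

theorem dist_yy (ρ : ℝ) (hx : x ≠ 0) : dist x (yy ρ x) = max (1 + ρ) ‖x‖ - ‖x‖ := by
  have h := norm_pos_iff.2 hx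
  have e : yy ρ x - x = ((max (1 + ρ) ‖x‖ - ‖x‖) / ‖x‖) • x := by
    rw [yy, sub_div, div_self h.ne', sub_smul, one_smul]
  rw [dist_comm, dist_eq_norm, e, norm_smul, Real.norm_of_nonneg
    (div_nonneg (sub_nonneg.2 (le_max_right _ _)) h.le), div_mul_cancel₀ _ h.ne']

/-- The distance to the centre for a point of small depth. -/
theorem dist_yy_lt {ρ d : ℝ} (hρ : 0 < ρ) (hd : 0 ≤ d) (hd1 : d ≤ 1) (hx : 1 - d < ‖x‖) :
    dist x (yy ρ x) < ρ + d := by
  rw [dist_yy ρ (norm_pos_iff.1 (by linarith)), sub_lt_iff_lt_add, max_lt_iff]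
  constructor <;> linarith

theorem ff_lip {lam : ℝ} (h0 : 0 ≤ lam) (h1 : lam ≤ 1 / 2) {y z : En n} (hx : ‖x‖ ≤ 1)
    (hy : ‖y‖ ≤ 2) (hz : ‖z‖ ≤ 2) : |fV lam x y - fV lam x z| ≤ 2 * dist y z := by
  have e1 : |‖(1 / 2 : ℝ) • (x + y)‖ - ‖(1 / 2 : ℝ) • (x + z)‖| ≤ 1 / 2 * dist y z := by
    refine (abs_norm_sub_norm_le _ _).trans (le_of_eq ?_)
    rw [← smul_sub, add_sub_add_left_eq_sub, norm_smul, dist_eq_norm]
    norm_num
  have e2 : |‖y - x‖ - ‖z - x‖| ≤ dist y z := by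
    refine (abs_norm_sub_norm_le _ _).trans (le_of_eq ?_)
    rw [sub_sub_sub_cancel_right, dist_eq_norm]
  have e3 : ∀ w : En n, ‖w‖ ≤ 2 → ‖(1 / 2 : ℝ) • (x + w)‖ ≤ 3 / 2 := fun w hw => by
    rw [norm_smul, Real.norm_of_nonneg (by norm_num)]
    linarith [norm_add_le x w]
  have e4 := e3 y hy
  have e5 := e3 z hz
  unfold fV
  set A := ‖(1 / 2 : ℝ) • (x + y)‖
  set B := ‖(1 / 2 : ℝ) • (x + z)‖
  have hA : 0 ≤ A := norm_nonneg _
  have hB : 0 ≤ B := norm_nonneg _
  have e : A ^ 2 + lam * ‖y - x‖ - (B ^ 2 + lam * ‖z - x‖) =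
      (A + B) * (A - B) + lam * (‖y - x‖ - ‖z - x‖) := by ring
  rw [e]
  refine (abs_add_le _ _).trans ?_
  rw [abs_mul, abs_mul, abs_of_nonneg h0, abs_of_nonneg (add_nonneg hA hB)]
  have e6 := mul_le_mul (by linarith : A + B ≤ 3) e1 (abs_nonneg _) (by norm_num)
  have e7 := mul_le_mul h1 e2 (abs_nonneg _) (by norm_num)
  linarith

theorem isOpen_NN (p : En n) (lam δ : ℝ) (x : En n) : IsOpen (NV p lam δ x) :=
  isOpen_ball.inter (isOpen_lt continuous_const (by unfold fV; fun_prop))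

theorem isOpen_Vis (p : En n) (lam δ : ℝ) (x : En n) : IsOpen (Vis p lam δ x) :=
  isOpen_ball.inter (isOpen_lt (by fun_prop) continuous_const)

theorem mem_Vis {p y : En n} {lam δ : ℝ} :
    y ∈ Vis p lam δ x ↔ y ∈ ball p (1 / 2) ∧ fV lam x y < 1 - δ / 8 := Iff.rfl

/-- Points of `NV` are far from `x` and have small depth. -/
theorem NN_facts {p y : En n} {lam δ : ℝ} (h0 : 0 ≤ lam) (h1 : lam ≤ 1 / 2) (hδ : 0 < δ)
    (hp : x ∈ ball p (1 / 5)) (hx : ‖x‖ ^ 2 ≤ 1 - δ) (hy : y ∈ NV p lam δ x) :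
    δ / 4 < ‖y - x‖ ∧ ‖y - x‖ < 33 / 50 ∧ 1 + ‖y - x‖ ^ 2 / 2 - 2 * lam * ‖y - x‖ < ‖y‖ ^ 2 ∧
      1 - 2 * lam * ‖y - x‖ < ‖y‖ := by
  obtain ⟨h2, h3⟩ := hy
  have ht : ‖y - x‖ < 33 / 50 := by
    have := dist_triangle_right y x p
    rw [mem_ball] at hp h2
    rw [← dist_eq_norm]
    linarith
  have hf : 1 - δ / 2 < ‖(1 / 2 : ℝ) • (x + y)‖ ^ 2 + lam * ‖y - x‖ := h3
  have hx1 : ‖x‖ ≤ 1 := by nlinarith [norm_nonneg x]
  have e1 : ‖(1 / 2 : ℝ) • (x + y)‖ ≤ ‖x‖ + ‖y - x‖ / 2 := by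
    have : (1 / 2 : ℝ) • (x + y) = x + (1 / 2 : ℝ) • (y - x) := by module
    rw [this]
    refine (norm_add_le _ _).trans (le_of_eq ?_)
    rw [norm_smul, Real.norm_of_nonneg (by norm_num)]
    ring
  have e2 : ‖(1 / 2 : ℝ) • (x + y)‖ ^ 2 = (‖x‖ ^ 2 + ‖y‖ ^ 2) / 2 - ‖y - x‖ ^ 2 / 4 := by
    rw [norm_smul, mul_pow, norm_add_sq_real, norm_sub_sq_real, real_inner_comm x y]
    norm_num
    ring
  have e3 := pow_le_pow_left₀ (norm_nonneg _) e1 2
  have t0 := norm_nonneg (y - x)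
  set t := ‖y - x‖
  have e4 : 1 + t ^ 2 / 2 - 2 * lam * t < ‖y‖ ^ 2 := by linarith
  refine ⟨by nlinarith [norm_nonneg x], ht, e4, ?_⟩
  by_contra hn
  push Not at hn
  nlinarith [norm_nonneg y, mul_nonneg h0 t0, sq_nonneg t]

end St1
end Vale.Agent.P088
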