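import Vale.Agent.P088.StG
import Vale.Agent.P088.St1Tool
import Vale.Agent.P088.Lt1Bas

/-!
# P088, the gain: definitions and statements of the steps
-/

open MeasureTheory Set Metric Filter
open scoped ContDiff Topology InnerProductSpace

noncomputable section
namespace Vale.Agent.P088.Gain
open Vale.Agent.P136 (D Dp Dm Sm Tst)

section defs
variable {n : ℕ} {ι : Type} [Fintype ι]

/-- The operator without zero-order term. -/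
def op0 (γ : MatF n) (b : ConF n ι) : Op n ι := ⟨γ, b, fun _ _ _ => 0⟩

/-- Smooth square integrable solutions on `Y0 p`. -/
def IsS (L : Op n ι) (p : En n) (W : ι → En n → ℝ) : Prop := Sol L (Y0 p) W 0 ∧ L2On (Y0 p) W

/-- The weighted norm at the point `x`. -/
def wn (φ : X2 n → ℝ) (p x : En n) (W : ι → En n → ℝ) : ℝ :=
  ∑ a, ∫ y in Y0 p, Real.exp (-(2 * φ (x, y))) * W a y ^ 2

/-- The dual weighted norm, with a cutoff. -/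
def Wc (φ : X2 n → ℝ) (p : En n) (th : En n → ℝ) (x : En n) (u : ι → En n → ℝ) : ℝ :=
  ∑ a, ∫ y in Y0 p, Real.exp (2 * φ (x, y)) * (th y * u a y) ^ 2

/-- The dual weighted norm. -/
def Wp (φ : X2 n → ℝ) (p x : En n) (u : HL n ι (Y0 p)) : ℝ :=
  ∑ a, ∫ y in Y0 p, Real.exp (2 * φ (x, y)) * cp u a y ^ 2

/-- First derivatives of a vector valued function. -/
def dk {V : Type} [NormedAddCommGroup V] [NormedSpace ℝ V] (k : En n → V) (j : Fin n) :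
    En n → V := fun x => fderiv ℝ k x (ee j)

/-- The operator `∂_i γ^{ij} ∂_j` on vector valued functions. -/
def ddk {V : Type} [NormedAddCommGroup V] [NormedSpace ℝ V] (γ : MatF n) (k : En n → V) :
    En n → V := fun x => ∑ i, dk (fun z => ∑ j, γ i j z • dk k j z) i x

/-- The range of the transposed operator on test fields. -/
def RT (L : Op n ι) (p : En n) : Submodule ℝ (HL n ι (Y0 p)) :=
  Submodule.span ℝ {F | ∃ ψ, Tests (Y0 p) ψ ∧ F = tl (Y0 p) (L.T.app ψ)}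

/-- The main estimate in abstract form. -/
def MEa (φ : X2 n → ℝ) (γ₁ γ₂ : MatF n) (b : ConF n ι) (w₀ w₁ : En n → ℝ) (U : Set (En n))
    (p : En n) (C : ℝ) : Prop :=
  ∀ g q : ι → X2 n → ℝ, (∀ s, IsTest (U ×ˢ Y0 p) (g s) ∧ IsTest (U ×ˢ Y0 p) (q s)) →
    (∀ P, ((∃ s, P ∈ tsupport (q s)) ∨ ‖zz P‖ ≤ 1 / 10) → ∀ s, L2b γ₂ b φ g s P = 0) →
    (∑ s, ∫ P, w₀ P.1 * g s P ^ 2) + ∑ s, ∫ P, w₁ P.1 * ∑ i, Dm φ (ex i) (g s) P ^ 2 ≤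
      C * ∑ s, ∫ P, (Lm ex (onX γ₁) φ (g s) P + d2b γ₂ b φ q s P) ^ 2

/-- The setting of the abstract estimate. -/
def Ctx (φ : X2 n → ℝ) (γ₁ γ₂ : MatF n) (b : ConF n ι) (w₀ w₁ : En n → ℝ) (U K : Set (En n))
    (p : En n) (C : ℝ) : Prop :=
  Sm φ ∧ SmM γ₁ ∧ (op0 γ₂ b).Good ∧ Continuous w₀ ∧ Continuous w₁ ∧ (∀ x, 0 ≤ w₀ x ∧ 0 ≤ w₁ x) ∧
    IsOpen U ∧ IsCompact K ∧ K ⊆ U ∧ U ⊆ ball p (1 / 4) ∧ 0 ≤ C ∧ MEa φ γ₁ γ₂ b w₀ w₁ U p C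

/-- The kernel `k` is `exp (-2 φ)` times a family `G` of solutions that vanishes off `K`. -/
def Ker (φ : X2 n → ℝ) (L : Op n ι) (K : Set (En n)) (p : En n) (k : En n → HL n ι (Y0 p))
    (G : En n → ι → En n → ℝ) : Prop :=
  ContDiff ℝ ∞ k ∧ (∀ x, Sol L (Y0 p) (G x) 0) ∧ (∀ x, x ∉ K → G x = 0) ∧
    (∀ x a, cp (k x) a =ᵐ[volume.restrict (Y0 p)]
      fun y => Real.exp (-(2 * φ (x, y))) * G x a y) ∧
    ∀ th, IsTest (Y0 p) th → ∀ a, Sm fun P : X2 n => th P.2 * G P.1 a P.2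

/-- Admissible families of linear functionals on the space of solutions. -/
def Adm (L : Op n ι) (p : En n) (K : Set (En n)) (l : En n → (ι → En n → ℝ) → ℝ) : Prop :=
  (∀ x W W' (t : ℝ), IsS L p W → IsS L p W' → l x (linF W t W') = l x W + t * l x W') ∧
    (∀ x, ∃ C : ℝ, ∀ W, IsS L p W → l x W ^ 2 ≤ C * nrm (Y0 p) W) ∧
    (∀ W, IsS L p W → Sm fun x => l x W) ∧ ∀ x W, x ∉ K → IsS L p W → l x W = 0

/-- The cutoff: `0` for `|x|² ≤ 1 - 2 δ` and `1` for `1 - δ ≤ |x|²`. -/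
def chi (δ : ℝ) (x : En n) : ℝ := Real.smoothTransition ((‖x‖ ^ 2 - (1 - 2 * δ)) / δ)

/-- The support of the section. -/
def KK (p : En n) (δ : ℝ) : Set (En n) :=
  closedBall ((1 / 3 : ℝ) • p) (2 / 3) ∩ {x | 1 - 2 * δ ≤ ‖x‖ ^ 2}

/-- The section. -/
def sec (p : En n) (δ : ℝ) (T : (ι → En n → ℝ) → ι → En n → ℝ) (a : ι) (x : En n)
    (W : ι → En n → ℝ) : ℝ :=
  (X0 p δ).indicator (fun y => chi δ y * (T W a y - W a y)) x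

/-- The continuation operator. -/
def TP (L₁ L₂ : Op n ι) (p : En n) (lam δ C : ℝ) (T : (ι → En n → ℝ) → ι → En n → ℝ) : Prop :=
  ∀ W, IsS L₂ p W → Cont L₁ p δ W (T W) ∧
    ∀ x ∈ ball p (1 / 5), 1 - 2 * δ ≤ ‖x‖ ^ 2 → vg (T W) x ≤ C * nrm (Y0 p) W ∧
      (‖x‖ ^ 2 ≤ 1 - δ → vg (T W) x ≤ C * nrm (Vis p lam δ x) W)

/-- Square of the first and second derivatives. -/
def j2 (W : ι → En n → ℝ) (x : En n) : ℝ :=
  ∑ a, (∑ j, D (ee j) (W a) x ^ 2 + ∑ i, ∑ j, D (ee i) (D (ee j) (W a)) x ^ 2)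

end defs

/-! ## Functional analysis -/

def G_w2s : Prop := ∀ (E H F : Type) [NormedAddCommGroup E] [NormedSpace ℝ E]
  [FiniteDimensional ℝ E] [NormedAddCommGroup H] [NormedSpace ℝ H] [CompleteSpace H]
  [NormedAddCommGroup F] [NormedSpace ℝ F] (l : E → H →L[ℝ] F),
  (∀ h, ContDiff ℝ ∞ (fun x => l x h)) → ContDiff ℝ ∞ l

def G_slm : Prop := ∀ (E H : Type) [NormedAddCommGroup E] [NormedSpace ℝ E]
  [NormedAddCommGroup H] [InnerProductSpace ℝ H] [CompleteSpace H]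
  (B : E → H →L[ℝ] H →L[ℝ] ℝ), ContDiff ℝ ∞ B → (∀ x, IsCoercive (B x)) →
  ∃ S : E → (H →L[ℝ] ℝ) →L[ℝ] H, ContDiff ℝ ∞ S ∧ ∀ x l h, B x (S x l) h = l h

def G_approx : Prop := ∀ (n : ℕ) (V : Type) [NormedAddCommGroup V] [NormedSpace ℝ V]
  (S : Submodule ℝ V) (Ξ : En n → V) (U K : Set (En n)) (δ : ℝ), Continuous Ξ →
  (∀ x, Ξ x ∈ closure (S : Set V)) → IsOpen U → IsCompact K → K ⊆ U → (∀ x, x ∉ K → Ξ x = 0) →
  0 < δ → ∃ (N : ℕ) (θ : Fin N → En n → ℝ) (s : Fin N → V), (∀ m, IsTest U (θ m)) ∧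
    (∀ m, s m ∈ S) ∧ ∀ x, ‖Ξ x - ∑ m, θ m x • s m‖ ≤ δ

def G_mf : Prop := ∀ (n : ℕ) (ι : Type) [Fintype ι] (p : En n) (m : X2 n → ℝ), Sm m →
  ∃ M : En n → HL n ι (Y0 p) →L[ℝ] HL n ι (Y0 p), ContDiff ℝ ∞ M ∧
    ∀ x u a, cp (M x u) a =ᵐ[volume.restrict (Y0 p)] fun y => m (x, y) * cp u a y

def G_drep : Prop := ∀ (n : ℕ) (ι : Type) [Fintype ι] (p : En n) (k : En n → HL n ι (Y0 p))
  (κ : X2 n → ℝ) (th : En n → ℝ) (a : ι), ContDiff ℝ ∞ k → Sm κ → Continuous th →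
  (∀ x, (fun y => th y * cp (k x) a y) =ᵐ[volume.restrict (Y0 p)] fun y => κ (x, y)) →
  ∀ x j, (fun y => th y * cp (dk k j x) a y) =ᵐ[volume.restrict (Y0 p)]
    fun y => D (ex j) κ (x, y)

/-! ## The space of solutions -/

def G_rng : Prop := ∀ (n : ℕ) (ι : Type) [Fintype ι] (L : Op n ι) (p : En n) (N : ℕ)
  (t : Fin N → HL n ι (Y0 p)), L.Good → (∀ m, t m ∈ RT L p) →
  ∃ ψ : Fin N → ι → En n → ℝ, (∀ m, Tests (Y0 p) (ψ m)) ∧ ∀ (s : Fin N → ℝ) (a : ι),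
    cp (∑ m, s m • t m) a =ᵐ[volume.restrict (Y0 p)] L.T.app (fun e y => ∑ m, s m * ψ m e y) a

def G_rep : Prop := ∀ (n : ℕ) (ι : Type) [Fintype ι] (L : Op n ι) (p : En n), L.Good →
  (∃ Rp : (RT L p)ᗮ →ₗ[ℝ] (ι → En n → ℝ), ∀ h, IsS L p (Rp h) ∧
    ∀ a, cp (h : HL n ι (Y0 p)) a =ᵐ[volume.restrict (Y0 p)] Rp h a) ∧
  ∀ W, IsS L p W → tl (Y0 p) W ∈ (RT L p)ᗮ

/-- Pointwise bound for a fixed operator. -/
def G_pt : Prop := ∀ (n : ℕ) (ι : Type) [Fintype ι] (L : Op n ι) (p y : En n), L.Good →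
  y ∈ Y0 p → ∃ C : ℝ, 0 ≤ C ∧ ∀ W, IsS L p W → ∀ a, W a y ^ 2 ≤ C * nrm (Y0 p) W

/-- Joint smoothness of a smooth family of solutions. -/
def G_ev : Prop := ∀ (n : ℕ) (ι : Type) [Fintype ι] (H : Type) [NormedAddCommGroup H]
  [NormedSpace ℝ H] [CompleteSpace H] (L : Op n ι) (p : En n) (Rp : H →ₗ[ℝ] (ι → En n → ℝ))
  (g : En n → H) (th : En n → ℝ), L.Good → (∀ h, IsS L p (Rp h) ∧ nrm (Y0 p) (Rp h) ≤ ‖h‖ ^ 2) →
  ContDiff ℝ ∞ g → IsTest (Y0 p) th → ∀ a, Sm fun P : X2 n => th P.2 * Rp (g P.1) a P.2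

/-- Uniform interior estimates at scale `r`. -/
def IE2 (n : ℕ) (ι : Type) [Fintype ι] (k : ℕ) (om : ℝ) (M : ℕ → ℝ) (C : ℝ) : Prop :=
  ∀ (L : Op n ι) (x : En n) (r : ℝ) (W : ι → En n → ℝ), L.Bd k om M → 0 < r → r ≤ 1 →
    Sol L (ball x r) W 0 → L2On (ball x r) W →
    vg W x * r ^ (n + 2) ≤ C * nrm (ball x r) W ∧ j2 W x * r ^ (n + 4) ≤ C * nrm (ball x r) W

def G_ie2 : Prop := ∀ (n : ℕ) (ι : Type) [Fintype ι], ∃ (k : ℕ) (om : ℝ), 0 < om ∧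
  ∀ M : ℕ → ℝ, ∃ C : ℝ, 0 ≤ C ∧ IE2 n ι k om M C

/-- Comparison with the weighted norm. -/
def G_wn : Prop := ∀ (n : ℕ) (ι : Type) [Fintype ι] (φ : X2 n → ℝ) (p x : En n)
  (W : ι → En n → ℝ), Continuous φ → 0 ≤ wn φ p x W ∧
  (∀ (V : Set (En n)) (B : ℝ), IsOpen V → V ⊆ Y0 p → (∀ y ∈ V, φ (x, y) ≤ B) → L2On (Y0 p) W →
    nrm V W ≤ Real.exp (2 * B) * wn φ p x W) ∧
  (SmOn (Y0 p) W → (∀ y ∈ Y0 p, ∀ a, |W a y| ≤ ‖y - x‖ ^ 2) → L2On (Y0 p) W ∧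
    wn φ p x W ≤ Fintype.card ι * ∫ y in Y0 p, Real.exp (-(2 * φ (x, y))) * ‖y - x‖ ^ 4)

/-! ## The abstract estimate -/

/-- Conjugation of the operators. -/
def G_conj : Prop := ∀ (n : ℕ) (ι : Type) [Fintype ι] (φ : X2 n → ℝ) (γ : MatF n) (b : ConF n ι)
  (u : ι → X2 n → ℝ) (s : ι) (x y : En n), Sm φ → SmM γ → (∀ i a a', Sm (b i a a')) →
  (∀ a, Sm (u a)) →
  L2b γ b φ (fun a P => Real.exp (-φ P) * u a P) s (x, y) =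
    Real.exp (-φ (x, y)) * (op0 γ b).app (fun a z => u a (x, z)) s y ∧
  d2b γ b φ (fun a P => Real.exp (φ P) * u a P) s (x, y) =
    Real.exp (φ (x, y)) * (op0 γ b).T.app (fun a z => u a (x, z)) s y ∧
  Lm ex (onX γ) φ (fun P => Real.exp (φ P) * u s P) (x, y) =
    Real.exp (φ (x, y)) * dgd ex (onX γ) (u s) (x, y)

/-- The main estimate applied to the kernel with a cutoff. -/
def G_cut : Prop := ∀ (n : ℕ) (ι : Type) [Fintype ι] (φ : X2 n → ℝ) (γ₁ γ₂ : MatF n)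
  (b : ConF n ι) (w₀ w₁ : En n → ℝ) (U K K' : Set (En n)) (p : En n) (C ρ ρ' : ℝ)
  (k : En n → HL n ι (Y0 p)) (G : En n → ι → En n → ℝ) (th : En n → ℝ) (σ : ι → X2 n → ℝ),
  Ctx φ γ₁ γ₂ b w₀ w₁ U K p C → Ker φ (op0 γ₂ b) K p k G → IsTest (Y0 p) th →
  (∀ y ∈ ball p ρ, th y = 1) → 7 / 20 ≤ ρ → ρ ≤ 1 / 2 → ρ' < ρ → (∀ a, Sm (σ a)) →
  IsCompact K' → K' ⊆ U → (∀ a P, σ a P ≠ 0 → P.1 ∈ K' ∧ P.2 ∈ closedBall p ρ') →
  Integrable (fun x => Wc φ p th x fun a y =>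
    cp (ddk γ₁ k x) a y + (op0 γ₂ b).T.app (fun e z => σ e (x, z)) a y) ∧
  (∫ x, w₀ x * Wc φ p th x (cp (k x))) + ∫ x, w₁ x * ∑ j, Wc φ p th x (cp (dk k j x)) ≤
    C * ∫ x, Wc φ p th x fun a y =>
      cp (ddk γ₁ k x) a y + (op0 γ₂ b).T.app (fun e z => σ e (x, z)) a y

/-- Removing the cutoffs. -/
def G_lim : Prop := ∀ (n : ℕ) (ι : Type) [Fintype ι] (φ : X2 n → ℝ) (γ₁ γ₂ : MatF n)
  (b : ConF n ι) (w₀ w₁ : En n → ℝ) (U K : Set (En n)) (p : En n) (C : ℝ)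
  (k Ξ : En n → HL n ι (Y0 p)) (G : En n → ι → En n → ℝ) (Γ : En n → ℝ),
  Ctx φ γ₁ γ₂ b w₀ w₁ U K p C → Ker φ (op0 γ₂ b) K p k G → Continuous Ξ →
  (∀ x, Ξ x ∈ closure (RT (op0 γ₂ b) p : Set (HL n ι (Y0 p)))) → (∀ x, x ∉ K → Ξ x = 0) →
  Integrable Γ → (∀ x, Wp φ p x (ddk γ₁ k x - Ξ x) ≤ Γ x) →
  (∫ x, w₀ x * Wp φ p x (k x)) + ∫ x, w₁ x * ∑ j, Wp φ p x (dk k j x) ≤ C * ∫ x, Γ x

/-- The estimate for sections of the dual bundle. -/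
def G_ast : Prop := ∀ (n : ℕ) (ι : Type) [Fintype ι] (φ : X2 n → ℝ) (γ₁ γ₂ : MatF n)
  (b : ConF n ι) (w₀ w₁ : En n → ℝ) (U K : Set (En n)) (p : En n) (C : ℝ)
  (l : En n → (ι → En n → ℝ) → ℝ), Ctx φ γ₁ γ₂ b w₀ w₁ U K p C → Adm (op0 γ₂ b) p K l →
  ∃ n₀ n₁ : En n → ℝ, Continuous n₀ ∧ Continuous n₁ ∧ (∀ x, x ∉ K → n₀ x = 0 ∧ n₁ x = 0) ∧
    (∀ x, 0 ≤ n₀ x ∧ 0 ≤ n₁ x) ∧
    (∀ x W, IsS (op0 γ₂ b) p W → l x W ^ 2 ≤ n₀ x * wn φ p x W ∧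
      ∑ j, D (ee j) (fun z => l z W) x ^ 2 ≤ n₁ x * wn φ p x W) ∧
    ∀ Γ : En n → ℝ, Integrable Γ → (∀ x, 0 ≤ Γ x) →
      (∀ x W, IsS (op0 γ₂ b) p W → dgd ee γ₁ (fun z => l z W) x ^ 2 ≤ Γ x * wn φ p x W) →
      (∫ x, w₀ x * n₀ x) + ∫ x, w₁ x * n₁ x ≤ C * ∫ x, Γ x

/-- Absorption of the first-order terms. -/
def G_abs : Prop := ∀ (n : ℕ) (ι : Type) [Fintype ι] (φ : X2 n → ℝ) (γ₁ γ₂ : MatF n)
  (b : ConF n ι) (aw Lw : En n → ℝ) (U K : Set (En n)) (p : En n) (C A B : ℝ)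
  (l : ι → En n → (ι → En n → ℝ) → ℝ),
  Ctx φ γ₁ γ₂ b (fun x => aw x * Lw x ^ 2) (fun x => Lw x ^ 2) U K p C →
  (∀ a, Adm (op0 γ₂ b) p K (l a)) → Continuous aw → (∀ x, 0 ≤ aw x) → 0 ≤ A → 0 ≤ B →
  (∀ x, 1 ≤ Lw x ^ 2 ∧ Fintype.card ι * C * A ≤ Lw x ^ 2) →
  (∀ x ∈ K, ∀ W, IsS (op0 γ₂ b) p W → ∀ a, dgd ee γ₁ (fun z => l a z W) x ^ 2 ≤
    A * ∑ e, ∑ j, D (ee j) (fun z => l e z W) x ^ 2 + B * wn φ p x W) →
  ∃ n₀ : En n → ℝ, Continuous n₀ ∧ (∀ x, 0 ≤ n₀ x) ∧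
    (∀ V : Set (En n), ∫ x in V, aw x * n₀ x ≤ Fintype.card ι * C * B * volume.real K) ∧
    ∀ x W, IsS (op0 γ₂ b) p W → ∀ a, l a x W ^ 2 ≤ n₀ x * wn φ p x W

/-! ## The section -/

def G_geo : Prop := ∀ (n : ℕ) (δ : ℝ), 0 < δ → δ ≤ 1 / 200 →
  (∀ p : En n, ‖p‖ = 1 → IsOpen (X0 p δ) ∧ IsPreconnected (X0 p δ) ∧ IsOpen (O0 p) ∧
    (X0 p δ ∩ O0 p).Nonempty ∧ IsCompact (KK p δ) ∧ KK p δ ⊆ X0 p δ ∧
    KK p δ ⊆ ball p (1 / 5) ∧ KK p δ ⊆ closedBall 0 1 ∧ X1 p δ ⊆ X0 p δ ∧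
    ∀ x ∈ X0 p δ, x ∉ KK p δ → x ∈ O0 p ∨ ‖x‖ ^ 2 < 1 - 2 * δ) ∧
  ∀ lam : ℝ, 0 < lam → ∃ ρ : ℝ, 0 < ρ ∧ ρ ≤ 1 ∧ ∀ p x : En n, x ∈ ball p (1 / 5) →
    ‖x‖ ^ 2 ≤ 1 - δ → ball x ρ ⊆ Vis p lam δ x

def G_sec : Prop := ∀ (n : ℕ) (ι : Type) [Fintype ι] (L₁ L₂ : Op n ι) (p : En n)
  (lam δ C : ℝ), L₁.Good → L₂.Good → ‖p‖ = 1 → 0 < δ → δ ≤ 1 / 200 → St1 L₁ L₂ p lam δ C →
  ∃ T, TP L₁ L₂ p lam δ C T ∧ (∀ a, Adm L₂ p (KK p δ) (sec p δ T a)) ∧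
    ∀ W W', IsS L₂ p W → Cont L₁ p δ W W' → ∀ x ∈ X1 p δ, ∀ a, sec p δ T a x W = W' a x - W a x

/-- The equation for the section, pointwise. -/
def PW (n : ℕ) (ι : Type) [Fintype ι] (M : ℕ → ℝ) (δ A : ℝ) : Prop :=
  ∀ (k : ℕ) (om E N : ℝ) (L₁ L₂ : Op n ι) (V : Set (En n)) (W W' : ι → En n → ℝ) (x : En n),
    L₁.Bd k om M → L₂.Good → IsOpen V → x ∈ V → ‖x‖ ≤ 1 → Sol L₁ V W' 0 → Sol L₂ V W 0 →
    (∀ a a', L₁.c a a' x = 0 ∧ L₂.c a a' x = 0) →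
    (∀ i j, SB ee 1 E 1 (fun y => L₁.γ i j y - L₂.γ i j y) x) →
    (∀ i a a', |L₁.b i a a' x - L₂.b i a a' x| ≤ E) → 0 ≤ N →
    (1 - 2 * δ ≤ ‖x‖ ^ 2 → ‖x‖ ^ 2 ≤ 1 - δ → vg W' x + vg W x ≤ N) → ∀ a,
    dgd ee L₁.γ (fun y => chi δ y * (W' a y - W a y)) x ^ 2 ≤
      A * (∑ e, ∑ j, D (ee j) (fun y => chi δ y * (W' e y - W e y)) x ^ 2 + E ^ 2 * j2 W x + N)

def G_pw : Prop := ∀ (n : ℕ) (ι : Type) [Fintype ι] (M : ℕ → ℝ) (δ : ℝ), 0 < δ →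
  ∃ A : ℝ, 0 ≤ A ∧ PW n ι M δ A

/-! ## The weight -/

/-- Elementary properties of the scalar weight. -/
def G_au : Prop :=
  (∀ (K : ℕ) (L0 sg : ℝ) (J : ℕ), 1 ≤ L0 → 0 ≤ sg → (∀ u, 0 < aU K L0 sg J u) ∧
    (∀ u, 0 ≤ u → Real.exp L0 ≤ aU K L0 sg J u) ∧ (∀ u, 0 ≤ LU K L0 sg J u) ∧
    (∀ u u', aU K L0 sg J u * Real.exp (LU K L0 sg J u * (u' - u)) ≤ aU K L0 sg J u') ∧
    Monotone (aU K L0 sg J)) ∧
  (∀ (K : ℕ) (d : ℝ), 0 < d → ∃ B : ℝ → ℝ, ∀ (L0 sg : ℝ) (J : ℕ) (u : ℝ), 1 ≤ L0 →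
    d ≤ 1 - sg - u → aU K L0 sg J u ≤ B L0) ∧
  ∀ (n : ℕ) (ι : Type) (f : Fx) (c : Cx n ι) (P : X2 n), 1 ≤ c.L0 →
    2 * FF f c P ≤ aU f.K c.L0 c.sg c.J (uu P + √(f.Om (QQ c P)))

/-- Upper bound near the diagonal. -/
def WA {n : ℕ} {ι : Type} (f : Fx) (c : Cx n ι) (C : ℝ) : Prop :=
  ∀ x y, x ∈ ball c.p0 (1 / 4) → ‖y - x‖ * fX f c x ≤ 1 → phi f c (x, y) ≤ C + f.Cw * lX f c x

def G_wa : Prop := ∀ (n : ℕ) (ι : Type) (f : Fx), f.Ok → ∃ C : ℝ,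
  Ev f fun c : Cx n ι => WA f c C

/-- Upper bound on the visible set. -/
def WB {n : ℕ} {ι : Type} (f : Fx) (c : Cx n ι) (lam δ B : ℝ) : Prop :=
  ∀ x ∈ ball c.p0 (1 / 4), ‖x‖ ^ 2 ≤ 1 - δ → ∀ y ∈ Vis c.p0 lam δ x, phi f c (x, y) ≤ B

def G_wb : Prop := ∀ (n : ℕ) (ι : Type) (f : Fx) (lam δ : ℝ), f.Ok → 0 < δ → 2 * f.lam ≤ lam →
  256 * f.t1 ≤ δ → ∃ B : ℝ → ℝ, Ev f fun c : Cx n ι => 32 * c.sg ≤ δ → WB f c lam δ (B c.L0)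

/-- The weighted norm of functions that vanish to second order. -/
def WC {n : ℕ} {ι : Type} (f : Fx) (c : Cx n ι) (C : ℝ) : Prop :=
  ∀ x ∈ ball c.p0 (1 / 4), ∫ y in Y0 c.p0, Real.exp (-(2 * phi f c (x, y))) * ‖y - x‖ ^ 4 ≤
    C * Real.exp (-((2 * f.Cw + n + 4) * lX f c x))

def G_wc : Prop := ∀ (n : ℕ) (ι : Type) (f : Fx), f.Ok → ∃ C : ℝ, 0 ≤ C ∧
  Ev f fun c : Cx n ι => WC f c C

/-! ## Small shared lemmas -/

section lem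
variable {n : ℕ} {ι : Type} [Fintype ι] {V : Type} [NormedAddCommGroup V] [NormedSpace ℝ V]
  {p : En n}

theorem sm_dk {k : En n → V} (hk : ContDiff ℝ ∞ k) (j : Fin n) : ContDiff ℝ ∞ (dk k j) :=
  (hk.fderiv_right (m := ∞) (by simp)).clm_apply contDiff_const

theorem sm_gk {γ : MatF n} (hγ : SmM γ) {k : En n → V} (hk : ContDiff ℝ ∞ k) (i : Fin n) :
    ContDiff ℝ ∞ fun z => ∑ j, γ i j z • dk k j z :=
  ContDiff.sum fun j _ => ContDiff.smul (hγ i j) (sm_dk hk j)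

theorem sm_ddk {γ : MatF n} (hγ : SmM γ) {k : En n → V} (hk : ContDiff ℝ ∞ k) :
    ContDiff ℝ ∞ (ddk γ k) := ContDiff.sum fun i _ => sm_dk (sm_gk hγ hk i) i

theorem dk_zero {K : Set (En n)} (hK : IsClosed K) {k : En n → V} (h : ∀ x, x ∉ K → k x = 0)
    (j : Fin n) : ∀ x, x ∉ K → dk k j x = 0 := by
  intro x hx
  have : k =ᶠ[𝓝 x] fun _ => 0 := by
    filter_upwards [hK.isOpen_compl.mem_nhds hx] with y hy
    exact h y hy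
  simp [dk, this.fderiv_eq]

theorem ddk_zero {K : Set (En n)} (hK : IsClosed K) (γ : MatF n) {k : En n → V}
    (h : ∀ x, x ∉ K → k x = 0) : ∀ x, x ∉ K → ddk γ k x = 0 := fun x hx =>
  Finset.sum_eq_zero fun i _ => dk_zero hK (fun z hz => by simp [dk_zero hK h _ z hz]) i x hx

theorem cp_zero {U : Set (En n)} (a : ι) :
    cp (0 : HL n ι U) a =ᵐ[volume.restrict U] fun _ => 0 :=
  (Lp.coeFn_zero (EuclideanSpace ℝ ι) 2 (volume.restrict U)).mono fun x hx => by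
    simp only [cp, hx, Pi.zero_apply, PiLp.zero_apply]

theorem cp_smul {U : Set (En n)} (c : ℝ) (F : HL n ι U) (a : ι) :
    cp (c • F) a =ᵐ[volume.restrict U] fun x => c * cp F a x :=
  (Lp.coeFn_smul c F).mono fun x hx => by
    simp only [cp, hx, Pi.smul_apply, PiLp.smul_apply, smul_eq_mul]

theorem cp_sum {U : Set (En n)} {κ : Type} (s : Finset κ) (F : κ → HL n ι U) (a : ι) :
    cp (∑ i ∈ s, F i) a =ᵐ[volume.restrict U] fun x => ∑ i ∈ s, cp (F i) a x := by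
  classical
  induction s using Finset.induction_on with
  | empty => simpa using cp_zero a
  | insert i s hi ih =>
    simp only [Finset.sum_insert hi]
    filter_upwards [St1.cp_add (F i) (∑ i ∈ s, F i) a, ih] with x h1 h2
    rw [h1, h2]

theorem ae_Y0 (p : En n) : ∀ᵐ y ∂(volume.restrict (Y0 p)), y ∈ Y0 p :=
  ae_restrict_mem measurableSet_ball

instance fin_Y0 (p : En n) : IsFiniteMeasure (volume.restrict (Y0 p)) :=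
  isFiniteMeasure_restrict.2 measure_ball_lt_top.ne

theorem bdd_Y0 {w : En n → ℝ} (h : Continuous w) (p : En n) : ∃ C, ∀ y ∈ Y0 p, ‖w y‖ ≤ C := by
  obtain ⟨C, hC⟩ := (isCompact_closedBall p (1 / 2)).exists_bound_of_continuousOn h.continuousOn
  exact ⟨C, fun y hy => hC y (ball_subset_closedBall hy)⟩

/-- A continuous weight times an integrable function is integrable on `Y0 p`. -/
theorem int_mul {w f : En n → ℝ} (hw : Continuous w) (hf : IntegrableOn f (Y0 p)) :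
    IntegrableOn (fun y => w y * f y) (Y0 p) := by
  obtain ⟨A, hA⟩ := bdd_Y0 hw p
  exact Integrable.bdd_mul (c := A) hf hw.aestronglyMeasurable ((ae_Y0 p).mono hA)

theorem int_w {w f : En n → ℝ} (hw : Continuous w) (hf : MemLp f 2 (volume.restrict (Y0 p))) :
    IntegrableOn (fun y => w y * f y ^ 2) (Y0 p) := int_mul hw hf.integrable_sq

theorem slice {m : X2 n → ℝ} (hm : Continuous m) (x : En n) : Continuous fun y => m (x, y) :=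
  hm.comp (Continuous.prodMk_right x)

theorem Wp_nonneg (φ : X2 n → ℝ) (p x : En n) (u : HL n ι (Y0 p)) : 0 ≤ Wp φ p x u :=
  Finset.sum_nonneg fun _ _ => integral_nonneg fun _ => by positivity

theorem wn_nonneg (φ : X2 n → ℝ) (p x : En n) (W : ι → En n → ℝ) : 0 ≤ wn φ p x W :=
  Finset.sum_nonneg fun _ _ => integral_nonneg fun _ => by positivity

theorem Wp_zero (φ : X2 n → ℝ) (p x : En n) : Wp φ p x (0 : HL n ι (Y0 p)) = 0 :=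
  Finset.sum_eq_zero fun a _ => by
    rw [integral_congr_ae (g := fun _ => 0) ((cp_zero a).mono fun y hy => by simp [hy])]
    simp

/-- Weighted quadratic forms depend continuously on the point. -/
theorem cont_quad (hmf : G_mf) {m : X2 n → ℝ} (hm : Sm m) {u : En n → HL n ι (Y0 p)}
    (hu : Continuous u) : Continuous fun x => ∑ a, ∫ y in Y0 p, m (x, y) * cp (u x) a y ^ 2 := by
  obtain ⟨M, hM, hM'⟩ := hmf n ι p m hm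
  have : (fun x => ∑ a, ∫ y in Y0 p, m (x, y) * cp (u x) a y ^ 2) =
      fun x => ⟪M x (u x), u x⟫_ℝ := by
    funext x
    rw [St1.inner_eq]
    exact Finset.sum_congr rfl fun a _ =>
      integral_congr_ae ((hM' x (u x) a).mono fun y hy => by simp only [hy]; ring)
  rw [this]
  exact (hM.continuous.clm_apply hu).inner hu

theorem cont_Wp (hmf : G_mf) {φ : X2 n → ℝ} (hφ : Sm φ) {u : En n → HL n ι (Y0 p)}
    (hu : Continuous u) : Continuous fun x => Wp φ p x (u x) := cont_quad hmf (hφ.cmul 2).exp hu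

/-- Derivatives in `y` are derivatives of the slice. -/
theorem D_ey {f : X2 n → ℝ} (hf : Sm f) (i : Fin n) (x : En n) :
    (fun y => D (ey i) f (x, y)) = D (ee i) (fun y => f (x, y)) := by
  funext y
  have h := ((hf.dAt (x, y)).hasFDerivAt.comp y (hasFDerivAt_prodMk_right x y)).fderiv
  simp only [D]
  rw [show (fun y => f (x, y)) = f ∘ Prod.mk x from rfl, h]
  simp [ey]

theorem ker_zero {φ : X2 n → ℝ} {L : Op n ι} {K : Set (En n)}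
    {k : En n → HL n ι (Y0 p)} {G : En n → ι → En n → ℝ} (h : Ker φ L K p k G) :
    ∀ x, x ∉ K → k x = 0 := fun x hx => St1.hl_ext fun a => by
  filter_upwards [h.2.2.2.1 x a, cp_zero (U := Y0 p) a] with y h1 h2
  rw [h1, h2, h.2.2.1 x hx]
  simp

theorem sm_chi (δ : ℝ) : Sm (chi δ : En n → ℝ) :=
  Real.smoothTransition.contDiff.comp
    (((contDiff_norm_sq ℝ).sub contDiff_const).div_const δ)

theorem chi_mem (δ : ℝ) (x : En n) : 0 ≤ chi δ x ∧ chi δ x ≤ 1 :=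
  ⟨Real.smoothTransition.nonneg _, Real.smoothTransition.le_one _⟩

theorem chi_zero {δ : ℝ} (hδ : 0 < δ) {x : En n} (h : ‖x‖ ^ 2 ≤ 1 - 2 * δ) : chi δ x = 0 :=
  Real.smoothTransition.zero_of_nonpos (div_nonpos_of_nonpos_of_nonneg (by linarith) hδ.le)

theorem chi_one {δ : ℝ} (hδ : 0 < δ) {x : En n} (h : 1 - δ ≤ ‖x‖ ^ 2) : chi δ x = 1 :=
  Real.smoothTransition.one_of_one_le ((one_le_div hδ).2 (by linarith))

end lem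

end Vale.Agent.P088.Gain
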