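import Vale.Agent.P088.GnStm

/-!
# P088, the gain: weighted norm of functions vanishing to second order
-/

open MeasureTheory Set Metric Filter
open scoped ContDiff Topology InnerProductSpace

noncomputable section
namespace Vale.Agent.P088.Gain
open Vale.Agent.P136 (D Dp Dm Sm Tst)

namespace GnWc

theorem int_exp (n : ℕ) : Integrable fun w : En n => Real.exp (-‖w‖) := by
  refine ((integrable_one_add_norm (r := (n + 1 : ℕ)) (by simp)).const_mul
    (Real.exp 1 * (n + 1).factorial)).mono' (by fun_prop) (ae_of_all _ fun w => ?_)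
  have h := Real.pow_div_factorial_le_exp (1 + ‖w‖) (by positivity) (n + 1)
  rw [div_le_iff₀ (by positivity), Real.exp_add] at h
  rw [Real.norm_of_nonneg (Real.exp_pos _).le, Real.rpow_neg (by positivity), Real.rpow_natCast,
    Real.exp_neg, ← div_eq_mul_inv, inv_eq_one_div, div_le_div_iff₀ (Real.exp_pos _) (by positivity)]
  linarith

theorem near {φ l z C w : ℝ} (hC : 0 < C) (hz : 0 ≤ z)
    (h : (Real.exp l * z) ^ 2 / C + 2 * w * l - 2 * w * (Real.exp l * z) ≤ 2 * φ) :
    Real.exp (-(2 * φ)) * z ^ 4 ≤ 24 * Real.exp (C * (w + 1) ^ 2) *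
      (Real.exp (-((2 * w + 4) * l)) * Real.exp (-(Real.exp l * z))) := by
  have h1 := Real.pow_div_factorial_le_exp (Real.exp l * z) (by positivity) 4
  have h2 : z ^ 4 ≤ 24 * Real.exp (Real.exp l * z - 4 * l) := by
    rw [Real.exp_sub, ← mul_div_assoc, le_div_iff₀ (Real.exp_pos _),
      show 4 * l = (4 : ℕ) * l by norm_num, Real.exp_nat_mul]
    norm_num [Nat.factorial, mul_pow] at h1
    linarith
  refine (mul_le_mul_of_nonneg_left h2 (Real.exp_pos _).le).trans ?_
  rw [mul_left_comm, mul_assoc, ← Real.exp_add, ← Real.exp_add, ← Real.exp_add]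
  refine mul_le_mul_of_nonneg_left (Real.exp_le_exp.2 ?_) (by norm_num)
  generalize Real.exp l * z = t at h
  have h3 : 2 * (w + 1) * t ≤ t ^ 2 / C + C * (w + 1) ^ 2 := by
    rw [div_add' _ _ _ hC.ne', le_div_iff₀ hC]
    nlinarith [sq_nonneg (t - C * (w + 1))]
  linarith

theorem far {φ l z w : ℝ} {m : ℕ} (hl : 0 ≤ l) (hz : 0 ≤ z) (hz1 : z ≤ 1) (hm : 2 * w + 4 ≤ m)
    (h : Real.exp l ≤ φ) : Real.exp (-(2 * φ)) * z ^ 4 ≤ m.factorial *
      (Real.exp (-((2 * w + 4) * l)) * Real.exp (-(Real.exp l * z))) := by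
  have h1 := Real.pow_div_factorial_le_exp (Real.exp l) (by positivity) m
  rw [div_le_iff₀ (by positivity), ← Real.exp_nat_mul, mul_comm _ (m.factorial : ℝ)] at h1
  have h2 := mul_le_mul_of_nonneg_right h1 (Real.exp_pos (-(2 * φ) - m * l)).le
  rw [mul_assoc, ← Real.exp_add, ← Real.exp_add, add_sub_cancel] at h2
  refine (mul_le_of_le_one_right (Real.exp_pos _).le (pow_le_one₀ hz hz1)).trans (h2.trans ?_)
  rw [← Real.exp_add]
  refine mul_le_mul_of_nonneg_left (Real.exp_le_exp.2 ?_) (by positivity)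
  nlinarith [mul_le_of_le_one_right (Real.exp_pos l).le hz1, mul_le_mul_of_nonneg_right hm hl]

end GnWc

theorem g_wc (hau : G_au) (h0 : S_w0) (h2 : S_w2) : G_wc := by
  intro n ι f hf
  obtain ⟨C, hC, h2⟩ := h2 n ι f hf
  obtain ⟨m, hm⟩ := exists_nat_ge (2 * f.Cw + 4)
  obtain ⟨B, hB⟩ : ∃ B : ℝ, B = 24 * Real.exp (C * (f.Cw + 1) ^ 2) + m.factorial := ⟨_, rfl⟩
  have hB0 : 0 ≤ B := by rw [hB]; positivity
  have hI : 0 ≤ ∫ w : En n, Real.exp (-‖w‖) := integral_nonneg fun _ => (Real.exp_pos _).le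
  have hCw : 0 ≤ f.Cw := zero_le_one.trans hf.2.2.2.2.2.2.2.2.2.2.2.1
  have ht0 : 0 < f.t0 := hf.2.2.2.2.2.2.2.2.1
  refine ⟨B * ∫ w : En n, Real.exp (-‖w‖), mul_nonneg hB0 hI,
    (((h0 n ι f hf).and (h2 1 one_pos)).and (Ev.ok f one_pos 0)).mono ?_⟩
  rintro c ⟨⟨⟨-, wx, wp, -, wl⟩, w2⟩, -, hL, hsg, -, hp0, -⟩ x hx
  obtain ⟨a1, a2, -, a4, -⟩ := hau.1 f.K c.L0 c.sg c.J hL hsg
  have l0 : ∀ u, 0 ≤ u → 0 ≤ ell f.K c.L0 c.sg c.J u := fun u hu =>
    div_nonneg (Real.log_nonneg ((Real.one_le_exp (by linarith)).trans (a2 u hu))) zero_le_two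
  have hl : 0 ≤ lX f c x := l0 _ (sq_nonneg _)
  obtain ⟨x1, x2, x3, -⟩ := wx x
  rw [mem_ball_iff_norm] at hx
  have key : ∀ y ∈ Y0 c.p0, Real.exp (-(2 * phi f c (x, y))) * ‖y - x‖ ^ 4 ≤ B *
      (Real.exp (-((2 * f.Cw + 4) * lX f c x)) * Real.exp (-‖fX f c x • (y - x)‖)) := by
    intro y hy
    rw [Y0, mem_ball_iff_norm] at hy
    have hz : ‖y - x‖ ≤ 1 := by
      linarith [norm_sub_le_norm_sub_add_norm_sub y c.p0 x, norm_sub_rev c.p0 x]
    obtain ⟨-, b2, -, -, -, -, -, -, -, -, b11, -⟩ := w2 (x, y) ⟨by linarith, hy.le⟩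
    obtain ⟨q0, -, pF, -⟩ := wp (x, y)
    change ‖y - x‖ ^ 2 / 2 ≤ _ at q0
    have pQ : 0 ≤ QQ c (x, y) := le_trans (by positivity) q0
    have s0 : 0 < fX f c x := Real.exp_pos _
    rw [norm_smul, Real.norm_of_nonneg s0.le, hB, add_mul]
    rcases le_or_gt (QQ c (x, y)) (2 * f.t0 ^ 2) with h | h
    · refine le_add_of_le_of_nonneg (GnWc.near (zero_lt_one.trans_le hC) (norm_nonneg _) ?_)
        (by positivity)
      change (fX f c x * ‖y - x‖) ^ 2 / C + _ - 2 * f.Cw * (fX f c x * ‖y - x‖) ≤ _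
      have k1 : (fX f c x * ‖y - x‖) ^ 2 / C ≤ 2 * Psi f c (x, y) := by
        rw [div_le_iff₀ (by linarith), mul_pow, x3, Psi]
        have := mul_le_mul (b11 (Or.inl h)).2 q0 (by positivity) (by positivity)
        linarith
      have k2 : LX f c x ≤ fX f c x := by
        refine le_of_sq_le_sq ?_ s0.le
        rw [x3]
        exact (pow_le_pow_right₀ (hL.trans x2) (by norm_num)).trans (b2.trans (one_mul _).le)
      have k3 : ‖x‖ ^ 2 - 2 * ‖y - x‖ ≤ uu (x, y) := by
        have e : mid (x, y) - x = (1 / 2 : ℝ) • (y - x) := by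
          rw [mid]
          module
        have n1 := norm_sub_norm_le (mid (x, y)) x
        have n2 := norm_sub_norm_le x (mid (x, y))
        rw [norm_sub_rev x] at n2
        rw [e, norm_smul, Real.norm_of_nonneg (by norm_num)] at n1 n2
        have n3 := norm_sub_norm_le x c.p0
        rw [uu]
        nlinarith [norm_nonneg x, norm_nonneg (mid (x, y)), norm_nonneg (y - x)]
      have k4 : lX f c x - fX f c x * ‖y - x‖ ≤ lu f c (x, y) := by
        have := Real.log_le_log (mul_pos (a1 _) (Real.exp_pos _)) (a4 (‖x‖ ^ 2) (uu (x, y)))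
        rw [Real.log_mul (a1 _).ne' (Real.exp_pos _).ne', Real.log_exp] at this
        change _ + LX f c x * _ ≤ _ at this
        rw [lu, lX, ell, ell]
        nlinarith [mul_le_mul_of_nonneg_right k2 (norm_nonneg (y - x)),
          mul_le_mul_of_nonneg_left k3 (show 0 ≤ LX f c x by linarith)]
      have k5 : 0 ≤ ff f c (x, y) :=
        mul_nonneg (sub_nonneg.2 (Real.smoothTransition.le_one _)) s0.le
      rw [phi, ph0]
      nlinarith [mul_le_mul_of_nonneg_left k4 hCw]
    · refine le_add_of_nonneg_of_le (by positivity) (GnWc.far hl (norm_nonneg _) hz hm ?_)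
      have k1 : chf f c (x, y) = 1 := ((wl (x, y)).2.2.1 (by nlinarith)).self_of_nhds
      rw [phi, ph0, ff, k1, one_mul]
      exact le_add_of_nonneg_left (add_nonneg (mul_nonneg pQ pF.le)
        (mul_nonneg hCw (l0 _ (sq_nonneg _))))
  have hi : Integrable fun y : En n => B * (Real.exp (-((2 * f.Cw + 4) * lX f c x)) *
      Real.exp (-‖fX f c x • (y - x)‖)) :=
    ((((GnWc.int_exp n).comp_smul (Real.exp_pos _).ne').comp_sub_right x).const_mul _).const_mul _
  refine (integral_mono_of_nonneg (ae_of_all _ fun _ => by positivity) hi.integrableOn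
    ((ae_Y0 _).mono key)).trans ((setIntegral_le_integral hi
      (ae_of_all _ fun _ => by positivity)).trans (le_of_eq ?_))
  rw [integral_const_mul, integral_const_mul,
    integral_sub_right_eq_self (fun y : En n => Real.exp (-‖fX f c x • y‖)) x,
    Measure.integral_comp_smul volume (fun y : En n => Real.exp (-‖y‖)), finrank_euclideanSpace_fin,
    fX, ← Real.exp_nat_mul, ← Real.exp_neg, abs_of_pos (Real.exp_pos _), smul_eq_mul,
    ← mul_assoc (Real.exp _), ← Real.exp_add, mul_assoc B, mul_comm (Real.exp _)]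
  congr 3
  ring

end Vale.Agent.P088.Gain
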