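import Vale.Agent.P088.IdTool

/-!
# P088: Caccioppoli-type identities
-/

open MeasureTheory Set
open scoped ContDiff Topology

noncomputable section
namespace Vale.Agent.P088
open Vale.Agent.P136 IdT

theorem s_CI : S_CI := by
  intro X _ _ _ _ _ μ _ κ _ v γ φ u w hγ hs hφ hu hw
  have hX := sm_XX (v := v) hγ hφ
  have hρ := sm_rho (v := v) hγ hφ
  have hm := sm_dgd (v := v) hγ hφ
  have hw2 := sm_dgd (v := v) hγ hw
  have hL : Integrable (fun p => -(w p * u p * Lp' v γ φ u p)) μ :=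
    (Tst.mul_left (hw.mul hu.sm) (tst_Lp hγ hφ hu)).neg.integrable
  have z1 := exZ1 μ v hu fun i => hw.mul (hX i)
  have z2 := exZ2 μ v hγ hs hu hw
  refine ⟨?_, ?_, ?_, ?_⟩
  · rw [← integral_neg]
    refine z2.eq2 hL (Tst.mul_left ((((hw.cmul 2).mul hρ).add (hw.mul hm)).add (hw2.cmul (1 / 2)))
      hu.sq).integrable fun p => ?_
    rw [quad_Dm hs, Lp_eq hγ hs hφ hu.sm]
    ring
  · rw [← integral_neg]
    refine (z2.add (z1.cmul 2)).eq2 hL (Tst.mul_left (((((hw.cmul 2).mul hρ).sub (hw.mul hm)).sub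
      ((sm_dir hX hw).cmul 2)).add (hw2.cmul (1 / 2))) hu.sq).integrable fun p => ?_
    rw [quad_Dp hs, Lp_eq hγ hs hφ hu.sm, dir_smul, dvg_mul hw hX, dgd, dgd]
    ring
  · refine (z1.cmul (-1)).eq2
      (Tst.mul_left hw (tst_quad hγ (fun i => (hu.D _).sm) fun i => hu.D _)).integrable
      (Tst.mul_left ((hw.mul hρ).add (sm_dvg fun i => hw.mul (hX i))) hu.sq).integrable
      fun p => ?_
    rw [quad_Dm hs, quad_D, dir_smul]
    ring
  · rw [← integral_const_mul]
    refine ((exZ1 μ v hu hX).cmul (-2)).eq2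
      (tst_quad hγ (fun i => (Tst.Dp hφ hu _).sm) fun i => Tst.Dp hφ hu _).integrable
      ((Tst.mul_left hm hu.sq).const_mul 2).integrable fun p => ?_
    rw [quad_Dm hs, quad_Dp hs, dgd]
    ring

end Vale.Agent.P088
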