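import Vale.Agent.P088.IdTool

/-!
# P088: the Rellich identity and the diagonal identity
-/

open MeasureTheory Set
open scoped ContDiff Topology

noncomputable section
namespace Vale.Agent.P088
open Vale.Agent.P136 IdT

namespace IdDI

section pt
variable {X : Type} [NormedAddCommGroup X] [NormedSpace ℝ X] {κ : Type} [Fintype κ]
  {v : κ → X} {γ : κ → κ → X → ℝ} {φ f g u : X → ℝ} {Y P : κ → X → ℝ}

lemma D_Dp (hφ : Sm φ) (hu : Sm u) (a b p : X) :
    D a (Dp φ b u) p = D b (Dp φ a u) p + D b φ p * Dp φ a u p - D a φ p * Dp φ b u p := by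
  have e : ∀ a b, D a (Dp φ b u) p =
      D a (D b u) p + (D b φ p * D a u p + D a (D b φ) p * u p) := by
    intro a b
    unfold Dp
    rw [D_add_at ((hu.D b).dAt p) (((hφ.D b).mul hu).dAt p), D_mul_at ((hφ.D b).dAt p) (hu.dAt p)]
  rw [e, e, D_comm_at hu.contDiffAt a b, D_comm_at hφ.contDiffAt a b]
  simp only [Dp]
  ring

lemma alg1 {g : κ → κ → ℝ} (ξ φ' Y : κ → ℝ) (dY dξ : κ → κ → ℝ)
    (hc : ∀ i k, dξ i k = dξ k i + φ' k * ξ i - φ' i * ξ k) :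
    ∑ i, (∑ j, g i j * ξ j) * ∑ k, (Y k * dξ i k + dY i k * ξ k) =
      (∑ i, ∑ j, ∑ k, g i j * dY i k * ξ j * ξ k) +
        (∑ i, (∑ j, g i j * ξ j) * ∑ k, Y k * dξ k i) +
        (∑ k, Y k * φ' k) * (∑ i, ∑ j, g i j * ξ i * ξ j) -
        (∑ i, φ' i * ∑ j, g i j * ξ j) * ∑ k, Y k * ξ k := by
  have e : ∀ i, ∑ k, (Y k * dξ i k + dY i k * ξ k) = (∑ k, dY i k * ξ k) +
      (∑ k, Y k * dξ k i) + (∑ k, Y k * φ' k) * ξ i - φ' i * ∑ k, Y k * ξ k := by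
    intro i
    simp only [Finset.mul_sum, Finset.sum_mul, ← Finset.sum_add_distrib, ← Finset.sum_sub_distrib]
    exact Finset.sum_congr rfl fun k _ => by rw [hc i k]; ring
  have e2 : ∀ i, ∑ j, ∑ k, g i j * dY i k * ξ j * ξ k =
      (∑ j, g i j * ξ j) * ∑ k, dY i k * ξ k := by
    intro i
    rw [Finset.sum_mul_sum]
    exact Finset.sum_congr rfl fun j _ => Finset.sum_congr rfl fun k _ => by ring
  rw [quad_eq, Finset.mul_sum _ (fun i => ξ i * ∑ j, g i j * ξ j),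
    Finset.sum_mul _ (fun i => φ' i * ∑ j, g i j * ξ j), ← Finset.sum_add_distrib, ← Finset.sum_add_distrib, ← Finset.sum_sub_distrib]
  exact Finset.sum_congr rfl fun i _ => by rw [e, e2]; ring

lemma alg2 {g : κ → κ → ℝ} (hs : ∀ i j, g i j = g j i) (ξ η : κ → ℝ) (c : κ → κ → ℝ) :
    ∑ i, ∑ j, (ξ i * ξ j * c i j + g i j * (ξ i * η j + η i * ξ j)) =
      (∑ i, ∑ j, c i j * ξ i * ξ j) + 2 * ∑ i, (∑ j, g i j * ξ j) * η i := by
  have e1 : ∑ i, (∑ j, g i j * ξ j) * η i = ∑ i, ∑ j, g i j * (η i * ξ j) := by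
    simp only [Finset.sum_mul]
    exact Finset.sum_congr rfl fun i _ => Finset.sum_congr rfl fun j _ => by ring
  have e2 : ∑ i, (∑ j, g i j * ξ j) * η i = ∑ i, ∑ j, g i j * (ξ i * η j) := by
    rw [e1, Finset.sum_comm]
    exact Finset.sum_congr rfl fun i _ => Finset.sum_congr rfl fun j _ => by rw [hs j i]; ring
  rw [two_mul]
  nth_rewrite 1 [e2]
  rw [e1]
  simp only [← Finset.sum_add_distrib]
  exact Finset.sum_congr rfl fun i _ => Finset.sum_congr rfl fun j _ => by ring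

/-- the right hand side of the Rellich identity -/
def rl (v : κ → X) (γ : κ → κ → X → ℝ) (φ u : X → ℝ) (Y : κ → X → ℝ) (p : X) : ℝ :=
  2 * (∑ i, XX v γ φ i p * Dp φ (v i) u p) * (∑ k, Y k p * Dp φ (v k) u p) -
    (∑ i, ∑ j, ∑ k, γ i j p * D (v i) (Y k) p * Dp φ (v j) u p * Dp φ (v k) u p) +
    1 / 2 * (∑ i, ∑ j, dvg v (fun l q => γ i j q * Y l q) p * Dp φ (v i) u p * Dp φ (v j) u p) -
    dir v Y φ p * ∑ i, ∑ j, γ i j p * Dp φ (v i) u p * Dp φ (v j) u p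

lemma rl_pt (hγ : SmM γ) (hs : SymM γ) (hφ : Sm φ) (hu : Tst u) (hY : ∀ i, Sm (Y i)) (p : X) :
    Lp' v γ φ u p * ∑ k, Y k p * Dp φ (v k) u p = rl v γ φ u Y p +
      (dvg v (fun i q => (∑ k, Y k q * Dp φ (v k) u q) * ∑ j, γ i j q * Dp φ (v j) u q) p -
        1 / 2 * ∑ i, ∑ j,
          dvg v (fun l q => Dp φ (v i) u q * Dp φ (v j) u q * (γ i j q * Y l q)) p) := by
  have hξ : ∀ k, Sm (Dp φ (v k) u) := fun k => hφ.Dp hu.sm _
  have hA := fun i => (tst_Zp (v := v) hγ hφ hu i).sm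
  have hB : Sm fun q => ∑ k, Y k q * Dp φ (v k) u q := Sm.sum fun k _ => (hY k).mul (hξ k)
  have p1 : Lp' v γ φ u p = dvg v (fun i q => ∑ j, γ i j q * Dp φ (v j) u q) p +
      ∑ i, D (v i) φ p * ∑ j, γ i j p * Dp φ (v j) u p := by
    rw [dvg, ← Finset.sum_add_distrib]
    rfl
  have p2 : dir v (fun i q => ∑ j, γ i j q * Dp φ (v j) u q)
      (fun q => ∑ k, Y k q * Dp φ (v k) u q) p = _ :=
    Eq.trans (Finset.sum_congr rfl fun i _ => by
      rw [D_sum_at _ fun k _ => ((hY k).mul (hξ k)).dAt p,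
        Finset.sum_congr rfl fun k _ => D_mul_at ((hY k).dAt p) ((hξ k).dAt p) (v i)])
    (alg1 (g := fun i j => γ i j p) (fun k => Dp φ (v k) u p) (fun k => D (v k) φ p)
      (fun k => Y k p) (fun i k => D (v i) (Y k) p) (fun i k => D (v i) (Dp φ (v k) u) p)
      fun i k => D_Dp hφ hu.sm _ _ p)
  have p3 : ∑ i, ∑ j, dvg v (fun l q => Dp φ (v i) u q * Dp φ (v j) u q * (γ i j q * Y l q)) p =
      _ := Eq.trans (Finset.sum_congr rfl fun i _ => Finset.sum_congr rfl fun j _ => by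
      rw [dvg_mul ((hξ i).mul (hξ j)) fun l => (hγ i j).mul (hY l), dir_smul,
        dir_mul (hξ i) (hξ j)])
    (alg2 (sym_at hs p) (fun k => Dp φ (v k) u p) (fun k => dir v Y (Dp φ (v k) u) p)
      fun i j => dvg v (fun l q => γ i j q * Y l q) p)
  have p4 := swap2 (sym_at hs p) (fun k => D (v k) φ p) (fun k => Dp φ (v k) u p)
  rw [p1, dvg_mul hB hA, p2, p3, rl]
  simp only [XX, dir] at p4 ⊢
  rw [← p4]
  ring

lemma tst_rl (hγ : SmM γ) (hφ : Sm φ) (hu : Tst u) (hY : ∀ i, Sm (Y i)) : Tst (rl v γ φ u Y) := by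
  have hξ : ∀ k, Tst (Dp φ (v k) u) := fun k => Tst.Dp hφ hu _
  refine Tst.sub (Tst.add (Tst.sub (Tst.mul_left (Sm.cmul 2 (Sm.sum fun i _ =>
    (sm_XX hγ hφ i).mul (hξ i).sm)) (Tst.sum _ fun k _ => Tst.mul_left (hY k) (hξ k)))
    (Tst.sum _ fun i _ => tst_quad (c := fun j k p => γ i j p * D (v i) (Y k) p)
      (fun j k => (hγ i j).mul ((hY k).D _)) (fun j => (hξ j).sm) hξ))
    ((tst_quad (fun i j => sm_dvg fun l => (hγ i j).mul (hY l)) (fun j => (hξ j).sm) hξ).const_mul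
      _)) (Tst.mul_left (sm_dir hY hφ) (tst_quad hγ (fun j => (hξ j).sm) hξ))

/-- the first quadratic form of the Rellich identity -/
def qR (v : κ → X) (γ : κ → κ → X → ℝ) (Y : κ → X → ℝ) (p : X) (a : κ → ℝ) : ℝ :=
  ∑ i, ∑ j, ∑ k, γ i j p * D (v i) (Y k) p * a j * a k

/-- the second quadratic form of the Rellich identity -/
def qV (v : κ → X) (γ : κ → κ → X → ℝ) (Y : κ → X → ℝ) (p : X) (a : κ → ℝ) : ℝ :=
  ∑ i, ∑ j, dvg v (fun l q => γ i j q * Y l q) p * a i * a j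

lemma qV_eq (hγ : SmM γ) (hY : ∀ i, Sm (Y i)) (p : X) (a : κ → ℝ) :
    qV v γ Y p a = dvg v Y p * (∑ i, ∑ j, γ i j p * a i * a j) +
      ∑ i, ∑ j, dir v Y (γ i j) p * a i * a j := by
  simp only [qV, dvg_mul (hγ _ _) hY, Finset.mul_sum, ← Finset.sum_add_distrib]
  exact Finset.sum_congr rfl fun i _ => Finset.sum_congr rfl fun j _ => by ring

lemma qR_eq (hs : SymM γ) (p : X) (a : κ → ℝ) :
    qR v γ Y p a = ∑ i, ∑ k, (∑ j, γ i j p * D (v j) (Y k) p) * a i * a k := by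
  simp only [qR, Finset.sum_mul]
  rw [Finset.sum_comm]
  refine Finset.sum_congr rfl fun i _ => ?_
  rw [Finset.sum_comm]
  exact Finset.sum_congr rfl fun k _ => Finset.sum_congr rfl fun j _ => by rw [sym_at hs p j i]

lemma Q_eq (hs : SymM γ) (p : X) (a : κ → ℝ) :
    ∑ i, ∑ k, Qco v γ φ P i k p * a i * a k =
      8 * qR v γ (XX v γ φ) p a - 4 * (∑ i, ∑ j, dir v (XX v γ φ) (γ i j) p * a i * a j) +
        8 * dir v P φ p * (∑ i, ∑ j, γ i j p * a i * a j) -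
        16 * ((∑ i, XX v γ φ i p * a i) * ∑ k, P k p * a k) + 8 * qR v γ P p a -
        4 * qV v γ P p a := by
  rw [qR_eq hs, qR_eq hs, qV, Finset.sum_mul_sum]
  simp only [Qco]
  generalize dir v P φ p = π
  simp only [Finset.mul_sum (s := Finset.univ) (a := (8 : ℝ)) (f := fun i => ∑ k, _ * a i * a k),
    Finset.mul_sum (s := Finset.univ) (a := (8 : ℝ)) (f := fun k => _ * a k),
    Finset.mul_sum (s := Finset.univ) (a := (4 : ℝ)),
    Finset.mul_sum (s := Finset.univ) (a := (16 : ℝ)),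
    Finset.mul_sum (s := Finset.univ) (a := 8 * π),
    ← Finset.sum_add_distrib, ← Finset.sum_sub_distrib]
  exact Finset.sum_congr rfl fun i _ => Finset.sum_congr rfl fun k _ => by ring

lemma qR_phi (hs : SymM γ) (p : X) :
    qR v γ Y p (fun i => D (v i) φ p) = ∑ k, dir v (XX v γ φ) (Y k) p * D (v k) φ p := by
  rw [qR_eq hs, Finset.sum_comm]
  refine Finset.sum_congr rfl fun k _ => ?_
  rw [← Finset.sum_mul, dir_XX hs]
  rfl

lemma dir_rho (hγ : SmM γ) (hs : SymM γ) (hφ : Sm φ) (Y : κ → X → ℝ) (p : X) :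
    dir v Y (dir v (XX v γ φ) φ) p = 2 * (∑ k, dir v Y (XX v γ φ k) p * D (v k) φ p) -
      ∑ i, ∑ j, dir v Y (γ i j) p * D (v i) φ p * D (v j) φ p := by
  have h1 : dir v Y (dir v (XX v γ φ) φ) p = ∑ k, (XX v γ φ k p * dir v Y (D (v k) φ) p +
      dir v Y (XX v γ φ k) p * D (v k) φ p) := by
    rw [show dir v (XX v γ φ) φ = fun q => ∑ k, XX v γ φ k q * D (v k) φ q from rfl,
      dir_sum _ fun k _ => (sm_XX hγ hφ k).mul (hφ.D _)]
    exact Finset.sum_congr rfl fun k _ => dir_mul (sm_XX hγ hφ k) (hφ.D _) p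
  have h2 : ∀ k, dir v Y (XX v γ φ k) p = (∑ l, γ k l p * dir v Y (D (v l) φ) p) +
      ∑ l, dir v Y (γ k l) p * D (v l) φ p := by
    intro k
    rw [show XX v γ φ k = fun q => ∑ l, γ k l q * D (v l) φ q from rfl,
      dir_sum _ fun l _ => (hγ k l).mul (hφ.D _), ← Finset.sum_add_distrib]
    exact Finset.sum_congr rfl fun l _ => dir_mul (hγ k l) (hφ.D _) p
  have h3 : ∑ k, dir v Y (XX v γ φ k) p * D (v k) φ p =
      (∑ k, XX v γ φ k p * dir v Y (D (v k) φ) p) +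
        ∑ i, ∑ j, dir v Y (γ i j) p * D (v i) φ p * D (v j) φ p := by
    rw [quad_eq, show ∑ k, XX v γ φ k p * dir v Y (D (v k) φ) p = _ from
      (swap2 (sym_at hs p) (fun k => D (v k) φ p) fun k => dir v Y (D (v k) φ) p).symm,
      ← Finset.sum_add_distrib]
    exact Finset.sum_congr rfl fun k _ => by rw [h2]; ring
  rw [h1, Finset.sum_add_distrib, h3]
  ring

lemma sm_Qco (hγ : SmM γ) (hφ : Sm φ) (hP : ∀ i, Sm (P i)) (i k : κ) : Sm (Qco v γ φ P i k) := by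
  have hX := sm_XX (v := v) hγ hφ
  exact ((((((Sm.sum fun j _ => (hγ i j).mul ((hX k).D _)).cmul 8).sub
    ((sm_dir hX (hγ i k)).cmul 4)).add (((sm_dir hP hφ).cmul 8).mul (hγ i k))).sub
    (((hX i).cmul 16).mul (hP k))).add
    ((Sm.sum fun j _ => (hγ i j).mul ((hP k).D _)).cmul 8)).sub
    ((sm_dvg fun l => (hγ i k).mul (hP l)).cmul 4)

lemma sm_W (hγ : SmM γ) (hφ : Sm φ) (hP : ∀ i, Sm (P i)) (k : κ) :
    Sm fun q => ∑ i, (Qco v γ φ P i k q + Qco v γ φ P k i q) * D (v i) φ q :=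
  Sm.sum fun i _ => ((sm_Qco hγ hφ hP i k).add (sm_Qco hγ hφ hP k i)).mul (hφ.D _)

lemma sm_cco (hγ : SmM γ) (hφ : Sm φ) (hP : ∀ i, Sm (P i)) : Sm (cco v γ φ P) := by
  have hX := sm_XX (v := v) hγ hφ
  have hρ := sm_dir (v := v) hX hφ
  have hπ := sm_dir (v := v) hP hφ
  have hm := sm_dgd (v := v) hγ hφ
  exact (((((((((sm_dvg (sm_W hγ hφ hP)).cmul (1 / 2)).add
    ((Sm.sum fun k _ => (sm_dir hX (hP k)).mul (hφ.D _)).cmul 8)).sub
    (((sm_dvg hP).cmul 8).mul hρ)).sub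
    ((Sm.sum fun i _ => Sm.sum fun k _ =>
      ((sm_dir hP (hγ i k)).mul (hφ.D _)).mul (hφ.D _)).cmul 4)).sub
    ((sm_dir hP hρ).cmul 4)).sub ((sm_dir hX hπ).cmul 8)).add ((sm_dgd hγ hm).cmul 2)).sub
    ((sm_dvg fun l => hm.mul (hP l)).cmul 4)).add ((sm_dgd hγ hπ).cmul 4)

lemma Nop_eq (p : X) : Nop v φ P u p = 4 * dir v P u p + 4 * dir v P φ p * u p := by
  simp only [Nop, Dp, dir, Finset.mul_sum, Finset.sum_mul, ← Finset.sum_add_distrib]
  exact Finset.sum_congr rfl fun i _ => by ring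

lemma Q_Dm (p : X) : ∑ i, ∑ k, Qco v γ φ P i k p * Dm φ (v i) u p * Dm φ (v k) u p =
    (∑ i, ∑ k, Qco v γ φ P i k p * D (v i) u p * D (v k) u p) -
      u p * dir v (fun k q => ∑ i, (Qco v γ φ P i k q + Qco v γ φ P k i q) * D (v i) φ q) u p +
      (∑ i, ∑ k, Qco v γ φ P i k p * D (v i) φ p * D (v k) φ p) * u p ^ 2 := by
  have := quad_expand (fun i k => Qco v γ φ P i k p) (fun i => D (v i) u p)
    (fun i => D (v i) φ p) (-1) (u p)
  simp only [neg_one_mul] at this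
  simp only [Dm, dir]
  rw [this]
  ring

end pt

section ex
variable {X : Type} [NormedAddCommGroup X] [NormedSpace ℝ X] [FiniteDimensional ℝ X]
  [MeasurableSpace X] [BorelSpace X] (μ : Measure X) [μ.IsAddHaarMeasure] {κ : Type} [Fintype κ]
  {v : κ → X} {γ : κ → κ → X → ℝ} {φ u : X → ℝ} {Y : κ → X → ℝ}

lemma exRL (v : κ → X) (hγ : SmM γ) (hs : SymM γ) (hφ : Sm φ) (hu : Tst u)
    (hY : ∀ i, Sm (Y i)) :
    Ex μ fun p => Lp' v γ φ u p * (∑ k, Y k p * Dp φ (v k) u p) - rl v γ φ u Y p := by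
  have hξ : ∀ k, Tst (Dp φ (v k) u) := fun k => Tst.Dp hφ hu _
  refine ((exDvg μ v fun i => Tst.mul_left (Sm.sum (s := Finset.univ) fun k _ =>
    (hY k).mul (hξ k).sm) (tst_Zp (v := v) hγ hφ hu i)).sub ((Ex.sum fun i => Ex.sum fun j =>
      exDvg μ v fun l => ((hξ i).mul_right (hξ j).sm).mul_right
        ((hγ i j).mul (hY l))).cmul (1 / 2))).congr fun p => ?_
  rw [rl_pt hγ hs hφ hu hY]
  ring

lemma exZ3 (v : κ → X) (hγ : SmM γ) (hs : SymM γ) (hu : Tst u) (hY : ∀ i, Sm (Y i)) :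
    Ex μ fun p => dgd v γ u p * dir v Y u p + qR v γ Y p (fun i => D (v i) u p) -
      1 / 2 * qV v γ Y p fun i => D (v i) u p := by
  refine (exRL μ v hγ hs (Sm.const 0) hu hY).congr fun p => ?_
  have e : ∀ (w : X) (f : X → ℝ), Dp (fun _ => 0) w f = D w f := by
    intro w f
    funext q
    simp only [Dp, D_const, zero_mul, add_zero]
  simp only [Lp', rl, e, XX, dir, D_const, mul_zero, Finset.sum_const_zero, zero_mul, qR, qV, dgd,
    dvg]
  unfold XX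
  ring

end ex

end IdDI

open IdDI

theorem s_RL : S_RL := by
  intro X _ _ _ _ _ μ _ κ _ v γ φ u Y hγ hs hφ hu hY
  exact (exRL μ v hγ hs hφ hu hY).eq (tst_rl hγ hφ hu hY).integrable fun p => by
    unfold rl
    ring

theorem s_DI : S_DI := by
  intro X _ _ _ _ _ μ _ κ _ v γ φ u P hγ hs hφ hu hP
  have hX := sm_XX (v := v) hγ hφ
  have hρ := sm_rho (v := v) hγ hφ
  have hm := sm_dgd (v := v) hγ hφ
  have hπ := sm_dir (v := v) hP hφ
  have hN : Tst (Nop v φ P u) :=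
    (Tst.sum _ fun i _ => Tst.mul_left (hP i) (Tst.Dp hφ hu _)).const_mul 4
  have i1 := ((tst_Lp (v := v) hγ hφ hu).add hN).sq.integrable (μ := μ)
  have i2 := hN.sq.integrable (μ := μ)
  have i3 := (tst_quad (sm_Qco (v := v) hγ hφ hP) (fun i => (Tst.Dm hφ hu (v i)).sm)
    fun i => Tst.Dm hφ hu (v i)).integrable (μ := μ)
  have i4 := (Tst.mul_left (sm_cco (v := v) hγ hφ hP) hu.sq).integrable (μ := μ)
  have z := ((((((((exZ3 μ v hγ hs hu hX).cmul (-8)).add ((exZ2 μ v hγ hs hu hm).cmul (-4))).add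
    ((exZ1 μ v hu fun i => hρ.mul (hX i)).cmul (-4))).add ((exZ3 μ v hγ hs hu hP).cmul (-8))).add
    ((exZ2 μ v hγ hs hu hπ).cmul (-8))).add ((exZ1 μ v hu fun i => hπ.mul (hX i)).cmul (-8))).add
    (((exZ1 μ v hu fun i => hm.mul (hP i)).add (exZ1 μ v hu fun i => hρ.mul (hP i))).cmul
      (-4))).add ((exZ1 μ v hu (sm_W (v := v) hγ hφ hP)).cmul (1 / 2))
  rw [← integral_sub i1 i2, ← integral_add (isub i1 i2) i3,
    ← integral_sub (iadd (isub i1 i2) i3) i4]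
  refine z.eq (isub (iadd (isub i1 i2) i3) i4) fun p => ?_
  have e1 := dir_rho (v := v) hγ hs hφ (XX v γ φ) p
  rw [Lm_eq hγ hs hφ hu.sm, Lp_eq hγ hs hφ hu.sm, Nop_eq, Q_Dm, Q_eq hs, Q_eq hs, cco,
    qR_phi (φ := φ) hs, qR_phi (φ := φ) hs, qV_eq hγ hX,
    qV_eq (a := fun i => D (v i) φ p) hγ hP, quad_D (γ := γ) (f := u),
    quad_D (γ := γ) (f := φ),
    dvg_mul hρ hX, dvg_mul hπ hX, dvg_mul hρ hP, dir_smul, dir_smul, dir_smul, dir_smul]
  simp only [rho, dgd] at e1 ⊢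
  rw [e1]
  simp only [← dir.eq_1]
  ring

end Vale.Agent.P088
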