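import Vale.Agent.P088.IdTool

/-!
# P088: the mixed identities
-/

open MeasureTheory Set
open scoped ContDiff Topology

noncomputable section
namespace Vale.Agent.P088
open Vale.Agent.P136 IdT

namespace IdMI

section pt
variable {X : Type} [NormedAddCommGroup X] [NormedSpace ℝ X] {κ : Type} [Fintype κ]
  {v w : κ → X} {γ γ₂ : κ → κ → X → ℝ} {φ f g q b : X → ℝ}

/-- the commutator term -/
def kk (v : κ → X) (γ : κ → κ → X → ℝ) (φ g : X → ℝ) (z : X) (p : X) : ℝ :=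
  4 * (∑ i, D z (D (v i) φ) p * Zm v γ φ g i p) - 2 * dgd v γ (D z φ) p * g p

/-- the term with the derivative of the coefficients -/
def ez (v : κ → X) (γ : κ → κ → X → ℝ) (φ g : X → ℝ) (z : X) (i : κ) (p : X) : ℝ :=
  ∑ j, D z (γ i j) p * Dm φ (v j) g p

lemma tst_kk (hγ : SmM γ) (hφ : Sm φ) (hg : Tst g) (z : X) : Tst (kk v γ φ g z) :=
  ((Tst.sum _ fun i _ => Tst.mul_left ((hφ.D _).D z) (tst_Zm hγ hφ hg i)).const_mul 4).sub
    (Tst.mul_left ((sm_dgd hγ (hφ.D z)).cmul 2) hg)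

lemma tst_ez (hγ : SmM γ) (hφ : Sm φ) (hg : Tst g) (z : X) (i : κ) : Tst (ez v γ φ g z i) :=
  Tst.sum _ fun j _ => Tst.mul_left ((hγ i j).D z) (Tst.Dm hφ hg _)

lemma Dp_Zm (hγ : SmM γ) (hφ : Sm φ) (hg : Sm g) (z : X) (i : κ) (p : X) :
    Dp φ z (Zm v γ φ g i) p = Zm v γ φ (Dp φ z g) i p +
      (2 * XX v γ (D z φ) i p * g p + ez v γ φ g z i p) := by
  rw [show Zm v γ φ g i = fun p => ∑ j, γ i j p * Dm φ (v j) g p from rfl,
    Dp_sum _ fun j _ => (hγ i j).mul (hφ.Dm hg _)]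
  simp only [Zm, XX, ez, Finset.mul_sum, Finset.sum_mul, ← Finset.sum_add_distrib]
  refine Finset.sum_congr rfl fun j _ => ?_
  rw [Dp_mul (hγ i j) (hφ.Dm hg _), Dp_Dm hφ hg, D_comm hφ (v j) z]
  ring

lemma Dp_Lm (hγ : SmM γ) (hs : SymM γ) (hφ : Sm φ) (hg : Tst g) (z p : X) :
    Dp φ z (Lm v γ φ g) p = Lm v γ φ (Dp φ z g) p + kk v γ φ g z p +
      ∑ i, Dm φ (v i) (ez v γ φ g z i) p := by
  have hZ := fun i => (tst_Zm (v := v) hγ hφ hg i).sm
  have hM := fun i => (sm_XX (v := v) hγ (hφ.D z) i).cmul 2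
  have e1 : ∀ i, Dp φ z (Dm φ (v i) (Zm v γ φ g i)) p =
      Dm φ (v i) (Zm v γ φ (Dp φ z g) i) p + Dm φ (v i) (ez v γ φ g z i) p +
        2 * (Dm φ (v i) g p * XX v γ (D z φ) i p) - 2 * (D (v i) (XX v γ (D z φ) i) p * g p) +
        2 * (D z (D (v i) φ) p * Zm v γ φ g i p) := by
    intro i
    rw [Dp_Dm hφ (hZ i), funext (Dp_Zm hγ hφ hg.sm z i),
      Dm_add (tst_Zm hγ hφ (Tst.Dp hφ hg z) i).sm
        (((hM i).mul hg.sm).add (tst_ez hγ hφ hg z i).sm),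
      Dm_add ((hM i).mul hg.sm) (tst_ez hγ hφ hg z i).sm, Dm_mul (hM i) hg.sm]
    beta_reduce
    rw [D_const_mul_at ((sm_XX hγ (hφ.D z) i).dAt p)]
    ring
  have e2 : ∑ i, Dm φ (v i) g p * XX v γ (D z φ) i p =
      ∑ i, D z (D (v i) φ) p * Zm v γ φ g i p := by
    simp only [XX]
    rw [swap2 (sym_at hs p)]
    exact Finset.sum_congr rfl fun i _ => by rw [D_comm hφ (v i) z, mul_comm]; rfl
  rw [show Lm v γ φ g = fun p => ∑ i, Dm φ (v i) (Zm v γ φ g i) p from rfl,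
    Dp_sum _ fun i _ => hφ.Dm (hZ i) _]
  simp only [e1, Finset.sum_add_distrib, Finset.sum_sub_distrib, ← Finset.mul_sum,
    ← Finset.sum_mul, e2, kk, Lm, dgd, dvg]
  ring

lemma Lp_mul (hγ : SmM γ) (hs : SymM γ) (hφ : Sm φ) (hb : Sm b) (hq : Sm q) (p : X) :
    Lp' v γ φ (fun p => b p * q p) p = b p * Lp' v γ φ q p +
      2 * (∑ i, XX v γ b i p * Dp φ (v i) q p) + dgd v γ b p * q p := by
  have e1 : dgd v γ (fun p => b p * q p) p =
      b p * dgd v γ q p + 2 * dir v (XX v γ b) q p + dgd v γ b p * q p := by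
    have e : XX v γ (fun p => b p * q p) = fun i p => b p * XX v γ q i p + q p * XX v γ b i p := by
      funext i p
      simp only [XX, D_mul_at (hb.dAt p) (hq.dAt p), Finset.mul_sum, ← Finset.sum_add_distrib]
      exact Finset.sum_congr rfl fun j _ => by ring
    have e' : dgd v γ (fun p => b p * q p) p = dvg v (fun i p => b p * XX v γ q i p) p +
        dvg v (fun i p => q p * XX v γ b i p) p := by
      rw [dgd, e, dvg, dvg, dvg, ← Finset.sum_add_distrib]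
      exact Finset.sum_congr rfl fun i _ => D_add_at ((hb.mul (sm_XX hγ hq i)).dAt p)
        ((hq.mul (sm_XX hγ hb i)).dAt p) _
    rw [e', dvg_mul hb (sm_XX hγ hq), dvg_mul hq (sm_XX hγ hb), dir_XX (f := q) (g := b) hs, dgd,
      dgd]
    ring
  have e2 : ∑ i, XX v γ b i p * Dp φ (v i) q p =
      dir v (XX v γ b) q p + dir v (XX v γ b) φ p * q p := by
    simp only [Dp, dir, Finset.sum_mul, ← Finset.sum_add_distrib]
    exact Finset.sum_congr rfl fun i _ => by ring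
  rw [Lp_eq hγ hs hφ (hb.mul hq), Lp_eq hγ hs hφ hq, e1, e2, dir_mul hb hq,
    dir_XX (f := φ) (g := b) hs]
  ring

lemma Lp_mul0 (hγ : SmM γ) (hs : SymM γ) (hφ : Sm φ) (hb : Sm b) (hq : Sm q)
    (h0 : ∀ i p, D (v i) b p = 0) (p : X) :
    Lp' v γ φ (fun p => b p * q p) p = b p * Lp' v γ φ q p := by
  have e : XX v γ b = fun _ _ => 0 := by
    funext i p
    simp only [XX, h0, mul_zero, Finset.sum_const_zero]
  rw [Lp_mul hγ hs hφ hb hq, dgd, e]
  simp only [dvg, D_const, zero_mul, Finset.sum_const_zero, mul_zero, add_zero]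

lemma Lp_sum (hγ : SmM γ) (hφ : Sm φ) {F : κ → X → ℝ} (hF : ∀ j, Tst (F j)) (p : X) :
    Lp' v γ φ (fun q => ∑ j, F j q) p = ∑ j, Lp' v γ φ (F j) p := by
  have e : ∀ i, (fun p => ∑ j, γ i j p * Dp φ (v j) (fun q => ∑ l, F l q) p) =
      fun p => ∑ l, ∑ j, γ i j p * Dp φ (v j) (F l) p := by
    intro i
    funext p
    simp only [Dp_sum _ fun l _ => (hF l).sm, Finset.mul_sum]
    exact Finset.sum_comm
  simp only [Lp', e]
  rw [Finset.sum_comm]
  exact Finset.sum_congr rfl fun i _ => Dp_sum _ (fun l _ => (tst_Zp hγ hφ (hF l) i).sm) _ p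

lemma Zm_sum {c F : κ → X → ℝ} (hc : ∀ j, Sm (c j)) (hF : ∀ j, Sm (F j))
    (h0 : ∀ a i p, D (v i) (c a) p = 0) (i : κ) (p : X) :
    Zm v γ φ (fun q => ∑ a, c a q * F a q) i p = ∑ a, c a p * Zm v γ φ (F a) i p := by
  simp only [Zm, Dm_sum _ fun a _ => (hc a).mul (hF a), Dm_mul (hc _) (hF _), h0, zero_mul,
    sub_zero, Finset.mul_sum]
  rw [Finset.sum_comm]
  exact Finset.sum_congr rfl fun a _ => Finset.sum_congr rfl fun j _ => by ring

lemma alg1 {c : κ → κ → ℝ} (hs : ∀ i j, c i j = c j i) (F A M : κ → κ → ℝ) (x : ℝ) :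
    ∑ b, ∑ i, F b i * ∑ a, c b a * (A a i - 2 * M a i * x) =
      (∑ i, ∑ a, A a i * ∑ b, c a b * F b i) -
        2 * (∑ i, ∑ a, M a i * ∑ b, c a b * F b i) * x := by
  rw [Finset.sum_comm]
  simp only [Finset.mul_sum, Finset.sum_mul, ← Finset.sum_sub_distrib]
  refine Finset.sum_congr rfl fun i _ => ?_
  rw [Finset.sum_comm]
  exact Finset.sum_congr rfl fun a _ => Finset.sum_congr rfl fun b _ => by rw [hs b a]; ring

lemma alg2 {c e : κ → κ → ℝ} (hs : ∀ i j, e i j = e j i) (F : κ → κ → ℝ) :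
    ∑ i, ∑ a, (∑ j, e i j * F a j) * ∑ b, c a b * F b i =
      ∑ i, ∑ j, ∑ a, ∑ b, e i j * c a b * F a i * F b j := by
  rw [Finset.sum_comm (f := fun i j => ∑ a, ∑ b, e i j * c a b * F a i * F b j)]
  refine Finset.sum_congr rfl fun i _ => ?_
  rw [Finset.sum_comm (f := fun j a => ∑ b, e j i * c a b * F a j * F b i)]
  refine Finset.sum_congr rfl fun a _ => ?_
  rw [Finset.sum_mul_sum]
  exact Finset.sum_congr rfl fun j _ => Finset.sum_congr rfl fun b _ => by rw [hs j i]; ring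

end pt

section ex
variable {X : Type} [NormedAddCommGroup X] [NormedSpace ℝ X] [FiniteDimensional ℝ X]
  [MeasurableSpace X] [BorelSpace X] (μ : Measure X) [μ.IsAddHaarMeasure] {κ : Type} [Fintype κ]
  {γ : κ → κ → X → ℝ} {φ f g h : X → ℝ}

lemma exL (v : κ → X) (hγ : SmM γ) (hs : SymM γ) (hφ : Sm φ) (hf : Tst f) (hh : Tst h) :
    Ex μ fun p => Lm v γ φ f p * h p - f p * Lp' v γ φ h p := by
  refine (((Ex.sum fun i => exAdj μ φ hh (tst_Zm (v := v) hγ hφ hf i).sm (v i)).add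
    (Ex.sum fun i => exAdj μ φ (tst_Zp (v := v) hγ hφ hh i) hf.sm (v i))).cmul (-1)).congr
    fun p => ?_
  have e := swap2 (sym_at hs p) (fun i => Dp φ (v i) h p) fun j => Dm φ (v j) f p
  simp only [Finset.sum_sub_distrib, ← Finset.mul_sum, ← Finset.sum_mul]
  rw [← e]
  simp only [Lm, Lp', Zm]
  ring

lemma exK (v : κ → X) (hγ : SmM γ) (hs : SymM γ) (hφ : Sm φ) (hg : Tst g) (hh : Tst h) (z : X) :
    Ex μ fun p => Lm v γ φ g p * Dm φ z h p - Dp φ z g p * Lp' v γ φ h p -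
      kk v γ φ g z p * h p - ∑ i, Dp φ (v i) h p * ez v γ φ g z i p := by
  refine (((exL μ v hγ hs hφ (Tst.Dp hφ hg z) hh).sub
    (exAdj μ φ (tst_Lm (v := v) hγ hφ hg) hh.sm z)).sub
    (Ex.sum fun i => exAdj μ φ hh (tst_ez (v := v) hγ hφ hg z i).sm (v i))).congr fun p => ?_
  rw [Dp_Lm hγ hs hφ hg, Finset.sum_sub_distrib, ← Finset.mul_sum]
  ring

lemma exK0 (v : κ → X) (hγ : SmM γ) (hs : SymM γ) (hφ : Sm φ) (hg : Tst g) (hh : Tst h) (z : X)
    (h0 : ∀ i j p, D z (γ i j) p = 0) :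
    Ex μ fun p => Lm v γ φ g p * Dm φ z h p - Dp φ z g p * Lp' v γ φ h p -
      kk v γ φ g z p * h p :=
  (exK μ v hγ hs hφ hg hh z).congr fun p => by
    simp only [ez, h0, zero_mul, Finset.sum_const_zero, mul_zero, sub_zero]

end ex

end IdMI

open IdMI

theorem s_MB : S_MB := by
  intro X _ _ _ _ _ μ _ κ _ v γ φ q q' b a hγ hs hφ hq hq' hb
  refine (exK μ v hγ hs hφ hq (Tst.mul_left hb hq') (v a)).eq (Tst.integrable ?_) fun p => ?_
  · refine Tst.add (Tst.add ((Tst.Dp hφ hq _).mul_right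
      (((hb.mul (tst_Lp hγ hφ hq').sm).add ((Sm.sum fun i _ =>
        (sm_XX hγ hb i).mul (hφ.Dp hq'.sm _)).cmul 2)).add ((sm_dgd hγ hb).mul hq'.sm)))
      (Tst.mul_left ((tst_kk hγ hφ hq (v a)).sm.mul hb) hq'))
      (Tst.sum _ fun i _ => Tst.sum _ fun j _ => (Tst.mul_left ((hγ i j).D _)
        (Tst.Dm hφ hq _)).mul_right ((hb.mul (hφ.Dp hq'.sm _)).add ((hb.D _).mul hq'.sm)))
  · have e : ∑ i, Dp φ (v i) (fun p => b p * q' p) p * ez v γ φ q (v a) i p =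
        ∑ i, ∑ j, D (v a) (γ i j) p * Dm φ (v j) q p *
          (b p * Dp φ (v i) q' p + D (v i) b p * q' p) := by
      refine Finset.sum_congr rfl fun i _ => ?_
      rw [Dp_mul hb hq'.sm, ez, mul_comm, Finset.sum_mul]
    rw [e, Lp_mul hγ hs hφ hb hq'.sm, kk, tht]
    ring

theorem s_MI : S_MI := by
  intro X _ _ _ _ _ μ _ κ _ v w γ₁ γ₂ φ g q hγ₁ hs₁ hγ₂ hs₂ hφ hg hq h1 h2
  constructor
  · have hZq := tst_Zm (v := w) hγ₂ hφ hq
    have hZg := tst_Zm (v := v) hγ₁ hφ hg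
    have hH := tst_Zp (v := w) hγ₂ hφ hg
    have hθ : ∀ a, Sm (tht v w γ₁ φ a) := fun a => sm_dgd hγ₁ (hφ.D _)
    have hθ' : ∀ a, Sm (tht w v γ₂ φ a) := fun a => sm_dgd hγ₂ (hφ.D _)
    have hM : ∀ i a, Sm (XX w γ₂ (D (v i) φ) a) := fun i => sm_XX hγ₂ (hφ.D _)
    have hΘ : ∀ b, Sm fun p => ∑ a, γ₂ a b p * tht v w γ₁ φ a p :=
      fun b => Sm.sum fun a _ => (hγ₂ a b).mul (hθ a)
    have hc : Sm (cmx v w γ₁ γ₂ φ) :=
      ((Sm.sum fun i _ => Sm.sum fun j _ => Sm.sum fun a _ => Sm.sum fun b _ =>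
        (((hγ₁ i j).mul (hγ₂ a b)).mul ((hφ.D _).D _)).mul ((hφ.D _).D _)).cmul 8).sub
        ((sm_dvg hΘ).cmul 2)
    have z1 := Ex.sum fun a => exK0 μ v hγ₁ hs₁ hφ hg (hZq a) (w a) fun i j => h1 i j a
    have z2 := Ex.sum fun b => exL μ v hγ₁ hs₁ hφ (hH b) (Tst.Dm hφ hq (w b))
    have z3 := Ex.sum fun b => exK0 μ v hγ₁ hs₁ hφ (hH b) hq (w b) fun i j => h1 i j b
    have z4 := Ex.sum fun i => Ex.sum fun a => exAdj μ φ (hZg i) ((hM i a).mul hq.sm) (w a)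
    have z5 := Ex.sum fun b => exAdj μ φ hg ((hΘ b).mul hq.sm) (w b)
    refine ((((z1.sub z2).add z3).add (z4.cmul 4)).sub (z5.cmul 2)).eq2
      (Tst.mul_left (tst_Lp hγ₂ hφ hg).sm (tst_Lp hγ₁ hφ hq)).integrable (Tst.integrable ?_)
      fun p => ?_
    · exact ((((Tst.sum _ fun i _ => Tst.sum _ fun a _ => Tst.mul_left
        (((hφ.D _).D _).mul (hZg i).sm) (hZq a)).const_mul 8).sub
        (Tst.mul_left (hg.sm.cmul 4) (Tst.sum _ fun a _ => Tst.mul_left (hθ a) (hZq a)))).sub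
        (Tst.mul_left (hq.sm.cmul 4) (Tst.sum _ fun i _ => Tst.mul_left (hθ' i) (hZg i)))).sub
        (Tst.mul_left (hc.mul hg.sm) hq)
    · have p1 : ∑ a, Dp φ (w a) g p * Lp' v γ₁ φ (Zm w γ₂ φ q a) p =
          ∑ b, (∑ a, γ₂ b a p * Dp φ (w a) g p) * Lp' v γ₁ φ (Dm φ (w b) q) p := by
        rw [← swap2 (sym_at hs₂ p)]
        refine Finset.sum_congr rfl fun a _ => ?_
        rw [show Zm w γ₂ φ q a = fun p => ∑ b, γ₂ a b p * Dm φ (w b) q p from rfl,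
          Lp_sum hγ₁ hφ fun b => Tst.mul_left (hγ₂ a b) (Tst.Dm hφ hq _)]
        simp only [Lp_mul0 hγ₁ hs₁ hφ (hγ₂ a _) (hφ.Dm hq.sm _) (h2 a _)]
      have p2 : ∑ a, kk v γ₁ φ g (w a) p * Zm w γ₂ φ q a p =
          4 * (∑ i, ∑ a, D (w a) (D (v i) φ) p * Zm v γ₁ φ g i p * Zm w γ₂ φ q a p) -
            2 * g p * ∑ a, tht v w γ₁ φ a p * Zm w γ₂ φ q a p := by
        rw [Finset.sum_comm]
        simp only [kk, tht, Finset.mul_sum, Finset.sum_mul, ← Finset.sum_sub_distrib, sub_mul]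
        exact Finset.sum_congr rfl fun a _ => congrArg₂ (· - ·)
          (Finset.sum_congr rfl fun i _ => by ring) (by ring)
      have p3 : ∀ b i, Zm v γ₁ φ (fun p => ∑ a, γ₂ b a p * Dp φ (w a) g p) i p =
          ∑ a, γ₂ b a p * (Dp φ (w a) (Zm v γ₁ φ g i) p - 2 * XX v γ₁ (D (w a) φ) i p * g p) := by
        intro b i
        rw [Zm_sum (hγ₂ b) (fun a => hφ.Dp hg.sm _) fun a => h2 b a]
        refine Finset.sum_congr rfl fun a _ => ?_
        rw [Dp_Zm hγ₁ hφ hg.sm]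
        simp only [ez, h1, zero_mul, Finset.sum_const_zero]
        ring
      have p4 : ∑ i, ∑ a, XX v γ₁ (D (w a) φ) i p * XX w γ₂ (D (v i) φ) a p =
          ∑ i, ∑ j, ∑ a, ∑ b,
            γ₁ i j p * γ₂ a b p * D (w a) (D (v i) φ) p * D (w b) (D (v j) φ) p := by
        rw [← alg2 (sym_at hs₁ p) fun a i => D (w a) (D (v i) φ) p]
        simp only [XX, D_comm hφ (v _) (w _)]
      have p5 : ∑ b, kk v γ₁ φ (fun p => ∑ a, γ₂ b a p * Dp φ (w a) g p) (w b) p =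
          4 * ((∑ i, ∑ a, Dp φ (w a) (Zm v γ₁ φ g i) p * XX w γ₂ (D (v i) φ) a p) -
            2 * (∑ i, ∑ a, XX v γ₁ (D (w a) φ) i p * XX w γ₂ (D (v i) φ) a p) * g p) -
            2 * ∑ b, Dp φ (w b) g p * ∑ a, γ₂ a b p * tht v w γ₁ φ a p := by
        have e1 := alg1 (sym_at hs₂ p) (fun a i => D (w a) (D (v i) φ) p)
          (fun a i => Dp φ (w a) (Zm v γ₁ φ g i) p) (fun a i => XX v γ₁ (D (w a) φ) i p) (g p)
        have e2 := swap2 (sym_at hs₂ p) (fun a => tht v w γ₁ φ a p) fun a => Dp φ (w a) g p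
        have e3 : ∑ b, Dp φ (w b) g p * ∑ a, γ₂ a b p * tht v w γ₁ φ a p =
            ∑ b, (∑ a, γ₂ b a p * tht v w γ₁ φ a p) * Dp φ (w b) g p :=
          Finset.sum_congr rfl fun b _ => by simp only [sym_at hs₂ p b, mul_comm]
        rw [e3, ← e2]
        simp only [mul_assoc] at e1
        simp only [kk, p3, Finset.sum_sub_distrib, ← Finset.mul_sum, mul_assoc, tht]
        rw [e1]
        simp only [XX]
      have p6 : ∑ i, ∑ a, Zm v γ₁ φ g i p *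
          Dm φ (w a) (fun p => XX w γ₂ (D (v i) φ) a p * q p) p =
          (∑ i, ∑ a, D (w a) (D (v i) φ) p * Zm v γ₁ φ g i p * Zm w γ₂ φ q a p) -
            q p * ∑ i, tht w v γ₂ φ i p * Zm v γ₁ φ g i p := by
        rw [Finset.mul_sum, ← Finset.sum_sub_distrib]
        refine Finset.sum_congr rfl fun i _ => ?_
        have e := swap2 (sym_at hs₂ p) (fun a => D (w a) (D (v i) φ) p) fun a => Dm φ (w a) q p
        have e' : ∑ a, D (w a) (D (v i) φ) p * Zm v γ₁ φ g i p * Zm w γ₂ φ q a p =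
            Zm v γ₁ φ g i p * ∑ a, XX w γ₂ (D (v i) φ) a p * Dm φ (w a) q p := by
          simp only [XX]
          rw [← e, Finset.mul_sum]
          exact Finset.sum_congr rfl fun a _ => by simp only [Zm]; ring
        simp only [Dm_mul (hM i _) hq.sm, ← Finset.mul_sum, Finset.sum_sub_distrib,
          ← Finset.sum_mul, e', tht, dgd, dvg]
        ring
      have p7 : ∑ b, Dm φ (w b) (fun p => (∑ a, γ₂ a b p * tht v w γ₁ φ a p) * q p) p =
          (∑ a, tht v w γ₁ φ a p * Zm w γ₂ φ q a p) -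
            dvg w (fun b q => ∑ a, γ₂ a b q * tht v w γ₁ φ a q) p * q p := by
        have e := swap2 (sym_at hs₂ p) (fun a => tht v w γ₁ φ a p) fun a => Dm φ (w a) q p
        simp only [Dm_mul (hΘ _) hq.sm, Finset.sum_sub_distrib, ← Finset.sum_mul, dvg, Zm]
        rw [e]
        simp only [sym_at hs₂ p _ _]
      have p8 : ∑ i, ∑ a, Dp φ (w a) (Zm v γ₁ φ g i) p * (XX w γ₂ (D (v i) φ) a p * q p) =
          (∑ i, ∑ a, Dp φ (w a) (Zm v γ₁ φ g i) p * XX w γ₂ (D (v i) φ) a p) * q p := by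
        simp only [Finset.sum_mul, mul_assoc]
      have p9 : ∑ b, Dp φ (w b) g p * ((∑ a, γ₂ a b p * tht v w γ₁ φ a p) * q p) =
          (∑ b, Dp φ (w b) g p * ∑ a, γ₂ a b p * tht v w γ₁ φ a p) * q p := by
        rw [Finset.sum_mul]
        simp only [mul_assoc]
      simp only [Finset.sum_sub_distrib]
      rw [p1, p2, p6, p8, p9, ← Finset.mul_sum, ← Finset.mul_sum, p7, ← Finset.sum_mul,
        ← Finset.sum_mul, p5, p4, cmx, Lm.eq_1 w, Lp'.eq_1 w]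
      ring
  · intro b a hb h0
    refine (exK0 μ v hγ₁ hs₁ hφ hg (Tst.mul_left hb hq) (w a) fun i j => h1 i j a).eq2
      (Tst.mul_left (hb.mul (hφ.Dp hg.sm _)) (tst_Lp hγ₁ hφ hq)).integrable
      (Tst.mul_left ((tst_kk hγ₁ hφ hg (w a)).sm.mul hb) hq).integrable fun p => ?_
    rw [Lp_mul0 hγ₁ hs₁ hφ hb hq.sm h0, kk, tht]
    ring

end Vale.Agent.P088
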