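import Vale.Agent.P088.IsoEnd1

/-!
# P088: an intertwining map that is an isometry on an open piece is an isometry
-/

open Set Filter
open scoped ContDiff Topology Matrix

noncomputable section
namespace Vale.Agent.P088
open Vale.Agent.P136 (D Dp Dm Sm Tst D_add_at D_sub_at D_mul_at D_const D_sum_at D_congr D_neg
  D_comm_at contDiffAt_D contDiffOn_D dAt_of_on)

namespace IsoEnd
variable {n : ℕ} {ι : Type} [Fintype ι] [DecidableEq ι]

def mS {κ : Type} (S : κ → κ → En n → ℝ) (y : En n) : Matrix κ κ ℝ := Matrix.of fun a c => S a c y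

def dS (S : ι → ι → En n → ℝ) (y : En n) (i : Fin n) : Matrix ι ι ℝ :=
  Matrix.of fun a c => D (ee i) (S a c) y

def Jm (Φ : En n → En n) (y : En n) : Matrix (Fin n) (Fin n) ℝ :=
  Matrix.of fun k i => D (ee i) (fun z => Φ z k) y

def Ap (A : ConF n ι) (Φ : En n → En n) (y : En n) (i : Fin n) : Matrix ι ι ℝ :=
  ∑ k, Jm Φ y k i • mS (A k) (Φ y)

def hh (S : ι → ι → En n → ℝ) : En n → ℝ := fun y => ∑ a, ∑ c, S a c y * S a c y

variable {g g₁ g₂ : MatF n} {A A₁ A₂ : ConF n ι} {V : Set (En n)} {Φ : En n → En n}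
  {S : ι → ι → En n → ℝ} {μ : En n → ℝ} {y : En n}

omit [DecidableEq ι] in
lemma sum3 (f : Fin n → ι → Fin n → ℝ) :
    ∑ j, ∑ e, ∑ i, f j e i = ∑ i, ∑ e, ∑ j, f j e i := by
  have h1 : ∀ j, ∑ e, ∑ i, f j e i = ∑ i, ∑ e, f j e i := fun j => Finset.sum_comm
  simp only [h1]
  rw [Finset.sum_comm]
  exact Finset.sum_congr rfl fun i _ => Finset.sum_comm

omit [Fintype ι] [DecidableEq ι] in
lemma skewA (h : GA g A) (i : Fin n) (x : En n) : (mS (A i) x)ᵀ = -mS (A i) x := by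
  ext a c; exact h.2.2.2.2 i c a x

omit [Fintype ι] [DecidableEq ι] in
lemma skewAp (h : GA g A) (i : Fin n) : (Ap A Φ y i)ᵀ = -Ap A Φ y i := by
  simp only [Ap, Matrix.transpose_sum, Matrix.transpose_smul, skewA h, smul_neg,
    Finset.sum_neg_distrib]

omit [DecidableEq ι] in
lemma c_split (h : GA g A) (x : En n) : ∃ K : Matrix ι ι ℝ, Kᵀ = -K ∧
    mS (cop g A).c x = K + ∑ i, ∑ j, gam g i j x • (mS (A i) x * mS (A j) x) := by
  refine ⟨Matrix.of fun a c => ∑ i, D (ee i) (fun y => ∑ j, gam g i j y * A j a c y) x, ?_, ?_⟩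
  · ext a c
    simp only [Matrix.transpose_apply, Matrix.of_apply, Matrix.neg_apply,
      ← Finset.sum_neg_distrib, ← D_neg]
    refine Finset.sum_congr rfl fun i _ => ?_
    congr 1
    funext z
    exact Finset.sum_congr rfl fun j _ => by rw [h.2.2.2.2 j c a z, mul_neg]
  · ext a c
    simp [mS, cop, Matrix.sum_apply, Matrix.mul_apply, Finset.mul_sum, mul_assoc]

lemma Jm_det (hΦ : DifferentiableAt ℝ Φ y) (hi : Function.Injective (fderiv ℝ Φ y)) :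
    (Jm Φ y).det ≠ 0 := by
  intro h0
  obtain ⟨v, hv, hM⟩ := Matrix.exists_mulVec_eq_zero_iff.2 h0
  have h1 : fderiv ℝ Φ y (WithLp.toLp 2 v) = fderiv ℝ Φ y 0 := by
    ext k
    rw [← D_proj hΦ, D, fd_sum, map_zero]
    have h2 : ∑ i, Jm Φ y k i * v i = 0 := congrFun hM k
    simpa [Jm, mul_comm] using h2
  have h2 := hi h1
  exact hv (by simpa using h2)

lemma E2m [Nonempty ι] (h1 : (cop g₁ A₁).Good) (h2 : (cop g₂ A₂).Good) (hV : IsOpen V)
    (hI : Inter (cop g₁ A₁) (cop g₂ A₂) V Φ S μ) (hy : y ∈ V) :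
    Jm Φ y * mS (gam g₂) y * (Jm Φ y)ᵀ = μ y • mS (gam g₁) (Φ y) := by
  ext k l
  refine Eq.trans ?_ (E2 h1 h2 hV hI hy k l)
  simp only [Matrix.mul_apply, Finset.sum_mul, Matrix.transpose_apply, Jm, mS, Matrix.of_apply, cop]
  rw [Finset.sum_comm]
  exact Finset.sum_congr rfl fun _ _ => Finset.sum_congr rfl fun _ _ => by ring

lemma JG_det (h2 : (cop g₂ A₂).Good) (hV : IsOpen V)
    (hI : Inter (cop g₁ A₁) (cop g₂ A₂) V Φ S μ) (hy : y ∈ V) :
    (Jm Φ y).det ≠ 0 ∧ (mS (gam g₂) y).det ≠ 0 :=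
  ⟨Jm_det ((hI.1.contDiffAt (hV.mem_nhds hy)).differentiableAt (by simp)) (hI.2.2.2.1 y hy).2.2,
    det_ne (h2.2.2.2.2 y)⟩

lemma omega_ex [Nonempty ι] (h1 : (cop g₁ A₁).Good) (h2 : (cop g₂ A₂).Good) (hV : IsOpen V)
    (hI : Inter (cop g₁ A₁) (cop g₂ A₂) V Φ S μ) (hy : y ∈ V) :
    ∃ om : Fin n → ℝ,
      (∀ j, dS S y j + mS (A₂ j) y * mS S y - mS S y * Ap A₁ Φ y j = om j • mS S y) ∧
      (Jm Φ y * mS (gam g₂) y) *ᵥ om = fun k => (μ y * ∑ i, D (ee i) (gam g₁ i k) (Φ y) -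
        dgd ee (gam g₂) (fun z => Φ z k) y) / 2 := by
  have hd := JG_det h2 hV hI hy
  refine alg_omega (by rw [Matrix.det_mul]; exact mul_ne_zero hd.1 hd.2) fun k => ?_
  have e1 : ∑ j, (Jm Φ y * mS (gam g₂) y) k j • (mS S y * Ap A₁ Φ y j) =
      μ y • (mS S y * ∑ l, mS (gam g₁) (Φ y) k l • mS (A₁ l) (Φ y)) := by
    rw [← Matrix.mul_smul, ← pull1 (E2m h1 h2 hV hI hy), Finset.mul_sum]
    simp only [Matrix.mul_smul, Ap]
  simp only [smul_sub, Finset.sum_sub_distrib, e1]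
  ext a c
  have h := E1 h1 h2 hV hI hy k a c
  have e2 : (∑ j, (Jm Φ y * mS (gam g₂) y) k j • (dS S y j + mS (A₂ j) y * mS S y)) a c * 2 =
      ∑ i, D (ee i) (fun z => Φ z k) y * (2 * ∑ j, (cop g₂ A₂).γ i j y * D (ee j) (S a c) y +
        ∑ a', (cop g₂ A₂).b i a a' y * S a' c y) := by
    simp only [Matrix.sum_apply, Matrix.smul_apply, Matrix.add_apply, Matrix.mul_apply, Jm, mS, dS,
      Matrix.of_apply, cop, smul_eq_mul, Finset.sum_mul, Finset.mul_sum, mul_add, add_mul,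
      Finset.sum_add_distrib]
    congr 1
    · rw [Finset.sum_comm]
      exact Finset.sum_congr rfl fun _ _ => Finset.sum_congr rfl fun _ _ => by ring
    · rw [sum3]
      exact Finset.sum_congr rfl fun _ _ => Finset.sum_congr rfl fun _ _ =>
        Finset.sum_congr rfl fun _ _ => by ring
  have e3 : (mS S y * ∑ l, mS (gam g₁) (Φ y) k l • mS (A₁ l) (Φ y)) a c * 2 =
      ∑ a', S a a' y * (cop g₁ A₁).b k a' c (Φ y) := by
    simp only [Matrix.sum_apply, Matrix.smul_apply, Matrix.mul_apply, mS,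
      Matrix.of_apply, cop, smul_eq_mul, Finset.sum_mul]
    exact Finset.sum_congr rfl fun _ _ => by ring
  rw [← e2, ← e3] at h
  simp only [Matrix.sub_apply, Matrix.smul_apply, smul_eq_mul]
  have e4 : mS S y a c = S a c y := rfl
  have e5 : (cop g₂ A₂).γ = gam g₂ := rfl
  have e6 : (cop g₁ A₁).γ = gam g₁ := rfl
  rw [e5, e6] at h
  rw [e4]
  linear_combination (1 / 2 : ℝ) * h

omit [DecidableEq ι] in
lemma hh_eq (S : ι → ι → En n → ℝ) (y : En n) : hh S y = ((mS S y)ᵀ * mS S y).trace :=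
  (tr_eq (mS S y) (mS S y)).symm

omit [DecidableEq ι] in
lemma hh_on (hS : ∀ a c, ContDiffOn ℝ ∞ (S a c) V) : ContDiffOn ℝ ∞ (hh S) V :=
  ContDiffOn.sum fun a _ => ContDiffOn.sum fun c _ => (hS a c).mul (hS a c)

omit [DecidableEq ι] in
lemma D_hh (hV : IsOpen V) (hS : ∀ a c, ContDiffOn ℝ ∞ (S a c) V) (hy : y ∈ V) (j : Fin n) :
    D (ee j) (hh S) y = 2 * ((mS S y)ᵀ * dS S y j).trace := by
  have d := fun a c => dAt_of_on hV (hS a c) hy
  unfold hh
  rw [D_sum_at _ fun a _ => DifferentiableAt.fun_sum fun c _ => (d a c).fun_mul (d a c), tr_eq,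
    Finset.mul_sum]
  refine Finset.sum_congr rfl fun a _ => ?_
  rw [D_sum_at _ fun c _ => (d a c).fun_mul (d a c), Finset.mul_sum]
  refine Finset.sum_congr rfl fun c _ => ?_
  rw [D_mul_at (d a c) (d a c)]
  simp only [mS, dS, Matrix.of_apply]
  ring

omit [DecidableEq ι] in
lemma dgd_hh {γ : MatF n} (hγ : SmM γ) (hs : SymM γ) (hV : IsOpen V)
    (hS : ∀ a c, ContDiffOn ℝ ∞ (S a c) V) (hy : y ∈ V) :
    dgd ee γ (hh S) y = 2 * (((mS S y)ᵀ * Matrix.of fun a c => dgd ee γ (S a c) y).trace +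
      ∑ i, ∑ j, γ i j y * ((dS S y i)ᵀ * dS S y j).trace) := by
  unfold hh
  rw [dgd_sum hγ hV (fun a => ContDiffOn.sum fun c _ => (hS a c).mul (hS a c)) hy]
  have e : ∀ a, dgd ee γ (fun z => ∑ c, S a c z * S a c z) y =
      ∑ c, (2 * (S a c y * dgd ee γ (S a c) y) +
        2 * ∑ i, ∑ j, γ i j y * (D (ee i) (S a c) y * D (ee j) (S a c) y)) := by
    intro a
    rw [dgd_sum hγ hV (fun c => (hS a c).mul (hS a c)) hy]
    refine Finset.sum_congr rfl fun c _ => ?_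
    rw [dgd_mul hγ hs hV (hS a c) (hS a c) hy]; ring
  simp only [e, tr_eq, Finset.sum_add_distrib, ← Finset.mul_sum, mul_add, mS, dS, Matrix.of_apply]
  congr 2
  simp only [Finset.mul_sum]
  have h1 : ∀ a, ∑ c, ∑ i, ∑ j, γ i j y * (D (ee i) (S a c) y * D (ee j) (S a c) y) =
      ∑ i, ∑ j, ∑ c, γ i j y * (D (ee i) (S a c) y * D (ee j) (S a c) y) := fun a => by
    rw [Finset.sum_comm]
    exact Finset.sum_congr rfl fun i _ => Finset.sum_comm
  simp only [h1]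
  rw [Finset.sum_comm]
  exact Finset.sum_congr rfl fun i _ => Finset.sum_comm

lemma E0m [Nonempty ι] (G1 : GA g₁ A₁) (G2 : GA g₂ A₂) (h1 : (cop g₁ A₁).Good)
    (h2 : (cop g₂ A₂).Good) (hV : IsOpen V) (hI : Inter (cop g₁ A₁) (cop g₂ A₂) V Φ S μ)
    (hy : y ∈ V) {om : Fin n → ℝ}
    (hom : ∀ j, dS S y j + mS (A₂ j) y * mS S y - mS S y * Ap A₁ Φ y j = om j • mS S y) :
    dgd ee (gam g₂) (hh S) y = 2 * ((∑ i, ∑ j, gam g₂ i j y * (om i * om j)) * hh S y) := by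
  obtain ⟨K₁, hK1, hc1⟩ := c_split G1 (Φ y)
  obtain ⟨K₂, hK2, hc2⟩ := c_split G2 y
  rw [dgd_hh (γ := gam g₂) h2.1 h2.2.1 hV hI.2.1 hy, hh_eq]
  congr 1
  refine bochner (G := fun i j => gam g₂ i j y) (fun i j => congrFun (h2.2.1 i j) y)
    (skewA G2 · y) (skewAp G1) (K₁ := μ y • K₁)
    (by rw [Matrix.transpose_smul, hK1, smul_neg]) hK2 hom ?_
  have e1 := pull2 (E2m h1 h2 hV hI hy) fun k => mS (A₁ k) (Φ y)
  have e2 : ∑ i, ∑ j, gam g₂ i j y • (Ap A₁ Φ y i * Ap A₁ Φ y j) =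
      μ y • ∑ i, ∑ j, gam g₁ i j (Φ y) • (mS (A₁ i) (Φ y) * mS (A₁ j) (Φ y)) := e1
  rw [e2, ← smul_add, ← hc1, ← hc2]
  ext a c
  have h := E0 h1 h2 hV hI hy a c
  simp only [Matrix.add_apply, Matrix.sum_apply, Matrix.smul_apply, Matrix.mul_apply, mS, dS,
    Matrix.of_apply, smul_eq_mul]
  simp only [Op.app, Finset.mul_sum] at h
  refine Eq.trans ?_ (h.trans ?_)
  · congr 2
    refine Finset.sum_congr rfl fun i _ => ?_
    simp only [cop, Finset.mul_sum, Finset.sum_mul]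
    rw [Finset.sum_comm]
    exact Finset.sum_congr rfl fun _ _ => Finset.sum_congr rfl fun _ _ => by ring
  · exact Finset.sum_congr rfl fun _ _ => by ring

lemma hh_pos [Nonempty ι] (h : (mS S y).det ≠ 0) : 0 < hh S y := by
  refine lt_of_le_of_ne (Finset.sum_nonneg fun a _ => Finset.sum_nonneg fun c _ =>
    mul_self_nonneg _) fun h0 => h ?_
  rw [tr_zero ((hh_eq S y).symm.trans h0.symm), Matrix.det_zero]

lemma iso_orth (h : Iso g₁ A₁ g₂ A₂ V Φ S) (hy : y ∈ V) : (mS S y)ᵀ * mS S y = 1 := by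
  ext a c
  exact (h.2.2 y hy).1 a c

lemma parallel [Nonempty ι] (hu : S_ucp) (G1 : GA g₁ A₁) (G2 : GA g₂ A₂)
    (h1 : (cop g₁ A₁).Good) (h2 : (cop g₂ A₂).Good) (hV : IsOpen V) (hc : IsPreconnected V)
    (hI : Inter (cop g₁ A₁) (cop g₂ A₂) V Φ S μ) {V' : Set (En n)} (hV' : IsOpen V')
    (hne : V'.Nonempty) (hsub : V' ⊆ V) (hiso : Iso g₁ A₁ g₂ A₂ V' Φ S) (hy : y ∈ V) :
    hh S y = Fintype.card ι ∧
      (∀ j, dS S y j + mS (A₂ j) y * mS S y - mS S y * Ap A₁ Φ y j = 0) ∧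
      ∀ k, dgd ee (gam g₂) (fun z => Φ z k) y = μ y * ∑ i, D (ee i) (gam g₁ i k) (Φ y) := by
  have hp : ∀ z ∈ V, 0 < hh S z := fun z hz => hh_pos (hI.2.2.2.1 z hz).2.1
  let β : En n → ℝ := fun z => √(hh S z)
  have hβ : ContDiffOn ℝ ∞ β V := (hh_on hI.2.1).sqrt fun z hz => (hp z hz).ne'
  have hβp : ∀ z ∈ V, 0 < β z := fun z hz => Real.sqrt_pos.2 (hp z hz)
  have hsq : hh S = fun z => β z * β z := funext fun z => (Real.mul_self_sqrt
    (Finset.sum_nonneg fun a _ => Finset.sum_nonneg fun c _ => mul_self_nonneg _)).symm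
  have hD : ∀ z ∈ V, ∀ om : Fin n → ℝ,
      (∀ j, dS S z j + mS (A₂ j) z * mS S z - mS S z * Ap A₁ Φ z j = om j • mS S z) →
      ∀ j, D (ee j) β z = om j * β z := by
    intro z hz om hom j
    have a1 := D_hh hV hI.2.1 hz j
    rw [tr_dh (skewA G2 j z) (skewAp G1 j) (hom j), ← hh_eq, hsq,
      D_mul_at (dAt_of_on hV hβ hz) (dAt_of_on hV hβ hz)] at a1
    refine mul_right_cancel₀ (hβp z hz).ne' ?_
    linear_combination (1 / 2 : ℝ) * a1
  have hL : ∀ z ∈ V, dgd ee (gam g₂) β z = 0 := by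
    intro z hz
    obtain ⟨om, hom, -⟩ := omega_ex h1 h2 hV hI hz
    have a1 := E0m G1 G2 h1 h2 hV hI hz hom
    rw [hsq, dgd_mul (γ := gam g₂) h2.1 h2.2.1 hV hβ hβ hz] at a1
    simp only [hD z hz om hom] at a1
    have a2 : ∑ i, ∑ j, gam g₂ i j z * (om i * β z * (om j * β z)) =
        (∑ i, ∑ j, gam g₂ i j z * (om i * om j)) * (β z * β z) := by
      simp only [Finset.sum_mul]
      exact Finset.sum_congr rfl fun _ _ => Finset.sum_congr rfl fun _ _ => by ring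
    rw [a2] at a1
    refine mul_left_cancel₀ (hβp z hz).ne' ?_
    linear_combination (1 / 2 : ℝ) * a1
  obtain ⟨y₀, hy₀⟩ := hne
  have hU := hu n Unit ⟨gam g₂, fun _ _ _ _ => 0, fun _ _ _ => 0⟩ V
    (fun _ z => β z - √(Fintype.card ι : ℝ)) y₀
    ⟨h2.1, h2.2.1, fun _ _ _ => contDiff_const, fun _ _ => contDiff_const, h2.2.2.2.2⟩ hV hc
    ⟨fun _ => hβ.sub contDiffOn_const, fun z hz _ => by simp [Op.app, dgd_sub_const, hL z hz]⟩
    (hsub hy₀) fun _ => by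
      filter_upwards [hV'.mem_nhds hy₀] with z hz
      simp [β, hh_eq, iso_orth hiso hz]
  have hβc : ∀ z ∈ V, β z = √(Fintype.card ι : ℝ) := fun z hz => sub_eq_zero.1 (hU z hz ())
  obtain ⟨om, hom, hr⟩ := omega_ex h1 h2 hV hI hy
  have h0 : om = 0 := by
    funext j
    have a1 := hD y hy om hom j
    rw [D_congr (g := fun _ => √(Fintype.card ι : ℝ))
      (eventually_of_mem (hV.mem_nhds hy) hβc), D_const] at a1
    exact (mul_eq_zero.1 a1.symm).resolve_right (hβp y hy).ne'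
  subst h0
  refine ⟨?_, fun j => by simpa using hom j, fun k => ?_⟩
  · rw [hsq]
    simp only [hβc y hy]
    exact Real.mul_self_sqrt (Nat.cast_nonneg _)
  · have a1 := congrFun hr k
    simp only [Matrix.mulVec_zero, Pi.zero_apply] at a1
    linarith

/-- The Gram matrix of `S`. -/
def Hm (S : ι → ι → En n → ℝ) : ι → ι → En n → ℝ := fun a c y => ∑ e, S e a y * S e c y

omit [DecidableEq ι] in
lemma Hm_eq (S : ι → ι → En n → ℝ) (y : En n) : mS (Hm S) y = (mS S y)ᵀ * mS S y := by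
  ext a c; rfl

omit [DecidableEq ι] in
lemma Hm_on (hS : ∀ a c, ContDiffOn ℝ ∞ (S a c) V) (a c : ι) : ContDiffOn ℝ ∞ (Hm S a c) V :=
  ContDiffOn.sum fun e _ => (hS e a).mul (hS e c)

omit [DecidableEq ι] in
lemma dS_Hm (hV : IsOpen V) (hS : ∀ a c, ContDiffOn ℝ ∞ (S a c) V) (hy : y ∈ V) (j : Fin n) :
    dS (Hm S) y j = (mS S y)ᵀ * dS S y j + (dS S y j)ᵀ * mS S y := by
  have d := fun a c => dAt_of_on hV (hS a c) hy
  ext a c
  simp only [dS, mS, Matrix.of_apply, Matrix.add_apply, Matrix.mul_apply, Matrix.transpose_apply,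
    ← Finset.sum_add_distrib]
  unfold Hm
  rw [D_sum_at _ fun e _ => (d e a).fun_mul (d e c)]
  exact Finset.sum_congr rfl fun e _ => D_mul_at (d e a) (d e c) _

lemma D_mu {γ₁ γ₂ : MatF n} (h1 : SmM γ₁) (h2 : SmM γ₂) (hV : IsOpen V)
    (hΦ : ContDiffOn ℝ ∞ Φ V) (hμ : ContDiffOn ℝ ∞ μ V) (hy : y ∈ V) (hJ : (Jm Φ y).det ≠ 0)
    (hG : (mS γ₂ y).det ≠ 0)
    (hE : ∀ z ∈ V, Jm Φ z * mS γ₂ z * (Jm Φ z)ᵀ = μ z • mS γ₁ (Φ z))
    (hp : ∀ k, dgd ee γ₂ (fun z => Φ z k) y = μ y * ∑ i, D (ee i) (γ₁ i k) (Φ y)) (m : Fin n) :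
    D (ee m) μ y = μ y * ((Jm Φ y)⁻¹ *
      Matrix.of fun k i => D (ee m) (D (ee i) fun z => Φ z k) y).trace := by
  have dΦ : DifferentiableAt ℝ Φ y := (hΦ.contDiffAt (hV.mem_nhds hy)).differentiableAt (by simp)
  have dJ : ∀ k i, DifferentiableAt ℝ (D (ee i) fun z => Φ z k) y := fun k i =>
    dAt_of_on hV (contDiffOn_D hV (on_proj hΦ k) _) hy
  have dX : ∀ k i, DifferentiableAt ℝ (XX ee γ₂ (fun z => Φ z k) i) y := fun k i =>
    dAt_of_on hV (XX_on h2 hV (on_proj hΦ k) i) hy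
  have dγ : ∀ l k, DifferentiableAt ℝ (fun z => γ₁ l k (Φ z)) y := fun l k =>
    ((h1 l k).dAt _).comp y dΦ
  let P := (Jm Φ y)⁻¹
  let X : Matrix (Fin n) (Fin n) ℝ := mS γ₂ y * (Jm Φ y)ᵀ
  have hX : ∀ i k, XX ee γ₂ (fun z => Φ z k) i y = X i k := fun i k => rfl
  have hPJ : P * Jm Φ y = 1 := Matrix.nonsing_inv_mul _ hJ.isUnit
  have hJP : Jm Φ y * P = 1 := Matrix.mul_nonsing_inv _ hJ.isUnit
  have a1 : ∀ m l k, ∑ i, (Jm Φ y l i * D (ee m) (XX ee γ₂ (fun z => Φ z k) i) y +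
      D (ee m) (D (ee i) fun z => Φ z l) y * X i k) =
      μ y * ∑ p, D (ee p) (γ₁ l k) (Φ y) * Jm Φ y p m + D (ee m) μ y * γ₁ l k (Φ y) := by
    intro m l k
    have e : (fun z => ∑ i, D (ee i) (fun z => Φ z l) z * XX ee γ₂ (fun z => Φ z k) i z) =ᶠ[𝓝 y]
        fun z => μ z * γ₁ l k (Φ z) := by
      filter_upwards [hV.mem_nhds hy] with z hz
      have := hE z hz
      rw [Matrix.mul_assoc] at this
      exact congrFun (congrFun this l) k
    have e2 := D_congr e (ee m)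
    rw [D_sum_at _ fun i _ => (dJ l i).fun_mul (dX k i), D_mul_at (dAt_of_on hV hμ hy) (dγ l k),
      chain ((h1 l k).dAt _) dΦ] at e2
    simp only [D_mul_at (dJ l _) (dX k _), hX] at e2
    exact e2
  let t : Fin n → ℝ := fun m =>
    (P * Matrix.of fun k i => D (ee m) (D (ee i) fun z => Φ z k) y).trace
  have a2 : ∀ k, ∑ i, t i * X i k = ∑ m, D (ee m) μ y * (P * mS γ₁ (Φ y)) m k := by
    intro k
    have b0 : ∑ m, ∑ l, P m l * ∑ i, (Jm Φ y l i * D (ee m) (XX ee γ₂ (fun z => Φ z k) i) y +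
        D (ee m) (D (ee i) fun z => Φ z l) y * X i k) = ∑ m, ∑ l, P m l *
        (μ y * ∑ p, D (ee p) (γ₁ l k) (Φ y) * Jm Φ y p m + D (ee m) μ y * γ₁ l k (Φ y)) := by
      simp only [a1]
    have b1 : ∑ m, ∑ l, P m l * ∑ i, Jm Φ y l i * D (ee m) (XX ee γ₂ (fun z => Φ z k) i) y =
        dgd ee γ₂ (fun z => Φ z k) y := by
      refine Finset.sum_congr rfl fun m _ => ?_
      have := congrFun (Matrix.mulVec_mulVec
        (fun i => D (ee m) (XX ee γ₂ (fun z => Φ z k) i) y) P (Jm Φ y)) m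
      rw [hPJ, Matrix.one_mulVec] at this
      exact this
    have b2 : ∑ m, ∑ l, P m l * ∑ i, D (ee m) (D (ee i) fun z => Φ z l) y * X i k =
        ∑ i, t i * X i k := by
      simp only [t, Matrix.trace, Matrix.diag, Matrix.mul_apply, Matrix.of_apply, Finset.sum_mul,
        Finset.mul_sum]
      rw [sum3]
      refine Finset.sum_congr rfl fun i _ => ?_
      rw [Finset.sum_comm]
      refine Finset.sum_congr rfl fun m _ => Finset.sum_congr rfl fun l _ => ?_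
      rw [D_comm_at ((on_proj hΦ l).contDiffAt (hV.mem_nhds hy)), mul_assoc]
    have b3 : ∑ m, ∑ l, P m l * (μ y * ∑ p, D (ee p) (γ₁ l k) (Φ y) * Jm Φ y p m) =
        μ y * ∑ i, D (ee i) (γ₁ i k) (Φ y) := by
      rw [Finset.sum_comm, Finset.mul_sum]
      refine Finset.sum_congr rfl fun l _ => ?_
      have := congrFun (Matrix.vecMul_vecMul
        (fun p => D (ee p) (γ₁ l k) (Φ y)) (Jm Φ y) P) l
      rw [hJP, Matrix.vecMul_one] at this
      rw [← this, Matrix.vecMul, dotProduct, Finset.mul_sum]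
      refine Finset.sum_congr rfl fun m _ => ?_
      simp only [Matrix.vecMul, dotProduct]
      ring
    have b4 : ∑ m, ∑ l, P m l * (D (ee m) μ y * γ₁ l k (Φ y)) =
        ∑ m, D (ee m) μ y * (P * mS γ₁ (Φ y)) m k := by
      simp only [Matrix.mul_apply, Finset.mul_sum, mS, Matrix.of_apply]
      exact Finset.sum_congr rfl fun _ _ => Finset.sum_congr rfl fun _ _ => by ring
    simp only [mul_add, Finset.sum_add_distrib] at b0
    rw [b1, b2, b3, b4, hp] at b0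
    linarith
  have a3 : μ y • (P * mS γ₁ (Φ y)) = X := by
    rw [← Matrix.mul_smul, ← hE y hy, Matrix.mul_assoc, ← Matrix.mul_assoc, hPJ, Matrix.one_mul]
  have a4 : (fun m => D (ee m) μ y - μ y * t m) ᵥ* X = 0 := by
    funext k
    have e : ∑ m, D (ee m) μ y * X m k = μ y * ∑ m, D (ee m) μ y * (P * mS γ₁ (Φ y)) m k := by
      rw [← a3, Finset.mul_sum]
      exact Finset.sum_congr rfl fun _ _ => by simp only [Matrix.smul_apply, smul_eq_mul]; ring
    simp only [Matrix.vecMul, dotProduct, sub_mul, Finset.sum_sub_distrib, mul_assoc,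
      ← Finset.mul_sum, a2, e, sub_self, Pi.zero_apply]
  have hXd : X.det ≠ 0 := by
    rw [Matrix.det_mul, Matrix.det_transpose]; exact mul_ne_zero hG hJ
  have a5 := Matrix.eq_zero_of_vecMul_eq_zero hXd a4
  exact sub_eq_zero.1 (congrFun a5 m)

omit [DecidableEq ι] in
lemma det_pos (hn : 3 ≤ n) (h : (cop g A).Good) (x : En n) : 0 < (mS g x).det := by
  have h1 := h.2.2.2.2 x (fun _ => 1) fun h0 => one_ne_zero (congrFun h0 ⟨0, by omega⟩)
  rw [← Real.sqrt_pos]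
  refine lt_of_le_of_ne (Real.sqrt_nonneg _) fun h0 => h1.ne' ?_
  have e : √((Matrix.of fun k l => g k l x).det) = 0 := h0.symm
  simp [cop, gam, e]

end IsoEnd

open IsoEnd in
theorem s_end (hcop : S_cop) (_hii : S_isoInter) (hu : S_ucp) : S_end := by
  intro n hn ι _ _ _ g₁ g₂ A₁ A₂ V V' Φ S μ G1 G2 hV hc hV' hne hsub hI hiso
  have h1 := (hcop n ι g₁ A₁ G1).1
  have h2 := (hcop n ι g₂ A₂ G2).1
  have hpar := fun y (hy : y ∈ V) => parallel hu G1 G2 h1 h2 hV hc hI hV' hne hsub hiso hy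
  obtain ⟨y₀, hy₀⟩ := hne
  have hH : ∀ y ∈ V, (mS S y)ᵀ * mS S y = 1 := by
    intro y hy
    refine eq_one ((hh_eq S y).symm.trans (hpar y hy).1) ?_
    have c1 := const_on hV hc (hh_on (Hm_on hI.2.1)) (fun z hz j => by
      rw [D_hh hV (Hm_on hI.2.1) hz, Hm_eq, dS_Hm hV hI.2.1 hz,
        tr_dH (skewA G2 j z) (skewAp G1 j) ((hpar z hz).2.1 j), mul_zero]) hy (hsub hy₀)
    rw [hh_eq, hh_eq, Hm_eq, Hm_eq, iso_orth hiso hy₀] at c1
    simpa using c1
  have hM : ∀ y ∈ V, ∃ l : ℝ, 0 < l ∧ mS g₂ y = l • ((Jm Φ y)ᵀ * mS g₁ (Φ y) * Jm Φ y) ∧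
      l ^ 2 * μ y ^ 2 = l ^ n * (Jm Φ y).det ^ 2 := fun y hy =>
    metric_of (hI.2.2.2.1 y hy).1 (JG_det h2 hV hI hy).1 (det_pos hn h1 _) (det_pos hn h2 _)
      (E2m h1 h2 hV hI hy)
  have hpull : ∀ y i j, ((Jm Φ y)ᵀ * mS g₁ (Φ y) * Jm Φ y) i j =
      ∑ k, ∑ l, g₁ k l (Φ y) * D (ee i) (fun z => Φ z k) y * D (ee j) (fun z => Φ z l) y := by
    intro y i j
    simp only [Matrix.mul_apply, Matrix.transpose_apply, Jm, mS, Matrix.of_apply, Finset.sum_mul]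
    rw [Finset.sum_comm]
    exact Finset.sum_congr rfl fun _ _ => Finset.sum_congr rfl fun _ _ => by ring
  have hdJ : ∀ k i, ContDiffOn ℝ ∞ (D (ee i) fun z => Φ z k) V := fun k i =>
    contDiffOn_D hV (on_proj hI.1 k) _
  have hdet : ContDiffOn ℝ ∞ (fun z => (Jm Φ z).det) V :=
    contDiff_det.comp_contDiffOn (contDiffOn_pi.2 fun k => contDiffOn_pi.2 fun i => hdJ k i)
  have hq : ∀ y ∈ V, (Jm Φ y).det * (μ y)⁻¹ = (Jm Φ y₀).det * (μ y₀)⁻¹ := by
    intro y hy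
    have hi : ContDiffOn ℝ ∞ (fun z => (μ z)⁻¹) V :=
      hI.2.2.1.inv fun z hz => (hI.2.2.2.1 z hz).1.ne'
    refine const_on hV hc (hdet.mul hi) (fun z hz m => ?_) hy (hsub hy₀)
    have hz0 := (hI.2.2.2.1 z hz).1.ne'
    have d1 := D_mu (γ₁ := gam g₁) (γ₂ := gam g₂) h1.1 h2.1 hV hI.1 hI.2.2.1 hz
      (JG_det h2 hV hI hz).1 (JG_det h2 hV hI hz).2 (fun w hw => E2m h1 h2 hV hI hw)
      (hpar z hz).2.2 m
    have d2 : D (ee m) (fun z => (Jm Φ z).det) z = (Jm Φ z).det * ((Jm Φ z)⁻¹ *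
        Matrix.of fun k i => D (ee m) (D (ee i) fun z => Φ z k) z).trace :=
      D_det (M := fun k i => D (ee i) fun z => Φ z k) (fun k i => dAt_of_on hV (hdJ k i) hz)
        (JG_det h2 hV hI hz).1 _
    have d3 : D (ee m) (fun z => μ z * (μ z)⁻¹) z = 0 := by
      rw [D_congr (g := fun _ => 1) (eventually_of_mem (hV.mem_nhds hz) fun w hw =>
        mul_inv_cancel₀ (hI.2.2.2.1 w hw).1.ne'), D_const]
    rw [D_mul_at (dAt_of_on hV hI.2.2.1 hz) (dAt_of_on hV hi hz), d1] at d3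
    rw [D_mul_at (dAt_of_on hV hdet hz) (dAt_of_on hV hi hz), d2]
    refine mul_left_cancel₀ hz0 ?_
    linear_combination (Jm Φ z).det * d3
  have h0 : μ y₀ ^ 2 = (Jm Φ y₀).det ^ 2 := by
    obtain ⟨l, -, e1, e2⟩ := hM y₀ (hsub hy₀)
    have e3 : mS g₂ y₀ = (Jm Φ y₀)ᵀ * mS g₁ (Φ y₀) * Jm Φ y₀ := by
      ext i j
      rw [hpull]
      exact (hiso.2.2 y₀ hy₀).2.1 i j
    rw [← e3] at e1
    have e4 : l = 1 := by
      by_contra hl
      have e5 : (1 - l) • mS g₂ y₀ = 0 := by rw [sub_smul, one_smul, ← e1, sub_self]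
      have e6 := (smul_eq_zero.1 e5).resolve_left (sub_ne_zero.2 (Ne.symm hl))
      have : Nonempty (Fin n) := ⟨⟨0, by omega⟩⟩
      exact (det_pos hn h2 y₀).ne' (by rw [e6, Matrix.det_zero])
    simpa [e4] using e2
  refine ⟨hI.1, hI.2.1, fun y hy => ⟨fun a c => congrFun (congrFun (hH y hy) a) c, fun i j => ?_,
    fun i a c => ?_⟩⟩
  · obtain ⟨l, hl, e1, e2⟩ := hM y hy
    have m0 := (hI.2.2.2.1 y₀ (hsub hy₀)).1.ne'
    have m1 := (hI.2.2.2.1 y hy).1.ne'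
    have e3 : (Jm Φ y).det ^ 2 = μ y ^ 2 := by
      have e4 := congrArg (· ^ 2) (hq y hy)
      simp only [mul_pow, ← h0, inv_pow, mul_inv_cancel₀ (pow_ne_zero 2 m0)] at e4
      exact (mul_inv_eq_one₀ (pow_ne_zero 2 m1)).1 e4
    rw [e3] at e2
    have e5 : l = 1 := by
      have e6 := mul_right_cancel₀ (pow_ne_zero 2 m1) e2
      by_contra hl1
      exact absurd (pow_right_injective₀ hl hl1 e6) (by omega)
    rw [e5, one_smul] at e1
    rw [← hpull, ← e1]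
    rfl
  · have e := congrFun (congrFun (sub_eq_zero.1 ((hpar y hy).2.1 i)) a) c
    refine Eq.trans e ?_
    simp only [Matrix.mul_apply, Ap, Matrix.sum_apply, Matrix.smul_apply, mS, Jm, Matrix.of_apply,
      smul_eq_mul, Finset.mul_sum]
    rw [Finset.sum_comm]
    exact Finset.sum_congr rfl fun _ _ => Finset.sum_congr rfl fun _ _ => by ring

end Vale.Agent.P088
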