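import Vale.Agent.P088.Top

/-!
# P088: calculus and matrix lemmas for the extension of isometries
-/

open Set Filter
open scoped ContDiff Topology Matrix

noncomputable section
namespace Vale.Agent.P088
open Vale.Agent.P136 (D Dp Dm Sm Tst D_add_at D_sub_at D_mul_at D_const D_sum_at D_congr D_neg
  D_comm_at contDiffAt_D contDiffOn_D dAt_of_on)

namespace IsoEnd
variable {n : ℕ} {ι : Type} [Fintype ι] [DecidableEq ι]

lemma fd_sum (f : En n → ℝ) (y w : En n) : fderiv ℝ f y w = ∑ i, w i * D (ee i) f y := by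
  have h : w = ∑ i, w i • ee i := by
    ext k; simp [ee, Pi.single_apply]
  conv_lhs => rw [h]
  simp [D]

lemma D_proj {Φ : En n → En n} {y : En n} (hΦ : DifferentiableAt ℝ Φ y) (v : En n) (k : Fin n) :
    D v (fun z => Φ z k) y = fderiv ℝ Φ y v k := by
  have h := (EuclideanSpace.proj (𝕜 := ℝ) k).hasFDerivAt.comp y hΦ.hasFDerivAt
  have h2 : fderiv ℝ (fun z => Φ z k) y = _ := h.fderiv
  simp only [D, h2]
  rfl

lemma chain {φ : En n → ℝ} {Φ : En n → En n} {y : En n} (hφ : DifferentiableAt ℝ φ (Φ y))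
    (hΦ : DifferentiableAt ℝ Φ y) (v : En n) :
    D v (fun z => φ (Φ z)) y = ∑ k, D (ee k) φ (Φ y) * D v (fun z => Φ z k) y := by
  have h : fderiv ℝ (fun z => φ (Φ z)) y = _ := (hφ.hasFDerivAt.comp y hΦ.hasFDerivAt).fderiv
  rw [D, h, ContinuousLinearMap.comp_apply, fd_sum]
  exact Finset.sum_congr rfl fun k _ => by rw [D_proj hΦ, mul_comm]

lemma sm_coord (k : Fin n) : Sm (fun x : En n => x k) :=
  (EuclideanSpace.proj (𝕜 := ℝ) k).contDiff

lemma D_coord (i k : Fin n) (x : En n) :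
    D (ee i) (fun x : En n => x k) x = if k = i then 1 else 0 := by
  have h := D_proj (Φ := fun z => z) (y := x) differentiableAt_id (ee i) k
  rw [h]
  simp [ee]

lemma on_proj {Φ : En n → En n} {V : Set (En n)} (hΦ : ContDiffOn ℝ ∞ Φ V) (k : Fin n) :
    ContDiffOn ℝ ∞ (fun z => Φ z k) V :=
  (sm_coord k).comp_contDiffOn hΦ

lemma const_on {f : En n → ℝ} {V : Set (En n)} (hV : IsOpen V) (hc : IsPreconnected V)
    (hf : ContDiffOn ℝ ∞ f V) (h : ∀ y ∈ V, ∀ i, D (ee i) f y = 0) {x y : En n} (hx : x ∈ V)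
    (hy : y ∈ V) : f x = f y := by
  refine hV.is_const_of_fderiv_eq_zero (𝕜 := ℝ) hc (hf.differentiableOn (by simp))
    (fun z hz => ?_) hx hy
  ext w
  simp [fd_sum, h z hz]

section dgd
variable {γ : MatF n} {V : Set (En n)} {f g : En n → ℝ} {y : En n}

lemma XX_on (hγ : SmM γ) (hV : IsOpen V) (hf : ContDiffOn ℝ ∞ f V) (i : Fin n) :
    ContDiffOn ℝ ∞ (XX ee γ f i) V :=
  ContDiffOn.sum fun j _ => (hγ i j).contDiffOn.mul (contDiffOn_D hV hf _)

lemma dgd_congr (h : f =ᶠ[𝓝 y] g) : dgd ee γ f y = dgd ee γ g y := by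
  simp only [dgd, dvg]
  refine Finset.sum_congr rfl fun i _ => D_congr ?_ _
  filter_upwards [h.eventuallyEq_nhds] with z hz
  exact Finset.sum_congr rfl fun j _ => by rw [D_congr hz]

lemma dgd_const (c : ℝ) : dgd ee γ (fun _ => c) y = 0 := by
  have h : ∀ i, XX ee γ (fun _ => c) i = fun _ => 0 := fun i => by
    funext z; simp [XX, D_const]
  simp [dgd, dvg, h, D_const]

lemma sym_sum {γ : Fin n → Fin n → ℝ} (hs : ∀ i j, γ i j = γ j i) (F : Fin n → Fin n → ℝ) :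
    ∑ i, ∑ j, γ i j * F i j = ∑ i, ∑ j, γ i j * F j i := by
  rw [Finset.sum_comm]
  exact Finset.sum_congr rfl fun i _ => Finset.sum_congr rfl fun j _ => by rw [hs]

lemma dgd_mul (hγ : SmM γ) (hs : SymM γ) (hV : IsOpen V) (hf : ContDiffOn ℝ ∞ f V)
    (hg : ContDiffOn ℝ ∞ g V) (hy : y ∈ V) :
    dgd ee γ (fun z => f z * g z) y = f y * dgd ee γ g y + g y * dgd ee γ f y +
      2 * ∑ i, ∑ j, γ i j y * (D (ee i) f y * D (ee j) g y) := by
  have h1 : ∀ i, D (ee i) (XX ee γ (fun z => f z * g z) i) y =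
      f y * D (ee i) (XX ee γ g i) y + g y * D (ee i) (XX ee γ f i) y +
        (∑ j, γ i j y * (D (ee i) f y * D (ee j) g y) +
          ∑ j, γ i j y * (D (ee j) f y * D (ee i) g y)) := by
    intro i
    have e : XX ee γ (fun z => f z * g z) i =ᶠ[𝓝 y]
        fun z => f z * XX ee γ g i z + g z * XX ee γ f i z := by
      filter_upwards [hV.mem_nhds hy] with z hz
      simp only [XX, D_mul_at (dAt_of_on hV hf hz) (dAt_of_on hV hg hz), Finset.mul_sum,
        ← Finset.sum_add_distrib]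
      exact Finset.sum_congr rfl fun j _ => by ring
    have a1 := dAt_of_on hV hf hy
    have a2 := dAt_of_on hV hg hy
    have a3 := dAt_of_on hV (XX_on hγ hV hf i) hy
    have a4 := dAt_of_on hV (XX_on hγ hV hg i) hy
    rw [D_congr e, D_add_at (a1.fun_mul a4) (a2.fun_mul a3), D_mul_at a1 a4, D_mul_at a2 a3]
    have b1 : D (ee i) f y * XX ee γ g i y = ∑ j, γ i j y * (D (ee i) f y * D (ee j) g y) := by
      simp only [XX, Finset.mul_sum]
      exact Finset.sum_congr rfl fun j _ => by ring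
    have b2 : D (ee i) g y * XX ee γ f i y = ∑ j, γ i j y * (D (ee j) f y * D (ee i) g y) := by
      simp only [XX, Finset.mul_sum]
      exact Finset.sum_congr rfl fun j _ => by ring
    rw [b1, b2]; ring
  have h2 := sym_sum (γ := fun i j => γ i j y) (fun i j => by rw [hs i j])
    fun i j => D (ee i) f y * D (ee j) g y
  simp only [dgd, dvg, h1, Finset.sum_add_distrib, ← Finset.mul_sum]
  rw [← h2]; ring

lemma dgd_sum {κ : Type} [Fintype κ] {F : κ → En n → ℝ} (hγ : SmM γ) (hV : IsOpen V)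
    (hF : ∀ a, ContDiffOn ℝ ∞ (F a) V) (hy : y ∈ V) :
    dgd ee γ (fun z => ∑ a, F a z) y = ∑ a, dgd ee γ (F a) y := by
  simp only [dgd, dvg]
  rw [Finset.sum_comm]
  refine Finset.sum_congr rfl fun i _ => ?_
  have e : XX ee γ (fun z => ∑ a, F a z) i =ᶠ[𝓝 y] fun z => ∑ a, XX ee γ (F a) i z := by
    filter_upwards [hV.mem_nhds hy] with z hz
    simp only [XX, D_sum_at _ (fun a _ => dAt_of_on hV (hF a) hz), Finset.mul_sum]
    exact Finset.sum_comm
  rw [D_congr e, D_sum_at _ fun a _ => dAt_of_on hV (XX_on hγ hV (hF a) i) hy]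

lemma dgd_sub_const (c : ℝ) : dgd ee γ (fun z => f z - c) y = dgd ee γ f y := by
  have h : ∀ i, XX ee γ (fun z => f z - c) i = XX ee γ f i := fun i => by
    funext z; simp [XX, D, fderiv_sub_const]
  simp only [dgd, dvg, h]

lemma dgd_coord (k : Fin n) (x : En n) :
    dgd ee γ (fun x : En n => x k) x = ∑ i, D (ee i) (γ i k) x := by
  have h : ∀ i, XX ee γ (fun x : En n => x k) i = γ i k := fun i => by
    funext z; simp [XX, D_coord]
  simp only [dgd, dvg, h]

end dgd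

omit [DecidableEq ι] in
lemma app_mul {L : Op n ι} (hL : L.Good) {V : Set (En n)} (hV : IsOpen V) {f : En n → ℝ}
    {u : ι → En n → ℝ} (hf : ContDiffOn ℝ ∞ f V) (hu : ∀ a, ContDiffOn ℝ ∞ (u a) V) {y : En n}
    (hy : y ∈ V) (a : ι) :
    L.app (fun a z => f z * u a z) a y = f y * L.app u a y + dgd ee L.γ f y * u a y +
      ∑ i, D (ee i) f y * (2 * ∑ j, L.γ i j y * D (ee j) (u a) y +
        ∑ a', L.b i a a' y * u a' y) := by
  have e1 : ∑ i, ∑ a', L.b i a a' y * D (ee i) (fun z => f z * u a' z) y =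
      f y * ∑ i, ∑ a', L.b i a a' y * D (ee i) (u a') y +
        ∑ i, D (ee i) f y * ∑ a', L.b i a a' y * u a' y := by
    simp only [Finset.mul_sum, ← Finset.sum_add_distrib]
    refine Finset.sum_congr rfl fun i _ => Finset.sum_congr rfl fun a' _ => ?_
    rw [D_mul_at (dAt_of_on hV hf hy) (dAt_of_on hV (hu a') hy)]; ring
  have e2 : ∑ a', L.c a a' y * (f y * u a' y) = f y * ∑ a', L.c a a' y * u a' y := by
    rw [Finset.mul_sum]
    exact Finset.sum_congr rfl fun a' _ => by ring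
  have e3 : ∑ i, D (ee i) f y * (2 * ∑ j, L.γ i j y * D (ee j) (u a) y +
      ∑ a', L.b i a a' y * u a' y) =
      2 * ∑ i, ∑ j, L.γ i j y * (D (ee i) f y * D (ee j) (u a) y) +
        ∑ i, D (ee i) f y * ∑ a', L.b i a a' y * u a' y := by
    simp only [mul_add, Finset.sum_add_distrib]
    congr 1
    simp only [Finset.mul_sum]
    exact Finset.sum_congr rfl fun i _ => Finset.sum_congr rfl fun j _ => by ring
  simp only [Op.app]
  rw [dgd_mul hL.1 hL.2.1 hV hf (hu a) hy, e1, e2, e3]; ring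

lemma app_basis {L : Op n ι} (hL : L.Good) {φ : En n → ℝ} (hφ : Sm φ) (c a : ι) (x : En n) :
    L.app (fun a z => φ z * if a = c then 1 else 0) a x = φ x * L.c a c x +
      dgd ee L.γ φ x * (if a = c then 1 else 0) + ∑ i, D (ee i) φ x * L.b i a c x := by
  rw [app_mul hL isOpen_univ hφ.contDiffOn (u := fun a _ => if a = c then 1 else 0)
    (fun _ => contDiffOn_const) (mem_univ x)]
  simp [Op.app, dgd_const, D_const]

section inter
variable {L₁ L₂ : Op n ι} {V : Set (En n)} {Φ : En n → En n} {S : ι → ι → En n → ℝ}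
  {μ : En n → ℝ}

lemma test (h1 : L₁.Good) (h2 : L₂.Good) (hV : IsOpen V) (hI : Inter L₁ L₂ V Φ S μ)
    {φ : En n → ℝ} (hφ : Sm φ) {y : En n} (hy : y ∈ V) (a c : ι) :
    φ (Φ y) * L₂.app (fun a => S a c) a y + dgd ee L₂.γ (fun z => φ (Φ z)) y * S a c y +
      ∑ i, D (ee i) (fun z => φ (Φ z)) y * (2 * ∑ j, L₂.γ i j y * D (ee j) (S a c) y +
        ∑ a', L₂.b i a a' y * S a' c y) =
      μ y * (φ (Φ y) * ∑ a', S a a' y * L₁.c a' c (Φ y) + dgd ee L₁.γ φ (Φ y) * S a c y +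
        ∑ k, D (ee k) φ (Φ y) * ∑ a', S a a' y * L₁.b k a' c (Φ y)) := by
  have h := hI.2.2.2.2 (fun a z => φ z * if a = c then 1 else 0)
    (fun a => hφ.mul contDiff_const) y hy a
  have e : (fun a z => ∑ a', S a a' z * (φ (Φ z) * if a' = c then 1 else 0)) =
      fun a z => φ (Φ z) * S a c z := by
    funext a z; simp [mul_comm]
  rw [e, app_mul h2 hV (f := fun z => φ (Φ z)) (hφ.comp_contDiffOn hI.1) (u := fun a => S a c)
    (fun a => hI.2.1 a c) hy] at h
  refine h.trans ?_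
  congr 1
  simp only [app_basis h1 hφ, mul_add, Finset.sum_add_distrib, Finset.mul_sum]
  congr 1
  · congr 1
    · exact Finset.sum_congr rfl fun _ _ => by ring
    · simp [mul_comm]
  · rw [Finset.sum_comm]
    exact Finset.sum_congr rfl fun _ _ => Finset.sum_congr rfl fun _ _ => by ring

lemma E0 (h1 : L₁.Good) (h2 : L₂.Good) (hV : IsOpen V) (hI : Inter L₁ L₂ V Φ S μ)
    {y : En n} (hy : y ∈ V) (a c : ι) :
    L₂.app (fun a => S a c) a y = μ y * ∑ a', S a a' y * L₁.c a' c (Φ y) := by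
  simpa [dgd_const, D_const] using test h1 h2 hV hI (φ := fun _ => 1) contDiff_const hy a c

lemma star (h1 : L₁.Good) (h2 : L₂.Good) (hV : IsOpen V) (hI : Inter L₁ L₂ V Φ S μ)
    {φ : En n → ℝ} (hφ : Sm φ) {y : En n} (hy : y ∈ V) (a c : ι) :
    dgd ee L₂.γ (fun z => φ (Φ z)) y * S a c y +
      ∑ i, D (ee i) (fun z => φ (Φ z)) y * (2 * ∑ j, L₂.γ i j y * D (ee j) (S a c) y +
        ∑ a', L₂.b i a a' y * S a' c y) =
      μ y * (dgd ee L₁.γ φ (Φ y) * S a c y +
        ∑ k, D (ee k) φ (Φ y) * ∑ a', S a a' y * L₁.b k a' c (Φ y)) := by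
  have h := test h1 h2 hV hI hφ hy a c
  rw [E0 h1 h2 hV hI hy] at h
  linear_combination h

lemma E1 (h1 : L₁.Good) (h2 : L₂.Good) (hV : IsOpen V) (hI : Inter L₁ L₂ V Φ S μ)
    {y : En n} (hy : y ∈ V) (k : Fin n) (a c : ι) :
    dgd ee L₂.γ (fun z => Φ z k) y * S a c y +
      ∑ i, D (ee i) (fun z => Φ z k) y * (2 * ∑ j, L₂.γ i j y * D (ee j) (S a c) y +
        ∑ a', L₂.b i a a' y * S a' c y) =
      μ y * ((∑ i, D (ee i) (L₁.γ i k) (Φ y)) * S a c y +
        ∑ a', S a a' y * L₁.b k a' c (Φ y)) := by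
  have h := star h1 h2 hV hI (sm_coord k) hy a c
  simpa [D_coord, dgd_coord] using h

lemma E2 [Nonempty ι] (h1 : L₁.Good) (h2 : L₂.Good) (hV : IsOpen V) (hI : Inter L₁ L₂ V Φ S μ)
    {y : En n} (hy : y ∈ V) (k l : Fin n) :
    ∑ i, ∑ j, L₂.γ i j y * (D (ee i) (fun z => Φ z k) y * D (ee j) (fun z => Φ z l) y) =
      μ y * L₁.γ k l (Φ y) := by
  obtain ⟨a, c, hac⟩ : ∃ a c, S a c y ≠ 0 := by
    by_contra hne
    push Not at hne
    refine (hI.2.2.2.1 y hy).2.1 ?_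
    have : (Matrix.of fun a a' => S a a' y) = 0 := by ext a c; exact hne a c
    rw [this, Matrix.det_zero]
  have hk := star h1 h2 hV hI (sm_coord k) hy a c
  have hl := star h1 h2 hV hI (sm_coord l) hy a c
  have hkl := star h1 h2 hV hI ((sm_coord k).mul (sm_coord l)) hy a c
  have p1 := on_proj hI.1 k
  have p2 := on_proj hI.1 l
  rw [dgd_mul h2.1 h2.2.1 hV p1 p2 hy,
    dgd_mul h1.1 h1.2.1 isOpen_univ (sm_coord k).contDiffOn (sm_coord l).contDiffOn (mem_univ _)]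
    at hkl
  simp only [D_mul_at (dAt_of_on hV p1 hy) (dAt_of_on hV p2 hy),
    D_mul_at ((sm_coord k).dAt _) ((sm_coord l).dAt _)] at hkl
  have e1 : ∀ (u v M : Fin n → ℝ) (s t : ℝ), ∑ i, (s * u i + v i * t) * M i =
      s * ∑ i, u i * M i + t * ∑ i, v i * M i := by
    intro u v M s t
    simp only [Finset.mul_sum, ← Finset.sum_add_distrib]
    exact Finset.sum_congr rfl fun _ _ => by ring
  rw [e1, e1] at hkl
  have e2 : ∑ i, ∑ j, L₁.γ i j (Φ y) * (D (ee i) (fun x : En n => x k) (Φ y) *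
      D (ee j) (fun x : En n => x l) (Φ y)) = L₁.γ k l (Φ y) := by
    simp [D_coord]
  rw [e2] at hkl
  refine mul_right_cancel₀ hac ?_
  linear_combination (1 / 2 : ℝ) * (hkl - Φ y l * hk - Φ y k * hl)

end inter

section alg

omit [Fintype ι] [DecidableEq ι] in
lemma alg_omega {K : Matrix (Fin n) (Fin n) ℝ} (hK : K.det ≠ 0) {N : Fin n → Matrix ι ι ℝ}
    {S : Matrix ι ι ℝ} {r : Fin n → ℝ} (h : ∀ k, ∑ j, K k j • N j = r k • S) :
    ∃ om : Fin n → ℝ, (∀ j, N j = om j • S) ∧ K *ᵥ om = r := by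
  refine ⟨K⁻¹ *ᵥ r, fun j => ?_, ?_⟩
  · ext a c
    have h1 : K *ᵥ (fun j => N j a c) = S a c • r := by
      funext k
      have := congrFun (congrFun (h k) a) c
      simpa [Matrix.sum_apply, Matrix.mulVec, dotProduct, mul_comm] using this
    have h2 := congrArg (fun v => K⁻¹ *ᵥ v) h1
    simp only [Matrix.mulVec_mulVec, Matrix.nonsing_inv_mul _ hK.isUnit, Matrix.one_mulVec,
      Matrix.mulVec_smul] at h2
    have h3 := congrFun h2 j
    simpa [mul_comm] using h3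
  · rw [Matrix.mulVec_mulVec, Matrix.mul_nonsing_inv _ hK.isUnit, Matrix.one_mulVec]

omit [DecidableEq ι] in
lemma tr_skew {A H : Matrix ι ι ℝ} (hA : Aᵀ = -A) (hH : Hᵀ = H) : (H * A).trace = 0 := by
  have h : (H * A).trace = -(H * A).trace := by
    conv_lhs => rw [← Matrix.trace_transpose, Matrix.transpose_mul, hA, hH, Matrix.neg_mul,
      Matrix.trace_neg, Matrix.trace_mul_comm]
  linarith

omit [DecidableEq ι] in
lemma tr_skew' {A : Matrix ι ι ℝ} (hA : Aᵀ = -A) (S : Matrix ι ι ℝ) :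
    (Sᵀ * (A * S)).trace = 0 := by
  rw [← Matrix.mul_assoc, Matrix.trace_mul_cycle]
  exact tr_skew hA (by simp [Matrix.transpose_mul])

omit [DecidableEq ι] in
lemma tr_skew'' {A : Matrix ι ι ℝ} (hA : Aᵀ = -A) (S : Matrix ι ι ℝ) :
    (Sᵀ * (S * A)).trace = 0 := by
  rw [← Matrix.mul_assoc]
  exact tr_skew hA (by simp [Matrix.transpose_mul])

omit [DecidableEq ι] in
lemma tr_eq (X Y : Matrix ι ι ℝ) : (Xᵀ * Y).trace = ∑ a, ∑ c, X a c * Y a c := by
  simp only [Matrix.trace, Matrix.diag, Matrix.mul_apply, Matrix.transpose_apply]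
  exact Finset.sum_comm

omit [DecidableEq ι] in
lemma tr_sym (X Y : Matrix ι ι ℝ) : (Xᵀ * Y).trace = (Yᵀ * X).trace := by
  simp only [tr_eq, mul_comm]

omit [Fintype ι] [DecidableEq ι] in
lemma pull1 {J G₁ G₂ : Matrix (Fin n) (Fin n) ℝ} {μ : ℝ} (h : J * G₂ * Jᵀ = μ • G₁)
    (A : Fin n → Matrix ι ι ℝ) (k : Fin n) :
    ∑ j, (J * G₂) k j • ∑ l, J l j • A l = μ • ∑ l, G₁ k l • A l := by
  simp only [Finset.smul_sum, smul_smul]
  rw [Finset.sum_comm]
  refine Finset.sum_congr rfl fun l _ => ?_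
  rw [← Finset.sum_smul]
  congr 1
  exact congrFun (congrFun h k) l

omit [DecidableEq ι] in
lemma pull2 {J G₁ G₂ : Matrix (Fin n) (Fin n) ℝ} {μ : ℝ} (h : J * G₂ * Jᵀ = μ • G₁)
    (A : Fin n → Matrix ι ι ℝ) :
    ∑ i, ∑ j, G₂ i j • ((∑ k, J k i • A k) * ∑ l, J l j • A l) =
      μ • ∑ k, ∑ l, G₁ k l • (A k * A l) := by
  have h1 : ∀ k, μ • ∑ l, G₁ k l • (A k * A l) =
      ∑ i, ∑ j, (G₂ i j * J k i) • (A k * ∑ l, J l j • A l) := by
    intro k
    have e : μ • ∑ l, G₁ k l • (A k * A l) = A k * (μ • ∑ l, G₁ k l • A l) := by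
      simp only [Matrix.mul_smul, Finset.mul_sum]
    rw [e, ← pull1 h A k, Finset.sum_comm, Finset.mul_sum]
    refine Finset.sum_congr rfl fun j _ => ?_
    rw [Matrix.mul_smul, ← Finset.sum_smul, Matrix.mul_apply]
    congr 1
    exact Finset.sum_congr rfl fun _ _ => mul_comm _ _
  rw [Finset.smul_sum]
  simp only [h1]
  conv_rhs => rw [Finset.sum_comm]
  refine Finset.sum_congr rfl fun i _ => ?_
  rw [Finset.sum_comm]
  refine Finset.sum_congr rfl fun j _ => ?_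
  simp only [Finset.sum_mul, Finset.smul_sum, Matrix.smul_mul, smul_smul]

omit [DecidableEq ι] in
lemma bochner {G : Fin n → Fin n → ℝ} (hG : ∀ i j, G i j = G j i) {S LS K₁ K₂ : Matrix ι ι ℝ}
    {dS A B : Fin n → Matrix ι ι ℝ} {om : Fin n → ℝ} (hA : ∀ i, (A i)ᵀ = -A i)
    (hB : ∀ i, (B i)ᵀ = -B i) (h1 : K₁ᵀ = -K₁) (h2 : K₂ᵀ = -K₂)
    (hN : ∀ j, dS j + A j * S - S * B j = om j • S)
    (hE : LS + ∑ i, ∑ j, (2 * G i j) • (A j * dS i) + (K₂ + ∑ i, ∑ j, G i j • (A i * A j)) * S =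
      S * (K₁ + ∑ i, ∑ j, G i j • (B i * B j))) :
    (Sᵀ * LS).trace + ∑ i, ∑ j, G i j * ((dS i)ᵀ * dS j).trace =
      (∑ i, ∑ j, G i j * (om i * om j)) * (Sᵀ * S).trace := by
  have hT := congrArg (fun X => (Sᵀ * X).trace) hE
  simp only [Matrix.mul_add, Matrix.add_mul, Matrix.trace_add, Finset.mul_sum, Finset.sum_mul,
    Matrix.trace_sum, Matrix.mul_smul, Matrix.smul_mul, Matrix.trace_smul, smul_eq_mul,
    tr_skew' h2, tr_skew'' h1] at hT
  have e : ∀ i j, ((dS i)ᵀ * dS j).trace = om i * om j * (Sᵀ * S).trace -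
      (Sᵀ * (S * (B j * B i))).trace + (Sᵀ * (A j * dS i)).trace + (Sᵀ * (A i * dS j)).trace +
        (Sᵀ * (A i * A j * S)).trace := by
    intro i j
    have a1 : ((dS i + A i * S)ᵀ * (dS j + A j * S)).trace = ((dS i)ᵀ * dS j).trace -
        (Sᵀ * (A j * dS i)).trace - (Sᵀ * (A i * dS j)).trace - (Sᵀ * (A i * A j * S)).trace := by
      rw [Matrix.mul_add, Matrix.trace_add, Matrix.transpose_add, Matrix.add_mul, Matrix.add_mul,
        Matrix.trace_add, Matrix.trace_add, tr_sym (dS i) (A j * S)]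
      simp only [Matrix.transpose_mul, hA, Matrix.mul_neg, Matrix.neg_mul, Matrix.trace_neg,
        Matrix.mul_assoc]
      ring
    have a2 : ∀ j, dS j + A j * S = om j • S + S * B j := fun j => by rw [← hN]; abel
    have a3 : ((S * B i)ᵀ * (S * B j)).trace = -(Sᵀ * (S * (B j * B i))).trace := by
      rw [Matrix.transpose_mul, hB, Matrix.mul_assoc, Matrix.trace_mul_comm]
      simp only [Matrix.mul_neg, Matrix.trace_neg, Matrix.mul_assoc]
    rw [a2, a2, Matrix.mul_add, Matrix.trace_add, Matrix.transpose_add, Matrix.add_mul,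
      Matrix.add_mul, Matrix.trace_add, Matrix.trace_add, a3, tr_sym (S * B i)] at a1
    simp only [Matrix.transpose_smul, Matrix.smul_mul, Matrix.mul_smul, Matrix.trace_smul,
      tr_skew'' (hB _), smul_eq_mul] at a1
    linarith
  have s1 := sym_sum hG fun i j => (Sᵀ * (S * (B i * B j))).trace
  have s2 := sym_sum hG fun i j => (Sᵀ * (A j * dS i)).trace
  have s3 : ∑ i, ∑ j, 2 * G i j * (Sᵀ * (A j * dS i)).trace =
      2 * ∑ i, ∑ j, G i j * (Sᵀ * (A j * dS i)).trace := by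
    simp only [Finset.mul_sum, mul_assoc]
  have s4 : (∑ i, ∑ j, G i j * (om i * om j)) * (Sᵀ * S).trace =
      ∑ i, ∑ j, G i j * (om i * om j * (Sᵀ * S).trace) := by
    simp only [Finset.sum_mul, mul_assoc]
  rw [s3] at hT
  rw [s4]
  simp only [e, mul_add, mul_sub, Finset.sum_add_distrib, Finset.sum_sub_distrib]
  linarith

omit [DecidableEq ι] in
lemma tr_dh {S dS A B : Matrix ι ι ℝ} {om : ℝ} (hA : Aᵀ = -A) (hB : Bᵀ = -B)
    (hN : dS + A * S - S * B = om • S) : (Sᵀ * dS).trace = om * (Sᵀ * S).trace := by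
  have h : dS = om • S + S * B - A * S := by rw [← hN]; abel
  rw [h, Matrix.mul_sub, Matrix.mul_add, Matrix.trace_sub, Matrix.trace_add, tr_skew' hA,
    tr_skew'' hB, Matrix.mul_smul, Matrix.trace_smul]
  simp

omit [DecidableEq ι] in
lemma tr_dH {S dS A B : Matrix ι ι ℝ} (hA : Aᵀ = -A) (hB : Bᵀ = -B)
    (hN : dS + A * S - S * B = 0) : ((Sᵀ * S)ᵀ * (Sᵀ * dS + dSᵀ * S)).trace = 0 := by
  have h : dS = S * B - A * S := by rw [← sub_eq_zero, ← hN]; abel
  have h2 : Sᵀ * dS + dSᵀ * S = (Sᵀ * S) * B - B * (Sᵀ * S) := by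
    rw [h]
    simp only [Matrix.transpose_sub, Matrix.transpose_mul, hA, hB, Matrix.mul_sub, Matrix.sub_mul,
      Matrix.mul_neg, Matrix.neg_mul, Matrix.mul_assoc]
    abel
  rw [h2, Matrix.mul_sub, Matrix.trace_sub, tr_skew' hB, tr_skew'' hB, sub_zero]

omit [DecidableEq ι] in
lemma tr_zero {X : Matrix ι ι ℝ} (h : (Xᵀ * X).trace = 0) : X = 0 := by
  rw [tr_eq] at h
  ext a c
  have h3 := (Finset.sum_eq_zero_iff_of_nonneg
    fun a _ => Finset.sum_nonneg fun c _ => mul_self_nonneg (X a c)).1 h a (Finset.mem_univ _)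
  exact mul_self_eq_zero.1 ((Finset.sum_eq_zero_iff_of_nonneg
    fun c _ => mul_self_nonneg (X a c)).1 h3 c (Finset.mem_univ _))

lemma eq_one {H : Matrix ι ι ℝ} (h1 : H.trace = Fintype.card ι)
    (h2 : (Hᵀ * H).trace = Fintype.card ι) : H = 1 := by
  have h3 : ((H - 1)ᵀ * (H - 1)).trace = 0 := by
    simp only [Matrix.transpose_sub, Matrix.transpose_one, Matrix.mul_sub, Matrix.sub_mul,
      Matrix.trace_sub, Matrix.mul_one, Matrix.one_mul, Matrix.trace_transpose, h1, h2,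
      Matrix.trace_one]
    ring
  exact sub_eq_zero.1 (tr_zero h3)

lemma det_ne {M : Matrix (Fin n) (Fin n) ℝ}
    (h : ∀ ξ : Fin n → ℝ, ξ ≠ 0 → 0 < ∑ i, ∑ j, M i j * ξ i * ξ j) : M.det ≠ 0 := by
  intro h0
  obtain ⟨v, hv, hM⟩ := Matrix.exists_mulVec_eq_zero_iff.2 h0
  refine (h v hv).ne' (Finset.sum_eq_zero fun i _ => ?_)
  have h1 : ∑ j, M i j * v j = 0 := congrFun hM i
  rw [← zero_mul (v i), ← h1, Finset.sum_mul]
  exact Finset.sum_congr rfl fun _ _ => by ring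

lemma metric_of {J g₁ g₂ : Matrix (Fin n) (Fin n) ℝ} {μ : ℝ} (hμ : 0 < μ) (hJ : J.det ≠ 0)
    (h1 : 0 < g₁.det) (h2 : 0 < g₂.det)
    (h : J * (√g₂.det • g₂⁻¹) * Jᵀ = μ • (√g₁.det • g₁⁻¹)) :
    ∃ l : ℝ, 0 < l ∧ g₂ = l • (Jᵀ * g₁ * J) ∧ l ^ 2 * μ ^ 2 = l ^ n * J.det ^ 2 := by
  have s1 := Real.sqrt_pos.2 h1
  have s2 := Real.sqrt_pos.2 h2
  have hT : Jᵀ.det ≠ 0 := by rwa [Matrix.det_transpose]
  have e : g₂ = (√g₂.det / (μ * √g₁.det)) • (Jᵀ * g₁ * J) := by
    have a1 := congrArg (fun X => g₂ * J⁻¹ * X * g₁ * J) h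
    simp only [Matrix.mul_smul, Matrix.smul_mul, smul_smul, Matrix.mul_assoc,
      Matrix.nonsing_inv_mul_cancel_left _ _ hJ.isUnit,
      Matrix.nonsing_inv_mul_cancel_left _ _ h1.ne'.isUnit,
      Matrix.mul_nonsing_inv_cancel_left _ _ h2.ne'.isUnit, Matrix.nonsing_inv_mul _ hJ.isUnit,
      Matrix.mul_one] at a1
    rw [div_eq_inv_mul, ← smul_smul, Matrix.mul_assoc, a1, smul_smul,
      inv_mul_cancel₀ (mul_pos hμ s1).ne', one_smul]
  refine ⟨_, by positivity, e, ?_⟩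
  have d := congrArg Matrix.det e
  rw [Matrix.det_smul, Matrix.det_mul, Matrix.det_mul, Matrix.det_transpose, Fintype.card_fin] at d
  refine mul_right_cancel₀ h1.ne' ?_
  have e2 : (√g₂.det / (μ * √g₁.det)) ^ 2 * μ ^ 2 * g₁.det = g₂.det := by
    rw [div_pow, mul_pow, Real.sq_sqrt h1.le, Real.sq_sqrt h2.le]
    field_simp
  rw [e2]
  linear_combination d

lemma hasDerivAt_det_line (M X : Matrix (Fin n) (Fin n) ℝ) (hM : M.det ≠ 0) :
    HasDerivAt (fun t : ℝ => (M + t • X).det) (M.det * (M⁻¹ * X).trace) 0 := by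
  have h1 : ∀ t : ℝ, (M + t • X).det = M.det * (1 + t • (M⁻¹ * X)).det := by
    intro t
    rw [← Matrix.det_mul, Matrix.mul_add, Matrix.mul_one, Matrix.mul_smul, ← Matrix.mul_assoc,
      Matrix.mul_nonsing_inv _ hM.isUnit, Matrix.one_mul]
  obtain ⟨P, hP⟩ : ∃ P : Polynomial ℝ, ∀ t : ℝ, (1 + t • (M⁻¹ * X)).det
      = 1 + (M⁻¹ * X).trace * t + P.eval t * t ^ 2 := ⟨_, fun t => Matrix.det_one_add_smul t _⟩
  simp only [h1, hP]
  refine HasDerivAt.const_mul _ ?_
  have h2 : HasDerivAt (fun t : ℝ => P.eval t * t ^ 2) 0 0 := by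
    have := (P.hasDerivAt (0 : ℝ)).fun_mul (hasDerivAt_pow 2 (0 : ℝ))
    simpa using this
  have h3 : HasDerivAt (fun t : ℝ => 1 + (M⁻¹ * X).trace * t) ((M⁻¹ * X).trace) 0 := by
    simpa using ((hasDerivAt_id (0 : ℝ)).const_mul ((M⁻¹ * X).trace)).const_add 1
  simpa using h3.fun_add h2

lemma contDiff_det : ContDiff ℝ ∞ fun A : Fin n → Fin n → ℝ => (Matrix.of A).det := by
  simp only [Matrix.det_apply']
  exact ContDiff.sum fun σ _ => contDiff_const.mul (contDiff_prod fun i _ => by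
    simp only [Matrix.of_apply]; fun_prop)

lemma D_det {M : Fin n → Fin n → En n → ℝ} {y : En n} (h : ∀ i j, DifferentiableAt ℝ (M i j) y)
    (h0 : (Matrix.of fun i j => M i j y).det ≠ 0) (v : En n) :
    D v (fun z => (Matrix.of fun i j => M i j z).det) y = (Matrix.of fun i j => M i j y).det *
      ((Matrix.of fun i j => M i j y)⁻¹ * Matrix.of fun i j => D v (M i j) y).trace := by
  let F : (Fin n → Fin n → ℝ) → ℝ := fun A => (Matrix.of A).det
  have hF : Differentiable ℝ F := contDiff_det.differentiable (by simp)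
  let m : En n → (Fin n → Fin n → ℝ) := fun y i j => M i j y
  have hm : DifferentiableAt ℝ m y :=
    differentiableAt_pi.2 fun i => differentiableAt_pi.2 fun j => h i j
  let X : Fin n → Fin n → ℝ := fun i j => D v (M i j) y
  have hX : fderiv ℝ m y v = X := by
    ext i j
    have h1 : HasFDerivAt (M i j) _ y :=
      hasFDerivAt_pi'.1 (hasFDerivAt_pi'.1 hm.hasFDerivAt i) j
    simp only [X, D]
    rw [h1.fderiv]
    simp
  have h1 : D v (fun z => (Matrix.of fun i j => M i j z).det) y = fderiv ℝ F (m y) X := by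
    rw [D, show (fun z => (Matrix.of fun i j => M i j z).det) = F ∘ m from rfl,
      fderiv_comp y (hF _) hm, ContinuousLinearMap.comp_apply, hX]
  have h2 : HasDerivAt (fun t : ℝ => F (m y + t • X)) (fderiv ℝ F (m y) X) 0 :=
    (hF (m y)).hasFDerivAt.hasLineDerivAt X
  rw [h1]
  exact h2.unique (hasDerivAt_det_line (Matrix.of (m y)) (Matrix.of X) h0)

end alg

end IsoEnd
end Vale.Agent.P088
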