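import Vale.Agent.P088.Top

/-!
# P088: the connection Laplacian is self-transposed; isometries intertwine
-/

open MeasureTheory Set Metric Filter
open scoped ContDiff Topology Matrix

noncomputable section
namespace Vale.Agent.P088
open Vale.Agent.P136 (D Dp Dm Sm Tst D_add_at D_mul_at D_const D_const_mul_at D_sum_at D_congr
  D_neg D_comm_at contDiffAt_D)

namespace IsoInter

variable {n : ℕ} {ι : Type} [Fintype ι] [DecidableEq ι]

theorem dA {F : Type} [NormedAddCommGroup F] [NormedSpace ℝ F] {f : En n → F} {x : En n}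
    (h : ContDiffAt ℝ ∞ f x) : DifferentiableAt ℝ f x :=
  h.differentiableAt (by simp)

theorem det_cda {M : En n → Matrix (Fin n) (Fin n) ℝ} {x : En n}
    (h : ∀ i j, ContDiffAt ℝ ∞ (fun y => M y i j) x) : ContDiffAt ℝ ∞ (fun y => (M y).det) x := by
  simp only [Matrix.det_apply']
  exact ContDiffAt.sum fun σ _ => contDiffAt_const.mul (contDiffAt_prod fun i _ => h _ _)

theorem inv_apply (M : Matrix (Fin n) (Fin n) ℝ) (i j : Fin n) :
    M⁻¹ i j = (M.det)⁻¹ * M.adjugate i j := by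
  rw [Matrix.inv_def, Ring.inverse_eq_inv', Matrix.smul_apply, smul_eq_mul]

theorem inv_cda {M : En n → Matrix (Fin n) (Fin n) ℝ} {x : En n}
    (h : ∀ i j, ContDiffAt ℝ ∞ (fun y => M y i j) x) (h0 : (M x).det ≠ 0) (i j : Fin n) :
    ContDiffAt ℝ ∞ (fun y => (M y)⁻¹ i j) x := by
  simp only [inv_apply, Matrix.adjugate_apply]
  refine ((det_cda h).inv h0).mul (det_cda fun k l => ?_)
  simp only [Matrix.updateRow_apply]
  split_ifs
  · exact contDiffAt_const
  · exact h k l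

theorem jacobi {M : En n → Matrix (Fin n) (Fin n) ℝ} {x : En n}
    (h : ∀ i j, ContDiffAt ℝ ∞ (fun y => M y i j) x) (h0 : (M x).det ≠ 0) (v : En n) :
    D v (fun y => (M y).det) x =
      (M x).det * ∑ j, ∑ m, (M x)⁻¹ j m * D v (fun y => M y m j) x := by
  have e1 : ∀ j, ∑ m, (M x).adjugate j m * D v (fun y => M y m j) x =
      ∑ σ : Equiv.Perm (Fin n), ((Equiv.Perm.sign σ : ℤ) : ℝ) *
        ((∏ i ∈ Finset.univ.erase j, M x (σ i) i) * D v (fun y => M y (σ j) j) x) := by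
    intro j
    have h1 := congrFun (Matrix.cramer_eq_adjugate_mulVec (M x)
      (fun m => D v (fun y => M y m j) x)) j
    rw [Matrix.cramer_apply, Matrix.det_apply'] at h1
    refine Eq.trans h1.symm (Finset.sum_congr rfl fun σ _ => ?_)
    rw [← Finset.prod_erase_mul _ _ (Finset.mem_univ j), Matrix.updateCol_self]
    congr 2
    exact Finset.prod_congr rfl fun i hi => Matrix.updateCol_ne (Finset.ne_of_mem_erase hi)
  have e2 : (M x).det * ∑ j, ∑ m, (M x)⁻¹ j m * D v (fun y => M y m j) x =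
      ∑ j, ∑ m, (M x).adjugate j m * D v (fun y => M y m j) x := by
    simp only [Finset.mul_sum, inv_apply]
    refine Finset.sum_congr rfl fun j _ => Finset.sum_congr rfl fun m _ => ?_
    field_simp
  rw [e2]
  simp only [e1, Matrix.det_apply']
  rw [D_sum_at _ fun σ _ => dA (contDiffAt_const.mul (contDiffAt_prod fun i _ => h _ _)),
    Finset.sum_comm]
  refine Finset.sum_congr rfl fun σ _ => ?_
  rw [D_const_mul_at (dA (contDiffAt_prod fun i _ => h _ _)), ← Finset.mul_sum]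
  congr 1
  simp only [D]
  rw [fderiv_finsetProd fun i _ => dA (h (σ i) i)]
  simp

theorem D_inv {M : En n → Matrix (Fin n) (Fin n) ℝ} {x : En n}
    (h : ∀ i j, ContDiffAt ℝ ∞ (fun y => M y i j) x) (h0 : (M x).det ≠ 0) (v : En n)
    (k i : Fin n) : D v (fun y => (M y)⁻¹ k i) x =
      -∑ m, ∑ l, (M x)⁻¹ k m * D v (fun y => M y m l) x * (M x)⁻¹ l i := by
  have hev : ∀ᶠ y in 𝓝 x, (M y).det ≠ 0 := (det_cda h).continuousAt.eventually_ne h0
  have e1 : M x * (Matrix.of fun l i => D v (fun y => (M y)⁻¹ l i) x) +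
      (Matrix.of fun m l => D v (fun y => M y m l) x) * (M x)⁻¹ = 0 := by
    ext m i
    have h1 : (fun y => ∑ l, M y m l * (M y)⁻¹ l i) =ᶠ[𝓝 x]
        fun _ => (1 : Matrix (Fin n) (Fin n) ℝ) m i := by
      filter_upwards [hev] with y hy
      rw [← Matrix.mul_apply, Matrix.mul_nonsing_inv _ (isUnit_iff_ne_zero.2 hy)]
    have h2 := D_congr h1 v
    rw [D_const, D_sum_at _ fun l _ => dA ((h m l).mul (inv_cda h h0 l i))] at h2
    rw [Matrix.add_apply, Matrix.mul_apply, Matrix.mul_apply, ← Finset.sum_add_distrib,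
      Matrix.zero_apply, ← h2]
    refine Finset.sum_congr rfl fun l _ => ?_
    rw [D_mul_at (dA (h m l)) (dA (inv_cda h h0 l i))]
    rfl
  have e2 : (Matrix.of fun l i => D v (fun y => (M y)⁻¹ l i) x) =
      -((M x)⁻¹ * ((Matrix.of fun m l => D v (fun y => M y m l) x) * (M x)⁻¹)) := by
    rw [← Matrix.mul_neg, ← eq_neg_of_add_eq_zero_left e1,
      Matrix.nonsing_inv_mul_cancel_left _ _ (isUnit_iff_ne_zero.2 h0)]
  have e3 := congrFun (congrFun e2 k) i
  simp only [Matrix.of_apply, Matrix.neg_apply, Matrix.mul_apply, Finset.mul_sum] at e3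
  rw [e3]
  simp only [mul_assoc]

theorem D_abs {f : En n → ℝ} {x : En n} (h : ContDiffAt ℝ ∞ f x) (h0 : f x ≠ 0) (v : En n)
    {t : ℝ} (ht : D v f x = f x * t) : D v (fun y => |f y|) x = |f x| * t := by
  rcases lt_or_gt_of_ne h0 with h1 | h1
  · have h2 : (fun y => |f y|) =ᶠ[𝓝 x] fun y => -f y := by
      filter_upwards [h.continuousAt.eventually_lt continuousAt_const h1] with y hy
      exact abs_of_neg hy
    rw [D_congr h2, D_neg, ht, abs_of_neg h1, neg_mul]
  · have h2 : (fun y => |f y|) =ᶠ[𝓝 x] f := by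
      filter_upwards [continuousAt_const.eventually_lt h.continuousAt h1] with y hy
      exact abs_of_pos hy
    rw [D_congr h2, ht, abs_of_pos h1]

theorem piola {M : En n → Matrix (Fin n) (Fin n) ℝ} {x : En n}
    (h : ∀ i j, ContDiffAt ℝ ∞ (fun y => M y i j) x) (h0 : (M x).det ≠ 0)
    (hs : ∀ i m l, D (ee i) (fun y => M y m l) x = D (ee m) (fun y => M y i l) x) (k : Fin n) :
    ∑ i, D (ee i) (fun y => |(M y).det| * (M y)⁻¹ k i) x = 0 := by
  have e1 : ∀ i, D (ee i) (fun y => |(M y).det| * (M y)⁻¹ k i) x = |(M x).det| *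
      (∑ m, ∑ l, (M x)⁻¹ k i * D (ee i) (fun y => M y m l) x * (M x)⁻¹ l m -
        ∑ m, ∑ l, (M x)⁻¹ k m * D (ee m) (fun y => M y i l) x * (M x)⁻¹ l i) := by
    intro i
    rw [D_mul_at (dA ((det_cda h).abs h0)) (dA (inv_cda h h0 k i)), D_inv h h0,
      D_abs (det_cda h) h0 _ (jacobi h h0 _), Finset.sum_comm (f := fun m l => (M x)⁻¹ k i * _ * _)]
    have e2 : ∑ l, ∑ m, (M x)⁻¹ k i * D (ee i) (fun y => M y m l) x * (M x)⁻¹ l m =
        (∑ j, ∑ m, (M x)⁻¹ j m * D (ee i) (fun y => M y m j) x) * (M x)⁻¹ k i := by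
      simp only [Finset.sum_mul]
      exact Finset.sum_congr rfl fun j _ => Finset.sum_congr rfl fun m _ => by ring
    rw [e2]
    simp only [hs i]
    ring
  simp only [e1]
  rw [← Finset.mul_sum, Finset.sum_sub_distrib, Finset.sum_comm, sub_self, mul_zero]

theorem posDef {g : MatF n} {A : ConF n ι} (h : GA g A) (x : En n) :
    (Matrix.of fun k l => g k l x).PosDef := by
  refine Matrix.PosDef.of_dotProduct_mulVec_pos ?_ fun ξ hξ => ?_
  · ext i j
    simp [h.2.1 i j]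
  · refine (h.2.2.1 x ξ hξ).trans_eq ?_
    simp only [dotProduct, Matrix.mulVec, Matrix.of_apply, star_trivial, Finset.mul_sum]
    exact Finset.sum_congr rfl fun i _ => Finset.sum_congr rfl fun j _ => by ring

theorem gam_sm {g : MatF n} {A : ConF n ι} (h : GA g A) : SmM (gam g) := by
  intro i j
  refine contDiff_iff_contDiffAt.2 fun x => ?_
  have h1 : ∀ k l, ContDiffAt ℝ ∞ (fun y => (Matrix.of fun k l => g k l y) k l) x := fun k l =>
    (h.1 k l).contDiffAt
  have h2 := (posDef h x).det_pos.ne'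
  exact ((det_cda h1).sqrt h2).mul (inv_cda h1 h2 i j)

theorem gam_sym {g : MatF n} {A : ConF n ι} (h : GA g A) : SymM (gam g) := by
  intro i j
  funext x
  have h1 := congrFun (congrFun (posDef h x).inv.1.eq i) j
  simp only [Matrix.conjTranspose_apply, star_trivial] at h1
  simp only [gam, h1]

theorem bsm {g : MatF n} {A : ConF n ι} (h : GA g A) (i : Fin n) (a a' : ι) :
    Sm fun y => ∑ j, gam g i j y * A j a a' y :=
  ContDiff.sum fun j _ => (gam_sm h i j).mul (h.2.2.2.1 j a a')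

theorem comp_cda {Φ : En n → En n} {y : En n} (h : ContDiffAt ℝ ∞ Φ y) (k : Fin n) :
    ContDiffAt ℝ ∞ (fun z => Φ z k) y :=
  (EuclideanSpace.proj k : En n →L[ℝ] ℝ).contDiff.contDiffAt.comp y h

theorem fd_apply {Φ : En n → En n} {y : En n} (h : DifferentiableAt ℝ Φ y) (v : En n) (k : Fin n) :
    fderiv ℝ Φ y v k = D v (fun z => Φ z k) y := by
  have h1 := ((EuclideanSpace.proj k : En n →L[ℝ] ℝ).hasFDerivAt.comp y h.hasFDerivAt).fderiv
  have h2 : D v (fun z => Φ z k) y =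
      fderiv ℝ ((EuclideanSpace.proj k : En n →L[ℝ] ℝ) ∘ Φ) y v := rfl
  rw [h2, h1]
  rfl

/-- The transposed Jacobian matrix. -/
def Jm (Φ : En n → En n) (y : En n) : Matrix (Fin n) (Fin n) ℝ :=
  Matrix.of fun i k => D (ee i) (fun z => Φ z k) y

theorem chain {Φ : En n → En n} {W : En n → ℝ} {y : En n} (h : DifferentiableAt ℝ Φ y)
    (hW : DifferentiableAt ℝ W (Φ y)) (i : Fin n) :
    D (ee i) (fun z => W (Φ z)) y = ∑ k, Jm Φ y i k * D (ee k) W (Φ y) := by
  have h1 : D (ee i) (fun z => W (Φ z)) y = fderiv ℝ W (Φ y) (fderiv ℝ Φ y (ee i)) := by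
    have h2 : D (ee i) (fun z => W (Φ z)) y = fderiv ℝ (W ∘ Φ) y (ee i) := rfl
    rw [h2, fderiv_comp y hW h]
    rfl
  rw [h1]
  conv_lhs => rw [← (EuclideanSpace.basisFun (Fin n) ℝ).sum_repr (fderiv ℝ Φ y (ee i))]
  simp only [map_sum, map_smul, EuclideanSpace.basisFun_repr, EuclideanSpace.basisFun_apply,
    smul_eq_mul, fd_apply h]
  rfl

theorem det_fd {Φ : En n → En n} {y : En n} (h : DifferentiableAt ℝ Φ y) :
    (fderiv ℝ Φ y).det = (Jm Φ y).det := by
  have h1 := LinearMap.det_toMatrix (EuclideanSpace.basisFun (Fin n) ℝ).toBasis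
    (fderiv ℝ Φ y : En n →ₗ[ℝ] En n)
  rw [ContinuousLinearMap.det, ← h1, ← Matrix.det_transpose]
  congr 1
  ext i k
  rw [Matrix.transpose_apply, LinearMap.toMatrix_apply, Jm, Matrix.of_apply, ← fd_apply h]
  simp [ee]

omit [DecidableEq ι] in
theorem alg1 (γ : Fin n → Fin n → ℝ) (hγ : ∀ i j, γ i j = γ j i) (A : Fin n → ι → ι → ℝ)
    (dX : Fin n → ℝ) (dB : Fin n → ι → ℝ) (dW : Fin n → ι → ℝ) (W : ι → ℝ) (a : ι) :
    ∑ i, dX i + ∑ i, ∑ a', (2 * ∑ j, γ i j * A j a a') * dW i a' +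
      ∑ a', (∑ i, dB i a' + ∑ i, ∑ j, ∑ e, γ i j * A i a e * A j e a') * W a' =
    ∑ i, (dX i + ∑ a', ((∑ j, γ i j * A j a a') * dW i a' + dB i a' * W a') +
      ∑ e, A i a e * ∑ j, γ i j * (dW j e + ∑ a', A j e a' * W a')) := by
  have e1 : ∑ i, ∑ e, ∑ j, A i a e * (γ i j * dW j e) =
      ∑ i, ∑ a', (∑ j, γ i j * A j a a') * dW i a' := by
    simp only [Finset.sum_mul]
    rw [Finset.sum_comm]
    conv_rhs => rw [Finset.sum_comm]
    refine Finset.sum_congr rfl fun e _ => ?_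
    rw [Finset.sum_comm]
    exact Finset.sum_congr rfl fun i _ => Finset.sum_congr rfl fun j _ => by rw [hγ j i]; ring
  have e2 : ∑ i, ∑ e, ∑ j, ∑ a', A i a e * (γ i j * (A j e a' * W a')) =
      ∑ a', (∑ i, ∑ j, ∑ e, γ i j * A i a e * A j e a') * W a' := by
    simp only [Finset.sum_mul]
    conv_rhs => rw [Finset.sum_comm]
    refine Finset.sum_congr rfl fun i _ => ?_
    rw [Finset.sum_comm]
    conv_rhs => rw [Finset.sum_comm]
    refine Finset.sum_congr rfl fun j _ => ?_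
    rw [Finset.sum_comm]
    exact Finset.sum_congr rfl fun a' _ => Finset.sum_congr rfl fun e _ => by ring
  have e3 : ∑ i, ∑ a', dB i a' * W a' = ∑ a', (∑ i, dB i a') * W a' := by
    simp only [Finset.sum_mul]
    exact Finset.sum_comm
  have e4 : ∑ i, ∑ a', (2 * ∑ j, γ i j * A j a a') * dW i a' =
      2 * ∑ i, ∑ a', (∑ j, γ i j * A j a a') * dW i a' := by
    rw [Finset.mul_sum]
    refine Finset.sum_congr rfl fun i _ => ?_
    rw [Finset.mul_sum]
    exact Finset.sum_congr rfl fun a' _ => mul_assoc _ _ _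
  have e5 : ∀ i, ∑ e, A i a e * ∑ j, γ i j * (dW j e + ∑ a', A j e a' * W a') =
      ∑ e, ∑ j, A i a e * (γ i j * dW j e) +
        ∑ e, ∑ j, ∑ a', A i a e * (γ i j * (A j e a' * W a')) := by
    intro i
    simp only [mul_add, Finset.sum_add_distrib, Finset.mul_sum]
  simp only [e5, add_mul, Finset.sum_add_distrib]
  rw [e1, e2, e3, e4]
  ring

theorem app_cov {g : MatF n} {A : ConF n ι} (h : GA g A) {W : ι → En n → ℝ} {x : En n}
    (hW : ∀ a, ContDiffAt ℝ ∞ (W a) x) (a : ι) : (cop g A).app W a x =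
      ∑ i, cov A i (fun e y => ∑ j, gam g i j y * cov A j W e y) a x := by
  have e1 : ∀ i, D (ee i) (fun y => ∑ j, gam g i j y * cov A j W a y) x =
      D (ee i) (XX ee (gam g) (W a) i) x +
        ∑ a', ((∑ j, gam g i j x * A j a a' x) * D (ee i) (W a') x +
          D (ee i) (fun y => ∑ j, gam g i j y * A j a a' y) x * W a' x) := by
    intro i
    have e2 : (fun y => ∑ j, gam g i j y * cov A j W a y) = fun y => XX ee (gam g) (W a) i y +
        ∑ a', (∑ j, gam g i j y * A j a a' y) * W a' y := by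
      funext y
      simp only [cov, XX, mul_add, Finset.sum_add_distrib, Finset.mul_sum, Finset.sum_mul,
        mul_assoc]
      rw [Finset.sum_comm]
    have d1 : ContDiffAt ℝ ∞ (XX ee (gam g) (W a) i) x :=
      ContDiffAt.sum fun j _ => (gam_sm h i j).contDiffAt.mul (contDiffAt_D (hW a) _)
    have d2 : ∀ a', ContDiffAt ℝ ∞ (fun y => (∑ j, gam g i j y * A j a a' y) * W a' y) x :=
      fun a' => (bsm h i a a').contDiffAt.mul (hW a')
    rw [e2, D_add_at (dA d1) (dA (ContDiffAt.sum fun a' _ => d2 a')),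
      D_sum_at _ fun a' _ => dA (d2 a')]
    congr 1
    exact Finset.sum_congr rfl fun a' _ => D_mul_at ((bsm h i a a').dAt x) (dA (hW a')) _
  have e3 : ∀ i, cov A i (fun e y => ∑ j, gam g i j y * cov A j W e y) a x =
      D (ee i) (fun y => ∑ j, gam g i j y * cov A j W a y) x +
        ∑ e, A i a e x * ∑ j, gam g i j x * (D (ee j) (W e) x + ∑ a', A j e a' x * W a' x) :=
    fun i => rfl
  simp only [e3, e1]
  exact alg1 (fun i j => gam g i j x) (fun i j => congrFun (gam_sym h i j) x)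
    (fun i a a' => A i a a' x) (fun i => D (ee i) (XX ee (gam g) (W a) i) x)
    (fun i a' => D (ee i) (fun y => ∑ j, gam g i j y * A j a a' y) x)
    (fun i a' => D (ee i) (W a') x) (fun a' => W a' x) a

omit [DecidableEq ι] in
theorem cov_congr (A : ConF n ι) (i : Fin n) {X Y : ι → En n → ℝ} {y : En n}
    (h : ∀ a, X a =ᶠ[𝓝 y] Y a) (a : ι) : cov A i X a y = cov A i Y a y := by
  simp only [cov, D_congr (h a), (h _).eq_of_nhds]

omit [DecidableEq ι] in
theorem cov_smul (A : ConF n ι) (i : Fin n) {P : Fin n → En n → ℝ} {U : Fin n → ι → En n → ℝ}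
    {y : En n} (hP : ∀ k, ContDiffAt ℝ ∞ (P k) y) (hU : ∀ k a, ContDiffAt ℝ ∞ (U k a) y) (a : ι) :
    cov A i (fun a z => ∑ k, P k z * U k a z) a y =
      ∑ k, (D (ee i) (P k) y * U k a y + P k y * cov A i (U k) a y) := by
  simp only [cov]
  rw [D_sum_at _ fun k _ => dA ((hP k).mul (hU k a))]
  simp only [Finset.mul_sum, mul_add]
  rw [Finset.sum_comm, ← Finset.sum_add_distrib]
  refine Finset.sum_congr rfl fun k _ => ?_
  rw [D_mul_at (dA (hP k)) (dA (hU k a)), add_comm (P k y * _), add_assoc]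
  congr 2
  exact Finset.sum_congr rfl fun e _ => by ring

variable {g₁ g₂ : MatF n} {A₁ A₂ : ConF n ι} {V : Set (En n)} {Φ : En n → En n}
  {S : ι → ι → En n → ℝ}

theorem cov_pull (hI : Iso g₁ A₁ g₂ A₂ V Φ S) (hV : IsOpen V) {y : En n} (hy : y ∈ V)
    {W : ι → En n → ℝ} (hW : ∀ a, Sm (W a)) (i : Fin n) (a : ι) :
    cov A₂ i (fun a z => ∑ a', S a a' z * W a' (Φ z)) a y =
      ∑ k, Jm Φ y i k * ∑ e, S a e y * cov A₁ k W e (Φ y) := by
  have hΦ : ContDiffAt ℝ ∞ Φ y := hI.1.contDiffAt (hV.mem_nhds hy)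
  have hS : ∀ a a', ContDiffAt ℝ ∞ (S a a') y := fun a a' =>
    (hI.2.1 a a').contDiffAt (hV.mem_nhds hy)
  have hc : ∀ a', ContDiffAt ℝ ∞ (fun z => W a' (Φ z)) y := fun a' => (hW a').contDiffAt.comp y hΦ
  have h3 := (hI.2.2 y hy).2.2 i a
  have e1 : D (ee i) (fun z => ∑ a', S a a' z * W a' (Φ z)) y =
      ∑ a', (S a a' y * ∑ k, Jm Φ y i k * D (ee k) (W a') (Φ y) +
        D (ee i) (S a a') y * W a' (Φ y)) := by
    rw [D_sum_at _ fun a' _ => dA ((hS a a').mul (hc a'))]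
    refine Finset.sum_congr rfl fun a' _ => ?_
    rw [D_mul_at (dA (hS a a')) (dA (hc a')), chain (dA hΦ) ((hW a').dAt _)]
  have e2 : ∑ e, A₂ i a e y * ∑ a', S e a' y * W a' (Φ y) =
      ∑ a', (∑ e, A₂ i a e y * S e a' y) * W a' (Φ y) := by
    simp only [Finset.mul_sum, Finset.sum_mul, mul_assoc]
    exact Finset.sum_comm
  have e3 : ∑ a', D (ee i) (S a a') y * W a' (Φ y) +
      ∑ a', (∑ e, A₂ i a e y * S e a' y) * W a' (Φ y) =
      ∑ a', (∑ k, ∑ e, S a e y * A₁ k e a' (Φ y) * Jm Φ y i k) * W a' (Φ y) := by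
    rw [← Finset.sum_add_distrib]
    refine Finset.sum_congr rfl fun a' _ => ?_
    rw [← add_mul, h3 a']
    rfl
  simp only [cov]
  rw [e1, e2, Finset.sum_add_distrib, add_assoc, e3]
  simp only [mul_add, Finset.sum_add_distrib, Finset.mul_sum, Finset.sum_mul]
  congr 1
  · rw [Finset.sum_comm]
    exact Finset.sum_congr rfl fun k _ => Finset.sum_congr rfl fun e _ => by ring
  · rw [Finset.sum_comm]
    refine Finset.sum_congr rfl fun k _ => ?_
    rw [Finset.sum_comm]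
    exact Finset.sum_congr rfl fun e _ => Finset.sum_congr rfl fun a' _ => by ring

theorem g_pull (hI : Iso g₁ A₁ g₂ A₂ V Φ S) {y : En n} (hy : y ∈ V) :
    (Matrix.of fun k l => g₂ k l y) =
      Jm Φ y * (Matrix.of fun k l => g₁ k l (Φ y)) * (Jm Φ y)ᵀ := by
  ext i j
  rw [Matrix.of_apply, (hI.2.2 y hy).2.1 i j, Finset.sum_comm]
  simp only [Matrix.mul_apply, Matrix.transpose_apply, Matrix.of_apply, Jm, Finset.sum_mul]
  exact Finset.sum_congr rfl fun l _ => Finset.sum_congr rfl fun k _ => by ring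

theorem det_ne (h₂ : GA g₂ A₂) (hI : Iso g₁ A₁ g₂ A₂ V Φ S) {y : En n} (hy : y ∈ V) :
    (Jm Φ y).det ≠ 0 := by
  intro h0
  have h1 := (posDef h₂ y).det_pos
  rw [g_pull hI hy, Matrix.det_mul, Matrix.det_mul, h0, zero_mul, zero_mul] at h1
  exact lt_irrefl _ h1

theorem gam_pull (h₂ : GA g₂ A₂) (hI : Iso g₁ A₁ g₂ A₂ V Φ S) {y : En n} (hy : y ∈ V)
    (i l : Fin n) : ∑ j, gam g₂ i j y * Jm Φ y j l =
      ∑ k, (|(Jm Φ y).det| * (Jm Φ y)⁻¹ k i) * gam g₁ k l (Φ y) := by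
  have h0 := det_ne h₂ hI hy
  have e1 : √((Matrix.of fun k l => g₂ k l y).det) =
      |(Jm Φ y).det| * √((Matrix.of fun k l => g₁ k l (Φ y)).det) := by
    rw [g_pull hI hy, Matrix.det_mul, Matrix.det_mul, Matrix.det_transpose, mul_right_comm,
      Real.sqrt_mul (mul_self_nonneg _), Real.sqrt_mul_self_eq_abs]
  have e2 : (Matrix.of fun k l => g₂ k l y)⁻¹ * Jm Φ y =
      ((Jm Φ y)⁻¹)ᵀ * (Matrix.of fun k l => g₁ k l (Φ y))⁻¹ := by
    rw [g_pull hI hy, Matrix.mul_inv_rev, Matrix.mul_inv_rev, ← Matrix.mul_assoc,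
      Matrix.nonsing_inv_mul_cancel_right _ _ (isUnit_iff_ne_zero.2 h0),
      Matrix.transpose_nonsing_inv]
  have e3 := congrFun (congrFun e2 i) l
  simp only [Matrix.mul_apply, Matrix.transpose_apply] at e3
  simp only [gam, e1, mul_assoc]
  rw [← Finset.mul_sum, ← Finset.mul_sum, ← Finset.mul_sum, e3, Finset.mul_sum]
  congr 1
  exact Finset.sum_congr rfl fun k _ => by ring

theorem Jm_cda (hI : Iso g₁ A₁ g₂ A₂ V Φ S) (hV : IsOpen V) {y : En n} (hy : y ∈ V) (i k : Fin n) :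
    ContDiffAt ℝ ∞ (fun z => Jm Φ z i k) y :=
  contDiffAt_D (comp_cda (hI.1.contDiffAt (hV.mem_nhds hy)) k) _

theorem main (h₁ : GA g₁ A₁) (h₂ : GA g₂ A₂) (hV : IsOpen V) (hI : Iso g₁ A₁ g₂ A₂ V Φ S)
    {W : ι → En n → ℝ} (hW : ∀ a, Sm (W a)) {y : En n} (hy : y ∈ V) (a : ι) :
    (cop g₂ A₂).app (fun a z => ∑ a', S a a' z * W a' (Φ z)) a y =
      |(Jm Φ y).det| * ∑ a', S a a' y * (cop g₁ A₁).app W a' (Φ y) := by
  have hΦ : ContDiffAt ℝ ∞ Φ y := hI.1.contDiffAt (hV.mem_nhds hy)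
  have hS : ∀ a a', ContDiffAt ℝ ∞ (S a a') y := fun a a' =>
    (hI.2.1 a a').contDiffAt (hV.mem_nhds hy)
  have hU : ∀ {X : ι → En n → ℝ}, (∀ a, Sm (X a)) → ∀ a,
      ContDiffAt ℝ ∞ (fun z => ∑ a', S a a' z * X a' (Φ z)) y := fun hX a =>
    ContDiffAt.sum fun a' _ => (hS a a').mul ((hX a').contDiffAt.comp y hΦ)
  obtain ⟨X, hX⟩ : ∃ X : Fin n → ι → En n → ℝ,
      X = fun k e x => ∑ l, gam g₁ k l x * cov A₁ l W e x := ⟨_, rfl⟩
  have hXs : ∀ k e, Sm (X k e) := by
    intro k e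
    rw [hX]
    exact ContDiff.sum fun l _ => (gam_sm h₁ k l).mul (((hW e).D _).add
      (ContDiff.sum fun a' _ => (h₁.2.2.2.1 l e a').mul (hW a')))
  have h0 := det_ne h₂ hI hy
  have hJ := Jm_cda hI hV hy
  have hP : ∀ i k, ContDiffAt ℝ ∞ (fun z => |(Jm Φ z).det| * (Jm Φ z)⁻¹ k i) y := fun i k =>
    ((det_cda hJ).abs h0).mul (inv_cda hJ h0 k i)
  have e1 : ∀ i e, (fun z => ∑ j, gam g₂ i j z *
      cov A₂ j (fun a z => ∑ a', S a a' z * W a' (Φ z)) e z) =ᶠ[𝓝 y]
      fun z => ∑ k, (|(Jm Φ z).det| * (Jm Φ z)⁻¹ k i) * ∑ a', S e a' z * X k a' (Φ z) := by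
    intro i e
    filter_upwards [hV.mem_nhds hy] with z hz
    have e2 : ∀ j, gam g₂ i j z * cov A₂ j (fun a z => ∑ a', S a a' z * W a' (Φ z)) e z =
        ∑ l, (gam g₂ i j z * Jm Φ z j l) * ∑ a', S e a' z * cov A₁ l W a' (Φ z) := by
      intro j
      rw [cov_pull hI hV hz hW, Finset.mul_sum]
      simp only [mul_assoc]
    simp only [e2]
    rw [Finset.sum_comm]
    simp only [← Finset.sum_mul, gam_pull h₂ hI hz]
    have e3 : ∀ k, ∑ a', S e a' z * X k a' (Φ z) =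
        ∑ l, gam g₁ k l (Φ z) * ∑ a', S e a' z * cov A₁ l W a' (Φ z) := by
      intro k
      simp only [hX, Finset.mul_sum]
      rw [Finset.sum_comm]
      exact Finset.sum_congr rfl fun l _ => Finset.sum_congr rfl fun a' _ => by ring
    simp only [e3]
    simp only [Finset.sum_mul]
    rw [Finset.sum_comm]
    refine Finset.sum_congr rfl fun k _ => ?_
    rw [Finset.mul_sum]
    exact Finset.sum_congr rfl fun l _ => mul_assoc _ _ _
  have e3 : ∀ i, cov A₂ i (fun e z => ∑ j, gam g₂ i j z *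
      cov A₂ j (fun a z => ∑ a', S a a' z * W a' (Φ z)) e z) a y =
      ∑ k, (D (ee i) (fun z => |(Jm Φ z).det| * (Jm Φ z)⁻¹ k i) y * ∑ a', S a a' y * X k a' (Φ y) +
        ∑ m, |(Jm Φ y).det| * ((Jm Φ y)⁻¹ k i * Jm Φ y i m) *
          ∑ e, S a e y * cov A₁ m (X k) e (Φ y)) := by
    intro i
    rw [cov_congr A₂ i (e1 i), cov_smul A₂ i (hP i) fun k => hU (hXs k)]
    refine Finset.sum_congr rfl fun k _ => ?_
    rw [cov_pull hI hV hy (hXs k)]
    congr 1
    rw [Finset.mul_sum]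
    simp only [mul_assoc]
  have e4 : ∀ k, ∑ i, D (ee i) (fun z => |(Jm Φ z).det| * (Jm Φ z)⁻¹ k i) y = 0 :=
    piola hJ h0 fun i m l => D_comm_at (comp_cda hΦ l) _ _
  have e5 : ∀ k m, ∑ i, (Jm Φ y)⁻¹ k i * Jm Φ y i m = if k = m then 1 else 0 := by
    intro k m
    rw [← Matrix.mul_apply, Matrix.nonsing_inv_mul _ (isUnit_iff_ne_zero.2 h0), Matrix.one_apply]
  have e6 : ∀ a', (cop g₁ A₁).app W a' (Φ y) = ∑ k, cov A₁ k (X k) a' (Φ y) := by
    intro a'
    rw [hX]
    exact app_cov h₁ (fun a => (hW a).contDiffAt) a'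
  rw [app_cov h₂ (hU hW) a]
  simp only [e3, e6]
  rw [Finset.sum_comm]
  have e7 : ∀ k, ∑ i, (D (ee i) (fun z => |(Jm Φ z).det| * (Jm Φ z)⁻¹ k i) y *
      ∑ a', S a a' y * X k a' (Φ y) + ∑ m, |(Jm Φ y).det| * ((Jm Φ y)⁻¹ k i * Jm Φ y i m) *
        ∑ e, S a e y * cov A₁ m (X k) e (Φ y)) =
      |(Jm Φ y).det| * ∑ e, S a e y * cov A₁ k (X k) e (Φ y) := by
    intro k
    rw [Finset.sum_add_distrib, ← Finset.sum_mul, e4, zero_mul, zero_add, Finset.sum_comm]
    simp only [← Finset.sum_mul, ← Finset.mul_sum, e5]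
    simp
  simp only [e7]
  rw [← Finset.mul_sum, Finset.sum_comm]
  simp only [Finset.mul_sum]

end IsoInter

open IsoInter in
theorem s_cop : S_cop := by
  intro n ι _ _ g A h
  refine ⟨⟨gam_sm h, gam_sym h, fun i a a' => contDiff_const.mul (bsm h i a a'), fun a a' => ?_,
    fun x ξ hξ => ?_⟩, ?_⟩
  · exact (ContDiff.sum fun i _ => (bsm h i a a').D _).add (ContDiff.sum fun i _ =>
      ContDiff.sum fun j _ => ContDiff.sum fun e _ =>
        ((gam_sm h i j).mul (h.2.2.2.1 i a e)).mul (h.2.2.2.1 j e a'))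
  · have h1 := (posDef h x).inv.dotProduct_mulVec_pos hξ
    have h2 := Real.sqrt_pos.2 (posDef h x).det_pos
    refine (mul_pos h2 h1).trans_eq ?_
    simp only [cop, gam, dotProduct, Matrix.mulVec, star_trivial, Finset.mul_sum]
    exact Finset.sum_congr rfl fun i _ => Finset.sum_congr rfl fun j _ => by ring
  · have e1 : ∀ i a a', (fun y => ∑ j, gam g i j y * A j a' a y) =
        fun y => -∑ j, gam g i j y * A j a a' y := by
      intro i a a'
      funext y
      rw [← Finset.sum_neg_distrib]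
      exact Finset.sum_congr rfl fun j _ => by rw [h.2.2.2.2 j a' a y, mul_neg]
    unfold Op.T cop
    simp only [Op.mk.injEq, true_and]
    constructor
    · funext i a a' x
      rw [congrFun (e1 i a a') x]
      ring
    · funext a a' x
      have e2 : ∀ i, D (ee i) (fun y => 2 * ∑ j, gam g i j y * A j a' a y) x =
          -(2 * D (ee i) (fun y => ∑ j, gam g i j y * A j a a' y) x) := by
        intro i
        rw [D_const_mul_at ((bsm h i a' a).dAt x), e1 i a a', D_neg, mul_neg]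
      have e3 : ∑ i, ∑ j, ∑ e, gam g i j x * A i a' e x * A j e a x =
          ∑ i, ∑ j, ∑ e, gam g i j x * A i a e x * A j e a' x := by
        rw [Finset.sum_comm]
        refine Finset.sum_congr rfl fun i _ => Finset.sum_congr rfl fun j _ =>
          Finset.sum_congr rfl fun e _ => ?_
        rw [gam_sym h j i, h.2.2.2.2 j a' e x, h.2.2.2.2 i e a x]
        ring
      simp only [e2, e3, e1 _ a a', D_neg, Finset.sum_neg_distrib, ← Finset.mul_sum]
      ring

open IsoInter in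
theorem s_isoInter (hcop : S_cop) : S_isoInter := by
  intro n ι _ _ g₁ g₂ A₁ A₂ V Φ S h₁ h₂ hV hI
  have hd : ∀ y ∈ V, (fderiv ℝ Φ y).det = (Jm Φ y).det := fun y hy =>
    det_fd (IsoInter.dA (hI.1.contDiffAt (hV.mem_nhds hy)))
  refine ⟨hI.1, hI.2.1, fun y hy => ?_, fun y hy => ⟨?_, ?_, ?_⟩, fun W hW y hy a => ?_⟩
  · refine (ContDiffAt.congr_of_eventuallyEq
      ((det_cda (Jm_cda hI hV hy)).abs (det_ne h₂ hI hy)) ?_).contDiffWithinAt
    filter_upwards [hV.mem_nhds hy] with z hz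
    rw [hd z hz]
  · show 0 < |(fderiv ℝ Φ y).det|
    rw [hd y hy]
    exact abs_pos.2 (det_ne h₂ hI hy)
  · intro h0
    have h1 : (Matrix.of fun a a' => S a a' y)ᵀ * (Matrix.of fun a a' => S a a' y) = 1 := by
      ext a a'
      rw [Matrix.mul_apply, Matrix.one_apply]
      exact (hI.2.2 y hy).1 a a'
    have h2 := congrArg Matrix.det h1
    rw [Matrix.det_mul, h0, mul_zero, Matrix.det_one] at h2
    exact zero_ne_one h2
  · have h1 : LinearMap.det (fderiv ℝ Φ y : En n →ₗ[ℝ] En n) ≠ 0 := by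
      have h2 := det_ne h₂ hI hy
      rwa [← hd y hy] at h2
    rw [Ne, LinearMap.det_eq_zero_iff_ker_ne_bot, not_not, LinearMap.ker_eq_bot] at h1
    exact h1
  · show _ = |(fderiv ℝ Φ y).det| * _
    rw [hd y hy]
    exact main h₁ h₂ hV hI hW hy a

end Vale.Agent.P088
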