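import Vale.Agent.P088.Top

/-!
# P088: rigidity of local isometries
-/

open MeasureTheory Set Metric
open scoped ContDiff Topology Matrix

noncomputable section
namespace Vale.Agent.P088
open Vale.Agent.P136

namespace IsoRig

variable {n : ℕ}

lemma sum_ee (v : En n) : v = ∑ p, v p • ee p := by
  ext i
  simp [ee, Pi.single_apply]

lemma clm_eq (L : En n →L[ℝ] ℝ) (v : En n) : L v = ∑ p, L (ee p) * v p := by
  conv_lhs => rw [sum_ee v]
  simp only [map_sum, map_smul, smul_eq_mul, mul_comm]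

lemma clm_le (L : En n →L[ℝ] ℝ) {c : ℝ} (hc : 0 ≤ c) (h : ∀ p, |L (ee p)| ≤ c) :
    ‖L‖ ≤ n * c := by
  refine L.opNorm_le_bound (by positivity) fun v => ?_
  rw [clm_eq, Real.norm_eq_abs]
  refine (Finset.abs_sum_le_sum_abs _ _).trans ((Finset.sum_le_sum (g := fun _ => c * ‖v‖)
    fun p _ => ?_).trans ?_)
  · rw [abs_mul]
    exact mul_le_mul (h p) (PiLp.norm_apply_le v p) (abs_nonneg _) hc
  · rw [Finset.sum_const, Finset.card_univ, Fintype.card_fin, nsmul_eq_mul, mul_assoc]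

section uniq
variable {κ P : Type} [Fintype κ] [NormedAddCommGroup P] [NormedSpace ℝ P] {p : En n → P}
  {F : Fin n → κ → P × (κ → ℝ) → ℝ} {V : Set (En n)} {Y Y' : κ → En n → ℝ}

lemma loc (hF : ∀ m a, ContDiff ℝ 1 (F m a)) (hV : IsOpen V) (hp : ContinuousOn p V)
    (hY : ∀ a, DifferentiableOn ℝ (Y a) V) (hY' : ∀ a, DifferentiableOn ℝ (Y' a) V)
    (eY : ∀ y ∈ V, ∀ m a, D (ee m) (Y a) y = F m a (p y, fun b => Y b y))
    (eY' : ∀ y ∈ V, ∀ m a, D (ee m) (Y' a) y = F m a (p y, fun b => Y' b y))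
    {y : En n} (hy : y ∈ V) (h0 : ∀ a, Y a y = Y' a y) : ∀ᶠ z in 𝓝 y, ∀ a, Y a z = Y' a z := by
  have hG : ContDiff ℝ 1 fun w m a => F m a w :=
    contDiff_pi.2 fun m => contDiff_pi.2 fun a => hF m a
  obtain ⟨K, t, ht, hK⟩ := (hG.contDiffAt (x := (p y, fun b => Y b y))).exists_lipschitzOnWith
  have c1 : ContinuousOn (fun z b => Y b z) V := continuousOn_pi.2 fun b => (hY b).continuousOn
  have c2 : ContinuousOn (fun z b => Y' b z) V := continuousOn_pi.2 fun b => (hY' b).continuousOn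
  have hn := hV.mem_nhds hy
  have e1 : ∀ᶠ z in 𝓝 y, (p z, fun b => Y b z) ∈ t :=
    ((hp.prodMk c1).continuousAt hn).eventually_mem ht
  have e2 : ∀ᶠ z in 𝓝 y, (p z, fun b => Y' b z) ∈ t :=
    ((hp.prodMk c2).continuousAt hn).eventually_mem (by
      have : (fun b => Y' b y) = fun b => Y b y := funext fun b => (h0 b).symm
      rw [this]; exact ht)
  obtain ⟨r₀, hr₀, hb⟩ := nhds_basis_closedBall.mem_iff.1
    (Filter.Eventually.and (show ∀ᶠ z in 𝓝 y, z ∈ V from hn) (e1.and e2))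
  have hc : (0 : ℝ) < 2 * (n * K + 1) := by positivity
  set r := min r₀ (2 * (n * K + 1))⁻¹ with hr
  have r0 : 0 < r := lt_min hr₀ (inv_pos.2 hc)
  have hb' : ∀ z ∈ closedBall y r, z ∈ V ∧ (p z, fun b => Y b z) ∈ t ∧
      (p z, fun b => Y' b z) ∈ t := fun z hz => hb (closedBall_subset_closedBall (min_le_left _ _) hz)
  obtain ⟨z₀, hz₀, hm⟩ := (isCompact_closedBall y r).exists_isMaxOn ⟨y, mem_closedBall_self r0.le⟩
    ((c1.sub c2).norm.mono fun z hz => (hb' z hz).1)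
  set M := ‖(fun b => Y b z₀) - fun b => Y' b z₀‖ with hM
  have M0 : 0 ≤ M := norm_nonneg _
  have h1 : M ≤ n * (K * M) * r := by
    refine (pi_norm_le_iff_of_nonneg (by positivity)).2 fun a => ?_
    have d : ∀ z ∈ closedBall y r, DifferentiableAt ℝ (Y a) z ∧ DifferentiableAt ℝ (Y' a) z :=
      fun z hz => ⟨(hY a).differentiableAt (hV.mem_nhds (hb' z hz).1),
        (hY' a).differentiableAt (hV.mem_nhds (hb' z hz).1)⟩
    have h2 := (convex_closedBall y r).norm_image_sub_le_of_norm_fderiv_le (𝕜 := ℝ)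
      (f := fun z => Y a z - Y' a z) (C := n * (K * M))
      (fun z hz => (d z hz).1.sub (d z hz).2) (fun z hz => ?_) (mem_closedBall_self r0.le) hz₀
    · rw [h0, sub_self, sub_zero] at h2
      refine h2.trans (mul_le_mul_of_nonneg_left ?_ (by positivity))
      rwa [mem_closedBall, dist_eq_norm] at hz₀
    · refine clm_le _ (by positivity) fun m => ?_
      have h3 := D_sub_at (d z hz).1 (d z hz).2 (ee m)
      rw [eY z (hb' z hz).1, eY' z (hb' z hz).1] at h3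
      have h4 := hK.dist_le_mul _ (hb' z hz).2.1 _ (hb' z hz).2.2
      rw [dist_prod_same_left, dist_eq_norm, dist_eq_norm] at h4
      have h5 := ((norm_le_pi_norm _ a).trans (norm_le_pi_norm
        ((fun m a => F m a (p z, fun b => Y b z)) - fun m a => F m a (p z, fun b => Y' b z))
        m)).trans h4
      have h6 : ‖(fun b => Y b z) - fun b => Y' b z‖ ≤ M := hm hz
      refine le_trans (le_of_eq ?_) (h5.trans (mul_le_mul_of_nonneg_left h6 K.2))
      exact congrArg abs h3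
  have h2 : n * K * r ≤ 1 / 2 := by
    have h3 : r * (2 * (n * K + 1)) ≤ 1 := by
      rw [← le_div_iff₀ hc, one_div]
      exact min_le_right _ _
    nlinarith
  have h3 : M ≤ 0 := by nlinarith
  filter_upwards [closedBall_mem_nhds y r0] with z hz a
  have h6 : ‖(fun b => Y b z) - fun b => Y' b z‖ ≤ M := hm hz
  have h7 := congrFun (norm_le_zero_iff.1 (h6.trans h3)) a
  exact sub_eq_zero.1 h7

lemma uniq (hF : ∀ m a, ContDiff ℝ 1 (F m a)) (hV : IsOpen V) (hc : IsPreconnected V)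
    (hp : ContinuousOn p V)
    (hY : ∀ a, DifferentiableOn ℝ (Y a) V) (hY' : ∀ a, DifferentiableOn ℝ (Y' a) V)
    (eY : ∀ y ∈ V, ∀ m a, D (ee m) (Y a) y = F m a (p y, fun b => Y b y))
    (eY' : ∀ y ∈ V, ∀ m a, D (ee m) (Y' a) y = F m a (p y, fun b => Y' b y))
    {y : En n} (hy : y ∈ V) (h0 : ∀ a, Y a y = Y' a y) : ∀ z ∈ V, ∀ a, Y a z = Y' a z := by
  have h := hc.subset_of_closure_inter_subset
    (u := {y | ∀ᶠ z in 𝓝 y, ∀ a, Y a z = Y' a z}) isOpen_setOfPred_eventually_nhds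
    ⟨y, hy, loc hF hV hp hY hY' eY eY' hy h0⟩ fun z hz => ?_
  · exact fun z hz => (h hz).self_of_nhds
  · refine loc hF hV hp hY hY' eY eY' hz.2 fun a => ?_
    have hn := hV.mem_nhds hz.2
    refine tendsto_nhds_unique_of_frequently_eq ((hY a).continuousOn.continuousAt hn)
      ((hY' a).continuousOn.continuousAt hn) ?_
    exact (mem_closure_iff_frequently.1 hz.1).mono fun x hx => hx.self_of_nhds a

end uniq

lemma det_ne {g : Matrix (Fin n) (Fin n) ℝ}
    (h : ∀ ξ : Fin n → ℝ, ξ ≠ 0 → 0 < ∑ i, ∑ j, g i j * ξ i * ξ j) : g.det ≠ 0 := by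
  intro hd
  obtain ⟨v, hv, h0⟩ := Matrix.exists_mulVec_eq_zero_iff.2 hd
  refine (h v hv).ne' (Finset.sum_eq_zero fun i _ => ?_)
  have h1 : ∑ j, g i j * v j = 0 := congrFun h0 i
  have h2 : ∑ j, g i j * v i * v j = v i * ∑ j, g i j * v j := by
    rw [Finset.mul_sum]
    exact Finset.sum_congr rfl fun j _ => by ring
  rw [h2, h1, mul_zero]

lemma solve {g G J : Matrix (Fin n) (Fin n) ℝ} (hd : g.det ≠ 0)
    (hg : ∀ i j, g i j = ∑ k, ∑ l, G k l * J i k * J j l) (h : Fin n → ℝ) (k : Fin n) :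
    h k = ∑ r, ∑ j, (∑ a, ∑ l, G a l * h a * J j l) * g⁻¹ j r * J r k := by
  have e : g = J * (G * Jᵀ) := by
    ext i j
    simp only [hg, Matrix.mul_apply, Matrix.transpose_apply, Finset.mul_sum]
    exact Finset.sum_congr rfl fun a _ => Finset.sum_congr rfl fun b _ => by ring
  have h1 : J * (G * Jᵀ * g⁻¹) = 1 := by
    rw [← mul_assoc, ← e]
    exact Matrix.mul_nonsing_inv g (isUnit_iff_ne_zero.2 hd)
  have h2 : h = ((h ᵥ* (G * Jᵀ)) ᵥ* g⁻¹) ᵥ* J := by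
    rw [Matrix.vecMul_vecMul, Matrix.vecMul_vecMul, ← mul_assoc, mul_eq_one_comm.1 h1,
      Matrix.vecMul_one]
  have h3 : ∀ j, (h ᵥ* (G * Jᵀ)) j = ∑ a, ∑ l, G a l * h a * J j l := fun j => by
    simp only [Matrix.vecMul, dotProduct, Matrix.mul_apply, Matrix.transpose_apply,
      Finset.mul_sum]
    exact Finset.sum_congr rfl fun a _ => Finset.sum_congr rfl fun b _ => by ring
  conv_lhs => rw [h2]
  simp only [← h3]
  simp only [Matrix.vecMul, dotProduct, Finset.sum_mul]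

lemma chain {f : En n → ℝ} {Φ : En n → En n} {y : En n} (hf : Sm f)
    (hΦ : DifferentiableAt ℝ Φ y) (v : En n) :
    D v (fun z => f (Φ z)) y = ∑ p, D (ee p) f (Φ y) * D v (fun z => Φ z p) y := by
  have h1 := ((hf.dAt (Φ y)).hasFDerivAt.comp y hΦ.hasFDerivAt).fderiv
  have h2 : ∀ p, D v (fun z => Φ z p) y = fderiv ℝ Φ y v p := fun p => by
    have := ((EuclideanSpace.proj p : En n →L[ℝ] ℝ).hasFDerivAt.comp y hΦ.hasFDerivAt).fderiv
    exact congrArg (fun L : En n →L[ℝ] ℝ => L v) this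
  simp only [h2]
  exact (congrArg (fun L : En n →L[ℝ] ℝ => L v) h1).trans (clm_eq (fderiv ℝ f (Φ y)) (fderiv ℝ Φ y v))

variable {ι : Type} [Fintype ι] [DecidableEq ι]

/-- The index set of the unknowns. -/
abbrev Ix (n : ℕ) (ι : Type) : Type := Fin n ⊕ (Fin n × Fin n) ⊕ (ι × ι)

/-- The unknowns. -/
def YY (Φ : En n → En n) (S : ι → ι → En n → ℝ) : Ix n ι → En n → ℝ
  | .inl k => fun y => Φ y k
  | .inr (.inl ik) => D (ee ik.1) fun y => Φ y ik.2
  | .inr (.inr aa) => S aa.1 aa.2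

/-- The image point. -/
def pt (w : Ix n ι → ℝ) : En n := WithLp.toLp 2 fun k => w (.inl k)

/-- The differentiated isometry condition. -/
def RR (g₁ g₂ : MatF n) (m i j : Fin n) (q : (En n × (Fin n → Fin n → ℝ)) × (Ix n ι → ℝ)) : ℝ :=
  D (ee m) (g₂ i j) q.1.1 - ∑ k, ∑ l, (∑ p, D (ee p) (g₁ k l) (pt q.2) * q.2 (.inr (.inl (m, p))))
    * q.2 (.inr (.inl (i, k))) * q.2 (.inr (.inl (j, l)))

/-- The right hand side of the system. -/
def FF (g₁ g₂ : MatF n) (A₁ A₂ : ConF n ι) (m : Fin n) :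
    Ix n ι → (En n × (Fin n → Fin n → ℝ)) × (Ix n ι → ℝ) → ℝ
  | .inl k => fun q => q.2 (.inr (.inl (m, k)))
  | .inr (.inl ik) => fun q => ∑ r, ∑ j,
      (RR g₁ g₂ m ik.1 j q + RR g₁ g₂ ik.1 m j q - RR g₁ g₂ j m ik.1 q) * 2⁻¹ * q.1.2 j r
        * q.2 (.inr (.inl (r, ik.2)))
  | .inr (.inr aa) => fun q =>
      ∑ k, ∑ e, q.2 (.inr (.inr (aa.1, e))) * A₁ k e aa.2 (pt q.2) * q.2 (.inr (.inl (m, k)))
        - ∑ e, A₂ m aa.1 e q.1.1 * q.2 (.inr (.inr (e, aa.2)))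

omit [DecidableEq ι] in
lemma pt_sm : ContDiff ℝ 1 (pt : (Ix n ι → ℝ) → En n) := by
  unfold pt
  fun_prop

omit [DecidableEq ι] in
lemma FF_sm {g₁ g₂ : MatF n} {A₁ A₂ : ConF n ι} (h₁ : GA g₁ A₁) (h₂ : GA g₂ A₂) (m : Fin n)
    (a : Ix n ι) : ContDiff ℝ 1 (FF g₁ g₂ A₁ A₂ m a) := by
  have a1 : ∀ p k l, ContDiff ℝ 1 (D (ee p) (g₁ k l)) := fun p k l =>
    ((h₁.1 k l).D _).of_le (by norm_num)
  have a2 : ∀ p k l, ContDiff ℝ 1 (D (ee p) (g₂ k l)) := fun p k l =>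
    ((h₂.1 k l).D _).of_le (by norm_num)
  have a3 : ∀ p k l, ContDiff ℝ 1 (A₁ p k l) := fun p k l =>
    (h₁.2.2.2.1 p k l).of_le (by norm_num)
  have a4 : ∀ p k l, ContDiff ℝ 1 (A₂ p k l) := fun p k l =>
    (h₂.2.2.2.1 p k l).of_le (by norm_num)
  have a5 := pt_sm (n := n) (ι := ι)
  have a6 : ∀ m i j, ContDiff ℝ 1 (RR (ι := ι) g₁ g₂ m i j) := fun m i j => by
    unfold RR
    fun_prop
  rcases a with k | ik | aa
  · unfold FF
    fun_prop
  · unfold FF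
    fun_prop
  · unfold FF
    fun_prop

variable {g₁ g₂ : MatF n} {A₁ A₂ : ConF n ι} {V : Set (En n)} {Φ : En n → En n}
  {S : ι → ι → En n → ℝ}

lemma co_sm (h : Iso g₁ A₁ g₂ A₂ V Φ S) (k : Fin n) : ContDiffOn ℝ ∞ (fun y => Φ y k) V :=
  (EuclideanSpace.proj k : En n →L[ℝ] ℝ).contDiff.comp_contDiffOn h.1

lemma YY_diff (hV : IsOpen V) (h : Iso g₁ A₁ g₂ A₂ V Φ S) (a : Ix n ι) :
    DifferentiableOn ℝ (YY Φ S a) V := by
  rcases a with k | ik | aa
  · exact (co_sm h k).differentiableOn (by simp)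
  · exact (contDiffOn_D hV (co_sm h ik.2) _).differentiableOn (by simp)
  · exact (h.2.1 _ _).differentiableOn (by simp)

lemma RR_eq (h₁ : GA g₁ A₁) (hV : IsOpen V) (h : Iso g₁ A₁ g₂ A₂ V Φ S) {y : En n} (hy : y ∈ V)
    (c : Fin n → Fin n → ℝ) (m i j : Fin n) :
    RR g₁ g₂ m i j ((y, c), fun b => YY Φ S b y) =
      ∑ k, ∑ l, g₁ k l (Φ y) * D (ee m) (D (ee i) fun z => Φ z k) y * D (ee j) (fun z => Φ z l) y
      + ∑ k, ∑ l, g₁ k l (Φ y) * D (ee m) (D (ee j) fun z => Φ z k) y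
        * D (ee i) (fun z => Φ z l) y := by
  have hn := hV.mem_nhds hy
  have dΦ : DifferentiableAt ℝ Φ y := (h.1.contDiffAt hn).differentiableAt (by simp)
  have dg : ∀ k l, DifferentiableAt ℝ (fun z => g₁ k l (Φ z)) y := fun k l =>
    ((h₁.1 k l).dAt _).comp y dΦ
  have dJ : ∀ i k, DifferentiableAt ℝ (D (ee i) fun z => Φ z k) y := fun i k =>
    dAt_of_on hV (contDiffOn_D hV (co_sm h k) _) hy
  have e : g₂ i j =ᶠ[𝓝 y] fun y => ∑ k, ∑ l, g₁ k l (Φ y) * D (ee i) (fun z => Φ z k) y *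
      D (ee j) (fun z => Φ z l) y := by
    filter_upwards [hn] with z hz using (h.2.2 z hz).2.1 i j
  have e1 : D (ee m) (g₂ i j) y = ∑ k, ∑ l, (g₁ k l (Φ y) * D (ee i) (fun z => Φ z k) y *
      D (ee m) (D (ee j) fun z => Φ z l) y + (g₁ k l (Φ y) * D (ee m) (D (ee i) fun z => Φ z k) y
      + (∑ p, D (ee p) (g₁ k l) (Φ y) * D (ee m) (fun z => Φ z p) y) *
        D (ee i) (fun z => Φ z k) y) * D (ee j) (fun z => Φ z l) y) := by
    rw [D_congr e, D_sum_at _ fun k _ => DifferentiableAt.fun_sum fun l _ =>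
      ((dg k l).fun_mul (dJ i k)).fun_mul (dJ j l)]
    refine Finset.sum_congr rfl fun k _ => ?_
    rw [D_sum_at _ fun l _ => ((dg k l).fun_mul (dJ i k)).fun_mul (dJ j l)]
    refine Finset.sum_congr rfl fun l _ => ?_
    rw [D_mul_at ((dg k l).fun_mul (dJ i k)) (dJ j l), D_mul_at (dg k l) (dJ i k),
      chain (h₁.1 k l) dΦ]
  have e2 : ∑ k, ∑ l, g₁ k l (Φ y) * D (ee m) (D (ee j) fun z => Φ z k) y
        * D (ee i) (fun z => Φ z l) y = ∑ k, ∑ l, g₁ k l (Φ y) * D (ee i) (fun z => Φ z k) y *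
      D (ee m) (D (ee j) fun z => Φ z l) y := by
    rw [Finset.sum_comm]
    refine Finset.sum_congr rfl fun k _ => Finset.sum_congr rfl fun l _ => ?_
    rw [h₁.2.1 l k]
    ring
  have e3 : pt (fun b => YY Φ S b y) = Φ y := rfl
  rw [e2]
  simp only [RR, e1, e3]
  simp only [YY, add_mul, Finset.sum_add_distrib]
  ring

lemma YY_eq (h₁ : GA g₁ A₁) (h₂ : GA g₂ A₂) (hV : IsOpen V) (h : Iso g₁ A₁ g₂ A₂ V Φ S)
    (y : En n) (hy : y ∈ V) (m : Fin n) (a : Ix n ι) :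
    D (ee m) (YY Φ S a) y = FF g₁ g₂ A₁ A₂ m a
      ((y, fun i j => (Matrix.of fun k l => g₂ k l y)⁻¹ i j), fun b => YY Φ S b y) := by
  rcases a with k | ⟨i, k⟩ | ⟨a, a'⟩
  · rfl
  · have sy : ∀ i j k, D (ee i) (D (ee j) fun z => Φ z k) y
        = D (ee j) (D (ee i) fun z => Φ z k) y := fun i j k =>
      D_comm_at ((co_sm h k).contDiffAt (hV.mem_nhds hy)) _ _
    have h1 := solve (g := Matrix.of fun k l => g₂ k l y) (G := Matrix.of fun k l => g₁ k l (Φ y))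
      (J := Matrix.of fun i k => D (ee i) (fun z => Φ z k) y) (det_ne (h₂.2.2.1 y))
      (h.2.2 y hy).2.1 (fun k => D (ee m) (D (ee i) fun z => Φ z k) y) k
    refine h1.trans (Finset.sum_congr rfl fun r _ => Finset.sum_congr rfl fun j _ => ?_)
    rw [RR_eq h₁ hV h hy, RR_eq h₁ hV h hy, RR_eq h₁ hV h hy]
    simp only [Matrix.of_apply, YY, sy i m, sy j m, sy j i]
    ring
  · exact eq_sub_of_add_eq ((h.2.2 y hy).2.2 m a a')

omit [Fintype ι] [DecidableEq ι] in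
lemma par_cont (h₂ : GA g₂ A₂) :
    Continuous fun y : En n => (y, fun i j => (Matrix.of fun k l => g₂ k l y)⁻¹ i j) := by
  have c : Continuous fun y : En n => Matrix.of fun k l => g₂ k l y :=
    continuous_matrix fun k l => (h₂.1 k l).cont
  refine continuous_id.prodMk (continuous_pi fun i => continuous_pi fun j => ?_)
  simp only [Matrix.inv_def, Ring.inverse_eq_inv', Matrix.smul_apply, smul_eq_mul]
  exact (c.matrix_det.inv₀ fun y => det_ne (h₂.2.2.1 y)).mul (c.matrix_adjugate.matrix_elem i j)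

end IsoRig

open IsoRig

theorem s_rig : S_rig := by
  intro n ι _ _ g₁ g₂ A₁ A₂ V Φ Φ' S S' y₀ h₁ h₂ hV hc h h' hy hΦ hS
  have H := uniq (FF_sm h₁ h₂) hV hc (par_cont h₂).continuousOn (YY_diff hV h) (YY_diff hV h')
    (YY_eq h₁ h₂ hV h) (YY_eq h₁ h₂ hV h') hy fun a => ?_
  · refine ⟨fun y hy => ?_, fun a a' y hy => H y hy (.inr (.inr (a, a')))⟩
    ext k
    exact H y hy (.inl k)
  · rcases a with k | ik | aa
    · exact congrArg (fun v : En n => v k) hΦ.self_of_nhds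
    · exact D_congr (hΦ.mono fun z hz => congrArg (fun v : En n => v ik.2) hz) _
    · exact (hS _ _).self_of_nhds

end Vale.Agent.P088
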