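import Vale.Agent.P088.JetCl

/-!
# P088, boundary determination: the lemma of Borel in the normal variable
-/

open MeasureTheory Set Metric Filter
open scoped ContDiff Topology

noncomputable section
namespace Vale.Agent.P088
open Vale.Agent.P136 (D Dp Dm Sm Tst)

theorem jetborel_bdd {E : Type} [NormedAddCommGroup E] [NormedSpace ℝ E] {f : E → ℝ}
    (hf : ContDiff ℝ ∞ f) (hc : HasCompactSupport f) (j : ℕ) :
    ∃ B : ℝ, 0 ≤ B ∧ ∀ i ≤ j, ∀ x, ‖iteratedFDeriv ℝ i f x‖ ≤ B := by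
  have h1 : ∀ i : ℕ, ∃ B : ℝ, ∀ x, ‖iteratedFDeriv ℝ i f x‖ ≤ B := fun i =>
    (hc.iteratedFDeriv i).exists_bound_of_continuous
      (hf.continuous_iteratedFDeriv (by exact_mod_cast le_top))
  choose B hB using h1
  refine ⟨∑ i ∈ Finset.range (j + 1), |B i|, Finset.sum_nonneg fun _ _ => abs_nonneg _,
    fun i hi x => (hB i x).trans ((le_abs_self _).trans ?_)⟩
  exact Finset.single_le_sum (f := fun i => |B i|) (fun _ _ => abs_nonneg _)
    (Finset.mem_range.2 (by omega))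

variable {n : ℕ} [NeZero n]

theorem jetborel_term {G : ℝ → ℝ} (hG : ContDiff ℝ ∞ G) (cG : HasCompactSupport G)
    {f : En n → ℝ} (hf : ContDiff ℝ ∞ f) (cf : HasCompactSupport f) (j : ℕ) :
    ∃ C : ℝ, 0 ≤ C ∧ ∀ e : ℝ, 0 < e → e ≤ 1 → ∀ i < j, ∀ x,
      ‖iteratedFDeriv ℝ i (fun y : En n => e ^ j * G (e⁻¹ * y 0) * f y) x‖ ≤ C * e := by
  obtain ⟨B, hB0, hB⟩ := jetborel_bdd hG cG j
  obtain ⟨B', hB0', hB'⟩ := jetborel_bdd hf cf j
  refine ⟨2 ^ j * (B * B'), by positivity, fun e he he1 i hi x => ?_⟩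
  let ℓ : En n →L[ℝ] ℝ := e⁻¹ • (EuclideanSpace.proj (𝕜 := ℝ) 0 : En n →L[ℝ] ℝ)
  have hℓ : ‖ℓ‖ ≤ e⁻¹ := by
    refine ContinuousLinearMap.opNorm_le_bound _ (by positivity) fun y => ?_
    show ‖e⁻¹ * y 0‖ ≤ _
    rw [norm_mul, Real.norm_of_nonneg (by positivity)]
    exact mul_le_mul_of_nonneg_left (PiLp.norm_apply_le y 0) (by positivity)
  have hc : ContDiff ℝ ∞ (G ∘ ℓ) := hG.comp ℓ.contDiff
  have h1 : ∀ a ≤ i, ‖iteratedFDeriv ℝ a (fun y : En n => e ^ j * G (e⁻¹ * y 0)) x‖ ≤ B * e := by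
    intro a ha
    have e1 : (fun y : En n => e ^ j * G (e⁻¹ * y 0)) = e ^ j • (G ∘ ℓ) := rfl
    rw [e1, iteratedFDeriv_const_smul_apply (hc.of_le (by exact_mod_cast le_top)).contDiffAt,
      norm_smul, ℓ.iteratedFDeriv_comp_right hG x (by exact_mod_cast le_top),
      Real.norm_of_nonneg (by positivity)]
    have h2 := (iteratedFDeriv ℝ a G (ℓ x)).norm_compContinuousLinearMap_le fun _ => ℓ
    rw [Finset.prod_const, Finset.card_univ, Fintype.card_fin] at h2
    have h3 : ‖iteratedFDeriv ℝ a G (ℓ x)‖ * ‖ℓ‖ ^ a ≤ B * e⁻¹ ^ a :=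
      mul_le_mul (hB a (by omega) _) (pow_le_pow_left₀ (norm_nonneg _) hℓ a) (by positivity) hB0
    refine (mul_le_mul_of_nonneg_left (h2.trans h3) (by positivity)).trans ?_
    obtain ⟨d, rfl⟩ := Nat.exists_eq_add_of_lt (lt_of_le_of_lt ha hi)
    have e2 : e ^ (a + d + 1) * (B * e⁻¹ ^ a) = B * e * e ^ d := by
      rw [inv_pow]
      field_simp
      ring
    rw [e2]
    exact mul_le_of_le_one_right (by positivity) (pow_le_one₀ he.le he1)
  have h4 : ContDiff ℝ ∞ (fun y : En n => e ^ j * G (e⁻¹ * y 0)) := contDiff_const.mul hc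
  refine (norm_iteratedFDeriv_mul_le h4 hf x (n := i) (by exact_mod_cast le_top)).trans ?_
  refine (Finset.sum_le_sum (g := fun a => (i.choose a : ℝ) * (B * B' * e)) fun a ha => ?_).trans ?_
  · have ha' : a ≤ i := Nat.lt_succ_iff.1 (Finset.mem_range.1 ha)
    rw [mul_assoc]
    refine mul_le_mul_of_nonneg_left ?_ (by positivity)
    refine (mul_le_mul (h1 a ha') (hB' (i - a) (by omega) x) (norm_nonneg _)
      (by positivity)).trans (le_of_eq (by ring))
  · rw [← Finset.sum_mul, ← Nat.cast_sum, Nat.sum_range_choose,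
      mul_assoc ((2 : ℝ) ^ j)]
    refine mul_le_mul_of_nonneg_right ?_ (by positivity)
    push_cast
    exact pow_le_pow_right₀ one_le_two hi.le

theorem jetborel_eps (C B : ℝ) (hC : 0 ≤ C) (hB : 0 ≤ B) (j : ℕ) :
    ∃ e : ℝ, 0 < e ∧ e ≤ 1 / 2 ∧ C * e ≤ (1 / 2) ^ j ∧ 2 * e * B ≤ (1 / 2) ^ j := by
  have h0 : (0 : ℝ) < (1 / 2) ^ j := by positivity
  have h1 : ((1 : ℝ) / 2) ^ j ≤ 1 := pow_le_one₀ (by norm_num) (by norm_num)
  have h2 : 0 < 2 * (C + B + 1) := by positivity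
  refine ⟨(1 / 2) ^ j / (2 * (C + B + 1)), by positivity, ?_, ?_, ?_⟩
  · rw [div_le_iff₀ h2]
    linarith
  · rw [← mul_div_assoc, div_le_iff₀ h2]
    nlinarith only [h0, hC, hB]
  · rw [← mul_div_assoc, div_mul_eq_mul_div, div_le_iff₀ h2]
    nlinarith only [h0, hC, hB]

theorem s_borel : S_borel := by
  intro n _ R ρ hρ
  let ψ : ContDiffBump (0 : En n) := ⟨|R| + 1, |R| + 2, by positivity, by linarith⟩
  let χ : ContDiffBump (0 : ℝ) := ⟨1, 2, one_pos, one_lt_two⟩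
  have hf : ∀ j, ContDiff ℝ ∞ fun x => ψ x * ρ j x := fun j => ψ.contDiff.mul (hρ j)
  have cf : ∀ j, HasCompactSupport fun x => ψ x * ρ j x := fun j => ψ.hasCompactSupport.mul_right
  have hG : ∀ j : ℕ, ContDiff ℝ ∞ fun s : ℝ => s ^ j * χ s := fun j =>
    (contDiff_id.pow j).mul χ.contDiff
  have cG : ∀ j : ℕ, HasCompactSupport fun s : ℝ => s ^ j * χ s := fun j =>
    χ.hasCompactSupport.mul_left
  choose C hC0 hC using fun j => jetborel_term (hG j) (cG j) (hf j) (cf j) j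
  have hb : ∀ j, ∃ B : ℝ, 0 ≤ B ∧ ∀ x, |ψ x * ρ j x| ≤ B := fun j => by
    obtain ⟨B, hB⟩ := (cf j).exists_bound_of_continuous (hf j).continuous
    exact ⟨B, (norm_nonneg _).trans (hB 0), hB⟩
  choose B hB0 hB using hb
  choose e he0 he1 he2 he3 using fun j => jetborel_eps (C j) (B j) (hC0 j) (hB0 j) j
  let T : ℕ → En n → ℝ := fun j y =>
    e j ^ j * (((e j)⁻¹ * y 0) ^ j * χ ((e j)⁻¹ * y 0)) * (ψ y * ρ j y)
  have hT : ∀ j y, T j y = y 0 ^ j * χ ((e j)⁻¹ * y 0) * (ψ y * ρ j y) := by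
    intro j y
    have := (he0 j).ne'
    show e j ^ j * (((e j)⁻¹ * y 0) ^ j * χ ((e j)⁻¹ * y 0)) * (ψ y * ρ j y) = _
    rw [mul_pow, inv_pow]
    field_simp
  have hTs : ∀ j, ContDiff ℝ ∞ (T j) := fun j =>
    (contDiff_const.mul ((hG j).comp (contDiff_const.mul (sm_coord 0)))).mul (hf j)
  have hu : ContDiff ℝ ∞ fun x => ∑' j, T j x := by
    refine contDiff_tsum_of_eventually (N := ⊤) (v := fun _ j => (1 / 2) ^ j) hTs
      (fun _ _ => summable_geometric_two) fun k _ => ?_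
    rw [Nat.cofinite_eq_atTop]
    filter_upwards [eventually_gt_atTop k] with j hj x
    exact (hC j (e j) (he0 j) (by linarith [he1 j]) k hj x).trans (he2 j)
  have htail : ∀ m i x, ‖T (i + (m + 1)) x‖ ≤ |x 0| ^ m * (1 / 2) ^ i := by
    intro m i x
    set j := i + (m + 1) with hj
    by_cases h0 : χ ((e j)⁻¹ * x 0) = 0
    · rw [hT, h0, mul_zero, zero_mul, norm_zero]
      positivity
    have h1 : |x 0| ≤ 2 * e j := by
      have h2 : (e j)⁻¹ * x 0 ∈ Function.support χ := h0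
      rw [χ.support_eq, mem_ball_zero_iff, Real.norm_eq_abs, abs_mul,
        abs_of_pos (inv_pos.2 (he0 j)), inv_mul_lt_iff₀ (he0 j)] at h2
      have h3 : χ.rOut = 2 := rfl
      rw [h3] at h2
      linarith
    have h4 : |x 0| ^ j ≤ |x 0| ^ m * (2 * e j) := by
      have h5 : |x 0| ^ j ≤ |x 0| ^ (m + 1) :=
        pow_le_pow_of_le_one (abs_nonneg _) (by linarith [he1 j]) (by omega)
      rw [pow_succ] at h5
      exact h5.trans (mul_le_mul_of_nonneg_left h1 (by positivity))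
    have h6 : |χ ((e j)⁻¹ * x 0)| ≤ 1 := by
      rw [abs_of_nonneg χ.nonneg]
      exact χ.le_one
    have h7 : ((1 : ℝ) / 2) ^ j ≤ (1 / 2) ^ i :=
      pow_le_pow_of_le_one (by norm_num) (by norm_num) (by omega)
    have h8 := he0 j
    rw [hT, Real.norm_eq_abs, abs_mul, abs_mul, abs_pow]
    calc |x 0| ^ j * |χ ((e j)⁻¹ * x 0)| * |ψ x * ρ j x|
        ≤ |x 0| ^ m * (2 * e j) * 1 * B j :=
          mul_le_mul (mul_le_mul h4 h6 (abs_nonneg _) (by positivity)) (hB j x) (abs_nonneg _)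
            (by positivity)
      _ = |x 0| ^ m * (2 * e j * B j) := by ring
      _ ≤ |x 0| ^ m * (1 / 2) ^ i :=
          mul_le_mul_of_nonneg_left ((he3 j).trans h7) (by positivity)
  refine ⟨_, hu, fun m => ?_⟩
  have key : Van R m fun x => ∑' j, T j x - ∑ j ∈ Finset.range (m + 1), x 0 ^ j * ρ j x := by
    refine van_of_bound (hu.sub (ContDiff.sum fun j _ => ((sm_coord 0).pow j).mul (hρ j)))
      fun y hy h0 => ⟨2, ?_⟩
    have a1 : ∀ᶠ x : En n in 𝓝 y, ∀ j ∈ Finset.range (m + 1), |x 0| < e j := by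
      refine (eventually_all_finset _).2 fun j _ => ?_
      exact ((sm_coord 0).continuous.abs.tendsto y).eventually
        (gt_mem_nhds (by simpa [h0] using he0 j))
    filter_upwards [a1, isOpen_ball.mem_nhds hy] with x hx hxb
    have hg := (hasSum_geometric_two).mul_left (|x 0| ^ m)
    have hs : Summable fun j => T j x :=
      (summable_nat_add_iff (m + 1)).1 (Summable.of_norm_bounded hg.summable fun i => htail m i x)
    have a2 : ψ x = 1 := by
      refine ψ.one_of_mem_closedBall (mem_closedBall_zero_iff.2 ?_)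
      have := mem_ball_zero_iff.1 hxb
      show ‖x‖ ≤ |R| + 1
      linarith [le_abs_self R]
    have a3 : ∑ j ∈ Finset.range (m + 1), x 0 ^ j * ρ j x = ∑ j ∈ Finset.range (m + 1), T j x := by
      refine Finset.sum_congr rfl fun j hj => ?_
      have a4 : χ ((e j)⁻¹ * x 0) = 1 := by
        refine χ.one_of_mem_closedBall (mem_closedBall_zero_iff.2 ?_)
        show ‖(e j)⁻¹ * x 0‖ ≤ 1
        rw [Real.norm_eq_abs, abs_mul, abs_of_pos (inv_pos.2 (he0 j)), inv_mul_le_iff₀ (he0 j),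
          mul_one]
        exact (hx j hj).le
      rw [hT, a2, a4, mul_one, one_mul]
    rw [a3, ← hs.sum_add_tsum_nat_add (m + 1), add_sub_cancel_left, mul_comm]
    exact tsum_of_norm_bounded hg fun i => htail m i x
  refine (key.add (van_pow_mul (hρ m))).congr fun x _ => ?_
  rw [Finset.sum_range_succ]
  ring

end Vale.Agent.P088
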