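import Vale.Agent.P088.JetCl

/-!
# P088, boundary determination: the formal orthogonal gauge by the Cayley transform
-/

open MeasureTheory Set Metric Filter
open scoped ContDiff Topology Matrix

noncomputable section
namespace Vale.Agent.P088
open Vale.Agent.P136

section alg
variable {ι : Type} [Fintype ι] [DecidableEq ι]

/-- The skew part of a matrix. -/
def jetcaySk (U : Matrix ι ι ℝ) : Matrix ι ι ℝ := (1 / 2 : ℝ) • (U - Uᵀ)

/-- The right-hand side of the equation for the Cayley parameter. -/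
def jetcayF (P Q W : Matrix ι ι ℝ) : Matrix ι ι ℝ :=
  (1 / 2 : ℝ) • ((1 + W) * P * (1 - W) - (1 - W) * Q * (1 + W))

omit [Fintype ι] [DecidableEq ι] in
lemma jetcay_sk_t (U : Matrix ι ι ℝ) : (jetcaySk U)ᵀ = -jetcaySk U := by
  simp only [jetcaySk, Matrix.transpose_smul, Matrix.transpose_sub, Matrix.transpose_transpose]
  rw [← smul_neg, neg_sub]

omit [Fintype ι] [DecidableEq ι] in
lemma jetcay_sk_self {U : Matrix ι ι ℝ} (h : Uᵀ = -U) : jetcaySk U = U := by
  rw [jetcaySk, h, sub_neg_eq_add, ← two_smul ℝ U, smul_smul]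
  norm_num

omit [Fintype ι] [DecidableEq ι] in
lemma jetcay_sk_sub (U V : Matrix ι ι ℝ) : jetcaySk (U - V) = jetcaySk U - jetcaySk V := by
  simp only [jetcaySk, Matrix.transpose_sub, ← smul_sub]
  congr 1
  abel

lemma jetcay_F_t {P Q W : Matrix ι ι ℝ} (hP : Pᵀ = -P) (hQ : Qᵀ = -Q) (hW : Wᵀ = -W) :
    (jetcayF P Q W)ᵀ = -jetcayF P Q W := by
  simp only [jetcayF, Matrix.transpose_smul, Matrix.transpose_sub, Matrix.transpose_mul,
    Matrix.transpose_add, Matrix.transpose_one, hP, hQ, hW]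
  rw [← smul_neg]
  congr 1
  noncomm_ring

lemma jetcay_F_sub (P Q W W' : Matrix ι ι ℝ) : jetcayF P Q W - jetcayF P Q W' =
    (1 / 2 : ℝ) • ((W - W') * (P * (1 - W)) - (1 + W') * P * (W - W') +
      (W - W') * (Q * (1 + W)) - (1 - W') * Q * (W - W')) := by
  simp only [jetcayF, ← smul_sub]
  congr 1
  noncomm_ring

lemma jetcay_det {W : Matrix ι ι ℝ} (hW : Wᵀ = -W) : (1 - W).det ≠ 0 := by
  intro h0
  obtain ⟨v, hv, h1⟩ := Matrix.exists_mulVec_eq_zero_iff.2 h0
  rw [Matrix.sub_mulVec, Matrix.one_mulVec, sub_eq_zero] at h1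
  have h2 : v ⬝ᵥ (W *ᵥ v) = -(v ⬝ᵥ (W *ᵥ v)) := by
    conv_lhs => rw [Matrix.dotProduct_mulVec, ← Matrix.mulVec_transpose, hW, Matrix.neg_mulVec,
      neg_dotProduct, dotProduct_comm]
  have h3 : v ⬝ᵥ v = 0 := by
    rw [← h1] at h2
    linarith
  exact hv (dotProduct_self_eq_zero.1 h3)

lemma jetcay_comm {M W : Matrix ι ι ℝ} (h1 : (1 - W) * M = 1) (h2 : M * (1 - W) = 1) :
    (1 + W) * M = M * (1 + W) := by
  have e1 : (1 + W) * M = M + M - (1 - W) * M := by noncomm_ring
  have e2 : M * (1 + W) = M + M - M * (1 - W) := by noncomm_ring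
  rw [e1, e2, h1, h2]

lemma jetcay_orth {M W : Matrix ι ι ℝ} (hW : Wᵀ = -W) (h1 : (1 - W) * M = 1)
    (h2 : M * (1 - W) = 1) : (M * (1 + W))ᵀ * (M * (1 + W)) = 1 := by
  have h3 : Mᵀ * (1 + W) = 1 := by
    have h4 := congrArg Matrix.transpose h1
    rwa [Matrix.transpose_mul, Matrix.transpose_sub, Matrix.transpose_one, hW, sub_neg_eq_add]
      at h4
  have h5 : (M * (1 + W))ᵀ = Mᵀ * (1 - W) := by
    rw [← jetcay_comm h1 h2, Matrix.transpose_mul, Matrix.transpose_add, Matrix.transpose_one, hW,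
      sub_eq_add_neg]
  rw [h5, mul_assoc, ← mul_assoc (1 - W), h1, one_mul, h3]

lemma jetcay_eqn {M W dS dW P Q : Matrix ι ι ℝ} (h1 : (1 - W) * M = 1) (h2 : M * (1 - W) = 1)
    (h3 : (1 - W) * dS - dW * (M * (1 + W)) = dW) :
    dS + Q * (M * (1 + W)) - M * (1 + W) * P = (2 : ℝ) • (M * (dW - jetcayF P Q W) * M) := by
  have hc := jetcay_comm h1 h2
  have e1 : 1 + M * (1 + W) = M + M := by
    rw [← h2]
    nth_rewrite 2 [h2]
    noncomm_ring
  have e2 : dS = M * dW * M + M * dW * M := by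
    have e3 : (1 - W) * dS = dW * (1 + M * (1 + W)) := by
      rw [mul_add, mul_one]
      exact sub_eq_iff_eq_add.1 h3
    calc dS = M * (1 - W) * dS := by rw [h2, one_mul]
      _ = M * (dW * (M + M)) := by rw [mul_assoc, e3, e1]
      _ = M * dW * M + M * dW * M := by noncomm_ring
  have e4 : (2 : ℝ) • (M * jetcayF P Q W * M) = M * (1 + W) * P - Q * (M * (1 + W)) := by
    rw [jetcayF, Matrix.mul_smul, Matrix.smul_mul, smul_smul]
    have e5 : M * ((1 + W) * P * (1 - W) - (1 - W) * Q * (1 + W)) * M =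
        M * (1 + W) * P * ((1 - W) * M) - M * (1 - W) * Q * ((1 + W) * M) := by noncomm_ring
    rw [e5, h1, h2, hc]
    norm_num
  rw [mul_sub, sub_mul, smul_sub, e4, two_smul, ← e2]
  abel

end alg

section fn
variable {n : ℕ} {ι : Type} [Fintype ι] [DecidableEq ι] {M N : En n → Matrix ι ι ℝ}

/-- Smooth matrix functions. -/
def jetcaySm (M : En n → Matrix ι ι ℝ) : Prop := ∀ a b, Sm fun x => M x a b

/-- The entrywise derivative. -/
def jetcayD (v : En n) (M : En n → Matrix ι ι ℝ) (x : En n) : Matrix ι ι ℝ :=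
  Matrix.of fun a b => D v (fun y => M y a b) x

omit [Fintype ι] [DecidableEq ι] in
lemma jetcay_sm_const (C : Matrix ι ι ℝ) : jetcaySm fun _ : En n => C := fun _ _ => Sm.const _

omit [Fintype ι] [DecidableEq ι] in
lemma jetcay_sm_add (hM : jetcaySm M) (hN : jetcaySm N) : jetcaySm fun x => M x + N x :=
  fun a b => (hM a b).add (hN a b)

omit [Fintype ι] [DecidableEq ι] in
lemma jetcay_sm_sub (hM : jetcaySm M) (hN : jetcaySm N) : jetcaySm fun x => M x - N x :=
  fun a b => (hM a b).sub (hN a b)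

omit [Fintype ι] [DecidableEq ι] in
lemma jetcay_sm_smul (c : ℝ) (hM : jetcaySm M) : jetcaySm fun x => c • M x :=
  fun a b => (hM a b).cmul c

omit [DecidableEq ι] in
lemma jetcay_sm_mul (hM : jetcaySm M) (hN : jetcaySm N) : jetcaySm fun x => M x * N x :=
  fun a b => Sm.sum (s := Finset.univ) fun e _ => (hM a e).mul (hN e b)

omit [Fintype ι] [DecidableEq ι] in
lemma jetcay_sm_sk (hM : jetcaySm M) : jetcaySm fun x => jetcaySk (M x) :=
  fun a b => ((hM a b).sub (hM b a)).cmul (1 / 2)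

lemma jetcay_sm_F {P Q W : En n → Matrix ι ι ℝ} (hP : jetcaySm P) (hQ : jetcaySm Q)
    (hW : jetcaySm W) : jetcaySm fun x => jetcayF (P x) (Q x) (W x) :=
  jetcay_sm_smul _ (jetcay_sm_sub
    (jetcay_sm_mul (jetcay_sm_mul (jetcay_sm_add (jetcay_sm_const 1) hW) hP)
      (jetcay_sm_sub (jetcay_sm_const 1) hW))
    (jetcay_sm_mul (jetcay_sm_mul (jetcay_sm_sub (jetcay_sm_const 1) hW) hQ)
      (jetcay_sm_add (jetcay_sm_const 1) hW)))

lemma jetcay_sm_inv (hM : jetcaySm M) (h0 : ∀ x, (M x).det ≠ 0) : jetcaySm fun x => (M x)⁻¹ := by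
  intro a b
  have e1 : (fun x => (M x)⁻¹ a b) =
      fun x => ((M x).det)⁻¹ * ((M x).updateRow b (Pi.single a 1)).det := by
    funext x
    rw [Matrix.inv_def, Ring.inverse_eq_inv', Matrix.smul_apply, smul_eq_mul,
      Matrix.adjugate_apply]
  rw [e1]
  refine Sm.mul (ContDiff.inv (sm_det hM) h0) (sm_det fun i j => ?_)
  by_cases hi : i = b
  · simp only [Matrix.updateRow_apply, hi, if_true]
    exact Sm.const _
  · simp only [Matrix.updateRow_apply, hi, if_false]
    exact hM i j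

omit [DecidableEq ι] in
lemma jetcay_D_mul (hM : jetcaySm M) (hN : jetcaySm N) (v x : En n) :
    jetcayD v (fun y => M y * N y) x = M x * jetcayD v N x + jetcayD v M x * N x := by
  ext a b
  simp only [jetcayD, Matrix.of_apply, Matrix.mul_apply, Matrix.add_apply]
  rw [D_sum_at _ fun e _ => ((hM a e).mul (hN e b)).dAt x, ← Finset.sum_add_distrib]
  exact Finset.sum_congr rfl fun e _ => D_mul_at ((hM a e).dAt x) ((hN e b).dAt x) v

omit [Fintype ι] in
lemma jetcay_D_one_add (hM : jetcaySm M) (v x : En n) :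
    jetcayD v (fun y => 1 + M y) x = jetcayD v M x := by
  ext a b
  simp only [jetcayD, Matrix.of_apply, Matrix.add_apply]
  rw [D_add_at (differentiableAt_const _) ((hM a b).dAt x), D_const, zero_add]

omit [Fintype ι] in
lemma jetcay_D_one_sub (hM : jetcaySm M) (v x : En n) :
    jetcayD v (fun y => 1 - M y) x = -jetcayD v M x := by
  ext a b
  simp only [jetcayD, Matrix.of_apply, Matrix.sub_apply, Matrix.neg_apply]
  rw [D_sub_at (differentiableAt_const _) ((hM a b).dAt x), D_const, zero_sub]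

omit [Fintype ι] [DecidableEq ι] in
lemma jetcay_D_sk (hM : jetcaySm M) (v x : En n) :
    jetcayD v (fun y => jetcaySk (M y)) x = jetcaySk (jetcayD v M x) := by
  ext a b
  simp only [jetcayD, jetcaySk, Matrix.of_apply, Matrix.sub_apply, Matrix.smul_apply,
    Matrix.transpose_apply, smul_eq_mul]
  rw [D_const_mul_at (((hM a b).sub (hM b a)).dAt x), D_sub_at ((hM a b).dAt x) ((hM b a).dAt x)]

variable [NeZero n] {R : ℝ} {k : ℕ}

/-- Matrix functions that vanish to order `k`. -/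
def jetcayVan (R : ℝ) (k : ℕ) (M : En n → Matrix ι ι ℝ) : Prop :=
  ∀ a b, Van R k fun x => M x a b

omit [Fintype ι] [DecidableEq ι] in
lemma jetcay_van_add (hM : jetcayVan R k M) (hN : jetcayVan R k N) :
    jetcayVan R k fun x => M x + N x := fun a b => (hM a b).add (hN a b)

omit [Fintype ι] [DecidableEq ι] in
lemma jetcay_van_sub (hM : jetcayVan R k M) (hN : jetcayVan R k N) :
    jetcayVan R k fun x => M x - N x := fun a b => (hM a b).sub (hN a b)

omit [Fintype ι] [DecidableEq ι] in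
lemma jetcay_van_smul (c : ℝ) (hM : jetcayVan R k M) : jetcayVan R k fun x => c • M x :=
  fun a b => (hM a b).sm_mul (Sm.const c)

omit [DecidableEq ι] in
lemma jetcay_van_mul_sm (hM : jetcayVan R k M) (hN : jetcaySm N) :
    jetcayVan R k fun x => M x * N x :=
  fun a b => Van.sum (s := Finset.univ) fun e _ => (hM a e).mul_sm (hN e b)

omit [DecidableEq ι] in
lemma jetcay_sm_mul_van (hM : jetcaySm M) (hN : jetcayVan R k N) :
    jetcayVan R k fun x => M x * N x :=
  fun a b => Van.sum (s := Finset.univ) fun e _ => (hN e b).sm_mul (hM a e)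

omit [Fintype ι] [DecidableEq ι] in
lemma jetcay_van_sk (hM : jetcayVan R k M) : jetcayVan R k fun x => jetcaySk (M x) :=
  fun a b => ((hM a b).sub (hM b a)).sm_mul (Sm.const (1 / 2))

lemma jetcay_van_F {P Q W W' : En n → Matrix ι ι ℝ} (hP : jetcaySm P) (hQ : jetcaySm Q)
    (hW : jetcaySm W) (hW' : jetcaySm W') (h : jetcayVan R k fun x => W x - W' x) :
    jetcayVan R k fun x => jetcayF (P x) (Q x) (W x) - jetcayF (P x) (Q x) (W' x) := by
  simp only [jetcay_F_sub]
  exact jetcay_van_smul _ (jetcay_van_sub (jetcay_van_add (jetcay_van_sub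
    (jetcay_van_mul_sm h (jetcay_sm_mul hP (jetcay_sm_sub (jetcay_sm_const 1) hW)))
    (jetcay_sm_mul_van (jetcay_sm_mul (jetcay_sm_add (jetcay_sm_const 1) hW') hP) h))
    (jetcay_van_mul_sm h (jetcay_sm_mul hQ (jetcay_sm_add (jetcay_sm_const 1) hW))))
    (jetcay_sm_mul_van (jetcay_sm_mul (jetcay_sm_sub (jetcay_sm_const 1) hW') hQ) h))

/-- The formal solution of the equation for the Cayley parameter. -/
lemma jetcay_sol (hf : S_fck) (R : ℝ) {P Q : En n → Matrix ι ι ℝ} (hP : jetcaySm P)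
    (hQ : jetcaySm Q) (hP' : ∀ x, (P x)ᵀ = -P x) (hQ' : ∀ x, (Q x)ᵀ = -Q x) :
    ∃ W : En n → Matrix ι ι ℝ, jetcaySm W ∧ (∀ x, (W x)ᵀ = -W x) ∧ jetcayVan R 1 W ∧
      ∀ k, jetcayVan R k fun x => jetcayD (ee 0) W x - jetcayF (P x) (Q x) (W x) := by
  obtain ⟨u, hu, hu0, hu1⟩ := hf n (ι × ι) R
    (fun u p x => jetcayF (P x) (Q x) (jetcaySk (Matrix.of fun a b => u (a, b) x)) p.1 p.2)
    (fun _ _ => 0) (fun _ => Sm.const 0)
    (fun u hu p => jetcay_sm_F hP hQ
      (jetcay_sm_sk (M := fun x => Matrix.of fun a b => u (a, b) x) fun a b => hu (a, b)) p.1 p.2)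
    (fun k u u' hu hu' h p => jetcay_van_F hP hQ
      (jetcay_sm_sk (M := fun x => Matrix.of fun a b => u (a, b) x) fun a b => hu (a, b))
      (jetcay_sm_sk (M := fun x => Matrix.of fun a b => u' (a, b) x) fun a b => hu' (a, b))
      (by
        simp only [← jetcay_sk_sub]
        exact jetcay_van_sk fun a b => h (a, b)) p.1 p.2)
  have hU : jetcaySm fun x => Matrix.of fun a b => u (a, b) x := fun a b => hu (a, b)
  refine ⟨fun x => jetcaySk (Matrix.of fun a b => u (a, b) x), jetcay_sm_sk hU,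
    fun x => jetcay_sk_t _, jetcay_van_sk fun a b => (hu0 (a, b)).congr fun x _ => ?_,
    fun k => ?_⟩
  · simp
  · have e1 : ∀ x, jetcayD (ee 0) (fun x => jetcaySk (Matrix.of fun a b => u (a, b) x)) x -
        jetcayF (P x) (Q x) (jetcaySk (Matrix.of fun a b => u (a, b) x)) =
        jetcaySk (jetcayD (ee 0) (fun x => Matrix.of fun a b => u (a, b) x) x -
          jetcayF (P x) (Q x) (jetcaySk (Matrix.of fun a b => u (a, b) x))) := by
      intro x
      rw [jetcay_sk_sub, jetcay_D_sk hU,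
        jetcay_sk_self (jetcay_F_t (hP' x) (hQ' x) (jetcay_sk_t _))]
    simp only [e1]
    exact jetcay_van_sk fun a b => hu1 k (a, b)

end fn

theorem s_cay (hf : S_fck) : S_cay := by
  intro n _ ι _ _ R P Q hP hQ hP' hQ'
  obtain ⟨W, hW, hW', hW0, hW1⟩ := jetcay_sol hf R (P := fun x => Matrix.of fun a b => P a b x)
    (Q := fun x => Matrix.of fun a b => Q a b x) hP hQ
    (fun x => Matrix.ext fun a b => hP' b a x) (fun x => Matrix.ext fun a b => hQ' b a x)
  have hu : ∀ x, IsUnit (1 - W x).det := fun x => isUnit_iff_ne_zero.2 (jetcay_det (hW' x))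
  have h1 : ∀ x, (1 - W x) * (1 - W x)⁻¹ = 1 := fun x => Matrix.mul_nonsing_inv _ (hu x)
  have h2 : ∀ x, (1 - W x)⁻¹ * (1 - W x) = 1 := fun x => Matrix.nonsing_inv_mul _ (hu x)
  have hN : jetcaySm fun x => 1 - W x := jetcay_sm_sub (jetcay_sm_const 1) hW
  have hM : jetcaySm fun x => (1 - W x)⁻¹ := jetcay_sm_inv hN fun x => jetcay_det (hW' x)
  have hS : jetcaySm fun x => (1 - W x)⁻¹ * (1 + W x) :=
    jetcay_sm_mul hM (jetcay_sm_add (jetcay_sm_const 1) hW)
  refine ⟨fun a a' x => ((1 - W x)⁻¹ * (1 + W x)) a a', hS, fun y a a' => ?_,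
    fun y hy h0 a a' => ?_, fun k a a' => ?_⟩
  · have h3 := congrFun (congrFun (jetcay_orth (hW' y) (h1 y) (h2 y)) a) a'
    rw [Matrix.mul_apply, Matrix.one_apply] at h3
    exact h3
  · have h3 : W y = 0 := Matrix.ext fun b b' => Van.val (k := 0) (hW0 b b') hy h0
    simp only [h3, sub_zero, add_zero, inv_one, mul_one, Matrix.one_apply]
  · have h3 : ∀ x, (1 - W x) * jetcayD (ee 0) (fun x => (1 - W x)⁻¹ * (1 + W x)) x -
        jetcayD (ee 0) W x * ((1 - W x)⁻¹ * (1 + W x)) = jetcayD (ee 0) W x := by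
      intro x
      have h4 := jetcay_D_mul hN hS (ee 0) x
      have h5 : (fun y => (1 - W y) * ((1 - W y)⁻¹ * (1 + W y))) = fun y => 1 + W y := by
        funext y
        rw [← mul_assoc, h1, one_mul]
      rw [h5, jetcay_D_one_add hW, jetcay_D_one_sub hW, neg_mul, ← sub_eq_add_neg] at h4
      exact h4.symm
    have h6 := jetcay_van_smul 2 (jetcay_van_mul_sm (jetcay_sm_mul_van hM (hW1 k)) hM) a a'
    refine h6.congr fun x _ => ?_
    have h7 := congrFun (congrFun (jetcay_eqn (P := Matrix.of fun a b => P a b x)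
      (Q := Matrix.of fun a b => Q a b x) (h1 x) (h2 x) (h3 x)) a) a'
    exact h7

end Vale.Agent.P088
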