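import Vale.Agent.P088.JetVan

/-!
# P088, boundary determination: calculus of amplitude classes
-/

open MeasureTheory Set Metric Filter
open scoped ContDiff Topology ComplexConjugate

noncomputable section
namespace Vale.Agent.P088
open Vale.Agent.P136

variable {n : ℕ}

lemma nn_pos (m : ℕ) : 0 < nn m := by unfold nn; positivity

lemma one_le_nn (m : ℕ) : 1 ≤ nn m := by unfold nn; linarith [Nat.cast_nonneg (α := ℝ) m]

lemma nn_ne (m : ℕ) : (nn m : ℂ) ≠ 0 := by exact_mod_cast (nn_pos m).ne'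

lemma tendsto_nn : Tendsto nn atTop atTop :=
  tendsto_atTop_add_const_right _ 1 tendsto_natCast_atTop_atTop

section dc
variable {f g : En n → ℂ} {x : En n}

lemma SmC.dAt (h : SmC f) (x : En n) : DifferentiableAt ℝ f x := (h.differentiable (by simp)) x

lemma SmC.Dc (h : SmC f) (i : Fin n) : SmC (Dc i f) :=
  (h.fderiv_right (m := ∞) (by simp)).clm_apply contDiff_const

lemma SmC.conj (h : SmC f) : SmC fun x => conj (f x) := Complex.conjCLE.contDiff.comp h

lemma smC_coord (i : Fin n) : SmC fun x : En n => (x i : ℂ) :=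
  Complex.ofRealCLM.contDiff.comp (sm_coord i)

lemma Dc_add (hf : DifferentiableAt ℝ f x) (hg : DifferentiableAt ℝ g x) (i : Fin n) :
    Dc i (fun y => f y + g y) x = Dc i f x + Dc i g x := by
  simp only [Dc]; rw [fderiv_fun_add hf hg]; rfl

lemma Dc_sub (hf : DifferentiableAt ℝ f x) (hg : DifferentiableAt ℝ g x) (i : Fin n) :
    Dc i (fun y => f y - g y) x = Dc i f x - Dc i g x := by
  simp only [Dc]; rw [fderiv_fun_sub hf hg]; rfl

lemma Dc_mul (hf : DifferentiableAt ℝ f x) (hg : DifferentiableAt ℝ g x) (i : Fin n) :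
    Dc i (fun y => f y * g y) x = f x * Dc i g x + Dc i f x * g x := by
  simp only [Dc]; rw [fderiv_fun_mul hf hg]
  simp only [ContinuousLinearMap.add_apply, ContinuousLinearMap.smul_apply, smul_eq_mul]; ring

lemma Dc_const (c : ℂ) (i : Fin n) (x : En n) : Dc i (fun _ => c) x = 0 := by simp [Dc]

lemma Dc_const_mul (hf : DifferentiableAt ℝ f x) (c : ℂ) (i : Fin n) :
    Dc i (fun y => c * f y) x = c * Dc i f x := by
  rw [Dc_mul (differentiableAt_const c) hf, Dc_const]; ring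

lemma Dc_sum {α : Type*} (s : Finset α) {F : α → En n → ℂ}
    (hF : ∀ a ∈ s, DifferentiableAt ℝ (F a) x) (i : Fin n) :
    Dc i (fun y => ∑ a ∈ s, F a y) x = ∑ a ∈ s, Dc i (F a) x := by
  simp only [Dc]; rw [fderiv_fun_sum hF]; simp

lemma Dc_ofReal {u : En n → ℝ} (hu : DifferentiableAt ℝ u x) (i : Fin n) :
    Dc i (fun y => (u y : ℂ)) x = (D (ee i) u x : ℝ) := by
  have h : HasFDerivAt (fun y => (u y : ℂ)) _ x :=
    Complex.ofRealCLM.hasFDerivAt.comp x hu.hasFDerivAt
  simp only [Dc, D]; rw [h.fderiv]; rfl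

/-- The real derivative of `ℓ ∘ f` for a real-linear functional such as `reCLM` or `imCLM`. -/
lemma D_clm (ℓ : ℂ →L[ℝ] ℝ) (hf : DifferentiableAt ℝ f x) (i : Fin n) :
    D (ee i) (fun y => ℓ (f y)) x = ℓ (Dc i f x) := by
  have h : HasFDerivAt (fun y => ℓ (f y)) _ x := ℓ.hasFDerivAt.comp x hf.hasFDerivAt
  simp only [Dc, D]; rw [h.fderiv]; rfl

lemma Dc_cexp (hf : DifferentiableAt ℝ f x) (i : Fin n) :
    Dc i (fun y => Complex.exp (f y)) x = Complex.exp (f x) * Dc i f x := by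
  simp only [Dc]; rw [hf.hasFDerivAt.cexp.fderiv]; rfl

lemma Dc_comm (hf : SmC f) (i j : Fin n) (x : En n) : Dc i (Dc j f) x = Dc j (Dc i f) x := by
  have h2 : ContDiffAt ℝ 2 f x := hf.contDiffAt.of_le (by norm_cast)
  have hs : IsSymmSndFDerivAt ℝ f x := h2.isSymmSndFDerivAt (by simp)
  have hd : DifferentiableAt ℝ (fderiv ℝ f) x :=
    (h2.fderiv_right (m := 1) (by norm_num)).differentiableAt (by simp)
  have key : ∀ a b : Fin n, Dc a (Dc b f) x = fderiv ℝ (fderiv ℝ f) x (ee a) (ee b) := by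
    intro a b
    show fderiv ℝ (fun y => fderiv ℝ f y (ee b)) x (ee a) = _
    rw [fderiv_clm_apply hd (differentiableAt_const _)]
    simp
  rw [key, key]; exact hs _ _

lemma tsupport_Dc (f : En n → ℂ) (i : Fin n) : tsupport (Dc i f) ⊆ tsupport f :=
  (tsupport_comp_subset (g := fun L : En n →L[ℝ] ℂ => L (ee i)) (by simp) (fderiv ℝ f)).trans
    (tsupport_fderiv_subset ℝ)

end dc

variable [NeZero n] {K : Set (En n)} {w w' : ℤ} {f g : Amp n}

lemma Dc_pow_coord (i : Fin n) (k : ℕ) (x : En n) :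
    Dc i (fun x : En n => (x 0 : ℂ) ^ (k + 1)) x =
      if i = 0 then (k + 1) * (x 0 : ℂ) ^ k else 0 := by
  have h := Dc_ofReal (((sm_coord (0 : Fin n)).pow (k + 1)).dAt x) i
  rw [D_pow_coord] at h
  simp only [Complex.ofReal_pow] at h
  rw [h]
  split_ifs <;> simp

lemma mon_mem {p : ℤ} {q : ℕ} {c : En n → ℂ} (h : p - q ≤ w) (hc : SmC c) (hK : tsupport c ⊆ K) :
    mon p q c ∈ Cl K w := AddSubmonoid.subset_closure ⟨p, q, c, h, hc, hK, rfl⟩

/-- Induction principle for the classes. -/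
lemma cl_ind {P : Amp n → Prop} (hf : f ∈ Cl K w)
    (h1 : ∀ (p : ℤ) (q : ℕ) (c : En n → ℂ), p - q ≤ w → SmC c → tsupport c ⊆ K → P (mon p q c))
    (h0 : P 0) (ha : ∀ f g, f ∈ Cl K w → g ∈ Cl K w → P f → P g → P (f + g)) : P f := by
  induction hf using AddSubmonoid.closure_induction with
  | mem f hf => obtain ⟨p, q, c, a, b, d, rfl⟩ := hf; exact h1 p q c a b d
  | zero => exact h0
  | add f g hf hg a b => exact ha f g hf hg a b

lemma cl_congr (hf : f ∈ Cl K w) (e : ∀ m x, g m x = f m x) : g ∈ Cl K w := by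
  have : g = f := funext fun m => funext (e m)
  rwa [this]

lemma cl_zero : (fun _ _ => 0 : Amp n) ∈ Cl K w := (Cl K w).zero_mem

lemma cl_add (hf : f ∈ Cl K w) (hg : g ∈ Cl K w) : (fun m x => f m x + g m x) ∈ Cl K w :=
  (Cl K w).add_mem hf hg

lemma cl_sum {α : Type*} {s : Finset α} {F : α → Amp n} (hF : ∀ a ∈ s, F a ∈ Cl K w) :
    (fun m x => ∑ a ∈ s, F a m x) ∈ Cl K w :=
  cl_congr ((Cl K w).sum_mem hF) fun m x => by simp [Finset.sum_apply]

lemma cl_mono (hf : f ∈ Cl K w) (h : w ≤ w') : f ∈ Cl K w' :=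
  cl_ind (P := fun f => f ∈ Cl K w') hf (fun _ _ _ a b c => mon_mem (a.trans h) b c)
    (Cl K w').zero_mem fun _ _ _ _ a b => (Cl K w').add_mem a b

lemma cl_const {c : En n → ℂ} (hc : SmC c) (hK : tsupport c ⊆ K) :
    (fun _ x => c x : Amp n) ∈ Cl K 0 :=
  cl_congr (mon_mem (p := 0) (q := 0) (by simp) hc hK) fun m x => by simp [mon]

lemma smC_mon (p : ℤ) (q : ℕ) {c : En n → ℂ} (hc : SmC c) (m : ℕ) : SmC (mon p q c m) :=
  (contDiff_const.mul ((smC_coord 0).pow q)).mul hc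

lemma cl_sm (hf : f ∈ Cl K w) (m : ℕ) : SmC (f m) :=
  cl_ind (P := fun f => SmC (f m)) hf (fun p q _ _ b _ => smC_mon p q b m) contDiff_const
    fun _ _ _ _ a b => ContDiff.add a b

lemma cl_tsupport (hf : f ∈ Cl K w) (m : ℕ) : tsupport (f m) ⊆ K := by
  refine cl_ind (P := fun f => tsupport (f m) ⊆ K) hf (fun p q c _ _ d => ?_) ?_
    fun f g _ _ a b => ?_
  · exact (tsupport_mul_subset_right (f := fun x : En n => (nn m : ℂ) ^ p * (x 0 : ℂ) ^ q)
      (g := c)).trans d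
  · have : tsupport ((0 : Amp n) m) = ∅ := tsupport_eq_empty_iff.2 rfl
    rw [this]; exact empty_subset _
  · exact (tsupport_add (f m) (g m)).trans (union_subset a b)

lemma cl_eq_zero (hf : f ∈ Cl K w) (m : ℕ) {x : En n} (hx : x ∉ K) : f m x = 0 :=
  image_eq_zero_of_notMem_tsupport fun h => hx (cl_tsupport hf m h)

/-- Multiplication by a monomial whose coefficient has arbitrary support. -/
lemma cl_mon_mul (hf : f ∈ Cl K w) (p : ℤ) (q : ℕ) {c : En n → ℂ} (hc : SmC c) :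
    (fun m x => mon p q c m x * f m x) ∈ Cl K (p - q + w) := by
  refine cl_ind (P := fun f => (fun m x => mon p q c m x * f m x) ∈ Cl K (p - q + w)) hf
    (fun p' q' c' a b d => ?_) ?_ fun f g _ _ a b => ?_
  · refine cl_congr (mon_mem (p := p + p') (q := q + q') (c := fun x => c x * c' x)
      (by push_cast; omega) (hc.mul b) (tsupport_mul_subset_right.trans d)) fun m x => ?_
    simp only [mon, zpow_add₀ (nn_ne m)]; ring
  · exact cl_congr cl_zero fun m x => by simp
  · exact cl_congr (cl_add a b) fun m x => by simp [mul_add]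

lemma cl_mul (hf : f ∈ Cl K w) (hg : g ∈ Cl K w') :
    (fun m x => f m x * g m x) ∈ Cl K (w + w') := by
  refine cl_ind (P := fun f => (fun m x => f m x * g m x) ∈ Cl K (w + w')) hf
    (fun p q c a b _ => cl_mono (cl_mon_mul hg p q b) (by omega)) ?_ fun f g _ _ a b => ?_
  · exact cl_congr cl_zero fun m x => by simp
  · exact cl_congr (cl_add a b) fun m x => by simp [add_mul]

lemma cl_smul (hf : f ∈ Cl K w) {c : En n → ℂ} (hc : SmC c) :
    (fun m x => c x * f m x) ∈ Cl K w :=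
  cl_congr (cl_mono (cl_mon_mul hf 0 0 hc) (by simp)) fun m x => by simp [mon]

lemma cl_rsmul (hf : f ∈ Cl K w) {c : En n → ℝ} (hc : Sm c) :
    (fun m x => (c x : ℂ) * f m x) ∈ Cl K w := cl_smul hf (smC_ofReal hc)

lemma cl_cmul (hf : f ∈ Cl K w) (c : ℂ) : (fun m x => c * f m x) ∈ Cl K w :=
  cl_smul hf contDiff_const

lemma cl_neg (hf : f ∈ Cl K w) : (fun m x => -f m x) ∈ Cl K w :=
  cl_congr (cl_cmul hf (-1)) fun m x => by simp

lemma cl_sub (hf : f ∈ Cl K w) (hg : g ∈ Cl K w) : (fun m x => f m x - g m x) ∈ Cl K w :=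
  cl_congr (cl_add hf (cl_neg hg)) fun m x => by ring

lemma cl_mulN (hf : f ∈ Cl K w) : (fun m x => (nn m : ℂ) * f m x) ∈ Cl K (w + 1) :=
  cl_congr (cl_mono (cl_mon_mul hf 1 0 (c := fun _ => 1) contDiff_const) (by simp [add_comm]))
    fun m x => by simp [mon]

lemma cl_mulT (hf : f ∈ Cl K w) (q : ℕ) :
    (fun m x => (x 0 : ℂ) ^ q * f m x) ∈ Cl K (w - q) :=
  cl_congr (cl_mono (cl_mon_mul hf 0 q (c := fun _ => 1) contDiff_const) (by omega))
    fun m x => by simp [mon]

lemma cl_conj (hf : f ∈ Cl K w) : (fun m x => conj (f m x)) ∈ Cl K w := by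
  refine cl_ind (P := fun f => (fun m x => conj (f m x)) ∈ Cl K w) hf
    (fun p q c a b d => ?_) ?_ fun f g _ _ a b => ?_
  · refine cl_congr (mon_mem (c := fun x => conj (c x)) a b.conj
      ((tsupport_comp_subset (g := fun z : ℂ => conj z) (by simp) c).trans d)) fun m x => ?_
    simp [mon]
  · exact cl_congr cl_zero fun m x => by simp
  · exact cl_congr (cl_add a b) fun m x => by simp

/-- Multiplication by a function that vanishes to order `k` lowers the weight by `k`. -/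
lemma cl_van {r : ℝ} {k : ℕ} {u : En n → ℝ} (hf : f ∈ Cl K w) (hK : K ⊆ ball 0 r)
    (hu : Van r k u) : (fun m x => (u x : ℂ) * f m x) ∈ Cl K (w - k) := by
  obtain ⟨h, hs, he⟩ := hu
  refine cl_congr (cl_mulT (cl_rsmul hf hs) k) fun m x => ?_
  by_cases hx : x ∈ K
  · rw [he x (hK hx)]; push_cast; ring
  · simp [cl_eq_zero hf m hx]

lemma Dc_mon (p : ℤ) (q : ℕ) {c : En n → ℂ} (hc : SmC c) (i : Fin n) (m : ℕ) (x : En n) :
    Dc i (mon p q c m) x = mon p q (Dc i c) m x +
      (if i = 0 then (q : ℂ) else 0) * mon p (q - 1) c m x := by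
  have e : mon p q c m = fun x : En n => (nn m : ℂ) ^ p * ((x 0 : ℂ) ^ q * c x) :=
    funext fun x => mul_assoc _ _ _
  rw [e, Dc_const_mul (SmC.dAt (((smC_coord 0).pow q).mul hc) x),
    Dc_mul (SmC.dAt ((smC_coord 0).pow q) x) (hc.dAt x)]
  cases q with
  | zero => simp [mon, Dc_const]
  | succ q =>
    rw [Dc_pow_coord]
    simp only [mon, Nat.add_sub_cancel]
    split_ifs <;> push_cast <;> ring

lemma cl_Dc_aux (hf : f ∈ Cl K w) (i : Fin n) :
    (fun m => Dc i (f m)) ∈ Cl K (if i = 0 then w + 1 else w) := by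
  refine cl_ind (P := fun f => (fun m => Dc i (f m)) ∈ Cl K (if i = 0 then w + 1 else w)) hf
    (fun p q c a b d => ?_) ?_ fun f g hf hg a b => ?_
  · have h1 : mon p q (Dc i c) ∈ Cl K (if i = 0 then w + 1 else w) :=
      mon_mem (by split_ifs <;> omega) (b.Dc i) ((tsupport_Dc c i).trans d)
    have h2 : (fun m x => (if i = 0 then (q : ℂ) else 0) * mon p (q - 1) c m x) ∈
        Cl K (if i = 0 then w + 1 else w) := by
      split_ifs
      · cases q with
        | zero => exact cl_congr cl_zero fun m x => by simp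
        | succ q => exact cl_cmul (mon_mem (by push_cast at a ⊢; omega) b d) _
      · exact cl_congr cl_zero fun m x => by simp
    exact cl_congr (cl_add h1 h2) fun m x => Dc_mon p q b i m x
  · exact cl_congr cl_zero fun m x => Dc_const 0 i x
  · exact cl_congr (cl_add a b) fun m x => Dc_add ((cl_sm hf m).dAt x) ((cl_sm hg m).dAt x) i

lemma cl_Dc (hf : f ∈ Cl K w) (i : Fin n) : (fun m => Dc i (f m)) ∈ Cl K (w + 1) :=
  cl_mono (cl_Dc_aux hf i) (by split_ifs <;> omega)

lemma cl_Dtan (hf : f ∈ Cl K w) {i : Fin n} (hi : i ≠ 0) : (fun m => Dc i (f m)) ∈ Cl K w := by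
  simpa only [if_neg hi] using cl_Dc_aux hf i

lemma cl_Dt (hf : f ∈ Cl K w) {φ : En n → ℂ} (hφ : SmC φ) (i : Fin n) :
    Dt φ i f ∈ Cl K (w + 1) :=
  cl_congr (cl_add (cl_Dc hf i) (cl_mulN (cl_smul hf (hφ.Dc i)))) fun m x => by
    simp only [Dt]; ring

/-- The derivative of `e^{Nφ} a`. -/
lemma Dc_exp_mul {φ : En n → ℂ} (hφ : SmC φ) {a : Amp n} {m : ℕ} (ha : SmC (a m)) (i : Fin n)
    (x : En n) : Dc i (fun y => Complex.exp ((nn m : ℂ) * φ y) * a m y) x =
      Complex.exp ((nn m : ℂ) * φ x) * Dt φ i a m x := by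
  have h1 : SmC fun y => (nn m : ℂ) * φ y := contDiff_const.mul hφ
  rw [Dc_mul (h1.dAt x).cexp (ha.dAt x), Dc_cexp (h1.dAt x), Dc_const_mul (hφ.dAt x)]
  simp only [Dt]; ring

end Vale.Agent.P088
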