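import Vale.Agent.P088.JetCl

/-!
# P088, boundary determination: the comparison for real and imaginary parts
-/

open MeasureTheory Set Metric Filter
open scoped ContDiff Topology ComplexConjugate

noncomputable section
namespace Vale.Agent.P088
open Vale.Agent.P136

variable {n : ℕ} [NeZero n] {ι : Type} [Fintype ι] [DecidableEq ι]

/-- The real function `ℓ (e^{Nφ} f)`. -/
def jetcmpc_v (ℓ : ℂ →L[ℝ] ℝ) (φ : En n → ℂ) (m : ℕ) (f : Amp n) : En n → ℝ :=
  fun x => ℓ (Complex.exp ((nn m : ℂ) * φ x) * f m x)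

lemma jetcmpc_rmul (ℓ : ℂ →L[ℝ] ℝ) (e z : ℂ) (r : ℝ) : ℓ (e * ((r : ℂ) * z)) = r * ℓ (e * z) := by
  rw [mul_left_comm, ← Complex.real_smul, map_smul, smul_eq_mul]

section
variable {ℓ : ℂ →L[ℝ] ℝ} {φ : En n → ℂ} {m : ℕ} {f : Amp n}

omit [NeZero n] in
lemma jetcmpc_smC (hφ : SmC φ) (hf : SmC (f m)) :
    SmC fun x => Complex.exp ((nn m : ℂ) * φ x) * f m x :=
  (ContDiff.cexp (contDiff_const.mul hφ)).mul hf

lemma jetcmpc_D (hφ : SmC φ) (hf : SmC (f m)) (i : Fin n) (x : En n) :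
    D (ee i) (jetcmpc_v ℓ φ m f) x = jetcmpc_v ℓ φ m (Dt φ i f) x := by
  unfold jetcmpc_v
  rw [D_clm ℓ ((jetcmpc_smC hφ hf).dAt x), Dc_exp_mul hφ hf]

lemma jetcmpc_test {K : Set (En n)} {w : ℤ} {U : Set (En n)} (hK : IsCompact K) (hU : K ⊆ U)
    (hφ : SmC φ) (hf : f ∈ Cl K w) : IsTest U (jetcmpc_v ℓ φ m f) := by
  have hs : tsupport (jetcmpc_v ℓ φ m f) ⊆ K :=
    (tsupport_comp_subset (g := ℓ) (map_zero ℓ) _).trans
      (tsupport_mul_subset_right.trans (cl_tsupport hf m))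
  exact ⟨⟨ℓ.contDiff.comp (jetcmpc_smC hφ (cl_sm hf m)),
    hK.of_isClosed_subset (isClosed_tsupport _) hs⟩, hs.trans hU⟩

omit [NeZero n] in
lemma jetcmpc_smDt (hφ : SmC φ) (hf : SmC (f m)) (i : Fin n) : SmC (Dt φ i f m) :=
  (hf.Dc i).add ((contDiff_const.mul (hφ.Dc i)).mul hf)

omit [DecidableEq ι] in
lemma jetcmpc_cov {a : ι → Amp n} (hφ : SmC φ) (ha : ∀ b, SmC (a b m)) (A : ConF n ι) (i : Fin n)
    (b : ι) (x : En n) :
    cov A i (fun b => jetcmpc_v ℓ φ m (a b)) b x = jetcmpc_v ℓ φ m (covN A φ i a b) x := by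
  simp only [cov, jetcmpc_D hφ (ha b)]
  simp only [jetcmpc_v, covN, mul_add, Finset.mul_sum, map_add, map_sum, jetcmpc_rmul]

omit [DecidableEq ι] in
lemma jetcmpc_app {a : ι → Amp n} (hφ : SmC φ) (ha : ∀ b, SmC (a b m)) {L : Op n ι} (hL : L.Good)
    (b : ι) (x : En n) :
    L.app (fun b => jetcmpc_v ℓ φ m (a b)) b x = jetcmpc_v ℓ φ m (LN L φ a b) x := by
  have h1 : ∀ i, XX ee L.γ (jetcmpc_v ℓ φ m (a b)) i =
      jetcmpc_v ℓ φ m fun m y => ∑ j, (L.γ i j y : ℂ) * Dt φ j (a b) m y := fun i => by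
    funext y
    simp only [XX, jetcmpc_D hφ (ha b)]
    simp only [jetcmpc_v, Finset.mul_sum, map_sum, jetcmpc_rmul]
  have h2 : ∀ i, D (ee i) (XX ee L.γ (jetcmpc_v ℓ φ m (a b)) i) x =
      jetcmpc_v ℓ φ m (Dt φ i fun m y => ∑ j, (L.γ i j y : ℂ) * Dt φ j (a b) m y) x := fun i => by
    rw [h1]
    exact jetcmpc_D hφ (ContDiff.sum fun j _ =>
      (smC_ofReal (hL.1 i j)).mul (jetcmpc_smDt hφ (ha b) j)) i x
  simp only [Op.app, dgd, dvg, h2, jetcmpc_D hφ (ha _)]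
  simp only [jetcmpc_v, LN, mul_add, Finset.mul_sum, map_add, map_sum, jetcmpc_rmul]

end

lemma jetcmpc_pair (e z w : ℂ) : (e * z).re * (e * w).re + (e * z).im * (e * w).im =
    Complex.normSq e * (conj z * w).re := by
  simp only [Complex.mul_re, Complex.mul_im, Complex.normSq_apply, Complex.conj_re,
    Complex.conj_im]
  ring

lemma jetcmpc_normSq (N : ℝ) (z : ℂ) :
    Complex.normSq (Complex.exp ((N : ℂ) * z)) = Real.exp (2 * N * z.re) := by
  rw [Complex.normSq_eq_norm_sq, Complex.norm_exp, ← Real.exp_nat_mul, Complex.re_ofReal_mul]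
  congr 1
  push_cast
  ring

omit [DecidableEq ι] [NeZero n] in
lemma jetcmpc_tst_en {γ : MatF n} {A : ConF n ι} {v : ι → En n → ℝ} (hγ : SmM γ)
    (hA : ∀ i a a', Sm (A i a a')) (hv : ∀ a, Tst (v a)) :
    Tst fun x => ∑ i, ∑ j, γ i j x * ∑ a, cov A i v a x * cov A j v a x := by
  have hc : ∀ i a, Tst (cov A i v a) := fun i a =>
    ((hv a).D _).add (Tst.sum _ fun a' _ => Tst.mul_left (hA i a a') (hv a'))
  exact Tst.sum _ fun i _ => Tst.sum _ fun j _ => Tst.mul_left (hγ i j)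
    (Tst.sum _ fun a _ => (hc i a).mul_right (hc j a).sm)

omit [DecidableEq ι] [NeZero n] in
lemma jetcmpc_tst_app {L : Op n ι} {v : ι → En n → ℝ} (hL : L.Good) (hv : ∀ a, Tst (v a))
    (a : ι) : Tst (L.app v a) :=
  ((Tst.sum Finset.univ fun i _ => Tst.D (Tst.sum Finset.univ fun j _ =>
    Tst.mul_left (hL.1 i j) ((hv a).D (ee j))) (ee i)).add
    (Tst.sum Finset.univ fun i _ => Tst.sum Finset.univ fun a' _ =>
      Tst.mul_left (hL.2.2.1 i a a') ((hv a').D (ee i)))).add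
    (Tst.sum Finset.univ fun a' _ => Tst.mul_left (hL.2.2.2.1 a a') (hv a'))

omit [DecidableEq ι] in
lemma jetcmpc_ed {a : ι → Amp n} {φ : En n → ℂ} {m : ℕ} (hφ : SmC φ) (ha : ∀ b, SmC (a b m))
    (γ : MatF n) (A : ConF n ι) (x : En n) :
    (∑ i, ∑ j, γ i j x * ∑ b, cov A i (fun b => jetcmpc_v Complex.reCLM φ m (a b)) b x *
        cov A j (fun b => jetcmpc_v Complex.reCLM φ m (a b)) b x) +
      (∑ i, ∑ j, γ i j x * ∑ b, cov A i (fun b => jetcmpc_v Complex.imCLM φ m (a b)) b x *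
        cov A j (fun b => jetcmpc_v Complex.imCLM φ m (a b)) b x) =
      Complex.normSq (Complex.exp ((nn m : ℂ) * φ x)) * (ed γ A φ a m x).re := by
  simp only [jetcmpc_cov hφ ha, ed, Complex.re_sum, Complex.re_ofReal_mul, Finset.mul_sum,
    ← Finset.sum_add_distrib]
  refine Finset.sum_congr rfl fun i _ => Finset.sum_congr rfl fun j _ =>
    Finset.sum_congr rfl fun b _ => ?_
  rw [← mul_add, mul_left_comm]
  exact congrArg _ (jetcmpc_pair _ _ _)

theorem s_cmpC (hcop : S_cop) : S_cmpC := by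
  intro n _ ι _ _ g g' A A' r hg hg' ⟨C, hC⟩
  refine ⟨C, fun K φ κ w a hK hKr hφ hre ha m => ?_⟩
  have hL := (hcop n ι g A hg).1
  have hL' := (hcop n ι g' A' hg').1
  have hsm : ∀ b, SmC (a b m) := fun b => cl_sm (ha b) m
  let Q : (ι → En n → ℝ) → En n → ℝ := fun v x =>
    (∑ i, ∑ j, gam g i j x * ∑ a, cov A i v a x * cov A j v a x) -
      (∑ i, ∑ j, gam g' i j x * ∑ a, cov A' i v a x * cov A' j v a x) -
      C * ∑ a, (x 0 * (cop g A).app v a x) ^ 2
  have hQ : ∀ v, Tests (ball 0 r) v → IntegrableOn (Q v) {x : En n | 0 < x 0} ∧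
      ∫ x in {x : En n | 0 < x 0}, Q v x ≤ 0 := fun v hv => by
    have hv' : ∀ a, Tst (v a) := fun a => (hv a).1
    have i1 := ((jetcmpc_tst_en hL.1 hg.2.2.2.1 hv').integrable (μ := volume)).integrableOn
      (s := {x : En n | 0 < x 0})
    have i2 := ((jetcmpc_tst_en hL'.1 hg'.2.2.2.1 hv').integrable (μ := volume)).integrableOn
      (s := {x : En n | 0 < x 0})
    have i3 : ∀ a, IntegrableOn (fun x : En n => (x 0 * (cop g A).app v a x) ^ 2)
        {x : En n | 0 < x 0} := fun a =>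
      ((Tst.mul_left (sm_coord 0) (jetcmpc_tst_app hL hv' a)).sq.integrable
        (μ := volume)).integrableOn
    have i4 := (integrable_finsetSum Finset.univ fun a _ => i3 a).const_mul C
    refine ⟨(i1.sub i2).sub i4, ?_⟩
    have e := integral_sub (i1.sub i2) i4
    have e' := integral_sub i1 i2
    have e'' := integral_finsetSum Finset.univ fun a _ => i3 a
    have h := hC v v hv hv fun _ _ _ => rfl
    refine (Eq.trans (b := enU {x | 0 < x 0} g A v - enU {x | 0 < x 0} g' A' v -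
      C * ∑ a, ∫ x in {x : En n | 0 < x 0}, (x 0 * (cop g A).app v a x) ^ 2) ?_ rfl).trans_le
      (by linarith)
    refine e.trans ?_
    rw [integral_const_mul, e'']
    exact congrArg (· - _) e'
  obtain ⟨q1, q2⟩ := hQ (fun b => jetcmpc_v Complex.reCLM φ m (a b))
    fun b => jetcmpc_test hK hKr hφ (ha b)
  obtain ⟨q3, q4⟩ := hQ (fun b => jetcmpc_v Complex.imCLM φ m (a b))
    fun b => jetcmpc_test hK hKr hφ (ha b)
  refine (Eq.trans ?_ (integral_add q1 q3)).trans_le (by linarith)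
  refine integral_congr_ae (Eventually.of_forall fun x => ?_)
  have e0 : Real.exp (-(2 * nn m * κ x * x 0)) =
      Complex.normSq (Complex.exp ((nn m : ℂ) * φ x)) := by
    rw [jetcmpc_normSq, hre]
    congr 1
    ring
  have e1 := jetcmpc_ed hφ hsm (gam g) A x
  have e2 := jetcmpc_ed hφ hsm (gam g') A' x
  have e3 : ∑ b, (x 0 * (cop g A).app (fun b => jetcmpc_v Complex.reCLM φ m (a b)) b x) ^ 2 +
      ∑ b, (x 0 * (cop g A).app (fun b => jetcmpc_v Complex.imCLM φ m (a b)) b x) ^ 2 =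
      Complex.normSq (Complex.exp ((nn m : ℂ) * φ x)) * (x 0 ^ 2 *
        (∑ b, conj (LN (cop g A) φ a b m x) * LN (cop g A) φ a b m x).re) := by
    simp only [jetcmpc_app hφ hsm hL, Complex.re_sum, Finset.mul_sum, ← Finset.sum_add_distrib]
    refine Finset.sum_congr rfl fun b _ => ?_
    rw [mul_left_comm, ← jetcmpc_pair]
    simp only [jetcmpc_v, Complex.reCLM_apply, Complex.imCLM_apply]
    ring
  have e4 : ∀ z : ℂ, ((C : ℂ) * (x 0 : ℂ) ^ 2 * z).re = C * (x 0 ^ 2 * z.re) := fun z => by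
    rw [← Complex.ofReal_pow, ← Complex.ofReal_mul, Complex.re_ofReal_mul, mul_assoc]
  simp only [Q]
  rw [e0, Complex.sub_re, Complex.sub_re, e4]
  linear_combination -e1 + e2 + C * e3

end Vale.Agent.P088
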