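import Vale.Agent.P088.JetCl
import Vale.Agent.P088.IsoInter

/-!
# P088, boundary determination: the energy density under an isometry
-/

open MeasureTheory Set Metric Filter
open scoped ContDiff Topology Matrix

noncomputable section
namespace Vale.Agent.P088
open Vale.Agent.P136

lemma jetdens_orth {ι : Type} [Fintype ι] [DecidableEq ι] (S : ι → ι → ℝ)
    (hS : ∀ a a', ∑ e, S e a * S e a' = if a = a' then 1 else 0) (c d : ι → ℝ) :
    ∑ a, (∑ e, S a e * c e) * (∑ e, S a e * d e) = ∑ e, c e * d e := by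
  have e1 : ∀ a, (∑ e, S a e * c e) * (∑ e, S a e * d e) =
      ∑ e, ∑ e', (S a e * S a e') * (c e * d e') := by
    intro a
    rw [Finset.sum_mul_sum]
    exact Finset.sum_congr rfl fun e _ => Finset.sum_congr rfl fun e' _ => by ring
  simp only [e1]
  rw [Finset.sum_comm]
  refine Finset.sum_congr rfl fun e _ => ?_
  rw [Finset.sum_comm]
  simp only [← Finset.sum_mul, hS, ite_mul, one_mul, zero_mul, Finset.sum_ite_eq,
    Finset.mem_univ, if_true]

lemma jetdens_alg {n : ℕ} {ι : Type} [Fintype ι] (γ γ₁ : Fin n → Fin n → ℝ)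
    (J : Fin n → Fin n → ℝ) (μ : ℝ) (U : Fin n → ι → ℝ) (E : Fin n → Fin n → ℝ)
    (hE : ∀ k l, ∑ a, U k a * U l a = E k l)
    (hγ : ∀ k l, ∑ i, J i k * ∑ j, γ i j * J j l = μ * γ₁ k l) :
    ∑ i, ∑ j, γ i j * ∑ a, (∑ k, J i k * U k a) * (∑ l, J j l * U l a) =
      μ * ∑ k, ∑ l, γ₁ k l * E k l := by
  have e1 : ∀ i j, ∑ a, (∑ k, J i k * U k a) * (∑ l, J j l * U l a) =
      ∑ k, ∑ l, J i k * J j l * E k l := by
    intro i j
    simp only [Finset.sum_mul_sum]
    rw [Finset.sum_comm]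
    refine Finset.sum_congr rfl fun k _ => ?_
    rw [Finset.sum_comm]
    refine Finset.sum_congr rfl fun l _ => ?_
    rw [← hE, Finset.mul_sum]
    exact Finset.sum_congr rfl fun a _ => by ring
  have e2 : ∀ k l, μ * (γ₁ k l * E k l) = ∑ i, ∑ j, γ i j * (J i k * J j l * E k l) := by
    intro k l
    rw [← mul_assoc, ← hγ, Finset.sum_mul]
    refine Finset.sum_congr rfl fun i _ => ?_
    rw [Finset.mul_sum, Finset.sum_mul]
    exact Finset.sum_congr rfl fun j _ => by ring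
  simp only [e1]
  simp only [Finset.mul_sum, e2]
  calc ∑ i, ∑ j, ∑ k, ∑ l, γ i j * (J i k * J j l * E k l)
      = ∑ i, ∑ k, ∑ j, ∑ l, γ i j * (J i k * J j l * E k l) :=
        Finset.sum_congr rfl fun i _ => Finset.sum_comm
    _ = ∑ k, ∑ i, ∑ j, ∑ l, γ i j * (J i k * J j l * E k l) := Finset.sum_comm
    _ = ∑ k, ∑ i, ∑ l, ∑ j, γ i j * (J i k * J j l * E k l) :=
        Finset.sum_congr rfl fun k _ => Finset.sum_congr rfl fun i _ => Finset.sum_comm
    _ = ∑ k, ∑ l, ∑ i, ∑ j, γ i j * (J i k * J j l * E k l) :=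
        Finset.sum_congr rfl fun k _ => Finset.sum_comm

lemma jetdens_inv {n : ℕ} (J : Matrix (Fin n) (Fin n) ℝ) (hJ : J.det ≠ 0) (μ : ℝ)
    (c : Fin n → ℝ) (k : Fin n) : ∑ i, J i k * ∑ m, (μ * J⁻¹ m i) * c m = μ * c k := by
  have h1 : ∀ m, ∑ i, J⁻¹ m i * J i k = if m = k then 1 else 0 := by
    intro m
    have h2 := congrFun (congrFun (Matrix.nonsing_inv_mul J (isUnit_iff_ne_zero.2 hJ)) m) k
    rwa [Matrix.mul_apply, Matrix.one_apply] at h2
  have e1 : ∑ i, J i k * ∑ m, (μ * J⁻¹ m i) * c m = ∑ m, (∑ i, J⁻¹ m i * J i k) * (μ * c m) := by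
    simp only [Finset.mul_sum, Finset.sum_mul]
    rw [Finset.sum_comm]
    exact Finset.sum_congr rfl fun m _ => Finset.sum_congr rfl fun i _ => by ring
  rw [e1]
  simp only [h1, ite_mul, one_mul, zero_mul, Finset.sum_ite_eq', Finset.mem_univ, if_true]

theorem s_dens : S_dens := by
  intro n _ ι _ _ g₁ g A₁ A V Φ S v₁ v h₁ h hV hI hv₁ hv y hy
  have hΦ : ContDiffAt ℝ ∞ Φ y := hI.1.contDiffAt (hV.mem_nhds hy)
  have hc : ∀ i a, cov A i v a y =
      ∑ k, IsoInter.Jm Φ y i k * ∑ e, S a e y * cov A₁ k v₁ e (Φ y) := by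
    intro i a
    rw [← IsoInter.cov_pull hI hV hy hv₁ i a]
    refine IsoInter.cov_congr A i (fun b => ?_) a
    filter_upwards [hV.mem_nhds hy] with z hz using hv z hz b
  simp only [hc]
  rw [IsoInter.det_fd (IsoInter.dA hΦ)]
  refine jetdens_alg (fun i j => gam g i j y) (fun i j => gam g₁ i j (Φ y))
    (fun i k => IsoInter.Jm Φ y i k) _ (fun k a => ∑ e, S a e y * cov A₁ k v₁ e (Φ y))
    (fun k l => ∑ a, cov A₁ k v₁ a (Φ y) * cov A₁ l v₁ a (Φ y)) (fun k l => ?_) (fun k l => ?_)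
  · exact jetdens_orth (fun a e => S a e y) (hI.2.2 y hy).1 _ _
  · simp only [IsoInter.gam_pull h hI hy]
    exact jetdens_inv _ (IsoInter.det_ne h hI hy) _ (fun m => gam g₁ m l (Φ y)) k

end Vale.Agent.P088
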