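import Vale.Agent.P088.JetCl

/-!
# P088: expansion of the difference of the energy densities
-/

open MeasureTheory Set Metric Filter
open scoped ContDiff Topology ComplexConjugate

noncomputable section
namespace Vale.Agent.P088
open Vale.Agent.P136

lemma jetexp_abs {n : ℕ} [NeZero n] {ι : Type} [Fintype ι] {γ γ' : MatF n} {r : ℝ}
    {K : Set (En n)} {k l : ℕ} {w : ℤ} (C C' p d : Fin n → ι → Amp n) (hγ : SmM γ)
    (hK : K ⊆ ball 0 r) (hv : ∀ i j, Van r k fun x => γ i j x - γ' i j x)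
    (hk : 1 - (k : ℤ) ≤ w) (hl : -(l : ℤ) ≤ w) (hp : ∀ i b, p i b ∈ Cl K 1)
    (hu : ∀ i b, (fun m x => C i b m x - p i b m x) ∈ Cl K 0)
    (hu' : ∀ i b, (fun m x => C' i b m x - p i b m x) ∈ Cl K 0)
    (hd : ∀ i b, d i b ∈ Cl K (-l))
    (hd' : ∀ i b, (fun m x => C i b m x - C' i b m x - d i b m x) ∈ Cl K (-1 - l)) :
    (fun m x => ∑ i, ∑ j, ((γ i j x : ℂ) * ∑ b, conj (C i b m x) * C j b m x -
      (γ' i j x : ℂ) * ∑ b, conj (C' i b m x) * C' j b m x -
      ((γ i j x - γ' i j x : ℝ) : ℂ) * ∑ b, conj (p i b m x) * p j b m x -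
      (γ i j x : ℂ) * ∑ b, (conj (d i b m x) * p j b m x + conj (p i b m x) * d j b m x))) ∈
      Cl K w := by
  have hC : ∀ i b, C i b ∈ Cl K 1 := fun i b =>
    cl_congr (cl_add (cl_mono (hu i b) zero_le_one) (hp i b)) fun m x => by ring
  have hC' : ∀ i b, C' i b ∈ Cl K 1 := fun i b =>
    cl_congr (cl_add (cl_mono (hu' i b) zero_le_one) (hp i b)) fun m x => by ring
  refine cl_sum (F := fun i m x => ∑ j, ((γ i j x : ℂ) * ∑ b, conj (C i b m x) * C j b m x -
      (γ' i j x : ℂ) * ∑ b, conj (C' i b m x) * C' j b m x -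
      ((γ i j x - γ' i j x : ℝ) : ℂ) * ∑ b, conj (p i b m x) * p j b m x -
      (γ i j x : ℂ) * ∑ b, (conj (d i b m x) * p j b m x + conj (p i b m x) * d j b m x)))
    fun i _ => cl_sum (F := fun j m x => ((γ i j x : ℂ) * ∑ b, conj (C i b m x) * C j b m x -
      (γ' i j x : ℂ) * ∑ b, conj (C' i b m x) * C' j b m x -
      ((γ i j x - γ' i j x : ℝ) : ℂ) * ∑ b, conj (p i b m x) * p j b m x -
      (γ i j x : ℂ) * ∑ b, (conj (d i b m x) * p j b m x + conj (p i b m x) * d j b m x)))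
      fun j _ => ?_
  have t1 : (fun m x => ∑ b, (conj (C' i b m x) * C' j b m x - conj (p i b m x) * p j b m x)) ∈
      Cl K 1 := by
    refine cl_sum (F := fun b m x => conj (C' i b m x) * C' j b m x - conj (p i b m x) * p j b m x)
      fun b _ => ?_
    refine cl_congr (cl_add (cl_mono (cl_mul (cl_conj (hu' i b)) (hC' j b)) (by omega))
      (cl_mono (cl_mul (cl_conj (hp i b)) (hu' j b)) (by omega))) fun m x => ?_
    simp only [map_sub]
    ring
  have t2 : (fun m x => ∑ b, (conj (C i b m x) * C j b m x - conj (C' i b m x) * C' j b m x -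
      (conj (d i b m x) * p j b m x + conj (p i b m x) * d j b m x))) ∈ Cl K (-l) := by
    refine cl_sum (F := fun b m x => conj (C i b m x) * C j b m x -
      conj (C' i b m x) * C' j b m x -
      (conj (d i b m x) * p j b m x + conj (p i b m x) * d j b m x)) fun b _ => ?_
    refine cl_congr (cl_add (cl_add (cl_add
      (cl_mono (cl_mul (cl_conj (hd' i b)) (hC j b)) (by omega))
      (cl_mono (cl_mul (cl_conj (hd i b)) (hu j b)) (by omega)))
      (cl_mono (cl_mul (cl_conj (hC' i b)) (hd' j b)) (by omega)))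
      (cl_mono (cl_mul (cl_conj (hu' i b)) (hd j b)) (by omega))) fun m x => ?_
    simp only [map_sub]
    ring
  refine cl_congr (cl_add (cl_mono (cl_van t1 hK (hv i j)) hk)
    (cl_mono (cl_rsmul t2 (hγ i j)) hl)) fun m x => ?_
  simp only [Finset.sum_sub_distrib]
  push_cast
  ring

lemma jetexp_cov {n : ℕ} [NeZero n] {ι : Type} [Fintype ι] {A : ConF n ι} {φ : En n → ℂ}
    {K : Set (En n)} {a : ι → Amp n} {a₀ : ι → En n → ℂ} (hA : ∀ i b b', Sm (A i b b'))
    (hφ : SmC φ) (h0 : ∀ b, SmC (a₀ b) ∧ tsupport (a₀ b) ⊆ K)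
    (ha : ∀ b, (fun m x => a b m x - a₀ b x) ∈ Cl K (-1)) (ha0 : ∀ b, a b ∈ Cl K 0)
    (i : Fin n) (b : ι) :
    (fun m x => covN A φ i a b m x - (nn m : ℂ) * (Dc i φ x * a₀ b x)) ∈ Cl K 0 := by
  have t1 := cl_Dc (ha b) i
  have t2 := cl_const ((h0 b).1.Dc i) ((tsupport_Dc _ i).trans (h0 b).2)
  have t3 := cl_mulN (cl_smul (ha b) (hφ.Dc i))
  have t4 : (fun m x => ∑ b', (A i b b' x : ℂ) * a b' m x) ∈ Cl K 0 :=
    cl_sum (F := fun b' m x => (A i b b' x : ℂ) * a b' m x) fun b' _ =>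
      cl_rsmul (ha0 b') (hA i b b')
  refine cl_congr (cl_add (cl_add (cl_add (cl_mono t1 (by omega)) t2) (cl_mono t3 (by omega))) t4)
    fun m x => ?_
  rw [Dc_sub ((cl_sm (ha0 b) m).dAt x) ((h0 b).1.dAt x)]
  simp only [covN, Dt]
  ring

theorem s_exp : S_exp := by
  intro n _ ι _ γ γ' A A' φ r K a a₀ k l w hγ _ hA hA' hφ hK h0 ha hv hvA hk hl
  have hc : ∀ b, (fun _ x => a₀ b x : Amp n) ∈ Cl K 0 := fun b => cl_const (h0 b).1 (h0 b).2
  have ha0 : ∀ b, a b ∈ Cl K 0 := fun b =>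
    cl_congr (cl_add (cl_mono (ha b) (by omega)) (hc b)) fun m x => by ring
  have key := jetexp_abs (fun i b => covN A φ i a b) (fun i b => covN A' φ i a b)
    (fun i b m x => (nn m : ℂ) * (Dc i φ x * a₀ b x))
    (fun i b m x => ∑ b', ((A i b b' x - A' i b b' x : ℝ) : ℂ) * a₀ b' x) hγ hK hv hk hl
    (fun i b => cl_mono (cl_mulN (cl_smul (hc b) (hφ.Dc i))) (by omega))
    (jetexp_cov hA hφ h0 ha ha0) (jetexp_cov hA' hφ h0 ha ha0)
    (fun i b => cl_sum (F := fun b' _ x => ((A i b b' x - A' i b b' x : ℝ) : ℂ) * a₀ b' x)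
      fun b' _ => cl_mono (cl_van (hc b') hK (hvA i b b')) (by omega))
    (fun i b => cl_congr (cl_sum (s := Finset.univ) (F := fun b' m x =>
      ((A i b b' x - A' i b b' x : ℝ) : ℂ) * (a b' m x - a₀ b' x))
      fun b' _ => cl_van (ha b') hK (hvA i b b')) fun m x => by
        simp only [covN, mul_sub, Finset.sum_sub_distrib]
        push_cast
        simp only [sub_mul, Finset.sum_sub_distrib]
        ring)
  refine cl_congr key fun m x => ?_
  have e1 : lead1 γ γ' φ a₀ m x = ∑ i, ∑ j, ((γ i j x - γ' i j x : ℝ) : ℂ) *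
      ∑ b, conj ((nn m : ℂ) * (Dc i φ x * a₀ b x)) * ((nn m : ℂ) * (Dc j φ x * a₀ b x)) := by
    simp only [lead1, Finset.mul_sum, Finset.sum_mul, map_mul, Complex.conj_ofReal]
    rw [Finset.sum_comm]
    refine Finset.sum_congr rfl fun i _ => ?_
    rw [Finset.sum_comm]
    exact Finset.sum_congr rfl fun j _ => Finset.sum_congr rfl fun b _ => by ring
  have e2 : lead2 γ A A' φ a₀ m x = ∑ i, ∑ j, (γ i j x : ℂ) * ∑ b,
      (conj (∑ b', ((A i b b' x - A' i b b' x : ℝ) : ℂ) * a₀ b' x) *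
        ((nn m : ℂ) * (Dc j φ x * a₀ b x)) + conj ((nn m : ℂ) * (Dc i φ x * a₀ b x)) *
        ∑ b', ((A j b b' x - A' j b b' x : ℝ) : ℂ) * a₀ b' x) := by
    simp only [lead2, map_sum, Finset.mul_sum, Finset.sum_mul, map_mul, Complex.conj_ofReal,
      ← Finset.sum_add_distrib]
    exact Finset.sum_congr rfl fun i _ => Finset.sum_congr rfl fun j _ =>
      Finset.sum_congr rfl fun b _ => Finset.sum_congr rfl fun b' _ => by ring
  rw [e1, e2]
  simp only [ed, Finset.sum_sub_distrib]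

end Vale.Agent.P088
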