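import Vale.Agent.P088.JetCl

/-!
# P088, boundary determination: formal Cauchy problems, the gauge, the metric from `gam`
-/

open MeasureTheory Set Metric Filter
open scoped ContDiff Topology Matrix

noncomputable section
namespace Vale.Agent.P088
open Vale.Agent.P136

theorem s_fck (hb : S_borel) : S_fck := by
  intro n _ κ R F u₀ h₀ hF hc
  have step : ∀ (m : ℕ) (u : κ → En n → ℝ), (∀ a, Sm (u a)) →
      (∀ a, Van R m fun x => D (ee 0) (u a) x - F u a x) →
      ∃ ρ : κ → En n → ℝ, (∀ a, Sm (ρ a)) ∧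
        ∀ a, Van R (m + 1) fun x => D (ee 0) (fun x => u a x + x 0 ^ (m + 1) * ρ a x) x -
          F (fun a x => u a x + x 0 ^ (m + 1) * ρ a x) a x := by
    intro m u hu hv
    choose σ hσ using hv
    have hρ : ∀ a, Sm fun x => -((m + 1 : ℝ))⁻¹ * σ a x := fun a => (hσ a).1.cmul _
    refine ⟨fun a x => -((m + 1 : ℝ))⁻¹ * σ a x, hρ, fun a => ?_⟩
    have hu' : ∀ a, Sm fun x => u a x + x 0 ^ (m + 1) * (-((m + 1 : ℝ))⁻¹ * σ a x) := fun a =>
      (hu a).add (((sm_coord 0).pow _).mul (hρ a))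
    have h1 := hc (m + 1) _ u hu' hu
      (fun a => (van_pow_mul (hρ a)).congr fun x _ => add_sub_cancel_left _ _) a
    refine ((van_pow_mul (k := m + 1) ((hρ a).D (ee 0))).sub h1).congr fun x hx => ?_
    rw [D_add_at ((hu a).dAt x) ((((sm_coord 0).pow _).mul (hρ a)).dAt x),
      D_mul_at (((sm_coord 0).pow _).dAt x) ((hρ a).dAt x), D_pow_coord, if_pos rfl]
    have h2 := (hσ a).2 x hx
    have h3 : (m + 1 : ℝ) * (m + 1 : ℝ)⁻¹ = 1 := mul_inv_cancel₀ (by positivity)
    simp only at h2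
    linear_combination h2 - x 0 ^ m * σ a x * h3
  choose! ρ hρ using step
  let U : ℕ → κ → En n → ℝ := fun m =>
    Nat.rec u₀ (fun m u a x => u a x + x 0 ^ (m + 1) * ρ m u a x) m
  have hU : ∀ m, (∀ a, Sm (U m a)) ∧ ∀ a, Van R m fun x => D (ee 0) (U m a) x - F (U m) a x := by
    intro m
    induction m with
    | zero => exact ⟨h₀, fun a => van_zero (((h₀ a).D _).sub (hF _ h₀ a))⟩
    | succ m ih =>
      obtain ⟨h1, h2⟩ := hρ m (U m) ih.1 ih.2
      exact ⟨fun a => (ih.1 a).add (((sm_coord 0).pow _).mul (h1 a)), h2⟩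
  let τ : κ → ℕ → En n → ℝ := fun a j => Nat.casesOn j (u₀ a) fun m => ρ m (U m) a
  have hτ : ∀ a j, Sm (τ a j) := fun a j => by
    cases j with
    | zero => exact h₀ a
    | succ m => exact (hρ m (U m) (hU m).1 (hU m).2).1 a
  have hsum : ∀ m a x, U m a x = ∑ j ∈ Finset.range (m + 1), x 0 ^ j * τ a j x := by
    intro m a x
    induction m with
    | zero => simp [U, τ]
    | succ m ih => rw [Finset.sum_range_succ, ← ih]
  choose u hu hv using fun a => hb n R (τ a) (hτ a)
  have hd : ∀ m a, Van R (m + 1) fun x => u a x - U m a x := fun m a =>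
    (hv a (m + 1)).congr fun x _ => by rw [hsum]
  refine ⟨u, hu, hd 0, fun k a => ?_⟩
  have h1 := (hd k a).D 0
  have h2 := hc k u (U k) hu (hU k).1 (fun a => (hd k a).mono (Nat.le_succ k)) a
  refine ((h1.add ((hU k).2 a)).sub h2).congr fun x _ => ?_
  rw [D_sub_at ((hu a).dAt x) (((hU k).1 a).dAt x)]
  ring

theorem s_gauge (hc : S_cay) : S_gauge := by
  intro n _ ι _ _ R Φ A₁ A₂ hΦ h₁ h₂
  let P : Fin n → ι → ι → En n → ℝ := fun i a a' y =>
    ∑ k, A₁ k a a' (Φ y) * D (ee i) (fun z => Φ z k) y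
  have sP : ∀ i a a', Sm (P i a a') := fun i a a' =>
    Sm.sum fun k _ => Sm.mul ((h₁.1 k a a').comp hΦ) ((sm_comp_coord hΦ k).D _)
  have kP : ∀ i a a' x, P i a a' x = -P i a' a x := fun i a a' x => by
    simp only [P, ← Finset.sum_neg_distrib]
    exact Finset.sum_congr rfl fun k _ => by rw [h₁.2 k a a']; ring
  obtain ⟨S, sS, oS, bS, vS⟩ := hc n ι R (P 0) (A₂ 0) (sP 0) (h₂.1 0) (kP 0) (h₂.2 0)
  let M : En n → Matrix ι ι ℝ := fun y => Matrix.of fun a a' => S a a' y
  let dM : Fin n → En n → Matrix ι ι ℝ := fun i y => Matrix.of fun a a' => D (ee i) (S a a') y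
  let PM : Fin n → En n → Matrix ι ι ℝ := fun i y => Matrix.of fun a a' => P i a a' y
  have o1 : ∀ y, (M y)ᵀ * M y = 1 := fun y => by
    ext a a'
    simpa [M, Matrix.mul_apply, Matrix.one_apply] using oS y a a'
  have o2 : ∀ y, M y * (M y)ᵀ = 1 := fun y => mul_eq_one_comm.1 (o1 y)
  have o3 : ∀ i y, dM i y * (M y)ᵀ + M y * (dM i y)ᵀ = 0 := fun i y => by
    ext a a'
    have e : (fun y => ∑ e, S a e y * S a' e y) = fun _ => (1 : Matrix ι ι ℝ) a a' :=
      funext fun y => by rw [← o2 y]; simp [M, Matrix.mul_apply]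
    have h := D_const ((1 : Matrix ι ι ℝ) a a') (ee i) y
    rw [← e, D_sum_at _ fun e _ => ((sS a e).mul (sS a' e)).dAt y] at h
    simp only [D_mul_at ((sS _ _).dAt y) ((sS _ _).dAt y), Finset.sum_add_distrib] at h
    simp only [M, dM, Matrix.add_apply, Matrix.mul_apply, Matrix.transpose_apply, Matrix.of_apply,
      Matrix.zero_apply]
    linarith
  have kPM : ∀ i y, (PM i y)ᵀ = -PM i y := fun i y => by
    ext a a'
    simp only [PM, Matrix.transpose_apply, Matrix.of_apply, Matrix.neg_apply]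
    exact kP i a' a y
  let AM : Fin n → En n → Matrix ι ι ℝ := fun i y => (M y * PM i y - dM i y) * (M y)ᵀ
  have eA : ∀ i a a' y, AM i y a a' =
      ∑ e, (∑ e', S a e' y * P i e' e y - D (ee i) (S a e) y) * S a' e y := fun i a a' y => by
    simp [AM, M, PM, dM, Matrix.mul_apply]
  have sA : ∀ i a a', Sm fun y => AM i y a a' := fun i a a' => by
    simp only [eA]
    exact Sm.sum fun e _ => ((Sm.sum fun e' _ => (sS _ _).mul (sP _ _ _)).sub ((sS _ _).D _)).mul
      (sS _ _)
  have kA : ∀ i y, (AM i y)ᵀ = -AM i y := fun i y => by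
    have := o3 i y
    simp only [AM, Matrix.transpose_mul, Matrix.transpose_sub, Matrix.transpose_transpose, kPM]
    rw [← sub_eq_zero, ← neg_eq_zero, ← this]
    noncomm_ring
  have mA : ∀ i y, dM i y + AM i y * M y = M y * PM i y := fun i y => by
    simp only [AM]
    rw [Matrix.mul_assoc, o1, Matrix.mul_one]
    abel
  refine ⟨S, fun i a a' y => AM i y a a', sS, ⟨sA, fun i a a' y => ?_⟩, oS, fun y i a a' => ?_, bS,
    fun k a a' => ?_⟩
  · have := congrFun (congrFun (kA i y) a') a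
    simpa using this
  · have := congrFun (congrFun (mA i y) a) a'
    simp only [Matrix.add_apply, Matrix.mul_apply, M, dM, PM, Matrix.of_apply, P,
      Finset.mul_sum] at this
    rw [this, Finset.sum_comm]
    exact Finset.sum_congr rfl fun k _ => Finset.sum_congr rfl fun e _ => by ring
  · refine (Van.sum fun e (_ : e ∈ Finset.univ) =>
      (vS k a e).neg.mul_sm (sS a' e)).congr fun y _ => ?_
    have h1 : A₂ 0 a a' y = ∑ e, (∑ e', A₂ 0 a e' y * S e' e y) * S a' e y := by
      have h2 : (Matrix.of fun a a' => A₂ 0 a a' y) * M y * (M y)ᵀ =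
          Matrix.of fun a a' => A₂ 0 a a' y := by rw [Matrix.mul_assoc, o2, Matrix.mul_one]
      have := congrFun (congrFun h2 a) a'
      simpa [M, Matrix.mul_apply] using this.symm
    show AM 0 y a a' - _ = _
    rw [eA, h1, ← Finset.sum_sub_distrib]
    exact Finset.sum_congr rfl fun e _ => by ring

variable {n : ℕ} {ι : Type} [Fintype ι] [DecidableEq ι]

/-- The matrix of `g` at a point. -/
def mt (g : MatF n) (x : En n) : Matrix (Fin n) (Fin n) ℝ := Matrix.of fun k l => g k l x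

omit [Fintype ι] [DecidableEq ι] in
lemma GA.posDef {g : MatF n} {A : ConF n ι} (h : GA g A) (x : En n) : (mt g x).PosDef := by
  refine Matrix.PosDef.of_dotProduct_mulVec_pos ?_ fun v hv => ?_
  · ext i j
    simp [mt, h.2.1 j i]
  · have := h.2.2.1 x v hv
    simp only [mt, star_trivial, dotProduct, Matrix.mulVec, Matrix.of_apply, Finset.mul_sum]
    exact this.trans_eq (Finset.sum_congr rfl fun i _ => Finset.sum_congr rfl fun j _ => by ring)

omit [Fintype ι] [DecidableEq ι] in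
lemma GA.det_pos {g : MatF n} {A : ConF n ι} (h : GA g A) (x : En n) : 0 < (mt g x).det :=
  (h.posDef x).det_pos

lemma mt_gam (g : MatF n) (x : En n) : mt (gam g) x = √(mt g x).det • (mt g x)⁻¹ := by
  ext i j
  simp [mt, gam]

omit [Fintype ι] [DecidableEq ι] in
lemma GA.sm_sqrt {g : MatF n} {A : ConF n ι} (h : GA g A) : Sm fun x => √(mt g x).det :=
  (sm_det fun i j => h.1 i j).sqrt fun x => (h.det_pos x).ne'

omit [Fintype ι] [DecidableEq ι] in
lemma GA.sm_gam {g : MatF n} {A : ConF n ι} (h : GA g A) : SmM (gam g) := fun i j => by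
  have e : gam g i j = fun x => √(mt g x).det * (((mt g x).det)⁻¹ *
      ((mt g x).updateRow j (Pi.single i 1)).det) := funext fun x => by
    show √(mt g x).det * (mt g x)⁻¹ i j = _
    rw [Matrix.inv_def, Matrix.smul_apply, Ring.inverse_eq_inv', Matrix.adjugate_apply,
      smul_eq_mul]
  rw [e]
  refine h.sm_sqrt.mul (Sm.mul ((sm_det fun i j => h.1 i j).inv fun x => (h.det_pos x).ne')
    (sm_det fun k l => ?_))
  by_cases hk : k = j
  · simp only [hk, Matrix.updateRow_self]; exact Sm.const _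
  · simp only [Matrix.updateRow_ne hk]; exact h.1 k l

theorem s_gam : S_gam := by
  intro n _ hn ι _ _ g g' A A' r k h h' hv i j
  obtain ⟨d, rfl⟩ : ∃ d, n = d + 3 := ⟨n - 3, by omega⟩
  have e1 : ∀ {g : MatF (d + 3)} {A : ConF (d + 3) ι}, GA g A → ∀ x,
      (mt (gam g) x).det = √(mt g x).det ^ (d + 1) := fun {g A} h x => by
    have p := h.det_pos x
    have q : √(mt g x).det ^ 2 = (mt g x).det := Real.sq_sqrt p.le
    rw [mt_gam, Matrix.det_smul, Matrix.det_nonsing_inv, Ring.inverse_eq_inv', Fintype.card_fin,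
      pow_add _ (d + 1) 2, q, mul_inv_cancel_right₀ p.ne']
  have v1 : Van r k fun x => (mt (gam g) x).det - (mt (gam g') x).det :=
    Van.det_congr (fun i j => h.sm_gam i j) (fun i j => h'.sm_gam i j) hv
  let T : En (d + 3) → ℝ := fun x => ∑ i ∈ Finset.range (d + 1),
    √(mt g x).det ^ i * √(mt g' x).det ^ (d + 1 - 1 - i)
  have pT : ∀ x, 0 < T x := fun x => Finset.sum_pos (fun i _ =>
    mul_pos (pow_pos (Real.sqrt_pos.2 (h.det_pos x)) _)
      (pow_pos (Real.sqrt_pos.2 (h'.det_pos x)) _)) (by simp)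
  have sT : Sm T := Sm.sum fun i _ => (h.sm_sqrt.pow _).mul (h'.sm_sqrt.pow _)
  have v2 : Van r k fun x => √(mt g x).det - √(mt g' x).det := by
    refine (v1.mul_sm (sT.inv fun x => (pT x).ne')).congr fun x _ => ?_
    rw [e1 h, e1 h', ← geom_sum₂_mul]
    exact (mul_comm (T x) _ ▸ (mul_inv_cancel_right₀ (pT x).ne' _).symm)
  have sI : Sm fun x => (√(mt g x).det)⁻¹ :=
    h.sm_sqrt.inv fun x => (Real.sqrt_pos.2 (h.det_pos x)).ne'
  have v3 := ((v2.mul_sm (h.1 i j)).sub (Van.sum fun a (_ : a ∈ Finset.univ) =>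
    Van.sum fun b (_ : b ∈ Finset.univ) =>
      ((hv a b).sm_mul (h.1 i a)).mul_sm (h'.1 b j))).sm_mul sI
  refine v3.congr fun x _ => ?_
  have u1 : IsUnit (mt g x).det := isUnit_iff_ne_zero.2 (h.det_pos x).ne'
  have u2 : IsUnit (mt g' x).det := isUnit_iff_ne_zero.2 (h'.det_pos x).ne'
  have m1 : mt g x * (mt (gam g) x - mt (gam g') x) * mt g' x =
      √(mt g x).det • mt g' x - √(mt g' x).det • mt g x := by
    rw [mt_gam, mt_gam, Matrix.mul_sub, Matrix.sub_mul, Matrix.mul_smul, Matrix.mul_smul,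
      Matrix.smul_mul, Matrix.smul_mul, Matrix.mul_nonsing_inv _ u1, Matrix.one_mul,
      Matrix.mul_assoc, Matrix.nonsing_inv_mul _ u2, Matrix.mul_one]
  have m2 := congrFun (congrFun m1 i) j
  simp only [Matrix.mul_apply, Matrix.sub_apply, Matrix.smul_apply, smul_eq_mul,
    Finset.sum_mul] at m2
  rw [Finset.sum_comm] at m2
  have m3 : ∑ a, ∑ b, g i a x * (gam g a b x - gam g' a b x) * g' b j x =
      √(mt g x).det * g' i j x - √(mt g' x).det * g i j x := m2
  have p := (Real.sqrt_pos.2 (h.det_pos x)).ne'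
  rw [m3]
  field_simp
  ring

end Vale.Agent.P088
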