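import Vale.Agent.P088.JetCl

open MeasureTheory Set Metric Filter
open scoped ContDiff Topology

noncomputable section
namespace Vale.Agent.P088
open Vale.Agent.P136

variable {n : ℕ} [NeZero n]

/-- Scaling of the normal coordinate. -/
def jetleadT (n : ℕ) [NeZero n] (N : ℝ) : En n →ₗ[ℝ] En n :=
  Matrix.toLin (EuclideanSpace.basisFun (Fin n) ℝ).toBasis (EuclideanSpace.basisFun (Fin n) ℝ).toBasis
    (Matrix.diagonal fun i => if i = 0 then N⁻¹ else 1)

lemma jetlead_apply (N : ℝ) (z : En n) (i : Fin n) :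
    jetleadT n N z i = (if i = 0 then N⁻¹ else 1) * z i := by
  have := congrFun (Matrix.repr_toLin (EuclideanSpace.basisFun (Fin n) ℝ).toBasis
    (EuclideanSpace.basisFun (Fin n) ℝ).toBasis
    (Matrix.diagonal fun i : Fin n => if i = 0 then N⁻¹ else 1) z) i
  simpa [jetleadT, Matrix.mulVec_diagonal] using this

lemma jetlead_eq (N : ℝ) (z : En n) : jetleadT n N z = prj z + (N⁻¹ * z 0) • ee 0 := by
  ext i
  rw [jetlead_apply]
  by_cases h : i = 0 <;> simp [prj, ee, h]

lemma jetlead_det (N : ℝ) : LinearMap.det (jetleadT n N) = N⁻¹ := by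
  rw [jetleadT, LinearMap.det_toLin, Matrix.det_diagonal, Finset.prod_ite_eq']
  simp

lemma jetlead_meas : MeasurableSet {x : En n | 0 < x 0} :=
  (isOpen_lt continuous_const (by fun_prop)).measurableSet

lemma jetlead_subst {N : ℝ} (hN : 0 < N) {F : En n → ℝ} (hF : Continuous F) :
    N * ∫ x in {x : En n | 0 < x 0}, F x = ∫ x in {x : En n | 0 < x 0}, F (jetleadT n N x) := by
  have h1 := Measure.map_linearMap_addHaar_eq_smul_addHaar (volume : Measure (En n))
    (f := jetleadT n N) (by rw [jetlead_det]; positivity)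
  have h2 := setIntegral_map (μ := volume) (g := jetleadT n N) jetlead_meas
    hF.aestronglyMeasurable (LinearMap.continuous_of_finiteDimensional _).aemeasurable
  have h3 : jetleadT n N ⁻¹' {x : En n | 0 < x 0} = {x : En n | 0 < x 0} := by
    ext x
    simp [jetlead_apply, hN]
  rw [h3, h1, jetlead_det, inv_inv, abs_of_pos hN, Measure.restrict_smul, integral_smul_measure,
    ENNReal.toReal_ofReal hN.le] at h2
  exact h2

lemma jetlead_int {k : ℝ} (hk : 0 < k) (R : ℝ) (q : ℕ) : Integrable fun z : En n =>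
    ∏ i, (if i = 0 then (Ioi 0).indicator fun t : ℝ => Real.exp (-(k * t)) * t ^ q
      else (Icc (-R) R).indicator fun _ => (1 : ℝ)) (z i) := by
  refine (PiLp.volume_preserving_ofLp (Fin n)).integrable_comp_of_integrable
    (Integrable.fintype_prod (μ := fun _ => volume) fun i => ?_)
  split_ifs
  · rw [integrable_indicator_iff measurableSet_Ioi]
    refine (integrableOn_rpow_mul_exp_neg_mul_rpow (s := q) (p := 1)
      (by linarith [Nat.cast_nonneg (α := ℝ) q]) one_pos hk).congr_fun (fun t _ => ?_)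
      measurableSet_Ioi
    simp [mul_comm]
  · rw [integrable_indicator_iff measurableSet_Icc]
    exact integrableOn_const (by simp)

lemma jetlead_bound {K : Set (En n)} {κ c : En n → ℝ} (hK : IsCompact K) (hκ : Continuous κ)
    (hκ0 : ∀ x, 0 < κ x) (hc : Continuous c) (h0 : ∀ x, x ∉ K → c x = 0) (q : ℕ) :
    ∃ B : En n → ℝ, Integrable B ∧ ∀ z w : En n, 0 < z 0 → (∀ i, i ≠ 0 → w i = z i) →
      ‖Real.exp (-(2 * κ w * z 0)) * (z 0 ^ q * c w)‖ ≤ B z := by
  obtain ⟨k, hk, hk1⟩ := hK.exists_forall_le' hκ.continuousOn (a := 0) fun x _ => hκ0 x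
  obtain ⟨M, hM⟩ := hK.exists_bound_of_continuousOn hc.continuousOn
  obtain ⟨R, hR⟩ := hK.isBounded.exists_norm_le
  refine ⟨_, (jetlead_int hk R q).const_mul |M|, fun z w hz hw => ?_⟩
  by_cases hw1 : w ∈ K
  · rw [Finset.prod_eq_single 0 (fun i _ hi => ?_) (by simp), if_pos rfl,
      indicator_of_mem (mem_Ioi.2 hz), norm_mul, norm_mul, Real.norm_of_nonneg (Real.exp_pos _).le,
      Real.norm_of_nonneg (by positivity)]
    · have e1 : Real.exp (-(2 * κ w * z 0)) ≤ Real.exp (-(k * z 0)) :=
        Real.exp_le_exp.2 (by nlinarith [hk1 w hw1])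
      have e2 := (hM w hw1).trans (le_abs_self M)
      calc _ ≤ Real.exp (-(k * z 0)) * (z 0 ^ q * |M|) := by gcongr
        _ = _ := by ring
    · rw [if_neg hi, indicator_of_mem]
      rw [← hw i hi]
      exact abs_le.1 ((PiLp.norm_apply_le w i).trans (hR w hw1))
  · rw [h0 w hw1, mul_zero, mul_zero, norm_zero]
    refine mul_nonneg (abs_nonneg _) (Finset.prod_nonneg fun i _ => ?_)
    split_ifs
    · exact indicator_nonneg (fun t ht => by have := mem_Ioi.1 ht; positivity) _
    · exact indicator_nonneg (fun _ _ => zero_le_one) _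

lemma jetlead_prj (z : En n) (i : Fin n) (hi : i ≠ 0) : prj z i = z i := by simp [prj, ee, hi]

lemma jetlead_lim {K : Set (En n)} {κ c : En n → ℝ} (hK : IsCompact K) (hκ : Continuous κ)
    (hκ0 : ∀ x, 0 < κ x) (hc : Continuous c) (h0 : ∀ x, x ∉ K → c x = 0) (q : ℕ) :
    Tendsto (fun m => nn m ^ (q + 1) * ∫ x in {x : En n | 0 < x 0},
      Real.exp (-(2 * nn m * κ x * x 0)) * (x 0 ^ q * c x)) atTop
      (𝓝 (∫ x in {x : En n | 0 < x 0}, Real.exp (-(2 * κ (prj x) * x 0)) * (x 0 ^ q * c (prj x)))) := by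
  obtain ⟨B, hB, H⟩ := jetlead_bound hK hκ hκ0 hc h0 q
  have e : ∀ m, nn m ^ (q + 1) * ∫ x in {x : En n | 0 < x 0},
      Real.exp (-(2 * nn m * κ x * x 0)) * (x 0 ^ q * c x) = ∫ x in {x : En n | 0 < x 0},
      Real.exp (-(2 * κ (jetleadT n (nn m) x) * x 0)) * (x 0 ^ q * c (jetleadT n (nn m) x)) :=
    fun m => by
    have hN := nn_pos m
    rw [pow_succ, mul_assoc, jetlead_subst hN (by fun_prop), ← integral_const_mul]
    refine integral_congr_ae (Eventually.of_forall fun x => ?_)
    simp only [jetlead_apply, if_true]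
    have e1 : 2 * nn m * κ (jetleadT n (nn m) x) * ((nn m)⁻¹ * x 0) =
        2 * κ (jetleadT n (nn m) x) * x 0 := by field_simp
    rw [e1, mul_pow, inv_pow]
    field_simp
  simp only [e]
  refine tendsto_integral_of_dominated_convergence B (fun m => ?_) hB.integrableOn (fun m => ?_)
    (Eventually.of_forall fun x => ?_)
  · have := (jetleadT n (nn m)).continuous_of_finiteDimensional
    exact Continuous.aestronglyMeasurable (by fun_prop)
  · refine (ae_restrict_mem jetlead_meas).mono fun x hx => H x _ hx fun i hi => ?_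
    rw [jetlead_apply, if_neg hi, one_mul]
  · have h1 : Tendsto (fun m => jetleadT n (nn m) x) atTop (𝓝 (prj x)) := by
      simp only [jetlead_eq]
      simpa using ((tendsto_nn.inv_tendsto_atTop.mul_const (x 0)).smul_const
        (ee 0 : En n)).const_add (prj x)
    exact (Continuous.tendsto (f := fun w => Real.exp (-(2 * κ w * x 0)) * (x 0 ^ q * c w))
      (by fun_prop) _).comp h1

lemma jetlead_cs {K : Set (En n)} {κ c : En n → ℝ} (hK : IsCompact K) (hκ : Continuous κ)
    (hc : Continuous c) (h0 : ∀ x, x ∉ K → c x = 0) (N : ℝ) :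
    IntegrableOn (fun x : En n => Real.exp (-(2 * N * κ x * x 0)) * c x) {x : En n | 0 < x 0} :=
  (Continuous.integrable_of_hasCompactSupport (by fun_prop)
    (HasCompactSupport.intro hK fun x hx => by rw [h0 x hx, mul_zero])).integrableOn

lemma jetlead_err {K : Set (En n)} {κ : En n → ℝ} (hK : IsCompact K) (hκ : Continuous κ)
    (hκ0 : ∀ x, 0 < κ x) {w : ℤ} {f : Amp n} (hf : f ∈ Cl K w) :
    Tendsto (fun m => nn m ^ (-w) * ∫ x in {x : En n | 0 < x 0},
      Real.exp (-(2 * nn m * κ x * x 0)) * (f m x).re) atTop (𝓝 0) := by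
  have hi : ∀ g ∈ Cl K w, ∀ m, IntegrableOn
      (fun x : En n => Real.exp (-(2 * nn m * κ x * x 0)) * (g m x).re) {x : En n | 0 < x 0} :=
    fun g hg m => jetlead_cs (c := fun x => (g m x).re) hK hκ (Complex.continuous_re.comp (cl_sm hg m).continuous)
      (fun x hx => by rw [cl_eq_zero hg m hx, Complex.zero_re]) _
  refine cl_ind (P := fun f => Tendsto (fun m => nn m ^ (-w) * ∫ x in {x : En n | 0 < x 0},
      Real.exp (-(2 * nn m * κ x * x 0)) * (f m x).re) atTop (𝓝 0)) hf
    (fun p q c h1 h2 h3 => ?_) (by simp) fun f g hf hg h1 h2 => ?_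
  · have h4 := jetlead_lim (c := fun x => (c x).re) hK hκ hκ0
      (Complex.continuous_re.comp h2.continuous) (fun x hx => by
        rw [image_eq_zero_of_notMem_tsupport fun h => hx (h3 h), Complex.zero_re]) q
    have h5 := ((tendsto_zpow_atTop_zero (𝕜 := ℝ) (n := -w + p - (q + 1 : ℕ))
      (by push_cast; omega)).comp tendsto_nn).mul h4
    rw [zero_mul] at h5
    refine h5.congr fun m => ?_
    have hN := (nn_pos m).ne'
    have e : ∀ x : En n, Real.exp (-(2 * nn m * κ x * x 0)) * (mon p q c m x).re =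
        nn m ^ p * (Real.exp (-(2 * nn m * κ x * x 0)) * (x 0 ^ q * (c x).re)) := fun x => by
      rw [mon, ← Complex.ofReal_zpow, ← Complex.ofReal_pow, ← Complex.ofReal_mul,
        Complex.re_ofReal_mul]
      ring
    simp only [e, integral_const_mul, Function.comp_apply]
    rw [zpow_sub₀ hN, zpow_add₀ hN, zpow_natCast]
    field_simp
  · have h3 := h1.add h2
    rw [add_zero] at h3
    refine h3.congr fun m => ?_
    rw [← mul_add, ← integral_add (hi f hf m) (hi g hg m)]
    simp only [Pi.add_apply, Complex.add_re, mul_add]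

theorem s_lead : S_lead := by
  intro n _ K κ c y p q f hK hκ hκ0 hc hc0 h0 hy hcy hf
  have hp : Continuous (prj : En n → En n) := by unfold prj; fun_prop
  obtain ⟨B, hB, H⟩ := jetlead_bound hK hκ hκ0 hc h0 q
  have hpos : 0 < ∫ x in {x : En n | 0 < x 0},
      Real.exp (-(2 * κ (prj x) * x 0)) * (x 0 ^ q * c (prj x)) := by
    rw [setIntegral_pos_iff_support_of_nonneg_ae
      ((ae_restrict_mem jetlead_meas).mono fun x (hx : 0 < x 0) => by
        have := hc0 (prj x); positivity)
      (hB.integrableOn.mono' (Continuous.aestronglyMeasurable (by fun_prop))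
        ((ae_restrict_mem jetlead_meas).mono fun x hx => H x _ hx (jetlead_prj x)))]
    have ho : IsOpen ({x : En n | 0 < c (prj x)} ∩ {x : En n | 0 < x 0}) :=
      (isOpen_lt continuous_const (by fun_prop)).inter (isOpen_lt continuous_const (by fun_prop))
    refine (ho.measure_pos volume ⟨y + ee 0, ?_, by simp [ee, hy]⟩).trans_le (measure_mono ?_)
    · have : prj (y + ee 0) = y := by simp [prj, ee, hy]
      show 0 < c (prj (y + ee 0))
      rwa [this]
    · rintro x ⟨h1 : 0 < c (prj x), h2 : 0 < x 0⟩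
      exact ⟨ne_of_gt (by positivity), h2⟩
  have h1 := (jetlead_lim hK hκ hκ0 hc h0 q).add (jetlead_err hK hκ hκ0 hf)
  rw [add_zero] at h1
  obtain ⟨m, hm⟩ := (h1.eventually (lt_mem_nhds hpos)).exists
  refine ⟨m, ?_⟩
  have hN := nn_pos m
  have i1 := jetlead_cs (c := fun x => x 0 ^ q * c x) hK hκ (by fun_prop)
    (fun x hx => by rw [h0 x hx, mul_zero]) (nn m)
  have i2 := jetlead_cs (c := fun x => (f m x).re) hK hκ
    (Complex.continuous_re.comp (cl_sm hf m).continuous)
    (fun x hx => by rw [cl_eq_zero hf m hx, Complex.zero_re]) (nn m)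
  have e : ∀ x : En n, Real.exp (-(2 * nn m * κ x * x 0)) * (nn m ^ p * x 0 ^ q * c x + (f m x).re) =
      nn m ^ p * (Real.exp (-(2 * nn m * κ x * x 0)) * (x 0 ^ q * c x)) +
        Real.exp (-(2 * nn m * κ x * x 0)) * (f m x).re := fun x => by ring
  simp only [e]
  rw [integral_add (i1.const_mul _) i2, integral_const_mul]
  refine pos_of_mul_pos_left (b := nn m ^ (-(p - q - 1))) ?_ (zpow_pos hN _).le
  have e2 : nn m ^ p * nn m ^ (-(p - q - 1)) = nn m ^ (q + 1) := by
    rw [← zpow_add₀ hN.ne', ← zpow_natCast]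
    congr 1
    push_cast
    ring
  rw [← e2] at hm
  linarith

end Vale.Agent.P088
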