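import Vale.Agent.P088.JetCl

/-!
# P088, boundary determination: the model transport equation and the WKB induction
-/

open MeasureTheory Set Metric Filter
open scoped ContDiff Topology ComplexConjugate

noncomputable section
namespace Vale.Agent.P088
open Vale.Agent.P136

variable {n : ℕ} [NeZero n] {K : Set (En n)} {w : ℤ}

omit [NeZero n] in
lemma jetmodel_add {f g : En n → ℂ} (hf : SmC f) (hg : SmC g) (i : Fin n) :
    Dc i (fun y => f y + g y) = fun y => Dc i f y + Dc i g y :=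
  funext fun x => Dc_add (hf.dAt x) (hg.dAt x) i

/-- The model operator. -/
def jetmodelOp (α ϖ : En n → ℂ) (a : Amp n) : Amp n := fun m x =>
  α x * Dc 0 (Dc 0 (a m)) x + 2 * (nn m : ℂ) * ϖ x * Dc 0 (a m) x

lemma jetmodel_op_add (α ϖ : En n → ℂ) {a b : Amp n} {m : ℕ} (ha : SmC (a m)) (hb : SmC (b m))
    (x : En n) :
    jetmodelOp α ϖ (a + b) m x = jetmodelOp α ϖ a m x + jetmodelOp α ϖ b m x := by
  have e : (a + b) m = fun y => a m y + b m y := rfl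
  simp only [jetmodelOp, e, jetmodel_add ha hb, jetmodel_add (ha.Dc 0) (hb.Dc 0)]
  ring

lemma jetmodel_one {α ϖ β β' : En n → ℂ} (hα : SmC α) (hϖ : SmC ϖ) (hβ : SmC β) (hβ' : SmC β')
    (h : ∀ x, β x * ϖ x = 1 + (x 0 : ℂ) * β' x) (p : ℤ) (q : ℕ) {c : En n → ℂ} (hp : p - q ≤ w)
    (hc : SmC c) (hK : tsupport c ⊆ K) : ∃ a ∈ Cl K (w - 2), (fun m x => jetmodelOp α ϖ a m x -
      mon p q c m x - mon (p - 1) (q - 1) (fun y => (q : ℂ) / 2 * α y * β y * c y) m x) ∈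
        Cl K (w - 1) := by
  have hq : (q : ℂ) + 1 ≠ 0 := Nat.cast_add_one_ne_zero q
  obtain ⟨d, hd⟩ : ∃ d : En n → ℂ, d = fun y => (2 * ((q : ℂ) + 1))⁻¹ * β y * c y := ⟨_, rfl⟩
  have d1 : SmC d := hd ▸ (contDiff_const.mul hβ).mul hc
  have d2 : tsupport d ⊆ K := hd ▸ tsupport_mul_subset_right.trans hK
  have d3 := (tsupport_Dc d 0).trans d2
  have d4 := (tsupport_Dc (Dc 0 d) 0).trans d3
  refine ⟨mon (p - 1) (q + 1) d, mon_mem (by push_cast; omega) d1 d2, ?_⟩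
  have m1 : mon (p - 1) (q + 1) (Dc 0 (Dc 0 d)) ∈ Cl K (w - 1) :=
    mon_mem (by push_cast; omega) ((d1.Dc 0).Dc 0) d4
  have m2 : mon (p - 1) q (Dc 0 d) ∈ Cl K (w - 1) := mon_mem (by omega) (d1.Dc 0) d3
  have m3 : mon p (q + 1) (Dc 0 d) ∈ Cl K (w - 1) := mon_mem (by push_cast; omega) (d1.Dc 0) d3
  have m4 : mon p (q + 1) c ∈ Cl K (w - 1) := mon_mem (by push_cast; omega) hc hK
  refine cl_congr (cl_add (cl_add (cl_smul (cl_add m1 (cl_cmul m2 (2 * (q + 1)))) hα)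
    (cl_smul (cl_cmul m3 2) hϖ)) (cl_smul m4 hβ')) fun m x => ?_
  have e1 : Dc 0 (mon (p - 1) (q + 1) d m) = fun y => mon (p - 1) (q + 1) (Dc 0 d) m y +
      ((q : ℂ) + 1) * mon (p - 1) q d m y := funext fun y => by
    rw [Dc_mon _ _ d1]
    simp
  have e2 : (nn m : ℂ) ^ p = nn m * (nn m : ℂ) ^ (p - 1) := by
    rw [zpow_sub_one₀ (nn_ne m), mul_comm, inv_mul_cancel_right₀ (nn_ne m)]
  have e3 : d x * (2 * ((q : ℂ) + 1)) = β x * c x := by
    rw [hd]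
    field_simp
  rw [jetmodelOp, e1, Dc_add ((smC_mon _ _ (d1.Dc 0) m).dAt x)
    ((SmC.dAt (contDiff_const.mul (smC_mon _ _ d1 m)) x)),
    Dc_const_mul ((smC_mon _ _ d1 m).dAt x), Dc_mon _ _ (d1.Dc 0), Dc_mon _ _ d1]
  simp only [mon, e2, if_true, Nat.add_sub_cancel, Nat.cast_add, Nat.cast_one]
  linear_combination ((nn m : ℂ) * (nn m : ℂ) ^ (p - 1) * (x 0 : ℂ) ^ q * c x) * h x +
    ((nn m : ℂ) * (nn m : ℂ) ^ (p - 1) * (x 0 : ℂ) ^ q * ϖ x +
      (q : ℂ) / 2 * α x * (nn m : ℂ) ^ (p - 1) * (x 0 : ℂ) ^ (q - 1)) * e3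

theorem s_model : S_model := by
  intro n _ K α ϖ β β' hα hϖ hβ hβ' h w f hf
  have key : ∀ (q : ℕ) (p : ℤ) (c : En n → ℂ), p - q ≤ w → SmC c → tsupport c ⊆ K →
      ∃ a ∈ Cl K (w - 2), (fun m x => jetmodelOp α ϖ a m x - mon p q c m x) ∈ Cl K (w - 1) := by
    intro q
    induction q with
    | zero =>
      intro p c hp hc hK
      obtain ⟨a, h1, h2⟩ := jetmodel_one hα hϖ hβ hβ' h p 0 hp hc hK
      exact ⟨a, h1, cl_congr h2 fun m x => by simp [mon]⟩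
    | succ q ih =>
      intro p c hp hc hK
      obtain ⟨a, h1, h2⟩ := jetmodel_one hα hϖ hβ hβ' h p (q + 1) hp hc hK
      obtain ⟨b, h3, h4⟩ := ih (p - 1) (fun y => -(((q + 1 : ℕ) : ℂ) / 2 * α y * β y) * c y)
        (by push_cast at hp; omega) (((contDiff_const.mul hα).mul hβ).neg.mul hc)
        (tsupport_mul_subset_right.trans hK)
      refine ⟨a + b, add_mem h1 h3, cl_congr (cl_add h2 h4) fun m x => ?_⟩
      rw [jetmodel_op_add α ϖ (cl_sm h1 m) (cl_sm h3 m)]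
      simp only [mon, Nat.add_sub_cancel]
      ring
  refine cl_ind (P := fun f => ∃ a ∈ Cl K (w - 2),
    (fun m x => jetmodelOp α ϖ a m x - f m x) ∈ Cl K (w - 1)) hf (fun p q c => key q p c)
    ⟨0, zero_mem _, cl_congr cl_zero fun m x => ?_⟩ ?_
  · have e : Dc 0 ((0 : Amp n) m) = fun _ => 0 := funext fun y => Dc_const 0 0 y
    rw [jetmodelOp, e, Dc_const]
    simp
  · rintro f g - - ⟨a, h1, h2⟩ ⟨b, h3, h4⟩
    refine ⟨a + b, add_mem h1 h3, cl_congr (cl_add h2 h4) fun m x => ?_⟩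
    rw [jetmodel_op_add α ϖ (cl_sm h1 m) (cl_sm h3 m)]
    simp only [Pi.add_apply]
    ring

omit [NeZero n] in
lemma jetmodel_Dt_add (φ : En n → ℂ) (i : Fin n) {a b : Amp n} {m : ℕ} (ha : SmC (a m))
    (hb : SmC (b m)) (x : En n) :
    Dt φ i (fun m y => a m y + b m y) m x = Dt φ i a m x + Dt φ i b m x := by
  simp only [Dt, jetmodel_add ha hb]
  ring

omit [NeZero n] in
lemma jetmodel_Dt_sm {φ : En n → ℂ} (hφ : SmC φ) (i : Fin n) {a : Amp n} {m : ℕ}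
    (ha : SmC (a m)) : SmC (Dt φ i a m) :=
  (ha.Dc i).add ((contDiff_const.mul (hφ.Dc i)).mul ha)

lemma jetmodel_LN_add {ι : Type} [Fintype ι] {L : Op n ι} (hL : L.Good) {φ : En n → ℂ}
    (hφ : SmC φ) {a a' : ι → Amp n} {m : ℕ} (ha : ∀ b, SmC (a b m)) (ha' : ∀ b, SmC (a' b m))
    (b : ι) (x : En n) :
    LN L φ (fun b m y => a b m y + a' b m y) b m x = LN L φ a b m x + LN L φ a' b m x := by
  have s : ∀ {a : ι → Amp n}, (∀ b, SmC (a b m)) → ∀ i,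
      SmC fun y => ∑ j, (L.γ i j y : ℂ) * Dt φ j (a b) m y := fun ha i =>
    ContDiff.sum fun j _ => (smC_ofReal (hL.1 i j)).mul (jetmodel_Dt_sm hφ j (ha b))
  have e : ∀ i, Dt φ i (fun m y => ∑ j, (L.γ i j y : ℂ) *
      Dt φ j (fun m y => a b m y + a' b m y) m y) m x =
      Dt φ i (fun m y => ∑ j, (L.γ i j y : ℂ) * Dt φ j (a b) m y) m x +
        Dt φ i (fun m y => ∑ j, (L.γ i j y : ℂ) * Dt φ j (a' b) m y) m x := fun i => by
    rw [← jetmodel_Dt_add φ i (s ha i) (s ha' i), Dt, Dt]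
    simp only [jetmodel_Dt_add φ _ (ha b) (ha' b), mul_add, Finset.sum_add_distrib]
  simp only [LN, e, fun i b' => jetmodel_Dt_add φ i (ha b') (ha' b') x, mul_add,
    Finset.sum_add_distrib]
  ring

theorem s_wkb (hm : S_model) (hr : S_red) : S_wkb := by
  intro n _ ι _ L φ κ K a₀ M hL hφ h0
  have c0 : ∀ b, (fun _ x => a₀ b x : Amp n) ∈ Cl K 0 := fun b => cl_const (h0 b).1 (h0 b).2
  have hα : SmC fun x => (L.γ 0 0 x : ℂ) := smC_ofReal (hL.1 0 0)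
  have hϖ : SmC fun x => ∑ j, (L.γ 0 j x : ℂ) * Dc j φ x :=
    ContDiff.sum fun j _ => (smC_ofReal (hL.1 0 j)).mul (hφ.1.Dc j)
  induction M with
  | zero =>
    refine ⟨fun b _ x => a₀ b x, fun b => cl_congr cl_zero fun m x => sub_self _, fun b => ?_⟩
    have d1 := (tsupport_Dc (a₀ b) 0).trans (h0 b).2
    have k1 := cl_mono (cl_smul (cl_const (((h0 b).1.Dc 0).Dc 0)
      ((tsupport_Dc _ 0).trans d1)) hα) (show (0 : ℤ) ≤ 0 + 1 by norm_num)
    have k2 := cl_cmul (cl_mulN (cl_smul (cl_const ((h0 b).1.Dc 0) d1) hϖ)) 2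
    refine cl_mono (cl_congr (cl_add (hr n ι L φ κ K 0 _ hL hφ c0 b) (cl_add k1 k2))
      fun m x => by ring) (by norm_num)
  | succ M ih =>
    obtain ⟨a, h1, h2⟩ := ih
    obtain ⟨β, β', b1, b2, b3⟩ := hφ.2.2.2.2.2
    choose a' k1 k2 using fun b => hm n K _ _ β β' hα hϖ b1 b2 b3 _ _ (cl_neg (h2 b))
    have sa : ∀ m b, SmC (a b m) := fun m b => by
      have := (cl_sm (h1 b) m).add (h0 b).1
      simpa using this
    refine ⟨fun b m y => a b m y + a' b m y, fun b => cl_congr (cl_add (h1 b)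
      (cl_mono (k1 b) (by omega))) fun m x => by ring, fun b => ?_⟩
    refine cl_congr (cl_add (cl_mono (hr n ι L φ κ K _ a' hL hφ k1 b) (by push_cast; omega))
      (cl_mono (k2 b) (by push_cast; omega))) fun m x => ?_
    rw [jetmodel_LN_add hL hφ.1 (sa m) fun b => cl_sm (k1 b) m]
    ring

end Vale.Agent.P088
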