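import Vale.Agent.P088.JetCl

/-!
# P088, boundary determination: the complex phase
-/

open MeasureTheory Set Metric Filter
open scoped ContDiff Topology ComplexConjugate

noncomputable section
namespace Vale.Agent.P088
open Vale.Agent.P136

variable {n : ℕ} [NeZero n]

lemma jetphase_lin {R : Type} [CommRing R] (G ξ : Fin n → R) (p q : R) :
    ∑ j, G j * (p * ξ j + if j = 0 then q else 0) = p * ∑ j, G j * ξ j + q * G 0 := by
  simp only [mul_add, Finset.sum_add_distrib, mul_ite, mul_zero, Finset.sum_ite_eq',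
    Finset.mem_univ, if_true, Finset.mul_sum, mul_left_comm p, mul_comm q]

lemma jetphase_quad {R : Type} [CommRing R] {G : Fin n → Fin n → R} (hG : ∀ i j, G i j = G j i)
    (ξ : Fin n → R) (p q : R) :
    ∑ i, ∑ j, G i j * (p * ξ i + if i = 0 then q else 0) * (p * ξ j + if j = 0 then q else 0) =
      p ^ 2 * ∑ i, ∑ j, G i j * ξ i * ξ j + 2 * p * q * ∑ j, G 0 j * ξ j + q ^ 2 * G 0 0 := by
  have e1 : ∑ i, (p * ∑ j, G i j * ξ j + q * G i 0) * ξ i =
      p * ∑ i, ∑ j, G i j * ξ i * ξ j + q * ∑ j, G 0 j * ξ j := by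
    rw [Finset.mul_sum, Finset.mul_sum, ← Finset.sum_add_distrib]
    refine Finset.sum_congr rfl fun i _ => ?_
    rw [hG i 0, add_mul, mul_assoc, mul_assoc, Finset.sum_mul]
    simp only [mul_right_comm]
  have e2 : ∀ i, ∑ j, G i j * (p * ξ i + if i = 0 then q else 0) *
      (p * ξ j + if j = 0 then q else 0) =
      (p * ∑ j, G i j * ξ j + q * G i 0) * (p * ξ i + if i = 0 then q else 0) := fun i => by
    rw [← jetphase_lin, Finset.sum_mul]
    exact Finset.sum_congr rfl fun j _ => mul_right_comm _ _ _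
  rw [Finset.sum_congr rfl fun i _ => e2 i, jetphase_lin, e1]
  ring

theorem s_phase : S_phase := by
  intro n _ γ ξ hs hy hp h0 hξ
  have sb : Sm fun x => ∑ j, γ 0 j x * ξ j :=
    ContDiff.sum fun j _ => ContDiff.mul (hs 0 j) contDiff_const
  have sc : Sm fun x => ∑ i, ∑ j, γ i j x * ξ i * ξ j := ContDiff.sum fun i _ =>
    ContDiff.sum fun j _ => (ContDiff.mul (hs i j) contDiff_const).mul contDiff_const
  have q1 := fun x => jetphase_quad (G := fun i j => γ i j x) (fun i j => congrFun (hy i j) x) ξ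
  have q2 := fun x => jetphase_quad (G := fun i j => (γ i j x : ℂ))
    (fun i j => congrArg _ (congrFun (hy i j) x)) fun i => (ξ i : ℂ)
  have q3 := fun x => jetphase_lin (fun j => (γ 0 j x : ℂ)) fun i => (ξ i : ℂ)
  simp only [← Complex.ofReal_mul, ← Complex.ofReal_sum] at q2 q3
  generalize hb : (fun x => ∑ j, γ 0 j x * ξ j) = b at sb
  generalize hc : (fun x => ∑ i, ∑ j, γ i j x * ξ i * ξ j) = c at sc
  simp only [congrFun hb, congrFun hc] at q1 q2 q3
  have ha : ∀ x, 0 < γ 0 0 x := fun x => by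
    have := hp x (fun i => 0 * ξ i + if i = 0 then 1 else 0) fun h => by simpa using congrFun h 0
    rw [q1] at this
    linarith
  have hd : ∀ x, 0 < γ 0 0 x * c x - b x ^ 2 := fun x => by
    have := hp x (fun i => γ 0 0 x * ξ i + if i = 0 then -b x else 0) fun h => hξ (funext fun i => by
      by_cases hi : i = 0
      · rw [hi, h0, Pi.zero_apply]
      · simpa [hi, (ha x).ne'] using congrFun h i)
    rw [q1] at this
    exact pos_of_mul_pos_left (b := γ 0 0 x) (by linarith) (ha x).le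
  have ss : Sm fun x => √(γ 0 0 x * c x - b x ^ 2) :=
    ContDiff.sqrt ((ContDiff.mul (hs 0 0) sc).sub (ContDiff.pow sb 2)) fun x => (hd x).ne'
  have s0 := fun x => Real.sqrt_pos.2 (hd x)
  have s2 := fun x => Real.sq_sqrt (hd x).le
  generalize hs' : (fun x => √(γ 0 0 x * c x - b x ^ 2)) = s at ss
  simp only [congrFun hs'] at s0 s2
  have s3 : Sm fun x => s x / γ 0 0 x := ContDiff.div ss (hs 0 0) fun x => (ha x).ne'
  have s4 : Sm fun x => b x / γ 0 0 x := ContDiff.div sb (hs 0 0) fun x => (ha x).ne'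
  obtain ⟨lam, hl⟩ : ∃ lam : En n → ℂ, lam = fun x =>
    -((s x / γ 0 0 x : ℝ) : ℂ) - Complex.I * ((b x / γ 0 0 x : ℝ) : ℂ) := ⟨_, rfl⟩
  have sl : SmC lam := hl ▸ (smC_ofReal s3).neg.sub (contDiff_const.mul (smC_ofReal s4))
  have s5 : ∀ j, SmC fun x : En n => Complex.I * ξ j * x j := fun j =>
    contDiff_const.mul (smC_coord j)
  have s6 : SmC fun x : En n => ∑ j, Complex.I * ξ j * x j := ContDiff.sum fun j _ => s5 j
  obtain ⟨φ, hφ⟩ : ∃ φ : En n → ℂ, φ = fun x : En n =>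
    ∑ j, Complex.I * ξ j * x j + lam x * x 0 := ⟨_, rfl⟩
  have sφ : SmC φ := hφ ▸ s6.add (sl.mul (smC_coord 0))
  have dc : ∀ i j (y : En n), Dc j (fun x : En n => (x i : ℂ)) y = if j = i then 1 else 0 :=
    fun i j y => by
      rw [Dc_ofReal ((sm_coord i).dAt y), D_coord, ee_apply]
      by_cases h : i = j <;> simp [h, Ne.symm]
  have key : ∀ y : En n, y 0 = 0 → ∀ j,
      Dc j φ y = Complex.I * ξ j + if j = 0 then lam y else 0 := fun y hy j => by
    rw [hφ, Dc_add (s6.dAt y) (SmC.dAt (sl.mul (smC_coord 0)) y),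
      Dc_mul (sl.dAt y) ((smC_coord 0).dAt y), Dc_sum _ fun i _ => (s5 i).dAt y]
    simp only [Dc_const_mul ((smC_coord _).dAt y), dc, hy]
    simp
  have ha' : ∀ x, (γ 0 0 x : ℂ) ≠ 0 := fun x => by exact_mod_cast (ha x).ne'
  have s0' : ∀ x, (s x : ℂ) ≠ 0 := fun x => by exact_mod_cast (s0 x).ne'
  have k1 : ∀ y : En n, y 0 = 0 → ∑ j, (γ 0 j y : ℂ) * Dc j φ y = -s y := fun y hy => by
    simp only [key y hy, q3, hl]
    have := ha' y
    push_cast
    field_simp
    ring
  have sD : ∀ i j, SmC fun x => (γ i j x : ℂ) * Dc j φ x := fun i j =>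
    (smC_ofReal (hs i j)).mul (sφ.Dc j)
  have sβ : SmC fun x => -(s x : ℂ)⁻¹ := ((smC_ofReal ss).inv s0').neg
  refine ⟨φ, fun x => s x / γ 0 0 x, ⟨sφ, s3.cont, fun x => div_pos (s0 x) (ha x), fun x => ?_,
    had0C (ContDiff.sum fun i _ => ContDiff.sum fun j _ =>
      ((smC_ofReal (hs i j)).mul (sφ.Dc i)).mul (sφ.Dc j)) fun y hy => ?_, ?_⟩,
    fun y hy => ⟨fun j hj => by rw [key y hy, if_neg hj, add_zero], ?_⟩⟩
  · simp [hφ, hl, -Complex.ofReal_div]
  · simp only [key y hy, q2, hl]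
    have := ha' y
    have h2 : (s y : ℂ) ^ 2 = γ 0 0 y * c y - b y ^ 2 := by exact_mod_cast s2 y
    push_cast
    field_simp
    linear_combination h2 + (γ 0 0 y * c y - (b y : ℂ) ^ 2) * Complex.I_sq
  · obtain ⟨β', h1, h2⟩ := had0C (f := fun x => -(s x : ℂ)⁻¹ * ∑ j, (γ 0 j x : ℂ) * Dc j φ x - 1)
      ((sβ.mul (ContDiff.sum fun j _ => sD 0 j)).sub contDiff_const) fun y hy => by
        rw [k1 y hy, neg_mul_neg, inv_mul_cancel₀ (s0' y), sub_self]
    exact ⟨_, β', sβ, h1, fun x => by linear_combination h2 x⟩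
  · simpa using congrArg Complex.im (k1 y hy)

end Vale.Agent.P088
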