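import Vale.Agent.P088.JetCl

/-!
# P088, boundary determination: the change of coordinates and the new metric
-/

open MeasureTheory Set Metric Filter
open scoped ContDiff Topology Matrix

noncomputable section
namespace Vale.Agent.P088
open Vale.Agent.P136

variable {n : ℕ}

lemma jetphi_inj {g : En n → En n} {a : En n} (hg : ContDiffAt ℝ 1 g a)
    (hi : Function.Injective (fderiv ℝ g a)) : ∃ s ∈ 𝓝 a, InjOn g s := by
  obtain ⟨K, hK, hA⟩ := (fderiv ℝ g a).injective_iff_antilipschitz.1 hi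
  obtain ⟨s, hs, h⟩ := (hg.hasStrictFDerivAt one_ne_zero).approximates_deriv_on_nhds
    (c := K⁻¹ / 2) (Or.inr (by positivity))
  refine ⟨s, hs, fun x hx y hy hxy => ?_⟩
  have h1 := h x hx y hy
  rw [hxy, sub_self, zero_sub, norm_neg] at h1
  have h2 := hA.le_mul_dist (x - y) 0
  rw [map_zero, dist_zero_right, dist_zero_right] at h2
  have h3 : (K : ℝ) * (((K⁻¹ / 2 : NNReal) : ℝ)) = 1 / 2 := by
    have : (K : ℝ) ≠ 0 := by exact_mod_cast hK.ne'
    push_cast; field_simp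
  have h4 : ‖x - y‖ ≤ 1 / 2 * ‖x - y‖ := by
    calc ‖x - y‖ ≤ K * ‖fderiv ℝ g a (x - y)‖ := h2
      _ ≤ K * (((K⁻¹ / 2 : NNReal) : ℝ) * ‖x - y‖) := by gcongr
      _ = 1 / 2 * ‖x - y‖ := by rw [← mul_assoc, h3]
  have h5 : ‖x - y‖ = 0 := by linarith [norm_nonneg (x - y)]
  exact sub_eq_zero.1 (norm_eq_zero.1 h5)

lemma jetphi_quad (G : Matrix (Fin n) (Fin n) ℝ) (ξ : Fin n → ℝ) :
    ξ ⬝ᵥ G *ᵥ ξ = ∑ i, ∑ j, G i j * ξ i * ξ j := by
  simp only [dotProduct, Matrix.mulVec, Finset.mul_sum]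
  exact Finset.sum_congr rfl fun i _ => Finset.sum_congr rfl fun j _ => by ring

lemma jetphi_det {ι : Type} {g : MatF n} {A : ConF n ι} (h : GA g A) (x : En n) :
    0 < (Matrix.of fun k l => g k l x).det := by
  refine (Matrix.PosDef.of_dotProduct_mulVec_pos (Matrix.ext fun i j => ?_)
    fun ξ hξ => ?_).det_pos
  · exact congrFun (h.2.1 j i) x
  · rw [star_trivial, jetphi_quad]
    exact h.2.2.1 x ξ hξ

lemma jetphi_entry (G J : Matrix (Fin n) (Fin n) ℝ) (i j : Fin n) :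
    (Jᵀ * G * J) i j = ∑ k, ∑ l, G k l * J k i * J l j := by
  simp only [Matrix.mul_apply, Matrix.transpose_apply, Finset.sum_mul]
  rw [Finset.sum_comm]
  exact Finset.sum_congr rfl fun k _ => Finset.sum_congr rfl fun l _ => by ring

lemma jetphi_pull {G₁ G J : Matrix (Fin n) (Fin n) ℝ} (hG : G = Jᵀ * G₁ * J) (h₁ : 0 < G₁.det)
    (hJ : 0 < J.det) : J * (√G.det • G⁻¹) = (√G₁.det • G₁⁻¹) * (J.adjugate)ᵀ ∧
      (√G.det • G⁻¹) * Jᵀ * G₁ * J = √G.det • 1 := by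
  constructor
  · have h := congrArg (· * (J.adjugate)ᵀ) (pull_gam hG h₁ hJ.ne')
    rw [Matrix.mul_assoc, Matrix.adjugate_transpose, Matrix.mul_adjugate, Matrix.det_transpose,
      Matrix.mul_smul, Matrix.mul_one, abs_of_pos hJ, Matrix.smul_mul,
      ← Matrix.adjugate_transpose] at h
    exact smul_right_injective _ hJ.ne' h
  · have hd : G.det ≠ 0 := by
      rw [hG, Matrix.det_mul, Matrix.det_mul, Matrix.det_transpose]
      positivity
    rw [Matrix.mul_assoc, Matrix.mul_assoc, ← Matrix.mul_assoc Jᵀ, ← hG, Matrix.smul_mul,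
      Matrix.nonsing_inv_mul _ (isUnit_iff_ne_zero.2 hd)]

lemma jetphi_sm {Φ : En n → En n} (h : ContDiff ℝ ∞ Φ) (k i : Fin n) :
    Sm fun y => jac Φ y k i := (sm_comp_coord h k).D _

lemma jetphi_fd {Φ : En n → En n} (h : ContDiff ℝ ∞ Φ) (y v : En n) (k : Fin n) :
    fderiv ℝ Φ y v k = (jac Φ y *ᵥ fun i => v i) k := by
  have h1 : HasFDerivAt (fun z => Φ z k) _ y :=
    (EuclideanSpace.proj (𝕜 := ℝ) k : En n →L[ℝ] ℝ).hasFDerivAt.comp y
      (h.differentiable (by simp) y).hasFDerivAt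
  have h2 : fderiv ℝ Φ y v k = fderiv ℝ (fun z => Φ z k) y v := by
    rw [h1.fderiv]
    rfl
  rw [h2, clm_eq_sum]
  simp only [Matrix.mulVec, dotProduct, jac, D, Matrix.of_apply, smul_eq_mul]
  exact Finset.sum_congr rfl fun i _ => mul_comm _ _

variable [NeZero n]

/-- The Jacobian matrix at the origin. -/
lemma jetphi_zero {Φ : En n → En n} {h : Fin n → En n → ℝ}
    (hq : ∀ k, VanQ 1 1 (fun y => Φ y k - y k) (h k)) :
    jac Φ 0 = (1 : Matrix (Fin n) (Fin n) ℝ).updateCol 0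
      fun k => (if k = 0 then 1 else 0) + h k 0 := by
  ext k i
  have e : (fun z => Φ z k) =ᶠ[𝓝 0] fun z => z k + z 0 * h k z := by
    filter_upwards [(hq k).ev (mem_ball_self one_pos)] with z hz
    rw [pow_one] at hz
    linarith
  rw [jac, Matrix.of_apply, D_congr e,
    D_add_at ((sm_coord k).dAt 0) (((sm_coord 0).mul (hq k).1).dAt 0),
    D_mul_at ((sm_coord 0).dAt 0) ((hq k).1.dAt 0), D_coord, D_coord, ee_apply, ee_apply,
    Matrix.updateCol_apply, Matrix.one_apply]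
  by_cases hi : i = 0
  · simp [hi]
  · simp [hi, Ne.symm hi]

/-- The local properties of the change of coordinates. -/
lemma jetphi_loc {Φ : En n → En n} {γ₁ γ₂ : MatF n} {r : ℝ} (hr : 0 < r) (hΦ : ContDiff ℝ ∞ Φ)
    (p₁ : ∀ x, 0 < γ₁ 0 0 x) (p₂ : ∀ x, 0 < γ₂ 0 0 x) (h1 : ∀ k, Van 1 1 fun y => Φ y k - y k)
    (h2 : Van 1 1 fun y =>
      ∑ j, jac Φ y 0 j * γ₂ j 0 y - ∑ l, γ₁ 0 l (Φ y) * (jac Φ y).adjugate 0 l) :
    ∃ ρ, 0 < ρ ∧ ρ ≤ 1 ∧ ρ ≤ r ∧ Chg r ρ Φ ∧ ∀ y ∈ ball (0 : En n) ρ, 0 < (jac Φ y).det := by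
  choose h hq using h1
  have hJ := jetphi_zero hq
  have hid : ∀ y ∈ ball (0 : En n) 1, y 0 = 0 → Φ y = y := fun y hy h0 => by
    ext k
    have := (hq k).2 y hy
    rw [h0] at this
    simp only [pow_one, zero_mul] at this
    linarith
  have ha : ∀ l, (jac Φ 0).adjugate 0 l = if l = 0 then 1 else 0 := fun l => by
    have e1 := congrFun (Matrix.cramer_eq_adjugate_mulVec (jac Φ 0) (Pi.single l 1)) 0
    rw [Matrix.mulVec_single_one, Matrix.cramer_apply, hJ, Matrix.updateCol_idem,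
      ← Matrix.cramer_apply, Matrix.cramer_one, ← hJ] at e1
    refine e1.symm.trans ?_
    simp [Pi.single_apply, eq_comm]
  have hd : (jac Φ 0).det = 1 + h 0 0 := by
    rw [hJ, ← Matrix.cramer_apply, Matrix.cramer_one]
    simp
  have hν : 0 < 1 + h 0 0 := by
    have e := h2.val (mem_ball_self one_pos) rfl
    simp only [ha, mul_ite, mul_one, mul_zero, Finset.sum_ite_eq', Finset.mem_univ, if_true] at e
    rw [Finset.sum_eq_single 0 (fun j _ hj => by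
      rw [hJ, Matrix.updateCol_ne hj, Matrix.one_apply_ne (Ne.symm hj), zero_mul]) (by simp), hJ,
      Matrix.updateCol_self, if_pos rfl] at e
    have := p₁ (Φ 0)
    exact (mul_pos_iff_of_pos_right (p₂ 0)).1 (by linarith)
  obtain ⟨s, hs, hi⟩ := jetphi_inj (a := 0) (hΦ.contDiffAt.of_le (by norm_cast)) (by
    rw [injective_iff_map_eq_zero]
    intro v hv
    have e : (jac Φ 0 *ᵥ fun i => v i) = 0 := funext fun k => by
      rw [← jetphi_fd hΦ, hv]
      rfl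
    have := Matrix.eq_zero_of_mulVec_eq_zero (by rw [hd]; exact hν.ne') e
    ext i
    exact congrFun this i)
  have c1 : ∀ᶠ y in 𝓝 (0 : En n), 0 < (jac Φ y).det :=
    ((sm_det (jetphi_sm hΦ)).cont.tendsto 0).eventually (lt_mem_nhds (by rw [hd]; exact hν))
  have c0 : Continuous fun y => 1 + h 0 y := continuous_const.add (hq 0).1.cont
  have c2 : ∀ᶠ y in 𝓝 (0 : En n), 0 < 1 + h 0 y := (c0.tendsto 0).eventually (lt_mem_nhds hν)
  have c3 : ∀ᶠ y in 𝓝 (0 : En n), Φ y ∈ ball (0 : En n) r :=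
    (hΦ.continuous.tendsto 0).eventually (by
      rw [hid 0 (mem_ball_self one_pos) rfl]
      exact ball_mem_nhds 0 hr)
  obtain ⟨ε, hε, H⟩ := Metric.eventually_nhds_iff_ball.1 (c1.and (c2.and (c3.and hs)))
  have b1 : ball (0 : En n) (min ε (min 1 r)) ⊆ ball 0 ε := ball_subset_ball (min_le_left _ _)
  have b2 : min ε (min 1 r) ≤ 1 := (min_le_right _ _).trans (min_le_left _ _)
  refine ⟨min ε (min 1 r), by positivity, b2, (min_le_right _ _).trans (min_le_right _ _),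
    ⟨hΦ, hi.mono fun y hy => (H y (b1 hy)).2.2.2, fun y hy => (H y (b1 hy)).2.2.1,
      fun y hy => hid y (ball_subset_ball b2 hy), _, c0, fun y hy => ⟨(H y (b1 hy)).2.1, ?_⟩⟩,
    fun y hy => (H y (b1 hy)).1⟩
  have := (hq 0).2 y (ball_subset_ball b2 hy)
  simp only [pow_one] at this
  linarith

omit [NeZero n] in
/-- The new metric. -/
lemma jetphi_met {ι : Type} {Φ : En n → En n} {g₁ g₂ : MatF n} {A₁ A₂ : ConF n ι} {ρ : ℝ}
    (hρ : 0 < ρ) (hΦ : ContDiff ℝ ∞ Φ) (h₁ : GA g₁ A₁) (h₂ : GA g₂ A₂)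
    (hJ : ∀ y ∈ ball (0 : En n) ρ, 0 < (jac Φ y).det) :
    ∃ g : MatF n, GA g A₂ ∧ ∀ y ∈ ball (0 : En n) (ρ / 2), ∀ i j,
      g i j y = ∑ k, ∑ l, g₁ k l (Φ y) * jac Φ y k i * jac Φ y l j := by
  let ψ : ContDiffBump (0 : En n) := ⟨ρ / 2, 3 * ρ / 4, by positivity, by linarith⟩
  have sψ : Sm ψ := ψ.contDiff
  refine ⟨fun i j y => ψ y * (∑ k, ∑ l, g₁ k l (Φ y) * jac Φ y k i * jac Φ y l j) +
    (1 - ψ y) * g₂ i j y, ⟨fun i j => ?_, fun i j => funext fun y => ?_, fun y ξ hξ => ?_,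
      h₂.2.2.2⟩, fun y hy i j => ?_⟩
  · exact (sψ.mul (Sm.sum fun k _ => Sm.sum fun l _ =>
      (Sm.mul ((h₁.1 k l).comp hΦ) (jetphi_sm hΦ k i)).mul (jetphi_sm hΦ l j))).add
      (((Sm.const 1).sub sψ).mul (h₂.1 i j))
  · beta_reduce
    rw [h₂.2.1 i j, Finset.sum_comm]
    congr 2
    exact Finset.sum_congr rfl fun k _ => Finset.sum_congr rfl fun l _ => by
      rw [h₁.2.1 l k]; ring
  · have e1 : ∑ i, ∑ j, (ψ y * (∑ k, ∑ l, g₁ k l (Φ y) * jac Φ y k i * jac Φ y l j) +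
        (1 - ψ y) * g₂ i j y) * ξ i * ξ j = ψ y * (∑ k, ∑ l, g₁ k l (Φ y) * (jac Φ y *ᵥ ξ) k *
          (jac Φ y *ᵥ ξ) l) + (1 - ψ y) * ∑ i, ∑ j, g₂ i j y * ξ i * ξ j := by
      have e2 := jetphi_quad ((jac Φ y)ᵀ * (Matrix.of fun k l => g₁ k l (Φ y)) * jac Φ y) ξ
      rw [← Matrix.mulVec_mulVec, ← Matrix.mulVec_mulVec, Matrix.dotProduct_mulVec,
        Matrix.vecMul_transpose, jetphi_quad] at e2
      simp only [jetphi_entry, Matrix.of_apply] at e2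
      rw [e2, Finset.mul_sum, Finset.mul_sum, ← Finset.sum_add_distrib]
      refine Finset.sum_congr rfl fun i _ => ?_
      rw [Finset.mul_sum, Finset.mul_sum, ← Finset.sum_add_distrib]
      exact Finset.sum_congr rfl fun j _ => by ring
    rw [e1]
    have b := h₂.2.2.1 y ξ hξ
    have q0 : 0 ≤ ψ y := ψ.nonneg
    have q1 : ψ y ≤ 1 := ψ.le_one
    rcases q0.eq_or_lt with q | q
    · rw [← q]
      linarith
    · have hy : y ∈ ball (0 : En n) (3 * ρ / 4) := by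
        have : y ∈ Function.support ψ := q.ne'
        rwa [ψ.support_eq] at this
      have a := h₁.2.2.1 (Φ y) (jac Φ y *ᵥ ξ) fun h0 => hξ (Matrix.eq_zero_of_mulVec_eq_zero
        (hJ y (ball_subset_ball (by linarith) hy)).ne' h0)
      have := mul_pos q a
      have := mul_nonneg (sub_nonneg.2 q1) b.le
      linarith
  · have : ψ y = 1 := ψ.one_of_mem_closedBall (ball_subset_closedBall hy)
    simp only [this, one_mul, sub_self, zero_mul, add_zero]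

theorem s_phi (hcop : S_cop) (h1 : S_phi1) : S_phi := by
  intro n _ ι _ _ g₁ g₂ A₁ A₂ r h₁ h₂ hr
  have hpos : ∀ (g : MatF n) (A : ConF n ι), GA g A → ∀ x, 0 < gam g 0 0 x := fun g A h x => by
    have := (hcop n ι g A h).1.2.2.2.2 x (Pi.single 0 1) (by simp)
    simpa [Pi.single_apply, cop] using this
  have hsm : ∀ (g : MatF n) (A : ConF n ι), GA g A → SmM (gam g) := fun g A h =>
    (hcop n ι g A h).1.1
  obtain ⟨Φ, hΦ, v1, v2⟩ := h1 n (gam g₁) (gam g₂) (hsm _ _ h₁) (hsm _ _ h₂)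
    fun x => (hpos _ _ h₂ x).ne'
  obtain ⟨ρ, r0, r1, r2, hC, hJ⟩ := jetphi_loc hr hΦ (hpos _ _ h₁) (hpos _ _ h₂) v1 (v2 1 0)
  obtain ⟨g, hg, eg⟩ := jetphi_met r0 hΦ h₁ h₂ hJ
  have b : ball (0 : En n) (ρ / 2) ⊆ ball 0 ρ := ball_subset_ball (by linarith)
  obtain ⟨-, c1, c2, c3, h, c4, c5⟩ := hC
  refine ⟨ρ / 2, Φ, g, by positivity, by linarith, ⟨hΦ, c1.mono b, c2.mono_left b,
    fun y hy => c3 y (b hy), h, c4, fun y hy => c5 y (b hy)⟩, hg, eg, fun m j => ?_⟩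
  have sd : Sm fun y => (√(Matrix.of fun k l => g k l y).det)⁻¹ :=
    ((sm_det (M := fun y => Matrix.of fun k l => g k l y) hg.1).sqrt
      fun y => (jetphi_det hg y).ne').inv fun y => (Real.sqrt_pos.2 (jetphi_det hg y)).ne'
  have sB : ∀ k, Sm fun y => ∑ l, (∑ i, gam g j i y * jac Φ y l i) * g₁ l k (Φ y) := fun k =>
    Sm.sum fun l _ => (Sm.sum fun i _ => (hsm _ _ hg j i).mul (jetphi_sm hΦ l i)).mul
      ((h₁.1 l k).comp hΦ)
  refine ((Van.sum fun k (_ : k ∈ Finset.univ) =>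
    ((v2 m k).mono_r (r' := ρ / 2) (by linarith)).sm_mul (sB k)).sm_mul sd).neg.congr
      fun y hy => ?_
  set G := Matrix.of fun k l => g k l y with hG
  set G₁ := Matrix.of fun k l => g₁ k l (Φ y) with hG₁
  obtain ⟨e1, e2⟩ := jetphi_pull (G := G) (G₁ := G₁) (J := jac Φ y)
    (Matrix.ext fun i j => by rw [jetphi_entry]; exact eg y hy i j) (jetphi_det h₁ _) (hJ y (b hy))
  have hs : √G.det ≠ 0 := (Real.sqrt_pos.2 (jetphi_det hg y)).ne'
  let Γ₂ : Matrix (Fin n) (Fin n) ℝ := Matrix.of fun k l => gam g₂ k l y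
  have e3 : (√G.det • G⁻¹) * (jac Φ y)ᵀ * G₁ *
      (jac Φ y * Γ₂ - (√G₁.det • G₁⁻¹) * ((jac Φ y).adjugate)ᵀ)
      = √G.det • (Γ₂ - √G.det • G⁻¹) := by
    rw [← e1, ← Matrix.mul_sub, ← Matrix.mul_assoc, e2, Matrix.smul_mul, Matrix.one_mul]
  have e4 : ∑ k, (∑ l, (∑ i, gam g j i y * jac Φ y l i) * g₁ l k (Φ y)) *
      (∑ j, jac Φ y k j * gam g₂ j 0 y - ∑ l, gam g₁ k l (Φ y) * (jac Φ y).adjugate 0 l)
      = √G.det * (gam g₂ j 0 y - gam g j 0 y) := congrFun (congrFun e3 j) 0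
  rw [e4, inv_mul_cancel_left₀ hs, neg_sub]

end Vale.Agent.P088
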