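import Vale.Agent.P088.JetCl

/-!
# P088, boundary determination: the formal change of coordinates
-/

open MeasureTheory Set Metric
open scoped ContDiff Topology

noncomputable section
namespace Vale.Agent.P088
open Vale.Agent.P136

variable {n : ℕ} [NeZero n]

/-- The map with components `u`. -/
def jetphi1_map (u : Fin n → En n → ℝ) (y : En n) : En n := WithLp.toLp 2 fun k => u k y

/-- The Jacobian matrix with the normal column replaced by a basis vector. -/
def jetphi1_mat (u : Fin n → En n → ℝ) (l : Fin n) (y : En n) : Matrix (Fin n) (Fin n) ℝ :=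
  Matrix.of fun k i => if i = 0 then (if k = l then 1 else 0) else D (ee i) (u k) y

/-- The right side of the formal Cauchy problem. -/
def jetphi1_F (γ₁ γ₂ : MatF n) (u : Fin n → En n → ℝ) (k : Fin n) (y : En n) : ℝ :=
  (γ₂ 0 0 y)⁻¹ * (∑ l, γ₁ k l (jetphi1_map u y) * (jetphi1_mat u l y).det -
    ∑ j ∈ Finset.univ.erase 0, D (ee j) (u k) y * γ₂ j 0 y)

omit [NeZero n] in
lemma jetphi1_map_sm {u : Fin n → En n → ℝ} (hu : ∀ k, Sm (u k)) :
    ContDiff ℝ ∞ (jetphi1_map u) := contDiff_toLp hu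

lemma jetphi1_mat_sm {u : Fin n → En n → ℝ} (hu : ∀ k, Sm (u k)) (l k i : Fin n) :
    Sm fun y => jetphi1_mat u l y k i := by
  simp only [jetphi1_mat, Matrix.of_apply]
  by_cases hi : i = 0
  · simp only [hi, if_true]
    exact Sm.const _
  · simp only [hi, if_false]
    exact (hu k).D _

lemma jetphi1_dtan {r : ℝ} {m : ℕ} {f g : En n → ℝ} (hf : Sm f) (hg : Sm g)
    (h : Van r m fun x => f x - g x) {i : Fin n} (hi : i ≠ 0) :
    Van r m fun x => D (ee i) f x - D (ee i) g x :=
  (h.Dtan hi).congr fun x _ => (D_sub_at (hf.dAt x) (hg.dAt x) _).symm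

lemma jetphi1_adj (u : Fin n → En n → ℝ) (l : Fin n) (y : En n) :
    (jac (jetphi1_map u) y).adjugate 0 l = (jetphi1_mat u l y).det := by
  have h1 := congrFun (Matrix.cramer_eq_adjugate_mulVec (jac (jetphi1_map u) y) (Pi.single l 1)) 0
  rw [Matrix.cramer_apply, Matrix.mulVec_single_one] at h1
  have h2 : (jac (jetphi1_map u) y).updateCol 0 (Pi.single l 1) = jetphi1_mat u l y := by
    ext k i
    rw [Matrix.updateCol_apply, Pi.single_apply]
    rfl
  rw [← h2, h1]
  rfl

theorem s_phi1 (hf : S_fck) : S_phi1 := by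
  intro n _ γ₁ γ₂ h1 h2 h0
  have hinv : Sm fun y => (γ₂ 0 0 y)⁻¹ := (h2 0 0).inv h0
  have hdet : ∀ u : Fin n → En n → ℝ, (∀ k, Sm (u k)) → ∀ l,
      Sm fun y => (jetphi1_mat u l y).det := fun u hu l => sm_det (jetphi1_mat_sm hu l)
  have hγ : ∀ u : Fin n → En n → ℝ, (∀ k, Sm (u k)) → ∀ k l,
      Sm fun y => γ₁ k l (jetphi1_map u y) := fun u hu k l => (h1 k l).comp (jetphi1_map_sm hu)
  obtain ⟨u, hu, hu0, hF⟩ := hf n (Fin n) 1 (jetphi1_F γ₁ γ₂) (fun k y => y k) sm_coord
    (fun u hu k => hinv.mul ((Sm.sum fun l _ => (hγ u hu k l).mul (hdet u hu l)).sub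
      (Sm.sum fun j _ => ((hu k).D _).mul (h2 j 0))))
    (by
      intro m u u' hu hu' hv k
      have a1 : ∀ l, Van 1 m fun y => γ₁ k l (jetphi1_map u y) * (jetphi1_mat u l y).det -
          γ₁ k l (jetphi1_map u' y) * (jetphi1_mat u' l y).det := by
        intro l
        refine Van.mul_congr (Van.comp (h1 k l) (jetphi1_map_sm hu) (jetphi1_map_sm hu') hv)
          (Van.det_congr (jetphi1_mat_sm hu l) (jetphi1_mat_sm hu' l) fun a i => ?_)
          (hγ u' hu' k l) (hdet u hu l)
        simp only [jetphi1_mat, Matrix.of_apply]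
        by_cases hi : i = 0
        · simp only [hi, if_true, sub_self]
          exact van_const_zero
        · simp only [hi, if_false]
          exact jetphi1_dtan (hu a) (hu' a) (hv a) hi
      have a2 : ∀ j ∈ Finset.univ.erase (0 : Fin n),
          Van 1 m fun y => (D (ee j) (u k) y - D (ee j) (u' k) y) * γ₂ j 0 y := fun j hj =>
        (jetphi1_dtan (hu k) (hu' k) (hv k) (Finset.ne_of_mem_erase hj)).mul_sm (h2 j 0)
      refine (((Van.sum (s := Finset.univ) fun l _ => a1 l).sub (Van.sum a2)).sm_mul hinv).congr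
        fun y _ => ?_
      simp only [jetphi1_F, sub_mul, Finset.sum_sub_distrib]
      ring)
  refine ⟨jetphi1_map u, jetphi1_map_sm hu, hu0, fun m k => ?_⟩
  refine ((hF m k).sm_mul (h2 0 0)).congr fun y _ => ?_
  simp only [jetphi1_adj]
  rw [← Finset.add_sum_erase Finset.univ _ (Finset.mem_univ (0 : Fin n)), jetphi1_F, mul_sub,
    mul_inv_cancel_left₀ (h0 y)]
  have e : ∀ j, jac (jetphi1_map u) y k j = D (ee j) (u k) y := fun j => rfl
  simp only [e]
  ring

end Vale.Agent.P088
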