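import Vale.Agent.P088.JetCl

/-!
# P088, boundary determination: transport of a test function by a local diffeomorphism
-/

open MeasureTheory Set Metric Filter
open scoped ContDiff Topology

noncomputable section
namespace Vale.Agent.P088
open Vale.Agent.P136

lemma jetpush_inv {n : ℕ} {Φ : En n → En n} {y : En n} (hΦ : ContDiffAt ℝ ∞ Φ y)
    (hi : Function.Injective (fderiv ℝ Φ y)) : ∃ ψ : En n → En n, ContDiffAt ℝ ∞ ψ (Φ y) ∧
      ψ (Φ y) = y ∧ ∀ᶠ x in 𝓝 (Φ y), Φ (ψ x) = x := by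
  let e : En n ≃L[ℝ] En n :=
    (LinearEquiv.ofInjectiveEndo (fderiv ℝ Φ y : En n →ₗ[ℝ] En n) hi).toContinuousLinearEquiv
  have he : (e : En n →L[ℝ] En n) = fderiv ℝ Φ y := by
    ext1 v
    rfl
  have hd : HasFDerivAt Φ (e : En n →L[ℝ] En n) y := by
    rw [he]
    exact (hΦ.differentiableAt (by simp)).hasFDerivAt
  have hn : (∞ : WithTop ℕ∞) ≠ 0 := by simp
  exact ⟨hΦ.localInverse hd hn, hΦ.to_localInverse hd hn, hΦ.localInverse_apply_image hd hn,
    (hΦ.hasStrictFDerivAt' hd hn).eventually_right_inverse⟩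

theorem s_push : S_push := by
  classical
  intro n Φ V w hΦ hV hinj hd hw
  obtain ⟨⟨hws, hwc⟩, hwV⟩ := hw
  obtain ⟨w₁, hw₁⟩ : ∃ w₁ : En n → ℝ,
      w₁ = fun x => if x ∈ Φ '' V then w (Function.invFunOn Φ V x) else 0 := ⟨_, rfl⟩
  have hval : ∀ y ∈ V, w₁ (Φ y) = w y := by
    intro y hy
    rw [hw₁]
    simp only [mem_image_of_mem Φ hy, if_true]
    rw [hinj.leftInvOn_invFunOn hy]
  have hK : IsCompact (Φ '' tsupport w) := IsCompact.image hwc hΦ.continuous
  have hsup : tsupport w₁ ⊆ Φ '' tsupport w := by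
    refine closure_minimal (fun x hx => ?_) hK.isClosed
    by_cases hxV : x ∈ Φ '' V
    · obtain ⟨y, hy, rfl⟩ := hxV
      refine mem_image_of_mem Φ (subset_tsupport w ?_)
      rw [Function.mem_support, ← hval y hy]
      exact hx
    · exact absurd (by rw [hw₁]; simp only [hxV, if_false]) hx
  refine ⟨w₁, ⟨contDiff_iff_contDiffAt.2 fun x => ?_, hK.of_isClosed_subset
    (isClosed_tsupport w₁) hsup⟩, hsup, hval⟩
  by_cases hx : x ∈ tsupport w₁
  · obtain ⟨y, hy, rfl⟩ := hsup hx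
    obtain ⟨ψ, h1, h2, h3⟩ := jetpush_inv hΦ.contDiffAt (hd y (hwV hy))
    have h4 : ∀ᶠ x in 𝓝 (Φ y), ψ x ∈ V :=
      h1.continuousAt.eventually_mem (by rw [h2]; exact hV.mem_nhds (hwV hy))
    have h5 : w₁ =ᶠ[𝓝 (Φ y)] fun x => w (ψ x) := by
      filter_upwards [h3, h4] with x hx3 hx4
      rw [← hval _ hx4, hx3]
    exact (hws.contDiffAt.comp (Φ y) h1).congr_of_eventuallyEq h5
  · exact contDiffAt_const.congr_of_eventuallyEq (notMem_tsupport_iff_eventuallyEq.1 hx)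

end Vale.Agent.P088
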