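import Vale.Agent.P088.JetCl

/-!
# P088: the conjugated operator is the model operator up to lower weight
-/

open MeasureTheory Set Metric Filter
open scoped ContDiff Topology ComplexConjugate

noncomputable section
namespace Vale.Agent.P088
open Vale.Agent.P136

lemma jetred_alg {n : ℕ} [NeZero n] (g dg dd dP : Fin n → Fin n → ℂ) (P d : Fin n → ℂ)
    (N a R : ℂ) (hs : ∀ i j, g i j = g j i) (hR : ∑ i, ∑ j, g i j * P i * P j = R) :
    ∑ i, (∑ j, (g i j * (dd i j + N * (P j * d i + dP i j * a)) + dg i j * (d j + N * P j * a)) +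
      N * P i * ∑ j, g i j * (d j + N * P j * a)) -
      (g 0 0 * dd 0 0 + 2 * N * (∑ j, g 0 j * P j) * d 0) =
    (∑ j ∈ Finset.univ.erase 0, g 0 j * dd 0 j +
      ∑ i ∈ Finset.univ.erase 0, ∑ j, g i j * dd i j) +
      2 * (N * ∑ i ∈ Finset.univ.erase 0, (∑ j, g i j * P j) * d i) +
      N * ∑ i, ∑ j, g i j * (dP i j * a) + ∑ i, ∑ j, dg i j * (d j + N * P j * a) +
      N * (N * (R * a)) := by
  have e1 : ∑ i, ∑ j, g i j * dd i j = g 0 0 * dd 0 0 + ∑ j ∈ Finset.univ.erase 0, g 0 j * dd 0 j +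
      ∑ i ∈ Finset.univ.erase 0, ∑ j, g i j * dd i j := by
    rw [← Finset.add_sum_erase Finset.univ _ (Finset.mem_univ (0 : Fin n)),
      ← Finset.add_sum_erase Finset.univ (fun j => g 0 j * dd 0 j) (Finset.mem_univ (0 : Fin n))]
  have e2 : ∑ i, (∑ j, g i j * P j) * d i = (∑ j, g 0 j * P j) * d 0 +
      ∑ i ∈ Finset.univ.erase 0, (∑ j, g i j * P j) * d i :=
    (Finset.add_sum_erase Finset.univ _ (Finset.mem_univ (0 : Fin n))).symm
  have e3 : ∑ i, ∑ j, P i * g i j * d j = ∑ i, (∑ j, g i j * P j) * d i := by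
    rw [Finset.sum_comm]
    refine Finset.sum_congr rfl fun i _ => ?_
    rw [Finset.sum_mul]
    exact Finset.sum_congr rfl fun j _ => by rw [hs j i]; ring
  have e4 : ∀ i, ∑ j, (g i j * (dd i j + N * (P j * d i + dP i j * a)) +
      dg i j * (d j + N * P j * a)) + N * P i * ∑ j, g i j * (d j + N * P j * a) =
      ∑ j, g i j * dd i j + N * ((∑ j, g i j * P j) * d i) + N * ∑ j, g i j * (dP i j * a) +
        ∑ j, dg i j * (d j + N * P j * a) + N * ∑ j, P i * g i j * d j +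
        N * (N * ((∑ j, g i j * P i * P j) * a)) := by
    intro i
    simp only [Finset.mul_sum, Finset.sum_mul, ← Finset.sum_add_distrib]
    exact Finset.sum_congr rfl fun j _ => by ring
  simp only [e4]
  simp only [Finset.sum_add_distrib, ← Finset.mul_sum, ← Finset.sum_mul _ _ a]
  rw [e1, e3, e2, hR]
  ring

theorem s_red : S_red := by
  intro n _ ι _ L φ κ K w a hL hφ ha b
  obtain ⟨hγ, hs, hb, hc, -⟩ := hL
  obtain ⟨hφ, -, -, -, ⟨ρ, hρ, hρ'⟩, -⟩ := hφ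
  have h0 := ha b
  have t1 : (fun m x => ∑ j ∈ Finset.univ.erase (0 : Fin n),
      (L.γ 0 j x : ℂ) * Dc 0 (Dc j (a b m)) x) ∈ Cl K (w + 1) :=
    cl_sum (F := fun j m x => (L.γ 0 j x : ℂ) * Dc 0 (Dc j (a b m)) x) fun j hj =>
      cl_rsmul (cl_Dc (cl_Dtan h0 (Finset.ne_of_mem_erase hj)) 0) (hγ 0 j)
  have t2 : (fun m x => ∑ i ∈ Finset.univ.erase (0 : Fin n), ∑ j,
      (L.γ i j x : ℂ) * Dc i (Dc j (a b m)) x) ∈ Cl K (w + 1) :=
    cl_sum (F := fun i m x => ∑ j, (L.γ i j x : ℂ) * Dc i (Dc j (a b m)) x) fun i hi =>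
      cl_sum (F := fun j m x => (L.γ i j x : ℂ) * Dc i (Dc j (a b m)) x) fun j _ =>
        cl_rsmul (cl_Dtan (cl_Dc h0 j) (Finset.ne_of_mem_erase hi)) (hγ i j)
  have t3 : (fun m x => 2 * ((nn m : ℂ) * ∑ i ∈ Finset.univ.erase (0 : Fin n),
      (∑ j, (L.γ i j x : ℂ) * Dc j φ x) * Dc i (a b m) x)) ∈ Cl K (w + 1) :=
    cl_cmul (cl_mulN (cl_sum (F := fun i m x => (∑ j, (L.γ i j x : ℂ) * Dc j φ x) *
      Dc i (a b m) x) fun i hi => cl_smul (cl_Dtan h0 (Finset.ne_of_mem_erase hi))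
        (ContDiff.sum fun j _ => (smC_ofReal (hγ i j)).mul (hφ.Dc j)))) 2
  have t4 : (fun m x => (nn m : ℂ) * ∑ i, ∑ j,
      (L.γ i j x : ℂ) * (Dc i (Dc j φ) x * a b m x)) ∈ Cl K (w + 1) :=
    cl_mulN (cl_sum (F := fun i m x => ∑ j, (L.γ i j x : ℂ) * (Dc i (Dc j φ) x * a b m x))
      fun i _ => cl_sum (F := fun j m x => (L.γ i j x : ℂ) * (Dc i (Dc j φ) x * a b m x))
        fun j _ => cl_rsmul (cl_smul h0 ((hφ.Dc j).Dc i)) (hγ i j))
  have t5 : (fun m x => ∑ i, ∑ j,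
      Dc i (fun y => (L.γ i j y : ℂ)) x * Dt φ j (a b) m x) ∈ Cl K (w + 1) :=
    cl_sum (F := fun i m x => ∑ j, Dc i (fun y => (L.γ i j y : ℂ)) x * Dt φ j (a b) m x)
      fun i _ => cl_sum (F := fun j m x => Dc i (fun y => (L.γ i j y : ℂ)) x * Dt φ j (a b) m x)
        fun j _ => cl_smul (cl_Dt h0 hφ j) ((smC_ofReal (hγ i j)).Dc i)
  have t6 : (fun m x => (nn m : ℂ) * ((nn m : ℂ) * ((x 0 : ℂ) * ρ x * a b m x))) ∈
      Cl K (w + 1) := by
    have := cl_mulN (cl_mulN (cl_mulT (cl_smul h0 hρ) 1))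
    refine cl_congr (cl_mono this (by push_cast; omega)) fun m x => by ring
  have t7 : (fun m x => ∑ i, ∑ b', (L.b i b b' x : ℂ) * Dt φ i (a b') m x) ∈ Cl K (w + 1) :=
    cl_sum (F := fun i m x => ∑ b', (L.b i b b' x : ℂ) * Dt φ i (a b') m x) fun i _ =>
      cl_sum (F := fun b' m x => (L.b i b b' x : ℂ) * Dt φ i (a b') m x) fun b' _ =>
        cl_rsmul (cl_Dt (ha b') hφ i) (hb i b b')
  have t8 : (fun m x => ∑ b', (L.c b b' x : ℂ) * a b' m x) ∈ Cl K (w + 1) :=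
    cl_sum (F := fun b' m x => (L.c b b' x : ℂ) * a b' m x) fun b' _ =>
      cl_mono (cl_rsmul (ha b') (hc b b')) (by omega)
  refine cl_congr (cl_add (cl_add (cl_add (cl_add (cl_add (cl_add (cl_add t1 t2) t3) t4) t5) t6)
    t7) t8) fun m x => ?_
  have hs0 := cl_sm h0 m
  have e1 : ∀ i j, Dc i (Dt φ j (a b) m) x = Dc i (Dc j (a b m)) x +
      (nn m : ℂ) * (Dc j φ x * Dc i (a b m) x + Dc i (Dc j φ) x * a b m x) := by
    intro i j
    have : Dt φ j (a b) m = fun y => Dc j (a b m) y + (nn m : ℂ) * (Dc j φ y * a b m y) := by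
      funext y; simp only [Dt]; ring
    have s1 : SmC fun y => Dc j φ y * a b m y := (hφ.Dc j).mul hs0
    rw [this, Dc_add ((hs0.Dc j).dAt x) ((s1.dAt x).const_mul _), Dc_const_mul (s1.dAt x),
      Dc_mul ((hφ.Dc j).dAt x) (hs0.dAt x)]
  have e2 : ∀ i, Dc i (fun y => ∑ j, (L.γ i j y : ℂ) * Dt φ j (a b) m y) x =
      ∑ j, ((L.γ i j x : ℂ) * Dc i (Dt φ j (a b) m) x +
        Dc i (fun y => (L.γ i j y : ℂ)) x * Dt φ j (a b) m x) := by
    intro i
    have s1 : ∀ j, SmC (Dt φ j (a b) m) := fun j => cl_sm (cl_Dt h0 hφ j) m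
    rw [Dc_sum _ fun j _ => ((smC_ofReal (hγ i j)).dAt x).fun_mul ((s1 j).dAt x)]
    exact Finset.sum_congr rfl fun j _ => Dc_mul ((smC_ofReal (hγ i j)).dAt x) ((s1 j).dAt x) i
  have key := jetred_alg (fun i j => (L.γ i j x : ℂ)) (fun i j => Dc i (fun y => (L.γ i j y : ℂ)) x)
    (fun i j => Dc i (Dc j (a b m)) x) (fun i j => Dc i (Dc j φ) x) (fun j => Dc j φ x)
    (fun j => Dc j (a b m) x) (nn m) (a b m x) _ (fun i j => by rw [hs i j]) (hρ' x)
  have e3 : ∀ i, Dt φ i (fun m y => ∑ j, (L.γ i j y : ℂ) * Dt φ j (a b) m y) m x =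
      Dc i (fun y => ∑ j, (L.γ i j y : ℂ) * Dt φ j (a b) m y) x +
        (nn m : ℂ) * Dc i φ x * ∑ j, (L.γ i j x : ℂ) * Dt φ j (a b) m x := fun i => rfl
  have e4 : ∀ j, Dt φ j (a b) m x = Dc j (a b m) x + (nn m : ℂ) * Dc j φ x * a b m x :=
    fun j => rfl
  simp only [LN, e3, e2, e1, e4]
  linear_combination key

end Vale.Agent.P088
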