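import Vale.Agent.P088.JetFck

/-!
# P088, boundary determination: the one-sided tests and the induction on the order
-/

open MeasureTheory Set Metric Filter
open scoped ContDiff Topology Matrix ComplexConjugate

noncomputable section
namespace Vale.Agent.P088
open Vale.Agent.P136

variable {n : ℕ} [NeZero n] {ι : Type} [Fintype ι] [DecidableEq ι]

lemma step_core (hcop : S_cop) (hw : S_wkb) (hc : S_cmpC) (he : S_exp) (hl : S_lead)
    {g g' : MatF n} {A A' : ConF n ι} {r : ℝ} {k l q : ℕ} {p : ℤ} {φ : En n → ℂ} {κ c : En n → ℝ}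
    (e : ι → ℂ) {y : En n} (h : GA g A) (h' : GA g' A') (hC : Cmp g A g' A' r)
    (hφ : Phase (gam g) φ κ) (v1 : ∀ i j, Van r k fun x => gam g i j x - gam g' i j x)
    (v2 : ∀ i b b', Van r l fun x => A i b b' x - A' i b b' x) (w1 : 1 - (k : ℤ) ≤ p - q - 1)
    (w2 : -(l : ℤ) ≤ p - q - 1) (hy : y ∈ ball (0 : En n) r) (h0 : y 0 = 0) (cc : Continuous c)
    (H : ∀ (K : Set (En n)) (χ : En n → ℝ), K ⊆ ball 0 r → Sm χ → tsupport χ ⊆ K →
      ∃ f ∈ Cl K (p - q - 1), ∀ m x,
        (lead1 (gam g) (gam g') φ (fun b x => (χ x : ℂ) * e b) m x +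
          lead2 (gam g) A A' φ (fun b x => (χ x : ℂ) * e b) m x).re =
          nn m ^ p * x 0 ^ q * (χ x ^ 2 * c x) + (f m x).re) : c y ≤ 0 := by
  by_contra hpos
  rw [not_le] at hpos
  have hn : {x | 0 < c x} ∩ ball (0 : En n) r ∈ 𝓝 y :=
    inter_mem ((isOpen_lt continuous_const cc).mem_nhds hpos) (isOpen_ball.mem_nhds hy)
  obtain ⟨ε, hε, hK⟩ := nhds_basis_closedBall.mem_iff.1 hn
  let χ : ContDiffBump y := ⟨ε / 2, ε, by positivity, by linarith⟩
  have sχ : Sm χ := χ.contDiff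
  have tχ : tsupport χ ⊆ closedBall y ε := χ.tsupport_eq.subset
  have hKr : closedBall y ε ⊆ ball (0 : En n) r := fun x hx => (hK hx).2
  have ha₀ : ∀ b, SmC (fun x => (χ x : ℂ) * e b) ∧
      tsupport (fun x => (χ x : ℂ) * e b) ⊆ closedBall y ε := fun b =>
    ⟨(smC_ofReal sχ).mul contDiff_const, tsupport_mul_subset_left.trans
      ((tsupport_comp_subset (g := fun s : ℝ => (s : ℂ)) (by simp) χ).trans tχ)⟩
  obtain ⟨a, a1, a2⟩ := hw n ι (cop g A) φ κ _ _ k (hcop n ι g A h).1 hφ ha₀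
  have a3 : ∀ b, a b ∈ Cl (closedBall y ε) 0 := fun b =>
    cl_congr (cl_add (cl_mono (a1 b) (by norm_num)) (cl_const (ha₀ b).1 (ha₀ b).2))
      fun m x => by ring
  obtain ⟨C, hC'⟩ := hc n ι g g' A A' r h h' hC
  have b1 := hC' _ φ κ 0 a (isCompact_closedBall y ε) hKr hφ.1 hφ.2.2.2.1 a3
  have b2 := he n ι (gam g) (gam g') A A' φ r _ a _ k l _ h.sm_gam h'.sm_gam h.2.2.2.1 h'.2.2.2.1
    hφ.1 hKr ha₀ a1 v1 v2 w1 w2
  have b3 : (fun m x => (C : ℂ) * ((x 0 : ℂ) ^ 2 *
      ∑ b, conj (LN (cop g A) φ a b m x) * LN (cop g A) φ a b m x)) ∈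
      Cl (closedBall y ε) (p - q - 1) :=
    cl_cmul (cl_mono (cl_mulT (cl_sum fun b _ => cl_mul (cl_conj (a2 b)) (a2 b)) 2)
      (by push_cast; omega)) _
  obtain ⟨f, hf, ef⟩ := H _ χ hKr sχ tχ
  have z : ∀ x, x ∉ closedBall y ε → χ x ^ 2 * c x = 0 := fun x hx => by
    rw [image_eq_zero_of_notMem_tsupport fun h => hx (tχ h)]; simp
  obtain ⟨m, hm⟩ := hl n _ κ (fun x => χ x ^ 2 * c x) y p q _ (isCompact_closedBall y ε) hφ.2.1
    hφ.2.2.1 ((sχ.cont.pow 2).mul cc) (fun x => by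
      by_cases hx : x ∈ closedBall y ε
      · exact mul_nonneg (sq_nonneg _) (le_of_lt (hK hx).1)
      · exact (z x hx).ge) z h0 (by
      rw [χ.one_of_mem_closedBall (mem_closedBall_self χ.rIn_pos.le)]; simpa using hpos)
    (cl_sub (cl_add b2 hf) b3)
  refine absurd (hm.trans_le (le_of_eq_of_le ?_ (b1 m))) (lt_irrefl _)
  refine integral_congr_ae (Eventually.of_forall fun x => ?_)
  have := ef m x
  simp only [Complex.add_re, Complex.sub_re, mul_assoc (C : ℂ)] at this ⊢
  congr 1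
  linarith

theorem s_gstep (hcop : S_cop) (hp : S_phase) (hw : S_wkb) (hc : S_cmpC) (he : S_exp)
    (hl : S_lead) : S_gstep := by
  intro n _ ι _ _ _ g g' A A' r k l Γ y ξ h h' hC hkl v1 v2 hy h0 hΓ hξ
  by_cases hz : ξ = 0
  · simp [hz]
  obtain ⟨G, -⟩ := hcop n ι g A h
  obtain ⟨φ, κ, hφ, hb⟩ := hp n (gam g) ξ G.1 G.2.1 G.2.2.2.2 hξ hz
  obtain ⟨b₀⟩ := ‹Nonempty ι›
  let c : En n → ℝ := fun x => (∑ i, ∑ j, (Γ i j x : ℂ) * (conj (Dc i φ x) * Dc j φ x)).re
  have cc : Continuous c := (SmC.re (ContDiff.sum fun i _ => ContDiff.sum fun j _ =>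
    (smC_ofReal (v1 i j).1).mul ((hφ.1.Dc i).conj.mul (hφ.1.Dc j)))).cont
  have key := step_core hcop hw hc he hl (p := 2) (q := k) (c := c) (Pi.single b₀ 1) h h' hC hφ
    (fun i j => ⟨_, v1 i j⟩) v2 (by omega) (by omega) hy h0 cc fun K χ hK sχ tχ => by
      refine ⟨_, cl_zero, fun m x => ?_⟩
      have l2 : lead2 (gam g) A A' φ (fun b x => (χ x : ℂ) * (Pi.single b₀ 1 : ι → ℂ) b) m x =
          0 := by
        have d : ∀ i, A i b₀ b₀ x - A' i b₀ b₀ x = 0 := fun i => by
          linarith [h.2.2.2.2 i b₀ b₀ x, h'.2.2.2.2 i b₀ b₀ x]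
        refine mul_eq_zero_of_right _ (Finset.sum_eq_zero fun i _ => Finset.sum_eq_zero
          fun j _ => mul_eq_zero_of_right _ (Finset.sum_eq_zero fun b _ =>
            Finset.sum_eq_zero fun b' _ => ?_))
        by_cases hb : b = b₀
        · by_cases hb' : b' = b₀
          · rw [hb, hb', d, d]; simp
          · simp [hb']
        · simp [hb]
      have l1 : ∑ b, conj ((χ x : ℂ) * (Pi.single b₀ 1 : ι → ℂ) b) *
          ((χ x : ℂ) * (Pi.single b₀ 1 : ι → ℂ) b) = ((χ x ^ 2 : ℝ) : ℂ) := by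
        rw [Finset.sum_eq_single b₀ (fun b _ hb => by simp [hb]) (by simp)]
        simp [sq]
      rw [l2, add_zero, lead1, l1]
      by_cases hx : x ∈ K
      · have l3 : ∑ i, ∑ j, ((gam g i j x - gam g' i j x : ℝ) : ℂ) * (conj (Dc i φ x) * Dc j φ x) =
            ((x 0 ^ k : ℝ) : ℂ) * ∑ i, ∑ j, (Γ i j x : ℂ) * (conj (Dc i φ x) * Dc j φ x) := by
          simp only [Finset.mul_sum]
          refine Finset.sum_congr rfl fun i _ => Finset.sum_congr rfl fun j _ => ?_
          rw [show gam g i j x - gam g' i j x = _ from (v1 i j).2 x (hK hx)]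
          push_cast; ring
        rw [l3, ← Complex.ofReal_pow, Complex.re_mul_ofReal, Complex.re_ofReal_mul,
          Complex.re_ofReal_mul, zpow_ofNat]
        simp only [c, Complex.zero_re]
        ring
      · rw [image_eq_zero_of_notMem_tsupport fun h => hx (tχ h)]; simp
  refine le_of_eq_of_le ?_ key
  simp only [c, Complex.re_sum]
  refine Finset.sum_congr rfl fun i _ => Finset.sum_congr rfl fun j _ => ?_
  by_cases hi : i = 0
  · simp [hi, (hΓ j).1]
  by_cases hj : j = 0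
  · simp [hj, (hΓ i).2]
  rw [(hb y h0).1 i hi, (hb y h0).1 j hj]
  simp [mul_assoc]

lemma sum_pair {α : Type} [Fintype α] [DecidableEq α] (d : α → α → ℝ) (b b' : α) (σ : ℝ)
    (hd : ∀ a a', d a a' = -d a' a) :
    ∑ a, ∑ a', (d a a' : ℂ) * (conj ((Pi.single b' 1 + Pi.single b (σ * Complex.I) : α → ℂ) a') *
      (Pi.single b' 1 + Pi.single b (σ * Complex.I) : α → ℂ) a) = 2 * σ * d b b' * Complex.I := by
  have d1 : ∀ a, d a a = 0 := fun a => by linarith [hd a a]
  have key : ∀ (F : α → ℂ) (z : ℂ), ∑ a, F a * (Pi.single b' 1 + Pi.single b z : α → ℂ) a =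
      F b' + F b * z := fun F z => by
    simp [mul_add, Finset.sum_add_distrib, Pi.single_apply]
  have e : ∀ a', conj ((Pi.single b' 1 + Pi.single b (σ * Complex.I) : α → ℂ) a') =
      (Pi.single b' 1 + Pi.single b (-(σ * Complex.I)) : α → ℂ) a' := fun a' => by
    simp [Pi.single_apply, apply_ite conj]
  simp only [e, ← mul_assoc, ← Finset.sum_mul, key, d1, hd b' b]
  push_cast
  ring

theorem s_astep (hcop : S_cop) (hp : S_phase) (hw : S_wkb) (hc : S_cmpC) (he : S_exp)
    (hl : S_lead) : S_astep := by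
  intro n _ ι _ _ g g' A A' r l B y h h' hC v1 v2 hy h0 i₀ hi₀ b b'
  obtain ⟨G, -⟩ := hcop n ι g A h
  have gs : ∀ i j x, gam g i j x = gam g j i x := fun i j x => congrFun (G.2.1 i j) x
  have g00 : 0 < gam g 0 0 y := by
    have := G.2.2.2.2 y (Pi.single 0 1) (by simp)
    simpa [Pi.single_apply, cop] using this
  have hη : ∀ i, ∑ j, gam g i j y * (g j i₀ y / √(mt g y).det) = if i = i₀ then 1 else 0 := by
    intro i
    have u : IsUnit (mt g y).det := isUnit_iff_ne_zero.2 (h.det_pos y).ne'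
    have m : mt (gam g) y * mt g y = √(mt g y).det • (1 : Matrix _ _ ℝ) := by
      rw [mt_gam, Matrix.smul_mul, Matrix.nonsing_inv_mul _ u]
    have m2 := congrFun (congrFun m i) i₀
    simp only [Matrix.mul_apply, Matrix.smul_apply, Matrix.one_apply, smul_eq_mul] at m2
    have m3 : ∑ j, gam g i j y * g j i₀ y = √(mt g y).det * if i = i₀ then 1 else 0 := m2
    simp only [← mul_div_assoc, ← Finset.sum_div]
    rw [m3, mul_div_cancel_left₀ _ (Real.sqrt_pos.2 (h.det_pos y)).ne']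
  obtain ⟨η, hη⟩ : ∃ η : Fin n → ℝ, ∀ i, ∑ j, gam g i j y * η j = if i = i₀ then 1 else 0 :=
    ⟨_, hη⟩
  have hξ : (fun j => if j = 0 then 0 else η j) ≠ 0 := fun hz => by
    have z : ∀ j, j ≠ 0 → η j = 0 := fun j hj => by simpa [hj] using congrFun hz j
    have e1 := hη 0
    have e2 := hη i₀
    rw [Finset.sum_eq_single 0 (fun j _ hj => by rw [z j hj, mul_zero]) (by simp)] at e1 e2
    rw [if_neg (Ne.symm hi₀)] at e1
    rw [(mul_eq_zero.1 e1).resolve_left g00.ne'] at e2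
    simp at e2
  obtain ⟨φ, κ, hφ, hb⟩ := hp n (gam g) _ G.1 G.2.1 G.2.2.2.2 (if_pos rfl) hξ
  have im : ∀ j, (Dc j φ y).im = η j := by
    have t : ∀ j, j ≠ 0 → (Dc j φ y).im = η j := fun j hj => by
      rw [(hb y h0).1 j hj]; simp [hj]
    have e1 : ∑ j, gam g 0 j y * ((Dc j φ y).im - η j) = 0 := by
      simp only [mul_sub, Finset.sum_sub_distrib, (hb y h0).2, hη 0, if_neg (Ne.symm hi₀), sub_zero]
    rw [Finset.sum_eq_single 0 (fun j _ hj => by rw [t j hj, sub_self, mul_zero]) (by simp)] at e1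
    intro j
    by_cases hj : j = 0
    · rw [hj]; exact sub_eq_zero.1 ((mul_eq_zero.1 e1).resolve_left g00.ne')
    · exact t j hj
  have main : ∀ σ : ℝ, -4 * σ * B i₀ b b' y ≤ 0 := by
    intro σ
    let c : En n → ℝ := fun x => ∑ i, ∑ j,
      -2 * σ * gam g i j x * (B i b b' x * (Dc j φ x).im + B j b b' x * (Dc i φ x).im)
    have cc : Continuous c := (Sm.sum fun i _ => Sm.sum fun j _ =>
      ((h.sm_gam i j).cmul _).mul (((v2 i b b').1.mul (hφ.1.Dc j).im).add
        ((v2 j b b').1.mul (hφ.1.Dc i).im))).cont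
    let e : ι → ℂ := Pi.single b' 1 + Pi.single b (σ * Complex.I)
    have key := step_core hcop hw hc he hl (p := 1) (q := l) (c := c) e h h' hC hφ v1
      (fun i b b' => ⟨_, v2 i b b'⟩) (by push_cast; omega) (by omega) hy h0 cc
      fun K χ hK sχ tχ => by
        have s0 : ∀ b, SmC fun x => (χ x : ℂ) * e b := fun b => (smC_ofReal sχ).mul contDiff_const
        have c0 : ∀ b, (fun _ x => (χ x : ℂ) * e b : Amp n) ∈ Cl K 0 := fun b =>
          cl_const (s0 b) (tsupport_mul_subset_left.trans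
            ((tsupport_comp_subset (g := fun s : ℝ => (s : ℂ)) (by simp) χ).trans tχ))
        have c1 := cl_sum (s := Finset.univ) fun b _ => cl_mul (cl_conj (c0 b)) (c0 b)
        have c2 := cl_mulN (cl_mulN (cl_sum (s := Finset.univ) fun i _ =>
          cl_sum (s := Finset.univ) fun j _ =>
            cl_van (cl_smul c1 ((hφ.1.Dc i).conj.mul (hφ.1.Dc j))) hK (v1 i j)))
        refine ⟨lead1 (gam g) (gam g') φ fun b x => (χ x : ℂ) * e b,
          cl_congr (cl_mono c2 (by push_cast; omega)) fun m x => ?_, fun m x => ?_⟩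
        · simp only [lead1, ← mul_assoc, ← Finset.sum_mul]; ring
        rw [Complex.add_re, add_comm]
        congr 1
        by_cases hx : x ∈ K
        · have P : ∀ i, ∑ a, ∑ a', ((A i a a' x - A' i a a' x : ℝ) : ℂ) * (conj (e a') * e a) =
              2 * σ * ((x 0 ^ l * B i b b' x : ℝ) : ℂ) * Complex.I := fun i => by
            rw [← show A i b b' x - A' i b b' x = _ from (v2 i b b').2 x (hK hx)]
            exact sum_pair (fun a a' => A i a a' x - A' i a a' x) b b' σ fun a a' => by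
              rw [h.2.2.2.2 i a a' x, h'.2.2.2.2 i a a' x]; ring
          have P' : ∀ i, ∑ a, ∑ a', ((A i a a' x - A' i a a' x : ℝ) : ℂ) * (e a' * conj (e a)) =
              -(2 * σ * ((x 0 ^ l * B i b b' x : ℝ) : ℂ) * Complex.I) := fun i => by
            have := congrArg conj (P i)
            simpa only [map_sum, map_mul, Complex.conj_ofReal, Complex.conj_conj, Complex.conj_I,
              map_ofNat, mul_neg] using this
          have Q : ∀ i j, ∑ a, ∑ a', (((A i a a' x - A' i a a' x : ℝ) : ℂ) *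
              conj ((χ x : ℂ) * e a') * (Dc j φ x * ((χ x : ℂ) * e a)) +
              conj (Dc i φ x * ((χ x : ℂ) * e a)) *
                (((A j a a' x - A' j a a' x : ℝ) : ℂ) * ((χ x : ℂ) * e a'))) =
              ((χ x ^ 2 * x 0 ^ l * (2 * σ) : ℝ) : ℂ) * (Complex.I *
                (B i b b' x * Dc j φ x - B j b b' x * conj (Dc i φ x))) := fun i j => by
            have e1 := P i
            have e2 := P' j
            have e3 : ∀ a a', ((A i a a' x - A' i a a' x : ℝ) : ℂ) *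
                conj ((χ x : ℂ) * e a') * (Dc j φ x * ((χ x : ℂ) * e a)) +
                conj (Dc i φ x * ((χ x : ℂ) * e a)) *
                  (((A j a a' x - A' j a a' x : ℝ) : ℂ) * ((χ x : ℂ) * e a')) =
                (χ x : ℂ) ^ 2 * Dc j φ x *
                  (((A i a a' x - A' i a a' x : ℝ) : ℂ) * (conj (e a') * e a)) +
                (χ x : ℂ) ^ 2 * conj (Dc i φ x) *
                  (((A j a a' x - A' j a a' x : ℝ) : ℂ) * (e a' * conj (e a))) := fun a a' => by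
              simp only [map_mul, Complex.conj_ofReal]; ring
            simp only [e3, Finset.sum_add_distrib, ← Finset.mul_sum]
            rw [e1, e2]
            push_cast; ring
          simp only [lead2, Q, Complex.re_ofReal_mul, Complex.re_sum, c, zpow_one, Finset.mul_sum]
          refine Finset.sum_congr rfl fun i _ => Finset.sum_congr rfl fun j _ => ?_
          simp only [Complex.mul_re, Complex.I_re, Complex.I_im, Complex.sub_im, Complex.mul_im,
            Complex.ofReal_re, Complex.ofReal_im, Complex.conj_im]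
          ring
        · simp [lead2, image_eq_zero_of_notMem_tsupport fun h => hx (tχ h)]
    refine le_of_eq_of_le ?_ key
    have e1 : ∑ i, ∑ j, gam g i j y * (B i b b' y * η j) = B i₀ b b' y := by
      have : ∀ i, ∑ j, gam g i j y * (B i b b' y * η j) = B i b b' y * ∑ j, gam g i j y * η j :=
        fun i => by rw [Finset.mul_sum]; exact Finset.sum_congr rfl fun j _ => by ring
      simp [this, hη]
    have e2 : ∑ i, ∑ j, gam g i j y * (B j b b' y * η i) = B i₀ b b' y := by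
      rw [Finset.sum_comm, ← e1]
      exact Finset.sum_congr rfl fun i _ => Finset.sum_congr rfl fun j _ => by rw [gs]
    simp only [c, im, mul_assoc (-2 * σ), ← Finset.mul_sum, mul_add, Finset.sum_add_distrib]
    rw [e1, e2]
    ring
  linarith [main 1, main (-1)]

theorem s_ind (hcop : S_cop) (hg : S_gstep) (ha : S_astep) : S_ind := by
  intro n _ ι _ _ _ g g' A A' r h h' hC hC' n1 n2
  have gs : ∀ i j x, gam g i j x = gam g j i x := fun i j x =>
    congrFun ((hcop n ι g A h).1.2.1 i j) x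
  have gs' : ∀ i j x, gam g' i j x = gam g' j i x := fun i j x =>
    congrFun ((hcop n ι g' A' h').1.2.1 i j) x
  have G : ∀ k l, k ≤ l + 1 → (∀ i j, Van r k fun x => gam g i j x - gam g' i j x) →
      (∀ i b b', Van r l fun x => A i b b' x - A' i b b' x) →
      ∀ i j, Van r (k + 1) fun x => gam g i j x - gam g' i j x := by
    intro k l hkl v1 v2
    choose Γ hΓ using v1
    intro i j
    refine (hΓ i j).step fun y hy h0 => ?_
    have z : ∀ j, Γ 0 j y = 0 ∧ Γ j 0 y = 0 := fun j =>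
      ⟨(hΓ 0 j).bdry ((n1 _ j).congr fun x _ => by rw [gs, gs' 0]) hy h0,
        (hΓ j 0).bdry (n1 _ j) hy h0⟩
    have sy : ∀ i j, Γ i j y = Γ j i y := fun i j => by
      have : VanQ r k (fun _ => 0) fun x => Γ i j x - Γ j i x :=
        ⟨(hΓ i j).1.sub (hΓ j i).1, fun x hx => by
          have e1 := (hΓ i j).2 x hx
          have e2 := (hΓ j i).2 x hx
          simp only at e1 e2 ⊢
          rw [mul_sub, ← e1, ← e2, gs, gs' i]; ring⟩
      exact sub_eq_zero.1 (this.bdry van_const_zero hy h0)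
    have q : ∀ ξ : Fin n → ℝ, ξ 0 = 0 → ∑ i, ∑ j, Γ i j y * ξ i * ξ j = 0 := fun ξ hξ => by
      have e1 := hg n ι g g' A A' r k l Γ y ξ h h' hC hkl hΓ v2 hy h0 z hξ
      have e2 := hg n ι g' g A' A r k l (fun i j x => -Γ i j x) y ξ h' h hC' hkl
        (fun i j => ⟨(hΓ i j).1.neg, fun x hx => by
          have e1 := (hΓ i j).2 x hx
          simp only at e1 ⊢
          linarith⟩) (fun i b b' => (v2 i b b').symm) hy h0
        (fun j => by simp [(z j).1, (z j).2]) hξ
      simp only [neg_mul, Finset.sum_neg_distrib] at e2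
      linarith
    by_cases hi : i = 0
    · rw [hi]; exact (z j).1
    by_cases hj : j = 0
    · rw [hj]; exact (z i).2
    have q1 := q (Pi.single i 1) (by simp [Ne.symm hi])
    have q2 := q (Pi.single j 1) (by simp [Ne.symm hj])
    have q3 := q (Pi.single i 1 + Pi.single j 1) (by simp [Ne.symm hi, Ne.symm hj])
    simp [Pi.single_apply, mul_add, add_mul, Finset.sum_add_distrib] at q1 q2 q3
    linarith [sy i j]
  have P : ∀ m, (∀ i j, Van r (m + 1) fun x => gam g i j x - gam g' i j x) ∧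
      ∀ i b b', Van r m fun x => A i b b' x - A' i b b' x := by
    intro m
    induction m with
    | zero =>
      have a0 : ∀ i b b', Van r 0 fun x => A i b b' x - A' i b b' x := fun i b b' =>
        van_zero ((h.2.2.2.1 i b b').sub (h'.2.2.2.1 i b b'))
      exact ⟨G 0 0 (by omega) (fun i j => van_zero ((h.sm_gam i j).sub (h'.sm_gam i j))) a0, a0⟩
    | succ m ih =>
      have v1 := G (m + 1) m le_rfl ih.1 ih.2
      refine ⟨v1, fun i b b' => ?_⟩
      by_cases hi : i = 0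
      · rw [hi]; exact n2 _ b b'
      choose B hB using ih.2
      exact (hB i b b').step fun y hy h0 =>
        ha n ι g g' A A' r m B y h h' hC v1 hB hy h0 i hi b b'
  exact fun k => ⟨fun i j => ((P k).1 i j).mono (Nat.le_succ k), (P k).2⟩

lemma err_nonneg (g : MatF n) (A : ConF n ι) (v : ι → En n → ℝ) : 0 ≤ err g A v :=
  Finset.sum_nonneg fun _ _ => integral_nonneg fun _ => sq_nonneg _

theorem jets_of (hphi : S_phi) (hga : S_gauge) (ht : S_trans) (hi : S_ind) (hg : S_gam) :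
    S_jets := by
  intro n _ hn ι _ _ _ g₁ g₂ A₁ A₂ r h₁ h₂ hr c₁ c₂
  obtain ⟨r', Φ, g, hr', hrr, hΦ, hg', eg, vg⟩ := hphi n ι g₁ g₂ A₁ A₂ r h₁ h₂ hr
  obtain ⟨S, A, sS, kA, oS, eA, bS, vA⟩ := hga n ι r' Φ A₁ A₂ hΦ.1 h₁.2.2.2 h₂.2.2.2
  have h : GA g A := ⟨hg'.1, hg'.2.1, hg'.2.2.1, kA⟩
  have iso : ∀ V, V ⊆ ball (0 : En n) r' → Iso g₁ A₁ g A V Φ S := fun V hV =>
    ⟨hΦ.1.contDiffOn, fun a a' => (sS a a').contDiffOn, fun y hy => ⟨oS y, eg y (hV hy), eA y⟩⟩
  have hlt : r' / 2 < r' := half_lt_self hr'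
  have sub : ball (0 : En n) (r' / 2) ⊆ ball 0 r' := ball_subset_ball hlt.le
  obtain ⟨C, hC, tr⟩ := ht n ι g₁ g A₁ A r r' (r' / 2) Φ S h₁ h hlt hΦ sS (iso _ subset_rfl) bS
  have up : ∀ {v : ι → En n → ℝ}, Tests (ball 0 (r' / 2)) v → Tests (ball 0 r) v := fun hv a =>
    ⟨(hv a).1, (hv a).2.trans (ball_subset_ball (hlt.le.trans hrr))⟩
  have d₁ : Cmp g A g₂ A₂ (r' / 2) := by
    obtain ⟨C₁, c₁⟩ := c₁
    refine ⟨|C₁| * C, fun v v₂ hv hv₂ e => ?_⟩
    obtain ⟨v₁, t1, t2, t3, t4⟩ := tr v hv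
    have := c₁ v₁ v₂ t1 (up hv₂) fun x hx a => (t2 x hx a).trans (e x hx a)
    rw [t3] at this
    refine this.trans (add_le_add le_rfl ?_)
    show C₁ * err g₁ A₁ v₁ ≤ |C₁| * C * err g A v
    rw [mul_assoc]
    exact (mul_le_mul_of_nonneg_right (le_abs_self _) (err_nonneg _ _ _)).trans
      (mul_le_mul_of_nonneg_left t4 (abs_nonneg _))
  have d₂ : Cmp g₂ A₂ g A (r' / 2) := by
    obtain ⟨C₂, c₂⟩ := c₂
    refine ⟨C₂, fun v₂ v hv₂ hv e => ?_⟩
    obtain ⟨v₁, t1, t2, t3, -⟩ := tr v hv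
    have := c₂ v₂ v₁ (up hv₂) t1 fun x hx a => (e x hx a).trans (t2 x hx a).symm
    rwa [t3] at this
  have J := hi n ι g g₂ A A₂ (r' / 2) h h₂ d₁ d₂ (fun k j => (vg k j).mono_r hlt.le)
    fun k b b' => (vA k b b').mono_r hlt.le
  obtain ⟨-, inj, -, fix, τ, -, hτ⟩ := hΦ
  refine ⟨r' / 2, Φ, S, g, A, half_pos hr', h, iso _ sub, inj.mono sub, fun y hy => ⟨?_,
    fun h0 => ⟨fix y (sub hy) h0, bS y (sub hy) h0, fun l => ⟨fun i j => ?_, fun i a a' => ?_⟩⟩⟩⟩
  · rw [(hτ y (sub hy)).2]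
    exact mul_pos_iff_of_pos_right (hτ y (sub hy)).1
  · exact Ds_eq_zero (fun k => hg n hn ι g g₂ A A₂ _ k h h₂ (J k).1 i j) l hy h0
  · exact Ds_eq_zero (fun k => (J k).2 i a a') l hy h0

end Vale.Agent.P088
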