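import Vale.Agent.P088.JetDens
import Vale.Agent.P088.JetStep
import Vale.Agent.P088.LocBasic

/-!
# P088, boundary determination: transfer of test fields under an isometry
-/

open MeasureTheory Set Metric Filter
open scoped ContDiff Topology Matrix

noncomputable section
namespace Vale.Agent.P088
open Vale.Agent.P136

variable {n : ℕ} {ι : Type} [Fintype ι]

lemma jettr_app_congr (L : Op n ι) {v w : ι → En n → ℝ} {x : En n}
    (h : ∀ a, v a =ᶠ[𝓝 x] w a) (a : ι) : L.app v a x = L.app w a x := by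
  simp only [Op.app, dgd_congr (h a), D_congr (h _), (h _).eq_of_nhds]

lemma jettr_app_test {L : Op n ι} (hL : L.Good) {U : Set (En n)} {v : ι → En n → ℝ}
    (hv : Tests U v) (a : ι) : IsTest U (L.app v a) :=
  (((hv a).dgd hL.1).add (IsTest.sum _ fun i _ => IsTest.sum _ fun a' _ =>
    ((hv a').D _).mul_left (hL.2.2.1 i a a'))).add
    (IsTest.sum _ fun a' _ => (hv a').mul_left (hL.2.2.2.1 a a'))

lemma jettr_cov_zero (A : ConF n ι) {U : Set (En n)} {v : ι → En n → ℝ}
    (hv : ∀ a, tsupport (v a) ⊆ U) {x : En n} (hx : x ∉ U) (i : Fin n) (a : ι) :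
    cov A i v a x = 0 := by
  simp only [cov, D_eq_zero_of_notMem fun h => hx (hv a h),
    fun a => image_eq_zero_of_notMem_tsupport fun h => hx (hv a h)]
  simp

variable [NeZero n]

lemma jettr_restrict {B : Set (En n)} (hB : MeasurableSet B) {F : En n → ℝ}
    (hF : ∀ x, x ∉ B → F x = 0) :
    ∫ x in {x : En n | 0 < x 0}, F x = ∫ x in B ∩ {x : En n | 0 < x 0}, F x :=
  setIntegral_eq_of_subset_of_forall_diff_eq_zero
    (isOpen_lt continuous_const (sm_coord 0).cont).measurableSet inter_subset_right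
    fun x hx => hF x fun h => hx.2 ⟨h, hx.1⟩

lemma jettr_cv {r r' r'' : ℝ} {Φ : En n → En n} (hΦ : Chg r r' Φ) (hr : r'' ≤ r') {F : En n → ℝ}
    (hF : ∀ x, x ∉ Φ '' ball 0 r'' → F x = 0) : ∫ x in {x : En n | 0 < x 0}, F x =
      ∫ y in ball (0 : En n) r'' ∩ {x : En n | 0 < x 0}, |(fderiv ℝ Φ y).det| * F (Φ y) := by
  obtain ⟨sΦ, inj, -, -, h, -, hh⟩ := hΦ
  have sub : ball (0 : En n) r'' ⊆ ball 0 r' := ball_subset_ball hr
  have mH : MeasurableSet {x : En n | 0 < x 0} :=
    (isOpen_lt continuous_const (sm_coord 0).cont).measurableSet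
  have e := integral_image_eq_integral_abs_det_fderiv_smul volume
    (measurableSet_ball.inter mH) (f := Φ) (f' := fderiv ℝ Φ)
    (fun y _ => ((sΦ.differentiable (by simp)) y).hasFDerivAt.hasFDerivWithinAt)
    (inj.mono (inter_subset_left.trans sub)) F
  simp only [smul_eq_mul] at e
  rw [← e]
  refine setIntegral_eq_of_subset_of_forall_diff_eq_zero mH ?_ fun x hx => hF x ?_
  · rintro _ ⟨y, hy, rfl⟩
    show 0 < Φ y 0
    rw [(hh y (sub hy.1)).2]
    exact mul_pos hy.2 (hh y (sub hy.1)).1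
  · rintro ⟨y, hy, rfl⟩
    refine hx.2 ⟨y, ⟨hy, ?_⟩, rfl⟩
    have h1 : 0 < Φ y 0 := hx.1
    rw [(hh y (sub hy)).2] at h1
    exact (mul_pos_iff_of_pos_right (hh y (sub hy)).1).1 h1

theorem s_trans' (hcop : S_cop) (hii : S_isoInter) (hp : S_push) (hd : S_dens) : S_trans := by
  intro n _ ι _ _ g₁ g A₁ A r r' r'' Φ S h₁ h hr hΦ sS iso bS
  obtain ⟨-, -, sμ, pμ, hI⟩ := hii n ι g₁ g A₁ A _ Φ S h₁ h isOpen_ball iso
  have cv := fun F => jettr_cv (F := F) hΦ hr.le
  obtain ⟨sΦ, inj, mp, fix, τ, cτ, hτ⟩ := hΦ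
  have sub : ball (0 : En n) r'' ⊆ ball 0 r' := ball_subset_ball hr.le
  have csub : closedBall (0 : En n) r'' ⊆ ball 0 r' := closedBall_subset_ball hr
  obtain ⟨C, hC⟩ := (isCompact_closedBall (0 : En n) r'').exists_bound_of_continuousOn
    (f := fun y => τ y ^ 2 / |(fderiv ℝ Φ y).det|)
    ((cτ.pow 2).continuousOn.div (sμ.continuousOn.mono csub) fun y hy => (pμ y (csub hy)).1.ne')
  refine ⟨max C 0, le_max_right _ _, fun v hv => ?_⟩
  have hw : ∀ a, IsTest (ball 0 r'') fun y => ∑ a', S a' a y * v a' y := fun a =>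
    IsTest.sum _ fun a' _ => (hv a').mul_left (sS a' a)
  choose v₁ t₁ s₁ e₁ using fun a => hp n Φ (ball 0 r') _ sΦ isOpen_ball inj
    (fun y hy => (pμ y hy).2.2) ((hw a).mono sub)
  have s₂ : ∀ a, tsupport (v₁ a) ⊆ Φ '' ball 0 r'' := fun a => (s₁ a).trans (image_mono (hw a).2)
  have T₁ : Tests (Φ '' ball 0 r'') v₁ := fun a => ⟨t₁ a, s₂ a⟩
  have ev : ∀ y ∈ ball (0 : En n) r', ∀ a, v a y = ∑ a', S a a' y * v₁ a' (Φ y) := by
    intro y hy a
    have o1 : (Matrix.of fun a a' => S a a' y)ᵀ * (Matrix.of fun a a' => S a a' y) = 1 := by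
      ext a a'
      simpa [Matrix.mul_apply, Matrix.one_apply] using (iso.2.2 y hy).1 a a'
    have o2 : ∀ e, ∑ a', S a a' y * S e a' y = if a = e then 1 else 0 := fun e => by
      have o3 : (Matrix.of fun a a' => S a a' y) * (Matrix.of fun a a' => S a a' y)ᵀ = 1 :=
        mul_eq_one_comm.1 o1
      simpa [Matrix.mul_apply, Matrix.one_apply] using congrFun (congrFun o3 a) e
    simp only [e₁ _ y hy, Finset.mul_sum, ← mul_assoc]
    rw [Finset.sum_comm]
    simp [← Finset.sum_mul, o2]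
  refine ⟨v₁, fun a => (T₁ a).mono ?_, fun x hx a => ?_, ?_, ?_⟩
  · rintro _ ⟨y, hy, rfl⟩
    exact mp (sub hy)
  · by_cases hb : x ∈ ball (0 : En n) r'
    · rw [ev x hb a, fix x hb hx]
      simp [bS x hb hx]
    · rw [(hv a).zero_off fun h => hb (sub h)]
      refine (T₁ a).zero_off ?_
      rintro ⟨y, hy, rfl⟩
      rw [(hτ y (sub hy)).2] at hx
      have h0 : y 0 = 0 := (mul_eq_zero.1 hx).resolve_right (hτ y (sub hy)).1.ne'
      exact hb ((fix y (sub hy) h0).symm ▸ sub hy)
  · unfold enU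
    rw [cv _ fun x hx => by simp [jettr_cov_zero A₁ s₂ hx],
      jettr_restrict (B := ball 0 r'') measurableSet_ball fun x hx => by
        simp [jettr_cov_zero A (fun a => (hv a).2) hx]]
    refine setIntegral_congr_fun (measurableSet_ball.inter
      (isOpen_lt continuous_const (sm_coord 0).cont).measurableSet) fun y hy => ?_
    exact (hd n ι g₁ g A₁ A _ Φ S v₁ v h₁ h isOpen_ball iso (fun a => (t₁ a).1) ev y
      (sub hy.1)).symm
  · have i1 : ∀ {L : Op n ι}, L.Good → ∀ {U : Set (En n)} {v : ι → En n → ℝ}, Tests U v → ∀ a,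
        IsTest U fun x => (x 0 * L.app v a x) ^ 2 := fun hL U v hv a => by
      have := ((jettr_app_test hL hv a).mul_left (sm_coord 0))
      simpa only [sq] using this.mul_right this.1.1
    have G₁ := (hcop n ι g₁ A₁ h₁).1
    have G := (hcop n ι g A h).1
    unfold err
    rw [← integral_finsetSum _ fun a _ => (i1 G₁ T₁ a).1.integrable.integrableOn,
      ← integral_finsetSum _ fun a _ => (i1 G hv a).1.integrable.integrableOn,
      cv _ fun x hx => Finset.sum_eq_zero fun a _ => (i1 G₁ T₁ a).zero_off hx,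
      jettr_restrict (B := ball 0 r'') measurableSet_ball fun x hx =>
        Finset.sum_eq_zero fun a _ => (i1 G hv a).zero_off hx, ← integral_const_mul]
    have mB : MeasurableSet (ball (0 : En n) r'' ∩ {x : En n | 0 < x 0}) :=
      measurableSet_ball.inter (isOpen_lt continuous_const (sm_coord 0).cont).measurableSet
    refine integral_mono_of_nonneg (Eventually.of_forall fun y => mul_nonneg (abs_nonneg _)
      (Finset.sum_nonneg fun a _ => sq_nonneg _)) ((integrable_finsetSum _ fun a _ =>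
        (i1 G hv a).1.integrable.integrableOn).const_mul _)
      ((ae_restrict_iff' mB).2 (Eventually.of_forall fun y hy => ?_))
    have hy' := sub hy.1
    have e1 : ∀ a, (cop g A).app v a y =
        |(fderiv ℝ Φ y).det| * ∑ a', S a a' y * (cop g₁ A₁).app v₁ a' (Φ y) := fun a => by
      rw [← hI v₁ (fun a => (t₁ a).1) y hy' a]
      exact jettr_app_congr _ (fun a => eventually_of_mem (isOpen_ball.mem_nhds hy')
        fun z hz => ev z hz a) a
    have e2 := jetdens_orth (fun a a' => S a a' y) (iso.2.2 y hy').1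
      (fun a' => (cop g₁ A₁).app v₁ a' (Φ y)) fun a' => (cop g₁ A₁).app v₁ a' (Φ y)
    have p := (pμ y hy').1
    have b := (le_abs_self _).trans ((hC y (ball_subset_closedBall hy.1)).trans (le_max_left C 0))
    simp only [e1, mul_pow, ← Finset.mul_sum, (hτ y hy').2]
    simp only [sq] at b ⊢
    rw [e2]
    have q : 0 ≤ ∑ e, (cop g₁ A₁).app v₁ e (Φ y) * (cop g₁ A₁).app v₁ e (Φ y) :=
      Finset.sum_nonneg fun e _ => mul_self_nonneg _
    rw [div_le_iff₀ p] at b
    have := mul_le_mul_of_nonneg_right b (mul_nonneg (mul_nonneg (mul_self_nonneg (y 0)) p.le) q)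
    linarith

end Vale.Agent.P088
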