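import Vale.Agent.P088.JetStep
import Vale.Agent.P088.JetBorel
import Vale.Agent.P088.JetCay
import Vale.Agent.P088.JetCmpC
import Vale.Agent.P088.JetDens
import Vale.Agent.P088.JetExp
import Vale.Agent.P088.JetLead
import Vale.Agent.P088.JetModel
import Vale.Agent.P088.JetPhase
import Vale.Agent.P088.JetPhi
import Vale.Agent.P088.JetPhi1
import Vale.Agent.P088.JetPush
import Vale.Agent.P088.JetRed
import Vale.Agent.P088.JetTr

/-!
# P088: boundary determination of all jets
-/

namespace Vale.Agent.P088

theorem s_jets' (hcop : S_cop) (hii : S_isoInter) : S_jets :=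
  jets_of (s_phi hcop (s_phi1 (s_fck s_borel))) (s_gauge (s_cay (s_fck s_borel)))
    (s_trans' hcop hii s_push s_dens)
    (s_ind hcop (s_gstep hcop s_phase (s_wkb s_model s_red) (s_cmpC hcop) s_exp s_lead)
      (s_astep hcop s_phase (s_wkb s_model s_red) (s_cmpC hcop) s_exp s_lead)) s_gam

theorem s_jets (_hext : S_ext) (_hg : S_green) (hcop : S_cop) (hii : S_isoInter) : S_jets :=
  s_jets' hcop hii

end Vale.Agent.P088
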