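import Vale.Agent.P088.Top

/-!
# P088, boundary determination: definitions and interface statements

Throughout `t = x 0` is the distance to the boundary hyperplane.
-/

open MeasureTheory Set Metric
open scoped ContDiff Topology ComplexConjugate

noncomputable section
namespace Vale.Agent.P088
open Vale.Agent.P136 (D Dp Dm Sm Tst)

section defs
variable {n : ℕ} [NeZero n] {ι : Type} [Fintype ι] [DecidableEq ι]

/-- Projection onto the boundary hyperplane. -/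
def prj (x : En n) : En n := x - x 0 • ee 0

/-- `f = t ^ k * h` on the ball of radius `r`, with `h` smooth on the whole space. -/
def VanQ (r : ℝ) (k : ℕ) (f h : En n → ℝ) : Prop :=
  Sm h ∧ ∀ x ∈ ball (0 : En n) r, f x = x 0 ^ k * h x

/-- `f` vanishes to order `k` on the boundary disc of radius `r`. -/
def Van (r : ℝ) (k : ℕ) (f : En n → ℝ) : Prop := ∃ h, VanQ r k f h

/-- The Jacobian matrix, `jac Φ y k i = ∂_i Φ_k (y)`. -/
def jac (Φ : En n → En n) (y : En n) : Matrix (Fin n) (Fin n) ℝ :=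
  Matrix.of fun k i => D (ee i) (fun z => Φ z k) y

/-- The error term in `Cmp`. -/
def err (g : MatF n) (A : ConF n ι) (v : ι → En n → ℝ) : ℝ :=
  ∑ a, ∫ x in {x : En n | 0 < x 0}, (x 0 * (cop g A).app v a x) ^ 2

/-- A smooth skew connection. -/
def Sk (A : ConF n ι) : Prop :=
  (∀ i a a', Sm (A i a a')) ∧ ∀ i a a' x, A i a a' x = -A i a' a x

/-- The large parameter. -/
def nn (m : ℕ) : ℝ := m + 1

/-- Amplitudes: complex functions depending on the large parameter. -/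
abbrev Amp (n : ℕ) : Type := ℕ → En n → ℂ

abbrev SmC (f : En n → ℂ) : Prop := ContDiff ℝ ∞ f

def Dc (i : Fin n) (f : En n → ℂ) : En n → ℂ := fun x => fderiv ℝ f x (ee i)

/-- The monomial `N ^ p * t ^ q * c`. -/
def mon (p : ℤ) (q : ℕ) (c : En n → ℂ) : Amp n :=
  fun m x => (nn m : ℂ) ^ p * (x 0 : ℂ) ^ q * c x

/-- Finite sums of monomials of weight `p - q ≤ w` with coefficients supported in `K`. -/
def Cl (K : Set (En n)) (w : ℤ) : AddSubmonoid (Amp n) :=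
  AddSubmonoid.closure
    {f | ∃ (p : ℤ) (q : ℕ) (c : En n → ℂ), p - q ≤ w ∧ SmC c ∧ tsupport c ⊆ K ∧ f = mon p q c}

/-- The conjugated derivative `e^{-Nφ} ∂_i e^{Nφ}`. -/
def Dt (φ : En n → ℂ) (i : Fin n) (a : Amp n) : Amp n :=
  fun m x => Dc i (a m) x + (nn m : ℂ) * Dc i φ x * a m x

/-- The conjugated operator `e^{-Nφ} L e^{Nφ}`. -/
def LN (L : Op n ι) (φ : En n → ℂ) (a : ι → Amp n) (b : ι) : Amp n := fun m x =>
  ∑ i, Dt φ i (fun m y => ∑ j, (L.γ i j y : ℂ) * Dt φ j (a b) m y) m x +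
    ∑ i, ∑ b', (L.b i b b' x : ℂ) * Dt φ i (a b') m x + ∑ b', (L.c b b' x : ℂ) * a b' m x

/-- The conjugated covariant derivative. -/
def covN (A : ConF n ι) (φ : En n → ℂ) (i : Fin n) (a : ι → Amp n) (b : ι) : Amp n :=
  fun m x => Dt φ i (a b) m x + ∑ b', (A i b b' x : ℂ) * a b' m x

/-- The conjugated energy density. -/
def ed (γ : MatF n) (A : ConF n ι) (φ : En n → ℂ) (a : ι → Amp n) : Amp n := fun m x =>
  ∑ i, ∑ j, (γ i j x : ℂ) * ∑ b, conj (covN A φ i a b m x) * covN A φ j a b m x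

/-- The leading metric term of the energy difference. -/
def lead1 (γ γ' : MatF n) (φ : En n → ℂ) (a₀ : ι → En n → ℂ) : Amp n := fun m x =>
  (nn m : ℂ) ^ 2 * (∑ i, ∑ j, ((γ i j x - γ' i j x : ℝ) : ℂ) * (conj (Dc i φ x) * Dc j φ x)) *
    ∑ b, conj (a₀ b x) * a₀ b x

/-- The leading connection term of the energy difference. -/
def lead2 (γ : MatF n) (A A' : ConF n ι) (φ : En n → ℂ) (a₀ : ι → En n → ℂ) : Amp n :=
  fun m x => (nn m : ℂ) * ∑ i, ∑ j, (γ i j x : ℂ) * ∑ b, ∑ b',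
    (((A i b b' x - A' i b b' x : ℝ) : ℂ) * conj (a₀ b' x) * (Dc j φ x * a₀ b x) +
      conj (Dc i φ x * a₀ b x) * (((A j b b' x - A' j b b' x : ℝ) : ℂ) * a₀ b' x))

/-- A complex phase that decays into the half space, is characteristic on the boundary, and for
which the boundary is not characteristic for the transport equation. -/
def Phase (γ : MatF n) (φ : En n → ℂ) (κ : En n → ℝ) : Prop :=
  SmC φ ∧ Continuous κ ∧ (∀ x, 0 < κ x) ∧ (∀ x, (φ x).re = -κ x * x 0) ∧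
    (∃ ρ, SmC ρ ∧ ∀ x, ∑ i, ∑ j, (γ i j x : ℂ) * Dc i φ x * Dc j φ x = (x 0 : ℂ) * ρ x) ∧
    ∃ β β', SmC β ∧ SmC β' ∧ ∀ x, β x * ∑ j, (γ 0 j x : ℂ) * Dc j φ x = 1 + (x 0 : ℂ) * β' x

/-- A good local change of coordinates that fixes the boundary. -/
def Chg (r r' : ℝ) (Φ : En n → En n) : Prop :=
  ContDiff ℝ ∞ Φ ∧ InjOn Φ (ball 0 r') ∧ MapsTo Φ (ball 0 r') (ball 0 r) ∧
    (∀ y ∈ ball (0 : En n) r', y 0 = 0 → Φ y = y) ∧
    ∃ h : En n → ℝ, Continuous h ∧ ∀ y ∈ ball (0 : En n) r', 0 < h y ∧ Φ y 0 = y 0 * h y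

end defs

/-! ## Formal solutions -/

/-- Borel's lemma. -/
def S_borel : Prop := ∀ (n : ℕ) [NeZero n] (R : ℝ) (ρ : ℕ → En n → ℝ), (∀ j, Sm (ρ j)) →
  ∃ u, Sm u ∧ ∀ m, Van R m fun x => u x - ∑ j ∈ Finset.range m, x 0 ^ j * ρ j x

/-- Formal solution of a Cauchy problem `∂_t u = F u`. -/
def S_fck : Prop := ∀ (n : ℕ) [NeZero n] (κ : Type) (R : ℝ)
  (F : (κ → En n → ℝ) → κ → En n → ℝ) (u₀ : κ → En n → ℝ), (∀ a, Sm (u₀ a)) →
  (∀ u, (∀ a, Sm (u a)) → ∀ a, Sm (F u a)) →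
  (∀ k u u', (∀ a, Sm (u a)) → (∀ a, Sm (u' a)) → (∀ a, Van R k fun x => u a x - u' a x) →
    ∀ a, Van R k fun x => F u a x - F u' a x) →
  ∃ u : κ → En n → ℝ, (∀ a, Sm (u a)) ∧ (∀ a, Van R 1 fun x => u a x - u₀ a x) ∧
    ∀ k a, Van R k fun x => D (ee 0) (u a) x - F u a x

/-- The formal change of coordinates. -/
def S_phi1 : Prop := ∀ (n : ℕ) [NeZero n] (γ₁ γ₂ : MatF n), SmM γ₁ → SmM γ₂ →
  (∀ x, γ₂ 0 0 x ≠ 0) → ∃ Φ : En n → En n, ContDiff ℝ ∞ Φ ∧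
    (∀ k, Van 1 1 fun y => Φ y k - y k) ∧ ∀ m k, Van 1 m fun y =>
      ∑ j, jac Φ y k j * γ₂ j 0 y - ∑ l, γ₁ k l (Φ y) * (jac Φ y).adjugate 0 l

/-- The change of coordinates and the new metric. -/
def S_phi : Prop := ∀ (n : ℕ) [NeZero n] (ι : Type) [Fintype ι] [DecidableEq ι]
  (g₁ g₂ : MatF n) (A₁ A₂ : ConF n ι) (r : ℝ), GA g₁ A₁ → GA g₂ A₂ → 0 < r →
  ∃ (r' : ℝ) (Φ : En n → En n) (g : MatF n), 0 < r' ∧ r' ≤ r ∧ Chg r r' Φ ∧ GA g A₂ ∧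
    (∀ y ∈ ball (0 : En n) r', ∀ i j, g i j y = ∑ k, ∑ l, g₁ k l (Φ y) *
      D (ee i) (fun z => Φ z k) y * D (ee j) (fun z => Φ z l) y) ∧
    ∀ m j, Van r' m fun y => gam g j 0 y - gam g₂ j 0 y

/-- The formal orthogonal solution of `∂_t S + Q S = S P`. -/
def S_cay : Prop := ∀ (n : ℕ) [NeZero n] (ι : Type) [Fintype ι] [DecidableEq ι] (R : ℝ)
  (P Q : ι → ι → En n → ℝ), (∀ a a', Sm (P a a')) → (∀ a a', Sm (Q a a')) →
  (∀ a a' x, P a a' x = -P a' a x) → (∀ a a' x, Q a a' x = -Q a' a x) →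
  ∃ S : ι → ι → En n → ℝ, (∀ a a', Sm (S a a')) ∧
    (∀ y a a', ∑ e, S e a y * S e a' y = if a = a' then 1 else 0) ∧
    (∀ y ∈ ball (0 : En n) R, y 0 = 0 → ∀ a a', S a a' y = if a = a' then 1 else 0) ∧
    ∀ k a a', Van R k fun y =>
      D (ee 0) (S a a') y + ∑ e, Q a e y * S e a' y - ∑ e, S a e y * P e a' y

/-- The gauge and the new connection. -/
def S_gauge : Prop := ∀ (n : ℕ) [NeZero n] (ι : Type) [Fintype ι] [DecidableEq ι] (R : ℝ)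
  (Φ : En n → En n) (A₁ A₂ : ConF n ι), ContDiff ℝ ∞ Φ → Sk A₁ → Sk A₂ →
  ∃ (S : ι → ι → En n → ℝ) (A : ConF n ι), (∀ a a', Sm (S a a')) ∧ Sk A ∧
    (∀ y a a', ∑ e, S e a y * S e a' y = if a = a' then 1 else 0) ∧
    (∀ y i a a', D (ee i) (S a a') y + ∑ e, A i a e y * S e a' y =
      ∑ k, ∑ e, S a e y * A₁ k e a' (Φ y) * D (ee i) (fun z => Φ z k) y) ∧
    (∀ y ∈ ball (0 : En n) R, y 0 = 0 → ∀ a a', S a a' y = if a = a' then 1 else 0) ∧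
    ∀ k a a', Van R k fun y => A 0 a a' y - A₂ 0 a a' y

/-! ## Invariance of the comparison -/

/-- Transport of a test function by an injective local diffeomorphism. -/
def S_push : Prop := ∀ (n : ℕ) (Φ : En n → En n) (V : Set (En n)) (w : En n → ℝ),
  ContDiff ℝ ∞ Φ → IsOpen V → InjOn Φ V → (∀ y ∈ V, Function.Injective (fderiv ℝ Φ y)) →
  IsTest V w → ∃ w₁ : En n → ℝ, Tst w₁ ∧ tsupport w₁ ⊆ Φ '' tsupport w ∧ ∀ y ∈ V, w₁ (Φ y) = w y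

/-- The energy density under an isometry. -/
def S_dens : Prop := ∀ (n : ℕ) [NeZero n] (ι : Type) [Fintype ι] [DecidableEq ι]
  (g₁ g : MatF n) (A₁ A : ConF n ι) (V : Set (En n)) (Φ : En n → En n) (S : ι → ι → En n → ℝ)
  (v₁ v : ι → En n → ℝ), GA g₁ A₁ → GA g A → IsOpen V → Iso g₁ A₁ g A V Φ S →
  (∀ a, Sm (v₁ a)) → (∀ y ∈ V, ∀ a, v a y = ∑ a', S a a' y * v₁ a' (Φ y)) → ∀ y ∈ V,
    ∑ i, ∑ j, gam g i j y * ∑ a, cov A i v a y * cov A j v a y =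
      |(fderiv ℝ Φ y).det| *
        ∑ i, ∑ j, gam g₁ i j (Φ y) * ∑ a, cov A₁ i v₁ a (Φ y) * cov A₁ j v₁ a (Φ y)

def S_trans : Prop := ∀ (n : ℕ) [NeZero n] (ι : Type) [Fintype ι] [DecidableEq ι]
  (g₁ g : MatF n) (A₁ A : ConF n ι) (r r' r'' : ℝ) (Φ : En n → En n) (S : ι → ι → En n → ℝ),
  GA g₁ A₁ → GA g A → r'' < r' → Chg r r' Φ → (∀ a a', Sm (S a a')) →
  Iso g₁ A₁ g A (ball 0 r') Φ S →
  (∀ y ∈ ball (0 : En n) r', y 0 = 0 → ∀ a a', S a a' y = if a = a' then 1 else 0) →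
  ∃ C : ℝ, 0 ≤ C ∧ ∀ v : ι → En n → ℝ, Tests (ball 0 r'') v → ∃ v₁ : ι → En n → ℝ,
    Tests (ball 0 r) v₁ ∧ (∀ x : En n, x 0 = 0 → ∀ a, v₁ a x = v a x) ∧
    enU {x | 0 < x 0} g₁ A₁ v₁ = enU {x | 0 < x 0} g A v ∧ err g₁ A₁ v₁ ≤ C * err g A v

/-! ## Oscillating test fields -/

def S_phase : Prop := ∀ (n : ℕ) [NeZero n] (γ : MatF n) (ξ : Fin n → ℝ), SmM γ → SymM γ →
  (∀ x (η : Fin n → ℝ), η ≠ 0 → 0 < ∑ i, ∑ j, γ i j x * η i * η j) → ξ 0 = 0 → ξ ≠ 0 →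
  ∃ φ κ, Phase γ φ κ ∧ ∀ y : En n, y 0 = 0 →
    (∀ j, j ≠ 0 → Dc j φ y = Complex.I * ξ j) ∧ ∑ j, γ 0 j y * (Dc j φ y).im = 0

/-- Solving the model transport equation up to a term of lower weight. -/
def S_model : Prop := ∀ (n : ℕ) [NeZero n] (K : Set (En n)) (α ϖ β β' : En n → ℂ), SmC α →
  SmC ϖ → SmC β → SmC β' → (∀ x, β x * ϖ x = 1 + (x 0 : ℂ) * β' x) → ∀ (w : ℤ) (f : Amp n),
  f ∈ Cl K w → ∃ a ∈ Cl K (w - 2), (fun m x => α x * Dc 0 (Dc 0 (a m)) x +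
    2 * (nn m : ℂ) * ϖ x * Dc 0 (a m) x - f m x) ∈ Cl K (w - 1)

/-- The conjugated operator is the model operator up to a term of lower weight. -/
def S_red : Prop := ∀ (n : ℕ) [NeZero n] (ι : Type) [Fintype ι] (L : Op n ι) (φ : En n → ℂ)
  (κ : En n → ℝ) (K : Set (En n)) (w : ℤ) (a : ι → Amp n), L.Good → Phase L.γ φ κ →
  (∀ b, a b ∈ Cl K w) → ∀ b, (fun m x => LN L φ a b m x -
    ((L.γ 0 0 x : ℂ) * Dc 0 (Dc 0 (a b m)) x +
      2 * (nn m : ℂ) * (∑ j, (L.γ 0 j x : ℂ) * Dc j φ x) * Dc 0 (a b m) x)) ∈ Cl K (w + 1)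

/-- Approximate solutions of arbitrarily high order. -/
def S_wkb : Prop := ∀ (n : ℕ) [NeZero n] (ι : Type) [Fintype ι] (L : Op n ι) (φ : En n → ℂ)
  (κ : En n → ℝ) (K : Set (En n)) (a₀ : ι → En n → ℂ) (M : ℕ), L.Good → Phase L.γ φ κ →
  (∀ b, SmC (a₀ b) ∧ tsupport (a₀ b) ⊆ K) → ∃ a : ι → Amp n,
    (∀ b, (fun m x => a b m x - a₀ b x) ∈ Cl K (-1)) ∧ ∀ b, LN L φ a b ∈ Cl K (1 - M)

/-- The comparison for the real and imaginary parts of `e^{Nφ} a`. -/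
def S_cmpC : Prop := ∀ (n : ℕ) [NeZero n] (ι : Type) [Fintype ι] [DecidableEq ι]
  (g g' : MatF n) (A A' : ConF n ι) (r : ℝ), GA g A → GA g' A' → Cmp g A g' A' r →
  ∃ C : ℝ, ∀ (K : Set (En n)) (φ : En n → ℂ) (κ : En n → ℝ) (w : ℤ) (a : ι → Amp n),
    IsCompact K → K ⊆ ball 0 r → SmC φ → (∀ x, (φ x).re = -κ x * x 0) →
    (∀ b, a b ∈ Cl K w) → ∀ m : ℕ,
    ∫ x in {x : En n | 0 < x 0}, Real.exp (-(2 * nn m * κ x * x 0)) *
      (ed (gam g) A φ a m x - ed (gam g') A' φ a m x - (C : ℂ) * (x 0 : ℂ) ^ 2 *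
        ∑ b, conj (LN (cop g A) φ a b m x) * LN (cop g A) φ a b m x).re ≤ 0

/-- Expansion of the difference of the energy densities. -/
def S_exp : Prop := ∀ (n : ℕ) [NeZero n] (ι : Type) [Fintype ι] (γ γ' : MatF n)
  (A A' : ConF n ι) (φ : En n → ℂ) (r : ℝ) (K : Set (En n)) (a : ι → Amp n)
  (a₀ : ι → En n → ℂ) (k l : ℕ) (w : ℤ), SmM γ → SmM γ' → (∀ i b b', Sm (A i b b')) →
  (∀ i b b', Sm (A' i b b')) → SmC φ → K ⊆ ball 0 r → (∀ b, SmC (a₀ b) ∧ tsupport (a₀ b) ⊆ K) →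
  (∀ b, (fun m x => a b m x - a₀ b x) ∈ Cl K (-1)) →
  (∀ i j, Van r k fun x => γ i j x - γ' i j x) →
  (∀ i b b', Van r l fun x => A i b b' x - A' i b b' x) → 1 - (k : ℤ) ≤ w → -(l : ℤ) ≤ w →
  (fun m x => ed γ A φ a m x - ed γ' A' φ a m x - lead1 γ γ' φ a₀ m x - lead2 γ A A' φ a₀ m x)
    ∈ Cl K w

/-- The leading term decides the sign for large parameter. -/
def S_lead : Prop := ∀ (n : ℕ) [NeZero n] (K : Set (En n)) (κ c : En n → ℝ) (y : En n) (p : ℤ)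
  (q : ℕ) (f : Amp n), IsCompact K → Continuous κ → (∀ x, 0 < κ x) → Continuous c →
  (∀ x, 0 ≤ c x) → (∀ x, x ∉ K → c x = 0) → y 0 = 0 → 0 < c y → f ∈ Cl K (p - q - 1) →
  ∃ m : ℕ, 0 < ∫ x in {x : En n | 0 < x 0}, Real.exp (-(2 * nn m * κ x * x 0)) *
    (nn m ^ p * x 0 ^ q * c x + (f m x).re)

/-- One-sided inequality for the next jet of the metric. -/
def S_gstep : Prop := ∀ (n : ℕ) [NeZero n] (ι : Type) [Fintype ι] [DecidableEq ι] [Nonempty ι]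
  (g g' : MatF n) (A A' : ConF n ι) (r : ℝ) (k l : ℕ) (Γ : MatF n) (y : En n) (ξ : Fin n → ℝ),
  GA g A → GA g' A' → Cmp g A g' A' r → k ≤ l + 1 →
  (∀ i j, VanQ r k (fun x => gam g i j x - gam g' i j x) (Γ i j)) →
  (∀ i b b', Van r l fun x => A i b b' x - A' i b b' x) → y ∈ ball (0 : En n) r → y 0 = 0 →
  (∀ j, Γ 0 j y = 0 ∧ Γ j 0 y = 0) → ξ 0 = 0 → ∑ i, ∑ j, Γ i j y * ξ i * ξ j ≤ 0

/-- The next jet of the tangential part of the connection vanishes. -/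
def S_astep : Prop := ∀ (n : ℕ) [NeZero n] (ι : Type) [Fintype ι] [DecidableEq ι]
  (g g' : MatF n) (A A' : ConF n ι) (r : ℝ) (l : ℕ) (B : ConF n ι) (y : En n),
  GA g A → GA g' A' → Cmp g A g' A' r →
  (∀ i j, Van r (l + 2) fun x => gam g i j x - gam g' i j x) →
  (∀ i b b', VanQ r l (fun x => A i b b' x - A' i b b' x) (B i b b')) →
  y ∈ ball (0 : En n) r → y 0 = 0 → ∀ i, i ≠ 0 → ∀ b b', B i b b' y = 0

/-- All jets agree once the normal components agree. -/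
def S_ind : Prop := ∀ (n : ℕ) [NeZero n] (ι : Type) [Fintype ι] [DecidableEq ι] [Nonempty ι]
  (g g' : MatF n) (A A' : ConF n ι) (r : ℝ), GA g A → GA g' A' → Cmp g A g' A' r →
  Cmp g' A' g A r → (∀ k j, Van r k fun x => gam g j 0 x - gam g' j 0 x) →
  (∀ k b b', Van r k fun x => A 0 b b' x - A' 0 b b' x) → ∀ k,
  (∀ i j, Van r k fun x => gam g i j x - gam g' i j x) ∧
    ∀ i b b', Van r k fun x => A i b b' x - A' i b b' x

/-- In dimension at least three the metric is determined by `gam`. -/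
def S_gam : Prop := ∀ (n : ℕ) [NeZero n], 3 ≤ n → ∀ (ι : Type) [Fintype ι] [DecidableEq ι]
  (g g' : MatF n) (A A' : ConF n ι) (r : ℝ) (k : ℕ), GA g A → GA g' A' →
  (∀ i j, Van r k fun x => gam g i j x - gam g' i j x) →
  ∀ i j, Van r k fun x => g i j x - g' i j x

end Vale.Agent.P088
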