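import Vale.Agent.P088.JetDens

/-!
# P088, boundary determination: transfer of test fields under an isometry
-/

open MeasureTheory Set Metric Filter
open scoped ContDiff Topology Matrix

noncomputable section
namespace Vale.Agent.P088
open Vale.Agent.P136

section loc
variable {n : ℕ} {ι : Type} [Fintype ι]

lemma jettrans_app_congr (L : Op n ι) {W W' : ι → En n → ℝ} {y : En n}
    (h : ∀ a, W a =ᶠ[𝓝 y] W' a) (a : ι) : L.app W a y = L.app W' a y := by
  have e1 : ∀ i, D (ee i) (XX ee L.γ (W a) i) y = D (ee i) (XX ee L.γ (W' a) i) y := by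
    intro i
    refine D_congr ?_ _
    filter_upwards [(h a).eventuallyEq_nhds] with p hp
    simp only [XX, D_congr hp]
  simp only [Op.app, dgd, dvg, e1, D_congr (h _), (h _).eq_of_nhds]

lemma jettrans_app_zero (L : Op n ι) {W : ι → En n → ℝ} {y : En n}
    (h : ∀ a, y ∉ tsupport (W a)) (a : ι) : L.app W a y = 0 := by
  rw [jettrans_app_congr L (W' := fun _ _ => 0)
    fun b => notMem_tsupport_iff_eventuallyEq.1 (h b)]
  have e1 : ∀ i, XX ee L.γ (fun _ => 0) i = fun _ => 0 := by
    intro i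
    funext p
    simp only [XX, D_const, mul_zero, Finset.sum_const_zero]
  simp only [Op.app, dgd, dvg, e1, D_const, mul_zero, Finset.sum_const_zero, add_zero]

lemma jettrans_app_tst {L : Op n ι} (hL : L.Good) {W : ι → En n → ℝ} (h : ∀ a, Tst (W a))
    (a : ι) : Tst (L.app W a) :=
  ((Tst.sum Finset.univ fun i _ => (Tst.sum Finset.univ fun j _ =>
    ((h a).D (ee j)).mul_left (hL.1 i j)).D (ee i)).add
    (Tst.sum Finset.univ fun i _ => Tst.sum Finset.univ fun b _ =>
      ((h b).D (ee i)).mul_left (hL.2.2.1 i a b))).add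
    (Tst.sum Finset.univ fun b _ => (h b).mul_left (hL.2.2.2.1 a b))

lemma jettrans_cov_zero (A : ConF n ι) {W : ι → En n → ℝ} {y : En n}
    (h : ∀ a, y ∉ tsupport (W a)) (i : Fin n) (a : ι) : cov A i W a y = 0 := by
  simp only [cov, D_eq_zero_of_notMem (h a), image_eq_zero_of_notMem_tsupport (h _), mul_zero,
    Finset.sum_const_zero, add_zero]

lemma jettrans_inv [DecidableEq ι] (S : ι → ι → ℝ)
    (hS : ∀ a a', ∑ e, S e a * S e a' = if a = a' then 1 else 0) (c : ι → ℝ) (a : ι) :
    ∑ a', S a a' * ∑ e, S e a' * c e = c a := by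
  have h1 : (Matrix.of S)ᵀ * Matrix.of S = 1 := by
    ext b b'
    rw [Matrix.mul_apply, Matrix.one_apply]
    exact hS b b'
  have h2 : ∀ e, ∑ a', S a a' * S e a' = if a = e then 1 else 0 := by
    intro e
    have h4 : Matrix.of S * (Matrix.of S)ᵀ = 1 := mul_eq_one_comm.1 h1
    have h3 := congrFun (congrFun h4 a) e
    rw [Matrix.mul_apply, Matrix.one_apply] at h3
    exact h3
  simp only [Finset.mul_sum, ← mul_assoc]
  rw [Finset.sum_comm]
  simp only [← Finset.sum_mul, h2, ite_mul, one_mul, zero_mul, Finset.sum_ite_eq,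
    Finset.mem_univ, if_true]

lemma jettrans_num {μ t h T T' C : ℝ} (hμ : 0 < μ) (hT : 0 ≤ T) (hT' : T' = μ ^ 2 * T)
    (hC : h ^ 2 / μ ≤ C ∨ T' = 0) : μ * ((t * h) ^ 2 * T) ≤ C * (t ^ 2 * T') := by
  rcases hC with hC | hC
  · rw [div_le_iff₀ hμ] at hC
    have h1 : 0 ≤ μ * t ^ 2 * T := by positivity
    calc μ * ((t * h) ^ 2 * T) = μ * t ^ 2 * T * h ^ 2 := by ring
      _ ≤ μ * t ^ 2 * T * (C * μ) := mul_le_mul_of_nonneg_left hC h1
      _ = C * (t ^ 2 * T') := by rw [hT']; ring
  · have h1 : T = 0 := by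
      rw [hC] at hT'
      exact (mul_eq_zero.1 hT'.symm).resolve_left (by positivity)
    rw [h1, hC]
    simp

end loc

section chg
variable {n : ℕ} [NeZero n]

lemma jettrans_meas : MeasurableSet {x : En n | 0 < x 0} :=
  (isOpen_lt continuous_const (sm_coord 0).continuous).measurableSet

/-- Change of variables on the half space. -/
lemma jettrans_cv {r r' : ℝ} {Φ : En n → En n} (hΦ : Chg r r' Φ) {F G : En n → ℝ}
    (hF : ∀ x, x ∉ Φ '' ball 0 r' → F x = 0) (hG : ∀ y, y ∉ ball (0 : En n) r' → G y = 0)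
    (hFG : ∀ y ∈ ball (0 : En n) r', G y = |(fderiv ℝ Φ y).det| * F (Φ y)) :
    ∫ x in {x : En n | 0 < x 0}, F x = ∫ y in {y : En n | 0 < y 0}, G y := by
  obtain ⟨h1, h2, -, -, h, -, h5⟩ := hΦ
  have hm : MeasurableSet (ball (0 : En n) r' ∩ {y : En n | 0 < y 0}) :=
    measurableSet_ball.inter jettrans_meas
  have e1 : ∫ x in {x : En n | 0 < x 0}, F x =
      ∫ x in Φ '' (ball 0 r' ∩ {y : En n | 0 < y 0}), F x := by
    refine setIntegral_eq_of_subset_of_forall_sdiff_eq_zero jettrans_meas ?_ ?_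
    · rintro _ ⟨y, ⟨hy, hy0⟩, rfl⟩
      show 0 < Φ y 0
      rw [(h5 y hy).2]
      exact mul_pos hy0 (h5 y hy).1
    · rintro x ⟨hx0, hx⟩
      refine hF x ?_
      rintro ⟨y, hy, rfl⟩
      refine hx (mem_image_of_mem Φ ⟨hy, ?_⟩)
      have h6 : 0 < Φ y 0 := hx0
      rw [(h5 y hy).2] at h6
      exact pos_of_mul_pos_left h6 (h5 y hy).1.le
  have e2 : ∫ y in {y : En n | 0 < y 0}, G y =
      ∫ y in ball 0 r' ∩ {y : En n | 0 < y 0}, G y :=
    setIntegral_eq_of_subset_of_forall_sdiff_eq_zero jettrans_meas inter_subset_right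
      fun y hy => hG y fun h7 => hy.2 ⟨h7, hy.1⟩
  rw [e1, e2, integral_image_eq_integral_abs_det_fderiv_smul volume hm
    (fun y _ => ((h1.differentiable (by simp)) y).hasFDerivAt.hasFDerivWithinAt)
    (h2.mono inter_subset_left)]
  exact setIntegral_congr_fun hm fun y hy => (hFG y hy.1).symm

lemma jettrans_err {ι : Type} [Fintype ι] [DecidableEq ι] {g : MatF n} {A : ConF n ι}
    (h : GA g A) {v : ι → En n → ℝ} (hv : ∀ a, Tst (v a)) :
    Integrable (fun x : En n => x 0 ^ 2 * ∑ a, (cop g A).app v a x ^ 2)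
      (volume.restrict {x : En n | 0 < x 0}) ∧
    err g A v = ∫ x in {x : En n | 0 < x 0}, x 0 ^ 2 * ∑ a, (cop g A).app v a x ^ 2 := by
  have h1 : ∀ a, Tst ((cop g A).app v a) := jettrans_app_tst (s_cop n ι g A h).1 hv
  refine ⟨((Tst.sum _ fun a _ => (h1 a).sq).mul_left
    ((sm_coord 0).pow 2)).integrable.integrableOn, ?_⟩
  rw [err, ← integral_finsetSum _ fun a _ =>
    ((h1 a).mul_left (sm_coord 0)).sq.integrable.integrableOn]
  simp only [mul_pow, Finset.mul_sum]

end chg

theorem s_trans (hii : S_isoInter) (hp : S_push) (hd : S_dens) : S_trans := by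
  classical
  intro n _ ι _ _ g₁ g A₁ A r r' r'' Φ S h₁ h hr hΦ hS hI hS1
  obtain ⟨-, -, hμ, hI1, hI2⟩ := hii n ι g₁ g A₁ A _ Φ S h₁ h isOpen_ball hI
  obtain ⟨hΦ1, hΦ2, hΦ3, hΦ4, hh, hh1, hh2⟩ := id hΦ
  have hcb : closedBall (0 : En n) r'' ⊆ ball 0 r' := closedBall_subset_ball hr
  have hb : ball (0 : En n) r'' ⊆ ball 0 r' := ball_subset_ball hr.le
  obtain ⟨C, hC⟩ := (isCompact_closedBall (0 : En n) r'').exists_bound_of_continuousOn
    (f := fun y => hh y ^ 2 / |(fderiv ℝ Φ y).det|)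
    ((hh1.pow 2).continuousOn.div (hμ.continuousOn.mono hcb) fun y hy => (hI1 y (hcb hy)).1.ne')
  refine ⟨max C 0, le_max_right _ _, fun v hv => ?_⟩
  have hw : ∀ a, IsTest (ball (0 : En n) r') fun y => ∑ e, S e a y * v e y := by
    intro a
    refine ⟨Tst.sum _ fun e _ => (hv e).1.mul_left (hS e a), ?_⟩
    refine (closure_minimal (fun y hy => ?_)
      (isClosed_iUnion_of_finite fun e => isClosed_tsupport (v e))).trans
      (iUnion_subset fun e => (hv e).2.trans hb)
    by_contra h2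
    simp only [mem_iUnion, not_exists] at h2
    exact hy (by simp only [image_eq_zero_of_notMem_tsupport (h2 _), mul_zero,
      Finset.sum_const_zero])
  choose v₁ hv1 hv2 hv3 using fun a =>
    hp n Φ _ _ hΦ1 isOpen_ball hΦ2 (fun y hy => (hI1 y hy).2.2) (hw a)
  have hv4 : ∀ a, tsupport (v₁ a) ⊆ Φ '' ball 0 r' := fun a => (hv2 a).trans (image_mono (hw a).2)
  have hrel : ∀ y ∈ ball (0 : En n) r', ∀ a, v a y = ∑ a', S a a' y * v₁ a' (Φ y) := by
    intro y hy a
    simp only [hv3 _ y hy]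
    exact (jettrans_inv (fun a a' => S a a' y) (hI.2.2 y hy).1 (fun e => v e y) a).symm
  have hout : ∀ {y : En n}, y ∉ ball (0 : En n) r'' → ∀ a, y ∉ tsupport (v a) :=
    fun hy a h2 => hy ((hv a).2 h2)
  have hout1 : ∀ {x : En n}, x ∉ Φ '' ball 0 r' → ∀ a, x ∉ tsupport (v₁ a) :=
    fun hx a h2 => hx (hv4 a h2)
  refine ⟨v₁, fun a => ⟨hv1 a, (hv4 a).trans hΦ3.image_subset⟩, fun x hx a => ?_, ?_, ?_⟩
  · by_cases hxV : x ∈ ball (0 : En n) r'
    · have h2 := hv3 a x hxV
      rw [hΦ4 x hxV hx] at h2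
      simp only [h2, hS1 x hxV hx, ite_mul, one_mul, zero_mul, Finset.sum_ite_eq',
        Finset.mem_univ, if_true]
    · rw [image_eq_zero_of_notMem_tsupport (hout (fun h2 => hxV (hb h2)) a)]
      refine image_eq_zero_of_notMem_tsupport (hout1 ?_ a)
      rintro ⟨y, hy, rfl⟩
      rw [(hh2 y hy).2] at hx
      have h3 : y 0 = 0 := (mul_eq_zero.1 hx).resolve_right (hh2 y hy).1.ne'
      rw [hΦ4 y hy h3] at hxV
      exact hxV hy
  · refine jettrans_cv hΦ (fun x hx => ?_) (fun y hy => ?_) fun y hy =>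
      hd n ι g₁ g A₁ A _ Φ S v₁ v h₁ h isOpen_ball hI (fun a => (hv1 a).sm) hrel y hy
    · simp only [jettrans_cov_zero A₁ (hout1 hx), mul_zero, Finset.sum_const_zero]
    · simp only [jettrans_cov_zero A (hout fun h2 => hy (hb h2)), mul_zero,
        Finset.sum_const_zero]
  · obtain ⟨i1, e1⟩ := jettrans_err h fun a => (hv a).1
    rw [e1, (jettrans_err h₁ hv1).2, ← integral_const_mul,
      jettrans_cv hΦ (G := fun y => if y ∈ ball (0 : En n) r' then |(fderiv ℝ Φ y).det| *
        (Φ y 0 ^ 2 * ∑ a, (cop g₁ A₁).app v₁ a (Φ y) ^ 2) else 0) (fun x hx => ?_)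
        (fun y hy => if_neg hy) (fun y hy => if_pos hy)]
    · refine integral_mono_of_nonneg (Eventually.of_forall fun y => ?_) (i1.const_mul _)
        (Eventually.of_forall fun y => ?_)
      · simp only [Pi.zero_apply]
        split_ifs
        · positivity
        · exact le_rfl
      · simp only
        split_ifs with hy
        · have h2 : ∀ a, (cop g A).app v a y =
              |(fderiv ℝ Φ y).det| * ∑ a', S a a' y * (cop g₁ A₁).app v₁ a' (Φ y) := by
            intro a
            rw [← hI2 v₁ (fun a => (hv1 a).sm) y hy a]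
            refine jettrans_app_congr _ (fun b => ?_) a
            filter_upwards [isOpen_ball.mem_nhds hy] with z hz using hrel z hz b
          have h3 : ∑ a, (cop g A).app v a y ^ 2 =
              |(fderiv ℝ Φ y).det| ^ 2 * ∑ a, (cop g₁ A₁).app v₁ a (Φ y) ^ 2 := by
            simp only [h2, mul_pow, ← Finset.mul_sum]
            congr 1
            simp only [sq]
            exact jetdens_orth (fun a a' => S a a' y) (hI.2.2 y hy).1 _ _
          rw [(hh2 y hy).2]
          refine jettrans_num (hI1 y hy).1 (by positivity) h3 ?_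
          by_cases hy2 : y ∈ closedBall (0 : En n) r''
          · exact Or.inl (((le_abs_self _).trans (hC y hy2)).trans (le_max_left _ _))
          · right
            simp only [jettrans_app_zero _ (hout fun h4 => hy2 (ball_subset_closedBall h4)),
              ne_eq, OfNat.ofNat_ne_zero, not_false_eq_true, zero_pow, Finset.sum_const_zero]
        · have h2 : (0 : ℝ) ≤ max C 0 := le_max_right _ _
          positivity
    · simp only [jettrans_app_zero _ (hout1 hx), ne_eq, OfNat.ofNat_ne_zero, not_false_eq_true,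
        zero_pow, Finset.sum_const_zero, mul_zero]

end Vale.Agent.P088
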