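import Vale.Agent.P088.JetStm
import Vale.Agent.P205.MeanAux

/-!
# P088, boundary determination: calculus of vanishing orders
-/

open MeasureTheory Set Metric Filter
open scoped ContDiff Topology Matrix

noncomputable section
namespace Vale.Agent.P088
open Vale.Agent.P136

section had
variable {n : ℕ}

lemma sm_coord (i : Fin n) : Sm (fun x : En n => x i) :=
  (EuclideanSpace.proj (𝕜 := ℝ) i : En n →L[ℝ] ℝ).contDiff

lemma ee_apply (i j : Fin n) : (ee i : En n) j = if j = i then 1 else 0 := by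
  simp [ee, Pi.single_apply]

lemma D_coord (v : En n) (i : Fin n) (x : En n) : D v (fun x : En n => x i) x = v i := by
  have h : HasFDerivAt (fun x : En n => x i) (EuclideanSpace.proj (𝕜 := ℝ) i : En n →L[ℝ] ℝ) x :=
    (EuclideanSpace.proj (𝕜 := ℝ) i : En n →L[ℝ] ℝ).hasFDerivAt
  simp [D, h.fderiv]

lemma sum_ee (v : En n) : ∑ i, v i • (ee i : En n) = v := by
  ext j
  simp [ee, Pi.single_apply]

lemma clm_eq_sum {F : Type} [NormedAddCommGroup F] [NormedSpace ℝ F] (L : En n →L[ℝ] F)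
    (v : En n) : L v = ∑ i, v i • L (ee i) := by
  conv_lhs => rw [← sum_ee v]
  simp

/-- Components of a smooth map are smooth. -/
lemma sm_comp_coord {E : Type} [NormedAddCommGroup E] [NormedSpace ℝ E] {Φ : E → En n}
    (h : ContDiff ℝ ∞ Φ) (k : Fin n) : Sm fun z => Φ z k := (sm_coord k).comp h

/-- A map with smooth components is smooth. -/
lemma contDiff_toLp {E : Type} [NormedAddCommGroup E] [NormedSpace ℝ E] {u : Fin n → E → ℝ}
    (h : ∀ k, Sm (u k)) : ContDiff ℝ ∞ fun z => (WithLp.toLp 2 fun k => u k z : En n) :=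
  contDiff_euclidean.2 h

/-- Hadamard's lemma with two moving points. -/
theorem had2 {f : En n → ℝ} (hf : Sm f) : ∃ h : Fin n → En n × En n → ℝ, (∀ i, Sm (h i)) ∧
    ∀ x y, f x - f y = ∑ i, (x i - y i) * h i (x, y) := by
  refine ⟨fun i z => ∫ s in (0:ℝ)..1, D (ee i) f (z.2 + s • (z.1 - z.2)), fun i => ?_,
    fun x y => ?_⟩
  · have h1 : ContDiff ℝ ∞ (fun q : (En n × En n) × ℝ =>
        D (ee i) f (q.1.2 + q.2 • (q.1.1 - q.1.2))) := (hf.D _).comp (by fun_prop)
    have h2 := P205.MeanAux.par_contDiffOn (V := univ) isOpen_univ h1.contDiffOn 0 1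
    exact contDiffOn_univ.1 h2
  · have hc : ∀ i, Continuous fun s : ℝ => (x i - y i) * D (ee i) f (y + s • (x - y)) := fun i =>
      continuous_const.mul ((hf.D _).cont.comp (by fun_prop))
    have h1 : ∀ s : ℝ, HasDerivAt (fun s : ℝ => f (y + s • (x - y)))
        (∑ i, (x i - y i) * D (ee i) f (y + s • (x - y))) s := fun s => by
      have h2 : HasDerivAt (fun s : ℝ => y + s • (x - y)) (x - y) s := by
        simpa using ((hasDerivAt_id s).smul_const (x - y)).const_add y
      have h3 := (hf.dAt (y + s • (x - y))).hasFDerivAt.comp_hasDerivAt s h2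
      rw [clm_eq_sum] at h3
      exact h3
    have h6 := intervalIntegral.integral_eq_sub_of_hasDerivAt (a := 0) (b := 1) (fun s _ => h1 s)
      ((continuous_finsetSum _ fun i _ => hc i).intervalIntegrable 0 1)
    rw [intervalIntegral.integral_finsetSum fun i _ => (hc i).intervalIntegrable 0 1] at h6
    simp only [intervalIntegral.integral_const_mul, one_smul, zero_smul, add_zero,
      add_sub_cancel] at h6
    exact h6.symm

end had

variable {n : ℕ} [NeZero n]

lemma prj_apply (x : En n) (i : Fin n) : prj x i = if i = 0 then 0 else x i := by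
  by_cases h : i = 0 <;> simp [prj, ee_apply, h]

lemma prj_zero (x : En n) : prj x 0 = 0 := by simp [prj_apply]

lemma prj_of_zero {x : En n} (h : x 0 = 0) : prj x = x := by simp [prj, h]

lemma contDiff_prj : ContDiff ℝ ∞ (prj : En n → En n) :=
  contDiff_id.sub ((sm_coord 0).smul contDiff_const)

lemma norm_prj_le (x : En n) : ‖prj x‖ ≤ ‖x‖ := by
  rw [EuclideanSpace.norm_eq, EuclideanSpace.norm_eq]
  refine Real.sqrt_le_sqrt (Finset.sum_le_sum fun i _ => ?_)
  rw [prj_apply]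
  split_ifs
  · simp only [norm_zero]; rw [zero_pow two_ne_zero]; positivity
  · exact le_rfl

lemma prj_mem {r : ℝ} {x : En n} (h : x ∈ ball (0 : En n) r) : prj x ∈ ball (0 : En n) r :=
  mem_ball_zero_iff.2 ((norm_prj_le x).trans_lt (mem_ball_zero_iff.1 h))

/-- Hadamard's lemma in the normal variable. -/
theorem had1 {f : En n → ℝ} (hf : Sm f) :
    ∃ h : En n → ℝ, Sm h ∧ ∀ x, f x = f (prj x) + x 0 * h x := by
  obtain ⟨h, hs, he⟩ := had2 hf
  refine ⟨fun x => h 0 (x, prj x), (hs 0).comp (contDiff_id.prodMk contDiff_prj), fun x => ?_⟩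
  have h1 := he x (prj x)
  rw [Finset.sum_eq_single 0 (fun i _ hi => by simp [prj_apply, hi]) (by simp), prj_zero] at h1
  linarith

theorem had0 {f : En n → ℝ} (hf : Sm f) (h0 : ∀ x : En n, x 0 = 0 → f x = 0) :
    ∃ h : En n → ℝ, Sm h ∧ ∀ x, f x = x 0 * h x := by
  obtain ⟨h, hs, he⟩ := had1 hf
  exact ⟨h, hs, fun x => by rw [he x, h0 _ (prj_zero x), zero_add]⟩

lemma SmC.re {f : En n → ℂ} (hf : SmC f) : Sm fun x => (f x).re := Complex.reCLM.contDiff.comp hf

lemma SmC.im {f : En n → ℂ} (hf : SmC f) : Sm fun x => (f x).im := Complex.imCLM.contDiff.comp hf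

lemma smC_ofReal {f : En n → ℝ} (hf : Sm f) : SmC fun x => (f x : ℂ) :=
  Complex.ofRealCLM.contDiff.comp hf

theorem had0C {f : En n → ℂ} (hf : SmC f) (h0 : ∀ x : En n, x 0 = 0 → f x = 0) :
    ∃ h : En n → ℂ, SmC h ∧ ∀ x, f x = (x 0 : ℂ) * h x := by
  obtain ⟨h₁, s₁, e₁⟩ := had0 hf.re fun x hx => by simp [h0 x hx]
  obtain ⟨h₂, s₂, e₂⟩ := had0 hf.im fun x hx => by simp [h0 x hx]
  refine ⟨fun x => (h₁ x : ℂ) + (h₂ x : ℂ) * Complex.I,
    (smC_ofReal s₁).add ((smC_ofReal s₂).mul contDiff_const), fun x => ?_⟩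
  apply Complex.ext <;> simp [e₁ x, e₂ x]

variable {r : ℝ} {k l : ℕ} {f g h : En n → ℝ}

lemma van_zero (hf : Sm f) : Van r 0 f := ⟨f, hf, fun x _ => by simp⟩

lemma van_const_zero : Van r k fun _ : En n => 0 := ⟨fun _ => 0, Sm.const 0, fun x _ => by simp⟩

lemma van_pow_mul (hh : Sm h) : Van r k fun x => x 0 ^ k * h x := ⟨h, hh, fun _ _ => rfl⟩

lemma Van.congr (hf : Van r k f) (e : ∀ x ∈ ball (0 : En n) r, g x = f x) : Van r k g := by
  obtain ⟨h, hs, he⟩ := hf
  exact ⟨h, hs, fun x hx => (e x hx).trans (he x hx)⟩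

lemma Van.mono_r {r' : ℝ} (hf : Van r k f) (hr : r' ≤ r) : Van r' k f := by
  obtain ⟨h, hs, he⟩ := hf
  exact ⟨h, hs, fun x hx => he x (ball_subset_ball hr hx)⟩

lemma Van.mono (hf : Van r k f) (hl : l ≤ k) : Van r l f := by
  obtain ⟨h, hs, he⟩ := hf
  obtain ⟨d, rfl⟩ := Nat.exists_eq_add_of_le hl
  exact ⟨fun x => x 0 ^ d * h x, ((sm_coord 0).pow d).mul hs, fun x hx => by
    rw [he x hx]; ring⟩

lemma Van.add (hf : Van r k f) (hg : Van r k g) : Van r k fun x => f x + g x := by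
  obtain ⟨h, hs, he⟩ := hf
  obtain ⟨h', hs', he'⟩ := hg
  exact ⟨fun x => h x + h' x, hs.add hs', fun x hx => by
    simp only [he x hx, he' x hx]; ring⟩

lemma Van.neg (hf : Van r k f) : Van r k fun x => -f x := by
  obtain ⟨h, hs, he⟩ := hf
  exact ⟨fun x => -h x, hs.neg, fun x hx => by simp only [he x hx]; ring⟩

lemma Van.sub (hf : Van r k f) (hg : Van r k g) : Van r k fun x => f x - g x :=
  (hf.add hg.neg).congr fun x _ => by ring

lemma Van.symm (hf : Van r k fun x => f x - g x) : Van r k fun x => g x - f x :=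
  hf.neg.congr fun x _ => by ring

lemma Van.mul (hf : Van r k f) (hg : Van r l g) : Van r (k + l) fun x => f x * g x := by
  obtain ⟨h, hs, he⟩ := hf
  obtain ⟨h', hs', he'⟩ := hg
  exact ⟨fun x => h x * h' x, hs.mul hs', fun x hx => by
    simp only [he x hx, he' x hx]; ring⟩

lemma Van.mul_sm (hf : Van r k f) (hg : Sm g) : Van r k fun x => f x * g x := hf.mul (van_zero hg)

lemma Van.sm_mul (hf : Van r k f) (hg : Sm g) : Van r k fun x => g x * f x :=
  (hf.mul_sm hg).congr fun x _ => mul_comm _ _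

lemma Van.sum {α : Type*} {s : Finset α} {F : α → En n → ℝ} (hF : ∀ i ∈ s, Van r k (F i)) :
    Van r k fun x => ∑ i ∈ s, F i x := by
  classical
  induction s using Finset.induction_on with
  | empty => simpa using van_const_zero
  | insert a s ha ih =>
    simp only [Finset.sum_insert ha]
    exact (hF a (by simp)).add (ih fun i hi => hF i (by simp [hi]))

/-- Congruence for products. -/
lemma Van.mul_congr {f' g' : En n → ℝ} (hf : Van r k fun x => f x - f' x)
    (hg : Van r k fun x => g x - g' x) (sf : Sm f') (sg : Sm g) :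
    Van r k fun x => f x * g x - f' x * g' x :=
  ((hf.mul_sm sg).add (hg.sm_mul sf)).congr fun x _ => by ring

lemma Van.prod_congr {α : Type*} {s : Finset α} {F G : α → En n → ℝ} (sF : ∀ i, Sm (F i))
    (sG : ∀ i, Sm (G i)) (hF : ∀ i ∈ s, Van r k fun x => F i x - G i x) :
    Van r k fun x => ∏ i ∈ s, F i x - ∏ i ∈ s, G i x := by
  classical
  induction s using Finset.induction_on with
  | empty => simpa using van_const_zero
  | insert a s ha ih =>
    simp only [Finset.prod_insert ha]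
    exact (hF a (by simp)).mul_congr (ih fun i hi => hF i (by simp [hi])) (sG a)
      (contDiff_prod fun i _ => sF i)

lemma sm_det {E : Type} [NormedAddCommGroup E] [NormedSpace ℝ E] {α : Type} [Fintype α]
    [DecidableEq α] {M : E → Matrix α α ℝ} (hM : ∀ i j, Sm fun x => M x i j) :
    Sm fun x => (M x).det := by
  simp only [Matrix.det_apply']
  exact ContDiff.sum fun σ _ => contDiff_const.mul (contDiff_prod fun i _ => hM _ _)

lemma Van.det_congr {α : Type} [Fintype α] [DecidableEq α] {M M' : En n → Matrix α α ℝ}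
    (sM : ∀ i j, Sm fun x => M x i j) (sM' : ∀ i j, Sm fun x => M' x i j)
    (hM : ∀ i j, Van r k fun x => M x i j - M' x i j) :
    Van r k fun x => (M x).det - (M' x).det := by
  have h1 : ∀ σ : Equiv.Perm α, Van r k fun x =>
      ((Equiv.Perm.sign σ : ℤ) : ℝ) * (∏ i, M x (σ i) i - ∏ i, M' x (σ i) i) := fun σ =>
    (Van.prod_congr (fun i => sM _ _) (fun i => sM' _ _) fun i _ => hM _ _).sm_mul (Sm.const _)
  refine (Van.sum fun σ (_ : σ ∈ Finset.univ) => h1 σ).congr fun x _ => ?_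
  simp only [Matrix.det_apply', mul_sub, Finset.sum_sub_distrib]

/-- Composition with a smooth function preserves congruences. -/
lemma Van.comp {m : ℕ} {F : En m → ℝ} (hF : Sm F) {Φ Φ' : En n → En m} (hΦ : ContDiff ℝ ∞ Φ)
    (hΦ' : ContDiff ℝ ∞ Φ') (hc : ∀ i, Van r k fun x => Φ x i - Φ' x i) :
    Van r k fun x => F (Φ x) - F (Φ' x) := by
  obtain ⟨H, hs, he⟩ := had2 hF
  exact (Van.sum fun i (_ : i ∈ Finset.univ) =>
    (hc i).mul_sm ((hs i).comp (hΦ.prodMk hΦ'))).congr fun x _ => he _ _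

lemma D_pow_coord (i : Fin n) (k : ℕ) (x : En n) :
    D (ee i) (fun x : En n => x 0 ^ (k + 1)) x = if i = 0 then (k + 1) * x 0 ^ k else 0 := by
  have h : HasFDerivAt (fun x : En n => x 0) (EuclideanSpace.proj (𝕜 := ℝ) 0 : En n →L[ℝ] ℝ) x :=
    (EuclideanSpace.proj (𝕜 := ℝ) 0 : En n →L[ℝ] ℝ).hasFDerivAt
  have h1 := HasDerivAt.comp_hasFDerivAt (h₂ := fun s : ℝ => s ^ (k + 1)) x
    (hasDerivAt_pow (k + 1) (x 0)) h
  have h2 : fderiv ℝ (fun x : En n => x 0 ^ (k + 1)) x = _ := h1.fderiv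
  simp only [D]
  rw [h2]
  by_cases hi : i = 0
  · simp [hi, ee_apply]
  · simp [hi, ee_apply, Ne.symm hi]

lemma VanQ.ev (hf : VanQ r k f h) {x : En n} (hx : x ∈ ball (0 : En n) r) :
    f =ᶠ[𝓝 x] fun x => x 0 ^ k * h x :=
  eventually_of_mem (isOpen_ball.mem_nhds hx) hf.2

lemma Van.D (hf : Van r (k + 1) f) (i : Fin n) : Van r k (D (ee i) f) := by
  obtain ⟨h, hq⟩ := hf
  refine ⟨fun x => x 0 * P136.D (ee i) h x + (if i = 0 then (k + 1 : ℝ) else 0) * h x,
    ((sm_coord 0).mul (hq.1.D _)).add ((Sm.const _).mul hq.1), fun x hx => ?_⟩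
  rw [D_congr (hq.ev hx), D_mul_at (((sm_coord 0).pow _).dAt x) (hq.1.dAt x), D_pow_coord]
  split_ifs <;> ring

lemma Van.Dtan (hf : Van r k f) {i : Fin n} (hi : i ≠ 0) : Van r k (P136.D (ee i) f) := by
  obtain ⟨h, hq⟩ := hf
  refine ⟨P136.D (ee i) h, hq.1.D _, fun x hx => ?_⟩
  rw [D_congr (hq.ev hx), D_mul_at (((sm_coord 0).pow _).dAt x) (hq.1.dAt x)]
  cases k with
  | zero => simp [D_const]
  | succ k => rw [D_pow_coord, if_neg hi]; ring

/-- If the quotient vanishes on the boundary disc, the order goes up. -/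
lemma VanQ.step (hf : VanQ r k f h) (h0 : ∀ y ∈ ball (0 : En n) r, y 0 = 0 → h y = 0) :
    Van r (k + 1) f := by
  obtain ⟨h', hs, he⟩ := had1 hf.1
  refine ⟨h', hs, fun x hx => ?_⟩
  rw [hf.2 x hx, he x, h0 _ (prj_mem hx) (prj_zero x)]; ring

lemma Van.val (hf : Van r (k + 1) f) {y : En n} (hy : y ∈ ball (0 : En n) r) (h0 : y 0 = 0) :
    f y = 0 := by
  obtain ⟨h, -, he⟩ := hf
  rw [he y hy, h0]; simp

/-- A continuous function that is `O(t)` near a boundary point (off the boundary) vanishes there. -/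
lemma eq_zero_of_bound {y : En n} {C : ℝ} (hh : Continuous h) (h0 : y 0 = 0)
    (hb : ∀ᶠ x in 𝓝 y, x 0 ≠ 0 → |h x| ≤ C * |x 0|) : h y = 0 := by
  have hc : Continuous fun s : ℝ => y + s • (ee 0 : En n) := by fun_prop
  have ht : Tendsto (fun s : ℝ => y + s • (ee 0 : En n)) (𝓝[≠] 0) (𝓝 y) := by
    have := (hc.tendsto 0).mono_left (nhdsWithin_le_nhds (s := {0}ᶜ))
    simpa using this
  have h1 : Tendsto (fun s : ℝ => |h (y + s • (ee 0 : En n))|) (𝓝[≠] 0) (𝓝 |h y|) :=
    ((hh.tendsto y).comp ht).abs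
  have h2 : Tendsto (fun s : ℝ => C * |s|) (𝓝[≠] 0) (𝓝 0) := by
    have : Continuous fun s : ℝ => C * |s| := by fun_prop
    simpa using (this.tendsto 0).mono_left (nhdsWithin_le_nhds (s := {0}ᶜ))
  have h3 : ∀ᶠ s : ℝ in 𝓝[≠] 0, |h (y + s • (ee 0 : En n))| ≤ C * |s| := by
    filter_upwards [ht.eventually hb, self_mem_nhdsWithin] with s hs hs0
    have e : (y + s • (ee 0 : En n)) 0 = s := by simp [h0, ee_apply]
    rw [e] at hs
    exact hs hs0
  exact abs_nonpos_iff.1 (le_of_tendsto_of_tendsto h1 h2 h3)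

lemma VanQ.bdry_of_bound (hf : VanQ r k f h) {y : En n} {C : ℝ} (hy : y ∈ ball (0 : En n) r)
    (h0 : y 0 = 0) (hb : ∀ᶠ x in 𝓝 y, |f x| ≤ C * |x 0| ^ (k + 1)) : h y = 0 := by
  refine eq_zero_of_bound (C := C) hf.1.cont h0 ?_
  filter_upwards [hb, hf.ev hy] with x h1 h2 h3
  rw [h2, abs_mul, abs_pow, pow_succ] at h1
  have h4 : 0 < |x 0| ^ k := pow_pos (abs_pos.2 h3) k
  nlinarith

/-- Growth characterization of the vanishing order. -/
lemma van_of_bound (hf : Sm f) (hb : ∀ y ∈ ball (0 : En n) r, y 0 = 0 →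
    ∃ C : ℝ, ∀ᶠ x in 𝓝 y, |f x| ≤ C * |x 0| ^ k) : Van r k f := by
  have key : ∀ j, j ≤ k → Van r j f := by
    intro j
    induction j with
    | zero => exact fun _ => van_zero hf
    | succ j ih =>
      intro hj
      obtain ⟨h, hq⟩ := ih (by omega)
      refine hq.step fun y hy h0 => ?_
      obtain ⟨C, hC⟩ := hb y hy h0
      refine hq.bdry_of_bound (C := |C|) hy h0 ?_
      have h1 : ∀ᶠ x : En n in 𝓝 y, |x 0| < 1 :=
        ((sm_coord 0).cont.abs.tendsto y).eventually (gt_mem_nhds (by simp [h0]))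
      filter_upwards [hC, h1] with x h2 h3
      exact h2.trans (mul_le_mul (le_abs_self C)
        (pow_le_pow_of_le_one (abs_nonneg _) h3.le hj) (by positivity) (abs_nonneg C))
  exact key k le_rfl

/-- If the order is higher than `k`, the quotient of order `k` vanishes on the boundary disc. -/
lemma VanQ.bdry (hf : VanQ r k f h) (hf' : Van r (k + 1) f) {y : En n}
    (hy : y ∈ ball (0 : En n) r) (h0 : y 0 = 0) : h y = 0 := by
  obtain ⟨h', hq⟩ := hf'
  refine hf.bdry_of_bound (C := |h' y| + 1) hy h0 ?_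
  have h1 : ∀ᶠ x : En n in 𝓝 y, |h' x| < |h' y| + 1 :=
    (hq.1.cont.abs.tendsto y).eventually (gt_mem_nhds (by simp))
  filter_upwards [hq.ev hy, h1] with x h2 h3
  rw [h2, abs_mul, abs_pow, mul_comm]
  exact mul_le_mul_of_nonneg_right h3.le (by positivity)

lemma van_Ds (l : List (Fin n)) : ∀ {k : ℕ}, Van r (k + l.length) f → Van r k (Ds ee l f) := by
  induction l with
  | nil => exact fun h => h
  | cons i l ih =>
    intro k hf
    have : Van r (k + 1 + l.length) f := by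
      have e : k + 1 + l.length = k + (i :: l).length := by simp; omega
      rw [e]; exact hf
    exact (ih this).D i

/-- All derivatives of a flat function vanish on the boundary disc. -/
lemma Ds_eq_zero (hf : ∀ k, Van r k f) (l : List (Fin n)) {y : En n}
    (hy : y ∈ ball (0 : En n) r) (h0 : y 0 = 0) : Ds ee l f y = 0 :=
  (van_Ds l (hf (0 + 1 + l.length))).val hy h0

omit [NeZero n] in
/-- Transformation rule of `√(det G) G⁻¹` under pullback. -/
lemma pull_gam {G₁ G J : Matrix (Fin n) (Fin n) ℝ} (hG : G = Jᵀ * G₁ * J) (h₁ : 0 < G₁.det)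
    (hJ : J.det ≠ 0) : J * (√G.det • G⁻¹) * Jᵀ = |J.det| • (√G₁.det • G₁⁻¹) := by
  have uJ : IsUnit J.det := isUnit_iff_ne_zero.2 hJ
  have uJ' : IsUnit Jᵀ.det := by rwa [Matrix.det_transpose]
  have e1 : G.det = J.det ^ 2 * G₁.det := by
    rw [hG, Matrix.det_mul, Matrix.det_mul, Matrix.det_transpose]; ring
  have e2 : √G.det = |J.det| * √G₁.det := by
    rw [e1, Real.sqrt_mul (sq_nonneg _), Real.sqrt_sq_eq_abs]
  have e3 : J * G⁻¹ * Jᵀ = G₁⁻¹ := by
    rw [hG, Matrix.mul_inv_rev, Matrix.mul_inv_rev, ← Matrix.mul_assoc,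
      Matrix.mul_nonsing_inv _ uJ, Matrix.one_mul, Matrix.mul_assoc,
      Matrix.nonsing_inv_mul _ uJ', Matrix.mul_one]
  rw [Matrix.mul_smul, Matrix.smul_mul, e3, e2, smul_smul]

end Vale.Agent.P088
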