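import Vale.Agent.P088.LQa
import Vale.Agent.P088.SbAlg
import Vale.Agent.P088.SbComp
import Vale.Agent.P088.SbLin

/-!
# P088: Lemma Q near the diagonal
-/

open MeasureTheory Set Metric
open scoped ContDiff Topology

noncomputable section
namespace Vale.Agent.P088
open Vale.Agent.P136

namespace LQ

theorem algM {S e a al V gv K d r G L g nl H η c₀ : ℝ} (he : 0 < e) (he1 : e ≤ 1 / 16)
    (hη : 16 * e ≤ η) (ha : 0 < a) (hal : |al - a| ≤ e * a) (hV0 : 0 ≤ V)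
    (hV : (1 - e) * V ≤ gv) (hK : 0 ≤ K) (hd : 8 * K * d ≤ c₀) (hd0 : 0 ≤ d)
    (hnl : a * L ^ 2 ≤ nl) (hH : 0 ≤ H)
    (hS : S ≤ (1 + e) * a * V + K * (d * (a ^ 2 * r ^ 2) + G ^ 2 * (a * L ^ 2 * g ^ 2) + H)) :
    (1 + 2 * e) ^ 2 * S ≤ (1 + η) * (al * gv) + c₀ * (al ^ 2 * r ^ 2) +
      (1 + 2 * K * G ^ 2) * (nl * g ^ 2) + 2 * K * H := by
  have k : ∀ x y : ℝ, 0 ≤ x → (1 - e) * x ≤ y → 0 ≤ y ∧ x ≤ (1 + 2 * e) * y := fun x y hx h =>
    ⟨(mul_nonneg (by linarith) hx).trans h, by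
      linarith [mul_le_mul_of_nonneg_left h (by linarith : 0 ≤ 1 + 2 * e),
        mul_nonneg (mul_nonneg he.le (by linarith : 0 ≤ 1 - 2 * e)) hx]⟩
  obtain ⟨hal0, h1⟩ := k a al ha.le (by linarith [(abs_le.1 hal).1])
  obtain ⟨hgv, h2⟩ := k V gv hV0 hV
  have hκ : (1 + 2 * e) ^ 2 ≤ 2 := by nlinarith
  have h5 : (1 + 2 * e) ^ 5 ≤ 1 + η := by
    have h3 : (1 + 2 * e) ^ 2 ≤ 1 + 5 * e := by nlinarith
    have h4 := pow_le_pow_left₀ (sq_nonneg _) h3 2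
    have h6 : (1 + 5 * e) ^ 2 ≤ 1 + 12 * e := by nlinarith
    have h7 := mul_le_mul_of_nonneg_right (h4.trans h6) (by linarith : 0 ≤ 1 + 2 * e)
    nlinarith
  have t1 : (1 + e) * a * V ≤ (1 + 2 * e) * ((1 + 2 * e) * al) * ((1 + 2 * e) * gv) :=
    mul_le_mul (mul_le_mul (by linarith) h1 ha.le (by linarith)) h2 hV0 (by positivity)
  have t2 : a ^ 2 ≤ (2 * al) ^ 2 :=
    pow_le_pow_left₀ ha.le (h1.trans (mul_le_mul_of_nonneg_right (by linarith) hal0)) 2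
  have t3 := mul_le_mul_of_nonneg_left t2 (by positivity : 0 ≤ 2 * K * d * r ^ 2)
  have t4 := mul_le_mul_of_nonneg_right hd (by positivity : 0 ≤ al ^ 2 * r ^ 2)
  have t5 := mul_le_mul_of_nonneg_left hnl (by positivity : 0 ≤ 2 * K * G ^ 2 * g ^ 2)
  have t6 : 0 ≤ nl * g ^ 2 := mul_nonneg (le_trans (by positivity) hnl) (sq_nonneg g)
  have t7 := mul_le_mul_of_nonneg_right hκ
    (by positivity : 0 ≤ K * (d * (a ^ 2 * r ^ 2) + G ^ 2 * (a * L ^ 2 * g ^ 2) + H))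
  have t8 := mul_le_mul_of_nonneg_left t1 (sq_nonneg (1 + 2 * e))
  have t9 := mul_le_mul_of_nonneg_right h5 (mul_nonneg hal0 hgv)
  have t10 := mul_le_mul_of_nonneg_left hS (sq_nonneg (1 + 2 * e))
  linarith

theorem sum_int {X : Type} [MeasurableSpace X] {μ : Measure X} {κ : Type} [Fintype κ]
    {F : κ → X → ℝ} {M : X → ℝ} {k : ℝ} (hk : 0 ≤ k) (hM : Integrable M μ)
    (h : ∀ p, k * ∑ i, F i p ^ 2 ≤ M p) : k * ∑ i, ∫ p, F i p ^ 2 ∂μ ≤ ∫ p, M p ∂μ := by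
  classical
  have hi : ∀ i ∈ Finset.univ.filter fun i => Integrable (fun p => F i p ^ 2) μ,
      Integrable (fun p => F i p ^ 2) μ := fun i hi => (Finset.mem_filter.1 hi).2
  rw [← Finset.sum_filter_of_ne (p := fun i => Integrable (fun p => F i p ^ 2) μ)
    fun i _ hi => by_contra fun h' => hi (integral_undef h'), ← integral_finsetSum _ hi,
    ← integral_const_mul]
  refine integral_mono ((integrable_finsetSum _ hi).const_mul k) hM fun p => le_trans ?_ (h p)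
  exact mul_le_mul_of_nonneg_left (Finset.sum_le_sum_of_subset_of_nonneg
    (Finset.filter_subset _ _) fun i _ _ => sq_nonneg _) hk

variable {n : ℕ} {ι : Type}

theorem n2_nonneg (ζ : Fin n → ℝ) : 0 ≤ n2 ζ := Finset.sum_nonneg fun _ _ => sq_nonneg _

theorem dbd {a L x χ N : ℝ} (z : En n) (P : Fin n → ℝ) (ha : 0 < a) (hx : |x| ≤ 2) (hχ : |χ| ≤ 1)
    (hz : a * ‖z‖ ^ 2 ≤ 16 * N) :
    a * (-(L * x * χ * ∑ k, z k * P k)) ^ 2 ≤ 64 * N * (L ^ 2 * n2 P) := by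
  have h1 := Finset.sum_mul_sq_le_sq_mul_sq Finset.univ (fun k => z k) P
  rw [← EuclideanSpace.real_norm_sq_eq] at h1
  have h2 : (x * χ) ^ 2 ≤ (2 * 1) ^ 2 := sq_le_sq' (abs_le.1 (amul hx hχ)).1 (abs_le.1 (amul hx hχ)).2
  have h3 := mul_le_mul h2 h1 (sq_nonneg _) (sq_nonneg _)
  have h4 := mul_le_mul_of_nonneg_left h3 (by positivity : 0 ≤ a * L ^ 2)
  have h5 := mul_le_mul_of_nonneg_right hz (mul_nonneg (sq_nonneg L) (n2_nonneg P))
  rw [n2] at h5 ⊢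
  linarith

/-- The pointwise majorant. -/
def MM (f : Fx) (c : Cx n ι) (N k0 k1 k2 k3 : ℝ) (g q : X2 n → ℝ) (p : X2 n) : ℝ :=
  k0 * (PN f c (2 * N)).indicator (fun p => al f c p * gV c p (zx f c g p) (zy f c q p)) p +
    k1 * (Nr f c 1).indicator (fun p => al f c p ^ 2 * (g p + q p) ^ 2) p +
    k2 * (Nr f c 16).indicator (fun p => nl f c p * g p ^ 2) p +
    k3 * (Nr f c 8).indicator (fun p => LX f c p.1 ^ 2 * n2 (py f c g p)) p

theorem sm_cq {f : Fx} {c : Cx n ι} (W : W0 f c) (N : ℝ) : Sm (cq f c N) :=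
  SbComp.cut_smooth.comp (W.1.2.2.2.2.2.2.2.2.2.1.div_const N)

theorem int_MM {f : Fx} {c : Cx n ι} (W : W0 f c) (N k0 k1 k2 k3 : ℝ) {g q : X2 n → ℝ}
    (hg : Tst g) (hq : Tst q) : Integrable (MM f c N k0 k1 k2 k3 g q) ∧
    ∫ p, MM f c N k0 k1 k2 k3 g q p =
      k0 * (∫ p in PN f c (2 * N), al f c p * gV c p (zx f c g p) (zy f c q p)) +
        k1 * (∫ p in Nr f c 1, al f c p ^ 2 * (g p + q p) ^ 2) +
        k2 * (∫ p in Nr f c 16, nl f c p * g p ^ 2) +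
        k3 * ∫ p in Nr f c 8, LX f c p.1 ^ 2 * n2 (py f c g p) := by
  obtain ⟨-, -, sg, -, sQ, -, sF, -, -, sΨ, sa, -, -, -, -, -, -, sφ, -, -, -, -, sn, -, -, -, -,
    -, -, -, -, -, -, -, -, -, -, -, sL, -⟩ := W.1
  have m1 : MeasurableSet (PN f c (2 * N)) := (isClosed_le sΨ.cont continuous_const).measurableSet
  have m2 : ∀ r, MeasurableSet (Nr f c r) := fun r =>
    (isClosed_le ((sQ.pow 2).mul sF).cont continuous_const).measurableSet
  have tV : ∀ i, Tst fun p => (zy f c q p - zx f c g p) i := fun i =>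
    (hq.Dm sφ _).sub (hg.Dm sφ _)
  have i0 := (((Tst.integrable_cmul (μ := volume) sa.cont
    (IdT.tst_quad sg (fun i => (tV i).sm) tV)).indicator m1).const_mul k0 :)
  have i1 := (((Tst.integrable_cmul (μ := volume) (sa.pow 2).cont (hg.add hq).sq).indicator
    (m2 1)).const_mul k1 :)
  have i2 := (((Tst.integrable_cmul (μ := volume) sn.cont hg.sq).indicator (m2 16)).const_mul k2 :)
  have i3 := (((Tst.integrable_cmul (μ := volume) ((sL.cont.comp continuous_fst).pow 2)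
    (Tst.sum Finset.univ fun i _ => (hg.Dp sφ (ey i)).sq)).indicator (m2 8)).const_mul k3 :)
  refine ⟨((i0.add i1).add i2).add i3, ?_⟩
  rw [← integral_indicator m1, ← integral_indicator (m2 1), ← integral_indicator (m2 16),
    ← integral_indicator (m2 8), ← integral_const_mul, ← integral_const_mul, ← integral_const_mul,
    ← integral_const_mul]
  exact (integral_add (iadd (iadd i0 i1) i2) i3).trans (congrArg (· + _)
    ((integral_add (iadd i0 i1) i2).trans (congrArg (· + _) (integral_add i0 i1))))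

theorem MM_nonneg {f : Fx} {c : Cx n ι} (W : W0 f c) (N : ℝ) {k0 k1 k2 k3 : ℝ} (h0 : 0 ≤ k0)
    (h1 : 0 ≤ k1) (h2 : 0 ≤ k2) (h3 : 0 ≤ k3) (g q : X2 n → ℝ) (p : X2 n) :
    0 ≤ MM f c N k0 k1 k2 k3 g q p := by
  obtain ⟨q1, -, hF, -, hσ, -, -, -, -, -, -, -, -, -, -, -, -, hb⟩ := W.2.2.1 p
  have ha := (W.2.1 p.1).1
  have hΨ : 0 ≤ Psi f c p := mul_nonneg (le_trans (by positivity) q1) hF.le
  refine add_nonneg (add_nonneg (add_nonneg (mul_nonneg h0 ?_) (mul_nonneg h1 ?_))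
    (mul_nonneg h2 ?_)) (mul_nonneg h3 ?_) <;> refine indicator_apply_nonneg fun _ => ?_
  · exact mul_nonneg (mul_nonneg hF.le (by linarith))
      (le_trans (div_nonneg (n2_nonneg _) zero_le_two) (hb _).2.2.2.2.1)
  · positivity
  · rw [nl]
    positivity
  · exact mul_nonneg (sq_nonneg _) (n2_nonneg _)

theorem cq_zero {f : Fx} {c : Cx n ι} (W : W0 f c) {N : ℝ} (hN : 1 ≤ N) {p : X2 n}
    (h : 2 * N < Psi f c p) : cq f c N =ᶠ[𝓝 p] fun _ => 0 := by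
  filter_upwards [W.1.2.2.2.2.2.2.2.2.2.1.cont.continuousAt.eventually (lt_mem_nhds h)] with y hy
  exact Real.smoothTransition.zero_of_nonpos
    (sub_nonpos.2 ((le_div_iff₀ (by linarith)).2 hy.le))

theorem om2 {c : Cx n ι} (h : ‖c.p0‖ = 1) {p : X2 n} (hp : p ∈ Om2 c) (i : Fin n) :
    |p.1 i| ≤ 2 := by
  have h1 := PiLp.norm_apply_le p.1 i
  have h2 := norm_le_norm_add_norm_sub' p.1 c.p0
  rw [Real.norm_eq_abs] at h1
  linarith [hp.1]

/-- The estimate for one component. -/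
theorem one (hQ : S_Qcv) {f : Fx} {c : Cx n ι} (W : W0 f c) (hn : 1 ≤ n) {e η η' N B b G c₀ : ℝ}
    (he : 0 < e) (he1 : e ≤ 1 / 16) (hη : 16 * e ≤ η) (hη' : η' ≤ e) (hN : 1 ≤ N)
    (hd0 : 0 ≤ B * η' + b) (hd : 8 * (4 * (1 + 1 / e) * n) * (B * η' + b) ≤ c₀)
    (hγ : ∀ p ζ, (1 - e) * n2 ζ ≤ bil (gm c p) ζ ζ) {g q : X2 n → ℝ} (hg : Tst g) (hq : Tst q)
    (H : ∀ p, p ∈ tsupport g ∨ p ∈ tsupport q → Psi f c p ≤ 2 * N → (∀ i, |p.1 i| ≤ 2) ∧
      p ∈ Nr f c 1 ∧ |al f c p - aX f c p.1| ≤ η' * aX f c p.1 ∧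
      (∀ i, (aX f c p.1 * zz p i - D (ey i) (phi f c) p) ^ 2 ≤ B * η' * aX f c p.1) ∧
      (∀ i, (-D (ey i) (cq f c N) p) ^ 2 ≤ b * aX f c p.1) ∧
      (∀ i, |gam f c (cq f c N) p i| ≤ G * LX f c p.1) ∧ aX f c p.1 * ‖zz p‖ ^ 2 ≤ 16 * N) :
    2 * ((n : ℝ) - 1) * ∫ p in PN f c N, al f c p ^ 2 * (g p + q p) ^ 2 ≤
      ∫ p, MM f c N (1 + η) c₀ (1 + 2 * (4 * (1 + 1 / e) * n) * G ^ 2)
        (2 * (4 * (1 + 1 / e) * n) * (64 * N)) g q p := by
  obtain ⟨-, -, -, -, -, -, -, -, -, sΨ, -, -, -, -, -, -, -, -, -, -, -, -, -, -, -, -, -,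
    -, -, -, -, -, -, -, -, -, -, -, -, sl, sf, -⟩ := W.1
  have sχ := sm_cq W N
  have sw : Sm fun p : X2 n => cq f c N p * fX f c p.1 := sχ.mul (sf.comp contDiff_fst)
  have tr := Tst.mul_left sw (hg.add hq)
  have hK : (0 : ℝ) ≤ 4 * (1 + 1 / e) * n := by positivity
  have hn' : (0 : ℝ) ≤ 2 * (n - 1) := by linarith [Nat.one_le_cast (α := ℝ).2 hn]
  have h1 := hQ n (fX f c) _ _ sf (fun x => Real.exp_pos _) tr (Tst.mul_left sw hg)
  have h2 : ∫ p in PN f c N, al f c p ^ 2 * (g p + q p) ^ 2 ≤ (1 + 2 * e) ^ 2 *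
      ∫ p : X2 n, fX f c p.1 ^ 2 * (cq f c N p * fX f c p.1 * (g p + q p)) ^ 2 := by
    rw [← integral_const_mul, ← integral_indicator (s := PN f c N)
      (isClosed_le sΨ.cont continuous_const).measurableSet]
    refine integral_mono_of_nonneg (ae_of_all _ fun p => indicator_apply_nonneg fun _ => ?_)
      ((Tst.integrable_cmul ((sf.cont.comp continuous_fst).pow 2) tr.sq).const_mul _)
      (ae_of_all _ fun p => indicator_apply_le' (fun hp => ?_) fun _ => ?_)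
    · positivity
    · beta_reduce
      by_cases hs : p ∈ tsupport g ∨ p ∈ tsupport q
      · have hp' : Psi f c p ≤ N := hp
        obtain ⟨ha, -, hfa, -⟩ := W.2.1 p.1
        have hal := abs_le.1 ((H p hs (by linarith)).2.2.1.trans
          (mul_le_mul_of_nonneg_right hη' ha.le))
        have h1 : cq f c N p = 1 := Real.smoothTransition.one_of_one_le
          (by linarith [(div_le_one (by linarith : 0 < N)).2 hp'])
        have h2 : al f c p ^ 2 ≤ ((1 + 2 * e) * aX f c p.1) ^ 2 :=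
          sq_le_sq' (by nlinarith [hal.1]) (by nlinarith [hal.2])
        have h3 := mul_le_mul_of_nonneg_right h2 (sq_nonneg (g p + q p))
        rw [h1, one_mul, mul_pow, hfa]
        linarith
      · rw [not_or] at hs
        rw [image_eq_zero_of_notMem_tsupport hs.1, image_eq_zero_of_notMem_tsupport hs.2]
        simp
    · positivity
  refine (mul_le_mul_of_nonneg_left h2 hn').trans ?_
  rw [mul_left_comm]
  refine (mul_le_mul_of_nonneg_left h1 (sq_nonneg _)).trans (sum_int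
    (F := TI (fX f c) (fun p => cq f c N p * fX f c p.1 * (g p + q p))
      (fun p => cq f c N p * fX f c p.1 * g p)) (sq_nonneg _)
    (int_MM W _ _ _ _ _ hg hq).1 fun p => ?_)
  have M0 := MM_nonneg W N (by linarith : 0 ≤ 1 + η) ((mul_nonneg (by positivity) hd0).trans hd)
    (by positivity : 0 ≤ 1 + 2 * (4 * (1 + 1 / e) * n) * G ^ 2)
    (by positivity : 0 ≤ 2 * (4 * (1 + 1 / e) * n) * (64 * N)) g q p
  simp only [TI_eq W sl sχ hg.sm hq.sm]
  by_cases hs : p ∈ tsupport g ∨ p ∈ tsupport q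
  swap
  · rw [not_or] at hs
    simpa [zx, zy, py, Dm, Dp, D_eq_zero_of_notMem hs.1, D_eq_zero_of_notMem hs.2,
      image_eq_zero_of_notMem_tsupport hs.1, image_eq_zero_of_notMem_tsupport hs.2] using M0
  rcases lt_or_ge (2 * N) (Psi f c p) with hΨ | hΨ
  · have z := cq_zero W hN hΨ
    simpa [gam, z.eq_of_nhds, D_congr z, D_const] using M0
  obtain ⟨hx, hn1, hal, hα, hβ, hγ', hz⟩ := H p hs hΨ
  obtain ⟨ha, -, hfa, -⟩ := W.2.1 p.1
  obtain ⟨q1, -, hF, -⟩ := W.2.2.1 p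
  have hΨ0 : 0 ≤ Psi f c p := mul_nonneg (le_trans (by positivity) q1) hF.le
  have hr : ∀ r, 1 ≤ r → p ∈ Nr f c r := fun r hr => show _ ≤ r from le_trans hn1 hr
  rw [MM, indicator_of_mem (show p ∈ PN f c (2 * N) from hΨ), indicator_of_mem hn1,
    indicator_of_mem (hr 16 (by norm_num)), indicator_of_mem (hr 8 (by norm_num)),
    mul_assoc _ (64 * N)]
  exact algM he he1 hη ha (hal.trans (mul_le_mul_of_nonneg_right hη' ha.le)) (n2_nonneg _)
    (hγ p _) hK hd hd0 (le_mul_of_one_le_right (by positivity) (by linarith))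
    (mul_nonneg (by positivity) (mul_nonneg (sq_nonneg _) (n2_nonneg _)))
    (sumT _ _ _ _ _ hfa he (abs_cut _) hα hβ hγ' fun i => dbd _ _ ha (hx i) (abs_cut _) hz)

end LQ

open LQ in
theorem s_LQ (h0 : S_w0) (hq : S_wq) (hh : S_hess) (h1 : S_w1) (h2 : S_w2) (h3 : S_w3)
    (h7 : S_w7) (hQ : S_Qcv) (hXY : S_XY) : S_LQ := by
  intro n ι _ f hf η hη
  obtain ⟨Cq, hCq, Eq⟩ := hq n
  obtain ⟨C1, hC1, E1⟩ := h1 n ι f hf
  obtain ⟨C2, -, E2⟩ := h2 n ι f hf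
  obtain ⟨C3, hC3, E3⟩ := h3 n ι f hf
  obtain ⟨C7, hC7, E7⟩ := h7 n ι f hf
  obtain ⟨Cx', hCx, Ex⟩ := hXY n ι f hf
  obtain ⟨Cl, om₀, hCl, hom, El⟩ := (s_sbLin s_sbAlg (s_sbComp s_sbAlg)).2.1 n 8
  obtain ⟨e, he, he1, heη⟩ : ∃ e : ℝ, 0 < e ∧ e ≤ 1 / 16 ∧ 16 * e ≤ η :=
    ⟨min η 1 / 16, by positivity, by linarith [min_le_right η 1], by linarith [min_le_left η 1]⟩
  obtain ⟨K, hK⟩ : ∃ K : ℝ, K = 4 * (1 + 1 / e) * n := ⟨_, rfl⟩
  have hK0 : 0 ≤ K := by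
    rw [hK]
    positivity
  refine ⟨1 + 8 * K * C7, le_add_of_nonneg_right (by positivity), fun N hN => ?_⟩
  obtain ⟨B, G, hB, P⟩ := ptw hh n ι hf (C2 := C2) hCq hC1 hC3 hC7 hN
  refine ⟨1 + 2 * K * G ^ 2 + 2 * K * (64 * N) * Cx',
    by linarith [(by positivity : 0 ≤ 2 * K * G ^ 2 + 2 * K * (64 * N) * Cx')], fun η₂ hη₂ => ?_⟩
  obtain ⟨η', h0', h1', h2', h3'⟩ : ∃ η' : ℝ, 0 < η' ∧ η' ≤ e ∧ η' ≤ 1 / (2 * N) ∧
      η' ≤ η₂ / (8 * K * B + 1) :=
    ⟨min e (min (1 / (2 * N)) (η₂ / (8 * K * B + 1))), by positivity, min_le_left _ _,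
      (min_le_right _ _).trans (min_le_left _ _), (min_le_right _ _).trans (min_le_right _ _)⟩
  refine (((h0 n ι f hf).and ((Eq ι f hf η' h0').and (E1.and ((E2 η' h0').and (E3.and E7))))).and
    (Ex.and (Ev.ok f (lt_min hom (by positivity : 0 < e / Cl)) 1))).mono ?_
  rintro c ⟨⟨W, wq, w1, w2, w3, w7⟩, xy, hL, -, -, -, hp0, -, -, -, sγ, yγ, nγ, -⟩ g q hT
  have hn : 1 ≤ n := by
    rcases n with _ | n
    · simp [EuclideanSpace.norm_eq] at hp0
    · omega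
  have hγ : ∀ p ζ, (1 - e) * n2 ζ ≤ bil (gm c p) ζ ζ := fun p ζ => by
    have a := (abs_le.1 ((El _ _ sγ yγ (min_le_left _ _) nγ).2.2.2.2 (mid p) ζ)).1
    have b : Cl * min om₀ (e / Cl) ≤ e := (le_div_iff₀' (by linarith)).1 (min_le_right _ _)
    have := mul_le_mul_of_nonneg_right b (n2_nonneg ζ)
    rw [n2] at this ⊢
    exact le_trans (by linarith) (le_sub_iff_add_le.1 a)
  have hd : 8 * K * (B * η' + C7 / N) ≤ (1 + 8 * K * C7) / N + η₂ := by
    have a := (le_div_iff₀ (by positivity)).1 h3'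
    have b : 0 < 1 / N := by positivity
    rw [add_div, mul_div_assoc]
    linarith
  have key := fun s => (one hQ W hn he he1 heη h1' hN (by positivity) (hK ▸ hd) hγ (hT.1 s).1
    (hT.1 s).2.1 fun p hp hΨ => by
      have hp' : p ∈ Om2 c := (hp.elim (fun h => (hT.1 s).2.2.1 h) fun h => (hT.1 s).2.2.2 h).1
      exact ⟨om2 hp0 hp', P c p η' h0' (by linarith) ((le_one_div h0' (by positivity)).1 h2') hL W
        (wq p hp') (w1 p hp') (w2 p hp') (w3 p hp') (w7 p hp') (om2 hp0 hp') hΨ⟩).trans_eq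
    (int_MM W _ _ _ _ _ (hT.1 s).1 (hT.1 s).2.1).2
  have sum := Finset.sum_le_sum fun s (_ : s ∈ Finset.univ) => key s
  have last := mul_le_mul_of_nonneg_left (xy g q hT).1 (by positivity : 0 ≤ 2 * K * (64 * N))
  simp only [Finset.sum_add_distrib, ← Finset.mul_sum, ← hK] at sum
  simp only [I0, Rr, NN, IPy, rr] at last ⊢
  linarith

end Vale.Agent.P088
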