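import Vale.Agent.P088.StI
import Vale.Agent.P088.IdTool

/-!
# P088: Lemma Q near the diagonal, pointwise part
-/

open MeasureTheory Set Metric
open scoped ContDiff Topology

noncomputable section
namespace Vale.Agent.P088
open Vale.Agent.P136

namespace LQ

theorem amul {a b A B : ℝ} (ha : |a| ≤ A) (hb : |b| ≤ B) : |a * b| ≤ A * B := by
  rw [abs_mul]
  exact mul_le_mul ha hb (abs_nonneg _) ((abs_nonneg _).trans ha)

theorem young {e : ℝ} (he : 0 < e) (x y : ℝ) :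
    (x + y) ^ 2 ≤ (1 + e) * x ^ 2 + (1 + 1 / e) * y ^ 2 := by
  have h : (1 + e) * x ^ 2 + (1 + 1 / e) * y ^ 2 - (x + y) ^ 2 = (e * x - y) ^ 2 / e := by
    field_simp
    ring
  linarith [div_nonneg (sq_nonneg (e * x - y)) he.le]

theorem sumT {n : ℕ} (V α β γ δ : Fin n → ℝ) {s χ r g a e d b G L H : ℝ} (hs : s ^ 2 = a)
    (he : 0 < e) (hχ : |χ| ≤ 1) (hα : ∀ i, α i ^ 2 ≤ d * a) (hβ : ∀ i, β i ^ 2 ≤ b * a)
    (hγ : ∀ i, |γ i| ≤ G * L) (hδ : ∀ i, a * δ i ^ 2 ≤ H) :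
    ∑ i, (s * (χ * V i + (χ * α i * r + β i * r + γ i * g + δ i))) ^ 2 ≤
      (1 + e) * a * n2 V + 4 * (1 + 1 / e) * n *
        ((d + b) * (a ^ 2 * r ^ 2) + G ^ 2 * (a * L ^ 2 * g ^ 2) + H) := by
  have ha : 0 ≤ a := hs ▸ sq_nonneg s
  have hχ2 : χ ^ 2 ≤ 1 := (sq_le_one_iff_abs_le_one χ).2 hχ
  have h : ∀ i, (s * (χ * V i + (χ * α i * r + β i * r + γ i * g + δ i))) ^ 2 ≤
      (1 + e) * a * V i ^ 2 + 4 * (1 + 1 / e) *
        ((d + b) * (a ^ 2 * r ^ 2) + G ^ 2 * (a * L ^ 2 * g ^ 2) + H) := fun i => by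
    have e1 : (χ * V i) ^ 2 ≤ V i ^ 2 := by
      rw [mul_pow]
      exact mul_le_of_le_one_left (sq_nonneg _) hχ2
    have e2 : (χ * α i) ^ 2 ≤ d * a := by
      rw [mul_pow]
      exact (mul_le_of_le_one_left (sq_nonneg _) hχ2).trans (hα i)
    have e3 := sq_le_sq' (abs_le.1 (hγ i)).1 (abs_le.1 (hγ i)).2
    have e4 : a * (χ * α i * r + β i * r + γ i * g + δ i) ^ 2 ≤
        4 * ((d + b) * (a ^ 2 * r ^ 2) + G ^ 2 * (a * L ^ 2 * g ^ 2) + H) := by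
      have t : ∀ w x y z : ℝ, (w + x + y + z) ^ 2 ≤ 4 * (w ^ 2 + x ^ 2 + y ^ 2 + z ^ 2) :=
        fun w x y z => by
          nlinarith [sq_nonneg (w - x), sq_nonneg (w - y), sq_nonneg (w - z), sq_nonneg (x - y),
            sq_nonneg (x - z), sq_nonneg (y - z)]
      have t0 := mul_le_mul_of_nonneg_left (t (χ * α i * r) (β i * r) (γ i * g) (δ i)) ha
      have t1 := mul_le_mul_of_nonneg_left e2 (mul_nonneg ha (sq_nonneg r))
      have t2 := mul_le_mul_of_nonneg_left (hβ i) (mul_nonneg ha (sq_nonneg r))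
      have t3 := mul_le_mul_of_nonneg_left e3 (mul_nonneg ha (sq_nonneg g))
      linarith [hδ i]
    have e5 := mul_le_mul_of_nonneg_left
      (young he (χ * V i) (χ * α i * r + β i * r + γ i * g + δ i)) ha
    have e6 := mul_le_mul_of_nonneg_left e1 (mul_nonneg (by linarith : 0 ≤ 1 + e) ha)
    have e7 := mul_le_mul_of_nonneg_left e4 (by positivity : 0 ≤ 1 + 1 / e)
    rw [mul_pow, hs]
    linarith
  refine (Finset.sum_le_sum fun i _ => h i).trans (le_of_eq ?_)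
  rw [Finset.sum_add_distrib, ← Finset.mul_sum, Finset.sum_const, Finset.card_univ,
    Fintype.card_fin, nsmul_eq_mul, n2]
  ring

theorem alga {a al z zt Qy my m Cw LU v Q t η N Cq C1 : ℝ} (ha : 0 < a) (hη : 0 < η)
    (hη1 : η ≤ 1 / 10) (hal : |al - a| ≤ η * a) (h1 : |zt| ≤ Cq * t) (h2 : |zt - z| ≤ η * t)
    (h3 : |Qy - 2 * zt| ≤ η * Q) (ht : t ^ 2 = Q) (ht0 : 0 ≤ t) (hQ : Q ≤ 1) (hm : |m| ≤ Cq)
    (hmy : |my| ≤ 2 * N * v) (hLU : |LU| ≤ C1 * v) (hv : v ^ 2 ≤ η * a) (haQ : a * Q ≤ 8 * N)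
    (hCw : 0 ≤ Cw) :
    (a * z - (my * m + al / 2 * Qy + Cw * (LU / 2 * m))) ^ 2 ≤
      2 * ((2 + Cq) ^ 2 * (8 * N) + ((2 * N + Cw * C1) * Cq) ^ 2) * η * a := by
  have hQ0 : 0 ≤ Q := ht ▸ sq_nonneg t
  have hQt : Q ≤ t := by
    have t1 : t ≤ 1 := (abs_le_of_sq_le_sq' (by linarith : t ^ 2 ≤ 1 ^ 2) zero_le_one).2
    linarith [mul_le_mul_of_nonneg_left t1 ht0]
  have a1 := abs_le.1 (amul (abs_of_pos ha).le h2)
  have a2 := abs_le.1 (amul hal h1)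
  have a0 : |al / 2| ≤ a := by
    have := abs_le.1 hal
    have := mul_le_mul_of_nonneg_right hη1 ha.le
    rw [abs_le]
    constructor <;> linarith
  have a3 := abs_le.1 (amul a0 (h3.trans (mul_le_mul_of_nonneg_left hQt hη.le)))
  have a4 := abs_le.1 (amul hmy hm)
  have a5 := amul (amul (abs_of_nonneg hCw).le hLU) hm
  have a6 := (abs_nonneg _).trans a5
  have a7 := abs_le.1 a5
  have u : (a * z - al * zt - al / 2 * (Qy - 2 * zt)) ^ 2 ≤ (η * a * t * (2 + Cq)) ^ 2 :=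
    sq_le_sq' (by linarith [a1.2, a2.2, a3.2]) (by linarith [a1.1, a2.1, a3.1])
  have w : (my * m + Cw * (LU / 2 * m)) ^ 2 ≤ ((2 * N + Cw * C1) * Cq * v) ^ 2 :=
    sq_le_sq' (by linarith [a4.1, a7.1]) (by linarith [a4.2, a7.2])
  have u' : (η * a * t * (2 + Cq)) ^ 2 ≤ (2 + Cq) ^ 2 * (8 * N) * η * a := by
    have e : η * (a * Q) ≤ 8 * N :=
      (mul_le_of_le_one_left (mul_nonneg ha.le hQ0) (by linarith)).trans haQ
    have := mul_le_mul_of_nonneg_left e (by positivity : 0 ≤ (2 + Cq) ^ 2 * η * a)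
    rw [← ht] at this
    linarith
  have w' : ((2 * N + Cw * C1) * Cq * v) ^ 2 ≤ ((2 * N + Cw * C1) * Cq) ^ 2 * (η * a) := by
    rw [mul_pow _ v]
    exact mul_le_mul_of_nonneg_left hv (sq_nonneg _)
  have k : ∀ x y : ℝ, (x - y) ^ 2 ≤ 2 * x ^ 2 + 2 * y ^ 2 := fun x y => by
    linarith [sq_nonneg (x + y)]
  rw [show a * z - (my * m + al / 2 * Qy + Cw * (LU / 2 * m)) =
    a * z - al * zt - al / 2 * (Qy - 2 * zt) - (my * m + Cw * (LU / 2 * m)) by ring]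
  refine (k _ _).trans ?_
  linarith [u.trans u', w.trans w']

theorem algg {χ A B S T L x n A' B' S' T' : ℝ} (hn : 0 ≤ n) (hχ : |χ| ≤ 1) (e1 : |A| ≤ A' * L)
    (e2 : |B| ≤ B' * L) (e3 : |S| ≤ S') (e4 : |T| ≤ T') (hL : 0 ≤ L) (hx : |x| ≤ 2) :
    |χ * A + B - L * x * (χ * (n / 2 - 1) - χ * S + T)| ≤
      (A' + B' + 2 * (n / 2 + 1 + S' + T')) * L := by
  have e5 : |n / 2 - 1| ≤ n / 2 + 1 := abs_le.2 ⟨by linarith, by linarith⟩
  have f1 := abs_le.1 (amul hχ e1)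
  have f2 := abs_le.1 e2
  have f3 := abs_le.1 (amul hχ e3)
  have f4 := abs_le.1 e4
  have f5 := abs_le.1 (amul hχ e5)
  have f6 := abs_le.1 (amul (amul (abs_of_nonneg hL).le hx) (B := n / 2 + 1 + S' + T')
    (b := χ * (n / 2 - 1) - χ * S + T)
    (abs_le.2 ⟨by linarith [f3.2, f4.1, f5.1], by linarith [f3.1, f4.2, f5.2]⟩))
  rw [abs_le]
  constructor <;> linarith [f1.1, f1.2, f2.1, f2.2, f6.1, f6.2]

theorem D_dir_add {X : Type} [NormedAddCommGroup X] [NormedSpace ℝ X] (F : X → ℝ) (v w p : X) :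
    D (v + w) F p = D v F p + D w F p := map_add _ _ _

variable {n : ℕ} {ι : Type}

/-- The coefficient of `g`. -/
def gam (f : Fx) (c : Cx n ι) (χ : X2 n → ℝ) (p : X2 n) (i : Fin n) : ℝ :=
  χ p * (D (ex i) (phi f c) p + D (ey i) (phi f c) p) + (D (ex i) χ p + D (ey i) χ p) -
    LX f c p.1 * p.1 i * (χ p * (n / 2 - 1) - χ p * ∑ k, zz p k * D (ey k) (phi f c) p +
      ∑ k, zz p k * D (ey k) χ p)

theorem abs_cut (x : ℝ) : |cut x| ≤ 1 :=
  (abs_of_nonneg (Real.smoothTransition.nonneg _)).trans_le (Real.smoothTransition.le_one _)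

theorem ptw (hh : S_hess) (n : ℕ) (ι : Type) {f : Fx} (hf : f.Ok) {Cq C1 C2 C3 C7 N : ℝ}
    (hq : 1 ≤ Cq) (h1 : 1 ≤ C1) (h3 : 1 ≤ C3) (h7 : 1 ≤ C7) (hN : 1 ≤ N) :
    ∃ B G : ℝ, 0 ≤ B ∧ ∀ (c : Cx n ι) (p : X2 n) (η : ℝ), 0 < η → η ≤ 1 / 10 → 2 * N ≤ 1 / η →
      1 ≤ c.L0 → W0 f c → WQ c Cq η p → W1 f c C1 p → W2 f c C2 η p → W3 f c C3 p →
      W7 f c C7 p → (∀ i, |p.1 i| ≤ 2) → Psi f c p ≤ 2 * N →
      p ∈ Nr f c 1 ∧ |al f c p - aX f c p.1| ≤ η * aX f c p.1 ∧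
      (∀ i, (aX f c p.1 * zz p i - D (ey i) (phi f c) p) ^ 2 ≤ B * η * aX f c p.1) ∧
      (∀ i, (-D (ey i) (cq f c N) p) ^ 2 ≤ C7 / N * aX f c p.1) ∧
      (∀ i, |gam f c (cq f c N) p i| ≤ G * LX f c p.1) ∧ aX f c p.1 * ‖zz p‖ ^ 2 ≤ 16 * N := by
  have hCw : 0 ≤ f.Cw := by linarith [hf.2.2.2.2.2.2.2.2.2.2.2.1]
  refine ⟨2 * ((2 + Cq) ^ 2 * (8 * N) + ((2 * N + f.Cw * C1) * Cq) ^ 2),
    (C1 * (2 * N) + f.Cw * C1 * Cq) * C2 + C7 * C2 +
      2 * (n / 2 + 1 + n * (2 * C3 * (16 * N + 1)) + n * (2 * C7)), by positivity, ?_⟩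
  intro c p η hη hη1 hNη hL W WQ' W1' W2' W3' W7' hx hΨ
  have hess := hh n ι f c hf W p
  obtain ⟨S, X, P, -, E⟩ := W
  have sΨ : Sm (Psi f c) := S.2.2.2.2.2.2.2.2.2.1
  have slu : Sm (lu f c) := S.2.2.2.2.2.2.2.2.2.2.2.2.1
  obtain ⟨ha, hLL, -⟩ := X p.1
  obtain ⟨q1, -, hF, hv, hσ, -⟩ := P p
  have hv1 : 1 ≤ vv f c p := hL.trans hv
  have hL1 : 1 ≤ LX f c p.1 := hL.trans hLL
  have hQ0 : 0 ≤ QQ c p := le_trans (by positivity) q1
  have hph := fun h => ((E p).1 h).1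
  clear S X P E
  obtain ⟨w1, -, -, -, -, -, -, -, -, -, -, -, w2, -, w3⟩ := W2'
  have hn1 : p ∈ Nr f c 1 := w3 (2 * N) (by linarith) (hNη.trans
    (le_mul_of_one_le_right (by positivity) (one_le_pow₀ hv1))) hΨ
  have hn16 : p ∈ Nr f c 16 :=
    show QQ c p ^ 2 * FF f c p ≤ 16 from le_trans hn1 (by norm_num : (1 : ℝ) ≤ 16)
  obtain ⟨-, v8, hal, hFa, -, hvL, hQη, hQt, -⟩ := w2 hn16
  obtain ⟨⟨c1, c2⟩, -, -, c3⟩ := W7' hn16 N 1 hN le_rfl (by norm_num)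
  obtain ⟨u1, -, -, u2, -, u3, -⟩ := WQ'
  obtain ⟨-, -, -, -, -, -, -, -, -, -, -, l1, l2, l3, l4⟩ := W1'
  obtain ⟨-, -, p3, -⟩ := W3'
  have hFa' := abs_le.1 hFa
  have hal' := abs_le.1 hal
  have haη := mul_le_mul_of_nonneg_right hη1 ha.le
  have hΨ' : QQ c p * FF f c p ≤ 2 * N := hΨ
  have haQ : aX f c p.1 * QQ c p ≤ 8 * N := by
    linarith [mul_le_mul_of_nonneg_right (by linarith [hFa'.1] : aX f c p.1 ≤ 4 * FF f c p) hQ0]
  have hv2 : vv f c p ^ 2 ≤ η * aX f c p.1 :=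
    ((pow_le_pow_right₀ hv1 (by norm_num)).trans w1).trans
      (mul_le_mul_of_nonneg_left (by linarith [hFa'.2]) hη.le)
  have hm : ∀ i, |mv p i| ≤ Cq := fun i => by simpa [Ds] using (u2 i).2.2.1 [] (by simp)
  have hD : ∀ w, D w (phi f c) p = D w (Psi f c) p + f.Cw * D w (lu f c) p := fun w => by
    rw [D_congr (hph hQt), ← D_const_mul_at (slu.dAt p),
      ← D_add_at (sΨ.dAt p) ((slu.cmul _).dAt p)]
    rfl
  have hmy : |my f c p| ≤ 2 * N * vv f c p := by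
    have : 0 ≤ Psi f c p := mul_nonneg hQ0 hF.le
    rw [my, abs_of_nonneg (mul_nonneg this (zero_le_one.trans hv1))]
    exact mul_le_mul_of_nonneg_right hΨ (zero_le_one.trans hv1)
  have hLU : |LU f.K c.L0 c.sg c.J (uu p)| ≤ C1 * vv f c p := by rwa [abs_of_nonneg l2]
  obtain ⟨t, ht⟩ : ∃ t, t = √(QQ c p) := ⟨_, rfl⟩
  have t0 : 0 ≤ t := ht ▸ Real.sqrt_nonneg _
  have t2 : t ^ 2 = QQ c p := ht ▸ Real.sq_sqrt hQ0
  have hz : ∀ k, |zz p k| ≤ 2 * t := fun k =>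
    abs_le_of_sq_le_sq (by
      have := PiLp.norm_apply_le (zz p) k
      have := pow_le_pow_left₀ (norm_nonneg _) this 2
      rw [Real.norm_eq_abs, sq_abs] at this
      linarith) (by linarith)
  refine ⟨hn1, hal, fun i => ?_, fun i => ?_, fun i => ?_,
    by linarith [mul_le_mul_of_nonneg_left q1 ha.le]⟩
  · rw [hD, (hess (ey i) (ey i)).1, (u1 i).2, (l1 i).2]
    exact alga ha hη hη1 hal (u2 i).1 (u2 i).2.2.2 (u3 i).2 (Real.sq_sqrt hQ0)
      (Real.sqrt_nonneg _) (by linarith) (hm i) hmy hLU hv2 haQ hCw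
  · rw [neg_sq, div_mul_eq_mul_div, le_div_iff₀ (by linarith)]
    exact (c3 (Sum.inr i)).1
  · have hχ : |cq f c N p| ≤ 1 := abs_cut _
    have e1 : |D (ex i) (phi f c) p + D (ey i) (phi f c) p| ≤
        (C1 * (2 * N) + f.Cw * C1 * Cq) * C2 * LX f c p.1 := by
      have a1 := abs_le.1 ((l4 i).1.trans (mul_le_mul_of_nonneg_right
        (mul_le_mul_of_nonneg_left hΨ (by linarith)) (by linarith)))
      have a2 := abs_le.1 (amul (amul (abs_of_nonneg hCw).le hLU) (hm i))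
      have a3 := mul_le_mul_of_nonneg_left hvL
        (by positivity : 0 ≤ C1 * (2 * N) + f.Cw * C1 * Cq)
      rw [D_dir_add] at a1
      rw [hD, hD, (l1 i).1, (l1 i).2, abs_le]
      constructor <;> linarith [a1.1, a1.2, a2.1, a2.2]
    have e2 : |D (ex i) (cq f c N) p + D (ey i) (cq f c N) p| ≤ C7 * C2 * LX f c p.1 := by
      rw [← D_dir_add, mul_assoc]
      exact (c2 i).trans (mul_le_mul_of_nonneg_left hvL (by linarith))
    have e3 : |∑ k, zz p k * D (ey k) (phi f c) p| ≤ n * (2 * C3 * (16 * N + 1)) := by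
      refine (Finset.abs_sum_le_sum_abs _ _).trans ((Finset.sum_le_card_nsmul _ _
        (2 * C3 * (16 * N + 1)) fun k _ => (amul (hz k) (p3 k).2).trans ?_).trans (by simp))
      have b1 : al f c p * t ^ 2 ≤ 16 * N := by
        rw [t2]
        linarith [mul_le_mul_of_nonneg_right
          (by linarith [hal'.2] : al f c p ≤ 2 * aX f c p.1) hQ0]
      have b2 : vv f c p * t ≤ 1 := abs_le_of_sq_le_sq' (by
        rw [mul_pow, t2]
        have := mul_le_mul_of_nonneg_right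
          (pow_le_pow_right₀ hv1 (by norm_num : 2 ≤ 8)) hQ0
        linarith) zero_le_one |>.2
      have := mul_le_mul_of_nonneg_left (add_le_add b1 b2) (by linarith : 0 ≤ 2 * C3)
      rw [z0, ← ht]
      linarith
    have e4 : |∑ k, zz p k * D (ey k) (cq f c N) p| ≤ n * (2 * C7) := by
      refine (Finset.abs_sum_le_sum_abs _ _).trans ((Finset.sum_le_card_nsmul _ _ (2 * C7)
        fun k _ => ?_).trans (by simp))
      have b : |D (ey k) (cq f c N) p| * t ≤ C7 := ht ▸ (c1 (Sum.inr k)).1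
      rw [abs_mul]
      linarith [mul_le_mul_of_nonneg_right (hz k) (abs_nonneg (D (ey k) (cq f c N) p))]
    exact algg n.cast_nonneg hχ e1 e2 e3 e4 (zero_le_one.trans hL1) (hx i)

theorem D_fst (s : En n → ℝ) (hs : Sm s) (p : X2 n) (i : Fin n) :
    D (ex i) (fun q : X2 n => s q.1) p = D (ee i) s p.1 ∧
      D (ey i) (fun q : X2 n => s q.1) p = 0 := by
  have h := ((hs.dAt p.1).hasFDerivAt.comp p hasFDerivAt_fst).fderiv
  constructor
  · exact congrArg (fun L : X2 n →L[ℝ] ℝ => L (ex i)) h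
  · exact (congrArg (fun L : X2 n →L[ℝ] ℝ => L (ey i)) h).trans (map_zero (fderiv ℝ s p.1))

/-- The integrand of the conjugated Lemma Q. -/
def TI (s : En n → ℝ) (r g : X2 n → ℝ) (i : Fin n) (p : X2 n) : ℝ :=
  -D (ey i) r p + s p.1 ^ 2 * (p.2 i - p.1 i) * r p + D (ex i) g p + D (ey i) g p -
    D (ee i) s p.1 / s p.1 * ((∑ k, (p.2 k - p.1 k) * D (ey k) g p) + n / 2 * g p)

theorem TI_eq {f : Fx} {c : Cx n ι} (W : W0 f c) (hl : Sm (lX f c)) {χ g q : X2 n → ℝ}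
    (hχ : Sm χ) (hg : Sm g) (hq : Sm q) (i : Fin n) (p : X2 n) :
    TI (fX f c) (fun p => χ p * fX f c p.1 * (g p + q p)) (fun p => χ p * fX f c p.1 * g p) i p =
      fX f c p.1 * (χ p * (zy f c q p - zx f c g p) i +
        (χ p * (aX f c p.1 * zz p i - D (ey i) (phi f c) p) * (g p + q p) +
          -D (ey i) χ p * (g p + q p) + gam f c χ p i * g p +
          -(LX f c p.1 * p.1 i * χ p * ∑ k, zz p k * py f c g p k))) := by
  have hs : Sm (fX f c) := hl.exp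
  have hs' : Sm fun p : X2 n => fX f c p.1 := hs.comp contDiff_fst
  have e : D (ee i) (fX f c) p.1 = fX f c p.1 * (LX f c p.1 * p.1 i) := by
    rw [← (W.2.1 p.1).2.2.2.2 i]
    exact D_exp_at (hl.dAt _) _
  have h0 : fX f c p.1 ≠ 0 := (Real.exp_pos _).ne'
  have e1 : ∑ k, (p.2 k - p.1 k) * D (ey k) (fun p => χ p * fX f c p.1 * g p) p =
      fX f c p.1 * (χ p * (∑ k, zz p k * py f c g p k) -
        χ p * (∑ k, zz p k * D (ey k) (phi f c) p) * g p + (∑ k, zz p k * D (ey k) χ p) * g p) := by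
    simp only [Finset.mul_sum, Finset.sum_mul, ← Finset.sum_sub_distrib, ← Finset.sum_add_distrib]
    refine Finset.sum_congr rfl fun k _ => ?_
    rw [D_mul_at ((hχ.mul hs').dAt p) (hg.dAt p), D_mul_at (hχ.dAt p) (hs'.dAt p),
      (D_fst _ hs p k).2]
    simp only [py, Dp, zz, PiLp.sub_apply]
    ring
  rw [TI, e1, e, mul_div_cancel_left₀ _ h0, (W.2.1 p.1).2.2.1]
  simp only [D_mul_at ((hχ.mul hs').dAt p) (hg.dAt p), D_mul_at (hχ.dAt p) (hs'.dAt p),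
    D_mul_at ((hχ.mul hs').dAt p) ((hg.add hq).dAt p), D_add_at (hg.dAt p) (hq.dAt p),
    (D_fst _ hs p i).1, (D_fst _ hs p i).2, e, gam, zx, zy, Dm, zz, Pi.sub_apply, PiLp.sub_apply]
  ring

end LQ

end Vale.Agent.P088
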