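import Vale.Agent.P088.LocBasic

/-!
# P088: scaling of the three-ball inequality; nearly flat operators
-/

open MeasureTheory Set Metric Filter
open scoped ContDiff Topology

noncomputable section
namespace Vale.Agent.P088
open Vale.Agent.P136

namespace LocBd

variable {n : ℕ} {ι : Type} [Fintype ι]

theorem bd_sc {L : Op n ι} {k : ℕ} {om : ℝ} {M : ℕ → ℝ} (h : L.Bd k om M) (x : En n) {s : ℝ}
    (h0 : 0 < s) (h1 : s ≤ 1) : (L.sc x s).Bd k om M := by
  have hs : |s| ≤ 1 := by rwa [abs_of_pos h0]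
  have hs2 : |s ^ 2| ≤ 1 := by
    rw [abs_pow]
    exact pow_le_one₀ (abs_nonneg s) hs
  exact ⟨good_sc h.1 x s, fun i j z => SB.sc (h.2.1 i j (x + s • z)) hs, fun j z =>
    ⟨fun i l => SB.sc ((h.2.2 j _).1 i l) hs, fun i a a' => SB.csc ((h.2.2 j _).2.1 i a a') hs hs,
      fun a a' => SB.csc ((h.2.2 j _).2.2 a a') hs hs2⟩⟩

theorem nrm_sc (x : En n) {s : ℝ} (h0 : 0 < s) (r : ℝ) (W : ι → En n → ℝ) :
    nrm (ball 0 r) (fun a => sc x s (W a)) = (s ^ n)⁻¹ * nrm (ball x (r * s)) W := by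
  rw [nrm, nrm, Finset.mul_sum, mul_comm r s]
  exact Finset.sum_congr rfl fun a _ => integral_sc h0 r fun y => W a y ^ 2

theorem small {f : En n → ℝ} (hf : Sm f) (h0 : f 0 = 0) (k : ℕ) {η : ℝ} (hη : 0 < η) :
    ∀ᶠ s in 𝓝[>] (0 : ℝ), ∀ z ∈ closedBall (0 : En n) 2, SB ee k η 1 (sc 0 s f) z := by
  obtain ⟨B, hB, hb⟩ := exists_SB ee hf (isCompact_closedBall (0 : En n) 2) k
  obtain ⟨δ, hδ, hd⟩ := Metric.continuousAt_iff.1 (hf.continuous.continuousAt (x := 0)) η hη
  have hc : 0 < min 1 (min (δ / 4) (η / (B + 1))) := by positivity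
  filter_upwards [Ioc_mem_nhdsGT hc] with s hs z hz
  have s0 : 0 < s := hs.1
  have s1 : s ≤ 1 := hs.2.trans (min_le_left _ _)
  have s2 : s ≤ δ / 4 := hs.2.trans ((min_le_right _ _).trans (min_le_left _ _))
  have s3 : s ≤ η / (B + 1) := hs.2.trans ((min_le_right _ _).trans (min_le_right _ _))
  have hz' : ‖z‖ ≤ 2 := mem_closedBall_zero_iff.1 hz
  have hn : ‖(0 : En n) + s • z‖ ≤ 2 * s := by
    rw [zero_add, norm_smul, Real.norm_eq_abs, abs_of_pos s0]
    nlinarith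
  refine SB_one.2 fun l hl => ?_
  rcases l with _ | ⟨i, l⟩
  · have h1 := hd (x := 0 + s • z) (by rw [dist_zero_right]; linarith)
    rw [h0, Real.dist_eq, sub_zero] at h1
    exact h1.le
  · have h1 := (hb (0 + s • z) (mem_closedBall_zero_iff.2 (by linarith))).le hl
    have h2 : s ^ (i :: l).length ≤ s := by
      rw [List.length_cons, pow_succ]
      exact mul_le_of_le_one_left s0.le (pow_le_one₀ s0.le s1)
    rw [Ds_sc, abs_mul, abs_of_pos (pow_pos s0 _)]
    rw [le_div_iff₀ (by positivity)] at s3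
    have h3 : s ^ (i :: l).length * |sc 0 s (Ds ee (i :: l) f) z| ≤ s * B :=
      mul_le_mul h2 h1 (abs_nonneg _) s0.le
    linarith

theorem fin_bd {α : Type} [Finite α] (F : α → En n → ℝ)
    (h : ∀ a j, ∃ M : ℝ, ∀ x, SB ee j M 1 (F a) x) :
    ∃ M : ℕ → ℝ, ∀ j a x, SB ee j (M j) 1 (F a) x := by
  choose m hm using h
  have h1 : ∀ j, ∃ M : ℝ, ∀ a, m a j ≤ M := fun j => by
    obtain ⟨M, hM⟩ := Finite.bddAbove_range fun a => m a j
    exact ⟨M, fun a => hM ⟨a, rfl⟩⟩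
  choose M hM using h1
  exact ⟨M, fun j a x => (hm a j x).mono le_rfl (hM j a)⟩

end LocBd

open LocBd in
theorem s_tb (h : S_tb1) : S_tb := by
  intro n ι _ ν hν
  obtain ⟨k, κ, om, h1, h2, h3, h4⟩ := h n ι ν hν
  refine ⟨k, κ, om, h1, h2, h3, fun M => ?_⟩
  obtain ⟨C, hC, h5⟩ := h4 M
  refine ⟨C, hC, fun L x ρ ε W hL r0 r1 e0 e1 hS h6 => ?_⟩
  have hm : ∀ z ∈ ball (0 : En n) 2, x + ρ • z ∈ ball x (2 * ρ) := fun z hz => by
    rw [mul_comm]
    exact (mem_ball_sc r0).2 hz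
  have hS' := sol_sc hS hm
  have h7 := h5 (L.sc x ρ) ε (fun a => sc x ρ (W a)) (bd_sc hL x r0 r1) e0 e1
    ⟨hS'.1, fun z hz a => (hS'.2 z hz a).trans (by simp [sc])⟩ fun a => by
      rw [memLp_iff_sq isOpen_ball (hS'.1 a).continuousOn]
      have h8 := (memLp_iff_sq isOpen_ball (hS.1 a).continuousOn).1 (h6 a)
      rw [mul_comm] at h8
      exact integrableOn_sc r0 h8
  rw [nrm_sc x r0, nrm_sc x r0, nrm_sc x r0, one_mul] at h7
  have h8 : 0 < (ρ ^ n)⁻¹ := by positivity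
  refine le_of_mul_le_mul_left (h7.trans_eq ?_) h8
  ring

open LocBd in
theorem s_bd : S_bd := by
  intro n ι _ L k om r hL h0 hom hr
  obtain ⟨K, hK, hcut⟩ := exists_cut n k one_pos one_lt_two
  obtain ⟨χ, t1, t2, t3, t4, t5⟩ := hcut 0
  have hη : 0 < om / (2 ^ k * (K + 1)) := by positivity
  have hsm : ∀ i j, Sm fun y => L.γ i j y - if i = j then 1 else 0 := fun i j =>
    (hL.1 i j).sub contDiff_const
  have hev : ∀ᶠ s in 𝓝[>] (0 : ℝ), ∀ i j, ∀ z ∈ closedBall (0 : En n) 2,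
      SB ee k (om / (2 ^ k * (K + 1))) 1
        (sc 0 s fun y => L.γ i j y - if i = j then 1 else 0) z :=
    eventually_all.2 fun i => eventually_all.2 fun j =>
      small (hsm i j) (by rw [h0 i j, sub_self]) k hη
  obtain ⟨s, hs, s0, s1⟩ := (hev.and (Ioc_mem_nhdsGT hr)).exists
  have hG := good_sc hL 0 s
  obtain ⟨g, hg⟩ : ∃ g : MatF n, ∀ i j,
      g i j = fun y => χ y * sc 0 s (fun y => L.γ i j y - if i = j then 1 else 0) y :=
    ⟨_, fun _ _ => rfl⟩
  have tg : ∀ i j, Tst (g i j) := fun i j => by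
    rw [hg]
    exact t1.mul_right (sm_sc (hsm i j) 0 s)
  have tb : ∀ i a a', Tst fun y => χ y * (L.sc 0 s).b i a a' y := fun i a a' =>
    t1.mul_right (hG.2.2.1 i a a')
  have tc : ∀ a a', Tst fun y => χ y * (L.sc 0 s).c a a' y := fun a a' =>
    t1.mul_right (hG.2.2.2.1 a a')
  obtain ⟨M₁, hM₁⟩ := fin_bd (fun p : Fin n × Fin n => fun y =>
      (if p.1 = p.2 then 1 else 0) + g p.1 p.2 y) fun p j => by
    obtain ⟨M, _, hM⟩ := exists_SB_tst ee (tg p.1 p.2) j
    exact ⟨_, fun x => SB.add contDiff_const (tg p.1 p.2).sm (SB.const _ j x) (hM x)⟩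
  obtain ⟨M₂, hM₂⟩ := fin_bd (fun p : Fin n × ι × ι => fun y =>
      χ y * (L.sc 0 s).b p.1 p.2.1 p.2.2 y) fun p j => by
    obtain ⟨M, _, hM⟩ := exists_SB_tst ee (tb p.1 p.2.1 p.2.2) j
    exact ⟨M, hM⟩
  obtain ⟨M₃, hM₃⟩ := fin_bd (fun p : ι × ι => fun y => χ y * (L.sc 0 s).c p.1 p.2 y)
    fun p j => by
      obtain ⟨M, _, hM⟩ := exists_SB_tst ee (tc p.1 p.2) j
      exact ⟨M, hM⟩
  refine ⟨s, ⟨fun i j y => (if i = j then 1 else 0) + g i j y,
    fun i a a' y => χ y * (L.sc 0 s).b i a a' y, fun a a' y => χ y * (L.sc 0 s).c a a' y⟩,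
    fun j => max (M₁ j) (max (M₂ j) (M₃ j)), s0, s1, ⟨⟨fun i j => contDiff_const.add (tg i j).sm,
      fun i j => ?_, fun i a a' => (tb i a a').sm, fun a a' => (tc a a').sm, fun x ξ hξ => ?_⟩,
      fun i j x => ?_, fun j x => ⟨fun i l => (hM₁ j (i, l) x).mono le_rfl (le_max_left _ _),
        fun i a a' => (hM₂ j (i, a, a') x).mono le_rfl
          ((le_max_left _ _).trans (le_max_right _ _)),
        fun a a' => (hM₃ j (a, a') x).mono le_rfl ((le_max_right _ _).trans (le_max_right _ _))⟩⟩,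
    fun W hW => ?_⟩
  · funext y
    simp only [hg, hL.2.1 i j, eq_comm (a := i)]
  · have h1 := hL.2.2.2.2 (0 + s • x) ξ hξ
    have h2 : 0 < ∑ i, ξ i * ξ i := by
      obtain ⟨i, hi⟩ := Function.ne_iff.1 hξ
      exact Finset.sum_pos' (fun i _ => mul_self_nonneg _)
        ⟨i, Finset.mem_univ i, mul_self_pos.2 hi⟩
    have e : ∑ i, ∑ j, ((if i = j then 1 else 0) + g i j x) * ξ i * ξ j =
        (1 - χ x) * ∑ i, ξ i * ξ i + χ x * ∑ i, ∑ j, L.γ i j (0 + s • x) * ξ i * ξ j := by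
      rw [Finset.mul_sum, Finset.mul_sum, ← Finset.sum_add_distrib]
      refine Finset.sum_congr rfl fun i _ => ?_
      have e1 : ∀ j, ((if i = j then 1 else 0) + g i j x) * ξ i * ξ j =
          (if i = j then (1 - χ x) * (ξ i * ξ j) else 0) +
            χ x * (L.γ i j (0 + s • x) * ξ i * ξ j) := by
        intro j
        simp only [hg, sc]
        split_ifs <;> ring
      simp only [e1]
      rw [Finset.sum_add_distrib, Finset.sum_ite_eq, if_pos (Finset.mem_univ i), Finset.mul_sum]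
    refine lt_of_lt_of_eq ?_ e.symm
    obtain ⟨c0, c1⟩ := t3 x
    rcases c0.eq_or_lt with c2 | c2
    · rw [← c2]
      linarith
    · have h3 := mul_nonneg (sub_nonneg.2 c1) h2.le
      have h4 := mul_pos c2 h1
      linarith
  · have e : (fun y => (if i = j then (1 : ℝ) else 0) + g i j y - if i = j then 1 else 0) =
        g i j := by
      funext y
      ring
    show SB ee k om 1 (fun y => (if i = j then (1 : ℝ) else 0) + g i j y - if i = j then 1 else 0) x
    rw [e]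
    by_cases hx : x ∈ closedBall (0 : En n) 2
    · rw [hg]
      refine (SB.mul t1.sm (sm_sc (hsm i j) 0 s) (t5 x) (hs i j x hx)).mono le_rfl ?_
      have e2 : 2 ^ k * (K * (om / (2 ^ k * (K + 1)))) = om * (K / (K + 1)) := by
        field_simp
      rw [e2]
      exact mul_le_of_le_one_right hom.le ((div_le_one (by positivity)).2 (by linarith))
    · refine SB.off (fun h1 => hx (t2 ?_)) hom.le
      rw [hg] at h1
      exact tsupport_mul_subset_left h1
  · have hm : ∀ z ∈ ball (0 : En n) 1, 0 + s • z ∈ ball (0 : En n) r := fun z hz =>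
      ball_subset_ball (by linarith) ((mem_ball_sc (x := 0) s0).2 hz)
    have hS := sol_sc hW hm
    refine ⟨hS.1, fun x hx a => ?_⟩
    have h1 : (L.sc 0 s).app (fun a => sc 0 s (W a)) a x = 0 :=
      (hS.2 x hx a).trans (by simp [sc])
    have h2 : ∀ y ∈ ball (0 : En n) 1, χ y = 1 := fun y hy => t4 y (ball_subset_closedBall hy)
    refine Eq.trans ?_ h1
    simp only [Op.app, h2 x hx, one_mul]
    congr 2
    unfold dgd dvg
    refine Finset.sum_congr rfl fun i _ => D_congr ?_ (ee i)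
    filter_upwards [isOpen_ball.mem_nhds hx] with y hy
    unfold XX
    refine Finset.sum_congr rfl fun j _ => ?_
    simp only [hg, h2 y hy, sc, Op.sc]
    ring

end Vale.Agent.P088
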