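import Vale.Agent.P088.LocStm

/-!
# P088: the Carleman estimate from the multiplier identity
-/

open MeasureTheory Set Metric
open scoped ContDiff Topology

noncomputable section
namespace Vale.Agent.P088
open Vale.Agent.P136 (D Dp Dm Sm Tst D_mul_at D_sub_at D_sum_at D_exp_at D_const_mul_at
  D_eq_zero_of_notMem)

namespace LocCar
variable {n : ℕ}

lemma sm_phi : Sm (phL : En n → ℝ) :=
  P136.Sm.exp (P136.Sm.cmul (-8) (contDiff_norm_sq ℝ))

lemma sm_XX {γ : MatF n} (hγ : SmM γ) {f : En n → ℝ} (hf : Sm f) (i : Fin n) :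
    Sm (XX ee γ f i) :=
  P136.Sm.sum fun j _ => (hγ i j).mul (hf.D _)

lemma sm_dir {Y : Fin n → En n → ℝ} (hY : ∀ i, Sm (Y i)) {f : En n → ℝ} (hf : Sm f) :
    Sm (dir ee Y f) :=
  P136.Sm.sum fun i _ => (hY i).mul (hf.D _)

lemma sm_dvg {Y : Fin n → En n → ℝ} (hY : ∀ i, Sm (Y i)) : Sm (dvg ee Y) :=
  P136.Sm.sum fun i _ => (hY i).D _

lemma sm_dgd {γ : MatF n} (hγ : SmM γ) {f : En n → ℝ} (hf : Sm f) : Sm (dgd ee γ f) :=
  sm_dvg (sm_XX hγ hf)

lemma sm_cX {γ : MatF n} (hγ : SmM γ) (i : Fin n) : Sm (cXL γ i) := sm_XX hγ sm_phi i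

lemma sm_cq {γ : MatF n} (hγ : SmM γ) : Sm (cqL γ) := sm_dir (sm_cX hγ) sm_phi

lemma sm_ch {γ : MatF n} (hγ : SmM γ) : Sm (ch γ) :=
  (sm_dvg (sm_cX hγ)).add (sm_phi.cmul 40)

lemma phi_pos (x : En n) : 0 < phL x := Real.exp_pos _

lemma phi_le (x : En n) : phL x ≤ 1 := by
  unfold phL
  rw [Real.exp_le_one_iff]
  nlinarith [sq_nonneg ‖x‖]

lemma intg {f w : En n → ℝ} (hw : Tst w) (hf : Sm f)
    (h0 : ∀ x, x ∉ tsupport w → f x = 0) : Integrable f :=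
  hf.cont.integrable_of_hasCompactSupport (HasCompactSupport.intro hw.2 h0)

/-- First derivatives of the conjugated function. -/
lemma D_conj {w : En n → ℝ} (hw : Sm w) (τ : ℝ) (j : Fin n) (x : En n) :
    D (ee j) (fun y => Real.exp (-τ * phL y) * w y) x =
      Real.exp (-τ * phL x) * (D (ee j) w x - τ * D (ee j) phL x * w x) := by
  have h1 : Sm (fun y : En n => -τ * phL y) := sm_phi.cmul _
  rw [D_mul_at (h1.exp.dAt x) (hw.dAt x), D_exp_at (h1.dAt x), D_const_mul_at (sm_phi.dAt x)]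
  ring

lemma XX_conj {γ : MatF n} {w : En n → ℝ} (hw : Sm w) (τ : ℝ) (i : Fin n) :
    XX ee γ (fun y => Real.exp (-τ * phL y) * w y) i =
      fun x => Real.exp (-τ * phL x) * (XX ee γ w i x - τ * (cXL γ i x * w x)) := by
  funext x
  simp only [XX, cXL, D_conj hw, Finset.sum_mul, Finset.mul_sum, ← Finset.sum_sub_distrib]
  exact Finset.sum_congr rfl fun j _ => by ring

lemma sym_sum {γ : MatF n} (hs : SymM γ) (w : En n → ℝ) (x : En n) :
    ∑ i, D (ee i) phL x * XX ee γ w i x = dir ee (cXL γ) w x := by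
  simp only [XX, cXL, dir, Finset.sum_mul, Finset.mul_sum]
  rw [Finset.sum_comm]
  exact Finset.sum_congr rfl fun j _ => Finset.sum_congr rfl fun i _ => by rw [hs i j]; ring

/-- The conjugated operator. -/
lemma dgd_conj {γ : MatF n} (hγ : SmM γ) (hs : SymM γ) {w : En n → ℝ} (hw : Sm w) (τ : ℝ)
    (x : En n) :
    dgd ee γ (fun y => Real.exp (-τ * phL y) * w y) x =
      Real.exp (-τ * phL x) * (dgd ee γ w x + τ ^ 2 * cqL γ x * w x -
        2 * τ * dir ee (cXL γ) w x - τ * dvg ee (cXL γ) x * w x) := by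
  have e : ∀ i, D (ee i) (XX ee γ (fun y => Real.exp (-τ * phL y) * w y) i) x =
      Real.exp (-τ * phL x) * (D (ee i) (XX ee γ w i) x - τ * (cXL γ i x * D (ee i) w x) -
        τ * (D (ee i) (cXL γ i) x * w x) - τ * (D (ee i) phL x * XX ee γ w i x) +
        τ ^ 2 * (cXL γ i x * D (ee i) phL x) * w x) := by
    intro i
    have h2 : Sm (fun y => cXL γ i y * w y) := (sm_cX hγ i).mul hw
    rw [XX_conj hw, D_conj ((sm_XX hγ hw i).sub (h2.cmul τ)),
      D_sub_at ((sm_XX hγ hw i).dAt x) ((h2.cmul τ).dAt x), D_const_mul_at (h2.dAt x),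
      D_mul_at ((sm_cX hγ i).dAt x) (hw.dAt x)]
    ring
  have e2 := sym_sum hs w x
  unfold dgd dvg
  simp only [e, ← Finset.mul_sum, Finset.sum_add_distrib, Finset.sum_sub_distrib,
    ← Finset.sum_mul]
  rw [e2]
  simp only [cqL, dir]
  ring

/-- The scaled data. -/
def sX (γ : MatF n) (τ : ℝ) : Fin n → En n → ℝ := fun k x => τ * cXL γ k x

lemma dir_sX (γ : MatF n) (τ : ℝ) (f : En n → ℝ) (x : En n) :
    dir ee (sX γ τ) f x = τ * dir ee (cXL γ) f x := by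
  simp only [dir, sX, Finset.mul_sum]
  exact Finset.sum_congr rfl fun j _ => by ring

lemma D_sX {γ : MatF n} (hγ : SmM γ) (τ : ℝ) (i k : Fin n) (x : En n) :
    D (ee i) (sX γ τ k) x = τ * D (ee i) (cXL γ k) x :=
  D_const_mul_at ((sm_cX hγ k).dAt x) τ _

lemma dvg_sX {γ : MatF n} (hγ : SmM γ) (τ : ℝ) (x : En n) :
    dvg ee (sX γ τ) x = τ * dvg ee (cXL γ) x := by
  simp only [dvg, D_sX hγ, Finset.mul_sum]

lemma dir_cmul (Y : Fin n → En n → ℝ) {f : En n → ℝ} (hf : Sm f) (t : ℝ) (x : En n) :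
    dir ee Y (fun y => t * f y) x = t * dir ee Y f x := by
  simp only [dir, D_const_mul_at (hf.dAt x), Finset.mul_sum]
  exact Finset.sum_congr rfl fun j _ => by ring

lemma XX_cmul (γ : MatF n) {f : En n → ℝ} (hf : Sm f) (t : ℝ) (j : Fin n) (x : En n) :
    XX ee γ (fun y => t * f y) j x = t * XX ee γ f j x := by
  simp only [XX, D_const_mul_at (hf.dAt x), Finset.mul_sum]
  exact Finset.sum_congr rfl fun j _ => by ring

/-- The left integrand of the multiplier identity. -/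
def LL (γ : MatF n) (τ : ℝ) (w : En n → ℝ) : En n → ℝ := fun x =>
  2 * (dgd ee γ w x + τ ^ 2 * cqL γ x * w x) * (-2 * (τ * dir ee (cXL γ) w x) - τ * ch γ x * w x)

/-- The matrix of the quadratic form. -/
def QQ (γ : MatF n) (j k : Fin n) : En n → ℝ := fun x =>
  4 * ∑ i, γ i j x * D (ee i) (cXL γ k) x - 2 * dir ee (cXL γ) (γ j k) x + 80 * phL x * γ j k x

/-- The right integrand of the multiplier identity. -/
def RR (γ : MatF n) (τ : ℝ) (w : En n → ℝ) : En n → ℝ := fun x =>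
  τ * ∑ j, ∑ k, QQ γ j k x * D (ee j) w x * D (ee k) w x +
    2 * τ * w x * ∑ j, XX ee γ (ch γ) j x * D (ee j) w x +
    τ ^ 3 * (2 * dir ee (cXL γ) (cqL γ) x - 80 * cqL γ x * phL x) * w x ^ 2

lemma ident (hid : S_id) {γ : MatF n} (hγ : SmM γ) (hs : SymM γ) {w : En n → ℝ} (hw : Tst w)
    (τ : ℝ) : ∫ x, LL γ τ w x = ∫ x, RR γ τ w x := by
  have h := hid n γ (sX γ τ) (fun x => τ ^ 2 * cqL γ x) (fun x => τ * ch γ x) w hγ hs
    (fun k => (sm_cX hγ k).cmul τ) ((sm_cq hγ).cmul _) ((sm_ch hγ).cmul _) hw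
  have e : ∀ x, τ * ch γ x - τ * dvg ee (cXL γ) x = τ * (40 * phL x) := fun x => by
    unfold ch; ring
  simp only [dir_sX, dvg_sX hγ, D_sX hγ, dir_cmul _ (sm_cq hγ), XX_cmul _ (sm_ch hγ), e] at h
  refine Eq.trans (b := _) h ?_
  · congr 1
    funext x
    simp only [RR, QQ, Finset.mul_sum]
    congr 1
    · congr 1
      · refine Finset.sum_congr rfl fun j _ => Finset.sum_congr rfl fun k _ => ?_
        have : ∑ i, 4 * (γ i j x * (τ * D (ee i) (cXL γ k) x)) =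
            τ * ∑ i, 4 * (γ i j x * D (ee i) (cXL γ k) x) := by
          rw [Finset.mul_sum]
          exact Finset.sum_congr rfl fun i _ => by ring
        rw [this]; ring
      · exact Finset.sum_congr rfl fun j _ => by ring
    · ring

lemma sm_QQ {γ : MatF n} (hγ : SmM γ) (j k : Fin n) : Sm (QQ γ j k) :=
  (((P136.Sm.sum fun i _ => (hγ i j).mul ((sm_cX hγ k).D _)).cmul 4).sub
    ((sm_dir (sm_cX hγ) (hγ j k)).cmul 2)).add ((sm_phi.cmul 80).mul (hγ j k))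

lemma int_LL {γ : MatF n} (hγ : SmM γ) {w : En n → ℝ} (hw : Tst w) (τ : ℝ) :
    Integrable (LL γ τ w) := by
  refine intg hw ((((sm_dgd hγ hw.sm).add (((sm_cq hγ).cmul _).mul hw.sm)).cmul 2).mul
    ((((sm_dir (sm_cX hγ) hw.sm).cmul τ).cmul (-2)).sub (((sm_ch hγ).cmul τ).mul hw.sm)))
    fun x hx => ?_
  simp [LL, dir, D_eq_zero_of_notMem hx, image_eq_zero_of_notMem_tsupport hx]

lemma int_RR {γ : MatF n} (hγ : SmM γ) {w : En n → ℝ} (hw : Tst w) (τ : ℝ) :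
    Integrable (RR γ τ w) := by
  refine intg hw ((((P136.Sm.sum fun j _ => P136.Sm.sum fun k _ =>
    ((sm_QQ hγ j k).mul (hw.sm.D _)).mul (hw.sm.D _)).cmul τ).add
    ((hw.sm.cmul (2 * τ)).mul (P136.Sm.sum fun j _ =>
      (sm_XX hγ (sm_ch hγ) j).mul (hw.sm.D _)))).add
    (((((sm_dir (sm_cX hγ) (sm_cq hγ)).cmul 2).sub
      (((sm_cq hγ).cmul 80).mul sm_phi)).cmul (τ ^ 3)).mul (hw.sm.pow 2))) fun x hx => ?_
  simp [RR, D_eq_zero_of_notMem hx, image_eq_zero_of_notMem_tsupport hx]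

/-- The cross term. -/
lemma cross {c K w : ℝ} (hc : 0 < c) (y d : Fin n → ℝ) (hy : ∀ j, |y j| ≤ K) :
    -(c / 2 * ∑ j, d j ^ 2 + 2 * n * K ^ 2 / c * w ^ 2) ≤ 2 * w * ∑ j, y j * d j := by
  have h : ∀ j, -(c / 2 * d j ^ 2 + 2 * K ^ 2 / c * w ^ 2) ≤ 2 * w * (y j * d j) := by
    intro j
    have h1 : y j ^ 2 ≤ K ^ 2 := by
      rw [← sq_abs (y j)]; exact pow_le_pow_left₀ (abs_nonneg _) (hy j) 2
    have h2 : 2 * y j ^ 2 / c * w ^ 2 ≤ 2 * K ^ 2 / c * w ^ 2 := by gcongr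
    have h3 : 0 ≤ c / 2 * (d j + 2 * y j / c * w) ^ 2 := by positivity
    have h4 : c / 2 * (d j + 2 * y j / c * w) ^ 2 =
        c / 2 * d j ^ 2 + 2 * w * (y j * d j) + 2 * y j ^ 2 / c * w ^ 2 := by
      field_simp; ring
    linarith
  have h5 := Finset.sum_le_sum fun j (_ : j ∈ Finset.univ) => h j
  simp only [Finset.sum_neg_distrib, Finset.sum_add_distrib, Finset.sum_const, Finset.card_univ,
    Fintype.card_fin, nsmul_eq_mul, ← Finset.mul_sum] at h5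
  have : 2 * n * K ^ 2 / c * w ^ 2 = n * (2 * K ^ 2 / c * w ^ 2) := by ring
  rw [this]; exact h5

/-- The gradient term. -/
lemma grad {B τ w : ℝ} (p d : Fin n → ℝ) (hp : ∀ j, |p j| ≤ B) :
    ∑ j, (d j - τ * p j * w) ^ 2 ≤ 2 * ∑ j, d j ^ 2 + 2 * n * B ^ 2 * τ ^ 2 * w ^ 2 := by
  have h : ∀ j, (d j - τ * p j * w) ^ 2 ≤ 2 * d j ^ 2 + 2 * B ^ 2 * τ ^ 2 * w ^ 2 := by
    intro j
    have h1 : p j ^ 2 ≤ B ^ 2 := by
      rw [← sq_abs (p j)]; exact pow_le_pow_left₀ (abs_nonneg _) (hp j) 2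
    have h2 : 2 * p j ^ 2 * τ ^ 2 * w ^ 2 ≤ 2 * B ^ 2 * τ ^ 2 * w ^ 2 := by gcongr
    nlinarith [sq_nonneg (d j + τ * p j * w)]
  have h5 := Finset.sum_le_sum fun j (_ : j ∈ Finset.univ) => h j
  simp only [Finset.sum_add_distrib, Finset.sum_const, Finset.card_univ,
    Fintype.card_fin, nsmul_eq_mul, ← Finset.mul_sum] at h5
  have : 2 * n * B ^ 2 * τ ^ 2 * w ^ 2 = n * (2 * B ^ 2 * τ ^ 2 * w ^ 2) := by ring
  rw [this]; exact h5

/-- The pointwise algebra. -/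
lemma alg {c E F τ φ w S G a b Q Z z : ℝ} (hc : 0 < c) (hE : 0 ≤ E) (hF : 0 ≤ F) (hτ : 1 ≤ τ)
    (hτ' : (2 * E + 3200) / c ≤ τ) (hφ : 0 < φ) (hφ' : φ ≤ 1) (hS : 0 ≤ S)
    (hG : G ≤ 2 * S + F * τ ^ 2 * w ^ 2) (hQ : c * S ≤ Q)
    (hZ : -(c / 2 * S + E * w ^ 2) ≤ 2 * w * Z) (hz : c ≤ z) :
    τ ^ 3 * w ^ 2 + τ * G ≤ (2 + F) * (2 / c) *
      ((τ * Q + 2 * τ * w * Z + τ ^ 3 * z * w ^ 2) - 2 * a * b + (a + b + 40 * τ * φ * w) ^ 2) := by
  have hτ0 : 0 < τ := by linarith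
  have hw := sq_nonneg w
  have h1 : 2 * a * b ≤ (a + b + 40 * τ * φ * w) ^ 2 + (40 * τ * φ * w) ^ 2 := by
    nlinarith [sq_nonneg (a - b), sq_nonneg (a + b + 80 * τ * φ * w)]
  have h2 : (40 * τ * φ * w) ^ 2 ≤ 1600 * τ ^ 2 * w ^ 2 := by
    have : φ ^ 2 ≤ 1 := by nlinarith
    have h : 0 ≤ 1600 * τ ^ 2 * w ^ 2 * (1 - φ ^ 2) := by
      have : 0 ≤ 1 - φ ^ 2 := by linarith
      positivity
    nlinarith
  have h3 : τ * (c * S) ≤ τ * Q := by gcongr
  have h4 : τ * -(c / 2 * S + E * w ^ 2) ≤ τ * (2 * w * Z) := by gcongr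
  have h5 : τ ^ 3 * c * w ^ 2 ≤ τ ^ 3 * z * w ^ 2 := by gcongr
  have h6 : 2 * E + 3200 ≤ c * τ := by rw [div_le_iff₀ hc] at hτ'; linarith
  have h7 : τ * E * w ^ 2 ≤ τ ^ 2 * E * w ^ 2 := by
    gcongr; nlinarith
  have h8 : τ ^ 2 * (2 * E + 3200) * w ^ 2 ≤ τ ^ 2 * (c * τ) * w ^ 2 := by gcongr
  have h9 : c / 2 * (τ ^ 3 * w ^ 2 + τ * S) ≤
      (τ * Q + 2 * τ * w * Z + τ ^ 3 * z * w ^ 2) - 2 * a * b + (a + b + 40 * τ * φ * w) ^ 2 := by
    nlinarith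
  have h10 : τ * G ≤ τ * (2 * S + F * τ ^ 2 * w ^ 2) := by gcongr
  have h11 : 0 ≤ τ ^ 3 * w ^ 2 := by positivity
  have h12 : 0 ≤ F * (τ * S) := by positivity
  calc τ ^ 3 * w ^ 2 + τ * G ≤ (2 + F) * (τ ^ 3 * w ^ 2 + τ * S) := by nlinarith
    _ = (2 + F) * (2 / c) * (c / 2 * (τ ^ 3 * w ^ 2 + τ * S)) := by field_simp
    _ ≤ _ := by gcongr

lemma bound_phi (n : ℕ) : ∃ B : ℝ, ∀ x ∈ Ann n, ∀ j, |D (ee j) phL x| ≤ B := by
  have h : ∀ j : Fin n, ∃ B : ℝ, ∀ x ∈ closedBall (0 : En n) 2, ‖D (ee j) phL x‖ ≤ B := fun j =>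
    (isCompact_closedBall 0 2).exists_bound_of_continuousOn (sm_phi.D _).cont.continuousOn
  choose B hB using h
  refine ⟨∑ j, |B j|, fun x hx j => ?_⟩
  have hx' : x ∈ closedBall (0 : En n) 2 := by
    rw [mem_closedBall_zero_iff]
    have := hx.2
    nlinarith [norm_nonneg x]
  exact ((hB j x hx').trans (le_abs_self _)).trans
    (Finset.single_le_sum (f := fun j => |B j|) (fun _ _ => abs_nonneg _) (Finset.mem_univ j))

lemma hee (τ : ℝ) (x : En n) : Real.exp (2 * τ * phL x) * Real.exp (-τ * phL x) ^ 2 = 1 := by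
  rw [sq, ← Real.exp_add, ← Real.exp_add, ← Real.exp_zero]
  congr 1; ring

/-- The function with the weight removed. -/
def un (τ : ℝ) (w : En n → ℝ) : En n → ℝ := fun y => Real.exp (-τ * phL y) * w y

lemma p1 (τ : ℝ) (w : En n → ℝ) (x : En n) :
    Real.exp (2 * τ * phL x) * un τ w x ^ 2 = w x ^ 2 := by
  unfold un; rw [mul_pow, ← mul_assoc, hee, one_mul]

lemma p2 (τ : ℝ) {w : En n → ℝ} (hw : Sm w) (x : En n) :
    Real.exp (2 * τ * phL x) * ∑ j, D (ee j) (un τ w) x ^ 2 =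
      ∑ j, (D (ee j) w x - τ * D (ee j) phL x * w x) ^ 2 := by
  rw [Finset.mul_sum]
  refine Finset.sum_congr rfl fun j _ => ?_
  unfold un
  rw [D_conj hw, mul_pow, ← mul_assoc, hee, one_mul]

lemma p3 {γ : MatF n} (hγ : SmM γ) (hs : SymM γ) (τ : ℝ) {w : En n → ℝ} (hw : Sm w) (x : En n) :
    Real.exp (2 * τ * phL x) * dgd ee γ (un τ w) x ^ 2 =
      ((dgd ee γ w x + τ ^ 2 * cqL γ x * w x) +
        (-2 * (τ * dir ee (cXL γ) w x) - τ * ch γ x * w x) + 40 * τ * phL x * w x) ^ 2 := by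
  unfold un
  rw [dgd_conj hγ hs hw, mul_pow, ← mul_assoc, hee, one_mul]
  unfold ch; ring

/-- The pointwise inequality. -/
lemma key {γ : MatF n} (hγ : SmM γ) (hs : SymM γ) {c K B τ : ℝ} (hc : 0 < c) (hτ : 1 ≤ τ)
    (hτ' : (2 * (2 * n * K ^ 2 / c) + 3200) / c ≤ τ) {w : En n → ℝ} (hw : Sm w) (x : En n)
    (H : x ∈ tsupport w → (∀ j, |D (ee j) phL x| ≤ B) ∧
      (∀ ξ : Fin n → ℝ, c * ∑ j, ξ j ^ 2 ≤ ∑ j, ∑ k, QQ γ j k x * ξ j * ξ k) ∧
      c ≤ 2 * dir ee (cXL γ) (cqL γ) x - 80 * cqL γ x * phL x ∧ ∀ j, |XX ee γ (ch γ) j x| ≤ K) :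
    τ ^ 3 * (Real.exp (2 * τ * phL x) * un τ w x ^ 2) +
      τ * (Real.exp (2 * τ * phL x) * ∑ j, D (ee j) (un τ w) x ^ 2) ≤
      (2 + 2 * n * B ^ 2) * (2 / c) *
        (RR γ τ w x - LL γ τ w x + Real.exp (2 * τ * phL x) * dgd ee γ (un τ w) x ^ 2) := by
  rw [p1, p2 τ hw, p3 hγ hs τ hw]
  by_cases hx : x ∈ tsupport w
  · obtain ⟨h0, h1, h2, h3⟩ := H hx
    have hE : 0 ≤ 2 * n * K ^ 2 / c := by positivity
    have hF : 0 ≤ 2 * (n : ℝ) * B ^ 2 := by positivity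
    unfold RR LL
    exact alg hc hE hF hτ hτ' (phi_pos x) (phi_le x)
      (Finset.sum_nonneg fun j _ => sq_nonneg (D (ee j) w x))
      (grad (fun j => D (ee j) phL x) (fun j => D (ee j) w x) h0)
      (h1 fun j => D (ee j) w x)
      (cross hc (fun j => XX ee γ (ch γ) j x) (fun j => D (ee j) w x) h3) h2
  · have a1 : RR γ τ w x = 0 := by
      simp [RR, D_eq_zero_of_notMem hx, image_eq_zero_of_notMem_tsupport hx]
    have a2 : LL γ τ w x = 0 := by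
      simp [LL, dir, D_eq_zero_of_notMem hx, image_eq_zero_of_notMem_tsupport hx]
    rw [a1, a2]
    simp only [D_eq_zero_of_notMem hx, image_eq_zero_of_notMem_tsupport hx]
    simp only [ne_eq, OfNat.ofNat_ne_zero, not_false_eq_true, zero_pow, mul_zero,
      Finset.sum_const_zero, add_zero, sub_self, zero_add]
    positivity

lemma tst_dgd {γ : MatF n} (hγ : SmM γ) {v : En n → ℝ} (hv : Tst v) : Tst (dgd ee γ v) := by
  have h : ∀ i, Tst (XX ee γ v i) := fun i =>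
    P136.Tst.sum _ fun j _ => P136.Tst.mul_left (hγ i j) (hv.D _)
  exact P136.Tst.sum (f := fun i => D (ee i) (XX ee γ v i)) Finset.univ fun i _ => (h i).D _

end LocCar

open LocCar in
theorem s_car (hid : S_id) (hpos : S_pos) : S_car := by
  intro n
  obtain ⟨om, c, K, hom, hc, hK, H⟩ := hpos n
  obtain ⟨B, hB⟩ := bound_phi n
  have hT : 0 ≤ (2 * (2 * n * K ^ 2 / c) + 3200) / c := by positivity
  refine ⟨om, 1 + (2 * (2 * n * K ^ 2 / c) + 3200) / c, (2 + 2 * n * B ^ 2) * (2 / c), hom,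
    by linarith, by positivity, fun γ hγ hs hN τ hτ v hv hsupp => ?_⟩
  have hE1 : Sm (fun y : En n => Real.exp (τ * phL y)) := (sm_phi.cmul τ).exp
  have hE2 : Sm (fun y : En n => Real.exp (2 * τ * phL y)) := (sm_phi.cmul (2 * τ)).exp
  obtain ⟨w, hwd⟩ : ∃ w : En n → ℝ, w = fun y => Real.exp (τ * phL y) * v y := ⟨_, rfl⟩
  have hw : Tst w := hwd ▸ P136.Tst.mul_left hE1 hv
  have hws : tsupport w ⊆ tsupport v := hwd ▸ tsupport_mul_subset_right
  have hvw : v = un τ w := by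
    funext y
    rw [hwd]
    unfold un
    rw [← mul_assoc, ← Real.exp_add]
    simp
  have i1 : Integrable fun x => Real.exp (2 * τ * phL x) * v x ^ 2 :=
    (P136.Tst.mul_left hE2 hv.sq).integrable
  have i2 : Integrable fun x => Real.exp (2 * τ * phL x) * ∑ j, D (ee j) v x ^ 2 :=
    (P136.Tst.mul_left hE2 (P136.Tst.sum _ fun j _ => (hv.D _).sq)).integrable
  have i3 : Integrable fun x => Real.exp (2 * τ * phL x) * dgd ee γ v x ^ 2 :=
    (P136.Tst.mul_left hE2 (tst_dgd hγ hv).sq).integrable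
  have i4 := int_LL hγ hw τ
  have i5 := int_RR hγ hw τ
  have hk : ∀ x, τ ^ 3 * (Real.exp (2 * τ * phL x) * v x ^ 2) +
      τ * (Real.exp (2 * τ * phL x) * ∑ j, D (ee j) v x ^ 2) ≤
      (2 + 2 * n * B ^ 2) * (2 / c) *
        (RR γ τ w x - LL γ τ w x + Real.exp (2 * τ * phL x) * dgd ee γ v x ^ 2) := by
    intro x
    rw [hvw]
    exact key hγ hs hc (by linarith) (by linarith) hw.sm x fun hx =>
      ⟨hB x (hsupp (hws hx)), H γ hγ hs hN x (hsupp (hws hx))⟩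
  have fin := integral_mono (P136.iadd (i1.const_mul _) (i2.const_mul _))
    ((P136.iadd (P136.isub i5 i4) i3).const_mul _) hk
  rw [integral_add (i1.const_mul _) (i2.const_mul _), integral_const_mul, integral_const_mul,
    integral_const_mul, integral_add (P136.isub i5 i4) i3, integral_sub i5 i4,
    ident hid hγ hs hw τ, sub_self, zero_add] at fin
  exact fin

end Vale.Agent.P088
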