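import Vale.Agent.P088.LocBasic

/-!
# P088: the Carleman estimate for a solution of the system cut off to an annulus
-/

open MeasureTheory Set Metric Filter
open scoped ContDiff Topology

noncomputable section
namespace Vale.Agent.P088
open Vale.Agent.P136

namespace LocCs
variable {n : ℕ} {ι : Type} [Fintype ι]

lemma ell {k : ℕ} {om : ℝ} {γ : MatF n} (h : Near k om γ) (ho : om ≤ 1 / (2 * (n + 1)))
    (x : En n) (ξ : Fin n → ℝ) : 1 / 2 * ∑ i, ξ i ^ 2 ≤ ∑ i, ∑ j, γ i j x * ξ i * ξ j := by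
  have h1 : ∀ i j, (if i = j then ξ i ^ 2 else 0) - 1 / (4 * (n + 1)) * ξ i ^ 2 -
      1 / (4 * (n + 1)) * ξ j ^ 2 ≤ γ i j x * ξ i * ξ j := fun i j => by
    have h2 : |γ i j x - if i = j then 1 else 0| ≤ 1 / (2 * (n + 1)) := (h i j x).abs_le.trans ho
    have h3 : |ξ i * ξ j| ≤ (ξ i ^ 2 + ξ j ^ 2) / 2 :=
      abs_le.2 ⟨by nlinarith [sq_nonneg (ξ i + ξ j)], by nlinarith [sq_nonneg (ξ i - ξ j)]⟩
    have h4 := mul_le_mul h2 h3 (abs_nonneg _) (by positivity)
    rw [← abs_mul] at h4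
    have h5 := (abs_le.1 h4).1
    have h6 : (1 : ℝ) / (2 * (n + 1)) = 2 * (1 / (4 * (n + 1))) := by field_simp; ring
    rw [h6] at h5
    split_ifs at h5 ⊢ with e
    · subst e; linarith
    · linarith
  refine le_trans ?_ (Finset.sum_le_sum fun i _ => Finset.sum_le_sum fun j _ => h1 i j)
  simp only [Finset.sum_sub_distrib, Finset.sum_ite_eq, Finset.mem_univ, if_true,
    Finset.sum_const, Finset.card_univ, Fintype.card_fin, nsmul_eq_mul, ← Finset.mul_sum]
  have h0 : 0 ≤ ∑ i, ξ i ^ 2 := Finset.sum_nonneg fun _ _ => sq_nonneg _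
  have h7 : (n : ℝ) * (1 / (4 * (n + 1))) ≤ 1 / 4 := by
    rw [mul_one_div, div_le_iff₀ (by positivity)]; linarith
  nlinarith [mul_le_mul_of_nonneg_right h7 h0]

/-- Sum of the absolute values of the components and first derivatives. -/
def S1 (W : ι → En n → ℝ) (x : En n) : ℝ := ∑ a, (|W a x| + ∑ j, |D (ee j) (W a) x|)

lemma vg_nonneg (W : ι → En n → ℝ) (x : En n) : 0 ≤ vg W x :=
  Finset.sum_nonneg fun _ _ => add_nonneg (sq_nonneg _) (Finset.sum_nonneg fun _ _ => sq_nonneg _)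

lemma S1_sq (W : ι → En n → ℝ) (x : En n) :
    S1 W x ^ 2 ≤ Fintype.card ι * (2 * (n + 1)) * vg W x := by
  refine (sq_sum_le_card_mul_sum_sq (s := Finset.univ)
    (f := fun a => |W a x| + ∑ j, |D (ee j) (W a) x|)).trans ?_
  rw [Finset.card_univ, mul_assoc, vg, Finset.mul_sum _ _ (2 * ((n : ℝ) + 1))]
  refine mul_le_mul_of_nonneg_left (Finset.sum_le_sum fun a _ => ?_)
    (show (0 : ℝ) ≤ Fintype.card ι by positivity)
  have h1 := sq_sum_le_card_mul_sum_sq (s := Finset.univ) (f := fun j => |D (ee j) (W a) x|)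
  simp only [sq_abs, Finset.card_univ, Fintype.card_fin] at h1
  have h2 : 0 ≤ ∑ j, D (ee j) (W a) x ^ 2 := Finset.sum_nonneg fun _ _ => sq_nonneg _
  have h3 : 0 ≤ (n : ℝ) * W a x ^ 2 := by positivity
  nlinarith [sq_nonneg (|W a x| - ∑ j, |D (ee j) (W a) x|), sq_abs (W a x)]

lemma low_le {b : Fin n → ι → ℝ} {c : ι → ℝ} {B : ℝ} (hb : ∀ i a, |b i a| ≤ B)
    (hc : ∀ a, |c a| ≤ B) (W : ι → En n → ℝ) (x : En n) :
    |∑ i, ∑ a, b i a * D (ee i) (W a) x + ∑ a, c a * W a x| ≤ B * S1 W x := by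
  rw [Finset.sum_comm, ← Finset.sum_add_distrib, S1, Finset.mul_sum]
  refine (Finset.abs_sum_le_sum_abs _ _).trans (Finset.sum_le_sum fun a _ => ?_)
  rw [add_comm |W a x|, mul_add, Finset.mul_sum]
  refine (abs_add_le _ _).trans (add_le_add ((Finset.abs_sum_le_sum_abs _ _).trans
    (Finset.sum_le_sum fun i _ => ?_)) ?_)
  · rw [abs_mul]; exact mul_le_mul_of_nonneg_right (hb i a) (abs_nonneg _)
  · rw [abs_mul]; exact mul_le_mul_of_nonneg_right (hc a) (abs_nonneg _)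

open scoped Classical in
/-- The remainder created by the cutoff. -/
def Rm (L : Op n ι) (χ : En n → ℝ) (W : ι → En n → ℝ) (a : ι) (x : En n) : ℝ :=
  ∑ i, ∑ a', (if a' = a then 2 * XX ee L.γ χ i x else 0) * D (ee i) (W a') x +
    ∑ a', ((if a' = a then dgd ee L.γ χ x else 0) + ∑ i, L.b i a a' x * D (ee i) χ x) * W a' x

lemma eqn {L : Op n ι} (hL : L.Good) {U : Set (En n)} (hU : IsOpen U) {W : ι → En n → ℝ}
    (hW : Sol L U W 0) {χ : En n → ℝ} (hχ : Sm χ) {x : En n} (hx : x ∈ U) (a : ι) :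
    dgd ee L.γ (fun y => χ y * W a y) x = Rm L χ W a x -
      (∑ i, ∑ a', L.b i a a' x * D (ee i) (fun y => χ y * W a' y) x +
        ∑ a', L.c a a' x * (χ x * W a' x)) := by
  have h1 : dgd ee L.γ (W a) x = -(∑ i, ∑ a', L.b i a a' x * D (ee i) (W a') x +
      ∑ a', L.c a a' x * W a' x) := by
    have := hW.2 x hx a
    simp only [Op.app, Pi.zero_apply] at this
    linarith
  have h2 : ∑ i, ∑ a', L.b i a a' x * D (ee i) (fun y => χ y * W a' y) x =
      χ x * ∑ i, ∑ a', L.b i a a' x * D (ee i) (W a') x +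
        ∑ a', (∑ i, L.b i a a' x * D (ee i) χ x) * W a' x := by
    simp only [fun i a' => D_mul_on hU hχ.contDiffOn (hW.1 a') (ee i) hx, Finset.mul_sum,
      Finset.sum_mul, mul_add, Finset.sum_add_distrib]
    rw [Finset.sum_comm (f := fun a' i => L.b i a a' x * D (ee i) χ x * W a' x)]
    refine congrArg₂ _ ?_ ?_ <;>
      exact Finset.sum_congr rfl fun i _ => Finset.sum_congr rfl fun a' _ => by ring
  have h3 : ∑ a', L.c a a' x * (χ x * W a' x) = χ x * ∑ a', L.c a a' x * W a' x := by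
    rw [Finset.mul_sum]; exact Finset.sum_congr rfl fun i _ => by ring
  rw [dgd_mul hU hL.1 hL.2.1 hχ.contDiffOn (hW.1 a) hx, h1, h2, h3]
  classical
  simp only [Rm, add_mul, ite_mul, zero_mul, Finset.sum_add_distrib]
  simp only [Finset.sum_ite_eq', Finset.mem_univ, if_true, mul_assoc, ← Finset.mul_sum]
  ring

lemma Rm_zero (L : Op n ι) {χ : En n → ℝ} (W : ι → En n → ℝ) (a : ι) {x : En n} {c : ℝ}
    (h : χ =ᶠ[𝓝 x] fun _ => c) : Rm L χ W a x = 0 := by
  have h1 : ∀ i, D (ee i) χ x = 0 := fun i => (D_congr h _).trans (D_const _ _ _)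
  have h2 : dgd ee L.γ χ x = 0 := by
    rw [dgd_congr h]
    have : ∀ i, XX ee L.γ (fun _ => c) i = fun _ => 0 := fun i => funext fun y => by
      simp [XX, D_const]
    simp [dgd, dvg, this, D_const]
  simp [Rm, XX, h1, h2]

lemma Rm_le {L : Op n ι} (hL : L.Good) {χ : En n → ℝ} (hχ : Sm χ) {K M : ℝ} {x : En n}
    (hK : SB ee 2 K 1 χ x) (hM : 0 ≤ M) (hγ : ∀ i j, SB ee 1 M 1 (L.γ i j) x)
    (hb : ∀ i a a', |L.b i a a' x| ≤ M) (W : ι → En n → ℝ) (a : ι) :
    |Rm L χ W a x| ≤ (2 * n ^ 2 + 3 * n) * (M * K) * S1 W x := by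
  have p : 0 ≤ M * K := mul_nonneg hM hK.nonneg
  have p1 : 0 ≤ n * (M * K) := by positivity
  have p2 : 0 ≤ n ^ 2 * (M * K) := by positivity
  refine low_le (fun i a' => ?_) (fun a' => ?_) W x
  · have := (SB.XX (k := 0) hL.1 hχ (fun i j => (hγ i j).mono zero_le_one le_rfl)
      (hK.mono one_le_two le_rfl) i).abs_le
    rw [Fintype.card_fin] at this
    split_ifs
    · rw [abs_mul, abs_two]; linarith
    · rw [abs_zero]; linarith
  · have h1 := (SB.dgd (k := 0) hL.1 hχ hγ hK).abs_le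
    rw [Fintype.card_fin, zero_add, pow_one] at h1
    have h2 : |∑ i, L.b i a a' x * D (ee i) χ x| ≤ n * (M * K) := by
      refine (Finset.abs_sum_le_sum_abs _ _).trans ((Finset.sum_le_card_nsmul _ _ (M * K)
        fun i _ => ?_).trans (by simp))
      rw [abs_mul]
      exact mul_le_mul (hb i a a') (hK.D i).abs_le (abs_nonneg _) hM
    refine (abs_add_le _ _).trans ?_
    split_ifs
    · linarith
    · rw [abs_zero]; linarith

lemma cutoff (n : ℕ) {κ : ℝ} (h0 : 0 < κ) (h1 : κ ≤ 1 / 4) : ∃ χ : En n → ℝ,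
    IsTest (ball 0 2) χ ∧ tsupport χ ⊆ Ann n ∧ ∀ x, (1 - κ / 2 < ‖x‖ → ‖x‖ < 3 / 2 →
      χ =ᶠ[𝓝 x] fun _ => 1) ∧ (‖x‖ < 1 - κ ∨ 19 / 10 < ‖x‖ → χ =ᶠ[𝓝 x] fun _ => 0) := by
  obtain ⟨_, -, c1⟩ := exists_cut n 0 (r := 1 - κ) (R := 1 - κ / 2) (by linarith) (by linarith)
  obtain ⟨_, -, c2⟩ := exists_cut n 0 (r := 3 / 2) (R := 19 / 10) (by norm_num) (by norm_num)
  obtain ⟨θ, a1, a2, -, a3, -⟩ := c1 0
  obtain ⟨η, b1, b2, -, b3, -⟩ := c2 0
  have hs : tsupport (fun x => η x * (1 - θ x)) ⊆ {x | 1 - κ ≤ ‖x‖ ∧ ‖x‖ ≤ 19 / 10} := by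
    refine closure_minimal (fun x hx => ⟨?_, ?_⟩) ((isClosed_le continuous_const
      continuous_norm).inter (isClosed_le continuous_norm continuous_const))
    · by_contra h
      exact hx (by simp [a3 x (mem_closedBall_zero_iff.2 (not_le.1 h).le)])
    · exact mem_closedBall_zero_iff.1 (b2 (subset_tsupport _ (left_ne_zero_of_mul hx)))
  refine ⟨fun x => η x * (1 - θ x), ⟨b1.mul_right ((Sm.const 1).sub a1.sm), fun x hx =>
    mem_ball_zero_iff.2 (by linarith [(hs hx).2])⟩, fun x hx => ?_, fun x => ⟨fun g1 g2 => ?_,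
      fun g => notMem_tsupport_iff_eventuallyEq.1 fun hx => ?_⟩⟩
  · obtain ⟨g1, g2⟩ := hs hx
    exact ⟨by nlinarith, by nlinarith [norm_nonneg x]⟩
  · filter_upwards [(isOpen_lt continuous_const continuous_norm).mem_nhds g1,
      (isOpen_lt continuous_norm continuous_const).mem_nhds g2] with y y1 y2
    rw [b3 y (mem_closedBall_zero_iff.2 (le_of_lt y2)), image_eq_zero_of_notMem_tsupport
      fun h => (not_le.2 y1) (mem_closedBall_zero_iff.1 (a2 h))]
    ring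
  · obtain ⟨g1, g2⟩ := hs hx
    rcases g with g | g <;> linarith

lemma wt_le {τ r : ℝ} (hτ : 0 ≤ τ) (hr : 0 ≤ r) {x : En n} (h : r ≤ ‖x‖) :
    Real.exp (2 * τ * phL x) ≤ Real.exp (2 * τ * Real.exp (-8 * r ^ 2)) := by
  have := pow_le_pow_left₀ hr h 2
  refine Real.exp_le_exp.2 (mul_le_mul_of_nonneg_left (Real.exp_le_exp.2 ?_) (by positivity))
  linarith

lemma le_wt {τ r : ℝ} (hτ : 0 ≤ τ) {x : En n} (h : ‖x‖ ≤ r) :
    Real.exp (2 * τ * Real.exp (-8 * r ^ 2)) ≤ Real.exp (2 * τ * phL x) := by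
  have := pow_le_pow_left₀ (norm_nonneg x) h 2
  refine Real.exp_le_exp.2 (mul_le_mul_of_nonneg_left (Real.exp_le_exp.2 ?_) (by positivity))
  linarith

lemma sm_wt (τ : ℝ) : Sm fun x : En n => Real.exp (2 * τ * phL x) :=
  (((Sm.cmul (-8) (contDiff_norm_sq ℝ)).exp).cmul _).exp

lemma vg_int {U : Set (En n)} {W : ι → En n → ℝ} {N : ℝ} (h : ∀ a, HB U 1 (W a) N) :
    IntegrableOn (vg W) U ∧ ∫ x in U, vg W x ≤ Fintype.card ι * ((n + 1) * N) := by
  have i1 : ∀ a, IntegrableOn (fun x => ∑ j, D (ee j) (W a) x ^ 2) U := fun a =>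
    integrable_finsetSum _ fun j _ => ((h a).D j).int
  refine ⟨integrable_finsetSum _ fun a _ => iadd (h a).int (i1 a), ?_⟩
  unfold vg
  rw [integral_finsetSum _ fun a _ => iadd (h a).int (i1 a)]
  refine (Finset.sum_le_card_nsmul _ _ ((n + 1) * N) fun a _ => ?_).trans (by simp)
  rw [integral_add (h a).int (i1 a), integral_finsetSum _ fun j _ => ((h a).D j).int]
  have := Finset.sum_le_card_nsmul Finset.univ _ N fun j _ => ((h a).D j).le
  simp only [Finset.card_univ, Fintype.card_fin, nsmul_eq_mul] at this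
  linarith [(h a).le]

lemma nrm_nonneg (U : Set (En n)) (W : ι → En n → ℝ) : 0 ≤ nrm U W :=
  Finset.sum_nonneg fun _ _ => integral_nonneg fun _ => sq_nonneg _

/-- The Caccioppoli inequality. -/
lemma cacc (hloc : S_loc) (n : ℕ) (ι : Type) [Fintype ι] (M r R : ℝ) (hr : 0 < r) (hR : r < R)
    (h2 : R ≤ 2) : ∃ C : ℝ, 0 ≤ C ∧ ∀ (L : Op n ι) (W : ι → En n → ℝ), L.Good →
      L.BdOn univ 1 (1 / 2) M → Sol L (ball 0 2) W 0 → L2On (ball 0 2) W →
      IntegrableOn (vg W) (ball 0 r) ∧ ∫ x in ball 0 r, vg W x ≤ C * nrm (ball 0 R) W := by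
  obtain ⟨C, hC, H⟩ := hloc n ι 0 (1 / 2) M r R (by norm_num) hr hR
  refine ⟨Fintype.card ι * ((n + 1) * C), by positivity, fun L W hL hB hW h2' => ?_⟩
  have hs : ball (0 : En n) R ⊆ ball 0 2 := ball_subset_ball h2
  have := vg_int (H L 0 W 0 (nrm (ball 0 R) W) hL (fun x _ => hB x (mem_univ x))
    ⟨fun a => (hW.1 a).mono hs, fun x hx => hW.2 x (hs hx)⟩ (fun _ => contDiffOn_const)
    (fun a => HB.zero (IntegrableOn.mono_set (h2' a).integrable_sq hs)
      (Finset.single_le_sum (f := fun a => ∫ y in ball 0 R, W a y ^ 2)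
        (fun _ _ => integral_nonneg fun _ => sq_nonneg _) (Finset.mem_univ a)))
    fun a => (HB.zero_fun _ _).mono le_rfl (nrm_nonneg _ _))
  exact ⟨this.1, this.2.trans (le_of_eq (by ring))⟩

/-- The pointwise bound for the weighted right side. -/
lemma ptw {L : Op n ι} (hL : L.Good) {W : ι → En n → ℝ} (hW : Sol L (ball 0 2) W 0)
    {χ : En n → ℝ} (hχ : IsTest (ball 0 2) χ) {κ K M c τ : ℝ} (h0 : 0 < κ) (h1 : κ ≤ 1 / 4)
    (hc : ∀ x, (1 - κ / 2 < ‖x‖ → ‖x‖ < 3 / 2 → χ =ᶠ[𝓝 x] fun _ => 1) ∧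
      (‖x‖ < 1 - κ ∨ 19 / 10 < ‖x‖ → χ =ᶠ[𝓝 x] fun _ => 0)) (hK : ∀ x, SB ee 2 K 1 χ x)
    (hM : 0 ≤ M) (hB : L.BdOn univ 1 c M) (hτ : 0 ≤ τ) (a : ι) (x : En n) :
    Real.exp (2 * τ * phL x) * dgd ee L.γ (fun y => χ y * W a y) x ^ 2 ≤
      2 * M ^ 2 * (Fintype.card ι * (2 * (n + 1))) *
        (Real.exp (2 * τ * phL x) * vg (fun a y => χ y * W a y) x) +
      2 * ((2 * n ^ 2 + 3 * n) * (M * K)) ^ 2 * (Fintype.card ι * (2 * (n + 1))) *
        (Real.exp (2 * τ * Real.exp (-8 * (1 - κ) ^ 2)) * (ball 0 (1 - κ / 4)).indicator (vg W) x +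
          Real.exp (2 * τ * Real.exp (-18)) * (ball 0 (39 / 20)).indicator (vg W) x) := by
  have n1 := vg_nonneg (fun a y => χ y * W a y) x
  have n2 : 0 ≤ (ball 0 (1 - κ / 4)).indicator (vg W) x := indicator_nonneg (fun _ _ => vg_nonneg _ _) _
  have n3 : 0 ≤ (ball 0 (39 / 20)).indicator (vg W) x := indicator_nonneg (fun _ _ => vg_nonneg _ _) _
  by_cases hx : x ∈ ball (0 : En n) 2
  swap
  · rw [((hχ.mul_on isOpen_ball (hW.1 a)).dgd hL.1).zero_off hx, sq, mul_zero, mul_zero]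
    positivity
  obtain ⟨-, b1, b2, b3⟩ := hB x (mem_univ x)
  have e1 := low_le (fun i a' => (b2 i a a').abs_le) (fun a' => (b3 a a').abs_le)
    (fun a y => χ y * W a y) x
  have e2 := Rm_le hL hχ.1.sm (hK x) hM b1 (fun i a a' => (b2 i a a').abs_le) W a
  have e3 := pow_le_pow_left₀ (abs_nonneg _) e1 2
  have e4 := pow_le_pow_left₀ (abs_nonneg _) e2 2
  rw [sq_abs, mul_pow] at e3 e4
  replace e3 := e3.trans (mul_le_mul_of_nonneg_left (S1_sq _ x) (sq_nonneg _))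
  replace e4 := e4.trans (mul_le_mul_of_nonneg_left (S1_sq _ x) (sq_nonneg _))
  set B := ((2 * n ^ 2 + 3 * n) * (M * K)) ^ 2 with hBd
  set N : ℝ := Fintype.card ι * (2 * (n + 1)) with hN
  have hE := Real.exp_pos (2 * τ * phL x)
  have e5 : Real.exp (2 * τ * phL x) * Rm L χ W a x ^ 2 ≤ B * N *
      (Real.exp (2 * τ * Real.exp (-8 * (1 - κ) ^ 2)) * (ball 0 (1 - κ / 4)).indicator (vg W) x +
        Real.exp (2 * τ * Real.exp (-18)) * (ball 0 (39 / 20)).indicator (vg W) x) := by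
    have q : 0 ≤ B * N := by positivity
    have q0 := vg_nonneg W x
    have e6 := mul_le_mul_of_nonneg_left e4 hE.le
    by_cases c1 : ‖x‖ < 1 - κ ∨ 19 / 10 < ‖x‖
    · rw [Rm_zero L W a ((hc x).2 c1), sq, mul_zero, mul_zero]; positivity
    rw [not_or, not_lt, not_lt] at c1
    by_cases c2 : ‖x‖ ≤ 1 - κ / 2
    · rw [indicator_of_mem (mem_ball_zero_iff.2 (by linarith))]
      have := mul_le_mul_of_nonneg_right (wt_le hτ (by linarith) c1.1) (mul_nonneg q q0)
      have q2 : 0 ≤ B * N * (Real.exp (2 * τ * Real.exp (-18)) *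
        (ball 0 (39 / 20)).indicator (vg W) x) := by positivity
      linarith
    by_cases c3 : ‖x‖ < 3 / 2
    · rw [Rm_zero L W a ((hc x).1 (not_le.1 c2) c3), sq, mul_zero, mul_zero]; positivity
    · rw [indicator_of_mem (s := ball 0 (39 / 20)) (mem_ball_zero_iff.2 (by linarith))]
      have := mul_le_mul_of_nonneg_right (wt_le hτ (by norm_num) (not_lt.1 c3)) (mul_nonneg q q0)
      rw [show (-8 : ℝ) * (3 / 2) ^ 2 = -18 by norm_num] at this
      have q2 : 0 ≤ B * N * (Real.exp (2 * τ * Real.exp (-8 * (1 - κ) ^ 2)) *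
        (ball 0 (1 - κ / 4)).indicator (vg W) x) := by positivity
      linarith
  rw [eqn hL isOpen_ball hW hχ.1.sm hx]
  have e7 := mul_le_mul_of_nonneg_left e3 hE.le
  have e8 : ∀ p q : ℝ, Real.exp (2 * τ * phL x) * (p - q) ^ 2 ≤
      2 * (Real.exp (2 * τ * phL x) * p ^ 2) + 2 * (Real.exp (2 * τ * phL x) * q ^ 2) :=
    fun p q => by nlinarith [mul_nonneg hE.le (sq_nonneg (p + q))]
  refine (e8 _ _).trans ?_
  linarith

end LocCs

open LocCs in
theorem s_cs (hcar : S_car) (hloc : S_loc) : S_cs := by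
  intro n ι _
  obtain ⟨om, τc, Cc, hom, hτc, hCc, Hc⟩ := hcar n
  refine ⟨min om (1 / (2 * (n + 1))), lt_min hom (by positivity), fun κ h0 h1 M => ?_⟩
  obtain ⟨χ, hχ, hA, hc⟩ := cutoff n h0 h1
  obtain ⟨K, -, hK⟩ := exists_SB_tst ee hχ.1 2
  obtain ⟨C1, hC1, H1⟩ := cacc hloc n ι |M 1| (1 - κ / 4) 1 (by linarith) (by linarith) one_le_two
  obtain ⟨C2, hC2, H2⟩ := cacc hloc n ι |M 1| (39 / 20) 2 (by norm_num) (by norm_num) le_rfl
  set N : ℝ := Fintype.card ι * (2 * (n + 1)) with hN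
  set A : ℝ := 2 * |M 1| ^ 2 * N with hAd
  set B : ℝ := 2 * ((2 * n ^ 2 + 3 * n) * (|M 1| * K)) ^ 2 * N with hBd
  have hB0 : 0 ≤ B := by positivity
  refine ⟨max τc (Cc * (Fintype.card ι * A) + 1), Cc * (Fintype.card ι * B) * (C1 + C2),
    by positivity, fun L W τ hL hW h2 hτ => ?_⟩
  have t1 : 1 ≤ τ := hτc.trans ((le_max_left _ _).trans hτ)
  have t0 : 0 ≤ τ := zero_le_one.trans t1
  have hB : L.BdOn univ 1 (1 / 2) |M 1| := fun x _ => ⟨ell hL.2.1 (min_le_right _ _) x,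
    fun i j => ((hL.2.2 1 x).1 i j).mono le_rfl (le_abs_self _),
    fun i a a' => ((hL.2.2 1 x).2.1 i a a').mono le_rfl (le_abs_self _),
    fun a a' => ((hL.2.2 1 x).2.2 a a').mono le_rfl (le_abs_self _)⟩
  obtain ⟨i1, j1⟩ := H1 L W hL.1 hB hW h2
  obtain ⟨i2, j2⟩ := H2 L W hL.1 hB hW h2
  have hv : ∀ a, IsTest (ball 0 2) fun y => χ y * W a y := fun a => hχ.mul_on isOpen_ball (hW.1 a)
  have k0 : ∀ a, Integrable fun x => Real.exp (2 * τ * phL x) * (χ x * W a x) ^ 2 := fun a =>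
    (Tst.mul_left (sm_wt τ) (hv a).1.sq).integrable
  have k1 : ∀ a, Integrable fun x => Real.exp (2 * τ * phL x) *
      ∑ j, D (ee j) (fun y => χ y * W a y) x ^ 2 := fun a =>
    (Tst.mul_left (sm_wt τ) (Tst.sum _ fun j _ => ((hv a).1.D _).sq)).integrable
  set I0 := ∑ a, ∫ x, Real.exp (2 * τ * phL x) * (χ x * W a x) ^ 2 with hI0
  set I1 := ∑ a, ∫ x, Real.exp (2 * τ * phL x) * ∑ j, D (ee j) (fun y => χ y * W a y) x ^ 2
    with hI1
  have p0 : 0 ≤ I0 := Finset.sum_nonneg fun _ _ => integral_nonneg fun _ => by positivity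
  have p1 : 0 ≤ I1 := Finset.sum_nonneg fun _ _ => integral_nonneg fun _ => by positivity
  have e0 : (fun x => Real.exp (2 * τ * phL x) * vg (fun a y => χ y * W a y) x) = fun x =>
      ∑ a, (Real.exp (2 * τ * phL x) * (χ x * W a x) ^ 2 + Real.exp (2 * τ * phL x) *
        ∑ j, D (ee j) (fun y => χ y * W a y) x ^ 2) := by
    funext x; simp only [vg, Finset.mul_sum, mul_add]
  have k2 : Integrable fun x => Real.exp (2 * τ * phL x) * vg (fun a y => χ y * W a y) x := by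
    rw [e0]; exact integrable_finsetSum _ fun a _ => iadd (k0 a) (k1 a)
  have e1 : ∫ x, Real.exp (2 * τ * phL x) * vg (fun a y => χ y * W a y) x = I0 + I1 := by
    rw [e0, integral_finsetSum _ fun a _ => iadd (k0 a) (k1 a), hI0, hI1,
      ← Finset.sum_add_distrib]
    exact Finset.sum_congr rfl fun a _ => integral_add (k0 a) (k1 a)
  set E1 := Real.exp (2 * τ * Real.exp (-8 * (1 - κ) ^ 2)) with hE1
  set E2 := Real.exp (2 * τ * Real.exp (-18)) with hE2
  have k3 := ((integrable_indicator_iff measurableSet_ball).2 i1).const_mul E1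
  have k4 := ((integrable_indicator_iff measurableSet_ball).2 i2).const_mul E2
  set Y := E1 * nrm (ball 0 1) W + E2 * nrm (ball 0 2) W with hY
  have n1 : 0 ≤ E1 * nrm (ball 0 1) W := mul_nonneg (Real.exp_pos _).le (nrm_nonneg _ _)
  have n2 : 0 ≤ E2 * nrm (ball 0 2) W := mul_nonneg (Real.exp_pos _).le (nrm_nonneg _ _)
  have e2 : ∀ a, ∫ x, Real.exp (2 * τ * phL x) * dgd ee L.γ (fun y => χ y * W a y) x ^ 2 ≤
      A * (I0 + I1) + B * ((C1 + C2) * Y) := fun a => by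
    refine (integral_mono (Tst.mul_left (sm_wt τ) ((hv a).dgd hL.1.1).1.sq).integrable
      (iadd (k2.const_mul A) ((iadd k3 k4).const_mul B))
      (ptw hL.1 hW hχ h0 h1 hc hK (abs_nonneg _) hB t0 a)).trans ?_
    rw [integral_add (k2.const_mul A) ((iadd k3 k4).const_mul B), integral_const_mul,
      integral_const_mul, e1, integral_add k3 k4, integral_const_mul, integral_const_mul,
      integral_indicator measurableSet_ball, integral_indicator measurableSet_ball]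
    refine add_le_add le_rfl (mul_le_mul_of_nonneg_left ?_ hB0)
    have g1 := mul_le_mul_of_nonneg_left j1 (Real.exp_pos _ : 0 < E1).le
    have g2 := mul_le_mul_of_nonneg_left j2 (Real.exp_pos _ : 0 < E2).le
    nlinarith [mul_nonneg hC1 n2, mul_nonneg hC2 n1]
  have e3 : τ ^ 3 * I0 + τ * I1 ≤ Cc * (Fintype.card ι * (A * (I0 + I1) + B * ((C1 + C2) * Y))) := by
    rw [mul_left_comm, ← nsmul_eq_mul]
    conv_lhs => rw [hI0, hI1, Finset.mul_sum, Finset.mul_sum, ← Finset.sum_add_distrib]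
    exact Finset.sum_le_card_nsmul _ _ _ fun a _ => (Hc L.γ hL.1.1 hL.1.2.1
      (fun i j x => (hL.2.1 i j x).mono le_rfl (min_le_left _ _)) τ ((le_max_left _ _).trans hτ) _
      (hv a).1 ((tsupport_mul_subset_left (f := χ) (g := W a)).trans hA)).trans
        (mul_le_mul_of_nonneg_left (e2 a) hCc)
  have e4 : I0 ≤ Cc * (Fintype.card ι * B) * (C1 + C2) * Y := by
    have t2 := mul_le_mul_of_nonneg_right ((le_max_right _ _).trans hτ) (add_nonneg p0 p1)
    have t3 : τ * I0 ≤ τ ^ 3 * I0 :=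
      mul_le_mul_of_nonneg_right (le_self_pow₀ t1 three_ne_zero) p0
    linarith
  refine le_trans ?_ e4
  rw [nrm, Finset.mul_sum]
  refine Finset.sum_le_sum fun a _ => ?_
  have hm : MeasurableSet (ball (0 : En n) (1 + κ) \ ball 0 1) :=
    measurableSet_ball.diff measurableSet_ball
  rw [← integral_const_mul]
  refine le_trans (setIntegral_mono_on ((IntegrableOn.mono_set (h2 a).integrable_sq
    (sdiff_subset.trans (ball_subset_ball (by linarith)))).const_mul _) (k0 a).integrableOn hm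
      fun x hx => ?_) (setIntegral_le_integral (k0 a) (.of_forall fun x => by positivity))
  have x1 : ‖x‖ < 1 + κ := mem_ball_zero_iff.1 hx.1
  have x2 : 1 ≤ ‖x‖ := not_lt.1 fun h => hx.2 (mem_ball_zero_iff.2 h)
  rw [((hc x).1 (by linarith) (by linarith)).eq_of_nhds, one_mul]
  exact mul_le_mul_of_nonneg_right (le_wt t0 x1.le) (sq_nonneg _)

end Vale.Agent.P088
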