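import Vale.Agent.P088.LocBasic

/-!
# P088: the energy estimate
-/

open MeasureTheory Set Metric
open scoped ContDiff Topology

noncomputable section
namespace Vale.Agent.P088
open Vale.Agent.P136 (D Dp Dm Sm Tst)

namespace LocEn

variable {n : ℕ} {γ : MatF n} {U : Set (En n)} {u f : En n → ℝ} {G : Fin n → En n → ℝ}
  {c M N : ℝ}

lemma base (hc : 0 < c) (hγ : SmM γ) (hU : IsOpen U) (hg : GB γ U 0 c M) (hu : IsTest U u)
    (hf : ContDiffOn ℝ ∞ f U) (hG : ∀ i, ContDiffOn ℝ ∞ (G i) U)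
    (he : ∀ x ∈ U, dgd ee γ u x = f x + dvg ee G x) (h1 : HB U 0 u N) (h2 : HB U 0 f N)
    (h3 : ∀ i, HB U 0 (G i) N) (m : Fin n) :
    HB U 0 (D (ee m) u) (2 / c * (1 + n / (2 * c)) * N) := by
  have hs : Sm u := hu.1.sm
  have hX : ∀ i, ContDiffOn ℝ ∞ (XX ee γ u i) U := fun i => (sm_XX hγ hs i).contDiffOn
  have hY : ∀ i, ContDiffOn ℝ ∞ (fun x => XX ee γ u i x - G i x) U := fun i => (hX i).sub (hG i)
  have i1 : ∀ i, IntegrableOn (fun x => (XX ee γ u i x - G i x) * D (ee i) u x) U := fun i =>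
    iOn hU (hY i) (hu.D _)
  have i2 : ∀ i, IntegrableOn (fun x => D (ee i) (fun x => XX ee γ u i x - G i x) x * u x) U :=
    fun i => iOn hU (P136.contDiffOn_D hU (hY i) _) hu
  have e1 : ∑ i, ∫ x in U, (XX ee γ u i x - G i x) * D (ee i) u x = -∫ x in U, f x * u x := by
    rw [Finset.sum_congr rfl fun i _ => weak_ibp hU (hY i) hu (ee i), Finset.sum_neg_distrib,
      ← integral_finsetSum _ fun i _ => i2 i]
    congr 1
    refine setIntegral_congr_fun hU.measurableSet fun x hx => ?_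
    have := he x hx
    simp only [dgd, dvg] at this
    simp only [← Finset.sum_mul]
    rw [Finset.sum_congr rfl fun i _ => P136.D_sub_at (P136.dAt_of_on hU (hX i) hx)
      (P136.dAt_of_on hU (hG i) hx) (ee i), Finset.sum_sub_distrib, this, add_sub_cancel_right]
  have e2 : -∫ x in U, f x * u x ≤ N := by
    rw [← integral_neg]
    calc ∫ x in U, -(f x * u x) ≤ ∫ x in U, (1 / 2 * f x ^ 2 + 1 / 2 * u x ^ 2) :=
          integral_mono (iOn hU hf hu).neg
            ((h2.int.const_mul _).add (h1.int.const_mul _)) fun x => by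
              show -(f x * u x) ≤ 1 / 2 * f x ^ 2 + 1 / 2 * u x ^ 2
              nlinarith [sq_nonneg (f x + u x)]
      _ = 1 / 2 * (∫ x in U, f x ^ 2) + 1 / 2 * ∫ x in U, u x ^ 2 := by
          rw [integral_add (h2.int.const_mul _) (h1.int.const_mul _), integral_const_mul,
            integral_const_mul]
      _ ≤ N := by linarith [h1.le, h2.le]
  have i3 : IntegrableOn (fun x => ∑ i, (XX ee γ u i x - G i x) * D (ee i) u x) U :=
    integrable_finsetSum _ fun i _ => i1 i
  have i4 : IntegrableOn (fun x => 1 / (2 * c) * ∑ i, G i x ^ 2) U :=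
    (integrable_finsetSum _ fun i _ => (h3 i).int).const_mul _
  obtain ⟨a1, a2⟩ := sq_bound (f := D (ee m) u) (g := fun x => 2 / c *
      (∑ i, (XX ee γ u i x - G i x) * D (ee i) u x + 1 / (2 * c) * ∑ i, G i x ^ 2)) hU
    (hs.D _).cont.continuousOn ((i3.add i4).const_mul _) fun x hx => by
      have b1 := (hg x hx).1 fun i => D (ee i) u x
      have b2 : ∑ i, ∑ j, γ i j x * D (ee i) u x * D (ee j) u x =
          ∑ i, XX ee γ u i x * D (ee i) u x := by
        refine Finset.sum_congr rfl fun i _ => ?_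
        simp only [XX, Finset.sum_mul]
        exact Finset.sum_congr rfl fun j _ => by ring
      have b3 : ∑ i, XX ee γ u i x * D (ee i) u x ≤
          ∑ i, ((XX ee γ u i x - G i x) * D (ee i) u x + 1 / (2 * c) * G i x ^ 2 +
            c / 2 * D (ee i) u x ^ 2) := Finset.sum_le_sum fun i _ => by
        have : 0 ≤ 1 / (2 * c) * (G i x - c * D (ee i) u x) ^ 2 := by positivity
        have e : 1 / (2 * c) * (G i x - c * D (ee i) u x) ^ 2 = 1 / (2 * c) * G i x ^ 2 -
            G i x * D (ee i) u x + c / 2 * D (ee i) u x ^ 2 := by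
          field_simp
          ring
        linarith
      rw [Finset.sum_add_distrib, Finset.sum_add_distrib, ← Finset.mul_sum, ← Finset.mul_sum] at b3
      have b4 : D (ee m) u x ^ 2 ≤ ∑ i, D (ee i) u x ^ 2 :=
        Finset.single_le_sum (f := fun i => D (ee i) u x ^ 2) (fun i _ => sq_nonneg _)
          (Finset.mem_univ m)
      refine b4.trans ?_
      rw [div_mul_eq_mul_div, le_div_iff₀ hc]
      linarith
  refine HB.zero a1 (a2.trans ?_)
  rw [integral_const_mul, integral_add i3 i4, integral_const_mul,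
    integral_finsetSum _ fun i _ => i1 i, integral_finsetSum _ fun i _ => (h3 i).int, e1, mul_assoc]
  have b5 : ∑ i, ∫ x in U, G i x ^ 2 ≤ n * N := by
    have := Finset.sum_le_card_nsmul Finset.univ (fun i => ∫ x in U, G i x ^ 2) N
      fun i _ => (h3 i).le
    simpa using this
  refine mul_le_mul_of_nonneg_left ?_ (by positivity)
  calc -(∫ x in U, f x * u x) + 1 / (2 * c) * ∑ i, ∫ x in U, G i x ^ 2
      ≤ N + 1 / (2 * c) * (n * N) := by gcongr
    _ = (1 + n / (2 * c)) * N := by ring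

lemma D_XX (hγ : SmM γ) (hs : Sm u) (m i : Fin n) :
    D (ee m) (XX ee γ u i) = fun x => XX ee γ (D (ee m) u) i x +
      ∑ l, D (ee m) (γ i l) x * D (ee l) u x := by
  funext x
  unfold XX
  rw [P136.D_sum_at _ (fun l _ => ((hγ i l).mul (hs.D _)).dAt x), ← Finset.sum_add_distrib]
  refine Finset.sum_congr rfl fun l _ => ?_
  rw [P136.D_mul_at ((hγ i l).dAt x) ((hs.D _).dAt x), P136.D_comm hs]

lemma eq_D (hγ : SmM γ) (hU : IsOpen U) (hs : Sm u)
    (hf : ContDiffOn ℝ ∞ f U) (hG : ∀ i, ContDiffOn ℝ ∞ (G i) U)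
    (he : ∀ x ∈ U, dgd ee γ u x = f x + dvg ee G x) (m : Fin n) :
    ∀ x ∈ U, dgd ee γ (D (ee m) u) x = D (ee m) f x +
      dvg ee (fun i y => D (ee m) (G i) y - ∑ l, D (ee m) (γ i l) y * D (ee l) u y) x := by
  intro x hx
  have hS : ∀ i, Sm fun y => ∑ l, D (ee m) (γ i l) y * D (ee l) u y := fun i =>
    P136.Sm.sum fun l _ => ((hγ i l).D _).mul (hs.D _)
  have h1 := D_congr_on hU (f := dgd ee γ u) (g := fun x => f x + dvg ee G x) he (ee m) hx
  rw [P136.D_add_at (P136.dAt_of_on hU hf hx) (P136.dAt_of_on hU (on_dvg hU hG) hx)] at h1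
  unfold dgd dvg at h1 ⊢
  rw [P136.D_sum_at _ (fun i _ => ((sm_XX hγ hs i).D _).dAt x),
    P136.D_sum_at _ (fun i _ => P136.dAt_of_on hU (P136.contDiffOn_D hU (hG i) _) hx)] at h1
  have h2 : ∀ i, D (ee m) (D (ee i) (XX ee γ u i)) x = D (ee i) (XX ee γ (D (ee m) u) i) x +
      D (ee i) (fun y => ∑ l, D (ee m) (γ i l) y * D (ee l) u y) x := fun i => by
    rw [P136.D_comm (sm_XX hγ hs i), D_XX hγ hs,
      P136.D_add_at ((sm_XX hγ (hs.D _) i).dAt x) ((hS i).dAt x)]
  have h3 : ∀ i, D (ee i) (fun y => D (ee m) (G i) y - ∑ l, D (ee m) (γ i l) y * D (ee l) u y) x =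
      D (ee m) (D (ee i) (G i)) x -
        D (ee i) (fun y => ∑ l, D (ee m) (γ i l) y * D (ee l) u y) x := fun i => by
    rw [P136.D_sub_at (P136.dAt_of_on hU (P136.contDiffOn_D hU (hG i) _) hx) ((hS i).dAt x),
      P136.D_comm_at ((hG i).contDiffAt (hU.mem_nhds hx))]
  rw [Finset.sum_congr rfl fun i _ => h2 i, Finset.sum_add_distrib] at h1
  rw [Finset.sum_congr rfl fun i _ => h3 i, Finset.sum_sub_distrib]
  linarith

end LocEn

theorem s_en : S_en := by
  intro n j c M hc
  induction j with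
  | zero =>
    have h0 : 0 ≤ 2 / c * (1 + n / (2 * c)) := by positivity
    refine ⟨1 + 2 / c * (1 + n / (2 * c)), by positivity,
      fun γ U u f G N hγ hU hg hu hf hG he h1 h2 h3 => ?_⟩
    have hN := h1.nonneg
    have h4 := mul_nonneg h0 hN
    exact HB.succ (h1.mono le_rfl (by linarith)) fun m =>
      (LocEn.base hc hγ hU hg hu hf hG he h1 h2 h3 m).mono le_rfl (by linarith)
  | succ j ih =>
    obtain ⟨C, hC, H⟩ := ih
    obtain ⟨K, hK⟩ : ∃ K : ℝ, K = 4 ^ n * (4 ^ j * M ^ 2) := ⟨_, rfl⟩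
    have hK0 : 0 ≤ K := by rw [hK]; positivity
    refine ⟨1 + C * (2 + 2 * K), by positivity,
      fun γ U u f G N hγ hU hg hu hf hG he h1 h2 h3 => ?_⟩
    have hN := h1.nonneg
    have hs : Sm u := hu.1.sm
    have h4 : 0 ≤ K * N := mul_nonneg hK0 hN
    have h5 : 0 ≤ C * ((2 + 2 * K) * N) := by positivity
    refine HB.succ (h1.mono (Nat.zero_le _) (by linarith)) fun m => ?_
    have hS : ∀ i l, ContDiffOn ℝ ∞ (fun y => D (ee m) (γ i l) y * D (ee l) u y) U := fun i l =>
      (((hγ i l).D _).mul (hs.D _)).contDiffOn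
    refine (H γ U (D (ee m) u) (D (ee m) f)
      (fun i y => D (ee m) (G i) y - ∑ l, D (ee m) (γ i l) y * D (ee l) u y) ((2 + 2 * K) * N)
      hγ hU (fun x hx => ⟨(hg x hx).1, fun i l => ((hg x hx).2 i l).mono (Nat.le_succ j) le_rfl⟩)
      (hu.D _) (P136.contDiffOn_D hU hf _)
      (fun i => (P136.contDiffOn_D hU (hG i) _).sub (ContDiffOn.sum fun l _ => hS i l))
      (LocEn.eq_D hγ hU hs hf hG he m) ((h1.D m).mono le_rfl (by linarith))
      ((h2.D m).mono le_rfl (by linarith)) fun i => ?_).mono le_rfl (by linarith)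
    have h6 := HB.sum hU Finset.univ (N := 4 ^ j * (M ^ 2 * N)) (by positivity)
      (fun l _ => hS i l) fun l _ => HB.mul hU ((hγ i l).D _).contDiffOn (hs.D _).contDiffOn
        (fun x hx => ((hg x hx).2 i l).D m) (h1.D l)
    refine (HB.sub hU (P136.contDiffOn_D hU (hG i) _) (ContDiffOn.sum fun l _ => hS i l)
      ((h3 i).D m) h6).mono le_rfl (le_of_eq ?_)
    rw [hK, Finset.card_univ, Fintype.card_fin]
    ring

end Vale.Agent.P088
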