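import Vale.Agent.P088.LocStm

/-!
# P088, local elliptic theory: mollifiers, convolutions and the Friedrichs commutator
-/

open MeasureTheory Set Metric
open scoped ContDiff Topology

noncomputable section
namespace Vale.Agent.P088
open Vale.Agent.P136 (D Dp Dm Sm Tst)

namespace LocFr
variable {n : ℕ}

lemma Ds_cons (i : Fin n) (l : List (Fin n)) (f : En n → ℝ) :
    Ds ee (i :: l) f = D (ee i) (Ds ee l f) := rfl

lemma Ds_snoc (l : List (Fin n)) (i : Fin n) (f : En n → ℝ) :
    Ds ee (l ++ [i]) f = Ds ee l (D (ee i) f) := by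
  simp [Ds, List.foldr_append]

lemma sm_Ds {f : En n → ℝ} (hf : Sm f) (l : List (Fin n)) : Sm (Ds ee l f) := by
  induction l with
  | nil => exact hf
  | cons i l ih => exact ih.D _

lemma tst_Ds {f : En n → ℝ} (hf : Tst f) (l : List (Fin n)) : Tst (Ds ee l f) := by
  induction l with
  | nil => exact hf
  | cons i l ih => exact ih.D _

lemma Ds_sub {f g : En n → ℝ} (hf : Sm f) (hg : Sm g) (l : List (Fin n)) :
    Ds ee l (fun x => f x - g x) = fun x => Ds ee l f x - Ds ee l g x := by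
  induction l with
  | nil => rfl
  | cons i l ih =>
    funext x
    rw [Ds_cons, ih, P136.D_sub_at ((sm_Ds hf l).dAt x) ((sm_Ds hg l).dAt x)]
    rfl

lemma Ds_shift (f : En n → ℝ) (z : En n) (l : List (Fin n)) :
    Ds ee l (fun y => f (y + z)) = fun y => Ds ee l f (y + z) := by
  induction l with
  | nil => rfl
  | cons i l ih =>
    funext y
    rw [Ds_cons, ih, Ds_cons]
    simp only [D]
    rw [fderiv_comp_add_right]

lemma sm_shift {f : En n → ℝ} (hf : Sm f) (z : En n) : Sm (fun y => f (y + z)) :=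
  ContDiff.comp hf (contDiff_id.add contDiff_const)

lemma tst_shift {f : En n → ℝ} (hf : Tst f) (z : En n) : Tst (fun y => f (y + z)) :=
  ⟨sm_shift hf.sm z, hf.2.comp_homeomorph (Homeomorph.addRight z)⟩

lemma tst_bdd {f : En n → ℝ} (hf : Tst f) : ∃ B : ℝ, ∀ x, ‖f x‖ ≤ B :=
  hf.2.exists_bound_of_continuous hf.sm.cont

lemma l2c_int {h : En n → ℝ} (hh : L2c h) : Integrable h := by
  have h1 : IntegrableOn h (tsupport h) := by
    have : IsFiniteMeasure (volume.restrict (tsupport h)) :=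
      isFiniteMeasure_restrict.2 hh.2.isCompact.measure_lt_top.ne
    exact (hh.1.restrict _).integrable (by norm_num)
  exact (integrableOn_iff_integrable_of_support_subset (subset_tsupport h)).1 h1

lemma int_mul {h Φ : En n → ℝ} (hh : Integrable h) (hΦ : Tst Φ) :
    Integrable (fun x => h x * Φ x) := by
  obtain ⟨B, hB⟩ := tst_bdd hΦ
  exact hh.mul_bdd hΦ.sm.cont.aestronglyMeasurable (.of_forall hB)

lemma abs_int_le {f g : En n → ℝ} (hg : Integrable g) (h : ∀ x, |f x| ≤ g x) :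
    |∫ x, f x| ≤ ∫ x, g x :=
  norm_integral_le_of_norm_le (f := f) hg (.of_forall h)

/-- The Fubini lemma for convolutions. -/
lemma fub {h ρ Φ : En n → ℝ} (hh : Integrable h) (hρ : Tst ρ) (hΦ : Tst Φ) :
    Integrable (fun z => ρ z * ∫ y, h y * Φ (y + z)) ∧
      ∫ x, cv h ρ x * Φ x = ∫ z, ρ z * ∫ y, h y * Φ (y + z) := by
  obtain ⟨B, hB⟩ := tst_bdd hΦ
  have hρi : Integrable ρ := hρ.integrable
  have hc := hΦ.sm.cont
  have i1 : Integrable (fun p : En n × En n => h p.2 * ρ (p.1 - p.2) * Φ p.1)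
      (volume.prod volume) :=
    (hh.convolution_integrand (ContinuousLinearMap.lsmul ℝ ℝ) hρi).mul_bdd
      (hc.comp continuous_fst).aestronglyMeasurable (.of_forall fun p => hB _)
  have i2 : Integrable (fun p : En n × En n => ρ p.1 * h p.2 * Φ (p.2 + p.1))
      (volume.prod volume) :=
    (hρi.mul_prod hh).mul_bdd
      (hc.comp (continuous_snd.add continuous_fst)).aestronglyMeasurable (.of_forall fun p => hB _)
  have e2 : ∀ z, ρ z * ∫ y, h y * Φ (y + z) = ∫ y, ρ z * h y * Φ (y + z) := by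
    intro z
    rw [← integral_const_mul]
    congr 1; funext y; ring
  simp only [e2]
  refine ⟨i2.integral_prod_left, ?_⟩
  have e1 : ∀ x, cv h ρ x * Φ x = ∫ t, h t * ρ (x - t) * Φ x := by
    intro x
    rw [cv, ← integral_mul_const]
  simp only [e1]
  rw [integral_integral_swap i1,
    integral_integral_swap (f := fun z y => ρ z * h y * Φ (y + z)) i2]
  congr 1; funext t
  rw [← integral_add_left_eq_self (fun x => h t * ρ (x - t) * Φ x) t]
  congr 1; funext z
  rw [add_sub_cancel_left]; ring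

lemma sq_shift (Θ : En n → ℝ) (z : En n) : ∫ y, Θ (y + z) ^ 2 = ∫ y, Θ y ^ 2 :=
  integral_add_right_eq_self (fun y => Θ y ^ 2) z

lemma sqrt_mul_le {a Θ : En n → ℝ} {M : ℝ} (ha : Sm a) (hΘ : Tst Θ) (hM : ∀ x, |a x| ≤ M) :
    √(∫ x, (a x * Θ x) ^ 2) ≤ M * √(∫ x, Θ x ^ 2) := by
  have M0 : 0 ≤ M := (abs_nonneg _).trans (hM 0)
  rw [← Real.sqrt_sq M0, ← Real.sqrt_mul (sq_nonneg M), ← integral_const_mul]
  refine Real.sqrt_le_sqrt (integral_mono (Tst.mul_left ha hΘ).sq.integrable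
    (hΘ.sq.const_mul _).integrable fun x => ?_)
  beta_reduce
  rw [mul_pow]
  exact mul_le_mul_of_nonneg_right (sq_le_sq' (abs_le.1 (hM x)).1 (abs_le.1 (hM x)).2)
    (sq_nonneg _)

lemma dk_aux {h : En n → ℝ} {k : ℕ} {C M : ℝ} (hh : Integrable h) (hC : 0 ≤ C) (hk : DK k h C)
    {Θ : En n → ℝ} (hΘ : Tst Θ) (l₂ : List (Fin n)) :
    ∀ (l₁ : List (Fin n)) (a : En n → ℝ), Sm a →
      (∀ l : List (Fin n), l.length ≤ l₂.length → ∀ x, |Ds ee l a x| ≤ M) →
      l₁.length + l₂.length ≤ k →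
      |∫ x, h x * Ds ee l₁ (fun y => a y * Ds ee l₂ Θ y) x| ≤
        2 ^ l₂.length * M * C * √(∫ x, Θ x ^ 2) := by
  induction l₂ with
  | nil =>
    intro l₁ a ha hM hl
    have h1 := hk l₁ (by simpa using hl) _ (Tst.mul_left ha hΘ)
    have h2 := sqrt_mul_le ha hΘ (hM [] le_rfl)
    calc _ ≤ C * √(∫ x, (a x * Θ x) ^ 2) := h1
      _ ≤ C * (M * √(∫ x, Θ x ^ 2)) := mul_le_mul_of_nonneg_left h2 hC
      _ = _ := by simp only [List.length_nil]; ring
  | cons m l₂ ih =>
    intro l₁ a ha hM hl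
    simp only [List.length_cons] at hM hl ⊢
    have hg := tst_Ds hΘ l₂
    have t1 := Tst.mul_left ha hg
    have t2 := Tst.mul_left (ha.D (ee m)) hg
    have e : (fun y => a y * Ds ee (m :: l₂) Θ y) = fun y =>
        D (ee m) (fun y => a y * Ds ee l₂ Θ y) y - D (ee m) a y * Ds ee l₂ Θ y := by
      funext y
      rw [P136.D_mul_at (ha.dAt y) (hg.sm.dAt y), Ds_cons]; ring
    have h1 := ih (l₁ ++ [m]) a ha (fun l hl => hM l (by omega)) (by simp; omega)
    have h2 := ih l₁ (D (ee m) a) (ha.D _) (fun l hl x => by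
      rw [← Ds_snoc]; exact hM _ (by simp; omega) x) (by omega)
    rw [e, Ds_sub (t1.D _).sm t2.sm, ← Ds_snoc]
    simp only [mul_sub]
    rw [integral_sub (int_mul hh (tst_Ds t1 _)) (int_mul hh (tst_Ds t2 _))]
    calc _ ≤ _ := abs_sub _ _
      _ ≤ _ := add_le_add h1 h2
      _ = _ := by ring

lemma dk_mul {h a : En n → ℝ} {k : ℕ} {C M : ℝ} (hh : Integrable h) (hC : 0 ≤ C)
    (hk : DK k h C) (ha : Sm a) (hM : ∀ l : List (Fin n), l.length ≤ k → ∀ x, |Ds ee l a x| ≤ M) :
    DK k (fun x => a x * h x) (2 ^ k * M * C) := by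
  intro l hl Θ hΘ
  have M0 : 0 ≤ M := (abs_nonneg _).trans (hM [] (Nat.zero_le _) 0)
  have h1 := dk_aux hh hC hk hΘ l [] a ha (fun l' hl' => hM l' (hl'.trans hl)) (by simpa using hl)
  have e : ∫ x, a x * h x * Ds ee l Θ x = ∫ x, h x * Ds ee [] (fun y => a y * Ds ee l Θ y) x := by
    congr 1; funext x
    show _ = h x * (a x * Ds ee l Θ x)
    ring
  rw [e]
  refine h1.trans ?_
  gcongr
  norm_num

lemma mvt {g : En n → ℝ} {M : ℝ} (hg : Sm g) (hM : ∀ i x, |D (ee i) g x| ≤ M) (x z : En n) :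
    |g (x + z) - g x| ≤ n * M * ‖z‖ := by
  have hb : ∀ y, ‖fderiv ℝ g y‖ ≤ n * M := by
    intro y
    have M0 : 0 ≤ (n : ℝ) * M := by
      rcases Nat.eq_zero_or_pos n with rfl | hn
      · simp
      · exact mul_nonneg (Nat.cast_nonneg _) ((abs_nonneg _).trans (hM ⟨0, hn⟩ y))
    refine ContinuousLinearMap.opNorm_le_bound _ M0 fun v => ?_
    have hv : v = ∑ i, v i • ee i := by
      ext j
      simp [ee, Finset.sum_apply, Pi.single_apply]
    have e : fderiv ℝ g y v = ∑ i, v i * D (ee i) g y := by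
      conv_lhs => rw [hv]
      simp [D]
    rw [e, Real.norm_eq_abs]
    calc _ ≤ ∑ i, |v i * D (ee i) g y| := Finset.abs_sum_le_sum_abs _ _
      _ ≤ ∑ _i : Fin n, ‖v‖ * M := by
        refine Finset.sum_le_sum fun i _ => ?_
        rw [abs_mul]
        exact mul_le_mul (PiLp.norm_apply_le v i) (hM i y) (abs_nonneg _) (norm_nonneg _)
      _ = _ := by simp; ring
  have := convex_univ.norm_image_sub_le_of_norm_fderiv_le (𝕜 := ℝ) (fun y _ => hg.dAt y)
    (fun y _ => hb y) (mem_univ x) (mem_univ (x + z))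
  simpa using this

lemma D_scale {F : En n → ℝ} (hF : Sm F) (c d : ℝ) (v : En n) :
    D v (fun x => d * F (c • x)) = fun x => d * c * D v F (c • x) := by
  funext x
  have h := (((hF.dAt (c • x)).hasFDerivAt.comp x ((hasFDerivAt_id x).const_smul c)).const_mul d)
  rw [D]
  refine (congrArg (· v) h.fderiv).trans ?_
  simp [D, mul_assoc]

lemma int_scale (f : En n → ℝ) {ε : ℝ} (hε : 0 < ε) :
    ∫ z, (ε ^ n)⁻¹ * f (ε⁻¹ • z) = ∫ z, f z := by
  rw [integral_const_mul, Measure.integral_comp_inv_smul_of_nonneg volume f hε.le,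
    finrank_euclideanSpace_fin, smul_eq_mul, ← mul_assoc, inv_mul_cancel₀ (by positivity), one_mul]

lemma cv_tst {h ρ : En n → ℝ} (hh : L2c h) (hρ : Tst ρ) : Tst (cv h ρ) :=
  ⟨hρ.2.contDiff_convolution_right (ContinuousLinearMap.lsmul ℝ ℝ)
      (l2c_int hh).locallyIntegrable hρ.1,
    hh.2.convolution (ContinuousLinearMap.lsmul ℝ ℝ) (μ := volume) hρ.2⟩

lemma cv_D {h ρ : En n → ℝ} (hh : Integrable h) (hρ : Tst ρ) (v : En n) :
    D v (cv h ρ) = cv h (D v ρ) := by
  funext x
  have h1 : ContDiff ℝ 1 ρ := hρ.1.of_le (by simp)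
  have e : cv h ρ = convolution h ρ (ContinuousLinearMap.lsmul ℝ ℝ) volume := rfl
  rw [D, e, (hρ.2.hasFDerivAt_convolution_right _ hh.locallyIntegrable h1 x).fderiv,
    convolution_precompR_apply _ hh.locallyIntegrable (hρ.2.fderiv ℝ)
      (h1.continuous_fderiv one_ne_zero)]
  rfl

end LocFr
open LocFr

theorem s_moll : S_moll := by
  intro n
  let b : ContDiffBump (0 : En n) := ⟨1 / 2, 1, by norm_num, by norm_num⟩
  have h0 : Tst (b.normed volume) := ⟨b.contDiff_normed, b.hasCompactSupport_normed⟩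
  refine ⟨∑ j, ∫ z, |D (ee j) (b.normed volume) z| * ‖z‖,
    Finset.sum_nonneg fun j _ => integral_nonneg fun z => by positivity, fun ε hε => ?_⟩
  refine ⟨fun z => (ε ^ n)⁻¹ * b.normed volume (ε⁻¹ • z), ⟨?_, fun z => ?_, fun z hz => ?_, ?_⟩,
    fun j => ?_⟩
  · refine Tst.const_mul _ ⟨h0.sm.comp (contDiff_const_smul ε⁻¹), ?_⟩
    exact h0.2.comp_homeomorph (Homeomorph.smulOfNeZero ε⁻¹ (inv_ne_zero hε.ne'))
  · exact mul_nonneg (by positivity) (b.nonneg_normed _)
  · have h1 : ε⁻¹ • z ∈ Function.support (b.normed volume) := right_ne_zero_of_mul hz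
    rw [b.support_normed_eq, mem_ball_zero_iff, norm_smul, norm_inv, Real.norm_eq_abs,
      abs_of_pos hε, inv_mul_lt_iff₀ hε] at h1
    simpa [b] using h1.le
  · rw [int_scale _ hε, b.integral_normed]
  · rw [D_scale h0.sm]
    refine le_trans (le_of_eq ?_) (Finset.single_le_sum
      (f := fun j => ∫ z, |D (ee j) (b.normed volume) z| * ‖z‖)
      (fun j _ => integral_nonneg fun z => by positivity) (Finset.mem_univ j))
    rw [← int_scale (fun z => |D (ee j) (b.normed volume) z| * ‖z‖) hε]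
    congr 1; funext z
    rw [abs_mul, abs_of_pos (by positivity), norm_smul, norm_inv, Real.norm_eq_abs, abs_of_pos hε]
    ring

theorem s_fr : S_fr := by
  intro n h hh
  have hi := l2c_int hh
  refine ⟨fun ρ hρ => ⟨cv_tst hh hρ, fun j => cv_D hi hρ _⟩, ?_, ?_, ?_⟩
  · intro ρ k C hρ hC hk l hl Θ hΘ
    rw [(fub hi hρ (tst_Ds hΘ l)).2, mul_assoc, ← integral_mul_const]
    refine abs_int_le (hρ.integrable.abs.mul_const _) fun z => ?_
    rw [abs_mul]
    refine mul_le_mul_of_nonneg_left ?_ (abs_nonneg _)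
    have := hk l hl _ (tst_shift hΘ z)
    rwa [Ds_shift, sq_shift] at this
  · intro ρ k C a M hρ hC hk ha hM l hl Θ hΘ
    have hM' : ∀ l : List (Fin n), l.length ≤ k + 1 → ∀ x, |Ds ee l a x| ≤ M := fun l hl x => by
      simpa using hM x l hl
    have hai : Integrable (fun y => a y * h y) :=
      hi.bdd_mul ha.cont.aestronglyMeasurable (.of_forall (hM' [] (Nat.zero_le _)))
    have hΦ := tst_Ds hΘ l
    have f1 := fub hi hρ (Tst.mul_left ha hΦ)
    have f2 := fub hai hρ hΦ
    have c1 : Integrable (fun x => cv h ρ x * (a x * Ds ee l Θ x)) :=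
      ((cv_tst hh hρ).mul_right (ha.mul hΦ.sm)).integrable
    have c2 : Integrable (fun x => cv (fun y => a y * h y) ρ x * Ds ee l Θ x) :=
      hΦ.integrable_cmul (hρ.2.continuous_convolution_right (ContinuousLinearMap.lsmul ℝ ℝ)
        hai.locallyIntegrable hρ.sm.cont) |>.congr (.of_forall fun x => rfl)
    have e : ∫ x, (a x * cv h ρ x - cv (fun y => a y * h y) ρ x) * Ds ee l Θ x =
        ∫ z, ρ z * ∫ y, (a (y + z) - a y) * h y * Ds ee l Θ (y + z) := by
      have e1 : ∀ x, (a x * cv h ρ x - cv (fun y => a y * h y) ρ x) * Ds ee l Θ x =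
          cv h ρ x * (a x * Ds ee l Θ x) - cv (fun y => a y * h y) ρ x * Ds ee l Θ x := by
        intro x; ring
      simp only [e1]
      rw [integral_sub c1 c2, f1.2, f2.2, ← integral_sub f1.1 f2.1]
      congr 1; funext z
      rw [← mul_sub, ← integral_sub (int_mul hi (tst_shift (Tst.mul_left ha hΦ) z))
        (int_mul hai (tst_shift hΦ z))]
      congr 2; funext y; ring
    rw [e, mul_assoc, ← integral_mul_const]
    have hρn : Integrable (fun z => |ρ z| * ‖z‖) :=
      (hρ.sm.cont.abs.mul continuous_norm).integrable_of_hasCompactSupport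
        (hρ.2.comp_left (g := fun t : ℝ => |t|) abs_zero).mul_right
    refine abs_int_le (hρn.mul_const _) fun z => ?_
    rw [abs_mul, mul_assoc]
    refine mul_le_mul_of_nonneg_left ?_ (abs_nonneg _)
    have hb : ∀ l : List (Fin n), l.length ≤ k → ∀ x,
        |Ds ee l (fun y => a (y + z) - a y) x| ≤ n * M * ‖z‖ := by
      intro l hl x
      rw [Ds_sub (sm_shift ha z) ha, Ds_shift]
      exact mvt (sm_Ds ha l) (fun i y => hM' (i :: l) (by simpa using hl) y) x z
    have := dk_mul hi hC hk ((sm_shift ha z).sub ha) hb l hl _ (tst_shift hΘ z)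
    rw [Ds_shift, sq_shift] at this
    refine this.trans (le_of_eq ?_)
    ring
  · intro Φ hΦ
    obtain ⟨L, hL⟩ := hΦ.1.lipschitzWith_of_hasCompactSupport hΦ.2 (by simp)
    refine ⟨L * ∫ y, |h y|, fun ε ρ ⟨hρ, h0, hs, h1⟩ => ?_⟩
    have f1 := fub hi hρ hΦ
    have e : (∫ x, cv h ρ x * Φ x) - ∫ x, h x * Φ x =
        ∫ z, ρ z * ∫ y, h y * (Φ (y + z) - Φ y) := by
      have e1 : ∫ x, h x * Φ x = ∫ z, ρ z * ∫ x, h x * Φ x := by
        rw [integral_mul_const, h1, one_mul]
      rw [f1.2, e1, ← integral_sub f1.1 (hρ.integrable.mul_const _)]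
      congr 1; funext z
      rw [← mul_sub, ← integral_sub (int_mul hi (tst_shift hΦ z)) (int_mul hi hΦ)]
      congr 2; funext y; ring
    have e2 : (L * ∫ y, |h y|) * ε = ∫ z, ρ z * ((L * ∫ y, |h y|) * ε) := by
      rw [integral_mul_const, h1, one_mul]
    rw [e, e2]
    refine abs_int_le (hρ.integrable.mul_const _) fun z => ?_
    by_cases hz : ρ z = 0
    · simp [hz]
    rw [abs_mul, abs_of_nonneg (h0 z)]
    refine mul_le_mul_of_nonneg_left ?_ (h0 z)
    rw [mul_right_comm, mul_comm, ← integral_mul_const]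
    refine abs_int_le (hi.abs.mul_const _) fun y => ?_
    rw [abs_mul]
    refine mul_le_mul_of_nonneg_left ?_ (abs_nonneg _)
    have := hL.dist_le_mul (y + z) y
    rw [Real.dist_eq, dist_eq_norm, add_sub_cancel_left] at this
    exact this.trans (mul_le_mul_of_nonneg_left (hs z hz) L.2)

end Vale.Agent.P088
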