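import Vale.Agent.P088.LocStm

/-!
# P088: Green's formula
-/

open MeasureTheory Set Metric Filter
open scoped ContDiff Topology

noncomputable section
namespace Vale.Agent.P088
open Vale.Agent.P136 (D Sm Tst D_mul_at D_neg D_congr contDiffOn_D dAt_of_on tsupport_D
  D_eq_zero_of_notMem integral_D iadd isub)

namespace LocGreen

variable {n : ℕ} {U : Set (En n)} {f ψ m : En n → ℝ}

theorem tD (h : IsTest U ψ) (v : En n) : IsTest U (D v ψ) :=
  ⟨h.1.D v, (tsupport_D ψ v).trans h.2⟩

theorem tmul (hm : Sm m) (h : IsTest U ψ) : IsTest U fun x => m x * ψ x :=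
  ⟨h.1.mul_left hm, (tsupport_mul_subset_right (f := m) (g := ψ)).trans h.2⟩

theorem iAll (hU : IsOpen U) (hf : ContDiffOn ℝ ∞ f U) (h : IsTest U ψ) :
    Integrable fun x => f x * ψ x := by
  simpa only [mul_comm] using (Tst.mul_on hU h.1 h.2 hf).integrable (μ := volume)

theorem iOn (hU : IsOpen U) (hf : ContDiffOn ℝ ∞ f U) (h : IsTest U ψ) :
    Integrable (fun x => f x * ψ x) (volume.restrict U) := (iAll hU hf h).restrict

theorem weak_ibp (hU : IsOpen U) (hf : ContDiffOn ℝ ∞ f U) (h : IsTest U ψ) (v : En n) :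
    ∫ x in U, f x * D v ψ x = -∫ x in U, D v f x * ψ x := by
  have ht := Tst.mul_on hU h.1 h.2 hf
  have h0 := integral_D (μ := volume) ht v
  have hs : tsupport (fun x => ψ x * f x) ⊆ U :=
    (tsupport_mul_subset_left (f := ψ) (g := f)).trans h.2
  rw [← setIntegral_eq_integral_of_forall_compl_eq_zero (s := U)
    fun x hx => D_eq_zero_of_notMem (fun h1 => hx (hs h1)) v] at h0
  rw [eq_neg_iff_add_eq_zero, ← integral_add (iOn hU hf (tD h v)) (iOn hU (contDiffOn_D hU hf v) h),
    ← h0]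
  refine setIntegral_congr_fun hU.measurableSet fun x hx => ?_
  rw [D_mul_at (h.1.sm.dAt x) (dAt_of_on hU hf hx)]
  ring

variable {ι : Type} [Fintype ι]

theorem good_T {L : Op n ι} (h : L.Good) : L.T.Good :=
  ⟨h.1, h.2.1, fun i a a' => (h.2.2.1 i a' a).neg,
    fun a a' => (h.2.2.2.1 a' a).sub (ContDiff.sum fun i _ => (h.2.2.1 i a' a).D _), h.2.2.2.2⟩

theorem T_T (L : Op n ι) : L.T.T = L := by
  obtain ⟨γ, b, c⟩ := L
  simp only [Op.T, neg_neg, D_neg, Finset.sum_neg_distrib, sub_neg_eq_add, sub_add_cancel]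

theorem dgd_l {γ : Fin n → Fin n → En n → ℝ} (hγ : SmM γ) (hU : IsOpen U)
    (hf : ContDiffOn ℝ ∞ f U) (h : IsTest U ψ) : ∫ x in U, f x * dgd ee γ ψ x =
      -∑ i, ∑ j, ∫ x in U, D (ee i) f x * (γ i j x * D (ee j) ψ x) := by
  have t1 : ∀ i j, IsTest U fun x => γ i j x * D (ee j) ψ x := fun i j => tmul (hγ i j) (tD h _)
  have e : ∀ x, f x * dgd ee γ ψ x =
      ∑ i, ∑ j, f x * D (ee i) (fun x => γ i j x * D (ee j) ψ x) x := by
    intro x
    simp only [dgd, dvg, Finset.mul_sum]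
    refine Finset.sum_congr rfl fun i _ => ?_
    rw [← Finset.mul_sum, ← Vale.Agent.P136.D_sum_at _ fun j _ => (t1 i j).1.sm.dAt x]
    rfl
  simp only [e]
  rw [integral_finsetSum _ fun i _ => integrable_finsetSum _ fun j _ => iOn hU hf (tD (t1 i j) _),
    ← Finset.sum_neg_distrib]
  refine Finset.sum_congr rfl fun i _ => ?_
  rw [integral_finsetSum _ fun j _ => iOn hU hf (tD (t1 i j) _), ← Finset.sum_neg_distrib]
  exact Finset.sum_congr rfl fun j _ => weak_ibp hU hf (t1 i j) _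

theorem XX_on {γ : Fin n → Fin n → En n → ℝ} (hγ : SmM γ) (hU : IsOpen U)
    (hf : ContDiffOn ℝ ∞ f U) (i : Fin n) : ContDiffOn ℝ ∞ (XX ee γ f i) U :=
  ContDiffOn.sum fun j _ => (hγ i j).contDiffOn.mul (contDiffOn_D hU hf _)

theorem dgd_on {γ : Fin n → Fin n → En n → ℝ} (hγ : SmM γ) (hU : IsOpen U)
    (hf : ContDiffOn ℝ ∞ f U) : ContDiffOn ℝ ∞ (dgd ee γ f) U :=
  ContDiffOn.sum (s := Finset.univ) fun i _ => contDiffOn_D hU (XX_on hγ hU hf i) (ee i)

theorem dgd_r {γ : Fin n → Fin n → En n → ℝ} (hγ : SmM γ) (hs : SymM γ) (hU : IsOpen U)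
    (hf : ContDiffOn ℝ ∞ f U) (h : IsTest U ψ) : ∫ x in U, dgd ee γ f x * ψ x =
      -∑ i, ∑ j, ∫ x in U, D (ee i) f x * (γ i j x * D (ee j) ψ x) := by
  simp only [dgd, dvg, Finset.sum_mul]
  rw [integral_finsetSum _ fun i _ => iOn hU (contDiffOn_D hU (XX_on hγ hU hf i) _) h,
    Finset.sum_comm, ← Finset.sum_neg_distrib]
  refine Finset.sum_congr rfl fun i _ => ?_
  rw [← neg_eq_iff_eq_neg, ← weak_ibp hU (XX_on hγ hU hf i) h, ← integral_finsetSum _ fun j _ =>
    iOn hU (contDiffOn_D hU hf _) (tmul (hγ j i) (tD h _))]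
  refine integral_congr_ae (Eventually.of_forall fun x => ?_)
  simp only [XX, Finset.sum_mul]
  exact Finset.sum_congr rfl fun j _ => by rw [hs i j]; ring

theorem tdgd {γ : Fin n → Fin n → En n → ℝ} (hγ : SmM γ) (hU : IsOpen U)
    (hf : ContDiffOn ℝ ∞ f U) (h : IsTest U ψ) :
    Integrable (fun x => f x * dgd ee γ ψ x) (volume.restrict U) := by
  have t1 : ∀ i j, IsTest U fun x => γ i j x * D (ee j) ψ x := fun i j => tmul (hγ i j) (tD h _)
  have e : ∀ x, f x * dgd ee γ ψ x =
      ∑ i, ∑ j, f x * D (ee i) (fun x => γ i j x * D (ee j) ψ x) x := by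
    intro x
    simp only [dgd, dvg, Finset.mul_sum]
    refine Finset.sum_congr rfl fun i _ => ?_
    rw [← Finset.mul_sum, ← Vale.Agent.P136.D_sum_at _ fun j _ => (t1 i j).1.sm.dAt x]
    rfl
  simp only [e]
  exact integrable_finsetSum _ fun i _ => integrable_finsetSum _ fun j _ =>
    iOn hU hf (tD (t1 i j) _)

end LocGreen

open LocGreen in
theorem s_green : S_green := by
  intro n ι _ L U W ψ hL hU hW hψ
  refine ⟨good_T hL, T_T L, ?_⟩
  obtain ⟨hγ, hs, hb, hc, -⟩ := hL
  have e1 : ∀ a, ∫ y in U, W a y * L.T.app ψ a y = (∫ y in U, dgd ee L.γ (W a) y * ψ a y) +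
      (∑ i, ∑ c, ∫ y in U, D (ee i) (W a) y * (L.b i c a y * ψ c y)) +
      ∑ c, ∫ y in U, W a y * (L.c c a y * ψ c y) := by
    intro a
    have i1 := tdgd hγ hU (hW a) (hψ a)
    have i2 := fun i c => iOn hU (hW a) (tD (tmul (hb i c a) (hψ c)) (ee i))
    have i3 := fun c => iOn hU (hW a) (tmul (hc c a) (hψ c))
    have e : ∀ y, W a y * L.T.app ψ a y = W a y * dgd ee L.γ (ψ a) y -
        ∑ i, ∑ c, W a y * D (ee i) (fun x => L.b i c a x * ψ c x) y +
        ∑ c, W a y * (L.c c a y * ψ c y) := by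
      intro y
      have e2 : ∑ c, (∑ i, D (ee i) (L.b i c a) y) * ψ c y =
          ∑ i, ∑ c, D (ee i) (L.b i c a) y * ψ c y := by
        simp only [Finset.sum_mul]
        exact Finset.sum_comm
      simp only [Op.app, Op.T, D_mul_at ((hb _ _ _).dAt y) ((hψ _).1.sm.dAt y), ← Finset.mul_sum,
        neg_mul, sub_mul, Finset.sum_neg_distrib, Finset.sum_sub_distrib, Finset.sum_add_distrib,
        e2]
      ring
    simp only [e]
    rw [integral_add (isub i1 (integrable_finsetSum _ fun i _ => integrable_finsetSum _ fun c _ =>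
      i2 i c)) (integrable_finsetSum _ fun c _ => i3 c), integral_sub i1
      (integrable_finsetSum _ fun i _ => integrable_finsetSum _ fun c _ => i2 i c),
      integral_finsetSum _ fun c _ => i3 c,
      integral_finsetSum _ fun i _ => integrable_finsetSum _ fun c _ => i2 i c,
      dgd_l hγ hU (hW a) (hψ a), dgd_r hγ hs hU (hW a) (hψ a), sub_eq_add_neg,
      ← Finset.sum_neg_distrib (f := fun i => ∫ y in U, _)]
    congr 2
    refine Finset.sum_congr rfl fun i _ => ?_
    rw [integral_finsetSum _ fun c _ => i2 i c, ← Finset.sum_neg_distrib]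
    refine Finset.sum_congr rfl fun c _ => ?_
    rw [weak_ibp hU (hW a) (tmul (hb i c a) (hψ c)), neg_neg]
  have e2 : ∀ a, ∫ y in U, L.app W a y * ψ a y = (∫ y in U, dgd ee L.γ (W a) y * ψ a y) +
      (∑ i, ∑ c, ∫ y in U, D (ee i) (W c) y * (L.b i a c y * ψ a y)) +
      ∑ c, ∫ y in U, W c y * (L.c a c y * ψ a y) := by
    intro a
    have i1 := iOn hU (dgd_on hγ hU (hW a)) (hψ a)
    have i2 := fun i c => iOn hU (contDiffOn_D hU (hW c) (ee i)) (tmul (hb i a c) (hψ a))
    have i3 := fun c => iOn hU (hW c) (tmul (hc a c) (hψ a))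
    have e : ∀ y, L.app W a y * ψ a y = dgd ee L.γ (W a) y * ψ a y +
        ∑ i, ∑ c, D (ee i) (W c) y * (L.b i a c y * ψ a y) +
        ∑ c, W c y * (L.c a c y * ψ a y) := by
      intro y
      simp only [Op.app, add_mul, Finset.sum_mul]
      congr 1
      · congr 1
        exact Finset.sum_congr rfl fun i _ => Finset.sum_congr rfl fun c _ => by ring
      · exact Finset.sum_congr rfl fun c _ => by ring
    simp only [e]
    rw [integral_add (iadd i1 (integrable_finsetSum _ fun i _ => integrable_finsetSum _ fun c _ =>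
      i2 i c)) (integrable_finsetSum _ fun c _ => i3 c), integral_add i1
      (integrable_finsetSum _ fun i _ => integrable_finsetSum _ fun c _ => i2 i c),
      integral_finsetSum _ fun c _ => i3 c,
      integral_finsetSum _ fun i _ => integrable_finsetSum _ fun c _ => i2 i c]
    congr 2
    exact Finset.sum_congr rfl fun i _ => integral_finsetSum _ fun c _ => i2 i c
  simp only [e1, e2, Finset.sum_add_distrib]
  congr 1
  · congr 1
    rw [Finset.sum_comm, Finset.sum_comm (f := fun a i => ∑ c, ∫ y in U,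
      D (ee i) (W c) y * (L.b i a c y * ψ a y))]
    exact Finset.sum_congr rfl fun i _ => Finset.sum_comm
  · exact Finset.sum_comm

end Vale.Agent.P088
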