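import Vale.Agent.P088.LocBasic

/-!
# P088: interior estimates (iteration, Sobolev, scaling)
-/

open MeasureTheory Set Metric
open scoped ContDiff Topology

noncomputable section
namespace Vale.Agent.P088
open Vale.Agent.P136 (D Dp Dm Sm Tst)
namespace LocIE

theorem iter (hloc : S_loc) (n : ℕ) (ι : Type) [Fintype ι] (k : ℕ) {c : ℝ} (M : ℝ) (hc : 0 < c)
    (j : ℕ) (hj : j ≤ k) : ∃ r C : ℝ, 3 / 4 < r ∧ r ≤ 1 ∧ 1 ≤ C ∧
      ∀ (L : Op n ι) (N : ℝ) (W F : ι → En n → ℝ), L.Good → L.BdOn (ball 0 1) k c M →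
        Sol L (ball 0 1) W F → SmOn (ball 0 1) F → (∀ a, HB (ball 0 1) 0 (W a) N) →
        (∀ a, HB (ball 0 1) k (F a) N) → ∀ a, HB (ball 0 r) j (W a) (C * N) := by
  induction j with
  | zero => exact ⟨1, 1, by norm_num, le_rfl, le_rfl, fun L N W F _ _ _ _ h _ a =>
      (one_mul N).symm ▸ h a⟩
  | succ j ih =>
    obtain ⟨r, C, r0, r1, C1, h⟩ := ih (by omega)
    obtain ⟨C', C0, h'⟩ := hloc n ι j c M ((3 / 4 + r) / 2) r hc (by linarith) (by linarith)
    have s : ball (0 : En n) r ⊆ ball 0 1 := ball_subset_ball r1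
    refine ⟨(3 / 4 + r) / 2, C' * C + 1, by linarith, by linarith, by nlinarith,
      fun L N W F h1 h2 h3 h4 h5 h6 a => ?_⟩
    have N0 := (h5 a).nonneg
    refine (h' L 0 W F (C * N) h1 (fun x hx => ?_)
      ⟨fun a => (h3.1 a).mono s, fun x hx => h3.2 x (s hx)⟩ (fun a => (h4 a).mono s)
      (h L N W F h1 h2 h3 h4 h5 h6)
      (fun a => ((h6 a).subset s).mono (by omega) (by nlinarith)) a).mono le_rfl (by nlinarith)
    obtain ⟨a1, a2, a3, a4⟩ := h2 x (s hx)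
    exact ⟨a1, fun i l => (a2 i l).mono hj le_rfl, fun i b b' => (a3 i b b').mono hj le_rfl,
      fun b b' => (a4 b b').mono hj le_rfl⟩

theorem hb {n : ℕ} {ι : Type} [Fintype ι] {x : En n} {r c N : ℝ} (hr : 0 < r)
    {G : ι → En n → ℝ} (h : L2On (ball x r) G) (hN : c ^ 2 * nrm (ball x r) G ≤ N) (a : ι) :
    IntegrableOn (fun z => (c * sc x r (G a) z) ^ 2) (ball 0 1) ∧
      ∫ z in ball 0 1, (c * sc x r (G a) z) ^ 2 ≤ (r ^ n)⁻¹ * N := by
  have e : (fun z => (c * sc x r (G a) z) ^ 2) = sc x r fun y => c ^ 2 * G a y ^ 2 :=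
    funext fun z => mul_pow _ _ _
  rw [e, integral_sc hr, mul_one, integral_const_mul]
  refine ⟨integrableOn_sc hr ((mul_one r).symm ▸ (h a).integrable_sq.const_mul _), ?_⟩
  gcongr
  refine le_trans (mul_le_mul_of_nonneg_left ?_ (sq_nonneg c)) hN
  exact Finset.single_le_sum (f := fun a => ∫ y in ball x r, G a y ^ 2)
    (fun a _ => integral_nonneg fun y => sq_nonneg _) (Finset.mem_univ a)

end LocIE
open LocIE

theorem s_ie1 (hloc : S_loc) (hsob : S_sob) : S_ie1 := by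
  refine fun n ι _ m => ⟨n + m, fun c M hc => ?_⟩
  obtain ⟨r, C, r0, r1, C1, h⟩ := iter hloc n ι (n + m) M hc _ le_rfl
  obtain ⟨C', C0, h'⟩ := hsob n
  obtain ⟨K, -, hK⟩ := exists_cut n n (r := 1 / 2) (R := 3 / 4) (by norm_num) (by norm_num)
  obtain ⟨θ, t1, t2, -, t3, t4⟩ := hK 0
  refine ⟨C' * (4 ^ n * (K ^ 2 * C)), by positivity,
    fun L N W F h1 h2 h3 h4 h5 h6 l hl a y hy => ?_⟩
  have s := contDiffOn_Ds (v := ee) isOpen_ball ((h3.1 a).mono (ball_subset_ball r1)) l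
  have t : IsTest (ball 0 r) fun y => θ y * Ds ee l (W a) y :=
    IsTest.mul_on isOpen_ball ⟨t1, t2.trans (closedBall_subset_ball r0)⟩ s
  have k := h' _ _ (t.mono (ball_subset_ball r1)) ((HB.mul isOpen_ball t1.1.contDiffOn s
    (fun x _ => t4 x) ((h L N W F h1 h2 h3 h4 h5 h6 a).mono (by omega) le_rfl).Ds).of_supp t.2 _) y
  rw [t3 y (ball_subset_closedBall hy), one_mul] at k
  exact k.trans_eq (by ring)

theorem s_ie (h : S_ie1) : S_ie := by
  intro n ι _ m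
  obtain ⟨k, h⟩ := h n ι m
  refine ⟨k, fun c M hc => ?_⟩
  obtain ⟨C, C0, h⟩ := h c M hc
  refine ⟨C, C0, fun L x r N W F h1 r0 r1 h2 h3 h4 h5 h6 h7 l hl a y hy => ?_⟩
  have s : ∀ z ∈ ball (0 : En n) 1, x + r • z ∈ ball x r := fun z hz => by
    simpa only [mul_one] using (mem_ball_sc (x := x) r0).2 hz
  have r2 : |r| ≤ 1 := by rwa [abs_of_pos r0]
  have e : x + r • r⁻¹ • (y - x) = y := by rw [smul_inv_smul₀ r0.ne', add_sub_cancel]
  have k := h (L.sc x r) ((r ^ n)⁻¹ * N) _ _ (good_sc h1 x r) (fun z hz => ?_) (sol_sc h3 s)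
    (fun a => contDiffOn_const.mul (on_sc (h4 a) s)) (fun a => ?_) (fun a l hl => ?_) l hl a
    (r⁻¹ • (y - x)) ((mem_ball_sc (x := x) r0).1 (by rwa [e, mul_one_div]))
  · simp only [Ds_sc, sc, e] at k
    rw [inv_mul_eq_div, ← mul_div_assoc, le_div_iff₀ (by positivity)] at k
    exact le_of_eq_of_le (by ring) k
  · obtain ⟨a1, a2, a3, a4⟩ := h2 _ (s z hz)
    exact ⟨a1, fun i j => (a2 i j).sc r2, fun i b b' => (a3 i b b').csc r2 r2,
      fun b b' => (a4 b b').csc r2 (by rw [abs_pow]; exact pow_le_one₀ (abs_nonneg _) r2)⟩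
  · have := hb (c := 1) (N := N) r0 h5 (by rwa [one_pow, one_mul]) a
    simp only [one_mul] at this
    exact HB.zero this.1 this.2
  · simp only [Ds_cmul, Ds_sc, ← mul_assoc]
    exact hb r0 (h7 l hl).1 (le_of_eq_of_le (by ring) (h7 l hl).2) a

end Vale.Agent.P088
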