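import Vale.Agent.P088.LocStm

/-!
# P088: the multiplier identity
-/

open MeasureTheory Set Metric
open scoped ContDiff Topology

noncomputable section
namespace Vale.Agent.P088
open Vale.Agent.P136

namespace LocId

variable {n : ℕ} {γ : MatF n} {X Y : Fin n → En n → ℝ} {f g q h w : En n → ℝ}

lemma sm_dir (hY : ∀ i, Sm (Y i)) (hf : Sm f) : Sm (dir ee Y f) :=
  Sm.sum fun i _ => (hY i).mul (hf.D _)

lemma sm_dvg (hY : ∀ i, Sm (Y i)) : Sm (dvg ee Y) := Sm.sum fun i _ => (hY i).D _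

lemma sm_XX (hγ : SmM γ) (hf : Sm f) (i : Fin n) : Sm (XX ee γ f i) :=
  Sm.sum fun j _ => (hγ i j).mul (hf.D _)

lemma tst_dir (hY : ∀ i, Sm (Y i)) (hf : Tst f) : Tst (dir ee Y f) :=
  Tst.sum _ fun i _ => Tst.mul_left (hY i) (hf.D _)

lemma tst_dvg (hY : ∀ i, Tst (Y i)) : Tst (dvg ee Y) := Tst.sum _ fun i _ => (hY i).D _

lemma int_dvg (hY : ∀ i, Tst (Y i)) : ∫ x, dvg ee Y x = 0 := by
  unfold dvg
  rw [integral_finsetSum _ fun i _ => ((hY i).D _).integrable]
  exact Finset.sum_eq_zero fun i _ => integral_D (hY i) _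

lemma dvg_mul (hY : ∀ i, Sm (Y i)) (hf : Sm f) (x : En n) :
    dvg ee (fun i y => Y i y * f y) x = dvg ee Y x * f x + dir ee Y f x := by
  simp only [dvg, dir, Finset.sum_mul, ← Finset.sum_add_distrib]
  refine Finset.sum_congr rfl fun i _ => ?_
  rw [D_mul_at ((hY i).dAt x) (hf.dAt x), add_comm]

lemma dir_mul (hf : Sm f) (hg : Sm g) (x : En n) :
    dir ee Y (fun y => f y * g y) x = f x * dir ee Y g x + dir ee Y f x * g x := by
  simp only [dir, Finset.sum_mul, Finset.mul_sum, ← Finset.sum_add_distrib]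
  refine Finset.sum_congr rfl fun i _ => ?_
  rw [D_mul_at (hf.dAt x) (hg.dAt x)]
  ring

lemma dir_sum {F : Fin n → En n → ℝ} (hF : ∀ k, Sm (F k)) (x : En n) :
    dir ee Y (fun y => ∑ k, F k y) x = ∑ k, dir ee Y (F k) x := by
  simp only [dir]
  rw [Finset.sum_comm]
  refine Finset.sum_congr rfl fun i _ => ?_
  rw [D_sum_at _ fun k _ => (hF k).dAt x, Finset.mul_sum]

lemma dir_dir (hX : ∀ i, Sm (X i)) (hw : Sm w) (x : En n) :
    dir ee Y (dir ee X w) x =
      ∑ k, X k x * dir ee Y (D (ee k) w) x + ∑ k, dir ee Y (X k) x * D (ee k) w x := by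
  rw [← Finset.sum_add_distrib]
  refine (dir_sum (fun k => (hX k).mul (hw.D _)) x).trans (Finset.sum_congr rfl fun k _ => ?_)
  exact dir_mul (hX k) (hw.D _) x

lemma swap (hw : Sm w) (x : En n) :
    ∑ k, X k x * dir ee Y (D (ee k) w) x = ∑ k, Y k x * dir ee X (D (ee k) w) x := by
  simp only [dir, Finset.mul_sum]
  rw [Finset.sum_comm]
  refine Finset.sum_congr rfl fun i _ => Finset.sum_congr rfl fun k _ => ?_
  rw [D_comm hw (ee i) (ee k)]
  ring

lemma dir_XX (hγ : SmM γ) (hs : SymM γ) (hw : Sm w) (x : En n) :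
    ∑ k, dir ee X (XX ee γ w k) x * D (ee k) w x =
      ∑ k, XX ee γ w k x * dir ee X (D (ee k) w) x +
        ∑ j, ∑ k, dir ee X (γ j k) x * D (ee j) w x * D (ee k) w x := by
  have e : ∀ k, dir ee X (XX ee γ w k) x =
      ∑ j, (γ k j x * dir ee X (D (ee j) w) x + dir ee X (γ k j) x * D (ee j) w x) := fun k =>
    (dir_sum (fun j => (hγ k j).mul (hw.D _)) x).trans
      (Finset.sum_congr rfl fun j _ => dir_mul (hγ k j) (hw.D _) x)
  simp only [e, XX, Finset.sum_mul, add_mul, Finset.sum_add_distrib]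
  refine congrArg₂ _ ?_ ?_
  · rw [Finset.sum_comm]
    refine Finset.sum_congr rfl fun i _ => Finset.sum_congr rfl fun k _ => ?_
    rw [hs k i]
    ring
  · refine Finset.sum_congr rfl fun i _ => Finset.sum_congr rfl fun k _ => ?_
    ring

lemma quad (c : ℝ) (x : En n) :
    ∑ j, ∑ k, (4 * ∑ i, γ i j x * D (ee i) (X k) x - 2 * dir ee X (γ j k) x + c * γ j k x) *
        D (ee j) w x * D (ee k) w x =
      4 * ∑ k, dir ee (XX ee γ w) (X k) x * D (ee k) w x -
        2 * ∑ j, ∑ k, dir ee X (γ j k) x * D (ee j) w x * D (ee k) w x +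
        c * dir ee (XX ee γ w) w x := by
  have e1 : ∑ k, dir ee (XX ee γ w) (X k) x * D (ee k) w x =
      ∑ j, ∑ k, (∑ i, γ i j x * D (ee i) (X k) x) * D (ee j) w x * D (ee k) w x := by
    rw [Finset.sum_comm]
    refine Finset.sum_congr rfl fun k _ => ?_
    rw [← Finset.sum_mul]
    refine congrArg (· * _) ?_
    simp only [dir, XX, Finset.sum_mul]
    rw [Finset.sum_comm]
    refine Finset.sum_congr rfl fun j _ => Finset.sum_congr rfl fun i _ => ?_
    ring
  have e2 : dir ee (XX ee γ w) w x = ∑ j, ∑ k, γ j k x * D (ee j) w x * D (ee k) w x := by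
    simp only [dir, XX, Finset.sum_mul]
    refine Finset.sum_congr rfl fun j _ => Finset.sum_congr rfl fun i _ => ?_
    ring
  rw [e1, e2, Finset.mul_sum, Finset.mul_sum, Finset.mul_sum, ← Finset.sum_sub_distrib,
    ← Finset.sum_add_distrib]
  refine Finset.sum_congr rfl fun j _ => ?_
  rw [Finset.mul_sum, Finset.mul_sum, Finset.mul_sum, ← Finset.sum_sub_distrib,
    ← Finset.sum_add_distrib]
  refine Finset.sum_congr rfl fun k _ => ?_
  ring

lemma dir_sym (hs : SymM γ) (x : En n) :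
    dir ee (XX ee γ w) h x = ∑ j, XX ee γ h j x * D (ee j) w x := by
  simp only [dir, XX, Finset.sum_mul]
  rw [Finset.sum_comm]
  refine Finset.sum_congr rfl fun j _ => Finset.sum_congr rfl fun i _ => ?_
  rw [hs i j]
  ring

end LocId

open LocId in
theorem s_id : S_id := by
  intro n γ X q h w hγ hs hX hq hh hw
  have hY := sm_XX hγ hw.sm
  have t1 : ∀ i, Tst fun y => XX ee γ w i y * dir ee X w y := fun i =>
    Tst.mul_left (hY i) (tst_dir hX hw)
  have t2 : ∀ i, Tst fun y => X i y * dir ee (XX ee γ w) w y := fun i =>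
    Tst.mul_left (hX i) (tst_dir hY hw)
  have t3 : ∀ i, Tst fun y => XX ee γ w i y * (h y * w y) := fun i =>
    Tst.mul_left (hY i) (Tst.mul_left hh hw)
  have t4 : ∀ i, Tst fun y => X i y * (q y * (w y * w y)) := fun i =>
    Tst.mul_left (hX i) (Tst.mul_left hq (hw.mul_right hw.sm))
  have t0 : Tst fun x => 2 * (dgd ee γ w x + q x * w x) * (-2 * dir ee X w x - h x * w x) :=
    Tst.mul_left (Sm.cmul 2 ((sm_dvg hY).add (hq.mul hw.sm)))
      (((tst_dir hX hw).const_mul (-2)).sub (Tst.mul_left hh hw))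
  have i1 := ((tst_dvg t1).const_mul 4).integrable (μ := volume)
  have i2 := ((tst_dvg t2).const_mul 2).integrable (μ := volume)
  have i3 := ((tst_dvg t3).const_mul 2).integrable (μ := volume)
  have i4 := ((tst_dvg t4).const_mul 2).integrable (μ := volume)
  have i0 := t0.integrable (μ := volume)
  have e : ∫ x, (2 * (dgd ee γ w x + q x * w x) * (-2 * dir ee X w x - h x * w x) +
      4 * dvg ee (fun i y => XX ee γ w i y * dir ee X w y) x -
      2 * dvg ee (fun i y => X i y * dir ee (XX ee γ w) w y) x +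
      2 * dvg ee (fun i y => XX ee γ w i y * (h y * w y)) x +
      2 * dvg ee (fun i y => X i y * (q y * (w y * w y))) x) =
      ∫ x, 2 * (dgd ee γ w x + q x * w x) * (-2 * dir ee X w x - h x * w x) := by
    rw [integral_add (iadd (isub (iadd i0 i1) i2) i3) i4, integral_add (isub (iadd i0 i1) i2) i3,
      integral_sub (iadd i0 i1) i2, integral_add i0 i1, integral_const_mul 4,
      integral_const_mul 2, integral_const_mul 2, integral_const_mul 2, int_dvg t1, int_dvg t2,
      int_dvg t3, int_dvg t4]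
    ring
  rw [← e]
  refine integral_congr_ae (ae_of_all _ fun x => ?_)
  beta_reduce
  rw [quad, ← dir_sym hs, dvg_mul hY (sm_dir hX hw.sm), dvg_mul hX (sm_dir hY hw.sm),
    dvg_mul hY (hh.mul hw.sm), dvg_mul hX (hq.mul (hw.sm.mul hw.sm)), dir_mul hh hw.sm,
    dir_mul hq (hw.sm.mul hw.sm), dir_mul hw.sm hw.sm, dir_dir hX hw.sm, dir_dir hY hw.sm,
    dir_XX hγ hs hw.sm, swap (X := X) hw.sm, dgd]
  ring

end Vale.Agent.P088
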