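import Vale.Agent.P088.LocStm

/-!
# P088, local elliptic theory: a linear change of variables
-/

open MeasureTheory Set Metric Matrix
open scoped ContDiff Topology

noncomputable section
namespace Vale.Agent.P088
open Vale.Agent.P136 (D Dp Dm Sm Tst D_congr D_sum_at D_const_mul_at dAt_of_on contDiffOn_D)

namespace LocLin
variable {n : ℕ}

open scoped MatrixOrder in
/-- Factorisation of a positive definite matrix. -/
theorem exists_fac (Γ : Matrix (Fin n) (Fin n) ℝ) (hs : ∀ i j, Γ i j = Γ j i)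
    (hp : ∀ ξ : Fin n → ℝ, ξ ≠ 0 → 0 < ∑ i, ∑ j, Γ i j * ξ i * ξ j) :
    ∃ a B : Matrix (Fin n) (Fin n) ℝ, a * B = 1 ∧ B * a = 1 ∧ B * Γ * Bᵀ = 1 := by
  have hΓ : Γ.PosDef := by
    refine PosDef.of_dotProduct_mulVec_pos (Matrix.ext fun i j => hs j i) fun ξ hξ => ?_
    refine (hp ξ hξ).trans_eq ?_
    simp only [dotProduct, mulVec, Finset.mul_sum, star_trivial]
    exact Finset.sum_congr rfl fun i _ => Finset.sum_congr rfl fun j _ => by ring
  obtain ⟨a, ⟨u, rfl⟩, ha⟩ :=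
    CStarAlgebra.isStrictlyPositive_iff_eq_mul_star_self.mp hΓ.isStrictlyPositive
  refine ⟨u.1, u.inv, u.val_inv, u.inv_val, ?_⟩
  have e : star u.1 = u.1ᵀ := by
    rw [star_eq_conjTranspose, conjTranspose_eq_transpose_of_trivial]
  rw [ha, e, ← Matrix.mul_assoc, u.inv_val, Matrix.one_mul, ← transpose_mul, u.inv_val,
    transpose_one]

theorem alg1 {a B : Matrix (Fin n) (Fin n) ℝ} (h : a * B = 1) (v : Fin n → ℝ) (i : Fin n) :
    ∑ k, B k i * ∑ m, a m k * v m = v i := by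
  have e : ∀ m, ∑ k, B k i * (a m k * v m) = (1 : Matrix (Fin n) (Fin n) ℝ) m i * v m := by
    intro m
    rw [← h, Matrix.mul_apply, Finset.sum_mul]
    exact Finset.sum_congr rfl fun k _ => by ring
  simp only [Finset.mul_sum]
  rw [Finset.sum_comm, Finset.sum_congr rfl fun m _ => e m]
  simp [Matrix.one_apply]

theorem alg2 {a B : Matrix (Fin n) (Fin n) ℝ} (h : a * B = 1) (u v : Fin n → ℝ) :
    ∑ k, (∑ j, u j * B k j) * ∑ m, a m k * v m = ∑ j, u j * v j := by
  simp only [Finset.sum_mul]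
  rw [Finset.sum_comm]
  refine Finset.sum_congr rfl fun j _ => ?_
  rw [← alg1 h v j, Finset.mul_sum]
  exact Finset.sum_congr rfl fun k _ => by ring

/-- The linear equivalence given by an invertible matrix. -/
theorem exists_equiv {a B : Matrix (Fin n) (Fin n) ℝ} (h1 : a * B = 1) (h2 : B * a = 1) :
    ∃ A : En n ≃L[ℝ] En n, ∀ k, A (ee k) = ∑ i, a i k • ee i := by
  refine ⟨ContinuousLinearEquiv.equivOfInverse (toEuclideanCLM (n := Fin n) (𝕜 := ℝ) a)
    (toEuclideanCLM (n := Fin n) (𝕜 := ℝ) B) (fun z => ?_) (fun z => ?_), fun k => ?_⟩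
  · rw [← mul_apply_eq_comp, ← map_mul, h2, map_one, one_apply_eq_self]
  · rw [← mul_apply_eq_comp, ← map_mul, h1, map_one, one_apply_eq_self]
  · ext j
    simp [ee, Finset.sum_apply, Pi.single_apply]

theorem chain {a : Matrix (Fin n) (Fin n) ℝ} {A : En n ≃L[ℝ] En n}
    (hA : ∀ k, A (ee k) = ∑ i, a i k • ee i) (x₁ : En n) {f : En n → ℝ} {z : En n}
    (hf : DifferentiableAt ℝ f (x₁ + A z)) (k : Fin n) :
    D (ee k) (fun y => f (x₁ + A y)) z = ∑ i, a i k * D (ee i) f (x₁ + A z) := by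
  have h1 : HasFDerivAt (fun y => x₁ + A y) (A : En n →L[ℝ] En n) z :=
    (A : En n →L[ℝ] En n).hasFDerivAt.const_add x₁
  have h2 : HasFDerivAt (fun y => f (x₁ + A y)) _ z := hf.hasFDerivAt.comp z h1
  unfold D
  rw [h2.fderiv, ContinuousLinearMap.comp_apply, ContinuousLinearEquiv.coe_coe, hA, map_sum]
  simp

theorem smT (A : En n ≃L[ℝ] En n) (x₁ : En n) : ContDiff ℝ ∞ fun y => x₁ + A y :=
  contDiff_const.add A.contDiff

/-- The transformed operator. -/
def tr {ι : Type} (L : Op n ι) (B : Matrix (Fin n) (Fin n) ℝ) (T : En n → En n) : Op n ι :=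
  ⟨fun k l z => ∑ j, (∑ i, B k i * L.γ i j (T z)) * B l j,
    fun k a a' z => ∑ i, L.b i a a' (T z) * B k i, fun a a' z => L.c a a' (T z)⟩

theorem quad (γ : Fin n → Fin n → ℝ) (B : Matrix (Fin n) (Fin n) ℝ) (ξ : Fin n → ℝ) :
    ∑ k, ∑ l, (∑ j, (∑ i, B k i * γ i j) * B l j) * ξ k * ξ l =
      ∑ i, ∑ j, γ i j * (ξ ᵥ* B) i * (ξ ᵥ* B) j := by
  have e1 : ∀ k l, ∑ j, (∑ i, B k i * γ i j) * B l j = (B * Matrix.of γ * Bᵀ) k l := fun k l => by
    simp [Matrix.mul_apply]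
  have e2 : ∀ (M : Matrix (Fin n) (Fin n) ℝ) (η : Fin n → ℝ),
      ∑ i, ∑ j, M i j * η i * η j = η ⬝ᵥ M *ᵥ η := fun M η => by
    simp only [dotProduct, mulVec, Finset.mul_sum]
    exact Finset.sum_congr rfl fun i _ => Finset.sum_congr rfl fun j _ => by ring
  simp only [e1]
  rw [e2, ← mulVec_mulVec, ← mulVec_mulVec, dotProduct_mulVec, mulVec_transpose]
  exact (e2 (Matrix.of γ) _).symm

theorem good {ι : Type} {L : Op n ι} (hL : L.Good) {a B : Matrix (Fin n) (Fin n) ℝ}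
    (h2 : B * a = 1) {T : En n → En n} (hT : ContDiff ℝ ∞ T) : (tr L B T).Good := by
  obtain ⟨g1, g2, g3, g4, g5⟩ := hL
  refine ⟨fun k l => ?_, fun k l => ?_, fun k c c' => ?_, fun c c' => (g4 c c').comp hT,
    fun z ξ hξ => ?_⟩
  · change ContDiff ℝ ∞ fun z => ∑ j, (∑ i, B k i * L.γ i j (T z)) * B l j
    exact ContDiff.sum fun j _ => (ContDiff.sum fun i _ =>
      contDiff_const.mul ((g1 i j).comp hT)).mul contDiff_const
  · funext z
    simp only [tr, Finset.sum_mul]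
    rw [Finset.sum_comm]
    refine Finset.sum_congr rfl fun i _ => Finset.sum_congr rfl fun j _ => ?_
    rw [g2 i j]
    ring
  · change ContDiff ℝ ∞ fun z => ∑ i, L.b i c c' (T z) * B k i
    exact ContDiff.sum fun i _ => ((g3 i c c').comp hT).mul contDiff_const
  · refine (g5 (T z) (ξ ᵥ* B) fun h => hξ ?_).trans_eq (quad (fun i j => L.γ i j (T z)) B ξ).symm
    have := congrArg (· ᵥ* a) h
    simpa only [vecMul_vecMul, h2, vecMul_one, zero_vecMul] using this

theorem app_eq {ι : Type} [Fintype ι] {L : Op n ι} (hL : SmM L.γ) {a B : Matrix (Fin n) (Fin n) ℝ}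
    (h1 : a * B = 1) {A : En n ≃L[ℝ] En n} (hA : ∀ k, A (ee k) = ∑ i, a i k • ee i) (x₁ : En n)
    {U : Set (En n)} (hU : IsOpen U) {W : ι → En n → ℝ} (hW : SmOn U W) {z : En n}
    (hz : x₁ + A z ∈ U) (c : ι) :
    (tr L B fun y => x₁ + A y).app (fun c y => W c (x₁ + A y)) c z = L.app W c (x₁ + A z) := by
  have hX : ∀ y, x₁ + A y ∈ U → ∀ k, XX ee (tr L B fun y => x₁ + A y).γ (fun y => W c (x₁ + A y)) k y
      = ∑ i, B k i * XX ee L.γ (W c) i (x₁ + A y) := by
    intro y hy k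
    simp only [XX, tr, chain hA x₁ (dAt_of_on hU (hW c) hy)]
    rw [alg2 h1]
    simp only [Finset.sum_mul, Finset.mul_sum, mul_assoc]
    exact Finset.sum_comm
  have hXs : ∀ i, DifferentiableAt ℝ (XX ee L.γ (W c) i) (x₁ + A z) := fun i =>
    dAt_of_on hU (ContDiffOn.sum fun j _ =>
      (hL i j).contDiffOn.mul (contDiffOn_D hU (hW c) (ee j))) hz
  have hT : DifferentiableAt ℝ (fun y => x₁ + A y) z := (smT A x₁).differentiable (by simp) z
  have hXT : ∀ i, DifferentiableAt ℝ (fun y => XX ee L.γ (W c) i (x₁ + A y)) z := fun i =>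
    DifferentiableAt.comp (g := XX ee L.γ (W c) i) (f := fun y => x₁ + A y) z (hXs i) hT
  have hn : ∀ᶠ y in 𝓝 z, x₁ + A y ∈ U := (smT A x₁).continuous.continuousAt (hU.mem_nhds hz)
  have e1 : dgd ee (tr L B fun y => x₁ + A y).γ (fun y => W c (x₁ + A y)) z =
      dgd ee L.γ (W c) (x₁ + A z) := by
    have e : ∀ k, D (ee k) (XX ee (tr L B fun y => x₁ + A y).γ (fun y => W c (x₁ + A y)) k) z =
        ∑ i, B k i * ∑ m, a m k * D (ee m) (XX ee L.γ (W c) i) (x₁ + A z) := by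
      intro k
      rw [D_congr (hn.mono fun y hy => hX y hy k),
        D_sum_at _ fun i _ => (hXT i).const_mul (B k i)]
      refine Finset.sum_congr rfl fun i _ => ?_
      rw [D_const_mul_at (hXT i), chain hA x₁ (hXs i)]
    simp only [dgd, dvg, e]
    rw [Finset.sum_comm]
    exact Finset.sum_congr rfl fun i _ => alg1 h1 _ i
  have e2 : ∑ k, ∑ c', (tr L B fun y => x₁ + A y).b k c c' z *
      D (ee k) (fun y => W c' (x₁ + A y)) z =
      ∑ i, ∑ c', L.b i c c' (x₁ + A z) * D (ee i) (W c') (x₁ + A z) := by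
    rw [Finset.sum_comm, Finset.sum_comm (f := fun i c' =>
      L.b i c c' (x₁ + A z) * D (ee i) (W c') (x₁ + A z))]
    refine Finset.sum_congr rfl fun c' _ => ?_
    simp only [tr, chain hA x₁ (dAt_of_on hU (hW c') hz)]
    exact alg2 h1 _ _
  unfold Op.app
  rw [e1, e2]
  rfl

end LocLin

open LocLin in
theorem s_lin : S_lin := by
  intro n ι _ L x₁ hL
  obtain ⟨a, B, h1, h2, h3⟩ := exists_fac (Matrix.of fun i j => L.γ i j x₁)
    (fun i j => congrFun (hL.2.1 i j) x₁) (hL.2.2.2.2 x₁)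
  obtain ⟨A, hA⟩ := exists_equiv h1 h2
  refine ⟨A, tr L B fun y => x₁ + A y, good hL h2 (smT A x₁), fun i j => ?_,
    fun U W hU hW => ⟨fun c => (hW.1 c).comp (smT A x₁).contDiffOn fun y hy => hy,
      fun z hz c => ?_⟩⟩
  · have := congrFun (congrFun h3 i) j
    simpa [tr, Matrix.mul_apply, Matrix.one_apply] using this
  · rw [app_eq hL.1 h1 hA x₁ hU hW.1 hz c]
    exact hW.2 _ hz c

end Vale.Agent.P088
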