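import Vale.Agent.P088.LocBasic

/-!
# P088: one step of interior regularity for the system
-/

open MeasureTheory Set Metric Filter
open scoped ContDiff Topology

noncomputable section
namespace Vale.Agent.P088
open Vale.Agent.P136

namespace LocLoc

variable {n : ℕ} {U : Set (En n)} {j : ℕ} {f g : En n → ℝ} {N N' : ℝ}

/-- Smooth with bounded norms. -/
def Q (U : Set (En n)) (j : ℕ) (g : En n → ℝ) (N : ℝ) : Prop := ContDiffOn ℝ ∞ g U ∧ HB U j g N

theorem Q.mul (hU : IsOpen U) (h : Q U j g N) (hf : Sm f) {k : ℕ} {w A : ℝ}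
    (hw : ∀ x ∈ U, SB ee k w 1 f x) (hk : j ≤ k) (hA : w ≤ A) :
    Q U j (fun y => f y * g y) (4 ^ j * (A ^ 2 * N)) :=
  ⟨hf.contDiffOn.mul h.1, HB.mul hU hf.contDiffOn h.1 (fun x hx => (hw x hx).mono hk hA) h.2⟩

theorem Q.add (hU : IsOpen U) (h : Q U j f N) (h' : Q U j g N') :
    Q U j (fun y => f y + g y) (2 * N + 2 * N') := ⟨h.1.add h'.1, HB.add hU h.1 h'.1 h.2 h'.2⟩

theorem Q.sub (hU : IsOpen U) (h : Q U j f N) (h' : Q U j g N') :
    Q U j (fun y => f y - g y) (2 * N + 2 * N') := ⟨h.1.sub h'.1, HB.sub hU h.1 h'.1 h.2 h'.2⟩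

theorem Q.two (h : Q U j f N) : Q U j (fun y => 2 * f y) (2 ^ 2 * N) :=
  ⟨contDiffOn_const.mul h.1, h.2.cmul 2⟩

theorem Q.sum {α : Type} [Fintype α] (hU : IsOpen U) {F : α → En n → ℝ} (hN : 0 ≤ N)
    (h : ∀ i, Q U j (F i) N) : Q U j (fun y => ∑ i, F i y) (4 ^ Fintype.card α * N) :=
  ⟨ContDiffOn.sum fun i _ => (h i).1,
    HB.sum hU Finset.univ hN (fun i _ => (h i).1) fun i _ => (h i).2⟩

theorem ident {ι : Type} [Fintype ι] {L : Op n ι} {W F : ι → En n → ℝ} {θ : En n → ℝ}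
    (hU : IsOpen U) (hL : L.Good) (hS : Sol L U W F) (hθ : Sm θ) (a : ι) {x : En n} (hx : x ∈ U) :
    dgd ee L.γ (fun y => θ y * W a y) x =
      (θ x * F a x - ∑ a', θ x * L.c a a' x * W a' x +
        ∑ i, ∑ a', D (ee i) (fun y => θ y * L.b i a a' y) x * W a' x - dgd ee L.γ θ x * W a x) +
      dvg ee (fun i y => 2 * (XX ee L.γ θ i y * W a y) -
        ∑ a', θ y * L.b i a a' y * W a' y) x := by
  have hW : ∀ a', DifferentiableAt ℝ (W a') x := fun a' => dAt_of_on hU (hS.1 a') hx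
  have hX : ∀ i, DifferentiableAt ℝ (XX ee L.γ θ i) x := fun i => (sm_XX hL.1 hθ i).dAt x
  have hb : ∀ i a', DifferentiableAt ℝ (fun y => θ y * L.b i a a' y) x := fun i a' =>
    (hθ.mul (hL.2.2.1 i a a')).dAt x
  have h1 : ∀ i, D (ee i) (fun y => 2 * (XX ee L.γ θ i y * W a y) -
      ∑ a', θ y * L.b i a a' y * W a' y) x =
      2 * (XX ee L.γ θ i x * D (ee i) (W a) x) + 2 * (D (ee i) (XX ee L.γ θ i) x * W a x) -
        (θ x * ∑ a', L.b i a a' x * D (ee i) (W a') x +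
          ∑ a', D (ee i) (fun y => θ y * L.b i a a' y) x * W a' x) := by
    intro i
    have h2 : ∀ a', DifferentiableAt ℝ (fun y => θ y * L.b i a a' y * W a' y) x := fun a' =>
      (hb i a').mul (hW a')
    have h3 : DifferentiableAt ℝ (fun y => XX ee L.γ θ i y * W a y) x := (hX i).mul (hW a)
    rw [D_sub_at (h3.const_mul 2) (DifferentiableAt.fun_sum fun a' _ => h2 a'),
      D_const_mul_at h3, D_mul_at (hX i) (hW a), D_sum_at _ fun a' _ => h2 a', Finset.mul_sum,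
      ← Finset.sum_add_distrib, mul_add]
    congr 1
    refine Finset.sum_congr rfl fun a' _ => ?_
    rw [D_mul_at (hb i a') (hW a'), mul_assoc]
  have h2 : dgd ee L.γ θ x = ∑ i, D (ee i) (XX ee L.γ θ i) x := rfl
  have h3 : ∑ a', θ x * L.c a a' x * W a' x = θ x * ∑ a', L.c a a' x * W a' x := by
    rw [Finset.mul_sum]
    exact Finset.sum_congr rfl fun _ _ => mul_assoc _ _ _
  rw [dgd_mul hU hL.1 hL.2.1 hθ.contDiffOn (hS.1 a) hx, ← hS.2 x hx a, dvg, h3]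
  simp only [h1, Finset.sum_sub_distrib, Finset.sum_add_distrib, ← Finset.mul_sum,
    ← Finset.sum_mul, ← h2, Op.app]
  ring

end LocLoc

theorem s_loc (hen : S_en) : S_loc := by
  intro n ι _ j c M r R hc hr hR
  obtain ⟨C, hC, hen⟩ := hen n j c M hc
  obtain ⟨K, hK, hcut⟩ := exists_cut n (j + 2) (r := r) (R := (r + R) / 2) hr (by linarith)
  obtain ⟨A, hA⟩ : ∃ A : ℝ, A = K + 2 ^ (j + 1) * (K * M) + n * (2 ^ j * (M * K)) +
    n * (n * (2 ^ (j + 1) * (M * K))) := ⟨_, rfl⟩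
  obtain ⟨s, hs⟩ : ∃ s : ℝ, s = 4 ^ Fintype.card ι := ⟨_, rfl⟩
  obtain ⟨t, ht⟩ : ∃ t : ℝ, t = 4 ^ Fintype.card (Fin n) := ⟨_, rfl⟩
  have s0 : 0 ≤ s := by rw [hs]; positivity
  have t0 : 0 ≤ t := by rw [ht]; positivity
  refine ⟨C * ((10 + 8 * s + 4 * t * s) * (4 ^ j * A ^ 2)), by positivity,
    fun L x W F N hL hB hS hF hW hF' a => ?_⟩
  obtain ⟨θ, hθ, h1, -, h2, h3⟩ := hcut x
  have hU : IsOpen (ball x R) := isOpen_ball
  have hM : 0 ≤ M := ((hB x (mem_ball_self (by linarith))).2.2.2 a a).nonneg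
  have hN : 0 ≤ N := (hW a).nonneg
  have a1 : 0 ≤ 2 ^ (j + 1) * (K * M) := by positivity
  have a2 : 0 ≤ n * (2 ^ j * (M * K)) := by positivity
  have a3 : 0 ≤ n * (n * (2 ^ (j + 1) * (M * K))) := by positivity
  have hT : IsTest (ball x R) θ := ⟨hθ, h1.trans (closedBall_subset_ball (by linarith))⟩
  have qW : ∀ a', LocLoc.Q (ball x R) j (W a') N := fun a' => ⟨hS.1 a', hW a'⟩
  have qF : LocLoc.Q (ball x R) j (F a) N := ⟨hF a, hF' a⟩
  have b1 : ∀ y, SB ee (j + 1) K 1 θ y := fun y => (h3 y).mono (by omega) le_rfl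
  have b2 : ∀ i a', ∀ y ∈ ball x R,
      SB ee (j + 1) (2 ^ (j + 1) * (K * M)) 1 (fun y => θ y * L.b i a a' y) y :=
    fun i a' y hy => SB.mul hθ.sm (hL.2.2.1 i a a') (b1 y) ((hB y hy).2.2.1 i a a')
  have sb : ∀ i a', Sm fun y => θ y * L.b i a a' y := fun i a' => hθ.sm.mul (hL.2.2.1 i a a')
  obtain ⟨P, hP⟩ : ∃ P : ℝ, P = 4 ^ j * (A ^ 2 * N) := ⟨_, rfl⟩
  have P0 : 0 ≤ P := by rw [hP]; positivity
  have q1 := (qW a).mul hU hθ.sm (fun y _ => b1 y) (by omega) (A := A) (by linarith)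
  have q2 := qF.mul hU hθ.sm (fun y _ => b1 y) (by omega) (A := A) (by linarith)
  have q3 := fun a' => (qW a').mul hU (hθ.sm.mul (hL.2.2.2.1 a a'))
    (fun y hy => SB.mul hθ.sm (hL.2.2.2.1 a a') (b1 y) ((hB y hy).2.2.2 a a')) (by omega)
    (A := A) (by linarith)
  have q4 := fun i a' => (qW a').mul hU (sb i a') (b2 i a') (by omega) (A := A) (by linarith)
  have q5 := fun i a' => (qW a').mul hU ((sb i a').D (ee i)) (fun y hy => (b2 i a' y hy).D i)
    le_rfl (A := A) (by linarith)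
  have q6 := fun i => (qW a).mul hU (sm_XX (v := ee) hL.1 hθ.sm i)
    (fun y hy => SB.XX hL.1 hθ.sm (fun i' j' => ((hB y hy).2.1 i' j').mono (Nat.le_succ j) le_rfl)
      (b1 y) i) le_rfl (A := A) (by rw [Fintype.card_fin]; linarith)
  have q7 := (qW a).mul hU (sm_dgd (v := ee) hL.1 hθ.sm)
    (fun y hy => SB.dgd hL.1 hθ.sm (hB y hy).2.1 (h3 y)) le_rfl (A := A)
    (by rw [Fintype.card_fin]; linarith)
  rw [← hP] at q1 q2 q7
  simp only [← hP] at q3 q4 q5 q6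
  have qf := ((q2.sub hU (LocLoc.Q.sum hU P0 q3)).add hU
    (LocLoc.Q.sum hU (by positivity) fun i => LocLoc.Q.sum hU P0 (q5 i))).sub hU q7
  have qG := fun i => (q6 i).two.sub hU (LocLoc.Q.sum hU P0 (q4 i))
  rw [← hs, ← ht] at qf
  simp only [← hs] at qG
  have c1 := mul_nonneg s0 P0
  have c2 := mul_nonneg t0 c1
  have h4 := hen L.γ (ball x R) _ _ _ ((10 + 8 * s + 4 * t * s) * P) hL.1 hU
    (fun y hy => ⟨(hB y hy).1, fun i' j' => ((hB y hy).2.1 i' j').mono (Nat.le_succ j) le_rfl⟩)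
    (hT.mul_on hU (hS.1 a)) qf.1 (fun i => (qG i).1)
    (fun y hy => LocLoc.ident hU hL hS hθ.sm a hy)
    (q1.2.mono le_rfl (by linarith)) (qf.2.mono le_rfl (by linarith))
    fun i => (qG i).2.mono le_rfl (by linarith)
  refine ((h4.subset (ball_subset_ball hR.le)).congr isOpen_ball fun y hy => ?_).mono le_rfl
    (le_of_eq ?_)
  · show θ y * W a y = W a y
    rw [h2 y (ball_subset_closedBall hy), one_mul]
  · rw [hP]
    ring

end Vale.Agent.P088
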