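import Vale.Agent.P088.LocStm

/-!
# P088: pseudoconvexity of the Carleman weight
-/

open MeasureTheory Set Metric Filter
open scoped ContDiff Topology

noncomputable section
namespace Vale.Agent.P088
open Vale.Agent.P136 (D Dp Dm Sm Tst)
open Vale.Agent.P136

namespace LocPos

variable {n : ℕ}

theorem sm_phi : Sm (phL : En n → ℝ) := by
  unfold phL
  exact Sm.exp (Sm.cmul _ (contDiff_norm_sq ℝ))

theorem sm_coord (l : Fin n) : Sm (fun x : En n => x l) :=
  (EuclideanSpace.proj l : En n →L[ℝ] ℝ).contDiff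

theorem D_coord (i l : Fin n) (x : En n) :
    D (ee i) (fun x : En n => x l) x = if i = l then 1 else 0 := by
  have : HasFDerivAt (fun x : En n => x l) (EuclideanSpace.proj l : En n →L[ℝ] ℝ) x :=
    (EuclideanSpace.proj l : En n →L[ℝ] ℝ).hasFDerivAt
  simp only [D, this.fderiv, ee]
  simp [eq_comm]

theorem D_phi (l : Fin n) : D (ee l) (phL : En n → ℝ) = fun x => -16 * (x l * phL x) := by
  funext x
  have h1 : HasFDerivAt (fun x : En n => ‖x‖ ^ 2) (2 • innerSL ℝ x) x :=
    (hasStrictFDerivAt_norm_sq x).hasFDerivAt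
  have h2 : HasFDerivAt (phL : En n → ℝ) _ x := (h1.const_mul (-8)).exp
  simp only [D, h2.fderiv, ee, phL]
  simp [EuclideanSpace.inner_single_right]
  ring

theorem DD_phi (i l : Fin n) (x : En n) : D (ee i) (D (ee l) (phL : En n → ℝ)) x =
    (256 * (x i * x l) - 16 * if i = l then 1 else 0) * phL x := by
  rw [D_phi, D_const_mul_at (((sm_coord l).mul sm_phi).dAt x),
    D_mul_at ((sm_coord l).dAt x) (sm_phi.dAt x), D_coord, D_phi]
  ring

/-- Jets of order two of a matrix function. -/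
abbrev J (n : ℕ) : Type := (Fin n → Fin n → ℝ) × (Fin n → Fin n → Fin n → ℝ) ×
  (Fin n → Fin n → Fin n → Fin n → ℝ)

def jet (γ : MatF n) (x : En n) : J n := (fun i j => γ i j x, fun l i j => D (ee l) (γ i j) x,
  fun l m i j => D (ee l) (D (ee m) (γ i j)) x)

def j0 (n : ℕ) : J n := (fun i j => if i = j then 1 else 0, 0, 0)

def jX (k : Fin n) (z : J n × En n) : ℝ := ∑ l, z.1.1 k l * D (ee l) phL z.2

def jdX (i k : Fin n) (z : J n × En n) : ℝ :=
  ∑ l, (z.1.1 k l * D (ee i) (D (ee l) phL) z.2 + z.1.2.1 i k l * D (ee l) phL z.2)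

def jM (a b : Fin n) (z : J n × En n) : ℝ :=
  4 * ∑ i, z.1.1 i a * jdX i b z - 2 * ∑ l, jX l z * z.1.2.1 l a b + 80 * phL z.2 * z.1.1 a b

def jG (z : J n × En n) : ℝ :=
  2 * ∑ i, jX i z * ∑ k, (jX k z * D (ee i) (D (ee k) phL) z.2 + jdX i k z * D (ee k) phL z.2) -
    80 * (∑ k, jX k z * D (ee k) phL z.2) * phL z.2

def jH (a : Fin n) (z : J n × En n) : ℝ :=
  ∑ i, z.1.1 a i * (∑ k, ∑ l, ((z.1.1 k l * D (ee i) (D (ee k) (D (ee l) phL)) z.2 +
    z.1.2.1 i k l * D (ee k) (D (ee l) phL) z.2) + (z.1.2.1 k k l * D (ee i) (D (ee l) phL) z.2 +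
    z.1.2.2 i k k l * D (ee l) phL z.2)) + 40 * D (ee i) phL z.2)

theorem c0 : Continuous (phL : En n → ℝ) := sm_phi.cont
theorem c1 (l : Fin n) : Continuous (D (ee l) (phL : En n → ℝ)) := (sm_phi.D _).cont
theorem c2 (i l : Fin n) : Continuous (D (ee i) (D (ee l) (phL : En n → ℝ))) :=
  ((sm_phi.D _).D _).cont
theorem c3 (i k l : Fin n) : Continuous (D (ee i) (D (ee k) (D (ee l) (phL : En n → ℝ)))) :=
  (((sm_phi.D _).D _).D _).cont

theorem cont_jX (k : Fin n) : Continuous (jX k) := by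
  unfold jX
  exact continuous_finsetSum _ fun l _ => Continuous.mul (by fun_prop) ((c1 l).comp continuous_snd)

theorem cont_jdX (i k : Fin n) : Continuous (jdX i k) := by
  unfold jdX
  exact continuous_finsetSum _ fun l _ =>
    (Continuous.mul (by fun_prop) ((c2 i l).comp continuous_snd)).add
      (Continuous.mul (by fun_prop) ((c1 l).comp continuous_snd))

theorem cont_jM (a b : Fin n) : Continuous (jM a b) := by
  unfold jM
  refine ((Continuous.mul continuous_const ?_).sub (Continuous.mul continuous_const ?_)).add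
    ((continuous_const.mul (c0.comp continuous_snd)).mul (by fun_prop))
  · exact continuous_finsetSum _ fun i _ => Continuous.mul (by fun_prop) (cont_jdX i b)
  · exact continuous_finsetSum _ fun l _ => (cont_jX l).mul (by fun_prop)

theorem cont_jG : Continuous (jG : J n × En n → ℝ) := by
  unfold jG
  refine (Continuous.mul continuous_const ?_).sub
    ((Continuous.mul continuous_const ?_).mul (c0.comp continuous_snd))
  · exact continuous_finsetSum _ fun i _ => (cont_jX i).mul (continuous_finsetSum _ fun k _ =>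
      ((cont_jX k).mul ((c2 i k).comp continuous_snd)).add
        ((cont_jdX i k).mul ((c1 k).comp continuous_snd)))
  · exact continuous_finsetSum _ fun k _ => (cont_jX k).mul ((c1 k).comp continuous_snd)

theorem cont_jH (a : Fin n) : Continuous (jH a) := by
  unfold jH
  refine continuous_finsetSum _ fun i _ => Continuous.mul (by fun_prop) (Continuous.add ?_
    (continuous_const.mul ((c1 i).comp continuous_snd)))
  exact continuous_finsetSum _ fun k _ => continuous_finsetSum _ fun l _ =>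
    ((Continuous.mul (by fun_prop) ((c3 i k l).comp continuous_snd)).add
      (Continuous.mul (by fun_prop) ((c2 k l).comp continuous_snd))).add
    ((Continuous.mul (by fun_prop) ((c2 i l).comp continuous_snd)).add
      (Continuous.mul (by fun_prop) ((c1 l).comp continuous_snd)))

theorem sm_cX {γ : MatF n} (h : SmM γ) (k : Fin n) : Sm (cXL γ k) := by
  have : cXL γ k = fun y => ∑ l, γ k l y * D (ee l) phL y := rfl
  rw [this]
  exact Sm.sum fun l _ => (h k l).mul (sm_phi.D _)

theorem D_cX {γ : MatF n} (h : SmM γ) (i k : Fin n) : D (ee i) (cXL γ k) = fun x =>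
    ∑ l, (γ k l x * D (ee i) (D (ee l) phL) x + D (ee i) (γ k l) x * D (ee l) phL x) := by
  funext x
  have : cXL γ k = fun y => ∑ l, γ k l y * D (ee l) phL y := rfl
  rw [this, D_sum_at _ fun l _ => ((h k l).mul (sm_phi.D _)).dAt x]
  exact Finset.sum_congr rfl fun l _ => D_mul_at ((h k l).dAt x) ((sm_phi.D _).dAt x) _

theorem eq_jG {γ : MatF n} (h : SmM γ) (x : En n) :
    2 * dir ee (cXL γ) (cqL γ) x - 80 * cqL γ x * phL x = jG (jet γ x, x) := by
  have e : ∀ i, D (ee i) (cqL γ) x =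
      ∑ k, (cXL γ k x * D (ee i) (D (ee k) phL) x + D (ee i) (cXL γ k) x * D (ee k) phL x) := by
    intro i
    have : cqL γ = fun y => ∑ k, cXL γ k y * D (ee k) phL y := rfl
    rw [this, D_sum_at _ fun k _ => ((sm_cX h k).mul (sm_phi.D _)).dAt x]
    exact Finset.sum_congr rfl fun k _ => D_mul_at ((sm_cX h k).dAt x) ((sm_phi.D _).dAt x) _
  have e2 : dir ee (cXL γ) (cqL γ) x = ∑ i, cXL γ i x * D (ee i) (cqL γ) x := rfl
  simp only [e2, e, D_cX h]
  rfl

theorem eq_jH {γ : MatF n} (h : SmM γ) (x : En n) (a : Fin n) :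
    XX ee γ (ch γ) a x = jH a (jet γ x, x) := by
  have e : ∀ i, D (ee i) (ch γ) x = ∑ k, ∑ l, ((γ k l x * D (ee i) (D (ee k) (D (ee l) phL)) x +
      D (ee i) (γ k l) x * D (ee k) (D (ee l) phL) x) + (D (ee k) (γ k l) x *
      D (ee i) (D (ee l) phL) x + D (ee i) (D (ee k) (γ k l)) x * D (ee l) phL x)) +
      40 * D (ee i) phL x := by
    intro i
    have : ch γ = fun y => ∑ k, D (ee k) (cXL γ k) y + 40 * phL y := rfl
    rw [this, D_add_at ((Sm.sum fun k _ => (sm_cX h k).D _).dAt x) ((sm_phi.cmul 40).dAt x),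
      D_const_mul_at (sm_phi.dAt x), D_sum_at _ fun k _ => ((sm_cX h k).D _).dAt x]
    congr 1
    refine Finset.sum_congr rfl fun k _ => ?_
    rw [D_cX h, D_sum_at _ fun l _ => (((h k l).mul ((sm_phi.D _).D _)).add
      (((h k l).D _).mul (sm_phi.D _))).dAt x]
    refine Finset.sum_congr rfl fun l _ => ?_
    rw [D_add_at (((h k l).mul ((sm_phi.D _).D _)).dAt x) ((((h k l).D _).mul (sm_phi.D _)).dAt x),
      D_mul_at ((h k l).dAt x) (((sm_phi.D _).D _).dAt x),
      D_mul_at (((h k l).D _).dAt x) ((sm_phi.D _).dAt x)]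
  have e2 : XX ee γ (ch γ) a x = ∑ i, γ a i x * D (ee i) (ch γ) x := rfl
  simp only [e2, e]
  rfl

theorem jX0 (k : Fin n) (x : En n) : jX k (j0 n, x) = -16 * (x k * phL x) := by
  simp [jX, j0, D_phi]

theorem jdX0 (i k : Fin n) (x : En n) :
    jdX i k (j0 n, x) = (256 * (x i * x k) - 16 * if i = k then 1 else 0) * phL x := by
  simp [jdX, j0, DD_phi]

theorem jM0 (a b : Fin n) (x : En n) :
    jM a b (j0 n, x) = (1024 * (x a * x b) + 16 * if a = b then 1 else 0) * phL x := by
  simp only [jM, jdX0, jX0]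
  simp only [j0, Pi.zero_apply, mul_zero, Finset.sum_const_zero, ite_mul, one_mul, zero_mul,
    Finset.sum_ite_eq', Finset.mem_univ, if_true]
  split_ifs <;> ring

theorem sum_sq (x : En n) : ∑ i, x i ^ 2 = ‖x‖ ^ 2 := by
  rw [EuclideanSpace.norm_sq_eq]
  simp

theorem jG0 (x : En n) :
    jG (j0 n, x) = phL x ^ 3 * ‖x‖ ^ 2 * (262144 * ‖x‖ ^ 2 - 36864) := by
  simp only [jG, jdX0, jX0, DD_phi]
  simp only [D_phi]
  have e1 : ∀ i, ∑ k, (-16 * (x k * phL x) * ((256 * (x i * x k) - 16 * if i = k then 1 else 0) *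
      phL x) + (256 * (x i * x k) - 16 * if i = k then 1 else 0) * phL x *
      (-16 * (x k * phL x))) = -32 * phL x ^ 2 * x i * (256 * ‖x‖ ^ 2 - 16) := by
    intro i
    have : ∀ k, (-16 * (x k * phL x) * ((256 * (x i * x k) - 16 * if i = k then 1 else 0) *
        phL x) + (256 * (x i * x k) - 16 * if i = k then 1 else 0) * phL x *
        (-16 * (x k * phL x))) = -8192 * phL x ^ 2 * x i * x k ^ 2 +
          if i = k then 512 * phL x ^ 2 * x k else 0 := fun k => by split_ifs <;> ring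
    simp only [this, Finset.sum_add_distrib, ← Finset.mul_sum, sum_sq, Finset.sum_ite_eq,
      Finset.mem_univ, if_true]
    ring
  have e2 : ∀ i, -16 * (x i * phL x) * (-32 * phL x ^ 2 * x i * (256 * ‖x‖ ^ 2 - 16)) =
      512 * phL x ^ 3 * (256 * ‖x‖ ^ 2 - 16) * x i ^ 2 := fun i => by ring
  have e3 : ∀ k, -16 * (x k * phL x) * (-16 * (x k * phL x)) = 256 * phL x ^ 2 * x k ^ 2 :=
    fun k => by ring
  simp only [e1, e2, e3, ← Finset.mul_sum, sum_sq]
  ring

theorem ann_compact : IsCompact (Ann n) := by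
  refine (isCompact_closedBall (0 : En n) 2).of_isClosed_subset ?_ fun x hx => ?_
  · have hc : Continuous fun x : En n => ‖x‖ ^ 2 := by fun_prop
    exact (isClosed_le continuous_const hc).inter (isClosed_le hc continuous_const)
  · have := hx.2
    rw [mem_closedBall_zero_iff]
    nlinarith [norm_nonneg x]

theorem unif {F : J n × En n → ℝ} (hF : Continuous F) {d : ℝ} (hd : 0 < d) :
    ∀ᶠ j in 𝓝 (j0 n), ∀ x ∈ Ann n, |F (j, x) - F (j0 n, x)| < d := by
  refine ann_compact.eventually_forall_of_forall_eventually fun y _ => ?_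
  have hc : Continuous fun z : J n × En n => |F (z.1, z.2) - F (j0 n, z.2)| := by fun_prop
  exact hc.continuousAt.eventually_lt continuousAt_const (by simpa using hd)

theorem dist_jet {γ : MatF n} (h : SmM γ) {om : ℝ} (hom : 0 ≤ om) (hN : Near 2 om γ) (x : En n) :
    dist (jet γ x) (j0 n) ≤ om := by
  have e : ∀ l i j, D (ee l) (fun y => γ i j y - if i = j then 1 else 0) = D (ee l) (γ i j) := by
    intro l i j
    funext y
    rw [D_sub_at ((h i j).dAt y) (differentiableAt_const _), D_const, sub_zero]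
  simp only [Prod.dist_eq, max_le_iff, jet, j0, dist_pi_le_iff hom, Real.dist_eq, Pi.zero_apply,
    sub_zero]
  refine ⟨fun i j => ?_, fun l i j => ?_, fun l m i j => ?_⟩
  · simpa [Ds] using hN i j x [] (by simp)
  · have := hN i j x [l] (by simp)
    simpa [Ds, e] using this
  · have := hN i j x [l, m] (by simp)
    simpa [Ds, e] using this

theorem quad (M M0 : Fin n → Fin n → ℝ) (d : ℝ) (h : ∀ a b, |M a b - M0 a b| ≤ d)
    (ξ : Fin n → ℝ) :
    ∑ a, ∑ b, M0 a b * ξ a * ξ b - d * n * ∑ a, ξ a ^ 2 ≤ ∑ a, ∑ b, M a b * ξ a * ξ b := by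
  have e : d * n * ∑ a, ξ a ^ 2 = ∑ a, ∑ b, d * (ξ a ^ 2 + ξ b ^ 2) / 2 := by
    simp only [mul_add, add_div, Finset.sum_add_distrib, ← Finset.sum_div, ← Finset.mul_sum,
      Finset.sum_const, Finset.card_univ, Fintype.card_fin, nsmul_eq_mul]
    ring
  rw [e, ← Finset.sum_sub_distrib]
  refine Finset.sum_le_sum fun a _ => ?_
  rw [← Finset.sum_sub_distrib]
  refine Finset.sum_le_sum fun b _ => ?_
  have h1 := abs_le.1 (h a b)
  nlinarith [mul_nonneg (by linarith : 0 ≤ d + (M a b - M0 a b)) (sq_nonneg (ξ a + ξ b)),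
    mul_nonneg (by linarith : 0 ≤ d - (M a b - M0 a b)) (sq_nonneg (ξ a - ξ b))]

end LocPos

open LocPos in
theorem s_pos : S_pos := by
  intro n
  set c : ℝ := Real.exp (-32) ^ 3 with hc
  have hc0 : 0 < c := by positivity
  have hd : 0 < c / (n + 1) := by positivity
  have h1 : ∀ᶠ j in 𝓝 (j0 n), ∀ a b, ∀ x ∈ Ann n, |jM a b (j, x) - jM a b (j0 n, x)| < c / (n + 1) :=
    eventually_all.2 fun a => eventually_all.2 fun b => unif (cont_jM a b) hd
  obtain ⟨ε, hε, hb⟩ := Metric.eventually_nhds_iff.1 (h1.and (unif cont_jG hc0))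
  obtain ⟨K, hK⟩ := ((isCompact_closedBall (j0 n) ε).prod ann_compact).exists_bound_of_continuousOn
    (continuous_pi fun a => cont_jH a).continuousOn
  refine ⟨ε / 2, c, |K|, by positivity, hc0, abs_nonneg K, fun γ hγ _ hN x hx => ?_⟩
  have hj := dist_jet hγ (by positivity) hN x
  obtain ⟨b1, b2⟩ := hb (y := jet γ x) (by linarith)
  have hφ : Real.exp (-32) ≤ phL x := Real.exp_le_exp.2 (by linarith [hx.2])
  have he : 0 < Real.exp (-32) := Real.exp_pos _
  have he1 : Real.exp (-32) ≤ 1 := Real.exp_le_one_iff.2 (by norm_num)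
  refine ⟨fun ξ => ?_, ?_, fun a => ?_⟩
  · have h2 := quad (fun a b => jM a b (jet γ x, x)) (fun a b => jM a b (j0 n, x)) _
      (fun a b => (b1 a b x hx).le) ξ
    have e1 : ∑ a, ∑ b, jM a b (j0 n, x) * ξ a * ξ b =
        1024 * phL x * (∑ a, x a * ξ a) ^ 2 + 16 * phL x * ∑ a, ξ a ^ 2 := by
      have : ∀ a b, jM a b (j0 n, x) * ξ a * ξ b = 1024 * phL x * ((x a * ξ a) * (x b * ξ b)) +
          if a = b then 16 * phL x * (ξ a * ξ b) else 0 := fun a b => by
        rw [jM0]; split_ifs <;> ring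
      simp only [this, Finset.sum_add_distrib, ← Finset.mul_sum, ← Finset.sum_mul,
        Finset.sum_ite_eq, Finset.mem_univ, if_true, sq]
    have e2 : ∑ j, ∑ k, (4 * ∑ i, γ i j x * D (ee i) (cXL γ k) x -
        2 * dir ee (cXL γ) (γ j k) x + 80 * phL x * γ j k x) * ξ j * ξ k =
        ∑ a, ∑ b, jM a b (jet γ x, x) * ξ a * ξ b := by
      simp only [D_cX hγ]
      rfl
    rw [e2]
    refine le_trans ?_ h2
    rw [e1]
    have s0 : 0 ≤ ∑ a, ξ a ^ 2 := by positivity
    have s1 : c / (n + 1) * n ≤ c := by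
      rw [div_mul_eq_mul_div, div_le_iff₀ (by positivity)]
      nlinarith
    have s2 : c ≤ phL x := (pow_le_of_le_one he.le he1 (by norm_num)).trans hφ
    have s3 : 0 ≤ 1024 * phL x * (∑ a, x a * ξ a) ^ 2 := by
      have : 0 ≤ phL x := he.le.trans hφ
      positivity
    nlinarith [mul_le_mul_of_nonneg_right s1 s0, mul_le_mul_of_nonneg_right s2 s0]
  · rw [eq_jG hγ]
    have h2 := abs_lt.1 (b2 x hx)
    rw [jG0] at h2
    have s1 : c ≤ phL x ^ 3 := by rw [hc]; gcongr
    have s2 : 2 ≤ ‖x‖ ^ 2 * (262144 * ‖x‖ ^ 2 - 36864) := by nlinarith [hx.1]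
    nlinarith
  · rw [eq_jH hγ]
    have := hK (jet γ x, x) ⟨mem_closedBall.2 (by linarith), hx⟩
    exact ((norm_le_pi_norm (fun a => jH a (jet γ x, x)) a).trans this).trans (le_abs_self K)

end Vale.Agent.P088
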