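import Vale.Agent.P088.LocStm

/-!
# P088: the Sobolev supremum bound
-/

open MeasureTheory Set Metric
open scoped ContDiff Topology ENNReal

noncomputable section
namespace Vale.Agent.P088
open Vale.Agent.P136 (D Dp Dm Sm Tst)

namespace LocSob

variable {n : ℕ}

theorem line_eq (x : Fin n → ℝ) (i : Fin n) (t : ℝ) :
    (WithLp.toLp 2 (Function.update x i t) : En n) = WithLp.toLp 2 x + (t - x i) • ee i := by
  ext j
  by_cases h : j = i
  · subst h
    simp [ee]
  · simp [ee, h]

theorem one_dim {g : En n → ℝ} (hg : Tst g) (x : Fin n → ℝ) (i : Fin n) :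
    ‖g (WithLp.toLp 2 x)‖ₑ ≤
      ∫⁻ t, ‖D (ee i) g (WithLp.toLp 2 (Function.update x i t))‖ₑ := by
  obtain ⟨γ, hγ⟩ : ∃ γ : ℝ → En n, γ = fun t => WithLp.toLp 2 (Function.update x i t) := ⟨_, rfl⟩
  have e : γ = fun t => WithLp.toLp 2 x + (t - x i) • ee i := by
    rw [hγ]
    exact funext fun t => line_eq x i t
  have hd : ∀ t, HasDerivAt γ (ee i) t := fun t => by
    have := (((hasDerivAt_id t).sub_const (x i)).smul_const (ee i : En n)).const_add
      (WithLp.toLp 2 x)
    rw [one_smul] at this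
    rw [e]
    exact this
  have hc : ContDiff ℝ 1 γ := by
    rw [e]
    exact contDiff_const.add ((contDiff_id.sub contDiff_const).smul contDiff_const)
  have hemb : Topology.IsClosedEmbedding γ := by
    rw [hγ]
    exact (PiLp.homeomorph 2 fun _ : Fin n => ℝ).symm.isClosedEmbedding.comp
      (isClosedEmbedding_update x i)
  have h1 : ContDiff ℝ 1 (g ∘ γ) := (hg.1.of_le (by exact_mod_cast le_top)).comp hc
  have h2 := HasCompactSupport.enorm_le_lintegral_Ici_deriv h1
    (hg.2.comp_isClosedEmbedding hemb) (x i)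
  have e2 : (g ∘ γ) (x i) = g (WithLp.toLp 2 x) := by
    rw [hγ, Function.comp_apply, Function.update_eq_self]
  rw [e2] at h2
  refine h2.trans ((lintegral_mono' Measure.restrict_le_self le_rfl).trans (le_of_eq ?_))
  refine lintegral_congr fun t => ?_
  rw [((hg.sm.dAt (γ t)).hasFDerivAt.comp_hasDerivAt t (hd t)).deriv, hγ]
  rfl

theorem tst_Ds {g : En n → ℝ} (hg : Tst g) (l : List (Fin n)) : Tst (Ds ee l g) := by
  induction l with
  | nil => exact hg
  | cons i l ih => exact ih.D _

theorem supp_Ds (g : En n → ℝ) (l : List (Fin n)) : tsupport (Ds ee l g) ⊆ tsupport g := by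
  induction l with
  | nil => exact Subset.rfl
  | cons i l ih => exact (P136.tsupport_D _ _).trans ih

theorem meas {h : En n → ℝ} (hh : Tst h) :
    Measurable fun x : Fin n → ℝ => ‖h (WithLp.toLp 2 x)‖ₑ :=
  (hh.sm.cont.comp (PiLp.continuous_toLp 2 _)).measurable.enorm

theorem iter {g : En n → ℝ} (hg : Tst g) (l : List (Fin n)) (hl : l.Nodup) (x : Fin n → ℝ) :
    ‖g (WithLp.toLp 2 x)‖ₑ ≤ lmarginal (fun _ => volume) l.toFinset
      (fun z : Fin n → ℝ => ‖Ds ee l g (WithLp.toLp 2 z)‖ₑ) x := by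
  induction l with
  | nil =>
    rw [List.toFinset_nil, lmarginal_empty]
    exact le_rfl
  | cons i l ih =>
    rw [List.nodup_cons] at hl
    rw [List.toFinset_cons, lmarginal_insert' _ (meas (tst_Ds hg _))
      (fun h => hl.1 (List.mem_toFinset.1 h))]
    exact (ih hl.2).trans (lmarginal_mono (fun z => one_dim (tst_Ds hg l) z i) x)

theorem sup_le {g : En n → ℝ} (hg : Tst g) (y : En n) :
    |g y| ≤ ∫ z, |Ds ee (List.finRange n) g z| := by
  have h1 := iter hg (List.finRange n) (List.nodup_finRange n) (WithLp.ofLp y)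
  have ht := tst_Ds hg (List.finRange n)
  rw [List.toFinset_finRange, lmarginal_univ, ← volume_pi, WithLp.toLp_ofLp] at h1
  have h2 := (PiLp.volume_preserving_toLp (Fin n)).lintegral_comp
    (f := fun z => ‖Ds ee (List.finRange n) g z‖ₑ) ht.sm.cont.measurable.enorm
  have h3 := h1.trans (le_of_eq h2)
  have hi : Integrable (Ds ee (List.finRange n) g) volume := ht.integrable
  rw [← ofReal_integral_norm_eq_lintegral_enorm hi, ← ofReal_norm,
    ENNReal.ofReal_le_ofReal_iff (integral_nonneg fun _ => norm_nonneg _)] at h3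
  exact h3

theorem cs {μ : Measure (En n)} [IsFiniteMeasure μ] (hV : 0 < μ.real univ) {h : En n → ℝ}
    (h1 : Integrable h μ) (h2 : Integrable (fun y => h y ^ 2) μ) :
    (∫ y, h y ∂μ) ^ 2 ≤ μ.real univ * ∫ y, h y ^ 2 ∂μ := by
  obtain ⟨V, hV'⟩ : ∃ V, V = μ.real univ := ⟨_, rfl⟩
  obtain ⟨I, hI⟩ : ∃ I, I = ∫ y, h y ∂μ := ⟨_, rfl⟩
  have a0 : 0 ≤ ∫ y, (V ^ 2 * h y ^ 2 - 2 * V * I * h y + I ^ 2) ∂μ :=
    integral_nonneg fun y => by
      have := sq_nonneg (V * h y - I)
      change 0 ≤ V ^ 2 * h y ^ 2 - 2 * V * I * h y + I ^ 2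
      linarith
  rw [integral_add (P136.isub (h2.const_mul _) (h1.const_mul _)) (integrable_const _),
    integral_sub (h2.const_mul _) (h1.const_mul _), integral_const_mul, integral_const_mul,
    integral_const, smul_eq_mul, ← hV', ← hI] at a0
  rw [← hV', ← hI]
  rw [← hV'] at hV
  refine le_of_mul_le_mul_left ?_ hV
  linarith

end LocSob

theorem s_sob : S_sob := by
  intro n
  refine ⟨volume.real (ball (0 : En n) 1), measureReal_nonneg, fun g N hg hN y => ?_⟩
  obtain ⟨h1, h2⟩ := hN (List.finRange n) (by simp)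
  have ht := LocSob.tst_Ds hg.1 (List.finRange n)
  have hs := (LocSob.supp_Ds g (List.finRange n)).trans hg.2
  have h3 := LocSob.sup_le hg.1 y
  generalize Ds ee (List.finRange n) g = h at h1 h2 ht hs h3
  have hfin : IsFiniteMeasure (volume.restrict (ball (0 : En n) 1)) :=
    isFiniteMeasure_restrict.2 measure_ball_lt_top.ne
  have eV : (volume.restrict (ball (0 : En n) 1)).real univ = volume.real (ball (0 : En n) 1) :=
    measureReal_restrict_apply_univ _
  have hV : 0 < volume.real (ball (0 : En n) 1) :=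
    ENNReal.toReal_pos (measure_ball_pos _ _ one_pos).ne' measure_ball_lt_top.ne
  have hi : Integrable h volume := ht.integrable
  have h4 := LocSob.cs (μ := volume.restrict (ball (0 : En n) 1)) (eV ▸ hV) (h := fun z => |h z|)
    hi.abs.integrableOn (by simp only [sq_abs]; exact h1)
  simp only [sq_abs] at h4
  rw [eV, setIntegral_eq_integral_of_forall_compl_eq_zero fun z hz => by
    rw [image_eq_zero_of_notMem_tsupport fun h => hz (hs h), abs_zero]] at h4
  calc g y ^ 2 = |g y| ^ 2 := (sq_abs _).symm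
    _ ≤ (∫ z, |h z|) ^ 2 := pow_le_pow_left₀ (abs_nonneg _) h3 2
    _ ≤ _ := h4
    _ ≤ _ := mul_le_mul_of_nonneg_left h2 hV.le

end Vale.Agent.P088
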