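import Vale.Agent.P088.LocStm

/-!
# P088: the three-ball inequality at scale one
-/

open MeasureTheory Set Metric Filter
open scoped Topology

noncomputable section
namespace Vale.Agent.P088
namespace LocTB1

variable {n : ℕ} {ι : Type} [Fintype ι] {U V : Set (En n)} {W : ι → En n → ℝ}

theorem nonneg (U : Set (En n)) (W : ι → En n → ℝ) : 0 ≤ nrm U W :=
  Finset.sum_nonneg fun _ _ => integral_nonneg fun _ => sq_nonneg _

theorem mono (h : L2On V W) (hUV : U ⊆ V) : nrm U W ≤ nrm V W :=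
  Finset.sum_le_sum fun a _ => setIntegral_mono_set (h a).integrable_sq
    (Eventually.of_forall fun _ => sq_nonneg _) hUV.eventuallyLE

theorem diff {T : Set (En n)} (h : L2On T W) (hV : V ⊆ T) (hU : MeasurableSet U) (hUV : U ⊆ V) :
    nrm V W = nrm (V \ U) W + nrm U W := by
  unfold nrm
  rw [← Finset.sum_add_distrib]
  refine Finset.sum_congr rfl fun a _ => ?_
  have h1 : IntegrableOn (fun y => W a y ^ 2) T := (h a).integrable_sq
  rw [setIntegral_sdiff hU (h1.mono_set hV) hUV, sub_add_cancel]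

theorem kappa {ν : ℝ} (hν : 0 < ν) : ∃ κ : ℝ, 0 < κ ∧ κ ≤ 1 / 4 ∧
    Real.exp (-8 * (1 - κ) ^ 2) - Real.exp (-8 * (1 + κ) ^ 2) ≤
      ν * (Real.exp (-8 * (1 + κ) ^ 2) - Real.exp (-18)) := by
  have h1 : Continuous fun κ : ℝ => Real.exp (-8 * (1 - κ) ^ 2) - Real.exp (-8 * (1 + κ) ^ 2) := by
    fun_prop
  have h2 : Continuous fun κ : ℝ => ν * (Real.exp (-8 * (1 + κ) ^ 2) - Real.exp (-18)) := by
    fun_prop
  have h3 := (h1.continuousAt (x := 0)).eventually_lt h2.continuousAt (by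
    rw [sub_zero, add_zero, sub_self]
    exact mul_pos hν (sub_pos.2 (Real.exp_lt_exp.2 (by norm_num))))
  have h4 : ∀ᶠ κ in 𝓝[>] (0 : ℝ), κ ∈ Ioo (0 : ℝ) (1 / 4) := Ioo_mem_nhdsGT (by norm_num)
  obtain ⟨κ, h5, h6⟩ := (h4.and (h3.filter_mono nhdsWithin_le_nhds)).exists
  exact ⟨κ, h5.1, h5.2.le, h6.le⟩

theorem main {a b d ν τ₀ C ε X N₁ N₂ : ℝ} (hd : d < a) (hb : b - a ≤ ν * (a - d))
    (hC : 0 ≤ C) (hε : 0 < ε) (h1 : 0 ≤ N₁)
    (hs : ε ≤ Real.exp (-(2 * max τ₀ 0 * (a - d))))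
    (h : ∀ τ, τ₀ ≤ τ → Real.exp (2 * τ * a) * X ≤
      C * (Real.exp (2 * τ * b) * N₁ + Real.exp (2 * τ * d) * N₂)) :
    X ≤ C * (ε * N₂ + ε ^ (-ν) * N₁) := by
  have h2 : 0 < a - d := sub_pos.2 hd
  obtain ⟨τ, hτ⟩ : ∃ τ, τ = -Real.log ε / (2 * (a - d)) := ⟨_, rfl⟩
  have h3 : Real.log ε = -(2 * τ * (a - d)) := by rw [hτ]; field_simp
  have h4 : max τ₀ 0 ≤ τ := by
    have h5 := (Real.log_le_iff_le_exp hε).2 hs
    rw [h3, neg_le_neg_iff] at h5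
    have h6 := le_of_mul_le_mul_right h5 h2
    linarith
  have h5 : 0 ≤ τ := (le_max_right _ _).trans h4
  have h6 : Real.exp (2 * τ * d) = Real.exp (2 * τ * a) * ε := by
    rw [← Real.exp_log hε, ← Real.exp_add, h3]
    congr 1
    ring
  have h7 : Real.exp (2 * τ * b) ≤ Real.exp (2 * τ * a) * ε ^ (-ν) := by
    rw [Real.rpow_def_of_pos hε, ← Real.exp_add, h3, Real.exp_le_exp]
    nlinarith [mul_le_mul_of_nonneg_left hb h5]
  refine le_of_mul_le_mul_left ((h τ ((le_max_left _ _).trans h4)).trans ?_)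
    (Real.exp_pos (2 * τ * a))
  rw [h6]
  calc _ ≤ C * (Real.exp (2 * τ * a) * ε ^ (-ν) * N₁ + Real.exp (2 * τ * a) * ε * N₂) := by gcongr
    _ = _ := by ring

end LocTB1

theorem s_tb1 (hcs : S_cs) : S_tb1 := by
  intro n ι _ ν hν
  obtain ⟨om, hom, h⟩ := hcs n ι
  obtain ⟨κ, h0, h1, h2⟩ := LocTB1.kappa hν
  refine ⟨2, κ, om, h0, by linarith, hom, fun M => ?_⟩
  obtain ⟨τ₀, C, hC, h⟩ := h κ h0 h1 M
  have hd : Real.exp (-18) < Real.exp (-8 * (1 + κ) ^ 2) := Real.exp_lt_exp.2 (by nlinarith)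
  obtain ⟨e, he⟩ : ∃ e, e = Real.exp (-(2 * max τ₀ 0 *
    (Real.exp (-8 * (1 + κ) ^ 2) - Real.exp (-18)))) := ⟨_, rfl⟩
  have e0 : 0 < e := he ▸ Real.exp_pos _
  refine ⟨C + 1 + e⁻¹, by positivity, fun L ε W hL hε hε' hS hW => ?_⟩
  have n1 := LocTB1.nonneg (ball 0 1) W
  have n2 := LocTB1.nonneg (ball 0 2) W
  have s2 : ball (0 : En n) (1 + κ) ⊆ ball 0 2 := ball_subset_ball (by linarith)
  have h3 : 1 ≤ ε ^ (-ν) := Real.one_le_rpow_of_pos_of_le_one_of_nonpos hε hε' (by linarith)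
  have h4 : nrm (ball 0 1) W ≤ ε ^ (-ν) * nrm (ball 0 1) W := le_mul_of_one_le_left n1 h3
  have h5 : 0 ≤ ε * nrm (ball 0 2) W := by positivity
  have h6 : 0 ≤ e⁻¹ := by positivity
  rcases le_total ε e with h7 | h7
  · have h8 := LocTB1.main hd h2 hC hε n1 (he ▸ h7) fun τ hτ => h L W τ hL hS hW hτ
    rw [LocTB1.diff hW s2 measurableSet_ball (ball_subset_ball (ε₁ := 1) (by linarith))]
    nlinarith [mul_nonneg h6 (add_nonneg h5 (n1.trans h4))]
  · have h8 : 1 ≤ e⁻¹ * ε := by rwa [inv_mul_eq_div, one_le_div e0]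
    have h9 := LocTB1.mono hW s2
    nlinarith [mul_le_mul_of_nonneg_right h8 n2, mul_nonneg h6 (n1.trans h4),
      mul_nonneg hC (add_nonneg h5 (n1.trans h4))]

end Vale.Agent.P088
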