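import Vale.Agent.P088.LocStm

/-!
# P088: unique continuation from the three-ball inequality
-/

open MeasureTheory Set Metric Filter
open scoped ContDiff Topology

noncomputable section
namespace Vale.Agent.P088
namespace LocUCP

variable {n : ℕ} {ι : Type} [Fintype ι] {L : Op n ι} {W : ι → En n → ℝ} {κ C : ℝ}

theorem mono {U V : Set (En n)} (h : Sol L U W 0) (hV : V ⊆ U) : Sol L V W 0 :=
  ⟨fun a => (h.1 a).mono hV, fun x hx => h.2 x (hV hx)⟩

theorem step (hκ : κ ≤ 1 / 2)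
    (h : ∀ (x : En n) (ρ ε : ℝ), 0 < ρ → ρ ≤ 1 → 0 < ε → ε ≤ 1 → Sol L (ball x (2 * ρ)) W 0 →
      L2On (ball x (2 * ρ)) W → nrm (ball x ((1 + κ) * ρ)) W ≤
        C * (ε * nrm (ball x (2 * ρ)) W + ε ^ (-1 : ℝ) * nrm (ball x ρ) W))
    (hW : Sol L (ball 0 1) W 0) {z : En n} {ρ : ℝ} (hz : dist z 0 < 1 / 10) (hρ : 0 < ρ)
    (hρ' : ρ ≤ 1 / 4) (h0 : ∀ y ∈ ball z ρ, ∀ a, W a y = 0) :
    ∀ y ∈ ball z ((1 + κ) * ρ), ∀ a, W a y = 0 := by
  have s1 : closedBall z (2 * ρ) ⊆ ball 0 1 := closedBall_subset_ball' (by linarith)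
  have s2 := ball_subset_closedBall.trans s1
  have s3 : ball z ((1 + κ) * ρ) ⊆ ball z (2 * ρ) := ball_subset_ball (by nlinarith)
  have c1 : ∀ a, ContinuousOn (W a) (ball 0 1) := fun a => (hW.1 a).continuousOn
  have i1 : ∀ a, IntegrableOn (fun y => W a y ^ 2) (ball z (2 * ρ)) := fun a =>
    ((((c1 a).mono s1).pow 2).integrableOn_compact (isCompact_closedBall _ _)).mono_set
      ball_subset_closedBall
  have n0 : nrm (ball z ρ) W = 0 := Finset.sum_eq_zero fun a _ =>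
    setIntegral_eq_zero_of_forall_eq_zero fun y hy => by simp [h0 y hy a]
  have t : Tendsto (fun ε : ℝ => C * (ε * nrm (ball z (2 * ρ)) W)) (𝓝[>] 0)
      (𝓝 (C * (0 * nrm (ball z (2 * ρ)) W))) :=
    (Continuous.tendsto (by fun_prop) 0).mono_left nhdsWithin_le_nhds
  have n1 := ge_of_tendsto t (by
    filter_upwards [Ioc_mem_nhdsGT one_pos] with ε hε
    simpa only [n0, mul_zero, add_zero] using h z ρ ε hρ (by linarith) hε.1 hε.2 (mono hW s2)
      fun a => (memLp_two_iff_integrable_sq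
        (((c1 a).mono s2).aestronglyMeasurable measurableSet_ball)).2 (i1 a))
  have n2 : ∀ a ∈ Finset.univ, 0 ≤ ∫ y in ball z ((1 + κ) * ρ), W a y ^ 2 := fun a _ =>
    integral_nonneg fun y => sq_nonneg _
  rw [zero_mul, mul_zero] at n1
  intro y hy a
  have n3 := (setIntegral_eq_zero_iff_of_nonneg_ae (Eventually.of_forall fun y => sq_nonneg _)
    ((i1 a).mono_set s3)).1 ((Finset.sum_eq_zero_iff_of_nonneg n2).1
      (le_antisymm n1 (Finset.sum_nonneg n2)) a (Finset.mem_univ a))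
  exact pow_eq_zero_iff two_ne_zero |>.1 (Measure.eqOn_open_of_ae_eq n3 isOpen_ball
    (((c1 a).mono (s3.trans s2)).pow 2) continuousOn_const hy)

end LocUCP
open LocUCP

theorem s_ucp (hlin : S_lin) (hbd : S_bd) (htb : S_tb) : S_ucp := by
  intro n ι _ L U W x₀ hL hU hc hW hx₀ h0 x hx a
  have key : U ⊆ {x | ∀ᶠ y in 𝓝 x, ∀ a, W a y = 0} := by
    refine hc.subset_of_closure_inter_subset isOpen_setOfPred_eventually_nhds
      ⟨x₀, hx₀, eventually_all.2 h0⟩ fun x₁ hx₁ => ?_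
    obtain ⟨A, L₁, g₁, e₁, t₁⟩ := hlin n ι L x₁ hL
    obtain ⟨r, hr, hr'⟩ := Metric.isOpen_iff.1 (hU.preimage (f := fun z => x₁ + A z) (by fun_prop))
      0 (by simpa using hx₁.2)
    obtain ⟨k, κ, om, κ0, κ1, om0, hM⟩ := htb n ι 1 one_pos
    obtain ⟨s, L₂, M, s0, -, g₂, t₂⟩ := hbd n ι L₁ k om r g₁ e₁ om0 hr
    obtain ⟨C, -, hC⟩ := hM M
    have w := t₂ _ (mono (t₁ U W hU hW) hr')
    let Φ : En n ≃ₜ En n := ((Homeomorph.smulOfNeZero s s0.ne').trans
      ((Homeomorph.addLeft 0).trans A.toHomeomorph)).trans (Homeomorph.addLeft x₁)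
    have Φ0 : Φ 0 = x₁ := by simp [Φ]
    have nb : ∀ ρ, 0 < ρ → ∀ z, Φ '' ball z ρ ∈ 𝓝 (Φ z) := fun ρ hρ z =>
      Φ.isOpenMap.image_mem_nhds (ball_mem_nhds z hρ)
    obtain ⟨_, ⟨z, hz, rfl⟩, hz'⟩ := mem_closure_iff_nhds.1 hx₁.1 _
      (Φ0 ▸ nb (1 / 10) (by norm_num) 0)
    obtain ⟨ρ, hρ, hρ'⟩ := Metric.eventually_nhds_iff_ball.1
      (Φ.continuous.continuousAt.eventually hz')
    have ind : ∀ j : ℕ, ∀ y ∈ ball z (min (1 / 4) ((1 + κ) ^ j * ρ)), ∀ a, W a (Φ y) = 0 := by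
      intro j
      induction j with
      | zero => exact fun y hy => hρ' y (ball_subset_ball (by simp) hy)
      | succ j ih =>
        refine fun y hy => step κ1 (fun x ρ ε => hC L₂ x ρ ε _ g₂) w hz (by positivity)
          (min_le_left _ _) ih y (ball_subset_ball ?_ hy)
        rw [mul_min_of_nonneg _ _ (by positivity), pow_succ', mul_assoc]
        exact min_le_min_right _ (by linarith)
    obtain ⟨j, hj⟩ := pow_unbounded_of_one_lt (1 / 4 / ρ) (by linarith : 1 < 1 + κ)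
    have i2 := ind j
    rw [min_eq_left ((div_lt_iff₀ hρ).1 hj).le] at i2
    filter_upwards [Φ0 ▸ nb (1 / 10) (by norm_num) 0]
    rintro _ ⟨y, hy, rfl⟩
    exact i2 y (ball_subset_ball' (by rw [dist_comm]; linarith [mem_ball.1 hz]) hy)
  exact (key hx).self_of_nhds a

end Vale.Agent.P088
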