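import Vale.Agent.P088.LocBasic

/-!
# P088, local elliptic theory: the Weyl lemma for the system
-/

open MeasureTheory Set Metric
open scoped ContDiff Topology

noncomputable section
namespace Vale.Agent.P088
open Vale.Agent.P136 (D Dp Dm Sm Tst)

namespace LocWeyl

variable {n : ℕ} {U : Set (En n)}

lemma locL2_of (hU : IsOpen U) {f : En n → ℝ} (hf : MemLp f 2 (volume.restrict U)) :
    LocL2 U f := fun θ hθ => by
  have h := (memLp_indicator_iff_restrict hU.measurableSet).2 (hf.mul' (r := 2)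
    ((hθ.1.1.continuous.memLp_top_of_hasCompactSupport hθ.1.2 volume).restrict U))
  rwa [indicator_eq_self.2 fun x hx => ?_] at h
  by_contra h0
  exact hx (by simp [hθ.zero_off h0])

lemma l2c {f θ : En n → ℝ} (hf : LocL2 U f) (hθ : IsTest U θ) : L2c fun x => θ x * f x :=
  ⟨hf θ hθ, hθ.1.2.mul_right⟩

lemma loc_int {f θ : En n → ℝ} (hf : LocL2 U f) (hθ : IsTest U θ) :
    Integrable fun x => f x * θ x :=
  (l2c hf hθ).integrable.congr (.of_forall fun _ => mul_comm _ _)

lemma loc_mul {f m : En n → ℝ} (hm : Sm m) (hf : LocL2 U f) : LocL2 U fun x => m x * f x :=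
  fun θ hθ => by simpa only [mul_assoc] using hf _ (hθ.mul_right hm)

lemma loc_add {f g : En n → ℝ} (hf : LocL2 U f) (hg : LocL2 U g) :
    LocL2 U fun x => f x + g x := fun θ hθ => by
  simp only [mul_add]
  exact (hf θ hθ).add (hg θ hθ)

lemma loc_sum {κ : Type} [Fintype κ] {f : κ → En n → ℝ} (hf : ∀ c, LocL2 U (f c)) :
    LocL2 U fun x => ∑ c, f c x := fun θ hθ => by
  simpa only [Finset.mul_sum] using memLp_finsetSum Finset.univ fun c _ => hf c θ hθ

lemma loc_on (hU : IsOpen U) {f : En n → ℝ} (hf : ContDiffOn ℝ ∞ f U) : LocL2 U f :=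
  fun _ hθ => tst_memLp (hθ.mul_on hU hf).1

lemma wk_on (hU : IsOpen U) (k : ℕ) {f : En n → ℝ} (hf : ContDiffOn ℝ ∞ f U) : WK k U f :=
  fun θ hθ => by
    obtain ⟨N, hN⟩ := exists_HB_tst (hθ.mul_on hU hf).1 univ k
    exact ⟨√N, Real.sqrt_nonneg _, DK.of_HB (hθ.mul_on hU hf).1 hN⟩

lemma wk_mul {k : ℕ} {f m : En n → ℝ} (hm : Sm m) (hf : WK k U f) :
    WK k U fun x => m x * f x :=
  fun θ hθ => by simpa only [mul_assoc] using hf _ (hθ.mul_right hm)

lemma wk_add {k : ℕ} {f g : En n → ℝ} (lf : LocL2 U f) (lg : LocL2 U g) (hf : WK k U f)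
    (hg : WK k U g) : WK k U fun x => f x + g x := fun θ hθ => by
  obtain ⟨C, hC, H⟩ := hf θ hθ
  obtain ⟨C', hC', H'⟩ := hg θ hθ
  refine ⟨C + C', add_nonneg hC hC', ?_⟩
  simp only [mul_add]
  exact DK.add (l2c lf hθ) (l2c lg hθ) H H'

lemma wk_sum {k : ℕ} {κ : Type} [Fintype κ] {f : κ → En n → ℝ} (h0 : ∀ c, LocL2 U (f c))
    (hf : ∀ c, WK k U (f c)) : WK k U fun x => ∑ c, f c x := fun θ hθ => by
  choose C hC H using fun c => hf c θ hθ
  have hS : 0 ≤ ∑ c, C c := Finset.sum_nonneg fun c _ => hC c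
  refine ⟨(Finset.univ : Finset κ).card * ∑ c, C c, mul_nonneg (Nat.cast_nonneg _) hS, ?_⟩
  have e : (fun x => θ x * ∑ c, f c x) = fun x => ∑ c, θ x * f c x :=
    funext fun x => Finset.mul_sum _ _ _
  rw [e]
  exact DK.sum Finset.univ (F := fun c x => θ x * f c x) (fun c _ => l2c (h0 c) hθ)
    fun c _ => (H c).mono le_rfl
      (Finset.single_le_sum (f := C) (fun c _ => hC c) (Finset.mem_univ c))

lemma wk_base {f : En n → ℝ} (hf : LocL2 U f) : WK 0 U f := fun θ hθ =>
  ⟨_, Real.sqrt_nonneg _, DK.zero (hf θ hθ)⟩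

open Classical in
lemma test_single {ι : Type} [Fintype ι] (a : ι) {ψ : En n → ℝ} (hψ : IsTest U ψ) :
    Tests U (Pi.single a ψ : ι → En n → ℝ) := fun c => by
  by_cases h : c = a
  · rwa [h, Pi.single_eq_same]
  · rw [Pi.single_eq_of_ne h]
    exact IsTest.zero

lemma D_zero (w : En n) : D w (0 : En n → ℝ) = 0 := by
  funext x
  exact P136.D_const 0 w x

lemma dgd_zero (γ : Fin n → Fin n → En n → ℝ) (y : En n) : dgd ee γ (0 : En n → ℝ) y = 0 := by
  have h : ∀ i, XX ee γ (0 : En n → ℝ) i = 0 := fun i => by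
    funext x
    simp [XX, D_zero]
  simp [dgd, dvg, h, D_zero]

open Classical in
lemma T_single {ι : Type} [Fintype ι] (L : Op n ι) (a : ι) (ψ : En n → ℝ) (c : ι) (y : En n) :
    L.T.app (Pi.single a ψ) c y = (if c = a then dgd ee L.γ ψ y else 0) -
      ∑ i, L.b i a c y * D (ee i) ψ y +
      (L.c a c y - ∑ i, D (ee i) (L.b i a c) y) * ψ y := by
  simp only [Op.app, Op.T]
  refine congrArg₂ _ ?_ ?_
  · rw [sub_eq_add_neg, ← Finset.sum_neg_distrib]
    refine congrArg₂ _ ?_ (Finset.sum_congr rfl fun i _ => ?_)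
    · split_ifs with h
      · rw [h, Pi.single_eq_same]
      · rw [Pi.single_eq_of_ne h, dgd_zero]
    · rw [Finset.sum_eq_single a (fun a' _ h => ?_) fun h => absurd (Finset.mem_univ a) h,
        Pi.single_eq_same, neg_mul]
      rw [Pi.single_eq_of_ne h, D_zero]
      simp
  · rw [Finset.sum_eq_single a (fun a' _ h => ?_) fun h => absurd (Finset.mem_univ a) h,
      Pi.single_eq_same]
    rw [Pi.single_eq_of_ne h]
    simp

open Classical in
lemma rhs_single {ι : Type} [Fintype ι] (F : ι → En n → ℝ) (a : ι) {ψ : En n → ℝ}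
    (hψ : IsTest U ψ) :
    ∑ c, ∫ y in U, F c y * (Pi.single a ψ : ι → En n → ℝ) c y = ∫ y, F a y * ψ y := by
  rw [Finset.sum_eq_single a (fun c _ h => by simp [Pi.single_eq_of_ne h])
      fun h => absurd (Finset.mem_univ a) h, Pi.single_eq_same,
    setIntegral_eq_integral_of_forall_compl_eq_zero fun x hx => by simp [hψ.zero_off hx]]

lemma on_app {ι : Type} [Fintype ι] {L : Op n ι} (hL : L.Good) (hU : IsOpen U)
    {W : ι → En n → ℝ} (hs : SmOn U W) (a : ι) : ContDiffOn ℝ ∞ (L.app W a) U :=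
  ((on_dgd hU hL.1 (hs a)).add (ContDiffOn.sum fun i _ => ContDiffOn.sum fun c _ =>
    (hL.2.2.1 i a c).contDiffOn.mul (P136.contDiffOn_D hU (hs c) _))).add
    (ContDiffOn.sum fun c _ => (hL.2.2.2.1 a c).contDiffOn.mul (hs c))

end LocWeyl

open LocWeyl

theorem s_weyl (hg : S_green) (h1 : S_wkStep) (h2 : S_wkSmooth) : S_weyl := by
  classical
  intro n ι _ L U W F hL hU hW hF hψ
  have l0 := fun a => locL2_of hU (hW a)
  have key : ∀ k a, WK k U (W a) := by
    intro k
    induction k with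
    | zero => exact fun a => wk_base (l0 a)
    | succ k ih =>
      intro a
      have m1 : ∀ i c, Sm (L.b i a c) := fun i c => hL.2.2.1 i a c
      have m2 : ∀ c, Sm fun x => -(L.c a c x - ∑ i, D (ee i) (L.b i a c) x) := fun c =>
        P136.Sm.neg (P136.Sm.sub (hL.2.2.2.1 a c) (P136.Sm.sum fun i _ => P136.Sm.D (m1 i c) _))
      have lF := loc_on hU (hF a)
      have lS := loc_sum fun c => loc_mul (m2 c) (l0 c)
      refine h1 n k L.γ U (W a)
        (fun x => F a x + ∑ c, -(L.c a c x - ∑ i, D (ee i) (L.b i a c) x) * W c x)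
        (fun i x => ∑ c, L.b i a c x * W c x) hL.1 hL.2.1 hL.2.2.2.2 hU (l0 a)
        (loc_add lF lS) (fun i => loc_sum fun c => loc_mul (m1 i c) (l0 c)) (ih a)
        (wk_add lF lS (wk_on hU k (hF a))
          (wk_sum (fun c => loc_mul (m2 c) (l0 c)) fun c => wk_mul (m2 c) (ih c)))
        (fun i => wk_sum (fun c => loc_mul (m1 i c) (l0 c)) fun c => wk_mul (m1 i c) (ih c))
        fun ψ ht => ?_
      have i0 : Integrable fun x => W a x * dgd ee L.γ ψ x := loc_int (l0 a) (ht.dgd hL.1)
      have i1 := fun i c => loc_int (loc_mul (m1 i c) (l0 c)) (ht.D (ee i))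
      have i2 := fun c => loc_int (loc_mul (m2 c) (l0 c)) ht
      have e : ∀ c, ∫ y in U, W c y * L.T.app (Pi.single a ψ) c y =
          (if c = a then ∫ x, W a x * dgd ee L.γ ψ x else 0) -
            ∑ i, (∫ x, L.b i a c x * W c x * D (ee i) ψ x) -
            ∫ x, -(L.c a c x - ∑ i, D (ee i) (L.b i a c) x) * W c x * ψ x := fun c => by
        have i3 : Integrable fun x => if c = a then W a x * dgd ee L.γ ψ x else 0 := by
          split_ifs
          exacts [i0, integrable_zero _ _ _]
        have e1 : (if c = a then ∫ x, W a x * dgd ee L.γ ψ x else 0) =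
            ∫ x, if c = a then W a x * dgd ee L.γ ψ x else 0 := by split_ifs <;> simp
        rw [setIntegral_eq_integral_of_forall_compl_eq_zero fun x hx => by
          simp [T_single, ht.zero_off hx, (ht.D _).zero_off hx,
            (ht.dgd (v := ee) hL.1).zero_off hx], e1, ← integral_finsetSum _ fun i _ => i1 i c,
          ← integral_sub i3 (integrable_finsetSum _ fun i _ => i1 i c),
          ← integral_sub (P136.isub i3 (integrable_finsetSum _ fun i _ => i1 i c)) (i2 c)]
        refine integral_congr_ae (.of_forall fun x => ?_)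
        have e4 : ∑ i, L.b i a c x * W c x * D (ee i) ψ x =
            W c x * ∑ i, L.b i a c x * D (ee i) ψ x := by
          rw [Finset.mul_sum]
          exact Finset.sum_congr rfl fun i _ => by ring
        simp only [T_single, e4]
        split_ifs with h
        · rw [h]
          ring
        · ring
      have h3 := hψ _ (test_single a ht)
      rw [rhs_single F a ht] at h3
      simp only [e, Finset.sum_sub_distrib, Finset.sum_ite_eq', Finset.mem_univ, if_true] at h3
      have e2 : ∀ i, ∫ x, (∑ c, L.b i a c x * W c x) * D (ee i) ψ x =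
          ∑ c, ∫ x, L.b i a c x * W c x * D (ee i) ψ x := fun i => by
        simp only [Finset.sum_mul]
        exact integral_finsetSum _ fun c _ => i1 i c
      have e3 : ∫ x, (F a x + ∑ c, -(L.c a c x - ∑ i, D (ee i) (L.b i a c) x) * W c x) * ψ x =
          (∫ x, F a x * ψ x) +
            ∑ c, ∫ x, -(L.c a c x - ∑ i, D (ee i) (L.b i a c) x) * W c x * ψ x := by
        rw [← integral_finsetSum _ fun c _ => i2 c,
          ← integral_add (loc_int lF ht) (integrable_finsetSum _ fun c _ => i2 c)]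
        refine integral_congr_ae (.of_forall fun x => ?_)
        simp only [add_mul, Finset.sum_mul]
      rw [e3, Finset.sum_congr rfl fun i _ => e2 i]
      rw [Finset.sum_comm] at h3
      linarith
  choose W' hs he using fun a => h2 n U (W a) hU (l0 a) fun k => key k a
  refine ⟨W', ⟨hs, fun y hy a => ?_⟩, he⟩
  have hsm : ContDiffOn ℝ ∞ (fun x => L.app W' a x - F a x) U := (on_app hL hU hs a).sub (hF a)
  have hc := hsm.continuousOn
  refine sub_eq_zero.1 (Measure.eqOn_open_of_ae_eq (μ := volume) (g := fun _ => 0)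
    ((ae_restrict_iff' hU.measurableSet).2 (hU.ae_eq_zero_of_integral_contDiff_smul_eq_zero
      (hc.locallyIntegrableOn hU.measurableSet) fun g g1 g2 g3 => ?_)) hU hc continuousOn_const hy)
  have ht : IsTest U g := ⟨⟨g1, g2⟩, g3⟩
  have h3 := hψ _ (test_single a ht)
  rw [Finset.sum_congr rfl fun c _ => integral_congr_ae ((he c).mono fun x hx => by rw [hx]),
    (hg n ι L U W' _ hL hU hs (test_single a ht)).2.2, rhs_single _ a ht,
    rhs_single F a ht] at h3
  have i1 := loc_int (loc_on hU (on_app hL hU hs a)) ht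
  have i2 := loc_int (loc_on hU (hF a)) ht
  rw [← sub_eq_zero, ← integral_sub i1 i2] at h3
  rw [← h3]
  refine integral_congr_ae (.of_forall fun x => ?_)
  simp only [smul_eq_mul]
  ring

end Vale.Agent.P088
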