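import Vale.Agent.P088.LocBasic

/-!
# P088, local elliptic theory: the global bootstrap in the duality classes
-/

open MeasureTheory Set Metric Filter
open scoped ContDiff Topology

noncomputable section
namespace Vale.Agent.P088
open Vale.Agent.P136 (D Dp Dm Sm Tst D_mul_at D_sum_at D_add_at D_sub_at D_neg)

namespace LocWkG
variable {n : ℕ}

theorem sc_apply (x y : En n) (f : En n → ℝ) : sc x (-1) f y = f (x - y) := by
  simp only [sc, neg_smul, one_smul, sub_eq_add_neg]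

theorem tst_sc {ρ : En n → ℝ} (hρ : Tst ρ) (x : En n) : Tst (sc x (-1) ρ) := by
  refine ⟨sm_sc hρ.1 x _, ?_⟩
  have : sc x (-1) ρ = ρ ∘ Homeomorph.subLeft x := funext fun y => sc_apply x y ρ
  rw [this]
  exact hρ.2.comp_homeomorph _

theorem D_refl (x : En n) (f : En n → ℝ) (w : En n) :
    D w (sc x (-1) f) = fun y => -sc x (-1) (D w f) y := by
  rw [D_sc]
  funext y
  ring

theorem cv_eq (h ρ : En n → ℝ) (x : En n) : cv h ρ x = ∫ y, h y * sc x (-1) ρ y := by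
  simp only [cv, sc_apply]

theorem weak {γ : MatF n} (hγ : SmM γ) {h g : En n → ℝ} {G : Fin n → En n → ℝ} (hh : L2c h)
    (hw : ∀ Θ, Tst Θ → ∫ x, h x * dgd ee γ Θ x =
      (∫ x, g x * Θ x) + ∑ i, ∫ x, G i x * D (ee i) Θ x)
    {ρ : En n → ℝ} (hρ : Tst ρ) (x : En n) :
    ∑ i, ∑ j, cv (fun y => γ i j y * h y) (D (ee i) (D (ee j) ρ)) x -
      ∑ i, ∑ j, cv (fun y => D (ee i) (γ i j) y * h y) (D (ee j) ρ) x =
      cv g ρ x - ∑ i, cv (G i) (D (ee i) ρ) x := by
  have h1 := hw _ (tst_sc hρ x)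
  have h2 : ∀ y, h y * dgd ee γ (sc x (-1) ρ) y =
      ∑ i, ∑ j, (γ i j y * h y * sc x (-1) (D (ee i) (D (ee j) ρ)) y -
        D (ee i) (γ i j) y * h y * sc x (-1) (D (ee j) ρ) y) := by
    intro y
    unfold dgd dvg XX
    rw [Finset.mul_sum]
    refine Finset.sum_congr rfl fun i _ => ?_
    have hd : ∀ j, DifferentiableAt ℝ (D (ee j) (sc x (-1) ρ)) y := fun j =>
      ((tst_sc hρ x).sm.D _).dAt y
    rw [D_sum_at _ fun j _ => ((hγ i j).dAt y).fun_mul (hd j), Finset.mul_sum]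
    refine Finset.sum_congr rfl fun j _ => ?_
    rw [D_mul_at ((hγ i j).dAt y) (hd j), D_refl, D_neg, D_refl]
    ring
  have i1 : ∀ i j, Integrable fun y => γ i j y * h y * sc x (-1) (D (ee i) (D (ee j) ρ)) y :=
    fun i j => (hh.mul (hγ i j)).int_mul (tst_sc ((hρ.D _).D _) x)
  have i2 : ∀ i j, Integrable fun y => D (ee i) (γ i j) y * h y * sc x (-1) (D (ee j) ρ) y :=
    fun i j => (hh.mul ((hγ i j).D _)).int_mul (tst_sc (hρ.D _) x)
  have i3 : ∀ i j, Integrable fun y => γ i j y * h y * sc x (-1) (D (ee i) (D (ee j) ρ)) y -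
      D (ee i) (γ i j) y * h y * sc x (-1) (D (ee j) ρ) y := fun i j => (i1 i j).sub (i2 i j)
  simp only [h2] at h1
  rw [integral_finsetSum _ fun i _ => integrable_finsetSum _ fun j _ => i3 i j] at h1
  simp only [D_refl, mul_neg, integral_neg, Finset.sum_neg_distrib] at h1
  simp only [cv_eq, sub_eq_add_neg (∫ y, g y * _), ← h1, ← Finset.sum_sub_distrib]
  refine Finset.sum_congr rfl fun i _ => ?_
  rw [integral_finsetSum _ fun j _ => i3 i j]
  exact Finset.sum_congr rfl fun j _ => (integral_sub (i1 i j) (i2 i j)).symm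

end LocWkG

theorem s_wkGlob (hen : S_en) (hmoll : S_moll) (hfr : S_fr) : S_wkGlob := by
  intro n k γ c M C h g G hc hC hγ _ hGB hh hg hG Dh Dg DG hw
  obtain ⟨K, hK, hm⟩ := hmoll n
  obtain ⟨C0, hC0, he⟩ := hen n k c M hc
  set C1 : ℝ := n * (K * (2 ^ k * (n * M) * C)) + n * (2 ^ k * M * C) + C with hC1
  refine ⟨√(C0 * (C ^ 2 + C1 ^ 2)), Real.sqrt_nonneg _, ?_⟩
  have hSB : ∀ i j x, SB ee (k + 1) M 1 (γ i j) x := fun i j x => (hGB x trivial).2 i j
  have key : ∀ ε ρ, Moll ε ρ → (∀ j, ∫ z, |D (ee j) ρ z| * ‖z‖ ≤ K) →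
      DK (k + 1) (cv h ρ) √(C0 * (C ^ 2 + C1 ^ 2)) := by
    intro ε ρ hρ hρK
    have h1 : ∫ z, |ρ z| = 1 := by
      rw [← hρ.2.2.2]
      exact integral_congr_ae (Eventually.of_forall fun z => abs_of_nonneg (hρ.2.1 z))
    have tc : ∀ {f σ : En n → ℝ}, L2c f → Tst σ → Tst (cv f σ) := fun hf hσ =>
      ((hfr n _ hf).1 _ hσ).1
    have dc : ∀ {f σ : En n → ℝ}, L2c f → Tst σ → ∀ j, D (ee j) (cv f σ) = cv f (D (ee j) σ) :=
      fun hf hσ => ((hfr n _ hf).1 _ hσ).2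
    have kc : ∀ {f : En n → ℝ} {B : ℝ}, L2c f → 0 ≤ B → DK k f B → DK k (cv f ρ) B := by
      intro f B hf hB H
      have := (hfr n _ hf).2.1 ρ k B hρ.1 hB H
      rwa [h1, one_mul] at this
    have hu : Tst (cv h ρ) := tc hh hρ.1
    have t1 : ∀ i j, Tst (cv (fun y => γ i j y * h y) (D (ee j) ρ)) := fun i j =>
      tc (hh.mul (hγ i j)) (hρ.1.D _)
    have t2 : ∀ i j, Tst (cv (fun y => D (ee j) (γ j i) y * h y) ρ) := fun i j =>
      tc (hh.mul ((hγ j i).D _)) hρ.1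
    have t3 : ∀ i j, Tst fun x => γ i j x * cv h (D (ee j) ρ) x -
        cv (fun y => γ i j y * h y) (D (ee j) ρ) x := fun i j =>
      (Tst.mul_left (hγ i j) (tc hh (hρ.1.D _))).sub (t1 i j)
    have t4 : ∀ i, Tst fun x => ∑ j, (γ i j x * cv h (D (ee j) ρ) x -
        cv (fun y => γ i j y * h y) (D (ee j) ρ) x) := fun i => Tst.sum _ fun j _ => t3 i j
    have t5 : ∀ i, Tst fun x => ∑ j, cv (fun y => D (ee j) (γ j i) y * h y) ρ x := fun i =>
      Tst.sum _ fun j _ => t2 i j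
    have t6 : ∀ i, Tst (cv (G i) ρ) := fun i => tc (hG i) hρ.1
    let G' : Fin n → En n → ℝ := fun i x => ∑ j, (γ i j x * cv h (D (ee j) ρ) x -
        cv (fun y => γ i j y * h y) (D (ee j) ρ) x) +
      ∑ j, cv (fun y => D (ee j) (γ j i) y * h y) ρ x - cv (G i) ρ x
    have tG : ∀ i, Tst (G' i) := fun i => ((t4 i).add (t5 i)).sub (t6 i)
    have kG : ∀ i, DK k (G' i) C1 := by
      intro i
      have hM : 0 ≤ M := (hSB i i 0).nonneg
      have a1 := DK.sum (k := k) (C := K * (2 ^ k * (n * M) * C)) Finset.univ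
        (fun j _ => L2c.of_tst (t3 i j)) fun j _ =>
        ((hfr n _ hh).2.2.1 _ k C _ M (hρ.1.D (ee j)) hC Dh (hγ i j) (hSB i j)).mono le_rfl
          (mul_le_mul_of_nonneg_right (hρK j) (by positivity))
      have a2 := DK.sum (k := k) (C := 2 ^ k * M * C) Finset.univ
        (fun j _ => L2c.of_tst (t2 i j)) fun j _ =>
        kc (hh.mul ((hγ j i).D _)) (by positivity)
          (DK.mul hh ((hγ j i).D _) (fun x => (hSB j i x).D j) hC Dh)
      rw [Finset.card_univ, Fintype.card_fin] at a1 a2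
      exact DK.sub (L2c.of_tst ((t4 i).add (t5 i))) (L2c.of_tst (t6 i))
        (DK.add (L2c.of_tst (t4 i)) (L2c.of_tst (t5 i)) a1 a2) (kc (hG i) hC (DG i))
    have heq : ∀ x, dgd ee γ (cv h ρ) x = cv g ρ x + dvg ee G' x := by
      intro x
      have e1 : ∀ i, D (ee i) (G' i) x = D (ee i) (XX ee γ (cv h ρ) i) x -
          ∑ j, cv (fun y => γ i j y * h y) (D (ee i) (D (ee j) ρ)) x +
          ∑ j, cv (fun y => D (ee j) (γ j i) y * h y) (D (ee i) ρ) x -
          cv (G i) (D (ee i) ρ) x := by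
        intro i
        have e2 : (fun x => ∑ j, (γ i j x * cv h (D (ee j) ρ) x -
            cv (fun y => γ i j y * h y) (D (ee j) ρ) x)) = fun x => XX ee γ (cv h ρ) i x -
              ∑ j, cv (fun y => γ i j y * h y) (D (ee j) ρ) x := by
          funext x
          simp only [XX, dc hh hρ.1, Finset.sum_sub_distrib]
        show D (ee i) (fun x => (fun x => ∑ j, (γ i j x * cv h (D (ee j) ρ) x -
            cv (fun y => γ i j y * h y) (D (ee j) ρ) x)) x +
          ∑ j, cv (fun y => D (ee j) (γ j i) y * h y) ρ x - cv (G i) ρ x) x = _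
        rw [D_sub_at (((t4 i).add (t5 i)).sm.dAt x) ((t6 i).sm.dAt x),
          D_add_at ((t4 i).sm.dAt x) ((t5 i).sm.dAt x), e2,
          D_sub_at ((sm_XX hγ hu.sm i).dAt x) ((Tst.sum _ fun j _ => t1 i j).sm.dAt x),
          D_sum_at _ fun j _ => (t1 i j).sm.dAt x, D_sum_at _ fun j _ => (t2 i j).sm.dAt x,
          dc (hG i) hρ.1]
        simp only [fun j => dc (hh.mul (hγ i j)) (hρ.1.D (ee j)) i,
          fun j => dc (hh.mul ((hγ j i).D (ee j))) hρ.1 i]
      have e3 := LocWkG.weak hγ hh hw hρ.1 x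
      rw [Finset.sum_comm (f := fun i j => cv (fun y => D (ee i) (γ i j) y * h y) (D (ee j) ρ) x)]
        at e3
      simp only [dgd, dvg, e1, Finset.sum_sub_distrib, Finset.sum_add_distrib]
      linarith
    refine DK.of_HB hu (he γ univ _ (cv g ρ) G' _ hγ isOpen_univ
      (fun x hx => ⟨(hGB x hx).1, fun i j => (hSB i j x).mono (Nat.le_succ _) le_rfl⟩)
      (isTest_univ hu) (tc hg hρ.1).1.contDiffOn (fun i => (tG i).1.contDiffOn) (fun x _ => heq x)
      ((DK.toHB hu (kc hh hC Dh)).mono le_rfl (le_add_of_nonneg_right (sq_nonneg _)))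
      ((DK.toHB (tc hg hρ.1) (kc hg hC Dg)).mono le_rfl (le_add_of_nonneg_right (sq_nonneg _)))
      fun i => (DK.toHB (tG i) (kG i)).mono le_rfl (le_add_of_nonneg_left (sq_nonneg _)))
  intro l hl Θ hΘ
  obtain ⟨K', hK'⟩ := (hfr n _ hh).2.2.2 _ (tst_Ds (v := ee) hΘ l)
  refine le_of_forall_pos_le_add fun δ hδ => ?_
  have hp : 0 < |K'| + 1 := by positivity
  obtain ⟨ρ, hρ, hρK⟩ := hm (δ / (|K'| + 1)) (by positivity)
  have h1 := hK' _ ρ hρ
  have h2 := key _ ρ hρ hρK l hl Θ hΘ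
  have h3 : K' * (δ / (|K'| + 1)) ≤ δ := by
    rw [← mul_div_assoc, div_le_iff₀ hp]
    nlinarith [le_abs_self K']
  have h4 := abs_sub_abs_le_abs_sub (∫ x, h x * Ds ee l Θ x) (∫ x, cv h ρ x * Ds ee l Θ x)
  rw [abs_sub_comm] at h4
  linarith

end Vale.Agent.P088
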