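import Vale.Agent.P088.LocBasic

/-! P088: the local bootstrap follows from the global one. -/

open MeasureTheory Set Metric Filter
open scoped ContDiff Topology

noncomputable section
namespace Vale.Agent.P088
open Vale.Agent.P136
namespace LocWkS

variable {n k : ℕ} {γ : MatF n} {U : Set (En n)}

/-- Compactly supported elements of the duality class. -/
def Q (k : ℕ) (h : En n → ℝ) : Prop := L2c h ∧ ∃ C : ℝ, 0 ≤ C ∧ DK k h C

lemma Q.of {f θ : En n → ℝ} (h1 : LocL2 U f) (h2 : WK k U f) (hθ : P088.IsTest U θ) :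
    Q k fun x => θ x * f x := ⟨⟨h1 θ hθ, hθ.1.2.mul_right⟩, h2 θ hθ⟩

lemma Q.add {f g : En n → ℝ} (hf : Q k f) (hg : Q k g) : Q k fun x => f x + g x := by
  obtain ⟨a, C, hC, h⟩ := hf
  obtain ⟨a', C', hC', h'⟩ := hg
  exact ⟨a.add a', C + C', by positivity, DK.add a a' h h'⟩

lemma Q.sub {f g : En n → ℝ} (hf : Q k f) (hg : Q k g) : Q k fun x => f x - g x := by
  obtain ⟨a, C, hC, h⟩ := hf
  obtain ⟨a', C', hC', h'⟩ := hg
  exact ⟨a.sub a', C + C', by positivity, DK.sub a a' h h'⟩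

lemma Q.unif {F : Fin n → En n → ℝ} (h : ∀ i, Q k (F i)) :
    ∃ C : ℝ, 0 ≤ C ∧ ∀ i, DK k (F i) C := by
  choose C hC H using fun i => (h i).2
  exact ⟨∑ i, C i, Finset.sum_nonneg fun i _ => hC i, fun i => (H i).mono le_rfl
    (Finset.single_le_sum (fun i _ => hC i) (Finset.mem_univ i))⟩

lemma Q.sum {F : Fin n → En n → ℝ} (h : ∀ i, Q k (F i)) : Q k fun x => ∑ i, F i x := by
  obtain ⟨C, hC, H⟩ := Q.unif h
  exact ⟨L2c.sum _ fun i _ => (h i).1, _, by positivity,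
    DK.sum _ (fun i _ => (h i).1) fun i _ => H i⟩

lemma ell (hγ : SmM γ) (hp : ∀ x (ξ : Fin n → ℝ), ξ ≠ 0 → 0 < ∑ i, ∑ j, γ i j x * ξ i * ξ j)
    {K : Set (En n)} (hK : IsCompact K) : ∃ c : ℝ, 0 < c ∧ ∀ x ∈ K, ∀ ξ : Fin n → ℝ,
      c * ∑ i, ξ i ^ 2 ≤ ∑ i, ∑ j, γ i j x * ξ i * ξ j := by
  have hc : Continuous fun p : En n × En n => ∑ i, ∑ j, γ i j p.1 * p.2 i * p.2 j :=
    continuous_finsetSum _ fun i _ => continuous_finsetSum _ fun j _ =>
      (((hγ i j).cont.comp continuous_fst).mul (by fun_prop)).mul (by fun_prop)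
  obtain ⟨c, hc0, hc⟩ := (hK.prod (isCompact_sphere (0 : En n) 1)).exists_forall_le'
    hc.continuousOn (a := 0) fun p hp' => hp p.1 p.2.ofLp fun h => by
      have h1 := mem_sphere_zero_iff_norm.1 hp'.2
      rw [(WithLp.ofLp_eq_zero 2).1 h, norm_zero] at h1
      exact zero_ne_one h1
  refine ⟨c, hc0, fun x hx ξ => ?_⟩
  rcases eq_or_ne ξ 0 with rfl | h
  · simp
  have h1 : 0 < ‖(WithLp.toLp 2 ξ : En n)‖ := norm_pos_iff.2 fun h1 => h (by simpa using h1)
  have h2 := hc (x, ‖(WithLp.toLp 2 ξ : En n)‖⁻¹ • WithLp.toLp 2 ξ) ⟨hx, by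
    rw [mem_sphere_zero_iff_norm, norm_smul, norm_inv, norm_norm, inv_mul_cancel₀ h1.ne']⟩
  have h3 : ∑ i, ξ i ^ 2 = ‖(WithLp.toLp 2 ξ : En n)‖ ^ 2 :=
    (EuclideanSpace.real_norm_sq_eq (WithLp.toLp 2 ξ : En n)).symm
  rw [h3]
  generalize ‖(WithLp.toLp 2 ξ : En n)‖ = t at *
  refine (mul_le_mul_of_nonneg_right h2 (sq_nonneg t)).trans (le_of_eq ?_)
  simp only [Finset.sum_mul, PiLp.smul_apply, smul_eq_mul]
  refine Finset.sum_congr rfl fun i _ => Finset.sum_congr rfl fun j _ => ?_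
  field_simp

lemma ext (hγ : SmM γ) (hs : SymM γ)
    (hp : ∀ x (ξ : Fin n → ℝ), ξ ≠ 0 → 0 < ∑ i, ∑ j, γ i j x * ξ i * ξ j)
    {K : Set (En n)} (hK : IsCompact K) (k : ℕ) : ∃ (γ' : MatF n) (c M : ℝ), 0 < c ∧ SmM γ' ∧
      SymM γ' ∧ GB γ' univ k c M ∧ ∀ x ∈ K, ∀ᶠ y in 𝓝 x, ∀ i j, γ' i j y = γ i j y := by
  obtain ⟨χ, hχ, h01, h1⟩ := exists_cut_compact hK isOpen_univ (subset_univ _)
  obtain ⟨c, hc, hel⟩ := ell hγ hp (K := tsupport χ) hχ.1.2
  have ht : ∀ i j, Tst fun y => χ y * (γ i j y - if i = j then 1 else 0) := fun i j =>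
    hχ.1.mul_right ((hγ i j).sub (Sm.const _))
  choose M hM0 hM using fun p : Fin n × Fin n => exists_SB_tst ee (ht p.1 p.2) k
  refine ⟨fun i j y => (if i = j then 1 else 0) + χ y * (γ i j y - if i = j then 1 else 0),
    min c 1, 1 + ∑ p, M p, lt_min hc one_pos, fun i j => (Sm.const _).add (ht i j).sm,
    fun i j => by simp only [hs i j, eq_comm], fun x _ => ⟨fun ξ => ?_, fun i j => ?_⟩,
    fun x hx => ?_⟩
  · have h2 : ∑ i, ∑ j, ((if i = j then 1 else 0) + χ x * (γ i j x - if i = j then 1 else 0))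
        * ξ i * ξ j = (1 - χ x) * ∑ i, ξ i ^ 2 + χ x * ∑ i, ∑ j, γ i j x * ξ i * ξ j := by
      rw [Finset.mul_sum, Finset.mul_sum, ← Finset.sum_add_distrib]
      refine Finset.sum_congr rfl fun i _ => ?_
      have h3 : (1 - χ x) * ξ i ^ 2 = ∑ j, if i = j then (1 - χ x) * ξ i * ξ j else 0 := by
        rw [Finset.sum_ite_eq, if_pos (Finset.mem_univ _)]
        ring
      rw [h3, Finset.mul_sum, ← Finset.sum_add_distrib]
      refine Finset.sum_congr rfl fun j _ => ?_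
      split_ifs <;> ring
    have h3 : 0 ≤ ∑ i, ξ i ^ 2 := by positivity
    have h4 := mul_le_mul_of_nonneg_right (min_le_left c 1) h3
    have h5 := mul_le_mul_of_nonneg_right (min_le_right c 1) h3
    rw [h2]
    by_cases hx : x ∈ tsupport χ
    · nlinarith [mul_le_mul_of_nonneg_left (h4.trans (hel x hx ξ)) (h01 x).1,
        mul_le_mul_of_nonneg_left h5 (sub_nonneg.2 (h01 x).2)]
    · rw [image_eq_zero_of_notMem_tsupport hx]
      linarith
  · refine (SB.add (Sm.const _) (ht i j).sm (SB.const _ k x) (hM (i, j) x)).mono le_rfl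
      (add_le_add ?_ (Finset.single_le_sum (fun p _ => hM0 p) (Finset.mem_univ (i, j))))
    split_ifs <;> simp
  · filter_upwards [h1 x hx] with y hy i j
    rw [hy]
    ring

end LocWkS

open LocWkS in
theorem s_wkStep (hg : S_wkGlob) : S_wkStep := by
  intro n k γ U f g G hγ hs hp hU lf lg lG wf wg wG heq θ hθ
  obtain ⟨γ', c, M, hc, hγ', hs', hb, hloc⟩ := ext hγ hs hp (K := tsupport θ) hθ.1.2 (k + 1)
  have q1 := Q.of lf wf hθ
  have q2 := Q.of lg wg hθ
  have q3 := fun i => Q.of (lG i) (wG i) (hθ.D (ee i))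
  have q4 := Q.of lf wf (hθ.dgd (v := ee) hγ)
  have q5 := fun i => Q.of (lG i) (wG i) hθ
  have q6 := fun i => Q.of lf wf ((hθ.XX (v := ee) hγ i).mul_left (Sm.const 2))
  have r1 := (q2.add (Q.sum q3)).sub q4
  have r2 := fun i => (q5 i).sub (q6 i)
  obtain ⟨C1, a1, b1⟩ := q1.2
  obtain ⟨C2, a2, b2⟩ := r1.2
  obtain ⟨C3, a3, b3⟩ := Q.unif r2
  refine hg n k γ' c M (C1 + C2 + C3) _ _ _ hc (by positivity) hγ' hs' hb q1.1 r1.1
    (fun i => (r2 i).1) (b1.mono le_rfl (by linarith)) (b2.mono le_rfl (by linarith))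
    (fun i => (b3 i).mono le_rfl (by linarith)) fun Θ hΘ => ?_
  have h1 : ∀ x, θ x * dgd ee γ' Θ x = θ x * dgd ee γ Θ x := fun x => by
    by_cases hx : x ∈ tsupport θ
    · rw [dgd, dgd, dvg, dvg]
      refine congrArg _ (Finset.sum_congr rfl fun i _ => D_congr ?_ _)
      filter_upwards [hloc x hx] with y hy
      simp only [XX, hy]
    · rw [image_eq_zero_of_notMem_tsupport hx, zero_mul, zero_mul]
  have h2 := heq _ (hθ.mul_right hΘ.sm)
  have i1 := q1.1.int_mul (isTest_univ hΘ |>.dgd (v := ee) hγ).1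
  have i2 := q2.1.int_mul hΘ
  have i3 := fun i => (q3 i).1.int_mul hΘ
  have i4 := q4.1.int_mul hΘ
  have i5 := fun i => (q5 i).1.int_mul (hΘ.D (ee i))
  have i6 := fun i => (q6 i).1.int_mul (hΘ.D (ee i))
  have e1 : ∫ x, f x * dgd ee γ (fun y => θ y * Θ y) x = (∫ x, θ x * f x * dgd ee γ Θ x) +
      (∑ i, ∫ x, 2 * XX ee γ θ i x * f x * D (ee i) Θ x) + ∫ x, dgd ee γ θ x * f x * Θ x := by
    rw [← integral_finsetSum _ fun i _ => i6 i,
      ← integral_add i1 (integrable_finsetSum _ fun i _ => i6 i),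
      ← integral_add (iadd i1 (integrable_finsetSum _ fun i _ => i6 i)) i4]
    refine integral_congr_ae (Eventually.of_forall fun x => ?_)
    simp only [dgd_mul isOpen_univ hγ hs hθ.1.sm.contDiffOn hΘ.sm.contDiffOn (mem_univ x),
      mul_add, Finset.mul_sum]
    congr 1
    · congr 1
      · ring
      · exact Finset.sum_congr rfl fun i _ => by ring
    · ring
  have e2 : ∀ i, ∫ x, G i x * D (ee i) (fun y => θ y * Θ y) x =
      (∫ x, θ x * G i x * D (ee i) Θ x) + ∫ x, D (ee i) θ x * G i x * Θ x := fun i => by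
    rw [← integral_add (i5 i) (i3 i)]
    refine integral_congr_ae (Eventually.of_forall fun x => ?_)
    simp only [D_mul_at (hθ.1.sm.dAt x) (hΘ.sm.dAt x)]
    ring
  have e3 : ∫ x, g x * (θ x * Θ x) = ∫ x, θ x * g x * Θ x :=
    integral_congr_ae (Eventually.of_forall fun x => by ring)
  have e4 : ∫ x, θ x * f x * dgd ee γ' Θ x = ∫ x, θ x * f x * dgd ee γ Θ x :=
    integral_congr_ae (Eventually.of_forall fun x => by
      simp only [mul_right_comm _ (f x), h1])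
  rw [e1, e3] at h2
  simp only [e2, Finset.sum_add_distrib] at h2
  simp only [e4, sub_mul, add_mul, Finset.sum_mul, fun i => integral_sub (i5 i) (i6 i),
    Finset.sum_sub_distrib]
  rw [integral_sub (iadd i2 (integrable_finsetSum _ fun i _ => i3 i)) i4,
    integral_add i2 (integrable_finsetSum _ fun i _ => i3 i), integral_finsetSum _ fun i _ => i3 i]
  linarith

end Vale.Agent.P088
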