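import Vale.Agent.P088.LocBd
import Vale.Agent.P088.LocCar
import Vale.Agent.P088.LocCs
import Vale.Agent.P088.LocEn
import Vale.Agent.P088.LocFr
import Vale.Agent.P088.LocGreen
import Vale.Agent.P088.LocIE
import Vale.Agent.P088.LocId
import Vale.Agent.P088.LocLin
import Vale.Agent.P088.LocLoc
import Vale.Agent.P088.LocPos
import Vale.Agent.P088.LocSob
import Vale.Agent.P088.LocTB1
import Vale.Agent.P088.LocUCP
import Vale.Agent.P088.LocWeyl
import Vale.Agent.P088.LocWkG
import Vale.Agent.P088.LocWkS
import Vale.Agent.P088.LocWkSm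

/-!
# P088: the local elliptic theory, without hypotheses
-/

namespace Vale.Agent.P088

theorem loc_green : S_green := s_green

theorem loc_weyl : S_weyl :=
  s_weyl s_green (s_wkStep (s_wkGlob s_en s_moll s_fr)) s_wkSmooth

theorem loc_ie : S_ie := s_ie (s_ie1 (s_loc s_en) s_sob)

theorem loc_tb : S_tb := s_tb (s_tb1 (s_cs (s_car s_id s_pos) (s_loc s_en)))

theorem loc_ucp : S_ucp := s_ucp s_lin s_bd loc_tb

end Vale.Agent.P088
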