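import Vale.Agent.P088.Top

/-!
# P088, local elliptic theory: definitions and intermediate statements
-/

open MeasureTheory Set Metric
open scoped ContDiff Topology

noncomputable section
namespace Vale.Agent.P088
open Vale.Agent.P136 (D Dp Dm Sm Tst)

section defs
variable {n : ℕ} {ι : Type}

/-- All derivatives of order at most `j` have squared `L²(U)` norm at most `N`. -/
def HB (U : Set (En n)) (j : ℕ) (g : En n → ℝ) (N : ℝ) : Prop :=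
  ∀ l : List (Fin n), l.length ≤ j →
    IntegrableOn (fun y => Ds ee l g y ^ 2) U ∧ ∫ y in U, Ds ee l g y ^ 2 ≤ N

/-- Ellipticity and bounds of a matrix function on a set. -/
def GB (γ : MatF n) (S : Set (En n)) (k : ℕ) (c M : ℝ) : Prop :=
  ∀ x ∈ S, (∀ ξ : Fin n → ℝ, c * ∑ i, ξ i ^ 2 ≤ ∑ i, ∑ j, γ i j x * ξ i * ξ j) ∧
    ∀ i j, SB ee k M 1 (γ i j) x

/-- Translation and dilation of a function. -/
def sc (x : En n) (s : ℝ) (f : En n → ℝ) : En n → ℝ := fun z => f (x + s • z)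

/-- Translation and dilation of an operator. -/
def Op.sc (L : Op n ι) (x : En n) (s : ℝ) : Op n ι :=
  ⟨fun i j => P088.sc x s (L.γ i j), fun i a a' z => s * P088.sc x s (L.b i a a') z,
    fun a a' z => s ^ 2 * P088.sc x s (L.c a a') z⟩

def LocL2 (U : Set (En n)) (f : En n → ℝ) : Prop :=
  ∀ θ, IsTest U θ → MemLp (fun x => θ x * f x) 2 volume

/-- Square integrable with compact support. -/
def L2c (h : En n → ℝ) : Prop := MemLp h 2 volume ∧ HasCompactSupport h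

/-- The class `H^k` by duality, with the constant `C`. -/
def DK (k : ℕ) (h : En n → ℝ) (C : ℝ) : Prop :=
  ∀ l : List (Fin n), l.length ≤ k → ∀ Θ : En n → ℝ, Tst Θ →
    |∫ x, h x * Ds ee l Θ x| ≤ C * √(∫ x, Θ x ^ 2)

/-- The class `H^k_loc(U)` by duality. -/
def WK (k : ℕ) (U : Set (En n)) (f : En n → ℝ) : Prop :=
  ∀ θ, IsTest U θ → ∃ C : ℝ, 0 ≤ C ∧ DK k (fun x => θ x * f x) C

/-- Convolution. -/
def cv (h ρ : En n → ℝ) : En n → ℝ := fun x => ∫ t, h t * ρ (x - t)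

/-- A mollifier at scale `ε`. -/
def Moll (ε : ℝ) (ρ : En n → ℝ) : Prop :=
  Tst ρ ∧ (∀ z, 0 ≤ ρ z) ∧ (∀ z, ρ z ≠ 0 → ‖z‖ ≤ ε) ∧ ∫ z, ρ z = 1

/-- The Carleman weight. -/
def phL (x : En n) : ℝ := Real.exp (-8 * ‖x‖ ^ 2)

def cXL (γ : MatF n) : Fin n → En n → ℝ := XX ee γ phL

def cqL (γ : MatF n) : En n → ℝ := dir ee (cXL γ) phL

def ch (γ : MatF n) : En n → ℝ := fun x => dvg ee (cXL γ) x + 40 * phL x

/-- The annulus `1/2 ≤ ‖x‖ ≤ 2`. -/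
def Ann (n : ℕ) : Set (En n) := {x | 1 / 4 ≤ ‖x‖ ^ 2 ∧ ‖x‖ ^ 2 ≤ 4}

end defs

/-! ## Interior estimates -/

/-- The energy estimate for a function with compact support. -/
def S_en : Prop := ∀ (n j : ℕ) (c M : ℝ), 0 < c → ∃ C : ℝ, 0 ≤ C ∧
  ∀ (γ : MatF n) (U : Set (En n)) (u f : En n → ℝ) (G : Fin n → En n → ℝ) (N : ℝ), SmM γ →
    IsOpen U → GB γ U j c M → IsTest U u → ContDiffOn ℝ ∞ f U → (∀ i, ContDiffOn ℝ ∞ (G i) U) →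
    (∀ x ∈ U, dgd ee γ u x = f x + dvg ee G x) → HB U j u N → HB U j f N →
    (∀ i, HB U j (G i) N) → HB U (j + 1) u (C * N)

/-- One step of interior regularity for the system. -/
def S_loc : Prop := ∀ (n : ℕ) (ι : Type) [Fintype ι] (j : ℕ) (c M r R : ℝ), 0 < c → 0 < r →
  r < R → ∃ C : ℝ, 0 ≤ C ∧ ∀ (L : Op n ι) (x : En n) (W F : ι → En n → ℝ) (N : ℝ), L.Good →
    L.BdOn (ball x R) (j + 1) c M → Sol L (ball x R) W F → SmOn (ball x R) F →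
    (∀ a, HB (ball x R) j (W a) N) → (∀ a, HB (ball x R) j (F a) N) →
    ∀ a, HB (ball x r) (j + 1) (W a) (C * N)

/-- The Sobolev supremum bound. -/
def S_sob : Prop := ∀ n : ℕ, ∃ C : ℝ, 0 ≤ C ∧ ∀ (g : En n → ℝ) (N : ℝ),
  IsTest (ball 0 1) g → HB (ball 0 1) n g N → ∀ y, g y ^ 2 ≤ C * N

/-- Interior estimates at scale one. -/
def S_ie1 : Prop := ∀ (n : ℕ) (ι : Type) [Fintype ι] (m : ℕ), ∃ k : ℕ, ∀ c M : ℝ, 0 < c →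
  ∃ C : ℝ, 0 ≤ C ∧ ∀ (L : Op n ι) (N : ℝ) (W F : ι → En n → ℝ), L.Good →
    L.BdOn (ball 0 1) k c M → Sol L (ball 0 1) W F → SmOn (ball 0 1) F →
    (∀ a, HB (ball 0 1) 0 (W a) N) → (∀ a, HB (ball 0 1) k (F a) N) →
    ∀ l : List (Fin n), l.length ≤ m → ∀ a, ∀ y ∈ ball (0 : En n) (1 / 2),
      Ds ee l (W a) y ^ 2 ≤ C * N

/-! ## The Weyl lemma -/

def S_moll : Prop := ∀ n : ℕ, ∃ K : ℝ, 0 ≤ K ∧ ∀ ε : ℝ, 0 < ε → ∃ ρ : En n → ℝ, Moll ε ρ ∧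
  ∀ j, ∫ z, |D (ee j) ρ z| * ‖z‖ ≤ K

/-- Convolutions and the commutator lemma of Friedrichs. -/
def S_fr : Prop := ∀ (n : ℕ) (h : En n → ℝ), L2c h →
  (∀ ρ, Tst ρ → Tst (cv h ρ) ∧ ∀ j, D (ee j) (cv h ρ) = cv h (D (ee j) ρ)) ∧
  (∀ ρ k C, Tst ρ → 0 ≤ C → DK k h C → DK k (cv h ρ) ((∫ z, |ρ z|) * C)) ∧
  (∀ ρ k C (a : En n → ℝ) M, Tst ρ → 0 ≤ C → DK k h C → Sm a → (∀ x, SB ee (k + 1) M 1 a x) →
    DK k (fun x => a x * cv h ρ x - cv (fun y => a y * h y) ρ x)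
      ((∫ z, |ρ z| * ‖z‖) * (2 ^ k * (n * M) * C))) ∧
  ∀ Φ, Tst Φ → ∃ K : ℝ, ∀ ε ρ, Moll ε ρ →
    |(∫ x, cv h ρ x * Φ x) - ∫ x, h x * Φ x| ≤ K * ε

def S_wkGlob : Prop := ∀ (n k : ℕ) (γ : MatF n) (c M C : ℝ) (h g : En n → ℝ)
  (G : Fin n → En n → ℝ), 0 < c → 0 ≤ C → SmM γ → SymM γ → GB γ univ (k + 1) c M → L2c h →
  L2c g → (∀ i, L2c (G i)) → DK k h C → DK k g C → (∀ i, DK k (G i) C) →
  (∀ Θ, Tst Θ → ∫ x, h x * dgd ee γ Θ x =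
    (∫ x, g x * Θ x) + ∑ i, ∫ x, G i x * D (ee i) Θ x) →
  ∃ C' : ℝ, 0 ≤ C' ∧ DK (k + 1) h C'

def S_wkStep : Prop := ∀ (n k : ℕ) (γ : MatF n) (U : Set (En n)) (f g : En n → ℝ)
  (G : Fin n → En n → ℝ), SmM γ → SymM γ →
  (∀ x (ξ : Fin n → ℝ), ξ ≠ 0 → 0 < ∑ i, ∑ j, γ i j x * ξ i * ξ j) → IsOpen U → LocL2 U f →
  LocL2 U g → (∀ i, LocL2 U (G i)) → WK k U f → WK k U g → (∀ i, WK k U (G i)) →
  (∀ ψ, IsTest U ψ → ∫ x, f x * dgd ee γ ψ x =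
    (∫ x, g x * ψ x) + ∑ i, ∫ x, G i x * D (ee i) ψ x) →
  WK (k + 1) U f

def S_wkSmooth : Prop := ∀ (n : ℕ) (U : Set (En n)) (f : En n → ℝ), IsOpen U → LocL2 U f →
  (∀ k, WK k U f) → ∃ g, ContDiffOn ℝ ∞ g U ∧ f =ᵐ[volume.restrict U] g

/-! ## The Carleman estimate and the three-ball inequality -/

/-- The multiplier identity. -/
def S_id : Prop := ∀ (n : ℕ) (γ : MatF n) (X : Fin n → En n → ℝ) (q h w : En n → ℝ), SmM γ →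
  SymM γ → (∀ k, Sm (X k)) → Sm q → Sm h → Tst w →
  ∫ x, 2 * (dgd ee γ w x + q x * w x) * (-2 * dir ee X w x - h x * w x) =
    ∫ x, (∑ j, ∑ k, (4 * ∑ i, γ i j x * D (ee i) (X k) x - 2 * dir ee X (γ j k) x +
        2 * (h x - dvg ee X x) * γ j k x) * D (ee j) w x * D (ee k) w x +
      2 * w x * ∑ j, XX ee γ h j x * D (ee j) w x +
      (2 * dir ee X q x - 2 * q x * (h x - dvg ee X x)) * w x ^ 2)

/-- Pseudoconvexity of the weight. -/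
def S_pos : Prop := ∀ n : ℕ, ∃ om c K : ℝ, 0 < om ∧ 0 < c ∧ 0 ≤ K ∧ ∀ γ : MatF n, SmM γ →
  SymM γ → Near 2 om γ → ∀ x ∈ Ann n,
    (∀ ξ : Fin n → ℝ, c * ∑ j, ξ j ^ 2 ≤ ∑ j, ∑ k, (4 * ∑ i, γ i j x * D (ee i) (cXL γ k) x -
      2 * dir ee (cXL γ) (γ j k) x + 80 * phL x * γ j k x) * ξ j * ξ k) ∧
    c ≤ 2 * dir ee (cXL γ) (cqL γ) x - 80 * cqL γ x * phL x ∧
    ∀ j, |XX ee γ (ch γ) j x| ≤ K

/-- The Carleman estimate. -/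
def S_car : Prop := ∀ n : ℕ, ∃ om τ₀ C : ℝ, 0 < om ∧ 1 ≤ τ₀ ∧ 0 ≤ C ∧ ∀ γ : MatF n, SmM γ →
  SymM γ → Near 2 om γ → ∀ τ : ℝ, τ₀ ≤ τ → ∀ v : En n → ℝ, Tst v → tsupport v ⊆ Ann n →
    τ ^ 3 * (∫ x, Real.exp (2 * τ * phL x) * v x ^ 2) +
      τ * (∫ x, Real.exp (2 * τ * phL x) * ∑ j, D (ee j) v x ^ 2) ≤
      C * ∫ x, Real.exp (2 * τ * phL x) * dgd ee γ v x ^ 2

/-- The Carleman estimate applied to a solution cut off to the annulus. -/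
def S_cs : Prop := ∀ (n : ℕ) (ι : Type) [Fintype ι], ∃ om : ℝ, 0 < om ∧ ∀ κ : ℝ, 0 < κ →
  κ ≤ 1 / 4 → ∀ M : ℕ → ℝ, ∃ τ₀ C : ℝ, 0 ≤ C ∧ ∀ (L : Op n ι) (W : ι → En n → ℝ) (τ : ℝ),
    L.Bd 2 om M → Sol L (ball 0 2) W 0 → L2On (ball 0 2) W → τ₀ ≤ τ →
    Real.exp (2 * τ * Real.exp (-8 * (1 + κ) ^ 2)) * nrm (ball 0 (1 + κ) \ ball 0 1) W ≤
      C * (Real.exp (2 * τ * Real.exp (-8 * (1 - κ) ^ 2)) * nrm (ball 0 1) W +
        Real.exp (2 * τ * Real.exp (-18)) * nrm (ball 0 2) W)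

/-- The three-ball inequality at scale one. -/
def S_tb1 : Prop := ∀ (n : ℕ) (ι : Type) [Fintype ι] (ν : ℝ), 0 < ν →
  ∃ (k : ℕ) (κ om : ℝ), 0 < κ ∧ κ ≤ 1 / 2 ∧ 0 < om ∧ ∀ M : ℕ → ℝ, ∃ C : ℝ, 0 ≤ C ∧
  ∀ (L : Op n ι) (ε : ℝ) (W : ι → En n → ℝ), L.Bd k om M → 0 < ε → ε ≤ 1 →
    Sol L (ball 0 2) W 0 → L2On (ball 0 2) W →
    nrm (ball 0 (1 + κ)) W ≤ C * (ε * nrm (ball 0 2) W + ε ^ (-ν) * nrm (ball 0 1) W)

/-! ## Unique continuation -/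

/-- A linear change of variables makes the principal part the identity at a point. -/
def S_lin : Prop := ∀ (n : ℕ) (ι : Type) [Fintype ι] (L : Op n ι) (x₁ : En n), L.Good →
  ∃ (A : En n ≃L[ℝ] En n) (L' : Op n ι), L'.Good ∧
    (∀ i j, L'.γ i j 0 = if i = j then 1 else 0) ∧
    ∀ (U : Set (En n)) (W : ι → En n → ℝ), IsOpen U → Sol L U W 0 →
      Sol L' ((fun z => x₁ + A z) ⁻¹' U) (fun a z => W a (x₁ + A z)) 0

/-- Dilation and cutoff produce a nearly flat operator. -/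
def S_bd : Prop := ∀ (n : ℕ) (ι : Type) [Fintype ι] (L : Op n ι) (k : ℕ) (om r : ℝ), L.Good →
  (∀ i j, L.γ i j 0 = if i = j then 1 else 0) → 0 < om → 0 < r →
  ∃ (s : ℝ) (L' : Op n ι) (M : ℕ → ℝ), 0 < s ∧ s ≤ r ∧ L'.Bd k om M ∧
    ∀ W : ι → En n → ℝ, Sol L (ball 0 r) W 0 → Sol L' (ball 0 1) (fun a => sc 0 s (W a)) 0

end Vale.Agent.P088
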