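import Vale.Agent.P088.LocStm

/-! P088: functions in all duality Sobolev classes have smooth representatives. -/

open MeasureTheory Set Metric Filter
open scoped ContDiff Topology SchwartzMap FourierTransform LineDeriv Real

noncomputable section
namespace Vale.Agent.P088
open Vale.Agent.P136 (D Sm Tst D_congr)
namespace LocWkSm

variable {d : ℕ}

/-- iterated derivative of a Schwartz function in the direction `j` -/
def dn (j : Fin d) (n : ℕ) (Ψ : 𝓢(En d, ℂ)) : 𝓢(En d, ℂ) :=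
  (fun Φ : 𝓢(En d, ℂ) => ∂_{(EuclideanSpace.single j (1 : ℝ) : En d)} Φ)^[n] Ψ

lemma dn_succ (j : Fin d) (n : ℕ) (Ψ : 𝓢(En d, ℂ)) :
    dn j (n + 1) Ψ = ∂_{(EuclideanSpace.single j (1 : ℝ) : En d)} (dn j n Ψ) :=
  Function.iterate_succ_apply' _ _ _

lemma pds_post (L : ℂ →L[ℝ] ℝ) (j : Fin d) (n : ℕ) (Ψ : 𝓢(En d, ℂ)) :
    Ds ee (List.replicate n j) (Ψ.postcompCLM L) = fun x => L (dn j n Ψ x) := by
  induction n with
  | zero => rfl
  | succ n ih =>
    funext x
    change D (ee j) (Ds ee (List.replicate n j) (Ψ.postcompCLM L)) x = _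
    rw [ih, dn_succ, SchwartzMap.lineDerivOp_apply_eq_fderiv]
    exact congrArg (fun T : En d →L[ℝ] ℝ => T (EuclideanSpace.single j 1))
      (L.hasFDerivAt.comp x (dn j n Ψ).differentiableAt.hasFDerivAt).fderiv

lemma dn_fourier (j : Fin d) (n : ℕ) (Φ : 𝓢(En d, ℂ)) : ∃ Φ' : 𝓢(En d, ℂ),
    dn j n (𝓕 Φ) = 𝓕 Φ' ∧ ∀ ξ, Φ' ξ = (-(2 * π * Complex.I) * (ξ j : ℝ)) ^ n * Φ ξ := by
  induction n with
  | zero => exact ⟨Φ, rfl, fun ξ => by simp⟩
  | succ n ih =>
    obtain ⟨Φ', h1, h2⟩ := ih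
    refine ⟨_, by rw [dn_succ, h1, SchwartzMap.lineDerivOp_fourier_eq], fun ξ => ?_⟩
    have ht : (fun x : En d => inner ℝ x (EuclideanSpace.single j (1 : ℝ))).HasTemperateGrowth := by
      fun_prop
    rw [smul_apply, SchwartzMap.smulLeftCLM_apply_apply ht, h2,
      EuclideanSpace.inner_single_right]
    simp only [smul_eq_mul, Complex.real_smul, conj_trivial, one_mul]
    ring

lemma mul_formula {f g : En d → ℂ} (hf : Integrable f) (hg : Integrable g) :
    ∫ ξ, 𝓕 f ξ * g ξ = ∫ x, f x * 𝓕 g x := by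
  simpa using! VectorFourier.integral_bilin_fourierIntegral_eq_flip (.mul ℂ ℂ) (L := innerₗ (En d))
    Real.continuous_fourierChar continuous_inner hf hg

lemma int_mul {h : En d → ℂ} (hh : Integrable h) (Ψ : 𝓢(En d, ℂ)) :
    Integrable fun x => h x * Ψ x :=
  hh.mul_bdd (c := ‖Ψ.toBoundedContinuousFunction‖) Ψ.continuous.aestronglyMeasurable
    (Eventually.of_forall fun x => Ψ.toBoundedContinuousFunction.norm_coe_le_norm x)

lemma int_ofReal {h : En d → ℝ} (hh : Integrable h) : Integrable fun x => (h x : ℂ) := hh.ofReal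

lemma int_sq (Ψ : 𝓢(En d, ℂ)) : Integrable fun x => ‖Ψ x‖ ^ 2 :=
  (Ψ.memLp 2 volume).integrable_norm_pow two_ne_zero

/-- the duality bound for complex test functions -/
lemma cplx {h : En d → ℝ} (hh : Integrable h) {j : Fin d} {n : ℕ} {C : ℝ}
    (hC : ∀ Θ : 𝓢(En d, ℝ), |∫ x, h x * Ds ee (List.replicate n j) Θ x| ≤ C * √(∫ x, Θ x ^ 2))
    (Ψ : 𝓢(En d, ℂ)) : ‖∫ x, (h x : ℂ) * dn j n Ψ x‖ ≤ 2 * |C| * √(∫ x, ‖Ψ x‖ ^ 2) := by
  have hi := int_mul (int_ofReal hh) (dn j n Ψ)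
  have key : ∀ L : ℂ →L[ℝ] ℝ, (∀ z, |L z| ≤ ‖z‖) →
      |L (∫ x, (h x : ℂ) * dn j n Ψ x)| ≤ |C| * √(∫ x, ‖Ψ x‖ ^ 2) := by
    intro L hL
    have h1 := hC (Ψ.postcompCLM L)
    rw [pds_post] at h1
    rw [← L.integral_comp_comm hi]
    simp only [← Complex.real_smul, map_smul, smul_eq_mul]
    refine h1.trans (mul_le_mul (le_abs_self _) (Real.sqrt_le_sqrt ?_) (Real.sqrt_nonneg _)
      (abs_nonneg _))
    refine integral_mono_of_nonneg (Eventually.of_forall fun x => sq_nonneg _) (int_sq Ψ)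
      (Eventually.of_forall fun x => ?_)
    change L (Ψ x) ^ 2 ≤ ‖Ψ x‖ ^ 2
    rw [← sq_abs]
    exact pow_le_pow_left₀ (abs_nonneg _) (hL _) 2
  have h1 := key Complex.reCLM Complex.abs_re_le_norm
  have h2 := key Complex.imCLM Complex.abs_im_le_norm
  have h3 := Complex.norm_le_abs_re_add_abs_im (∫ x, (h x : ℂ) * dn j n Ψ x)
  simp only [Complex.reCLM_apply, Complex.imCLM_apply] at h1 h2
  linarith

/-- a smooth function that is bounded as a functional on `L²` is square integrable -/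
lemma sq_int {K : En d → ℂ} (hK : ContDiff ℝ ∞ K) {C : ℝ} (hC0 : 0 ≤ C)
    (hC : ∀ Φ : 𝓢(En d, ℂ), ‖∫ ξ, K ξ * Φ ξ‖ ≤ C * √(∫ ξ, ‖Φ ξ‖ ^ 2)) :
    Integrable fun ξ => ‖K ξ‖ ^ 2 := by
  have hc : Continuous fun ξ => ‖K ξ‖ ^ 2 := hK.continuous.norm.pow 2
  refine (aecover_closedBall (x := (0 : En d)) (l := atTop) (r := fun R : ℝ => R)
    tendsto_id).integrable_of_integral_bounded_of_nonneg_ae (C ^ 2)
    (fun R => hc.continuousOn.integrableOn_compact (isCompact_closedBall _ _))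
    (Eventually.of_forall fun _ => sq_nonneg _) ?_
  filter_upwards [eventually_gt_atTop 0] with R hR
  let χ : ContDiffBump (0 : En d) := ⟨R, R + 1, hR, by linarith⟩
  have hs : HasCompactSupport fun ξ => χ ξ • (starRingEnd ℂ) (K ξ) :=
    χ.hasCompactSupport.smul_right
  have hd : ContDiff ℝ ∞ fun ξ => χ ξ • (starRingEnd ℂ) (K ξ) :=
    χ.contDiff.smul (Complex.conjCLE.contDiff.comp hK)
  have hi : Integrable fun ξ => χ ξ * ‖K ξ‖ ^ 2 :=
    (χ.continuous.mul hc).integrable_of_hasCompactSupport χ.hasCompactSupport.mul_right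
  have h0 : ∀ ξ, 0 ≤ χ ξ * ‖K ξ‖ ^ 2 := fun ξ => mul_nonneg χ.nonneg (sq_nonneg _)
  set I := ∫ ξ, χ ξ * ‖K ξ‖ ^ 2 with hI
  have hI0 : 0 ≤ I := integral_nonneg h0
  have h1 := hC (hs.toSchwartzMap hd)
  have h2 : ∫ ξ, K ξ * hs.toSchwartzMap hd ξ = (I : ℂ) := by
    rw [hI, ← integral_complex_ofReal]
    refine integral_congr_ae (Eventually.of_forall fun ξ => ?_)
    change K ξ * (χ ξ • (starRingEnd ℂ) (K ξ)) = _
    rw [mul_smul_comm, Complex.mul_conj, Complex.normSq_eq_norm_sq]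
    simp
  have h3 : ∫ ξ, ‖hs.toSchwartzMap hd ξ‖ ^ 2 ≤ I := by
    refine integral_mono_of_nonneg (Eventually.of_forall fun x => sq_nonneg _) hi
      (Eventually.of_forall fun ξ => ?_)
    change ‖χ ξ • (starRingEnd ℂ) (K ξ)‖ ^ 2 ≤ χ ξ * ‖K ξ‖ ^ 2
    rw [norm_smul, Complex.norm_conj, Real.norm_of_nonneg χ.nonneg, mul_pow]
    refine mul_le_mul_of_nonneg_right ?_ (sq_nonneg _)
    nlinarith [χ.nonneg (x := ξ), χ.le_one (x := ξ)]
  rw [h2, Complex.norm_real, Real.norm_of_nonneg hI0] at h1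
  have h4 := h1.trans (mul_le_mul_of_nonneg_left (Real.sqrt_le_sqrt h3) hC0)
  have h5 : I ≤ C ^ 2 := by nlinarith [Real.sq_sqrt hI0, sq_nonneg (C - √I)]
  refine le_trans ?_ h5
  calc ∫ ξ in closedBall 0 R, ‖K ξ‖ ^ 2 = ∫ ξ in closedBall 0 R, χ ξ * ‖K ξ‖ ^ 2 :=
        setIntegral_congr_fun measurableSet_closedBall fun ξ hξ => by
          rw [χ.one_of_mem_closedBall hξ, one_mul]
    _ ≤ I := setIntegral_le_integral hi (Eventually.of_forall h0)

lemma moments {G : En d → ℂ} (hG : Continuous G)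
    (h : ∀ (j : Fin d) (n : ℕ), Integrable fun ξ : En d => (ξ j ^ 2) ^ n * ‖G ξ‖ ^ 2) (n : ℕ) :
    Integrable fun ξ => ‖ξ‖ ^ n * ‖G ξ‖ := by
  have h1 : ∀ k : ℕ, Integrable fun ξ => (‖ξ‖ ^ 2) ^ k * ‖G ξ‖ ^ 2 := by
    intro k
    cases k with
    | zero =>
      cases d with
      | zero =>
        exact Continuous.integrable_of_hasCompactSupport (by fun_prop)
          (HasCompactSupport.of_compactSpace _)
      | succ d => simpa using h 0 0
    | succ k =>
      refine ((integrable_finsetSum Finset.univ fun j _ => h j (k + 1)).const_mul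
        (d ^ k)).mono' (by fun_prop) (Eventually.of_forall fun ξ => ?_)
      rw [Real.norm_of_nonneg (by positivity), ← Finset.sum_mul, ← mul_assoc,
        EuclideanSpace.real_norm_sq_eq]
      refine mul_le_mul_of_nonneg_right ?_ (sq_nonneg _)
      simpa using pow_sum_le_card_mul_sum_pow (s := Finset.univ) (f := fun j => ξ j ^ 2)
        (fun j _ => sq_nonneg _) k
  have h2 : Integrable fun ξ : En d => (1 + ‖ξ‖) ^ (-((2 * (d + 1) : ℕ) : ℝ)) :=
    integrable_one_add_norm (by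
      rw [finrank_euclideanSpace_fin]
      exact Nat.cast_lt.2 (by omega))
  refine ((((h1 n).add (h1 (n + (d + 1)))).const_mul (2 ^ (2 * (d + 1) - 1))).add h2).mono'
    (by fun_prop) (Eventually.of_forall fun ξ => ?_)
  rw [Real.norm_of_nonneg (by positivity)]
  simp only [Pi.add_apply]
  have e1 : (1 + ‖ξ‖) ^ (-((2 * (d + 1) : ℕ) : ℝ)) = ((1 + ‖ξ‖) ^ (d + 1))⁻¹ ^ 2 := by
    rw [Real.rpow_neg (by positivity), inv_pow, ← pow_mul, Real.rpow_natCast, mul_comm]
  have e2 := add_pow_le zero_le_one (norm_nonneg ξ) (2 * (d + 1))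
  set a := ‖ξ‖ ^ n * ‖G ξ‖ with ha
  set b := (1 + ‖ξ‖) ^ (d + 1) with hb
  have b0 : 0 < b := by positivity
  have e3 : a = (a * b) * b⁻¹ := by field_simp
  have e4 : (a * b) ^ 2 ≤ 2 ^ (2 * (d + 1) - 1) *
      ((‖ξ‖ ^ 2) ^ n * ‖G ξ‖ ^ 2 + (‖ξ‖ ^ 2) ^ (n + (d + 1)) * ‖G ξ‖ ^ 2) := by
    calc (a * b) ^ 2 = a ^ 2 * (1 + ‖ξ‖) ^ (2 * (d + 1)) := by rw [hb]; ring
      _ ≤ _ := mul_le_mul_of_nonneg_left e2 (sq_nonneg a)
      _ = _ := by rw [ha]; ring
  rw [e1]
  nlinarith [sq_nonneg (a * b - b⁻¹), sq_nonneg (a * b), sq_nonneg b⁻¹]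

/-- the global statement -/
lemma glob {h : En d → ℝ} (hh : ∀ n : ℕ, Integrable fun x => ‖x‖ ^ n * ‖h x‖) (hi : Integrable h)
    (H : ∀ β, ∃ C : ℝ, ∀ Θ : 𝓢(En d, ℝ), |∫ x, h x * Ds ee β Θ x| ≤ C * √(∫ x, Θ x ^ 2)) :
    ∃ g : En d → ℝ, ContDiff ℝ ∞ g ∧ h =ᵐ[volume] g := by
  set G := 𝓕 fun x => (h x : ℂ) with hG
  have hGs : ContDiff ℝ ∞ G := Real.contDiff_fourier fun n _ => by simpa using hh n
  have hm := moments hGs.continuous (by
    intro j n
    obtain ⟨C, hC⟩ := H (List.replicate n j)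
    have h1 := sq_int (K := fun ξ => G ξ * (-(2 * π * Complex.I) * (ξ j : ℝ)) ^ n)
      (hGs.mul ((contDiff_const.mul (Complex.ofRealCLM.contDiff.comp
        (EuclideanSpace.proj j : En d →L[ℝ] ℝ).contDiff)).pow n)) (C := 2 * |C|) (by positivity) (by
        intro Φ
        obtain ⟨Φ', e1, e2⟩ := dn_fourier j n Φ
        have h2 := cplx hi hC (𝓕 Φ)
        rw [e1, SchwartzMap.integral_norm_sq_fourier, SchwartzMap.fourier_coe,
          ← mul_formula (int_ofReal hi) Φ'.integrable] at h2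
        simpa only [e2, mul_assoc] using h2)
    refine (h1.const_mul (((2 * π) ^ 2)⁻¹ ^ n)).congr (Eventually.of_forall fun ξ => ?_)
    have e : ‖-(2 * π * Complex.I) * ((ξ j : ℝ) : ℂ)‖ ^ 2 = (2 * π) ^ 2 * ξ j ^ 2 := by
      simp [mul_pow, abs_of_pos Real.pi_pos]
    simp only
    rw [norm_mul, norm_pow, mul_pow ‖G ξ‖, pow_right_comm ‖_‖, e, mul_pow ((2 * π) ^ 2), inv_pow]
    field_simp)
  have hGi : Integrable G := by
    have := hm 0
    simp only [pow_zero, one_mul] at this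
    exact (integrable_norm_iff hGs.continuous.aestronglyMeasurable).1 this
  have hg : ContDiff ℝ ∞ fun x => 𝓕 G (-x) :=
    (Real.contDiff_fourier fun n _ => hm n).comp contDiff_neg
  refine ⟨fun x => (𝓕 G (-x)).re, Complex.reCLM.contDiff.comp hg, ?_⟩
  have key := ae_eq_of_integral_contDiff_smul_eq (μ := volume) (int_ofReal hi).locallyIntegrable
    hg.continuous.locallyIntegrable (by
      intro φ hφ hφs
      have hs : HasCompactSupport fun x => (φ x : ℂ) := hφs.comp_left Complex.ofReal_zero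
      set Φ := hs.toSchwartzMap (Complex.ofRealCLM.contDiff.comp hφ) with hΦ
      have e1 := mul_formula (int_ofReal hi) (𝓕⁻ Φ).integrable
      rw [← SchwartzMap.fourier_coe, FourierTransform.fourier_fourierInv_eq,
        SchwartzMap.fourierInv_coe, Real.fourierInv_eq_fourier_comp_neg, ← hG,
        ← mul_formula hGi Φ.integrable.comp_neg, ← integral_neg_eq_self] at e1
      simp only [neg_neg] at e1
      simp only [Complex.real_smul, mul_comm (φ _ : ℂ)]
      exact e1.symm)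
  filter_upwards [key] with x hx
  rw [← hx]
  rfl

lemma ds_congr {f g : En d → ℝ} {x : En d} (h : f =ᶠ[𝓝 x] g) (l : List (Fin d)) :
    Ds ee l f =ᶠ[𝓝 x] Ds ee l g := by
  induction l with
  | nil => exact h
  | cons i l ih => exact ih.eventuallyEq_nhds.mono fun y hy => D_congr hy (ee i)

lemma schw {h : En d → ℝ} {K : Set (En d)} (hK : IsCompact K) (hs : Function.support h ⊆ K)
    {k : ℕ} {C : ℝ} (hC : 0 ≤ C) (H : DK k h C) (l : List (Fin d)) (hl : l.length ≤ k)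
    (Θ : 𝓢(En d, ℝ)) : |∫ x, h x * Ds ee l Θ x| ≤ C * √(∫ x, Θ x ^ 2) := by
  obtain ⟨R, hR, hb⟩ := hK.isBounded.subset_ball_lt 0 0
  let χ : ContDiffBump (0 : En d) := ⟨R, R + 1, hR, by linarith⟩
  have h1 := H l hl (fun x => χ x * Θ x)
    (Tst.mul_right ⟨χ.contDiff, χ.hasCompactSupport⟩ (Θ.smooth ⊤))
  have h2 : ∀ x, h x * Ds ee l (fun x => χ x * Θ x) x = h x * Ds ee l Θ x := fun x => by
    by_cases hx : h x = 0
    · rw [hx, zero_mul, zero_mul]
    · refine congrArg _ (ds_congr ?_ l).eq_of_nhds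
      filter_upwards [isOpen_ball.mem_nhds (hb (hs hx))] with y hy
      rw [χ.one_of_mem_closedBall (ball_subset_closedBall hy), one_mul]
  simp only [h2] at h1
  refine h1.trans (mul_le_mul_of_nonneg_left (Real.sqrt_le_sqrt ?_) hC)
  refine integral_mono_of_nonneg (Eventually.of_forall fun x => sq_nonneg _)
    (Θ.memLp 2 volume).integrable_sq (Eventually.of_forall fun x => ?_)
  change (χ x * Θ x) ^ 2 ≤ Θ x ^ 2
  rw [mul_pow]
  exact mul_le_of_le_one_left (sq_nonneg _) (pow_le_one₀ χ.nonneg χ.le_one)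

lemma loc {U : Set (En d)} {f : En d → ℝ} (hf : LocL2 U f) (hW : ∀ k, WK k U f) {θ : En d → ℝ}
    (hθ : IsTest U θ) : ∃ g : En d → ℝ, ContDiff ℝ ∞ g ∧ (fun x => θ x * f x) =ᵐ[volume] g := by
  have hl : LocallyIntegrable (fun x => θ x * f x) volume := (hf θ hθ).locallyIntegrable one_le_two
  have hs : Function.support (fun x => θ x * f x) ⊆ tsupport θ :=
    (Function.support_mul_subset_left _ _).trans (subset_tsupport _)
  have hK : IsCompact (tsupport θ) := hθ.1.2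
  refine glob (fun n => ?_) ((integrableOn_iff_integrable_of_support_subset hs).1
    (hl.integrableOn_isCompact hK)) fun β => ?_
  · refine (integrableOn_iff_integrable_of_support_subset (s := tsupport θ) ?_).1
      (IntegrableOn.continuousOn_mul (by fun_prop) (hl.integrableOn_isCompact hK).norm hK)
    refine (Function.support_mul_subset_right _ _).trans fun x hx => hs ?_
    simpa using hx
  · obtain ⟨C, hC, H⟩ := hW β.length θ hθ
    exact ⟨C, schw hK hs hC H β le_rfl⟩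

end LocWkSm

theorem s_wkSmooth : S_wkSmooth := by
  intro d U f hU hf hW
  have h1 : ∀ x : En d, ∃ (r : ℝ) (g : En d → ℝ), x ∈ U → 0 < r ∧ ball x r ⊆ U ∧ ContDiff ℝ ∞ g ∧
      ∀ᵐ y, y ∈ ball x r → f y = g y := by
    intro x
    by_cases hx : x ∈ U
    · obtain ⟨ε, hε, hb⟩ := nhds_basis_closedBall.mem_iff.1 (hU.mem_nhds hx)
      let χ : ContDiffBump x := ⟨ε / 2, ε, by positivity, by linarith⟩
      obtain ⟨g, hg, hfg⟩ := LocWkSm.loc hf hW (θ := χ)
        ⟨⟨χ.contDiff, χ.hasCompactSupport⟩, by rw [χ.tsupport_eq]; exact hb⟩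
      refine ⟨ε / 2, g, fun _ => ⟨by positivity,
        (ball_subset_closedBall.trans (closedBall_subset_closedBall (by linarith))).trans hb,
        hg, ?_⟩⟩
      filter_upwards [hfg] with y hy hy'
      rwa [χ.one_of_mem_closedBall (ball_subset_closedBall hy'), one_mul] at hy
    · exact ⟨0, 0, fun h => absurd h hx⟩
  choose r g hg using h1
  have h2 : ∀ x ∈ U, ∀ y ∈ ball x (r x), g y y = g x y := by
    intro x hx y hy
    obtain ⟨-, a2, a3, a4⟩ := hg x hx
    obtain ⟨b1, -, b3, b4⟩ := hg y (a2 hy)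
    have hO : IsOpen (ball x (r x) ∩ ball y (r y)) := isOpen_ball.inter isOpen_ball
    refine Measure.eqOn_open_of_ae_eq (μ := volume) ?_ hO b3.continuous.continuousOn
      a3.continuous.continuousOn ⟨hy, mem_ball_self b1⟩
    rw [EventuallyEq, ae_restrict_iff' hO.measurableSet]
    filter_upwards [a4, b4] with z h3 h4 hz
    rw [← h3 hz.1, ← h4 hz.2]
  refine ⟨fun x => g x x, fun x hx => ?_, ?_⟩
  · refine ((hg x hx).2.2.1.contDiffAt.congr_of_eventuallyEq ?_).contDiffWithinAt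
    filter_upwards [ball_mem_nhds x (hg x hx).1] with y hy using h2 x hx y hy
  · rw [EventuallyEq, ae_restrict_iff' hU.measurableSet, ae_iff]
    refine measure_null_of_locally_null _ fun x hx => ?_
    have hx' : x ∈ U := (Classical.not_imp.1 hx).1
    refine ⟨_, inter_mem_nhdsWithin _ (ball_mem_nhds x (hg x hx').1),
      measure_mono_null (fun y hy => ?_) (ae_iff.1 (hg x hx').2.2.2)⟩
    exact fun h3 => hy.1 fun _ => (h3 hy.2).trans (h2 x hx' y hy.2).symm

end Vale.Agent.P088
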