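import Vale.Agent.P088.Lt1Stm

/-! P088, LT1: local diffeomorphisms. -/

open MeasureTheory Set Metric Filter
open scoped ContDiff Topology InnerProductSpace Matrix

noncomputable section
namespace Vale.Agent.P088.Lt1
open Vale.Agent.P136 (D Sm Tst)

variable {n : ℕ} {ι : Type} [Fintype ι] [DecidableEq ι]

theorem Dif.mono {V V' : Set (En n)} {Ψ : En n → En n} (h : Dif V Ψ) (hV : IsOpen V')
    (hs : V' ⊆ V) : Dif V' Ψ :=
  ⟨hV, h.sm.mono hs, h.inj.mono hs, fun y hy => h.dinj y (hs hy)⟩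

theorem Dif.cda {V : Set (En n)} {Ψ : En n → En n} (h : Dif V Ψ) {y : En n} (hy : y ∈ V) :
    ContDiffAt ℝ ∞ Ψ y := h.sm.contDiffAt (h.opn.mem_nhds hy)

theorem Dif.dAt {V : Set (En n)} {Ψ : En n → En n} (h : Dif V Ψ) {y : En n} (hy : y ∈ V) :
    DifferentiableAt ℝ Ψ y := (h.cda hy).differentiableAt (by simp)

theorem inj_iff_det (A : En n →L[ℝ] En n) : Function.Injective A ↔ A.det ≠ 0 := by
  rw [ContinuousLinearMap.det, Ne, LinearMap.det_eq_zero_iff_ker_ne_bot, not_not,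
    LinearMap.ker_eq_bot]
  rfl

namespace Lt1Inv

theorem exists_equiv {Ψ : En n → En n} {y : En n} (h : ContDiffAt ℝ ∞ Ψ y)
    (hd : Function.Injective (fderiv ℝ Ψ y)) :
    ∃ e : En n ≃L[ℝ] En n, HasFDerivAt Ψ (e : En n →L[ℝ] En n) y := by
  refine ⟨(fderiv ℝ Ψ y).toContinuousLinearEquivOfDetNeZero ((inj_iff_det _).1 hd), ?_⟩
  rw [ContinuousLinearMap.coe_toContinuousLinearEquivOfDetNeZero]
  exact (h.differentiableAt (by simp)).hasFDerivAt

theorem contDiff_det : ContDiff ℝ ∞ fun A : En n →L[ℝ] En n => A.det := by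
  have e : (fun A : En n →L[ℝ] En n => A.det) = fun A => ∑ σ : Equiv.Perm (Fin n),
      ((Equiv.Perm.sign σ : ℤ) : ℝ) * ∏ i, A (EuclideanSpace.single i (1 : ℝ)) (σ i) := by
    funext A
    rw [ContinuousLinearMap.det,
      ← LinearMap.det_toMatrix (EuclideanSpace.basisFun (Fin n) ℝ).toBasis, Matrix.det_apply']
    simp [LinearMap.toMatrix_apply]
  rw [e]
  refine ContDiff.sum fun σ _ => contDiff_const.mul (contDiff_prod fun i _ => ?_)
  exact ((EuclideanSpace.proj (σ i) : En n →L[ℝ] ℝ).contDiff).comp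
    (contDiff_id.clm_apply contDiff_const)

theorem le_inf : (∞ : WithTop ℕ∞) + 1 ≤ ∞ := by simp

theorem null_image {V N : Set (En n)} {Ψ : En n → En n} (h : Dif V Ψ) (hN : N ⊆ V)
    (h0 : volume N = 0) : volume (Ψ '' N) = 0 :=
  addHaar_image_eq_zero_of_differentiableOn_of_addHaar_eq_zero volume
    (fun _ hy => (h.dAt (hN hy)).differentiableWithinAt) h0

end Lt1Inv

open Lt1Inv

theorem Dif.isOpen_image {V : Set (En n)} {Ψ : En n → En n} (h : Dif V Ψ) : IsOpen (Ψ '' V) := by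
  refine isOpen_iff_mem_nhds.2 ?_
  rintro _ ⟨y, hy, rfl⟩
  obtain ⟨e, he⟩ := exists_equiv (h.cda hy) (h.dinj y hy)
  rw [← ((h.cda hy).hasStrictFDerivAt' he (by simp)).map_nhds_eq_of_equiv]
  exact image_mem_map (h.opn.mem_nhds hy)

theorem Dif.exists_inv {V : Set (En n)} {Ψ : En n → En n} (h : Dif V Ψ) :
    ∃ Θ : En n → En n, Dif (Ψ '' V) Θ ∧ ∀ y ∈ V, Θ (Ψ y) = y := by
  have hl : ∀ y ∈ V, Function.invFunOn Ψ V (Ψ y) = y := fun y hy => h.inj.leftInvOn_invFunOn hy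
  have hev : ∀ y ∈ V, ∀ᶠ x in 𝓝 y, Function.invFunOn Ψ V (Ψ x) = x := fun y hy =>
    mem_of_superset (h.opn.mem_nhds hy) hl
  refine ⟨Function.invFunOn Ψ V, ⟨h.isOpen_image, ?_, ?_, ?_⟩, hl⟩
  · rintro _ ⟨y, hy, rfl⟩
    obtain ⟨e, he⟩ := exists_equiv (h.cda hy) (h.dinj y hy)
    have h1 := (h.cda hy).to_localInverse he (by simp)
    have h2 := ((h.cda hy).hasStrictFDerivAt' he (by simp)).localInverse_unique (hev y hy)
    exact (h1.congr_of_eventuallyEq h2).contDiffWithinAt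
  · rintro _ ⟨y, hy, rfl⟩ _ ⟨z, hz, rfl⟩ hyz
    rw [hl y hy, hl z hz] at hyz
    rw [hyz]
  · rintro _ ⟨y, hy, rfl⟩
    obtain ⟨e, he⟩ := exists_equiv (h.cda hy) (h.dinj y hy)
    have h2 := ((h.cda hy).hasStrictFDerivAt' he (by simp)).to_local_left_inverse (hev y hy)
    rw [h2.hasFDerivAt.fderiv]
    exact e.symm.injective

theorem exists_dif {V : Set (En n)} (hV : IsOpen V) {Ψ : En n → En n} (h : ContDiffOn ℝ ∞ Ψ V)
    {x : En n} (hx : x ∈ V) (hd : Function.Injective (fderiv ℝ Ψ x)) :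
    ∃ r : ℝ, 0 < r ∧ ball x r ⊆ V ∧ Dif (ball x r) Ψ := by
  have hc : ContDiffAt ℝ ∞ Ψ x := h.contDiffAt (hV.mem_nhds hx)
  obtain ⟨e, he⟩ := exists_equiv hc hd
  have hs := hc.hasStrictFDerivAt' he (by simp)
  have h1 : ∀ᶠ y in 𝓝 x, (fderiv ℝ Ψ y).det ≠ 0 :=
    (ContinuousLinearMap.continuous_det.continuousAt.comp
      (hc.fderiv_right le_inf).continuousAt).eventually_ne ((inj_iff_det _).1 hd)
  have h2 := (hs.eventually_left_inverse.and h1).and (hV.mem_nhds hx)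
  obtain ⟨r, hr, hb⟩ := Metric.eventually_nhds_iff_ball.1 h2
  refine ⟨r, hr, fun y hy => (hb y hy).2, isOpen_ball, h.mono fun y hy => (hb y hy).2, ?_,
    fun y hy => (inj_iff_det _).2 (hb y hy).1.2⟩
  intro y hy z hz hyz
  rw [← (hb y hy).1.1, ← (hb z hz).1.1, hyz]

theorem Dif.comp {V V' : Set (En n)} {Ψ Ψ' : En n → En n} (h : Dif V Ψ) (h' : Dif V' Ψ')
    (hm : MapsTo Ψ' V' V) : Dif V' fun y => Ψ (Ψ' y) := by
  refine ⟨h'.opn, h.sm.comp h'.sm hm, h.inj.comp h'.inj hm, fun y hy => ?_⟩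
  rw [fderiv_fun_comp y (h.dAt (hm hy)) (h'.dAt hy)]
  exact (h.dinj _ (hm hy)).comp (h'.dinj y hy)

theorem dif_smul {V : Set (En n)} (hV : IsOpen V) {η : ℝ} (h : η ≠ 0) :
    Dif V fun x : En n => η • x := by
  refine ⟨hV, (contDiff_id.const_smul η).contDiffOn, (smul_right_injective _ h).injOn,
    fun y _ => ?_⟩
  have : HasFDerivAt (fun x : En n => η • x) (η • ContinuousLinearMap.id ℝ (En n)) y :=
    (hasFDerivAt_id y).const_smul η
  rw [this.fderiv]
  exact smul_right_injective _ h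

theorem dif_id {V : Set (En n)} (hV : IsOpen V) : Dif V fun x : En n => x := by
  simpa using dif_smul hV (one_ne_zero (α := ℝ))

theorem Dif.det_cdOn {V : Set (En n)} {Ψ : En n → En n} (h : Dif V Ψ) :
    ContDiffOn ℝ ∞ (fun y => |(fderiv ℝ Ψ y).det|) V ∧ ∀ y ∈ V, 0 < |(fderiv ℝ Ψ y).det| :=
  ⟨(contDiff_det.comp_contDiffOn (h.sm.fderiv_of_isOpen h.opn le_inf)).abs
      fun y hy => (inj_iff_det _).1 (h.dinj y hy),
    fun y hy => abs_pos.2 ((inj_iff_det _).1 (h.dinj y hy))⟩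

theorem Dif.ae_pull {U V : Set (En n)} {Ψ : En n → En n} (h : Dif V Ψ) (hU : MeasurableSet U)
    (hm : MapsTo Ψ V U) {P : En n → Prop} (hP : ∀ᵐ x ∂(volume.restrict U), P x) :
    ∀ᵐ y ∂(volume.restrict V), P (Ψ y) := by
  obtain ⟨Θ, hΘ, hl⟩ := h.exists_inv
  rw [ae_restrict_iff' hU, ae_iff] at hP
  rw [ae_restrict_iff' h.opn.measurableSet, ae_iff]
  refine measure_mono_null ?_ (null_image hΘ (N := {x | ¬ (x ∈ U → P x)} ∩ Ψ '' V)
    inter_subset_right (measure_mono_null inter_subset_left hP))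
  intro y hy
  simp only [mem_setOf_eq, Classical.not_imp] at hy
  exact ⟨Ψ y, ⟨fun hh => hy.2 (hh (hm hy.1)), mem_image_of_mem _ hy.1⟩, hl y hy.1⟩

theorem Dif.ae_push {V : Set (En n)} {Ψ : En n → En n} (h : Dif V Ψ) {P : En n → Prop}
    (hP : ∀ᵐ y ∂(volume.restrict V), P (Ψ y)) : ∀ᵐ x ∂(volume.restrict (Ψ '' V)), P x := by
  rw [ae_restrict_iff' h.opn.measurableSet, ae_iff] at hP
  rw [ae_restrict_iff' h.isOpen_image.measurableSet, ae_iff]
  refine measure_mono_null ?_ (null_image h (N := {y | ¬ (y ∈ V → P (Ψ y))}) ?_ hP)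
  · intro x hx
    simp only [mem_setOf_eq, Classical.not_imp] at hx
    obtain ⟨⟨y, hy, rfl⟩, hx⟩ := hx
    exact ⟨y, fun hh => hx (hh hy), rfl⟩
  · intro y hy
    simp only [mem_setOf_eq, Classical.not_imp] at hy
    exact hy.1

theorem Dif.integral {V : Set (En n)} {Ψ : En n → En n} (h : Dif V Ψ) (f : En n → ℝ) :
    ∫ x in Ψ '' V, f x = ∫ y in V, |(fderiv ℝ Ψ y).det| * f (Ψ y) :=
  integral_image_eq_integral_abs_det_fderiv_smul volume h.opn.measurableSet
    (fun _ hy => (h.dAt hy).hasFDerivAt.hasFDerivWithinAt) h.inj f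

/-- Continuous functions that agree almost everywhere on an open set agree. -/
theorem eqOn_of_ae {V : Set (En n)} (hV : IsOpen V) {f g : En n → ℝ} (hf : ContinuousOn f V)
    (hg : ContinuousOn g V) (h : ∀ᵐ y ∂(volume.restrict V), f y = g y) : EqOn f g V :=
  Measure.eqOn_open_of_ae_eq h hV hf hg

/-- A map that is smooth near a closed ball and fixes the centre is linearly bounded. -/
theorem exists_lin_bound {V : Set (En n)} (hV : IsOpen V) {Y : En n → En n}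
    (h : ContDiffOn ℝ ∞ Y V) {R : ℝ} (hR : closedBall 0 R ⊆ V) (h0 : Y 0 = 0) :
    ∃ K : ℝ, 0 < K ∧ ∀ x ∈ closedBall (0 : En n) R, ‖Y x‖ ≤ K * ‖x‖ := by
  obtain ⟨C, hC⟩ := (isCompact_closedBall (0 : En n) R).exists_bound_of_continuousOn
    ((h.continuousOn_fderiv_of_isOpen hV (by simp)).mono hR)
  refine ⟨max C 1, lt_max_of_lt_right one_pos, fun x hx => ?_⟩
  have h0R : (0 : En n) ∈ closedBall (0 : En n) R :=
    mem_closedBall_self ((norm_nonneg x).trans (by simpa using hx))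
  have := (convex_closedBall (0 : En n) R).norm_image_sub_le_of_norm_fderiv_le (𝕜 := ℝ) (f := Y)
    (C := max C 1)
    (fun y hy => (h.contDiffAt (hV.mem_nhds (hR hy))).differentiableAt (by simp))
    (fun y hy => (hC y hy).trans (le_max_left _ _)) h0R hx
  simpa [h0] using this

end Vale.Agent.P088.Lt1
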