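import Vale.Agent.P088.Lt1HL
import Vale.Agent.P088.Lt1Inv

open MeasureTheory Set Metric Filter
open scoped ContDiff Topology InnerProductSpace Matrix

noncomputable section
namespace Vale.Agent.P088.Lt1
open Vale.Agent.P136 (D Sm Tst)

theorem s_agr (h : S_trS) : S_agr := by
  intro n ι _ _ U B V O Φ Y₁ Y₂ S S₁ S₂ μ μ₁ μ₂ G₁ G₂ A₁ A₂ B₁ B₂ hU hΦ hBU hmΦ hR hO hOV hY₁ hY₂
    hm₁ hm₂ hmB hg₁ hg₂ hT₁ hT₂ hrel F g hF hg
  have s₁ := (h n ι U V Y₁ S₁ μ₁ A₁ B₁ hU hY₁ hm₁ hg₁ hT₁).1 O F hO hF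
  have s₂ := (h n ι U V Y₂ S₂ μ₂ A₂ B₂ hU hY₂ hm₂ hg₂ hT₂).1 O F hO hF
  rw [inter_eq_left.2 hOV] at s₁ s₂
  have hY := hY₂.mono hO hOV
  have e : ∀ x ∈ O, ∀ (W : ι → En n → ℝ) a, pb S₁ Y₁ W a x = pb S₂ Y₂ (pb S Φ W) a x := by
    intro x hx W a
    have e1 : mt S₁ x = mt S₂ x * mt S (Y₂ x) := by
      ext a a'
      exact (hrel x hx).2.1 a a'
    rw [pb_eq, pb_eq, e1, ← Matrix.mulVec_mulVec, (hrel x hx).1]
    rfl
  have k1 : ∀ᵐ y ∂(volume.restrict (Y₂ '' O)), ∀ a,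
      cp (A₂ F) a y = μ y * pb S Φ (cp (A₁ F)) a y := by
    refine hY.ae_push ?_
    filter_upwards [ae_restrict_of_ae_restrict_of_subset hOV (hT₁.hA F),
      ae_restrict_of_ae_restrict_of_subset hOV (hT₂.hA F), ae_restrict_mem hO.measurableSet]
      with x h1 h2 hx
    have h3 : (mt S₂ x *ᵥ fun e => cp (A₂ F) e (Y₂ x)) =
        mt S₂ x *ᵥ (μ (Y₂ x) • fun e => pb S Φ (cp (A₁ F)) e (Y₂ x)) := by
      rw [Matrix.mulVec_smul]
      funext a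
      have h4 := (h2 a).symm.trans (h1 a)
      rw [e x hx, (hrel x hx).2.2, mul_assoc] at h4
      exact mul_left_cancel₀ (hg₂.pos x (hOV hx)).ne' h4
    exact congrFun (Matrix.mulVec_injective_of_det_ne_zero (hg₂.det x (hOV hx)) h3)
  rw [ae_restrict_iff' hY.isOpen_image.measurableSet] at k1
  have k2 := hR (A₁ F) (A₂ F) (suppIn_mono ?_ s₁) (suppIn_mono hmB.image_subset s₂) ?_
  · have k3 := hY.ae_pull hΦ.opn.measurableSet hmB k2
    rw [ae_restrict_iff' hO.measurableSet] at k3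
    refine inner_congr hg ?_
    filter_upwards [ae_restrict_of_ae k3, hT₁.hB (G₁ (A₁ F)), hT₂.hB (G₂ (A₂ F))]
      with x h1 h2 h3 hx a
    refine (h2 a).trans (Eq.trans ?_ (h3 a).symm)
    rw [e x hx]
    simp only [pb] at h1 ⊢
    simp only [h1 hx]
  · rintro _ ⟨x, hx, rfl⟩
    exact ⟨Y₂ x, hmB hx, (hrel x hx).1.symm⟩
  · filter_upwards [ae_restrict_of_ae k1,
      ae_restrict_of_ae_restrict_of_subset hBU (suppIn_iff.1 s₂),
      hΦ.ae_pull hU.measurableSet hmΦ (suppIn_iff.1 s₁), ae_restrict_mem hΦ.opn.measurableSet]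
      with y h1 h2 h3 hy a
    by_cases hn : y ∈ Y₂ '' O
    · exact h1 hn a
    · have h4 := h3 fun ⟨x, hx, hxy⟩ =>
        hn ⟨x, hx, hΦ.inj (hmB hx) hy ((hrel x hx).1.symm.trans hxy)⟩
      simp [h2 hn a, pb, h4]

end Vale.Agent.P088.Lt1
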