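import Vale.Agent.P088.Lt1Bas

/-! P088, LT1: orders of vanishing. -/

open MeasureTheory Set Metric Filter
open scoped ContDiff Topology InnerProductSpace Matrix

noncomputable section
namespace Vale.Agent.P088.Lt1
open Vale.Agent.P136 (D Sm Tst)

variable {n : ℕ} {ι : Type} [Fintype ι] [DecidableEq ι]

namespace Lt1Zo

lemma ev_dAt {X Y : Type} [NormedAddCommGroup X] [NormedSpace ℝ X] [NormedAddCommGroup Y]
    [NormedSpace ℝ Y] {f : X → Y} {x : X} (h : ContDiffAt ℝ ∞ f x) :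
    ∀ᶠ y in 𝓝 x, DifferentiableAt ℝ f y := by
  have h1 : ContDiffAt ℝ 1 f x := h.of_le (by exact_mod_cast le_top)
  exact (h1.eventually (by simp)).mono fun y hy => hy.differentiableAt (by simp)

lemma cd_c (c : Fin n) : ContDiff ℝ ∞ (fun y : En n => y c) :=
  (EuclideanSpace.proj c : En n →L[ℝ] ℝ).contDiff

end Lt1Zo

theorem zo_zero (f : En n → ℝ) (x : En n) : Zo 0 f x := fun _ hl => absurd hl (Nat.not_lt_zero _)

theorem zo_succ {m : ℕ} {f : En n → ℝ} {x : En n} :
    Zo (m + 1) f x ↔ f x = 0 ∧ ∀ i, Zo m (D (ee i) f) x := by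
  constructor
  · intro h
    refine ⟨h [] (by simp), fun i l hl => ?_⟩
    have := h (l ++ [i]) (by simp; omega)
    rwa [Ds_app] at this
  · rintro ⟨h0, h⟩ l hl
    rcases List.eq_nil_or_concat l with rfl | ⟨l', i, rfl⟩
    · exact h0
    · rw [List.concat_eq_append, Ds_app]
      exact h i l' (by simp at hl; omega)

theorem Zo.mono {m m' : ℕ} {f : En n → ℝ} {x : En n} (h : Zo m f x) (hm : m' ≤ m) : Zo m' f x :=
  fun l hl => h l (lt_of_lt_of_le hl hm)

theorem Zo.congr {m : ℕ} {f g : En n → ℝ} {x : En n} (h : Zo m f x) (e : g =ᶠ[𝓝 x] f) :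
    Zo m g x := fun l hl => ((Ds_congr e l).eq_of_nhds).trans (h l hl)

theorem Zo.ds {m : ℕ} {f : En n → ℝ} {x : En n} (h : Zo m f x) (l : List (Fin n)) :
    Zo (m - l.length) (Ds ee l f) x := fun l' hl => by
  rw [← Ds_app]
  exact h _ (by simp; omega)

theorem zo_null (m : ℕ) (x : En n) : Zo m (fun _ => 0) x := fun l _ => by rw [Ds_zero]

theorem Zo.add {m : ℕ} {f g : En n → ℝ} {x : En n} (hf : ContDiffAt ℝ ∞ f x)
    (hg : ContDiffAt ℝ ∞ g x) (h : Zo m f x) (h' : Zo m g x) : Zo m (fun y => f y + g y) x :=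
  fun l hl => by rw [Ds_add hf hg, h l hl, h' l hl, add_zero]

theorem Zo.sub {m : ℕ} {f g : En n → ℝ} {x : En n} (hf : ContDiffAt ℝ ∞ f x)
    (hg : ContDiffAt ℝ ∞ g x) (h : Zo m f x) (h' : Zo m g x) : Zo m (fun y => f y - g y) x :=
  fun l hl => by rw [Ds_sub hf hg, h l hl, h' l hl, sub_zero]

theorem Zo.cmul {m : ℕ} {f : En n → ℝ} {x : En n} (hf : ContDiffAt ℝ ∞ f x) (h : Zo m f x)
    (c : ℝ) : Zo m (fun y => c * f y) x :=
  fun l hl => by rw [Ds_cmul hf, h l hl, mul_zero]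

theorem Zo.sum {κ : Type} (s : Finset κ) {m : ℕ} {f : κ → En n → ℝ} {x : En n}
    (hf : ∀ i ∈ s, ContDiffAt ℝ ∞ (f i) x) (h : ∀ i ∈ s, Zo m (f i) x) :
    Zo m (fun y => ∑ i ∈ s, f i y) x := by
  classical
  induction s using Finset.induction_on with
  | empty => simpa using zo_null m x
  | insert a s ha ih =>
    simp only [Finset.sum_insert ha]
    exact Zo.add (hf a (Finset.mem_insert_self _ _))
      (ContDiffAt.sum fun i hi => hf i (Finset.mem_insert_of_mem hi))
      (h a (Finset.mem_insert_self _ _))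
      (ih (fun i hi => hf i (Finset.mem_insert_of_mem hi))
        fun i hi => h i (Finset.mem_insert_of_mem hi))

lemma Lt1Zo.mul_aux (N : ℕ) : ∀ {m m' : ℕ} {f g : En n → ℝ} {x : En n}, ContDiffAt ℝ ∞ f x →
    ContDiffAt ℝ ∞ g x → Zo m f x → Zo m' g x → N ≤ m + m' → Zo N (fun y => f y * g y) x := by
  induction N with
  | zero => intro m m' f g x _ _ _ _ _; exact zo_zero _ _
  | succ N ih =>
    intro m m' f g x hf hg h h' hN
    refine zo_succ.2 ⟨?_, fun i => ?_⟩
    · rcases Nat.eq_zero_or_pos m with h0 | h0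
      · have : g x = 0 := h' [] (by simp; omega)
        rw [this, mul_zero]
      · have : f x = 0 := h [] (by simpa using h0)
        rw [this, zero_mul]
    · have e : D (ee i) (fun y => f y * g y) =ᶠ[𝓝 x]
          fun y => f y * D (ee i) g y + D (ee i) f y * g y := by
        filter_upwards [Lt1Zo.ev_dAt hf, Lt1Zo.ev_dAt hg] with y h1 h2
        exact P136.D_mul_at h1 h2 _
      have a1 : Zo (m' - 1) (D (ee i) g) x := h'.ds [i]
      have a2 : Zo (m - 1) (D (ee i) f) x := h.ds [i]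
      have df := P136.contDiffAt_D hf (ee i)
      have dg := P136.contDiffAt_D hg (ee i)
      exact Zo.congr (Zo.add (hf.mul dg) (df.mul hg) (ih hf dg h a1 (by omega))
        (ih df hg a2 h' (by omega))) e

theorem Zo.mul {m m' : ℕ} {f g : En n → ℝ} {x : En n} (hf : ContDiffAt ℝ ∞ f x)
    (hg : ContDiffAt ℝ ∞ g x) (h : Zo m f x) (h' : Zo m' g x) :
    Zo (m + m') (fun y => f y * g y) x := Lt1Zo.mul_aux _ hf hg h h' le_rfl

theorem Zo.comp {m : ℕ} {f : En n → ℝ} {u : En n → En n} {x : En n}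
    (hf : ContDiffAt ℝ ∞ f (u x)) (hu : ContDiffAt ℝ ∞ u x) (h : Zo m f (u x)) :
    Zo m (fun y => f (u y)) x := by
  induction m generalizing f with
  | zero => exact zo_zero _ _
  | succ m ih =>
    obtain ⟨h0, h1⟩ := zo_succ.1 h
    refine zo_succ.2 ⟨h0, fun i => ?_⟩
    have e : D (ee i) (fun y => f (u y)) =ᶠ[𝓝 x]
        fun y => ∑ k, D (ee i) (fun y => u y k) y * D (ee k) f (u y) := by
      filter_upwards [Lt1Zo.ev_dAt hu, hu.continuousAt.eventually (Lt1Zo.ev_dAt hf)] with y h2 h3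
      exact D_comp h3 h2 _
    refine Zo.congr (Zo.sum _ (fun k _ => ?_) fun k _ => ?_) e
    · exact (P136.contDiffAt_D (cd_coord hu k) _).mul ((P136.contDiffAt_D hf _).comp x hu)
    · have := Zo.mul (P136.contDiffAt_D (cd_coord hu k) (ee i))
        ((P136.contDiffAt_D hf (ee k)).comp x hu) (zo_zero _ _)
        (ih (P136.contDiffAt_D hf _) (h1 k))
      rw [zero_add] at this
      exact this

theorem zo_sub_iff {m : ℕ} {f g : En n → ℝ} {x : En n} (hf : ContDiffAt ℝ ∞ f x)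
    (hg : ContDiffAt ℝ ∞ g x) : Zo (m + 1) (fun y => f y - g y) x ↔
      ∀ l : List (Fin n), l.length ≤ m → Ds ee l f x = Ds ee l g x := by
  constructor
  · intro h l hl
    have := h l (by omega)
    rwa [Ds_sub hf hg, sub_eq_zero] at this
  · intro h l hl
    rw [Ds_sub hf hg, h l (by omega), sub_self]

theorem zo_closure (m : ℕ) {f : En n → ℝ} {O : Set (En n)} {x : En n} (hf : ContDiffAt ℝ ∞ f x)
    (hO : IsOpen O) (h : ∀ y ∈ O, f y = 0) (hx : x ∈ closure O) : Zo m f x := by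
  intro l _
  have hz : ∀ y ∈ O, Ds ee l f y = 0 := fun y hy => by
    have e : f =ᶠ[𝓝 y] fun _ => (0 : ℝ) := by
      filter_upwards [hO.mem_nhds hy] with z hz using h z hz
    rw [(Ds_congr e l).eq_of_nhds, Ds_zero]
  have hc : Tendsto (Ds ee l f) (𝓝 x) (𝓝 (Ds ee l f x)) := (Ds_cda hf l).continuousAt
  exact tendsto_nhds_unique_of_frequently_eq hc tendsto_const_nhds
    ((mem_closure_iff_frequently.1 hx).mono hz)

lemma Lt1Zo.qq_inr (p : En n) (a b : Fin n) : qq p (.inr (a, b)) = fun x =>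
    (x a - p a) * (x b - p b) -
      (if a = b then (n : ℝ)⁻¹ else 0) * ∑ c, (x c - p c) * (x c - p c) := by
  funext x
  simp only [qq, sq]
  split_ifs
  · rw [← sq, EuclideanSpace.real_norm_sq_eq]
    simp only [PiLp.sub_apply, sq]
    ring
  · ring

theorem qq_sm (p : En n) (s : Sp n) : Sm (qq p s) := by
  have h : ∀ c : Fin n, Sm (fun x : En n => x c - p c) := fun c =>
    (Lt1Zo.cd_c c).sub contDiff_const
  rcases s with c | ⟨a, b⟩
  · exact h c
  · rw [Lt1Zo.qq_inr]
    exact ((h a).mul (h b)).sub (Sm.cmul _ (Sm.sum fun c _ => (h c).mul (h c)))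

theorem qq_shift (p : En n) (s : Sp n) (x : En n) : qq p s x = qq 0 s (x - p) := by
  rcases s with c | ⟨a, b⟩
  · simp [qq]
  · simp [qq]

theorem qq_smul (s : Sp n) (η : ℝ) (x : En n) : qq 0 s (η • x) = η ^ qo s * qq 0 s x := by
  rcases s with c | ⟨a, b⟩
  · simp [qq, qo]
  · simp only [qq, qo, sub_zero, PiLp.smul_apply, PiLp.zero_apply, smul_eq_mul, norm_smul,
      mul_pow, Real.norm_eq_abs, sq_abs]
    split_ifs <;> ring

theorem qq_zo (p : En n) (s : Sp n) : Zo (qo s) (qq p s) p := by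
  have h : ∀ c : Fin n, ContDiffAt ℝ ∞ (fun x : En n => x c - p c) p := fun c =>
    ((Lt1Zo.cd_c c).sub contDiff_const).contDiffAt
  have z : ∀ c : Fin n, Zo 1 (fun x : En n => x c - p c) p := fun c =>
    zo_succ.2 ⟨sub_self _, fun _ => zo_zero _ _⟩
  rcases s with c | ⟨a, b⟩
  · exact z c
  · rw [Lt1Zo.qq_inr]
    have hs : ContDiffAt ℝ ∞ (fun x : En n => ∑ c, (x c - p c) * (x c - p c)) p :=
      ContDiffAt.sum fun c _ => (h c).mul (h c)
    exact Zo.sub ((h a).mul (h b)) (contDiffAt_const.mul hs) (Zo.mul (h a) (h b) (z a) (z b))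
      (Zo.cmul hs (Zo.sum _ (fun c _ => (h c).mul (h c))
        fun c _ => Zo.mul (h c) (h c) (z c) (z c)) _)

theorem qq_jet (s : Sp n) {u v : En n → En n} {x : En n} (hu : ContDiffAt ℝ ∞ u x)
    (hv : ContDiffAt ℝ ∞ v x) (h0 : u x = 0) (h : ∀ c, Zo 2 (fun y => u y c - v y c) x) :
    Zo (qo s + 1) (fun y => qq 0 s (u y) - qq 0 s (v y)) x := by
  have cu := cd_coord hu
  have cv := cd_coord hv
  have zu : ∀ c, Zo 1 (fun y => u y c) x := fun c =>
    zo_succ.2 ⟨by rw [h0]; rfl, fun _ => zo_zero _ _⟩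
  have zv : ∀ c, Zo 1 (fun y => v y c) x := fun c => by
    refine zo_succ.2 ⟨?_, fun _ => zo_zero _ _⟩
    have h1 : u x c - v x c = 0 := (zo_succ.1 (h c)).1
    have h2 : u x c = 0 := by rw [h0]; rfl
    linarith
  have cp : ∀ a b, ContDiffAt ℝ ∞ (fun y => u y a * u y b - v y a * v y b) x := fun a b =>
    ((cu a).mul (cu b)).sub ((cv a).mul (cv b))
  have zp : ∀ a b, Zo 3 (fun y => u y a * u y b - v y a * v y b) x := fun a b => by
    have e : (fun y => u y a * u y b - v y a * v y b) =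
        fun y => u y a * (u y b - v y b) + (u y a - v y a) * v y b := by
      funext y; ring
    rw [e]
    exact Zo.add ((cu a).mul ((cu b).sub (cv b))) (((cu a).sub (cv a)).mul (cv b))
      (Zo.mul (cu a) ((cu b).sub (cv b)) (zu a) (h b))
      (Zo.mul ((cu a).sub (cv a)) (cv b) (h a) (zv b))
  rcases s with c | ⟨a, b⟩
  · have e : (fun y => qq 0 (.inl c) (u y) - qq 0 (.inl c) (v y)) = fun y => u y c - v y c := by
      funext y; simp [qq]
    rw [e]
    exact h c
  · have e : (fun y => qq 0 (.inr (a, b)) (u y) - qq 0 (.inr (a, b)) (v y)) = fun y =>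
        (u y a * u y b - v y a * v y b) -
          (if a = b then (n : ℝ)⁻¹ else 0) * ∑ c, (u y c * u y c - v y c * v y c) := by
      funext y
      rw [Lt1Zo.qq_inr]
      simp only [PiLp.zero_apply, sub_zero, Finset.sum_sub_distrib]
      ring
    rw [e]
    have hs : ContDiffAt ℝ ∞ (fun y => ∑ c, (u y c * u y c - v y c * v y c)) x :=
      ContDiffAt.sum fun c _ => cp c c
    exact Zo.sub (cp a b) (contDiffAt_const.mul hs) (zp a b)
      (Zo.cmul hs (Zo.sum _ (fun c _ => cp c c) fun c _ => zp c c) _)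

end Vale.Agent.P088.Lt1
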