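import Vale.Agent.P088.Lt1HL
import Vale.Agent.P088.Lt1Zo

open MeasureTheory Set Metric Filter
open scoped ContDiff Topology InnerProductSpace Matrix

noncomputable section
namespace Vale.Agent.P088.Lt1
open Vale.Agent.P136 (D Sm Tst)

namespace Lt1Apx

variable {n : ℕ} {ι : Type} [Fintype ι] [DecidableEq ι]

theorem unif (hv : S_van) (m k : ℕ) {F : ι → En n → ℝ} (hF : ∀ a, Sm (F a))
    (hz : ∀ a, Zo m (F a) 0) : ∃ B : ℝ, 0 ≤ B ∧ ∀ l : List (Fin n), l.length ≤ k → ∀ a,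
      ∀ s : ℝ, 0 < s → s ≤ 1 → ∀ y ∈ ball (0 : En n) s,
        |Ds ee l (F a) y| ≤ B * s ^ (m - l.length) := by
  have : Finite {l : List (Fin n) // l.length ≤ k} := (List.finite_length_le (Fin n) k).to_subtype
  choose C hC0 hC using fun p : {l : List (Fin n) // l.length ≤ k} × ι =>
    hv n (m - p.1.1.length) 0 (Ds ee p.1.1 (F p.2)) id (closedBall 0 1) (Ds_sm (hF p.2) _)
      contDiff_id ((hz p.2).ds _) (isCompact_closedBall _ _)
  obtain ⟨B, hB⟩ := (Set.finite_range C).bddAbove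
  refine ⟨max B 0, le_max_right _ _, fun l hl a s hs hs1 y hy => ?_⟩
  have hx : s⁻¹ • y ∈ closedBall (0 : En n) 1 := by
    rw [mem_closedBall_zero_iff, norm_smul, Real.norm_eq_abs, abs_of_pos (inv_pos.2 hs),
      inv_mul_le_iff₀ hs, mul_one]
    exact (mem_ball_zero_iff.1 hy).le
  have h := hC (⟨l, hl⟩, a) s hs hs1 _ hx [] le_rfl
  simp only [Ds, List.foldr_nil, id, smul_smul, mul_inv_cancel₀ hs.ne', one_smul,
    List.length_nil, pow_zero, mul_one] at h
  refine h.trans (mul_le_mul_of_nonneg_right ?_ (by positivity))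
  exact (hB ⟨_, rfl⟩).trans (le_max_left _ _)

theorem nrm_le {F : ι → En n → ℝ} {s b : ℝ} (hs : 0 < s)
    (h : ∀ a, ∀ y ∈ ball (0 : En n) s, |F a y| ≤ b) :
    nrm (ball 0 s) F ≤ Fintype.card ι * (volume (ball (0 : En n) 1)).toReal * (b ^ 2 * s ^ n) := by
  have e : (volume (ball (0 : En n) s)).toReal = s ^ n * (volume (ball (0 : En n) 1)).toReal := by
    rw [Measure.addHaar_ball_of_pos _ _ hs, ENNReal.toReal_mul,
      ENNReal.toReal_ofReal (by positivity)]
    simp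
  unfold nrm
  calc _ ≤ ∑ _a : ι, b ^ 2 * (volume (ball (0 : En n) s)).toReal := by
        refine Finset.sum_le_sum fun a _ => (le_abs_self _).trans ?_
        refine norm_setIntegral_le_of_norm_le_const (μ := volume) (s := ball (0 : En n) s)
          (f := fun y => F a y ^ 2) measure_ball_lt_top fun y hy => ?_
        rw [Real.norm_eq_abs, abs_pow]
        exact pow_le_pow_left₀ (abs_nonneg _) (h a y hy) 2
    _ = _ := by rw [e]; simp; ring

theorem green_le {r s C : ℝ} {G : HL n ι (ball 0 r) →L[ℝ] HL n ι (ball 0 r)} (hG : GSc C G)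
    (hs : 0 < s) (hsr : s ≤ r) {H : HL n ι (ball 0 r)} (hH : SuppIn (ball 0 s) H) :
    nrm (ball 0 s) (cp (G H)) ≤ C ^ 2 * s ^ 4 * ‖H‖ ^ 2 := by
  have hV : MeasurableSet (ball (0 : En n) s) := measurableSet_ball
  set h := St1.ind (ball 0 r) hV (G H) with hh
  have h1 : SuppIn (ball 0 s) h := St1.supp_ind hV _
  have h2 : ⟪G H, h⟫_ℝ = ‖h‖ ^ 2 := by
    rw [← real_inner_self_eq_norm_sq]
    conv_rhs => rw [hh, St1.ind_symm, ← hh, St1.ind_self hV h1]
  have h3 := hG s hs H h hH h1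
  rw [h2, abs_of_nonneg (sq_nonneg _)] at h3
  rw [← St1.norm_ind hV (ball_subset_ball hsr), ← hh]
  have h4 : ‖h‖ ≤ |C| * s ^ 2 * ‖H‖ := by
    rcases (norm_nonneg h).eq_or_lt with h0 | h0
    · rw [← h0]; positivity
    · refine le_of_mul_le_mul_right ?_ h0
      rw [← sq]
      refine h3.trans ?_
      gcongr
      exact le_abs_self C
  calc ‖h‖ ^ 2 ≤ (|C| * s ^ 2 * ‖H‖) ^ 2 := by gcongr
    _ = _ := by rw [mul_pow, mul_pow, sq_abs]; ring

end Lt1Apx

open Lt1Apx in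
theorem s_apx (hw : S_weyl) (hg : S_green) (hie : S_ie) (hv : S_van) : S_apx := by
  intro n ι _ _ L r r₁ ε G m P hL hG ⟨CG, hCG⟩ hr hr₁ hε hP hz
  obtain ⟨k, hk⟩ := hie n ι m
  obtain ⟨c, M, hc, hB⟩ := bdOn hL (isCompact_closedBall (0 : En n) 1) k
  obtain ⟨C, hC0, hC⟩ := hk c M hc
  have hF : ∀ a, Sm (L.app P a) := app_sm hL hP
  obtain ⟨B, hB0, hb⟩ := unif hv (m - 1) k hF hz
  set K0 : ℝ := Fintype.card ι * (volume (ball (0 : En n) 1)).toReal * B ^ 2 with hK0
  have hK00 : 0 ≤ K0 := by positivity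
  set Q : ℝ := C * ((1 + CG ^ 2) * K0) with hQ
  have hQ0 : 0 ≤ Q := by positivity
  set s : ℝ := min (min r₁ r) (min 1 (ε / (Q + 1))) with hsd
  have hs : 0 < s := by positivity
  have s1 : s ≤ r₁ := (min_le_left _ _).trans (min_le_left _ _)
  have s2 : s ≤ r := (min_le_left _ _).trans (min_le_right _ _)
  have s3 : s ≤ 1 := (min_le_right _ _).trans (min_le_left _ _)
  have s4 : s * (Q + 1) ≤ ε :=
    (le_div_iff₀ (by positivity)).1 ((min_le_right _ _).trans (min_le_right _ _))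
  have hsub : ball (0 : En n) s ⊆ ball 0 r := ball_subset_ball s2
  have l2 : ∀ l : List (Fin n), L2On (ball (0 : En n) s) fun a => Ds ee l (L.app P a) := fun l =>
    l2_compact measurableSet_ball (isCompact_closedBall 0 s) ball_subset_closedBall fun a =>
      (Ds_sm (hF a) l).continuous.continuousOn
  have nb : ∀ l : List (Fin n), l.length ≤ k →
      s ^ (4 + 2 * l.length) * nrm (ball 0 s) (fun a => Ds ee l (L.app P a)) ≤
        K0 * s ^ (2 * m + n + 2) := by
    intro l hl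
    have h1 := nrm_le hs fun a y hy => hb l hl a s hs s3 y hy
    calc _ ≤ s ^ (4 + 2 * l.length) * (Fintype.card ι * (volume (ball (0 : En n) 1)).toReal *
          ((B * s ^ (m - 1 - l.length)) ^ 2 * s ^ n)) := by gcongr
      _ = K0 * s ^ (4 + 2 * l.length + (m - 1 - l.length) * 2 + n) := by rw [hK0]; ring
      _ ≤ _ := mul_le_mul_of_nonneg_left (pow_le_pow_of_le_one hs.le s3 (by omega)) hK00
  obtain ⟨H, hH1, hH2, hH3⟩ := exists_ind (U := ball (0 : En n) r) (O := ball 0 s)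
    measurableSet_ball (W := L.app P) (by rw [inter_eq_left.2 hsub]; exact l2 [])
  rw [inter_eq_left.2 hsub] at hH2
  have hsm : SmOn (ball (0 : En n) s) (L.app P) := fun a => (hF a).contDiffOn
  obtain ⟨W', hW1, hW2⟩ := green_sol hw hg hL hG isOpen_ball isOpen_ball hsub H hsm (by
    filter_upwards [ae_restrict_of_ae_restrict_of_subset hsub hH3,
      ae_restrict_mem measurableSet_ball] with x h1 h2 using h1 h2)
  have hPs : Sol L (ball (0 : En n) s) P (L.app P) := ⟨fun a => (hP a).contDiffOn, fun _ _ _ => rfl⟩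
  have hWs := sol_lin hL isOpen_ball hPs hW1 1 (-1)
  refine ⟨s, fun a y => 1 * P a y + -1 * W' a y, hs, s1, ⟨hWs.1, fun x hx a => ?_⟩,
    fun l hl a => ?_⟩
  · rw [hWs.2 x hx a]; simp
  have hp : 0 ≤ K0 * s ^ (2 * m + n + 2) := by positivity
  have key := hC L 0 s ((1 + CG ^ 2) * (K0 * s ^ (2 * m + n + 2))) W' (L.app P) hL hs s3
    (fun x hx => hB x (ball_subset_closedBall (ball_subset_ball s3 hx))) hW1 hsm
    (l2_congr (l2_mono hsub (l2_cp (G H))) (hW2.mono fun x hx a => (hx a).symm))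
    (by
      rw [← nrm_congr hW2]
      refine (green_le hCG hs s2 hH1).trans ?_
      have h1 : s ^ 4 * nrm (ball 0 s) (L.app P) ≤ K0 * s ^ (2 * m + n + 2) := nb [] (Nat.zero_le _)
      rw [hH2, mul_assoc]
      have := mul_le_mul_of_nonneg_left h1 (sq_nonneg CG)
      linarith)
    (fun l hl => ⟨l2 l, (nb l hl).trans (le_mul_of_one_le_left hp (by nlinarith [sq_nonneg CG]))⟩)
    l hl a 0 (mem_ball_self (by positivity))
  have hW0 : ContDiffAt ℝ ∞ (W' a) 0 :=
    (hW1.1 a).contDiffAt (isOpen_ball.mem_nhds (mem_ball_self hs))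
  rw [Ds_lin (hP a).contDiffAt hW0]
  have e : 1 * Ds ee l (P a) 0 + -1 * Ds ee l (W' a) 0 - Ds ee l (P a) 0 = -Ds ee l (W' a) 0 := by
    ring
  rw [e, abs_neg]
  have h1 : s ^ (2 * m + n) ≤ s ^ (2 * l.length + n) := pow_le_pow_of_le_one hs.le s3 (by omega)
  have h2 : Ds ee l (W' a) 0 ^ 2 * s ^ (2 * m + n) ≤ Q * s ^ 2 * s ^ (2 * m + n) := by
    refine (mul_le_mul_of_nonneg_left h1 (sq_nonneg _)).trans (key.trans (le_of_eq ?_))
    rw [hQ]; ring
  have h3 := le_of_mul_le_mul_right h2 (by positivity)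
  refine abs_le_of_sq_le_sq' (h3.trans ?_) hε.le |> abs_le.2
  calc Q * s ^ 2 ≤ (Q + 1) ^ 2 * s ^ 2 := by gcongr; nlinarith
    _ = (s * (Q + 1)) ^ 2 := by ring
    _ ≤ ε ^ 2 := by gcongr

end Vale.Agent.P088.Lt1
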