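import Vale.Agent.P088.Lt1Bas
import Vale.Agent.P088.Lt1Inv

/-! P088, LT1: calculus of intertwining maps. -/

open MeasureTheory Set Metric Filter
open scoped ContDiff Topology InnerProductSpace Matrix

noncomputable section
namespace Vale.Agent.P088.Lt1
open Vale.Agent.P136 (D Sm Tst)

variable {n : ℕ} {ι : Type} [Fintype ι] [DecidableEq ι]

variable {L L' L'' : Op n ι} {V V' : Set (En n)} {Ψ Ψ' : En n → En n} {S S' : MF n ι}
  {μ μ' : En n → ℝ}

theorem inter_gau (h : Inter L L' V Ψ S μ) : Gau V S μ :=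
  ⟨h.2.1, h.2.2.1, fun y hy => (h.2.2.2.1 y hy).1, fun y hy => (h.2.2.2.1 y hy).2.1⟩

theorem inter_dif (h : Inter L L' V Ψ S μ) (hV : IsOpen V) (hi : InjOn Ψ V) : Dif V Ψ :=
  ⟨hV, h.1, hi, fun y hy => (h.2.2.2.1 y hy).2.2⟩

theorem inter_mono (h : Inter L L' V Ψ S μ) (hV : V' ⊆ V) : Inter L L' V' Ψ S μ :=
  ⟨h.1.mono hV, fun a a' => (h.2.1 a a').mono hV, h.2.2.1.mono hV,
    fun y hy => h.2.2.2.1 y (hV hy), fun W hW y hy => h.2.2.2.2 W hW y (hV hy)⟩

theorem inter_congr (h : Inter L L' V Ψ S μ) (hV : IsOpen V)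
    (e : ∀ y ∈ V, Ψ' y = Ψ y ∧ (∀ a a', S' a a' y = S a a' y) ∧ μ' y = μ y) :
    Inter L L' V Ψ' S' μ' := by
  refine ⟨h.1.congr fun y hy => (e y hy).1, fun a a' => (h.2.1 a a').congr fun y hy =>
    (e y hy).2.1 a a', h.2.2.1.congr fun y hy => (e y hy).2.2, fun y hy => ?_,
    fun W hW y hy a => ?_⟩
  · have e1 : Ψ' =ᶠ[𝓝 y] Ψ := eventuallyEq_of_mem (hV.mem_nhds hy) fun z hz => (e z hz).1
    simp only [e1.fderiv_eq, (e y hy).2.1, (e y hy).2.2]
    exact h.2.2.2.1 y hy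
  · simp only [(e y hy).1, (e y hy).2.1, (e y hy).2.2]
    rw [← h.2.2.2.2 W hW y hy a]
    refine app_congr _ (fun a => eventuallyEq_of_mem (hV.mem_nhds hy) fun z hz => ?_) a
    simp only [(e z hz).1, (e z hz).2.1]

/-- The intertwining relation for fields that are only smooth near the point. -/
theorem inter_loc (h : Inter L L' V Ψ S μ) (hV : IsOpen V) {y : En n} (hy : y ∈ V)
    {O : Set (En n)} (hO : IsOpen O) (hyO : Ψ y ∈ O) {W W' : ι → En n → ℝ} (hW : SmOn O W)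
    (e : ∀ a, W' a =ᶠ[𝓝 y] pb S Ψ W a) (a : ι) :
    L'.app W' a y = μ y * pb S Ψ (L.app W) a y := by
  choose U hU eU using fun a => exists_ext (isCompact_singleton (x := Ψ y)) hO
    (singleton_subset_iff.2 hyO) (hW a)
  have e1 : ∀ a, U a =ᶠ[𝓝 (Ψ y)] W a := fun a => eU a _ rfl
  have hc : ContinuousAt Ψ y := h.1.continuousOn.continuousAt (hV.mem_nhds hy)
  have e2 : ∀ a, W' a =ᶠ[𝓝 y] pb S Ψ U a := fun a => by
    filter_upwards [e a, eventually_all.2 fun a => hc.eventually (e1 a)] with z h1 h2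
    rw [h1]
    exact Finset.sum_congr rfl fun a' _ => by rw [h2 a']
  rw [app_congr L' e2 a]
  refine (h.2.2.2.2 U hU y hy a).trans ?_
  simp only [pb, app_congr L e1]

omit [DecidableEq ι] in
theorem Lt1Int.pb_sm (hS : ∀ a a', ContDiffOn ℝ ∞ (S a a') V) (hΨ : ContDiffOn ℝ ∞ Ψ V)
    {O : Set (En n)} (hm : MapsTo Ψ V O) {W : ι → En n → ℝ} (hW : SmOn O W) :
    SmOn V (pb S Ψ W) := fun a =>
  ContDiffOn.sum fun a' _ => (hS a a').mul ((hW a').comp hΨ hm)

theorem inter_sol (h : Inter L L' V Ψ S μ) (hV : IsOpen V) {O : Set (En n)} (hO : IsOpen O)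
    (hm : MapsTo Ψ V O) {W : ι → En n → ℝ} (hW : Sol L O W 0) : Sol L' V (pb S Ψ W) 0 := by
  refine ⟨Lt1Int.pb_sm h.2.1 h.1 hm hW.1, fun y hy a => ?_⟩
  rw [inter_loc h hV hy hO (hm hy) hW.1 (fun _ => EventuallyEq.rfl) a]
  simp [pb, hW.2 _ (hm hy)]

theorem inter_trans (h : Inter L L' V Ψ S μ) (h' : Inter L' L'' V' Ψ' S' μ') (hV : IsOpen V)
    (hV' : IsOpen V') (hm : MapsTo Ψ' V' V) :
    Inter L L'' V' (fun y => Ψ (Ψ' y)) (mm S' (mc S Ψ')) fun y => μ' y * μ (Ψ' y) := by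
  refine ⟨h.1.comp h'.1 hm, fun a a' => ContDiffOn.sum fun e _ =>
    (h'.2.1 a e).mul ((h.2.1 e a').comp h'.1 hm), h'.2.2.1.mul (h.2.2.1.comp h'.1 hm),
    fun y hy => ?_, fun W hW y hy a => ?_⟩
  · obtain ⟨a1, a2, a3⟩ := h.2.2.2.1 _ (hm hy)
    obtain ⟨b1, b2, b3⟩ := h'.2.2.2.1 _ hy
    refine ⟨mul_pos b1 a1, ?_, ?_⟩
    · change (mt S' y * mt S (Ψ' y)).det ≠ 0
      rw [Matrix.det_mul]
      exact mul_ne_zero b2 a2
    · have := fderiv_comp y ((h.1.contDiffAt (hV.mem_nhds (hm hy))).differentiableAt (by simp))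
        ((h'.1.contDiffAt (hV'.mem_nhds hy)).differentiableAt (by simp))
      rw [show (fun y => Ψ (Ψ' y)) = Ψ ∘ Ψ' from rfl, this]
      exact a3.comp b3
  · have e : ∀ (U : ι → En n → ℝ) a z, pb (mm S' (mc S Ψ')) (fun y => Ψ (Ψ' y)) U a z =
        pb S' Ψ' (pb S Ψ U) a z := fun U a z => by
      simp only [pb_eq, mt_mm, mt_mc, ← Matrix.mulVec_mulVec]
    have k := inter_loc h' hV' hy hV (hm hy)
      (Lt1Int.pb_sm h.2.1 h.1 (mapsTo_univ _ _) fun a => (hW a).contDiffOn)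
      (fun a => Eventually.of_forall (e W a)) a
    refine k.trans ?_
    change _ = _ * pb (mm S' (mc S Ψ')) (fun y => Ψ (Ψ' y)) (L.app W) a y
    rw [e, mul_assoc]
    congr 1
    rw [pb, pb, Finset.mul_sum]
    refine Finset.sum_congr rfl fun a' _ => ?_
    rw [show L'.app (pb S Ψ W) a' (Ψ' y) = μ (Ψ' y) * pb S Ψ (L.app W) a' (Ψ' y) from
      h.2.2.2.2 W hW _ (hm hy) a']
    ring

theorem inter_symm (h : Inter L L' V Ψ S μ) (hV : IsOpen V) (h' : Dif V' Ψ')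
    (hm : MapsTo Ψ' V' V) (hi : ∀ x ∈ V', Ψ (Ψ' x) = x) (hi' : ∀ y ∈ V, Ψ' (Ψ y) = y) :
    Inter L' L V' Ψ' (mc (mi S) Ψ') fun x => (μ (Ψ' x))⁻¹ := by
  have g := inter_gau h
  have s1 : ∀ a a', ContDiffOn ℝ ∞ (mc (mi S) Ψ' a a') V' := fun a a' =>
    (mi_cdOn g.sm g.det a a').comp h'.sm hm
  refine ⟨h'.sm, s1, (g.smμ.comp h'.sm hm).inv fun x hx => (g.pos _ (hm hx)).ne',
    fun x hx => ⟨inv_pos.2 (g.pos _ (hm hx)), ?_, h'.dinj x hx⟩, fun W hW x hx a => ?_⟩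
  · change ((mt S (Ψ' x))⁻¹).det ≠ 0
    exact (Matrix.isUnit_nonsing_inv_det _ (g.det _ (hm hx)).isUnit).ne_zero
  · have k : ∀ a, L'.app W a (Ψ' x) =
        μ (Ψ' x) * pb S Ψ (L.app (pb (mc (mi S) Ψ') Ψ' W)) a (Ψ' x) := fun a =>
      inter_loc h hV (hm hx) h'.opn (by rwa [hi x hx])
        (Lt1Int.pb_sm s1 h'.sm (mapsTo_univ _ _) fun a => (hW a).contDiffOn)
        (fun a => eventuallyEq_of_mem (hV.mem_nhds (hm hx)) fun z hz => by
          simp only [pb_eq, mt_mc, mt_mi, hi' z hz, Matrix.mulVec_mulVec,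
            Matrix.mul_nonsing_inv _ (g.det z hz).isUnit, Matrix.one_mulVec]) a
    change L.app (pb (mc (mi S) Ψ') Ψ' W) a x = _ * pb (mc (mi S) Ψ') Ψ' (L'.app W) a x
    have k' : (fun e => L'.app W e (Ψ' x)) =
        μ (Ψ' x) • mt S (Ψ' x) *ᵥ fun e => L.app (pb (mc (mi S) Ψ') Ψ' W) e x := by
      funext e
      rw [k e, pb_eq, hi x hx]
      rfl
    rw [pb_eq, k', mt_mc, mt_mi, Matrix.mulVec_smul, Matrix.mulVec_mulVec,
      Matrix.nonsing_inv_mul _ (g.det _ (hm hx)).isUnit, Matrix.one_mulVec, Pi.smul_apply,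
      smul_eq_mul, inv_mul_cancel_left₀ (g.pos _ (hm hx)).ne']

theorem inter_c (h : Inter L L' V Ψ S μ) {y : En n} (hy : y ∈ V)
    (h0 : ∀ col a, L'.app (fun e => S e col) a y = 0) (a a' : ι) : L.c a a' (Ψ y) = 0 := by
  have g := inter_gau h
  have k : mt S y *ᵥ (fun e => L.c e a' (Ψ y)) = 0 := funext fun e => by
    have := h.2.2.2.2 (fun e _ => if e = a' then 1 else 0) (fun _ => contDiff_const) y hy e
    simp only [app_const, mul_ite, mul_one, mul_zero, Finset.sum_ite_eq', Finset.mem_univ,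
      if_true] at this
    rw [h0 a' e] at this
    exact (mul_eq_zero.1 this.symm).resolve_left (g.pos y hy).ne'
  exact congrFun (Matrix.eq_zero_of_mulVec_eq_zero (g.det y hy) k) a

theorem inter_id (h : ∀ W : ι → En n → ℝ, (∀ a, Sm (W a)) → ∀ x ∈ V, ∀ a,
    L'.app W a x = L.app W a x) : Inter L L' V (fun x => x) one' fun _ => 1 := by
  have g : Gau V (one' : MF n ι) fun _ => 1 := gau_one V contDiffOn_const fun _ _ => one_pos
  refine ⟨contDiffOn_id, g.sm, g.smμ, fun y hy => ⟨one_pos, g.det y hy, ?_⟩,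
    fun W hW y hy a => ?_⟩
  · rw [fderiv_fun_id]
    exact Function.injective_id
  · change L'.app (pb one' (fun x => x) W) a y = 1 * pb one' (fun x => x) (L.app W) a y
    rw [pb_one, one_mul, ← h W hW y hy a]
    congr 1
    funext e z
    exact pb_one _ _ _ _

theorem inter_app (h : Inter L L' V Ψ S μ) (hV : IsOpen V)
    (e : ∀ y ∈ V, Ψ y = y ∧ ∀ a a', S a a' y = one' a a' y) (W : ι → En n → ℝ)
    (hW : ∀ a, Sm (W a)) {x : En n} (hx : x ∈ V) (a : ι) :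
    L'.app W a x = μ x * L.app W a x := by
  rw [inter_loc h hV hx isOpen_univ (mem_univ _) (W := W) (fun a => (hW a).contDiffOn)
    (fun a => eventuallyEq_of_mem (hV.mem_nhds hx) fun z hz => ?_) a]
  · simp [pb, e x hx, one']
  · simp [pb, e z hz, one']

omit [Fintype ι] [DecidableEq ι] in
theorem Lt1Int.scale_eq (L : Op n ι) (η : ℝ) : L.sc 0 η = scale L η := by
  unfold Op.sc scale P088.sc
  simp only [zero_add]

theorem fam_scale (hL : L.Good) : Fam (scale L) := by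
  have s : ∀ {f : En n → ℝ}, Sm f → ContDiff ℝ ∞ fun p : ℝ × En n => f (p.1 • p.2) :=
    fun hf => ContDiff.comp hf (contDiff_fst.smul contDiff_snd)
  refine ⟨fun η => Lt1Int.scale_eq L η ▸ good_sc hL 0 η, fun i j => s (hL.1 i j),
    fun i a a' => contDiff_fst.mul (s (hL.2.2.1 i a a')),
    fun a a' => (contDiff_fst.pow 2).mul (s (hL.2.2.2.1 a a'))⟩

theorem fam_const (hL : L.Good) : Fam fun _ => L :=
  ⟨fun _ => hL, fun i j => ContDiff.comp (hL.1 i j) contDiff_snd,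
    fun i a a' => ContDiff.comp (hL.2.2.1 i a a') contDiff_snd,
    fun a a' => ContDiff.comp (hL.2.2.2.1 a a') contDiff_snd⟩

theorem inter_scale (hL : L.Good) {η : ℝ} (hη : 0 < η) (V : Set (En n)) :
    Inter L (scale L η) V (fun x => η • x) one' fun _ => η ^ 2 := by
  have g : Gau V (one' : MF n ι) fun _ => η ^ 2 :=
    gau_one V contDiffOn_const fun _ _ => pow_pos hη 2
  refine ⟨contDiffOn_id.const_smul η, g.sm, g.smμ, fun y hy => ⟨g.pos y hy, g.det y hy,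
    (dif_smul isOpen_univ hη.ne').dinj y (mem_univ _)⟩, fun W _ y _ a => ?_⟩
  change (scale L η).app (pb one' (fun x => η • x) W) a y =
    η ^ 2 * pb one' (fun x => η • x) (L.app W) a y
  have k := app_sc L 0 η W a y
  rw [Lt1Int.scale_eq, zero_add] at k
  rw [pb_one, ← k]
  congr 1
  funext e z
  rw [pb_one, sc, zero_add]

end Vale.Agent.P088.Lt1
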