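import Vale.Agent.P088.Lt1Zo
import Vale.Agent.P088.Lt1Int

open MeasureTheory Set Metric Filter
open scoped ContDiff Topology InnerProductSpace Matrix

noncomputable section
namespace Vale.Agent.P088.Lt1
open Vale.Agent.P136 (D Sm Tst)

theorem asm_ent {n : ℕ} {ι : Type} {S S' : MF n ι} {x y : En n} (h : mt S x = mt S' y)
    (a a' : ι) : S a a' x = S' a a' y := congrFun (congrFun h a) a'

theorem asm_mt {n : ℕ} {ι : Type} {S S' : MF n ι} {x : En n} (h : ∀ a a', S a a' x = S' a a' x) :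
    mt S x = mt S' x := Matrix.ext h

theorem s_asm (hc : S_crd) (hn : S_N1) (hr : S_reg) (hu : S_uniq) (ha : S_agr) (hx : S_LTX) :
    S_LT := by
  intro n hn3 ι _ _ _ L₁ L₂ r ρ C q G₁ G₂ Φ S μ g1 g2 hρ hq hr2 gr1 gr2 sc1 sc2 hI hinj hmap hlim
    hbd hrel
  have H : LTH L₁ L₂ r ρ C q G₁ G₂ Φ S μ := ⟨g1, g2, hρ, hq, hr2, gr1, gr2, sc1, sc2, hI, hinj,
    hmap, hlim, fun y hy => ⟨(hbd y hy).1, (hbd y hy).2.2.1⟩, hrel⟩
  obtain ⟨r₂, δ, T₁, T₂, X₁, X₂, W₁, W₂, hδ, hδr, hr₂, c1, c2, hpg, hjet, hB⟩ :=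
    hc n ι L₁ L₂ r ρ C q G₁ G₂ Φ S μ (by omega) H
  have hr0 : 0 < r₂ := by linarith
  obtain ⟨R₁, Y₁, ν₁, L₁', hR₁, g1', j1, k1, N1⟩ :=
    hn n ι L₁ r r₂ G₁ T₁ X₁ W₁ (by omega) g1 gr1 sc1 hr0 hr₂ c1
  obtain ⟨R₂, Y₂, ν₂, L₂', hR₂, g2', j2, k2, N2⟩ :=
    hn n ι L₂ r r₂ G₂ T₂ X₂ W₂ (by omega) g2 gr2 sc2 hr0 hr₂ c2
  obtain ⟨R, hR, e1, e2⟩ : ∃ R : ℝ, 0 < R ∧ R ≤ R₁ ∧ R ≤ R₂ :=
    ⟨min R₁ R₂, lt_min hR₁ hR₂, min_le_left _ _, min_le_right _ _⟩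
  obtain ⟨d1, m1, x1, n1, i1, A₁, B₁, t1, gg1, ss1⟩ := N1 R hR e1
  obtain ⟨d2, m2, x2, n2, i2, A₂, B₂, t2, gg2, ss2⟩ := N2 R hR e2
  have h00 : (0 : En n) ∈ ball (0 : En n) (r₂ / 2) := mem_ball_self (by linarith)
  have hh : ball (0 : En n) (r₂ / 2) ⊆ ball 0 r₂ := ball_subset_ball (by linarith)
  have hh' : ball (0 : En n) (r₂ / 2) ⊆ ball 0 r := ball_subset_ball (by linarith)
  have hh'' : ball (0 : En n) δ ⊆ ball 0 (r₂ / 2) := ball_subset_ball hδr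
  have Y0 : Y₂ 0 = 0 := by
    have := (k2 0 h00).1
    rwa [c2.x0] at this
  obtain ⟨p, t, hp, ht, htR, hO⟩ := hr n Y₂ R δ ρ q hR hδ hρ hq d2 Y0
  have hOR : ball (t • p) t ⊆ ball 0 R := ball_subset_ball' (by
    rw [dist_zero_right, norm_smul, hp, Real.norm_of_nonneg ht.le]
    linarith)
  have hY : ∀ x ∈ ball (t • p) t, Y₁ x = Φ (Y₂ x) := fun x hx => by
    have h1 := hB _ (hO hx)
    rw [← (k1 _ h1.1).1, h1.2.1, x2 x (hOR hx)]
  have hT : ∀ y ∈ ball q ρ ∩ ball 0 δ, mt T₂ y = mt S y * mt T₁ (Φ y) := fun y hy =>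
    asm_mt (hB y hy).2.2.1
  have hS : ∀ y ∈ ball q ρ ∩ ball 0 δ, (mt T₁ (Φ y))⁻¹ = (mt T₂ y)⁻¹ * mt S y := fun y hy => by
    rw [hT y hy, Matrix.mul_inv_rev, Matrix.mul_assoc, Matrix.nonsing_inv_mul _
      (isUnit_iff_ne_zero.2 ((inter_gau hI).det y hy.1)), Matrix.mul_one]
  have hBo : IsOpen (ball q ρ ∩ ball 0 δ) := isOpen_ball.inter isOpen_ball
  have i3 := inter_trans (inter_trans j1 (inter_mono hI inter_subset_left) isOpen_ball hBo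
    fun y hy => (hB y hy).1) (inter_mono i2 hOR) hBo isOpen_ball hO
  obtain ⟨hE, hκ⟩ := hu n ι L₁' L₂' (ball (t • p) t) _ (by omega) g1' g2' isOpen_ball
    (fun x hx => ((n1 x (hOR hx)).2).trans (n2 x (hOR hx)).2.symm)
    fun W hW x hx a => inter_app i3 isOpen_ball (fun x hx => ⟨by
      rw [(hB _ (hO hx)).2.1, x2 x (hOR hx)], asm_ent (by
        change (mt T₂ (Y₂ x))⁻¹ * (mt S (Y₂ x) * mt T₁ (Φ (Y₂ x))) = 1
        rw [← hT _ (hO hx), Matrix.nonsing_inv_mul _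
          (isUnit_iff_ne_zero.2 (c2.gau.det _ (hh (m2 (hOR hx)))))])⟩) W hW hx a
  have hS1 : ∀ x ∈ ball (t • p) t, mt (mc (mi T₁) Y₁) x =
      mt (mm (mc (mi T₂) Y₂) (mc S Y₂)) x := fun x hx => by
    change (mt T₁ (Y₁ x))⁻¹ = (mt T₂ (Y₂ x))⁻¹ * mt S (Y₂ x)
    rw [hY x hx, hS _ (hO hx)]
  have hA := ha n ι (ball 0 r) (ball q ρ) (ball 0 R) (ball (t • p) t) Φ Y₁ Y₂ S _ _ μ _ _ G₁ G₂
    A₁ A₂ B₁ B₂ isOpen_ball (inter_dif hI isOpen_ball hinj)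
    (ball_subset_ball' (by rw [dist_zero_right, hq]; linarith)) hmap hrel isOpen_ball hOR d1 d2
    (m1.mono_right hh') (m2.mono_right hh') (fun x hx => (hO hx).1) (inter_gau i1) (inter_gau i2)
    t1 t2 fun x hx => ⟨hY x hx, asm_ent (hS1 x hx), by
      have h1 := hκ x hx
      have h2 := ((inter_gau j1).pos _ (hB _ (hO hx)).1).ne'
      rw [hY x hx]
      exact inv_eq_of_mul_eq_one_left ((mul_assoc _ _ _).trans h1)⟩
  have hν : ν₂ 0 = 1 := by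
    have h1 : ∑ k, ν₂ 0 * L₂'.γ k k (X₂ 0) = ∑ k : Fin n, 1 :=
      Finset.sum_congr rfl fun k _ => by rw [(k2 0 h00).2, hpg, if_pos rfl]
    rw [← Finset.mul_sum, c2.x0, (n2 0 (mem_ball_self hR)).2] at h1
    have h2 : (n : ℝ) ≠ 0 := by positivity
    exact mul_right_cancel₀ h2 (by simpa using h1)
  have hX : HX L₁' L₂' R t p (B₁ ∘L G₁ ∘L A₁) (B₂ ∘L G₂ ∘L A₂) :=
    ⟨g1', g2', hp, ht, htR, gg1, gg2, ss1, ss2, hA, hE, n1, n2, fun i j => by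
      have h1 := (k2 0 h00).2 i j
      rwa [hν, one_mul, hpg, c2.x0] at h1⟩
  obtain ⟨r₃, hr₃, hF⟩ := hx n hn3 ι L₁' L₂' R t p _ _
    (fun s col => pb (mc (mi T₁) Y₁) Y₁ (W₁ s col)) (fun s col => pb (mc (mi T₂) Y₂) Y₂ (W₂ s col))
    hX (fun s col => ⟨inter_sol i1 isOpen_ball isOpen_ball (m1.mono_right hh) (c1.solW s col),
      inter_sol i2 isOpen_ball isOpen_ball (m2.mono_right hh) (c2.solW s col)⟩)
    (fun s col a x hx => by
      have h1 : (fun e => W₂ s col e (Y₂ x)) = mt S (Y₂ x) *ᵥ fun e => W₁ s col e (Φ (Y₂ x)) :=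
        funext fun e => (hB _ (hO hx)).2.2.2 s col e
      rw [pb_eq, pb_eq, hS1 x hx, h1, Matrix.mulVec_mulVec, hY x hx]
      rfl)
    (fun s col a => by
      have h0 : ball (0 : En n) r₂ ∈ 𝓝 (Y₂ 0) := by
        rw [Y0]
        exact ball_mem_nhds _ hr0
      have h1 : ContDiffAt ℝ ∞ (fun y => pb (mi T₂) id (W₂ s col) a y -
          if col = a then qq 0 s (X₂ y) else 0) (Y₂ 0) := by
        refine (ContDiffAt.sum fun e _ => ((mi_cdOn c2.gau.sm c2.gau.det a e).contDiffAt h0).mul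
          (((c2.solW s col).1 e).contDiffAt h0)).sub ?_
        split_ifs
        · exact (qq_sm 0 s).contDiffAt.comp _ (c2.dif.sm.contDiffAt h0)
        · exact contDiffAt_const
      refine (Zo.comp h1 (d2.cda (mem_ball_self hR)) (by rw [Y0]; exact hjet s col a)).congr ?_
      filter_upwards [ball_mem_nhds (0 : En n) hR] with x hx
      rw [x2 x hx]
      rfl)
    (fun c x hx => by
      have h1 := c1.tr c _ (hh (m1 hx))
      have h2 := c2.tr c _ (hh (m2 hx))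
      rw [x1 x hx] at h1
      rw [x2 x hx] at h2
      exact h1.trans h2.symm)
  have hVo : IsOpen (ball (0 : En n) r₃ ∩ ball 0 R) := isOpen_ball.inter isOpen_ball
  have hev : ∀ᶠ y in 𝓝 (0 : En n), X₂ y ∈ ball (0 : En n) r₃ ∩ ball 0 R ∧ y ∈ ball (0 : En n) δ := by
    refine Eventually.and ((c2.dif.cda (hh h00)).continuousAt.eventually_mem (hVo.mem_nhds ?_))
      (ball_mem_nhds _ hδ)
    rw [c2.x0]
    exact ⟨mem_ball_self hr₃, mem_ball_self hR⟩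
  obtain ⟨r', hr', hb⟩ := Metric.eventually_nhds_iff_ball.1 hev
  have i4 := inter_trans (inter_trans i1 (inter_id (V := ball 0 r₃ ∩ ball 0 R)
    fun W hW x hx a => hF W hW x hx.1 a) isOpen_ball hVo fun x hx => hx.2)
    (inter_mono j2 fun y hy => hh'' (hb y hy).2) hVo isOpen_ball fun y hy => (hb y hy).1
  have hΦ : ∀ y ∈ ball (0 : En n) r' ∩ ball q ρ, Y₁ (X₂ y) = Φ y := fun y hy => by
    have h1 := hB y ⟨hy.2, (hb y hy.1).2⟩
    rw [← h1.2.1, (k1 _ h1.1).1]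
  refine ⟨r', _, _, _, hr', i4, hΦ, fun a a' y hy => asm_ent ?_ a a'⟩
  change mt T₂ y * (1 * (mt T₁ (Y₁ (X₂ y)))⁻¹) = mt S y
  have h1 : y ∈ ball q ρ ∩ ball 0 δ := ⟨hy.2, (hb y hy.1).2⟩
  rw [hΦ y hy, hT y h1, Matrix.one_mul, Matrix.mul_assoc, Matrix.mul_nonsing_inv _
    (isUnit_iff_ne_zero.2 (c1.gau.det _ (hh (hB y h1).1))), Matrix.mul_one]

end Vale.Agent.P088.Lt1
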