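import Vale.Agent.P088.Lt1Zo
import Vale.Agent.P088.Lt1Int

open MeasureTheory Set Metric Filter
open scoped ContDiff Topology InnerProductSpace Matrix

noncomputable section
namespace Vale.Agent.P088.Lt1
open Vale.Agent.P136 (D Sm Tst)

namespace Lt1Crd

variable {n : ℕ} {ι : Type} [Fintype ι] [DecidableEq ι]

/-- The coordinates that are made of the solutions. -/
def Xc (T : MF n ι) (W : Sp n → MF n ι) (y : En n) : En n :=
  WithLp.toLp 2 fun c => (Fintype.card ι : ℝ)⁻¹ * ∑ a, pb (mi T) id (W (.inl c) a) a y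

theorem Xc_apply (T : MF n ι) (W : Sp n → MF n ι) (y : En n) (c : Fin n) :
    Xc T W y c = (Fintype.card ι : ℝ)⁻¹ * ∑ a, pb (mi T) id (W (.inl c) a) a y := rfl

theorem pb_cdOn {T : MF n ι} {V : Set (En n)} (hT : ∀ a a', ContDiffOn ℝ ∞ (T a a') V)
    (hd : ∀ x ∈ V, (mt T x).det ≠ 0) {W : ι → En n → ℝ} (hW : SmOn V W) (a : ι) :
    ContDiffOn ℝ ∞ (pb (mi T) id W a) V :=
  ContDiffOn.sum fun e _ => (mi_cdOn hT hd a e).mul (hW e)

theorem Xc_cdOn {T : MF n ι} {V : Set (En n)} (hT : ∀ a a', ContDiffOn ℝ ∞ (T a a') V)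
    (hd : ∀ x ∈ V, (mt T x).det ≠ 0) {W : Sp n → MF n ι} (hW : ∀ s col, SmOn V (W s col)) :
    ContDiffOn ℝ ∞ (Xc T W) V :=
  contDiffOn_euclidean.2 fun c =>
    contDiffOn_const.mul (ContDiffOn.sum fun a _ => pb_cdOn hT hd (hW (.inl c) a) a)

theorem exists_delta {ρ ε : ℝ} {q : En n} {Φ : En n → En n}
    (h : Tendsto Φ (𝓝[ball q ρ] 0) (𝓝 0)) (hε : 0 < ε) :
    ∃ δ, 0 < δ ∧ δ ≤ ε ∧ ∀ y ∈ ball q ρ ∩ ball 0 δ, Φ y ∈ ball (0 : En n) ε := by
  obtain ⟨δ, hδ, hy⟩ := Metric.tendsto_nhdsWithin_nhds.1 h ε hε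
  exact ⟨min δ ε, lt_min hδ hε, min_le_right _ _, fun y h =>
    hy h.1 (lt_of_lt_of_le h.2 (min_le_left _ _))⟩

theorem exists_det {T : MF n ι} {r : ℝ} (hr : 0 < r)
    (hT : ∀ a a', ContDiffOn ℝ ∞ (T a a') (ball 0 r)) (h0 : (mt T 0).det ≠ 0) :
    ∃ r', 0 < r' ∧ r' ≤ r ∧ ∀ x ∈ ball (0 : En n) r', (mt T x).det ≠ 0 := by
  have hc : ContinuousAt (fun x => (mt T x).det) 0 :=
    (det_cdOn hT).continuousOn.continuousAt (ball_mem_nhds _ hr)
  obtain ⟨ε, hε, h⟩ := Metric.eventually_nhds_iff_ball.1 (hc.eventually_ne h0)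
  exact ⟨min ε r, lt_min hε hr, min_le_right _ _, fun x hx =>
    h x (ball_subset_ball (min_le_left _ _) hx)⟩

omit [Fintype ι] in
theorem model_sm (A : En n →L[ℝ] En n) (s : Sp n) (col e : ι) :
    Sm fun y => if col = e then qq 0 s (A y) else 0 := by
  split_ifs
  · exact (qq_sm 0 s).comp A.contDiff
  · exact contDiff_const

omit [Fintype ι] in
theorem model_zo (A : En n →L[ℝ] En n) (s : Sp n) (col e : ι) :
    Zo (qo s) (fun y => if col = e then qq 0 s (A y) else 0) 0 := by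
  split_ifs
  · refine Zo.comp (f := qq 0 s) (u := A) (qq_sm 0 s).contDiffAt A.contDiff.contDiffAt ?_
    rw [map_zero]; exact qq_zo 0 s
  · exact zo_null _ _

theorem jet_pb {T : MF n ι} {W P : ι → En n → ℝ} {m : ℕ}
    (hT : ∀ a e, ContDiffAt ℝ ∞ (mi T a e) 0) (h1 : mt T 0 = 1)
    (hW : ∀ e, ContDiffAt ℝ ∞ (W e) 0) (hP : ∀ e, ContDiffAt ℝ ∞ (P e) 0)
    (h : ∀ e, Zo (m + 1) (fun y => W e y - P e y) 0) (h' : ∀ e, Zo m (P e) 0) (a : ι) :
    Zo (m + 1) (fun y => pb (mi T) id W a y - P a y) 0 := by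
  have e1 : (fun y => pb (mi T) id W a y - P a y) = fun y =>
      ∑ e, (mi T a e y * (W e y - P e y) + (mi T a e y - if a = e then 1 else 0) * P e y) := by
    funext y
    have : ∀ e, mi T a e y * (W e y - P e y) + (mi T a e y - if a = e then 1 else 0) * P e y =
        mi T a e y * W e y - (if a = e then 1 else 0) * P e y := fun e => by ring
    simp only [this, Finset.sum_sub_distrib, pb, id]
    simp
  rw [e1]
  have c1 : ∀ e, ContDiffAt ℝ ∞ (fun y => mi T a e y - if a = e then 1 else 0) 0 :=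
    fun e => (hT a e).sub contDiffAt_const
  refine Zo.sum _ (fun e _ => ((hT a e).mul ((hW e).sub (hP e))).add ((c1 e).mul (hP e)))
    fun e _ => Zo.add ((hT a e).mul ((hW e).sub (hP e))) ((c1 e).mul (hP e)) ?_ ?_
  · have := Zo.mul (hT a e) ((hW e).sub (hP e)) (zo_zero _ _) (h e)
    rwa [zero_add] at this
  · have z : Zo (0 + 1) (fun y => mi T a e y - if a = e then 1 else 0) 0 := by
      refine zo_succ.2 ⟨?_, fun i => zo_zero _ _⟩
      simp only [mi, h1, inv_one, Matrix.one_apply, sub_self]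
    have := Zo.mul (c1 e) (hP e) z (h' e)
    rwa [zero_add, add_comm 1 m] at this

theorem D_eq {X : En n → En n} (hX : ContDiffAt ℝ ∞ X 0) (A : En n →L[ℝ] En n)
    (h : ∀ c, Zo 2 (fun y => X y c - A y c) 0) :
    X 0 = 0 ∧ ∀ i c, D (ee i) (fun y => X y c) 0 = D (ee i) (fun y => A y c) 0 := by
  constructor
  · ext c
    have := (zo_succ.1 (h c)).1
    simpa using this
  · intro i c
    have := (zo_succ.1 ((zo_succ.1 (h c)).2 i)).1
    rw [P136.D_sub_at ((cd_coord hX c).differentiableAt (by simp))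
      ((cd_coord A.contDiff.contDiffAt c).differentiableAt (by simp))] at this
    linarith

theorem fderiv_eq {X : En n → En n} (hX : ContDiffAt ℝ ∞ X 0) (A : En n →L[ℝ] En n)
    (h : ∀ i c, D (ee i) (fun y => X y c) 0 = D (ee i) (fun y => A y c) 0) :
    fderiv ℝ X 0 = A := by
  refine ContinuousLinearMap.coe_injective ?_
  refine (EuclideanSpace.basisFun (Fin n) ℝ).toBasis.ext fun i => ?_
  ext c
  have := h i c
  rw [D_apply (hX.differentiableAt (by simp)), D_apply A.differentiableAt, A.fderiv] at this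
  simpa [ee] using this

theorem pb_rel {S T₁ T₂ : MF n ι} {Φ : En n → En n} {W₁ W₂ : ι → En n → ℝ} {y : En n}
    (hS : (mt S y).det ≠ 0) (hT : ∀ a a', T₂ a a' y = mm S (mc T₁ Φ) a a' y)
    (hW : ∀ a, W₂ a y = pb S Φ W₁ a y) (a : ι) :
    pb (mi T₁) id W₁ a (Φ y) = pb (mi T₂) id W₂ a y := by
  have e1 : mt T₂ y = mt S y * mt T₁ (Φ y) := by
    rw [← mt_mc, ← mt_mm]; ext a a'; exact hT a a'
  have e2 : (fun e => W₂ e (id y)) = mt S y *ᵥ fun e => W₁ e (Φ y) := funext hW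
  rw [pb_eq, pb_eq, mt_mi, mt_mi, e1, e2, Matrix.mul_inv_rev, Matrix.mulVec_mulVec,
    Matrix.mul_assoc, Matrix.nonsing_inv_mul _ (isUnit_iff_ne_zero.2 hS), Matrix.mul_one]
  rfl

end Lt1Crd

open Lt1Crd in
theorem s_crd (hp : S_pair) (hl : S_lin) (hm : S_lim) : S_crd := by
  intro n ι _ _ _ L₁ L₂ r ρ C q G₁ G₂ Φ S μ hn H
  obtain ⟨r₁, hr₁, hP⟩ := hp n ι L₁ L₂ r ρ C q G₁ G₂ Φ S μ hn H
  obtain ⟨A, hA, hpg, hAz⟩ := hl n ι L₂ (by omega) H.g2
  choose U₁ U₂ sU₁ sU₂ zU rU using fun col : ι =>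
    hP 0 (fun e _ => if e = col then 1 else 0) (fun _ => contDiff_const) fun a => zo_zero _ _
  choose W₁ W₂ sW₁ sW₂ zW rW using fun (s : Sp n) (col : ι) =>
    hP (qo s) (fun e y => if col = e then qq 0 s (A y) else 0) (model_sm A s col) (hAz s col)
  set T₁ : MF n ι := fun a col => U₁ col a with hT₁
  set T₂ : MF n ι := fun a col => U₂ col a with hT₂
  have cT₁ : ∀ a a', ContDiffOn ℝ ∞ (T₁ a a') (ball 0 r₁) := fun a a' => (sU₁ a').1 a
  have cT₂ : ∀ a a', ContDiffOn ℝ ∞ (T₂ a a') (ball 0 r₁) := fun a a' => (sU₂ a').1 a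
  have t0 : mt T₂ 0 = 1 := by
    ext a col
    have := (zo_succ.1 (zU col a)).1
    rw [Matrix.one_apply]
    exact sub_eq_zero.1 this
  obtain ⟨δ₁, hδ₁, hδr, hΦ⟩ := exists_delta H.lim hr₁
  have sub₁ : ∀ y ∈ ball q ρ ∩ ball (0 : En n) δ₁, y ∈ ball q ρ ∩ ball (0 : En n) r₁ :=
    fun y hy => ⟨hy.1, ball_subset_ball hδr hy.2⟩
  have rT : ∀ y ∈ ball q ρ ∩ ball (0 : En n) δ₁, ∀ a a', T₂ a a' y = mm S (mc T₁ Φ) a a' y :=
    fun y hy a a' => rU a' y (sub₁ y hy) (hΦ y hy) a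
  have rW' : ∀ y ∈ ball q ρ ∩ ball (0 : En n) δ₁, ∀ s col a,
      W₂ s col a y = pb S Φ (W₁ s col) a y :=
    fun y hy s col a => rW s col y (sub₁ y hy) (hΦ y hy) a
  have rX : ∀ y ∈ ball q ρ ∩ ball (0 : En n) δ₁, Xc T₁ W₁ (Φ y) = Xc T₂ W₂ y := by
    intro y hy
    ext c
    rw [Xc_apply, Xc_apply]
    congr 1
    exact Finset.sum_congr rfl fun a _ =>
      pb_rel ((inter_gau H.int).det y hy.1) (rT y hy) (rW' y hy (.inl c) a) a
  obtain ⟨lT, lX⟩ := hm n ι ρ C δ₁ q Φ S H.ρ0 H.nq hδ₁ (inter_dif H.int isOpen_ball H.inj)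
    H.lim H.bd
  have d₂ : (mt T₂ 0).det ≠ 0 := by rw [t0]; simp
  have d₁ : (mt T₁ 0).det ≠ 0 := lT T₁ T₂ (fun a a' =>
    ⟨(cT₁ a a').continuousOn.continuousAt (ball_mem_nhds _ hr₁),
      (cT₂ a a').continuousOn.continuousAt (ball_mem_nhds _ hr₁)⟩) d₂ rT
  obtain ⟨s₁, hs₁, hs₁r, dT₁⟩ := exists_det hr₁ cT₁ d₁
  obtain ⟨s₂, hs₂, hs₂r, dT₂⟩ := exists_det hr₁ cT₂ d₂
  have b₁ : ball (0 : En n) s₁ ⊆ ball 0 r₁ := ball_subset_ball hs₁r
  have b₂ : ball (0 : En n) s₂ ⊆ ball 0 r₁ := ball_subset_ball hs₂r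
  have cX₁ : ContDiffOn ℝ ∞ (Xc T₁ W₁) (ball 0 s₁) :=
    Xc_cdOn (fun a a' => (cT₁ a a').mono b₁) dT₁ fun s col a => ((sW₁ s col).1 a).mono b₁
  have cX₂ : ContDiffOn ℝ ∞ (Xc T₂ W₂) (ball 0 s₂) :=
    Xc_cdOn (fun a a' => (cT₂ a a').mono b₂) dT₂ fun s col a => ((sW₂ s col).1 a).mono b₂
  have aX₁ := cX₁.contDiffAt (ball_mem_nhds _ hs₁)
  have aX₂ := cX₂.contDiffAt (ball_mem_nhds _ hs₂)
  have ami : ∀ a e, ContDiffAt ℝ ∞ (mi T₂ a e) 0 := fun a e =>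
    (mi_cdOn (fun a a' => (cT₂ a a').mono b₂) dT₂ a e).contDiffAt (ball_mem_nhds _ hs₂)
  have apb : ∀ s col a, ContDiffAt ℝ ∞ (pb (mi T₂) id (W₂ s col) a) 0 := fun s col a =>
    (pb_cdOn (fun a a' => (cT₂ a a').mono b₂) dT₂
      (fun a => ((sW₂ s col).1 a).mono b₂) a).contDiffAt (ball_mem_nhds _ hs₂)
  have J : ∀ s col a, Zo (qo s + 1) (fun y => pb (mi T₂) id (W₂ s col) a y -
      if col = a then qq 0 s (A y) else 0) 0 := fun s col a =>
    jet_pb ami t0 (fun e => ((sW₂ s col).1 e).contDiffAt (ball_mem_nhds _ hr₁))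
      (fun e => (model_sm A s col e).contDiffAt) (zW s col) (model_zo A s col) a
  have hc : (Fintype.card ι : ℝ) ≠ 0 := Nat.cast_ne_zero.2 Fintype.card_ne_zero
  have JX : ∀ c, Zo 2 (fun y => Xc T₂ W₂ y c - A y c) 0 := by
    intro c
    have k : ∀ a, ContDiffAt ℝ ∞ (fun y => pb (mi T₂) id (W₂ (.inl c) a) a y -
        if a = a then qq 0 (.inl c) (A y) else 0) 0 := fun a =>
      (apb _ a a).sub (model_sm A _ a a).contDiffAt
    have := Zo.cmul (ContDiffAt.sum fun a _ => k a)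
      (Zo.sum Finset.univ (fun a _ => k a) fun a _ => J (.inl c) a a) (Fintype.card ι : ℝ)⁻¹
    refine this.congr (Eventually.of_forall fun y => ?_)
    simp only [Xc_apply, if_true, qq, Finset.sum_sub_distrib, Finset.sum_const, Finset.card_univ,
      nsmul_eq_mul, PiLp.zero_apply, sub_zero]
    field_simp
  obtain ⟨x₂, DX⟩ := D_eq aX₂ A JX
  have fX := fderiv_eq aX₂ A DX
  have i₂ : Function.Injective (fderiv ℝ (Xc T₂ W₂) 0) := by rw [fX]; exact hA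
  obtain ⟨x₁, i₁⟩ := lX _ _ aX₁ aX₂ x₂ i₂ rX
  obtain ⟨u₁, hu₁, hb₁, df₁⟩ := exists_dif isOpen_ball cX₁ (mem_ball_self hs₁) i₁
  obtain ⟨u₂, hu₂, hb₂, df₂⟩ := exists_dif isOpen_ball cX₂ (mem_ball_self hs₂) i₂
  have hr : 0 < r := by linarith [H.ρ0, H.hr]
  set r₂ := min (min u₁ u₂) r with hr₂
  have r₂0 : 0 < r₂ := lt_min (lt_min hu₁ hu₂) hr
  have e₁ : ball (0 : En n) r₂ ⊆ ball 0 u₁ :=
    ball_subset_ball ((min_le_left _ _).trans (min_le_left _ _))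
  have e₂ : ball (0 : En n) r₂ ⊆ ball 0 u₂ :=
    ball_subset_ball ((min_le_left _ _).trans (min_le_right _ _))
  obtain ⟨δ₂, hδ₂, hδ₂r, hΦ₂⟩ := exists_delta H.lim (half_pos r₂0)
  have tr : ∀ (T : MF n ι) (W : Sp n → MF n ι) c y,
      ∑ a, pb (mi T) id (W (.inl c) a) a y = Fintype.card ι * Xc T W y c := fun T W c y => by
    rw [Xc_apply, mul_inv_cancel_left₀ hc]
  refine ⟨r₂, min δ₁ δ₂, T₁, T₂, Xc T₁ W₁, Xc T₂ W₂, W₁, W₂, lt_min hδ₁ hδ₂,
    (min_le_right _ _).trans hδ₂r, min_le_right _ _, ?_, ?_, fun k l => ?_, fun s col a => ?_,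
    fun y hy => ?_⟩
  · have g := (e₁.trans hb₁).trans b₁
    exact ⟨df₁.mono isOpen_ball e₁, x₁, ⟨fun a a' => (cT₁ a a').mono g, contDiffOn_const,
      fun _ _ => one_pos, fun y hy => dT₁ y (hb₁ (e₁ hy))⟩, fun col => sol_mono (sU₁ col) g,
      fun s col => sol_mono (sW₁ s col) g, fun c y _ => tr _ _ c y⟩
  · have g := (e₂.trans hb₂).trans b₂
    exact ⟨df₂.mono isOpen_ball e₂, x₂, ⟨fun a a' => (cT₂ a a').mono g, contDiffOn_const,
      fun _ _ => one_pos, fun y hy => dT₂ y (hb₂ (e₂ hy))⟩, fun col => sol_mono (sU₂ col) g,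
      fun s col => sol_mono (sW₂ s col) g, fun c y _ => tr _ _ c y⟩
  · rw [← hpg k l]
    simp only [pg, DX]
  · by_cases h : col = a
    · have j := J s col a
      simp only [h, if_true] at j ⊢
      have a1 : ContDiffAt ℝ ∞ (fun y => qq 0 s (A y)) 0 :=
        ((qq_sm 0 s).comp A.contDiff).contDiffAt
      have a2 : ContDiffAt ℝ ∞ (fun y => qq 0 s (Xc T₂ W₂ y)) 0 :=
        (qq_sm 0 s).contDiffAt.comp 0 aX₂
      refine (Zo.sub ((apb s a a).sub a1) (a2.sub a1) j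
        (qq_jet s aX₂ A.contDiff.contDiffAt x₂ JX)).congr (Eventually.of_forall fun y => ?_)
      simp only
      ring
    · have j := J s col a
      simp only [h, if_false] at j ⊢
      exact j
  · have h₁ : y ∈ ball q ρ ∩ ball (0 : En n) δ₁ :=
      ⟨hy.1, ball_subset_ball (min_le_left _ _) hy.2⟩
    exact ⟨hΦ₂ y ⟨hy.1, ball_subset_ball (min_le_right _ _) hy.2⟩, rX y h₁, rT y h₁, rW' y h₁⟩

end Vale.Agent.P088.Lt1
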