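import Vale.Agent.P088.Lt1Zo
import Vale.Agent.P088.Lt1Inv

open MeasureTheory Set Metric Filter
open scoped ContDiff Topology InnerProductSpace Matrix

noncomputable section
namespace Vale.Agent.P088.Lt1
open Vale.Agent.P136 (D Sm Tst)

namespace Lt1Geo

variable {n : ℕ}

/-- The reflection in the hyperplane orthogonal to `u`. -/
def Q (u : En n) : En n ≃ₗᵢ[ℝ] En n := (ℝ ∙ u)ᗮ.reflection

theorem Q_Q (u v : En n) : Q u (Q u v) = v := Submodule.reflection_reflection _ _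

theorem Q_self (u : En n) : Q u u = -u :=
  Submodule.reflection_orthogonalComplement_singleton_eq_neg u

theorem Q_sym (u v w : En n) : ⟪Q u v, w⟫_ℝ = ⟪v, Q u w⟫_ℝ := by
  rw [← (Q u).inner_map_map v (Q u w), Q_Q]

/-- The inversion in the unit sphere. -/
def I (x : En n) : En n := (‖x‖ ^ 2)⁻¹ • x

theorem I_eq : (I : En n → En n) = EuclideanGeometry.inversion 0 1 := by
  funext x
  simp [I, EuclideanGeometry.inversion]

theorem I_I (x : En n) : I (I x) = x := by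
  rw [I_eq]
  exact EuclideanGeometry.inversion_inversion _ one_ne_zero x

theorem I_Q (u x : En n) : I (Q u x) = Q u (I x) := by
  simp [I]

theorem I_ne {x : En n} (hx : x ≠ 0) : I x ≠ 0 := by
  intro h
  apply hx
  rw [← I_I x, h]
  simp [I]

theorem norm_I (x : En n) : ‖I x‖ = ‖x‖⁻¹ := by
  have := EuclideanGeometry.dist_inversion_center (0 : En n) x 1
  rw [← I_eq] at this
  simpa using this

theorem I_cda {x : En n} (hx : x ≠ 0) : ContDiffAt ℝ ∞ I x := by
  rw [I_eq]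
  exact ContDiffAt.inversion (n := ⊤) contDiffAt_const contDiffAt_const contDiffAt_id hx

/-- The derivative of the reflected inversion. -/
def A (p u : En n) : En n →L[ℝ] En n :=
  (Q p : En n →L[ℝ] En n).comp ((‖u‖ ^ 2)⁻¹ • (Q u : En n →L[ℝ] En n))

theorem A_apply (p u v : En n) : A p u v = (‖u‖ ^ 2)⁻¹ • Q p (Q u v) := by
  simp [A]

theorem I_fd {x : En n} (hx : x ≠ 0) :
    HasFDerivAt I ((‖x‖ ^ 2)⁻¹ • (Q x : En n →L[ℝ] En n)) x := by
  have h := EuclideanGeometry.hasFDerivAt_inversion (c := (0 : En n)) (R := 1) hx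
  rw [← I_eq] at h
  refine h.congr_fderiv ?_
  ext1 v
  simp [Q]

theorem QI_fd (p : En n) {x : En n} (hx : x ≠ 0) : HasFDerivAt (fun y => Q p (I y)) (A p x) x :=
  (Q p : En n →L[ℝ] En n).hasFDerivAt.comp x (I_fd hx)

theorem QI_cda (p : En n) {x : En n} (hx : x ≠ 0) : ContDiffAt ℝ ∞ (fun y => Q p (I y)) x :=
  (Q p : En n →L[ℝ] En n).contDiff.contDiffAt.comp x (I_cda hx)

theorem A_inj (p : En n) {u : En n} (hu : u ≠ 0) : Function.Injective (A p u) := by
  intro v w h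
  rw [A_apply, A_apply] at h
  have h0 : (‖u‖ ^ 2)⁻¹ ≠ 0 := by simpa using hu
  exact (Q u).injective ((Q p).injective (smul_right_injective _ h0 h))

theorem inner_ee (v : En n) (k : Fin n) : ⟪v, ee k⟫_ℝ = v k := by
  simp [ee, EuclideanSpace.inner_single_right]

theorem sum_eq (v w : En n) : ∑ k, v k * w k = ⟪v, w⟫_ℝ := by
  simp [PiLp.inner_apply, mul_comm]

theorem ee_ee (i j : Fin n) : ⟪(ee i : En n), ee j⟫_ℝ = if i = j then 1 else 0 := by
  rw [inner_ee]
  simp [ee, eq_comm]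

theorem conf1 (p u : En n) (i j : Fin n) :
    ∑ k, A p u (ee i) k * A p u (ee j) k = if i = j then (‖u‖ ^ 2)⁻¹ ^ 2 else 0 := by
  rw [sum_eq, A_apply, A_apply, inner_smul_left, inner_smul_right, (Q p).inner_map_map,
    (Q u).inner_map_map, ee_ee]
  split_ifs <;> simp [sq]

theorem A_tr (p u : En n) (i k : Fin n) :
    A p u (ee i) k = ((‖u‖ ^ 2)⁻¹ • Q u (Q p (ee k))) i := by
  rw [← inner_ee, ← inner_ee, A_apply, inner_smul_left, inner_smul_left, Q_sym, Q_sym,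
    real_inner_comm]

theorem conf2 (p u : En n) (k l : Fin n) :
    ∑ i, A p u (ee i) k * A p u (ee i) l = if k = l then (‖u‖ ^ 2)⁻¹ ^ 2 else 0 := by
  simp only [A_tr]
  rw [sum_eq, inner_smul_left, inner_smul_right, (Q u).inner_map_map, (Q p).inner_map_map, ee_ee]
  split_ifs <;> simp [sq]

theorem norm_gt {p x : En n} (hp : ‖p‖ = 1) (hx : x ∈ closedBall p (7 / 8)) : 1 / 8 ≤ ‖x‖ := by
  have h1 : ‖x - p‖ ≤ 7 / 8 := by simpa [dist_eq_norm] using hx
  have h2 : ‖p‖ ≤ ‖x‖ + ‖x - p‖ := by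
    have := norm_sub_le x (x - p)
    simpa using this
  linarith

theorem ne_zero {p x : En n} (hp : ‖p‖ = 1) (hx : x ∈ closedBall p (7 / 8)) : x ≠ 0 := by
  have := norm_gt hp hx
  intro h
  rw [h, norm_zero] at this
  linarith

theorem kn {p x : En n} (hp : ‖p‖ = 1) (hx : x ≠ 0)
    (h : x ∉ closedBall ((1 / 3 : ℝ) • p) (2 / 3)) : ‖I x + p‖ < 2 := by
  have h1 : 2 / 3 < ‖x - (1 / 3 : ℝ) • p‖ := by simpa [dist_eq_norm] using h
  have h2 : (2 / 3 : ℝ) ^ 2 < ‖x - (1 / 3 : ℝ) • p‖ ^ 2 := by gcongr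
  rw [norm_sub_sq_real, inner_smul_right, norm_smul, hp] at h2
  have h3 : 1 + 2 * ⟪x, p⟫_ℝ < 3 * ‖x‖ ^ 2 := by
    norm_num at h2
    linarith
  have hx' : 0 < ‖x‖ ^ 2 := by positivity
  have h4 : ‖I x + p‖ ^ 2 < 2 ^ 2 := by
    rw [norm_add_sq_real, norm_I, hp, I, inner_smul_left, inv_pow]
    have : (‖x‖ ^ 2)⁻¹ * (1 + 2 * ⟪x, p⟫_ℝ) < 3 := by
      rw [inv_mul_lt_iff₀ hx']
      linarith
    simp only [conj_trivial]
    linarith
  exact lt_of_pow_lt_pow_left₀ 2 (by norm_num) h4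

end Lt1Geo

open Lt1Geo in
theorem s_geo : S_geo := by
  intro n p hp
  obtain ⟨Ψ, hΨ, he⟩ := exists_ext (K := closedBall p (7 / 8)) (V := {0}ᶜ)
    (f := fun x => Q p (I x) + p) (isCompact_closedBall _ _) isOpen_compl_singleton
    (fun x hx => ne_zero hp hx)
    (fun x hx => ((QI_cda p hx).add contDiffAt_const).contDiffWithinAt)
  have hb : ∀ x ∈ ball p (7 / 8), x ∈ closedBall p (7 / 8) := fun x hx => ball_subset_closedBall hx
  have hv : ∀ x ∈ ball p (7 / 8), Ψ x = Q p (I x) + p := fun x hx => (he x (hb x hx)).eq_of_nhds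
  have hd : ∀ x ∈ ball p (7 / 8), HasFDerivAt Ψ (A p x) x := fun x hx =>
    ((QI_fd p (ne_zero hp (hb x hx))).add_const p).congr_of_eventuallyEq (he x (hb x hx))
  have hinv : ∀ x ∈ ball p (7 / 8), Q p (I (Ψ x - p)) = x := fun x hx => by
    rw [hv x hx, add_sub_cancel_right, I_Q, Q_Q, I_I]
  have hne : ∀ y ∈ Ψ '' ball p (7 / 8), y - p ≠ 0 := by
    rintro _ ⟨x, hx, rfl⟩ h
    rw [hv x hx, add_sub_cancel_right] at h
    exact I_ne (ne_zero hp (hb x hx)) ((Q p).map_eq_zero_iff.1 h)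
  have hd' : ∀ y ∈ Ψ '' ball p (7 / 8), HasFDerivAt (fun z => Q p (I (z - p))) (A p (y - p)) y :=
    fun y hy => by
      have := (QI_fd p (hne y hy)).comp y ((hasFDerivAt_id y).sub_const p)
      rw [ContinuousLinearMap.comp_id] at this
      exact this
  have hdif : Dif (ball p (7 / 8)) Ψ := by
    refine ⟨isOpen_ball, hΨ.contDiffOn, fun x hx y hy h => ?_, fun y hy => ?_⟩
    · rw [← hinv x hx, h, hinv y hy]
    · rw [(hd y hy).fderiv]
      exact A_inj p (ne_zero hp (hb y hy))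
  have hp0 : p ∈ ball p (7 / 8) := mem_ball_self (by norm_num)
  have hIp : I p = p := by simp [I, hp]
  have hΨp : Ψ p = 0 := by rw [hv p hp0, hIp, Q_self, neg_add_cancel]
  refine ⟨Ψ, fun z => Q p (I (z - p)), fun y => (‖y - p‖ ^ 2)⁻¹ ^ 2, hΨ, hdif,
    ⟨hdif.isOpen_image, fun y hy => ?_, ?_, fun y hy => ?_⟩, hinv, fun y hy => ?_, fun y hy => ?_,
    fun y hy k l => ?_, fun y hy i j => ?_, hΨp, fun x hx => ?_, fun x hx => ?_, fun c => ?_⟩
  · exact ((QI_cda p (hne y hy)).comp y (contDiffAt_id.sub contDiffAt_const)).contDiffWithinAt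
  · rintro _ ⟨x, hx, rfl⟩ _ ⟨y, hy, rfl⟩ h
    simp only [hinv x hx, hinv y hy] at h
    rw [h]
  · rw [(hd' y hy).fderiv]
    exact A_inj p (hne y hy)
  · have h1 : ContDiffAt ℝ ∞ (fun z : En n => ‖z - p‖ ^ 2) y :=
      (contDiffAt_id.sub contDiffAt_const).norm_sq ℝ
    have h2 : ‖y - p‖ ^ 2 ≠ 0 := by simpa using hne y hy
    exact ((h1.inv h2).pow 2).contDiffWithinAt
  · have := norm_pos_iff.2 (hne y hy)
    positivity
  · simp only [D_apply (hd' y hy).differentiableAt, (hd' y hy).fderiv]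
    exact conf2 p _ k l
  · simp only [D_apply (hd' y hy).differentiableAt, (hd' y hy).fderiv]
    exact conf1 p _ i j
  · rw [mem_ball_zero_iff, hv x hx]
    have h1 := norm_gt hp (hb x hx)
    have h2 : ‖x‖⁻¹ ≤ 8 := by
      rw [inv_le_comm₀ (by linarith) (by norm_num)]
      linarith
    calc ‖Q p (I x) + p‖ ≤ ‖Q p (I x)‖ + ‖p‖ := norm_add_le _ _
      _ = ‖x‖⁻¹ + 1 := by rw [(Q p).norm_map, norm_I, hp]
      _ < 10 := by linarith
  · have hx' : x ∈ ball p (7 / 8) := ball_subset_ball (by norm_num) hx.1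
    rw [mem_ball, dist_eq_norm, hv x hx']
    have e : Q p (I x) + p - (2 : ℝ) • p = Q p (I x + p) := by
      rw [map_add, Q_self, two_smul]
      abel
    rw [e, (Q p).norm_map]
    exact kn hp (ne_zero hp (hb x hx')) hx.2
  · refine zo_succ.2 ⟨by simp [hΨp], fun i => zo_succ.2 ⟨?_, fun j => zo_zero _ _⟩⟩
    have h1 : HasFDerivAt (fun x => Ψ x - (x - p)) (A p p - ContinuousLinearMap.id ℝ _) p :=
      (hd p hp0).sub ((hasFDerivAt_id p).sub_const p)
    have h2 := D_apply h1.differentiableAt (ee i) c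
    rw [h1.fderiv] at h2
    simp only [PiLp.sub_apply] at h2
    rw [h2]
    simp [A_apply, hp, Q_Q]

end Vale.Agent.P088.Lt1
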