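import Vale.Agent.P088.Lt1Bas
import Vale.Agent.P088.St1Tool

/-! P088, LT1: the space of square integrable fields. -/

open MeasureTheory Set Metric Filter
open scoped ContDiff Topology InnerProductSpace Matrix

noncomputable section
namespace Vale.Agent.P088.Lt1
open Vale.Agent.P136 (D Sm Tst)

variable {n : ℕ} {ι : Type} [Fintype ι] [DecidableEq ι]

variable {U : Set (En n)}

omit [DecidableEq ι] in
theorem l2_iff (W : ι → En n → ℝ) : L2On U W ↔
    MemLp (fun x => (WithLp.toLp 2 fun a => W a x : EuclideanSpace ℝ ι)) 2 (volume.restrict U) :=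
  ⟨fun h => MemLp.of_eval_piLp h, fun h a => h.eval_piLp a⟩

omit [DecidableEq ι] in
theorem l2_cp (F : HL n ι U) : L2On U (cp F) := St1.l2_cp F

omit [DecidableEq ι] in
theorem cp_tl {W : ι → En n → ℝ} (h : L2On U W) :
    ∀ᵐ x ∂(volume.restrict U), ∀ a, cp (tl U W) a x = W a x := eventually_all.2 (St1.cp_tl h)

omit [DecidableEq ι] in
theorem hl_ext {F F' : HL n ι U} (h : ∀ᵐ x ∂(volume.restrict U), ∀ a, cp F a x = cp F' a x) :
    F = F' := St1.hl_ext (eventually_all.1 h)

omit [DecidableEq ι] in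
theorem tl_cp (F : HL n ι U) : tl U (cp F) = F := hl_ext (cp_tl (l2_cp F))

omit [DecidableEq ι] in
theorem cp_lin (F F' : HL n ι U) (c d : ℝ) : ∀ᵐ x ∂(volume.restrict U), ∀ a,
    cp (c • F + d • F') a x = c * cp F a x + d * cp F' a x := by
  filter_upwards [Lp.coeFn_add (c • F) (d • F'), Lp.coeFn_smul c F, Lp.coeFn_smul d F']
    with x h1 h2 h3 a
  simp only [cp, h1, Pi.add_apply, h2, h3, Pi.smul_apply, PiLp.add_apply, PiLp.smul_apply,
    smul_eq_mul]

omit [DecidableEq ι] in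
theorem cp_sub (F F' : HL n ι U) : ∀ᵐ x ∂(volume.restrict U), ∀ a,
    cp (F - F') a x = cp F a x - cp F' a x := eventually_all.2 (St1.cp_sub F F')

omit [DecidableEq ι] in
theorem inner_eq (F h : HL n ι U) : ⟪F, h⟫_ℝ = ∑ a, ∫ x in U, cp F a x * cp h a x := St1.inner_eq F h

omit [DecidableEq ι] in
theorem inner_tl (F : HL n ι U) {W : ι → En n → ℝ} (h : L2On U W) :
    ⟪F, tl U W⟫_ℝ = ∑ a, ∫ x in U, cp F a x * W a x := by
  rw [inner_eq]
  refine Finset.sum_congr rfl fun a _ => integral_congr_ae ?_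
  filter_upwards [cp_tl h] with x hx
  rw [hx]

omit [DecidableEq ι] in
theorem norm_sq (F : HL n ι U) : ‖F‖ ^ 2 = nrm U (cp F) := St1.norm_sq_eq F

omit [DecidableEq ι] in
theorem nrm_congr {W W' : ι → En n → ℝ}
    (h : ∀ᵐ x ∂(volume.restrict U), ∀ a, W a x = W' a x) : nrm U W = nrm U W' := by
  refine Finset.sum_congr rfl fun a _ => integral_congr_ae ?_
  filter_upwards [h] with x hx
  rw [hx]

omit [DecidableEq ι] in
theorem l2_mono {O : Set (En n)} (hO : O ⊆ U) {W : ι → En n → ℝ} (h : L2On U W) : L2On O W :=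
  fun a => (h a).mono_measure (Measure.restrict_mono hO le_rfl)

omit [DecidableEq ι] in
theorem l2_congr {W W' : ι → En n → ℝ} (h : L2On U W)
    (e : ∀ᵐ x ∂(volume.restrict U), ∀ a, W' a x = W a x) : L2On U W' := fun a =>
  (h a).ae_eq (e.mono fun x hx => (hx a).symm)

omit [DecidableEq ι] in
theorem l2_tests {O : Set (En n)} {ψ : ι → En n → ℝ} (h : Tests O ψ) : L2On U ψ := St1.tests_l2 h U

omit [DecidableEq ι] in
theorem l2_compact {K : Set (En n)} (hU : MeasurableSet U) (hK : IsCompact K) (h : U ⊆ K)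
    {W : ι → En n → ℝ} (hW : ∀ a, ContinuousOn (W a) K) : L2On U W :=
  l2_mono h fun a => (memLp_two_iff_integrable_sq
    ((hW a).aestronglyMeasurable hK.measurableSet)).2 (((hW a).pow 2).integrableOn_compact hK)

omit [DecidableEq ι] in
theorem suppIn_iff {O : Set (En n)} {F : HL n ι U} :
    SuppIn O F ↔ ∀ᵐ x ∂(volume.restrict U), x ∉ O → ∀ a, cp F a x = 0 := by
  refine ⟨fun h => h.mono fun x hx hO a => by simp only [cp, hx hO, PiLp.zero_apply], fun h => ?_⟩
  refine h.mono fun x hx hO => ?_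
  ext a
  exact hx hO a

omit [DecidableEq ι] in
theorem suppIn_mono {O O' : Set (En n)} (h : O ⊆ O') {F : HL n ι U} (hF : SuppIn O F) :
    SuppIn O' F := hF.mono fun _ hx hO => hx fun h1 => hO (h h1)

omit [DecidableEq ι] in
/-- Cutting off by a measurable set, and extension by zero. -/
theorem exists_ind {O : Set (En n)} (hO : MeasurableSet O) {W : ι → En n → ℝ}
    (h : L2On (O ∩ U) W) : ∃ F : HL n ι U, SuppIn O F ∧ ‖F‖ ^ 2 = nrm (O ∩ U) W ∧
      ∀ᵐ x ∂(volume.restrict U), x ∈ O → ∀ a, cp F a x = W a x := by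
  have h1 : L2On U fun a => O.indicator (W a) := fun a => by
    rw [memLp_indicator_iff_restrict hO, Measure.restrict_restrict hO]
    exact h a
  refine ⟨tl U fun a => O.indicator (W a), suppIn_iff.2 ?_, ?_, ?_⟩
  · filter_upwards [cp_tl h1] with x hx hn a
    rw [hx, indicator_of_notMem hn]
  · rw [St1.norm_tl h1]
    refine Finset.sum_congr rfl fun a _ => ?_
    have e : (fun y => O.indicator (W a) y ^ 2) = O.indicator fun y => W a y ^ 2 := by
      ext y
      by_cases hy : y ∈ O <;> simp [hy]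
    rw [e, integral_indicator hO, Measure.restrict_restrict hO]
  · filter_upwards [cp_tl h1] with x hx hn a
    rw [hx, indicator_of_mem hn]

omit [DecidableEq ι] in
theorem inner_congr {O : Set (En n)} {F F' h : HL n ι U} (hh : SuppIn O h)
    (e : ∀ᵐ x ∂(volume.restrict U), x ∈ O → ∀ a, cp F a x = cp F' a x) :
    ⟪F, h⟫_ℝ = ⟪F', h⟫_ℝ := by
  rw [inner_eq, inner_eq]
  refine Finset.sum_congr rfl fun a _ => integral_congr_ae ?_
  filter_upwards [suppIn_iff.1 hh, e] with x h1 h2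
  by_cases hx : x ∈ O
  · rw [h2 hx]
  · rw [h1 hx, mul_zero, mul_zero]

omit [DecidableEq ι] in
theorem suppIn_of_inner {O : Set (En n)} (hO : MeasurableSet O) {h : HL n ι U}
    (e : ∀ F : HL n ι U, SuppIn Oᶜ F → ⟪F, h⟫_ℝ = 0) : SuppIn O h := by
  have h1 : St1.ind U hO.compl h = 0 := ext_inner_left ℝ fun F => by
    rw [← St1.ind_symm, e _ (St1.supp_ind hO.compl F), inner_zero_right]
  refine St1.supp_iff.2 fun a => ?_
  filter_upwards [St1.cp_ind hO.compl h a, Lp.coeFn_zero (EuclideanSpace ℝ ι) 2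
    (volume.restrict U)] with x h2 h3 hx
  rw [h1, indicator_of_mem (show x ∈ Oᶜ from hx)] at h2
  rw [← h2]
  simp only [cp, h3, Pi.zero_apply, PiLp.zero_apply]

omit [DecidableEq ι] in
theorem zero_of_tests {O : Set (En n)} (hO : IsOpen O) (hOU : O ⊆ U) (hU : MeasurableSet U)
    {h : HL n ι U} (e : ∀ ψ, Tests O ψ → ⟪h, tl U ψ⟫_ℝ = 0) : SuppIn Oᶜ h := by
  classical
  refine St1.supp_iff.2 fun a => ?_
  have h1 := hO.ae_eq_zero_of_integral_contDiff_smul_eq_zero (μ := volume.restrict U)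
    (f := cp h a) (((l2_cp h a).locallyIntegrable one_le_two).locallyIntegrableOn O)
    fun g g1 g2 g3 => by
      have hψ : Tests O (Pi.single a g) := fun b => by
        by_cases hb : b = a
        · subst hb
          rw [Pi.single_eq_same]
          exact ⟨⟨g1, g2⟩, g3⟩
        · rw [Pi.single_eq_of_ne hb]
          exact ⟨⟨contDiff_const, HasCompactSupport.zero⟩, by simp⟩
      have h2 := e _ hψ
      rw [inner_tl h (l2_tests hψ), Finset.sum_eq_single a (fun b _ hb => by
        simp only [Pi.single_eq_of_ne hb, Pi.zero_apply, mul_zero, integral_zero])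
        (fun hb => (hb (Finset.mem_univ a)).elim), Pi.single_eq_same] at h2
      simpa only [smul_eq_mul, mul_comm] using h2
  exact h1.mono fun x hx hn => hx (not_not.1 hn)

omit [DecidableEq ι] in
theorem ext_tests (hU : IsOpen U) {h h' : HL n ι U}
    (e : ∀ ψ, Tests U ψ → ⟪h, tl U ψ⟫_ℝ = ⟪h', tl U ψ⟫_ℝ) : h = h' := by
  have h1 : SuppIn Uᶜ (h - h') := zero_of_tests hU subset_rfl hU.measurableSet fun ψ hψ => by
    rw [inner_sub_left, e ψ hψ, sub_self]
  refine hl_ext ?_
  filter_upwards [suppIn_iff.1 h1, cp_sub h h', ae_restrict_mem hU.measurableSet]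
    with x h2 h3 h4 a
  rw [← sub_eq_zero, ← h3 a, h2 (not_not.2 h4)]

omit [DecidableEq ι] in
theorem green_adj (hg : S_green) {L : Op n ι} (hL : L.Good) {G : HL n ι U →L[ℝ] HL n ι U}
    (hG : IsGreen L U G) : L.T.Good ∧ IsGreen L.T U (ContinuousLinearMap.adjoint G) :=
  ⟨(St1.good_T hg hL).1, St1.green_adj hg hL hG⟩

omit [DecidableEq ι] in
/-- Where the source is smooth, the Green operator gives a smooth solution. -/
theorem green_sol (hw : S_weyl) (hg : S_green) {L : Op n ι} (hL : L.Good)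
    {G : HL n ι U →L[ℝ] HL n ι U} (hG : IsGreen L U G) (hU : IsOpen U) {O : Set (En n)}
    (hO : IsOpen O) (hOU : O ⊆ U) (F : HL n ι U) {H : ι → En n → ℝ} (hH : SmOn O H)
    (e : ∀ᵐ x ∂(volume.restrict O), ∀ a, cp F a x = H a x) :
    ∃ W, Sol L O W H ∧ ∀ᵐ x ∂(volume.restrict O), ∀ a, cp (G F) a x = W a x := by
  have key : ∀ (K : HL n ι U) (ψ : ι → En n → ℝ), Tests O ψ →
      ⟪K, tl U ψ⟫_ℝ = ∑ a, ∫ y in O, cp K a y * ψ a y := fun K ψ hψ => by
    rw [inner_tl K (l2_tests hψ)]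
    refine Finset.sum_congr rfl fun a _ => ?_
    have e1 : (fun y => cp K a y * ψ a y) = O.indicator fun y => cp K a y * ψ a y := by
      ext y
      by_cases hy : y ∈ O
      · rw [indicator_of_mem hy]
      · rw [indicator_of_notMem hy, St1.tests_zero hψ hy, mul_zero]
    conv_lhs => rw [e1]
    rw [setIntegral_indicator hO.measurableSet, inter_eq_right.2 hOU]
  obtain ⟨W, h3, h4⟩ := hw n ι L O (cp (G F)) H hL hO (l2_mono hOU (l2_cp _)) hH fun ψ hψ => by
    rw [← key _ _ (St1.tests_app (St1.good_T hg hL).1 hψ), hG.1 F ψ (St1.tests_mono hψ hOU),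
      key F ψ hψ]
    refine Finset.sum_congr rfl fun a _ => integral_congr_ae ?_
    filter_upwards [e] with x hx
    rw [hx]
  exact ⟨W, h3, eventually_all.2 h4⟩

end Vale.Agent.P088.Lt1
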