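import Vale.Agent.P088.Lt1HL
import Vale.Agent.P088.Lt1Zo

open MeasureTheory Set Metric Filter
open scoped ContDiff Topology InnerProductSpace Matrix

noncomputable section
namespace Vale.Agent.P088.Lt1
open Vale.Agent.P136 (D Sm Tst)

namespace Lt1Jet

variable {n : ℕ} {ι : Type} [Fintype ι] [DecidableEq ι]

/-- Admissible pairs. -/
def Adm (L : Op n ι) {r : ℝ} (G : HL n ι (ball 0 r) →L[ℝ] HL n ι (ball 0 r)) (r₁ : ℝ)
    (O : Set (En n)) (F : HL n ι (ball 0 r)) (W : ι → En n → ℝ) : Prop :=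
  SuppIn O F ∧ Sol L (ball 0 r₁) W 0 ∧
    ∀ᵐ x ∂(volume.restrict (ball 0 r₁)), ∀ a, cp (G F) a x = W a x

/-- The jet of order `m` at the origin. -/
def jet (m : ℕ) (W : ι → En n → ℝ) : {l : List (Fin n) // l.length ≤ m} × ι → ℝ :=
  fun p => Ds ee p.1.1 (W p.2) 0

theorem sol_lin0 {L : Op n ι} (hL : L.Good) {U : Set (En n)} (hU : IsOpen U)
    {W W' : ι → En n → ℝ} (h : Sol L U W 0) (h' : Sol L U W' 0) (c d : ℝ) :
    Sol L U (fun a y => c * W a y + d * W' a y) 0 := by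
  have := sol_lin hL hU h h' c d
  exact ⟨this.1, fun x hx a => by simpa using this.2 x hx a⟩

theorem adm_lin {L : Op n ι} (hL : L.Good) {r r₁ : ℝ} (hr : r₁ ≤ r)
    {G : HL n ι (ball 0 r) →L[ℝ] HL n ι (ball 0 r)} {O : Set (En n)}
    {F F' : HL n ι (ball 0 r)} {W W' : ι → En n → ℝ} (h : Adm L G r₁ O F W)
    (h' : Adm L G r₁ O F' W') (c d : ℝ) :
    Adm L G r₁ O (c • F + d • F') (fun a y => c * W a y + d * W' a y) := by
  refine ⟨suppIn_iff.2 ?_, sol_lin0 hL isOpen_ball h.2.1 h'.2.1 c d, ?_⟩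
  · filter_upwards [suppIn_iff.1 h.1, suppIn_iff.1 h'.1, cp_lin F F' c d] with x h1 h2 h3 hx a
    rw [h3, h1 hx, h2 hx]; simp
  · rw [map_add, map_smul, map_smul]
    filter_upwards [h.2.2, h'.2.2, ae_restrict_of_ae_restrict_of_subset (ball_subset_ball hr)
      (cp_lin (G F) (G F') c d)] with x h1 h2 h3 a
    rw [h3, h1, h2]

theorem jet_lin {L : Op n ι} {r₁ : ℝ} (h0 : 0 < r₁) (m : ℕ) {W W' : ι → En n → ℝ}
    (h : Sol L (ball 0 r₁) W 0) (h' : Sol L (ball 0 r₁) W' 0) (c d : ℝ) :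
    jet m (fun a y => c * W a y + d * W' a y) = c • jet m W + d • jet m W' := by
  funext p
  exact Ds_lin ((h.1 p.2).contDiffAt (ball_mem_nhds _ h0))
    ((h'.1 p.2).contDiffAt (ball_mem_nhds _ h0)) c d p.1.1

/-- every source supported in `O` belongs to an admissible pair -/
theorem exists_adm (hw : S_weyl) (hg : S_green) {L : Op n ι} (hL : L.Good) {r r₁ : ℝ}
    (hr : r₁ ≤ r) {G : HL n ι (ball 0 r) →L[ℝ] HL n ι (ball 0 r)} (hG : IsGreen L _ G)
    {O : Set (En n)} (hO : O ⊆ ball 0 r \ closedBall 0 r₁) {F : HL n ι (ball 0 r)}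
    (hF : SuppIn O F) : ∃ W, Adm L G r₁ O F W := by
  obtain ⟨W, h1, h2⟩ := green_sol hw hg hL hG isOpen_ball (O := ball 0 r₁) isOpen_ball
    (ball_subset_ball hr) F (H := 0) (fun _ => contDiffOn_const) (by
      filter_upwards [ae_restrict_of_ae_restrict_of_subset (ball_subset_ball hr)
        (suppIn_iff.1 hF), ae_restrict_mem measurableSet_ball] with x h1 h2 a
      exact h1 (fun hx => (hO hx).2 (ball_subset_closedBall h2)) a)
  exact ⟨W, hF, h1, h2⟩

/-- the jets of the admissible pairs -/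
def KK (hw : S_weyl) (hg : S_green) {L : Op n ι} (hL : L.Good) {r r₁ : ℝ} (h0 : 0 < r₁)
    (hr : r₁ ≤ r) {G : HL n ι (ball 0 r) →L[ℝ] HL n ι (ball 0 r)} (hG : IsGreen L _ G)
    {O : Set (En n)} (hO : O ⊆ ball 0 r \ closedBall 0 r₁) (m : ℕ) :
    Submodule ℝ ({l : List (Fin n) // l.length ≤ m} × ι → ℝ) where
  carrier := {j | ∃ F W, Adm L G r₁ O F W ∧ jet m W = j}
  add_mem' := by
    rintro _ _ ⟨F, W, h, rfl⟩ ⟨F', W', h', rfl⟩
    exact ⟨_, _, adm_lin hL hr h h' 1 1, by rw [jet_lin h0 m h.2.1 h'.2.1]; simp⟩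
  zero_mem' := by
    obtain ⟨W, h⟩ := exists_adm hw hg hL hr hG hO (F := 0) (by
      filter_upwards [Lp.coeFn_zero (EuclideanSpace ℝ ι) 2 (volume.restrict (ball (0 : En n) r))]
        with x hx _ using hx)
    exact ⟨_, _, adm_lin hL hr h h 0 0, by rw [jet_lin h0 m h.2.1 h.2.1]; simp⟩
  smul_mem' := by
    rintro c _ ⟨F, W, h, rfl⟩
    exact ⟨_, _, adm_lin hL hr h h c 0, by rw [jet_lin h0 m h.2.1 h.2.1]; simp⟩

/-- small solutions have small jets -/
theorem small (hie : S_ie) {L : Op n ι} (hL : L.Good) (m : ℕ) {ρ ε : ℝ} (h0 : 0 < ρ) (h1 : ρ ≤ 1)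
    (hε : 0 < ε) : ∃ N : ℝ, 0 < N ∧ ∀ V : ι → En n → ℝ, Sol L (ball 0 ρ) V 0 →
      L2On (ball 0 ρ) V → nrm (ball 0 ρ) V ≤ N →
      ∀ l : List (Fin n), l.length ≤ m → ∀ a, |Ds ee l (V a) 0| ≤ ε := by
  obtain ⟨k, hk⟩ := hie n ι m
  obtain ⟨c, M, hc, hb⟩ := bdOn hL (isCompact_closedBall (0 : En n) 1) k
  obtain ⟨C, hC0, hC⟩ := hk c M hc
  have hN : 0 < ε ^ 2 * ρ ^ (2 * m + n) / (C + 1) := by positivity
  refine ⟨_, hN, fun V hV h2 h3 l hl a => ?_⟩
  have hz : ∀ l : List (Fin n), (fun a : ι => Ds ee l ((0 : ι → En n → ℝ) a)) = fun _ _ => 0 :=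
    fun l => funext fun _ => Ds_zero l
  have := hC L 0 ρ _ V 0 hL h0 h1
    (fun x hx => hb x (ball_subset_closedBall (ball_subset_ball h1 hx))) hV
    (fun _ => contDiffOn_const) h2 h3 (fun l _ => by
      rw [hz]
      refine ⟨fun _ => MemLp.zero', ?_⟩
      simpa [nrm] using hN.le) l hl a 0 (mem_ball_self (by positivity))
  have k1 : C * (ε ^ 2 * ρ ^ (2 * m + n) / (C + 1)) ≤ ε ^ 2 * ρ ^ (2 * m + n) := by
    rw [mul_div_assoc', div_le_iff₀ (by positivity)]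
    nlinarith [show 0 < ε ^ 2 * ρ ^ (2 * m + n) by positivity]
  have k2 : ρ ^ (2 * m + n) ≤ ρ ^ (2 * l.length + n) :=
    pow_le_pow_of_le_one h0.le h1 (by omega)
  have k3 : Ds ee l (V a) 0 ^ 2 ≤ ε ^ 2 :=
    le_of_mul_le_mul_right ((this.trans k1).trans (mul_le_mul_of_nonneg_left k2 (by positivity)))
      (by positivity)
  exact abs_le_of_sq_le_sq k3 hε.le

end Lt1Jet

open Lt1Jet in
theorem s_jet (hw : S_weyl) (hg : S_green) (hie : S_ie) (ha : S_apx) (hr : S_runge) : S_jet := by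
  intro n ι _ _ L r r₁ G O m P hn hL hG hS h0 hO hne hOs hP hZ
  have hrr : r₁ < r := by
    obtain ⟨x, hx⟩ := hne
    have h1 := (hOs hx).1
    have h2 := (hOs hx).2
    simp only [mem_ball, mem_closedBall, not_le] at h1 h2
    linarith
  have : Finite {l : List (Fin n) // l.length ≤ m} := (List.finite_length_le (Fin n) m).to_subtype
  have : Fintype ({l : List (Fin n) // l.length ≤ m} × ι) := Fintype.ofFinite _
  have hcl := (KK hw hg hL h0 hrr.le hG hOs m).closed_of_finiteDimensional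
  have hmem : jet m P ∈ (KK hw hg hL h0 hrr.le hG hOs m :
      Set ({l : List (Fin n) // l.length ≤ m} × ι → ℝ)) := by
    rw [← hcl.closure_eq, Metric.mem_closure_iff]
    intro ε hε
    obtain ⟨s, W₀, hs0, hs1, hW₀, hj⟩ := ha n ι L r (min r₁ 1) (ε / 4) G m P hL hG hS
      (by linarith) (lt_min h0 one_pos) (by positivity) hP hZ
    have hs2 : s ≤ r₁ := hs1.trans (min_le_left _ _)
    have hs3 : s ≤ 1 := hs1.trans (min_le_right _ _)
    obtain ⟨N, hN, hsm⟩ := small hie hL m (ρ := s / 2) (ε := ε / 4) (by positivity) (by linarith)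
      (by positivity)
    obtain ⟨F, hF, hn2⟩ := hr n ι L r (s / 2) s N G O W₀ hn hL hG (by positivity) (by linarith)
      (by linarith) hO hne
      (fun x hx => ⟨(hOs hx).1, fun h => (hOs hx).2 (closedBall_subset_closedBall (by linarith) h)⟩)
      hW₀ hN
    obtain ⟨W, hW⟩ := exists_adm hw hg hL hrr.le hG hOs hF
    have hV : Sol L (ball 0 s) (fun a y => 1 * W₀ a y + (-1) * W a y) 0 :=
      sol_lin0 hL isOpen_ball hW₀ (sol_mono hW.2.1 (ball_subset_ball hs2)) 1 (-1)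
    have hb := hsm _ (sol_mono hV (ball_subset_ball (by linarith)))
      (l2_compact measurableSet_ball (isCompact_closedBall 0 (s / 2)) ball_subset_closedBall
        fun a => (hV.1 a).continuousOn.mono (closedBall_subset_ball (by linarith)))
      (by
        refine le_of_eq_of_le (nrm_congr ?_) hn2
        filter_upwards [ae_restrict_of_ae_restrict_of_subset
          (ball_subset_ball (show s / 2 ≤ r₁ by linarith)) hW.2.2] with x hx a
        rw [hx]; ring)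
    refine ⟨jet m W, ⟨F, W, hW, rfl⟩, ?_⟩
    refine lt_of_le_of_lt ((dist_pi_le_iff (show 0 ≤ ε / 2 by positivity)).2 fun p => ?_)
      (by linarith)
    have k1 := hb p.1.1 p.1.2 p.2
    rw [Ds_lin ((hW₀.1 p.2).contDiffAt (ball_mem_nhds _ hs0))
      ((hW.2.1.1 p.2).contDiffAt (ball_mem_nhds _ h0))] at k1
    have k2 := hj p.1.1 p.1.2 p.2
    rw [Real.dist_eq]
    show |Ds ee p.1.1 (P p.2) 0 - Ds ee p.1.1 (W p.2) 0| ≤ ε / 2
    rw [abs_le] at k1 k2 ⊢
    constructor <;> linarith [k1.1, k1.2, k2.1, k2.2]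
  obtain ⟨F, W, h, e⟩ := hmem
  refine ⟨F, W, h.1, h.2.1, h.2.2, fun a => ?_⟩
  refine (zo_sub_iff ((h.2.1.1 a).contDiffAt (ball_mem_nhds _ h0)) (hP a).contDiffAt).2
    fun l hl => ?_
  exact congrFun e (⟨l, hl⟩, a)

end Vale.Agent.P088.Lt1
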