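import Vale.Agent.P088.Lt1Int

open MeasureTheory Set Metric Filter
open scoped ContDiff Topology InnerProductSpace Matrix

noncomputable section
namespace Vale.Agent.P088.Lt1
open Vale.Agent.P136 (D Sm Tst)

theorem ltx_ball {n : ℕ} {p : En n} (hp : ‖p‖ = 1) {η t : ℝ} (hη : 0 < η) (ht : 2 * η ≤ t)
    {y : En n} (hy : y ∈ ball ((2 : ℝ) • p) 2) : η • y ∈ ball (t • p) t := by
  rw [mem_ball, dist_eq_norm] at hy ⊢
  have e : η • y - t • p = η • (y - (2 : ℝ) • p) + (2 * η - t) • p := by module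
  rw [e]
  refine (norm_add_le _ _).trans_lt ?_
  rw [norm_smul, norm_smul, hp, Real.norm_of_nonneg hη.le, Real.norm_of_nonpos (by linarith)]
  nlinarith

theorem s_LTX (h0 : S_LT0) (hgeo : S_geo) (h1 : S_X1) (h2 : S_X2) : S_LTX := by
  intro n hn ι _ _ _ L₁ L₂ R t p G₁ G₂ W₁ W₂ hX hsol heq hjet htr
  obtain ⟨Ψ, Θ, ν, hg⟩ := hgeo n p hX.np
  obtain ⟨M₁, hM₁⟩ := h1 n ι L₁ L₂ R t p G₁ G₂ Ψ Θ ν (by omega) hX hg
  obtain ⟨M₂, hM₂⟩ := h2 n ι R t p Ψ Θ ν W₁ W₂ hX.np hX.t0 hX.tR hg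
    (fun s col => ⟨(hsol s col).1.1, (hsol s col).2.1⟩) heq hjet
  obtain ⟨k, om, ε, hom, hε, hL⟩ := h0 n hn ι fun j => max (M₁ j) (M₂ j)
  obtain ⟨η₁, hη₁, H₁⟩ := hM₁ _ (fun j => le_max_left _ _) k om hom
  obtain ⟨η₂, hη₂, H₂⟩ := hM₂ _ (fun j => le_max_right _ _) k ε hε
  have ht := hX.t0
  have hR := hX.tR
  obtain ⟨η, hη, e1, e2, e3⟩ : ∃ η : ℝ, 0 < η ∧ η ≤ η₁ ∧ η ≤ η₂ ∧ η ≤ t / 10 :=
    ⟨min η₁ (min η₂ (t / 10)), by positivity, min_le_left _ _,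
      (min_le_right _ _).trans (min_le_left _ _), (min_le_right _ _).trans (min_le_right _ _)⟩
  obtain ⟨L₁', L₂', G₁', G₂', μ, hS, n1, n2, hflat, i1, i2⟩ := H₁ η hη e1
  obtain ⟨hb, hj⟩ := H₂ η hη e2
  have hU : U0 p ⊆ ball p (7 / 8) := ball_subset_ball (by norm_num)
  have hUo : IsOpen (U0 p) := isOpen_ball
  have hmaps : MapsTo (fun x => η • Ψ x) (U0 p) (ball 0 R) := fun x hx => by
    have := mem_ball_zero_iff.1 (hg.bd (hU hx))
    rw [mem_ball_zero_iff, norm_smul, Real.norm_of_nonneg hη.le]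
    nlinarith
  have hs : ∀ {L L' : Op n ι} {W : Sp n → MF n ι}, L.Good →
      Inter L L' (U0 p) (fun x => η • Ψ x) one' μ → (∀ s col, Sol L (ball 0 R) (W s col) 0) →
      ∀ s col, Sol L' (U0 p) (rs η Ψ W s col) 0 := by
    intro L L' W hL hi hW s col
    have h3 : Sol L (ball 0 R) (fun a y => (η ^ qo s)⁻¹ * W s col a y + 0 * W s col a y) 0 := by
      have := sol_lin hL isOpen_ball (hW s col) (hW s col) (η ^ qo s)⁻¹ 0
      simp only [Pi.zero_apply, mul_zero, add_zero] at this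
      exact this
    refine sol_congr hUo (inter_sol hi hUo isOpen_ball hmaps h3) fun a x _ => ?_
    rw [pb_one, zero_mul, add_zero]
    rfl
  obtain ⟨r, hr, hE⟩ := hL L₁' L₂' p G₁' G₂' (rs η Ψ W₁) (rs η Ψ W₂) hS
    ⟨fun x hx => ⟨fun a a' => ⟨(n1 x hx).1 a a', (n2 x hx).1 a a'⟩, (n1 x hx).2, (n2 x hx).2⟩,
      hflat, fun s col => ⟨hs hX.g1 i1 (fun s col => (hsol s col).1) s col,
        hs hX.g2 i2 (fun s col => (hsol s col).2) s col⟩,
      fun s col a x hx => congrArg ((η ^ qo s)⁻¹ * ·)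
        (heq s col a (ltx_ball hX.np hη (by linarith) (hg.kn hx))), hb, hj, fun c x hx => by
        simp only [rs, ← Finset.mul_sum]
        rw [htr c _ (hmaps hx)]⟩
  have hO : IsOpen (ball p r ∩ U0 p) := isOpen_ball.inter hUo
  have hd : Dif (ball p r ∩ U0 p) fun x => η • Ψ x :=
    (dif_smul isOpen_univ hη.ne').comp (hg.dif.mono hO fun x hx => hU hx.2) (mapsTo_univ _ _)
  obtain ⟨r', hr', hsub⟩ := Metric.isOpen_iff.1 hd.isOpen_image 0
    ⟨p, ⟨mem_ball_self hr, mem_ball_self (by norm_num)⟩, by simp [hg.p0]⟩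
  refine ⟨r', hr', fun W hW y hy a => ?_⟩
  obtain ⟨x, hx, rfl⟩ := hsub hy
  have a1 : L₁'.app (pb one' (fun x => η • Ψ x) W) a x =
      μ x * pb one' (fun x => η • Ψ x) (L₁.app W) a x := i1.2.2.2.2 W hW x hx.2 a
  have a2 : L₂'.app (pb one' (fun x => η • Ψ x) W) a x =
      μ x * pb one' (fun x => η • Ψ x) (L₂.app W) a x := i2.2.2.2.2 W hW x hx.2 a
  rw [app_eqOn isOpen_ball hE _ hx.1, a2, pb_one, pb_one] at a1
  exact mul_left_cancel₀ (i1.2.2.2.1 x hx.2).1.ne' a1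

end Vale.Agent.P088.Lt1
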