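import Vale.Agent.P088.Lt1Zo
import Vale.Agent.P088.Lt1Inv

open MeasureTheory Set Metric Filter
open scoped ContDiff Topology InnerProductSpace Matrix

noncomputable section
namespace Vale.Agent.P088.Lt1
open Vale.Agent.P136 (D Sm Tst)

namespace Lt1Lin

open scoped MatrixOrder in
theorem mat {n : ℕ} {Γ : Matrix (Fin n) (Fin n) ℝ} (h : Γ.PosDef) :
    ∃ M : Matrix (Fin n) (Fin n) ℝ, IsUnit M ∧ M * Γ * star M = 1 := by
  obtain ⟨y, ⟨u, rfl⟩, rfl⟩ := CStarAlgebra.isStrictlyPositive_iff_eq_star_mul_self.1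
    (Matrix.isStrictlyPositive_iff_posDef.2 h)
  refine ⟨star ((u⁻¹ : _ˣ) : Matrix (Fin n) (Fin n) ℝ), (Units.isUnit _).star, ?_⟩
  rw [star_star, ← mul_assoc, ← star_mul, Units.mul_inv, star_one, one_mul, Units.mul_inv]

theorem exA {n : ℕ} {Γ : Fin n → Fin n → ℝ} (hs : ∀ i j, Γ i j = Γ j i)
    (hp : ∀ ξ : Fin n → ℝ, ξ ≠ 0 → 0 < ∑ i, ∑ j, Γ i j * ξ i * ξ j) :
    ∃ A : En n →L[ℝ] En n, Function.Injective A ∧ ∀ k l,
      ∑ i, ∑ j, Γ i j * A (ee i) k * A (ee j) l = if k = l then 1 else 0 := by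
  obtain ⟨M, hM, e⟩ := mat (Γ := Matrix.of Γ) (Matrix.posDef_iff_dotProduct_mulVec.2
    ⟨Matrix.ext fun i j => by simpa using hs j i, fun ξ h => (hp ξ h).trans_eq (by
      simp only [dotProduct, Matrix.mulVec, Matrix.of_apply, star_trivial, Finset.mul_sum]
      exact Finset.sum_congr rfl fun i _ => Finset.sum_congr rfl fun j _ => by ring)⟩)
  refine ⟨Matrix.toEuclideanCLM (𝕜 := ℝ) M, fun x y h => ?_, fun k l => ?_⟩
  · have h1 := congrArg WithLp.ofLp h
    simp only [Matrix.ofLp_toEuclideanCLM] at h1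
    exact WithLp.ofLp_injective 2 (Matrix.mulVec_injective_iff_isUnit.2 hM h1)
  · have h1 : ∀ i c, Matrix.toEuclideanCLM (𝕜 := ℝ) M (ee i) c = M c i := fun i c => by
      simp [Matrix.ofLp_toEuclideanCLM, ee]
    have h2 := congrFun (congrFun e k) l
    simp only [Matrix.mul_apply, Matrix.star_apply, star_trivial, Matrix.of_apply,
      Matrix.one_apply, Finset.sum_mul] at h2
    simp only [h1]
    rw [← h2, Finset.sum_comm]
    exact Finset.sum_congr rfl fun i _ => Finset.sum_congr rfl fun j _ => by ring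

theorem D_lin {n : ℕ} {g : En n → ℝ} (hg : IsLinearMap ℝ g) (w y : En n) : D w g y = g w :=
  congrArg (fun L : En n →L[ℝ] ℝ => L w) (LinearMap.toContinuousLinearMap (hg.mk' g)).fderiv

theorem D_A {n : ℕ} (A : En n →L[ℝ] En n) (v : En n) (c : Fin n) (y : En n) :
    D v (fun z => A z c) y = A v c := by
  rw [D_apply A.differentiableAt, A.fderiv]

theorem DD {n : ℕ} (A : En n →L[ℝ] En n) (a b : Fin n) (v w : En n) :
    D w (D v fun y => qq 0 (.inr (a, b)) (A y)) 0 = A w a * A v b + A v a * A w b -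
      if a = b then (∑ c, (A w c * A v c + A v c * A w c)) / n else 0 := by
  have hd : ∀ c y, DifferentiableAt ℝ (fun z => A z c) y := fun c y =>
    (cd_coord A.contDiff.contDiffAt c).differentiableAt (by simp)
  have e : (D v fun y => qq 0 (.inr (a, b)) (A y)) = fun y => A y a * A v b + A v a * A y b -
      if a = b then (∑ c, (A y c * A v c + A v c * A y c)) / n else 0 := by
    funext y
    simp only [qq, PiLp.zero_apply, sub_zero, EuclideanSpace.real_norm_sq_eq, div_eq_inv_mul]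
    simp only [pow_two]
    split_ifs
    · rw [P136.D_sub_at ((hd _ _).fun_mul (hd _ _))
        ((DifferentiableAt.fun_sum fun c _ => (hd c _).fun_mul (hd c _)).const_mul _),
        P136.D_const_mul_at (DifferentiableAt.fun_sum fun c _ => (hd c _).fun_mul (hd c _)),
        P136.D_sum_at _ fun c _ => (hd c _).fun_mul (hd c _)]
      simp only [P136.D_mul_at (hd _ _) (hd _ _), D_A]
    · simp only [sub_zero, P136.D_mul_at (hd _ _) (hd _ _), D_A]
  rw [e]
  refine D_lin ⟨fun x y => ?_, fun c x => ?_⟩ _ _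
  · simp only [map_add, PiLp.add_apply, add_mul, mul_add, Finset.sum_add_distrib]
    split_ifs <;> ring
  · simp only [map_smul, PiLp.smul_apply, smul_eq_mul, Finset.sum_add_distrib, mul_assoc,
      mul_left_comm _ c, ← Finset.mul_sum]
    split_ifs <;> ring

theorem lim {α : Type} {l : Filter α} [l.NeBot] {f g h : α → ℝ} {a b K : ℝ}
    (hf : Tendsto f l (𝓝 a)) (hg : Tendsto g l (𝓝 b))
    (e : ∀ᶠ y in l, |h y| ≤ K ∧ f y = g y * h y) (ha : a ≠ 0) : b ≠ 0 := by
  rintro rfl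
  have h1 := hg.abs.mul_const K
  rw [abs_zero, zero_mul] at h1
  refine ha (tendsto_nhds_unique hf (squeeze_zero_norm' (e.mono fun y hy => ?_) h1))
  rw [hy.2, Real.norm_eq_abs, abs_mul]
  exact mul_le_mul_of_nonneg_left hy.1 (abs_nonneg _)

end Lt1Lin

theorem s_lin : S_lin := by
  intro n ι _ _ L hn hL
  obtain ⟨A, hA, e⟩ := Lt1Lin.exA (Γ := fun i j => L.γ i j 0)
    (fun i j => congrFun (hL.2.1 i j) 0) (hL.2.2.2.2 0)
  refine ⟨A, hA, fun k l => by simpa only [pg, Lt1Lin.D_A] using e k l, ?_⟩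
  rintro (c | ⟨a, b⟩) col a'
  · exact zo_zero _ _
  refine zo_succ.2 ⟨?_, fun _ => zo_zero _ _⟩
  have hs : Sm fun y => qq 0 (.inr (a, b)) (A y) := (qq_sm 0 _).comp A.contDiff
  have hz : Zo 2 (fun y => qq 0 (.inr (a, b)) (A y)) 0 :=
    Zo.comp (qq_sm 0 _).contDiffAt A.contDiff.contDiffAt (by rw [map_zero]; exact qq_zo 0 (.inr (a, b)))
  obtain ⟨h0, h1⟩ := zo_succ.1 hz
  have h2 := fun i => (zo_succ.1 (h1 i)).1
  have h3 : dgd ee L.γ (fun y => qq 0 (.inr (a, b)) (A y)) 0 = 0 := by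
    rw [dgd_nd (fun i j => (hL.1 i j).dAt _) hs.contDiffAt]
    simp only [h2, mul_zero, Finset.sum_const_zero, add_zero, Lt1Lin.DD]
    have e' : ∀ k l, ∑ i, ∑ j, L.γ i j 0 * (A (ee i) k * A (ee j) l + A (ee j) k * A (ee i) l) =
        if k = l then 2 else 0 := fun k l => by
      have h4 := e k l
      have h5 := e l k
      have h6 : ∑ i, ∑ j, L.γ i j 0 * (A (ee i) k * A (ee j) l + A (ee j) k * A (ee i) l) =
          ∑ i, ∑ j, L.γ i j 0 * A (ee i) k * A (ee j) l +
            ∑ i, ∑ j, L.γ i j 0 * A (ee i) l * A (ee j) k := by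
        simp only [← Finset.sum_add_distrib]
        exact Finset.sum_congr rfl fun i _ => Finset.sum_congr rfl fun j _ => by ring
      rw [h6, h4, h5]
      simp only [eq_comm (a := l)]
      split_ifs <;> norm_num
    simp only [mul_sub, Finset.sum_sub_distrib, e']
    split_ifs with hab
    · have h6 : ∑ i, ∑ j, L.γ i j 0 *
          ((∑ c, (A (ee i) c * A (ee j) c + A (ee j) c * A (ee i) c)) / n) =
          (∑ c, ∑ i, ∑ j, L.γ i j 0 * (A (ee i) c * A (ee j) c + A (ee j) c * A (ee i) c)) / n := by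
        simp only [← mul_div_assoc, ← Finset.sum_div, Finset.mul_sum]
        rw [Finset.sum_comm (s := Finset.univ) (t := Finset.univ)
          (f := fun c i => ∑ j, L.γ i j 0 * (A (ee i) c * A (ee j) c + A (ee j) c * A (ee i) c))]
        exact congrArg (· / (n : ℝ)) (Finset.sum_congr rfl fun i _ => Finset.sum_comm)
      have : (n : ℝ) ≠ 0 := by positivity
      rw [h6]
      simp [e', this]
    · simp
  have h7 : ∀ x : ι, (if col = x then qq 0 (.inr (a, b)) (A 0) else 0) = 0 ∧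
      (∀ i, D (ee i) (fun y => if col = x then qq 0 (.inr (a, b)) (A y) else 0) 0 = 0) ∧
      dgd ee L.γ (fun y => if col = x then qq 0 (.inr (a, b)) (A y) else 0) 0 = 0 := fun x => by
    split_ifs
    · exact ⟨h0, h2, h3⟩
    · refine ⟨rfl, fun i => P136.D_const _ _ _, ?_⟩
      rw [dgd_nd (fun i j => (hL.1 i j).dAt _) contDiffAt_const]
      simp [show ∀ v : En n, D v (fun _ => (0 : ℝ)) = fun _ => 0 from
        fun v => funext (P136.D_const 0 v)]
  simp only [Op.app, h7, mul_zero, Finset.sum_const_zero, add_zero]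

theorem s_lim : S_lim := by
  intro n ι _ _ ρ C δ q Φ S hρ hq hδ hΦ hl hb
  have : (𝓝[ball q ρ] (0 : En n)).NeBot := mem_closure_iff_nhdsWithin_neBot.1 (by
    rw [closure_ball q hρ.ne', mem_closedBall, dist_zero_left, hq])
  have ev : ∀ᶠ y in 𝓝[ball q ρ] (0 : En n), y ∈ ball q ρ ∩ ball 0 δ :=
    inter_mem_nhdsWithin _ (ball_mem_nhds 0 hδ)
  refine ⟨fun T₁ T₂ hT h0 e => ?_, fun X₁ X₂ h1 h2 h0 hi e => ⟨?_, ?_⟩⟩
  · have hc : ∀ T : MF n ι, (∀ a a', ContinuousAt (T a a') 0) →
        ContinuousAt (fun y => (mt T y).det) 0 := fun T h =>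
      (continuous_id.matrix_det.continuousAt).comp
        (continuousAt_pi.2 fun a => continuousAt_pi.2 fun a' => h a a')
    refine Lt1Lin.lim ((hc T₂ fun a a' => (hT a a').2).tendsto.mono_left nhdsWithin_le_nhds)
      ((hc T₁ fun a a' => (hT a a').1).tendsto.comp hl) (h := fun y => (mt S y).det)
      (ev.mono fun y hy => ⟨Matrix.det_le (abv := AbsoluteValue.abs) (hb y hy.1).2, ?_⟩) h0
    have h3 : mt T₂ y = mt (mm S (mc T₁ Φ)) y := Matrix.ext fun a a' => e y hy a a'
    rw [h3, mt_mm, mt_mc, Matrix.det_mul, mul_comm]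
    rfl
  · refine tendsto_nhds_unique (h1.continuousAt.tendsto.comp hl) ?_
    exact ((h0 ▸ h2.continuousAt.tendsto :).mono_left nhdsWithin_le_nhds).congr'
      (ev.mono fun y hy => (e y hy).symm)
  · have hc : ∀ X : En n → En n, ContDiffAt ℝ ∞ X 0 →
        ContinuousAt (fun y => (fderiv ℝ X y).det) 0 := fun X h =>
      ContinuousLinearMap.continuous_det.continuousAt.comp (h.continuousAt_fderiv (by simp))
    obtain ⟨K, hK⟩ := (isCompact_closedBall (0 : En n →L[ℝ] En n) C).exists_bound_of_continuousOn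
      ContinuousLinearMap.continuous_det.continuousOn
    have e1 := hl.eventually ((h1.of_le (m := 1) (by simp)).eventually (by simp))
    refine (inj_iff_det _).2 (Lt1Lin.lim ((hc X₂ h2).tendsto.mono_left nhdsWithin_le_nhds)
      ((hc X₁ h1).tendsto.comp hl) (h := fun y => (fderiv ℝ Φ y).det)
      ((ev.and e1).mono fun y hy => ⟨hK _ (mem_closedBall_zero_iff.2 (hb y hy.1.1).1), ?_⟩)
      ((inj_iff_det _).1 hi))
    have h3 : X₂ =ᶠ[𝓝 y] X₁ ∘ Φ :=
      eventually_of_mem ((isOpen_ball.inter isOpen_ball).mem_nhds hy.1) fun z hz => (e z hz).symm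
    rw [h3.fderiv_eq, fderiv_comp y (hy.2.differentiableAt one_ne_zero) (hΦ.dAt hy.1.1)]
    exact LinearMap.det_comp _ _

end Vale.Agent.P088.Lt1
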