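import Vale.Agent.P088.Lt1Int

open MeasureTheory Set Metric Filter
open scoped ContDiff Topology InnerProductSpace Matrix

noncomputable section
namespace Vale.Agent.P088.Lt1
open Vale.Agent.P136 (D Sm Tst)

namespace Lt1N1
variable {n : ℕ} {ι : Type} [Fintype ι] [DecidableEq ι] {L : Op n ι} {V : Set (En n)}
  {X : En n → En n}

omit [Fintype ι] [DecidableEq ι] in
theorem pg_on (hL : L.Good) (hX : Dif V X) (k l : Fin n) : ContDiffOn ℝ ∞ (pg L.γ X k l) V := by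
  have h : ∀ i k, ContDiffOn ℝ ∞ (D (ee i) fun z => X z k) V := fun i k =>
    P136.contDiffOn_D hX.opn (fun y hy => (cd_coord (hX.cda hy) k).contDiffWithinAt) _
  exact ContDiffOn.sum fun i _ => ContDiffOn.sum fun j _ =>
    ((hL.1 i j).contDiffOn.mul (h i k)).mul (h j l)

omit [Fintype ι] [DecidableEq ι] in
theorem pg_pos (hn : 0 < n) (hL : L.Good) (hX : Dif V X) {y : En n} (hy : y ∈ V) :
    0 < ∑ k, pg L.γ X k k y := by
  have h : ∀ k, (fun i => D (ee i) (fun z => X z k) y) ≠ 0 → 0 < pg L.γ X k k y := fun k =>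
    hL.2.2.2.2 y _
  obtain ⟨k, hk⟩ : ∃ k, (fun i => D (ee i) (fun z => X z k) y) ≠ 0 := by
    by_contra h0
    push Not at h0
    have h1 : fderiv ℝ X y (ee ⟨0, hn⟩) = fderiv ℝ X y 0 := by
      ext k
      rw [← D_apply (hX.dAt hy), map_zero]
      exact congrFun (h0 k) _
    have h2 := congrArg (fun v : En n => v ⟨0, hn⟩) (hX.dinj y hy h1)
    simp [ee] at h2
  refine Finset.sum_pos' (fun l _ => ?_) ⟨k, Finset.mem_univ _, h k hk⟩
  by_cases hl : (fun i => D (ee i) (fun z => X z l) y) = 0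
  · have h1 : ∀ i, D (ee i) (fun z => X z l) y = 0 := congrFun hl
    simp [pg, h1]
  · exact (h l hl).le

end Lt1N1

theorem s_N1 (hx : S_xf) (hc : S_trC) (hg : S_trG) (hs : S_trS) : S_N1 := by
  intro n ι _ _ L r r₂ G T X W hn hL hG hGs hr₂ hr hC
  have hn' : (0 : ℝ) < n := Nat.cast_pos.2 hn
  let ν : En n → ℝ := fun y => (∑ k, pg L.γ X k k y) / n
  have hν : Gau (ball 0 r₂) T ν := ⟨hC.gau.sm,
    (ContDiffOn.sum fun k _ => Lt1N1.pg_on hL hC.dif k k).div_const _,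
    fun y hy => div_pos (Lt1N1.pg_pos hn hL hC.dif hy) hn', hC.gau.det⟩
  have hlt : r₂ / 2 < r₂ := half_lt_self hr₂
  have hsub : ball (0 : En n) (r₂ / 2) ⊆ ball 0 r₂ := ball_subset_ball hlt.le
  obtain ⟨L', -, hF, -, -, hL'⟩ := hx n ι (fun _ => L) (ball 0 r₂) (ball 0 (r₂ / 2))
    (closedBall 0 (r₂ / 2)) X T ν (fam_const hL) hC.dif hν isOpen_ball ball_subset_closedBall
    (isCompact_closedBall _ _) (closedBall_subset_ball hlt)
  obtain ⟨hI, hγ, -⟩ := hL' 0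
  have hX : Dif (ball 0 (r₂ / 2)) X := hC.dif.mono isOpen_ball hsub
  obtain ⟨Y, hY, hYX⟩ := hX.exists_inv
  have h0 : (0 : En n) ∈ ball (0 : En n) (r₂ / 2) := mem_ball_self (half_pos hr₂)
  obtain ⟨R₀, hR₀, hK⟩ := nhds_basis_closedBall.mem_iff.1
    (hY.opn.mem_nhds ⟨0, h0, hC.x0⟩)
  have hm : MapsTo Y (X '' ball 0 (r₂ / 2)) (ball 0 (r₂ / 2)) := by
    rintro _ ⟨y, hy, rfl⟩
    rwa [hYX y hy]
  have hXY : ∀ x ∈ X '' ball 0 (r₂ / 2), X (Y x) = x := by
    rintro _ ⟨y, hy, rfl⟩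
    rw [hYX y hy]
  have hI' := inter_symm hI isOpen_ball hY hm hXY hYX
  refine ⟨R₀, Y, ν, L' 0, hR₀, hF.good 0, hI, fun y hy => ⟨hYX y hy, hγ y hy⟩, fun R hR hRR => ?_⟩
  have hK' : closedBall (0 : En n) R ⊆ X '' ball 0 (r₂ / 2) :=
    (closedBall_subset_closedBall hRR).trans hK
  have hB : ball (0 : En n) R ⊆ X '' ball 0 (r₂ / 2) := ball_subset_closedBall.trans hK'
  have hYR : Dif (ball 0 R) Y := hY.mono isOpen_ball hB
  have hIR := inter_mono hI' hB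
  have hmr : MapsTo Y (ball 0 R) (ball 0 r) := fun x hx =>
    ball_subset_ball hr (hsub (hm (hB hx)))
  refine ⟨hYR, fun x hx => hm (hB hx), fun x hx => hXY x (hB hx), fun x hx => ?_, hIR, ?_⟩
  · obtain ⟨y, hy, rfl⟩ := hB hx
    refine ⟨inter_c hI hy fun col a => (hC.solT col).2 y (hsub hy) a, ?_⟩
    have hp := (hν.pos y (hsub hy)).ne'
    refine mul_left_cancel₀ hp ?_
    rw [Finset.mul_sum]
    simp only [hγ y hy]
    exact (div_mul_cancel₀ _ hn'.ne').symm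
  · obtain ⟨A, B, hT⟩ := hc n ι (ball 0 r) (ball 0 R) (closedBall 0 R) (X '' ball 0 (r₂ / 2)) Y
      _ _ isOpen_ball isOpen_ball ball_subset_closedBall (isCompact_closedBall _ _) hK' hY
      (inter_gau hI') hmr
    have hY0 : Y 0 = 0 := by
      have := hYX 0 h0
      rwa [hC.x0] at this
    obtain ⟨K, -, hK⟩ := exists_lin_bound hY.opn hY.sm hK' hY0
    exact ⟨A, B, hT, hg n ι _ _ Y _ _ A B L (L' 0) G isOpen_ball hYR hmr hT hL (hF.good 0) hIR hG,
      (hs n ι _ _ Y _ _ A B isOpen_ball hYR hmr (inter_gau hIR) hT).2.2.2 G K hGs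
        fun y hy => hK y (ball_subset_closedBall hy)⟩

end Vale.Agent.P088.Lt1
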