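import Vale.Agent.P088.Lt1HL
import Vale.Agent.P088.Lt1Int

open MeasureTheory Set Metric Filter
open scoped ContDiff Topology InnerProductSpace Matrix

noncomputable section
namespace Vale.Agent.P088.Lt1
open Vale.Agent.P136 (D Sm Tst)

namespace Lt1Pair

theorem exists_pt {n : ℕ} {q : En n} {ρ : ℝ} (h0 : 0 < ρ) (hq : ‖q‖ = ρ) {Φ : En n → En n}
    (hi : InjOn Φ (ball q ρ)) : ∃ p ∈ ball q ρ, p ≠ 0 ∧ Φ p ≠ 0 := by
  have h1 : q ≠ 0 := norm_pos_iff.1 (hq ▸ h0)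
  by_cases h2 : Φ q = 0
  · have h3 : dist ((1 / 2 : ℝ) • q) q = ρ / 2 := by
      rw [dist_eq_norm, show (1 / 2 : ℝ) • q - q = (-(1 / 2) : ℝ) • q by module, norm_smul, hq]
      norm_num
      ring
    have h4 : (1 / 2 : ℝ) • q ∈ ball q ρ := h3.trans_lt (half_lt_self h0)
    refine ⟨_, h4, smul_ne_zero (by norm_num) h1, fun h5 => ?_⟩
    rw [hi h4 (mem_ball_self h0) (h5.trans h2.symm), dist_self] at h3
    linarith
  · exact ⟨q, mem_ball_self h0, h1, h2⟩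

end Lt1Pair

theorem s_pair (hw : S_weyl) (hg : S_green) (hj : S_jet) (hc : S_trC) : S_pair := by
  intro n ι _ _ L₁ L₂ r ρ C q G₁ G₂ Φ S μ hn h
  have hd := inter_dif h.int isOpen_ball h.inj
  have hB : ball q ρ ⊆ ball 0 r :=
    ball_subset_ball' (by rw [dist_zero_right, h.nq]; linarith [h.hr])
  obtain ⟨p, hp, p0, p1⟩ := Lt1Pair.exists_pt h.ρ0 h.nq h.inj
  obtain ⟨r₁, r0, r1⟩ := exists_between (lt_min (norm_pos_iff.2 p0) (norm_pos_iff.2 p1))
  have h1 : ∀ᶠ y in 𝓝 p, y ∈ ball q ρ ∧ r₁ < ‖y‖ ∧ r₁ < ‖Φ y‖ :=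
    (isOpen_ball.eventually_mem hp).and
      ((continuous_norm.continuousAt.eventually_const_lt (lt_min_iff.1 r1).1).and
        ((hd.cda hp).continuousAt.norm.eventually_const_lt (lt_min_iff.1 r1).2))
  obtain ⟨s, s0, h2⟩ := nhds_basis_closedBall.eventually_iff.1 h1
  have hO : ball p s ⊆ ball q ρ := fun y hy => (h2 (ball_subset_closedBall hy)).1
  have h3 : ball (0 : En n) r₁ ⊆ ball 0 r :=
    ball_subset_ball ((lt_min_iff.1 r1).1.trans (mem_ball_zero_iff.1 (hB hp))).le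
  obtain ⟨A, B, hT⟩ := hc n ι (ball 0 r) (ball p s) (closedBall p s) (ball q ρ) Φ S μ isOpen_ball
    isOpen_ball ball_subset_closedBall (isCompact_closedBall p s) (fun y hy => (h2 hy).1) hd
    (inter_gau h.int) (h.maps.mono_left hO)
  refine ⟨r₁, r0, fun m P hP hZ => ?_⟩
  obtain ⟨F₂, W₂, f1, f2, f3, f4⟩ := hj n ι L₂ r r₁ G₂ (ball p s) m P hn h.g2 h.gr2 h.sc2 r0
    isOpen_ball (nonempty_ball.2 s0) (fun y hy => ⟨hB (hO hy), fun h' =>
      (h2 (ball_subset_closedBall hy)).2.1.not_ge (mem_closedBall_zero_iff.1 h')⟩) hP hZ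
  have a1 := hT.supp (tl _ (cp F₂))
  have a2 := h.rel _ F₂ (suppIn_mono (image_mono hO) a1) (suppIn_mono hO f1) (by
    filter_upwards [ae_restrict_of_ae ((ae_restrict_iff' measurableSet_ball).1
      ((hT.hA (tl _ (cp F₂))).and (cp_tl (l2_mono (hO.trans hB) (l2_cp F₂))))),
      ae_restrict_of_ae_restrict_of_subset hB (suppIn_iff.1 f1),
      hd.ae_pull measurableSet_ball h.maps (suppIn_iff.1 a1), ae_restrict_mem measurableSet_ball]
      with y b1 b2 b3 b4 a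
    by_cases hy : y ∈ ball p s
    · exact ((b1 hy).2 a).symm.trans ((b1 hy).1 a)
    · simp only [b2 hy, pb, b3 fun ⟨z, hz, e⟩ => hy (h.inj (hO hz) b4 e ▸ hz), mul_zero,
        Finset.sum_const_zero])
  obtain ⟨W₁, w1, w2⟩ := green_sol hw hg h.g1 h.gr1 isOpen_ball isOpen_ball h3
    (A (tl _ (cp F₂))) (H := 0) (fun _ => contDiffOn_const) (by
      filter_upwards [ae_restrict_of_ae_restrict_of_subset h3 (suppIn_iff.1 a1),
        ae_restrict_mem measurableSet_ball] with x b1 b2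
      exact b1 fun ⟨z, hz, e⟩ =>
        (h2 (ball_subset_closedBall hz)).2.2.not_gt (e ▸ mem_ball_zero_iff.1 b2))
  refine ⟨W₁, W₂, w1, f2, f4, fun y hy hy' a => ?_⟩
  have hV : IsOpen ((ball q ρ ∩ ball 0 r₁) ∩ Φ ⁻¹' ball (0 : En n) r₁) :=
    (hd.sm.continuousOn.mono inter_subset_left).isOpen_inter_preimage
      (isOpen_ball.inter isOpen_ball) isOpen_ball
  have s1 : (ball q ρ ∩ ball 0 r₁) ∩ Φ ⁻¹' ball (0 : En n) r₁ ⊆ ball q ρ := fun _ hz => hz.1.1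
  have s2 : (ball q ρ ∩ ball 0 r₁) ∩ Φ ⁻¹' ball (0 : En n) r₁ ⊆ ball 0 r₁ := fun _ hz => hz.1.2
  have s3 : MapsTo Φ ((ball q ρ ∩ ball 0 r₁) ∩ Φ ⁻¹' ball (0 : En n) r₁) (ball 0 r₁) :=
    fun _ hz => hz.2
  have s4 := ((inter_sol (inter_mono h.int s1) hV isOpen_ball s3 w1).1 a).continuousOn
  refine eqOn_of_ae hV ((f2.1 a).continuousOn.mono s2) s4 ?_ (mem_inter hy hy')
  filter_upwards [ae_restrict_of_ae_restrict_of_subset s1 a2,
    ae_restrict_of_ae_restrict_of_subset s2 f3,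
    (hd.mono hV s1).ae_pull measurableSet_ball s3 w2] with z b1 b2 b3
  simp only [← b2 a, b1 a, pb, b3]

end Vale.Agent.P088.Lt1
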