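import Vale.Agent.P088.Lt1Bas
import Vale.Agent.P088.Lt1Inv

/-! P088, LT1: a small ball touching the origin is mapped into a given ball. -/

open MeasureTheory Set Metric Filter
open scoped ContDiff Topology InnerProductSpace Matrix

noncomputable section
namespace Vale.Agent.P088.Lt1
open Vale.Agent.P136 (D Sm Tst)

namespace Lt1Reg

/-- Second order remainder bound at the origin. -/
theorem quad {E F : Type} [NormedAddCommGroup E] [NormedSpace ℝ E] [NormedAddCommGroup F]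
    [NormedSpace ℝ F] {f : E → F} (hf : ContDiffAt ℝ ∞ f 0) :
    ∃ r C : ℝ, 0 < r ∧ 0 ≤ C ∧ ∀ x, ‖x‖ < r → ‖f x - f 0 - fderiv ℝ f 0 x‖ ≤ C * ‖x‖ ^ 2 := by
  have h2 : ContDiffAt ℝ 2 f 0 := hf.of_le (WithTop.coe_le_coe.2 (le_top : (2 : ℕ∞) ≤ ⊤))
  have h1 : ContDiffAt ℝ 1 (fderiv ℝ f) 0 := h2.fderiv_right (by norm_num)
  obtain ⟨K, s, hs, hK⟩ := h1.exists_lipschitzOnWith
  have hd : ∀ᶠ y in 𝓝 (0 : E), DifferentiableAt ℝ f y :=
    (h2.eventually (by simp)).mono fun y hy => hy.differentiableAt (by norm_num)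
  obtain ⟨r, hr, hb⟩ := Metric.mem_nhds_iff.1 (inter_mem hs hd)
  refine ⟨r, K, hr, K.2, fun x hx => ?_⟩
  have hsub : closedBall (0 : E) ‖x‖ ⊆ ball 0 r := closedBall_subset_ball hx
  have key := (convex_closedBall (0 : E) ‖x‖).norm_image_sub_le_of_norm_hasFDerivWithin_le
    (f := fun y => f y - fderiv ℝ f 0 y) (f' := fun y => fderiv ℝ f y - fderiv ℝ f 0)
    (C := K * ‖x‖) (x := 0) (y := x)
    (fun y hy => ((hb (hsub hy)).2.hasFDerivAt.sub (fderiv ℝ f 0).hasFDerivAt).hasFDerivWithinAt)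
    (fun y hy => by
      have h := hK.dist_le_mul y (hb (hsub hy)).1 0 (hb (mem_ball_self hr)).1
      rw [dist_eq_norm, dist_zero_right] at h
      exact h.trans (mul_le_mul_of_nonneg_left (mem_closedBall_zero_iff.1 hy) K.2))
    (mem_closedBall_self (norm_nonneg _)) (mem_closedBall_zero_iff.2 le_rfl)
  simp only [map_zero, sub_zero] at key
  have e : f x - f 0 - fderiv ℝ f 0 x = f x - fderiv ℝ f 0 x - f 0 := by abel
  rw [e]
  exact key.trans (le_of_eq (by ring))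

end Lt1Reg

theorem s_reg : S_reg := by
  intro n Y R δ ρ q hR hδ hρ hq hY h0
  have hz : (0 : En n) ∈ ball (0 : En n) R := mem_ball_self hR
  obtain ⟨r, C, hr, hC, hb⟩ := Lt1Reg.quad (hY.cda hz)
  set A := fderiv ℝ Y 0 with hA
  have hsurj : Function.Surjective A :=
    (LinearMap.injective_iff_surjective (f := (A : En n →ₗ[ℝ] En n))).1 (hY.dinj 0 hz)
  set w : En n := ContinuousLinearMap.adjoint A q with hw
  have hwv : ∀ v, ⟪w, v⟫_ℝ = ⟪q, A v⟫_ℝ := fun v => ContinuousLinearMap.adjoint_inner_left A v q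
  have hw0 : 0 < ‖w‖ := by
    refine norm_pos_iff.2 fun h => ?_
    obtain ⟨v, hv⟩ := hsurj q
    have h1 := hwv v
    rw [h, hv, inner_zero_left, real_inner_self_eq_norm_sq, hq] at h1
    exact (pow_pos hρ 2).ne h1
  set K : ℝ := ‖A‖ + C * r + 1 with hK
  have hK0 : 0 < K := by positivity
  set t : ℝ := min (min (R / 2) (r / 2)) (min (δ / (2 * K)) (‖w‖ / (K ^ 2 + 2 * ρ * C))) with ht
  have hM : 0 < K ^ 2 + 2 * ρ * C := by positivity
  have ht0 : 0 < t := by positivity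
  have t1 : t ≤ R / 2 := (min_le_left _ _).trans (min_le_left _ _)
  have t2 : t ≤ r / 2 := (min_le_left _ _).trans (min_le_right _ _)
  have t3 : t ≤ δ / (2 * K) := (min_le_right _ _).trans (min_le_left _ _)
  have t4 : t ≤ ‖w‖ / (K ^ 2 + 2 * ρ * C) := (min_le_right _ _).trans (min_le_right _ _)
  rw [le_div_iff₀ (by positivity)] at t3
  rw [le_div_iff₀ hM] at t4
  have hp : ‖(‖w‖⁻¹ • w : En n)‖ = 1 := by
    rw [norm_smul, norm_inv, norm_norm, inv_mul_cancel₀ hw0.ne']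
  refine ⟨‖w‖⁻¹ • w, t, hp, ht0, by linarith, fun x hx => ?_⟩
  set p : En n := ‖w‖⁻¹ • w with hpd
  have hx1 : ‖x - t • p‖ < t := mem_ball_iff_norm.1 hx
  have htp : ‖t • p‖ = t := by rw [norm_smul, hp, mul_one, Real.norm_of_nonneg ht0.le]
  have hx2 : ‖x‖ < 2 * t := by
    have := norm_add_le (x - t • p) (t • p)
    rw [sub_add_cancel, htp] at this
    linarith
  have hx3 : ‖x‖ ^ 2 < 2 * t * ⟪p, x⟫_ℝ := by
    have h1 : ‖x - t • p‖ ^ 2 < t ^ 2 := pow_lt_pow_left₀ hx1 (norm_nonneg _) two_ne_zero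
    rw [norm_sub_sq_real, htp, real_inner_smul_right, real_inner_comm] at h1
    linarith
  have hpw : ⟪w, x⟫_ℝ = ‖w‖ * ⟪p, x⟫_ℝ := by
    rw [hpd, real_inner_smul_left, ← mul_assoc, mul_inv_cancel₀ hw0.ne', one_mul]
  have hxr : ‖x‖ < r := by linarith
  have hrem := hb x hxr
  rw [h0, sub_zero] at hrem
  have hn := norm_nonneg x
  have hYx : ‖Y x‖ ≤ K * ‖x‖ := by
    have h1 := norm_add_le (Y x - A x) (A x)
    rw [sub_add_cancel] at h1
    have h2 := A.le_opNorm x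
    have h3 : C * ‖x‖ ^ 2 ≤ C * r * ‖x‖ := by
      rw [mul_assoc, sq]
      exact mul_le_mul_of_nonneg_left (mul_le_mul_of_nonneg_right hxr.le hn) hC
    rw [hK]
    nlinarith
  refine ⟨mem_ball_iff_norm.2 ?_, mem_ball_zero_iff.2 ?_⟩
  · refine lt_of_pow_lt_pow_left₀ 2 hρ.le ?_
    rw [norm_sub_sq_real, hq, real_inner_comm]
    have h1 : ⟪q, Y x⟫_ℝ = ⟪w, x⟫_ℝ + ⟪q, Y x - A x⟫_ℝ := by
      rw [hwv, inner_sub_right]; ring
    have h2 : -(ρ * (C * ‖x‖ ^ 2)) ≤ ⟪q, Y x - A x⟫_ℝ := by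
      have h3 := abs_real_inner_le_norm q (Y x - A x)
      rw [hq] at h3
      have h4 := mul_le_mul_of_nonneg_left hrem hρ.le
      linarith [neg_abs_le ⟪q, Y x - A x⟫_ℝ]
    have h5 : ‖Y x‖ ^ 2 ≤ K ^ 2 * ‖x‖ ^ 2 := by
      rw [← mul_pow]
      exact pow_le_pow_left₀ (norm_nonneg _) hYx 2
    have h6 : 0 < ⟪p, x⟫_ℝ := by
      have h7 : 0 < 2 * t * ⟪p, x⟫_ℝ := lt_of_le_of_lt (sq_nonneg _) hx3
      exact (mul_pos_iff_of_pos_left (by positivity)).1 h7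
    have h8 : (K ^ 2 + 2 * ρ * C) * ‖x‖ ^ 2 < (K ^ 2 + 2 * ρ * C) * (2 * t * ⟪p, x⟫_ℝ) :=
      mul_lt_mul_of_pos_left hx3 hM
    have h9 : t * (K ^ 2 + 2 * ρ * C) * ⟪p, x⟫_ℝ ≤ ‖w‖ * ⟪p, x⟫_ℝ :=
      mul_le_mul_of_nonneg_right t4 h6.le
    rw [h1, hpw]
    nlinarith
  · have h1 : K * ‖x‖ < K * (2 * t) := mul_lt_mul_of_pos_left hx2 hK0
    nlinarith

end Vale.Agent.P088.Lt1
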