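import Vale.Agent.P088.Lt1HL

open MeasureTheory Set Metric Filter
open scoped ContDiff Topology InnerProductSpace Matrix

noncomputable section
namespace Vale.Agent.P088.Lt1
open Vale.Agent.P136 (D Sm Tst)

namespace Lt1Run
variable {n : ℕ} {ι : Type} [Fintype ι] {U : Set (En n)}

/-- The annulus is connected in dimension at least two. -/
theorem ann (hn : 2 ≤ n) {s r : ℝ} (hs : 0 < s) :
    IsPreconnected (ball (0 : En n) r \ closedBall 0 s) := by
  have h1 : 1 < Module.rank ℝ (En n) :=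
    Module.one_lt_rank_of_one_lt_finrank (by rw [finrank_euclideanSpace_fin]; omega)
  have h2 : IsPreconnected (sphere (0 : En n) 1 ×ˢ Ioo s r) :=
    (isPreconnected_sphere h1 0 1).prod isPreconnected_Ioo
  have h3 := h2.image (fun p : En n × ℝ => p.2 • p.1) (Continuous.continuousOn (by fun_prop))
  have e : (fun p : En n × ℝ => p.2 • p.1) '' (sphere (0 : En n) 1 ×ˢ Ioo s r) =
      ball (0 : En n) r \ closedBall 0 s := by
    ext x
    simp only [Set.mem_sdiff, mem_ball_zero_iff, mem_closedBall_zero_iff, not_le]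
    constructor
    · rintro ⟨⟨u, t⟩, ⟨hu, ht⟩, rfl⟩
      have : ‖t • u‖ = t := by
        rw [norm_smul, mem_sphere_zero_iff_norm.1 hu, mul_one, Real.norm_of_nonneg (hs.trans ht.1).le]
      simp only [this]
      exact ⟨ht.2, ht.1⟩
    · rintro ⟨a, b⟩
      have h0 : 0 < ‖x‖ := hs.trans b
      refine ⟨(‖x‖⁻¹ • x, ‖x‖), ⟨?_, b, a⟩, ?_⟩
      · rw [mem_sphere_zero_iff_norm, norm_smul, norm_inv, norm_norm, inv_mul_cancel₀ h0.ne']
      · simp only [smul_smul, mul_inv_cancel₀ h0.ne', one_smul]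
  rwa [e] at h3

/-- The elements supported in a set. -/
def sub (U O : Set (En n)) (ι : Type) [Fintype ι] : Submodule ℝ (HL n ι U) where
  carrier := {F | SuppIn O F}
  zero_mem' := (Lp.coeFn_zero _ _ _).mono fun _ hx _ => hx
  add_mem' := fun h h' => St1.supp_add h h'
  smul_mem' := fun c F h => by
    filter_upwards [h, Lp.coeFn_smul c F] with x h1 h2 hx
    rw [h2, Pi.smul_apply, h1 hx, smul_zero]

theorem zero_on {O : Set (En n)} (hO : MeasurableSet O) (hOU : O ⊆ U) {v : HL n ι U}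
    (h : ∀ F, SuppIn O F → ⟪F, v⟫_ℝ = 0) (a : ι) : cp v a =ᵐ[volume.restrict O] 0 := by
  have h1 : St1.ind U hO v = 0 := by
    have h2 := h _ (St1.supp_ind hO v)
    rw [← St1.ind_self hO (St1.supp_ind hO v), St1.ind_symm] at h2
    exact inner_self_eq_zero.1 h2
  have h3 := St1.cp_ind_on hO hOU v a
  rw [h1] at h3
  have h4 : ∀ᵐ x ∂(volume.restrict O), (0 : HL n ι U) x = 0 :=
    ae_restrict_of_ae_restrict_of_subset hOU (Lp.coeFn_zero _ _ _)
  filter_upwards [h3, h4] with x a1 a2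
  rw [← a1, cp, a2]
  rfl

/-- The adjoint solution vanishes on the annulus. -/
theorem adj_supp (hw : S_weyl) (hu : S_ucp) (hg : S_green) (hn : 2 ≤ n) {L : Op n ι} {r s : ℝ}
    {G : HL n ι (ball 0 r) →L[ℝ] HL n ι (ball 0 r)} {O : Set (En n)} (hL : L.Good)
    (hG : IsGreen L _ G) (hs : 0 < s) (hO : IsOpen O) (hne : O.Nonempty)
    (hOA : O ⊆ ball 0 r \ closedBall 0 s) {h : HL n ι (ball 0 r)} (hh : SuppIn (ball 0 s) h)
    (e : ∀ F, SuppIn O F → ⟪G F, h⟫_ℝ = 0) :
    SuppIn (closedBall 0 s) (ContinuousLinearMap.adjoint G h) := by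
  have hA : IsOpen (ball (0 : En n) r \ closedBall 0 s) := isOpen_ball.sdiff isClosed_closedBall
  obtain ⟨W, hW, -, hae⟩ := St1.green_sol hw hg (St1.good_T hg hL).1 (St1.green_adj hg hL hG)
    isOpen_ball hA sdiff_subset hh
    (disjoint_left.2 fun x hx hx' => hx'.2 (ball_subset_closedBall hx))
  have h0 := zero_on hO.measurableSet (hOA.trans sdiff_subset)
    (v := ContinuousLinearMap.adjoint G h)
    (fun F hF => by rw [ContinuousLinearMap.adjoint_inner_right, e F hF])
  have h1 : ∀ a, EqOn (W a) ((0 : ι → En n → ℝ) a) O :=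
    St1.eqOn_of_ae hO (fun a => (hW.1 a).mono hOA) (fun _ => contDiffOn_const) fun a =>
      EventuallyEq.trans (ae_restrict_of_ae_restrict_of_subset hOA (hae a)) (h0 a)
  obtain ⟨x₀, hx₀⟩ := hne
  have h2 := hu n ι L.T _ W x₀ (St1.good_T hg hL).1 hA (ann hn hs) hW (hOA hx₀)
    fun a => (h1 a).eventuallyEq_of_mem (hO.mem_nhds hx₀)
  refine St1.supp_iff.2 fun a => ?_
  have h3 := (ae_restrict_iff' hA.measurableSet).1 (hae a)
  filter_upwards [ae_restrict_of_ae h3, ae_restrict_mem measurableSet_ball] with x a1 a2 a3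
  rw [← a1 ⟨a2, a3⟩]
  exact h2 x ⟨a2, a3⟩ a

end Lt1Run

open Lt1Run in
theorem s_runge (hw : S_weyl) (hu : S_ucp) (hg : S_green) : S_runge := by
  intro n ι _ _ L r s s' ε G O W hn hL hG hs hss hsr hO hne hOA hW hε
  let θ : ContDiffBump (0 : En n) := ⟨(2 * s + s') / 3, (s + 2 * s') / 3, by linarith, by linarith⟩
  have hθ1 : ∀ x ∈ closedBall (0 : En n) s, ∀ᶠ y in 𝓝 x, θ y = 1 := fun x hx =>
    θ.eventuallyEq_one_of_mem_ball (closedBall_subset_ball (by simp only [θ]; linarith) hx)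
  have hψ' : Tests (ball 0 s') (mulF θ W) :=
    St1.tests_mulF isOpen_ball hW.1 θ.contDiff (isCompact_closedBall 0 θ.rOut)
      (closedBall_subset_ball (by simp only [θ]; linarith))
      fun x hx => θ.zero_of_le_dist (le_of_lt (not_le.1 hx))
  have hψ : Tests (ball 0 r) (mulF θ W) := St1.tests_mono hψ' (ball_subset_ball hsr)
  have hB : MeasurableSet (ball (0 : En n) s) := measurableSet_ball
  have hBU : ball (0 : En n) s ⊆ ball 0 r := ball_subset_ball (hss.le.trans hsr)
  have hLψ : SuppIn (closedBall 0 s)ᶜ (tl (ball 0 r) (L.app (mulF θ W))) :=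
    St1.supp_tl measurableSet_ball (St1.tests_l2 (St1.tests_app hL hψ) _) fun x _ hx a =>
      St1.app_mulF_one hW (closedBall_subset_ball hss (not_not.1 hx)) (hθ1 x (not_not.1 hx)) a
  have hK : St1.ind (ball 0 r) hB (tl (ball 0 r) (mulF θ W)) ∈
      ((sub (ball 0 r) O ι).map (St1.ind (ball 0 r) hB ∘L G).toLinearMap).topologicalClosure := by
    rw [← Submodule.orthogonal_orthogonal_eq_closure, Submodule.mem_orthogonal']
    intro h hh
    have h1 := adj_supp hw hu hg hn hL hG hs hO hne hOA (St1.supp_ind hB h) fun F hF => by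
      rw [← St1.ind_symm]
      exact (Submodule.mem_orthogonal _ _).1 hh _ ⟨F, hF, rfl⟩
    rw [St1.ind_symm, ← hG.2 _ hψ, ← ContinuousLinearMap.adjoint_inner_right]
    exact St1.inner_disjoint hLψ h1 disjoint_compl_left
  obtain ⟨_, ⟨F, hF, rfl⟩, hd⟩ := Metric.mem_closure_iff.1 hK √ε (Real.sqrt_pos.2 hε)
  refine ⟨F, hF, ?_⟩
  have h1 : ‖St1.ind (ball 0 r) hB (tl (ball 0 r) (mulF θ W) - G F)‖ ^ 2 ≤ ε := by
    rw [map_sub, ← dist_eq_norm]
    exact (Real.le_sqrt dist_nonneg hε.le).1 hd.le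
  rw [St1.norm_ind hB hBU] at h1
  refine le_of_eq_of_le (Finset.sum_congr rfl fun a _ => integral_congr_ae ?_) h1
  filter_upwards [ae_restrict_of_ae_restrict_of_subset hBU
      (St1.cp_sub (tl (ball 0 r) (mulF θ W)) (G F) a),
    ae_restrict_of_ae_restrict_of_subset hBU (St1.cp_tl (St1.tests_l2 hψ (ball 0 r)) a),
    ae_restrict_mem hB] with x a1 a2 a3
  rw [a1, a2, mulF, (hθ1 x (ball_subset_closedBall a3)).self_of_nhds, one_mul]

end Vale.Agent.P088.Lt1
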