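import Vale.Agent.P088.Lt1Bas
import Vale.Agent.P088.Lt1Inv

open MeasureTheory Set Metric Filter
open scoped ContDiff Topology InnerProductSpace Matrix

noncomputable section
namespace Vale.Agent.P088.Lt1
open Vale.Agent.P136 (D Sm Tst)

namespace Lt1TrC

variable {n : ℕ} {ι : Type} [Fintype ι] [DecidableEq ι]

omit [DecidableEq ι] in
theorem bound {K : Set (En n)} (hK : IsCompact K) {N : MF n ι}
    (hN : ∀ a a', ContinuousOn (N a a') K) {d : En n → ℝ} (hd : ContinuousOn d K)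
    (hp : ∀ x ∈ K, 0 < d x) : ∃ α : ℝ, 0 ≤ α ∧ ∀ x ∈ K, ∀ v : ι → ℝ,
      ∑ a, (∑ a', N a a' x * v a') ^ 2 ≤ α ^ 2 * d x * ∑ a, v a ^ 2 := by
  have hc : ContinuousOn (fun x => (∑ a, ∑ a', N a a' x ^ 2) / d x) K := by
    refine ContinuousOn.div ?_ hd fun x hx => (hp x hx).ne'
    exact continuousOn_finsetSum _ fun a _ => continuousOn_finsetSum _ fun a' _ => (hN a a').pow 2
  obtain ⟨C, hC⟩ := hK.exists_bound_of_continuousOn hc
  refine ⟨√C, Real.sqrt_nonneg _, fun x hx v => ?_⟩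
  have h0 : 0 ≤ C := (norm_nonneg _).trans (hC x hx)
  rw [Real.sq_sqrt h0]
  have h1 : (∑ a, ∑ a', N a a' x ^ 2) ≤ C * d x := by
    have := (le_abs_self _).trans (hC x hx)
    rwa [div_le_iff₀ (hp x hx)] at this
  calc ∑ a, (∑ a', N a a' x * v a') ^ 2
      ≤ ∑ a, (∑ a', N a a' x ^ 2) * ∑ a', v a' ^ 2 :=
        Finset.sum_le_sum fun a _ => Finset.sum_mul_sq_le_sq_mul_sq _ _ _
    _ = (∑ a, ∑ a', N a a' x ^ 2) * ∑ a', v a' ^ 2 := by rw [Finset.sum_mul]
    _ ≤ C * d x * ∑ a, v a ^ 2 :=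
        mul_le_mul_of_nonneg_right h1 (Finset.sum_nonneg fun a _ => sq_nonneg _)

theorem key (M : Matrix ι ι ℝ) (hM : M.det ≠ 0) {m : ℝ} (hm : m ≠ 0) (v w : ι → ℝ)
    (h : ∀ a, w a = ∑ a', m⁻¹ * M⁻¹ a a' * v a') (a : ι) : v a = m * (M *ᵥ w) a := by
  have e : w = m⁻¹ • (M⁻¹ *ᵥ v) := by
    funext a
    rw [h a]
    simp only [Pi.smul_apply, smul_eq_mul, Matrix.mulVec, dotProduct, Finset.mul_sum, mul_assoc]
  rw [e, Matrix.mulVec_smul, Matrix.mulVec_mulVec,
    Matrix.mul_nonsing_inv _ (isUnit_iff_ne_zero.2 hM), Matrix.one_mulVec]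
  simp only [Pi.smul_apply, smul_eq_mul]
  field_simp

theorem det_sm (c : ℝ) (x : En n) : (fderiv ℝ (fun y : En n => c • y) x).det = c ^ n := by
  have e : fderiv ℝ (fun y : En n => c • y) x = c • ContinuousLinearMap.id ℝ (En n) :=
    ((hasFDerivAt_id x).const_smul c).fderiv
  rw [e, ContinuousLinearMap.det]
  have : ((c • ContinuousLinearMap.id ℝ (En n) : En n →L[ℝ] En n) : En n →ₗ[ℝ] En n) =
      c • LinearMap.id := rfl
  rw [this, LinearMap.det_smul]
  simp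

theorem sum_one (c : ℝ) (x : En n) (v : ι → ℝ) (a : ι) :
    ∑ a', c * (one' : MF n ι) a a' x * v a' = c * v a := by
  simp [one']

end Lt1TrC
open Lt1TrC

theorem s_trC (h : S_wc) : S_trC := by
  intro n ι _ _ U V K V₁ Ψ S μ hU hV hVK hK hKV hD hG hm
  have hV1 : V ⊆ V₁ := hVK.trans hKV
  have hDV : Dif V Ψ := hD.mono hV hV1
  obtain ⟨β, hβ, hb⟩ := bound hK (N := S) (fun a a' => (hG.sm a a').continuousOn.mono hKV)
    (hD.det_cdOn.1.continuousOn.mono hKV) fun x hx => hD.det_cdOn.2 x (hKV hx)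
  obtain ⟨B, -, hB⟩ := h n ι V U V Ψ S β hV hU Subset.rfl hDV hm
    (fun a a' => (hG.sm a a').continuousOn.mono hV1) hβ fun x hx => hb x (hVK hx)
  obtain ⟨Θ, hΘ, hi⟩ := hD.exists_inv
  have hmΘ : MapsTo Θ (Ψ '' V₁) V₁ := by
    rintro _ ⟨y, hy, rfl⟩
    rwa [hi y hy]
  have hK' : IsCompact (Ψ '' K) := hK.image_of_continuousOn (hD.sm.continuousOn.mono hKV)
  have hN : ∀ a a', ContinuousOn (fun x => (μ (Θ x))⁻¹ * mi S a a' (Θ x)) (Ψ '' V₁) := by
    intro a a'
    refine ContinuousOn.mul (ContinuousOn.inv₀ ?_ fun x hx => (hG.pos _ (hmΘ hx)).ne') ?_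
    · exact hG.smμ.continuousOn.comp hΘ.sm.continuousOn hmΘ
    · exact (mi_cdOn hG.sm hG.det a a').continuousOn.comp hΘ.sm.continuousOn hmΘ
  obtain ⟨α, hα, ha⟩ := bound hK' (N := fun a a' x => (μ (Θ x))⁻¹ * mi S a a' (Θ x))
    (fun a a' => (hN a a').mono (image_mono hKV))
    (hΘ.det_cdOn.1.continuousOn.mono (image_mono hKV))
    fun x hx => hΘ.det_cdOn.2 x (image_mono hKV hx)
  have hmV : MapsTo Θ (Ψ '' V) V := by
    rintro _ ⟨y, hy, rfl⟩
    rwa [hi y (hV1 hy)]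
  obtain ⟨A, -, hA⟩ := h n ι U V (Ψ '' V) Θ (fun a a' x => (μ (Θ x))⁻¹ * mi S a a' (Θ x)) α hU hV
    hm.image_subset (hΘ.mono hDV.isOpen_image (image_mono hV1)) hmV
    (fun a a' => (hN a a').mono (image_mono hV1)) hα fun x hx => ha x (image_mono hVK hx)
  refine ⟨A, B, fun F => (hA F).1, fun F => ?_, fun u => (hB u).2⟩
  have h1 := hDV.ae_pull hDV.isOpen_image.measurableSet (mapsTo_image _ _) (hA F).2
  filter_upwards [h1, ae_restrict_mem hV.measurableSet] with y hy hyV a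
  rw [pb_eq]
  refine key (mt S y) (hG.det y (hV1 hyV)) (hG.pos y (hV1 hyV)).ne' (fun e => cp F e y)
    (fun e => cp (A F) e (Ψ y)) (fun e => ?_) a
  rw [hy e]
  simp only [pb, hi y (hV1 hyV), mi]

theorem s_trE (h : S_wc) : S_trE := by
  intro n ι _ _ R R' η hη hR
  have hp : 0 < η ^ n := pow_pos hη n
  have hs : 0 < √(η ^ n) := Real.sqrt_pos.2 hp
  have hm : MapsTo (fun x : En n => η • x) (ball 0 R') (ball 0 R) := by
    intro x hx
    rw [mem_ball_zero_iff] at hx ⊢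
    rw [norm_smul, Real.norm_of_nonneg hη.le]
    exact (mul_lt_mul_of_pos_left hx hη).trans_le hR
  have hDV : Dif (ball (0 : En n) R') fun x => η • x := dif_smul isOpen_ball hη.ne'
  obtain ⟨B, hBn, hB⟩ := h n ι (ball 0 R') (ball 0 R) (ball 0 R') (fun x => η • x) one'
    (√(η ^ n))⁻¹ isOpen_ball isOpen_ball Subset.rfl hDV hm
    (fun a a' => continuousOn_const) (inv_nonneg.2 hs.le) fun x _ v => by
      have e : ∀ a, ∑ a', (one' : MF n ι) a a' x * v a' = v a := by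
        intro a
        simp [one']
      simp only [e]
      rw [det_sm, abs_of_pos hp, inv_pow, Real.sq_sqrt hp.le, inv_mul_cancel₀ hp.ne', one_mul]
  have hmV : MapsTo (fun x : En n => η⁻¹ • x) ((fun x : En n => η • x) '' ball 0 R')
      (ball 0 R') := by
    rintro _ ⟨y, hy, rfl⟩
    simp only [smul_smul, inv_mul_cancel₀ hη.ne', one_smul]
    exact hy
  obtain ⟨A, hAn, hA⟩ := h n ι (ball 0 R) (ball 0 R') ((fun x : En n => η • x) '' ball 0 R')
    (fun x => η⁻¹ • x) (fun a a' x => (η ^ 2)⁻¹ * one' a a' x) (√(η ^ n) / η ^ 2) isOpen_ball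
    isOpen_ball hm.image_subset (dif_smul hDV.isOpen_image (inv_pos.2 hη).ne') hmV
    (fun a a' => by simp only [one']; exact continuousOn_const) (by positivity) fun x _ v => by
      simp only [sum_one]
      rw [det_sm, abs_of_pos (by positivity), div_pow, Real.sq_sqrt hp.le, Finset.mul_sum]
      refine le_of_eq (Finset.sum_congr rfl fun a _ => ?_)
      rw [inv_pow]
      field_simp
  refine ⟨A, B, ?_, fun F => (hA F).1, fun F => ?_, fun u => (hB u).2⟩
  · refine (mul_le_mul hAn hBn (norm_nonneg _) (by positivity)).trans (le_of_eq ?_)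
    field_simp
  · have h1 := hDV.ae_pull hDV.isOpen_image.measurableSet (mapsTo_image _ _) (hA F).2
    filter_upwards [h1] with y hy a
    rw [pb_one, hy a]
    simp only [pb, sum_one, smul_smul, inv_mul_cancel₀ hη.ne', one_smul]
    field_simp

end Vale.Agent.P088.Lt1
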