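import Vale.Agent.P088.Lt1HL
import Vale.Agent.P088.Lt1Int

/-! P088, LT1: transport of Green operators. -/

open MeasureTheory Set Metric Filter
open scoped ContDiff Topology InnerProductSpace Matrix

noncomputable section
namespace Vale.Agent.P088.Lt1
open Vale.Agent.P136 (D Sm Tst)

namespace Lt1TrG
variable {n : ℕ} {ι : Type} [Fintype ι] [DecidableEq ι]
variable {U V : Set (En n)} {Ψ : En n → En n} {S : MF n ι} {μ : En n → ℝ}

/-- Push forward of a test function. -/
theorem push (h : Dif V Ψ) {φ : En n → ℝ} (hφ : IsTest V φ) :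
    ∃ φ' : En n → ℝ, IsTest (Ψ '' V) φ' ∧ ∀ y ∈ V, φ' (Ψ y) = φ y := by
  classical
  obtain ⟨Θ, hΘ, hi⟩ := h.exists_inv
  have hK : IsCompact (Ψ '' tsupport φ) :=
    hφ.1.2.isCompact.image_of_continuousOn (h.sm.continuousOn.mono hφ.2)
  have hv : ∀ y ∈ V, (Ψ '' V).indicator (fun x => φ (Θ x)) (Ψ y) = φ y := fun y hy => by
    rw [indicator_of_mem (mem_image_of_mem Ψ hy), hi y hy]
  have h0 : ∀ x, x ∉ Ψ '' tsupport φ → (Ψ '' V).indicator (fun x => φ (Θ x)) x = 0 := by
    intro x hx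
    by_cases hxV : x ∈ Ψ '' V
    · obtain ⟨y, hy, rfl⟩ := hxV
      rw [hv y hy]
      exact image_eq_zero_of_notMem_tsupport fun hy' => hx (mem_image_of_mem Ψ hy')
    · exact indicator_of_notMem hxV _
  have hs : tsupport ((Ψ '' V).indicator fun x => φ (Θ x)) ⊆ Ψ '' tsupport φ :=
    closure_minimal (fun x hx => by_contra fun hn => hx (h0 x hn)) hK.isClosed
  refine ⟨(Ψ '' V).indicator fun x => φ (Θ x), ⟨⟨?_, ?_⟩, hs.trans (image_mono hφ.2)⟩, hv⟩
  · rw [contDiff_iff_contDiffAt]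
    intro x
    by_cases hxV : x ∈ Ψ '' V
    · have e : ((Ψ '' V).indicator fun x => φ (Θ x)) =ᶠ[𝓝 x] fun x => φ (Θ x) := by
        filter_upwards [hΘ.opn.mem_nhds hxV] with z hz
        exact indicator_of_mem hz _
      exact (hφ.1.1.contDiffAt.comp x (hΘ.cda hxV)).congr_of_eventuallyEq e
    · have hx : x ∉ Ψ '' tsupport φ := fun hx => hxV (image_mono hφ.2 hx)
      have e : ((Ψ '' V).indicator fun x => φ (Θ x)) =ᶠ[𝓝 x] fun _ => 0 := by
        filter_upwards [hK.isClosed.isOpen_compl.mem_nhds hx] with z hz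
        exact h0 z hz
      exact contDiffAt_const.congr_of_eventuallyEq e
  · exact hK.of_isClosed_subset (isClosed_tsupport _) hs

/-- Push forward of a test function as a density. -/
theorem pushd (h : Dif V Ψ) {φ : En n → ℝ} (hφ : IsTest V φ) :
    ∃ φ' : En n → ℝ, IsTest (Ψ '' V) φ' ∧ ∀ y ∈ V, |(fderiv ℝ Ψ y).det| * φ' (Ψ y) = φ y := by
  obtain ⟨h1, h2⟩ := h.det_cdOn
  obtain ⟨φ', h3, h4⟩ := push h (hφ.mul_on' h.opn (h1.inv fun y hy => (h2 y hy).ne'))
  refine ⟨φ', h3, fun y hy => ?_⟩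
  rw [h4 y hy, Pi.inv_apply, ← mul_assoc, mul_inv_cancel₀ (h2 y hy).ne', one_mul]

theorem intg (h : Dif V Ψ) (hm : MapsTo Ψ V U) {u : En n → ℝ}
    (hu : MemLp u 2 (volume.restrict U)) {φ : En n → ℝ} (hφ : IsTest V φ) :
    IntegrableOn (fun y => u (Ψ y) * φ y) V := by
  obtain ⟨φ', h1, h2⟩ := pushd h hφ
  have h3 : IntegrableOn (fun x => u x * φ' x) (Ψ '' V) :=
    MemLp.integrable_mul (hu.mono_measure (Measure.restrict_mono hm.image_subset le_rfl))
      ((tst_memLp h1.1).restrict _)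
  have h4 := (integrableOn_image_iff_integrableOn_abs_det_fderiv_smul volume h.opn.measurableSet
    (fun y hy => (h.dAt hy).hasFDerivAt.hasFDerivWithinAt) h.inj _).1 h3
  refine h4.congr_fun (fun y hy => ?_) h.opn.measurableSet
  simp only [smul_eq_mul]
  rw [← h2 y hy]; ring

theorem cov1 (h : Dif V Ψ) (hU : IsOpen U) (hm : MapsTo Ψ V U) (u : En n → ℝ) {φ φ' : En n → ℝ}
    (h1 : IsTest (Ψ '' V) φ') (h2 : ∀ y ∈ V, |(fderiv ℝ Ψ y).det| * φ' (Ψ y) = φ y) :
    ∫ x in U, u x * φ' x = ∫ y in V, u (Ψ y) * φ y := by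
  rw [setIntegral_eq_of_subset_of_forall_sdiff_eq_zero hU.measurableSet hm.image_subset
    (fun x hx => by rw [h1.zero_off hx.2, mul_zero]), h.integral]
  refine setIntegral_congr_fun h.opn.measurableSet fun y hy => ?_
  beta_reduce
  rw [← h2 y hy]; ring

/-- The change of variables for the pairing. -/
theorem covar (h : Dif V Ψ) (hU : IsOpen U) (hm : MapsTo Ψ V U) (hS : Gau V S μ)
    {ψ : ι → En n → ℝ} (hψ : Tests V ψ) : ∃ φ : ι → En n → ℝ, Tests U φ ∧
      ∀ u, L2On U u → ∑ a, ∫ y in V, (μ y * pb S Ψ u a y) * ψ a y =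
        ∑ a, ∫ x in U, u a x * φ a x := by
  have ht : ∀ e a, IsTest V fun y => (μ y * S e a y) * ψ e y := fun e a =>
    (hψ e).mul_on' h.opn (hS.smμ.mul (hS.sm e a))
  have hts : ∀ a, IsTest V fun y => ∑ e, (μ y * S e a y) * ψ e y := fun a =>
    IsTest.sum _ fun e _ => ht e a
  choose φ h1 h2 using fun a => pushd h (hts a)
  refine ⟨φ, fun a => (h1 a).mono hm.image_subset, fun u hu => ?_⟩
  have e1 : ∀ e, ∫ y in V, (μ y * pb S Ψ u e y) * ψ e y =
      ∑ a, ∫ y in V, u a (Ψ y) * ((μ y * S e a y) * ψ e y) := by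
    intro e
    rw [← integral_finsetSum _ fun a _ => intg h hm (hu a) (ht e a)]
    refine integral_congr_ae (Eventually.of_forall fun y => ?_)
    simp only [pb, Finset.mul_sum, Finset.sum_mul]
    exact Finset.sum_congr rfl fun a _ => by ring
  have e2 : ∀ a, ∫ x in U, u a x * φ a x =
      ∑ e, ∫ y in V, u a (Ψ y) * ((μ y * S e a y) * ψ e y) := by
    intro a
    rw [cov1 h hU hm (u a) (h1 a) (h2 a),
      ← integral_finsetSum _ fun e _ => intg h hm (hu a) (ht e a)]
    refine integral_congr_ae (Eventually.of_forall fun y => ?_)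
    simp only [Finset.mul_sum]
  simp only [e1, e2]
  exact Finset.sum_comm

theorem cancel (hS : Gau V S μ) {y : En n} (hy : y ∈ V) {W W' : ι → En n → ℝ}
    (e : ∀ a, μ y * pb S Ψ W a y = μ y * pb S Ψ W' a y) (a : ι) : W a (Ψ y) = W' a (Ψ y) := by
  have e1 : (mt S y *ᵥ fun e => W e (Ψ y)) = mt S y *ᵥ fun e => W' e (Ψ y) :=
    funext fun a => mul_left_cancel₀ (hS.pos y hy).ne' (e a)
  have hu : IsUnit (mt S y) := (Matrix.isUnit_iff_isUnit_det _).2 (hS.det y hy).isUnit
  exact congrFun (Matrix.mulVec_injective_iff_isUnit.2 hu e1) a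

omit [DecidableEq ι] in
theorem pb_congr {W W' : ι → En n → ℝ} {y : En n} (e : ∀ a, W a (Ψ y) = W' a (Ψ y)) (a : ι) :
    pb S Ψ W a y = pb S Ψ W' a y := by
  simp only [pb, e]

omit [DecidableEq ι] in
theorem pb_sm (h : Dif V Ψ) (hS : ∀ a a', ContDiffOn ℝ ∞ (S a a') V) {W : ι → En n → ℝ}
    (hW : ∀ a, Sm (W a)) : SmOn V (pb S Ψ W) := fun a =>
  ContDiffOn.sum fun e _ => (hS a e).mul ((hW e).comp_contDiffOn h.sm)

/-- Every test field of `V` is a pull back. -/
theorem exists_pb (h : Dif V Ψ) (hS : Gau V S μ) {ψ' : ι → En n → ℝ} (hψ : Tests V ψ') :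
    ∃ ψ : ι → En n → ℝ, Tests (Ψ '' V) ψ ∧ ∀ y ∈ V, ∀ a, ψ' a y = pb S Ψ ψ a y := by
  have hts : ∀ a, IsTest V fun y => ∑ e, mi S a e y * ψ' e y := fun a =>
    IsTest.sum _ fun e _ => (hψ e).mul_on' h.opn (mi_cdOn hS.sm hS.det a e)
  choose ψ h1 h2 using fun a => push h (hts a)
  refine ⟨ψ, h1, fun y hy a => ?_⟩
  have e : (fun e => ψ e (Ψ y)) = (mt S y)⁻¹ *ᵥ fun e => ψ' e y := funext fun e => h2 e y hy
  rw [pb_eq, e, Matrix.mulVec_mulVec, Matrix.mul_nonsing_inv _ (hS.det y hy).isUnit,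
    Matrix.one_mulVec]

variable {A : HL n ι V →L[ℝ] HL n ι U} {B : HL n ι U →L[ℝ] HL n ι V}

omit [DecidableEq ι] in
theorem cp_B (hU : IsOpen U) (h : Dif V Ψ) (hm : MapsTo Ψ V U) (hT : Tr U V Ψ S μ A B)
    {w : ι → En n → ℝ} (hw : L2On U w) :
    ∀ᵐ y ∂(volume.restrict V), ∀ a, cp (B (tl U w)) a y = pb S Ψ w a y := by
  filter_upwards [hT.hB (tl U w), h.ae_pull hU.measurableSet hm (cp_tl hw)] with y h1 h2 a
  rw [h1 a]
  exact pb_congr h2 a

theorem A_tl (h : Dif V Ψ) (hS : Gau V S μ) (hT : Tr U V Ψ S μ A B)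
    {f f' : ι → En n → ℝ} (hf : Tests (Ψ '' V) f) (hf' : L2On V f')
    (e : ∀ y ∈ V, ∀ a, f' a y = μ y * pb S Ψ f a y) : A (tl V f') = tl U f := by
  have h1 : ∀ᵐ x ∂(volume.restrict (Ψ '' V)), ∀ a, cp (A (tl V f')) a x = f a x := by
    refine h.ae_push (P := fun x => ∀ a, cp (A (tl V f')) a x = f a x) ?_
    filter_upwards [hT.hA (tl V f'), cp_tl hf', ae_restrict_mem h.opn.measurableSet]
      with y h1 h2 hy
    exact cancel hS hy fun a => by rw [← h1 a, h2 a, e y hy a]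
  have h2 := (ae_restrict_iff' h.isOpen_image.measurableSet).1 h1
  refine hl_ext ?_
  filter_upwards [ae_restrict_of_ae h2, suppIn_iff.1 (hT.supp (tl V f')),
    cp_tl (U := U) (l2_tests hf)] with x h3 h4 h5 a
  rw [h5 a]
  by_cases hx : x ∈ Ψ '' V
  · exact h3 hx a
  · rw [h4 hx a, (hf a).zero_off hx]

end Lt1TrG

open Lt1TrG in
theorem s_trG (hg : S_green) : S_trG := by
  intro n ι _ _ U V Ψ S μ A B L L' G hU h hm hT hL hL' hI hG
  have hS : Gau V S μ := inter_gau hI
  have hV := h.opn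
  have hLT : L.T.Good := (St1.good_T hg hL).1
  have hLT' : L'.T.Good := (St1.good_T hg hL').1
  constructor
  · intro F ψ hψ
    obtain ⟨φ, hφ, hc⟩ := covar h hU hm hS hψ
    have hadj : ContinuousLinearMap.adjoint B (tl V (L'.T.app ψ)) = tl U (L.T.app φ) := by
      refine ext_tests hU fun w hw => ?_
      have hw' : ∀ a, Sm (w a) := fun a => (hw a).1.1
      rw [ContinuousLinearMap.adjoint_inner_left, real_inner_comm,
        inner_tl _ (l2_tests (app_tests hLT' hψ)), real_inner_comm,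
        inner_tl _ (l2_tests (app_tests hLT hφ))]
      calc ∑ a, ∫ y in V, cp (B (tl U w)) a y * L'.T.app ψ a y
          = ∑ a, ∫ y in V, pb S Ψ w a y * L'.T.app ψ a y := by
            refine Finset.sum_congr rfl fun a _ => integral_congr_ae ?_
            filter_upwards [cp_B hU h hm hT (l2_tests hw)] with y hy
            rw [hy a]
        _ = ∑ a, ∫ y in V, L'.app (pb S Ψ w) a y * ψ a y :=
            (hg n ι L' V _ ψ hL' hV (pb_sm h hS.sm hw') hψ).2.2
        _ = ∑ a, ∫ y in V, (μ y * pb S Ψ (L.app w) a y) * ψ a y := by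
            refine Finset.sum_congr rfl fun a _ =>
              setIntegral_congr_fun hV.measurableSet fun y hy => ?_
            rw [inter_loc hI hV hy isOpen_univ (mem_univ _) (fun a => (hw' a).contDiffOn)
              (fun a => EventuallyEq.rfl) a]
        _ = ∑ a, ∫ x in U, L.app w a x * φ a x := hc _ (l2_tests (app_tests hL hw))
        _ = ∑ a, ∫ x in U, w a x * L.T.app φ a x :=
            (hg n ι L U w φ hL hU (fun a => (hw' a).contDiffOn) hφ).2.2.symm
        _ = ∑ a, ∫ x in U, cp (tl U w) a x * L.T.app φ a x := by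
            refine Finset.sum_congr rfl fun a _ => integral_congr_ae ?_
            filter_upwards [cp_tl (U := U) (l2_tests hw)] with x hx
            rw [hx a]
    rw [ContinuousLinearMap.comp_apply, ContinuousLinearMap.comp_apply,
      ← ContinuousLinearMap.adjoint_inner_right, hadj, hG.1 _ φ hφ, inner_tl _ (l2_tests hφ),
      inner_tl _ (l2_tests hψ), ← hc _ (l2_cp _)]
    refine Finset.sum_congr rfl fun a _ => integral_congr_ae ?_
    filter_upwards [hT.hA F] with y hy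
    rw [hy a]
  · intro ψ' hψ'
    obtain ⟨ψ, hψ, e⟩ := exists_pb h hS hψ'
    have hψU : Tests U ψ := fun a => (hψ a).mono hm.image_subset
    have hA : A (tl V (L'.app ψ')) = tl U (L.app ψ) := by
      refine A_tl h hS hT (app_tests hL hψ) (l2_tests (app_tests hL' hψ')) fun y hy a => ?_
      refine inter_loc hI hV hy isOpen_univ (mem_univ _) (fun a => (hψ a).1.1.contDiffOn)
        (fun a => ?_) a
      filter_upwards [hV.mem_nhds hy] with z hz
      exact e z hz a
    rw [ContinuousLinearMap.comp_apply, ContinuousLinearMap.comp_apply, hA, hG.2 ψ hψU]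
    refine hl_ext ?_
    filter_upwards [cp_B hU h hm hT (l2_tests hψ), cp_tl (U := V) (l2_tests hψ'),
      ae_restrict_mem hV.measurableSet] with y h1 h2 hy a
    rw [h1 a, h2 a, e y hy a]

end Vale.Agent.P088.Lt1
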