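import Vale.Agent.P088.Lt1HL
import Vale.Agent.P088.Lt1Inv

open MeasureTheory Set Metric Filter
open scoped ContDiff Topology InnerProductSpace Matrix

noncomputable section
namespace Vale.Agent.P088.Lt1
open Vale.Agent.P136 (D Sm Tst)

namespace Lt1TrS

variable {n : ℕ} {ι : Type} [Fintype ι] [DecidableEq ι] {U V : Set (En n)} {Ψ : En n → En n}
  {S : MF n ι} {μ : En n → ℝ} {A : HL n ι V →L[ℝ] HL n ι U} {B : HL n ι U →L[ℝ] HL n ι V}

theorem suppA (hΨ : Dif V Ψ) (hg : Gau V S μ) (hT : Tr U V Ψ S μ A B) {O : Set (En n)}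
    {F : HL n ι V} (hF : SuppIn O F) : SuppIn (Ψ '' (O ∩ V)) (A F) := by
  have h1 : ∀ᵐ x ∂(volume.restrict (Ψ '' V)), x ∉ Ψ '' (O ∩ V) → ∀ a, cp (A F) a x = 0 := by
    refine hΨ.ae_push ?_
    filter_upwards [suppIn_iff.1 hF, hT.hA F, ae_restrict_mem hΨ.opn.measurableSet]
      with y h1 h2 hy hn
    have h3 := h1 fun h => hn ⟨y, ⟨h, hy⟩, rfl⟩
    have h4 : (mt S y *ᵥ fun e => cp (A F) e (Ψ y)) = 0 := funext fun a => by
      have := h2 a
      rw [h3 a, pb_eq] at this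
      exact (mul_eq_zero.1 this.symm).resolve_left (hg.pos y hy).ne'
    exact congrFun (Matrix.eq_zero_of_mulVec_eq_zero (hg.det y hy) h4)
  rw [ae_restrict_iff' hΨ.isOpen_image.measurableSet] at h1
  rw [suppIn_iff]
  filter_upwards [ae_restrict_of_ae h1, suppIn_iff.1 (hT.supp F)] with x h1 h2 hn
  by_cases hx : x ∈ Ψ '' V
  exacts [h1 hx hn, h2 hx]

theorem suppB (hU : IsOpen U) (hΨ : Dif V Ψ) (hm : MapsTo Ψ V U) (hT : Tr U V Ψ S μ A B)
    {O : Set (En n)} (hO : IsOpen O) {h : HL n ι V} (hh : SuppIn O h) :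
    SuppIn (Ψ '' (O ∩ V)) (ContinuousLinearMap.adjoint B h) := by
  refine suppIn_of_inner (hΨ.mono (hO.inter hΨ.opn) inter_subset_right).isOpen_image.measurableSet
    fun u hu => ?_
  rw [ContinuousLinearMap.adjoint_inner_right, inner_congr (F' := 0) hh, inner_zero_left]
  filter_upwards [hΨ.ae_pull hU.measurableSet hm (suppIn_iff.1 hu), hT.hB u,
    ae_restrict_mem hΨ.opn.measurableSet,
    Lp.coeFn_zero (EuclideanSpace ℝ ι) 2 (volume.restrict V)] with y h1 h2 hy h0 hyO a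
  have h3 := h1 fun h => h ⟨y, ⟨hyO, hy⟩, rfl⟩
  rw [h2 a]
  simp only [pb, h3]
  simp only [cp, h0]
  simp

theorem bound (hU : IsOpen U) (hΨ : Dif V Ψ) (hm : MapsTo Ψ V U) (hg : Gau V S μ)
    (hT : Tr U V Ψ S μ A B) {G : HL n ι U →L[ℝ] HL n ι U} {C s : ℝ} (hs : 0 < s) (hG : GSc C G)
    {O : Set (En n)} (hO : IsOpen O) (hO' : MapsTo Ψ (O ∩ V) (ball 0 s)) {F h : HL n ι V}
    (hF : SuppIn O F) (hh : SuppIn O h) :
    |⟪(B ∘L G ∘L A) F, h⟫_ℝ| ≤ |C| * s ^ 2 * (‖A‖ * ‖B‖) * ‖F‖ * ‖h‖ := by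
  have h1 := hG s hs _ _ (suppIn_mono hO'.image_subset (suppA hΨ hg hT hF))
    (suppIn_mono hO'.image_subset (suppB hU hΨ hm hT hO hh))
  rw [ContinuousLinearMap.adjoint_inner_right] at h1
  refine h1.trans ?_
  have h2 := A.le_opNorm F
  have h3 := (ContinuousLinearMap.adjoint B).le_opNorm h
  rw [LinearIsometryEquiv.norm_map] at h3
  calc _ ≤ |C| * s ^ 2 * (‖A‖ * ‖F‖) * (‖B‖ * ‖h‖) := by gcongr; exact le_abs_self C
    _ = _ := by ring

end Lt1TrS

open Lt1TrS in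
theorem s_trS : S_trS := by
  intro n ι _ _ U V Ψ S μ A B hU hΨ hm hg hT
  refine ⟨fun O F _ hF => suppA hΨ hg hT hF, fun O O' G₁ G₂ hO hO' hG F h hF hh => ?_,
    fun G C s hs hG hV => ?_, fun G K hG hK => ?_⟩
  · have h1 := hG _ _ (suppIn_mono hO'.image_subset (suppA hΨ hg hT hF))
      (suppIn_mono hO'.image_subset (suppB hU hΨ hm hT hO hh))
    rw [ContinuousLinearMap.adjoint_inner_right, ContinuousLinearMap.adjoint_inner_right] at h1
    exact h1
  · refine ContinuousLinearMap.opNorm_le_bound _ (by positivity) fun F => ?_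
    have hu : ∀ F : HL n ι V, SuppIn univ F := fun F =>
      Eventually.of_forall fun x hx => (hx (mem_univ x)).elim
    have h1 := bound hU hΨ hm hg hT hs hG isOpen_univ (hV.mono_left inter_subset_right) (hu F)
      (hu ((B ∘L G ∘L A) F))
    rw [real_inner_self_eq_norm_mul_norm, abs_mul_self] at h1
    rcases (norm_nonneg ((B ∘L G ∘L A) F)).eq_or_lt with h0 | h0
    · rw [← h0]; positivity
    · exact le_of_mul_le_mul_right h1 h0
  · obtain ⟨C, hC⟩ := hG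
    refine ⟨|C| * max K 1 ^ 2 * (‖A‖ * ‖B‖), fun r hr F h hF hh => ?_⟩
    have h0 : 0 < max K 1 := lt_max_of_lt_right one_pos
    have hm' : MapsTo Ψ (ball 0 r ∩ V) (ball 0 (max K 1 * r)) := fun y hy => by
      rw [mem_ball_zero_iff]
      calc _ ≤ K * ‖y‖ := hK y hy.2
        _ ≤ max K 1 * ‖y‖ := by gcongr; exact le_max_left _ _
        _ < _ := by gcongr; exact mem_ball_zero_iff.1 hy.1
    refine (bound hU hΨ hm hg hT (mul_pos h0 hr) hC isOpen_ball hm' hF hh).trans (le_of_eq ?_)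
    ring

end Vale.Agent.P088.Lt1
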