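import Vale.Agent.P088.Lt1Zo
import Vale.Agent.P205.MeanAux

open MeasureTheory Set Metric Filter
open scoped ContDiff Topology InnerProductSpace Matrix

noncomputable section
namespace Vale.Agent.P088.Lt1
open Vale.Agent.P136 (D Sm Tst)

namespace Lt1Van
variable {n m : ℕ} {G : ℝ × En n → ℝ} {K : Set (En n)}

/-- Divisibility by a power of the parameter. -/
def Fac (m : ℕ) (G : ℝ × En n → ℝ) : Prop := ∃ H, Sm H ∧ ∀ p, G p = p.1 ^ m * H p

theorem fac_zero (hG : Sm G) : Fac 0 G := ⟨G, hG, fun p => by simp⟩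

theorem hasDeriv (hG : Sm G) (t : ℝ) (x : En n) :
    HasDerivAt (fun s => G (s, x)) (D (1, 0) G (t, x)) t :=
  (hG.dAt (t, x)).hasFDerivAt.comp_hasDerivAt t
    ((hasDerivAt_id t).prodMk (hasDerivAt_const t x))

theorem fac_succ (hG : Sm G) (h0 : ∀ x, G (0, x) = 0) (h : Fac m (D (1, 0) G)) :
    Fac (m + 1) G := by
  obtain ⟨H, hH, e⟩ := h
  refine ⟨fun p => ∫ s in (0 : ℝ)..1, s ^ m * H (p.1 * s, p.2), ?_, fun p => ?_⟩
  · have h1 : ContDiff ℝ ∞ fun q : (ℝ × En n) × ℝ => q.2 ^ m * H (q.1.1 * q.2, q.1.2) :=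
      (contDiff_snd.pow m).mul (hH.comp (by fun_prop))
    exact contDiffOn_univ.1
      (P205.MeanAux.par_contDiffOn (V := univ) isOpen_univ h1.contDiffOn 0 1)
  · have h1 : ∀ s : ℝ, HasDerivAt (fun s => G (p.1 * s, p.2))
        (p.1 ^ (m + 1) * (s ^ m * H (p.1 * s, p.2))) s := fun s => by
      have h2 := (hasDeriv hG (p.1 * s) p.2).comp s ((hasDerivAt_id s).const_mul p.1)
      rw [e] at h2
      refine h2.congr_deriv ?_
      ring
    have hc : Continuous fun s : ℝ => p.1 ^ (m + 1) * (s ^ m * H (p.1 * s, p.2)) :=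
      continuous_const.mul ((continuous_id.pow m).mul (hH.cont.comp (by fun_prop)))
    have h3 := intervalIntegral.integral_eq_sub_of_hasDerivAt (a := 0) (b := 1)
      (fun s _ => h1 s) (hc.intervalIntegrable 0 1)
    rw [intervalIntegral.integral_const_mul, mul_one, mul_zero, h0, sub_zero] at h3
    exact h3.symm

theorem fac_comp {z : En n → En n} (hz : ContDiff ℝ ∞ z) : ∀ (m : ℕ) (f : En n → ℝ), Sm f →
    Zo m f 0 → Fac m fun p : ℝ × En n => f (p.1 • z p.2) := by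
  have hs : ContDiff ℝ ∞ fun p : ℝ × En n => p.1 • z p.2 :=
    contDiff_fst.smul (hz.comp contDiff_snd)
  intro m
  induction m with
  | zero => exact fun f hf _ => fac_zero (hf.comp hs)
  | succ m ih =>
    intro f hf h
    obtain ⟨h0, h1⟩ := zo_succ.1 h
    refine fac_succ (hf.comp hs) (fun x => by simpa using h0) ?_
    choose H hH e using fun i => ih _ (hf.D (ee i)) (h1 i)
    refine ⟨fun p => ∑ i, z p.2 i * H i p, P136.Sm.sum fun i _ => P136.Sm.mul
      ((EuclideanSpace.proj (𝕜 := ℝ) i : En n →L[ℝ] ℝ).contDiff.comp (hz.comp contDiff_snd))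
      (hH i), fun p => ?_⟩
    have h2 : HasDerivAt (fun s : ℝ => f (s • z p.2)) (fderiv ℝ f (p.1 • z p.2) (z p.2)) p.1 := by
      have := (hf.dAt (p.1 • z p.2)).hasFDerivAt.comp_hasDerivAt p.1
        ((hasDerivAt_id p.1).smul_const (z p.2))
      rwa [one_smul] at this
    have h3 := (hasDeriv (G := fun p : ℝ × En n => f (p.1 • z p.2)) (hf.comp hs) p.1 p.2).unique h2
    have h4 : z p.2 = ∑ i, z p.2 i • (ee i : En n) := by
      ext j
      simp [ee, Pi.single_apply]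
    refine h3.trans ?_
    rw [Finset.mul_sum]
    conv_lhs => enter [2]; rw [h4]
    rw [map_sum]
    refine Finset.sum_congr rfl fun i _ => ?_
    have h5 : fderiv ℝ f (p.1 • z p.2) (ee i) = p.1 ^ m * H i p := e i p
    rw [map_smul, h5, smul_eq_mul]
    ring

theorem slice (hG : Sm G) (η : ℝ) (l : List (Fin n)) :
    Ds ee l (fun y => G (η, y)) = fun y => Ds (fun i => ((0 : ℝ), ee i)) l G (η, y) := by
  induction l with
  | nil => rfl
  | cons i l ih =>
    rw [Ds_cons, ih]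
    funext y
    have h1 := ((sm_Ds (v := fun i => ((0 : ℝ), (ee i : En n))) hG l).dAt (η, y)).hasFDerivAt.comp y
      ((hasFDerivAt_const η y).prodMk (hasFDerivAt_id y))
    exact congrArg (fun L : En n →L[ℝ] ℝ => L (ee i)) h1.fderiv

theorem bound (h : Fac m G) (hK : IsCompact K) (j : ℕ) : ∃ C : ℝ, 0 ≤ C ∧ ∀ η : ℝ, 0 < η → η ≤ 1 →
    ∀ x ∈ K, SB ee j (C * η ^ m) 1 (fun y => G (η, y)) x := by
  obtain ⟨H, hH, e⟩ := h
  obtain ⟨C, h0, hC⟩ := exists_SB (fun i => ((0 : ℝ), (ee i : En n))) hH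
    ((isCompact_Icc (a := (0 : ℝ)) (b := 1)).prod hK) j
  refine ⟨C, h0, fun η a b x hx => ?_⟩
  have h1 : SB ee j C 1 (fun y => H (η, y)) x := SB_one.2 fun l hl => by
    rw [slice hH]
    exact (hC (η, x) ⟨⟨a.le, b⟩, hx⟩).le hl
  have h2 := h1.cmul (η ^ m)
  rw [abs_of_pos (pow_pos a m), mul_comm] at h2
  exact h2.congr (Eventually.of_forall fun y => (e (η, y)).symm)

theorem glob {α : Type} [Finite α] {F : α → ℝ × En n → ℝ} (h : ∀ a, Fac m (F a))
    (hK : IsCompact K) (h0 : ∀ a η x, x ∉ K → F a (η, x) = 0) (j : ℕ) :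
    ∃ C : ℝ, 0 ≤ C ∧ ∀ a (η : ℝ), 0 < η → η ≤ 1 → ∀ x,
      SB ee j (C * η ^ m) 1 (fun y => F a (η, y)) x := by
  choose C c0 hC using fun a => bound (h a) hK j
  obtain ⟨B, hB⟩ := (Set.finite_range C).bddAbove
  refine ⟨max B 0, le_max_right _ _, fun a η p q x => ?_⟩
  by_cases hx : x ∈ K
  · exact (hC a η p q x hx).mono le_rfl (mul_le_mul_of_nonneg_right
      ((hB ⟨a, rfl⟩).trans (le_max_left _ _)) (by positivity))
  · refine ((SB.const 0 j x).mono le_rfl ?_).congr ?_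
    · rw [abs_zero]
      exact mul_nonneg (le_max_right _ _) (by positivity)
    · filter_upwards [hK.isClosed.isOpen_compl.mem_nhds hx] with y hy using (h0 a η y hy).symm

end Lt1Van
open Lt1Van

theorem s_van : S_van := fun _ m j f _ _ hf hz h hK => bound (fac_comp hz m f hf h) hK j

theorem s_bd : S_bd := by
  intro n ι _ _ L K hL hK hF h0
  have sγ : ∀ i j, Sm fun p : ℝ × En n => (L p.1).γ i j p.2 - if i = j then 1 else 0 :=
    fun i j => (hL.γ i j).sub contDiff_const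
  choose C₁ p₁ h₁ using glob (α := Fin n × Fin n) (m := 0 + 1)
    (F := fun a p => (L p.1).γ a.1 a.2 p.2 - if a.1 = a.2 then 1 else 0)
    (fun a => fac_succ (sγ _ _) (fun x => by simp only [h0, sub_self]) (fac_zero ((sγ _ _).D _)))
    hK fun a η x hx => by simp only [(hF η x hx).1, sub_self]
  choose C₂ p₂ h₂ using glob (α := Fin n × ι × ι) (m := 0)
    (F := fun a p => (L p.1).b a.1 a.2.1 a.2.2 p.2) (fun a => fac_zero (hL.b _ _ _)) hK
    fun a η x hx => (hF η x hx).2.1 _ _ _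
  choose C₃ p₃ h₃ using glob (α := ι × ι) (m := 0)
    (F := fun a p => (L p.1).c a.1 a.2 p.2) (fun a => fac_zero (hL.c _ _)) hK
    fun a η x hx => (hF η x hx).2.2 _ _
  simp only [zero_add, pow_one, pow_zero, mul_one] at h₁ h₂ h₃
  refine ⟨fun j => C₁ j + 1 + C₂ j + C₃ j, fun M hM k om ho => ⟨min 1 (om / (C₁ k + 1)),
    lt_min one_pos (div_pos ho (by linarith [p₁ k])), fun η a b => ?_⟩⟩
  have b1 : η ≤ 1 := b.trans (min_le_left _ _)
  have b2 : η * (C₁ k + 1) ≤ om :=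
    (le_div_iff₀ (by linarith [p₁ k])).1 (b.trans (min_le_right _ _))
  refine ⟨hL.good η, fun i j x => (h₁ k (i, j) η a b1 x).mono le_rfl (by linarith),
    fun j x => ⟨fun i l => ?_, fun i e e' => (h₂ j (i, e, e') η a b1 x).mono le_rfl ?_,
      fun e e' => (h₃ j (e, e') η a b1 x).mono le_rfl ?_⟩⟩
  · have h4 := SB.add (((hL.good η).1 i l).sub (P136.Sm.const _)) (P136.Sm.const _)
      (h₁ j (i, l) η a b1 x) (SB.const (if i = l then (1 : ℝ) else 0) j x)
    refine (h4.congr (Eventually.of_forall fun y => sub_add_cancel _ _)).mono le_rfl ?_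
    have h5 : |if i = l then (1 : ℝ) else 0| ≤ 1 := by split_ifs <;> simp
    have h6 := mul_le_of_le_one_right (p₁ j) b1
    linarith [hM j, p₂ j, p₃ j]
  · linarith [hM j, p₁ j, p₃ j]
  · linarith [hM j, p₁ j, p₂ j]

end Vale.Agent.P088.Lt1
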