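import Vale.Agent.P088.Lt1HL
import Vale.Agent.P088.Lt1Inv

open MeasureTheory Set Metric Filter
open scoped ContDiff Topology InnerProductSpace Matrix

noncomputable section
namespace Vale.Agent.P088.Lt1
open Vale.Agent.P136 (D Sm Tst)

namespace Lt1Wc

variable {n : ℕ} {ι : Type} [Fintype ι] [DecidableEq ι] {V W : Set (En n)} {Θ : En n → En n}
  {N : MF n ι} {α : ℝ}

omit [DecidableEq ι] in
theorem meas_cp (F : HL n ι V) (a : ι) : Measurable (cp F a) :=
  (EuclideanSpace.proj a : EuclideanSpace ℝ ι →L[ℝ] ℝ).continuous.measurable.comp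
    (Lp.stronglyMeasurable F).measurable

omit [DecidableEq ι] in
theorem bound (hd : Dif W Θ) (hm : MapsTo Θ W V) (hN : ∀ a a', ContinuousOn (N a a') W)
    (hb : ∀ x ∈ W, ∀ v : ι → ℝ, ∑ a, (∑ a', N a a' x * v a') ^ 2 ≤
      α ^ 2 * |(fderiv ℝ Θ x).det| * ∑ a, v a ^ 2) (F : HL n ι V) :
    L2On W (pb N Θ (cp F)) ∧ nrm W (pb N Θ (cp F)) ≤ α ^ 2 * ‖F‖ ^ 2 := by
  have hW := hd.opn.measurableSet
  have i0 : ∀ a, IntegrableOn (fun x => cp F a x ^ 2) V := fun a => (l2_cp F a).integrable_sq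
  have i1 : IntegrableOn (fun x => ∑ a, cp F a x ^ 2) V := integrable_finsetSum _ fun a _ => i0 a
  have i2 : IntegrableOn (fun x => α ^ 2 * (|(fderiv ℝ Θ x).det| * ∑ a, cp F a (Θ x) ^ 2)) W :=
    ((integrableOn_image_iff_integrableOn_abs_det_fderiv_smul volume hW
      (fun x hx => (hd.dAt hx).hasFDerivAt.hasFDerivWithinAt) hd.inj
      (fun x => ∑ a, cp F a x ^ 2)).1 (i1.mono_set hm.image_subset)).const_mul _
  have hΘ : AEMeasurable Θ (volume.restrict W) := hd.sm.continuousOn.aemeasurable hW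
  have m1 : ∀ a, AEStronglyMeasurable (pb N Θ (cp F) a) (volume.restrict W) := fun a =>
    (Finset.aemeasurable_fun_sum _ fun a' _ => ((hN a a').aemeasurable hW).mul
      ((meas_cp F a').comp_aemeasurable hΘ)).aestronglyMeasurable
  have b1 : ∀ x ∈ W, ∑ a, pb N Θ (cp F) a x ^ 2 ≤
      α ^ 2 * (|(fderiv ℝ Θ x).det| * ∑ a, cp F a (Θ x) ^ 2) := fun x hx => by
    rw [← mul_assoc]
    exact hb x hx fun a => cp F a (Θ x)
  have i3 : ∀ a, IntegrableOn (fun x => pb N Θ (cp F) a x ^ 2) W := fun a => by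
    refine i2.mono' ((m1 a).pow 2) ?_
    filter_upwards [ae_restrict_mem hW] with x hx
    rw [Real.norm_of_nonneg (sq_nonneg _)]
    exact (Finset.single_le_sum (f := fun a => pb N Θ (cp F) a x ^ 2) (fun a _ => sq_nonneg _)
      (Finset.mem_univ a)).trans (b1 x hx)
  refine ⟨fun a => (memLp_two_iff_integrable_sq (m1 a)).2 (i3 a), ?_⟩
  rw [norm_sq, nrm, nrm, ← integral_finsetSum _ fun a _ => i3 a,
    ← integral_finsetSum _ fun a _ => i0 a]
  calc ∫ x in W, ∑ a, pb N Θ (cp F) a x ^ 2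
      ≤ ∫ x in W, α ^ 2 * (|(fderiv ℝ Θ x).det| * ∑ a, cp F a (Θ x) ^ 2) :=
        setIntegral_mono_on (integrable_finsetSum _ fun a _ => i3 a) i2 hW b1
    _ = α ^ 2 * ∫ x in Θ '' W, ∑ a, cp F a x ^ 2 := by
        rw [integral_const_mul, hd.integral]
    _ ≤ α ^ 2 * ∫ x in V, ∑ a, cp F a x ^ 2 :=
        mul_le_mul_of_nonneg_left (setIntegral_mono_set i1
          (Eventually.of_forall fun x => Finset.sum_nonneg fun a _ => sq_nonneg _)
          hm.image_subset.eventuallyLE) (sq_nonneg _)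

end Lt1Wc

theorem s_wc : S_wc := by
  intro n ι _ _ U V W Θ N α hU hV hWU hd hm hN hα hb
  have hW := hd.opn.measurableSet
  have hI : W ∩ U = W := inter_eq_left.2 hWU
  have H := fun F : HL n ι V => exists_ind (U := U) hW (W := pb N Θ (cp F))
    (by rw [hI]; exact (Lt1Wc.bound hd hm hN hb F).1)
  choose T h1 h2 h3 using H
  have lin : ∀ (F F' : HL n ι V) (c d : ℝ), T (c • F + d • F') = c • T F + d • T F' := by
    intro F F' c d
    have h4 := ae_restrict_of_ae (s := U)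
      ((ae_restrict_iff' hW).1 (hd.ae_pull hV.measurableSet hm (cp_lin F F' c d)))
    refine hl_ext ?_
    filter_upwards [h4, cp_lin (T F) (T F') c d, h3 F, h3 F', h3 (c • F + d • F'),
      suppIn_iff.1 (h1 F), suppIn_iff.1 (h1 F'), suppIn_iff.1 (h1 (c • F + d • F'))]
      with x a1 a2 a3 a4 a5 a6 a7 a8 a
    rw [a2]
    by_cases hx : x ∈ W
    · rw [a3 hx, a4 hx, a5 hx]
      simp only [pb, a1 hx, Finset.mul_sum, ← Finset.sum_add_distrib]
      exact Finset.sum_congr rfl fun a' _ => by ring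
    · rw [a6 hx, a7 hx, a8 hx]
      ring
  let T₀ : HL n ι V →ₗ[ℝ] HL n ι U :=
    { toFun := T
      map_add' := fun F F' => by simpa only [one_smul] using lin F F' 1 1
      map_smul' := fun c F => by
        simpa only [zero_smul, add_zero, RingHom.id_apply] using lin F F c 0 }
  have hT : ∀ F, ‖T₀ F‖ ≤ α * ‖F‖ := fun F => by
    refine (sq_le_sq₀ (norm_nonneg _) (mul_nonneg hα (norm_nonneg _))).1 ?_
    show ‖T F‖ ^ 2 ≤ _
    rw [h2, hI, mul_pow]
    exact (Lt1Wc.bound hd hm hN hb F).2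
  refine ⟨T₀.mkContinuous α hT, LinearMap.mkContinuous_norm_le _ hα _, fun F => ⟨h1 F, ?_⟩⟩
  filter_upwards [ae_restrict_of_ae_restrict_of_subset hWU (h3 F), ae_restrict_mem hW]
    with x a1 hx
  exact a1 hx

end Vale.Agent.P088.Lt1
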