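import Vale.Agent.P088.Lt1Int

open MeasureTheory Set Metric Filter
open scoped ContDiff Topology InnerProductSpace Matrix

noncomputable section
namespace Vale.Agent.P088.Lt1
open Vale.Agent.P136 (D Sm Tst)

namespace Lt1X1

variable {n : ℕ} {ι : Type} [Fintype ι] [DecidableEq ι] {p : En n} {Ψ Θ : En n → En n}
  {ν : En n → ℝ}

theorem u0_sub (p : En n) : U0 p ⊆ ball p (7 / 8) := ball_subset_ball (by norm_num)

theorem smul_mem {η R : ℝ} (hη : 0 < η) (hR : η * 10 ≤ R) :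
    MapsTo (fun x : En n => η • x) (ball 0 10) (ball 0 R) := by
  intro x hx
  rw [mem_ball_zero_iff] at hx ⊢
  rw [norm_smul, Real.norm_of_nonneg hη.le]
  exact (mul_lt_mul_of_pos_left hx hη).trans_le hR

theorem smul_mem' {η t : ℝ} (hp : ‖p‖ = 1) (hη : 0 < η) (ht : 2 * η ≤ t) :
    MapsTo (fun x : En n => η • x) (ball ((2 : ℝ) • p) 2) (ball (t • p) t) := by
  intro x hx
  rw [mem_ball_iff_norm] at hx ⊢
  have e : η • x - t • p = η • (x - (2 : ℝ) • p) - (t - 2 * η) • p := by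
    rw [smul_sub, sub_smul, smul_smul, mul_comm η 2]; abel
  rw [e]
  refine (norm_sub_le _ _).trans_lt ?_
  rw [norm_smul, norm_smul, Real.norm_of_nonneg hη.le, Real.norm_of_nonneg (by linarith), hp]
  nlinarith

theorem pg_flat {γ : MatF n} {y : En n} (h : ∀ i j, γ i j y = if i = j then 1 else 0)
    (k l : Fin n) : pg γ Θ k l y =
      ∑ i, D (ee i) (fun z => Θ z k) y * D (ee i) (fun z => Θ z l) y := by
  unfold pg
  refine Finset.sum_congr rfl fun i _ => ?_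
  simp [h]

theorem pg_trace (geo : Geo p Ψ Θ ν) (γ : MatF n) {y : En n} (hy : y ∈ Ψ '' ball p (7 / 8)) :
    ∑ k, pg γ Θ k k y = ν y * ∑ i, γ i i y := by
  unfold pg
  rw [Finset.sum_comm, Finset.mul_sum]
  refine Finset.sum_congr rfl fun i _ => ?_
  rw [Finset.sum_comm]
  have : ∀ j, ∑ k, γ i j y * D (ee i) (fun z => Θ z k) y * D (ee j) (fun z => Θ z k) y =
      γ i j y * if i = j then ν y else 0 := by
    intro j
    rw [← geo.conf' y hy i j, Finset.mul_sum]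
    exact Finset.sum_congr rfl fun k _ => mul_assoc _ _ _
  simp only [this]
  simp [mul_comm]

theorem mu_gau (geo : Geo p Ψ Θ ν) :
    Gau (ball p (7 / 8)) (one' : MF n ι) fun x => (ν (Ψ x))⁻¹ := by
  have h1 : ContDiffOn ℝ ∞ (fun x => ν (Ψ x)) (ball p (7 / 8)) :=
    geo.nu.comp geo.sm.contDiffOn (mapsTo_image _ _)
  have h2 : ∀ x ∈ ball p (7 / 8), 0 < ν (Ψ x) := fun x hx => geo.pos _ (mem_image_of_mem _ hx)
  exact gau_one _ (h1.inv fun x hx => (h2 x hx).ne') fun x hx => inv_pos.2 (h2 x hx)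

theorem mm_one : mm (one' : MF n ι) (mc one' Ψ) = one' := by
  funext a a' x
  simp [mm, mc, one']

theorem op_side (hx : S_xf) (hb : S_bd) (geo : Geo p Ψ Θ ν) {L : Op n ι} (hL : L.Good)
    (h0 : ∀ i j, L.γ i j 0 = if i = j then 1 else 0) :
    ∃ (L' : ℝ → Op n ι) (M₀ : ℕ → ℝ), (∀ M : ℕ → ℝ, (∀ j, M₀ j ≤ M j) → ∀ (k : ℕ) (om : ℝ),
      0 < om → ∃ η₀ : ℝ, 0 < η₀ ∧ ∀ η, 0 < η → η ≤ η₀ → (L' η).Bd k om M) ∧ ∀ η,
      Inter (L' η) (scale L η) (Ψ '' U0 p) Θ one' ν ∧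
      Inter (scale L η) (L' η) (U0 p) Ψ one' (fun x => (ν (Ψ x))⁻¹) ∧
      (∀ i j, (L' η).γ i j p = if i = j then 1 else 0) ∧
      (∀ R, 0 < η → η * 10 ≤ R → Norm1 L (ball 0 R) → Norm1 (L' η) (U0 p)) ∧
      (0 < η → Inter L (L' η) (U0 p) (fun x => η • Ψ x) one'
        fun x => (ν (Ψ x))⁻¹ * η ^ 2) := by
  have hU : IsOpen (U0 p) := isOpen_ball
  have hd : Dif (U0 p) Ψ := geo.dif.mono hU (u0_sub p)
  have hV₀ : IsOpen (Ψ '' U0 p) := hd.isOpen_image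
  have hsub : Ψ '' U0 p ⊆ Ψ '' ball p (7 / 8) := image_mono (u0_sub p)
  obtain ⟨L', K', hF, hK', hfl, hall⟩ := hx n ι (scale L) (Ψ '' ball p (7 / 8)) (Ψ '' U0 p)
    (Ψ '' closedBall p (3 / 4)) Θ one' ν (fam_scale hL) geo.dif' (gau_one _ geo.nu geo.pos) hV₀
    (image_mono ball_subset_closedBall) ((isCompact_closedBall _ _).image geo.sm.continuous)
    (image_mono (closedBall_subset_ball (by norm_num)))
  obtain ⟨M₀, hM₀⟩ := hb n ι L' K' hF hK' hfl ((hall 0).2.2 fun y hy k l => by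
    rw [pg_flat (fun i j => by simpa [scale] using h0 i j), geo.conf y hy])
  refine ⟨L', M₀, hM₀, fun η => ?_⟩
  obtain ⟨h1, h2, -⟩ := hall η
  have hp0 : p ∈ U0 p := mem_ball_self (by norm_num)
  have h3 : Inter (scale L η) (L' η) (U0 p) Ψ one' (fun x => (ν (Ψ x))⁻¹) := by
    have := inter_symm h1 hV₀ hd (mapsTo_image _ _) (fun x hx => geo.inv x (u0_sub p hx))
      (by rintro _ ⟨x, hx, rfl⟩; rw [geo.inv x (u0_sub p hx)])
    rw [mi_one] at this
    exact this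
  refine ⟨h1, h3, fun i j => ?_, fun R hη hR hN x hx => ?_, fun hη => ?_⟩
  · have hy : Ψ p ∈ Ψ '' U0 p := mem_image_of_mem _ hp0
    have e := h2 _ hy i j
    rw [geo.inv p (u0_sub p hp0), pg_flat (fun i j => by simpa [scale, geo.p0] using h0 i j),
      geo.conf _ (hsub hy)] at e
    have hpos := geo.pos _ (hsub hy)
    apply mul_left_cancel₀ hpos.ne'
    rw [e]
    split_ifs <;> simp
  · have hy : Ψ x ∈ Ψ '' U0 p := mem_image_of_mem _ hx
    have hz := hN _ (smul_mem hη hR (geo.bd (u0_sub p hx)))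
    have hinv := geo.inv x (u0_sub p hx)
    refine ⟨fun a a' => ?_, ?_⟩
    · have := inter_c h1 hy (fun col a => by
        have e := app_const (scale L η) (fun e => if e = col then (1 : ℝ) else 0) a (Ψ x)
        refine Eq.trans e (Finset.sum_eq_zero fun e _ => ?_)
        have : (scale L η).c a e (Ψ x) = 0 := by
          show η ^ 2 * L.c a e (η • Ψ x) = 0
          rw [hz.1 a e, mul_zero]
        rw [this, zero_mul]) a a'
      rwa [hinv] at this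
    · have hpos := geo.pos _ (hsub hy)
      apply mul_left_cancel₀ hpos.ne'
      have e : ∑ i, (scale L η).γ i i (Ψ x) = n := hz.2
      rw [← e, ← pg_trace geo _ (hsub hy), Finset.mul_sum]
      refine Finset.sum_congr rfl fun k _ => ?_
      rw [← h2 _ hy k k, hinv]
  · have := inter_trans (inter_scale hL hη (ball 0 10)) h3 isOpen_ball hU
      (geo.bd.mono_left (u0_sub p))
    rw [mm_one] at this
    exact this

theorem gr_side (hg : S_trG) (hs : S_trS) (geo : Geo p Ψ Θ ν) {L L' : Op n ι} (hL : L.Good)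
    (hL' : L'.Good) {R η C : ℝ} (hη : 0 < η) (hR : η * 10 ≤ R)
    (hI : Inter (scale L η) L' (U0 p) Ψ one' (fun x => (ν (Ψ x))⁻¹))
    {A : HL n ι (U0 p) →L[ℝ] HL n ι (ball 0 10)} {B : HL n ι (ball 0 10) →L[ℝ] HL n ι (U0 p)}
    (hT : Tr (ball 0 10) (U0 p) Ψ one' (fun x => (ν (Ψ x))⁻¹) A B)
    {A' : HL n ι (ball 0 10) →L[ℝ] HL n ι (ball 0 R)}
    {B' : HL n ι (ball 0 R) →L[ℝ] HL n ι (ball 0 10)} (hn : ‖A'‖ * ‖B'‖ ≤ (η ^ 2)⁻¹)
    (hT' : Tr (ball 0 R) (ball 0 10) (fun x => η • x) one' (fun _ => η ^ 2) A' B')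
    {G : HL n ι (ball 0 R) →L[ℝ] HL n ι (ball 0 R)} (hG : IsGreen L _ G) (hC : GSc C G) :
    IsGreen L' _ (B ∘L (B' ∘L G ∘L A') ∘L A) ∧
      ‖B ∘L (B' ∘L G ∘L A') ∘L A‖ ≤ ‖B‖ * (100 * |C| * ‖A‖) := by
  have hU : IsOpen (U0 p) := isOpen_ball
  have hd : Dif (U0 p) Ψ := geo.dif.mono hU (u0_sub p)
  have hd' : Dif (ball (0 : En n) 10) fun x => η • x := dif_smul isOpen_ball hη.ne'
  have hI' := inter_scale hL hη (ball (0 : En n) 10)
  have h1 := hg n ι _ _ _ _ _ A' B' L (scale L η) G isOpen_ball hd' (smul_mem hη hR) hT' hL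
    ((fam_scale hL).good η) hI' hG
  refine ⟨hg n ι _ _ _ _ _ A B _ L' _ isOpen_ball hd (geo.bd.mono_left (u0_sub p)) hT
    ((fam_scale hL).good η) hL' hI h1, ?_⟩
  have h2 := (hs n ι _ _ _ _ _ A' B' isOpen_ball hd' (smul_mem hη hR) (inter_gau hI') hT').2.2.1
    G C (η * 10) (by positivity) hC (smul_mem hη le_rfl)
  have h3 : ‖B' ∘L G ∘L A'‖ ≤ 100 * |C| := by
    refine h2.trans ((mul_le_mul_of_nonneg_left hn (by positivity)).trans (le_of_eq ?_))
    field_simp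
    norm_num
  refine (ContinuousLinearMap.opNorm_comp_le _ _).trans
    (mul_le_mul_of_nonneg_left ((ContinuousLinearMap.opNorm_comp_le _ _).trans ?_) (norm_nonneg _))
  exact mul_le_mul_of_nonneg_right h3 (norm_nonneg _)

end Lt1X1

open Lt1X1 in
theorem s_X1 (hx : S_xf) (hb : S_bd) (hc : S_trC) (he : S_trE) (hg : S_trG) (hs : S_trS)
    (hu : S_uniq) : S_X1 := by
  intro n ι _ _ _ L₁ L₂ R t p G₁ G₂ Ψ Θ ν hn H geo
  have ht := H.t0
  have htR := H.tR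
  have hU : IsOpen (U0 p) := isOpen_ball
  have hO : IsOpen (O0 p) := isOpen_ball.sdiff isClosed_closedBall
  have hOU : O0 p ⊆ U0 p := fun x hx => hx.1
  have hd : Dif (U0 p) Ψ := geo.dif.mono hU (u0_sub p)
  have flat1 : ∀ i j, L₁.γ i j 0 = if i = j then 1 else 0 := by
    intro i j
    rw [← H.flat i j]
    have h1 : EqOn (L₁.γ i j) (L₂.γ i j) (ball (t • p) t) := fun x hx => (H.eq x hx).1 i j
    refine h1.closure (H.g1.1 i j).continuous (H.g2.1 i j).continuous ?_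
    rw [closure_ball _ ht.ne', mem_closedBall, dist_zero_left, norm_smul, H.np,
      Real.norm_of_nonneg ht.le, mul_one]
  obtain ⟨L₁', M₁, hM₁, h₁⟩ := op_side hx hb geo H.g1 flat1
  obtain ⟨L₂', M₂, hM₂, h₂⟩ := op_side hx hb geo H.g2 H.flat
  obtain ⟨A, B, hT⟩ := hc n ι (ball 0 10) (U0 p) (closedBall p (3 / 4)) (ball p (7 / 8)) Ψ one'
    (fun x => (ν (Ψ x))⁻¹) isOpen_ball hU ball_subset_closedBall (isCompact_closedBall _ _)
    (closedBall_subset_ball (by norm_num)) geo.dif (mu_gau geo) (geo.bd.mono_left (u0_sub p))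
  obtain ⟨C₁, hC₁⟩ := H.sc1
  obtain ⟨C₂, hC₂⟩ := H.sc2
  refine ⟨fun j => max (max (M₁ j) (M₂ j))
    (max (‖B‖ * (100 * |C₁| * ‖A‖)) (‖B‖ * (100 * |C₂| * ‖A‖))), fun M hM k om hom => ?_⟩
  obtain ⟨η₁, hη₁, hb₁⟩ := hM₁ M (fun j => ((le_max_left _ _).trans (le_max_left _ _)).trans (hM j))
    k om hom
  obtain ⟨η₂, hη₂, hb₂⟩ := hM₂ M
    (fun j => ((le_max_right _ _).trans (le_max_left _ _)).trans (hM j)) k om hom
  refine ⟨min (min η₁ η₂) (t / 10), by positivity, fun η hη hη0 => ?_⟩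
  have k1 : η ≤ η₁ := hη0.trans ((min_le_left _ _).trans (min_le_left _ _))
  have k2 : η ≤ η₂ := hη0.trans ((min_le_left _ _).trans (min_le_right _ _))
  have k3 : η ≤ t / 10 := hη0.trans (min_le_right _ _)
  have hR : η * 10 ≤ R := by linarith
  have hηt : 2 * η ≤ t := by linarith
  obtain ⟨A', B', hn', hT'⟩ := he n ι R 10 η hη hR
  obtain ⟨a1, a2, -, a4, a5⟩ := h₁ η
  obtain ⟨b1, b2, b3, b4, b5⟩ := h₂ η
  have bd₁ := hb₁ η hη k1
  have bd₂ := hb₂ η hη k2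
  obtain ⟨g1, n1⟩ := gr_side hg hs geo H.g1 bd₁.1 hη hR a2 hT hn' hT' H.gr1 hC₁
  obtain ⟨g2, n2⟩ := gr_side hg hs geo H.g2 bd₂.1 hη hR b2 hT hn' hT' H.gr2 hC₂
  have N₁ := a4 R hη hR H.n1
  have N₂ := b4 R hη hR H.n2
  refine ⟨L₁' η, L₂' η, _, _, _, ⟨H.np, bd₁, bd₂, g1, g2,
    n1.trans (((le_max_left _ _).trans (le_max_right _ _)).trans (hM 0)),
    n2.trans (((le_max_right _ _).trans (le_max_right _ _)).trans (hM 0)), ?_, ?_⟩,
    N₁, N₂, b3, a5 hη, b5 hη⟩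
  · have hd' : Dif (ball (0 : En n) 10) fun x => η • x := dif_smul isOpen_ball hη.ne'
    have e1 := (hs n ι _ _ _ _ _ A' B' isOpen_ball hd' (smul_mem hη hR)
      (inter_gau (inter_scale H.g1 hη (ball (0 : En n) 10))) hT').2.1 _ (ball ((2 : ℝ) • p) 2)
      G₁ G₂ isOpen_ball ((smul_mem' H.np hη hηt).mono_left inter_subset_left) H.agr
    exact (hs n ι _ _ _ _ _ A B isOpen_ball hd (geo.bd.mono_left (u0_sub p)) (inter_gau a2)
      hT).2.1 _ (O0 p) _ _ hO (geo.kn.mono_left inter_subset_left) e1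
  · have hE : (scale L₁ η).EqOn (scale L₂ η) (ball ((2 : ℝ) • p) 2) := by
      intro y hy
      obtain ⟨e1, e2, e3⟩ := H.eq _ (smul_mem' H.np hη hηt hy)
      exact ⟨e1, fun i a a' => congrArg (η * ·) (e2 i a a'),
        fun a a' => congrArg (η ^ 2 * ·) (e3 a a')⟩
    refine (hu n ι (L₁' η) (L₂' η) (O0 p) (fun _ => 1) hn bd₁.1 bd₂.1 hO
      (fun x hx => by rw [(N₁ x (hOU hx)).2, (N₂ x (hOU hx)).2]) fun W hW x hx a => ?_).1
    have hy : Ψ x ∈ Ψ '' U0 p := mem_image_of_mem _ (hOU hx)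
    have e1 : (scale L₁ η).app (pb one' Θ W) a (Ψ x) =
        ν (Ψ x) * pb one' Θ ((L₁' η).app W) a (Ψ x) := a1.2.2.2.2 W hW _ hy a
    have e2 : (scale L₂ η).app (pb one' Θ W) a (Ψ x) =
        ν (Ψ x) * pb one' Θ ((L₂' η).app W) a (Ψ x) := b1.2.2.2.2 W hW _ hy a
    rw [app_eqOn isOpen_ball hE _ (geo.kn hx), e2, pb_one, pb_one,
      geo.inv x (u0_sub p (hOU hx))] at e1
    rw [one_mul]
    exact mul_left_cancel₀ (geo.pos _ (image_mono (u0_sub p) hy)).ne' e1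

end Vale.Agent.P088.Lt1
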