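import Vale.Agent.P088.Lt1Zo

open MeasureTheory Set Metric Filter
open scoped ContDiff Topology InnerProductSpace Matrix

noncomputable section
namespace Vale.Agent.P088.Lt1
open Vale.Agent.P136 (D Sm Tst)

namespace Lt1X2

variable {n : ℕ}

/-- Bounds for a rescaled function that vanishes to order `m + e` at the origin. -/
theorem key (hv : S_van) {p : En n} {Ψ Θ : En n → En n} {ν : En n → ℝ} (hG : Geo p Ψ Θ ν)
    {R : ℝ} (hR : 0 < R) {g : En n → ℝ} (hg : ContDiffOn ℝ ∞ g (ball 0 R)) (m e j : ℕ)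
    (hz : Zo (m + e) g 0) : ∃ C : ℝ, 0 ≤ C ∧ ∀ η : ℝ, 0 < η → η ≤ 1 → 20 * η ≤ R →
      ∀ x ∈ U0 p, SB ee j (C * η ^ e) 1 (fun y => (η ^ m)⁻¹ * g (η • Ψ y)) x := by
  obtain ⟨f, hf, hfg⟩ := exists_ext (isCompact_closedBall (0 : En n) (R / 2)) isOpen_ball
    (closedBall_subset_ball (by linarith)) hg
  have hz' : Zo (m + e) f 0 := hz.congr (hfg 0 (mem_closedBall_self (by linarith)))
  obtain ⟨C, hC, h⟩ := hv n (m + e) j f Ψ (closedBall p (3 / 4)) hf hG.sm hz'
    (isCompact_closedBall _ _)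
  refine ⟨C, hC, fun η h0 h1 h2 x hx => ?_⟩
  have hx' : x ∈ ball p (7 / 8) := ball_subset_ball (by norm_num) hx
  have hb : ‖Ψ x‖ < 10 := by simpa using hG.bd hx'
  have hm : η • Ψ x ∈ closedBall (0 : En n) (R / 2) := by
    rw [mem_closedBall_zero_iff, norm_smul, Real.norm_of_nonneg h0.le]
    nlinarith
  have ht : Tendsto (fun y => η • Ψ y) (𝓝 x) (𝓝 (η • Ψ x)) :=
    (hG.sm.continuous.const_smul η).tendsto x
  have he : (fun y => f (η • Ψ y)) =ᶠ[𝓝 x] fun y => g (η • Ψ y) := (hfg _ hm).comp_tendsto ht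
  have k1 := ((h η h0 h1 x (ball_subset_closedBall hx)).congr he).cmul (η ^ m)⁻¹
  refine k1.mono le_rfl (le_of_eq ?_)
  have hp : 0 < η ^ m := pow_pos h0 m
  rw [abs_of_pos (inv_pos.2 hp), pow_add]
  field_simp

theorem ite_cda (c : Prop) [Decidable c] (q : En n) (s : Sp n) (x : En n) :
    ContDiffAt ℝ ∞ (fun y => if c then qq q s y else 0) x := by
  by_cases h : c
  · simp only [h, if_true]; exact (qq_sm q s).contDiffAt
  · simp only [h, if_false]; exact contDiffAt_const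

theorem ite_zo (c : Prop) [Decidable c] (s : Sp n) :
    Zo (qo s) (fun y => if c then qq 0 s y else 0) (0 : En n) := by
  by_cases h : c
  · simp only [h, if_true]; exact qq_zo 0 s
  · simp only [h, if_false]; exact zo_null _ _

/-- The jets of the rescaled solutions. -/
theorem jets {p : En n} {Ψ Θ : En n → En n} {ν : En n → ℝ} (hG : Geo p Ψ Θ ν) {g : En n → ℝ}
    (hg : ContDiffAt ℝ ∞ g 0) (c : Prop) [Decidable c] (s : Sp n)
    (hz : Zo (qo s + 1) (fun x => g x - if c then qq 0 s x else 0) 0) {η : ℝ} (hη : 0 < η)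
    (l : List (Fin n)) (hl : l.length ≤ qo s) :
    Ds ee l (fun x => (η ^ qo s)⁻¹ * g (η • Ψ x)) p = if c then Ds ee l (qq p s) p else 0 := by
  have hu : ContDiffAt ℝ ∞ (fun x => η • Ψ x) p := (hG.sm.const_smul η).contDiffAt
  have u0 : η • Ψ p = 0 := by rw [hG.p0, smul_zero]
  have hd : ContDiffAt ℝ ∞ (fun x => g x - if c then qq 0 s x else 0) (η • Ψ p) := by
    rw [u0]; exact hg.sub (ite_cda c 0 s 0)
  have hg' : ContDiffAt ℝ ∞ g (η • Ψ p) := by rw [u0]; exact hg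
  have hd' : ContDiffAt ℝ ∞ (fun y => g (η • Ψ y) - if c then qq 0 s (η • Ψ y) else 0) p :=
    ContDiffAt.comp (g := fun x => g x - if c then qq 0 s x else 0) p hd hu
  have z1 : Zo (qo s + 1) (fun y => (η ^ qo s)⁻¹ *
      (g (η • Ψ y) - if c then qq 0 s (η • Ψ y) else 0)) p :=
    (Zo.comp (u := fun x => η • Ψ x) hd hu (by rw [u0]; exact hz)).cmul hd' _
  have hv : ContDiffAt ℝ ∞ (fun y : En n => y - p) p := contDiffAt_id.sub contDiffAt_const
  have z2 : Zo (qo s + 1) (fun y => qq 0 s (Ψ y) - qq 0 s (y - p)) p :=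
    qq_jet s hG.sm.contDiffAt hv hG.p0 fun c => hG.jet c
  have c2 : ContDiffAt ℝ ∞ (fun y => qq 0 s (Ψ y) - qq 0 s (y - p)) p :=
    ((qq_sm 0 s).contDiffAt.comp p hG.sm.contDiffAt).sub ((qq_sm 0 s).contDiffAt.comp p hv)
  have c1 : ContDiffAt ℝ ∞ (fun y => (η ^ qo s)⁻¹ *
      (g (η • Ψ y) - if c then qq 0 s (η • Ψ y) else 0)) p :=
    contDiffAt_const.mul hd'
  have c0 : ContDiffAt ℝ ∞ (fun x => (η ^ qo s)⁻¹ * g (η • Ψ x)) p :=
    contDiffAt_const.mul (hg'.comp p hu)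
  have hp : η ^ qo s ≠ 0 := pow_ne_zero _ hη.ne'
  by_cases h : c
  · simp only [h, if_true] at z1 c1 ⊢
    refine (zo_sub_iff c0 (qq_sm p s).contDiffAt).1 ?_ l hl
    refine (Zo.add c1 c2 z1 z2).congr (Eventually.of_forall fun y => ?_)
    simp only [qq_smul, qq_shift p s y]
    field_simp
    ring
  · simp only [h, if_false, sub_zero] at z1 ⊢
    exact z1 l (Nat.lt_succ_of_le hl)

end Lt1X2

open Lt1X2

theorem s_X2 (hv : S_van) : S_X2 := by
  intro n ι _ _ R t p Ψ Θ ν W₁ W₂ hp ht htR hG hW hE hZ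
  have hR : 0 < R := by linarith
  have h0 : ball (0 : En n) R ∈ 𝓝 (0 : En n) := ball_mem_nhds _ hR
  have a1 : ∀ s col a, ContDiffAt ℝ ∞ (W₁ s col a) 0 := fun s col a =>
    ((hW s col).1 a).contDiffAt h0
  have a2 : ∀ s col a, ContDiffAt ℝ ∞ (W₂ s col a) 0 := fun s col a =>
    ((hW s col).2 a).contDiffAt h0
  have hcl : (0 : En n) ∈ closure (ball (t • p) t) := by
    rw [closure_ball _ ht.ne', mem_closedBall, dist_comm, dist_zero_right, norm_smul, hp,
      Real.norm_of_nonneg ht.le, mul_one]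
  have zd : ∀ s col a m, Zo m (fun x => W₁ s col a x - W₂ s col a x) 0 := fun s col a m =>
    zo_closure m ((a1 s col a).sub (a2 s col a)) isOpen_ball
      (fun y hy => sub_eq_zero.2 (hE s col a hy)) hcl
  have z2 : ∀ s col a, Zo (qo s + 0) (W₂ s col a) 0 := fun s col a =>
    (Zo.add ((a2 s col a).sub (ite_cda (col = a) 0 s 0)) (ite_cda (col = a) 0 s 0)
      ((hZ s col a).mono (Nat.le_succ _)) (ite_zo (col = a) s)).congr
      (Eventually.of_forall fun y => by simp)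
  have z1 : ∀ s col a, Zo (qo s + 0) (W₁ s col a) 0 := fun s col a =>
    (Zo.add ((a1 s col a).sub (a2 s col a)) (a2 s col a) (zd s col a _) (z2 s col a)).congr
      (Eventually.of_forall fun y => by simp)
  choose C₁ hC₁ k₁ using fun (i : Sp n × ι × ι) (j : ℕ) =>
    key hv hG hR ((hW i.1 i.2.1).1 i.2.2) (qo i.1) 0 j (z1 i.1 i.2.1 i.2.2)
  choose C₂ hC₂ k₂ using fun (i : Sp n × ι × ι) (j : ℕ) =>
    key hv hG hR ((hW i.1 i.2.1).2 i.2.2) (qo i.1) 0 j (z2 i.1 i.2.1 i.2.2)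
  choose C₃ hC₃ k₃ using fun (i : Sp n × ι × ι) (j : ℕ) =>
    key hv hG hR (((hW i.1 i.2.1).1 i.2.2).sub ((hW i.1 i.2.1).2 i.2.2)) (qo i.1) 1 j
      (zd i.1 i.2.1 i.2.2 _)
  refine ⟨fun j => ∑ i, (C₁ i j + C₂ i j), fun M hM k ε hε => ?_⟩
  have hS : 0 ≤ ∑ i, C₃ i k := Finset.sum_nonneg fun i _ => hC₃ i k
  refine ⟨min 1 (min (R / 20) (ε / (1 + ∑ i, C₃ i k))), by positivity, fun η hη hη' => ?_⟩
  have e1 : η ≤ 1 := hη'.trans (min_le_left _ _)
  have e2 : 20 * η ≤ R := by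
    have := hη'.trans ((min_le_right _ _).trans (min_le_left _ _))
    linarith
  have e3 : η * (1 + ∑ i, C₃ i k) ≤ ε :=
    (le_div_iff₀ (by positivity)).1 (hη'.trans ((min_le_right _ _).trans (min_le_right _ _)))
  refine ⟨fun s col a x hx => ⟨fun j => ?_, ?_⟩, fun s col a l hl => ?_⟩
  · have b : C₁ (s, col, a) j + C₂ (s, col, a) j ≤ M j :=
      (Finset.single_le_sum (f := fun i => C₁ i j + C₂ i j)
        (fun i _ => add_nonneg (hC₁ i j) (hC₂ i j)) (Finset.mem_univ (s, col, a))).trans (hM j)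
    have b1 := hC₁ (s, col, a) j
    have b2 := hC₂ (s, col, a) j
    exact ⟨(k₁ (s, col, a) j η hη e1 e2 x hx).mono le_rfl (by rw [pow_zero]; linarith),
      (k₂ (s, col, a) j η hη e1 e2 x hx).mono le_rfl (by rw [pow_zero]; linarith)⟩
  · have b : C₃ (s, col, a) k ≤ ∑ i, C₃ i k :=
      Finset.single_le_sum (f := fun i => C₃ i k) (fun i _ => hC₃ i k) (Finset.mem_univ _)
    refine ((k₃ (s, col, a) k η hη e1 e2 x hx).mono le_rfl ?_).congr
      (Eventually.of_forall fun y => ?_)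
    · rw [pow_one]; nlinarith
    · simp only [rs, mul_sub]
  · exact jets hG (a2 s col a) _ s (hZ s col a) hη l hl

end Vale.Agent.P088.Lt1
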