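import Vale.Agent.P088.Lt1Bas
import Vale.Agent.P088.Lt1Inv

open MeasureTheory Set Metric Filter
open scoped ContDiff Topology InnerProductSpace Matrix

noncomputable section
namespace Vale.Agent.P088.Lt1
open Vale.Agent.P136 (D Sm Tst)

namespace Lt1Xf
open Vale.Agent.P136 (D_sum_at D_mul_at D_add_at D_congr D_const contDiffOn_D dAt_of_on)

variable {n : ℕ} {ι : Type} [Fintype ι] [DecidableEq ι]

/-- Joint smoothness in the parameter and the point. -/
def JS (U : Set (En n)) (F : ℝ → En n → ℝ) : Prop :=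
  ContDiffOn ℝ ∞ (fun p : ℝ × En n => F p.1 p.2) (univ ×ˢ U)

variable {U V : Set (En n)} {F G : ℝ → En n → ℝ}

theorem JS.add (h : JS U F) (h' : JS U G) : JS U fun η x => F η x + G η x := ContDiffOn.add h h'

theorem JS.sub (h : JS U F) (h' : JS U G) : JS U fun η x => F η x - G η x := ContDiffOn.sub h h'

theorem JS.mul (h : JS U F) (h' : JS U G) : JS U fun η x => F η x * G η x := ContDiffOn.mul h h'

theorem JS.sum {α : Type} [Fintype α] {H : α → ℝ → En n → ℝ} (h : ∀ i, JS U (H i)) :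
    JS U fun η x => ∑ i, H i η x := ContDiffOn.sum fun i _ => h i

theorem JS.const (c : ℝ) : JS U fun _ _ => c := contDiffOn_const

theorem JS.of_on {f : En n → ℝ} (h : ContDiffOn ℝ ∞ f U) : JS U fun _ => f :=
  h.comp contDiff_snd.contDiffOn fun _ hp => hp.2

theorem JS.of_glob (h : ContDiff ℝ ∞ fun p : ℝ × En n => F p.1 p.2) : JS U F := h.contDiffOn

theorem JS.comp (h : JS V F) {Ψ : En n → En n} (hΨ : ContDiffOn ℝ ∞ Ψ U) (hm : MapsTo Ψ U V) :
    JS U fun η x => F η (Ψ x) :=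
  ContDiffOn.comp (f := fun p : ℝ × En n => (p.1, Ψ p.2)) h
    (contDiff_fst.contDiffOn.prodMk (hΨ.comp contDiff_snd.contDiffOn fun _ hp => hp.2))
    fun _ hp => ⟨mem_univ _, hm hp.2⟩

theorem JS.D (hU : IsOpen U) (h : JS U F) (v : En n) : JS U fun η => D v (F η) := by
  have hO : IsOpen ((univ : Set ℝ) ×ˢ U) := isOpen_univ.prod hU
  refine (contDiffOn_D hO h ((0 : ℝ), v)).congr fun p hp => ?_
  have h1 := HasFDerivAt.comp (f := fun y : En n => (p.1, y)) p.2 (dAt_of_on hO h hp).hasFDerivAt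
    (hasFDerivAt_prodMk_right p.1 p.2)
  have h2 : fderiv ℝ (F p.1) p.2 = _ := h1.fderiv
  change fderiv ℝ (F p.1) p.2 v = _
  rw [h2]
  rfl

theorem JS.XX (hU : IsOpen U) {γ : ℝ → MatF n} (hγ : ∀ i j, JS U fun η => γ η i j)
    {f : En n → ℝ} (hf : ContDiffOn ℝ ∞ f U) (i : Fin n) : JS U fun η => XX ee (γ η) f i :=
  JS.sum fun j => (hγ i j).mul (JS.of_on (contDiffOn_D hU hf _))

theorem JS.dgd (hU : IsOpen U) {γ : ℝ → MatF n} (hγ : ∀ i j, JS U fun η => γ η i j)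
    {f : En n → ℝ} (hf : ContDiffOn ℝ ∞ f U) : JS U fun η => dgd ee (γ η) f :=
  JS.sum fun i => (JS.XX hU hγ hf i).D hU _

theorem JS.cut (hU : IsOpen U) (h : JS U F) {χ : En n → ℝ} (hχ : IsTest U χ) :
    ContDiff ℝ ∞ fun p : ℝ × En n => χ p.2 * F p.1 p.2 := by
  refine contDiff_iff_contDiffAt.2 fun p => ?_
  by_cases hp : p.2 ∈ tsupport χ
  · exact (hχ.1.1.contDiffAt.comp p contDiffAt_snd).mul
      (ContDiffOn.contDiffAt h ((isOpen_univ.prod hU).mem_nhds ⟨mem_univ _, hχ.2 hp⟩))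
  · refine (contDiffAt_const (c := (0 : ℝ))).congr_of_eventuallyEq ?_
    filter_upwards [continuous_snd.continuousAt.eventually
      ((isClosed_tsupport χ).isOpen_compl.mem_nhds hp)] with q hq
    rw [image_eq_zero_of_notMem_tsupport hq, zero_mul]

theorem sm_slice (h : ContDiff ℝ ∞ fun p : ℝ × En n => F p.1 p.2) (η : ℝ) : Sm (F η) :=
  h.comp (contDiff_const.prodMk contDiff_id)

variable {Θ : En n → En n} {γ : MatF n} {y : En n}

theorem on_coord (h : Dif V Θ) (k : Fin n) : ContDiffOn ℝ ∞ (fun z => Θ z k) V :=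
  fun _ hz => (cd_coord (h.cda hz) k).contDiffWithinAt

theorem on_comp (h : Dif V Θ) {w : En n → ℝ} (hw : Sm w) : ContDiffOn ℝ ∞ (fun z => w (Θ z)) V :=
  hw.comp_contDiffOn h.sm

/-- The chain rule for the principal part. -/
theorem dgd_comp (h : Dif V Θ) (hγ : SmM γ) {w : En n → ℝ} (hw : Sm w) (hy : y ∈ V) :
    dgd ee γ (fun z => w (Θ z)) y = ∑ k, ∑ l, pg γ Θ k l y * D (ee k) (D (ee l) w) (Θ y) +
      ∑ k, dgd ee γ (fun z => Θ z k) y * D (ee k) w (Θ y) := by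
  have e : ∀ i, D (ee i) (XX ee γ (fun z => w (Θ z)) i) y =
      ∑ l, (XX ee γ (fun z => Θ z l) i y *
        ∑ k, D (ee i) (fun z => Θ z k) y * D (ee k) (D (ee l) w) (Θ y) +
      D (ee i) (XX ee γ (fun z => Θ z l) i) y * D (ee l) w (Θ y)) := fun i => by
    have h1 : EqOn (XX ee γ (fun z => w (Θ z)) i)
        (fun z => ∑ l, XX ee γ (fun z => Θ z l) i z * D (ee l) w (Θ z)) V := fun z hz => by
      simp only [XX, D_comp (hw.dAt _) (h.dAt hz), Finset.mul_sum, Finset.sum_mul]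
      rw [Finset.sum_comm]
      exact Finset.sum_congr rfl fun l _ => Finset.sum_congr rfl fun j _ => by ring
    have h2 : ∀ l, DifferentiableAt ℝ (XX ee γ (fun z => Θ z l) i) y := fun l =>
      dAt_of_on h.opn (on_XX h.opn hγ (on_coord h l) i) hy
    have h3 : ∀ l, DifferentiableAt ℝ (fun z => D (ee l) w (Θ z)) y := fun l =>
      dAt_of_on h.opn (on_comp h (hw.D _)) hy
    rw [D_congr_on h.opn h1 _ hy, D_sum_at _ fun l _ => (h2 l).fun_mul (h3 l)]
    refine Finset.sum_congr rfl fun l _ => ?_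
    rw [D_mul_at (h2 l) (h3 l), D_comp ((hw.D _).dAt _) (h.dAt hy)]
  have e2 : ∑ i, ∑ l, XX ee γ (fun z => Θ z l) i y *
      ∑ k, D (ee i) (fun z => Θ z k) y * D (ee k) (D (ee l) w) (Θ y) =
      ∑ k, ∑ l, pg γ Θ k l y * D (ee k) (D (ee l) w) (Θ y) := by
    simp only [XX, pg, Finset.mul_sum, Finset.sum_mul]
    rw [Finset.sum_comm]
    conv_rhs => rw [Finset.sum_comm]
    refine Finset.sum_congr rfl fun l _ => ?_
    rw [Finset.sum_comm]
    exact Finset.sum_congr rfl fun k _ => Finset.sum_congr rfl fun i _ =>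
      Finset.sum_congr rfl fun j _ => by ring
  simp only [dgd, dvg, e, Finset.sum_add_distrib, e2, Finset.sum_mul]
  rw [Finset.sum_comm (f := fun i l => D (ee i) (XX ee γ (fun z => Θ z l) i) y * D (ee l) w (Θ y))]

omit [DecidableEq ι] in
theorem dgd_sum (hV : IsOpen V) (hγ : SmM γ) {f : ι → En n → ℝ}
    (hf : ∀ e, ContDiffOn ℝ ∞ (f e) V) (hy : y ∈ V) :
    dgd ee γ (fun z => ∑ e, f e z) y = ∑ e, dgd ee γ (f e) y := by
  have e : ∀ i, D (ee i) (XX ee γ (fun z => ∑ e, f e z) i) y =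
      ∑ e, D (ee i) (XX ee γ (f e) i) y := fun i => by
    have h1 : EqOn (XX ee γ (fun z => ∑ e, f e z) i) (fun z => ∑ e, XX ee γ (f e) i z) V :=
      fun z hz => by
        simp only [XX, D_sum_at _ fun e _ => dAt_of_on hV (hf e) hz, Finset.mul_sum]
        rw [Finset.sum_comm]
    rw [D_congr_on hV h1 _ hy, D_sum_at _ fun e _ => dAt_of_on hV (on_XX hV hγ (hf e) i) hy]
  simp only [dgd, dvg, e]
  rw [Finset.sum_comm]

/-- The first order coefficients before the gauge is removed. -/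
def b0 (L : Op n ι) (Θ : En n → En n) (T : MF n ι) (k : Fin n) (a col : ι) (y : En n) : ℝ :=
  T a col y * dgd ee L.γ (fun z => Θ z k) y +
    2 * ∑ i, XX ee L.γ (T a col) i y * D (ee i) (fun z => Θ z k) y +
    ∑ i, ∑ e, L.b i a e y * (T e col y * D (ee i) (fun z => Θ z k) y)

omit [DecidableEq ι] in
theorem app_pb {L : Op n ι} (hL : L.Good) (h : Dif V Θ) {T : MF n ι}
    (hT : ∀ a a', ContDiffOn ℝ ∞ (T a a') V) {W : ι → En n → ℝ} (hW : ∀ a, Sm (W a))
    (hy : y ∈ V) (a : ι) :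
    L.app (fun a z => ∑ a', T a a' z * W a' (Θ z)) a y =
      ∑ col, T a col y * ∑ k, ∑ l, pg L.γ Θ k l y * D (ee k) (D (ee l) (W col)) (Θ y) +
      ∑ k, ∑ col, b0 L Θ T k a col y * D (ee k) (W col) (Θ y) +
      ∑ col, L.app (fun e => T e col) a y * W col (Θ y) := by
  have h1 : ∀ i e, D (ee i) (fun z => ∑ a', T e a' z * W a' (Θ z)) y =
      ∑ col, (T e col y * ∑ k, D (ee i) (fun z => Θ z k) y * D (ee k) (W col) (Θ y) +
        D (ee i) (T e col) y * W col (Θ y)) := fun i e => by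
    have h2 := fun col => dAt_of_on h.opn (hT e col) hy
    have h3 := fun col => dAt_of_on h.opn (on_comp h (hW col)) hy
    rw [D_sum_at _ fun col _ => (h2 col).fun_mul (h3 col)]
    refine Finset.sum_congr rfl fun col _ => ?_
    rw [D_mul_at (h2 col) (h3 col), D_comp ((hW col).dAt _) (h.dAt hy)]
  have h2 : ∀ col, dgd ee L.γ (fun z => T a col z * W col (Θ z)) y =
      T a col y * ∑ k, ∑ l, pg L.γ Θ k l y * D (ee k) (D (ee l) (W col)) (Θ y) +
      ∑ k, (T a col y * dgd ee L.γ (fun z => Θ z k) y +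
        2 * ∑ i, XX ee L.γ (T a col) i y * D (ee i) (fun z => Θ z k) y) * D (ee k) (W col) (Θ y) +
      dgd ee L.γ (T a col) y * W col (Θ y) := fun col => by
    rw [dgd_mul h.opn hL.1 hL.2.1 (hT a col) (on_comp h (hW col)) hy, dgd_comp h hL.1 (hW col) hy]
    simp only [D_comp ((hW col).dAt _) (h.dAt hy), add_mul, Finset.sum_add_distrib, mul_add,
      add_assoc, Finset.mul_sum, Finset.sum_mul, mul_assoc]
    rw [Finset.sum_comm (f := fun i k => 2 * (XX ee L.γ (T a col) i y *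
      (D (ee i) (fun z => Θ z k) y * D (ee k) (W col) (Θ y))))]
  have h3 : ∑ i, ∑ e, L.b i a e y * ∑ col,
      (T e col y * ∑ k, D (ee i) (fun z => Θ z k) y * D (ee k) (W col) (Θ y) +
        D (ee i) (T e col) y * W col (Θ y)) =
      ∑ col, ∑ k, (∑ i, ∑ e, L.b i a e y * (T e col y * D (ee i) (fun z => Θ z k) y)) *
        D (ee k) (W col) (Θ y) +
      ∑ col, (∑ i, ∑ e, L.b i a e y * D (ee i) (T e col) y) * W col (Θ y) := by
    simp only [mul_add, Finset.sum_add_distrib, Finset.mul_sum, Finset.sum_mul, mul_assoc]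
    congr 1
    · simp only [← Finset.sum_product', Finset.univ_product_univ]
      exact Fintype.sum_equiv ⟨fun x => (x.2.2.1, x.2.2.2, x.1, x.2.1),
        fun x => (x.2.2.1, x.2.2.2, x.1, x.2.1), fun _ => rfl, fun _ => rfl⟩ _ _ fun _ => rfl
    · simp only [← Finset.sum_product', Finset.univ_product_univ]
      exact Fintype.sum_equiv ((Equiv.prodAssoc _ _ _).symm.trans (Equiv.prodComm _ _)) _ _
        fun _ => rfl
  have h4 : ∑ e, L.c a e y * ∑ col, T e col y * W col (Θ y) =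
      ∑ col, (∑ e, L.c a e y * T e col y) * W col (Θ y) := by
    simp only [Finset.mul_sum, Finset.sum_mul, mul_assoc]
    rw [Finset.sum_comm]
  rw [Finset.sum_comm (f := fun k col => b0 L Θ T k a col y * D (ee k) (W col) (Θ y))]
  simp only [Op.app, h1]
  rw [dgd_sum h.opn hL.1 (fun col => (hT a col).mul (on_comp h (hW col))) hy, h3, h4]
  simp only [h2, b0, add_mul, Finset.sum_add_distrib]
  ring

theorem cancel {T : MF n ι} (hd : (mt T y).det ≠ 0) (f : ι → ℝ) (a : ι) :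
    ∑ a', T a a' y * ∑ e, mi T a' e y * f e = f a := by
  change (mt T y *ᵥ ((mt T y)⁻¹ *ᵥ f)) a = f a
  rw [Matrix.mulVec_mulVec, Matrix.mul_nonsing_inv _ (isUnit_iff_ne_zero.2 hd), Matrix.one_mulVec]

theorem pg_symm (hs : SymM γ) (k l : Fin n) : pg γ Θ k l y = pg γ Θ l k y := by
  unfold pg
  rw [Finset.sum_comm]
  exact Finset.sum_congr rfl fun i _ => Finset.sum_congr rfl fun j _ => by rw [hs j i]; ring

theorem pg_pos (h : Dif V Θ) (hy : y ∈ V)
    (hγ : ∀ ξ : Fin n → ℝ, ξ ≠ 0 → 0 < ∑ i, ∑ j, γ i j y * ξ i * ξ j) (ξ : Fin n → ℝ)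
    (hξ : ξ ≠ 0) : 0 < ∑ k, ∑ l, pg γ Θ k l y * ξ k * ξ l := by
  have h1 : (fun i => ∑ k, D (ee i) (fun z => Θ z k) y * ξ k) ≠ 0 := fun h0 => hξ (by
    let φ : En n →ₗ[ℝ] ℝ := (innerₛₗ ℝ (WithLp.toLp 2 ξ : En n)).comp (fderiv ℝ Θ y : En n →ₗ[ℝ] En n)
    have h2 : φ = 0 := (EuclideanSpace.basisFun (Fin n) ℝ).toBasis.ext fun i => by
      have h3 := congrFun h0 i
      simp only [D_apply (h.dAt hy), Pi.zero_apply] at h3
      simpa [φ, PiLp.inner_apply, ee] using h3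
    obtain ⟨v, hv⟩ := (LinearMap.injective_iff_surjective
      (f := (fderiv ℝ Θ y : En n →ₗ[ℝ] En n))).1 (h.dinj y hy) (WithLp.toLp 2 ξ)
    have h3 : φ v = 0 := by rw [h2]; rfl
    change ⟪(WithLp.toLp 2 ξ : En n), (fderiv ℝ Θ y : En n →ₗ[ℝ] En n) v⟫_ℝ = 0 at h3
    rw [hv, inner_self_eq_zero] at h3
    exact congrArg WithLp.ofLp h3)
  refine (hγ _ h1).trans_eq ?_
  simp only [pg, Finset.mul_sum, Finset.sum_mul]
  simp only [← Finset.sum_product', Finset.univ_product_univ]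
  exact Fintype.sum_equiv ⟨fun x => (x.2.2.2, x.2.2.1, x.1, x.2.1),
    fun x => (x.2.2.1, x.2.2.2, x.2.1, x.1), fun _ => rfl, fun _ => rfl⟩ _ _ fun _ => by
      simp only [Equiv.coe_fn_mk]
      ring

/-- The new principal part. -/
def g1 (L : Op n ι) (Θ Ψ : En n → En n) (ν χ : En n → ℝ) : MatF n := fun k l x =>
  (if k = l then 1 else 0) + χ x * ((ν (Ψ x))⁻¹ * pg L.γ Θ k l (Ψ x) - if k = l then 1 else 0)

/-- The new operator. -/
def op (L : Op n ι) (Θ Ψ : En n → En n) (T : MF n ι) (ν χ : En n → ℝ) : Op n ι where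
  γ := g1 L Θ Ψ ν χ
  b k a col x := χ x * ((ν (Ψ x))⁻¹ * ∑ e, mi T a e (Ψ x) * b0 L Θ T k e col (Ψ x)) -
    (if a = col then 1 else 0) * ∑ l, D (ee l) (g1 L Θ Ψ ν χ l k) x
  c a col x := χ x * ((ν (Ψ x))⁻¹ * ∑ e, mi T a e (Ψ x) * L.app (fun e' => T e' col) e (Ψ x))

theorem op_app {L : Op n ι} {Ψ : En n → En n} {T : MF n ι} {ν χ : En n → ℝ}
    (hγ : SmM (g1 L Θ Ψ ν χ)) {W : ι → En n → ℝ} (hW : ∀ a, Sm (W a)) {x : En n} (hx : χ x = 1)
    (a : ι) : (op L Θ Ψ T ν χ).app W a x = (ν (Ψ x))⁻¹ *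
      (∑ k, ∑ l, pg L.γ Θ k l (Ψ x) * D (ee k) (D (ee l) (W a)) x +
      ∑ e, mi T a e (Ψ x) * (∑ k, ∑ col, b0 L Θ T k e col (Ψ x) * D (ee k) (W col) x +
        ∑ col, L.app (fun e' => T e' col) e (Ψ x) * W col x)) := by
  have h1 : ∑ e, mi T a e (Ψ x) * ∑ k, ∑ col, b0 L Θ T k e col (Ψ x) * D (ee k) (W col) x =
      ∑ k, ∑ col, (∑ e, mi T a e (Ψ x) * b0 L Θ T k e col (Ψ x)) * D (ee k) (W col) x := by
    simp only [Finset.mul_sum, Finset.sum_mul, mul_assoc]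
    rw [Finset.sum_comm]
    exact Finset.sum_congr rfl fun k _ => Finset.sum_comm
  have h2 : ∑ e, mi T a e (Ψ x) * ∑ col, L.app (fun e' => T e' col) e (Ψ x) * W col x =
      ∑ col, (∑ e, mi T a e (Ψ x) * L.app (fun e' => T e' col) e (Ψ x)) * W col x := by
    simp only [Finset.mul_sum, Finset.sum_mul, mul_assoc]
    exact Finset.sum_comm
  have h3 : ∀ k l, g1 L Θ Ψ ν χ k l x = (ν (Ψ x))⁻¹ * pg L.γ Θ k l (Ψ x) := fun k l => by
    rw [g1, hx]
    ring
  simp only [mul_add, Finset.sum_add_distrib, h1, h2]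
  rw [Op.app]
  simp only [op]
  rw [dgd_nd (fun i j => (hγ i j).dAt x) (hW a).contDiffAt]
  simp only [h3, hx, one_mul, sub_mul, Finset.sum_sub_distrib, mul_assoc, ite_mul, zero_mul,
    Finset.sum_ite_eq, Finset.mem_univ, if_true, ← Finset.mul_sum]
  ring

end Lt1Xf

open Lt1Xf Vale.Agent.P136 in
theorem s_xf : S_xf := by
  intro n ι _ _ L V V₀ K Θ T ν hL hΘ hT hV₀ h0K hK hKV
  obtain ⟨Ψ, hΨ, hinv⟩ := hΘ.exists_inv
  have hU := hΘ.isOpen_image
  obtain ⟨χ, hχ, hχ01, hχ1⟩ := exists_cut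
    (hK.image_of_continuousOn (hΘ.sm.continuousOn.mono hKV)) hU (image_mono hKV)
  have hm : MapsTo Ψ (Θ '' V) V := by
    rintro _ ⟨y, hy, rfl⟩
    rwa [hinv y hy]
  have hV := hΘ.opn
  have jγ : ∀ i j, JS V fun η => (L η).γ i j := fun i j => JS.of_glob (hL.γ i j)
  have jb : ∀ i a a', JS V fun η => (L η).b i a a' := fun i a a' => JS.of_glob (hL.b i a a')
  have jc : ∀ a a', JS V fun η => (L η).c a a' := fun a a' => JS.of_glob (hL.c a a')
  have jν : JS V fun _ y => (ν y)⁻¹ := JS.of_on (hT.smμ.inv fun y hy => (hT.pos y hy).ne')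
  have jΘ : ∀ i k, JS V fun _ => D (ee i) fun z => Θ z k := fun i k =>
    JS.of_on (contDiffOn_D hV (on_coord hΘ k) _)
  have jT : ∀ a a', JS V fun _ => T a a' := fun a a' => JS.of_on (hT.sm a a')
  have jmi : ∀ a a', JS V fun _ => mi T a a' := fun a a' => JS.of_on (mi_cdOn hT.sm hT.det a a')
  have jpg : ∀ k l, JS V fun η => pg (L η).γ Θ k l := fun k l =>
    JS.sum fun i => JS.sum fun j => ((jγ i j).mul (jΘ i k)).mul (jΘ j l)
  have jb0 : ∀ k a col, JS V fun η => b0 (L η) Θ T k a col := fun k a col =>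
    (((jT a col).mul (JS.dgd hV jγ (on_coord hΘ k))).add ((JS.const 2).mul
      (JS.sum fun i => (JS.XX hV jγ (hT.sm a col) i).mul (jΘ i k)))).add
      (JS.sum fun i => JS.sum fun e => (jb i a e).mul ((jT e col).mul (jΘ i k)))
  have jc0 : ∀ col a, JS V fun η => (L η).app (fun e => T e col) a := fun col a =>
    ((JS.dgd hV jγ (hT.sm a col)).add (JS.sum fun i => JS.sum fun e =>
      (jb i a e).mul (JS.of_on (contDiffOn_D hV (hT.sm e col) _)))).add
      (JS.sum fun e => (jc a e).mul (jT e col))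
  have sγ : ∀ k l, ContDiff ℝ ∞ fun p : ℝ × En n => g1 (L p.1) Θ Ψ ν χ k l p.2 := fun k l =>
    contDiff_const.add (JS.cut hU (((jν.mul (jpg k l)).comp hΨ.sm hm).sub (JS.const _)) hχ)
  have sb : ∀ k a col, ContDiff ℝ ∞ fun p : ℝ × En n => (op (L p.1) Θ Ψ T ν χ).b k a col p.2 :=
    fun k a col => (JS.cut hU ((jν.mul (JS.sum fun e => (jmi a e).mul (jb0 k e col))).comp
      hΨ.sm hm) hχ).sub (contDiff_const.mul (ContDiff.sum fun l _ =>
        fam_D (F := fun η => g1 (L η) Θ Ψ ν χ l k) (sγ l k) _))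
  have sc : ∀ a col, ContDiff ℝ ∞ fun p : ℝ × En n => (op (L p.1) Θ Ψ T ν χ).c a col p.2 :=
    fun a col => JS.cut hU ((jν.mul (JS.sum fun e => (jmi a e).mul (jc0 col e))).comp
      hΨ.sm hm) hχ
  have sγ' : ∀ η, SmM (g1 (L η) Θ Ψ ν χ) := fun η k l =>
    sm_slice (F := fun η => g1 (L η) Θ Ψ ν χ k l) (sγ k l) η
  have hsupp : ∀ x, χ x ≠ 0 → ∃ y ∈ V, Θ y = x := fun x hx => hχ.2 (subset_tsupport χ hx)
  have hone : ∀ y ∈ V₀, χ (Θ y) = 1 := fun y hy =>
    (hχ1 _ (mem_image_of_mem Θ (h0K hy))).eq_of_nhds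
  have h0V : V₀ ⊆ V := h0K.trans hKV
  refine ⟨fun η => op (L η) Θ Ψ T ν χ, tsupport χ, ⟨fun η => ⟨sγ' η, fun k l => ?_,
    fun k a col => sm_slice (F := fun η => (op (L η) Θ Ψ T ν χ).b k a col) (sb k a col) η,
    fun a col => sm_slice (F := fun η => (op (L η) Θ Ψ T ν χ).c a col) (sc a col) η,
    fun x ξ hξ => ?_⟩, sγ, sb, sc⟩, hχ.1.2, fun η x hx => ?_, fun η => ⟨⟨hΘ.sm.mono h0V,
    fun a a' => (hT.sm a a').mono h0V, hT.smμ.mono h0V, fun y hy => ⟨hT.pos y (h0V hy),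
    hT.det y (h0V hy), hΘ.dinj y (h0V hy)⟩, fun W hW y hy a => ?_⟩, fun y hy k l => ?_,
    fun hc x k l => ?_⟩⟩
  · funext x
    simp only [op, g1, pg_symm (hL.good η).2.1 k l, eq_comm (a := k)]
  · have h1 : 0 < ∑ k, ξ k * ξ k := by
      obtain ⟨k, hk⟩ := Function.ne_iff.1 hξ
      exact Finset.sum_pos' (fun i _ => mul_self_nonneg _)
        ⟨k, Finset.mem_univ _, mul_self_pos.2 hk⟩
    have h2 : ∑ k, ∑ l, (op (L η) Θ Ψ T ν χ).γ k l x * ξ k * ξ l = (1 - χ x) * ∑ k, ξ k * ξ k +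
        χ x * ((ν (Ψ x))⁻¹ * ∑ k, ∑ l, pg (L η).γ Θ k l (Ψ x) * ξ k * ξ l) := by
      simp only [op, g1, add_mul, mul_sub, sub_mul, Finset.sum_add_distrib, Finset.sum_sub_distrib,
        mul_assoc, ite_mul, one_mul, zero_mul, Finset.sum_ite_eq, Finset.mem_univ, if_true,
        ← Finset.mul_sum]
      ring
    rw [h2]
    by_cases hx : χ x = 0
    · rw [hx]
      linarith
    · obtain ⟨y, hy, rfl⟩ := hsupp x hx
      rw [hinv y hy]
      have h3 := pg_pos hΘ hy ((hL.good η).2.2.2.2 y) ξ hξ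
      have h4 := hT.pos y hy
      have h5 : 0 < χ (Θ y) := lt_of_le_of_ne (hχ01 _).1 (Ne.symm hx)
      have h6 : 0 ≤ 1 - χ (Θ y) := sub_nonneg.2 (hχ01 _).2
      positivity
  · have h0 : χ x = 0 := image_eq_zero_of_notMem_tsupport hx
    refine ⟨fun i j => ?_, fun i a a' => ?_, fun a a' => ?_⟩
    · simp only [op, g1, h0, zero_mul, add_zero]
    · have h1 : ∀ l, D (ee l) (g1 (L η) Θ Ψ ν χ l i) x = 0 := fun l => by
        rw [← D_const (if l = i then 1 else 0) (ee l) x]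
        refine D_congr ?_ _
        filter_upwards [(isClosed_tsupport χ).isOpen_compl.mem_nhds hx] with z hz
        rw [g1, image_eq_zero_of_notMem_tsupport hz, zero_mul, add_zero]
      simp only [op, h0, h1, zero_mul, Finset.sum_const_zero, mul_zero, sub_zero]
    · simp only [op, h0, zero_mul]
  · have hν := (hT.pos y (h0V hy)).ne'
    rw [app_pb (hL.good η) hΘ hT.sm hW (h0V hy)]
    simp only [op_app (sγ' η) hW (hone y hy), hinv y (h0V hy)]
    have key : ∀ A g : ι → ℝ, ν y * ∑ a', T a a' y * ((ν y)⁻¹ * (A a' + ∑ e, mi T a' e y * g e)) =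
        ∑ a', T a a' y * A a' + g a := fun A g => by
      rw [← cancel (hT.det y (h0V hy)) g a, ← Finset.sum_add_distrib, Finset.mul_sum]
      exact Finset.sum_congr rfl fun _ _ => by field_simp
    rw [key, add_assoc]
  · have hν := (hT.pos y (h0V hy)).ne'
    simp only [op, g1, hone y hy, hinv y (h0V hy)]
    field_simp
    ring
  · by_cases hx : χ x = 0
    · simp only [op, g1, hx, zero_mul, add_zero]
    · obtain ⟨y, hy, rfl⟩ := hsupp x hx
      have hν := (hT.pos y hy).ne'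
      simp only [op, g1, hinv y hy, hc y hy]
      split_ifs
      · rw [inv_mul_cancel₀ hν, sub_self, mul_zero, add_zero]
      · simp

end Vale.Agent.P088.Lt1
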