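import Vale.Agent.P088.Lt1Uniq
import Vale.Agent.P088.Lt1Xf
import Vale.Agent.P088.Lt1Wc
import Vale.Agent.P088.Lt1TrC
import Vale.Agent.P088.Lt1TrG
import Vale.Agent.P088.Lt1TrS
import Vale.Agent.P088.Lt1Agr
import Vale.Agent.P088.Lt1Run
import Vale.Agent.P088.Lt1Van
import Vale.Agent.P088.Lt1Apx
import Vale.Agent.P088.Lt1Jet
import Vale.Agent.P088.Lt1Pair
import Vale.Agent.P088.Lt1Lin
import Vale.Agent.P088.Lt1Crd
import Vale.Agent.P088.Lt1N1
import Vale.Agent.P088.Lt1Geo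
import Vale.Agent.P088.Lt1Reg
import Vale.Agent.P088.Lt1X1
import Vale.Agent.P088.Lt1X2
import Vale.Agent.P088.Lt1LTX
import Vale.Agent.P088.Lt1Asm

/-! P088, LT1: the local continuation theorem from the normalized one. -/

namespace Vale.Agent.P088
open Lt1

theorem s_LT (h0 : S_LT0) (hw : S_weyl) (hu : S_ucp) (hie : S_ie) (hg : S_green) : S_LT :=
  have hc := s_trC s_wc
  have hx := s_X1 s_xf s_bd hc (s_trE s_wc) (s_trG hg) s_trS s_uniq
  have hj := s_jet hw hg hie (s_apx hw hg hie s_van) (s_runge hw hu hg)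
  s_asm (s_crd (s_pair hw hg hj hc) s_lin s_lim) (s_N1 s_xf hc (s_trG hg) s_trS) s_reg s_uniq
    (s_agr s_trS) (s_LTX h0 s_geo hx (s_X2 s_van))

end Vale.Agent.P088
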