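import Vale.Agent.P088.Top

/-!
# P088, part LT1: definitions and statements (see skel/P088/lt1/BLUEPRINT.md)
-/

open MeasureTheory Set Metric Filter
open scoped ContDiff Topology InnerProductSpace Matrix

noncomputable section
namespace Vale.Agent.P088.Lt1
open Vale.Agent.P136 (D Sm Tst)

variable {n : ℕ} {ι : Type} [Fintype ι] [DecidableEq ι]

/-- Matrix fields. -/
abbrev MF (n : ℕ) (ι : Type) : Type := ι → ι → En n → ℝ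

/-- The identity matrix field. -/
def one' : MF n ι := fun a a' _ => if a = a' then 1 else 0

/-- The value of a matrix field. -/
def mt (S : MF n ι) (x : En n) : Matrix ι ι ℝ := Matrix.of fun a a' => S a a' x

/-- The pointwise inverse. -/
def mi (S : MF n ι) : MF n ι := fun a a' x => (mt S x)⁻¹ a a'

/-- Composition with a map. -/
def mc (S : MF n ι) (Ψ : En n → En n) : MF n ι := fun a a' x => S a a' (Ψ x)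

/-- The pointwise product. -/
def mm (S S' : MF n ι) : MF n ι := fun a a' x => ∑ e, S a e x * S' e a' x

/-- The field `S (W ∘ Ψ)`. -/
def pb (S : MF n ι) (Ψ : En n → En n) (W : ι → En n → ℝ) : ι → En n → ℝ :=
  fun a z => ∑ a', S a a' z * W a' (Ψ z)

/-- Vanishing to order `m` at `x`. -/
def Zo (m : ℕ) (f : En n → ℝ) (x : En n) : Prop :=
  ∀ l : List (Fin n), l.length < m → Ds ee l f x = 0

/-- A diffeomorphism of the open set `V` onto its image. -/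
structure Dif (V : Set (En n)) (Ψ : En n → En n) : Prop where
  opn : IsOpen V
  sm : ContDiffOn ℝ ∞ Ψ V
  inj : InjOn Ψ V
  dinj : ∀ y ∈ V, Function.Injective (fderiv ℝ Ψ y)

/-- An invertible gauge and a positive factor on `V`. -/
structure Gau (V : Set (En n)) (S : MF n ι) (μ : En n → ℝ) : Prop where
  sm : ∀ a a', ContDiffOn ℝ ∞ (S a a') V
  smμ : ContDiffOn ℝ ∞ μ V
  pos : ∀ y ∈ V, 0 < μ y
  det : ∀ y ∈ V, (mt S y).det ≠ 0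

/-- Families of operators that are smooth in the parameter. -/
structure Fam (L : ℝ → Op n ι) : Prop where
  good : ∀ η, (L η).Good
  γ : ∀ i j, ContDiff ℝ ∞ fun p : ℝ × En n => (L p.1).γ i j p.2
  b : ∀ i a a', ContDiff ℝ ∞ fun p : ℝ × En n => (L p.1).b i a a' p.2
  c : ∀ a a', ContDiff ℝ ∞ fun p : ℝ × En n => (L p.1).c a a' p.2

/-- The family is the Laplacian outside `K`. -/
def Flat (L : ℝ → Op n ι) (K : Set (En n)) : Prop :=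
  ∀ η x, x ∉ K → (∀ i j, (L η).γ i j x = if i = j then 1 else 0) ∧
    (∀ i a a', (L η).b i a a' x = 0) ∧ ∀ a a', (L η).c a a' x = 0

/-- The principal part in the coordinates `Θ`. -/
def pg (γ : MatF n) (Θ : En n → En n) (k l : Fin n) (y : En n) : ℝ :=
  ∑ i, ∑ j, γ i j y * D (ee i) (fun z => Θ z k) y * D (ee j) (fun z => Θ z l) y

/-- The rescaled operator. -/
def scale (L : Op n ι) (η : ℝ) : Op n ι :=
  ⟨fun i j z => L.γ i j (η • z), fun i a a' z => η * L.b i a a' (η • z),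
    fun a a' z => η ^ 2 * L.c a a' (η • z)⟩

/-- No zero order term and normalized trace. -/
def Norm1 (L : Op n ι) (V : Set (En n)) : Prop :=
  ∀ x ∈ V, (∀ a a', L.c a a' x = 0) ∧ ∑ i, L.γ i i x = n

/-- The operators that transport Green operators from `U` to `V`. -/
structure Tr (U V : Set (En n)) (Ψ : En n → En n) (S : MF n ι) (μ : En n → ℝ)
    (A : HL n ι V →L[ℝ] HL n ι U) (B : HL n ι U →L[ℝ] HL n ι V) : Prop where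
  supp : ∀ F, SuppIn (Ψ '' V) (A F)
  hA : ∀ F, ∀ᵐ y ∂(volume.restrict V), ∀ a, cp F a y = μ y * pb S Ψ (cp (A F)) a y
  hB : ∀ u, ∀ᵐ y ∂(volume.restrict V), ∀ a, cp (B u) a y = pb S Ψ (cp u) a y

/-- `GScale` with a given constant. -/
def GSc {U : Set (En n)} (C : ℝ) (G : HL n ι U →L[ℝ] HL n ι U) : Prop :=
  ∀ r : ℝ, 0 < r → ∀ F h, SuppIn (ball 0 r) F → SuppIn (ball 0 r) h →
    |⟪G F, h⟫_ℝ| ≤ C * r ^ 2 * ‖F‖ * ‖h‖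

/-- The two Green operators are related on `B`. -/
def Rel {U : Set (En n)} (B : Set (En n)) (Φ : En n → En n) (S : MF n ι) (μ : En n → ℝ)
    (G₁ G₂ : HL n ι U →L[ℝ] HL n ι U) : Prop :=
  ∀ F₁ F₂ : HL n ι U, SuppIn (Φ '' B) F₁ → SuppIn B F₂ →
    (∀ᵐ y ∂(volume.restrict B), ∀ a, cp F₂ a y = μ y * pb S Φ (cp F₁) a y) →
    ∀ᵐ y ∂(volume.restrict B), ∀ a, cp (G₂ F₂) a y = pb S Φ (cp (G₁ F₁)) a y

/-- The hypotheses of the local continuation theorem. -/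
structure LTH (L₁ L₂ : Op n ι) (r ρ C : ℝ) (q : En n)
    (G₁ G₂ : HL n ι (ball 0 r) →L[ℝ] HL n ι (ball 0 r)) (Φ : En n → En n) (S : MF n ι)
    (μ : En n → ℝ) : Prop where
  g1 : L₁.Good
  g2 : L₂.Good
  ρ0 : 0 < ρ
  nq : ‖q‖ = ρ
  hr : 2 * ρ < r
  gr1 : IsGreen L₁ _ G₁
  gr2 : IsGreen L₂ _ G₂
  sc1 : GScale G₁
  sc2 : GScale G₂
  int : Inter L₁ L₂ (ball q ρ) Φ S μ
  inj : InjOn Φ (ball q ρ)
  maps : MapsTo Φ (ball q ρ) (ball 0 r)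
  lim : Tendsto Φ (𝓝[ball q ρ] 0) (𝓝 0)
  bd : ∀ y ∈ ball q ρ, ‖fderiv ℝ Φ y‖ ≤ C ∧ ∀ a a', |S a a' y| ≤ C
  rel : Rel (ball q ρ) Φ S μ G₁ G₂

/-- Coordinates and gauge that are made of solutions. -/
structure Chart (L : Op n ι) (r : ℝ) (T : MF n ι) (X : En n → En n) (W : Sp n → MF n ι) :
    Prop where
  dif : Dif (ball 0 r) X
  x0 : X 0 = 0
  gau : Gau (ball 0 r) T fun _ => 1
  solT : ∀ col, Sol L (ball 0 r) (fun a => T a col) 0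
  solW : ∀ s col, Sol L (ball 0 r) (W s col) 0
  tr : ∀ c, ∀ y ∈ ball (0 : En n) r,
    ∑ a, pb (mi T) id (W (.inl c) a) a y = Fintype.card ι * X y c

/-- The hypotheses on the operators in the special coordinates. -/
structure HX (L₁ L₂ : Op n ι) (R t : ℝ) (p : En n)
    (G₁ G₂ : HL n ι (ball 0 R) →L[ℝ] HL n ι (ball 0 R)) : Prop where
  g1 : L₁.Good
  g2 : L₂.Good
  np : ‖p‖ = 1
  t0 : 0 < t
  tR : 2 * t ≤ R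
  gr1 : IsGreen L₁ _ G₁
  gr2 : IsGreen L₂ _ G₂
  sc1 : GScale G₁
  sc2 : GScale G₂
  agr : Agree (ball (t • p) t) G₁ G₂
  eq : L₁.EqOn L₂ (ball (t • p) t)
  n1 : Norm1 L₁ (ball 0 R)
  n2 : Norm1 L₂ (ball 0 R)
  flat : ∀ i j, L₂.γ i j 0 = if i = j then 1 else 0

/-- The reflected inversion `Ψ`, its inverse `Θ` and the conformal factor. -/
structure Geo (p : En n) (Ψ Θ : En n → En n) (ν : En n → ℝ) : Prop where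
  sm : ContDiff ℝ ∞ Ψ
  dif : Dif (ball p (7 / 8)) Ψ
  dif' : Dif (Ψ '' ball p (7 / 8)) Θ
  inv : ∀ x ∈ ball p (7 / 8), Θ (Ψ x) = x
  nu : ContDiffOn ℝ ∞ ν (Ψ '' ball p (7 / 8))
  pos : ∀ y ∈ Ψ '' ball p (7 / 8), 0 < ν y
  conf : ∀ y ∈ Ψ '' ball p (7 / 8), ∀ k l,
    ∑ i, D (ee i) (fun z => Θ z k) y * D (ee i) (fun z => Θ z l) y = if k = l then ν y else 0
  conf' : ∀ y ∈ Ψ '' ball p (7 / 8), ∀ i j,
    ∑ k, D (ee i) (fun z => Θ z k) y * D (ee j) (fun z => Θ z k) y = if i = j then ν y else 0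
  p0 : Ψ p = 0
  bd : MapsTo Ψ (ball p (7 / 8)) (ball 0 10)
  kn : MapsTo Ψ (O0 p) (ball ((2 : ℝ) • p) 2)
  jet : ∀ c, Zo 2 (fun x => Ψ x c - (x c - p c)) p

/-- The rescaled special solutions. -/
def rs (η : ℝ) (Ψ : En n → En n) (W : Sp n → MF n ι) : Sp n → MF n ι :=
  fun s col a x => (η ^ qo s)⁻¹ * W s col a (η • Ψ x)

/-! ## The statements -/

def S_uniq : Prop := ∀ (n : ℕ) (ι : Type) [Fintype ι] [DecidableEq ι] [Nonempty ι]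
  (L₁ L₂ : Op n ι) (O : Set (En n)) (κ : En n → ℝ), 0 < n → L₁.Good → L₂.Good → IsOpen O →
  (∀ x ∈ O, ∑ i, L₁.γ i i x = ∑ i, L₂.γ i i x) →
  (∀ W : ι → En n → ℝ, (∀ a, Sm (W a)) → ∀ x ∈ O, ∀ a, L₂.app W a x = κ x * L₁.app W a x) →
  L₁.EqOn L₂ O ∧ ∀ x ∈ O, κ x = 1

/-- Change of coordinates and gauge. -/
def S_xf : Prop := ∀ (n : ℕ) (ι : Type) [Fintype ι] [DecidableEq ι] (L : ℝ → Op n ι)
  (V V₀ K : Set (En n)) (Θ : En n → En n) (T : MF n ι) (ν : En n → ℝ), Fam L → Dif V Θ →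
  Gau V T ν → IsOpen V₀ → V₀ ⊆ K → IsCompact K → K ⊆ V →
  ∃ (L' : ℝ → Op n ι) (K' : Set (En n)), Fam L' ∧ IsCompact K' ∧ Flat L' K' ∧ ∀ η,
    Inter (L' η) (L η) V₀ Θ T ν ∧
    (∀ y ∈ V₀, ∀ k l, ν y * (L' η).γ k l (Θ y) = pg (L η).γ Θ k l y) ∧
    ((∀ y ∈ V, ∀ k l, pg (L η).γ Θ k l y = if k = l then ν y else 0) →
      ∀ x k l, (L' η).γ k l x = if k = l then 1 else 0)

/-- Weighted composition operators. -/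
def S_wc : Prop := ∀ (n : ℕ) (ι : Type) [Fintype ι] [DecidableEq ι] (U V W : Set (En n))
  (Θ : En n → En n) (N : MF n ι) (α : ℝ), IsOpen U → IsOpen V → W ⊆ U → Dif W Θ →
  MapsTo Θ W V → (∀ a a', ContinuousOn (N a a') W) → 0 ≤ α →
  (∀ x ∈ W, ∀ v : ι → ℝ, ∑ a, (∑ a', N a a' x * v a') ^ 2 ≤
    α ^ 2 * |(fderiv ℝ Θ x).det| * ∑ a, v a ^ 2) →
  ∃ T : HL n ι V →L[ℝ] HL n ι U, ‖T‖ ≤ α ∧ ∀ F, SuppIn W (T F) ∧
    ∀ᵐ x ∂(volume.restrict W), ∀ a, cp (T F) a x = pb N Θ (cp F) a x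

def S_trC : Prop := ∀ (n : ℕ) (ι : Type) [Fintype ι] [DecidableEq ι] (U V K V₁ : Set (En n))
  (Ψ : En n → En n) (S : MF n ι) (μ : En n → ℝ), IsOpen U → IsOpen V → V ⊆ K → IsCompact K →
  K ⊆ V₁ → Dif V₁ Ψ → Gau V₁ S μ → MapsTo Ψ V U → ∃ A B, Tr U V Ψ S μ A B

def S_trE : Prop := ∀ (n : ℕ) (ι : Type) [Fintype ι] [DecidableEq ι] (R R' η : ℝ), 0 < η →
  η * R' ≤ R → ∃ A B, ‖A‖ * ‖B‖ ≤ (η ^ 2)⁻¹ ∧
    Tr (n := n) (ι := ι) (ball 0 R) (ball 0 R') (fun x => η • x) one' (fun _ => η ^ 2) A B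

def S_trG : Prop := ∀ (n : ℕ) (ι : Type) [Fintype ι] [DecidableEq ι] (U V : Set (En n))
  (Ψ : En n → En n) (S : MF n ι) (μ : En n → ℝ) (A : HL n ι V →L[ℝ] HL n ι U)
  (B : HL n ι U →L[ℝ] HL n ι V) (L L' : Op n ι) (G : HL n ι U →L[ℝ] HL n ι U), IsOpen U →
  Dif V Ψ → MapsTo Ψ V U → Tr U V Ψ S μ A B → L.Good → L'.Good → Inter L L' V Ψ S μ →
  IsGreen L U G → IsGreen L' V (B ∘L G ∘L A)

def S_trS : Prop := ∀ (n : ℕ) (ι : Type) [Fintype ι] [DecidableEq ι] (U V : Set (En n))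
  (Ψ : En n → En n) (S : MF n ι) (μ : En n → ℝ) (A : HL n ι V →L[ℝ] HL n ι U)
  (B : HL n ι U →L[ℝ] HL n ι V), IsOpen U → Dif V Ψ → MapsTo Ψ V U → Gau V S μ →
  Tr U V Ψ S μ A B →
  (∀ O' F, IsOpen O' → SuppIn O' F → SuppIn (Ψ '' (O' ∩ V)) (A F)) ∧
  (∀ O O' G₁ G₂, IsOpen O' → MapsTo Ψ (O' ∩ V) O → Agree O G₁ G₂ →
    Agree O' (B ∘L G₁ ∘L A) (B ∘L G₂ ∘L A)) ∧
  (∀ G C s, 0 < s → GSc C G → MapsTo Ψ V (ball 0 s) →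
    ‖B ∘L G ∘L A‖ ≤ |C| * s ^ 2 * (‖A‖ * ‖B‖)) ∧
  ∀ G K, GScale G → (∀ y ∈ V, ‖Ψ y‖ ≤ K * ‖y‖) → GScale (B ∘L G ∘L A)

def S_agr : Prop := ∀ (n : ℕ) (ι : Type) [Fintype ι] [DecidableEq ι] (U B V O : Set (En n))
  (Φ Y₁ Y₂ : En n → En n) (S S₁ S₂ : MF n ι) (μ μ₁ μ₂ : En n → ℝ)
  (G₁ G₂ : HL n ι U →L[ℝ] HL n ι U) (A₁ A₂ : HL n ι V →L[ℝ] HL n ι U)
  (B₁ B₂ : HL n ι U →L[ℝ] HL n ι V), IsOpen U → Dif B Φ → B ⊆ U → MapsTo Φ B U →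
  Rel B Φ S μ G₁ G₂ → IsOpen O → O ⊆ V → Dif V Y₁ → Dif V Y₂ → MapsTo Y₁ V U → MapsTo Y₂ V U →
  MapsTo Y₂ O B → Gau V S₁ μ₁ → Gau V S₂ μ₂ → Tr U V Y₁ S₁ μ₁ A₁ B₁ → Tr U V Y₂ S₂ μ₂ A₂ B₂ →
  (∀ x ∈ O, Y₁ x = Φ (Y₂ x) ∧ (∀ a a', S₁ a a' x = mm S₂ (mc S Y₂) a a' x) ∧
    μ₁ x = μ₂ x * μ (Y₂ x)) →
  Agree O (B₁ ∘L G₁ ∘L A₁) (B₂ ∘L G₂ ∘L A₂)

/-- Qualitative Runge approximation. -/
def S_runge : Prop := ∀ (n : ℕ) (ι : Type) [Fintype ι] [DecidableEq ι] (L : Op n ι)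
  (r s s' ε : ℝ) (G : HL n ι (ball 0 r) →L[ℝ] HL n ι (ball 0 r)) (O : Set (En n))
  (W : ι → En n → ℝ), 2 ≤ n → L.Good → IsGreen L _ G → 0 < s → s < s' → s' ≤ r → IsOpen O →
  O.Nonempty → O ⊆ ball 0 r \ closedBall 0 s → Sol L (ball 0 s') W 0 → 0 < ε →
  ∃ F, SuppIn O F ∧ nrm (ball 0 s) (fun a x => W a x - cp (G F) a x) ≤ ε

/-- Rescaling of a function that vanishes to order `m`. -/
def S_van : Prop := ∀ (n m j : ℕ) (f : En n → ℝ) (z : En n → En n) (K : Set (En n)), Sm f →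
  ContDiff ℝ ∞ z → Zo m f 0 → IsCompact K → ∃ C : ℝ, 0 ≤ C ∧ ∀ η : ℝ, 0 < η → η ≤ 1 →
    ∀ x ∈ K, SB ee j (C * η ^ m) 1 (fun y => f (η • z y)) x

/-- Uniform bounds for a family. -/
def S_bd : Prop := ∀ (n : ℕ) (ι : Type) [Fintype ι] [DecidableEq ι] (L : ℝ → Op n ι)
  (K : Set (En n)), Fam L → IsCompact K → Flat L K →
  (∀ x i j, (L 0).γ i j x = if i = j then 1 else 0) →
  ∃ M₀ : ℕ → ℝ, ∀ M : ℕ → ℝ, (∀ j, M₀ j ≤ M j) → ∀ (k : ℕ) (om : ℝ), 0 < om →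
    ∃ η₀ : ℝ, 0 < η₀ ∧ ∀ η, 0 < η → η ≤ η₀ → (L η).Bd k om M

/-- Local solutions with approximately prescribed jets. -/
def S_apx : Prop := ∀ (n : ℕ) (ι : Type) [Fintype ι] [DecidableEq ι] (L : Op n ι) (r r₁ ε : ℝ)
  (G : HL n ι (ball 0 r) →L[ℝ] HL n ι (ball 0 r)) (m : ℕ) (P : ι → En n → ℝ), L.Good →
  IsGreen L _ G → GScale G → 0 < r → 0 < r₁ → 0 < ε → (∀ a, Sm (P a)) →
  (∀ a, Zo (m - 1) (L.app P a) 0) →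
  ∃ (s : ℝ) (W : ι → En n → ℝ), 0 < s ∧ s ≤ r₁ ∧ Sol L (ball 0 s) W 0 ∧
    ∀ l : List (Fin n), l.length ≤ m → ∀ a, |Ds ee l (W a) 0 - Ds ee l (P a) 0| ≤ ε

/-- Solutions with prescribed jets and source away from the origin. -/
def S_jet : Prop := ∀ (n : ℕ) (ι : Type) [Fintype ι] [DecidableEq ι] (L : Op n ι) (r r₁ : ℝ)
  (G : HL n ι (ball 0 r) →L[ℝ] HL n ι (ball 0 r)) (O : Set (En n)) (m : ℕ) (P : ι → En n → ℝ),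
  2 ≤ n → L.Good → IsGreen L _ G → GScale G → 0 < r₁ → IsOpen O → O.Nonempty →
  O ⊆ ball 0 r \ closedBall 0 r₁ → (∀ a, Sm (P a)) → (∀ a, Zo (m - 1) (L.app P a) 0) →
  ∃ (F : HL n ι (ball 0 r)) (W : ι → En n → ℝ), SuppIn O F ∧ Sol L (ball 0 r₁) W 0 ∧
    (∀ᵐ x ∂(volume.restrict (ball 0 r₁)), ∀ a, cp (G F) a x = W a x) ∧
    ∀ a, Zo (m + 1) (fun x => W a x - P a x) 0

/-- Related pairs of solutions with prescribed jets. -/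
def S_pair : Prop := ∀ (n : ℕ) (ι : Type) [Fintype ι] [DecidableEq ι] (L₁ L₂ : Op n ι)
  (r ρ C : ℝ) (q : En n) (G₁ G₂ : HL n ι (ball 0 r) →L[ℝ] HL n ι (ball 0 r)) (Φ : En n → En n)
  (S : MF n ι) (μ : En n → ℝ), 2 ≤ n → LTH L₁ L₂ r ρ C q G₁ G₂ Φ S μ →
  ∃ r₁ : ℝ, 0 < r₁ ∧ ∀ (m : ℕ) (P : ι → En n → ℝ), (∀ a, Sm (P a)) →
    (∀ a, Zo (m - 1) (L₂.app P a) 0) → ∃ W₁ W₂ : ι → En n → ℝ, Sol L₁ (ball 0 r₁) W₁ 0 ∧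
      Sol L₂ (ball 0 r₁) W₂ 0 ∧ (∀ a, Zo (m + 1) (fun x => W₂ a x - P a x) 0) ∧
      ∀ y ∈ ball q ρ ∩ ball 0 r₁, Φ y ∈ ball (0 : En n) r₁ → ∀ a, W₂ a y = pb S Φ W₁ a y

/-- The model jets: a linear change of coordinates that flattens the principal part. -/
def S_lin : Prop := ∀ (n : ℕ) (ι : Type) [Fintype ι] [DecidableEq ι] (L : Op n ι), 0 < n →
  L.Good → ∃ A : En n →L[ℝ] En n, Function.Injective A ∧
    (∀ k l, pg L.γ A k l 0 = if k = l then 1 else 0) ∧ ∀ (s : Sp n) (col a : ι),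
      Zo (qo s - 1) (L.app (fun e y => if col = e then qq 0 s (A y) else 0) a) 0

/-- Passing to the limit from the known region. -/
def S_lim : Prop := ∀ (n : ℕ) (ι : Type) [Fintype ι] [DecidableEq ι] (ρ C δ : ℝ) (q : En n)
  (Φ : En n → En n) (S : MF n ι), 0 < ρ → ‖q‖ = ρ → 0 < δ → Dif (ball q ρ) Φ →
  Tendsto Φ (𝓝[ball q ρ] 0) (𝓝 0) →
  (∀ y ∈ ball q ρ, ‖fderiv ℝ Φ y‖ ≤ C ∧ ∀ a a', |S a a' y| ≤ C) →
  (∀ T₁ T₂ : MF n ι, (∀ a a', ContinuousAt (T₁ a a') 0 ∧ ContinuousAt (T₂ a a') 0) →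
    (mt T₂ 0).det ≠ 0 → (∀ y ∈ ball q ρ ∩ ball 0 δ, ∀ a a', T₂ a a' y = mm S (mc T₁ Φ) a a' y) →
    (mt T₁ 0).det ≠ 0) ∧
  ∀ X₁ X₂ : En n → En n, ContDiffAt ℝ ∞ X₁ 0 → ContDiffAt ℝ ∞ X₂ 0 → X₂ 0 = 0 →
    Function.Injective (fderiv ℝ X₂ 0) → (∀ y ∈ ball q ρ ∩ ball 0 δ, X₁ (Φ y) = X₂ y) →
    X₁ 0 = 0 ∧ Function.Injective (fderiv ℝ X₁ 0)

/-- The special coordinates and gauges. -/
def S_crd : Prop := ∀ (n : ℕ) (ι : Type) [Fintype ι] [DecidableEq ι] [Nonempty ι]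
  (L₁ L₂ : Op n ι) (r ρ C : ℝ) (q : En n) (G₁ G₂ : HL n ι (ball 0 r) →L[ℝ] HL n ι (ball 0 r))
  (Φ : En n → En n) (S : MF n ι) (μ : En n → ℝ), 2 ≤ n → LTH L₁ L₂ r ρ C q G₁ G₂ Φ S μ →
  ∃ (r₂ δ : ℝ) (T₁ T₂ : MF n ι) (X₁ X₂ : En n → En n) (W₁ W₂ : Sp n → MF n ι), 0 < δ ∧
    δ ≤ r₂ / 2 ∧ r₂ ≤ r ∧ Chart L₁ r₂ T₁ X₁ W₁ ∧ Chart L₂ r₂ T₂ X₂ W₂ ∧
    (∀ k l, pg L₂.γ X₂ k l 0 = if k = l then 1 else 0) ∧
    (∀ s col a, Zo (qo s + 1) (fun y => pb (mi T₂) id (W₂ s col) a y -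
      if col = a then qq 0 s (X₂ y) else 0) 0) ∧
    ∀ y ∈ ball q ρ ∩ ball 0 δ, Φ y ∈ ball (0 : En n) (r₂ / 2) ∧ X₁ (Φ y) = X₂ y ∧
      (∀ a a', T₂ a a' y = mm S (mc T₁ Φ) a a' y) ∧
      ∀ s col a, W₂ s col a y = pb S Φ (W₁ s col) a y

/-- The operator and its Green operator in the special coordinates. -/
def S_N1 : Prop := ∀ (n : ℕ) (ι : Type) [Fintype ι] [DecidableEq ι] (L : Op n ι) (r r₂ : ℝ)
  (G : HL n ι (ball 0 r) →L[ℝ] HL n ι (ball 0 r)) (T : MF n ι) (X : En n → En n)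
  (W : Sp n → MF n ι), 0 < n → L.Good → IsGreen L _ G → GScale G → 0 < r₂ → r₂ ≤ r →
  Chart L r₂ T X W → ∃ (R₀ : ℝ) (Y : En n → En n) (ν : En n → ℝ) (L' : Op n ι), 0 < R₀ ∧
    L'.Good ∧ Inter L' L (ball 0 (r₂ / 2)) X T ν ∧
    (∀ y ∈ ball (0 : En n) (r₂ / 2), Y (X y) = y ∧
      ∀ k l, ν y * L'.γ k l (X y) = pg L.γ X k l y) ∧
    ∀ R, 0 < R → R ≤ R₀ → Dif (ball 0 R) Y ∧ MapsTo Y (ball 0 R) (ball 0 (r₂ / 2)) ∧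
      (∀ x ∈ ball (0 : En n) R, X (Y x) = x) ∧ Norm1 L' (ball 0 R) ∧
      Inter L L' (ball 0 R) Y (mc (mi T) Y) (fun x => (ν (Y x))⁻¹) ∧
      ∃ A B, Tr (ball 0 r) (ball 0 R) Y (mc (mi T) Y) (fun x => (ν (Y x))⁻¹) A B ∧
        IsGreen L' _ (B ∘L G ∘L A) ∧ GScale (B ∘L G ∘L A)

/-- The known region contains a ball that touches the origin. -/
def S_reg : Prop := ∀ (n : ℕ) (Y : En n → En n) (R δ ρ : ℝ) (q : En n), 0 < R → 0 < δ → 0 < ρ →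
  ‖q‖ = ρ → Dif (ball 0 R) Y → Y 0 = 0 → ∃ (p : En n) (t : ℝ), ‖p‖ = 1 ∧ 0 < t ∧ 2 * t ≤ R ∧
    MapsTo Y (ball (t • p) t) (ball q ρ ∩ ball 0 δ)

def S_geo : Prop := ∀ (n : ℕ) (p : En n), ‖p‖ = 1 → ∃ Ψ Θ ν, Geo p Ψ Θ ν

/-- The normalized operators. -/
def S_X1 : Prop := ∀ (n : ℕ) (ι : Type) [Fintype ι] [DecidableEq ι] [Nonempty ι]
  (L₁ L₂ : Op n ι) (R t : ℝ) (p : En n) (G₁ G₂ : HL n ι (ball 0 R) →L[ℝ] HL n ι (ball 0 R))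
  (Ψ Θ : En n → En n) (ν : En n → ℝ), 0 < n → HX L₁ L₂ R t p G₁ G₂ → Geo p Ψ Θ ν →
  ∃ M₀ : ℕ → ℝ, ∀ M : ℕ → ℝ, (∀ j, M₀ j ≤ M j) → ∀ (k : ℕ) (om : ℝ), 0 < om →
    ∃ η₀ : ℝ, 0 < η₀ ∧ ∀ η, 0 < η → η ≤ η₀ → ∃ (L₁' L₂' : Op n ι)
      (G₁' G₂' : HL n ι (U0 p) →L[ℝ] HL n ι (U0 p)) (μ : En n → ℝ),
      Set0 k om M L₁' L₂' p G₁' G₂' ∧ Norm1 L₁' (U0 p) ∧ Norm1 L₂' (U0 p) ∧
      (∀ i j, L₂'.γ i j p = if i = j then 1 else 0) ∧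
      Inter L₁ L₁' (U0 p) (fun x => η • Ψ x) one' μ ∧
      Inter L₂ L₂' (U0 p) (fun x => η • Ψ x) one' μ

/-- The normalized solutions. -/
def S_X2 : Prop := ∀ (n : ℕ) (ι : Type) [Fintype ι] [DecidableEq ι] (R t : ℝ) (p : En n)
  (Ψ Θ : En n → En n) (ν : En n → ℝ) (W₁ W₂ : Sp n → MF n ι), ‖p‖ = 1 → 0 < t → 2 * t ≤ R →
  Geo p Ψ Θ ν → (∀ s col, SmOn (ball 0 R) (W₁ s col) ∧ SmOn (ball 0 R) (W₂ s col)) →
  (∀ s col a, EqOn (W₁ s col a) (W₂ s col a) (ball (t • p) t)) →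
  (∀ s col a, Zo (qo s + 1) (fun x => W₂ s col a x - if col = a then qq 0 s x else 0) 0) →
  ∃ M₀ : ℕ → ℝ, ∀ M : ℕ → ℝ, (∀ j, M₀ j ≤ M j) → ∀ (k : ℕ) (ε : ℝ), 0 < ε →
    ∃ η₀ : ℝ, 0 < η₀ ∧ ∀ η, 0 < η → η ≤ η₀ →
      (∀ s col a, ∀ x ∈ U0 p, (∀ j, SB ee j (M j) 1 (rs η Ψ W₁ s col a) x ∧
          SB ee j (M j) 1 (rs η Ψ W₂ s col a) x) ∧
        SB ee k ε 1 (fun y => rs η Ψ W₁ s col a y - rs η Ψ W₂ s col a y) x) ∧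
      ∀ s col a (l : List (Fin n)), l.length ≤ qo s →
        Ds ee l (rs η Ψ W₂ s col a) p = if col = a then Ds ee l (qq p s) p else 0

/-- The local continuation theorem in the special coordinates. -/
def S_LTX : Prop := ∀ (n : ℕ), 3 ≤ n → ∀ (ι : Type) [Fintype ι] [DecidableEq ι] [Nonempty ι]
  (L₁ L₂ : Op n ι) (R t : ℝ) (p : En n) (G₁ G₂ : HL n ι (ball 0 R) →L[ℝ] HL n ι (ball 0 R))
  (W₁ W₂ : Sp n → MF n ι), HX L₁ L₂ R t p G₁ G₂ →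
  (∀ s col, Sol L₁ (ball 0 R) (W₁ s col) 0 ∧ Sol L₂ (ball 0 R) (W₂ s col) 0) →
  (∀ s col a, EqOn (W₁ s col a) (W₂ s col a) (ball (t • p) t)) →
  (∀ s col a, Zo (qo s + 1) (fun x => W₂ s col a x - if col = a then qq 0 s x else 0) 0) →
  (∀ c, ∀ x ∈ ball (0 : En n) R, ∑ a, W₁ (.inl c) a a x = ∑ a, W₂ (.inl c) a a x) →
  ∃ r : ℝ, 0 < r ∧ ∀ W : ι → En n → ℝ, (∀ a, Sm (W a)) → ∀ x ∈ ball (0 : En n) r, ∀ a,
    L₂.app W a x = L₁.app W a x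

end Vale.Agent.P088.Lt1
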