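import Vale.Agent.P088.Lt1Bas

/-! P088, LT1: an operator is determined by its action, up to the trace normalization. -/

open MeasureTheory Set Metric Filter
open scoped ContDiff Topology InnerProductSpace Matrix

noncomputable section
namespace Vale.Agent.P088.Lt1
open Vale.Agent.P136 (D Sm Tst)

namespace Lt1Uniq

variable {n : ℕ} {ι : Type} [Fintype ι] [DecidableEq ι]

/-- A vector function with one nonzero component. -/
def sg (a' : ι) (f : En n → ℝ) : ι → En n → ℝ := fun e => if e = a' then f else fun _ => 0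

omit [Fintype ι] in
theorem sg_sm (a' : ι) {f : En n → ℝ} (hf : Sm f) (e : ι) : Sm (sg a' f e) := by
  unfold sg
  split_ifs
  · exact hf
  · exact contDiff_const

theorem app_sg {L : Op n ι} (hL : L.Good) {f : En n → ℝ} (hf : Sm f) (a a' : ι) (x : En n) :
    L.app (sg a' f) a x = (if a = a' then ∑ i, ∑ j, L.γ i j x * D (ee i) (D (ee j) f) x +
      ∑ j, (∑ i, D (ee i) (L.γ i j) x) * D (ee j) f x else 0) +
      ∑ i, L.b i a a' x * D (ee i) f x + L.c a a' x * f x := by
  have h1 : ∀ i e, D (ee i) (sg a' f e) x = if e = a' then D (ee i) f x else 0 := by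
    intro i e
    unfold sg
    split_ifs
    · rfl
    · exact P136.D_const _ _ _
  have h2 : ∀ e, sg a' f e x = if e = a' then f x else 0 := by
    intro e
    unfold sg
    split_ifs <;> rfl
  unfold Op.app
  rw [dgd_nd (fun i j => (hL.1 i j).dAt x) (sg_sm a' hf a).contDiffAt]
  simp only [h1, h2, mul_ite, mul_zero, Finset.sum_ite_eq', Finset.mem_univ, if_true]
  by_cases h : a = a'
  · simp only [h, if_true, sg]
  · have h3 : ∀ j, D (ee j) (fun _ : En n => (0 : ℝ)) = fun _ => 0 :=
      fun j => funext fun y => P136.D_const _ _ _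
    simp only [h, if_false, sg, h3, mul_zero, Finset.sum_const_zero, add_zero]

theorem lin_sm (k : Fin n) (c : ℝ) : Sm fun y : En n => y k - c :=
  (contDiff_iff_contDiffAt.2 fun _ => cd_coord contDiffAt_id k).sub contDiff_const

theorem D_lin (j k : Fin n) (c : ℝ) :
    D (ee j) (fun y : En n => y k - c) = fun _ => if j = k then 1 else 0 := by
  funext y
  rw [P136.D_sub_at ((cd_coord (u := fun y : En n => y) contDiffAt_id k).differentiableAt
    (by simp)) (differentiableAt_const c), D_coord, P136.D_const, sub_zero]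

theorem D_quad (j k l : Fin n) (c d : ℝ) :
    D (ee j) (fun y : En n => (y k - c) * (y l - d)) = fun y : En n =>
      (if j = k then 1 else 0) * (y l - d) + (if j = l then 1 else 0) * (y k - c) := by
  funext y
  rw [P136.D_mul_at ((lin_sm k c).dAt y) ((lin_sm l d).dAt y), D_lin, D_lin]
  ring

theorem DD_quad (i j k l : Fin n) (c d : ℝ) (x : En n) :
    D (ee i) (D (ee j) fun y : En n => (y k - c) * (y l - d)) x =
      (if j = k then 1 else 0) * (if i = l then 1 else 0) +
        (if j = l then 1 else 0) * (if i = k then 1 else 0) := by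
  rw [D_quad, P136.D_add_at (((lin_sm l d).cmul _).dAt x) (((lin_sm k c).cmul _).dAt x),
    P136.D_const_mul_at ((lin_sm l d).dAt x), P136.D_const_mul_at ((lin_sm k c).dAt x),
    D_lin, D_lin]

theorem app_quad {L : Op n ι} (hL : L.Good) (a : ι) (k l : Fin n) (x : En n) :
    L.app (sg a fun y => (y k - x k) * (y l - x l)) a x = 2 * L.γ k l x := by
  rw [app_sg hL ((lin_sm k _).mul (lin_sm l _))]
  simp only [DD_quad, if_true]
  simp only [D_quad, sub_self, mul_zero, add_zero, Finset.sum_const_zero, mul_add,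
    Finset.sum_add_distrib, mul_ite, ite_mul, mul_one, one_mul, zero_mul]
  simp only [Finset.sum_ite_irrel, Finset.sum_ite_eq', Finset.mem_univ, if_true,
    Finset.sum_const_zero]
  rw [hL.2.1 l k]
  ring

theorem app_lin {L : Op n ι} (hL : L.Good) (a a' : ι) (k : Fin n) (x : En n) :
    L.app (sg a' fun y => y k - x k) a x =
      (if a = a' then ∑ i, D (ee i) (L.γ i k) x else 0) + L.b k a a' x := by
  rw [app_sg hL (lin_sm k _)]
  simp only [D_lin, P136.D_const, sub_self, mul_zero, add_zero, Finset.sum_const_zero, zero_add,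
    mul_ite, mul_one, Finset.sum_ite_eq', Finset.mem_univ, if_true]

theorem app_one {L : Op n ι} (hL : L.Good) (a a' : ι) (x : En n) :
    L.app (sg a' fun _ => 1) a x = L.c a a' x := by
  have h3 : ∀ j, D (ee j) (fun _ : En n => (1 : ℝ)) = fun _ => 0 :=
    fun j => funext fun y => P136.D_const _ _ _
  rw [app_sg hL contDiff_const]
  simp only [h3, P136.D_const, mul_zero, Finset.sum_const_zero, add_zero, ite_self, zero_add,
    mul_one]

omit [DecidableEq ι] in
theorem tr_pos {L : Op n ι} (hL : L.Good) (hn : 0 < n) (x : En n) : 0 < ∑ i, L.γ i i x := by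
  haveI : Nonempty (Fin n) := ⟨⟨0, hn⟩⟩
  refine Finset.sum_pos (fun i _ => ?_) Finset.univ_nonempty
  have h := hL.2.2.2.2 x (Pi.single i 1) (by simp)
  simpa [Pi.single_apply] using h

end Lt1Uniq

open Lt1Uniq in
theorem s_uniq : S_uniq := by
  intro n ι _ _ _ L₁ L₂ O κ hn h₁ h₂ hO htr h
  obtain ⟨a₀⟩ := ‹Nonempty ι›
  have hγ : ∀ x ∈ O, ∀ k l, L₂.γ k l x = κ x * L₁.γ k l x := by
    intro x hx k l
    have e := h _ (sg_sm a₀ ((lin_sm k (x k)).mul (lin_sm l (x l)))) x hx a₀
    rw [app_quad h₁, app_quad h₂] at e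
    linarith
  have hκ : ∀ x ∈ O, κ x = 1 := by
    intro x hx
    have e := htr x hx
    simp only [hγ x hx, ← Finset.mul_sum] at e
    have hp := tr_pos h₁ hn x
    exact mul_right_cancel₀ hp.ne' (by linarith)
  have hγ' : ∀ x ∈ O, ∀ k l, L₁.γ k l x = L₂.γ k l x := fun x hx k l => by
    rw [hγ x hx, hκ x hx, one_mul]
  refine ⟨fun x hx => ⟨hγ' x hx, fun k a a' => ?_, fun a a' => ?_⟩, hκ⟩
  · have e := h _ (sg_sm a' (lin_sm k (x k))) x hx a
    have hd : ∀ i, D (ee i) (L₁.γ i k) x = D (ee i) (L₂.γ i k) x := fun i =>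
      P136.D_congr (eventually_of_mem (hO.mem_nhds hx) fun y hy => hγ' y hy i k) _
    rw [Lt1Uniq.app_lin h₁, Lt1Uniq.app_lin h₂, hκ x hx, one_mul] at e
    simp only [hd] at e
    linarith
  · have e := h _ (sg_sm a' (contDiff_const (c := (1 : ℝ)))) x hx a
    rw [app_one h₁, app_one h₂, hκ x hx, one_mul] at e
    exact e.symm

end Vale.Agent.P088.Lt1
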