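import Vale.Agent.P088.StN

/-!
# P088: Bessel and tail bounds for the moments
-/

open MeasureTheory Set Metric
open scoped ContDiff Topology

noncomputable section
namespace Vale.Agent.P088
open Vale.Agent.P136 (D Dp Dm Sm Tst)

namespace MBes

variable {n : ℕ} {ι : Type}

lemma cov (M : Matrix (Fin n) (Fin n) ℝ) (hM : M.det ≠ 0) : ∃ T : En n ≃L[ℝ] En n,
    (∀ z a, T z a = ∑ i, M a i * z i) ∧
      ∀ (G : En n → ℝ) (x : En n), ∫ y, G (T (y - x)) = |M.det|⁻¹ * ∫ w, G w := by
  let b := (EuclideanSpace.basisFun (Fin n) ℝ).toBasis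
  have hd : LinearMap.det (Matrix.toLin b b M) ≠ 0 := by rwa [LinearMap.det_toLin]
  let T : En n ≃L[ℝ] En n := (LinearMap.equivOfDetNeZero _ hd).toContinuousLinearEquiv
  have hT : ∀ z, T z = Matrix.toLin b b M z := fun _ => rfl
  refine ⟨T, fun z a => ?_, fun G x => ?_⟩
  · have := Matrix.repr_toLin b b M z
    have h2 := congrFun this a
    simpa [b, Matrix.mulVec, dotProduct, hT] using h2
  · rw [integral_sub_right_eq_self (fun y => G (T y)) x]
    have h1 := integral_map_equiv (μ := volume) T.toHomeomorph.toMeasurableEquiv G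
    have h2 : Measure.map T.toHomeomorph.toMeasurableEquiv (volume : Measure (En n)) =
        Measure.map (Matrix.toLin b b M) volume := rfl
    rw [h2, Measure.map_linearMap_addHaar_eq_smul_addHaar _ hd, integral_smul_measure,
      ENNReal.toReal_ofReal (abs_nonneg _), LinearMap.det_toLin, abs_inv, smul_eq_mul] at h1
    exact h1.symm

lemma det_bound {c : Cx n ι} {E : MatF n} {k : ℕ} (hγ : Near k 1 c.γ₂) (hE : FrOk c E 1) (x : En n) :
    (Matrix.of fun a i => E a i x).det ≠ 0 ∧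
      |(Matrix.of fun a i => E a i x).det|⁻¹ ≤ n.factorial * 2 ^ n := by
  have h1 : (Matrix.of fun a i => E a i x) * (Matrix.of fun i j => c.γ₂ i j x) *
      (Matrix.of fun a i => E a i x).transpose = 1 := by
    ext a b
    rw [Matrix.one_apply, ← hE.2.2 x a b, Finset.sum_comm]
    simp only [Matrix.mul_apply, Matrix.of_apply, Matrix.transpose_apply, Finset.sum_mul]
  have h2 := congrArg Matrix.det h1
  rw [Matrix.det_mul, Matrix.det_mul, Matrix.det_transpose, Matrix.det_one] at h2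
  have h3 := Matrix.det_le (A := Matrix.of fun i j => c.γ₂ i j x) (abv := AbsoluteValue.abs)
    (x := (2 : ℝ)) fun i j => by
      have := hγ i j x [] (Nat.zero_le _)
      simp only [Ds, List.foldr_nil, List.length_nil, pow_zero, mul_one] at this
      simp only [Matrix.of_apply, AbsoluteValue.abs_apply]
      rw [abs_le] at this ⊢
      split_ifs at this <;> constructor <;> linarith [this.1, this.2]
  simp only [Fintype.card_fin, nsmul_eq_mul, AbsoluteValue.abs_apply] at h3
  generalize (Matrix.of fun a i => E a i x).det = d at h2 ⊢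
  generalize (Matrix.of fun i j => c.γ₂ i j x).det = g at h2 h3
  have h0 : d ≠ 0 := by rintro rfl; simp at h2
  have h4 : (1 : ℝ) ≤ n.factorial * 2 ^ n :=
    one_le_mul_of_one_le_of_one_le (by exact_mod_cast n.factorial_pos) (one_le_pow₀ one_le_two)
  refine ⟨h0, abs_le_of_sq_le_sq' ?_ (by linarith) |>.2⟩
  have h5 : |d|⁻¹ ^ 2 = g := by
    rw [inv_pow, sq_abs]
    field_simp
    linarith
  nlinarith [le_abs_self g]

/-- The bounds at a fixed point `x`, in the variable `y`. -/
lemma core {Cb : ℝ} (hCb : 0 ≤ Cb) {f : Fx} {c : Cx n ι} {E : MatF n} {k : ℕ} (hγ : Near k 1 c.γ₂)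
    (hE : FrOk c E 1) (R : X2 n → ℝ) (x : En n)
    (h1 : Continuous fun y => R (x, y) * Real.exp (-thw f c E (x, y)))
    (h2 : HasCompactSupport fun y => R (x, y) * Real.exp (-thw f c E (x, y))) :
    ∃ (u : En n → ℝ) (s : ℝ), Continuous u ∧ HasCompactSupport u ∧
      (∀ w, u w ≠ 0 → ∃ y, R (x, y) ≠ 0 ∧ w = wv f c E (x, y)) ∧
      (∀ h, momt f c E R h x ^ 2 = s * (∫ w, u w * h w * gs w) ^ 2) ∧ 0 ≤ s ∧
      ∀ l : ℕ, s * (Cb * ∫ w, (1 + ‖w‖ ^ 2) ^ l * u w ^ 2) ≤ n.factorial * 2 ^ n * Cb *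
        ∫ y, (1 + ‖wv f c E (x, y)‖ ^ 2) ^ l * (R (x, y) * Real.exp (-thw f c E (x, y))) ^ 2 := by
  obtain ⟨d1, d2⟩ := det_bound hγ hE x
  have hf : 0 < fX f c x := Real.exp_pos _
  have e0 : (Matrix.of fun a i => fX f c x * E a i x).det =
      fX f c x ^ n * (Matrix.of fun a i => E a i x).det := by
    rw [show (Matrix.of fun a i => fX f c x * E a i x) = fX f c x • Matrix.of fun a i => E a i x
      from rfl, Matrix.det_smul, Fintype.card_fin]
  obtain ⟨T, hT, hG⟩ := cov (Matrix.of fun a i => fX f c x * E a i x)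
    (by rw [e0]; exact mul_ne_zero (pow_pos hf n).ne' d1)
  rw [e0, abs_mul, abs_of_pos (pow_pos hf n)] at hG
  have hd : 0 < |(Matrix.of fun a i => E a i x).det| := abs_pos.2 d1
  generalize |(Matrix.of fun a i => E a i x).det| = d at d2 hG hd
  have hw : ∀ y, T (y - x) = wv f c E (x, y) := fun y => by
    ext a
    simp only [hT, wv, zz, Matrix.of_apply, Finset.mul_sum, mul_assoc]
  generalize hU : (fun y => R (x, y) * Real.exp (-thw f c E (x, y))) = U at h1 h2
  have hU' : ∀ y, R (x, y) * Real.exp (-thw f c E (x, y)) = U y := congrFun hU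
  have hu : ∀ y, U (x + T.symm (T (y - x))) = U y := fun y => by simp
  have e1 : Real.exp (n / 2 * lX f c x) ^ 2 = fX f c x ^ n := by
    rw [fX, ← Real.exp_nat_mul, ← Real.exp_nat_mul]
    congr 1
    push_cast
    ring
  refine ⟨fun w => U (x + T.symm w), fX f c x ^ n * (fX f c x ^ n * d)⁻¹ ^ 2,
    h1.comp (by fun_prop), h2.comp_homeomorph (T.symm.toHomeomorph.trans (Homeomorph.addLeft x)),
    fun w h => ⟨x + T.symm w, left_ne_zero_of_mul ((hU' _).trans_ne h), by simp [← hw]⟩,
    fun h => ?_, by positivity, fun l => ?_⟩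
  · have e2 := hG (fun w => U (x + T.symm w) * h w * gs w) x
    simp only [hu] at e2
    have e3 : ∀ y, Real.exp (-phi f c (x, y)) * R (x, y) * h (wv f c E (x, y)) =
        Real.exp (-(f.Cw * lX f c x)) * (U y * h (wv f c E (x, y)) * gs (wv f c E (x, y))) :=
      fun y => by
        have : Real.exp (-phi f c (x, y)) = Real.exp (-(f.Cw * lX f c x)) *
            Real.exp (-thw f c E (x, y)) * gs (wv f c E (x, y)) := by
          rw [gs, ← Real.exp_add, ← Real.exp_add, thw]
          congr 1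
          ring
        rw [this, ← hU']
        ring
    simp only [momt, e3, integral_const_mul]
    simp only [← hw]
    rw [e2, ← mul_assoc, ← Real.exp_add, ← e1,
      show (f.Cw + n / 2) * lX f c x + -(f.Cw * lX f c x) = n / 2 * lX f c x by ring]
    ring
  · have e2 := hG (fun w => (1 + ‖w‖ ^ 2) ^ l * U (x + T.symm w) ^ 2) x
    simp only [hu] at e2
    simp only [hU', ← hw]
    have p : 0 ≤ ∫ w, (1 + ‖w‖ ^ 2) ^ l * U (x + T.symm w) ^ 2 :=
      integral_nonneg fun w => by positivity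
    rw [e2]
    generalize ∫ w, (1 + ‖w‖ ^ 2) ^ l * U (x + T.symm w) ^ 2 = J at p
    have : fX f c x ^ n * (fX f c x ^ n * d)⁻¹ ^ 2 * (Cb * J) =
        d⁻¹ * Cb * ((fX f c x ^ n * d)⁻¹ * J) := by field_simp
    rw [this]
    gcongr

end MBes

theorem s_mbes (h0 : S_w0) (h2 : S_w2) (h8 : S_w8) (hb : S_bes) : S_mbes := by
  intro n ι f hf
  obtain ⟨Cb, hCb, hb⟩ := hb n
  obtain ⟨C2, hC2, h2⟩ := h2 n ι f hf
  obtain ⟨C8, -, h8⟩ := h8 n ι f hf
  have hB : (1 : ℝ) ≤ n.factorial * 2 ^ n :=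
    one_le_mul_of_one_le_of_one_le (by exact_mod_cast n.factorial_pos) (one_le_pow₀ one_le_two)
  have hA : 1 ≤ n.factorial * 2 ^ n * Cb := one_le_mul_of_one_le_of_one_le hB hCb
  have he : Real.exp 1 ^ 2 ≤ 9 := by nlinarith [Real.exp_one_lt_d9, Real.exp_pos 1]
  refine ⟨144 * (n.factorial * 2 ^ n * Cb) + 8 * C2, by linarith, fun k hk => ?_⟩
  refine ((((h0 n ι f hf).and (h2 1 one_pos)).and (h8 k hk)).and (Ev.ok f one_pos 1)).mono ?_
  rintro c ⟨⟨⟨w0, w2⟩, -, -, w8s, w8⟩, ok⟩ F E R hF hE hR hs l hl x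
  have hγ := ok.2.2.2.2.2.2.2.2.2.2.1
  have cx : Continuous fun y : En n => ((x, y) : X2 n) := by fun_prop
  have c1 := hR.comp cx
  have c2 := (w8s E hE.1).1.continuous.comp cx
  have c3 := (w8s E hE.1).2.continuous.comp cx
  have c4 := (w0.1.2.2.2.2.2.2.2.2.2.1).continuous.comp cx
  have k1 : HasCompactSupport fun y => R (x, y) :=
    HasCompactSupport.intro (isCompact_closedBall c.p0 (1 / 2)) fun y hy => by
      by_contra h
      exact hy (mem_closedBall_iff_norm.2 (hs _ h).1.2)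
  have k2 : HasCompactSupport fun y => R (x, y) ^ 2 := k1.comp_left (g := fun t => t ^ 2) (by simp)
  have cU : Continuous fun y => R (x, y) * Real.exp (-thw f c E (x, y)) := c1.mul c3.neg.rexp
  have kU : HasCompactSupport fun y => R (x, y) * Real.exp (-thw f c E (x, y)) := k1.mul_right
  have hp : ∀ y, R (x, y) ≠ 0 → Real.exp (-thw f c E (x, y)) ^ 2 ≤ 9 ∧
      ‖wv f c E (x, y)‖ ^ 2 ≤ 4 * Psi f c (x, y) ∧ Psi f c (x, y) ≤ 2 * k * (C2 * LX f c x) :=
    fun y h => by
      obtain ⟨a1, a2⟩ := hs _ h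
      obtain ⟨b1, -, -, b2⟩ := w8 _ a1 a2
      obtain ⟨b3, b4, -⟩ := b2 E hE
      have b5 := ((w2 _ a1).2.2.2.2.2.2.2.2.2.2.2.2.1
        (le_trans (a := QQ c (x, y) ^ 2 * FF f c (x, y)) b1 (by norm_num))).2.2.2.2.2.1
      refine ⟨le_trans ?_ he, b4, le_trans a2 (mul_le_mul_of_nonneg_left b5 (by linarith))⟩
      gcongr
      linarith [(abs_le.1 b3).1]
  have main : ∀ (m : ℕ) (B : ℝ) (g : En n → ℝ), Continuous g →
      (∀ y, R (x, y) ≠ 0 → (1 + ‖wv f c E (x, y)‖ ^ 2) ^ m ≤ B * g y) →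
      ∫ y, (1 + ‖wv f c E (x, y)‖ ^ 2) ^ m * (R (x, y) * Real.exp (-thw f c E (x, y))) ^ 2 ≤
        9 * B * ∫ y, g y * R (x, y) ^ 2 := fun m B g hg h => by
    rw [← integral_const_mul]
    refine integral_mono_of_nonneg (Filter.Eventually.of_forall fun y => by positivity)
      (((hg.mul (c1.pow 2)).integrable_of_hasCompactSupport k2.mul_left).const_mul _)
      (Filter.Eventually.of_forall fun y => ?_)
    by_cases hy : R (x, y) = 0
    · simp [hy]
    · have a1 := mul_le_mul (h y hy) (hp y hy).1 (sq_nonneg _)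
        (le_trans (by positivity) (h y hy))
      have a2 := mul_le_mul_of_nonneg_right a1 (sq_nonneg (R (x, y)))
      simp only [mul_pow]
      linarith
  obtain ⟨u, s, u1, u2, u3, u4, hs0, u5⟩ := MBes.core (by linarith : 0 ≤ Cb) hγ hE R x cU kU
  obtain ⟨b1, b2⟩ := hb F hF u u1 u2 l hl
  simp only [u4, ← Finset.mul_sum]
  refine ⟨fun K => ?_, fun m => ?_⟩
  · have a1 := main l.length 16 (fun y => (1 + Psi f c (x, y)) ^ l.length)
      ((continuous_const.add c4).pow _) fun y hy => by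
        have q1 := (hp y hy).2.1
        have q2 : 0 ≤ 1 + Psi f c (x, y) := by nlinarith [sq_nonneg ‖wv f c E (x, y)‖]
        calc _ ≤ (4 * (1 + Psi f c (x, y))) ^ l.length :=
              pow_le_pow_left₀ (by positivity) (by linarith) _
          _ ≤ 4 ^ 2 * (1 + Psi f c (x, y)) ^ l.length := by
              rw [mul_pow]
              exact mul_le_mul_of_nonneg_right (pow_le_pow_right₀ (by norm_num) hl) (pow_nonneg q2 _)
          _ = _ := by norm_num
    have a2 : 0 ≤ 9 * 16 * ∫ y, (1 + Psi f c (x, y)) ^ l.length * R (x, y) ^ 2 :=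
      le_trans (integral_nonneg fun y => by positivity) a1
    have a3 := (mul_le_mul_of_nonneg_left (b1 K) hs0).trans ((u5 _).trans
      (mul_le_mul_of_nonneg_left a1 (by linarith)))
    nlinarith
  · have a1 := main 0 1 (fun _ => 1) continuous_const fun y _ => by simp
    have hL : 0 ≤ k * LX f c x :=
      mul_nonneg (by linarith) (by linarith [ok.2.1, (w0.2.1 x).2.1])
    have a2 := b2 m (8 * C2 * (k * LX f c x)) fun w hw => by
      obtain ⟨y, hy, rfl⟩ := u3 w hw
      nlinarith [(hp y hy).2.1, (hp y hy).2.2]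
    have a3 := (u5 0).trans (mul_le_mul_of_nonneg_left a1 (by linarith))
    simp only [pow_zero, one_mul, mul_one] at a3
    have a4 : 0 ≤ ∫ y, R (x, y) ^ 2 := integral_nonneg fun y => sq_nonneg _
    calc _ ≤ _ := mul_le_mul_of_nonneg_left a2 hs0
      _ = ((m : ℝ) + 1) ^ l.length * Real.exp (8 * C2 * (k * LX f c x)) / 2 ^ m *
          (s * (Cb * ∫ w, u w ^ 2)) := by ring
      _ ≤ ((m : ℝ) + 1) ^ l.length * Real.exp ((144 * (n.factorial * 2 ^ n * Cb) + 8 * C2) *
          (k * LX f c x)) / 2 ^ m *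
          ((144 * (n.factorial * 2 ^ n * Cb) + 8 * C2) * ∫ y, R (x, y) ^ 2) := by
          have a5 : 0 ≤ s * (Cb * ∫ w, u w ^ 2) :=
            mul_nonneg hs0 (mul_nonneg (by linarith) (integral_nonneg fun w => sq_nonneg _))
          have a6 : 8 * C2 * (k * LX f c x) ≤
              (144 * (n.factorial * 2 ^ n * Cb) + 8 * C2) * (k * LX f c x) :=
            mul_le_mul_of_nonneg_right (by linarith) hL
          refine mul_le_mul (by gcongr) (a3.trans ?_) a5 (by positivity)
          rw [← mul_assoc]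
          exact mul_le_mul_of_nonneg_right (by linarith) a4
      _ = _ := by rw [← mul_assoc _ k]; ring

end Vale.Agent.P088
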