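import Vale.Agent.P088.StI

/-!
# P088: assembly of the main estimate
-/

open MeasureTheory Set Metric Filter
open scoped ContDiff Topology

noncomputable section
namespace Vale.Agent.P088

namespace MEm

theorem ev_small (M : ℝ) {a : ℝ} (ha : 0 < a) : ∀ᶠ δ : ℝ in 𝓝[>] 0, δ * M ≤ a := by
  have h : Tendsto (fun δ : ℝ => δ * M) (𝓝 0) (𝓝 (0 * M)) := tendsto_id.mul_const M
  rw [zero_mul] at h
  exact (h.mono_left nhdsWithin_le_nhds).eventually (ge_mem_nhds ha)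

theorem num1 {n η : ℝ} (hn : 3 ≤ n) (hη : 0 < η) (hη' : n * η = 1 / 400) : η ≤ 1 / 1200 ∧
    ∃ ν, 8 * n * (1 + η) = ν ∧ 0 ≤ ν ∧ ν ≤ 9 * n ∧
      ν * η ≤ 21 / 1000 ∧ ν * ((1 + η) / (2 * (n - 1))) ≤ 61 / 10 := by
  have e1 : η ≤ 1 / 1200 := by nlinarith
  have e2 : n * η * η = 1 / 400 * η := by rw [hη']
  refine ⟨e1, _, rfl, by positivity, by linarith, by linarith, ?_⟩
  rw [← mul_div_assoc, div_le_iff₀ (by linarith)]
  linarith

theorem num2 {η e : ℝ} (hη : 0 < η) (e1 : η ≤ 1 / 1200) (he : 0 ≤ e) (he' : e ≤ 1 / 100) :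
    ∃ κ, 8 * (1 - η) * (1 - 2 * e) = κ ∧ 77 / 10 ≤ κ ∧ κ ≤ 8 :=
  ⟨_, rfl, by nlinarith, by nlinarith⟩

theorem step1 {n η e t₁ t₂ C₃ c₀ C CR δ L A1 A2 A3 A5 A4 V NN Dd R Gn S G SL SM : ℝ}
    (hn : 3 ≤ n) (hη : 0 < η) (hη' : n * η = 1 / 400) (he : 0 ≤ e) (he' : e ≤ 1 / 100)
    (ht₁ : 0 ≤ t₁) (ht₁' : t₁ ≤ 1 / 1000) (ht₂ : t₂ ≤ 1 / 1000) (ht₃ : t₁ * C₃ ≤ 1 / 1000)
    (hCR : 0 ≤ CR) (hδ : 0 ≤ δ) (hδ' : δ ≤ 1 / 1000) (hL : 0 ≤ L) (h1 : 0 ≤ A1) (h2 : 0 ≤ A2)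
    (h5 : 0 ≤ A5) (hN : 0 ≤ NN) (hG : 0 ≤ Gn) (hS : 0 ≤ S)
    (gi : L / 4 + c₀ * (A1 + A3 + A5) + 8 * (1 - η) * A2 + 8 * (1 - η) * (1 - 2 * e) * A4 -
      C * (V + NN) - t₁ * Dd - 8 * n * (1 + η) * R - δ * (A1 + Gn) -
      (8 * (n - 1) + η + t₁) * S ≤ G)
    (re : R ≤ (1 + η) / (2 * (n - 1)) * A2 + η * L + δ * Gn + CR * NN)
    (a4 : 3 / 4 * SL - 6 * SM ≤ A4) (sl : (2 * (n - 1) - t₂ - δ) * S ≤ SL + 2 * (δ * Gn))
    (sm : SM ≤ δ * (L + 2 * A5 + 2 * A1 + 2 * Gn))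
    (dd : Dd ≤ C₃ * (L + S) + 2 * (δ * (A1 + Gn))) :
    L / 8 + c₀ * (A1 + A3 + A5) + A2 + S ≤ G + C * V + (C + 9 * n * CR) * NN +
      δ * (9 * n + 110) * (L + A1 + A5 + Gn) := by
  obtain ⟨e1, ν, hν, n0, n1, n2, n3⟩ := num1 hn hη hη'
  have b1 := mul_nonneg hδ hL
  have b2 := mul_nonneg hδ h1
  have b3 := mul_nonneg hδ h5
  have b4 := mul_nonneg hδ hG
  obtain ⟨κ, hκ, k1, k2⟩ := num2 hη e1 he he'
  rw [hκ] at gi
  have c1 : 3 / 4 * ((2 * (n - 1) - t₂ - δ) * S) - (3 / 2 * (δ * Gn) +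
      6 * (δ * (L + 2 * A5 + 2 * A1 + 2 * Gn))) ≤ A4 := by linarith
  have c2 := mul_le_mul_of_nonneg_left c1 (by linarith : 0 ≤ κ)
  have c3 := mul_le_mul_of_nonneg_right k2 (show 0 ≤ 3 / 2 * (δ * Gn) +
      6 * (δ * (L + 2 * A5 + 2 * A1 + 2 * Gn)) by linarith)
  have c4 : (2 * (n - 1) - 2 / 1000) * S ≤ (2 * (n - 1) - t₂ - δ) * S :=
    mul_le_mul_of_nonneg_right (by linarith) hS
  have c5 := mul_le_mul_of_nonneg_right k1 (show 0 ≤ 3 / 4 * ((2 * (n - 1) - t₂ - δ) * S) from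
    mul_nonneg (by norm_num) (mul_nonneg (by linarith) hS))
  have c6 : (8 * (n - 1) + η + t₁) * S ≤ (8 * (n - 1) + 2 / 1000) * S :=
    mul_le_mul_of_nonneg_right (by linarith) hS
  have c7 := mul_le_mul_of_nonneg_right hn hS
  have d1 := mul_le_mul_of_nonneg_left dd ht₁
  have d2 := mul_le_mul_of_nonneg_right ht₃ (add_nonneg hL hS)
  have d3 := mul_le_mul_of_nonneg_right ht₁' (add_nonneg b2 b4)
  rw [hν] at gi
  have r1 := mul_le_mul_of_nonneg_left re n0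
  have r2 := mul_le_mul_of_nonneg_right n3 h2
  have r3 := mul_le_mul_of_nonneg_right n2 hL
  have r4 := mul_le_mul_of_nonneg_right n1 b4
  have r5 := mul_le_mul_of_nonneg_right n1 (mul_nonneg hCR hN)
  have r6 := mul_le_mul_of_nonneg_right e1 h2
  have r7 := mul_nonneg (by linarith : 0 ≤ n) (add_nonneg (add_nonneg b1 b2) b3)
  linarith

theorem step2 {c C C₁ K CG CR CV CO CZ : ℝ} (hc : 0 < c) (hc1 : c ≤ 1) (hC : 1 ≤ C)
    (hC₁ : 0 ≤ C₁) (hK : 0 ≤ K) (hCG : 1 ≤ CG) (hCR : 1 ≤ CR) (hCV : 1 ≤ CV) (hCO : 1 ≤ CO)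
    (hCZ : 1 ≤ CZ) : ∃ δ F : ℝ, 0 < δ ∧ δ ≤ 1 / 1000 ∧ 0 ≤ F ∧
    ∀ T V NN R Gn G I O : ℝ, 0 ≤ T → 0 ≤ NN → 0 ≤ G → 0 ≤ Gn →
      c * T ≤ G + C * V + C₁ * NN + δ * K * (T + Gn) → V ≤ c / (4 * C) * T + CV * NN →
      Gn ≤ CG * (T + NN) + R → R ≤ T + δ * Gn + CR * NN → NN ≤ I + CO * δ * Gn →
      I ≤ CZ * G + CZ * δ * (T + Gn) + δ * (R + NN + V) → O ≤ CO * (NN + Gn + V + T) →
      O ≤ F * G := by
  obtain ⟨C₂, hC₂⟩ : ∃ C₂, C₂ = 2 * (CG + CR) := ⟨_, rfl⟩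
  obtain ⟨C₄, hC₄⟩ : ∃ C₄, C₄ = 2 * (C₁ + C * CV + 1) + 1 := ⟨_, rfl⟩
  obtain ⟨E, hE⟩ : ∃ E, E = CZ + (CO + CZ) * C₂ + (C₂ + 1 + CV) := ⟨_, rfl⟩
  have p2 : 0 ≤ C₂ := by linarith
  have p4 : 0 ≤ C₄ := by rw [hC₄]; positivity
  have pE : 0 ≤ E := by rw [hE]; positivity
  obtain ⟨δ, ⟨⟨h1, h2⟩, h3⟩, h4, (h0 : 0 < δ)⟩ := (((((ev_small 1 (a := 1 / 1000) (by norm_num)).and
    (ev_small (K * (1 + C₂)) (a := c / 4) (by positivity))).and
    (ev_small (E * C₄) (a := c / 2) (by positivity))).and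
    ((ev_small E hc).and self_mem_nhdsWithin))).exists
  rw [mul_one] at h1
  refine ⟨δ, CO * (C₂ + 2 + CV) * ((2 + C₄ * (2 * (CZ + 2))) / c), h0, h1, by positivity,
    fun T V NN R Gn G I O hT hN hG hGn a1 a2 a3 a4 a5 a6 a7 => ?_⟩
  have hU := add_nonneg hT hN
  have b1 := mul_le_mul_of_nonneg_right h1 hGn
  have b2 := mul_le_mul_of_nonneg_right hCR hT
  have b3 := mul_le_mul_of_nonneg_right hCG hU
  have g1 : Gn ≤ C₂ * (T + NN) := by rw [hC₂]; linarith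
  have g2 : R ≤ C₂ * (T + NN) := by rw [hC₂] at g1 ⊢; linarith
  have e : C * (c / (4 * C) * T) = c / 4 * T := by field_simp
  have v1 := mul_le_mul_of_nonneg_left a2 (zero_le_one.trans hC)
  have v2 : V ≤ T + CV * NN := by
    have : c / (4 * C) ≤ 1 := by
      rw [div_le_one (by positivity)]
      linarith
    linarith [mul_le_mul_of_nonneg_right this hT]
  have t1 := mul_le_mul_of_nonneg_left g1 (mul_nonneg h0.le hK)
  have t2 := mul_le_mul_of_nonneg_right h2 hU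
  have t3 := mul_nonneg (mul_nonneg h0.le hK) hN
  have t4 := mul_le_mul_of_nonneg_right hc1 hN
  have t5 : c * (T + NN) ≤ 2 * G + C₄ * NN := by
    rw [hC₄]
    rw [mul_add, e] at v1
    linarith
  have n1 := mul_le_mul_of_nonneg_left g1 (show 0 ≤ (CO + CZ) * δ by positivity)
  have n2 := mul_le_mul_of_nonneg_left (add_le_add g2 v2) h0.le
  have n3 : 0 ≤ CZ * δ * NN := by positivity
  have n4 : 0 ≤ CV * δ * T := by positivity
  have n5 : NN ≤ CZ * G + δ * E * (T + NN) := by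
    rw [hE]
    linarith
  have n6 := mul_le_mul_of_nonneg_left n5 hc.le
  have n7 := mul_le_mul_of_nonneg_left t5 (mul_nonneg h0.le pE)
  have n8 := mul_le_mul_of_nonneg_right h3 hN
  have n9 := mul_le_mul_of_nonneg_right h4 hG
  have n10 : NN ≤ 2 * (CZ + 2) * G := le_of_mul_le_mul_left (by linarith) hc
  have f1 := mul_le_mul_of_nonneg_left n10 p4
  have f2 : T + NN ≤ (2 + C₄ * (2 * (CZ + 2))) / c * G := by
    rw [div_mul_eq_mul_div, le_div_iff₀ hc]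
    linarith
  have f3 : NN + Gn + V + T ≤ (C₂ + 2 + CV) * (T + NN) := by
    linarith [mul_nonneg (zero_le_one.trans hCV) hT]
  calc O ≤ CO * ((C₂ + 2 + CV) * (T + NN)) :=
        a7.trans (mul_le_mul_of_nonneg_left f3 (by positivity))
    _ ≤ CO * ((C₂ + 2 + CV) * ((2 + C₄ * (2 * (CZ + 2))) / c * G)) :=
        mul_le_mul_of_nonneg_left (mul_le_mul_of_nonneg_left f2 (by positivity)) (by positivity)
    _ = _ := by ring

end MEm

open MEm in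
theorem s_ME (hG : S_GI) (hC : S_GC) (hV : S_V2) (hO : S_OUT) (s1 : S_SL1) (s2 : S_SL2)
    (s3 : S_SL3) (hR : S_RE) (hZ : S_NZ) : S_ME := by
  intro n hn ι _
  obtain ⟨K₁, k1, hG⟩ := hG n
  obtain ⟨K₂, k2, s1⟩ := s1 n
  obtain ⟨K₃, k3, s3⟩ := s3 n
  refine ⟨1 / (1000 * (K₁ * K₂ * K₃)), by positivity, fun f hf hτ _ => ?_⟩
  have hn' : (3 : ℝ) ≤ n := by exact_mod_cast hn
  have hτ0 : 0 ≤ f.tau := by
    obtain ⟨a1, -, -, -, a2, -, -, -, a3, a4, -⟩ := hf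
    exact add_nonneg (by linarith) (by positivity)
  rw [le_div_iff₀ (by positivity)] at hτ
  have τ1 : K₁ * f.tau * K₃ ≤ 1 / 1000 := by
    linarith [mul_le_mul_of_nonneg_left k2 (show 0 ≤ K₁ * f.tau * K₃ by positivity)]
  have τ2 : K₁ * f.tau ≤ 1 / 1000 :=
    (le_mul_of_one_le_right (by positivity) k3).trans τ1
  have τ3 : K₂ * f.tau ≤ 1 / 1000 := by
    linarith [mul_le_mul_of_nonneg_left (one_le_mul_of_one_le_of_one_le k1 k3)
      (show 0 ≤ K₂ * f.tau by positivity)]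
  obtain ⟨η, hη, hη'⟩ : ∃ η : ℝ, 0 < η ∧ n * η = 1 / 400 :=
    ⟨1 / (400 * n), by positivity, by field_simp⟩
  have hη1 : η ≤ 1 := by nlinarith
  obtain ⟨N, CR, hN, hCR, hR⟩ := hR n (by omega) ι f hf η hη
  obtain ⟨c₀, C, hc₀, hC1, hG⟩ := hG ι f hf η N hη hη1 hN
  obtain ⟨CG, hCG, hC⟩ := hC n ι f hf
  have hc : 0 < min c₀ (1 / 8) := lt_min hc₀ (by norm_num)
  obtain ⟨CV, hCV, hV⟩ := hV n ι f hf (min c₀ (1 / 8) / (4 * C)) N (by positivity) hN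
  obtain ⟨CO, hCO, hO⟩ := hO n ι f hf
  obtain ⟨CZ, hCZ, hZ⟩ := hZ n hn ι f hf
  obtain ⟨δ, F, h0, h1, hF, h⟩ := step2 (C₁ := C + 9 * n * CR) (K := 9 * n + 110) hc
    ((min_le_right _ _).trans (by norm_num)) hC1 (by positivity) (by positivity) hCG hCR hCV hCO hCZ
  have hk : 1 ≤ δ⁻¹ := (one_le_inv₀ h0).2 (by linarith)
  refine ⟨F, hF, (((((hG δ h0).and hC).and (hV.and (hO δ h0))).and
    (((s1 ι f hf δ h0).and (s2 n ι f hf δ h0)).and (s3 ι f hf δ h0))).and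
    ((hR δ h0).and (hZ δ⁻¹ δ hk h0))).mono
    fun c ⟨⟨⟨⟨a1, a2⟩, a3, a4⟩, ⟨a5, a6⟩, a7⟩, a8, a9⟩ g q hT => ?_⟩
  obtain ⟨o1, -, o3, o4, o5, p1, p2, p3, p5, pG, -, pN, -, pX, pY, -, -, lX, lY, pGG, -⟩ :=
    a4 g q hT
  have b1 := step1 (A4 := A4 f c g q (sX f c 4) + A4 f c g q (sY f c 4))
    (SL := SLx f c g + SLy f c q) (SM := SMx f c g + SMy f c q) hn' hη hη' hf.2.2.1.le hf.2.2.2.1
    (by positivity) τ2 τ3 τ1 (by positivity) h0.le h1 (add_nonneg lX lY) p1 (p2 N) p5 pN pG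
    (add_nonneg pX pY) (a1 g q hT) (a8 g q hT) (by linarith)
    (by linarith [(a5 g q hT).1, (a5 g q hT).2]) (by linarith [(a6 g q hT).1, (a6 g q hT).2])
    (by linarith [(a7 g q hT).1, (a7 g q hT).2])
  have q2 := p2 N
  have o1' := o1 δ⁻¹ hk
  have z1 := a9 g q hT
  rw [div_inv_eq_mul] at o1' z1
  refine h (qLX f c g + qLY f c q + A1 f c g q + A3 f c g q + A5 f c g q + A2 f c g q N +
    Sx f c g + Sy f c q) (V2 f c g q) (NN f c g) (Rr f c g q 1) (Gn f c g q) _ _ _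
    (by linarith) pN pGG pG ?_ ((a3 g q hT).trans ?_) ((a2 g q hT).trans ?_)
    ((a8 g q hT).trans ?_) o1' (z1.trans ?_) (o3.trans ?_)
  · have c1 := mul_le_mul_of_nonneg_right (min_le_left c₀ (1 / 8))
      (show 0 ≤ A1 f c g q + A3 f c g q + A5 f c g q by linarith)
    have c2 := mul_le_mul_of_nonneg_right (min_le_right c₀ (1 / 8))
      (show 0 ≤ qLX f c g + qLY f c q + A2 f c g q N + Sx f c g + Sy f c q by linarith)
    have c3 : 0 ≤ δ * (9 * n + 110) * (A3 f c g q + A2 f c g q N + Sx f c g + Sy f c q) := by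
      positivity
    linarith
  · exact add_le_add_left (mul_le_mul_of_nonneg_left (by linarith) (by positivity)) _
  · exact add_le_add_left (mul_le_mul_of_nonneg_left (by linarith) (by positivity)) _
  · have c1 : (1 + η) / (2 * ((n : ℝ) - 1)) ≤ 1 := by
      rw [div_le_one (by linarith)]
      linarith
    have c2 := mul_le_mul_of_nonneg_right c1 q2
    have c3 := mul_le_mul_of_nonneg_right hη1 (add_nonneg lX lY)
    linarith
  · have c1 : 0 ≤ CZ * δ * (qLX f c g + qLY f c q + A5 f c g q + A2 f c g q N + Sx f c g +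
      Sy f c q) := by positivity
    linarith
  · exact mul_le_mul_of_nonneg_left (by linarith) (by positivity)

end Vale.Agent.P088
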