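import Vale.Agent.P088.ManS

open MeasureTheory Set Metric Filter
open scoped ContDiff Topology InnerProductSpace Manifold Matrix

noncomputable section
namespace Vale.Agent.P088
open Vale.Agent.P136 (D Sm Tst)

variable {n : ℕ} [NeZero n] {M : Type} [TopologicalSpace M] [T2Space M] [CompactSpace M]
  [ConnectedSpace M] [ChartedSpace (EuclideanHalfSpace n) M] [IsManifold (𝓡∂ n) ∞ M]
  [MeasurableSpace M] [BorelSpace M] {ι : Type} [Fintype ι] [DecidableEq ι] [Nonempty ι]

namespace ManAlg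

theorem bil_sum {n : ℕ} (B : En n →ₗ[ℝ] En n →ₗ[ℝ] ℝ) (ξ : Fin n → ℝ) :
    B (∑ k, ξ k • ee k) (∑ l, ξ l • ee l) = ∑ k, ∑ l, ξ k * (B (ee k) (ee l) * ξ l) := by
  simp only [map_sum, map_smul, LinearMap.sum_apply, LinearMap.smul_apply, smul_eq_mul,
    Finset.mul_sum]
  rw [Finset.sum_comm]
  exact Finset.sum_congr rfl fun i _ => Finset.sum_congr rfl fun j _ => by ring

theorem sum_ne {n : ℕ} {ξ : Fin n → ℝ} (h : ξ ≠ 0) : (∑ k, ξ k • ee k : En n) ≠ 0 := by
  intro h0
  apply h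
  funext i
  have := congrArg (fun v : En n => v i) h0
  simpa [ee, Pi.single_apply] using this

theorem pd_lin {n : ℕ} (B : En n →ₗ[ℝ] En n →ₗ[ℝ] ℝ) (h1 : ∀ v w, B v w = B w v)
    (h2 : ∀ v, v ≠ 0 → 0 < B v v) : (Matrix.of fun k l : Fin n => B (ee k) (ee l)).PosDef := by
  refine Matrix.PosDef.of_dotProduct_mulVec_pos ?_ fun ξ hξ => ?_
  · ext i j
    simp [h1 (ee i) (ee j)]
  · refine (h2 _ (sum_ne hξ)).trans_eq ?_
    rw [bil_sum]
    simp only [dotProduct, Matrix.mulVec, Matrix.of_apply, star_trivial, Finset.mul_sum]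

theorem quad_nonneg {n : ℕ} {ι : Type} [Fintype ι] {G : Matrix (Fin n) (Fin n) ℝ} (hG : G.PosDef)
    (ξ : Fin n → ι → ℝ) : 0 ≤ ∑ i, ∑ j, G i j * (ξ i ⬝ᵥ ξ j) := by
  have e : ∑ i, ∑ j, G i j * (ξ i ⬝ᵥ ξ j) =
      ∑ a, star (fun i => ξ i a) ⬝ᵥ G *ᵥ (fun i => ξ i a) := by
    simp only [dotProduct, Matrix.mulVec, star_trivial, Finset.mul_sum]
    rw [Finset.sum_comm (γ := ι)]
    refine Finset.sum_congr rfl fun i _ => ?_
    rw [Finset.sum_comm]
    exact Finset.sum_congr rfl fun j _ => Finset.sum_congr rfl fun a _ => by ring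
  rw [e]
  exact Finset.sum_nonneg fun a _ => hG.posSemidef.dotProduct_mulVec_nonneg _

theorem quad_symm {n : ℕ} {ι : Type} [Fintype ι] {G : Matrix (Fin n) (Fin n) ℝ} (hG : G.PosDef)
    (ξ ζ : Fin n → ι → ℝ) : ∑ i, ∑ j, G i j * (ξ i ⬝ᵥ ζ j) = ∑ i, ∑ j, G i j * (ζ i ⬝ᵥ ξ j) := by
  rw [Finset.sum_comm]
  refine Finset.sum_congr rfl fun i _ => Finset.sum_congr rfl fun j _ => ?_
  have h1 := congrFun (congrFun hG.1.eq i) j
  simp only [Matrix.conjTranspose_apply, star_trivial] at h1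
  rw [h1, dotProduct_comm]

section man
variable {n : ℕ} [NeZero n] {M : Type} [TopologicalSpace M]
  [ChartedSpace (EuclideanHalfSpace n) M] {ι : Type} [Fintype ι] [DecidableEq ι]

theorem pd {g : Bil n M} (hg : IsMetric g) (x : M) :
    (Matrix.of fun k l : Fin n => g x (ee k) (ee l))⁻¹.PosDef :=
  (pd_lin (g x) (hg.1 x) (hg.2.1 x)).inv

theorem rd_add {f f' : M → ℝ} {x : M} (hf : MDifferentiableAt (𝓡∂ n) 𝓘(ℝ, ℝ) f x)
    (hf' : MDifferentiableAt (𝓡∂ n) 𝓘(ℝ, ℝ) f' x) (v : TangentSpace (𝓡∂ n) x) :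
    rd (fun z => f z + f' z) x v = rd f x v + rd f' x v :=
  congrArg (fun T => T v) (hf.hasMFDerivAt.add hf'.hasMFDerivAt).mfderiv

theorem rd_smul {f : M → ℝ} {x : M} (hf : MDifferentiableAt (𝓡∂ n) 𝓘(ℝ, ℝ) f x) (c : ℝ)
    (v : TangentSpace (𝓡∂ n) x) : rd (fun z => c * f z) x v = c * rd f x v :=
  congrArg (fun T => T v) (hf.hasMFDerivAt.const_smul c).mfderiv

theorem rd_zero {f : M → ℝ} {x : M} (hf : f =ᶠ[𝓝 x] fun _ => 0) (v : TangentSpace (𝓡∂ n) x) :
    rd f x v = 0 :=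
  congrArg (fun T => T v)
    ((hasMFDerivAt_const (I := 𝓡∂ n) (I' := 𝓘(ℝ, ℝ)) (0 : ℝ) x).congr_of_eventuallyEq hf).mfderiv

omit [Fintype ι] [DecidableEq ι] in
theorem md {F : M → ι → ℝ} (hF : RSec n F) (a : ι) (x : M) :
    MDifferentiableAt (𝓡∂ n) 𝓘(ℝ, ℝ) (fun z => F z a) x :=
  (hF a).mdifferentiableAt (by simp)

omit [Fintype ι] [DecidableEq ι] in
theorem sec_add {F F' : M → ι → ℝ} (hF : RSec n F) (hF' : RSec n F') : RSec n (F + F') :=
  fun a => (hF a).add (hF' a)

omit [Fintype ι] [DecidableEq ι] in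
theorem sec_smul {F : M → ι → ℝ} (hF : RSec n F) (c : ℝ) : RSec n (c • F) :=
  fun a => contMDiff_const.mul (hF a)

omit [DecidableEq ι] in
theorem rdA_add (A : RForm n M ι) {F F' : M → ι → ℝ} (hF : RSec n F) (hF' : RSec n F') (x : M)
    (v : TangentSpace (𝓡∂ n) x) : rdA A (F + F') x v = rdA A F x v + rdA A F' x v := by
  unfold rdA
  have : (fun a => rd (fun z => (F + F') z a) x v) =
      (fun a => rd (fun z => F z a) x v) + fun a => rd (fun z => F' z a) x v :=
    funext fun a => rd_add (md hF a x) (md hF' a x) v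
  rw [this, Pi.add_apply, Matrix.mulVec_add]
  abel

omit [DecidableEq ι] in
theorem rdA_smul (A : RForm n M ι) {F : M → ι → ℝ} (hF : RSec n F) (c : ℝ) (x : M)
    (v : TangentSpace (𝓡∂ n) x) : rdA A (c • F) x v = c • rdA A F x v := by
  unfold rdA
  have : (fun a => rd (fun z => (c • F) z a) x v) = c • fun a => rd (fun z => F z a) x v :=
    funext fun a => rd_smul (md hF a x) c v
  rw [this, Pi.smul_apply, Matrix.mulVec_smul, smul_add]

omit [DecidableEq ι] in
theorem rbd_add (g : Bil n M) (A : RForm n M ι) {F F' : M → ι → ℝ} (hF : RSec n F)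
    (hF' : RSec n F') (F'' : M → ι → ℝ) (x : M) :
    rbd g A (F + F') F'' x = rbd g A F F'' x + rbd g A F' F'' x := by
  have h : ∀ i, rdA A (F + F') x (ee i) = rdA A F x (ee i) + rdA A F' x (ee i) := fun i =>
    rdA_add A hF hF' x (ee i)
  simp only [rbd, h, add_dotProduct, mul_add, Finset.sum_add_distrib]

omit [DecidableEq ι] in
theorem rbd_smul (g : Bil n M) (A : RForm n M ι) {F : M → ι → ℝ} (hF : RSec n F) (c : ℝ)
    (F'' : M → ι → ℝ) (x : M) : rbd g A (c • F) F'' x = c * rbd g A F F'' x := by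
  have h : ∀ i, rdA A (c • F) x (ee i) = c • rdA A F x (ee i) := fun i => rdA_smul A hF c x (ee i)
  simp only [rbd, h, smul_dotProduct, smul_eq_mul, Finset.mul_sum]
  exact Finset.sum_congr rfl fun i _ => Finset.sum_congr rfl fun j _ => by ring

variable [MeasurableSpace M]

omit [DecidableEq ι] in
theorem mem [CompactSpace M] [BorelSpace M] {g : Bil n M} [IsFiniteMeasure (vol g)]
    {F : M → ι → ℝ} (hF : RSec n F) :
    MemLp (fun x => (WithLp.toLp 2 (F x) : EuclideanSpace ℝ ι)) 2 (vol g) := by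
  have hc : Continuous (fun x => (WithLp.toLp 2 (F x) : EuclideanSpace ℝ ι)) :=
    (PiLp.continuous_toLp 2 _).comp (continuous_pi fun a => (hF a).continuous)
  obtain ⟨C, hC⟩ := isCompact_univ.exists_bound_of_continuousOn hc.continuousOn
  exact MemLp.of_bound hc.aestronglyMeasurable C (Eventually.of_forall fun x => hC x trivial)

omit [DecidableEq ι] in
theorem tm_eq {g : Bil n M} {F : M → ι → ℝ}
    (h : MemLp (fun x => (WithLp.toLp 2 (F x) : EuclideanSpace ℝ ι)) 2 (vol g)) :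
    tm g F = h.toLp _ := dif_pos h

omit [DecidableEq ι] in
theorem inner_eq {g : Bil n M} (K K' : LM ι g) :
    ⟪K, K'⟫_ℝ = ∫ x, ∑ a, cm K x a * cm K' x a ∂(vol g) := by
  rw [L2.inner_def]
  refine integral_congr_ae (Eventually.of_forall fun x => ?_)
  simp only [PiLp.inner_apply, cm]
  exact Finset.sum_congr rfl fun a _ => by simp [mul_comm]

end man

end ManAlg

open ManAlg in
theorem m_alg (fin : M_fin n M ι) : M_alg n M ι := by
  intro g A hg hA
  obtain ⟨hfin, -, hint⟩ := fin g A hg hA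
  have hnn : ∀ (F : M → ι → ℝ) x, 0 ≤ rbd g A F F x := fun F x =>
    quad_nonneg (pd hg x) fun i => rdA A F x (ee i)
  have hsy : ∀ (F F' : M → ι → ℝ) x, rbd g A F F' x = rbd g A F' F x := fun F F' x =>
    quad_symm (pd hg x) (fun i => rdA A F x (ee i)) fun i => rdA A F' x (ee i)
  have hadd : ∀ F F' : M → ι → ℝ, RSec n F → RSec n F' → tm g (F + F') = tm g F + tm g F' := by
    intro F F' hF hF'
    rw [tm_eq (mem (sec_add hF hF')), tm_eq (mem hF), tm_eq (mem hF'), ← MemLp.toLp_add]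
    rfl
  have hsm : ∀ (F : M → ι → ℝ) (c : ℝ), RSec n F → tm g (c • F) = c • tm g F := by
    intro F c hF
    rw [tm_eq (mem (sec_smul hF c)), tm_eq (mem hF), ← MemLp.toLp_const_smul]
    rfl
  have hba : ∀ F F' F'' : M → ι → ℝ, RSec n F → RSec n F' → RSec n F'' →
      rbil g A (F + F') F'' = rbil g A F F'' + rbil g A F' F'' := by
    intro F F' F'' hF hF' hF''
    unfold rbil
    simp only [rbd_add g A hF hF']
    exact integral_add (hint _ _ hF hF'') (hint _ _ hF' hF'')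
  have hbs : ∀ (F F' : M → ι → ℝ) (c : ℝ), RSec n F →
      rbil g A (c • F) F' = c * rbil g A F F' := by
    intro F F' c hF
    unfold rbil
    simp only [rbd_smul g A hF]
    exact integral_const_mul _ _
  have hsub : ∀ F F' : M → ι → ℝ, F - F' = F + (-1 : ℝ) • F' := fun F F' => by
    rw [neg_one_smul, sub_eq_add_neg]
  refine ⟨fun a => contMDiff_const, hnn, hsy, fun F F' x h => ?_, inner_eq, fun K K' => ⟨?_, ?_⟩,
    fun F F' hF hF' => ?_⟩
  · have h0 : ∀ v, rdA A F x v = 0 := fun v => by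
      unfold rdA
      have h1 : (fun a => rd (fun z => F z a) x v) = 0 :=
        funext fun a => rd_zero (h.mono fun z hz => congrFun hz a) v
      have h2 : F x = 0 := h.self_of_nhds
      rw [h1, h2, Matrix.mulVec_zero, add_zero]
    have h3 : ∀ i, rdA A F x (ee i) = 0 := fun i => h0 (ee i)
    simp [rbd, h3]
  · filter_upwards [Lp.coeFn_sub K K'] with x hx
    funext a
    exact congrArg (fun v : EuclideanSpace ℝ ι => v a) hx
  · filter_upwards [Lp.coeFn_add K K'] with x hx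
    funext a
    exact congrArg (fun v : EuclideanSpace ℝ ι => v a) hx
  · have hcm : ∀ᵐ x ∂(vol g), cm (tm g F) x = F x := by
      rw [tm_eq (mem hF)]
      filter_upwards [(mem (g := g) hF).coeFn_toLp] with x hx
      funext a
      simp [cm, hx]
    refine ⟨sec_add hF hF', ?_, fun c => ⟨sec_smul hF c, hsm F c hF, hbs F F' c hF⟩,
      hadd F F' hF hF', ?_, hcm, ?_, ?_, integral_nonneg (hnn F), fun F'' hF'' =>
        ⟨hba F F' F'' hF hF' hF'', ?_⟩⟩
    · rw [hsub]; exact sec_add hF (sec_smul hF' _)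
    · rw [hsub, hadd _ _ hF (sec_smul hF' _), hsm _ _ hF', neg_one_smul, sub_eq_add_neg]
    · rw [← real_inner_self_eq_norm_sq, inner_eq]
      refine integral_congr_ae ?_
      filter_upwards [hcm] with x hx
      simp [hx, sq]
    · exact integral_congr_ae (Eventually.of_forall (hsy F F'))
    · rw [hsub, hba _ _ _ hF (sec_smul hF' _) hF'', hbs _ _ _ hF']
      ring

end Vale.Agent.P088
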