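import Vale.Agent.P088.ManS

/-!
# P088, manifold part: smooth extension to the boundary
-/

open MeasureTheory Set Metric Filter
open scoped ContDiff Topology InnerProductSpace Manifold Matrix

noncomputable section
namespace Vale.Agent.P088
open Vale.Agent.P136 (D Sm Tst)

variable {n : ℕ} [NeZero n] {M : Type} [TopologicalSpace M] [T2Space M] [CompactSpace M]
  [ConnectedSpace M] [ChartedSpace (EuclideanHalfSpace n) M] [IsManifold (𝓡∂ n) ∞ M]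
  [MeasurableSpace M] [BorelSpace M] {ι : Type} [Fintype ι] [DecidableEq ι] [Nonempty ι]

theorem m_ginv (h1 : B1 n M ι) : M_ginv n M ι := by
  intro X₁ X₂ Γ Φ Ψ Φ' Ψ' U U' hG hG' x hx
  obtain ⟨R, gc, Ac, P, hR, hP, rfl⟩ := h1.xi X₂.g X₂.A X₂.hg X₂.hA x hx
  have m := hG.tr _ gc Ac P hP (by rintro _ ⟨y, hy, rfl⟩; exact hP.int y hy)
  have h0 : (0 : En n) ∈ ball (0 : En n) R := mem_ball_self hR
  have hL := h1.loc X₁.g X₂.g X₁.A X₂.A _ gc Ac _ P X₁.hA m.p₁.toPar0 hP.toPar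
  have e1 : EqOn (fun x => (P.tr Φ Ψ U).θ (P.κ x)) Φ (P.θ '' ball 0 R) := by
    rintro _ ⟨y, hy, rfl⟩
    simp only [hP.linv y hy, Fr.tr]
  have e2 : EqOn (fun x => (P.tr Φ Ψ U).rel P (P.κ x)) U (P.θ '' ball 0 R) := by
    rintro _ ⟨y, hy, rfl⟩
    simp only [hP.linv y hy]
    exact (hG.uniq _ gc Ac _ _ m y hy).2.2.symm
  have hN : P.θ '' ball 0 R ∈ 𝓝 (P.θ 0) := hP.opn.mem_nhds ⟨0, h0, rfl⟩
  refine ⟨(hG'.uniq _ gc Ac _ _ m.symm 0 h0).2.1, ?_, _, _, _, hP.opn, ⟨0, h0, rfl⟩, hL,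
    e1.mono inter_subset_left, e2.mono inter_subset_left⟩
  exact (hL.1.continuousOn.congr e1.symm).continuousAt hN

theorem m_bext (hE : EAll) (h1 : B1 n M ι) (ginv : M_ginv n M ι) : M_bext n M ι := by
  intro X₁ X₂ Γ Φ Ψ Φ' Ψ' U U' hG hG' q
  by_cases hq : q ∈ intM n M
  · exact (ginv X₁ X₂ Γ Φ Ψ Φ' Ψ' U U' hG hG' q hq).2.2
  have hq' : q ∈ bdM n M := by
    by_contra h
    exact hq (int_iff_not_bd.2 h)
  obtain ⟨R, θ, κ, hθ0, -, hb⟩ := h1.xb q hq' univ isOpen_univ (mem_univ _)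
  obtain ⟨gc, Ac, hB⟩ := hb X₂.g X₂.A X₂.hg X₂.hA
  obtain ⟨P, hPd⟩ : ∃ P : Fr n M ι, P = ⟨θ, κ, oneS n ι⟩ := ⟨_, rfl⟩
  have hP0 : P.θ 0 = q := by rw [hPd]; exact hθ0
  rw [← hPd] at hB
  have hR := hB.pos
  have hP : IP X₂.g X₂.A (Up n R) gc Ac P :=
    (h1.restr _ _ _ _ _).2.2.2.1 _ _ hB (isOpen_Up R) subset_rfl
  have m := hG.tr _ gc Ac P hP (by rintro _ ⟨y, hy, rfl⟩; exact hP.int y hy)
  have hcl : (0 : En n) ∈ closure (Up n R) := Hb_sub_closure R (zero_mem_Hb hR)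
  haveI : (𝓝[Up n R] (0 : En n)).NeBot := mem_closure_iff_nhdsWithin_neBot.1 hcl
  obtain ⟨x₁, hx₁⟩ := h1.lim X₁.g X₁.A X₁.hg X₁.hA _ gc Ac _ m.p₁ (convex_Up R) 0 hcl
  have hb₁ : x₁ ∈ bdM n M := by
    by_contra h
    have hi : x₁ ∈ intM n M := int_iff_not_bd.2 h
    have hc := (ginv X₂ X₁ Γ Φ' Ψ' Φ Ψ U' U hG' hG x₁ hi).2.1
    have t1 : Tendsto P.θ (𝓝[Up n R] 0) (𝓝 (Φ' x₁)) := by
      refine (hc.tendsto.comp hx₁).congr' ?_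
      filter_upwards [self_mem_nhdsWithin] with y hy
      exact (hG'.uniq _ gc Ac _ _ m.symm y hy).2.1
    have t2 : Tendsto P.θ (𝓝[Up n R] 0) (𝓝 q) := by
      rw [← hP0]
      exact (hB.smθ.continuousOn 0 (zero_mem_Hb hR)).mono (Up_sub_Hb R)
    exact hq (tendsto_nhds_unique t1 t2 ▸ hG'.maps x₁ hi)
  obtain ⟨R₁, θ₁, κ₁, hθ₁, -, hb'⟩ := h1.xb x₁ hb₁ univ isOpen_univ (mem_univ _)
  obtain ⟨gb, Ab, hB₁⟩ := hb' X₁.g X₁.A X₁.hg X₁.hA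
  obtain ⟨C, hCd⟩ : ∃ C : Fr n M ι, C = ⟨θ₁, κ₁, oneS n ι⟩ := ⟨_, rfl⟩
  have hC0 : C.θ 0 = x₁ := by rw [hCd]; exact hθ₁
  rw [← hCd] at hB₁
  have hR₁ := hB₁.pos
  have hC : BP X₁.g X₁.A (R₁ / 2) gb Ab C :=
    (h1.restr _ _ _ _ _).2.2.1 _ _ hB₁ (by linarith) (by linarith)
  have hN : C.θ '' Hb n (R₁ / 2) ∈ 𝓝 x₁ := hC.opn.mem_nhds ⟨0, zero_mem_Hb hC.pos, hC0⟩
  obtain ⟨ε, hε, hε1⟩ := Metric.mem_nhdsWithin_iff.1 (hx₁ hN)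
  obtain ⟨r, hr, hrε, hrR⟩ : ∃ r : ℝ, 0 < r ∧ r ≤ ε ∧ r ≤ R :=
    ⟨min ε R, lt_min hε hR, min_le_left _ _, min_le_right _ _⟩
  have hP₁ : IP X₁.g X₁.A (Up n r) gc Ac (P.tr Φ Ψ U) :=
    (h1.restr _ _ _ _ _).2.1 _ _ m.p₁ (isOpen_Up r) (Up_mono hrR)
  obtain ⟨hI, -, hmap, hpt⟩ := h1.trans X₁.g X₁.A _ _ gb gc Ab Ac C _ X₁.hA hC.toPar hP₁ (by
    rintro _ ⟨y, hy, rfl⟩
    exact hε1 ⟨ball_subset_ball hrε hy.1, Up_mono hrR hy⟩)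
  obtain ⟨Φt, St, hΦt, hSt, e1, e2, hIt⟩ := hE.isoext n ι gb gc Ab Ac r (r / 2) _ _ hC.ga hB.ga
    (by linarith) hI (hC.bdd.subset hmap.image_subset)
  have hBr : BP X₂.g X₂.A (r / 2) gc Ac P :=
    (h1.restr _ _ _ _ _).2.2.1 _ _ hB (by linarith) (by linarith)
  have hU : Up n (r / 2) ⊆ Up n r := Up_mono (by linarith)
  have hmt : MapsTo Φt (Hb n (r / 2)) (Hb n R₁) := by
    have hcl : IsClosed (closedBall (0 : En n) (R₁ / 2) ∩ {y | 0 ≤ y 0}) :=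
      isClosed_closedBall.inter (isClosed_le continuous_const cont0)
    have h : MapsTo Φt (Up n (r / 2)) (closedBall (0 : En n) (R₁ / 2) ∩ {y | 0 ≤ y 0}) := by
      intro y hy
      rw [e1 hy]
      exact ⟨ball_subset_closedBall (hmap (hU hy)).1, (hmap (hU hy)).2⟩
    intro y hy
    have := hcl.closure_subset (h.closure hΦt.continuous (Hb_sub_closure _ hy))
    exact ⟨closedBall_subset_ball (by linarith) this.1, this.2⟩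
  have hP0' := h1.comp0 X₁.g X₁.A _ _ gb gc Ab Ac C Φt id St hB₁.toPar0 hBr.uniq hBr.meas hBr.bdd
    hB.ga hIt (fun y _ => hΦt.contDiffAt) (fun y _ a a' => (hSt a a').contDiffAt) hmt
  have key : ∀ x ∈ P.θ '' Hb n (r / 2) ∩ intM n M, ∃ y ∈ Up n (r / 2), P.θ y = x ∧ P.κ x = y := by
    rintro _ ⟨⟨y, hy, rfl⟩, hi⟩
    have h0 : 0 < y 0 := lt_of_le_of_ne hy.2 fun h =>
      int_iff_not_bd.1 hi ((hBr.bd y hy).2 h.symm)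
    exact ⟨y, ⟨hy.1, h0⟩, rfl, hBr.linv y hy⟩
  refine ⟨_, _, _, hBr.opn, ⟨0, zero_mem_Hb hBr.pos, hP0⟩,
    h1.loc X₁.g X₂.g X₁.A X₂.A _ gc Ac _ P X₁.hA hP0' hBr.toPar, fun x hx => ?_, fun x hx => ?_⟩
  · obtain ⟨y, hy, rfl, hk⟩ := key x hx
    simp only [hk, Fr.comp, e1 hy]
    exact (hpt y (hU hy)).1
  · obtain ⟨y, hy, rfl, hk⟩ := key x hx
    simp only [hk]
    rw [(hG.uniq _ gc Ac _ _ m y (Up_mono hrR (hU hy))).2.2]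
    ext a b
    simp only [Fr.rel, Matrix.of_apply, (hpt y (hU hy)).2.1, Fr.comp, e1 hy,
      fun a a' => e2 a a' hy]

end Vale.Agent.P088
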