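import Vale.Agent.P088.ManE

/-!
# P088: from equal Green operators in the lower half ball to a flat isometry
-/

open MeasureTheory Set Metric Filter
open scoped ContDiff Topology InnerProductSpace

noncomputable section
namespace Vale.Agent.P088
open Vale.Agent.P136 (D Sm Tst D_congr D_const)

namespace ManBs2

variable {n : ℕ} {ι : Type} [Fintype ι] [DecidableEq ι] {g₁ g₂ : MatF n} {A₁ A₂ : ConF n ι}

theorem iso_mono {V V' : Set (En n)} {Φ : En n → En n} {S : ι → ι → En n → ℝ}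
    (h : Iso g₁ A₁ g₂ A₂ V Φ S) (hV : V' ⊆ V) : Iso g₁ A₁ g₂ A₂ V' Φ S :=
  ⟨h.1.mono hV, fun a a' => (h.2.1 a a').mono hV, fun y hy => h.2.2 y (hV hy)⟩

theorem D_coord (i k : Fin n) (y : En n) :
    D (ee i) (fun z : En n => z k) y = if k = i then 1 else 0 := by
  have h : HasFDerivAt (fun z : En n => z k) (EuclideanSpace.proj (𝕜 := ℝ) k) y :=
    (EuclideanSpace.proj (𝕜 := ℝ) k).hasFDerivAt
  simp only [D, h.fderiv, ee]
  simp [PiLp.single_apply]

theorem iso_id {V : Set (En n)}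
    (h : ∀ y ∈ V, (∀ i j, g₁ i j y = g₂ i j y) ∧ ∀ i a a', A₁ i a a' y = A₂ i a a' y) :
    Iso g₁ A₁ g₂ A₂ V id (oneS n ι) := by
  refine ⟨contDiffOn_id, fun a a' => contDiffOn_const, fun y hy => ⟨fun a a' => ?_,
    fun i j => ?_, fun i a a' => ?_⟩⟩
  · simp [oneS, eq_comm]
  · simp [D_coord, (h y hy).1]
  · have : D (ee i) (oneS n ι a a') y = 0 := D_const _ _ _
    rw [this]
    simp [oneS, D_coord, (h y hy).2]

theorem iso_congr {V : Set (En n)} {Φ Φ' : En n → En n} {S S' : ι → ι → En n → ℝ}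
    (h : Iso g₁ A₁ g₂ A₂ V Φ S) (hV : IsOpen V) (e : EqOn Φ' Φ V)
    (e' : ∀ a a', EqOn (S' a a') (S a a') V) : Iso g₁ A₁ g₂ A₂ V Φ' S' := by
  refine ⟨h.1.congr e, fun a a' => (h.2.1 a a').congr (e' a a'), fun y hy => ?_⟩
  have h1 : ∀ i k, D (ee i) (fun z => Φ' z k) y = D (ee i) (fun z => Φ z k) y := fun i k =>
    D_congr (by filter_upwards [hV.mem_nhds hy] with z hz using by rw [e hz]) _
  have h2 : ∀ i a a', D (ee i) (S' a a') y = D (ee i) (S a a') y := fun i a a' =>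
    D_congr (by filter_upwards [hV.mem_nhds hy] with z hz using e' a a' hz) _
  have h3 : ∀ a a', S' a a' y = S a a' y := fun a a' => e' a a' hy
  simp only [h1, h2, h3, e hy]
  exact h.2.2 y hy

omit [DecidableEq ι] in
theorem agree_ae {U O B : Set (En n)} {G₁ G₂ : HL n ι U →L[ℝ] HL n ι U} (h : Agree O G₁ G₂)
    (hB : MeasurableSet B) (hBO : B ⊆ O) (hBU : B ⊆ U) {F : HL n ι U} (hF : SuppIn B F) :
    ∀ᵐ y ∂(volume.restrict B), G₂ F y = G₁ F y := by
  have hm := (Lp.memLp (G₁ F - G₂ F)).indicator hB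
  have e := hm.coeFn_toLp
  have h1 : ⟪G₁ F - G₂ F, hm.toLp _⟫_ℝ = 0 := by
    rw [inner_sub_left, h F _ (hF.mono fun y hy hyO => hy fun hyB => hyO (hBO hyB)), sub_self]
    filter_upwards [e] with y hy hyO
    rw [hy, indicator_of_notMem fun hyB => hyO (hBO hyB)]
  have h2 : ⟪hm.toLp _, hm.toLp _⟫_ℝ = 0 := by
    rw [← h1, L2.inner_def, L2.inner_def]
    refine integral_congr_ae ?_
    filter_upwards [e] with y hy
    rw [hy]
    by_cases hyB : y ∈ B
    · rw [indicator_of_mem hyB]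
    · rw [indicator_of_notMem hyB, inner_zero_right, inner_zero_right]
  rw [inner_self_eq_zero] at h2
  rw [h2] at e
  have h3 : ∀ᵐ y ∂(volume.restrict U), y ∈ B → G₂ F y = G₁ F y := by
    filter_upwards [e, Lp.coeFn_zero (EuclideanSpace ℝ ι) 2 (volume.restrict U),
      Lp.coeFn_sub (G₁ F) (G₂ F)] with y h4 h5 h6 hyB
    rw [h5, indicator_of_mem hyB, h6] at h4
    exact (sub_eq_zero.1 h4.symm).symm
  filter_upwards [ae_restrict_of_ae_restrict_of_subset hBU h3, ae_restrict_mem hB] with y h4 h5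
  exact h4 h5

variable [NeZero n]

theorem c0 : Continuous fun y : En n => y 0 := (EuclideanSpace.proj (𝕜 := ℝ) (0 : Fin n)).continuous

theorem lo_open (r : ℝ) : IsOpen (Lo n r) := isOpen_ball.inter (isOpen_lt c0 continuous_const)

theorem lo_conn (r : ℝ) : IsPreconnected (Lo n r) :=
  ((convex_ball 0 r).inter (convex_halfSpace_lt
    (EuclideanSpace.proj (𝕜 := ℝ) (0 : Fin n)).toLinearMap.isLinear 0)).isPreconnected

theorem lo_closure (r : ℝ) : ball 0 r ∩ {y : En n | y 0 ≤ 0} ⊆ closure (Lo n r) := by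
  rintro y ⟨hy, hy0⟩
  refine isOpen_ball.inter_closure ⟨hy, ?_⟩
  have h1 : Tendsto (fun s : ℝ => y - s • ee 0) (𝓝[>] 0) (𝓝 y) := by
    have : Continuous fun s : ℝ => y - s • ee (0 : Fin n) := by fun_prop
    simpa using (this.tendsto 0).mono_left nhdsWithin_le_nhds
  refine mem_closure_of_tendsto h1 ?_
  filter_upwards [self_mem_nhdsWithin] with s hs
  have h2 : (y - s • ee (0 : Fin n)) 0 = y 0 - s := by simp [ee]
  rw [h2]
  exact sub_neg.2 (lt_of_le_of_lt (show y 0 ≤ 0 from hy0) hs)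

theorem ball_sub {r : ℝ} (hr : 0 < r) :
    ‖(-(r / 4) • ee 0 : En n)‖ = r / 4 ∧ ball (-(r / 4) • ee 0) (r / 4) ⊆ Lo n r := by
  have h1 : ‖(-(r / 4) • ee 0 : En n)‖ = r / 4 := by
    rw [norm_smul, ee, PiLp.norm_single, norm_one, mul_one, norm_neg, Real.norm_of_nonneg]
    positivity
  refine ⟨h1, fun y hy => ⟨?_, ?_⟩⟩
  · rw [mem_ball_iff_norm] at hy
    rw [mem_ball_zero_iff]
    have := norm_le_norm_sub_add y (-(r / 4) • ee 0)
    linarith
  · rw [mem_ball_iff_norm] at hy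
    have h2 := (le_abs_self _).trans (PiLp.norm_apply_le (y - -(r / 4) • ee (0 : Fin n)) 0)
    have h3 : (y - -(r / 4) • ee (0 : Fin n)) 0 = y 0 + r / 4 := by simp [ee]
    rw [h3] at h2
    rw [mem_ofPred_eq]
    linarith

end ManBs2

open ManBs2

theorem e_bstep2 (hLT : S_LT) (hend : S_end) (hrig : S_rig) (hii : S_isoInter) (hcop : S_cop)
    (hinv : E_inv) (hC : E_isoC) (htl : E_tl) : E_bstep2 := by
  intro n _ hn ι _ _ _ g₁ g₂ A₁ A₂ r G₁ G₂ h₁ h₂ hr hco hG₁ hG₂ hs₁ hs₂ hag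
  obtain ⟨hq, hB⟩ := ball_sub (n := n) hr
  set q : En n := -(r / 4) • ee 0 with hqd
  have hρ : 0 < r / 4 := by positivity
  have hBU : ball q (r / 4) ⊆ ball 0 r := fun y hy => (hB hy).1
  have hI : Iso g₁ A₁ g₂ A₂ (Lo n r) id (oneS n ι) := iso_id hco
  obtain ⟨r', Φ, S, μ, hr', hint, eΦ, eS⟩ := hLT n hn ι (cop g₁ A₁) (cop g₂ A₂) r (r / 4) 1 q
    G₁ G₂ id (oneS n ι) _ (hcop n ι g₁ A₁ h₁).1 (hcop n ι g₂ A₂ h₂).1 hρ hq (by linarith)
    hG₁ hG₂ hs₁ hs₂ (hii n ι g₁ g₂ A₁ A₂ _ _ _ h₁ h₂ isOpen_ball (iso_mono hI hB))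
    (injOn_id _) hBU (tendsto_id.mono_left nhdsWithin_le_nhds) (fun y _ => by
      refine ⟨?_, fun v => ?_, fun a a' => ?_, ?_⟩
      · rw [fderiv_id]
        exact ContinuousLinearMap.norm_id_le
      · simp
      · simp only [oneS]
        split_ifs <;> simp
      · have : (Matrix.of fun a a' => oneS n ι a a' y) = 1 := by
          ext a a'
          simp [oneS, Matrix.one_apply]
        simp [this]) (fun F₁ F₂ hF₁ hF₂ hF => by
      rw [image_id] at hF₁
      have e : F₁ = F₂ := by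
        refine (htl n ι _).2.2.1 F₁ F₂ fun a => ?_
        rw [ae_restrict_iff' measurableSet_ball] at hF
        filter_upwards [hF₁, hF₂, ae_restrict_of_ae hF] with y a1 a2 a3
        by_cases hy : y ∈ ball q (r / 4)
        · rw [a3 hy a]
          simp [oneS, ContinuousLinearMap.det]
        · simp only [cp, a1 hy, a2 hy]
      subst e
      filter_upwards [agree_ae hag measurableSet_ball hB hBU hF₁] with y hy a
      simp [oneS, cp, hy])
  have hV'o : IsOpen (ball (0 : En n) r' ∩ ball q (r / 4)) := isOpen_ball.inter isOpen_ball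
  have hV'n : (ball (0 : En n) r' ∩ ball q (r / 4)).Nonempty := by
    refine mem_closure_iff_nhds.1 ?_ _ (ball_mem_nhds 0 hr')
    rw [closure_ball q hρ.ne', mem_closedBall, dist_zero_left, hq]
  have hI' : Iso g₁ A₁ g₂ A₂ (ball 0 r') Φ S :=
    hend n hn ι g₁ g₂ A₁ A₂ _ _ Φ S μ h₁ h₂ isOpen_ball (convex_ball 0 r').isPreconnected hV'o
      hV'n inter_subset_left hint
      (iso_congr (iso_mono hI (inter_subset_right.trans hB)) hV'o eΦ eS)
  obtain ⟨y₀, hy₀⟩ := hV'n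
  have hm1 : ball (0 : En n) (min r r') ⊆ ball 0 r := ball_subset_ball (min_le_left _ _)
  have hm2 : ball (0 : En n) (min r r') ⊆ ball 0 r' := ball_subset_ball (min_le_right _ _)
  obtain ⟨fΦ, fS⟩ := hrig n ι g₁ g₂ A₁ A₂ (Lo n (min r r')) Φ id S (oneS n ι) y₀ h₁ h₂
    (lo_open _) (lo_conn _) (iso_mono hI' fun y hy => hm2 hy.1)
    (iso_mono hI fun y hy => ⟨hm1 hy.1, hy.2⟩)
    ⟨mem_ball.2 (lt_min (mem_ball.1 (hB hy₀.2).1) (mem_ball.1 hy₀.1)), (hB hy₀.2).2⟩
    (eΦ.eventuallyEq_of_mem (hV'o.mem_nhds hy₀))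
    (fun a a' => (eS a a').eventuallyEq_of_mem (hV'o.mem_nhds hy₀))
  have hsub : Lo n (min r r') ⊆ ball 0 (min r r') ∩ {y : En n | y 0 ≤ 0} :=
    fun y hy => ⟨hy.1, (show y 0 < 0 from hy.2).le⟩
  have gΦ : EqOn Φ id (ball 0 (min r r') ∩ {y : En n | y 0 ≤ 0}) :=
    fΦ.of_subset_closure (hI'.1.continuousOn.mono fun y hy => hm2 hy.1) continuousOn_id hsub
      (lo_closure _)
  have gS : ∀ a a', EqOn (S a a') (oneS n ι a a') (ball 0 (min r r') ∩ {y : En n | y 0 ≤ 0}) :=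
    fun a a' => (fS a a').of_subset_closure
      ((hI'.2.1 a a').continuousOn.mono fun y hy => hm2 hy.1) continuousOn_const hsub
      (lo_closure _)
  obtain ⟨d, hd, -, hinj⟩ := (hinv n _ Φ isOpen_ball hI'.1
    (hC n ι g₁ g₂ A₁ A₂ _ Φ S h₁ h₂ isOpen_ball hI').1).1 0 (mem_ball_self hr')
  have hm : 0 < min r r' := lt_min hr hr'
  have hd' : 0 < min d (min r r') := lt_min hd hm
  have hΦ0 : Φ 0 = 0 := gΦ ⟨mem_ball_self hm, show (0 : En n) 0 ≤ 0 from le_rfl⟩
  have hca : ContinuousAt Φ 0 := hI'.1.continuousOn.continuousAt (ball_mem_nhds 0 hr')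
  have hpre : Φ ⁻¹' ball 0 (min d (min r r')) ∈ 𝓝 (0 : En n) :=
    hca.preimage_mem_nhds (by rw [hΦ0]; exact ball_mem_nhds 0 hd')
  obtain ⟨ε, hε, hεs⟩ := Metric.mem_nhds_iff.1 hpre
  have k1 : ball (0 : En n) (min ε (min d (min r r'))) ⊆ ball 0 ε :=
    ball_subset_ball (min_le_left _ _)
  have k2 : ball (0 : En n) (min ε (min d (min r r'))) ⊆ ball 0 (min d (min r r')) :=
    ball_subset_ball (min_le_right _ _)
  have k3 : ball (0 : En n) (min d (min r r')) ⊆ ball 0 d := ball_subset_ball (min_le_left _ _)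
  have k4 : ball (0 : En n) (min d (min r r')) ⊆ ball 0 (min r r') :=
    ball_subset_ball (min_le_right _ _)
  refine ⟨min ε (min d (min r r')), Φ, S, lt_min hε hd',
    ((min_le_right _ _).trans (min_le_right _ _)).trans (min_le_left _ _),
    iso_mono hI' ((k2.trans k4).trans hm2), hinj.mono (k2.trans k3), fun y hy => ⟨⟨fun h => ?_,
      fun h => ?_⟩, fun h => ⟨gΦ ⟨k4 (k2 hy), h.le⟩, fun a a' => gS a a' ⟨k4 (k2 hy), h.le⟩⟩⟩⟩
  · by_contra h'
    have e : Φ y = y := gΦ ⟨k4 (k2 hy), not_lt.1 h'⟩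
    exact h' (e ▸ h)
  · by_contra h'
    have h3 : Φ y ∈ ball (0 : En n) (min d (min r r')) := hεs (k1 hy)
    have e : Φ (Φ y) = Φ y := gΦ ⟨k4 h3, not_lt.1 h'⟩
    have e' := hinj (k3 h3) (k3 (k2 hy)) e
    exact h' (e'.symm ▸ h)

end Vale.Agent.P088
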