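import Vale.Agent.P088.ManS

open MeasureTheory Set Metric Filter
open scoped ContDiff Topology InnerProductSpace Manifold Matrix

noncomputable section
namespace Vale.Agent.P088
open Vale.Agent.P136 (D Sm Tst)

variable {n : ℕ} [NeZero n] {M : Type} [TopologicalSpace M] [T2Space M] [CompactSpace M]
  [ConnectedSpace M] [ChartedSpace (EuclideanHalfSpace n) M] [IsManifold (𝓡∂ n) ∞ M]
  [MeasurableSpace M] [BorelSpace M] {ι : Type} [Fintype ι] [DecidableEq ι] [Nonempty ι]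

namespace ManBstep

omit [T2Space M] [CompactSpace M] [ConnectedSpace M] [IsManifold (𝓡∂ n) ∞ M] [MeasurableSpace M]
  [BorelSpace M] [Nonempty ι] [TopologicalSpace M] [ChartedSpace (EuclideanHalfSpace n) M] in
theorem fm_comp {Γ : Set M} {R r r' : ℝ} {P₁ P₂ : Fr n M ι} {g₁ g₂ : MatF n} {A₁ A₂ : ConF n ι}
    {Φ : En n → En n} (Ψ : En n → En n) {S : ι → ι → En n → ℝ} (h : FM Γ R P₁ P₂)
    (hI : FlatIso g₁ A₁ g₂ A₂ r Φ S) (h1 : r' ≤ r) (h2 : r' ≤ R) :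
    FM Γ r' (P₁.comp Φ Ψ S) P₂ := by
  intro y hy h0
  obtain ⟨e1, e2, e3, e4⟩ := h y (Hb_mono h2 hy) h0
  obtain ⟨e5, e6⟩ := (hI.2.2 y (ball_subset_ball h1 hy.1)).2 h0
  refine ⟨?_, e2, fun a a' => ?_, e4⟩
  · show P₁.θ (Φ y) = P₂.θ y
    rw [e5, e1]
  · show ∑ e, S a e y * P₁.S e a' (Φ y) = _
    simp [e5, e6, e3]

omit [Nonempty ι] in
theorem enU_congr {r : ℝ} {g g' : MatF n} {A A' : ConF n ι}
    (h : ∀ y ∈ Lo n r, (∀ i j, g' i j y = g i j y) ∧ ∀ i a a', A' i a a' y = A i a a' y)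
    (ψ : ι → En n → ℝ) : enU (Lo n r) g' A' ψ = enU (Lo n r) g A ψ := by
  refine setIntegral_congr_fun (isOpen_Lo r).measurableSet fun y hy => ?_
  simp only [gam, cov, (h y hy).1, (h y hy).2]

omit [NeZero n] [DecidableEq ι] [Nonempty ι] in
theorem agree {U O : Set (En n)} {G₁ G₂ : HL n ι U →L[ℝ] HL n ι U}
    (s₁ : ∀ F F', ⟪G₁ F, F'⟫_ℝ = ⟪F, G₁ F'⟫_ℝ) (s₂ : ∀ F F', ⟪G₂ F, F'⟫_ℝ = ⟪F, G₂ F'⟫_ℝ)
    (h : ∀ F, SuppIn O F → ⟪G₁ F, F⟫_ℝ = ⟪G₂ F, F⟫_ℝ) : Agree O G₁ G₂ := by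
  intro F K hF hK
  have hs : SuppIn O (F + K) := by
    filter_upwards [hF, hK, Lp.coeFn_add F K] with x h1 h2 h3 hx
    rw [h3, Pi.add_apply, h1 hx, h2 hx, add_zero]
  have h1 := h _ hs
  have h2 := s₁ K F
  have h3 := s₂ K F
  rw [real_inner_comm] at h2 h3
  simp only [map_add, inner_add_left, inner_add_right] at h1
  have h4 := real_inner_comm (G₁ K) F
  have h5 := real_inner_comm (G₂ K) F
  have h6 := real_inner_comm (G₁ F) K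
  have h7 := real_inner_comm (G₂ F) K
  linarith [h F hF, h K hK]

end ManBstep

open ManBstep

theorem m_bstep (hE : EAll) (h1 : B1 n M ι) (_h2 : B2 n M ι) (h3 : B3 n M ι) : M_bstep n M ι := by
  rintro X₁ X₂ Γ ⟨-, O, hO, rfl⟩ hS p hp
  obtain ⟨R, θ, κ, e0, hθ, hB⟩ := h1.xb p hp.2 O hO hp.1
  obtain ⟨g₁, A₁, b₁⟩ := hB X₁.g X₁.A X₁.hg X₁.hA
  obtain ⟨g₂, A₂, b₂⟩ := hB X₂.g X₂.A X₂.hg X₂.hA
  set P : Fr n M ι := ⟨θ, κ, oneS n ι⟩ with hP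
  have hR := b₁.pos
  have fm : FM (O ∩ bdM n M) R P P := fun y hy h0 =>
    ⟨rfl, ⟨hθ ⟨y, hy, rfl⟩, (b₁.bd y hy).2 h0⟩, fun _ _ => rfl, fun _ _ => rfl⟩
  obtain ⟨r₁, Φ, S, g, A, hr₁, ga, iso, inj, hj⟩ := hE.jets n h1.hn ι g₁ g₂ A₁ A₂ (R / 2) b₁.ga
    b₂.ga (half_pos hR) (h3.cmp X₁ X₂ _ R _ _ _ _ _ _ _ hS b₁ b₂ fm (half_pos hR) (half_lt_self hR))
    (h3.cmp X₂ X₁ _ R _ _ _ _ _ _ _ hS.symm b₂ b₁ fm (half_pos hR) (half_lt_self hR))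
  have fi : FlatIso g₁ A₁ g A r₁ Φ S :=
    ⟨iso, inj, fun y hy => ⟨(hj y hy).1, fun h0 => ⟨((hj y hy).2 h0).1, ((hj y hy).2 h0).2.1⟩⟩⟩
  obtain ⟨r₂, hr₂, h21, h2R, c₁⟩ := (h1.comp _ _ _ _ _ _ _ Φ S ga).2 R r₁ b₁ hr₁ fi
  have fm₂ := fm_comp (Function.invFunOn Φ (ball 0 r₁)) fm fi h21 h2R
  set P₁ := P.comp Φ (Function.invFunOn Φ (ball 0 r₁)) S with hP₁
  obtain ⟨g', A', ga', eH, eL⟩ := hE.gluega n ι g g₂ A A₂ r₂ (r₂ / 2) ga b₂.ga (half_lt_self hr₂)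
    fun y hy h0 => ((hj y (ball_subset_ball h21 hy)).2 h0).2.2
  have hr₃ : 0 < r₂ / 2 := half_pos hr₂
  have d₁ : BP X₁.g X₁.A (r₂ / 2) g A P₁ :=
    (h1.restr _ _ _ _ _).2.2.1 _ _ c₁ hr₃ (half_le_self hr₂.le)
  have d₂ : BP X₂.g X₂.A (r₂ / 2) g' A' P := (h1.restr _ _ _ _ _).2.2.2.2.1 _ _ _
    ((h1.restr _ _ _ _ _).2.2.1 _ _ b₂ hr₃ ((half_le_self hr₂.le).trans h2R)) ga' eH
  have hr₄ : 0 < r₂ / 2 / 2 := half_pos hr₃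
  have h43 : r₂ / 2 / 2 < r₂ / 2 := half_lt_self hr₃
  have fm₃ := fm₂.mono (half_le_self hr₂.le)
  have fm₄ := fm₃.mono h43.le
  obtain ⟨G₁, i₁, s₁, y₁, l₁⟩ := h3.cap _ _ _ _ _ _ _ X₁.hg X₁.hA d₁ hr₄ h43
  obtain ⟨G₂, i₂, s₂, y₂, l₂⟩ := h3.cap _ _ _ _ _ _ _ X₂.hg X₂.hA d₂ hr₄ h43
  have e₁ := (h1.restr _ _ _ _ _).2.2.1 _ _ d₁ hr₄ h43.le
  have e₂ := (h1.restr _ _ _ _ _).2.2.1 _ _ d₂ hr₄ h43.le
  have eL' := fun y (hy : y ∈ Lo n (r₂ / 2 / 2)) => eL y (Lo_mono h43.le hy)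
  have hdn : ∀ ψ, Tests (ball 0 (r₂ / 2 / 2)) ψ → rdn X₂.g X₂.A (P.push (Hb n (r₂ / 2 / 2)) ψ) =
      rdn X₁.g X₁.A (P₁.push (Hb n (r₂ / 2 / 2)) ψ) := fun ψ hψ => by
    have ad := ((h1.push2 _ _ _ _ _ ψ).2.1 _ _ e₁ hψ).2 fun y hy h0 => (fm₄.symm y hy h0).2.1
    rw [hS _ ad.1 ad.2]
    exact rdn_congr _ _ fun x hx =>
      ((h1.push2 _ _ _ _ _ ψ).2.2 _ _ _ _ _ _ _ e₁ e₂ fm₄ ψ (fun _ _ _ _ => rfl) x hx).symm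
  have ag : Agree (Lo n (r₂ / 2 / 2)) G₁ G₂ := agree y₁ y₂ fun F hF => by
    have k₂ := l₂ F hF
    have e : {t | ∃ ψ, Tests (ball 0 (r₂ / 2 / 2)) ψ ∧ t = 2 * ⟪F, tl (ball 0 (r₂ / 2 / 2)) ψ⟫_ℝ -
          enU (Lo n (r₂ / 2 / 2)) g' A' ψ - rdn X₂.g X₂.A (P.push (Hb n (r₂ / 2 / 2)) ψ)} =
        {t | ∃ ψ, Tests (ball 0 (r₂ / 2 / 2)) ψ ∧ t = 2 * ⟪F, tl (ball 0 (r₂ / 2 / 2)) ψ⟫_ℝ -
          enU (Lo n (r₂ / 2 / 2)) g A ψ - rdn X₁.g X₁.A (P₁.push (Hb n (r₂ / 2 / 2)) ψ)} :=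
      Set.ext fun t => exists_congr fun ψ => and_congr_right fun hψ => by
        rw [enU_congr eL', hdn ψ hψ]
    rw [e] at k₂
    exact neg_injective ((l₁ F hF).unique k₂)
  obtain ⟨r₅, Φ', S', hr₅, -, fi'⟩ := hE.bstep2 n h1.hn ι g g' A A' _ G₁ G₂ ga ga' hr₄
    (fun y hy => ⟨fun i j => ((eL' y hy).1 i j).symm, fun i a a' => ((eL' y hy).2 i a a').symm⟩)
    i₁ i₂ s₁ s₂ ag
  obtain ⟨r₆, hr₆, h65, h63, f₁⟩ := (h1.comp _ _ _ _ _ _ _ Φ' S' ga').2 _ r₅ d₁ hr₅ fi'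
  exact ⟨r₆, g', A', _, P, ⟨f₁, (h1.restr _ _ _ _ _).2.2.1 _ _ d₂ hr₆ h63,
    fm_comp _ fm₃ fi' h65 h63⟩, e0⟩

end Vale.Agent.P088
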