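import Vale.Agent.P088.ManS

open MeasureTheory Set Metric Filter
open scoped ContDiff Topology InnerProductSpace Manifold Matrix

noncomputable section
namespace Vale.Agent.P088
open Vale.Agent.P136 (D Sm Tst)

namespace ManCap

section eucl
variable {n : ℕ} {ι : Type} {U : Set (En n)}

theorem tests_zero : Tests U (0 : ι → En n → ℝ) := fun _ =>
  ⟨P136.Tst.zero, (tsupport_zero (X := En n) (α := ℝ)).trans_subset (empty_subset _)⟩

theorem tests_add {ψ ψ' : ι → En n → ℝ} (h : Tests U ψ) (h' : Tests U ψ') : Tests U (ψ + ψ') :=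
  fun a => ⟨(h a).1.add (h' a).1,
    (tsupport_add (ψ a) (ψ' a)).trans (union_subset (h a).2 (h' a).2)⟩

theorem tests_smul (c : ℝ) {ψ : ι → En n → ℝ} (h : Tests U ψ) : Tests U (c • ψ) :=
  fun a => ⟨(h a).1.const_mul c, (tsupport_mul_subset_right (f := fun _ => c)).trans (h a).2⟩

theorem tests_sm {ψ : ι → En n → ℝ} (h : Tests U ψ) : SmV ψ := fun a => (h a).1.1

variable [Fintype ι]

theorem sm_app {L : Op n ι} (hL : L.Good) {ψ : ι → En n → ℝ} (h : SmV ψ) : SmV (L.app ψ) := by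
  intro a
  have h1 : Sm (dgd ee L.γ (ψ a)) := P136.Sm.sum (s := Finset.univ) fun i _ =>
    P136.Sm.D (f := XX ee L.γ (ψ a) i)
      (P136.Sm.sum (s := Finset.univ) fun j _ => (hL.1 i j).mul ((h a).D _)) (ee i)
  exact (h1.add (P136.Sm.sum fun i _ => P136.Sm.sum fun a' _ =>
    (hL.2.2.1 i a a').mul ((h a').D _))).add (P136.Sm.sum fun a' _ =>
      (hL.2.2.2.1 a a').mul (h a'))

theorem tl_add (ht : E_tl) {W W' : ι → En n → ℝ} (h : L2On U W) (h' : L2On U W') :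
    tl U (W + W') = tl U W + tl U W' := by
  obtain ⟨-, t2, t3, -⟩ := ht n ι U
  refine t3 _ _ fun a => ?_
  filter_upwards [(t2 (W + W') fun a => (h a).add (h' a)).1 a, (t2 W h).1 a, (t2 W' h').1 a,
    Lp.coeFn_add (tl U W) (tl U W')] with y h1 h2 h3 h4
  rw [h1, Pi.add_apply, Pi.add_apply, ← h2, ← h3, cp, cp, cp, h4]
  rfl

theorem tl_smul (ht : E_tl) (c : ℝ) {W : ι → En n → ℝ} (h : L2On U W) :
    tl U (c • W) = c • tl U W := by
  obtain ⟨-, t2, t3, -⟩ := ht n ι U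
  refine t3 _ _ fun a => ?_
  filter_upwards [(t2 (c • W) fun a => (h a).const_smul c).1 a, (t2 W h).1 a,
    Lp.coeFn_smul c (tl U W)] with y h1 h2 h4
  rw [h1, Pi.smul_apply, Pi.smul_apply, ← h2, cp, cp, h4]
  rfl

theorem inner_congr (ht : E_tl) {O : Set (En n)} {F : HL n ι U} (hF : SuppIn O F)
    {W W' : ι → En n → ℝ} (h : L2On U W) (h' : L2On U W') (e : ∀ y ∈ O, ∀ a, W a y = W' a y) :
    ⟪F, tl U W⟫_ℝ = ⟪F, tl U W'⟫_ℝ := by
  rw [((ht n ι U).2.1 W h).2.2, ((ht n ι U).2.1 W' h').2.2]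
  refine Finset.sum_congr rfl fun a _ => integral_congr_ae ?_
  filter_upwards [hF] with y hy
  by_cases h0 : y ∈ O
  · rw [e y h0]
  · simp [cp, hy h0]

theorem inner_sq_le (ht : E_tl) {O : Set (En n)} (hO : MeasurableSet O) {F : HL n ι U}
    (hF : SuppIn O F) {W : ι → En n → ℝ} (h : L2On U W) :
    ⟪F, tl U W⟫_ℝ ^ 2 ≤ ‖F‖ ^ 2 * nrm (O ∩ U) W := by
  have h' : L2On U fun a => O.indicator (W a) := fun a => (h a).indicator hO
  have e : nrm (O ∩ U) W = nrm U fun a => O.indicator (W a) := by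
    refine Finset.sum_congr rfl fun a _ => ?_
    rw [← Measure.restrict_restrict hO, ← integral_indicator hO]
    refine integral_congr_ae (ae_of_all _ fun y => ?_)
    by_cases h0 : y ∈ O <;> simp [h0]
  rw [inner_congr ht hF h h' fun y hy a => (indicator_of_mem hy _).symm, e,
    ← ((ht n ι U).2.1 _ h').2.1, ← mul_pow, ← sq_abs]
  exact pow_le_pow_left₀ (abs_nonneg _) (abs_real_inner_le_norm _ _) 2

variable [DecidableEq ι] {g : MatF n} {A : ConF n ι}

omit [DecidableEq ι] in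
theorem cov_add {v v' : ι → En n → ℝ} (h : SmV v) (h' : SmV v') (i : Fin n) (a : ι) (x : En n) :
    cov A i (v + v') a x = cov A i v a x + cov A i v' a x := by
  have e := P136.D_add_at ((h a).dAt x) ((h' a).dAt x) (ee i)
  have e' : D (ee i) (v a + v' a) x = D (ee i) (v a) x + D (ee i) (v' a) x := e
  simp only [cov, e', Pi.add_apply, mul_add, Finset.sum_add_distrib]
  ring

omit [DecidableEq ι] in
theorem cov_smul (c : ℝ) {v : ι → En n → ℝ} (h : SmV v) (i : Fin n) (a : ι) (x : En n) :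
    cov A i (c • v) a x = c * cov A i v a x := by
  have e := P136.D_const_mul_at ((h a).dAt x) c (ee i)
  have e' : D (ee i) (c • v a) x = c * D (ee i) (v a) x := e
  simp only [cov, e', Pi.smul_apply, smul_eq_mul, mul_add, Finset.mul_sum, mul_left_comm c]

theorem enB_add (he : E_eden) (hg : GA g A) (hb : Bornology.IsBounded U)
    {v v' w : ι → En n → ℝ} (h : SmV v) (h' : SmV v') (hw : SmV w) :
    enB U g A (v + v') w = enB U g A v w + enB U g A v' w := by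
  have hi : ∀ u, SmV u → IntegrableOn (eden g A u w) U := fun u hu =>
    (((he n ι g A hg).2.2.2.2.2.1 u w hu hw).cont.continuousOn.integrableOn_compact
      hb.isCompact_closure).mono_set subset_closure
  rw [enB, enB, enB, ← integral_add (hi v h) (hi v' h')]
  refine integral_congr_ae (ae_of_all _ fun x => ?_)
  simp only [eden, cov_add h h', add_mul, mul_add, Finset.sum_add_distrib]

omit [DecidableEq ι] in
theorem enB_smul (c : ℝ) {v : ι → En n → ℝ} (h : SmV v) (w : ι → En n → ℝ) :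
    enB U g A (c • v) w = c * enB U g A v w := by
  rw [enB, enB, ← integral_const_mul]
  refine integral_congr_ae (ae_of_all _ fun x => ?_)
  simp only [eden, cov_smul c h, Finset.mul_sum, mul_assoc, mul_left_comm c]

end eucl

section fr
variable {n : ℕ} {M ι : Type} [Fintype ι] (P : Fr n M ι) (Dm : Set (En n))

theorem push_add (ψ ψ' : ι → En n → ℝ) : P.push Dm (ψ + ψ') = P.push Dm ψ + P.push Dm ψ' := by
  funext x a
  simp only [Fr.push, Pi.add_apply]
  split_ifs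
  · simp only [mul_add, Finset.sum_add_distrib]
  · rw [add_zero]

theorem push_smul (c : ℝ) (ψ : ι → En n → ℝ) : P.push Dm (c • ψ) = c • P.push Dm ψ := by
  funext x a
  simp only [Fr.push, Pi.smul_apply, smul_eq_mul]
  split_ifs
  · simp only [Finset.mul_sum, mul_left_comm c]
  · rw [mul_zero]

variable [NeZero n]

theorem capJ_add (ψ ψ' : ι → En n → ℝ) (w w' : M → ι → ℝ) :
    capJ P (ψ + ψ') (w + w') = capJ P ψ w + capJ P ψ' w' := by
  funext a y
  simp only [capJ, Fr.pull, Pi.add_apply]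
  split_ifs
  · simp only [mul_add, Finset.sum_add_distrib]
    ring
  · rfl

theorem capJ_smul (c : ℝ) (ψ : ι → En n → ℝ) (w : M → ι → ℝ) :
    capJ P (c • ψ) (c • w) = c • capJ P ψ w := by
  funext a y
  simp only [capJ, Fr.pull, Pi.smul_apply, smul_eq_mul]
  split_ifs
  · simp only [mul_add, Finset.mul_sum, mul_left_comm c]
  · rfl

theorem capJ_zero (ψ : ι → En n → ℝ) : capJ P ψ (0 : M → ι → ℝ) = ψ := by
  funext a y
  simp [capJ, Fr.pull]

end fr

end ManCap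

open ManCap

variable {n : ℕ} [NeZero n] {M : Type} [TopologicalSpace M] [T2Space M] [CompactSpace M]
  [ConnectedSpace M] [ChartedSpace (EuclideanHalfSpace n) M] [IsManifold (𝓡∂ n) ∞ M]
  [MeasurableSpace M] [BorelSpace M] {ι : Type} [Fintype ι] [DecidableEq ι] [Nonempty ι]

omit [T2Space M] [CompactSpace M] [ConnectedSpace M] [IsManifold (𝓡∂ n) ∞ M] [BorelSpace M]
  [Nonempty ι] in
theorem m_cap (hE : EAll) (h1 : B1 n M ι) (h2 : B2 n M ι) (capA : M_capA n M ι) :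
    M_cap n M ι := by
  intro g A R r gc Ac P hg hA hP r0 rR
  obtain ⟨⟨C, C0, hC⟩, hG⟩ := capA g A R r gc Ac P hg hA hP r0 rR
  obtain ⟨a0, -, -, -, -, -, al⟩ := h2.alg g A hg hA
  have ga : GA gc Ac := hP.ga
  have hPr : BP g A r gc Ac P := (h1.restr g A gc Ac P).2.2.1 R r hP r0 rR.le
  have rs : ∀ ψ, Tests (ball 0 r) ψ → RSec n (P.push (Hb n r) ψ) := fun ψ h =>
    ((h1.push2 g A gc Ac P ψ).2.1 r univ hPr h).1
  have bL : Bornology.IsBounded (Lo n r) := isBounded_ball.subset inter_subset_left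
  have l2 : ∀ W : ι → En n → ℝ, SmV W → L2On (ball 0 r) W :=
    (hE.tl n ι _).2.2.2.2 measurableSet_ball isBounded_ball
  obtain ⟨V, hV⟩ : ∃ V : Submodule ℝ ((ι → En n → ℝ) × (M → ι → ℝ)),
      ∀ v, v ∈ V ↔ Tests (ball 0 r) v.1 ∧ V0 n v.2 :=
    ⟨{ carrier := {v | Tests (ball 0 r) v.1 ∧ V0 n v.2}
       add_mem' := fun {a b} ha hb => ⟨tests_add ha.1 hb.1, (al _ _ ha.2.1 hb.2.1).1,
         fun x hx => by rw [Prod.snd_add, Pi.add_apply, ha.2.2 x hx, hb.2.2 x hx, add_zero]⟩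
       zero_mem' := ⟨tests_zero, a0, fun _ _ => rfl⟩
       smul_mem' := fun c a ha => ⟨tests_smul c ha.1, ((al _ _ ha.2.1 ha.2.1).2.2.1 c).1,
         fun x hx => by rw [Prod.smul_snd, Pi.smul_apply, ha.2.2 x hx, smul_zero]⟩ },
      fun _ => Iff.rfl⟩
  have vt : ∀ v : V, Tests (ball 0 r) v.1.1 := fun v => ((hV _).1 v.2).1
  have vw : ∀ v : V, V0 n v.1.2 := fun v => ((hV _).1 v.2).2
  have vs : ∀ v : V, RSec n (P.push (Hb n r) v.1.1 + v.1.2) := fun v =>
    (al _ _ (rs _ (vt v)) (vw v).1).1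
  obtain ⟨b, hb⟩ : ∃ b : V → V → ℝ, ∀ v v', b v v' =
      capB g A gc Ac P r v.1.1 v.1.2 v'.1.1 v'.1.2 := ⟨_, fun _ _ => rfl⟩
  have bs : ∀ v v', b v v' = b v' v := fun v v' => by
    rw [hb, hb, capB, capB, (al _ _ (vs v) (vs v')).2.2.2.2.2.2.2.1, enB, enB]
    simp only [(hE.eden n ι gc Ac ga).2.2.2.2.1 v.1.1]
  have ba : ∀ v v' u, b (v + v') u = b v u + b v' u := fun v v' u => by
    rw [hb, hb, hb, capB, capB, capB, Submodule.coe_add, Prod.fst_add, Prod.snd_add,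
      enB_add hE.eden ga bL (tests_sm (vt v)) (tests_sm (vt v')) (tests_sm (vt u)), push_add,
      add_add_add_comm (P.push (Hb n r) v.1.1),
      ((al _ _ (vs v) (vs v')).2.2.2.2.2.2.2.2.2 _ (vs u)).1]
    ring
  have bm : ∀ (c : ℝ) v u, b (c • v) u = c • b v u := fun c v u => by
    rw [hb, hb, capB, capB, Submodule.coe_smul, Prod.smul_fst, Prod.smul_snd,
      enB_smul c (tests_sm (vt v)), push_smul, ← smul_add,
      ((al _ _ (vs v) (vs u)).2.2.1 c).2.2, smul_eq_mul, mul_add]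
  obtain ⟨B, hB⟩ : ∃ B : V →ₗ[ℝ] V →ₗ[ℝ] ℝ, ∀ v v', B v v' = b v v' :=
    ⟨LinearMap.mk₂ ℝ b ba bm (fun v u u' => by rw [bs, ba, bs u, bs u'])
      (fun c v u => by rw [bs, bm, bs u]), fun _ _ => rfl⟩
  have jl : ∀ v : V, L2On (ball 0 r) (capJ P v.1.1 v.1.2) := fun v => (hC _ _ (vt v) (vw v)).1
  obtain ⟨j, hj⟩ : ∃ j : V →ₗ[ℝ] HL n ι (ball 0 r),
      ∀ v, j v = tl (ball 0 r) (capJ P v.1.1 v.1.2) :=
    ⟨{ toFun := fun v => tl (ball 0 r) (capJ P v.1.1 v.1.2)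
       map_add' := fun v v' => by
         rw [Submodule.coe_add, Prod.fst_add, Prod.snd_add, capJ_add, tl_add hE.tl (jl v) (jl v')]
       map_smul' := fun c v => by
         rw [Submodule.coe_smul, Prod.smul_fst, Prod.smul_snd, capJ_smul, tl_smul hE.tl c (jl v),
           RingHom.id_apply] }, fun _ => rfl⟩
  have Bv : ∀ v : V, B v v =
      enU (Lo n r) gc Ac v.1.1 + renergy g A (P.push (Hb n r) v.1.1 + v.1.2) := fun v =>
    (hB v v).trans (hb v v)
  obtain ⟨H, _, _, i, J, J', hi, hJ, hadj, hext, hlub, hup, -⟩ := hE.hilb V _ B j C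
    (fun v w => by rw [hB, hB, bs])
    (fun v => by
      rw [Bv]
      exact add_nonneg (integral_nonneg fun x => (hE.eden n ι gc Ac ga).2.2.2.1 v.1.1 x)
        (al _ _ (vs v) (vs v)).2.2.2.2.2.2.2.2.1)
    (fun v => by
      rw [hj, ((hE.tl n ι _).2.1 _ (jl v)).2.1, hB, hb]
      exact (hC _ _ (vt v) (vw v)).2.1)
  have k1 : ∀ F v, ⟪J' F, i v⟫_ℝ = ⟪F, tl (ball 0 r) (capJ P v.1.1 v.1.2)⟫_ℝ := fun F v => by
    rw [real_inner_comm, ← hadj, hJ, real_inner_comm, hj]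
  have k2 : ∀ F h, ⟪(-(J ∘L J')) F, h⟫_ℝ = -⟪J' F, J' h⟫_ℝ := fun F h => by
    rw [neg_apply, inner_neg_left, ContinuousLinearMap.comp_apply, hadj]
  have k3 : ∀ ψ, Tests (ball 0 r) ψ → ∃ v : V, v.1 = (ψ, 0) ∧
      J' (tl (ball 0 r) ((cop gc Ac).app ψ)) = -i v := fun ψ hψ => by
    refine ⟨⟨(ψ, 0), (hV _).2 ⟨hψ, a0, fun _ _ => rfl⟩⟩, rfl, hext _ _ fun v => ?_⟩
    rw [k1, inner_neg_left, hi, hB, hb, ← hG ψ _ _ hψ (vt v) (vw v),
      ((hE.tl n ι _).2.1 _ (jl v)).2.2]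
    refine Finset.sum_congr rfl fun a _ => integral_congr_ae ?_
    filter_upwards [((hE.tl n ι _).2.1 _ (l2 _ (sm_app (hE.cop n ι gc Ac ga).1
      (tests_sm hψ)))).1 a] with y hy
    rw [hy]
  refine ⟨-(J ∘L J'), ⟨fun F ψ hψ => ?_, fun ψ hψ => ?_⟩, ⟨C, fun s s0 F h hF hh => ?_⟩,
    fun F F' => ?_, fun F hF => ?_⟩
  · obtain ⟨v, hv, e⟩ := k3 ψ hψ
    rw [(hE.cop n ι gc Ac ga).2, k2, e, inner_neg_right, neg_neg, k1, hv, capJ_zero]
  · obtain ⟨v, hv, e⟩ := k3 ψ hψ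
    rw [neg_apply, ContinuousLinearMap.comp_apply, e, map_neg, neg_neg, hJ,
      hj, hv, capJ_zero]
  · have k4 : ∀ F, SuppIn (ball 0 s) F → ‖J' F‖ ^ 2 ≤ C * s ^ 2 * ‖F‖ ^ 2 := fun F hF => by
      refine hup _ _ (by positivity) fun v => ?_
      rw [k1, hB, hb]
      exact (inner_sq_le hE.tl measurableSet_ball hF (jl v)).trans
        ((mul_le_mul_of_nonneg_left ((hC _ _ (vt v) (vw v)).2.2 s s0) (sq_nonneg _)).trans_eq
          (by ring))
    rw [k2, abs_neg]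
    refine (abs_real_inner_le_norm _ _).trans
      ((sq_le_sq₀ (by positivity) (by positivity)).1 ?_)
    rw [mul_pow]
    exact (mul_le_mul (k4 F hF) (k4 h hh) (sq_nonneg _) (by positivity)).trans_eq (by ring)
  · rw [k2, real_inner_comm _ F, k2, real_inner_comm]
  · have k5 : ∀ v : V, ⟪J' F, i v⟫_ℝ = ⟪F, tl (ball 0 r) v.1.1⟫_ℝ := fun v => by
      rw [k1]
      exact inner_congr hE.tl hF (jl v) (l2 _ (tests_sm (vt v))) fun y hy a =>
        if_neg (not_le.2 hy.2)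
    rw [k2, neg_neg, real_inner_self_eq_norm_sq]
    refine ⟨?_, fun t ht => (hlub (J' F)).2 ?_⟩
    · rintro _ ⟨ψ, hψ, rfl⟩
      rw [sub_le_comm]
      refine le_csInf ⟨_, _, ⟨rs ψ hψ, fun _ _ => rfl⟩, rfl⟩ ?_
      rintro _ ⟨F', ⟨f1, f2⟩, rfl⟩
      have h3 := (hlub (J' F)).1 ⟨⟨(ψ, F' - P.push (Hb n r) ψ), (hV _).2 ⟨hψ,
        (al _ _ f1 (rs ψ hψ)).2.1, fun x hx => sub_eq_zero.2 (f2 x hx)⟩⟩, rfl⟩
      simp only [k5, Bv, add_sub_cancel] at h3
      linarith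
    · rintro _ ⟨v, rfl⟩
      have h3 := ht ⟨v.1.1, vt v, rfl⟩
      have h4 : rdn g A (P.push (Hb n r) v.1.1) ≤
          renergy g A (P.push (Hb n r) v.1.1 + v.1.2) := by
        refine csInf_le ⟨0, ?_⟩ ⟨_, ⟨vs v, fun x hx => ?_⟩, rfl⟩
        · rintro _ ⟨F', ⟨f1, -⟩, rfl⟩
          exact (al _ _ f1 f1).2.2.2.2.2.2.2.2.1
        · rw [Pi.add_apply, (vw v).2 x hx, add_zero]
      simp only [k5, Bv]
      linarith

end Vale.Agent.P088
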