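import Vale.Agent.P088.ManS

/-!
# P088: estimates on the manifold with a cap
-/

open MeasureTheory Set Metric Filter
open scoped ContDiff Topology InnerProductSpace Manifold Matrix

noncomputable section
namespace Vale.Agent.P088
open Vale.Agent.P136 (D Sm Tst)

namespace ManCapA
variable {n : ℕ} [NeZero n] {ι : Type} [Fintype ι]

omit [NeZero n] in
theorem intOn {f : En n → ℝ} (hf : Continuous f) {N : Set (En n)} {r : ℝ} (h : N ⊆ ball 0 r) :
    IntegrableOn f N :=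
  (hf.continuousOn.integrableOn_compact (isCompact_closedBall 0 r)).mono_set
    (h.trans ball_subset_closedBall)

theorem split {f f₁ f₂ : En n → ℝ} {N : Set (En n)} {r : ℝ} (hN : MeasurableSet N)
    (c₁ : Continuous f₁) (c₂ : Continuous f₂) (h₁ : EqOn f f₁ (Up n r)) (h₂ : EqOn f f₂ (Lo n r)) :
    ∫ y in N ∩ ball 0 r, f y = (∫ y in N ∩ Up n r, f₁ y) + ∫ y in N ∩ Lo n r, f₂ y := by
  have m₁ := hN.inter (isOpen_Up (n := n) r).measurableSet
  have m₂ := hN.inter (isOpen_Lo (n := n) r).measurableSet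
  have e : (N ∩ ball 0 r : Set (En n)) =ᵐ[volume] (N ∩ Up n r ∪ N ∩ Lo n r : Set (En n)) := by
    have h : ∀ᵐ y : En n, y 0 ≠ 0 := by
      rw [ae_iff]; simpa using flat_null
    filter_upwards [h] with y hy
    refine propext ⟨fun h1 => ?_, fun h1 => h1.elim (fun h => ⟨h.1, h.2.1⟩) fun h => ⟨h.1, h.2.1⟩⟩
    exact (lt_or_gt_of_ne hy).elim (fun h => .inr ⟨h1.1, h1.2, h⟩) fun h => .inl ⟨h1.1, h1.2, h⟩
  rw [setIntegral_congr_set e, setIntegral_union
    (disjoint_left.2 fun y h1 h2 => lt_asymm (show (0 : ℝ) < y 0 from h1.2.2) h2.2.2) m₂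
    ((intOn c₁ fun y h => h.2.1).congr_fun (h₁.mono inter_subset_right).symm m₁)
    ((intOn c₂ fun y h => h.2.1).congr_fun (h₂.mono inter_subset_right).symm m₂),
    setIntegral_congr_fun m₁ (h₁.mono inter_subset_right),
    setIntegral_congr_fun m₂ (h₂.mono inter_subset_right)]

theorem split' {f f₁ f₂ : En n → ℝ} {r : ℝ} (c₁ : Continuous f₁) (c₂ : Continuous f₂)
    (h₁ : EqOn f f₁ (Up n r)) (h₂ : EqOn f f₂ (Lo n r)) :
    ∫ y in ball 0 r, f y = (∫ y in Up n r, f₁ y) + ∫ y in Lo n r, f₂ y := by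
  simpa only [univ_inter] using split MeasurableSet.univ c₁ c₂ h₁ h₂

theorem split_nrm {W v w : ι → En n → ℝ} {N : Set (En n)} {r : ℝ} (hN : MeasurableSet N)
    (hv : SmV v) (hw : SmV w) (h₁ : ∀ a, EqOn (W a) (v a) (Up n r))
    (h₂ : ∀ a, EqOn (W a) (w a) (Lo n r)) :
    nrm (N ∩ ball 0 r) W = nrm (N ∩ Up n r) v + nrm (N ∩ Lo n r) w := by
  unfold nrm
  rw [← Finset.sum_add_distrib]
  exact Finset.sum_congr rfl fun a _ => split hN ((hv a).pow 2).cont ((hw a).pow 2).cont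
    (fun y hy => congrArg (· ^ 2) (h₁ a hy)) fun y hy => congrArg (· ^ 2) (h₂ a hy)

omit [NeZero n] in
theorem sm_app {L : Op n ι} (hL : L.Good) {W : ι → En n → ℝ} (hW : SmV W) (a : ι) :
    Sm (L.app W a) := by
  unfold Op.app dgd dvg XX
  exact ((Sm.sum fun i _ => (Sm.sum fun j _ => (hL.1 i j).mul ((hW a).D _)).D _).add
    (Sm.sum fun i _ => Sm.sum fun a' _ => (hL.2.2.1 i a a').mul ((hW a').D _))).add
    (Sm.sum fun a' _ => (hL.2.2.2.1 a a').mul (hW a'))

omit [NeZero n] in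
theorem nrm_nonneg (U : Set (En n)) (W : ι → En n → ℝ) : 0 ≤ nrm U W :=
  Finset.sum_nonneg fun _ _ => integral_nonneg fun _ => sq_nonneg _

theorem num {C C₁ C₂ t e₁ e₂ m₁ m₂ B x₁ x₂ : ℝ} (h1 : 0 ≤ C₁) (h2 : 0 ≤ C₂)
    (t0 : 0 ≤ t) (e1 : 0 ≤ e₁) (e2 : 0 ≤ e₂) (m1 : 0 ≤ m₁) (m2 : 0 ≤ m₂) (hB : e₁ + e₂ ≤ B)
    (hm : m₁ + m₂ ≤ C * B) (a1 : x₁ ≤ C₁ * t * (e₁ + m₁)) (a2 : x₂ ≤ C₂ * t * (e₂ + m₂)) :
    x₁ + x₂ ≤ (C₁ + C₂) * (1 + C) * t * B := by
  have b1 := mul_le_mul_of_nonneg_left (show e₁ + m₁ ≤ (1 + C) * B by linarith) (mul_nonneg h1 t0)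
  have b2 := mul_le_mul_of_nonneg_left (show e₂ + m₂ ≤ (1 + C) * B by linarith) (mul_nonneg h2 t0)
  linarith

end ManCapA

variable {n : ℕ} [NeZero n] {M : Type} [TopologicalSpace M] [T2Space M] [CompactSpace M]
  [ConnectedSpace M] [ChartedSpace (EuclideanHalfSpace n) M] [IsManifold (𝓡∂ n) ∞ M]
  [MeasurableSpace M] [BorelSpace M] {ι : Type} [Fintype ι] [DecidableEq ι] [Nonempty ι]

open ManCapA in
theorem m_capA (hE : EAll) (h1 : B1 n M ι) (h2 : B2 n M ι) : M_capA n M ι := by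
  intro g A R r gc Ac P hg hA hP r0 rR
  have hr := (h1.restr g A gc Ac P).2.2.1 R r hP r0 rR.le
  have ga := hP.ga
  obtain ⟨-, -, -, ed0, -, edS, -⟩ := hE.eden n ι gc Ac ga
  obtain ⟨-, -, -, -, -, -, alg⟩ := h2.alg g A hg hA
  have hps : ∀ ψ, Tests (ball 0 r) ψ → RSec n (P.push (Hb n r) ψ) := fun ψ hψ =>
    ((h1.push2 g A gc Ac P ψ).2.1 r ∅ hr hψ).1
  have sm : ∀ {ψ : ι → En n → ℝ}, Tests (ball 0 r) ψ → SmV ψ := fun h a => (h a).1.1
  have lo : ∀ ψ w a, EqOn (capJ P ψ w a) (ψ a) (Lo n r) := fun ψ w a y hy =>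
    if_neg (not_le.2 hy.2)
  have up : ∀ ψ w (u : ι → En n → ℝ), (∀ a, EqOn (u a) (P.pull w a) (Hb n r)) → ∀ a,
      EqOn (capJ P ψ w a) (fun y => ψ a y + u a y) (Up n r) := fun ψ w u hu a y hy => by
    show capJ P ψ w a y = ψ a y + u a y
    rw [hu a (Up_sub_Hb r hy)]
    exact if_pos (Up_sub_Hb r hy).2
  refine ⟨?_, fun φ ψ w hφ hψ hw => ?_⟩
  · obtain ⟨C, C0, hC⟩ := hE.refl n ι gc Ac r ga
    obtain ⟨C₁, C1, hC₁⟩ := hE.scale n h1.hn ι gc Ac r {y | 0 < y 0} ga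
      (isOpen_lt continuous_const cont0).measurableSet fun t ht y hy => mul_pos ht hy
    obtain ⟨C₂, C2, hC₂⟩ := hE.scale n h1.hn ι gc Ac r {y | y 0 < 0} ga
      (isOpen_lt cont0 continuous_const).measurableSet fun t ht y hy => mul_neg_of_pos_of_neg ht hy
    have K1 : 0 ≤ (C₁ + C₂) * (1 + C) := by positivity
    have K2 : 0 ≤ C / r ^ 2 := by positivity
    refine ⟨C + (C₁ + C₂) * (1 + C) + C / r ^ 2, by positivity, fun ψ w hψ hw => ?_⟩
    obtain ⟨u, su, hu⟩ := (h1.pull g A gc Ac P w hw.1).2.2 R r hP rR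
    have sv : SmV fun a y => ψ a y + u a y := fun a => (sm hψ a).add (su a)
    have hF := (alg _ w (hps ψ hψ) hw.1).1
    have e1 := (h2.cmpn g A _ gc Ac P hg hA hr.toPar).2 _ (isOpen_Up r) (Up_sub_Hb r) _
      (fun a y => ψ a y + u a y) hF fun a y hy => by
        have := (h1.push g A gc Ac P _ ∅ ψ hr.toPar).1 y (Up_sub_Hb r hy) a
        show ψ a y + u a y = _
        rw [hu a (Up_sub_Hb r hy), ← this]
        simp only [Fr.pull, Pi.add_apply, mul_add, Finset.sum_add_distrib]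
    have e2 := hC _ ψ sv hψ fun y hy h0 a => by
      have hy' : y ∈ Hb n r := ⟨hy, h0.ge⟩
      rw [hu a hy', add_eq_left]
      simp [Fr.pull, hw.2 _ ((hr.bd y hy').2 h0)]
    have hB : enU (Up n r) gc Ac (fun a y => ψ a y + u a y) + enU (Lo n r) gc Ac ψ ≤
        capB g A gc Ac P r ψ w ψ w := (add_le_add_left e1 _).trans_eq (add_comm _ _)
    have p1 : 0 ≤ enU (Up n r) gc Ac fun a y => ψ a y + u a y := integral_nonneg (ed0 _)
    have p2 : 0 ≤ enU (Lo n r) gc Ac ψ := integral_nonneg (ed0 _)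
    have e3 := e2.trans (mul_le_mul_of_nonneg_left hB C0)
    have e4 : nrm (ball 0 r) (capJ P ψ w) ≤ C * capB g A gc Ac P r ψ w ψ w := by
      have := split_nrm MeasurableSet.univ sv (sm hψ) (up ψ w u hu) (lo ψ w)
      simp only [univ_inter] at this
      exact this.trans_le e3
    generalize capB g A gc Ac P r ψ w ψ w = B at *
    have B0 : 0 ≤ B := by linarith
    refine ⟨fun a => ?_, e4.trans (mul_le_mul_of_nonneg_right (by linarith) B0), fun s s0 => ?_⟩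
    · have l2 := fun W hW => (hE.tl n ι (ball 0 r)).2.2.2.2 measurableSet_ball isBounded_ball W hW a
      refine ((l2 ψ (sm hψ)).add ((l2 u su).indicator (s := {y | 0 ≤ y 0})
        (isClosed_le continuous_const cont0).measurableSet)).ae_eq ?_
      filter_upwards [ae_restrict_mem measurableSet_ball] with y hy
      by_cases h0 : 0 ≤ y 0
      · simp [capJ, h0, hu a (⟨hy, h0⟩ : y ∈ Hb n r)]
      · simp [capJ, h0]
    · have sB : 0 ≤ s ^ 2 * B := by positivity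
      rcases le_total s r with h | h
      · have i1 : ∀ T : Set (En n), ball 0 s ∩ (ball 0 r ∩ T) = ball 0 s ∩ T := fun T => by
          rw [← inter_assoc, inter_eq_left.2 (ball_subset_ball h)]
        rw [split_nrm measurableSet_ball sv (sm hψ) (up ψ w u hu) (lo ψ w), Up, Lo, i1, i1]
        have := num C1 C2 (sq_nonneg s) p1 p2 (nrm_nonneg _ _) (nrm_nonneg _ _) hB e3
          (hC₁ s s0 h _ sv) (hC₂ s s0 h _ (sm hψ))
        linarith [mul_nonneg C0 sB, mul_nonneg K2 sB]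
      · rw [inter_eq_right.2 (ball_subset_ball h)]
        have h3 : C ≤ C / r ^ 2 * s ^ 2 := by
          rw [div_mul_eq_mul_div, le_div_iff₀ (by positivity)]
          gcongr
        linarith [mul_nonneg C0 sB, mul_nonneg K1 sB, mul_le_mul_of_nonneg_right h3 B0]
  · obtain ⟨u, su, hu⟩ := (h1.pull g A gc Ac P w hw.1).2.2 R r hP rR
    have sL := sm_app (hE.cop n ι gc Ac ga).1 (sm hφ)
    obtain ⟨-, g2, g3⟩ := (h2.green g A gc Ac P φ hg hA).2 R r hP r0 rR hφ
    have i1 := hE.ibp1 n ι gc Ac _ φ ψ ga isOpen_ball hφ fun a => (sm hψ a).contDiffOn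
    have i2 : enB (ball 0 r) gc Ac φ ψ = enB (Up n r) gc Ac φ ψ + enB (Lo n r) gc Ac φ ψ :=
      split' (edS _ _ (sm hφ) (sm hψ)).cont (edS _ _ (sm hφ) (sm hψ)).cont (fun _ _ => rfl)
        fun _ _ => rfl
    have sy : ∀ F, RSec n F → rbil g A (P.push (Hb n r) φ) F = rbil g A F (P.push (Hb n r) φ) :=
      fun F hF => (alg _ F (hps φ hφ) hF).2.2.2.2.2.2.2.1
    have i3 : capB g A gc Ac P r φ 0 ψ w = enB (Lo n r) gc Ac φ ψ +
        (rbil g A (P.push (Hb n r) φ) (P.push (Hb n r) ψ) + rbil g A (P.push (Hb n r) φ) w) := by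
      rw [capB, add_zero, sy _ (alg _ w (hps ψ hψ) hw.1).1, sy _ (hps ψ hψ), sy _ hw.1,
        ((alg _ w (hps ψ hψ) hw.1).2.2.2.2.2.2.2.2.2 _ (hps φ hφ)).1]
    have i4 : ∀ a, ∫ y in ball (0 : En n) r, (cop gc Ac).app φ a y * capJ P ψ w a y =
        (∫ y in ball (0 : En n) r, (cop gc Ac).app φ a y * ψ a y) +
          ∫ y in Up n r, (cop gc Ac).app φ a y * P.pull w a y := fun a => by
      have c1 := ((sL a).mul (sm hψ a)).cont
      have c2 := ((sL a).mul (su a)).cont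
      rw [split' (c1.add c2) c1 (fun y hy => by rw [up ψ w u hu a hy, mul_add]; rfl)
        (fun y hy => by rw [lo ψ w a hy]), split' c1 c1 (fun _ _ => rfl) fun _ _ => rfl,
        ← setIntegral_congr_fun (isOpen_Up r).measurableSet
          (f := fun y => (cop gc Ac).app φ a y * u a y)
          (g := fun y => (cop gc Ac).app φ a y * P.pull w a y)
          (fun y hy => by simp only [hu a (Up_sub_Hb r hy)]), add_right_comm,
        ← integral_add (intOn (N := Up n r) c1 inter_subset_left) (intOn c2 inter_subset_left)]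
      rfl
    rw [Finset.sum_congr rfl fun a _ => i4 a, Finset.sum_add_distrib, i3, g2 ψ hψ, g3 w hw]
    linarith

end Vale.Agent.P088
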