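import Vale.Agent.P088.ManS

open MeasureTheory Set Metric Filter
open scoped ContDiff Topology InnerProductSpace Manifold Matrix

noncomputable section
namespace Vale.Agent.P088
open Vale.Agent.P136 (D Sm Tst)

variable {n : ℕ} [NeZero n] {M : Type} [TopologicalSpace M] [T2Space M] [CompactSpace M]
  [ConnectedSpace M] [ChartedSpace (EuclideanHalfSpace n) M] [IsManifold (𝓡∂ n) ∞ M]
  [MeasurableSpace M] [BorelSpace M] {ι : Type} [Fintype ι] [DecidableEq ι] [Nonempty ι]

namespace ManChart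

/-- The chart frame at `p` translated by `c`. -/
def fr (n : ℕ) [NeZero n] [ChartedSpace (EuclideanHalfSpace n) M] (ι : Type) [DecidableEq ι]
    (p : M) (c : En n) : Fr n M ι :=
  ⟨fun y => (extChartAt (𝓡∂ n) p).symm (y + c), fun x => extChartAt (𝓡∂ n) p x - c, oneS n ι⟩

theorem dth_eq {p : M} {c : En n} {Dm : Set (En n)} (hu : UniqueDiffOn ℝ Dm)
    (ht : ∀ y ∈ Dm, y + c ∈ (extChartAt (𝓡∂ n) p).target) {y : En n} (hy : y ∈ Dm) (i : Fin n) :
    dth (fun y => (extChartAt (𝓡∂ n) p).symm (y + c)) Dm y i = coordVec p (y + c) i := by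
  have h1 := (mdifferentiableWithinAt_extChartAt_symm (ht y hy)).hasMFDerivWithinAt
  have h2 : HasMFDerivWithinAt 𝓘(ℝ, En n) 𝓘(ℝ, En n) (fun y : En n => y + c) Dm y
      (ContinuousLinearMap.id ℝ (En n)) :=
    ((hasFDerivAt_id y).add_const c).hasFDerivWithinAt.hasMFDerivWithinAt
  have h4 : Dm ⊆ (fun y : En n => y + c) ⁻¹' range (𝓡∂ n) := fun z hz =>
    extChartAt_target_subset_range p (ht z hz)
  have h3 := (HasMFDerivWithinAt.comp (f := fun y : En n => y + c) y h1 h2 h4).mfderivWithin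
    (hu y hy).uniqueMDiffWithinAt
  exact congrArg (fun L => L (ee i)) h3

theorem pos {g : Bil n M} (hg : IsMetric g) {p : M} {y : En n}
    (hy : y ∈ (extChartAt (𝓡∂ n) p).target) (ξ : Fin n → ℝ) (hξ : ξ ≠ 0) :
    0 < ∑ i, ∑ j, gc g p y i j * ξ i * ξ j := by
  set L := mfderivWithin 𝓘(ℝ, En n) (𝓡∂ n) (extChartAt (𝓡∂ n) p).symm (range (𝓡∂ n)) y with hL
  have e : L (∑ i, ξ i • ee i : En n) = ∑ i, ξ i • coordVec p y i :=
    (map_sum L _ _).trans (Finset.sum_congr rfl fun i _ => map_smul L _ _)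
  have hne : (∑ i, ξ i • ee i : En n) ≠ 0 := fun h => hξ (funext fun k => by
    have := congrArg (fun v : En n => v k) h
    simpa [ee, Finset.sum_apply, Pi.single_apply] using this)
  have h0 : L (∑ i, ξ i • ee i : En n) ≠ 0 := fun h =>
    hne ((isInvertible_mfderivWithin_extChartAt_symm hy).injective (h.trans (map_zero L).symm))
  have := hg.2.1 _ _ h0
  rw [e] at this
  simp only [map_sum, map_smul, LinearMap.sum_apply, LinearMap.smul_apply, smul_eq_mul] at this
  rw [Finset.sum_comm]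
  refine this.trans_eq (Finset.sum_congr rfl fun i _ => ?_)
  rw [Finset.mul_sum]
  refine Finset.sum_congr rfl fun j _ => ?_
  simp only [gc, Matrix.of_apply]
  ring

theorem image_eq {p : M} {c : En n} {Dm W : Set (En n)}
    (hD : ∀ y, y ∈ Dm ↔ y + c ∈ W ∧ y + c ∈ range (𝓡∂ n))
    (ht : ∀ y ∈ Dm, y + c ∈ (extChartAt (𝓡∂ n) p).target) :
    (fun y => (extChartAt (𝓡∂ n) p).symm (y + c)) '' Dm =
      (extChartAt (𝓡∂ n) p).source ∩ extChartAt (𝓡∂ n) p ⁻¹' W := by
  ext x
  constructor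
  · rintro ⟨y, hy, rfl⟩
    refine ⟨(extChartAt (𝓡∂ n) p).map_target (ht y hy), ?_⟩
    rw [mem_preimage, (extChartAt (𝓡∂ n) p).right_inv (ht y hy)]
    exact ((hD y).1 hy).1
  · rintro ⟨h1, h2⟩
    refine ⟨extChartAt (𝓡∂ n) p x - c, (hD _).2 ?_, ?_⟩
    · rw [sub_add_cancel]
      exact ⟨h2, extChartAt_target_subset_range p ((extChartAt (𝓡∂ n) p).map_source h1)⟩
    · simp only [sub_add_cancel]
      exact (extChartAt (𝓡∂ n) p).left_inv h1

theorem par {g : Bil n M} {A : RForm n M ι} {p : M} {c : En n} {Dm W : Set (En n)}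
    (hu : UniqueDiffOn ℝ Dm) (hm : MeasurableSet Dm) (hb : Bornology.IsBounded Dm)
    (hW : IsOpen W) (hD : ∀ y, y ∈ Dm ↔ y + c ∈ W ∧ y + c ∈ range (𝓡∂ n))
    (ht : ∀ y ∈ Dm, y + c ∈ (extChartAt (𝓡∂ n) p).target) {g' : MatF n} {A' : ConF n ι}
    (hga : GA g' A') (he : ∀ y ∈ Dm, (∀ i j, g' i j y = gc g p (y + c) i j) ∧
      ∀ i a a', A' i a a' y = A _ (coordVec p (y + c) i) a a') :
    Par g A Dm g' A' (fr n ι p c) where
  uniq := hu
  meas := hm
  bdd := hb
  smθ := (contMDiffOn_extChartAt_symm p).comp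
    (contDiff_id.add contDiff_const).contMDiff.contMDiffOn ht
  ga := hga
  smS := fun _ _ _ _ => contDiffAt_const
  orth := fun y _ a a' => by
    simp only [fr, oneS, ite_mul, one_mul, zero_mul, Finset.sum_ite_eq', Finset.mem_univ, if_true]
  met := fun y hy i j => by
    rw [(he y hy).1]
    change _ = g _ (dth (fun y => (extChartAt (𝓡∂ n) p).symm (y + c)) Dm y i)
      (dth (fun y => (extChartAt (𝓡∂ n) p).symm (y + c)) Dm y j)
    rw [dth_eq hu ht hy, dth_eq hu ht hy]
    rfl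
  con := fun y hy i a a' => by
    have e : D (ee i) ((fr n ι p c).S a a') y = 0 := by
      change fderiv ℝ (fun _ : En n => if a = a' then (1 : ℝ) else 0) y (ee i) = 0
      simp
    rw [e, zero_add]
    change ∑ e, A' i a e y * oneS n ι e a' y = ∑ e, oneS n ι a e y *
      A _ (dth (fun y => (extChartAt (𝓡∂ n) p).symm (y + c)) Dm y i) e a'
    rw [dth_eq hu ht hy]
    simp only [oneS, mul_ite, ite_mul, mul_one, mul_zero, one_mul, zero_mul, Finset.sum_ite_eq',
      Finset.sum_ite_eq, Finset.mem_univ, if_true]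
    exact (he y hy).2 i a a'
  smκ := by
    change ContMDiffOn _ _ _ (fun x => extChartAt (𝓡∂ n) p x - c)
      ((fun y => (extChartAt (𝓡∂ n) p).symm (y + c)) '' Dm)
    rw [image_eq hD ht]
    refine (contDiff_id.sub contDiff_const : ContDiff ℝ ∞ fun y : En n => y - c).contMDiff
      |>.comp_contMDiffOn (contMDiffOn_extChartAt.mono fun x hx => ?_)
    rw [← extChartAt_source (𝓡∂ n)]
    exact hx.1
  linv := fun y hy => by
    change extChartAt (𝓡∂ n) p ((extChartAt (𝓡∂ n) p).symm (y + c)) - c = y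
    rw [(extChartAt (𝓡∂ n) p).right_inv (ht y hy), add_sub_cancel_right]
  opn := by
    change IsOpen ((fun y => (extChartAt (𝓡∂ n) p).symm (y + c)) '' Dm)
    rw [image_eq hD ht]
    exact (continuousOn_extChartAt p).isOpen_inter_preimage (isOpen_extChartAt_source p) hW

theorem int_iff {p : M} {y : En n} (hy : y ∈ (extChartAt (𝓡∂ n) p).target) :
    (extChartAt (𝓡∂ n) p).symm y ∈ intM n M ↔ 0 < y 0 := by
  have hs : (extChartAt (𝓡∂ n) p).symm y ∈ (chartAt (EuclideanHalfSpace n) p).source := by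
    rw [← extChartAt_source (𝓡∂ n)]
    exact (extChartAt (𝓡∂ n) p).map_target hy
  have h1 := (𝓡∂ n).isInteriorPoint_iff_of_mem_atlas (n := ∞) (by simp)
    (chart_mem_atlas (EuclideanHalfSpace n) p) hs
  have h2 : (chartAt (EuclideanHalfSpace n) p).extend (𝓡∂ n) ((extChartAt (𝓡∂ n) p).symm y) = y :=
    (extChartAt (𝓡∂ n) p).right_inv hy
  rw [h2] at h1
  refine h1.trans ⟨fun h => ?_, fun h => ?_⟩
  · have := interior_mono (extChartAt_target_subset_range p) h
    rwa [interior_range_modelWithCornersEuclideanHalfSpace] at this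
  · have h3 : range (𝓡∂ n) ∈ 𝓝 y := by
      rw [← mem_interior_iff_mem_nhds, interior_range_modelWithCornersEuclideanHalfSpace]
      exact h
    have h4 := extChartAt_target_mem_nhdsWithin_of_mem hy
    rw [nhdsWithin_eq_nhds.2 h3] at h4
    exact mem_interior_iff_mem_nhds.2 h4

theorem skew {A : RForm n M ι} (hA : IsSkewConn A) (x : M) (v : TangentSpace (𝓡∂ n) x)
    (a a' : ι) : A x v a a' = -A x v a' a :=
  congrFun (congrFun (hA.1 x v) a') a

theorem uniq_Hb (r : ℝ) : UniqueDiffOn ℝ (Hb n r) := by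
  have := (𝓡∂ n).uniqueDiffOn.inter (isOpen_ball (x := (0 : En n)) (ε := r))
  rwa [range_modelWithCornersEuclideanHalfSpace, inter_comm] at this

end ManChart

open ManChart in
theorem m_xi (hE : EAll) : M_xi n M ι := by
  intro g A hg hA x hx
  set c := extChartAt (𝓡∂ n) x x with hc
  have hct : c ∈ (extChartAt (𝓡∂ n) x).target := mem_extChartAt_target x
  have hxx : (extChartAt (𝓡∂ n) x).symm c = x := extChartAt_to_inv x
  have h0 : 0 < c 0 := (int_iff hct).1 (by rwa [hxx])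
  have h3 : {y : En n | 0 < y 0} ∈ 𝓝 c := (isOpen_lt continuous_const cont0).mem_nhds h0
  have h4 := extChartAt_target_mem_nhdsWithin_of_mem hct
  rw [nhdsWithin_eq_nhds.2 (by
    rw [range_modelWithCornersEuclideanHalfSpace]
    exact mem_of_superset h3 fun y (hy : 0 < y 0) => hy.le)] at h4
  obtain ⟨R, hR, hb⟩ := Metric.mem_nhds_iff.1 (inter_mem h4 h3)
  have hm : ∀ y ∈ ball (0 : En n) R, y + c ∈ (extChartAt (𝓡∂ n) x).target ∧ 0 < (y + c) 0 :=
    fun y hy => hb (by simpa using hy)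
  have hs : closedBall (0 : En n) (R / 2) ⊆ ball 0 R := closedBall_subset_ball (by linarith)
  have tr : ContDiffOn ℝ ∞ (fun y : En n => y + c) (ball 0 R) :=
    (contDiff_id.add contDiff_const).contDiffOn
  obtain ⟨g', A', hga, he⟩ := hE.gaext n ι (fun i j y => gc g x (y + c) i j)
    (fun i a a' y => A _ (coordVec x (y + c) i) a a') (closedBall 0 (R / 2)) (ball 0 R)
    (isCompact_closedBall _ _) isOpen_ball hs
    (fun i j => (hg.2.2 x i j).comp tr fun y hy => (hm y hy).1)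
    (fun i a a' => (hA.2 x i a a').comp tr fun y hy => (hm y hy).1)
    fun y hy => ⟨fun i j => hg.1 _ _ _, pos hg (hm y (hs hy)).1, fun i a a' => skew hA _ _ a a'⟩
  have hs' : ball (0 : En n) (R / 2) ⊆ ball 0 R := ball_subset_closedBall.trans hs
  refine ⟨R / 2, g', A', fr n ι x c, half_pos hR, ⟨par isOpen_ball.uniqueDiffOn measurableSet_ball
    isBounded_ball (isOpen_ball (x := c) (ε := R / 2)) (fun y => ⟨fun hy => ⟨by simpa using hy,
      extChartAt_target_subset_range x (hm y (hs' hy)).1⟩, fun hy => by simpa using hy.1⟩)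
    (fun y hy => (hm y (hs' hy)).1) hga fun y hy => he y (ball_subset_closedBall hy),
    isOpen_ball, fun y hy => (int_iff (hm y (hs' hy)).1).2 (hm y (hs' hy)).2⟩, ?_⟩
  change (extChartAt (𝓡∂ n) x).symm (0 + c) = x
  rw [zero_add, hxx]

open ManChart in
theorem m_xb (hE : EAll) : M_xb n M ι := by
  intro x hx O hO hxO
  set c := extChartAt (𝓡∂ n) x x with hc
  have hct : c ∈ (extChartAt (𝓡∂ n) x).target := mem_extChartAt_target x
  have hxx : (extChartAt (𝓡∂ n) x).symm c = x := extChartAt_to_inv x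
  have h0 : c 0 = 0 := by
    have h1 : c ∈ frontier (range (𝓡∂ n)) := hx
    rw [frontier_range_modelWithCornersEuclideanHalfSpace] at h1
    exact Eq.symm h1
  have h3 : (extChartAt (𝓡∂ n) x).symm ⁻¹' O ∈ 𝓝 c :=
    (continuousAt_extChartAt_symm x).preimage_mem_nhds (by rw [hxx]; exact hO.mem_nhds hxO)
  obtain ⟨R, hR, hb⟩ := Metric.mem_nhdsWithin_iff.1
    (inter_mem (extChartAt_target_mem_nhdsWithin_of_mem hct) (mem_nhdsWithin_of_mem_nhds h3))
  have hD : ∀ r, ∀ y : En n, y ∈ Hb n r ↔ y + c ∈ ball c r ∧ y + c ∈ range (𝓡∂ n) := fun r y => by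
    rw [range_modelWithCornersEuclideanHalfSpace]
    simp [Hb, h0]
  have hm := fun y (hy : y ∈ Hb n R) => hb ((hD R y).1 hy)
  have hs : Hb n (R / 4) ⊆ Hb n R := Hb_mono (by linarith)
  have tr : ContDiffOn ℝ ∞ (fun y : En n => y + c) (Hb n R) :=
    (contDiff_id.add contDiff_const).contDiffOn
  refine ⟨R / 4, (fr n ι x c).θ, (fr n ι x c).κ, ?_, ?_, fun g A hg hA => ?_⟩
  · change (extChartAt (𝓡∂ n) x).symm (0 + c) = x
    rw [zero_add, hxx]
  · rintro _ ⟨y, hy, rfl⟩
    exact (hm y (hs hy)).2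
  choose g₁ s₁ e₁ using fun i j => hE.sext n (fun y => gc g x (y + c) i j) 0 R (R / 2)
    (by linarith) ((hg.2.2 x i j).comp tr fun y hy => (hm y hy).1)
  choose A₁ s₂ e₂ using fun i a a' => hE.sext n (fun y => A _ (coordVec x (y + c) i) a a') 0 R
    (R / 2) (by linarith) ((hA.2 x i a a').comp tr fun y hy => (hm y hy).1)
  have hK : closedBall (0 : En n) (R / 4) ∩ {y | 0 ≤ y 0} ⊆ Hb n (R / 2) :=
    inter_subset_inter_left _ (closedBall_subset_ball (by linarith))
  obtain ⟨g', A', hga, he⟩ := hE.gaext n ι g₁ A₁ (closedBall 0 (R / 4) ∩ {y | 0 ≤ y 0}) univ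
    ((isCompact_closedBall _ _).inter_right (isClosed_le continuous_const cont0)) isOpen_univ
    (subset_univ _) (fun i j => (s₁ i j).contDiffOn) (fun i a a' => (s₂ i a a').contDiffOn)
    fun y hy => by
      simp only [e₁ _ _ (hK hy), e₂ _ _ _ (hK hy)]
      exact ⟨fun i j => hg.1 _ _ _, pos hg (hm y (Hb_mono (by linarith) (hK hy))).1,
        fun i a a' => skew hA _ _ a a'⟩
  refine ⟨g', A', ⟨par (uniq_Hb _) (meas_Hb _) (isBounded_ball.subset inter_subset_left)
    isOpen_ball (hD _) (fun y hy => (hm y (hs hy)).1) hga fun y hy => ?_, by positivity,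
    fun y hy => ?_⟩⟩
  · have hy' : y ∈ closedBall (0 : En n) (R / 4) ∩ {y | 0 ≤ y 0} :=
      ⟨ball_subset_closedBall hy.1, hy.2⟩
    exact ⟨fun i j => ((he y hy').1 i j).trans (e₁ i j (hK hy')),
      fun i a a' => ((he y hy').2 i a a').trans (e₂ i a a' (hK hy'))⟩
  · have h1 := int_iff (hm y (hs hy)).1
    rw [int_iff_not_bd, PiLp.add_apply, h0, add_zero] at h1
    have h2 : 0 ≤ y 0 := hy.2
    change (extChartAt (𝓡∂ n) x).symm (y + c) ∈ bdM n M ↔ _
    rw [← not_iff_not, h1]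
    exact ⟨fun h => h.ne', fun h => lt_of_le_of_ne h2 (Ne.symm h)⟩

end Vale.Agent.P088
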