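import Vale.Agent.P088.ManS
import Vale.Agent.P088.IsoInter

open MeasureTheory Set Metric Filter
open scoped ContDiff Topology InnerProductSpace Manifold Matrix

noncomputable section
namespace Vale.Agent.P088
open Vale.Agent.P136 (D Sm Tst)

variable {n : ℕ} [NeZero n] {M : Type} [TopologicalSpace M] [T2Space M] [CompactSpace M]
  [ConnectedSpace M] [ChartedSpace (EuclideanHalfSpace n) M] [IsManifold (𝓡∂ n) ∞ M]
  [MeasurableSpace M] [BorelSpace M] {ι : Type} [Fintype ι] [DecidableEq ι] [Nonempty ι]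

namespace ManCmp

omit [NeZero n] [DecidableEq ι] [Nonempty ι] in
theorem cov_tst {g : MatF n} {A : ConF n ι} (h : GA g A) {ψ : ι → En n → ℝ} (hψ : ∀ a, Tst (ψ a))
    (i : Fin n) (a : ι) : Tst (cov A i ψ a) :=
  ((hψ a).D _).add (Tst.sum _ fun a' _ => Tst.mul_left (h.2.2.2.1 i a a') (hψ a'))

omit [NeZero n] [Nonempty ι] in
theorem app_tst {g : MatF n} {A : ConF n ι} (h : GA g A) {ψ : ι → En n → ℝ} (hψ : ∀ a, Tst (ψ a))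
    (a : ι) : Tst ((cop g A).app ψ a) := by
  have e : (cop g A).app ψ a = fun y =>
      ∑ i, cov A i (fun e y => ∑ j, gam g i j y * cov A j ψ e y) a y :=
    funext fun y => IsoInter.app_cov h (fun a => (hψ a).1.contDiffAt) a
  rw [e]
  exact Tst.sum _ fun i _ => cov_tst h (fun b => Tst.sum _ fun j _ =>
    Tst.mul_left (IsoInter.gam_sm h i j) (cov_tst h hψ j b)) i a

omit [DecidableEq ι] [Nonempty ι] in
theorem en_eq {g : MatF n} {A : ConF n ι} {r : ℝ} {v : ι → En n → ℝ} (hv : Tests (ball 0 r) v) :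
    enB (Up n r) g A v v = enU {x | 0 < x 0} g A v := by
  symm
  refine setIntegral_eq_of_subset_of_forall_sdiff_eq_zero
    (isOpen_lt continuous_const cont0).measurableSet inter_subset_right fun y hy => ?_
  have h : ∀ a, y ∉ tsupport (v a) := fun a ha => hy.2 ⟨(hv a).2 ha, hy.1⟩
  simp only [cov, Vale.Agent.P136.D_eq_zero_of_notMem (h _),
    image_eq_zero_of_notMem_tsupport (h _), mul_zero, Finset.sum_const_zero, add_zero]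

theorem amgm {a e b : ℝ} (ha : 0 ≤ a) (he : 0 ≤ e) (h : b ^ 2 ≤ a * e) : 0 ≤ 2 * b + e + a := by
  by_contra hn
  nlinarith [sq_nonneg (a - e)]

end ManCmp

open ManCmp in
theorem m_cmp (hE : EAll) (h1 : B1 n M ι) (h2 : B2 n M ι) : M_cmp n M ι := by
  intro X₁ X₂ Γ R r gc₁ gc₂ Ac₁ Ac₂ P₁ P₂ hS hP₁ hP₂ hF hr hrR
  obtain ⟨C, hC0, hC⟩ := hE.hardy n ι gc₁ Ac₁ r hP₁.ga
  refine ⟨C, fun v₁ v₂ hv₁ hv₂ hbd => ?_⟩
  have b₁ := (h1.restr X₁.g X₁.A gc₁ Ac₁ P₁).2.2.1 R r hP₁ hr hrR.le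
  have b₂ := (h1.restr X₂.g X₂.A gc₂ Ac₂ P₂).2.2.1 R r hP₂ hr hrR.le
  have hF' := hF.mono hrR.le
  obtain ⟨s₁, a₁⟩ := (h1.push2 X₁.g X₁.A gc₁ Ac₁ P₁ v₁).2.1 r Γ b₁ hv₁
  have s₂ := ((h1.push2 X₂.g X₂.A gc₂ Ac₂ P₂ v₂).2.1 r Γ b₂ hv₂).1
  have adm := a₁ fun y hy h0 => (hF'.symm y hy h0).2.1
  have hb := (h1.push2 X₁.g X₁.A gc₁ Ac₁ P₁ v₁).2.2 r Γ X₂.g X₂.A gc₂ Ac₂ P₂ b₁ b₂ hF' v₂
    fun y _ h0 a => hbd y h0 a
  have g₁ := (h2.green X₁.g X₁.A gc₁ Ac₁ P₁ v₁ X₁.hg X₁.hA).2 R r hP₁ hr hrR hv₁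
  have g₂ := (h2.green X₂.g X₂.A gc₂ Ac₂ P₂ v₂ X₂.hg X₂.hA).2 R r hP₂ hr hrR hv₂
  have al₁ := (h2.alg X₁.g X₁.A X₁.hg X₁.hA).2.2.2.2.2.2
  have al₂ := (h2.alg X₂.g X₂.A X₂.hg X₂.hA).2.2.2.2.2.2
  have hL : ∀ a, Tst ((cop gc₁ Ac₁).app v₁ a) := app_tst hP₁.ga fun a => (hv₁ a).1
  have up : rdn X₁.g X₁.A (P₁.push (Hb n r) v₁) ≤ enU {x | 0 < x 0} gc₂ Ac₂ v₂ := by
    rw [hS _ s₁ adm.2, rdn_congr _ _ hb, ← en_eq hv₂, ← g₂.2.1 v₂ hv₂]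
    refine csInf_le ⟨0, ?_⟩ ⟨_, ⟨s₂, fun _ _ => rfl⟩, rfl⟩
    rintro _ ⟨F, hF, rfl⟩
    exact (al₂ F F hF.1 hF.1).2.2.2.2.2.2.2.2.1
  have hI : ∑ a, ∫ y in Up n r, (y 0 * (cop gc₁ Ac₁).app v₁ a y) ^ 2 ≤
      ∑ a, ∫ x in {x : En n | 0 < x 0}, (x 0 * (cop gc₁ Ac₁).app v₁ a x) ^ 2 :=
    Finset.sum_le_sum fun a _ => setIntegral_mono_set
      (Tst.mul_left (EuclideanSpace.proj (𝕜 := ℝ) (0 : Fin n)).contDiff
        (hL a)).sq.integrable.integrableOn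
      (ae_of_all _ fun _ => sq_nonneg _) (HasSubset.Subset.eventuallyLE inter_subset_right)
  have hI0 : 0 ≤ ∑ a, ∫ y in Up n r, (y 0 * (cop gc₁ Ac₁).app v₁ a y) ^ 2 :=
    Finset.sum_nonneg fun a _ => integral_nonneg fun _ => sq_nonneg _
  have low : enU {x | 0 < x 0} gc₁ Ac₁ v₁ -
      C * ∑ a, ∫ y in Up n r, (y 0 * (cop gc₁ Ac₁).app v₁ a y) ^ 2 ≤
      rdn X₁.g X₁.A (P₁.push (Hb n r) v₁) := by
    refine le_csInf ⟨_, _, ⟨s₁, fun _ _ => rfl⟩, rfl⟩ ?_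
    rintro _ ⟨F, ⟨sF, hFb⟩, rfl⟩
    obtain ⟨w, hw, rfl⟩ : ∃ w, V0 n w ∧ F = P₁.push (Hb n r) v₁ + w :=
      ⟨F - P₁.push (Hb n r) v₁, ⟨(al₁ _ _ sF s₁).2.1, fun x hx => sub_eq_zero.2 (hFb x hx)⟩,
        by abel⟩
    obtain ⟨v, hv, ev⟩ := (h1.pull X₁.g X₁.A gc₁ Ac₁ P₁ w hw.1).2.2 R r hP₁ hrR
    have k1 := hC v ((cop gc₁ Ac₁).app v₁) hv (fun y hy h0 a => by
        have hy' : y ∈ Hb n r := ⟨hy, h0.ge⟩
        rw [ev a hy']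
        simp [Fr.pull, hw.2 _ ((b₁.bd y hy').2 h0)])
      ((hE.tl n ι (Up n r)).2.2.2.2 (isOpen_Up r).measurableSet
        (isBounded_ball.subset inter_subset_left) _ fun a => (hL a).1)
    have k2 := (h2.cmpn X₁.g X₁.A (Hb n r) gc₁ Ac₁ P₁ X₁.hg X₁.hA b₁.toPar).2 (Up n r)
      (isOpen_Up r) (Up_sub_Hb r) w v hw.1 fun a => (ev a).mono (Up_sub_Hb r)
    have k3 : rbil X₁.g X₁.A (P₁.push (Hb n r) v₁) w =
        -∑ a, ∫ y in Up n r, (cop gc₁ Ac₁).app v₁ a y * v a y := by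
      rw [g₁.2.2 w hw]
      congr 1
      exact Finset.sum_congr rfl fun a _ => setIntegral_congr_fun (isOpen_Up r).measurableSet
        fun y hy => by simp only [ev a (Up_sub_Hb r hy)]
    have k4 : renergy X₁.g X₁.A (P₁.push (Hb n r) v₁ + w) = enU {x | 0 < x 0} gc₁ Ac₁ v₁ +
        2 * rbil X₁.g X₁.A (P₁.push (Hb n r) v₁) w + renergy X₁.g X₁.A w := by
      have e1 := ((al₁ _ _ s₁ hw.1).2.2.2.2.2.2.2.2.2 _ sF).1
      have e2 := ((al₁ _ _ s₁ hw.1).2.2.2.2.2.2.2.2.2 _ s₁).1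
      have e3 := ((al₁ _ _ s₁ hw.1).2.2.2.2.2.2.2.2.2 _ hw.1).1
      have e4 := (al₁ _ _ s₁ sF).2.2.2.2.2.2.2.1
      have e5 := (al₁ _ _ hw.1 sF).2.2.2.2.2.2.2.1
      have e6 := (al₁ _ _ s₁ hw.1).2.2.2.2.2.2.2.1
      have e7 := (g₁.2.1 v₁ hv₁).trans (en_eq hv₁)
      change rbil X₁.g X₁.A _ _ = _ + _ + rbil X₁.g X₁.A w w
      linarith
    have k5 := amgm (b := rbil X₁.g X₁.A (P₁.push (Hb n r) v₁) w) (mul_nonneg hC0 hI0)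
      (al₁ w w hw.1 hw.1).2.2.2.2.2.2.2.2.1 (by
        rw [k3, neg_sq]
        exact k1.trans (mul_le_mul_of_nonneg_left k2 (mul_nonneg hC0 hI0)))
    linarith
  linarith [mul_le_mul_of_nonneg_left hI hC0]

end Vale.Agent.P088
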