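import Vale.Agent.P088.ManS

open MeasureTheory Set Metric Filter
open scoped ContDiff Topology InnerProductSpace Manifold Matrix

noncomputable section
namespace Vale.Agent.P088
open Vale.Agent.P136 (D Sm Tst)

variable {n : ℕ} [NeZero n] {M : Type} [TopologicalSpace M] [T2Space M] [CompactSpace M]
  [ConnectedSpace M] [ChartedSpace (EuclideanHalfSpace n) M] [IsManifold (𝓡∂ n) ∞ M]
  [MeasurableSpace M] [BorelSpace M] {ι : Type} [Fintype ι] [DecidableEq ι] [Nonempty ι]

namespace ManCmpn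

omit [Nonempty ι] in
theorem sq_sum {S : ι → ι → ℝ} (h : ∀ a a', ∑ e, S e a * S e a' = if a = a' then 1 else 0)
    (F : ι → ℝ) : ∑ a, (∑ a', S a a' * F a') ^ 2 = ∑ a, F a ^ 2 := by
  calc ∑ a, (∑ a', S a a' * F a') ^ 2 = ∑ a, ∑ b, ∑ c, F b * F c * (S a b * S a c) := by
        refine Finset.sum_congr rfl fun a _ => ?_
        rw [sq, Finset.sum_mul_sum]
        exact Finset.sum_congr rfl fun b _ => Finset.sum_congr rfl fun c _ => by ring
    _ = ∑ b, ∑ c, F b * F c * ∑ a, S a b * S a c := by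
        rw [Finset.sum_comm]
        refine Finset.sum_congr rfl fun b _ => ?_
        rw [Finset.sum_comm]
        exact Finset.sum_congr rfl fun c _ => (Finset.mul_sum _ _ _).symm
    _ = ∑ a, F a ^ 2 := by simp [h, sq]

end ManCmpn

theorem m_cmpn (hE : EAll) (h1 : B1 n M ι) (fin : M_fin n M ι) (alg : M_alg n M ι) :
    M_cmpn n M ι := by
  intro g A Dm gc Ac P hg hA hP
  obtain ⟨e1, e2, -, -, -, -, e7, e8⟩ := hE.eden n ι gc Ac hP.ga
  obtain ⟨f1, -, f3⟩ := fin g A hg hA
  obtain ⟨-, a2, -, -, -, -, a7⟩ := alg g A hg hA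
  refine ⟨?_, fun N hN hs F v hF hv => ?_⟩
  · obtain ⟨R, hR⟩ := hP.bdd.subset_closedBall 0
    obtain ⟨c, hc, hb⟩ := e8 R
    refine ⟨c, hc, fun N hN hs F hF => ?_⟩
    obtain ⟨-, -, v3, v4, -, -⟩ := h1.vol g A Dm N gc Ac P hg hP hN hs
    have hq : Continuous fun x => ∑ a, F x a ^ 2 :=
      continuous_finsetSum _ fun a _ => (hF a).continuous.pow 2
    have hq0 : ∀ x, 0 ≤ ∑ a, F x a ^ 2 := fun x => Finset.sum_nonneg fun a _ => sq_nonneg _
    have hi : Integrable (fun x => ∑ a, F x a ^ 2) (vol g) :=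
      hq.integrable_of_hasCompactSupport (HasCompactSupport.of_compactSpace _)
    have hi' := (v4 _).1 hi.integrableOn
    have hsq : ∀ y ∈ N, ∑ a, P.pull F a y ^ 2 = ∑ a, F (P.θ y) a ^ 2 := fun y hy =>
      ManCmpn.sq_sum (S := fun a a' => P.S a a' y) (hP.orth y (hs hy)) _
    have hia : ∀ a, IntegrableOn (fun y => P.pull F a y ^ 2) N := by
      intro a
      have hco := (((h1.pull g A gc Ac P F hF).1 Dm hP.toPar0 a).continuousOn.mono hs).pow 2
      refine Integrable.mono' hi' (hco.aestronglyMeasurable hN) ?_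
      filter_upwards [ae_restrict_mem hN] with y hy
      rw [Real.norm_of_nonneg (sq_nonneg _), ← hsq y hy]
      exact Finset.single_le_sum (f := fun a => P.pull F a y ^ 2) (fun _ _ => sq_nonneg _)
        (Finset.mem_univ a)
    have hn : nrm N (P.pull F) = ∫ y in N, ∑ a, F (P.θ y) a ^ 2 := by
      rw [nrm, ← integral_finsetSum _ fun a _ => hia a]
      exact setIntegral_congr_fun hN hsq
    have his : IntegrableOn (fun y => sdet gc y * ∑ a, F (P.θ y) a ^ 2) N := by
      refine Integrable.mono' (hi'.const_mul c⁻¹)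
        (e1.continuous.aestronglyMeasurable.mul hi'.aestronglyMeasurable) ?_
      filter_upwards [ae_restrict_mem hN] with y hy
      rw [Real.norm_of_nonneg (mul_nonneg (e2 y).le (hq0 _))]
      refine mul_le_mul_of_nonneg_right ?_ (hq0 _)
      rw [← mul_one c⁻¹, le_inv_mul_iff₀ hc]
      exact (hb y (hR (hs hy))).2.1
    have k1 : c * nrm N (P.pull F) ≤ ∫ x in P.θ '' N, ∑ a, F x a ^ 2 ∂(vol g) := by
      rw [hn, v3, ← integral_const_mul]
      exact setIntegral_mono_on (hi'.const_mul c) his hN fun y hy =>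
        mul_le_mul_of_nonneg_right (hb y (hR (hs hy))).1 (hq0 _)
    refine ⟨k1, ?_, k1.trans ?_⟩
    · rw [hn, v3, ← integral_const_mul]
      refine setIntegral_mono_on (his.const_mul c) hi' hN fun y hy => ?_
      rw [← mul_assoc]
      exact mul_le_of_le_one_left (hq0 _) (hb y (hR (hs hy))).2.1
    · rw [(a7 F F hF hF).2.2.2.2.2.2.1]
      exact setIntegral_le_integral hi (ae_of_all _ hq0)
  · obtain ⟨-, -, v3, -, -, -⟩ := h1.vol g A Dm N gc Ac P hg hP hN.measurableSet hs
    have e : enU N gc Ac v = ∫ x in P.θ '' N, rbd g A F F x ∂(vol g) := by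
      rw [v3]
      refine setIntegral_congr_fun hN.measurableSet fun y hy => ?_
      have hl : ∀ a, v a =ᶠ[𝓝 y] P.pull F a := fun a => (hv a).eventuallyEq_of_mem (hN.mem_nhds hy)
      exact (e7 _ _ _ _ y hl hl).trans
        (h1.dens g A Dm gc Ac P F F hg hP.toPar0 hF hF y (interior_maximal hs hN hy))
    rw [e]
    exact setIntegral_le_integral (f3 F F hF hF) (ae_of_all _ (a2 F))

theorem m_strip (hE : EAll) (h1 : B1 n M ι) (cmpn : M_cmpn n M ι) : M_strip n M ι := by
  intro g A R r gc Ac P hg hA hB hr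
  obtain ⟨⟨c, hc, k1⟩, k2⟩ := cmpn g A _ gc Ac P hg hA hB.toPar
  obtain ⟨C, hC, hH⟩ := hE.hardy n ι gc Ac r hB.ga
  refine ⟨C / c, by positivity, fun h hh w hw => ?_⟩
  have hm : MeasurableSet (Hb n r ∩ {y | y 0 ≤ h}) :=
    (meas_Hb r).inter (isClosed_le cont0 continuous_const).measurableSet
  have hU := (isOpen_Up (n := n) r).measurableSet
  obtain ⟨v, hv, he⟩ := (h1.pull g A gc Ac P w hw.1).2.2 R r hB hr
  have hl : L2On (Up n r) v :=
    (hE.tl n ι _).2.2.2.2 hU (isBounded_ball.subset inter_subset_left) v hv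
  have hk : L2On (Up n r) fun a => (Hb n r ∩ {y | y 0 ≤ h}).indicator (v a) :=
    fun a => (hl a).indicator hm
  have H := hH v _ hv (fun y hy h0 a => by
    have hy' : y ∈ Hb n r := ⟨hy, h0.ge⟩
    rw [he a hy', Fr.pull, hw.2 _ ((hB.bd y (Hb_mono hr.le hy')).2 h0)]
    simp) hk
  have hX : ∑ a, ∫ y in Up n r, (Hb n r ∩ {y | y 0 ≤ h}).indicator (v a) y * v a y =
      nrm (Hb n r ∩ {y | y 0 ≤ h}) (P.pull w) := by
    refine Finset.sum_congr rfl fun a _ => ?_
    rw [← setIntegral_congr_set (Hb_ae_eq r)]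
    simp only [← indicator_mul_left]
    rw [setIntegral_indicator hm, ← inter_assoc, inter_self]
    refine setIntegral_congr_fun hm fun y hy => ?_
    simp only [he a hy.1, sq]
  have hY : ∑ a, ∫ y in Up n r, (y 0 * (Hb n r ∩ {y | y 0 ≤ h}).indicator (v a) y) ^ 2 ≤
      h ^ 2 * nrm (Hb n r ∩ {y | y 0 ≤ h}) (P.pull w) := by
    rw [← hX, Finset.mul_sum]
    refine Finset.sum_le_sum fun a _ => ?_
    rw [← integral_const_mul]
    refine integral_mono_of_nonneg (ae_of_all _ fun _ => sq_nonneg _)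
      (((hk a).integrable_mul (hl a)).const_mul _) ?_
    filter_upwards [ae_restrict_mem hU] with y hy
    by_cases hs : y ∈ Hb n r ∩ {y | y 0 ≤ h}
    · rw [indicator_of_mem hs, mul_pow, ← sq]
      exact mul_le_mul_of_nonneg_right (pow_le_pow_left₀ hs.1.2 hs.2 2) (sq_nonneg _)
    · simp [indicator_of_notMem hs]
  have hE0 : 0 ≤ enU (Up n r) gc Ac v :=
    integral_nonneg fun y => (hE.eden n ι gc Ac hB.ga).2.2.2.1 v y
  have hE1 := k2 _ (isOpen_Up r) ((Up_sub_Hb r).trans (Hb_mono hr.le)) w v hw.1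
    fun a => (he a).mono (Up_sub_Hb r)
  have hI := (k1 _ hm (inter_subset_left.trans (Hb_mono hr.le)) w hw.1).2.1
  rw [hX] at H
  generalize nrm (Hb n r ∩ {y | y 0 ≤ h}) (P.pull w) = X at H hY hI
  have hX1 : X ≤ C * h ^ 2 * enU (Up n r) gc Ac v := by
    by_contra hlt
    push Not at hlt
    have h0 : 0 < X := lt_of_le_of_lt (by positivity) hlt
    have := H.trans (mul_le_mul_of_nonneg_right (mul_le_mul_of_nonneg_left hY hC) hE0)
    nlinarith
  rw [div_mul_eq_mul_div, div_mul_eq_mul_div, le_div_iff₀ hc, mul_comm]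
  exact hI.trans (hX1.trans (mul_le_mul_of_nonneg_left hE1 (by positivity)))

end Vale.Agent.P088
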