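import Vale.Agent.P088.ManS

open MeasureTheory Set Metric Filter
open scoped ContDiff Topology InnerProductSpace Manifold Matrix

noncomputable section
namespace Vale.Agent.P088
open Vale.Agent.P136 (D Sm Tst)

variable {n : ℕ} [NeZero n] {M : Type} [TopologicalSpace M] [T2Space M] [CompactSpace M]
  [ConnectedSpace M] [ChartedSpace (EuclideanHalfSpace n) M] [IsManifold (𝓡∂ n) ∞ M]
  [MeasurableSpace M] [BorelSpace M] {ι : Type} [Fintype ι] [DecidableEq ι] [Nonempty ι]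

namespace ManComp

theorem gen (hE : EAll) (restr : M_restr n M ι) (comp0 : M_comp0 n M ι) {g : Bil n M}
    {A : RForm n M ι} {gc gc' : MatF n} {Ac Ac' : ConF n ι} {P : Fr n M ι} {Φ : En n → En n}
    {S : ι → ι → En n → ℝ} {Dm D' V O : Set (En n)} (hG : GA gc' Ac')
    (hP : Par g A Dm gc Ac P) (hV : IsOpen V) (hI : Iso gc Ac gc' Ac' V Φ S) (hinj : InjOn Φ V)
    (hD : D' ⊆ V) (hu : UniqueDiffOn ℝ D') (hm : MeasurableSet D')
    (hb : Bornology.IsBounded D') (hO : IsOpen O) (him : Φ '' D' = Dm ∩ O) :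
    Par g A D' gc' Ac' (P.comp Φ (Function.invFunOn Φ V) S) := by
  have hmaps : MapsTo Φ D' Dm := fun y hy => (him ▸ mem_image_of_mem Φ hy : Φ y ∈ Dm ∩ O).1
  have h0 := comp0 g A Dm D' gc gc' Ac Ac' P Φ (Function.invFunOn Φ V) S hP.toPar0 hu hm hb hG
    (hI.mono hD) (fun y hy => hI.1.contDiffAt (hV.mem_nhds (hD hy)))
    (fun y hy a a' => (hI.2.1 a a').contDiffAt (hV.mem_nhds (hD hy))) hmaps
  have hd := (hE.isoC n ι gc gc' Ac Ac' V Φ S hP.ga hG hV hI).1
  have hinv := (hE.inv n V Φ hV hI.1 hd).2.2 hinj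
  have e : (P.comp Φ (Function.invFunOn Φ V) S).θ '' D' = P.θ '' (Dm ∩ O) := by
    rw [← him, image_image]; rfl
  refine ⟨h0, ?_, fun y hy => ?_, ?_⟩
  · refine hinv.contMDiffOn.comp (hP.smκ.mono ?_) ?_
    · rw [e]; exact image_mono inter_subset_left
    · rintro _ ⟨y, hy, rfl⟩
      exact ⟨y, hD hy, (hP.linv _ (hmaps hy)).symm⟩
  · change Function.invFunOn Φ V (P.κ (P.θ (Φ y))) = y
    rw [hP.linv _ (hmaps hy)]
    exact hinj.leftInvOn_invFunOn (hD hy)
  · rw [e]
    exact ((restr g A gc Ac P).1 Dm O hP hO).opn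

end ManComp

theorem m_comp (hE : EAll) (restr : M_restr n M ι) (comp0 : M_comp0 n M ι) : M_comp n M ι := by
  intro g A gc gc' Ac Ac' P Φ S hG
  refine ⟨fun U V hP hV hb hI hinj hmaps => ?_, fun R r hP hr hF => ?_⟩
  · have hd := (hE.isoC n ι gc gc' Ac Ac' V Φ S hP.ga hG hV hI).1
    have hO := (hE.inv n V Φ hV hI.1 hd).2.1 V hV subset_rfl
    exact ⟨ManComp.gen hE restr comp0 hG hP.toPar hV hI hinj subset_rfl hV.uniqueDiffOn
      hV.measurableSet hb hO (inter_eq_right.2 hmaps.image_subset).symm, hV,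
      fun y hy => hP.int _ (hmaps hy)⟩
  · obtain ⟨hI, hinj, hfl⟩ := hF
    have h0 : Φ 0 = 0 := ((hfl 0 (mem_ball_self hr)).2 rfl).1
    have hc : ContinuousAt Φ 0 :=
      (hI.1.contDiffAt (isOpen_ball.mem_nhds (mem_ball_self hr))).continuousAt
    have hm : 0 < min r R := lt_min hr hP.pos
    obtain ⟨δ, hδ, hδ'⟩ := Metric.continuousAt_iff.1 hc _ hm
    rw [h0] at hδ'
    have hr' : 0 < min δ (min r R) := lt_min hδ hm
    have h1 : min δ (min r R) ≤ r := (min_le_right _ _).trans (min_le_left _ _)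
    have h2 : min δ (min r R) ≤ R := (min_le_right _ _).trans (min_le_right _ _)
    refine ⟨min δ (min r R), hr', h1, h2, ?_⟩
    set r' := min δ (min r R) with hr'def
    have hs : ball (0 : En n) r' ⊆ ball 0 r := ball_subset_ball h1
    have hΦ : ∀ y ∈ ball (0 : En n) r', Φ y ∈ ball (0 : En n) (min r R) := fun y hy =>
      hδ' (ball_subset_ball (min_le_left _ _) hy)
    have hd := (hE.isoC n ι gc gc' Ac Ac' _ Φ S hP.ga hG isOpen_ball hI).1
    have hO := (hE.inv n _ Φ isOpen_ball hI.1 hd).2.1 _ isOpen_ball hs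
    have hmaps : MapsTo Φ (Hb n r') (Hb n R) := fun y hy => by
      refine ⟨ball_subset_ball (min_le_right _ _) (hΦ y hy.1), ?_⟩
      have h3 : 0 ≤ y 0 := hy.2
      rcases h3.eq_or_lt with h4 | h4
      · rw [((hfl y (hs hy.1)).2 h4.symm).1]; exact hy.2
      · exact ((hfl y (hs hy.1)).1.2 h4).le
    have him : Φ '' Hb n r' = Hb n R ∩ Φ '' ball 0 r' := by
      refine Subset.antisymm (subset_inter hmaps.image_subset (image_mono inter_subset_left)) ?_
      rintro _ ⟨hz, y, hy, rfl⟩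
      refine ⟨y, ⟨hy, ?_⟩, rfl⟩
      by_contra hn
      have h3 : y 0 < 0 := not_le.1 hn
      have h4 : 0 ≤ Φ y 0 := hz.2
      have h5 : Φ y 0 = 0 :=
        le_antisymm (not_lt.1 fun h => absurd ((hfl y (hs hy)).1.1 h) h3.not_gt) h4
      have h6 : Φ y ∈ ball (0 : En n) r := ball_subset_ball (min_le_left _ _) (hΦ y hy)
      have h7 : Φ y = y := hinj h6 (hs hy) ((hfl _ h6).2 h5).1
      rw [h7] at h5
      exact h3.ne h5
    refine ⟨ManComp.gen hE restr comp0 hG hP.toPar isOpen_ball hI hinj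
      (inter_subset_left.trans hs) ((restr g A gc Ac P).2.2.1 R r' hP hr' h2).uniq (meas_Hb r')
      (isBounded_ball.subset inter_subset_left) hO him, hr', fun y hy => ?_⟩
    refine (hP.bd _ (hmaps hy)).trans ⟨fun h => ?_, fun h => ?_⟩
    · have h3 : 0 ≤ y 0 := hy.2
      exact le_antisymm (not_lt.1 fun h4 => ((hfl y (hs hy.1)).1.2 h4).ne' h) h3
    · rw [((hfl y (hs hy.1)).2 h).1]; exact h

end Vale.Agent.P088
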