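import Vale.Agent.P088.ManS

/-!
# P088, manifold part: continuation across a touching point
-/

open MeasureTheory Set Metric Filter
open scoped ContDiff Topology InnerProductSpace Manifold Matrix

noncomputable section
namespace Vale.Agent.P088
open Vale.Agent.P136 (D Sm Tst D_congr)

namespace ManCont

theorem iso_congr {n : ℕ} {ι : Type} [Fintype ι] [DecidableEq ι] {g₁ g₂ : MatF n}
    {A₁ A₂ : ConF n ι} {V : Set (En n)} {Φ Φ' : En n → En n} {S S' : ι → ι → En n → ℝ}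
    (hV : IsOpen V) (h : Iso g₁ A₁ g₂ A₂ V Φ S) (h1 : EqOn Φ' Φ V)
    (h2 : ∀ a a', EqOn (S' a a') (S a a') V) : Iso g₁ A₁ g₂ A₂ V Φ' S' := by
  refine ⟨h.1.congr h1, fun a a' => (h.2.1 a a').congr (h2 a a'), fun y hy => ?_⟩
  have e1 : ∀ i k, D (ee i) (fun z => Φ' z k) y = D (ee i) (fun z => Φ z k) y := fun i k =>
    D_congr (by filter_upwards [hV.mem_nhds hy] with z hz; rw [h1 hz]) _
  have e2 : ∀ i a a', D (ee i) (S' a a') y = D (ee i) (S a a') y := fun i a a' =>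
    D_congr (by filter_upwards [hV.mem_nhds hy] with z hz; exact h2 a a' hz) _
  have e3 : ∀ a a', S' a a' y = S a a' y := fun a a' => h2 a a' hy
  simp only [e1, e2, e3, h1 hy]
  exact h.2.2 y hy

end ManCont
open ManCont

variable {n : ℕ} [NeZero n] {M : Type} [TopologicalSpace M] [T2Space M] [CompactSpace M]
  [ConnectedSpace M] [ChartedSpace (EuclideanHalfSpace n) M] [IsManifold (𝓡∂ n) ∞ M]
  [MeasurableSpace M] [BorelSpace M] {ι : Type} [Fintype ι] [DecidableEq ι] [Nonempty ι]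

theorem m_cont (hE : EAll) (h1 : B1 n M ι) (h2 : B2 n M ι) (h3 : B3 n M ι) : M_cont n M ι := by
  intro X₁ X₂ Γ R ρ₀ q₀ gc Ac P₁ P₂ x₁ hT₀ ht₀ hx
  obtain ⟨R₁, g₁, A₁, C, hR₁, hC, hC0⟩ := h1.xi X₁.g X₁.A X₁.hg X₁.hA x₁ hx
  have hR := hT₀.posR
  obtain ⟨r, hr, hrR, hrR₁⟩ : ∃ r : ℝ, 0 < r ∧ r < R ∧ r < R₁ :=
    ⟨min R R₁ / 2, by positivity, by linarith [min_le_left R R₁, lt_min hR hR₁],
      by linarith [min_le_right R R₁, lt_min hR hR₁]⟩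
  obtain ⟨G₁, hG₁, hs₁, hr₁⟩ := h3.grn X₁ R₁ r g₁ A₁ C hC hr hrR₁
  obtain ⟨G₂, hG₂, hs₂, hr₂⟩ := h3.grn X₂ R r gc Ac P₂ hT₀.big hr hrR
  have hCr : IP X₁.g X₁.A (ball 0 r) g₁ A₁ C :=
    (h1.restr _ _ _ _ _).2.1 _ _ hC isOpen_ball (ball_subset_ball hrR₁.le)
  have hPr : IP X₂.g X₂.A (ball 0 r) gc Ac P₂ :=
    (h1.restr _ _ _ _ _).2.1 _ _ hT₀.big isOpen_ball (ball_subset_ball hrR.le)
  have hN : C.θ '' ball 0 r ∈ 𝓝 x₁ := hCr.opn.mem_nhds ⟨0, mem_ball_self hr, hC0⟩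
  obtain ⟨ρ, q, hT, hρr, hsub, ht⟩ :=
    h3.shrink X₁ X₂ Γ R ρ₀ q₀ gc Ac P₁ P₂ x₁ _ r hT₀ ht₀ hN hr
  have hρ := hT.pos
  have hB : ball q ρ ⊆ ball 0 r := by
    refine ball_subset_ball' ?_
    rw [dist_zero_right, hT.nq]; linarith
  obtain ⟨hI, hinj, hmap, hpt⟩ := h1.trans X₁.g X₁.A _ _ g₁ gc A₁ Ac C P₁ X₁.hA hCr.toPar
    hT.mi.p₁ hsub
  have ga₁ : GA g₁ A₁ := hC.ga
  have ga : GA gc Ac := hPr.ga
  have hτ : Tendsto (C.tau P₁) (𝓝[ball q ρ] 0) (𝓝 0) := by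
    have hc : ContinuousAt C.κ x₁ := hCr.smκ.continuousOn.continuousAt hN
    have h0 : C.κ x₁ = 0 := by rw [← hC0]; exact hCr.linv 0 (mem_ball_self hr)
    have := hc.tendsto.comp ht
    rwa [h0] at this
  obtain ⟨Cc, hCc⟩ := (hE.isoC n ι g₁ gc A₁ Ac _ _ _ ga₁ ga isOpen_ball hI).2.2 isBounded_ball
    (isBounded_ball.subset hmap.image_subset)
  obtain ⟨r', Φ', S', μ', hr', hIn, hΦ, hS⟩ := hE.lt n h1.hn ι (cop g₁ A₁) (cop gc Ac) r ρ Cc q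
    G₁ G₂ (C.tau P₁) (C.tauS P₁) (fun y => |(fderiv ℝ (C.tau P₁) y).det|) (hE.cop n ι _ _ ga₁).1
    (hE.cop n ι _ _ ga).1 hρ hT.nq hρr hG₁ hG₂ hs₁ hs₂
    (hE.isoInter n ι _ _ _ _ _ _ _ ga₁ ga isOpen_ball hI) hinj hmap hτ hCc
    (h3.ltrel X₁ X₂ r _ g₁ gc A₁ Ac C P₁ P₂ G₁ G₂ hCr hPr hT.mi.p₁ hB hsub hT.gr hr₁ hr₂)
  have hcl : (0 : En n) ∈ closure (ball q ρ) := by
    rw [closure_ball q hρ.ne', mem_closedBall, dist_comm, dist_zero_right, hT.nq]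
  have hne : ∀ s : ℝ, 0 < s → (ball (0 : En n) s ∩ ball q ρ).Nonempty := fun s hs =>
    mem_closure_iff_nhds.1 hcl _ (ball_mem_nhds 0 hs)
  have hI' : Iso g₁ A₁ gc Ac (ball 0 r') Φ' S' :=
    hE.send n h1.hn ι g₁ gc A₁ Ac _ (ball 0 r' ∩ ball q ρ) Φ' S' μ' ga₁ ga isOpen_ball
      (convex_ball 0 r').isPreconnected (isOpen_ball.inter isOpen_ball) (hne r' hr')
      inter_subset_left hIn
      (iso_congr (isOpen_ball.inter isOpen_ball) (hI.mono inter_subset_right) hΦ hS)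
  have hc0 : ContinuousAt Φ' 0 := hI'.1.continuousOn.continuousAt (ball_mem_nhds 0 hr')
  have h00 : Φ' 0 = 0 := by
    haveI : (𝓝[ball q ρ] (0 : En n)).NeBot := mem_closure_iff_nhdsWithin_neBot.1 hcl
    refine tendsto_nhds_unique (hc0.tendsto.mono_left nhdsWithin_le_nhds) (hτ.congr' ?_)
    filter_upwards [mem_nhdsWithin_of_mem_nhds (ball_mem_nhds (0 : En n) hr'),
      self_mem_nhdsWithin] with y hy hy'
    exact (hΦ ⟨hy, hy'⟩).symm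
  obtain ⟨δ, hδ, hδ1, hδ2⟩ := (hE.inv n _ Φ' isOpen_ball hI'.1
    (hE.isoC n ι g₁ gc A₁ Ac _ _ _ ga₁ ga isOpen_ball hI').1).1 0 (mem_ball_self hr')
  obtain ⟨ε, hε, hε1⟩ := Metric.mem_nhds_iff.1 (inter_mem (inter_mem (ball_mem_nhds (0 : En n) hδ)
    (ball_mem_nhds (0 : En n) hr)) (hc0.preimage_mem_nhds (by
      rw [h00]; exact ball_mem_nhds (0 : En n) hr)))
  have s1 : ball (0 : En n) ε ⊆ ball 0 δ := fun y hy => (hε1 hy).1.1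
  have s2 : ball (0 : En n) ε ⊆ ball 0 r := fun y hy => (hε1 hy).1.2
  have s3 : MapsTo Φ' (ball (0 : En n) ε) (ball 0 r) := fun y hy => (hε1 hy).2
  have hP₁ := (h1.comp X₁.g X₁.A g₁ gc A₁ Ac C Φ' S' ga).1 _ _ hCr isOpen_ball isBounded_ball
    (hI'.mono (s1.trans hδ1)) (hδ2.mono s1) s3
  have hP₂ : IP X₂.g X₂.A (ball 0 ε) gc Ac P₂ := (h1.restr _ _ _ _ _).2.1 _ _ hPr isOpen_ball s2
  refine ⟨ε, _, hε, hP₁, hP₂, fun F hF a => ?_⟩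
  have w₁ : WS gc Ac (ball 0 ε) _ :=
    ⟨(h2.l2 _ _ _ _ _ _ _ X₁.hg X₁.hA hP₁.toPar measurableSet_ball subset_rfl).1 (X₁.hf F),
      fun ψ hψ => ((h3.src X₁ gc Ac _ ψ).1 _ hP₁ hψ).2.2 F hF.1⟩
  have w₂ : WS gc Ac (ball 0 ε) _ :=
    ⟨(h2.l2 _ _ _ _ _ _ _ X₂.hg X₂.hA hP₂.toPar measurableSet_ball subset_rfl).1 (X₂.hf F),
      fun ψ hψ => ((h3.src X₂ gc Ac _ ψ).1 _ hP₂ hψ).2.2 F hF.1⟩
  have hz := hE.wucp n ι gc Ac _ (ball 0 ε ∩ ball q ρ) _ ga isOpen_ball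
    (convex_ball 0 ε).isPreconnected ((hE.ws n ι gc Ac _ _ ga isOpen_ball w₁).2.1 _ w₂)
    (isOpen_ball.inter isOpen_ball) (hne ε hε) inter_subset_left (fun b => ?_) a
  · filter_upwards [hz] with y hy
    exact sub_eq_zero.1 hy
  · filter_upwards [ae_restrict_of_ae_restrict_of_subset inter_subset_right (hT.mi.eq F hF b),
      ae_restrict_mem (measurableSet_ball.inter measurableSet_ball)] with y hy hy'
    have hm : y ∈ ball (0 : En n) r' ∩ ball q ρ := ⟨hδ1 (s1 hy'.1), hy'.2⟩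
    refine sub_eq_zero.2 (Eq.trans ?_ hy)
    rw [(hpt y hy'.2).2.2]
    simp only [Fr.pull, Fr.comp, hΦ hm, fun a a' => hS a a' hm, Finset.sum_mul, Finset.mul_sum,
      mul_assoc]
    exact Finset.sum_comm

end Vale.Agent.P088
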