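import Vale.Agent.P088.ManS

open MeasureTheory Set Metric Filter
open scoped ContDiff Topology InnerProductSpace Manifold Matrix

noncomputable section
namespace Vale.Agent.P088
open Vale.Agent.P136 (D Sm Tst)

variable {n : ℕ} [NeZero n] {M : Type} [TopologicalSpace M] [T2Space M] [CompactSpace M]
  [ConnectedSpace M] [ChartedSpace (EuclideanHalfSpace n) M] [IsManifold (𝓡∂ n) ∞ M]
  [MeasurableSpace M] [BorelSpace M] {ι : Type} [Fintype ι] [DecidableEq ι] [Nonempty ι]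

namespace ManCover

omit [T2Space M] [CompactSpace M] [ConnectedSpace M] [IsManifold (𝓡∂ n) ∞ M]
  [MeasurableSpace M] [BorelSpace M] in
theorem scalar {P : Fr n M ι} {V : Set (En n)}
    (ho : ∀ y ∈ V, ∀ a a', ∑ e, P.S e a y * P.S e a' y = if a = a' then 1 else 0)
    (h : ∀ F, RSec n F → ∃ v, SmV v ∧ ∀ a, EqOn (v a) (P.pull F a) V)
    (f : M → ℝ) (hf : ContMDiff (𝓡∂ n) 𝓘(ℝ, ℝ) ∞ f) :
    ∃ v, Sm v ∧ EqOn v (fun y => f (P.θ y)) V := by
  obtain ⟨b⟩ := ‹Nonempty ι›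
  have key : ∀ f : M → ℝ, ContMDiff (𝓡∂ n) 𝓘(ℝ, ℝ) ∞ f → ∃ v : ι → En n → ℝ, SmV v ∧
      ∀ a, ∀ y ∈ V, v a y = P.S a b y * f (P.θ y) := by
    intro f hf
    obtain ⟨v, hv, he⟩ := h (fun x a => if a = b then f x else 0) (fun a => by
      by_cases hab : a = b
      · simpa [hab] using hf
      · simpa [hab] using contMDiff_const)
    refine ⟨v, hv, fun a y hy => ?_⟩
    rw [he a hy]
    simp [Fr.pull]
  obtain ⟨u, hu, hu'⟩ := key (fun _ => 1) contMDiff_const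
  obtain ⟨v, hv, hv'⟩ := key f hf
  refine ⟨fun y => ∑ a, u a y * v a y, ContDiff.sum fun a _ => ContDiff.mul (hu a) (hv a),
    fun y hy => ?_⟩
  have h1 := ho y hy b b
  rw [if_pos rfl] at h1
  calc ∑ a, u a y * v a y = (∑ a, P.S a b y * P.S a b y) * f (P.θ y) := by
        rw [Finset.sum_mul]
        exact Finset.sum_congr rfl fun a _ => by rw [hu' a y hy, hv' a y hy]; ring
    _ = f (P.θ y) := by rw [h1, one_mul]

omit [NeZero n] in
theorem annulus (hn : 3 ≤ n) {s : ℝ} (hs : 0 < s) :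
    IsPreconnected (ball (0 : En n) (2 * s) \ closedBall 0 s) := by
  have hr : 1 < Module.rank ℝ (En n) := by
    rw [← Module.finrank_eq_rank, finrank_euclideanSpace_fin]
    exact_mod_cast (by omega : 1 < n)
  have h1 := ((isPreconnected_sphere hr (0 : En n) 1).prod
    (isPreconnected_Ioo (a := s) (b := 2 * s))).image (fun p : En n × ℝ => p.2 • p.1)
      (by fun_prop)
  have e : (fun p : En n × ℝ => p.2 • p.1) '' (sphere 0 1 ×ˢ Ioo s (2 * s)) =
      ball (0 : En n) (2 * s) \ closedBall 0 s := by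
    ext y
    constructor
    · rintro ⟨⟨u, t⟩, ⟨hu, ht⟩, rfl⟩
      have h2 : ‖t • u‖ = t := by
        rw [norm_smul, mem_sphere_zero_iff_norm.1 hu, mul_one, Real.norm_of_nonneg (hs.trans ht.1).le]
      simp only [Set.mem_sdiff, mem_ball_zero_iff, mem_closedBall_zero_iff, h2, not_le]
      exact ⟨ht.2, ht.1⟩
    · intro hy
      simp only [Set.mem_sdiff, mem_ball_zero_iff, mem_closedBall_zero_iff, not_le] at hy
      have h0 : ‖y‖ ≠ 0 := (hs.trans hy.2).ne'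
      refine ⟨(‖y‖⁻¹ • y, ‖y‖), ⟨?_, hy.2, hy.1⟩, ?_⟩
      · rw [mem_sphere_zero_iff_norm, norm_smul, norm_inv, norm_norm, inv_mul_cancel₀ h0]
      · simp only [smul_smul, mul_inv_cancel₀ h0, one_smul]
  rwa [e] at h1

theorem remove {X : Type} [TopologicalSpace X] {O B Z : Set X} (hO : IsPreconnected O)
    (hB : IsOpen B) (hZ : IsClosed Z) (hZB : Z ⊆ B) (hBO : B ⊆ O)
    (hA : IsPreconnected (B \ Z)) : IsPreconnected (O \ Z) := by
  have key : ∀ u v : Set X, IsOpen u → IsOpen v → O \ Z ⊆ u ∪ v → ((O \ Z) ∩ u).Nonempty →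
      ((O \ Z) ∩ v).Nonempty → (O \ Z) ∩ (u ∩ v) = ∅ → B \ Z ⊆ u → False := by
    intro u v hu hv hc h1 h2 h3 h4
    obtain ⟨x, hxO, hx1, hx2⟩ := hO ((u \ Z) ∪ B) (v \ Z) ((hu.sdiff hZ).union hB) (hv.sdiff hZ)
      (fun x hx => by
        by_cases hxZ : x ∈ Z
        · exact Or.inl (Or.inr (hZB hxZ))
        · rcases hc ⟨hx, hxZ⟩ with h | h
          · exact Or.inl (Or.inl ⟨h, hxZ⟩)
          · exact Or.inr ⟨h, hxZ⟩)
      (by obtain ⟨x, hx, hx'⟩ := h1; exact ⟨x, hx.1, Or.inl ⟨hx', hx.2⟩⟩)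
      (by obtain ⟨x, hx, hx'⟩ := h2; exact ⟨x, hx.1, hx', hx.2⟩)
    have hxu : x ∈ u := hx1.elim (fun h => h.1) fun h => h4 ⟨h, hx2.2⟩
    exact (eq_empty_iff_forall_notMem.1 h3 x) ⟨⟨hxO, hx2.2⟩, hxu, hx2.1⟩
  intro u v hu hv hc h1 h2
  by_contra h3
  rw [not_nonempty_iff_eq_empty] at h3
  have hs : B \ Z ⊆ O \ Z := sdiff_subset_sdiff_left hBO
  rcases isPreconnected_iff_subset_of_disjoint.1 hA u v hu hv (hs.trans hc)
    (eq_empty_of_subset_empty (h3 ▸ inter_subset_inter_left _ hs)) with h | h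
  · exact key u v hu hv hc h1 h2 h3 h
  · exact key v u hv hu (union_comm u v ▸ hc) h2 h1 (inter_comm u v ▸ h3) h

theorem dense_conn {X : Type} [TopologicalSpace X] [PreconnectedSpace X] {I : Set X}
    (hd : Dense I) (h : ∀ x, ∃ N, IsOpen N ∧ x ∈ N ∧ IsPreconnected (N ∩ I)) :
    IsPreconnected I := by
  intro u v hu hv hc h1 h2
  obtain ⟨x, -, hx1, hx2⟩ := isPreconnected_closed_iff.1 (isPreconnected_univ (α := X))
    (closure (I ∩ u)) (closure (I ∩ v)) isClosed_closure isClosed_closure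
    (by
      rw [← closure_union, ← inter_union_distrib_left, inter_eq_left.2 hc, hd.closure_eq])
    (by simpa using h1) (by simpa using h2)
  obtain ⟨N, hN, hxN, hp⟩ := h x
  obtain ⟨a, haN, ha⟩ := mem_closure_iff.1 hx1 N hN hxN
  obtain ⟨b, hbN, hb⟩ := mem_closure_iff.1 hx2 N hN hxN
  obtain ⟨c, hc1, hc2⟩ := hp u v hu hv (inter_subset_right.trans hc) ⟨a, ⟨haN, ha.1⟩, ha.2⟩
    ⟨b, ⟨hbN, hb.1⟩, hb.2⟩
  exact ⟨c, hc1.2, hc2⟩

end ManCover

theorem m_cover (_hE : EAll) (xi : M_xi n M ι) (xb : M_xb n M ι) (restr : M_restr n M ι)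
    (pull : M_pull n M ι) : M_cover n M ι := by
  intro g A hg hA x O hO hxO
  by_cases hx : x ∈ intM n M
  · obtain ⟨R, gc, Ac, P, hR, hP, h0⟩ := xi g A hg hA x hx
    have hc : ContinuousAt P.θ 0 :=
      hP.smθ.continuousOn.continuousAt (ball_mem_nhds 0 hR)
    obtain ⟨r, hr, hrs⟩ := Metric.nhds_basis_closedBall.mem_iff.1
      (inter_mem (hc (hO.mem_nhds (h0 ▸ hxO))) (ball_mem_nhds (0 : En n) hR))
    have hsub : closedBall (0 : En n) r ⊆ ball 0 R := fun y hy => (hrs hy).2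
    have hP' := (restr g A gc Ac P).2.1 _ _ hP isOpen_ball (ball_subset_closedBall.trans hsub)
    have hS : ∀ F, RSec n F → ∃ v, SmV v ∧ ∀ a, EqOn (v a) (P.pull F a) (ball 0 r) := by
      intro F hF
      obtain ⟨v, hv, he⟩ := (pull g A gc Ac P F hF).2.1 _ 0 r hP hsub
      exact ⟨v, hv, fun a => (he a).mono ball_subset_closedBall⟩
    refine ⟨P.θ '' ball 0 r, ball 0 r, gc, Ac, P, hP'.opn, ⟨0, mem_ball_self hr, h0⟩, ?_, hP',
      convex_ball 0 r, ⟨0, mem_ball_self hr⟩, ?_, ManCover.scalar hP'.orth hS, hS⟩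
    · rintro _ ⟨y, hy, rfl⟩
      exact (hrs (ball_subset_closedBall hy)).1
    · refine (inter_eq_left.2 ?_).symm
      rintro _ ⟨y, hy, rfl⟩
      exact hP'.int y hy
  · have hb : x ∈ bdM n M := by
      by_contra hb
      exact hx (int_iff_not_bd.2 hb)
    obtain ⟨R, θ, κ, h0, hsub, hall⟩ := xb x hb O hO hxO
    obtain ⟨gc, Ac, hP⟩ := hall g A hg hA
    have hr : 0 < R / 2 := half_pos hP.pos
    have hr' : R / 2 < R := half_lt_self hP.pos
    have hP1 := (restr g A gc Ac _).2.2.1 _ _ hP hr hr'.le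
    have hP2 := (restr g A gc Ac _).2.2.2.1 _ _ hP1 (isOpen_Up _) Subset.rfl
    have hS : ∀ F, RSec n F → ∃ v, SmV v ∧
        ∀ a, EqOn (v a) ((⟨θ, κ, oneS n ι⟩ : Fr n M ι).pull F a) (Up n (R / 2)) := by
      intro F hF
      obtain ⟨v, hv, he⟩ := (pull g A gc Ac _ F hF).2.2 _ _ hP hr'
      exact ⟨v, hv, fun a => (he a).mono (Up_sub_Hb _)⟩
    refine ⟨θ '' Hb n (R / 2), Up n (R / 2), gc, Ac, _, hP1.opn, ⟨0, zero_mem_Hb hr, h0⟩,
      (image_mono (Hb_mono hr'.le)).trans hsub, hP2, convex_Up _, Up_nonempty hr, ?_,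
      ManCover.scalar hP2.orth hS, hS⟩
    refine Subset.antisymm ?_ ?_
    · rintro _ ⟨y, hy, rfl⟩
      exact ⟨⟨y, Up_sub_Hb _ hy, rfl⟩, hP2.int y hy⟩
    · rintro _ ⟨⟨y, hy, rfl⟩, hi⟩
      have h2 : 0 ≤ y 0 := hy.2
      have h3 : 0 < y 0 := lt_of_le_of_ne h2 fun h =>
        int_iff_not_bd.1 hi ((hP1.bd y hy).2 h.symm)
      exact ⟨y, ⟨hy.1, h3⟩, rfl⟩

theorem m_conn (hn : 3 ≤ n) (_restr : M_restr n M ι) (cover : M_cover n M ι) : M_conn n M ι := by
  intro g A hg hA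
  have hd : Dense (intM n M) := by
    refine dense_iff_inter_open.2 fun O hO ⟨x, hx⟩ => ?_
    obtain ⟨N, V, gc, Ac, P, -, -, hNO, -, -, hV, he, -⟩ := cover g A hg hA x O hO hx
    exact (he ▸ hV.image P.θ).mono (inter_subset_inter_left _ hNO)
  refine ⟨ModelWithCorners.isOpen_interior (n := ∞) (by simp), hd,
    ManCover.dense_conn hd fun x => ?_, fun O s gc Ac P _ hO hs hP hsub => ?_⟩
  · obtain ⟨N, V, gc, Ac, P, hN, hx, -, hP, hV, -, he, -⟩ :=
      cover g A hg hA x univ isOpen_univ trivial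
    exact ⟨N, hN, hx, he ▸ hV.isPreconnected.image _ hP.smθ.continuousOn⟩
  · have h1 : closedBall (0 : En n) s ⊆ ball 0 (2 * s) := closedBall_subset_ball (by linarith)
    have hinj : InjOn P.θ (ball 0 (2 * s)) := fun a ha b hb h => by
      rw [← hP.linv a ha, ← hP.linv b hb, h]
    refine ManCover.remove hO hP.opn
      ((isCompact_closedBall 0 s).image_of_continuousOn (hP.smθ.continuousOn.mono h1)).isClosed
      (image_mono h1) hsub ?_
    rw [← hinj.image_sdiff_subset h1]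
    exact (ManCover.annulus hn hs).image _ (hP.smθ.continuousOn.mono sdiff_subset)

end Vale.Agent.P088
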