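import Vale.Agent.P088.ManS
import Vale.Agent.P088.IsoInter
import Vale.Agent.P088.IsoRig

/-!
# P088, manifold part: the energy density in a patch
-/

open MeasureTheory Set Metric Filter
open scoped ContDiff Topology InnerProductSpace Manifold Matrix

noncomputable section
namespace Vale.Agent.P088
open Vale.Agent.P136 (D Sm Tst D_mul_at D_sum_at)

variable {n : ℕ} [NeZero n] {M : Type} [TopologicalSpace M] [T2Space M] [CompactSpace M]
  [ConnectedSpace M] [ChartedSpace (EuclideanHalfSpace n) M] [IsManifold (𝓡∂ n) ∞ M]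
  [MeasurableSpace M] [BorelSpace M] {ι : Type} [Fintype ι] [DecidableEq ι] [Nonempty ι]

namespace ManDens

section alg
variable {m : ℕ}

theorem sum_eq_trace (X Y : Matrix (Fin m) (Fin m) ℝ) :
    ∑ i, ∑ j, X i j * Y i j = (X * Yᵀ).trace := by
  simp [Matrix.trace, Matrix.mul_apply]

theorem tr_eq {J G : Matrix (Fin m) (Fin m) ℝ} (R : Matrix (Fin m) (Fin m) ℝ)
    (h : (J * G * Jᵀ).det ≠ 0) :
    ∑ i, ∑ j, (J * G * Jᵀ)⁻¹ i j * (J * R * Jᵀ) i j = ∑ k, ∑ l, G⁻¹ k l * R k l := by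
  have hJ : IsUnit J.det := by
    rw [Matrix.det_mul, Matrix.det_mul] at h
    exact (left_ne_zero_of_mul (left_ne_zero_of_mul h)).isUnit
  have hJ' : IsUnit Jᵀ.det := by rwa [Matrix.det_transpose]
  rw [sum_eq_trace, sum_eq_trace, Matrix.mul_inv_rev, Matrix.mul_inv_rev, Matrix.transpose_mul,
    Matrix.transpose_mul, Matrix.transpose_transpose, Matrix.mul_assoc, Matrix.trace_mul_comm]
  simp only [Matrix.mul_assoc]
  rw [Matrix.nonsing_inv_mul_cancel_left _ _ hJ, Matrix.mul_nonsing_inv _ hJ', Matrix.mul_one]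

theorem lin_sum {V : Type} [AddCommGroup V] [Module ℝ V] (L : En m →ₗ[ℝ] V) (v : En m) :
    L v = ∑ k, v k • L (ee k) := by
  conv_lhs => rw [IsoRig.sum_ee v]
  simp only [map_sum, map_smul]

theorem mat_eq {b : En m → En m → ℝ} (h1 : ∀ v w, b v w = ∑ k, v k * b (ee k) w)
    (h2 : ∀ v w, b v w = ∑ k, w k * b v (ee k)) (d : Fin m → En m) (i j : Fin m) :
    b (d i) (d j) = ((Matrix.of fun i k => d i k) * (Matrix.of fun k l => b (ee k) (ee l)) *
      (Matrix.of fun i k => d i k)ᵀ) i j := by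
  rw [h2]
  simp only [Matrix.mul_apply, Matrix.of_apply, Matrix.transpose_apply]
  exact Finset.sum_congr rfl fun l _ => by rw [h1, mul_comm]

end alg

section man
variable {n : ℕ} [NeZero n] {M : Type} [TopologicalSpace M]
  [ChartedSpace (EuclideanHalfSpace n) M] {ι : Type} [Fintype ι] [DecidableEq ι]

omit [DecidableEq ι] in
theorem rdA_sum (A : RForm n M ι) (F : M → ι → ℝ) (x : M) (v : En n) :
    rdA A F x v = ∑ k, v k • rdA A F x (ee k) := by
  have h1 : (fun a => rd (fun z => F z a) x v) =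
      ∑ k, v k • fun a => rd (fun z => F z a) x (ee k) := by
    funext a
    rw [Finset.sum_apply]
    exact lin_sum (mfderiv (𝓡∂ n) 𝓘(ℝ, ℝ) (fun z => F z a) x).toLinearMap v
  have h2 : A x v = ∑ k, v k • A x (ee k) := lin_sum (A x) v
  unfold rdA
  rw [h1, h2, Matrix.sum_mulVec, ← Finset.sum_add_distrib]
  exact Finset.sum_congr rfl fun k _ => by rw [smul_add, Matrix.smul_mulVec]

theorem D_comp {θ : En n → M} {Dm : Set (En n)} {y : En n} (hy : Dm ∈ 𝓝 y)
    (hθ : ContMDiffOn 𝓘(ℝ, En n) (𝓡∂ n) ∞ θ Dm) {f : M → ℝ}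
    (hf : ContMDiff (𝓡∂ n) 𝓘(ℝ, ℝ) ∞ f) :
    DifferentiableAt ℝ (fun z => f (θ z)) y ∧
      ∀ i, D (ee i) (fun z => f (θ z)) y = rd f (θ y) (dth θ Dm y i) := by
  have h1 := (hθ.contMDiffAt hy).mdifferentiableAt (by simp)
  have h2 := (hf (θ y)).mdifferentiableAt (by simp)
  refine ⟨mdifferentiableAt_iff_differentiableAt.1 (h2.comp y h1), fun i => ?_⟩
  have h3 := mfderiv_comp y h2 h1
  rw [mfderiv_eq_fderiv] at h3
  unfold rd dth
  rw [mfderivWithin_of_mem_nhds hy]
  exact congrArg (fun L => L (ee i)) h3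

theorem cov_pull {g : Bil n M} {A : RForm n M ι} {Dm : Set (En n)} {gc : MatF n} {Ac : ConF n ι}
    {P : Fr n M ι} (hP : Par0 g A Dm gc Ac P) {F : M → ι → ℝ} (hF : RSec n F) {y : En n}
    (hy : Dm ∈ 𝓝 y) (i : Fin n) (a : ι) :
    cov Ac i (P.pull F) a y = ∑ e, P.S a e y * rdA A F (P.θ y) (dth P.θ Dm y i) e := by
  have hy' := mem_of_mem_nhds hy
  have h1 := fun e => D_comp hy hP.smθ (hF e)
  have h2 := fun e => IsoInter.dA (hP.smS y hy' a e)
  have e1 : ∑ a', Ac i a a' y * ∑ e, P.S a' e y * F (P.θ y) e =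
      ∑ e, (∑ a', Ac i a a' y * P.S a' e y) * F (P.θ y) e := by
    simp only [Finset.mul_sum, Finset.sum_mul, mul_assoc]
    exact Finset.sum_comm
  have e2 : ∑ e, P.S a e y * (A (P.θ y) (dth P.θ Dm y i) *ᵥ F (P.θ y)) e =
      ∑ e, (∑ a', P.S a a' y * A (P.θ y) (dth P.θ Dm y i) a' e) * F (P.θ y) e := by
    simp only [Matrix.mulVec, dotProduct, Finset.mul_sum, Finset.sum_mul, mul_assoc]
    exact Finset.sum_comm
  unfold cov Fr.pull rdA
  rw [D_sum_at _ fun e _ => (h2 e).fun_mul (h1 e).1, e1]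
  simp only [Pi.add_apply, mul_add, Finset.sum_add_distrib]
  rw [e2, ← Finset.sum_add_distrib, ← Finset.sum_add_distrib]
  refine Finset.sum_congr rfl fun e _ => ?_
  rw [D_mul_at (h2 e) (h1 e).1, (h1 e).2, ← hP.con y hy' i a e]
  ring

theorem orth_sum {S : ι → ι → ℝ} (h : ∀ a a', ∑ e, S e a * S e a' = if a = a' then 1 else 0)
    (u w : ι → ℝ) : ∑ a, (∑ e, S a e * u e) * ∑ e, S a e * w e = u ⬝ᵥ w := by
  have e : ∀ a, (∑ e, S a e * u e) * ∑ e, S a e * w e =
      ∑ e, ∑ e', S a e * S a e' * (u e * w e') := fun a => by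
    rw [Finset.sum_mul_sum]
    exact Finset.sum_congr rfl fun e _ => Finset.sum_congr rfl fun e' _ => by ring
  simp only [e]
  rw [Finset.sum_comm]
  refine Finset.sum_congr rfl fun e _ => ?_
  rw [Finset.sum_comm]
  simp only [← Finset.sum_mul, h]
  simp

end man

end ManDens

omit [T2Space M] [CompactSpace M] [ConnectedSpace M] [IsManifold (𝓡∂ n) ∞ M] [MeasurableSpace M]
  [BorelSpace M] [Nonempty ι] in
open ManDens in
theorem m_dens : M_dens n M ι := by
  intro g A Dm gc Ac P F F' _ hP hF hF' y hy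
  have hy' : Dm ∈ 𝓝 y := mem_interior_iff_mem_nhds.1 hy
  have hy'' := mem_of_mem_nhds hy'
  have e1 := mat_eq (b := fun v w : En n => g (P.θ y) v w)
    (fun v w => lin_sum ((g (P.θ y)).flip w) v)
    (fun v w => lin_sum (g (P.θ y) v) w) (dth P.θ Dm y)
  have e2 := mat_eq (b := fun v w : En n => rdA A F (P.θ y) v ⬝ᵥ rdA A F' (P.θ y) w)
    (fun v w => by
      rw [rdA_sum A F _ v, sum_dotProduct]
      exact Finset.sum_congr rfl fun k _ => smul_dotProduct _ _ _)
    (fun v w => by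
      rw [rdA_sum A F' _ w, dotProduct_sum]
      exact Finset.sum_congr rfl fun k _ => dotProduct_smul _ _ _) (dth P.θ Dm y)
  have e3 : (Matrix.of fun k l => gc k l y) = _ :=
    Matrix.ext fun i j => (hP.met y hy'' i j).trans (e1 i j)
  have hd := (IsoInter.posDef hP.ga y).det_pos.ne'
  unfold eden rbd gam sdet
  simp only [cov_pull hP hF hy', cov_pull hP hF' hy', orth_sum (hP.orth y hy''), mul_assoc,
    ← Finset.mul_sum]
  congr 1
  rw [e3] at hd ⊢
  exact (Finset.sum_congr rfl fun i _ => Finset.sum_congr rfl fun j _ =>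
    congrArg _ (e2 i j)).trans (tr_eq _ hd)

end Vale.Agent.P088
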