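import Vale.Agent.P088.Top

/-!
# P088, manifold part: Euclidean and abstract statements
-/

open MeasureTheory Set Metric
open scoped ContDiff Topology InnerProductSpace

noncomputable section
namespace Vale.Agent.P088
open Vale.Agent.P136 (D Sm Tst)

section defs
variable {n : ℕ} {ι : Type} [Fintype ι] [DecidableEq ι]

/-- The bilinear energy density. -/
def eden (g : MatF n) (A : ConF n ι) (v w : ι → En n → ℝ) (x : En n) : ℝ :=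
  ∑ i, ∑ j, gam g i j x * ∑ a, cov A i v a x * cov A j w a x

/-- The bilinear energy on `U`; `enU U g A v = enB U g A v v` holds by `rfl`. -/
def enB (U : Set (En n)) (g : MatF n) (A : ConF n ι) (v w : ι → En n → ℝ) : ℝ :=
  ∫ x in U, eden g A v w x

/-- The volume density. -/
def sdet (g : MatF n) (x : En n) : ℝ := √((Matrix.of fun k l => g k l x).det)

/-- Smooth fields on the whole space. -/
def SmV (v : ι → En n → ℝ) : Prop := ∀ a, Sm (v a)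

/-- Square integrable weak solutions of the homogeneous equation. -/
def WS (g : MatF n) (A : ConF n ι) (V : Set (En n)) (W : ι → En n → ℝ) : Prop :=
  L2On V W ∧ ∀ ψ, Tests V ψ → ∑ a, ∫ y in V, W a y * (cop g A).app ψ a y = 0

/-- The identity matrix field. -/
def oneS (n : ℕ) (ι : Type) [DecidableEq ι] : ι → ι → En n → ℝ :=
  fun a a' _ => if a = a' then 1 else 0

variable [NeZero n]

/-- Closed upper half of the open ball. -/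
def Hb (n : ℕ) [NeZero n] (r : ℝ) : Set (En n) := ball 0 r ∩ {y | 0 ≤ y 0}

/-- Open upper half ball. -/
def Up (n : ℕ) [NeZero n] (r : ℝ) : Set (En n) := ball 0 r ∩ {y | 0 < y 0}

/-- Open lower half ball. -/
def Lo (n : ℕ) [NeZero n] (r : ℝ) : Set (En n) := ball 0 r ∩ {y | y 0 < 0}

/-- An isometry of a ball that is trivial on the flat part and preserves the upper half. -/
def FlatIso (g₁ : MatF n) (A₁ : ConF n ι) (g₂ : MatF n) (A₂ : ConF n ι) (r : ℝ)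
    (Φ : En n → En n) (S : ι → ι → En n → ℝ) : Prop :=
  Iso g₁ A₁ g₂ A₂ (ball 0 r) Φ S ∧ InjOn Φ (ball 0 r) ∧ ∀ y ∈ ball (0 : En n) r,
    (0 < Φ y 0 ↔ 0 < y 0) ∧ (y 0 = 0 → Φ y = y ∧ ∀ a a', S a a' y = if a = a' then 1 else 0)

end defs

/-- Elementary facts on the energy density and the volume density. -/
def E_eden : Prop := ∀ (n : ℕ) (ι : Type) [Fintype ι] [DecidableEq ι] (g : MatF n)
  (A : ConF n ι), GA g A → Sm (sdet g) ∧ (∀ x, 0 < sdet g x) ∧ SmM (gam g) ∧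
    (∀ v x, 0 ≤ eden g A v v x) ∧ (∀ v w x, eden g A v w x = eden g A w v x) ∧
    (∀ v w, SmV v → SmV w → Sm (eden g A v w)) ∧
    (∀ v v' w w' x, (∀ a, v a =ᶠ[𝓝 x] v' a) → (∀ a, w a =ᶠ[𝓝 x] w' a) →
      eden g A v w x = eden g A v' w' x) ∧
    ∀ R : ℝ, ∃ c : ℝ, 0 < c ∧ ∀ x ∈ closedBall (0 : En n) R,
      c ≤ sdet g x ∧ c * sdet g x ≤ 1 ∧
      (∀ ξ : Fin n → ℝ, c * ∑ i, ξ i ^ 2 ≤ ∑ i, ∑ j, g i j x * ξ i * ξ j ∧
        c * ∑ i, ∑ j, g i j x * ξ i * ξ j ≤ ∑ i, ξ i ^ 2) ∧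
      ∀ v, c * ∑ i, ∑ a, cov A i v a x ^ 2 ≤ eden g A v v x ∧
        c * eden g A v v x ≤ ∑ a, (v a x ^ 2 + ∑ i, D (ee i) (v a) x ^ 2)

/-- Kato's inequality along a segment. -/
def E_kato : Prop := ∀ (n : ℕ) (ι : Type) [Fintype ι] [DecidableEq ι] (g : MatF n)
  (A : ConF n ι) (R : ℝ), GA g A → ∃ C : ℝ, 0 ≤ C ∧ ∀ v : ι → En n → ℝ, SmV v →
    ∀ x ∈ closedBall (0 : En n) R, ∀ x' ∈ closedBall (0 : En n) R,
      √(∑ a, v a x' ^ 2) ≤ √(∑ a, v a x ^ 2) +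
        C * ‖x' - x‖ * ∫ t in (0 : ℝ)..1, √(eden g A v v (x + t • (x' - x)))

/-- Transport of an `L²` bound by a translation. -/
def E_trans : Prop := ∀ (n : ℕ) (ι : Type) [Fintype ι] [DecidableEq ι] (g : MatF n)
  (A : ConF n ι) (r δ : ℝ) (y₀ : En n), GA g A → 0 < δ → ‖y₀‖ + δ ≤ r → ∃ C : ℝ, 0 ≤ C ∧
    ∀ v : ι → En n → ℝ, SmV v →
      nrm (ball 0 δ) v ≤ C * (nrm (ball y₀ δ) v + enU (ball 0 r) g A v)

/-- The averaging operator along the normal direction is bounded on `L²`. -/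
def E_ts : Prop := ∀ (n : ℕ) [NeZero n] (r : ℝ) (U : Set (En n)) (h : En n → ℝ),
  U = Up n r ∨ U = Lo n r → Continuous h →
    ∫ y in U, (∫ t in (0 : ℝ)..1, h (y - (t * y 0) • ee 0)) ^ 2 ≤ 4 * ∫ y in U, h y ^ 2

/-- Hardy's inequality in the upper half ball, in dual form. -/
def E_hardy : Prop := ∀ (n : ℕ) [NeZero n] (ι : Type) [Fintype ι] [DecidableEq ι] (g : MatF n)
  (A : ConF n ι) (r : ℝ), GA g A → ∃ C : ℝ, 0 ≤ C ∧ ∀ v k : ι → En n → ℝ, SmV v →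
    (∀ y ∈ ball (0 : En n) r, y 0 = 0 → ∀ a, v a y = 0) → L2On (Up n r) k →
    (∑ a, ∫ y in Up n r, k a y * v a y) ^ 2 ≤
      C * (∑ a, ∫ y in Up n r, (y 0 * k a y) ^ 2) * enU (Up n r) g A v

/-- Poincare inequality across the flat part. -/
def E_refl : Prop := ∀ (n : ℕ) [NeZero n] (ι : Type) [Fintype ι] [DecidableEq ι] (g : MatF n)
  (A : ConF n ι) (r : ℝ), GA g A → ∃ C : ℝ, 0 ≤ C ∧ ∀ v w : ι → En n → ℝ, SmV v →
    Tests (ball 0 r) w → (∀ y ∈ ball (0 : En n) r, y 0 = 0 → ∀ a, v a y = w a y) →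
    nrm (Up n r) v + nrm (Lo n r) w ≤ C * (enU (Up n r) g A v + enU (Lo n r) g A w)

/-- The `L²` norm on small balls about the vertex of a cone. -/
def E_scale : Prop := ∀ (n : ℕ), 3 ≤ n → ∀ (ι : Type) [Fintype ι] [DecidableEq ι] (g : MatF n)
  (A : ConF n ι) (r : ℝ) (Cn : Set (En n)), GA g A → MeasurableSet Cn →
    (∀ t : ℝ, 0 < t → ∀ y ∈ Cn, t • y ∈ Cn) → ∃ C : ℝ, 0 ≤ C ∧ ∀ s : ℝ, 0 < s → s ≤ r →
    ∀ v : ι → En n → ℝ, SmV v →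
      nrm (ball 0 s ∩ Cn) v ≤ C * s ^ 2 * (enU (ball 0 r ∩ Cn) g A v + nrm (ball 0 r ∩ Cn) v)

/-- Integration by parts against a test field. -/
def E_ibp1 : Prop := ∀ (n : ℕ) (ι : Type) [Fintype ι] [DecidableEq ι] (g : MatF n)
  (A : ConF n ι) (V : Set (En n)) (ψ w : ι → En n → ℝ), GA g A → IsOpen V → Tests V ψ →
    SmOn V w → enB V g A ψ w = -∑ a, ∫ y in V, (cop g A).app ψ a y * w a y

/-- Integration by parts in the upper half ball. -/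
def E_ibp2 : Prop := ∀ (n : ℕ) [NeZero n] (ι : Type) [Fintype ι] [DecidableEq ι] (g : MatF n)
  (A : ConF n ι) (r : ℝ) (ψ w : ι → En n → ℝ), GA g A → Tests (ball 0 r) ψ → SmV w →
    (∀ y ∈ ball (0 : En n) r, y 0 = 0 → ∀ a, w a y = 0) →
    enB (Up n r) g A ψ w = -∑ a, ∫ y in Up n r, (cop g A).app ψ a y * w a y

/-- Unique continuation for weak solutions. -/
def E_wucp : Prop := ∀ (n : ℕ) (ι : Type) [Fintype ι] [DecidableEq ι] (g : MatF n)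
  (A : ConF n ι) (V N : Set (En n)) (W : ι → En n → ℝ), GA g A → IsOpen V → IsPreconnected V →
    WS g A V W → IsOpen N → N.Nonempty → N ⊆ V → (∀ a, W a =ᵐ[volume.restrict N] 0) →
    ∀ a, W a =ᵐ[volume.restrict V] 0

/-- Restriction and differences of weak solutions. -/
def E_ws : Prop := ∀ (n : ℕ) (ι : Type) [Fintype ι] [DecidableEq ι] (g : MatF n)
  (A : ConF n ι) (V : Set (En n)) (W : ι → En n → ℝ), GA g A → IsOpen V → WS g A V W →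
    (∀ V', IsOpen V' → V' ⊆ V → WS g A V' W) ∧
    (∀ W', WS g A V W' → WS g A V fun a y => W a y - W' a y) ∧
    ∀ W', (∀ a, W' a =ᵐ[volume.restrict V] W a) → WS g A V W'

/-- A field whose extension by zero is a weak solution vanishes. -/
def E_z0 : Prop := ∀ (n : ℕ) [NeZero n] (ι : Type) [Fintype ι] [DecidableEq ι] (g : MatF n)
  (A : ConF n ι) (r : ℝ) (W : ι → En n → ℝ), GA g A → L2On (Up n r) W →
    (∀ ψ, Tests (ball 0 r) ψ → ∑ a, ∫ y in Up n r, W a y * (cop g A).app ψ a y = 0) →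
    ∀ a, W a =ᵐ[volume.restrict (Up n r)] 0

/-- Consequences of the inverse function theorem. -/
def E_inv : Prop := ∀ (n : ℕ) (V : Set (En n)) (Φ : En n → En n), IsOpen V →
  ContDiffOn ℝ ∞ Φ V → (∀ y ∈ V, Function.Injective (fderiv ℝ Φ y)) →
    (∀ y ∈ V, ∃ δ : ℝ, 0 < δ ∧ ball y δ ⊆ V ∧ InjOn Φ (ball y δ)) ∧
    (∀ V', IsOpen V' → V' ⊆ V → IsOpen (Φ '' V')) ∧
    (InjOn Φ V → ContDiffOn ℝ ∞ (Function.invFunOn Φ V) (Φ '' V))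

/-- First-order bounds for an isometry. -/
def E_isoC : Prop := ∀ (n : ℕ) (ι : Type) [Fintype ι] [DecidableEq ι] (g₁ g₂ : MatF n)
  (A₁ A₂ : ConF n ι) (V : Set (En n)) (Φ : En n → En n) (S : ι → ι → En n → ℝ), GA g₁ A₁ →
    GA g₂ A₂ → IsOpen V → Iso g₁ A₁ g₂ A₂ V Φ S →
    (∀ y ∈ V, Function.Injective (fderiv ℝ Φ y)) ∧
    (∀ y ∈ V, ∀ a a', ∑ e, S a e y * S a' e y = if a = a' then 1 else 0) ∧
    (Bornology.IsBounded V → Bornology.IsBounded (Φ '' V) → ∃ C : ℝ, ∀ y ∈ V,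
      ‖fderiv ℝ Φ y‖ ≤ C ∧ (∀ v, ‖v‖ ≤ C * ‖fderiv ℝ Φ y v‖) ∧ (∀ a a', |S a a' y| ≤ C) ∧
        1 ≤ C * |(Matrix.of fun a a' => S a a' y).det|)

/-- All derivatives of an isometry between bounded sets are bounded. -/
def E_isobd : Prop := ∀ (n : ℕ) (ι : Type) [Fintype ι] [DecidableEq ι] (g₁ g₂ : MatF n)
  (A₁ A₂ : ConF n ι) (V : Set (En n)) (Φ : En n → En n) (S : ι → ι → En n → ℝ), GA g₁ A₁ →
    GA g₂ A₂ → IsOpen V → Iso g₁ A₁ g₂ A₂ V Φ S → Bornology.IsBounded V →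
    Bornology.IsBounded (Φ '' V) → ∀ l : List (Fin n), ∃ C : ℝ, ∀ y ∈ V,
      (∀ k, |Ds ee l (fun z => Φ z k) y| ≤ C) ∧ ∀ a a', |Ds ee l (S a a') y| ≤ C

/-- A function with bounded derivatives in the upper half ball extends smoothly. -/
def E_ext : Prop := ∀ (n : ℕ) [NeZero n] (f : En n → ℝ) (r r' : ℝ), r' < r →
  ContDiffOn ℝ ∞ f (Up n r) → (∀ l : List (Fin n), ∃ C : ℝ, ∀ y ∈ Up n r, |Ds ee l f y| ≤ C) →
    ∃ f' : En n → ℝ, Sm f' ∧ EqOn f' f (Up n r')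

/-- An isometry on the open half ball extends to the closed half ball. -/
def E_isoext : Prop := ∀ (n : ℕ) [NeZero n] (ι : Type) [Fintype ι] [DecidableEq ι]
  (g₁ g₂ : MatF n) (A₁ A₂ : ConF n ι) (r r' : ℝ) (Φ : En n → En n) (S : ι → ι → En n → ℝ),
    GA g₁ A₁ → GA g₂ A₂ → r' < r → Iso g₁ A₁ g₂ A₂ (Up n r) Φ S →
    Bornology.IsBounded (Φ '' Up n r) → ∃ (Φ' : En n → En n) (S' : ι → ι → En n → ℝ),
      ContDiff ℝ ∞ Φ' ∧ (∀ a a', Sm (S' a a')) ∧ EqOn Φ' Φ (Up n r') ∧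
      (∀ a a', EqOn (S' a a') (S a a') (Up n r')) ∧ Iso g₁ A₁ g₂ A₂ (Hb n r') Φ' S'

/-- The capacity comparison that prevents a tangent ball from touching the boundary. -/
def E_notouch : Prop := ∀ (n : ℕ), 3 ≤ n → ∀ (ι : Type) [Fintype ι] [DecidableEq ι] [Nonempty ι]
  (g : MatF n) (A : ConF n ι) (R ρ C : ℝ) (q : En n) (f : En n → ℝ), GA g A → 0 < R → 0 < ρ →
    ‖q‖ = ρ → ContDiffOn ℝ ∞ f (ball q ρ) → (∀ y ∈ ball q ρ, 0 < f y) →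
    Filter.Tendsto f (𝓝[ball q ρ] 0) (𝓝 0) →
    (∀ y ∈ ball q ρ, ∀ i, |D (ee i) f y| ≤ C ∧ ∀ j, |D (ee i) (D (ee j) f) y| ≤ C) →
    (∀ (h : ℝ) (N : Set (En n)) (k ψ : ι → En n → ℝ), 0 < h → MeasurableSet N → N ⊆ ball q ρ →
      (∀ y ∈ N, f y ≤ h) → L2On N k → Tests (ball 0 R) ψ →
      2 * (∑ a, ∫ y in N, k a y * ψ a y) - enU (ball 0 R) g A ψ ≤ C * h ^ 2 * nrm N k) → False

/-- Gluing of two pairs with the same jets along the flat part. -/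
def E_gluega : Prop := ∀ (n : ℕ) [NeZero n] (ι : Type) [Fintype ι] [DecidableEq ι]
  (g g₂ : MatF n) (A A₂ : ConF n ι) (r r' : ℝ), GA g A → GA g₂ A₂ → r' < r →
    (∀ y ∈ ball (0 : En n) r, y 0 = 0 → ∀ l : List (Fin n),
      (∀ i j, Ds ee l (fun z => g i j z - g₂ i j z) y = 0) ∧
      ∀ i a a', Ds ee l (fun z => A i a a' z - A₂ i a a' z) y = 0) →
    ∃ (g' : MatF n) (A' : ConF n ι), GA g' A' ∧
      (∀ y ∈ Hb n r', (∀ i j, g' i j y = g₂ i j y) ∧ ∀ i a a', A' i a a' y = A₂ i a a' y) ∧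
      ∀ y ∈ Lo n r', (∀ i j, g' i j y = g i j y) ∧ ∀ i a a', A' i a a' y = A i a a' y

/-- Extension of a metric and a connection from a compact set. -/
def E_gaext : Prop := ∀ (n : ℕ) (ι : Type) [Fintype ι] [DecidableEq ι] (g : MatF n)
  (A : ConF n ι) (K U : Set (En n)), IsCompact K → IsOpen U → K ⊆ U →
    (∀ i j, ContDiffOn ℝ ∞ (g i j) U) → (∀ i a a', ContDiffOn ℝ ∞ (A i a a') U) →
    (∀ x ∈ K, (∀ i j, g i j x = g j i x) ∧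
      (∀ ξ : Fin n → ℝ, ξ ≠ 0 → 0 < ∑ i, ∑ j, g i j x * ξ i * ξ j) ∧
      ∀ i a a', A i a a' x = -A i a' a x) →
    ∃ (g' : MatF n) (A' : ConF n ι), GA g' A' ∧
      ∀ x ∈ K, (∀ i j, g' i j x = g i j x) ∧ ∀ i a a', A' i a a' x = A i a a' x

/-- From equal Green operators in the lower half ball to an isometry near the origin. -/
def E_bstep2 : Prop := ∀ (n : ℕ) [NeZero n], 3 ≤ n → ∀ (ι : Type) [Fintype ι] [DecidableEq ι]
  [Nonempty ι] (g₁ g₂ : MatF n) (A₁ A₂ : ConF n ι) (r : ℝ)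
  (G₁ G₂ : HL n ι (ball 0 r) →L[ℝ] HL n ι (ball 0 r)), GA g₁ A₁ → GA g₂ A₂ → 0 < r →
    (∀ y ∈ Lo n r, (∀ i j, g₁ i j y = g₂ i j y) ∧ ∀ i a a', A₁ i a a' y = A₂ i a a' y) →
    IsGreen (cop g₁ A₁) _ G₁ → IsGreen (cop g₂ A₂) _ G₂ → GScale G₁ → GScale G₂ →
    Agree (Lo n r) G₁ G₂ → ∃ (r' : ℝ) (Φ : En n → En n) (S : ι → ι → En n → ℝ),
      0 < r' ∧ r' ≤ r ∧ FlatIso g₁ A₁ g₂ A₂ r' Φ S

/-- Local solutions take all values at the origin. -/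
def E_locsol : Prop := ∀ (n : ℕ) (ι : Type) [Fintype ι] [DecidableEq ι] (g : MatF n)
  (A : ConF n ι) (r : ℝ) (G : HL n ι (ball 0 r) →L[ℝ] HL n ι (ball 0 r))
  (T : ι → ι → En n → ℝ), GA g A → 0 < r → IsGreen (cop g A) _ G → GScale G →
    (∀ a a', ContinuousAt (T a a') 0) →
    (∀ᶠ s in 𝓝[>] (0 : ℝ), ∀ W : ι → En n → ℝ, Sol (cop g A) (ball 0 (2 * s)) W 0 →
      ∀ᵐ y ∂(volume.restrict (ball (0 : En n) s)), ∀ a, ∑ a', T a a' y * W a' y = 0) →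
    ∀ a a', T a a' 0 = 0

/-- Basic facts on `tl` and `cp`. -/
def E_tl : Prop := ∀ (n : ℕ) (ι : Type) [Fintype ι] (U : Set (En n)),
  (∀ F : HL n ι U, L2On U (cp F) ∧ ‖F‖ ^ 2 = nrm U (cp F) ∧ tl U (cp F) = F) ∧
  (∀ W : ι → En n → ℝ, L2On U W → (∀ a, cp (tl U W) a =ᵐ[volume.restrict U] W a) ∧
    ‖tl U W‖ ^ 2 = nrm U W ∧ ∀ F : HL n ι U, ⟪F, tl U W⟫_ℝ = ∑ a, ∫ y in U, cp F a y * W a y) ∧
  (∀ F F' : HL n ι U, (∀ a, cp F a =ᵐ[volume.restrict U] cp F' a) → F = F') ∧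
  (∀ W W' : ι → En n → ℝ, L2On U W → L2On U W' →
    (∑ a, ∫ y in U, W a y * W' a y) ^ 2 ≤ nrm U W * nrm U W') ∧
  (MeasurableSet U → Bornology.IsBounded U → ∀ W : ι → En n → ℝ, SmV W → L2On U W)

/-- The completion of a semidefinite form and the extension of a bounded map. -/
def A_hilb : Prop := ∀ (V X : Type) [AddCommGroup V] [Module ℝ V] [NormedAddCommGroup X]
  [InnerProductSpace ℝ X] [CompleteSpace X] (B : V →ₗ[ℝ] V →ₗ[ℝ] ℝ) (j : V →ₗ[ℝ] X) (C : ℝ),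
    (∀ v w, B v w = B w v) → (∀ v, 0 ≤ B v v) → (∀ v, ‖j v‖ ^ 2 ≤ C * B v v) →
    ∃ (H : Type) (_ : NormedAddCommGroup H) (_ : InnerProductSpace ℝ H) (i : V →ₗ[ℝ] H)
      (J : H →L[ℝ] X) (J' : X →L[ℝ] H), (∀ v w, ⟪i v, i w⟫_ℝ = B v w) ∧ (∀ v, J (i v) = j v) ∧
      (∀ u K, ⟪J u, K⟫_ℝ = ⟪u, J' K⟫_ℝ) ∧
      (∀ u u' : H, (∀ v, ⟪u, i v⟫_ℝ = ⟪u', i v⟫_ℝ) → u = u') ∧
      (∀ u : H, IsLUB (range fun v => 2 * ⟪u, i v⟫_ℝ - B v v) (‖u‖ ^ 2)) ∧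
      (∀ (u : H) (a : ℝ), 0 ≤ a → (∀ v, ⟪u, i v⟫_ℝ ^ 2 ≤ a * B v v) → ‖u‖ ^ 2 ≤ a) ∧
      ∀ (l : V →ₗ[ℝ] ℝ) (c : ℝ), (∀ v, l v ^ 2 ≤ c * B v v) → ∃ u : H, ∀ v, ⟪u, i v⟫_ℝ = l v

end Vale.Agent.P088
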