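import Vale.Agent.P088.ManE
import Vale.Agent.P088.IsoInter

/-!
# P088, manifold part: elementary facts on the energy density and on square integrable classes
-/

open MeasureTheory Set Metric Filter
open scoped ContDiff Topology InnerProductSpace

noncomputable section
namespace Vale.Agent.P088
open Vale.Agent.P136

namespace ManEden
open IsoInter

variable {n : ℕ}

/-- Comparison of two homogeneous functions on a compact set of parameters. -/
lemma hom {W : Type} [NormedAddCommGroup W] [NormedSpace ℝ W] [ProperSpace W] {K : Set (En n)}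
    (hK : IsCompact K) {P Q : En n → W → ℝ} (hP : Continuous fun p : En n × W => P p.1 p.2)
    (hQ : Continuous fun p : En n × W => Q p.1 p.2)
    (h1 : ∀ x (t : ℝ) ξ, P x (t • ξ) = t ^ 2 * P x ξ)
    (h2 : ∀ x (t : ℝ) ξ, Q x (t • ξ) = t ^ 2 * Q x ξ) (hp : ∀ x ξ, ξ ≠ 0 → 0 < Q x ξ) :
    ∀ᶠ c in 𝓝[>] (0 : ℝ), ∀ x ∈ K, ∀ ξ, c * P x ξ ≤ Q x ξ := by
  have hne : ∀ p ∈ K ×ˢ sphere (0 : W) 1, p.2 ≠ 0 := fun p hp' h0 => by
    have := hp'.2
    rw [h0] at this
    simp at this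
  obtain ⟨C, hC⟩ := (hK.prod (isCompact_sphere (0 : W) 1)).exists_bound_of_continuousOn
    (f := fun p => P p.1 p.2 / Q p.1 p.2)
    (hP.continuousOn.div hQ.continuousOn fun p hp' => (hp _ _ (hne p hp')).ne')
  have hc : 0 < (|C| + 1)⁻¹ := by positivity
  filter_upwards [Ioo_mem_nhdsGT hc] with c hc' x hx ξ
  by_cases h0 : ξ = 0
  · have a1 := h1 x 0 0
    have a2 := h2 x 0 0
    rw [smul_zero] at a1 a2
    rw [h0, a1, a2]
    simp
  · have hn : 0 < ‖ξ‖ := norm_pos_iff.2 h0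
    have hm : (x, ‖ξ‖⁻¹ • ξ) ∈ K ×ˢ sphere (0 : W) 1 := ⟨hx, by simp [norm_smul, hn.ne']⟩
    have a1 := (le_abs_self _).trans (hC _ hm)
    have q := hp x ξ h0
    simp only [h1, h2] at a1
    rw [mul_div_mul_left _ _ (by positivity), div_le_iff₀ q] at a1
    have a2 : c * (|C| + 1) ≤ 1 := by
      have := hc'.2.le
      rwa [← one_div, le_div_iff₀ (by positivity)] at this
    have a3 : P x ξ ≤ (|C| + 1) * Q x ξ :=
      a1.trans (mul_le_mul_of_nonneg_right (by linarith [le_abs_self C]) q.le)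
    calc c * P x ξ ≤ c * ((|C| + 1) * Q x ξ) := mul_le_mul_of_nonneg_left a3 hc'.1.le
      _ = c * (|C| + 1) * Q x ξ := by ring
      _ ≤ 1 * Q x ξ := mul_le_mul_of_nonneg_right a2 q.le
      _ = _ := one_mul _

lemma sq_pos' {κ : Type} [Fintype κ] {ξ : κ → ℝ} (h : ξ ≠ 0) : 0 < ∑ i, ξ i ^ 2 := by
  obtain ⟨i, hi⟩ := Function.ne_iff.1 h
  exact Finset.sum_pos' (fun _ _ => sq_nonneg _) ⟨i, Finset.mem_univ _, sq_pos_of_ne_zero hi⟩

variable {ι : Type} [Fintype ι] [DecidableEq ι] {g : MatF n} {A : ConF n ι}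

lemma sdet_pos (h : GA g A) (x : En n) : 0 < sdet g x := Real.sqrt_pos.2 (posDef h x).det_pos

lemma sdet_sm (h : GA g A) : Sm (sdet g) :=
  contDiff_iff_contDiffAt.2 fun x =>
    (det_cda (M := fun y => Matrix.of fun k l => g k l y) fun k l => (h.1 k l).contDiffAt).sqrt
      (posDef h x).det_pos.ne'

lemma gam_pos (h : GA g A) (x : En n) {ξ : Fin n → ℝ} (hξ : ξ ≠ 0) :
    0 < ∑ i, ∑ j, gam g i j x * ξ i * ξ j := by
  refine (mul_pos (sdet_pos h x) ((posDef h x).inv.dotProduct_mulVec_pos hξ)).trans_eq ?_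
  simp only [dotProduct, Matrix.mulVec, star_trivial, Finset.mul_sum, gam, sdet]
  exact Finset.sum_congr rfl fun i _ => Finset.sum_congr rfl fun j _ => by ring

lemma gam_nonneg (h : GA g A) (x : En n) (ξ : Fin n → ℝ) :
    0 ≤ ∑ i, ∑ j, gam g i j x * ξ i * ξ j := by
  by_cases h0 : ξ = 0
  · simp [h0]
  · exact (gam_pos h x h0).le

omit [DecidableEq ι] in
lemma swap (M : Fin n → Fin n → ℝ) (η : Fin n → ι → ℝ) :
    ∑ i, ∑ j, M i j * ∑ a, η i a * η j a = ∑ a, ∑ i, ∑ j, M i j * η i a * η j a := by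
  simp only [Finset.mul_sum, mul_assoc]
  exact (Finset.sum_congr rfl fun i _ => Finset.sum_comm).trans Finset.sum_comm

omit [DecidableEq ι] in
lemma cov_sm (h : GA g A) {v : ι → En n → ℝ} (hv : SmV v) (i : Fin n) (a : ι) :
    Sm (cov A i v a) :=
  ((hv a).D _).add (Sm.sum fun a' _ => (h.2.2.2.1 i a a').mul (hv a'))

omit [DecidableEq ι] in
lemma cov_congr {v v' : ι → En n → ℝ} {x : En n} (hv : ∀ a, v a =ᶠ[𝓝 x] v' a) (i : Fin n)
    (a : ι) : cov A i v a x = cov A i v' a x := by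
  simp only [cov, D_congr (hv a), fun a => (hv a).self_of_nhds]

lemma bounds (h : GA g A) (R : ℝ) : ∃ c : ℝ, 0 < c ∧ ∀ x ∈ closedBall (0 : En n) R,
    c ≤ sdet g x ∧ c * sdet g x ≤ 1 ∧
    (∀ ξ : Fin n → ℝ, c * ∑ i, ξ i ^ 2 ≤ ∑ i, ∑ j, g i j x * ξ i * ξ j ∧
      c * ∑ i, ∑ j, g i j x * ξ i * ξ j ≤ ∑ i, ξ i ^ 2) ∧
    ∀ v, c * ∑ i, ∑ a, cov A i v a x ^ 2 ≤ eden g A v v x ∧
      c * eden g A v v x ≤ ∑ a, (v a x ^ 2 + ∑ i, D (ee i) (v a) x ^ 2) := by
  have hK := isCompact_closedBall (0 : En n) R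
  have c1 : Continuous (sdet g) := (sdet_sm h).cont
  have c2 : ∀ i j, Continuous (g i j) := fun i j => (h.1 i j).cont
  have c3 : ∀ i j, Continuous (gam g i j) := fun i j => (gam_sm h i j).cont
  have c4 : ∀ i a a', Continuous (A i a a') := fun i a a' => (h.2.2.2.1 i a a').cont
  have s1 : ∀ (t : ℝ) (ξ : Fin n → ℝ), ∑ i, (t • ξ) i ^ 2 = t ^ 2 * ∑ i, ξ i ^ 2 := fun t ξ => by
    simp only [Pi.smul_apply, smul_eq_mul, mul_pow, Finset.mul_sum]
  have s2 : ∀ (M : MatF n) x (t : ℝ) (ξ : Fin n → ℝ), ∑ i, ∑ j, M i j x * (t • ξ) i * (t • ξ) j =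
      t ^ 2 * ∑ i, ∑ j, M i j x * ξ i * ξ j := fun M x t ξ => by
    simp only [Pi.smul_apply, smul_eq_mul, Finset.mul_sum]
    exact Finset.sum_congr rfl fun i _ => Finset.sum_congr rfl fun j _ => by ring
  have e1 := hom (W := ℝ) hK (P := fun _ t => t ^ 2) (Q := fun x t => sdet g x * t ^ 2)
    (by fun_prop) (by fun_prop) (fun x t ξ => by simp only [smul_eq_mul]; ring)
    (fun x t ξ => by simp only [smul_eq_mul]; ring)
    fun x ξ h0 => mul_pos (sdet_pos h x) (by positivity)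
  have e2 := hom (W := ℝ) hK (Q := fun _ t => t ^ 2) (P := fun x t => sdet g x * t ^ 2)
    (by fun_prop) (by fun_prop) (fun x t ξ => by simp only [smul_eq_mul]; ring)
    (fun x t ξ => by simp only [smul_eq_mul]; ring) fun x ξ h0 => by positivity
  have e3 := hom (W := Fin n → ℝ) hK (P := fun _ ξ => ∑ i, ξ i ^ 2)
    (Q := fun x ξ => ∑ i, ∑ j, g i j x * ξ i * ξ j) (by fun_prop) (by fun_prop)
    (fun _ => s1) (s2 g) h.2.2.1
  have e4 := hom (W := Fin n → ℝ) hK (Q := fun _ ξ => ∑ i, ξ i ^ 2)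
    (P := fun x ξ => ∑ i, ∑ j, g i j x * ξ i * ξ j) (by fun_prop) (by fun_prop)
    (s2 g) (fun _ => s1) fun _ _ h0 => sq_pos' h0
  have e5 := hom (W := Fin n → ℝ) hK (P := fun _ ξ => ∑ i, ξ i ^ 2)
    (Q := fun x ξ => ∑ i, ∑ j, gam g i j x * ξ i * ξ j) (by fun_prop) (by fun_prop)
    (fun _ => s1) (s2 (gam g)) fun x _ h0 => gam_pos h x h0
  have e6 := hom (W := ι → Option (Fin n) → ℝ) hK
    (P := fun x η => ∑ i, ∑ j, gam g i j x * ∑ a,
      (η a (some i) + ∑ a', A i a a' x * η a' none) * (η a (some j) + ∑ a', A j a a' x * η a' none))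
    (Q := fun _ η => ∑ a, ∑ o, η a o ^ 2) (by fun_prop) (by fun_prop)
    (fun x t η => by
      have k : ∀ i a, (t • η) a (some i) + ∑ a', A i a a' x * (t • η) a' none =
          t * (η a (some i) + ∑ a', A i a a' x * η a' none) := fun i a => by
        simp only [Pi.smul_apply, smul_eq_mul, mul_add, Finset.mul_sum, mul_left_comm]
      simp only [k]
      generalize (fun i a => η a (some i) + ∑ a', A i a a' x * η a' none) = z
      rw [Finset.mul_sum]
      refine Finset.sum_congr rfl fun i _ => ?_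
      rw [Finset.mul_sum]
      refine Finset.sum_congr rfl fun j _ => ?_
      rw [mul_left_comm, Finset.mul_sum (a := t ^ 2)]
      exact congrArg _ (Finset.sum_congr rfl fun a _ => by ring))
    (fun x t η => by simp only [Pi.smul_apply, smul_eq_mul, mul_pow, Finset.mul_sum])
    fun _ η h0 => by
      obtain ⟨a, ha⟩ := Function.ne_iff.1 h0
      exact Finset.sum_pos' (fun _ _ => Finset.sum_nonneg fun _ _ => sq_nonneg _)
        ⟨a, Finset.mem_univ _, sq_pos' ha⟩
  obtain ⟨c, ⟨⟨⟨⟨⟨k1, k2⟩, k3⟩, k4⟩, k5⟩, k6⟩, k0⟩ :=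
    ((((((e1.and e2).and e3).and e4).and e5).and e6).and self_mem_nhdsWithin).exists
  refine ⟨c, k0, fun x hx => ⟨by simpa using k1 x hx 1, by simpa using k2 x hx 1,
    fun ξ => ⟨k3 x hx ξ, k4 x hx ξ⟩, fun v => ⟨?_, ?_⟩⟩⟩
  · rw [eden, swap (fun i j => gam g i j x) fun i a => cov A i v a x, Finset.sum_comm,
      Finset.mul_sum]
    exact Finset.sum_le_sum fun a _ => k5 x hx fun i => cov A i v a x
  · have := k6 x hx fun a o => o.elim (v a x) fun i => D (ee i) (v a) x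
    simp only [Fintype.sum_option] at this
    exact this

omit [DecidableEq ι] in
lemma mem_tl {U : Set (En n)} {W : ι → En n → ℝ} (h : L2On U W) :
    MemLp (fun x => (WithLp.toLp 2 fun a => W a x : EuclideanSpace ℝ ι)) 2 (volume.restrict U) :=
  MemLp.of_eval_piLp h

omit [DecidableEq ι] in
lemma l2_cp {U : Set (En n)} (F : HL n ι U) : L2On U (cp F) := (Lp.memLp F).eval_piLp

omit [DecidableEq ι] in
lemma inner_cp {U : Set (En n)} (F G : HL n ι U) :
    ⟪F, G⟫_ℝ = ∑ a, ∫ y in U, cp F a y * cp G a y := by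
  rw [L2.inner_def, ← integral_finsetSum (f := fun a y => cp F a y * cp G a y) _
    fun a _ => (l2_cp F a).integrable_mul (l2_cp G a)]
  refine integral_congr_ae (Eventually.of_forall fun y => ?_)
  simp only [PiLp.inner_apply, cp, Real.inner_apply]

omit [DecidableEq ι] in
lemma norm_cp {U : Set (En n)} (F : HL n ι U) : ‖F‖ ^ 2 = nrm U (cp F) := by
  rw [← real_inner_self_eq_norm_sq, inner_cp]
  simp only [nrm, sq]

omit [DecidableEq ι] in
lemma cp_tl {U : Set (En n)} {W : ι → En n → ℝ} (h : L2On U W) (a : ι) :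
    cp (tl U W) a =ᵐ[volume.restrict U] W a := by
  rw [tl, dif_pos (mem_tl h)]
  filter_upwards [(mem_tl h).coeFn_toLp] with y hy
  simp only [cp, hy]

omit [DecidableEq ι] in
lemma norm_tl {U : Set (En n)} {W : ι → En n → ℝ} (h : L2On U W) : ‖tl U W‖ ^ 2 = nrm U W := by
  rw [norm_cp]
  refine Finset.sum_congr rfl fun a _ => integral_congr_ae ?_
  filter_upwards [cp_tl h a] with y hy
  rw [hy]

omit [DecidableEq ι] in
lemma inner_tl {U : Set (En n)} {W : ι → En n → ℝ} (h : L2On U W) (F : HL n ι U) :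
    ⟪F, tl U W⟫_ℝ = ∑ a, ∫ y in U, cp F a y * W a y := by
  rw [inner_cp]
  refine Finset.sum_congr rfl fun a _ => integral_congr_ae ?_
  filter_upwards [cp_tl h a] with y hy
  rw [hy]

end ManEden

open ManEden IsoInter

theorem e_eden : E_eden := by
  intro n ι _ _ g A h
  refine ⟨sdet_sm h, sdet_pos h, gam_sm h, fun v x => ?_, fun v w x => ?_, fun v w hv hw => ?_,
    fun v v' w w' x hv hw => ?_, bounds h⟩
  · rw [eden, swap (fun i j => gam g i j x) fun i a => cov A i v a x]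
    exact Finset.sum_nonneg fun a _ => gam_nonneg h x _
  · rw [eden, eden, Finset.sum_comm]
    refine Finset.sum_congr rfl fun i _ => Finset.sum_congr rfl fun j _ => ?_
    rw [gam_sym h j i]
    simp only [mul_comm]
  · exact Sm.sum fun i _ => Sm.sum fun j _ => (gam_sm h i j).mul
      (Sm.sum fun a _ => (cov_sm h hv i a).mul (cov_sm h hw j a))
  · simp only [eden, cov_congr hv, cov_congr hw]

theorem e_tl : E_tl := by
  intro n ι _ U
  refine ⟨fun F => ⟨l2_cp F, norm_cp F, ?_⟩, fun W h => ⟨cp_tl h, norm_tl h, inner_tl h⟩,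
    fun F F' h => ?_, fun W W' h h' => ?_, fun hU hb W hW a => ?_⟩
  · rw [tl, dif_pos (mem_tl (l2_cp F))]
    exact Lp.toLp_coeFn F _
  · refine Lp.ext ?_
    filter_upwards [eventually_all.2 h] with y hy
    exact PiLp.ext hy
  · have e : ⟪tl U W, tl U W'⟫_ℝ = ∑ a, ∫ y in U, W a y * W' a y := by
      rw [inner_tl h']
      refine Finset.sum_congr rfl fun a _ => integral_congr_ae ?_
      filter_upwards [cp_tl h a] with y hy
      rw [hy]
    rw [← e, ← norm_tl h, ← norm_tl h', ← mul_pow, ← sq_abs]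
    exact pow_le_pow_left₀ (abs_nonneg _) (abs_real_inner_le_norm _ _) 2
  · have : IsFiniteMeasure (volume.restrict U) := ⟨by simpa using hb.measure_lt_top⟩
    obtain ⟨C, hC⟩ := hb.isCompact_closure.exists_bound_of_continuousOn (hW a).cont.continuousOn
    refine MemLp.of_bound (hW a).cont.aestronglyMeasurable C ?_
    filter_upwards [ae_restrict_mem hU] with y hy using hC y (subset_closure hy)

end Vale.Agent.P088
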