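import Vale.Agent.P088.ManE
import Vale.Agent.P088.Ext
import Vale.Agent.P088.IsoRig

/-!
# P088: bounded derivatives in the open half ball give a smooth extension
-/

open Set Metric Filter
open scoped ContDiff Topology

noncomputable section
namespace Vale.Agent.P088
open Vale.Agent.P136 (D Sm)
namespace ManExt
variable {n : ℕ} {U : Set (En n)}

/-- Smooth on `U` with bounded derivatives. -/
def Cl (U : Set (En n)) (f : En n → ℝ) : Prop :=
  ContDiffOn ℝ ∞ f U ∧ ∀ l : List (Fin n), ∃ C : ℝ, ∀ y ∈ U, |Ds ee l f y| ≤ C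

lemma Cl.d (hU : IsOpen U) {f : En n → ℝ} (h : Cl U f) (i : Fin n) : Cl U (D (ee i) f) := by
  refine ⟨(h.1.fderiv_of_isOpen hU (m := ∞) (by simp)).clm_apply contDiffOn_const, fun l => ?_⟩
  obtain ⟨C, hC⟩ := h.2 (l ++ [i])
  refine ⟨C, fun y hy => ?_⟩
  have := hC y hy
  rwa [Ds, List.foldr_append] at this

lemma Cl.dAt (hU : IsOpen U) {f : En n → ℝ} (h : Cl U f) {y : En n} (hy : y ∈ U) :
    DifferentiableAt ℝ f y :=
  (h.1.contDiffAt (hU.mem_nhds hy)).differentiableAt (by simp)

lemma Cl.ext (hU : IsOpen U) (hc : Convex ℝ U) {f : En n → ℝ} (h : Cl U f) :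
    ∃ g : En n → ℝ, Continuous g ∧ EqOn f g U := by
  choose C hC using fun i : Fin n => h.2 [i]
  have h0 : (0 : ℝ) ≤ ∑ i, |C i| := Finset.sum_nonneg fun i _ => abs_nonneg _
  have hl : LipschitzOnWith ⟨n * ∑ i, |C i|, by positivity⟩ f U := by
    refine hc.lipschitzOnWith_of_nnnorm_fderiv_le (𝕜 := ℝ) (fun y hy => h.dAt hU hy)
      fun y hy => ?_
    refine IsoRig.clm_le (fderiv ℝ f y) h0 fun p => ?_
    exact ((hC p y hy).trans (le_abs_self _)).trans
      (Finset.single_le_sum (f := fun i => |C i|) (fun i _ => abs_nonneg _) (Finset.mem_univ p))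
  obtain ⟨g, h1, h2⟩ := hl.extend_real
  exact ⟨g, h1.continuous, h2⟩

lemma Cl.has (hU : IsOpen U) (hc : Convex ℝ U) {f g : En n → ℝ} (h : Cl U f) (hg : Continuous g)
    (e : EqOn f g U) {v : Fin n → En n → ℝ} (hv : ∀ i, Continuous (v i))
    (ev : ∀ i, EqOn (D (ee i) f) (v i) U) (x : En n) :
    HasFDerivWithinAt g (Ext.cv fun i => v i x) (closure U) x := by
  have k : ∀ y ∈ U, HasFDerivAt g (Ext.cv fun i => v i y) y := by
    intro y hy
    have e1 : g =ᶠ[𝓝 y] f := by
      filter_upwards [hU.mem_nhds hy] with z hz using (e hz).symm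
    have e2 : (Ext.cv fun i => v i y) = fderiv ℝ f y := by
      rw [← Ext.cv_eq (fderiv ℝ f y)]
      exact congrArg Ext.cv (funext fun i => (ev i hy).symm)
    rw [e2]
    exact (h.dAt hU hy).hasFDerivAt.congr_of_eventuallyEq e1
  refine hasFDerivWithinAt_closure_of_tendsto_fderiv
    (fun y hy => (k y hy).differentiableAt.differentiableWithinAt) hc hU
    (fun y _ => hg.continuousWithinAt) ?_
  have hcv : Continuous fun y => Ext.cv fun i => v i y :=
    continuous_finsetSum _ fun i _ => (hv i).smul continuous_const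
  exact (hcv.continuousWithinAt (x := x)).tendsto.congr'
    (eventually_nhdsWithin_of_forall fun y hy => (k y hy).fderiv.symm)

lemma smooth (hU : IsOpen U) (hc : Convex ℝ U) (m : ℕ) : ∀ f g : En n → ℝ, Cl U f →
    Continuous g → EqOn f g U → ContDiffOn ℝ m g (closure U) := by
  induction m with
  | zero => exact fun f g _ hg _ => contDiffOn_zero.2 hg.continuousOn
  | succ m ih =>
    intro f g h hg e
    choose v hv ev using fun i => (h.d hU i).ext hU hc
    rw [Nat.cast_succ, contDiffOn_succ_iff_hasFDerivWithinAt (by simp)]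
    intro x hx
    refine ⟨closure U, by rw [insert_eq_of_mem hx]; exact self_mem_nhdsWithin, by simp,
      fun y => Ext.cv fun i => v i y, fun y _ => h.has hU hc hg e hv ev y, ?_⟩
    exact ContDiffOn.sum fun i _ => (ih _ _ (h.d hU i) (hv i) (ev i)).smul contDiffOn_const

end ManExt

theorem e_ext (hext : S_ext) : E_ext := by
  intro n _ f r r' hr h1 h2
  have hU : IsOpen (Up n r) := isOpen_ball.inter (isOpen_lt continuous_const Ext.c0)
  have hc : Convex ℝ (Up n r) := (convex_ball _ _).inter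
    ((convex_Ioi (0 : ℝ)).linear_preimage (EuclideanSpace.proj (𝕜 := ℝ) (0 : Fin n)).toLinearMap)
  have h : ManExt.Cl (Up n r) f := ⟨h1, h2⟩
  obtain ⟨g, hg, e⟩ := h.ext hU hc
  have hs : ball (0 : En n) r ∩ {x | 0 ≤ x 0} ⊆ closure (Up n r) := by
    intro x hx
    refine isOpen_ball.inter_closure ⟨hx.1, ?_⟩
    have := Ext.cl0 (n := n) (Ioi 0)
    rw [closure_Ioi] at this
    exact this.ge hx.2
  obtain ⟨g', k1, k2⟩ := hext n g 0 r r' hr
    ((contDiffOn_infty.2 fun m => ManExt.smooth hU hc m f g h hg e).mono hs)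
  refine ⟨g', k1, fun x hx => ?_⟩
  rw [k2 ⟨hx.1, le_of_lt (show 0 < x 0 from hx.2)⟩, e ⟨ball_subset_ball hr.le hx.1, hx.2⟩]

end Vale.Agent.P088
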