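import Vale.Agent.P088.ManE

/-!
# P088, manifold part: gluing and extension of pairs of a metric and a connection
-/

open MeasureTheory Set Metric Filter
open scoped ContDiff Topology Manifold

noncomputable section
namespace Vale.Agent.P088
open Vale.Agent.P136

namespace ManGA
variable {n : ℕ}

theorem exists_cut {K U : Set (En n)} (hK : IsCompact K) (hU : IsOpen U) (h : K ⊆ U) :
    ∃ θ : En n → ℝ, IsTest U θ ∧ (∀ y, 0 ≤ θ y ∧ θ y ≤ 1) ∧ ∀ y ∈ K, θ y = 1 := by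
  obtain ⟨K', g1, g2, g3⟩ := exists_compact_between hK hU h
  obtain ⟨θ, t1, t2, t3, t4⟩ := exists_contMDiff_support_eq_eq_one_iff (n := ⊤) 𝓘(ℝ, En n)
    isOpen_interior hK.isClosed g2
  have hs : tsupport θ ⊆ K' := by
    rw [tsupport, t3]
    exact closure_minimal interior_subset g1.isClosed
  exact ⟨θ, ⟨⟨t1.contDiff, g1.of_isClosed_subset (isClosed_tsupport _) hs⟩, hs.trans g3⟩,
    fun y => t2 (mem_range_self y), fun y hy => (t4 y).1 hy⟩

theorem Ds_neg (l : List (Fin n)) (f : En n → ℝ) :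
    Ds ee l (fun z => -f z) = fun z => -Ds ee l f z := by
  induction l with
  | nil => rfl
  | cons i l ih =>
    funext z
    change D (ee i) (Ds ee l fun z => -f z) z = -D (ee i) (Ds ee l f) z
    rw [ih, D_neg]

theorem quad (t : ℝ) (a b : Fin n → Fin n → ℝ) (ξ : Fin n → ℝ) :
    ∑ i, ∑ j, (a i j + t * (b i j - a i j)) * ξ i * ξ j =
      (1 - t) * ∑ i, ∑ j, a i j * ξ i * ξ j + t * ∑ i, ∑ j, b i j * ξ i * ξ j := by
  simp only [Finset.mul_sum, ← Finset.sum_add_distrib]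
  refine Finset.sum_congr rfl fun i _ => Finset.sum_congr rfl fun j _ => ?_
  ring

theorem cvx {t p q : ℝ} (ht : 0 ≤ t ∧ t ≤ 1) (hp : 0 < p) (hq : t ≠ 0 → 0 < q) :
    0 < (1 - t) * p + t * q := by
  rcases ht.1.eq_or_lt with h | h
  · rw [← h]; simpa using hp
  · have := mul_pos h (hq h.ne')
    have := mul_nonneg (sub_nonneg.2 ht.2) hp.le
    linarith

theorem quad_one {ξ : Fin n → ℝ} (h : ξ ≠ 0) :
    0 < ∑ i, ∑ j, (if i = j then (1 : ℝ) else 0) * ξ i * ξ j := by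
  obtain ⟨i, hi⟩ := Function.ne_iff.1 h
  simp only [ite_mul, one_mul, zero_mul, Finset.sum_ite_eq, Finset.mem_univ, if_true]
  exact Finset.sum_pos' (fun i _ => mul_self_nonneg _) ⟨i, Finset.mem_univ _, mul_self_pos.2 hi⟩

theorem quad_sym (a : Fin n → Fin n → ℝ) (ξ : Fin n → ℝ) :
    ∑ i, ∑ j, (a i j + a j i) / 2 * ξ i * ξ j = ∑ i, ∑ j, a i j * ξ i * ξ j := by
  have h : ∑ i, ∑ j, a j i * ξ i * ξ j = ∑ i, ∑ j, a i j * ξ i * ξ j := by
    rw [Finset.sum_comm]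
    exact Finset.sum_congr rfl fun i _ => Finset.sum_congr rfl fun j _ => by ring
  calc _ = (∑ i, ∑ j, a i j * ξ i * ξ j + ∑ i, ∑ j, a j i * ξ i * ξ j) / 2 := by
        simp only [Finset.sum_div, ← Finset.sum_add_distrib]
        exact Finset.sum_congr rfl fun i _ => Finset.sum_congr rfl fun j _ => by ring
    _ = _ := by rw [h]; ring

theorem pos_nhds {g : MatF n} {x : En n} (hg : ∀ i j, ContinuousAt (g i j) x)
    (h : ∀ ξ : Fin n → ℝ, ξ ≠ 0 → 0 < ∑ i, ∑ j, g i j x * ξ i * ξ j) :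
    ∀ᶠ y in 𝓝 x, ∀ ξ : Fin n → ℝ, ξ ≠ 0 → 0 < ∑ i, ∑ j, g i j y * ξ i * ξ j := by
  have h1 := (isCompact_sphere (0 : Fin n → ℝ) 1).eventually_forall_of_forall_eventually (x₀ := x)
    (P := fun y ξ => 0 < ∑ i, ∑ j, g i j y * ξ i * ξ j) fun ξ hξ => by
      have hc : ContinuousAt (fun z : En n × (Fin n → ℝ) => ∑ i, ∑ j, g i j z.1 * z.2 i * z.2 j)
          (x, ξ) := by
        have : ∀ i j, ContinuousAt (fun z : En n × (Fin n → ℝ) => g i j z.1) (x, ξ) :=
          fun i j => (hg i j).comp_of_eq continuousAt_fst rfl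
        fun_prop
      refine hc.eventually (lt_mem_nhds (h ξ ?_))
      rintro rfl
      simp at hξ
  filter_upwards [h1] with y hy ξ hξ
  have h2 : 0 < ‖ξ‖ := norm_pos_iff.2 hξ
  have h3 := mul_pos (mul_pos h2 h2) (hy (‖ξ‖⁻¹ • ξ) (by simp [norm_smul, h2.ne']))
  refine h3.trans_eq ?_
  simp only [Finset.mul_sum, Pi.smul_apply, smul_eq_mul]
  refine Finset.sum_congr rfl fun i _ => Finset.sum_congr rfl fun j _ => ?_
  field_simp

end ManGA

open ManGA in
theorem e_gluega (hgl : S_glue) : E_gluega := by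
  intro n _ ι _ _ g g₂ A A₂ r r' h₁ h₂ hr hj
  obtain ⟨χ, ⟨hχ, hs⟩, h01, h1⟩ := exists_cut (isCompact_closedBall (0 : En n) r') isOpen_ball
    (closedBall_subset_ball hr)
  let G : (En n → ℝ) → (En n → ℝ) → En n → ℝ := fun f f₂ y =>
    f₂ y + χ y * ((if 0 ≤ y 0 then f₂ y else f y) - f₂ y)
  have hG : ∀ f f₂, Sm f → Sm f₂ → (∀ y ∈ ball (0 : En n) r, y 0 = 0 → ∀ l : List (Fin n),
      Ds ee l (fun z => f z - f₂ z) y = 0) → Sm (G f f₂) := fun f f₂ hf hf₂ h => by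
    refine hf₂.add (Tst.mul_on isOpen_ball hχ hs ((hgl n f₂ f _ isOpen_ball hf₂.contDiffOn
      hf.contDiffOn fun y hy h0 l => ?_).sub hf₂.contDiffOn)).sm
    have := congrFun (Ds_neg l fun z => f z - f₂ z) y
    simpa [h y hy h0 l] using this
  refine ⟨fun i j => G (g i j) (g₂ i j), fun i a a' => G (A i a a') (A₂ i a a'),
    ⟨fun i j => hG _ _ (h₁.1 i j) (h₂.1 i j) fun y hy h0 l => (hj y hy h0 l).1 i j,
      fun i j => by simp only [h₁.2.1 i j, h₂.2.1 i j], fun x ξ hξ => ?_,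
      fun i a a' => hG _ _ (h₁.2.2.2.1 i a a') (h₂.2.2.2.1 i a a') fun y hy h0 l =>
        (hj y hy h0 l).2 i a a', fun i a a' x => ?_⟩, fun y hy => ?_, fun y hy => ?_⟩
  · simp only [G]
    rw [quad]
    refine cvx (h01 x) (h₂.2.2.1 x ξ hξ) fun _ => ?_
    split_ifs
    exacts [h₂.2.2.1 x ξ hξ, h₁.2.2.1 x ξ hξ]
  · simp only [G, h₁.2.2.2.2 i a a' x, h₂.2.2.2.2 i a a' x]
    split_ifs <;> ring
  · have h0 : 0 ≤ y 0 := hy.2
    simp [G, h0]
  · have h0 : ¬0 ≤ y 0 := not_le.2 hy.2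
    simp [G, h0, h1 y (ball_subset_closedBall hy.1)]

open ManGA in
theorem e_gaext : E_gaext := by
  intro n ι _ _ g A K U hK hU hKU hg hA h
  let P : Set (En n) := {y | ∀ ξ : Fin n → ℝ, ξ ≠ 0 → 0 < ∑ i, ∑ j, g i j y * ξ i * ξ j}
  have hP : K ⊆ U ∩ interior P := fun x hx => ⟨hKU hx, mem_interior_iff_mem_nhds.2
    (pos_nhds (fun i j => (hg i j).continuousOn.continuousAt (hU.mem_nhds (hKU hx)))
      (h x hx).2.1)⟩
  obtain ⟨χ, ⟨hχ, hs⟩, h01, h1⟩ := exists_cut hK (hU.inter isOpen_interior) hP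
  have hs' := hs.trans inter_subset_left
  refine ⟨fun i j x => (if i = j then 1 else 0) +
      χ x * ((g i j x + g j i x) / 2 - if i = j then 1 else 0),
    fun i a a' x => χ x * ((A i a a' x - A i a' a x) / 2),
    ⟨fun i j => (Sm.const _).add (Tst.mul_on hU hχ hs'
        ((((hg i j).add (hg j i)).div_const 2).sub contDiffOn_const)).sm,
      fun i j => funext fun x => by simp only [add_comm (g i j x), @eq_comm _ i j],
      fun x ξ hξ => ?_, fun i a a' => (Tst.mul_on hU hχ hs'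
        (((hA i a a').sub (hA i a' a)).div_const 2)).sm, fun i a a' x => by ring⟩,
    fun x hx => ⟨fun i j => ?_, fun i a a' => ?_⟩⟩
  · rw [quad (χ x) (fun i j => if i = j then 1 else 0) fun i j => (g i j x + g j i x) / 2,
      quad_sym fun i j => g i j x]
    exact cvx (h01 x) (quad_one hξ) fun h0 =>
      interior_subset (hs (subset_tsupport _ h0)).2 ξ hξ
  · simp only [h1 x hx, (h x hx).1 j i]
    ring
  · simp only [h1 x hx, (h x hx).2.2 i a' a]
    ring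

end Vale.Agent.P088
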