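import Vale.Agent.P088.ManE

/-!
# P088, manifold part: Hardy's inequality in the half ball
-/

open MeasureTheory Set Metric
open scoped ContDiff Topology InnerProductSpace

noncomputable section
namespace Vale.Agent.P088
open Vale.Agent.P136 (D Sm Tst)

namespace ManHardy

lemma cs {X ι : Type} [MeasurableSpace X] [Fintype ι] {μ : Measure X} {f w : ι → X → ℝ}
    (hf : ∀ a, MemLp (f a) 2 μ) (hw : ∀ a, MemLp (w a) 2 μ) :
    (∑ a, ∫ y, f a y * w a y ∂μ) ^ 2 ≤ (∑ a, ∫ y, f a y ^ 2 ∂μ) * ∑ a, ∫ y, w a y ^ 2 ∂μ := by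
  have h1 : ∀ s : ℝ, 0 ≤ (∑ a, ∫ y, f a y ^ 2 ∂μ) * (s * s) +
      (2 * ∑ a, ∫ y, f a y * w a y ∂μ) * s + ∑ a, ∫ y, w a y ^ 2 ∂μ := fun s => by
    rw [Finset.sum_mul, Finset.mul_sum, Finset.sum_mul, ← Finset.sum_add_distrib,
      ← Finset.sum_add_distrib]
    refine Finset.sum_nonneg fun a _ => ?_
    have i1 := (hf a).integrable_sq
    have i2 := (hw a).integrable_sq
    have i3 : Integrable (fun y => f a y * w a y) μ := (hf a).integrable_mul (hw a)
    have i4 := (i1.mul_const (s * s))
    have i5 := ((i3.const_mul 2).mul_const s)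
    have i6 : Integrable (fun y => f a y ^ 2 * (s * s) + 2 * (f a y * w a y) * s) μ := i4.add i5
    rw [← integral_mul_const, ← integral_const_mul, ← integral_mul_const, ← integral_add i4 i5,
      ← integral_add i6 i2]
    exact integral_nonneg fun y => by
      simp only [Pi.zero_apply]
      nlinarith [sq_nonneg (f a y * s + w a y)]
  have h2 := discrim_le_zero h1
  unfold discrim at h2
  nlinarith

lemma proj_le {n : ℕ} [NeZero n] (y : En n) : ‖y - y 0 • ee 0‖ ≤ ‖y‖ := by
  rw [EuclideanSpace.norm_eq, EuclideanSpace.norm_eq]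
  refine Real.sqrt_le_sqrt (Finset.sum_le_sum fun i _ => ?_)
  by_cases hi : i = 0
  · subst hi; simp [ee, sq_nonneg]
  · simp [ee, hi]

end ManHardy
open ManHardy

theorem e_hardy (h0 : E_eden) (hk : E_kato) (ht : E_ts) : E_hardy := by
  intro n _ ι _ _ g A r hG
  obtain ⟨C, hC, hK⟩ := hk n ι g A r hG
  obtain ⟨-, -, -, hp, -, hs, -⟩ := h0 n ι g A hG
  refine ⟨4 * C ^ 2, by positivity, fun v k hv hz hL => ?_⟩
  have hU : MeasurableSet (Up n r) :=
    (isOpen_ball.inter (isOpen_lt continuous_const (by fun_prop))).measurableSet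
  have he : Continuous fun y => √(eden g A v v y) := (hs v v hv hv).continuous.sqrt
  set av : En n → ℝ := fun y => ∫ t in (0 : ℝ)..1, √(eden g A v v (y - (t * y 0) • ee 0))
    with hav
  have hac : Continuous av :=
    intervalIntegral.continuous_parametric_intervalIntegral_of_continuous'
      (f := fun (y : En n) (t : ℝ) => √(eden g A v v (y - (t * y 0) • ee 0)))
      (he.comp (f := fun p : En n × ℝ => p.1 - (p.2 * p.1 0) • ee 0) (by fun_prop)) 0 1
  have hpt : ∀ y ∈ Up n r, ∑ a, (v a y / y 0) ^ 2 ≤ C ^ 2 * av y ^ 2 := fun y hy => by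
    have hy0 : 0 < y 0 := hy.2
    have hx : y - y 0 • ee 0 ∈ ball (0 : En n) r :=
      mem_ball_zero_iff.2 ((proj_le y).trans_lt (mem_ball_zero_iff.1 hy.1))
    have h1 := hK v hv _ (ball_subset_closedBall hx) y (ball_subset_closedBall hy.1)
    have h2 : ∀ t : ℝ, y - y 0 • ee 0 + t • (y 0 • ee 0) = y - ((1 - t) * y 0) • ee 0 :=
      fun t => by module
    have h3 : ‖y 0 • (ee 0 : En n)‖ = y 0 := by simp [ee, norm_smul, abs_of_pos hy0]
    simp only [hz _ hx (by simp [ee]), sub_sub_cancel, h2, h3] at h1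
    rw [intervalIntegral.integral_comp_sub_left
      (fun t => √(eden g A v v (y - (t * y 0) • ee 0))) 1, sub_self, sub_zero] at h1
    simp only [ne_eq, OfNat.ofNat_ne_zero, not_false_eq_true, zero_pow, Finset.sum_const_zero,
      Real.sqrt_zero, zero_add] at h1
    have h4 := pow_le_pow_left₀ (Real.sqrt_nonneg _) h1 2
    rw [Real.sq_sqrt (Finset.sum_nonneg fun a _ => sq_nonneg _)] at h4
    simp only [div_pow]
    rw [← Finset.sum_div, div_le_iff₀ (by positivity)]
    exact h4.trans (le_of_eq (by simp only [hav]; ring))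
  have hi : IntegrableOn (fun y => av y ^ 2) (Up n r) :=
    ((hac.pow 2).continuousOn.integrableOn_compact (isCompact_closedBall 0 r)).mono_set
      (inter_subset_left.trans ball_subset_closedBall)
  have m0 : Measurable fun y : En n => y 0 := by fun_prop
  have hw : ∀ a, MemLp (fun y => v a y / y 0) 2 (volume.restrict (Up n r)) := fun a => by
    have hm : Measurable fun y => v a y / y 0 := (hv a).continuous.measurable.div m0
    refine (memLp_two_iff_integrable_sq hm.aestronglyMeasurable).2 ((hi.const_mul (C ^ 2)).mono'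
      (hm.pow_const 2).aestronglyMeasurable ((ae_restrict_iff' hU).2 (.of_forall fun y hy => ?_)))
    rw [Real.norm_of_nonneg (sq_nonneg _)]
    exact (Finset.single_le_sum (f := fun a => (v a y / y 0) ^ 2) (fun _ _ => sq_nonneg _)
      (Finset.mem_univ a)).trans (hpt y hy)
  have hf : ∀ a, MemLp (fun y => y 0 * k a y) 2 (volume.restrict (Up n r)) := fun a => by
    refine (hL a).of_le_mul (c := r) (m0.aestronglyMeasurable.mul (hL a).1)
      ((ae_restrict_iff' hU).2 (.of_forall fun y hy => ?_))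
    rw [norm_mul]
    exact mul_le_mul_of_nonneg_right ((PiLp.norm_apply_le y 0).trans
      (mem_ball_zero_iff.1 hy.1).le) (norm_nonneg _)
  have h1 := cs hf hw
  have h2 : ∀ a, ∫ y in Up n r, y 0 * k a y * (v a y / y 0) = ∫ y in Up n r, k a y * v a y :=
    fun a => setIntegral_congr_fun hU fun y hy => by
      have hy0 : 0 < y 0 := hy.2
      field_simp
  have h3 : ∑ a, ∫ y in Up n r, (v a y / y 0) ^ 2 ≤ 4 * C ^ 2 * enU (Up n r) g A v := by
    rw [← integral_finsetSum _ fun a _ => (hw a).integrable_sq]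
    refine (setIntegral_mono_on (integrable_finsetSum _ fun a _ => (hw a).integrable_sq)
      (hi.const_mul (C ^ 2)) hU hpt).trans ?_
    have h4 := ht n r _ _ (Or.inl rfl) he
    simp only [Real.sq_sqrt (hp _ _)] at h4
    rw [integral_const_mul, mul_comm 4, mul_assoc]
    exact mul_le_mul_of_nonneg_left h4 (sq_nonneg _)
  simp only [h2] at h1
  refine h1.trans ((mul_le_mul_of_nonneg_left h3 (Finset.sum_nonneg fun a _ =>
    integral_nonneg fun y => sq_nonneg _)).trans (le_of_eq (by ring)))

end Vale.Agent.P088
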