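import Vale.Agent.P088.ManE

/-!
# P088: completion of a semidefinite form
-/

open Set
open scoped Topology InnerProductSpace

noncomputable section
namespace Vale.Agent.P088
namespace ManHilb

lemma exists_H (V : Type) [AddCommGroup V] [Module ℝ V] (B : V →ₗ[ℝ] V →ₗ[ℝ] ℝ)
    (hs : ∀ v w, B v w = B w v) (hp : ∀ v, 0 ≤ B v v) :
    ∃ (H : Type) (_ : NormedAddCommGroup H) (_ : InnerProductSpace ℝ H) (_ : CompleteSpace H)
      (i : V →ₗ[ℝ] H), DenseRange i ∧ ∀ v w, ⟪i v, i w⟫_ℝ = B v w := by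
  let c : PreInnerProductSpace.Core ℝ V :=
    { inner := fun v w => B v w
      conj_inner_symm := fun v w => by simpa using hs w v
      re_inner_nonneg := fun v => by simpa using hp v
      add_left := fun u v w => by simp
      smul_left := fun u v r => by simp }
  letI : SeminormedAddCommGroup V := InnerProductSpace.Core.toSeminormedAddCommGroup (c := c)
  letI : InnerProductSpace ℝ V := InnerProductSpace.ofCore c
  refine ⟨UniformSpace.Completion V, inferInstance, inferInstance, inferInstance,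
    (UniformSpace.Completion.toComplL : V →L[ℝ] UniformSpace.Completion V).toLinearMap,
    UniformSpace.Completion.denseRange_coe, fun v w => ?_⟩
  exact UniformSpace.Completion.inner_coe (𝕜 := ℝ) v w

lemma bound {a b c : ℝ} (hb : 0 ≤ b) (h : a ^ 2 ≤ c * b ^ 2) : a ≤ √|c| * b := by
  refine le_trans (le_abs_self a) (abs_le_of_sq_le_sq ?_ (by positivity))
  rw [mul_pow, Real.sq_sqrt (abs_nonneg c)]
  exact h.trans (mul_le_mul_of_nonneg_right (le_abs_self c) (sq_nonneg b))

end ManHilb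

theorem a_hilb : A_hilb := by
  intro V X _ _ _ _ _ B j C hs hp hj
  obtain ⟨H, i1, i2, i3, i, hd, hi⟩ := ManHilb.exists_H V B hs hp
  have hn : ∀ v, B v v = ‖i v‖ ^ 2 := fun v => by rw [← hi, real_inner_self_eq_norm_sq]
  have hJ : ∀ v, j.extendOfNorm i (i v) = j v :=
    LinearMap.extendOfNorm_eq hd ⟨√|C|, fun v => ManHilb.bound (norm_nonneg _) (hn v ▸ hj v)⟩
  refine ⟨H, i1, i2, i, j.extendOfNorm i, ContinuousLinearMap.adjoint (j.extendOfNorm i), hi, hJ,
    fun u K => (ContinuousLinearMap.adjoint_inner_right _ _ _).symm, fun u u' h => ?_,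
    fun u => ⟨?_, fun a ha => ?_⟩, fun u a ha h => ?_, fun l c hl => ?_⟩
  · refine ext_inner_right ℝ fun x => ?_
    exact hd.induction_on (p := fun x => ⟪u, x⟫_ℝ = ⟪u', x⟫_ℝ) x
      (isClosed_eq (by fun_prop) (by fun_prop)) h
  · rintro _ ⟨v, rfl⟩
    have := norm_sub_sq_real u (i v)
    show 2 * ⟪u, i v⟫_ℝ - B v v ≤ ‖u‖ ^ 2
    rw [hn]
    nlinarith [sq_nonneg ‖u - i v‖]
  · have := hd.induction_on (p := fun x => 2 * ⟪u, x⟫_ℝ - ‖x‖ ^ 2 ≤ a) u
      (isClosed_le (by fun_prop) continuous_const) fun v => by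
        rw [← hn]; exact ha ⟨v, rfl⟩
    rw [real_inner_self_eq_norm_sq] at this
    linarith
  · have := hd.induction_on (p := fun x => ⟪u, x⟫_ℝ ^ 2 ≤ a * ‖x‖ ^ 2) u
      (isClosed_le (by fun_prop) (by fun_prop)) fun v => by rw [← hn]; exact h v
    rw [real_inner_self_eq_norm_sq] at this
    by_contra hc
    have h1 : 0 < ‖u‖ ^ 2 := lt_of_le_of_lt ha (not_le.1 hc)
    nlinarith
  · have hL : ∀ v, l.extendOfNorm i (i v) = l v :=
      LinearMap.extendOfNorm_eq hd ⟨√|c|, fun v => ManHilb.bound (norm_nonneg _) (by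
        rw [Real.norm_eq_abs, sq_abs, ← hn]; exact hl v)⟩
    refine ⟨(InnerProductSpace.toDual ℝ H).symm (l.extendOfNorm i), fun v => ?_⟩
    rw [InnerProductSpace.toDual_symm_apply, hL]

end Vale.Agent.P088
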