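import Vale.Agent.P088.ManE
import Vale.Agent.P088.IsoInter

/-!
# P088: integration by parts against test fields
-/

open MeasureTheory Set Metric Filter
open scoped ContDiff Topology

noncomputable section
namespace Vale.Agent.P088
open Vale.Agent.P136 (D Sm Tst D_mul_at tsupport_D integral_D)

namespace ManIbp1

variable {n : ℕ} {ι : Type} [Fintype ι] {V : Set (En n)}

theorem t_add {f g : En n → ℝ} (hf : IsTest V f) (hg : IsTest V g) :
    IsTest V fun x => f x + g x := by
  refine ⟨hf.1.add hg.1, Subset.trans ?_ (union_subset hf.2 hg.2)⟩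
  refine closure_minimal (fun x hx => ?_) ((isClosed_tsupport f).union (isClosed_tsupport g))
  by_contra h
  rw [mem_union, not_or] at h
  exact hx (by simp [image_eq_zero_of_notMem_tsupport h.1, image_eq_zero_of_notMem_tsupport h.2])

theorem t_sum {κ : Type} (s : Finset κ) {f : κ → En n → ℝ} (hf : ∀ i, IsTest V (f i)) :
    IsTest V fun x => ∑ i ∈ s, f i x := by
  classical
  induction s using Finset.induction_on with
  | empty =>
    simp only [Finset.sum_empty]
    exact ⟨Tst.zero, by simp [tsupport]⟩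
  | insert a s ha ih =>
    simp only [Finset.sum_insert ha]
    exact t_add (hf a) ih

theorem t_mul {m f : En n → ℝ} (hm : Sm m) (hf : IsTest V f) : IsTest V fun x => m x * f x :=
  ⟨hf.1.mul_left hm, tsupport_mul_subset_right.trans hf.2⟩

theorem t_D {f : En n → ℝ} (hf : IsTest V f) (v : En n) : IsTest V (D v f) :=
  ⟨hf.1.D v, (tsupport_D f v).trans hf.2⟩

theorem t_on {f w : En n → ℝ} (hV : IsOpen V) (hf : IsTest V f) (hw : ContDiffOn ℝ ∞ w V) :
    IsTest V fun x => f x * w x :=
  ⟨Tst.mul_on hV hf.1 hf.2 hw, tsupport_mul_subset_left.trans hf.2⟩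

theorem t_cov {A : ConF n ι} (hA : ∀ i a a', Sm (A i a a')) {ψ : ι → En n → ℝ} (h : Tests V ψ)
    (i : Fin n) : Tests V (cov A i ψ) := fun a =>
  t_add (t_D (h a) _) (t_sum _ fun a' => t_mul (hA i a a') (h a'))

theorem t_int {f : En n → ℝ} (hf : IsTest V f) : Integrable f (volume.restrict V) :=
  (hf.1.integrable (μ := volume)).integrableOn

theorem int_D {f : En n → ℝ} (hf : IsTest V f) (v : En n) : ∫ x in V, D v f x = 0 := by
  rw [setIntegral_eq_integral_of_forall_compl_eq_zero, integral_D hf.1]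
  intro x hx
  exact image_eq_zero_of_notMem_tsupport fun h => hx ((t_D hf v).2 h)

theorem alg (γ : Fin n → Fin n → ℝ) (hγ : ∀ i j, γ i j = γ j i) (A : Fin n → ι → ι → ℝ)
    (hA : ∀ i a e, A i a e = -A i e a) (c dX dw : Fin n → ι → ℝ) (w : ι → ℝ) :
    ∑ i, ∑ j, γ i j * ∑ a, c i a * (dw j a + ∑ e, A j a e * w e) =
      ∑ i, ∑ a, ((∑ j, γ i j * c j a) * dw i a + dX i a * w a) -
        ∑ a, (∑ i, (dX i a + ∑ e, A i a e * ∑ j, γ i j * c j e)) * w a := by
  have e1 : ∑ i, ∑ j, γ i j * ∑ a, c i a * (dw j a + ∑ e, A j a e * w e) =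
      ∑ i, ∑ a, (∑ j, γ i j * c j a) * (dw i a + ∑ e, A i a e * w e) := by
    rw [Finset.sum_comm]
    refine Finset.sum_congr rfl fun i _ => ?_
    simp only [Finset.sum_mul]
    conv_rhs => rw [Finset.sum_comm]
    refine Finset.sum_congr rfl fun j _ => ?_
    rw [Finset.mul_sum]
    exact Finset.sum_congr rfl fun a _ => by rw [hγ j i, mul_assoc]
  have e2 : ∀ X : Fin n → ι → ℝ, ∑ a, (∑ i, (dX i a + ∑ e, A i a e * X i e)) * w a =
      ∑ i, (∑ a, dX i a * w a - ∑ a, X i a * ∑ e, A i a e * w e) := by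
    intro X
    simp only [Finset.sum_mul]
    rw [Finset.sum_comm]
    refine Finset.sum_congr rfl fun i _ => ?_
    simp only [add_mul, Finset.sum_add_distrib, Finset.sum_mul, Finset.mul_sum]
    rw [sub_eq_add_neg, Finset.sum_comm]
    congr 1
    simp only [← Finset.sum_neg_distrib]
    exact Finset.sum_congr rfl fun e _ => Finset.sum_congr rfl fun a _ => by rw [hA i a e]; ring
  rw [e1, e2, ← Finset.sum_sub_distrib]
  refine Finset.sum_congr rfl fun i _ => ?_
  simp only [mul_add, Finset.sum_add_distrib]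
  ring

end ManIbp1
open ManIbp1

theorem e_ibp1 (h0 : E_eden) : E_ibp1 := by
  intro n ι _ _ g A V ψ w hg hV hψ hw
  have hγ : SmM (gam g) := (h0 n ι g A hg).2.2.1
  have hX : ∀ i, Tests V fun e y => ∑ j, gam g i j y * cov A j ψ e y := fun i e =>
    t_sum _ fun j => t_mul (hγ i j) (t_cov hg.2.2.2.1 hψ j e)
  have happ : ∀ a, (cop g A).app ψ a =
      fun x => ∑ i, cov A i (fun e y => ∑ j, gam g i j y * cov A j ψ e y) a x := fun a =>
    funext fun x => IsoInter.app_cov hg (fun a => (hψ a).1.1.contDiffAt) a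
  have hT : ∀ a, IsTest V fun y => (cop g A).app ψ a y * w a y := by
    intro a
    refine t_on hV ?_ (hw a)
    rw [happ a]
    exact t_sum _ fun i => t_cov hg.2.2.2.1 (hX i) i a
  have hY : ∀ i a, IsTest V fun y => (∑ j, gam g i j y * cov A j ψ a y) * w a y := fun i a =>
    t_on hV (hX i a) (hw a)
  have hpt : ∀ x ∈ V, eden g A ψ w x =
      ∑ i, ∑ a, D (ee i) (fun y => (∑ j, gam g i j y * cov A j ψ a y) * w a y) x -
        ∑ a, (cop g A).app ψ a x * w a x := by
    intro x hx
    have e1 : ∀ i a, D (ee i) (fun y => (∑ j, gam g i j y * cov A j ψ a y) * w a y) x =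
        (∑ j, gam g i j x * cov A j ψ a x) * D (ee i) (w a) x +
          D (ee i) (fun y => ∑ j, gam g i j y * cov A j ψ a y) x * w a x := fun i a =>
      D_mul_at ((hX i a).1.sm.dAt x) (IsoInter.dA ((hw a).contDiffAt (hV.mem_nhds hx))) _
    simp only [e1, happ]
    exact alg (fun i j => gam g i j x) (fun i j => congrFun (IsoInter.gam_sym hg i j) x)
      (fun i a e => A i a e x) (fun i a e => hg.2.2.2.2 i a e x) (fun i a => cov A i ψ a x)
      (fun i a => D (ee i) (fun y => ∑ j, gam g i j y * cov A j ψ a y) x)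
      (fun i a => D (ee i) (w a) x) fun a => w a x
  rw [enB, setIntegral_congr_fun hV.measurableSet hpt,
    integral_sub (t_int (t_sum _ fun i => t_sum _ fun a => t_D (hY i a) _)) (t_int (t_sum _ hT)),
    integral_finsetSum _ fun i _ => t_int (t_sum _ fun a => t_D (hY i a) _),
    integral_finsetSum _ fun a _ => t_int (hT a)]
  have e2 : ∀ i, ∫ x in V,
      ∑ a, D (ee i) (fun y => (∑ j, gam g i j y * cov A j ψ a y) * w a y) x = 0 := by
    intro i
    rw [integral_finsetSum _ fun a _ => t_int (t_D (hY i a) _)]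
    exact Finset.sum_eq_zero fun a _ => int_D (hY i a) _
  simp only [e2, Finset.sum_const_zero, zero_sub]

end Vale.Agent.P088
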