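import Vale.Agent.P088.ManE
import Vale.Agent.P088.IsoInter

/-!
# P088: integration by parts in the upper half ball
-/

open MeasureTheory Set Metric Filter
open scoped ContDiff Topology

noncomputable section
namespace Vale.Agent.P088
open Vale.Agent.P136 (D Sm Tst D_mul_at D_sum_at D_eq_zero_of_notMem)

namespace ManIbp2

variable {n : ℕ} [NeZero n]

/-- The retraction onto the closed upper half space. -/
def ret (y : En n) : En n := y - (min (y 0) 0) • ee 0

lemma ret_pos {y : En n} (h : 0 ≤ y 0) : ret y = y := by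
  simp [ret, min_eq_right h]

lemma ret_neg {y : En n} (h : y 0 ≤ 0) : ret y 0 = 0 := by
  simp [ret, min_eq_left h, ee]

lemma ret_lip : ∃ K, LipschitzWith K (ret : En n → En n) := by
  have h1 := (EuclideanSpace.proj (0 : Fin n) : En n →L[ℝ] ℝ).lipschitz.min_const 0
  have h2 := ((ContinuousLinearMap.id ℝ ℝ).smulRight (ee 0 : En n)).lipschitz.comp h1
  exact ⟨_, LipschitzWith.id.sub h2⟩

lemma cont0 : Continuous fun y : En n => y 0 := by fun_prop

lemma plane_null : volume {y : En n | y 0 = 0} = 0 := by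
  have h := Measure.addHaar_submodule (volume : Measure (En n))
    (LinearMap.ker (EuclideanSpace.proj (0 : Fin n) : En n →L[ℝ] ℝ).toLinearMap) (by
      intro h
      have h1 : (ee 0 : En n) ∈ LinearMap.ker
          (EuclideanSpace.proj (0 : Fin n) : En n →L[ℝ] ℝ).toLinearMap := by
        rw [h]; trivial
      simp [ee] at h1)
  exact h

lemma key {Y : En n → ℝ} (hY : Tst Y) (h0 : ∀ y : En n, y 0 = 0 → Y y = 0) (v : En n) :
    ∫ y in {y : En n | 0 < y 0}, D v Y y = 0 := by
  obtain ⟨K, hK⟩ := ret_lip (n := n)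
  obtain ⟨C, hC⟩ := ContDiff.lipschitzWith_of_hasCompactSupport hY.2 hY.1 (by simp)
  have hZ := hC.comp hK
  have hc : HasCompactSupport (Y ∘ ret) := by
    refine hY.2.mono fun y hy => ?_
    rcases le_total (y 0) 0 with h | h
    · exact absurd (h0 _ (ret_neg h)) hy
    · have e : Y y = (Y ∘ ret) y := by simp [ret_pos h]
      exact fun h' => hy (e ▸ h')
  have h1 := (LipschitzWith.const (1 : ℝ)).integral_lineDeriv_mul_eq (μ := volume) hZ hc (-v)
  have h2 : ∀ x : En n, lineDeriv ℝ (fun _ : En n => (1 : ℝ)) x (-v) = 0 := fun x => by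
    simp [lineDeriv]
  simp only [h2, zero_mul, integral_zero, neg_neg, mul_one] at h1
  have ho : IsOpen {y : En n | 0 < y 0} := isOpen_lt continuous_const cont0
  rw [← integral_indicator ho.measurableSet]
  refine (integral_congr_ae ?_).trans h1.symm
  have hn : ∀ᵐ y : En n, y 0 ≠ 0 := by
    rw [ae_iff]
    simpa using plane_null (n := n)
  filter_upwards [hn] with y hy
  rcases lt_or_gt_of_ne hy with h | h
  · have e : (Y ∘ ret) =ᶠ[𝓝 y] fun _ => 0 := by
      filter_upwards [(isOpen_lt cont0 continuous_const).mem_nhds h] with z hz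
      exact h0 _ (ret_neg (le_of_lt hz))
    rw [e.lineDeriv_eq, indicator_of_notMem (by simpa using h.le)]
    simp [lineDeriv]
  · have e : (Y ∘ ret) =ᶠ[𝓝 y] Y := by
      filter_upwards [ho.mem_nhds h] with z hz
      simp [ret_pos (le_of_lt hz)]
    rw [e.lineDeriv_eq, indicator_of_mem (show y ∈ {y : En n | 0 < y 0} from h),
      (hY.sm.dAt y).lineDeriv_eq_fderiv]
    rfl

lemma key2 {Y : En n → ℝ} {r : ℝ} (hY : Tst Y) (hs : ∀ y, y ∉ ball (0 : En n) r → y ∉ tsupport Y)
    (h0 : ∀ y : En n, y 0 = 0 → Y y = 0) (v : En n) : ∫ y in Up n r, D v Y y = 0 := by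
  have ho : IsOpen {y : En n | 0 < y 0} := isOpen_lt continuous_const cont0
  rw [← key hY h0 v]
  symm
  refine setIntegral_eq_of_subset_of_forall_sdiff_eq_zero ho.measurableSet inter_subset_right ?_
  intro y hy
  exact D_eq_zero_of_notMem (hs y fun hb => hy.2 ⟨hb, hy.1⟩) v

variable {ι : Type} [Fintype ι] [DecidableEq ι]

omit [NeZero n] [DecidableEq ι] in
lemma cov_tst {g : MatF n} {A : ConF n ι} (h : GA g A) {ψ : ι → En n → ℝ} (hψ : ∀ a, Tst (ψ a))
    (i : Fin n) (a : ι) : Tst (cov A i ψ a) :=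
  ((hψ a).D _).add (Tst.sum _ fun a' _ => Tst.mul_left (h.2.2.2.1 i a a') (hψ a'))

omit [NeZero n] [DecidableEq ι] in
lemma cov_sm {g : MatF n} {A : ConF n ι} (h : GA g A) {ψ : ι → En n → ℝ} (hψ : SmV ψ)
    (i : Fin n) (a : ι) : Sm (cov A i ψ a) :=
  ((hψ a).D _).add (Sm.sum fun a' _ => Sm.mul (h.2.2.2.1 i a a') (hψ a'))

omit [NeZero n] [DecidableEq ι] in
lemma alg (X w dX dw : ι → ℝ) (B : ι → ι → ℝ) (hB : ∀ a e, B a e = -B e a) :
    ∑ a, (X a * dw a + dX a * w a) =
      ∑ a, (dX a + ∑ e, B a e * X e) * w a + ∑ a, X a * (dw a + ∑ e, B a e * w e) := by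
  have e : ∑ a, (∑ e, B a e * X e) * w a = -∑ a, X a * ∑ e, B a e * w e := by
    simp only [Finset.sum_mul, Finset.mul_sum, ← Finset.sum_neg_distrib]
    rw [Finset.sum_comm]
    refine Finset.sum_congr rfl fun a _ => Finset.sum_congr rfl fun e _ => ?_
    rw [hB e a]; ring
  simp only [add_mul, mul_add, Finset.sum_add_distrib, e]
  ring

omit [NeZero n] in
lemma pointwise {g : MatF n} {A : ConF n ι} (h : GA g A) {ψ w : ι → En n → ℝ} (hψ : SmV ψ)
    (hw : SmV w) (x : En n) :
    ∑ i, D (ee i) (fun y => ∑ a, (∑ j, gam g i j y * cov A j ψ a y) * w a y) x =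
      ∑ a, (cop g A).app ψ a x * w a x + eden g A ψ w x := by
  have hX : ∀ i a, Sm fun y => ∑ j, gam g i j y * cov A j ψ a y := fun i a =>
    Sm.sum fun j _ => Sm.mul (IsoInter.gam_sm h i j) (cov_sm h hψ j a)
  have e1 : ∀ i, D (ee i) (fun y => ∑ a, (∑ j, gam g i j y * cov A j ψ a y) * w a y) x =
      ∑ a, cov A i (fun e y => ∑ j, gam g i j y * cov A j ψ e y) a x * w a x +
        ∑ a, (∑ j, gam g i j x * cov A j ψ a x) * cov A i w a x := by
    intro i
    rw [D_sum_at _ fun a _ => ((hX i a).mul (hw a)).dAt x]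
    rw [Finset.sum_congr rfl fun a _ => D_mul_at ((hX i a).dAt x) ((hw a).dAt x) (ee i)]
    exact alg (fun a => ∑ j, gam g i j x * cov A j ψ a x) (fun a => w a x)
      (fun a => D (ee i) (fun y => ∑ j, gam g i j y * cov A j ψ a y) x)
      (fun a => D (ee i) (w a) x) (fun a e => A i a e x) fun a e => h.2.2.2.2 i a e x
  simp only [e1, Finset.sum_add_distrib]
  congr 1
  · rw [Finset.sum_comm]
    refine Finset.sum_congr rfl fun a _ => ?_
    rw [IsoInter.app_cov h (fun a => (hψ a).contDiffAt) a, Finset.sum_mul]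
  · unfold eden
    rw [Finset.sum_comm (f := fun i j => gam g i j x * ∑ a, cov A i ψ a x * cov A j w a x)]
    refine Finset.sum_congr rfl fun i _ => ?_
    simp only [Finset.sum_mul, Finset.mul_sum]
    rw [Finset.sum_comm]
    refine Finset.sum_congr rfl fun j _ => Finset.sum_congr rfl fun a _ => ?_
    rw [congrFun (IsoInter.gam_sym h i j) x]
    ring

end ManIbp2

open ManIbp2 in
theorem e_ibp2 (h0 : E_eden) : E_ibp2 := by
  intro n _ ι _ _ g A r ψ w h hψ hw hz
  have hψt : ∀ a, Tst (ψ a) := fun a => (hψ a).1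
  have hψs : SmV ψ := fun a => (hψt a).1
  have hX : ∀ i a, Tst fun y => ∑ j, gam g i j y * cov A j ψ a y := fun i a =>
    Tst.sum _ fun j _ => Tst.mul_left (IsoInter.gam_sm h i j) (cov_tst h hψt j a)
  have hY : ∀ i, Tst fun y => ∑ a, (∑ j, gam g i j y * cov A j ψ a y) * w a y := fun i =>
    Tst.sum _ fun a _ => (hX i a).mul_right (hw a)
  have hK : IsClosed (⋃ a, tsupport (ψ a)) := isClosed_iUnion_of_finite fun a => isClosed_tsupport _
  have hc : ∀ j a y, y ∉ (⋃ a, tsupport (ψ a)) → cov A j ψ a y = 0 := by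
    intro j a y hy
    simp only [mem_iUnion, not_exists] at hy
    simp only [cov, D_eq_zero_of_notMem (hy a), image_eq_zero_of_notMem_tsupport (hy _), mul_zero,
      Finset.sum_const_zero, add_zero]
  have hb : ∀ y, y ∉ ball (0 : En n) r → y ∉ ⋃ a, tsupport (ψ a) := by
    intro y hy h'
    obtain ⟨a, ha⟩ := mem_iUnion.1 h'
    exact hy ((hψ a).2 ha)
  have hi : ∀ i, ∫ y in Up n r,
      D (ee i) (fun y => ∑ a, (∑ j, gam g i j y * cov A j ψ a y) * w a y) y = 0 := by
    intro i
    refine key2 (hY i) (fun y hy h' => hb y hy ?_) (fun y hy => ?_) _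
    · refine closure_minimal (fun z hz => ?_) hK h'
      by_contra hn
      exact hz (by simp [hc _ _ z hn])
    · by_cases hy' : y ∈ ball (0 : En n) r
      · simp [hz y hy' hy]
      · simp [hc _ _ y (hb y hy')]
  have hA : ∀ a, Tst fun y => (cop g A).app ψ a y * w a y := by
    intro a
    have e : (cop g A).app ψ a = fun y =>
        ∑ i, cov A i (fun e y => ∑ j, gam g i j y * cov A j ψ e y) a y :=
      funext fun y => IsoInter.app_cov h (fun a => (hψs a).contDiffAt) a
    rw [e]
    exact Tst.mul_right (Tst.sum _ fun i _ => cov_tst h (hX i) i a) (hw a)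
  have hE : Tst (eden g A ψ w) :=
    Tst.sum _ fun i _ => Tst.sum _ fun j _ => Tst.mul_left (IsoInter.gam_sm h i j)
      (Tst.sum _ fun a _ => (cov_tst h hψt i a).mul_right (cov_sm h hw j a))
  have hs : ∫ y in Up n r, ∑ i,
      D (ee i) (fun y => ∑ a, (∑ j, gam g i j y * cov A j ψ a y) * w a y) y = 0 := by
    rw [integral_finsetSum _ fun i _ => ((hY i).D _).integrable.integrableOn]
    simp [hi]
  simp only [pointwise h hψs hw] at hs
  rw [integral_add (Tst.sum _ fun a _ => hA a).integrable.integrableOn hE.integrable.integrableOn,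
    integral_finsetSum _ fun a _ => (hA a).integrable.integrableOn] at hs
  unfold enB
  linarith

end Vale.Agent.P088
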