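import Vale.Agent.P088.ManE
import Vale.Agent.P088.IsoInter

/-! P088, manifold part: inverse function theorem and first-order bounds for isometries. -/

open MeasureTheory Set Metric Filter
open scoped ContDiff Topology Matrix

noncomputable section
namespace Vale.Agent.P088
open Vale.Agent.P136 (D Sm Tst)

namespace ManInv

variable {n : ℕ}

theorem inj_iff_det (A : En n →L[ℝ] En n) : Function.Injective A ↔ A.det ≠ 0 := by
  rw [ContinuousLinearMap.det, Ne, LinearMap.det_eq_zero_iff_ker_ne_bot, not_not,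
    LinearMap.ker_eq_bot]
  rfl

theorem exists_equiv {Ψ : En n → En n} {y : En n} (h : ContDiffAt ℝ ∞ Ψ y)
    (hd : Function.Injective (fderiv ℝ Ψ y)) :
    ∃ e : En n ≃L[ℝ] En n, HasFDerivAt Ψ (e : En n →L[ℝ] En n) y := by
  refine ⟨(fderiv ℝ Ψ y).toContinuousLinearEquivOfDetNeZero ((inj_iff_det _).1 hd), ?_⟩
  rw [ContinuousLinearMap.coe_toContinuousLinearEquivOfDetNeZero]
  exact (h.differentiableAt (by simp)).hasFDerivAt

theorem fd_eq {Φ : En n → En n} {y : En n} (h : DifferentiableAt ℝ Φ y) (v : En n) :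
    (fderiv ℝ Φ y v).ofLp = v.ofLp ᵥ* IsoInter.Jm Φ y := by
  funext k
  have e : v = ∑ i, v i • ee i := by
    ext j
    simp [ee, Pi.single_apply]
  conv_lhs => rw [e]
  simp only [map_sum, map_smul, WithLp.ofLp_sum, Finset.sum_apply, PiLp.smul_apply, smul_eq_mul,
    IsoInter.fd_apply h, Matrix.vecMul, dotProduct, IsoInter.Jm, Matrix.of_apply]

theorem quad (g : Fin n → Fin n → ℝ) (ξ : Fin n → ℝ) :
    ∑ i, ∑ j, g i j * ξ i * ξ j = ξ ⬝ᵥ Matrix.of g *ᵥ ξ := by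
  simp only [dotProduct, Matrix.mulVec, Matrix.of_apply, Finset.mul_sum]
  exact Finset.sum_congr rfl fun i _ => Finset.sum_congr rfl fun j _ => by ring

theorem le_of_sq {a b c : ℝ} (hc : 0 < c) (hb : 0 ≤ b) (h : c * a ^ 2 ≤ b ^ 2) :
    a ≤ (1 + c⁻¹) * b := by
  have h1 := inv_pos.2 hc
  have h2 := mul_le_mul_of_nonneg_left h h1.le
  rw [inv_mul_cancel_left₀ hc.ne'] at h2
  refine le_of_sq_le_sq (h2.trans ?_) (by positivity)
  rw [mul_pow]
  exact mul_le_mul_of_nonneg_right (by nlinarith) (sq_nonneg b)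

end ManInv

open ManInv in
theorem e_inv : E_inv := by
  intro n V Φ hV hs hd
  have hc : ∀ y ∈ V, ContDiffAt ℝ ∞ Φ y := fun y hy => hs.contDiffAt (hV.mem_nhds hy)
  refine ⟨fun y hy => ?_, fun V' hV' h => isOpen_iff_mem_nhds.2 ?_, fun hi => ?_⟩
  · obtain ⟨e, he⟩ := exists_equiv (hc y hy) (hd y hy)
    obtain ⟨r, hr, hb⟩ := Metric.eventually_nhds_iff_ball.1
      (((hc y hy).hasStrictFDerivAt' he (by simp)).eventually_left_inverse.and (hV.mem_nhds hy))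
    refine ⟨r, hr, fun z hz => (hb z hz).2, fun z hz w hw hzw => ?_⟩
    rw [← (hb z hz).1, ← (hb w hw).1, hzw]
  · rintro _ ⟨y, hy, rfl⟩
    obtain ⟨e, he⟩ := exists_equiv (hc y (h hy)) (hd y (h hy))
    rw [← ((hc y (h hy)).hasStrictFDerivAt' he (by simp)).map_nhds_eq_of_equiv]
    exact image_mem_map (hV'.mem_nhds hy)
  · rintro _ ⟨y, hy, rfl⟩
    obtain ⟨e, he⟩ := exists_equiv (hc y hy) (hd y hy)
    have h2 := ((hc y hy).hasStrictFDerivAt' he (by simp)).localInverse_unique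
      (g := Function.invFunOn Φ V)
      (mem_of_superset (hV.mem_nhds hy) fun z hz => hi.leftInvOn_invFunOn hz)
    exact (((hc y hy).to_localInverse he (by simp)).congr_of_eventuallyEq h2).contDiffWithinAt

open ManInv in
theorem e_isoC (h0 : E_eden) : E_isoC := by
  intro n ι _ _ g₁ g₂ A₁ A₂ V Φ S h₁ h₂ hV hI
  have hd : ∀ y ∈ V, DifferentiableAt ℝ Φ y := fun y hy =>
    IsoInter.dA (hI.1.contDiffAt (hV.mem_nhds hy))
  have hS : ∀ y ∈ V, (Matrix.of fun a a' => S a a' y)ᵀ * (Matrix.of fun a a' => S a a' y) = 1 :=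
    fun y hy => Matrix.ext fun a a' => (hI.2.2 y hy).1 a a'
  refine ⟨fun y hy => (inj_iff_det _).2 ?_, fun y hy a a' =>
    Matrix.ext_iff.2 (mul_eq_one_comm.1 (hS y hy)) a a', fun b1 b2 => ?_⟩
  · rw [IsoInter.det_fd (hd y hy)]
    exact IsoInter.det_ne h₂ hI hy
  obtain ⟨R₂, hR₂⟩ := b1.subset_closedBall 0
  obtain ⟨R₁, hR₁⟩ := b2.subset_closedBall 0
  obtain ⟨c₁, p₁, e₁⟩ := (h0 n ι g₁ A₁ h₁).2.2.2.2.2.2.2 R₁
  obtain ⟨c₂, p₂, e₂⟩ := (h0 n ι g₂ A₂ h₂).2.2.2.2.2.2.2 R₂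
  have p := mul_pos p₁ p₂
  have p' := inv_pos.2 p
  refine ⟨1 + (c₁ * c₂)⁻¹, fun y hy => ?_⟩
  have key : ∀ v : En n, c₁ * c₂ * ‖fderiv ℝ Φ y v‖ ^ 2 ≤ ‖v‖ ^ 2 ∧
      c₁ * c₂ * ‖v‖ ^ 2 ≤ ‖fderiv ℝ Φ y v‖ ^ 2 := fun v => by
    obtain ⟨a1, a2⟩ := (e₁ _ (hR₁ (mem_image_of_mem _ hy))).2.2.1 (fderiv ℝ Φ y v).ofLp
    obtain ⟨a3, a4⟩ := (e₂ _ (hR₂ hy)).2.2.1 v.ofLp
    have e : ∑ i, ∑ j, g₂ i j y * v i * v j =
        ∑ i, ∑ j, g₁ i j (Φ y) * fderiv ℝ Φ y v i * fderiv ℝ Φ y v j := by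
      rw [quad fun i j => g₂ i j y, quad fun i j => g₁ i j (Φ y), IsoInter.g_pull hI hy,
        fd_eq (hd y hy), ← Matrix.mulVec_mulVec, ← Matrix.mulVec_mulVec, Matrix.dotProduct_mulVec,
        Matrix.mulVec_transpose]
    rw [e] at a3 a4
    simp only [EuclideanSpace.real_norm_sq_eq]
    constructor
    · linarith [mul_le_mul_of_nonneg_left a1 p₂.le]
    · linarith [mul_le_mul_of_nonneg_left a3 p₁.le]
  refine ⟨ContinuousLinearMap.opNorm_le_bound _ (by positivity) fun v =>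
    le_of_sq p (norm_nonneg _) (key v).1, fun v => le_of_sq p (norm_nonneg _) (key v).2,
    fun a a' => ?_, ?_⟩
  · have h3 := (hI.2.2 y hy).1 a' a'
    have h4 := Finset.single_le_sum (fun e _ => mul_self_nonneg (S e a' y)) (Finset.mem_univ a)
    rw [h3, if_pos rfl] at h4
    linarith [abs_le_one_iff_mul_self_le_one.2 h4]
  · have h3 := congrArg Matrix.det (hS y hy)
    rw [Matrix.det_mul, Matrix.det_transpose, Matrix.det_one] at h3
    rw [abs_eq_abs.2 (mul_self_eq_one_iff.1 h3), abs_one]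
    linarith

end Vale.Agent.P088
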