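import Vale.Agent.P088.ManE
import Vale.Agent.P088.IsoInter
import Vale.Agent.P088.IsoRig

/-!
# P088, manifold part: all derivatives of an isometry are bounded
-/

open MeasureTheory Set Metric
open scoped ContDiff Topology

noncomputable section
namespace Vale.Agent.P088
open Vale.Agent.P136

namespace ManIsoBd
open IsoRig

variable {n : ℕ} {ι : Type} [Fintype ι] [DecidableEq ι]

omit [DecidableEq ι] in
lemma pt_sm' : ContDiff ℝ ∞ (pt : (Ix n ι → ℝ) → En n) := by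
  unfold pt
  fun_prop

omit [DecidableEq ι] in
lemma FF_sm' {g₁ g₂ : MatF n} {A₁ A₂ : ConF n ι} (h₁ : GA g₁ A₁) (h₂ : GA g₂ A₂) (m : Fin n)
    (a : Ix n ι) : ContDiff ℝ ∞ (FF g₁ g₂ A₁ A₂ m a) := by
  have a1 : ∀ p k l, ContDiff ℝ ∞ (D (ee p) (g₁ k l)) := fun p k l => (h₁.1 k l).D _
  have a2 : ∀ p k l, ContDiff ℝ ∞ (D (ee p) (g₂ k l)) := fun p k l => (h₂.1 k l).D _
  have a3 : ∀ p k l, ContDiff ℝ ∞ (A₁ p k l) := fun p k l => h₁.2.2.2.1 p k l
  have a4 : ∀ p k l, ContDiff ℝ ∞ (A₂ p k l) := fun p k l => h₂.2.2.2.1 p k l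
  have a5 := pt_sm' (n := n) (ι := ι)
  have a6 : ∀ m i j, ContDiff ℝ ∞ (RR (ι := ι) g₁ g₂ m i j) := fun m i j => by
    unfold RR
    fun_prop
  rcases a with k | ik | aa
  · unfold FF
    fun_prop
  · unfold FF
    fun_prop
  · unfold FF
    fun_prop

variable {g₁ g₂ : MatF n} {A₁ A₂ : ConF n ι} {V : Set (En n)} {Φ : En n → En n}
  {S : ι → ι → En n → ℝ}

omit [Fintype ι] [DecidableEq ι] in
lemma par_sm (h₂ : GA g₂ A₂) :
    ContDiff ℝ ∞ fun y : En n => fun i j => (Matrix.of fun k l => g₂ k l y)⁻¹ i j :=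
  contDiff_pi.2 fun i => contDiff_pi.2 fun j => contDiff_iff_contDiffAt.2 fun y =>
    IsoInter.inv_cda (M := fun y => Matrix.of fun k l => g₂ k l y)
      (fun k l => (h₂.1 k l).contDiffAt) (det_ne (h₂.2.2.1 y)) i j

/-- Smooth functions of the point and of the unknowns. -/
def Cl (V : Set (En n)) (Φ : En n → En n) (S : ι → ι → En n → ℝ) (f : En n → ℝ) : Prop :=
  ∃ H : En n × (Ix n ι → ℝ) → ℝ, ContDiff ℝ ∞ H ∧ ∀ y ∈ V, f y = H (y, fun b => YY Φ S b y)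

lemma Cl.D (h₁ : GA g₁ A₁) (h₂ : GA g₂ A₂) (hV : IsOpen V) (h : Iso g₁ A₁ g₂ A₂ V Φ S)
    {f : En n → ℝ} (hf : Cl V Φ S f) (m : Fin n) : Cl V Φ S (D (ee m) f) := by
  obtain ⟨H, hH, e⟩ := hf
  refine ⟨fun q => fderiv ℝ H q (ee m, fun a => FF g₁ g₂ A₁ A₂ m a
    ((q.1, fun i j => (Matrix.of fun k l => g₂ k l q.1)⁻¹ i j), q.2)), ?_, fun y hy => ?_⟩
  · refine (hH.fderiv_right (m := ∞) (by simp)).clm_apply (contDiff_const.prodMk
      (contDiff_pi.2 fun a => (FF_sm' h₁ h₂ m a).comp ?_))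
    exact (contDiff_fst.prodMk ((par_sm h₂).comp contDiff_fst)).prodMk contDiff_snd
  · have hn := hV.mem_nhds hy
    have e1 : f =ᶠ[𝓝 y] fun y => H (y, fun b => YY Φ S b y) := by
      filter_upwards [hn] with z hz using e z hz
    have d1 : HasFDerivAt (fun y b => YY Φ S b y)
        (ContinuousLinearMap.pi fun b => fderiv ℝ (YY Φ S b) y) y :=
      hasFDerivAt_pi.2 fun b => ((YY_diff hV h b).differentiableAt hn).hasFDerivAt
    have d2 := ((hH.differentiable (by simp) _).hasFDerivAt.comp y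
      ((hasFDerivAt_id y).prodMk d1)).fderiv
    have e2 : (fun a => FF g₁ g₂ A₁ A₂ m a ((y, fun i j => (Matrix.of fun k l => g₂ k l y)⁻¹ i j),
        fun b => YY Φ S b y)) = fun a => P136.D (ee m) (YY Φ S a) y :=
      funext fun a => (YY_eq h₁ h₂ hV h y hy m a).symm
    rw [D_congr e1]
    simp only [e2]
    exact congrArg (fun L : En n →L[ℝ] ℝ => L (ee m)) d2

lemma Cl.Ds (h₁ : GA g₁ A₁) (h₂ : GA g₂ A₂) (hV : IsOpen V) (h : Iso g₁ A₁ g₂ A₂ V Φ S)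
    {f : En n → ℝ} (hf : Cl V Φ S f) (l : List (Fin n)) : Cl V Φ S (Ds ee l f) := by
  induction l with
  | nil => exact hf
  | cons i l ih => exact ih.D h₁ h₂ hV h i

omit [DecidableEq ι] in
lemma cl_YY (b : Ix n ι) : Cl V Φ S (YY Φ S b) :=
  ⟨fun q => q.2 b, by fun_prop, fun _ _ => rfl⟩

omit [DecidableEq ι] in
lemma Cl.bd {R : ℝ} (hR : ∀ y ∈ V, ‖(y, fun b => YY Φ S b y)‖ ≤ R) {f : En n → ℝ}
    (hf : Cl V Φ S f) : ∃ C : ℝ, ∀ y ∈ V, |f y| ≤ C := by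
  obtain ⟨H, hH, e⟩ := hf
  obtain ⟨C, hC⟩ := (isCompact_closedBall (0 : En n × (Ix n ι → ℝ)) R).exists_bound_of_continuousOn
    hH.continuous.continuousOn
  exact ⟨C, fun y hy => by rw [e y hy]; exact hC _ (mem_closedBall_zero_iff.2 (hR y hy))⟩

end ManIsoBd

open ManIsoBd IsoRig

theorem e_isobd (hC : E_isoC) : E_isobd := by
  intro n ι _ _ g₁ g₂ A₁ A₂ V Φ S h₁ h₂ hV h b1 b2 l
  obtain ⟨C, hc⟩ := (hC n ι g₁ g₂ A₁ A₂ V Φ S h₁ h₂ hV h).2.2 b1 b2
  obtain ⟨R₁, r1⟩ := b1.exists_norm_le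
  obtain ⟨R₂, r2⟩ := b2.exists_norm_le
  have hR : ∀ y ∈ V, ‖(y, fun b => YY Φ S b y)‖ ≤ |R₁| + |R₂| + |C| := by
    intro y hy
    have p1 := abs_nonneg R₁
    have p2 := abs_nonneg R₂
    have p3 := abs_nonneg C
    have q1 := (r1 y hy).trans (le_abs_self _)
    have q2 := (r2 _ (mem_image_of_mem Φ hy)).trans (le_abs_self _)
    refine max_le (by linarith) ((pi_norm_le_iff_of_nonneg (by positivity)).2 fun b => ?_)
    rcases b with k | ⟨i, k⟩ | ⟨a, a'⟩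
    · exact (PiLp.norm_apply_le (Φ y) k).trans (by linarith)
    · have dΦ : DifferentiableAt ℝ Φ y :=
        (h.1.contDiffAt (hV.mem_nhds hy)).differentiableAt (by simp)
      have e := ((EuclideanSpace.proj k : En n →L[ℝ] ℝ).hasFDerivAt.comp y dΦ.hasFDerivAt).fderiv
      have e' : YY Φ S (.inr (.inl (i, k))) y = fderiv ℝ Φ y (ee i) k :=
        congrArg (fun L : En n →L[ℝ] ℝ => L (ee i)) e
      have q3 := (fderiv ℝ Φ y).le_of_opNorm_le ((hc y hy).1.trans (le_abs_self _)) (ee i)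
      have q4 : ‖(ee i : En n)‖ = 1 := by simp [ee]
      rw [q4, mul_one] at q3
      exact (congrArg norm e').trans_le ((PiLp.norm_apply_le _ k).trans (by linarith))
    · exact (((hc y hy).2.2.1 a a').trans (le_abs_self _)).trans (by linarith)
  choose c hc' using fun b : Ix n ι => ((cl_YY b).Ds h₁ h₂ hV h l).bd hR
  have hle : ∀ b, c b ≤ ∑ b, |c b| := fun b => (le_abs_self _).trans
    (Finset.single_le_sum (f := fun b => |c b|) (fun _ _ => abs_nonneg _) (Finset.mem_univ b))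
  exact ⟨∑ b, |c b|, fun y hy => ⟨fun k => (hc' (.inl k) y hy).trans (hle _),
    fun a a' => (hc' (.inr (.inr (a, a'))) y hy).trans (hle _)⟩⟩

end Vale.Agent.P088
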