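import Vale.Agent.P088.ManE

/-!
# P088, manifold part: extension of an isometry to the closed half ball
-/

open MeasureTheory Set Metric Filter
open scoped ContDiff Topology

noncomputable section
namespace Vale.Agent.P088
open Vale.Agent.P136

namespace ManIsoExt
variable {n : ℕ} [NeZero n]

theorem isOpen_up (r : ℝ) : IsOpen (Up n r) :=
  isOpen_ball.inter (isOpen_lt continuous_const (by fun_prop))

theorem hb_sub (r : ℝ) : Hb n r ⊆ closure (Up n r) := by
  intro y hy
  have hc : Continuous fun t : ℝ => y + t • (ee 0 : En n) := by fun_prop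
  have h1 : Tendsto (fun t : ℝ => y + t • (ee 0 : En n)) (𝓝[>] 0) (𝓝 y) := by
    have := hc.tendsto 0
    rw [zero_smul, add_zero] at this
    exact this.mono_left nhdsWithin_le_nhds
  refine mem_closure_of_tendsto h1 ?_
  filter_upwards [h1.eventually (isOpen_ball.mem_nhds hy.1), self_mem_nhdsWithin] with t h2 h3
  refine ⟨h2, ?_⟩
  have h4 : 0 ≤ y 0 := hy.2
  have h5 : 0 < t := h3
  simp only [mem_ofPred_eq, ee, PiLp.add_apply, PiLp.smul_apply, PiLp.single_apply,
    if_true, smul_eq_mul, mul_one]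
  linarith

theorem ext {f g : En n → ℝ} {r : ℝ} (hf : Continuous f) (hg : Continuous g)
    (h : ∀ y ∈ Up n r, f y = g y) {y : En n} (hy : y ∈ Hb n r) : f y = g y :=
  EqOn.closure h hf hg (hb_sub r hy)

end ManIsoExt

open ManIsoExt in
theorem e_isoext (hb : E_isobd) (he : E_ext) : E_isoext := by
  intro n _ ι _ _ g₁ g₂ A₁ A₂ r r' Φ S h₁ h₂ hr hI hB
  have hU : Up n r' ⊆ Up n r := inter_subset_inter_left _ (ball_subset_ball hr.le)
  have hd := hb n ι g₁ g₂ A₁ A₂ _ Φ S h₁ h₂ (isOpen_up r) hI (isBounded_ball.subset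
    inter_subset_left) hB
  have e1 : ∀ k, ∃ f : En n → ℝ, Sm f ∧ EqOn f (fun z => Φ z k) (Up n r') := fun k =>
    he n _ r r' hr (contDiffOn_euclidean.1 hI.1 k) fun l =>
      (hd l).imp fun C hC y hy => (hC y hy).1 k
  have e2 : ∀ a a', ∃ f : En n → ℝ, Sm f ∧ EqOn f (S a a') (Up n r') := fun a a' =>
    he n _ r r' hr (hI.2.1 a a') fun l => (hd l).imp fun C hC y hy => (hC y hy).2 a a'
  choose f hf hf' using e1
  choose T hT hT' using e2
  let Ψ : En n → En n := fun y => WithLp.toLp 2 fun k => f k y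
  have hΨ : ContDiff ℝ ∞ Ψ := contDiff_euclidean.2 hf
  have hΨ' : EqOn Ψ Φ (Up n r') := fun y hy => by
    ext k
    exact hf' k hy
  have d1 : ∀ y ∈ Up n r', ∀ i k, D (ee i) (f k) y = D (ee i) (fun z => Φ z k) y :=
    fun y hy i k => D_congr ((hf' k).eventuallyEq_of_mem ((isOpen_up r').mem_nhds hy)) _
  have d2 : ∀ y ∈ Up n r', ∀ i a a', D (ee i) (T a a') y = D (ee i) (S a a') y :=
    fun y hy i a a' => D_congr ((hT' a a').eventuallyEq_of_mem ((isOpen_up r').mem_nhds hy)) _
  have c0 := hΨ.continuous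
  have c1 : ∀ i k, Continuous (D (ee i) (f k)) := fun i k => ((hf k).D _).cont
  have c2 : ∀ i a a', Continuous (D (ee i) (T a a')) := fun i a a' => ((hT a a').D _).cont
  have c3 : ∀ a a', Continuous (T a a') := fun a a' => (hT a a').cont
  have c4 : ∀ i j, Continuous (g₁ i j) := fun i j => (h₁.1 i j).cont
  have c5 : ∀ i j, Continuous (g₂ i j) := fun i j => (h₂.1 i j).cont
  have c6 : ∀ i a a', Continuous (A₁ i a a') := fun i a a' => (h₁.2.2.2.1 i a a').cont
  have c7 : ∀ i a a', Continuous (A₂ i a a') := fun i a a' => (h₂.2.2.2.1 i a a').cont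
  refine ⟨Ψ, T, hΨ, hT, hΨ', hT', hΨ.contDiffOn, fun a a' => (hT a a').contDiffOn,
    fun y hy => ⟨fun a a' => ?_, fun i j => ?_, fun i a a' => ?_⟩⟩
  · refine ext (f := fun y => ∑ e, T e a y * T e a' y) (g := fun _ => if a = a' then 1 else 0)
      (by fun_prop) continuous_const (fun y hy => ?_) hy
    simp only [fun a a' => hT' a a' hy]
    exact (hI.2.2 y (hU hy)).1 a a'
  · refine ext (f := g₂ i j) (g := fun y => ∑ k, ∑ l, g₁ k l (Ψ y) * D (ee i) (f k) y *
      D (ee j) (f l) y) (c5 i j) (by fun_prop) (fun y hy => ?_) hy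
    simp only [d1 y hy, hΨ' hy]
    exact (hI.2.2 y (hU hy)).2.1 i j
  · refine ext (f := fun y => D (ee i) (T a a') y + ∑ e, A₂ i a e y * T e a' y)
      (g := fun y => ∑ k, ∑ e, T a e y * A₁ k e a' (Ψ y) * D (ee i) (f k) y) (by fun_prop)
      (by fun_prop) (fun y hy => ?_) hy
    simp only [d1 y hy, d2 y hy, hΨ' hy, fun a a' => hT' a a' hy]
    exact (hI.2.2 y (hU hy)).2.2 i a a'

end Vale.Agent.P088
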