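import Vale.Agent.P088.ManE
import Vale.Agent.P088.IsoRig

/-!
# P088: Kato's inequality along a segment and transport of `L²` bounds
-/

open MeasureTheory Set Metric
open scoped ContDiff Topology

noncomputable section
namespace Vale.Agent.P088
open Vale.Agent.P136 (D Sm Tst)

namespace ManKato
variable {n : ℕ} {ι : Type} [Fintype ι]

lemma skew {A : ConF n ι} (hA : ∀ i a a' x, A i a a' x = -A i a' a x) (v : ι → En n → ℝ)
    (i : Fin n) (y : En n) :
    ∑ a, v a y * D (ee i) (v a) y = ∑ a, v a y * cov A i v a y := by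
  have h : ∑ a, ∑ a', v a y * (A i a a' y * v a' y) =
      -∑ a, ∑ a', v a y * (A i a a' y * v a' y) := by
    conv_lhs => rw [Finset.sum_comm]
    simp only [← Finset.sum_neg_distrib]
    exact Finset.sum_congr rfl fun a _ => Finset.sum_congr rfl fun a' _ => by
      rw [hA i a' a]; ring
  simp only [cov, mul_add, Finset.sum_add_distrib, Finset.mul_sum]
  linarith

lemma cs {A : ConF n ι} (hA : ∀ i a a' x, A i a a' x = -A i a' a x) (v : ι → En n → ℝ)
    (z y : En n) : (∑ a, v a y * D z (v a) y) ^ 2 ≤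
      ‖z‖ ^ 2 * (∑ a, v a y ^ 2) * ∑ i, ∑ a, cov A i v a y ^ 2 := by
  have e : ∑ a, v a y * D z (v a) y = ∑ p : Fin n × ι, z p.1 * v p.2 y * cov A p.1 v p.2 y := by
    have e1 : ∀ a, D z (v a) y = ∑ i, D (ee i) (v a) y * z i := fun a => IsoRig.clm_eq _ z
    simp only [e1, Finset.mul_sum, Fintype.sum_prod_type]
    rw [Finset.sum_comm]
    refine Finset.sum_congr rfl fun i _ => ?_
    have := congrArg (fun t => z i * t) (skew hA v i y)
    simp only [Finset.mul_sum] at this
    simpa only [mul_comm, mul_left_comm, mul_assoc] using this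
  rw [e]
  refine (Finset.sum_mul_sq_le_sq_mul_sq _ _ _).trans (le_of_eq ?_)
  simp only [Fintype.sum_prod_type, mul_pow, ← Finset.mul_sum, ← Finset.sum_mul,
    EuclideanSpace.real_norm_sq_eq]

lemma sq_int {h : ℝ → ℝ} (hh : Continuous h) :
    (∫ t in (0 : ℝ)..1, h t) ^ 2 ≤ ∫ t in (0 : ℝ)..1, h t ^ 2 := by
  set m := ∫ t in (0 : ℝ)..1, h t with hm
  have h1 := intervalIntegral.integral_mono_on (μ := volume) zero_le_one
    (f := fun t => 2 * m * h t) (g := fun t => m ^ 2 + h t ^ 2)
    ((continuous_const.mul hh).intervalIntegrable _ _)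
    ((continuous_const.add (hh.pow 2)).intervalIntegrable _ _)
    fun t _ => by nlinarith [sq_nonneg (m - h t)]
  rw [intervalIntegral.integral_const_mul, intervalIntegral.integral_add (g := fun t => h t ^ 2)
    intervalIntegrable_const ((hh.pow 2).intervalIntegrable _ _), ← hm] at h1
  simp only [intervalIntegral.integral_const, sub_zero, smul_eq_mul, one_mul] at h1
  nlinarith

lemma shift (e : En n → ℝ) (w : En n) (δ : ℝ) :
    ∫ y in ball 0 δ, e (y + w) = ∫ y in ball w δ, e y := by
  rw [← (measurePreserving_add_right volume w).setIntegral_preimage_emb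
    (measurableEmbedding_addRight w) e (ball w δ)]
  refine congrArg (fun s => ∫ y in s, e (y + w)) (Set.ext fun y => ?_)
  simp [mem_ball_iff_norm]

lemma intB {e : En n → ℝ} (he : Continuous e) (w : En n) (δ : ℝ) : IntegrableOn e (ball w δ) :=
  (he.continuousOn.integrableOn_compact (isCompact_closedBall w δ)).mono_set ball_subset_closedBall

end ManKato

open ManKato

theorem e_kato (h0 : E_eden) : E_kato := by
  intro n ι _ _ g A R hG
  obtain ⟨-, -, -, h1, -, h2, -, h3⟩ := h0 n ι g A hG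
  obtain ⟨c, hc, H⟩ := h3 R
  refine ⟨√c⁻¹, Real.sqrt_nonneg _, fun v hv x hx x' hx' => ?_⟩
  set z := x' - x with hz
  have hl : ∀ t : ℝ, HasDerivAt (fun t : ℝ => x + t • z) z t := fun t => by
    simpa using ((hasDerivAt_id t).smul_const z).const_add x
  have hS : ∀ t : ℝ, HasDerivAt (fun t : ℝ => ∑ a, v a (x + t • z) ^ 2)
      (2 * ∑ a, v a (x + t • z) * D z (v a) (x + t • z)) t := fun t => by
    rw [Finset.mul_sum]
    refine HasDerivAt.fun_sum fun a _ => ?_
    have := (((hv a).dAt _).hasFDerivAt.comp_hasDerivAt t (hl t)).fun_pow 2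
    refine this.congr_deriv ?_
    simp only [D, Function.comp, Nat.cast_ofNat, Nat.add_one_sub_one, pow_one, mul_assoc]
  have hn : ∀ y, 0 ≤ ∑ a, v a y ^ 2 := fun y => Finset.sum_nonneg fun _ _ => sq_nonneg _
  have hc1 : Continuous fun t : ℝ => √(eden g A v v (x + t • z)) :=
    ((h2 v v hv hv).cont.comp (continuous_const.add (continuous_id.smul continuous_const))).sqrt
  refine le_of_forall_pos_le_add fun ε hε => ?_
  have hp : ∀ t : ℝ, 0 < ε ^ 2 + ∑ a, v a (x + t • z) ^ 2 := fun t =>
    add_pos_of_pos_of_nonneg (by positivity) (hn _)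
  have hf := fun t : ℝ => ((hS t).const_add (ε ^ 2)).sqrt (hp t).ne'
  have key := intervalIntegral.sub_le_integral_of_hasDeriv_right_of_le zero_le_one
    (fun t _ => (hf t).continuousAt.continuousWithinAt) (fun t _ => (hf t).hasDerivWithinAt)
    (φ := fun t => √c⁻¹ * ‖z‖ * √(eden g A v v (x + t • z)))
    (continuous_const.mul hc1).integrableOn_Icc fun t ht => by
      have hm : x + t • z ∈ closedBall (0 : En n) R :=
        (convex_closedBall 0 R).add_smul_sub_mem hx hx' ⟨ht.1.le, ht.2.le⟩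
      have b1 := ((H _ hm).2.2.2 v).1
      have b2 := cs hG.2.2.2.2 v z (x + t • z)
      have b3 : ∑ i, ∑ a, cov A i v a (x + t • z) ^ 2 ≤ c⁻¹ * eden g A v v (x + t • z) := by
        rw [inv_mul_eq_div, le_div_iff₀' hc]; exact b1
      rw [mul_div_mul_left _ _ two_ne_zero, div_le_iff₀ (Real.sqrt_pos.2 (hp t))]
      refine (le_abs_self _).trans (abs_le_of_sq_le_sq' ?_ (by positivity)).2
      rw [sq_abs, mul_pow, mul_pow, mul_pow, Real.sq_sqrt (hp t).le, Real.sq_sqrt (h1 _ _),
        Real.sq_sqrt (inv_nonneg.2 hc.le)]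
      refine b2.trans ((mul_le_mul_of_nonneg_left b3 (mul_nonneg (sq_nonneg _) (hn _))).trans ?_)
      have b4 : 0 ≤ c⁻¹ * ‖z‖ ^ 2 * eden g A v v (x + t • z) * ε ^ 2 := by
        have := h1 v (x + t • z)
        positivity
      linarith
  rw [intervalIntegral.integral_const_mul, one_smul, zero_smul, add_zero, hz,
    add_sub_cancel] at key
  have a1 : √(∑ a, v a x' ^ 2) ≤ √(ε ^ 2 + ∑ a, v a x' ^ 2) :=
    Real.sqrt_le_sqrt (le_add_of_nonneg_left (sq_nonneg _))
  have a2 : √(ε ^ 2 + ∑ a, v a x ^ 2) ≤ √(∑ a, v a x ^ 2) + ε := by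
    refine Real.sqrt_le_iff.2 ⟨by positivity, ?_⟩
    nlinarith [Real.sq_sqrt (hn x), Real.sqrt_nonneg (∑ a, v a x ^ 2)]
  linarith

theorem e_trans (h0 : E_eden) (hk : E_kato) : E_trans := by
  intro n ι _ _ g A r δ y₀ hG hδ hr
  obtain ⟨-, -, -, h1, -, h2, -, -⟩ := h0 n ι g A hG
  obtain ⟨C, hC, H⟩ := hk n ι g A r hG
  refine ⟨2 + 2 * (C * ‖y₀‖) ^ 2, by positivity, fun v hv => ?_⟩
  have he := (h2 v v hv hv).cont
  have hS : Continuous fun y => ∑ a, v a y ^ 2 :=
    continuous_finsetSum _ fun a _ => (hv a).cont.pow 2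
  have hn : ∀ y, 0 ≤ ∑ a, v a y ^ 2 := fun y => Finset.sum_nonneg fun _ _ => sq_nonneg _
  have e1 : ∀ w, nrm (ball w δ) v = ∫ y in ball w δ, ∑ a, v a y ^ 2 := fun w =>
    (integral_finsetSum _ fun a _ => intB ((hv a).cont.pow 2) w δ).symm
  have hF : Continuous fun p : ℝ × En n => eden g A v v (p.2 + (1 - p.1) • y₀) :=
    he.comp (by fun_prop)
  have hI : Integrable (Function.uncurry fun (t : ℝ) (y : En n) => eden g A v v (y + (1 - t) • y₀))
      ((volume.restrict (uIoc (0 : ℝ) 1)).prod (volume.restrict (ball (0 : En n) δ))) := by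
    rw [Measure.prod_restrict]
    exact (hF.continuousOn.integrableOn_compact (isCompact_uIcc.prod
      (isCompact_closedBall 0 δ))).mono_set (prod_mono uIoc_subset_uIcc ball_subset_closedBall)
  have hc : Continuous fun y : En n => ∫ t in (0 : ℝ)..1, eden g A v v (y + (1 - t) • y₀) :=
    intervalIntegral.continuous_parametric_intervalIntegral_of_continuous'
      (f := fun (y : En n) (t : ℝ) => eden g A v v (y + (1 - t) • y₀)) (he.comp (by fun_prop)) 0 1
  have i1 := (intB (hS.comp (continuous_add_right y₀)) 0 δ).const_mul 2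
  have i2 := (intB hc 0 δ).const_mul (2 * (C * ‖y₀‖) ^ 2)
  have k1 := setIntegral_mono_on (intB hS 0 δ) (P136.iadd i1 i2) measurableSet_ball fun y hy => by
    have y1 : ‖y‖ < δ := mem_ball_zero_iff.1 hy
    have b1 := H v hv (y + y₀) (mem_closedBall_zero_iff.2 ((norm_add_le _ _).trans (by linarith)))
      y (mem_closedBall_zero_iff.2 (by linarith [norm_nonneg y₀]))
    have e2 : ∀ t : ℝ, y + y₀ + t • (y - (y + y₀)) = y + (1 - t) • y₀ := fun t => by module
    simp only [e2] at b1
    rw [sub_add_cancel_left, norm_neg] at b1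
    have b2 := sq_int (h := fun t => √(eden g A v v (y + (1 - t) • y₀)))
      (he.comp (by fun_prop)).sqrt
    simp only [Real.sq_sqrt (h1 _ _)] at b2
    have b3 := pow_le_pow_left₀ (Real.sqrt_nonneg _) b1 2
    have b4 := mul_le_mul_of_nonneg_left b2 (sq_nonneg (C * ‖y₀‖))
    rw [Real.sq_sqrt (hn _)] at b3
    simp only [Function.comp]
    nlinarith [Real.sq_sqrt (hn (y + y₀)), sq_nonneg (√(∑ a, v a (y + y₀) ^ 2) -
      C * ‖y₀‖ * ∫ t in (0 : ℝ)..1, √(eden g A v v (y + (1 - t) • y₀)))]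
  rw [integral_add i1 i2, integral_const_mul, integral_const_mul,
    ← intervalIntegral_integral_swap hI] at k1
  simp only [Function.comp] at k1
  rw [shift (fun y => ∑ a, v a y ^ 2), ← e1, ← e1] at k1
  have k2 : ∫ t in (0 : ℝ)..1, ∫ y in ball 0 δ, eden g A v v (y + (1 - t) • y₀) ≤
      enU (ball 0 r) g A v := by
    have := intervalIntegral.integral_mono_on (μ := volume) zero_le_one
      (g := fun _ => enU (ball 0 r) g A v)
      ((intervalIntegrable_iff.2 hI.integral_prod_left)) intervalIntegrable_const fun t ht => by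
        simp only [Function.uncurry]
        rw [shift (eden g A v v)]
        refine setIntegral_mono_set (intB he 0 r) (.of_forall (h1 v))
          (ball_subset_ball' ?_).eventuallyLE
        rw [dist_zero_right, norm_smul, Real.norm_of_nonneg (sub_nonneg.2 ht.2)]
        nlinarith [norm_nonneg y₀, ht.1]
    simpa using this
  have k3 : 0 ≤ enU (ball 0 r) g A v := integral_nonneg (h1 v)
  have k4 : 0 ≤ nrm (ball y₀ δ) v := e1 y₀ ▸ integral_nonneg hn
  nlinarith [mul_le_mul_of_nonneg_left k2 (sq_nonneg (C * ‖y₀‖)),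
    mul_nonneg (sq_nonneg (C * ‖y₀‖)) k4]

end Vale.Agent.P088
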