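import Vale.Agent.P088.ManE
import Vale.Agent.P088.Lt1Apx

/-!
# P088, manifold part: local solutions take all values at the origin
-/

open MeasureTheory Set Metric Filter
open scoped ContDiff Topology InnerProductSpace

noncomputable section
namespace Vale.Agent.P088
open Vale.Agent.P136 (D Sm Tst)

namespace ManLocSol

variable {n : ℕ} {ι : Type} [Fintype ι]

theorem low {W : ι → En n → ℝ} {s d K : ℝ} (hs : 0 < s) (hK : 0 ≤ K)
    (hW : L2On (ball 0 (2 * s)) W)
    (h : ∀ᵐ y ∂(volume.restrict (ball (0 : En n) s)), d ≤ K * ∑ e, W e y ^ 2) :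
    s ^ n * (volume (ball (0 : En n) 1)).toReal * d ≤ K * nrm (ball 0 (2 * s)) W := by
  have h1 : IntegrableOn (fun y => K * ∑ e, W e y ^ 2) (ball 0 (2 * s)) :=
    (integrable_finsetSum _ fun e _ => (hW e).integrable_sq).const_mul K
  have h2 : ball (0 : En n) s ⊆ ball 0 (2 * s) := ball_subset_ball (by linarith)
  have h0 : IntegrableOn (fun _ => d) (ball (0 : En n) s) :=
    integrableOn_const measure_ball_lt_top.ne
  have h3 := (integral_mono_ae h0 (h1.mono_set h2) h).trans
    (setIntegral_mono_set h1 (.of_forall fun y => by positivity) h2.eventuallyLE)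
  rw [integral_const_mul, integral_finsetSum _ fun e _ => (hW e).integrable_sq, setIntegral_const,
    Measure.real, Measure.addHaar_ball_of_pos _ _ hs, ENNReal.toReal_mul,
    ENNReal.toReal_ofReal (by positivity)] at h3
  simpa [nrm] using h3

end ManLocSol

open Lt1 in
theorem e_locsol (hcop : S_cop) (hw : S_weyl) (hg : S_green) (htl : E_tl) : E_locsol := by
  intro n ι _ _ g A r G T hGA hr hG ⟨C, hC⟩ hT h a a'
  by_contra h0
  have hL := (hcop n ι g A hGA).1
  obtain ⟨P, hP⟩ : ∃ P : ι → En n → ℝ, P = fun e _ => if e = a' then 1 else 0 := ⟨_, rfl⟩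
  have hP1 : ∀ e, Sm (P e) := fun e => hP ▸ contDiff_const
  have hF := app_sm hL hP1
  obtain ⟨K, hK⟩ : ∃ K, K = ∑ e, T a e 0 ^ 2 + 1 := ⟨_, rfl⟩
  obtain ⟨b, hb⟩ : ∃ b, b = ∑ e, |(cop g A).app P e 0| + 1 := ⟨_, rfl⟩
  have hK0 : 0 ≤ K := by rw [hK]; positivity
  have h1 : ∀ᶠ y in 𝓝 (0 : En n), T a a' 0 ^ 2 / 2 < T a a' y ^ 2 ∧ ∑ e, T a e y ^ 2 < K ∧
      ∑ e, |(cop g A).app P e y| < b :=
    (((hT a a').pow 2).eventually_const_lt (half_lt_self (sq_pos_of_ne_zero h0))).and
      (((tendsto_finsetSum _ fun e _ => (hT a e).pow 2).eventually_lt_const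
        (hK ▸ lt_add_one _)).and ((tendsto_finsetSum _ fun e _ =>
          (hF e).continuous.continuousAt.abs).eventually_lt_const (hb ▸ lt_add_one _)))
  obtain ⟨δ, hδ, h2⟩ := Metric.eventually_nhds_iff_ball.1 h1
  have hv : 0 < (volume (ball (0 : En n) 1)).toReal :=
    ENNReal.toReal_pos (measure_ball_pos _ _ one_pos).ne' measure_ball_lt_top.ne
  have h3 : ∀ᶠ s in 𝓝[>] (0 : ℝ),
      T a a' 0 ^ 2 / 2 ≤ K * C ^ 2 * Fintype.card ι * b ^ 2 * 2 ^ n * (2 * s) ^ 4 := by
    filter_upwards [h, Ioo_mem_nhdsGT (half_pos (lt_min hr hδ))] with s hs ⟨s0, s1⟩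
    have s2 : 2 * s ≤ r := by linarith [min_le_left r δ]
    have s3 : ball (0 : En n) (2 * s) ⊆ ball 0 δ :=
      ball_subset_ball (by linarith [min_le_right r δ])
    have s4 : ball (0 : En n) s ⊆ ball 0 (2 * s) := ball_subset_ball (by linarith)
    have hsub : ball (0 : En n) (2 * s) ⊆ ball 0 r := ball_subset_ball s2
    obtain ⟨H, H1, H2, H3⟩ := exists_ind (U := ball (0 : En n) r) (O := ball 0 (2 * s))
      measurableSet_ball ((htl n ι _).2.2.2.2 (measurableSet_ball.inter measurableSet_ball)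
        (isBounded_ball.subset inter_subset_left) _ hF)
    rw [inter_eq_left.2 hsub] at H2
    obtain ⟨W, W1, W2⟩ := green_sol hw hg hL hG isOpen_ball isOpen_ball hsub H
      (fun e => (hF e).contDiffOn) (by
        filter_upwards [ae_restrict_of_ae_restrict_of_subset hsub H3,
          ae_restrict_mem measurableSet_ball] with x h1 h2 using h1 h2)
    have W3 := sol_lin hL isOpen_ball (W := P)
      ⟨fun e => (hP1 e).contDiffOn, fun _ _ _ => rfl⟩ W1 1 (-1)
    have b1 := ManLocSol.low (d := T a a' 0 ^ 2 / 2) s0 hK0 (l2_mono hsub (l2_cp (G H))) (by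
      filter_upwards [hs _ ⟨W3.1, fun x hx e => (W3.2 x hx e).trans (by simp)⟩,
        ae_restrict_of_ae_restrict_of_subset s4 W2, ae_restrict_mem measurableSet_ball]
        with y c1 c2 c3
      have c4 := h2 y (s3 (s4 c3))
      have c5 : T a a' y = ∑ e, T a e y * W e y := by
        simpa [hP, mul_add, Finset.sum_add_distrib, add_neg_eq_zero] using c1 a
      simp only [c2]
      exact c4.1.le.trans (c5 ▸ (Finset.sum_mul_sq_le_sq_mul_sq _ _ _).trans
        (mul_le_mul_of_nonneg_right c4.2.1.le (by positivity))))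
    have b2 := Lt1Apx.green_le hC (by positivity) s2 H1
    have b3 := Lt1Apx.nrm_le (F := (cop g A).app P) (s := 2 * s) (b := b) (by positivity)
      fun e y hy => (Finset.single_le_sum (f := fun e => |(cop g A).app P e y|)
        (fun _ _ => abs_nonneg _) (Finset.mem_univ e)).trans (h2 y (s3 hy)).2.2.le
    refine le_of_mul_le_mul_left (b1.trans ((mul_le_mul_of_nonneg_left (b2.trans
      (mul_le_mul_of_nonneg_left (H2.trans_le b3) (by positivity))) hK0).trans_eq (by ring)))
      (by positivity)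
  have h4 := ge_of_tendsto (((by fun_prop : Continuous fun s : ℝ =>
    K * C ^ 2 * Fintype.card ι * b ^ 2 * 2 ^ n * (2 * s) ^ 4).tendsto' 0 0 (by simp)).mono_left
      nhdsWithin_le_nhds) h3
  exact h4.not_gt (by positivity)

end Vale.Agent.P088
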