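import Vale.Agent.P088.ManE
import Vale.Agent.P088.IsoRig

/-!
# P088, manifold part: a tangent ball cannot touch the boundary
-/

open MeasureTheory Set Metric Filter
open scoped ContDiff Topology InnerProductSpace

noncomputable section
namespace Vale.Agent.P088
open Vale.Agent.P136
namespace ManNoT
variable {n : ℕ}

theorem lip {f : En n → ℝ} {B : Set (En n)} (hB : Convex ℝ B) (ho : IsOpen B)
    (hf : ContDiffOn ℝ ∞ f B) {C : ℝ} (hC : 0 ≤ C) (h : ∀ y ∈ B, ∀ i, |D (ee i) f y| ≤ C)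
    {x y : En n} (hx : x ∈ B) (hy : y ∈ B) : |f y - f x| ≤ n * C * ‖y - x‖ :=
  hB.norm_image_sub_le_of_norm_fderiv_le (𝕜 := ℝ) (fun _ hz => dAt_of_on ho hf hz)
    (fun z hz => IsoRig.clm_le _ hC (h z hz)) hx hy

theorem second {f : En n → ℝ} {B : Set (En n)} (hB : Convex ℝ B) (ho : IsOpen B)
    (hf : ContDiffOn ℝ ∞ f B) {C : ℝ} (hC : 0 ≤ C) (hp : ∀ y ∈ B, 0 < f y)
    (h0 : (0 : En n) ∈ closure B) (hl : Tendsto f (𝓝[B] 0) (𝓝 0))
    (h : ∀ y ∈ B, ∀ i, |D (ee i) f y| ≤ C ∧ ∀ j, |D (ee i) (D (ee j) f) y| ≤ C)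
    {m z : En n} (h1 : m + z ∈ B) (h2 : m - z ∈ B) :
    f (m + z) ≤ 2 * (n * C * ‖m‖) + n * (n * C * (2 * ‖z‖)) * ‖z‖ := by
  have hs : ∀ t ∈ Icc (-1 : ℝ) 1, m + t • z ∈ B := fun t ht => by
    have := hB h1 h2 (a := (1 + t) / 2) (b := (1 - t) / 2) (by linarith [ht.1])
      (by linarith [ht.2]) (by ring)
    have e : ((1 + t) / 2) • (m + z) + ((1 - t) / 2) • (m - z) = m + t • z := by module
    rwa [e] at this
  have hm : m ∈ B := by simpa using hs 0 (by norm_num)
  have h3 : f m ≤ n * C * ‖m‖ := by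
    have : (𝓝[B] (0 : En n)).NeBot := mem_closure_iff_nhdsWithin_neBot.1 h0
    have c : Continuous fun y : En n => n * C * ‖m - y‖ := by fun_prop
    have t1 := hl.add ((c.tendsto 0).mono_left (nhdsWithin_le_nhds (s := B)))
    rw [zero_add, sub_zero] at t1
    refine ge_of_tendsto t1 ?_
    filter_upwards [self_mem_nhdsWithin] with y hy
    have := (abs_le.1 (lip hB ho hf hC (fun y hy i => (h y hy i).1) hy hm)).2
    linarith
  have hd : ∀ t ∈ Icc (0 : ℝ) 1, HasDerivAt (fun t : ℝ => f (m + t • z) + f (m + (-t) • z))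
      ((fderiv ℝ f (m + t • z) - fderiv ℝ f (m + (-t) • z)) z) t := fun t ht => by
    have a1 : HasDerivAt (fun t : ℝ => m + t • z) z t := by
      simpa using ((hasDerivAt_id t).smul_const z).const_add m
    have a2 : HasDerivAt (fun t : ℝ => m + (-t) • z) (-z) t := by
      simpa using ((hasDerivAt_id t).neg.smul_const z).const_add m
    have b1 := (dAt_of_on ho hf (hs t ⟨by linarith [ht.1], ht.2⟩)).hasFDerivAt.comp_hasDerivAt t a1
    have b2 := (dAt_of_on ho hf (hs (-t) ⟨by linarith [ht.2], by linarith [ht.1]⟩)).hasFDerivAt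
      |>.comp_hasDerivAt t a2
    refine (b1.add b2).congr_deriv ?_
    rw [map_neg, sub_apply, sub_eq_add_neg]
  have h4 := norm_image_sub_le_of_norm_deriv_le_segment_01'
    (C := n * (n * C * (2 * ‖z‖)) * ‖z‖) (fun t ht => (hd t ht).hasDerivWithinAt) fun t ht => by
      refine ContinuousLinearMap.le_of_opNorm_le _ (IsoRig.clm_le _ (by positivity) fun j => ?_) z
      have := lip hB ho (contDiffOn_D ho hf (ee j)) hC (fun y hy i => (h y hy i).2 j)
        (hs (-t) ⟨by linarith [ht.2], by linarith [ht.1]⟩) (hs t ⟨by linarith [ht.1], ht.2.le⟩)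
      refine this.trans (mul_le_mul_of_nonneg_left ?_ (by positivity))
      have e : m + t • z - (m + (-t) • z) = (2 * t) • z := by module
      rw [e, norm_smul, Real.norm_of_nonneg (by linarith [ht.1])]
      exact mul_le_mul_of_nonneg_right (by linarith [ht.2]) (norm_nonneg _)
  simp only [one_smul, neg_zero, zero_smul, add_zero, neg_smul, Real.norm_eq_abs] at h4
  have h5 := (abs_le.1 h4).2
  have h6 := hp _ h2
  rw [sub_eq_add_neg] at h6
  linarith

/-- The anisotropic dilation. -/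
def T (u : En n) (s : ℝ) : En n →ₗ[ℝ] En n :=
  s • LinearMap.transvection (innerₗ (En n) u) ((s - 1) • u)

theorem T_det {u : En n} (hu : ‖u‖ = 1) (s : ℝ) : LinearMap.det (T u s) = s ^ n * s := by
  rw [T, LinearMap.det_smul, LinearMap.transvection.det, finrank_euclideanSpace_fin,
    innerₗ_apply_apply, real_inner_smul_right, real_inner_self_eq_norm_sq, hu]
  ring

theorem geo {u : En n} (hu : ‖u‖ = 1) {ρ ε s : ℝ} (hρ : 0 < ρ) (e1 : ε ≤ 1 / 2)
    (e2 : ε ^ 2 ≤ ρ / 2) (s0 : 0 < s) (s2 : 5 * s ^ 2 ≤ ρ) {y : En n} (hy : y ∈ closedBall u ε) :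
    ∃ m z, T u s y = m + z ∧ m + z ∈ ball (ρ • u) ρ ∧ m - z ∈ ball (ρ • u) ρ ∧
      ‖m‖ ≤ 2 * s ^ 2 ∧ ‖z‖ ≤ s := by
  have uu : ⟪u, u⟫_ℝ = 1 := by rw [real_inner_self_eq_norm_sq, hu]; norm_num
  obtain ⟨w, rfl⟩ : ∃ w, y = u + w := ⟨y - u, by abel⟩
  have hw : ‖w‖ ≤ ε := by simpa [dist_eq_norm] using hy
  set b := ⟪u, w⟫_ℝ with hb
  have b1 : |b| ≤ ε := (abs_real_inner_le_norm u w).trans (by rw [hu, one_mul]; exact hw)
  obtain ⟨b2, b3⟩ := abs_le.1 b1
  have o1 : ⟪u, w - b • u⟫_ℝ = 0 := by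
    rw [inner_sub_right, real_inner_smul_right, uu, ← hb]; ring
  have n1 : ‖w - b • u‖ ^ 2 ≤ ε ^ 2 := by
    have := norm_add_sq_real (b • u) (w - b • u)
    rw [add_sub_cancel, real_inner_smul_left, o1] at this
    nlinarith [sq_nonneg ‖b • u‖, norm_nonneg w]
  have key : ∀ σ : ℝ, σ ^ 2 = s ^ 2 →
      (s ^ 2 * (1 + b)) • u + σ • (w - b • u) ∈ ball (ρ • u) ρ := fun σ hσ => by
    rw [mem_ball_iff_norm]
    refine lt_of_pow_lt_pow_left₀ 2 hρ.le ?_
    have e : (s ^ 2 * (1 + b)) • u + σ • (w - b • u) - ρ • u =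
        (s ^ 2 * (1 + b) - ρ) • u + σ • (w - b • u) := by module
    rw [e, norm_add_sq_real, real_inner_smul_left, real_inner_smul_right, o1, norm_smul, norm_smul,
      hu, mul_one, mul_pow, Real.norm_eq_abs, Real.norm_eq_abs, sq_abs, sq_abs, hσ]
    have p := pow_pos s0 2
    have q1 := mul_le_mul_of_nonneg_left (n1.trans e2) p.le
    have q2 : s ^ 2 * (1 + b) ^ 2 < ρ / 2 := by
      have : (1 + b) ^ 2 ≤ 9 / 4 := by nlinarith
      nlinarith
    have q3 := mul_lt_mul_of_pos_left q2 p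
    have q4 : s ^ 2 * ρ * (1 / 2) ≤ s ^ 2 * ρ * (1 + b) :=
      mul_le_mul_of_nonneg_left (by linarith) (by positivity)
    nlinarith
  refine ⟨(s ^ 2 * (1 + b)) • u, s • (w - b • u), ?_, key s rfl, ?_, ?_, ?_⟩
  · change s • (u + w + ⟪u, u + w⟫_ℝ • (s - 1) • u) = _
    rw [inner_add_right, uu, ← hb]
    module
  · have := key (-s) (by ring)
    rwa [neg_smul, ← sub_eq_add_neg] at this
  · rw [norm_smul, hu, mul_one, Real.norm_of_nonneg (mul_nonneg (sq_nonneg s) (by linarith))]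
    nlinarith [sq_nonneg s]
  · rw [norm_smul, Real.norm_of_nonneg s0.le]
    refine mul_le_of_le_one_right s0.le (abs_le_of_sq_le_sq' (by nlinarith) zero_le_one).2

/-- The test function at scale `s`. -/
theorem bump (n : ℕ) : ∃ K : ℝ, 0 < K ∧ ∀ s t : ℝ, 0 < s → s ≤ 1 → ∃ ψ : En n → ℝ, Tst ψ ∧
    tsupport ψ ⊆ closedBall 0 (4 * s) ∧ (∀ y ∈ closedBall (0 : En n) (3 * s), ψ y = t) ∧
    ∀ y, ψ y ^ 2 + ∑ i, D (ee i) ψ y ^ 2 ≤ K * (t ^ 2 / s ^ 2) := by
  let φ : ContDiffBump (0 : En n) := ⟨3, 4, by norm_num, by norm_num⟩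
  have hφ : Tst φ := ⟨φ.contDiff, φ.hasCompactSupport⟩
  obtain ⟨M, hM⟩ := (Tst.sum Finset.univ fun i _ => (hφ.D (ee i)).sq).2.exists_bound_of_continuous
    (Tst.sum Finset.univ fun i _ => (hφ.D (ee i)).sq).1.continuous
  have M0 : 0 ≤ M := (norm_nonneg _).trans (hM 0)
  refine ⟨1 + M, by linarith, fun s t s0 s1 => ?_⟩
  have sm : Sm fun y : En n => φ (s⁻¹ • y) := φ.contDiff.comp (contDiff_const_smul _)
  have nm : ∀ y : En n, ‖s⁻¹ • y‖ = ‖y‖ / s := fun y => by
    rw [norm_smul, Real.norm_of_nonneg (by positivity), div_eq_inv_mul]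
  have hs : tsupport (fun y : En n => t * φ (s⁻¹ • y)) ⊆ closedBall 0 (4 * s) := by
    refine closure_minimal (fun y hy => ?_) isClosed_closedBall
    have h1 : s⁻¹ • y ∈ Function.support φ := fun h => hy (by simp only [h, mul_zero])
    rw [φ.support_eq, mem_ball_zero_iff, nm, div_lt_iff₀ s0] at h1
    exact mem_closedBall_zero_iff.2 h1.le
  refine ⟨fun y => t * φ (s⁻¹ • y), ⟨sm.cmul t,
    (isCompact_closedBall _ _).of_isClosed_subset (isClosed_tsupport _) hs⟩, hs, fun y hy => ?_,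
    fun y => ?_⟩
  · beta_reduce
    rw [φ.one_of_mem_closedBall, mul_one]
    rw [mem_closedBall_zero_iff, nm, div_le_iff₀ s0]
    exact mem_closedBall_zero_iff.1 hy
  · have e : ∀ i, D (ee i) (fun y : En n => t * φ (s⁻¹ • y)) y ^ 2 =
        t ^ 2 / s ^ 2 * D (ee i) φ (s⁻¹ • y) ^ 2 := fun i => by
      rw [D_const_mul_at (sm.dAt y)]
      simp only [D]
      rw [fderiv_comp_smul, smul_apply, smul_eq_mul]
      field_simp
    simp only [e, ← Finset.mul_sum]
    have h1 := (le_abs_self _).trans (hM (s⁻¹ • y))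
    have h2 : (φ (s⁻¹ • y)) ^ 2 ≤ 1 := pow_le_one₀ φ.nonneg φ.le_one
    have h3 : t ^ 2 ≤ t ^ 2 / s ^ 2 := le_div_self (sq_nonneg t) (by positivity)
      (pow_le_one₀ s0.le s1)
    have h4 := mul_le_mul_of_nonneg_left h1 (show 0 ≤ t ^ 2 / s ^ 2 by positivity)
    have h5 := mul_le_mul_of_nonneg_left h2 (sq_nonneg t)
    rw [mul_pow]
    linarith

end ManNoT
open ManNoT

theorem e_notouch (h0 : E_eden) : E_notouch := by
  intro n hn ι _ _ _ g A R ρ C q f hg hR hρ hq hf hp hl hb H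
  obtain ⟨-, -, -, p0, -, -, -, hc⟩ := h0 n ι g A hg
  obtain ⟨c, c0, hc⟩ := hc R
  obtain ⟨K, K0, hK⟩ := bump n
  obtain ⟨u, hu, rfl⟩ : ∃ u : En n, ‖u‖ = 1 ∧ q = ρ • u := ⟨ρ⁻¹ • q, by
    rw [norm_smul, hq, Real.norm_of_nonneg (by positivity), inv_mul_cancel₀ hρ.ne'], by
    rw [smul_smul, mul_inv_cancel₀ hρ.ne', one_smul]⟩
  have C0 : 0 ≤ C := (abs_nonneg _).trans (hb _ (mem_ball_self hρ) ⟨0, by omega⟩).1
  have hcl : (0 : En n) ∈ closure (ball (ρ • u) ρ) := by
    rw [closure_ball _ hρ.ne', mem_closedBall, dist_zero_left, hq]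
  obtain ⟨ε, e0, e1, e2⟩ : ∃ ε : ℝ, 0 < ε ∧ ε ≤ 1 / 2 ∧ ε ^ 2 ≤ ρ / 2 := by
    refine ⟨min (1 / 2) ρ, by positivity, min_le_left _ _, ?_⟩
    have := mul_le_mul (min_le_left (1 / 2) ρ) (min_le_right (1 / 2) ρ) (by positivity)
      (by norm_num)
    linarith [sq (min (1 / 2) ρ)]
  set v₀ := volume.real (closedBall u ε) with hv₀
  have v0 : 0 < v₀ := ENNReal.toReal_pos (measure_closedBall_pos _ _ e0).ne'
    measure_closedBall_lt_top.ne
  set v₁ := volume.real (ball (0 : En n) 1) with hv₁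
  have v1 : 0 < v₁ := ENNReal.toReal_pos (measure_ball_pos _ _ one_pos).ne' measure_ball_lt_top.ne
  set C₃ := c⁻¹ * K * 4 ^ n * v₁ with hC₃
  have C3 : 0 < C₃ := by positivity
  set h₀ : ℝ := 4 * (n * C) + 2 * (n * (n * C)) + 1 with hh₀
  have κ0 : (0 : ℝ) < Fintype.card ι := by exact_mod_cast Fintype.card_pos
  have main : ∀ s : ℝ, 0 < s → s ≤ 1 → 5 * s ^ 2 ≤ ρ → 4 * s < R →
      v₀ / C₃ ≤ C * h₀ ^ 2 * s := by
    intro s s0 s1 s2 s3
    obtain ⟨ψ, t1, t2, t3, t4⟩ := hK s (v₀ / C₃ * s ^ 3) s0 s1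
    have cpt : IsCompact (T u s '' closedBall u ε) :=
      (isCompact_closedBall _ _).image (T u s).continuous_of_finiteDimensional
    have vol : volume.real (T u s '' closedBall u ε) = s ^ n * s * v₀ := by
      rw [measureReal_def, Measure.addHaar_image_linearMap, T_det hu, ENNReal.toReal_mul,
        ENNReal.toReal_ofReal (abs_nonneg _), abs_of_pos (by positivity)]
      rfl
    have : IsFiniteMeasure (volume.restrict (T u s '' closedBall u ε)) :=
      isFiniteMeasure_restrict.2 cpt.measure_lt_top.ne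
    have H1 := H (h₀ * s ^ 2) _ (fun _ _ => 1) (fun _ => ψ) (by positivity) cpt.measurableSet
      (by
        rintro _ ⟨y, hy, rfl⟩
        obtain ⟨m, z, a1, a2, -⟩ := geo hu hρ e1 e2 s0 s2 hy
        rwa [a1])
      (by
        rintro _ ⟨y, hy, rfl⟩
        obtain ⟨m, z, a1, a2, a3, a4, a5⟩ := geo hu hρ e1 e2 s0 s2 hy
        rw [a1]
        refine (second (convex_ball _ _) isOpen_ball hf C0 hp hcl hl hb a2 a3).trans ?_
        have b1 := mul_le_mul_of_nonneg_left a4 (show 0 ≤ n * C by positivity)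
        have b2 := mul_le_mul_of_nonneg_left (pow_le_pow_left₀ (norm_nonneg _) a5 2)
          (show 0 ≤ n * (n * C) by positivity)
        nlinarith [sq_nonneg s])
      (fun _ => memLp_const 1) fun _ => ⟨t1, t2.trans (closedBall_subset_ball s3)⟩
    have i1 : ∫ y in T u s '' closedBall u ε, 1 * ψ y = s ^ n * s * v₀ * (v₀ / C₃ * s ^ 3) := by
      rw [setIntegral_congr_fun cpt.measurableSet (g := fun _ => v₀ / C₃ * s ^ 3), setIntegral_const,
        vol, smul_eq_mul]
      rintro _ ⟨y, hy, rfl⟩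
      obtain ⟨m, z, a1, -, -, a4, a5⟩ := geo hu hρ e1 e2 s0 s2 hy
      refine (one_mul _).trans (t3 _ (mem_closedBall_zero_iff.2 ?_))
      rw [a1]
      refine (norm_add_le _ _).trans ?_
      nlinarith
    have i2 : enU (ball 0 R) g A (fun _ => ψ) ≤
        (4 * s) ^ n * v₁ * (c⁻¹ * (Fintype.card ι * (K * ((v₀ / C₃ * s ^ 3) ^ 2 / s ^ 2)))) := by
      have hi : Integrable ((closedBall (0 : En n) (4 * s)).indicator fun _ =>
          c⁻¹ * (Fintype.card ι * (K * ((v₀ / C₃ * s ^ 3) ^ 2 / s ^ 2)))) :=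
        (integrable_indicator_iff measurableSet_closedBall).2
          (integrableOn_const measure_closedBall_lt_top.ne)
      refine (integral_mono_of_nonneg (Eventually.of_forall (p0 _)) hi.integrableOn ?_).trans
        ((setIntegral_le_integral hi (Eventually.of_forall
          (indicator_nonneg fun _ _ => by positivity))).trans (le_of_eq ?_))
      · filter_upwards [ae_restrict_mem measurableSet_ball] with x hx
        have d1 := ((hc x (ball_subset_closedBall hx)).2.2.2 fun _ => ψ).2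
        rw [Finset.sum_const, Finset.card_univ, nsmul_eq_mul] at d1
        by_cases hx' : x ∈ closedBall (0 : En n) (4 * s)
        · rw [indicator_of_mem hx', le_inv_mul_iff₀ c0]
          exact d1.trans (mul_le_mul_of_nonneg_left (t4 x) κ0.le)
        · have d2 : x ∉ tsupport ψ := fun h => hx' (t2 h)
          simp only [image_eq_zero_of_notMem_tsupport d2, D_eq_zero_of_notMem d2, ne_eq,
            OfNat.ofNat_ne_zero, not_false_eq_true, zero_pow, Finset.sum_const_zero, add_zero,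
            mul_zero] at d1
          rw [indicator_of_notMem hx']
          exact nonpos_of_mul_nonpos_right d1 c0
      · rw [integral_indicator measurableSet_closedBall, setIntegral_const,
          Measure.addHaar_real_closedBall _ _ (by positivity), finrank_euclideanSpace_fin,
          smul_eq_mul]
    simp only [nrm, i1, one_pow, setIntegral_const, vol, smul_eq_mul, mul_one, Finset.sum_const,
      Finset.card_univ, nsmul_eq_mul] at H1
    have p : 0 < Fintype.card ι * (s ^ n * s ^ 4 * v₀) := by positivity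
    refine le_of_mul_le_mul_left ?_ p
    have i3 : (4 * s) ^ n * v₁ * (c⁻¹ * (Fintype.card ι * (K * ((v₀ / C₃ * s ^ 3) ^ 2 / s ^ 2))))
        = Fintype.card ι * (s ^ n * s ^ 4 * v₀) * (v₀ / C₃) := by
      rw [hC₃, mul_pow]
      field_simp
    rw [i3] at i2
    linarith
  have ev : ∀ᶠ s : ℝ in 𝓝[>] 0, v₀ / C₃ ≤ C * h₀ ^ 2 * s := by
    have a1 : ∀ᶠ s : ℝ in 𝓝 0, s < 1 := gt_mem_nhds one_pos
    have a2 : ∀ᶠ s : ℝ in 𝓝 0, 5 * s ^ 2 < ρ :=
      ((by fun_prop : Continuous fun s : ℝ => 5 * s ^ 2).tendsto 0).eventually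
        (gt_mem_nhds (by simpa using hρ))
    have a3 : ∀ᶠ s : ℝ in 𝓝 0, 4 * s < R :=
      ((by fun_prop : Continuous fun s : ℝ => 4 * s).tendsto 0).eventually
        (gt_mem_nhds (by simpa using hR))
    filter_upwards [self_mem_nhdsWithin, mem_nhdsWithin_of_mem_nhds a1,
      mem_nhdsWithin_of_mem_nhds a2, mem_nhdsWithin_of_mem_nhds a3] with s b0 b1 b2 b3
    exact main s b0 b1.le b2.le b3
  have t := ((by fun_prop : Continuous fun s : ℝ => C * h₀ ^ 2 * s).tendsto 0).mono_left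
    (nhdsWithin_le_nhds (s := Ioi 0))
  rw [mul_zero] at t
  exact (div_pos v0 C3).not_ge (ge_of_tendsto t ev)

end Vale.Agent.P088
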