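import Vale.Agent.P088.ManE

/-! P088, manifold part: the Poincare inequality across the flat part. -/

open MeasureTheory Set Metric
open scoped ContDiff Topology InnerProductSpace

noncomputable section
namespace Vale.Agent.P088
open Vale.Agent.P136 (D Sm Tst)

namespace ManRefl

variable {n : ℕ}

theorem intOn {r : ℝ} {U : Set (En n)} (hU : U ⊆ ball 0 r) {f : En n → ℝ} (hf : Continuous f) :
    IntegrableOn f U :=
  (hf.continuousOn.integrableOn_compact (isCompact_closedBall 0 r)).mono_set
    (hU.trans ball_subset_closedBall)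

theorem cs {f : ℝ → ℝ} (hf : Continuous f) :
    (∫ t in (0 : ℝ)..1, f t) ^ 2 ≤ ∫ t in (0 : ℝ)..1, f t ^ 2 := by
  set m := ∫ t in (0 : ℝ)..1, f t with hm
  have h0 : 0 ≤ ∫ t in (0 : ℝ)..1, (f t - m) ^ 2 :=
    intervalIntegral.integral_nonneg zero_le_one fun _ _ => sq_nonneg _
  have e : ∀ t, (f t - m) ^ 2 = (f t ^ 2 - 2 * m * f t) + m ^ 2 := fun t => by ring
  have i1 : IntervalIntegrable (fun t => f t ^ 2) volume 0 1 := (hf.pow 2).intervalIntegrable _ _
  have i2 : IntervalIntegrable (fun t => 2 * m * f t) volume 0 1 :=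
    (continuous_const.mul hf).intervalIntegrable _ _
  simp only [e] at h0
  rw [intervalIntegral.integral_add (i1.sub i2) intervalIntegrable_const,
    intervalIntegral.integral_sub i1 i2, intervalIntegral.integral_const_mul, ← hm] at h0
  simp only [intervalIntegral.integral_const, sub_zero, smul_eq_mul, one_mul] at h0
  nlinarith

theorem nrm_eq {ι : Type} [Fintype ι] {r : ℝ} {U : Set (En n)} (hU : U ⊆ ball 0 r)
    {v : ι → En n → ℝ} (hv : SmV v) : nrm U v = ∫ y in U, √(∑ a, v a y ^ 2) ^ 2 := by
  unfold nrm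
  rw [← integral_finsetSum (f := fun a y => v a y ^ 2) _ fun a _ =>
    intOn hU ((hv a).continuous.pow 2)]
  refine integral_congr_ae (Filter.Eventually.of_forall fun y => ?_)
  simp only
  rw [Real.sq_sqrt (Finset.sum_nonneg fun a _ => sq_nonneg _)]

variable [NeZero n]

theorem norm_e : ‖(ee 0 : En n)‖ = 1 := by simp [ee]

theorem sub_e (y : En n) (s : ℝ) : (y - s • (ee 0 : En n)) 0 = y 0 - s := by simp [ee]

theorem abs_le (y : En n) : |y 0| ≤ ‖y‖ := PiLp.norm_apply_le y 0

theorem mUp (r : ℝ) : MeasurableSet (Up n r) :=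
  (isOpen_ball.inter (isOpen_lt continuous_const (by fun_prop))).measurableSet

theorem mLo (r : ℝ) : MeasurableSet (Lo n r) :=
  (isOpen_ball.inter (isOpen_lt (by fun_prop) continuous_const)).measurableSet

/-- The average along the normal segment. -/
def av (h : En n → ℝ) (y : En n) : ℝ := ∫ t in (0 : ℝ)..1, h (y - (t * y 0) • ee 0)

theorem av_cont {h : En n → ℝ} (hh : Continuous h) : Continuous (av h) :=
  intervalIntegral.continuous_parametric_intervalIntegral_of_continuous'
    (f := fun (y : En n) (t : ℝ) => h (y - (t * y 0) • ee 0)) (hh.comp (by fun_prop)) 0 1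

/-- The reflection in the flat part. -/
def rf (n : ℕ) [NeZero n] : En n ≃ₗᵢ[ℝ] En n := (ℝ ∙ (ee 0 : En n))ᗮ.reflection

theorem rf_apply (y : En n) : rf n y = y - (2 * y 0) • ee 0 := by
  rw [rf, Submodule.reflection_orthogonal_apply, Submodule.reflection_singleton_apply, norm_e]
  simp [ee, EuclideanSpace.inner_single_left, two_smul, two_mul, add_smul]

theorem rf_pre (r : ℝ) : rf n ⁻¹' Lo n r = Up n r := by
  ext y
  simp only [Lo, Up, mem_preimage, mem_inter_iff, mem_ball_zero_iff, LinearIsometryEquiv.norm_map,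
    mem_ofPred_eq]
  rw [rf_apply, sub_e]
  constructor <;> rintro ⟨h1, h2⟩ <;> exact ⟨h1, by linarith⟩

theorem int_rf (r : ℝ) (F : En n → ℝ) : ∫ y in Up n r, F (rf n y) = ∫ y in Lo n r, F y := by
  rw [← rf_pre]
  exact (rf n).measurePreserving.setIntegral_preimage_emb
    (rf n).toHomeomorph.measurableEmbedding F _

theorem low {r : ℝ} (hr : 0 ≤ r) {E : En n → ℝ} (hE : Continuous E) (h0 : ∀ z, 0 ≤ E z)
    (hz : ∀ z, z ∉ ball (0 : En n) r → E z = 0) :
    ∫ y in Lo n r, ∫ t in (0 : ℝ)..1, E (y - ((1 - t) * r) • ee 0) ≤ ∫ y in Lo n r, E y := by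
  have hc : Continuous (Function.uncurry fun (t : ℝ) (y : En n) => E (y - ((1 - t) * r) • ee 0)) :=
    hE.comp (by fun_prop)
  have hi : Integrable (Function.uncurry fun (t : ℝ) (y : En n) => E (y - ((1 - t) * r) • ee 0))
      ((volume.restrict (uIoc (0 : ℝ) 1)).prod (volume.restrict (Lo n r))) := by
    rw [Measure.prod_restrict, ← Measure.volume_eq_prod]
    refine (hc.continuousOn.integrableOn_compact
      ((isCompact_uIcc (a := (0 : ℝ)) (b := 1)).prod (isCompact_closedBall 0 r))).mono_set ?_
    exact prod_mono uIoc_subset_uIcc (inter_subset_left.trans ball_subset_closedBall)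
  rw [← intervalIntegral_integral_swap hi]
  have ik : Integrable (indicator (Lo n r) E) :=
    (integrable_indicator_iff (mLo r)).2 (intOn inter_subset_left hE)
  have key : ∀ t ∈ uIoc (0 : ℝ) 1,
      ‖∫ y in Lo n r, E (y - ((1 - t) * r) • ee 0)‖ ≤ ∫ y in Lo n r, E y := by
    intro t ht
    rw [uIoc_of_le zero_le_one] at ht
    rw [Real.norm_of_nonneg (integral_nonneg fun y => h0 _), ← integral_indicator (mLo r) (f := E),
      ← integral_sub_right_eq_self (indicator (Lo n r) E) (((1 - t) * r) • ee 0)]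
    refine le_trans (le_of_eq (setIntegral_congr_fun (mLo r) fun y hy => ?_))
      (setIntegral_le_integral (s := Lo n r) (ik.comp_sub_right _)
        (Filter.Eventually.of_forall fun y => indicator_nonneg (fun z _ => h0 z) _))
    by_cases hb : y - ((1 - t) * r) • ee 0 ∈ ball (0 : En n) r
    · refine (indicator_of_mem (show _ ∈ Lo n r from ⟨hb, ?_⟩) E).symm
      have h1 : y 0 < 0 := hy.2
      have h2 := mul_nonneg (sub_nonneg.2 ht.2) hr
      show (y - ((1 - t) * r) • (ee 0 : En n)) 0 < 0
      rw [sub_e]; linarith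
    · rw [hz _ hb, indicator_of_notMem fun h => hb h.1]
  have := intervalIntegral.norm_integral_le_of_norm_le_const key
  simp only [sub_zero, abs_one, mul_one] at this
  exact (le_abs_self _).trans this

end ManRefl

open ManRefl in
theorem e_refl (h0 : E_eden) (hk : E_kato) (ht : E_ts) : E_refl := by
  intro n _ ι _ _ g A r hg
  rcases le_or_gt r 0 with hr | hr
  · refine ⟨0, le_rfl, fun v w _ _ _ => ?_⟩
    simp [nrm, Up, Lo, ball_eq_empty.2 hr]
  obtain ⟨-, -, -, e0, -, esm, -, -⟩ := h0 n ι g A hg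
  obtain ⟨C, hC, hK⟩ := hk n ι g A (2 * r) hg
  refine ⟨16 * (C * r) ^ 2, by positivity, fun v w hv hw hvw => ?_⟩
  have hw' : SmV w := fun a => (hw a).1.1
  have cE : ∀ u, SmV u → Continuous fun y => √(eden g A u u y) :=
    fun u hu => (esm u u hu hu).continuous.sqrt
  have cN : ∀ u : ι → En n → ℝ, SmV u → Continuous fun y => √(∑ a, u a y ^ 2) :=
    fun u hu => (continuous_finsetSum _ fun a _ => (hu a).continuous.pow 2).sqrt
  have sU : Up n r ⊆ ball 0 r := inter_subset_left
  have sL : Lo n r ⊆ ball 0 r := inter_subset_left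
  have en : ∀ (U : Set (En n)) u, ∫ y in U, √(eden g A u u y) ^ 2 = enU U g A u := fun U u =>
    integral_congr_ae (Filter.Eventually.of_forall fun y => Real.sq_sqrt (e0 u y))
  have en0 : ∀ (U : Set (En n)) u, 0 ≤ enU U g A u := fun U u => integral_nonneg fun y => e0 u y
  have w0 : ∀ z, z ∉ ball (0 : En n) r → ∀ a, w a z = 0 := fun z hz a =>
    image_eq_zero_of_notMem_tsupport fun h => hz ((hw a).2 h)
  have ez : ∀ z, z ∉ ball (0 : En n) r → eden g A w w z = 0 := fun z hz => by
    have : ∀ i a, cov A i w a z = 0 := fun i a => by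
      simp [cov, w0 z hz, P136.D_eq_zero_of_notMem fun h => hz ((hw a).2 h)]
    simp [eden, this]
  have inb : ∀ y ∈ ball (0 : En n) r, ∀ s : ℝ, |s| ≤ r →
      y - s • ee 0 ∈ closedBall (0 : En n) (2 * r) := fun y hy s hs => by
    rw [mem_closedBall_zero_iff]
    have := norm_sub_le y (s • ee 0)
    rw [norm_smul, norm_e, mul_one, Real.norm_eq_abs] at this
    linarith [mem_ball_zero_iff.1 hy]
  have inb' : ∀ y ∈ ball (0 : En n) r, y ∈ closedBall (0 : En n) (2 * r) := fun y hy => by
    rw [mem_closedBall_zero_iff]; linarith [mem_ball_zero_iff.1 hy]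
  have Cr : 0 ≤ C * r := by positivity
  have lo : nrm (Lo n r) w ≤ (C * r) ^ 2 * enU (Lo n r) g A w := by
    have cw := (esm w w hw' hw').continuous
    refine le_trans ?_ (mul_le_mul_of_nonneg_left (low hr.le cw (e0 w) ez) (by positivity))
    rw [nrm_eq sL hw', ← integral_const_mul]
    refine setIntegral_mono_on (intOn sL ((cN w hw').pow 2)) (intOn sL (continuous_const.mul
      (intervalIntegral.continuous_parametric_intervalIntegral_of_continuous'
        (f := fun (y : En n) (t : ℝ) => eden g A w w (y - ((1 - t) * r) • ee 0))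
        (cw.comp (by fun_prop)) 0 1))) (mLo r) fun y hy => ?_
    have k := hK w hw' _ (inb y hy.1 r (abs_of_pos hr).le) y (inb' y hy.1)
    have hx : y - r • ee 0 ∉ ball (0 : En n) r := fun h => by
      have h1 := abs_le (y - r • (ee 0 : En n))
      have h2 : y 0 < 0 := hy.2
      rw [sub_e, abs_of_neg (by linarith)] at h1
      linarith [mem_ball_zero_iff.1 h]
    have e1 : ∀ t : ℝ, y - r • ee 0 + t • (y - (y - r • ee 0)) = y - ((1 - t) * r) • ee 0 :=
      fun t => by module
    simp only [w0 _ hx, e1] at k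
    rw [sub_sub_cancel, norm_smul, norm_e, mul_one, Real.norm_of_nonneg hr.le] at k
    simp only [ne_eq, OfNat.ofNat_ne_zero, not_false_eq_true, zero_pow, Finset.sum_const_zero,
      Real.sqrt_zero, zero_add] at k
    have c := cs (f := fun t : ℝ => √(eden g A w w (y - ((1 - t) * r) • ee 0)))
      ((cE w hw').comp (by fun_prop))
    simp only [Real.sq_sqrt (e0 w _)] at c
    calc _ ≤ _ := pow_le_pow_left₀ (Real.sqrt_nonneg _) k 2
      _ ≤ _ := by rw [mul_pow]; exact mul_le_mul_of_nonneg_left c (by positivity)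
  have up : nrm (Up n r) v ≤ 3 * (nrm (Lo n r) w + (C * r) ^ 2 * (4 * enU (Lo n r) g A w) +
      (C * r) ^ 2 * (4 * enU (Up n r) g A v)) := by
    have t1 : ∫ y in Lo n r, av (fun y => √(eden g A w w y)) y ^ 2 ≤ 4 * enU (Lo n r) g A w := by
      rw [← en]; exact ht n r _ _ (Or.inr rfl) (cE w hw')
    have t2 : ∫ y in Up n r, av (fun y => √(eden g A v v y)) y ^ 2 ≤ 4 * enU (Up n r) g A v := by
      rw [← en]; exact ht n r _ _ (Or.inl rfl) (cE v hv)
    rw [← int_rf] at t1
    have i1 : IntegrableOn (fun y => √(∑ a, w a (rf n y) ^ 2) ^ 2) (Up n r) :=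
      intOn sU (((cN w hw').comp (rf n).continuous).pow 2)
    have i2 : IntegrableOn (fun y => (C * r) ^ 2 * av (fun y => √(eden g A w w y)) (rf n y) ^ 2)
        (Up n r) :=
      (intOn sU (((av_cont (cE w hw')).comp (rf n).continuous).pow 2)).const_mul _
    have i3 : IntegrableOn (fun y => (C * r) ^ 2 * av (fun y => √(eden g A v v y)) y ^ 2)
        (Up n r) := (intOn sU ((av_cont (cE v hv)).pow 2)).const_mul _
    have i4 : IntegrableOn (fun y => √(∑ a, w a (rf n y) ^ 2) ^ 2 +
        (C * r) ^ 2 * av (fun y => √(eden g A w w y)) (rf n y) ^ 2) (Up n r) := i1.add i2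
    have main : nrm (Up n r) v ≤ ∫ y in Up n r, 3 * (√(∑ a, w a (rf n y) ^ 2) ^ 2 +
        (C * r) ^ 2 * av (fun y => √(eden g A w w y)) (rf n y) ^ 2 +
        (C * r) ^ 2 * av (fun y => √(eden g A v v y)) y ^ 2) := by
      rw [nrm_eq sU hv]
      refine setIntegral_mono_on (intOn sU ((cN v hv).pow 2)) ((i4.add i3).const_mul 3)
        (mUp r) fun y hy => ?_
      have y0 : 0 < y 0 := hy.2
      have yr : |y 0| ≤ r := (abs_le y).trans (mem_ball_zero_iff.1 hy.1).le
      have hb : rf n y ∈ ball (0 : En n) r := by simpa using hy.1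
      have hy' : y - y 0 • ee 0 ∈ ball (0 : En n) r := by
        have : y - y 0 • ee 0 = (1 / 2 : ℝ) • y + (1 / 2 : ℝ) • rf n y := by
          rw [rf_apply]; module
        rw [this]
        exact convex_ball _ _ hy.1 hb (by norm_num) (by norm_num) (by norm_num)
      have k1 := hK v hv _ (inb' _ hy') y (inb' y hy.1)
      have k2 := hK w hw' _ (inb' _ hb) _ (inb' _ hy')
      have e1 : ∀ t : ℝ, y - y 0 • ee 0 + t • (y - (y - y 0 • ee 0)) =
          y - ((1 - t) * y 0) • ee 0 := fun t => by module
      have e2 : ∀ t : ℝ, rf n y + t • (y - y 0 • ee 0 - rf n y) =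
          rf n y - (t * rf n y 0) • ee 0 := fun t => by
        rw [rf_apply, sub_e]; module
      have e3 : y - y 0 • ee 0 - rf n y = y 0 • ee 0 := by rw [rf_apply]; module
      simp only [e1] at k1
      simp only [e2] at k2
      rw [intervalIntegral.integral_comp_sub_left
        (fun t : ℝ => √(eden g A v v (y - (t * y 0) • ee 0))) 1, sub_self, sub_zero,
        sub_sub_cancel, norm_smul, norm_e, mul_one, Real.norm_eq_abs] at k1
      rw [e3, norm_smul, norm_e, mul_one, Real.norm_eq_abs] at k2
      simp only [hvw _ hy' (by rw [sub_e, sub_self])] at k1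
      change _ ≤ _ + C * _ * av (fun y => √(eden g A v v y)) y at k1
      change _ ≤ _ + C * _ * av (fun y => √(eden g A w w y)) (rf n y) at k2
      have a0 : ∀ (u : ι → En n → ℝ) z, 0 ≤ av (fun y => √(eden g A u u y)) z := fun u z =>
        intervalIntegral.integral_nonneg zero_le_one fun _ _ => Real.sqrt_nonneg _
      have k3 := mul_le_mul_of_nonneg_right (mul_le_mul_of_nonneg_left yr hC) (a0 v y)
      have k4 := mul_le_mul_of_nonneg_right (mul_le_mul_of_nonneg_left yr hC) (a0 w (rf n y))
      have k5 := pow_le_pow_left₀ (Real.sqrt_nonneg _)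
        (k1.trans (add_le_add (k2.trans (add_le_add le_rfl k4)) k3)) 2
      rw [← mul_pow, ← mul_pow]
      refine k5.trans ?_
      generalize √(∑ a, w a (rf n y) ^ 2) = a
      generalize C * r * av (fun y => √(eden g A w w y)) (rf n y) = b
      generalize C * r * av (fun y => √(eden g A v v y)) y = c
      nlinarith [sq_nonneg (a - b), sq_nonneg (a - c), sq_nonneg (b - c)]
    rw [integral_const_mul, integral_add i4 i3, integral_add i1 i2, integral_const_mul,
      integral_const_mul] at main
    refine main.trans (mul_le_mul_of_nonneg_left (add_le_add (add_le_add (le_of_eq ?_)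
      (mul_le_mul_of_nonneg_left t1 (by positivity)))
      (mul_le_mul_of_nonneg_left t2 (by positivity))) (by norm_num))
    rw [nrm_eq sL hw', ← int_rf]
  have := mul_nonneg (sq_nonneg (C * r)) (en0 (Up n r) v)
  nlinarith

end Vale.Agent.P088
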