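import Vale.Agent.P088.ManE

/-!
# P088, manifold part: the `L²` norm on small balls about the vertex of a cone
-/

open MeasureTheory Set Metric Filter
open scoped ContDiff Topology Pointwise

noncomputable section
namespace Vale.Agent.P088

namespace ManScale

variable {n : ℕ} {Cn : Set (En n)}

lemma intOn {F : En n → ℝ} (hF : Continuous F) (s : ℝ) (Cn : Set (En n)) :
    IntegrableOn F (ball 0 s ∩ Cn) :=
  (hF.continuousOn.integrableOn_compact (isCompact_closedBall 0 s)).mono_set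
    (inter_subset_left.trans ball_subset_closedBall)

lemma mono {F : En n → ℝ} (hF : Continuous F) (h0 : ∀ x, 0 ≤ F x) {r : ℝ} {S : Set (En n)}
    (hS : S ⊆ ball 0 r ∩ Cn) : ∫ y in S, F y ≤ ∫ y in ball 0 r ∩ Cn, F y :=
  setIntegral_mono_set (intOn hF r Cn) (Eventually.of_forall h0) hS.eventuallyLE

lemma scale (hC : ∀ t : ℝ, 0 < t → ∀ y ∈ Cn, t • y ∈ Cn) {F : En n → ℝ} (hF : Continuous F)
    (h0 : ∀ x, 0 ≤ F x) {s r l : ℝ} (hl : 0 < l) (hr : l * s ≤ r) :
    ∫ y in ball 0 s ∩ Cn, F (l • y) ≤ (l ^ n)⁻¹ * ∫ y in ball 0 r ∩ Cn, F y := by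
  rw [Measure.setIntegral_comp_smul_of_pos volume F _ hl, finrank_euclideanSpace_fin, smul_eq_mul]
  refine mul_le_mul_of_nonneg_left (mono hF h0 ?_) (by positivity)
  rintro _ ⟨y, ⟨hy, hy'⟩, rfl⟩
  refine ⟨?_, hC l hl y hy'⟩
  rw [mem_ball_zero_iff] at hy ⊢
  rw [norm_smul, Real.norm_of_nonneg hl.le]
  exact (mul_lt_mul_of_pos_left hy hl).trans_le hr

lemma cs {e : ℝ → ℝ} (he : Continuous e) :
    (∫ t in (0 : ℝ)..1, e t) ^ 2 ≤ ∫ t in (0 : ℝ)..1, e t ^ 2 := by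
  set m := ∫ t in (0 : ℝ)..1, e t with hm
  have h1 : ∫ t in (0 : ℝ)..1, (2 * m * e t - m ^ 2) ≤ ∫ t in (0 : ℝ)..1, e t ^ 2 :=
    intervalIntegral.integral_mono_on zero_le_one (Continuous.intervalIntegrable (by fun_prop) _ _)
      (Continuous.intervalIntegrable (by fun_prop) _ _)
      fun t _ => by nlinarith [sq_nonneg (e t - m)]
  rw [intervalIntegral.integral_sub (Continuous.intervalIntegrable (by fun_prop) _ _)
    (Continuous.intervalIntegrable (by fun_prop) _ _), intervalIntegral.integral_const_mul,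
    intervalIntegral.integral_const, ← hm] at h1
  simp only [sub_zero, smul_eq_mul, one_mul] at h1
  linarith

lemma avg (hC : ∀ t : ℝ, 0 < t → ∀ y ∈ Cn, t • y ∈ Cn) {F : En n → ℝ} (hF : Continuous F)
    (h0 : ∀ x, 0 ≤ F x) {s r : ℝ} (hs : 0 < s) (hr : 2 * s ≤ r) :
    ∫ y in ball 0 s ∩ Cn, (∫ t in (0 : ℝ)..1, F ((2 - t) • y)) ≤ ∫ y in ball 0 r ∩ Cn, F y := by
  have hi : Integrable (Function.uncurry fun (t : ℝ) (y : En n) => F ((2 - t) • y))
      ((volume.restrict (uIoc (0 : ℝ) 1)).prod (volume.restrict (ball 0 s ∩ Cn))) := by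
    rw [Measure.prod_restrict]
    have hc : Continuous (Function.uncurry fun (t : ℝ) (y : En n) => F ((2 - t) • y)) :=
      hF.comp (by fun_prop)
    exact (hc.continuousOn.integrableOn_compact
      (isCompact_uIcc.prod (isCompact_closedBall 0 s))).mono_set
      (prod_mono uIoc_subset_uIcc (inter_subset_left.trans ball_subset_closedBall))
  rw [← intervalIntegral_integral_swap hi]
  have hE : 0 ≤ ∫ y in ball 0 r ∩ Cn, F y := integral_nonneg h0
  have := intervalIntegral.norm_integral_le_of_norm_le_const (a := 0) (b := 1)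
    (f := fun t : ℝ => ∫ y in ball 0 s ∩ Cn, F ((2 - t) • y)) (C := ∫ y in ball 0 r ∩ Cn, F y)
    fun t ht => by
      rw [uIoc_of_le zero_le_one] at ht
      rw [Real.norm_of_nonneg (integral_nonneg fun _ => h0 _)]
      refine (scale hC hF h0 (l := 2 - t) (r := r) (by linarith [ht.2])
        (by nlinarith [ht.1])).trans (mul_le_of_le_one_left hE ?_)
      exact inv_le_one_of_one_le₀ (one_le_pow₀ (by linarith [ht.2]))
  simp only [sub_zero, abs_one, mul_one] at this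
  exact (le_abs_self _).trans this

lemma step (hn : 3 ≤ n) (hm : MeasurableSet Cn) (hC : ∀ t : ℝ, 0 < t → ∀ y ∈ Cn, t • y ∈ Cn)
    {W F : En n → ℝ} (hW : Continuous W) (hW0 : ∀ x, 0 ≤ W x) (hF : Continuous F)
    (h0 : ∀ x, 0 ≤ F x) {s r C : ℝ} (hs : 0 < s) (hr : 2 * s ≤ r) (hC0 : 0 ≤ C)
    (hk : ∀ x ∈ closedBall (0 : En n) r, ∀ x' ∈ closedBall (0 : En n) r,
      √(W x') ≤ √(W x) + C * ‖x' - x‖ * ∫ t in (0 : ℝ)..1, √(F (x + t • (x' - x)))) :
    ∫ y in ball 0 s ∩ Cn, W y ≤ 3 / 16 * (∫ y in ball 0 (2 * s) ∩ Cn, W y) +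
      3 * C ^ 2 * s ^ 2 * ∫ y in ball 0 r ∩ Cn, F y := by
  have c1 : Continuous fun y : En n => W ((2 : ℝ) • y) := hW.comp (by fun_prop)
  have c2 : Continuous fun y : En n => ∫ t in (0 : ℝ)..1, F ((2 - t) • y) :=
    intervalIntegral.continuous_parametric_intervalIntegral_of_continuous'
      (f := fun (y : En n) (t : ℝ) => F ((2 - t) • y)) (hF.comp (by fun_prop)) 0 1
  have h1 : ∫ y in ball 0 s ∩ Cn, W y ≤ ∫ y in ball 0 s ∩ Cn,
      (3 / 2 * W ((2 : ℝ) • y) + 3 * C ^ 2 * s ^ 2 * ∫ t in (0 : ℝ)..1, F ((2 - t) • y)) := by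
    refine setIntegral_mono_on (intOn hW s Cn) (intOn (by fun_prop) s Cn)
      (measurableSet_ball.inter hm) fun y hy => ?_
    have hy' : ‖y‖ < s := mem_ball_zero_iff.1 hy.1
    have k := hk ((2 : ℝ) • y) (by
      rw [mem_closedBall_zero_iff, norm_smul, Real.norm_two]; linarith) y (by
      rw [mem_closedBall_zero_iff]; linarith)
    have e1 : y - (2 : ℝ) • y = -y := by module
    have e2 : ∀ t : ℝ, (2 : ℝ) • y + t • -y = (2 - t) • y := fun t => by module
    rw [e1, norm_neg] at k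
    simp only [e2] at k
    have k2 := cs (e := fun t : ℝ => √(F ((2 - t) • y))) (hF.comp (by fun_prop)).sqrt
    simp only [Real.sq_sqrt (h0 _)] at k2
    set m := ∫ t in (0 : ℝ)..1, √(F ((2 - t) • y))
    have m0 : 0 ≤ m := intervalIntegral.integral_nonneg zero_le_one fun _ _ => Real.sqrt_nonneg _
    have k3 : √(W y) ≤ √(W ((2 : ℝ) • y)) + C * s * m := k.trans (by gcongr)
    have k4 := pow_le_pow_left₀ (Real.sqrt_nonneg _) k3 2
    have k5 := mul_le_mul_of_nonneg_left k2 (by positivity : 0 ≤ 3 * C ^ 2 * s ^ 2)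
    nlinarith [Real.sq_sqrt (hW0 y), Real.sq_sqrt (hW0 ((2 : ℝ) • y)),
      sq_nonneg (√(W ((2 : ℝ) • y)) - 2 * (C * s * m))]
  rw [integral_add ((intOn c1 s Cn).const_mul _) ((intOn c2 s Cn).const_mul _), integral_const_mul,
    integral_const_mul] at h1
  have h2 := scale hC hW hW0 two_pos (le_refl (2 * s))
  have h3 := mul_le_mul_of_nonneg_left (avg hC hF h0 hs hr) (by positivity : 0 ≤ 3 * C ^ 2 * s ^ 2)
  have h4 : ((2 : ℝ) ^ n)⁻¹ ≤ 1 / 8 := by
    rw [one_div]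
    exact inv_anti₀ (by norm_num) ((by norm_num : (8 : ℝ) = 2 ^ 3).trans_le
      (pow_le_pow_right₀ one_le_two hn))
  have h5 := mul_le_mul_of_nonneg_right h4
    (integral_nonneg (μ := volume.restrict (ball 0 (2 * s) ∩ Cn)) hW0)
  linarith

end ManScale

open ManScale

theorem e_scale (h0 : E_eden) (hk : E_kato) : E_scale := by
  intro n hn ι _ _ g A r Cn hg hm hC
  obtain ⟨C, hC0, hk⟩ := hk n ι g A r hg
  obtain ⟨-, -, -, hpos, -, hsm, -⟩ := h0 n ι g A hg
  refine ⟨12 * C ^ 2 + 4 / r ^ 2, by positivity, fun s hs hsr v hv => ?_⟩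
  have hr : 0 < r := hs.trans_le hsr
  have hW : Continuous fun y => ∑ a, v a y ^ 2 :=
    continuous_finsetSum _ fun a _ => (hv a).continuous.pow 2
  have hW0 : ∀ y, 0 ≤ ∑ a, v a y ^ 2 := fun y => by positivity
  have hN : ∀ s, nrm (ball 0 s ∩ Cn) v = ∫ y in ball 0 s ∩ Cn, ∑ a, v a y ^ 2 := fun s =>
    (integral_finsetSum _ fun a _ => intOn ((hv a).continuous.pow 2) s Cn).symm
  rw [hN, hN]
  change _ ≤ _ * ((∫ y in ball 0 r ∩ Cn, eden g A v v y) + _)
  set E := ∫ y in ball 0 r ∩ Cn, eden g A v v y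
  set N := ∫ y in ball 0 r ∩ Cn, ∑ a, v a y ^ 2
  have hE : 0 ≤ E := integral_nonneg (hpos v)
  have hN0 : 0 ≤ N := integral_nonneg hW0
  have big : ∀ s : ℝ, s ≤ r → r ≤ 2 * s → ∫ y in ball 0 s ∩ Cn, ∑ a, v a y ^ 2 ≤
      (12 * C ^ 2 + 4 / r ^ 2) * s ^ 2 * (E + N) := fun s h1 h2 => by
    have k1 : ∫ y in ball 0 s ∩ Cn, ∑ a, v a y ^ 2 ≤ N :=
      mono hW hW0 (inter_subset_inter_left _ (ball_subset_ball h1))
    have k2 : 1 ≤ 4 / r ^ 2 * s ^ 2 := by
      rw [div_mul_eq_mul_div, le_div_iff₀ (by positivity)]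
      nlinarith
    have k3 : 1 ≤ (12 * C ^ 2 + 4 / r ^ 2) * s ^ 2 := by nlinarith [sq_nonneg (C * s)]
    nlinarith
  have key : ∀ k : ℕ, ∀ s : ℝ, 0 < s → s ≤ r → r ≤ 2 ^ k * s →
      ∫ y in ball 0 s ∩ Cn, ∑ a, v a y ^ 2 ≤ (12 * C ^ 2 + 4 / r ^ 2) * s ^ 2 * (E + N) := by
    intro k
    induction k with
    | zero => exact fun s h1 h2 h3 => big s h2 (by linarith)
    | succ k ih =>
      intro s h1 h2 h3
      rcases le_total r (2 * s) with h4 | h4
      · exact big s h2 h4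
      have k1 := ih (2 * s) (by linarith) h4 (by rw [pow_succ] at h3; linarith)
      have k2 := step hn hm hC hW hW0 (hsm v v hv hv).continuous (hpos v) h1 h4 hC0 (hk v hv)
      have k3 : 0 ≤ 4 / r ^ 2 * s ^ 2 * (E + N) := by positivity
      have k4 : 0 ≤ C ^ 2 * s ^ 2 * N := by positivity
      nlinarith
  obtain ⟨k, hk⟩ := pow_unbounded_of_one_lt (r / s) (one_lt_two (α := ℝ))
  exact key k s hs hsr ((div_le_iff₀ hs).1 hk.le)

end Vale.Agent.P088
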