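import Vale.Agent.P088.ManE

/-!
# P088, manifold part: the averaging operator along the normal direction is bounded on `L²`
-/

open MeasureTheory Set Metric
open scoped ContDiff Topology InnerProductSpace

noncomputable section
namespace Vale.Agent.P088

namespace ManTs

variable {n : ℕ} [NeZero n]

/-- The contraction of the normal coordinate by the factor `1 - t`. -/
def LL (n : ℕ) [NeZero n] (t : ℝ) : En n →L[ℝ] En n :=
  ContinuousLinearMap.id ℝ (En n) - t • (EuclideanSpace.proj (0 : Fin n)).smulRight (ee 0)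

theorem LL_apply (t : ℝ) (y : En n) : LL n t y = y - (t * y 0) • ee 0 := by
  simp [LL, smul_smul]

theorem LL_coord (t : ℝ) (y : En n) (i : Fin n) :
    LL n t y i = (if i = 0 then 1 - t else 1) * y i := by
  rw [LL_apply]
  by_cases h : i = 0
  · subst h; simp [ee]; ring
  · simp [ee, h]

theorem LL_det (t : ℝ) : (LL n t).det = 1 - t := by
  have e : LinearMap.toMatrix (EuclideanSpace.basisFun (Fin n) ℝ).toBasis
      (EuclideanSpace.basisFun (Fin n) ℝ).toBasis (LL n t : En n →ₗ[ℝ] En n) =
      Matrix.diagonal fun i => if i = 0 then 1 - t else 1 := by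
    ext i j
    rw [LinearMap.toMatrix_apply, Matrix.diagonal_apply]
    simp only [OrthonormalBasis.coe_toBasis, EuclideanSpace.basisFun_apply,
      OrthonormalBasis.coe_toBasis_repr_apply, EuclideanSpace.basisFun_repr,
      ContinuousLinearMap.coe_coe, LL_coord]
    by_cases h : i = j
    · subst h; simp
    · simp [h]
  rw [ContinuousLinearMap.det, ← LinearMap.det_toMatrix (EuclideanSpace.basisFun (Fin n) ℝ).toBasis,
    e, Matrix.det_diagonal]
  simp

theorem LL_inj {t : ℝ} (ht : t < 1) : Function.Injective (LL n t) := by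
  intro x y h
  ext i
  have := congrArg (fun z : En n => z i) h
  simp only [LL_coord] at this
  refine mul_left_cancel₀ ?_ this
  split_ifs
  · linarith
  · exact one_ne_zero

theorem LL_norm {t : ℝ} (h0 : 0 ≤ t) (h1 : t ≤ 1) (y : En n) : ‖LL n t y‖ ≤ ‖y‖ := by
  refine (sq_le_sq₀ (norm_nonneg _) (norm_nonneg _)).1 ?_
  rw [EuclideanSpace.real_norm_sq_eq, EuclideanSpace.real_norm_sq_eq]
  refine Finset.sum_le_sum fun i _ => ?_
  rw [LL_coord, mul_pow]
  refine mul_le_of_le_one_left (sq_nonneg _) ?_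
  split_ifs
  · nlinarith
  · simp

theorem LL_maps {r t : ℝ} {U : Set (En n)} (hU : U = Up n r ∨ U = Lo n r) (h0 : 0 ≤ t)
    (h1 : t < 1) : LL n t '' U ⊆ U := by
  rintro _ ⟨y, hy, rfl⟩
  have e : LL n t y 0 = (1 - t) * y 0 := by rw [LL_coord]; simp
  have hb : y ∈ ball (0 : En n) r → LL n t y ∈ ball (0 : En n) r := fun h => by
    rw [mem_ball_zero_iff] at h ⊢
    exact (LL_norm h0 h1.le y).trans_lt h
  rcases hU with rfl | rfl
  · refine ⟨hb hy.1, ?_⟩
    show 0 < LL n t y 0
    rw [e]
    exact mul_pos (by linarith) hy.2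
  · refine ⟨hb hy.1, ?_⟩
    show LL n t y 0 < 0
    rw [e]
    exact mul_neg_of_pos_of_neg (by linarith) hy.2

theorem meas {r : ℝ} {U : Set (En n)} (hU : U = Up n r ∨ U = Lo n r) :
    MeasurableSet U ∧ U ⊆ closedBall 0 r := by
  have hc : Continuous fun y : En n => y 0 := (EuclideanSpace.proj (𝕜 := ℝ) (0 : Fin n)).continuous
  rcases hU with rfl | rfl
  · exact ⟨(isOpen_ball.inter (isOpen_lt continuous_const hc)).measurableSet,
      inter_subset_left.trans ball_subset_closedBall⟩
  · exact ⟨(isOpen_ball.inter (isOpen_lt hc continuous_const)).measurableSet,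
      inter_subset_left.trans ball_subset_closedBall⟩

/-- Change of variables. -/
theorem cov_le {r t : ℝ} {U : Set (En n)} (hU : U = Up n r ∨ U = Lo n r) (h0 : 0 ≤ t)
    (h1 : t ≤ 1) {g : En n → ℝ} (hg : Continuous g) (hp : ∀ y, 0 ≤ g y) :
    ∫ y in U, (1 - t) * g (LL n t y) ≤ ∫ y in U, g y := by
  obtain ⟨hm, hs⟩ := meas hU
  rcases h1.eq_or_lt with rfl | h1
  · simp only [sub_self, zero_mul, integral_zero]
    exact integral_nonneg hp
  have e := integral_image_eq_integral_abs_det_fderiv_smul volume hm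
    (f := LL n t) (f' := fun _ => LL n t) (fun x _ => (LL n t).hasFDerivAt.hasFDerivWithinAt)
    (LL_inj h1).injOn g
  simp only [LL_det, abs_of_pos (sub_pos.2 h1), smul_eq_mul] at e
  rw [← e]
  exact setIntegral_mono_set
    ((hg.continuousOn.integrableOn_compact (isCompact_closedBall 0 r)).mono_set hs)
    (Filter.Eventually.of_forall hp) (LL_maps hU h0 h1).eventuallyLE

/-- Cauchy-Schwarz on the unit interval. -/
theorem cs {F : ℝ → ℝ} (hF : Continuous F) :
    (∫ t in (0 : ℝ)..1, F t) ^ 2 ≤ ∫ t in (0 : ℝ)..1, F t ^ 2 := by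
  set c := ∫ t in (0 : ℝ)..1, F t with hc
  have h0 : 0 ≤ ∫ t in (0 : ℝ)..1, (F t - c) ^ 2 :=
    intervalIntegral.integral_nonneg zero_le_one fun t _ => sq_nonneg _
  have e : ∀ t, (F t - c) ^ 2 = F t ^ 2 - 2 * c * F t + c ^ 2 := fun t => by ring
  have i1 : IntervalIntegrable (fun t => F t ^ 2) volume 0 1 := (hF.pow 2).intervalIntegrable _ _
  have i2 : IntervalIntegrable (fun t => 2 * c * F t) volume 0 1 :=
    (continuous_const.mul hF).intervalIntegrable _ _
  have i3 : IntervalIntegrable (fun t => F t ^ 2 - 2 * c * F t) volume 0 1 := i1.sub i2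
  simp only [e] at h0
  rw [intervalIntegral.integral_add i3 intervalIntegrable_const, intervalIntegral.integral_sub i1 i2,
    intervalIntegral.integral_const_mul, intervalIntegral.integral_const, ← hc] at h0
  simp only [sub_zero, smul_eq_mul, one_mul] at h0
  nlinarith

/-- The substitution `t = 1 - τ²` followed by Cauchy-Schwarz. -/
theorem weighted {G : ℝ → ℝ} (hG : Continuous G) :
    (∫ t in (0 : ℝ)..1, G t) ^ 2 ≤ ∫ τ in (0 : ℝ)..1, 4 * (τ ^ 2 * G (1 - τ ^ 2) ^ 2) := by
  have hd : ∀ x ∈ uIcc (0 : ℝ) 1, HasDerivAt (fun τ : ℝ => 1 - τ ^ 2) (-(2 * x)) x := by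
    intro x _
    simpa using (hasDerivAt_pow 2 x).const_sub 1
  have e := intervalIntegral.integral_comp_mul_deriv hd (by fun_prop) hG
  simp only [Function.comp_apply, one_pow, sub_self, ne_eq, OfNat.ofNat_ne_zero,
    not_false_eq_true, zero_pow, sub_zero] at e
  rw [intervalIntegral.integral_symm 0 1] at e
  have h2 := cs (F := fun τ => G (1 - τ ^ 2) * -(2 * τ)) (by fun_prop)
  rw [e, neg_sq] at h2
  refine h2.trans (le_of_eq ?_)
  exact intervalIntegral.integral_congr fun τ _ => by ring

end ManTs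

open ManTs

theorem e_ts : E_ts := by
  intro n _ r U h hU hh
  obtain ⟨hm, hs⟩ := meas hU
  simp only [← LL_apply]
  have hL : Continuous fun p : ℝ × En n => LL n p.1 p.2 := by
    simp only [LL_apply]
    have hc : Continuous fun y : En n => y 0 :=
      (EuclideanSpace.proj (𝕜 := ℝ) (0 : Fin n)).continuous
    exact continuous_snd.sub ((continuous_fst.mul (hc.comp continuous_snd)).smul continuous_const)
  have hG : Continuous fun p : ℝ × En n => 4 * (p.1 ^ 2 * h (LL n (1 - p.1 ^ 2) p.2) ^ 2) := by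
    have : Continuous fun p : ℝ × En n => h (LL n (1 - p.1 ^ 2) p.2) :=
      hh.comp (hL.comp (f := fun p : ℝ × En n => (1 - p.1 ^ 2, p.2)) (by fun_prop))
    fun_prop
  have hI : Integrable (Function.uncurry fun (τ : ℝ) (y : En n) =>
      4 * (τ ^ 2 * h (LL n (1 - τ ^ 2) y) ^ 2))
      ((volume.restrict (uIoc (0 : ℝ) 1)).prod (volume.restrict U)) := by
    rw [Measure.prod_restrict]
    exact (hG.continuousOn.integrableOn_compact
      (isCompact_uIcc.prod (isCompact_closedBall (0 : En n) r))).mono_set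
      (prod_mono uIoc_subset_uIcc hs)
  calc ∫ y in U, (∫ t in (0 : ℝ)..1, h (LL n t y)) ^ 2
      ≤ ∫ y in U, ∫ τ in (0 : ℝ)..1, 4 * (τ ^ 2 * h (LL n (1 - τ ^ 2) y) ^ 2) := by
        refine integral_mono_of_nonneg (Filter.Eventually.of_forall fun y => sq_nonneg _) ?_
          (Filter.Eventually.of_forall fun y => weighted (G := fun t => h (LL n t y))
            (hh.comp (hL.comp (continuous_id.prodMk continuous_const))))
        have := hI.integral_prod_right
        simpa only [intervalIntegral.integral_of_le zero_le_one, uIoc_of_le zero_le_one,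
          Function.uncurry_apply_pair] using this
    _ = ∫ τ in (0 : ℝ)..1, ∫ y in U, 4 * (τ ^ 2 * h (LL n (1 - τ ^ 2) y) ^ 2) :=
        (intervalIntegral_integral_swap hI).symm
    _ ≤ ∫ _τ in (0 : ℝ)..1, 4 * ∫ y in U, h y ^ 2 := by
        refine intervalIntegral.integral_mono_on zero_le_one ?_ intervalIntegrable_const
          fun τ hτ => ?_
        · rw [intervalIntegrable_iff]
          exact hI.integral_prod_left
        · rw [integral_const_mul]
          have h1 : τ ^ 2 ≤ 1 := pow_le_one₀ hτ.1 hτ.2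
          have := cov_le hU (t := 1 - τ ^ 2) (by linarith) (by nlinarith) (hh.pow 2)
            (fun y => sq_nonneg _)
          simp only [sub_sub_cancel, Pi.pow_apply] at this
          linarith
    _ = 4 * ∫ y in U, h y ^ 2 := by simp

end Vale.Agent.P088
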