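import Vale.Agent.P088.ManE
import Vale.Agent.P088.St1Tool

/-!
# P088, manifold part: restriction, unique continuation and zero extension of weak solutions
-/

open MeasureTheory Set Metric Filter
open scoped ContDiff Topology InnerProductSpace

noncomputable section
namespace Vale.Agent.P088
open Vale.Agent.P136 (D Sm Tst)

theorem e_ws (hcop : S_cop) : E_ws := by
  intro n ι _ _ g A V W hg hV hW
  have hL := (hcop n ι g A hg).1
  refine ⟨fun V' hV' hs => ⟨St1.l2_mono hW.1 hs, fun ψ hψ => ?_⟩,
    fun W' hW' => ⟨fun a => (hW.1 a).sub (hW'.1 a), fun ψ hψ => ?_⟩,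
    fun W' e => ⟨St1.l2_congr hW.1 fun a => (e a).symm, fun ψ hψ => ?_⟩⟩
  · rw [← hW.2 ψ (St1.tests_mono hψ hs)]
    refine Finset.sum_congr rfl fun a _ => ?_
    exact (setIntegral_eq_of_subset_of_forall_sdiff_eq_zero hV.measurableSet hs fun x hx => by
      rw [St1.tests_zero (St1.tests_app hL hψ) hx.2, mul_zero]).symm
  · have h1 := St1.tests_l2 (St1.tests_app hL hψ) V
    simp only [sub_mul]
    rw [Finset.sum_congr rfl fun a _ =>
      integral_sub (St1.l2_mul hW.1 h1 a) (St1.l2_mul hW'.1 h1 a), Finset.sum_sub_distrib,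
      hW.2 ψ hψ, hW'.2 ψ hψ, sub_self]
  · rw [← hW.2 ψ hψ]
    exact Finset.sum_congr rfl fun a _ => integral_congr_ae ((e a).mono fun x hx => by
      simp only [hx])

theorem e_wucp (hcop : S_cop) (hw : S_weyl) (hu : S_ucp) : E_wucp := by
  intro n ι _ _ g A V N W hg hV hc hW hN ⟨x₀, hx₀⟩ hNV h0 a
  obtain ⟨hL, hT⟩ := hcop n ι g A hg
  obtain ⟨W', h1, h2⟩ := hw n ι (cop g A) V W 0 hL hV hW.1 (fun _ => contDiffOn_const)
    fun ψ hψ => by
      rw [hT, hW.2 ψ hψ]
      simp only [Pi.zero_apply, zero_mul, integral_zero, Finset.sum_const_zero]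
  have h3 : ∀ b, EqOn (W' b) 0 N := fun b =>
    Measure.eqOn_open_of_ae_eq
      (EventuallyEq.trans (ae_restrict_of_ae_restrict_of_subset hNV (h2 b).symm) (h0 b)) hN
      ((h1.1 b).continuousOn.mono hNV) continuousOn_const
  have h4 := hu n ι (cop g A) V W' x₀ hL hV hc h1 (hNV hx₀) fun b =>
    mem_of_superset (hN.mem_nhds hx₀) fun y hy => h3 b hy
  filter_upwards [h2 a, ae_restrict_mem hV.measurableSet] with x h5 h6
  rw [h5, h4 x h6 a]
  rfl

theorem e_z0 (h : E_wucp) : E_z0 := by
  intro n _ ι _ _ g A r W hg hW h0 a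
  have hc : Continuous fun y : En n => y 0 := by fun_prop
  have hU : IsOpen (Up n r) := isOpen_ball.inter (isOpen_lt continuous_const hc)
  have hN : IsOpen (Lo n r) := isOpen_ball.inter (isOpen_lt hc continuous_const)
  have hs : Up n r ⊆ ball 0 r := inter_subset_left
  rcases le_or_gt r 0 with hr | hr
  · have : Up n r = ∅ := by rw [Up, ball_eq_empty.2 hr, empty_inter]
    rw [this, Measure.restrict_empty]
    exact ae_zero.le (by simp)
  have hne : (Lo n r).Nonempty := by
    refine ⟨EuclideanSpace.single 0 (-(r / 2)), ?_, ?_⟩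
    · rw [mem_ball_zero_iff, PiLp.norm_single, norm_neg, Real.norm_of_nonneg (by linarith)]
      linarith
    · show (EuclideanSpace.single 0 (-(r / 2)) : En n) 0 < 0
      rw [PiLp.single_apply, if_pos rfl]
      linarith
  have h1 := h n ι g A (ball 0 r) (Lo n r) (fun b => (Up n r).indicator (W b)) hg isOpen_ball
    (convex_ball 0 r).isPreconnected ⟨fun b => ?_, fun ψ hψ => ?_⟩ hN hne inter_subset_left
    (fun b => ?_) a
  · filter_upwards [ae_restrict_of_ae_restrict_of_subset hs h1, ae_restrict_mem hU.measurableSet]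
      with x h2 h3
    rwa [indicator_of_mem h3] at h2
  · rw [memLp_indicator_iff_restrict hU.measurableSet, Measure.restrict_restrict hU.measurableSet,
      inter_eq_left.2 hs]
    exact hW b
  · rw [← h0 ψ hψ]
    refine Finset.sum_congr rfl fun b _ => ?_
    have e : (fun y => (Up n r).indicator (W b) y * (cop g A).app ψ b y) =
        (Up n r).indicator fun y => W b y * (cop g A).app ψ b y := by
      ext y
      by_cases hy : y ∈ Up n r <;> simp [hy]
    rw [e, setIntegral_indicator hU.measurableSet, inter_eq_right.2 hs]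
  · filter_upwards [ae_restrict_mem hN.measurableSet] with x hx
    exact indicator_of_notMem (fun h2 => lt_asymm (show 0 < x 0 from h2.2) (show x 0 < 0 from hx.2)) _

end Vale.Agent.P088
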