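import Vale.Agent.P088.ManS
import Vale.Agent.P088.ManEden
import Vale.Agent.P088.ManKato
import Vale.Agent.P088.ManTs
import Vale.Agent.P088.ManHardy
import Vale.Agent.P088.ManRefl
import Vale.Agent.P088.ManScale
import Vale.Agent.P088.ManIbp1
import Vale.Agent.P088.ManIbp2
import Vale.Agent.P088.ManWucp
import Vale.Agent.P088.ManInv
import Vale.Agent.P088.ManIsoBd
import Vale.Agent.P088.ManExt
import Vale.Agent.P088.ManIsoExt
import Vale.Agent.P088.ManNoT
import Vale.Agent.P088.ManGA
import Vale.Agent.P088.ManBs2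
import Vale.Agent.P088.ManLocSol
import Vale.Agent.P088.ManHilb

/-!
# P088, manifold part: all Euclidean tools
-/

namespace Vale.Agent.P088

theorem eall (hLT : S_LT) (hj : S_jets) (hend : S_end) (hrig : S_rig) (hii : S_isoInter)
    (hcop : S_cop) (hw : S_weyl) (hu : S_ucp) (hg : S_green) (hext : S_ext) (hgl : S_glue) :
    EAll where
  lt := hLT
  jets := hj
  send := hend
  rig := hrig
  isoInter := hii
  cop := hcop
  weyl := hw
  ucp := hu
  sgreen := hg
  sext := hext
  eden := e_eden
  kato := e_kato e_eden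
  trans := e_trans e_eden (e_kato e_eden)
  hardy := e_hardy e_eden (e_kato e_eden) e_ts
  refl := e_refl e_eden (e_kato e_eden) e_ts
  scale := e_scale e_eden (e_kato e_eden)
  ibp1 := e_ibp1 e_eden
  ibp2 := e_ibp2 e_eden
  wucp := e_wucp hcop hw hu
  ws := e_ws hcop
  z0 := e_z0 (e_wucp hcop hw hu)
  inv := e_inv
  isoC := e_isoC e_eden
  isobd := e_isobd (e_isoC e_eden)
  isoext := e_isoext (e_isobd (e_isoC e_eden)) (e_ext hext)
  notouch := e_notouch e_eden
  gluega := e_gluega hgl
  gaext := e_gaext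
  bstep2 := e_bstep2 hLT hend hrig hii hcop e_inv (e_isoC e_eden) e_tl
  locsol := e_locsol hcop hw hg e_tl
  tl := e_tl
  hilb := a_hilb

end Vale.Agent.P088
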