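import Vale.Agent.P088.ManS

open MeasureTheory Set Metric Filter
open scoped ContDiff Topology InnerProductSpace Manifold Matrix

noncomputable section
namespace Vale.Agent.P088
open Vale.Agent.P136 (D Sm Tst)

variable {n : ℕ} [NeZero n] {M : Type} [TopologicalSpace M] [T2Space M] [CompactSpace M]
  [ConnectedSpace M] [ChartedSpace (EuclideanHalfSpace n) M] [IsManifold (𝓡∂ n) ∞ M]
  [MeasurableSpace M] [BorelSpace M] {ι : Type} [Fintype ι] [DecidableEq ι] [Nonempty ι]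

namespace ManFin

omit [T2Space M] [CompactSpace M] [ConnectedSpace M] [IsManifold (𝓡∂ n) ∞ M] [BorelSpace M]
  [Nonempty ι] in
theorem loc_null (h1 : B1 n M ι) {g : Bil n M} {A : RForm n M ι} (hg : IsMetric g)
    (hA : IsSkewConn A) (x : M) : ∃ N ∈ 𝓝 x, vol g (N ∩ bdM n M) = 0 := by
  by_cases hx : x ∈ bdM n M
  · obtain ⟨R, θ, κ, h0, -, hP⟩ := h1.xb x hx univ isOpen_univ (mem_univ x)
    obtain ⟨gc, Ac, hB⟩ := hP g A hg hA
    have hxm : x ∈ θ '' Hb n R := ⟨0, zero_mem_Hb hB.pos, h0⟩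
    refine ⟨θ '' Hb n R, hB.opn.mem_nhds hxm, ?_⟩
    have hv := (h1.vol g A (Hb n R) (Hb n R) gc Ac _ hg hB.toPar (meas_Hb R)
      Subset.rfl).2.2.2.2.2 (fun z => z ∉ bdM n M)
    have h2 : ∀ᵐ y ∂(volume.restrict (Hb n R)), θ y ∉ bdM n M := by
      have h3 : ∀ᵐ y : En n, y 0 ≠ 0 := by
        rw [ae_iff]; simpa using flat_null
      filter_upwards [ae_restrict_of_ae h3, ae_restrict_mem (meas_Hb R)] with y hy hy'
      exact fun h => hy ((hB.bd y hy').1 h)
    have h4 := hv.2 h2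
    rw [ae_iff] at h4
    refine measure_mono_null ?_ h4
    intro z hz h5
    exact h5 hz.1 hz.2
  · have hx' : x ∈ intM n M := int_iff_not_bd.2 hx
    refine ⟨intM n M, (h1.conn g A hg hA).1.mem_nhds hx', ?_⟩
    have : intM n M ∩ bdM n M = ∅ :=
      eq_empty_of_forall_notMem fun z hz => int_iff_not_bd.1 hz.1 hz.2
    rw [this, measure_empty]

omit [T2Space M] [ConnectedSpace M] [IsManifold (𝓡∂ n) ∞ M] [BorelSpace M] [Nonempty ι] in
theorem bd_null (h1 : B1 n M ι) {g : Bil n M} {A : RForm n M ι} (hg : IsMetric g)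
    (hA : IsSkewConn A) : vol g (bdM n M) = 0 := by
  choose N hN h0 using loc_null h1 hg hA
  obtain ⟨t, ht⟩ := CompactSpace.elim_nhds_subcover N hN
  have hs : bdM n M ⊆ ⋃ x ∈ t, (N x ∩ bdM n M) := by
    intro z hz
    have hz' : z ∈ ⋃ x ∈ t, N x := by rw [ht]; trivial
    obtain ⟨x, hx, hzx⟩ := mem_iUnion₂.1 hz'
    exact mem_iUnion₂.2 ⟨x, hx, hzx, hz⟩
  refine measure_mono_null hs ?_
  exact (measure_biUnion_null_iff t.countable_toSet).2 fun x _ => h0 x

omit [T2Space M] [CompactSpace M] [ConnectedSpace M] [IsManifold (𝓡∂ n) ∞ M] [BorelSpace M]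
  [Nonempty ι] in
theorem loc_fin (hE : EAll) (h1 : B1 n M ι) {g : Bil n M} {A : RForm n M ι} (hg : IsMetric g)
    (hA : IsSkewConn A) (x : M) : ∃ N ∈ 𝓝 x, vol g (N ∩ intM n M) < ⊤ ∧
      ∀ F F' : M → ι → ℝ, RSec n F → RSec n F' →
        IntegrableOn (rbd g A F F') (N ∩ intM n M) (vol g) := by
  obtain ⟨N, V, gc, Ac, P, hN, hx, -, hP, -, -, hV, -, hext⟩ :=
    h1.cover g A hg hA x univ isOpen_univ (mem_univ x)
  have hm : MeasurableSet V := hP.isOpen.measurableSet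
  have hv := h1.vol g A V V gc Ac P hg hP.toPar hm Subset.rfl
  refine ⟨N, hN.mem_nhds hx, hV ▸ hv.2.1, fun F F' hF hF' => ?_⟩
  rw [← hV, hv.2.2.2.1]
  obtain ⟨v, hv1, hv2⟩ := hext F hF
  obtain ⟨w, hw1, hw2⟩ := hext F' hF'
  obtain ⟨e1, e2, -, -, -, e3, e4, -⟩ := hE.eden n ι gc Ac hP.ga
  have hc : Continuous fun y => eden gc Ac v w y / sdet gc y :=
    (e3 v w hv1 hw1).continuous.div e1.continuous fun y => (e2 y).ne'
  obtain ⟨R, hR⟩ := hP.bdd.subset_closedBall 0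
  have hi : IntegrableOn (fun y => eden gc Ac v w y / sdet gc y) V :=
    (hc.continuousOn.integrableOn_compact (isCompact_closedBall 0 R)).mono_set hR
  refine hi.congr_fun (fun y hy => ?_) hm
  have hy' : V ∈ 𝓝 y := hP.isOpen.mem_nhds hy
  have h2 : eden gc Ac v w y = eden gc Ac (P.pull F) (P.pull F') y :=
    e4 _ _ _ _ y (fun a => (hv2 a).eventuallyEq_of_mem hy')
      fun a => (hw2 a).eventuallyEq_of_mem hy'
  have h3 := h1.dens g A V gc Ac P F F' hg hP.toPar0 hF hF' y (by rwa [hP.isOpen.interior_eq])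
  show eden gc Ac v w y / sdet gc y = rbd g A F F' (P.θ y)
  rw [h2, h3, mul_div_cancel_left₀ _ (e2 y).ne']

end ManFin

omit [T2Space M] [ConnectedSpace M] [IsManifold (𝓡∂ n) ∞ M] [BorelSpace M] [Nonempty ι] in
theorem m_fin (hE : EAll) (h1 : B1 n M ι) : M_fin n M ι := by
  intro g A hg hA
  have hb := ManFin.bd_null h1 hg hA
  choose N hN h0 hI using ManFin.loc_fin hE h1 hg hA
  obtain ⟨t, ht⟩ := CompactSpace.elim_nhds_subcover N hN
  have hs : (univ : Set M) ⊆ bdM n M ∪ ⋃ x ∈ t, (N x ∩ intM n M) := by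
    intro z _
    by_cases hz : z ∈ bdM n M
    · exact Or.inl hz
    · have hz' : z ∈ ⋃ x ∈ t, N x := by rw [ht]; trivial
      obtain ⟨x, hx, hzx⟩ := mem_iUnion₂.1 hz'
      exact Or.inr (mem_iUnion₂.2 ⟨x, hx, hzx, int_iff_not_bd.2 hz⟩)
  refine ⟨⟨?_⟩, hb, fun F F' hF hF' => ?_⟩
  · refine (measure_mono hs).trans_lt ((measure_union_le _ _).trans_lt ?_)
    rw [hb, zero_add]
    exact (measure_biUnion_finset_le t _).trans_lt (ENNReal.sum_lt_top.2 fun x _ => h0 x)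
  · rw [← integrableOn_univ]
    refine IntegrableOn.mono_set ?_ hs
    refine IntegrableOn.union (IntegrableOn.of_measure_zero hb) ?_
    exact integrableOn_finset_iUnion.2 fun x _ => hI x F F' hF hF'

end Vale.Agent.P088
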