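import Vale.Agent.P088.ManS

open MeasureTheory Set Metric Filter
open scoped ContDiff Topology InnerProductSpace Manifold Matrix

noncomputable section
namespace Vale.Agent.P088
open Vale.Agent.P136 (D Sm Tst)

namespace ManFinal

theorem glue {M Y : Type} [TopologicalSpace M] [TopologicalSpace Y] [T2Space Y] {I : Set M}
    (hI : Dense I) {f : M → Y} {N : M → Set M} {F : M → M → Y} (hN : ∀ q, IsOpen (N q))
    (hq : ∀ q, q ∈ N q) (hc : ∀ q, ContinuousOn (F q) (N q))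
    (he : ∀ q, EqOn (F q) f (N q ∩ I)) (q : M) : (fun x => F x x) =ᶠ[𝓝 q] F q := by
  filter_upwards [(hN q).mem_nhds (hq q)] with x hx
  have h : EqOn (F x) (F q) (N x ∩ N q ∩ I) := fun y hy =>
    (he x ⟨hy.1.1, hy.2⟩).trans (he q ⟨hy.1.2, hy.2⟩).symm
  exact h.of_subset_closure ((hc x).mono inter_subset_left) ((hc q).mono inter_subset_right)
    inter_subset_left (hI.open_subset_closure_inter ((hN x).inter (hN q))) ⟨hq x, hx⟩

variable {n : ℕ} [NeZero n] {M : Type} [TopologicalSpace M] [T2Space M]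
  [ChartedSpace (EuclideanHalfSpace n) M] [MeasurableSpace M] {ι : Type} [Fintype ι]
  [DecidableEq ι]

theorem extend (hI : Dense (intM n M)) {X₁ X₂ : Sd n M ι} {Φ : M → M} {U : M → Matrix ι ι ℝ}
    (h : LocExt n M ι X₁ X₂ Φ U) : ∃ (Φb : M → M) (Ub : M → Matrix ι ι ℝ),
      LocRel X₁.g X₁.A X₂.g X₂.A univ Φb Ub ∧ EqOn Φb Φ (intM n M) ∧ EqOn Ub U (intM n M) := by
  choose N F W hN hq hL hF hW using h
  have e1 := glue hI hN hq (fun q => (hL q).1.continuousOn) hF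
  have e2 := glue hI hN hq (fun q => continuousOn_pi.2 fun a => continuousOn_pi.2 fun b =>
    ((hL q).2.1 a b).continuousOn) hW
  have e3 : ∀ q a b, (fun x => W x x a b) =ᶠ[𝓝 q] fun x => W q x a b := fun q a b =>
    (e2 q).mono fun x hx => congrFun (congrFun hx a) b
  refine ⟨fun x => F x x, fun x => W x x, ⟨fun q _ => ?_, fun a b q _ => ?_, fun q _ => ?_⟩,
    fun x hx => hF x ⟨hq x, hx⟩, fun x hx => hW x ⟨hq x, hx⟩⟩
  · exact (((hL q).1.contMDiffAt ((hN q).mem_nhds (hq q))).congr_of_eventuallyEq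
      (e1 q)).contMDiffWithinAt
  · exact ((((hL q).2.1 a b).contMDiffAt ((hN q).mem_nhds (hq q))).congr_of_eventuallyEq
      (e3 q a b)).contMDiffWithinAt
  · obtain ⟨a1, a2, a3⟩ := (hL q).2.2 q (hq q)
    have e4 : ∀ v, rdMat (n := n) (fun x => W x x) q v = rdMat (W q) q v := fun v => by
      ext a b
      exact DFunLike.congr_fun ((e3 q a b).mfderiv_eq (I := 𝓡∂ n) (I' := 𝓘(ℝ, ℝ))) v
    rw [(e1 q).mfderiv_eq]
    exact ⟨a1, a2, fun v => by rw [e4]; exact a3 v⟩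

end ManFinal

open ManFinal

variable {n : ℕ} [NeZero n] {M : Type} [TopologicalSpace M] [T2Space M] [CompactSpace M]
  [ConnectedSpace M] [ChartedSpace (EuclideanHalfSpace n) M] [IsManifold (𝓡∂ n) ∞ M]
  [MeasurableSpace M] [BorelSpace M] {ι : Type} [Fintype ι] [DecidableEq ι] [Nonempty ι]

omit [CompactSpace M] [ConnectedSpace M] [IsManifold (𝓡∂ n) ∞ M] [BorelSpace M]
  [Nonempty ι] in
theorem m_final (h1 : B1 n M ι) (ginv : M_ginv n M ι) : M_final n M ι := by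
  intro X₁ X₂ Γ Φ Ψ Φ' Ψ' U U' G G' hE hE' hΓ
  have hI : Dense (intM n M) := (h1.conn _ _ X₁.hg X₁.hA).2.1
  obtain ⟨F, W, ⟨f1, f2, f3⟩, f4, f5⟩ := extend hI hE
  obtain ⟨F', W', ⟨g1, -, -⟩, g4, -⟩ := extend hI hE'
  rw [contMDiffOn_univ] at f1 g1
  simp only [contMDiffOn_univ] at f2
  have l1 : F' ∘ F = id := Continuous.ext_on hI (g1.continuous.comp f1.continuous) continuous_id
    fun x hx => by
      rw [Function.comp_apply, f4 hx, g4 (G.maps x hx)]
      exact (ginv X₁ X₂ Γ Φ Ψ Φ' Ψ' U U' G G' x hx).1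
  have l2 : F ∘ F' = id := Continuous.ext_on hI (f1.continuous.comp g1.continuous) continuous_id
    fun x hx => by
      rw [Function.comp_apply, g4 hx, f4 (G'.maps x hx)]
      exact (ginv X₂ X₁ Γ Φ' Ψ' Φ Ψ U' U G' G x hx).1
  refine ⟨⟨⟨F, F', congrFun l1, congrFun l2⟩, f1, g1⟩, W, f2, fun x => (f3 x trivial).1,
    fun p hp => ?_, fun x => (f3 x trivial).2.1, fun x => (f3 x trivial).2.2⟩
  obtain ⟨R, r, gc, Ac, P₁, P₂, hB, rfl, r0, rR, hM⟩ := hΓ p hp
  have z0 : (0 : En n) ∈ Hb n R := zero_mem_Hb hB.p₁.pos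
  have hs : Up n r ⊆ Hb n R := (Up_sub_Hb r).trans (Hb_mono rR.le)
  have nb : (𝓝[Up n r] (0 : En n)).NeBot :=
    mem_closure_iff_nhdsWithin_neBot.1 (Hb_sub_closure r (zero_mem_Hb r0))
  have t1 : Tendsto P₁.θ (𝓝[Up n r] 0) (𝓝 (P₁.θ 0)) := (hB.p₁.smθ.continuousOn 0 z0).mono hs
  have t2 : Tendsto P₂.θ (𝓝[Up n r] 0) (𝓝 (P₂.θ 0)) := (hB.p₂.smθ.continuousOn 0 z0).mono hs
  obtain ⟨m1, -, m3, m4⟩ := hB.fm 0 z0 rfl
  have u := G.uniq _ gc Ac P₁ P₂ hM
  refine ⟨(tendsto_nhds_unique ((f1.continuous.tendsto _).comp t2) (t1.congr' ?_)).trans m1, ?_⟩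
  · filter_upwards [self_mem_nhdsWithin] with y hy
    rw [Function.comp_apply, f4 (u y hy).1, (u y hy).2.1]
  · ext a b
    have t3 : Tendsto (fun y => ∑ e, P₁.S e a y * P₂.S e b y) (𝓝[Up n r] 0)
        (𝓝 (∑ e, P₁.S e a 0 * P₂.S e b 0)) := tendsto_finsetSum _ fun e _ =>
      ((hB.p₁.smS 0 z0 e a).continuousAt.mul
        (hB.p₂.smS 0 z0 e b).continuousAt).continuousWithinAt
    refine (tendsto_nhds_unique (((f2 a b).continuous.tendsto _).comp t2) (t3.congr' ?_)).trans ?_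
    · filter_upwards [self_mem_nhdsWithin] with y hy
      rw [Function.comp_apply, f5 (u y hy).1, (u y hy).2.2]
      rfl
    · simp [m3, m4, Matrix.one_apply, eq_comm]

end Vale.Agent.P088
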