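import Vale.Agent.P088.ManS

open MeasureTheory Set Metric Filter
open scoped ContDiff Topology InnerProductSpace Manifold Matrix

noncomputable section
namespace Vale.Agent.P088
open Vale.Agent.P136 (D Sm Tst)

variable {n : ℕ} [NeZero n] {M : Type} [TopologicalSpace M] [T2Space M] [CompactSpace M]
  [ConnectedSpace M] [ChartedSpace (EuclideanHalfSpace n) M] [IsManifold (𝓡∂ n) ∞ M]
  [MeasurableSpace M] [BorelSpace M] {ι : Type} [Fintype ι] [DecidableEq ι] [Nonempty ι]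

namespace ManGlue

/-- A local almost everywhere statement is a global one. -/
theorem ae_of_loc {m : ℕ} {V : Set (En m)} (hV : IsOpen V) {p : En m → Prop}
    (h : ∀ y ∈ V, ∃ V', IsOpen V' ∧ y ∈ V' ∧ ∀ᵐ z ∂(volume.restrict V'), p z) :
    ∀ᵐ z ∂(volume.restrict V), p z := by
  rw [ae_restrict_iff' hV.measurableSet, ae_iff]
  refine measure_null_of_locally_null _ fun y hy => ?_
  have hy' : y ∈ V := by
    by_contra hc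
    exact hy fun h1 => absurd h1 hc
  obtain ⟨V', hV', hyV, hae⟩ := h y hy'
  rw [ae_restrict_iff' hV'.measurableSet, ae_iff] at hae
  refine ⟨_ ∩ V', inter_mem_nhdsWithin _ (hV'.mem_nhds hyV), measure_mono_null ?_ hae⟩
  rintro z ⟨hz, hzV⟩ hc
  exact hz fun _ => hc hzV

omit [T2Space M] [CompactSpace M] [ConnectedSpace M] [IsManifold (𝓡∂ n) ∞ M] [BorelSpace M]
  [Nonempty ι] in
/-- The glued map and gauge. -/
theorem fn (uniq : M_uniq n M ι) (X₁ X₂ : Sd n M ι) (Γ : Set M) (hΓ : IsGam n Γ) :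
    ∃ (Φ : M → M) (U : M → Matrix ι ι ℝ), ∀ V gc Ac (P₁ P₂ : Fr n M ι),
      MI X₁ X₂ Γ V gc Ac P₁ P₂ → ∀ y ∈ V,
        Φ (P₂.θ y) = P₁.θ y ∧ U (P₂.θ y) = P₁.rel P₂ y := by
  have h : ∀ x : M, ∃ (p : M) (u : Matrix ι ι ℝ), ∀ V gc Ac (P₁ P₂ : Fr n M ι),
      MI X₁ X₂ Γ V gc Ac P₁ P₂ → ∀ y ∈ V, P₂.θ y = x → p = P₁.θ y ∧ u = P₁.rel P₂ y := by
    intro x
    by_cases hx : ∃ (V : Set (En n)) (gc : MatF n) (Ac : ConF n ι) (P₁ P₂ : Fr n M ι),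
        MI X₁ X₂ Γ V gc Ac P₁ P₂ ∧ ∃ y ∈ V, P₂.θ y = x
    · obtain ⟨V, gc, Ac, P₁, P₂, hm, y, hy, hyx⟩ := hx
      refine ⟨P₁.θ y, P₁.rel P₂ y, fun V' gc' Ac' P₁' P₂' hm' y' hy' hx' => ?_⟩
      exact uniq X₁ X₂ Γ V V' gc gc' Ac Ac' P₁ P₂ P₁' P₂' hΓ hm hm' y hy y' hy'
        (hyx.trans hx'.symm)
    · exact ⟨x, 1, fun V gc Ac P₁ P₂ hm y hy hyx =>
        absurd ⟨V, gc, Ac, P₁, P₂, hm, y, hy, hyx⟩ hx⟩
  choose Φ U hΦ using h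
  exact ⟨Φ, U, fun V gc Ac P₁ P₂ hm y hy => hΦ _ V gc Ac P₁ P₂ hm y hy rfl⟩

omit [Nonempty ι] in
theorem gauge {S T : ι → ι → ℝ} (h : ∀ a a', ∑ e, S e a * S e a' = if a = a' then 1 else 0)
    (a b : ι) : ∑ e, S a e * ∑ f, T f b * S f e = T a b := by
  have h1 : ∑ e, S a e * ∑ f, T f b * S f e = ∑ f, T f b * ∑ e, S a e * S f e := by
    simp only [Finset.mul_sum]
    rw [Finset.sum_comm]
    exact Finset.sum_congr rfl fun f _ => Finset.sum_congr rfl fun e _ => by ring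
  rw [h1]
  simp only [orth_swap h]
  simp

end ManGlue

theorem m_glue (h1 : B1 n M ι) (mtr : M_mtr n M ι) (uniq : M_uniq n M ι) : M_glue n M ι := by
  intro X₁ X₂ Γ hΓ
  obtain ⟨Φ, U, hΦ⟩ := ManGlue.fn uniq X₁ X₂ Γ hΓ
  obtain ⟨Ψ, U', hΨ⟩ := ManGlue.fn uniq X₂ X₁ Γ hΓ
  refine ⟨{x | ∃ (V : Set (En n)) (gc : MatF n) (Ac : ConF n ι) (P₁ P₂ : Fr n M ι),
    MI X₁ X₂ Γ V gc Ac P₁ P₂ ∧ ∃ y ∈ V, P₂.θ y = x}, Φ, Ψ, U, ?_, ?_, ?_, ?_, ?_, ?_⟩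
  · refine isOpen_iff_forall_mem_open.2 ?_
    rintro x ⟨V, gc, Ac, P₁, P₂, hm, y, hy, rfl⟩
    refine ⟨P₂.θ '' V, ?_, hm.p₂.opn, mem_image_of_mem _ hy⟩
    rintro _ ⟨z, hz, rfl⟩
    exact ⟨V, gc, Ac, P₁, P₂, hm, z, hz, rfl⟩
  · rintro x ⟨V, gc, Ac, P₁, P₂, hm, y, hy, rfl⟩
    exact hm.p₂.int y hy
  · rintro x ⟨V, gc, Ac, P₁, P₂, hm, y, hy, rfl⟩
    rw [(hΦ V gc Ac P₁ P₂ hm y hy).1]
    exact hm.p₁.int y hy
  · rintro x ⟨V, gc, Ac, P₁, P₂, hm, y, hy, rfl⟩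
    rw [(hΦ V gc Ac P₁ P₂ hm y hy).1, (hΨ V gc Ac P₂ P₁ hm.symm y hy).1]
  · intro V gc Ac P hP hsub
    have key : ∀ y ∈ V, ∃ (V' : Set (En n)) (P' : Fr n M ι), y ∈ V' ∧ V' ⊆ V ∧
        MI X₁ X₂ Γ V' gc Ac P' P ∧ ∀ z ∈ V', (P.tr Φ Ψ U).θ z = P'.θ z ∧
          (P.tr Φ Ψ U).κ ((P.tr Φ Ψ U).θ z) = z ∧
          ∀ a a', (P.tr Φ Ψ U).S a a' z = P'.S a a' z := by
      intro y hy
      obtain ⟨V₀, g₀, A₀, P₁, P₂, hm, y₀, hy₀, he⟩ := hsub (mem_image_of_mem _ hy)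
      have ho : IsOpen (V ∩ P.θ ⁻¹' (P₂.θ '' V₀)) :=
        hP.smθ.continuousOn.isOpen_inter_preimage hP.isOpen hm.p₂.opn
      have hP' : IP X₂.g X₂.A (V ∩ P.θ ⁻¹' (P₂.θ '' V₀)) gc Ac P :=
        (h1.restr X₂.g X₂.A gc Ac P).2.1 V _ hP ho inter_subset_left
      obtain ⟨P', hm', -⟩ := mtr X₁ X₂ Γ V₀ _ g₀ gc A₀ Ac P₁ P₂ P hm hP' (by
        rintro _ ⟨z, hz, rfl⟩
        exact hz.2)
      refine ⟨V ∩ P.θ ⁻¹' (P₂.θ '' V₀), P', ⟨hy, y₀, hy₀, he⟩, inter_subset_left, hm',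
        fun z hz => ?_⟩
      have e1 := hΦ _ gc Ac P' P hm' z hz
      have e2 := (hΨ _ gc Ac P P' hm'.symm z hz).1
      refine ⟨e1.1, ?_, fun a a' => ?_⟩
      · change P.κ (Ψ (Φ (P.θ z))) = z
        rw [e1.1, e2, hP.linv z hz.1]
      · change ∑ e, P.S a e z * U (P.θ z) a' e = _
        rw [e1.2]
        exact ManGlue.gauge (S := fun a b => P.S a b z) (T := fun a b => P'.S a b z)
          (hP.orth z hz.1) a a'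
    refine ⟨h1.loca X₁.g X₁.A gc Ac _ V hP.isOpen hP.bdd hP.ga fun y hy => ?_, hP,
      fun F hF a => ManGlue.ae_of_loc hP.isOpen fun y hy => ?_⟩
    · obtain ⟨V', P', h2, h3, h4, h5⟩ := key y hy
      exact ⟨V', P', h2, h3, h4.p₁, h5⟩
    · obtain ⟨V', P', h2, h3, h4, h5⟩ := key y hy
      refine ⟨V', h4.p₁.isOpen, h2, ?_⟩
      filter_upwards [h4.eq F hF a, ae_restrict_mem h4.p₁.isOpen.measurableSet] with z hz hzV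
      rw [← hz]
      simp only [Fr.pull, (h5 z hzV).1, (h5 z hzV).2.2]
  · intro V gc Ac P₁ P₂ hm y hy
    exact ⟨⟨V, gc, Ac, P₁, P₂, hm, y, hy, rfl⟩, hΦ V gc Ac P₁ P₂ hm y hy⟩

end Vale.Agent.P088
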