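import Vale.Agent.P088.ManS

open MeasureTheory Set Metric Filter
open scoped ContDiff Topology InnerProductSpace Manifold Matrix

noncomputable section
namespace Vale.Agent.P088
open Vale.Agent.P136 (D Sm Tst)

variable {n : ℕ} [NeZero n] {M : Type} [TopologicalSpace M] [T2Space M] [CompactSpace M]
  [ConnectedSpace M] [ChartedSpace (EuclideanHalfSpace n) M] [IsManifold (𝓡∂ n) ∞ M]
  [MeasurableSpace M] [BorelSpace M] {ι : Type} [Fintype ι] [DecidableEq ι] [Nonempty ι]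

namespace ManGp

theorem cs {W : Type} [AddCommGroup W] [Module ℝ W] (b : W →ₗ[ℝ] W →ₗ[ℝ] ℝ)
    (hs : ∀ v w, b v w = b w v) (hp : ∀ v, 0 ≤ b v v) (v w : W) : b v w ^ 2 ≤ b v v * b w w := by
  have h := discrim_le_zero (a := b w w) (b := 2 * b v w) (c := b v v) fun t => by
    have := hp (v + t • w)
    simp only [map_add, map_smul, LinearMap.add_apply, LinearMap.smul_apply, smul_eq_mul,
      hs w v] at this
    linarith
  rw [discrim] at h
  linarith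

theorem abs (hH : A_hilb) {W X : Type} [AddCommGroup W] [Module ℝ W] [NormedAddCommGroup X]
    [InnerProductSpace ℝ X] [CompleteSpace X] (b : W →ₗ[ℝ] W →ₗ[ℝ] ℝ) (t : W →ₗ[ℝ] X)
    (V : Submodule ℝ W) (C : ℝ) (hs : ∀ v w, b v w = b w v) (hp : ∀ v, 0 ≤ b v v)
    (hC : ∀ w ∈ V, ‖t w‖ ^ 2 ≤ C * b w w) :
    ∃ (G : X →L[ℝ] X) (Q : W → X), (∀ K K', ⟪G K, K'⟫_ℝ = ⟪K, G K'⟫_ℝ) ∧
      (∀ K, ∀ w ∈ V, 2 * ⟪K, t w⟫_ℝ - b w w ≤ ⟪G K, K⟫_ℝ) ∧
      (∀ K (a : ℝ), 0 ≤ a → (∀ w ∈ V, ⟪K, t w⟫_ℝ ^ 2 ≤ a * b w w) → ⟪G K, K⟫_ℝ ≤ a) ∧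
      (∀ ψ K, (∀ w ∈ V, b ψ w = ⟪K, t w⟫_ℝ) → Q ψ = G K ∧
        ∀ F, (sInf ((fun w => b w w) '' {F' | F + ψ - F' ∈ V}) -
          sInf ((fun w => b w w) '' {F' | F - ψ - F' ∈ V})) / 4 = b F ψ - ⟪Q F, K⟫_ℝ) ∧
      (∀ w ∈ V, Q w = t w) ∧ ∀ F F', F - F' ∈ V → t F - Q F = t F' - Q F' := by
  obtain ⟨H, _, _, i, J, J', hi, hJ, hJJ, huniq, hlub, hup, hex⟩ :=
    hH V X (b.compl₁₂ V.subtype V.subtype) (t.comp V.subtype) C (fun v w => hs v w)
      (fun v => hp v) fun v => hC v v.2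
  simp only [LinearMap.compl₁₂_apply, Submodule.subtype_apply, LinearMap.comp_apply]
    at hi hJ hlub hup hex
  have hu : ∀ F : W, ∃ u : H, ∀ v : V, ⟪u, i v⟫_ℝ = b F v := fun F =>
    hex ((b F).comp V.subtype) (b F F) fun v => cs b hs hp F v
  choose u hu using hu
  have hK : ∀ K (w : V), ⟪J' K, i w⟫_ℝ = ⟪K, t w⟫_ℝ := fun K w => by
    rw [real_inner_comm, ← hJJ, hJ, real_inner_comm]
  have hG : ∀ K, ⟪J (J' K), K⟫_ℝ = ‖J' K‖ ^ 2 := fun K => by
    rw [hJJ, real_inner_self_eq_norm_sq]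
  have uadd : ∀ F F', u (F + F') = u F + u F' := fun F F' => huniq _ _ fun v => by
    rw [inner_add_left, hu, hu, hu, map_add, LinearMap.add_apply]
  have usub : ∀ F F', u (F - F') = u F - u F' := fun F F' => huniq _ _ fun v => by
    rw [inner_sub_left, hu, hu, hu, map_sub, LinearMap.sub_apply]
  have uV : ∀ w : V, u w = i w := fun w => huniq _ _ fun v => by rw [hu, hi]
  have hN : ∀ F, sInf ((fun w => b w w) '' {F' | F - F' ∈ V}) = b F F - ‖u F‖ ^ 2 := by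
    intro F
    have e : ∀ v : W, b (F - v) (F - v) = b F F - (2 * b F v - b v v) := fun v => by
      simp only [map_sub, LinearMap.sub_apply, hs v F]
      ring
    refine IsGLB.csInf_eq ⟨?_, fun c hc => ?_⟩ ⟨_, F, by simp, rfl⟩
    · rintro _ ⟨F', hF', rfl⟩
      have := (hlub (u F)).1 ⟨⟨F - F', hF'⟩, rfl⟩
      have e' := e (F - F')
      rw [sub_sub_cancel] at e'
      simp only [hu] at this
      simp only [e']
      linarith
    · have : ‖u F‖ ^ 2 ≤ b F F - c := (hlub (u F)).2 (by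
        rintro _ ⟨v, rfl⟩
        have := hc ⟨F - v, by simp, rfl⟩
        simp only [e, hu] at this ⊢
        linarith)
      linarith
  refine ⟨J.comp J', fun F => J (u F), fun K K' => ?_, fun K w hw => ?_, fun K a ha h => ?_,
    fun ψ K h => ?_, fun w hw => ?_, fun F F' h => ?_⟩
  · simp only [ContinuousLinearMap.comp_apply]
    rw [hJJ, real_inner_comm (J (J' K')), hJJ, real_inner_comm]
  · have := (hlub (J' K)).1 ⟨⟨w, hw⟩, rfl⟩
    simp only [hK] at this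
    simpa only [ContinuousLinearMap.comp_apply, hG] using this
  · simp only [ContinuousLinearMap.comp_apply, hG]
    exact hup _ a ha fun v => by rw [hK]; exact h v v.2
  · have e : u ψ = J' K := huniq _ _ fun v => by rw [hu, hK, h v v.2]
    refine ⟨by simp only [e, ContinuousLinearMap.comp_apply], fun F => ?_⟩
    rw [hN, hN, uadd, usub, hJJ, ← e, norm_add_sq_real, norm_sub_sq_real]
    simp only [map_add, map_sub, LinearMap.add_apply, LinearMap.sub_apply, hs ψ F]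
    ring
  · have := uV ⟨w, hw⟩
    simp only at this ⊢
    rw [this, hJ]
  · have := uV ⟨F - F', h⟩
    simp only [usub] at this
    have e := congrArg J this
    rw [map_sub, hJ] at e
    simp only [map_sub] at e ⊢
    rw [sub_eq_sub_iff_sub_eq_sub, e]

end ManGp

open Classical in
theorem m_gp (hE : EAll) (h2 : B2 n M ι) (poinc : M_poinc n M ι) : M_gp n M ι := by
  intro g A hg hA hb
  obtain ⟨C, hC0, hC⟩ := poinc g A hg hA hb
  obtain ⟨r0, -, -, -, -, -, hal⟩ := h2.alg g A hg hA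
  let W : Submodule ℝ (M → ι → ℝ) :=
    { carrier := {F | RSec n F}
      add_mem' := fun h h' => (hal _ _ h h').1
      zero_mem' := r0
      smul_mem' := fun c _ h => ((hal _ _ h h).2.2.1 c).1 }
  have hs : ∀ F F' : W, rbil g A F F' = rbil g A F' F := fun F F' =>
    (hal _ _ F.2 F'.2).2.2.2.2.2.2.2.1
  have ha : ∀ F F' F'' : W, rbil g A (F + F') F'' = rbil g A F F'' + rbil g A F' F'' :=
    fun F F' F'' => ((hal _ _ F.2 F'.2).2.2.2.2.2.2.2.2.2 _ F''.2).1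
  have hm : ∀ (c : ℝ) (F F' : W), rbil g A (c • F) F' = c * rbil g A F F' :=
    fun c F F' => ((hal _ _ F.2 F'.2).2.2.1 c).2.2
  let b : W →ₗ[ℝ] W →ₗ[ℝ] ℝ := LinearMap.mk₂ ℝ (fun F F' => rbil g A F F') ha hm
    (fun F F' F'' => by rw [hs F, hs F, hs F]; exact ha _ _ _)
    fun c F F' => by rw [hs F, hs F]; exact hm _ _ _
  let t : W →ₗ[ℝ] LM ι g :=
    { toFun := fun F => tm g F
      map_add' := fun F F' => (hal _ _ F.2 F'.2).2.2.2.1
      map_smul' := fun c F => ((hal _ _ F.2 F.2).2.2.1 c).2.1 }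
  let V : Submodule ℝ W :=
    { carrier := {F | ∀ x ∈ bdM n M, F.1 x = 0}
      add_mem' := fun h h' x hx => by simp [h x hx, h' x hx]
      zero_mem' := fun _ _ => rfl
      smul_mem' := fun c _ h x hx => by simp [h x hx] }
  obtain ⟨G, Q, q1, q2, q3, q4, q5, q6⟩ := ManGp.abs hE.hilb b t V C hs
    (fun F => (hal _ _ F.2 F.2).2.2.2.2.2.2.2.2.1) fun w hw => hC w ⟨w.2, hw⟩
  have hN : ∀ F : W, rdn g A F = sInf ((fun w => b w w) '' {F' | F - F' ∈ V}) := by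
    intro F
    refine congrArg sInf (Set.ext fun e => ⟨?_, ?_⟩)
    · rintro ⟨F', ⟨h1, h2⟩, rfl⟩
      exact ⟨⟨F', h1⟩, fun x hx => sub_eq_zero.2 (h2 x hx).symm, rfl⟩
    · rintro ⟨F', h, rfl⟩
      exact ⟨F', ⟨F'.2, fun x hx => (sub_eq_zero.1 (h x hx)).symm⟩, rfl⟩
  refine ⟨G, fun F => if h : RSec n F then Q ⟨F, h⟩ else 0, ⟨C, hC0, hC⟩, q1,
    fun K w hw => q2 K ⟨w, hw.1⟩ hw.2, fun K a ha h => q3 K a ha fun w hw => h w ⟨w.2, hw⟩,
    fun ψ K hψ h => ?_, fun w hw => ?_, fun F F' hF hF' h => ?_⟩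
  · obtain ⟨e1, e2⟩ := q4 ⟨ψ, hψ⟩ K fun w hw => h w ⟨w.2, hw⟩
    refine ⟨by rw [dif_pos hψ, e1], fun F hF => ?_⟩
    have := e2 ⟨F, hF⟩
    rw [← hN, ← hN] at this
    rw [dif_pos hF]
    exact this
  · rw [dif_pos hw.1]
    exact q5 ⟨w, hw.1⟩ hw.2
  · rw [dif_pos hF, dif_pos hF']
    exact q6 ⟨F, hF⟩ ⟨F', hF'⟩ fun x hx => sub_eq_zero.2 (h x hx)

end Vale.Agent.P088
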