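import Vale.Agent.P088.ManS

open MeasureTheory Set Metric Filter
open scoped ContDiff Topology InnerProductSpace Manifold Matrix

noncomputable section
namespace Vale.Agent.P088
open Vale.Agent.P136 (D Sm Tst)

variable {n : ℕ} [NeZero n] {M : Type} [TopologicalSpace M] [T2Space M] [CompactSpace M]
  [ConnectedSpace M] [ChartedSpace (EuclideanHalfSpace n) M] [IsManifold (𝓡∂ n) ∞ M]
  [MeasurableSpace M] [BorelSpace M] {ι : Type} [Fintype ι] [DecidableEq ι] [Nonempty ι]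

namespace ManGreen

theorem enB_congr (hE : EAll) {gc : MatF n} {Ac : ConF n ι} (hG : GA gc Ac) {V : Set (En n)}
    (hV : IsOpen V) {v v' w w' : ι → En n → ℝ} (h : ∀ y ∈ V, ∀ a, v a y = v' a y)
    (h' : ∀ y ∈ V, ∀ a, w a y = w' a y) : enB V gc Ac v w = enB V gc Ac v' w' :=
  setIntegral_congr_fun hV.measurableSet fun y hy => (hE.eden n ι gc Ac hG).2.2.2.2.2.2.1 _ _ _ _ y
    (fun a => eventually_of_mem (hV.mem_nhds hy) fun z hz => h z hz a)
    fun a => eventually_of_mem (hV.mem_nhds hy) fun z hz => h' z hz a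

theorem main (hE : EAll) (h1 : B1 n M ι) (alg : M_alg n M ι) {g : Bil n M} {A : RForm n M ι}
    {gc : MatF n} {Ac : ConF n ι} {P : Fr n M ι} {ψ : ι → En n → ℝ} (hg : IsMetric g)
    (hA : IsSkewConn A) {Dm O V : Set (En n)} (hP : Par g A Dm gc Ac P) (hψ : Tests O ψ)
    (hK : ∀ K, IsCompact K → K ⊆ O → IsCompact (K ∩ Dm)) (hV : IsOpen V) (hs : V ⊆ Dm)
    (he : Dm =ᵐ[volume] V) {w : M → ι → ℝ} (hw : RSec n w) :
    rbil g A (P.push Dm ψ) w = enB V gc Ac ψ (P.pull w) := by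
  obtain ⟨e, h2⟩ := h1.push g A gc Ac P Dm O ψ hP
  obtain ⟨hF, K, k1, k2, -, k3⟩ := h2 hψ hK
  have hc : IsClosed (P.θ '' K) :=
    (k1.image_of_continuousOn (hP.smθ.continuousOn.mono k2)).isClosed
  rw [rbil, ← setIntegral_eq_integral_of_forall_compl_eq_zero (s := P.θ '' Dm) fun x hx =>
    (alg g A hg hA).2.2.2.1 _ w x (eventually_of_mem
      (hc.isOpen_compl.mem_nhds fun h => hx (image_mono k2 h)) k3),
    (h1.vol g A Dm Dm gc Ac P hg hP hP.meas subset_rfl).2.2.1, setIntegral_congr_set he,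
    ← enB_congr hE hP.ga hV (fun y hy => e y (hs hy)) fun _ _ _ => rfl]
  exact setIntegral_congr_fun hV.measurableSet fun y hy =>
    (h1.dens g A Dm gc Ac P _ w hg hP.toPar0 hF hw y (interior_maximal hs hV hy)).symm

end ManGreen

theorem m_green (hE : EAll) (h1 : B1 n M ι) (alg : M_alg n M ι) : M_green n M ι := by
  intro g A gc Ac P ψ hg hA
  refine ⟨fun V hP hψ => ?_, fun R r hP r0 hr hψ => ?_⟩
  · have h := fun w => ManGreen.main hE h1 alg hg hA hP.toPar hψ
      (fun K h1 h2 => by rwa [inter_eq_left.2 h2]) hP.isOpen subset_rfl (ae_eq_refl V) (w := w)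
    refine ⟨(h _ ((h1.push2 g A gc Ac P ψ).1 V hP hψ).1).trans
      (ManGreen.enB_congr hE hP.ga hP.isOpen (fun _ _ _ => rfl)
        (h1.push g A gc Ac P V V ψ hP.toPar).1), fun w hw => (h w hw).trans ?_⟩
    exact hE.ibp1 n ι gc Ac V ψ _ hP.ga hP.isOpen hψ ((h1.pull g A gc Ac P w hw).1 V hP.toPar0)
  · have hP' := (h1.restr g A gc Ac P).2.2.1 R r hP r0 hr.le
    have h := fun w => ManGreen.main hE h1 alg hg hA hP'.toPar hψ
      (fun K h1 h2 => by
        rw [Hb, ← inter_assoc, inter_eq_left.2 h2]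
        exact h1.inter_right (isClosed_le continuous_const cont0))
      (isOpen_Up r) (Up_sub_Hb r) (Hb_ae_eq r) (w := w)
    refine ⟨h, fun ψ' hψ' => (h _ ((h1.push2 g A gc Ac P ψ').2.1 r ∅ hP' hψ').1).trans
      (ManGreen.enB_congr hE hP.ga (isOpen_Up r) (fun _ _ _ => rfl) fun y hy =>
        (h1.push g A gc Ac P _ (ball 0 r) ψ' hP'.toPar).1 y (Up_sub_Hb r hy)), fun w hw => ?_⟩
    obtain ⟨v, hv, e⟩ := (h1.pull g A gc Ac P w hw.1).2.2 R r hP hr
    rw [h w hw.1, ManGreen.enB_congr hE hP.ga (isOpen_Up r) (fun _ _ _ => rfl)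
      fun y hy a => (e a (Up_sub_Hb r hy)).symm,
      hE.ibp2 n ι gc Ac r ψ v hP.ga hψ hv fun y hy h0 a => ?_]
    · refine congrArg _ (Finset.sum_congr rfl fun a _ =>
        setIntegral_congr_fun (isOpen_Up r).measurableSet fun y hy => ?_)
      simp only [e a (Up_sub_Hb r hy)]
    · have hy' : y ∈ Hb n r := ⟨hy, h0.ge⟩
      simp [e a hy', Fr.pull, hw.2 _ ((hP'.bd y hy').2 h0)]

end Vale.Agent.P088
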