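import Vale.Agent.P088.ManS

open MeasureTheory Set Metric Filter
open scoped ContDiff Topology InnerProductSpace Manifold Matrix

noncomputable section
namespace Vale.Agent.P088
open Vale.Agent.P136 (D Sm Tst)

variable {n : ℕ} [NeZero n] {M : Type} [TopologicalSpace M] [T2Space M] [CompactSpace M]
  [ConnectedSpace M] [ChartedSpace (EuclideanHalfSpace n) M] [IsManifold (𝓡∂ n) ∞ M]
  [MeasurableSpace M] [BorelSpace M] {ι : Type} [Fintype ι] [DecidableEq ι] [Nonempty ι]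

namespace ManGrel

omit [NeZero n] [DecidableEq ι] [Nonempty ι] in
theorem smApp {L : Op n ι} (h : L.Good) {ψ : ι → En n → ℝ} (hψ : SmV ψ) : SmV (L.app ψ) := by
  intro a
  unfold Op.app dgd dvg XX
  exact ((Sm.sum fun i _ => (Sm.sum fun j _ => (h.1 i j).mul ((hψ a).D _)).D _).add
    (Sm.sum fun i _ => Sm.sum fun a' _ => (h.2.2.1 i a a').mul ((hψ a').D _))).add
    (Sm.sum fun a' _ => (h.2.2.2.1 a a').mul (hψ a'))

omit [NeZero n] [DecidableEq ι] [Nonempty ι] in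
theorem split {V : Set (En n)} {W₁ W₂ f : ι → En n → ℝ} (h₁ : L2On V W₁) (h₂ : L2On V W₂)
    (hf : L2On V f) : ∑ a, ∫ y in V, (W₁ a y - W₂ a y) * f a y =
      (∑ a, ∫ y in V, W₁ a y * f a y) - ∑ a, ∫ y in V, W₂ a y * f a y := by
  rw [← Finset.sum_sub_distrib]
  refine Finset.sum_congr rfl fun a _ => ?_
  simp only [sub_mul]
  exact integral_sub ((h₁ a).integrable_mul (hf a)) ((h₂ a).integrable_mul (hf a))

end ManGrel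

theorem m_grel (hE : EAll) (h1 : B1 n M ι) (h2 : B2 n M ι) (h3 : B3 n M ι) : M_grel n M ι := by
  intro X₁ X₂ Γ O O₀ Φ Ψ U R r gb gc Ab Ac B₁ B₂ P V hG hB hr hrR hM hO₀ hc hOO hBO hP hPO
    k K₁ K₂ _ hK₁ hK₂
  obtain ⟨-, p2, p3, p4, p5⟩ := h3.prel X₁ X₂ Γ O Φ Ψ U hG
  have hMI := hG.tr V gc Ac P hP (hPO.trans hOO)
  have l2 : ∀ (X : Sd n M ι) {V' gc' Ac' P'}, IP X.g X.A V' gc' Ac' P' → _ :=
    fun X V' gc' Ac' P' h => h2.l2 X.g X.A V' V' gc' Ac' P' X.hg X.hA h.toPar h.meas subset_rfl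
  have l2a : ∀ {V' : Set (En n)} {gc' Ac' O'} {ψ : ι → En n → ℝ}, GA gc' Ac' → MeasurableSet V' →
      Bornology.IsBounded V' → Tests O' ψ → L2On V' ((cop gc' Ac').app ψ) :=
    fun ga hm hb hψ => (hE.tl n ι _).2.2.2.2 hm hb _
      (ManGrel.smApp (hE.cop n ι _ _ ga).1 fun a => (hψ a).1.1)
  have cA : ∀ F₁ F₂, RSec n F₁ → RSec n F₂ → (∀ x ∈ O, F₁ (Φ x) = U x *ᵥ F₂ x) →
      ⟪K₁, tm X₁.g F₁⟫_ℝ = ⟪K₂, tm X₂.g F₂⟫_ℝ := by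
    intro F₁ F₂ hF₁ hF₂ h
    rw [(l2 X₁ hMI.p₁).2.2.2.2 k K₁ F₁ hK₁ hF₁, (l2 X₂ hP).2.2.2.2 k K₂ F₂ hK₂ hF₂]
    refine Finset.sum_congr rfl fun a _ => setIntegral_congr_fun hP.meas fun y hy => ?_
    have hy' : P.θ y ∈ O := hOO (hPO ⟨y, hy, rfl⟩)
    simp only [p4 P F₁ F₂ y hy' (h _ hy') a]
  have cB : ∀ F, Adm n Γ F → ⟪K₁, X₁.hf F⟫_ℝ = ⟪K₂, X₂.hf F⟫_ℝ := by
    intro F hF
    rw [hK₁, hK₂]
    refine Finset.sum_congr rfl fun a _ => integral_congr_ae ?_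
    filter_upwards [hMI.eq F hF a] with y hy
    rw [hy]
  obtain ⟨W, hW⟩ : ∃ W : M → ι → ℝ,
      W = fun x => (U x)ᵀ *ᵥ cm (X₁.G K₁) (Φ x) - cm (X₂.G K₂) x := ⟨_, rfl⟩
  have pW : ∀ P' : Fr n M ι, P'.pull W = fun a y =>
      (P'.tr Φ Ψ U).pull (cm (X₁.G K₁)) a y - P'.pull (cm (X₂.G K₂)) a y := by
    intro P'
    funext a y
    rw [hW]
    exact p5 P' _ _ a y
  have key : ∀ᵐ x ∂(vol X₂.g), x ∈ O₀ → W x = 0 := by
    refine h3.ucpm X₂.g X₂.A O₀ (B₂.θ '' Up n r) W X₂.hg X₂.hA hO₀ hc (fun x hx => ?_)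
      hM.p₂.opn ((Up_nonempty hr).image _) hBO ?_
    · obtain ⟨R', gc', Ac', P', hR', hP', h0⟩ :=
        h1.xi X₂.g X₂.A X₂.hg X₂.hA x (hG.int (hOO hx))
      have hop : IsOpen (ball (0 : En n) R' ∩ P'.θ ⁻¹' O₀) :=
        hP'.smθ.continuousOn.isOpen_inter_preimage isOpen_ball hO₀
      have hI := (h1.restr X₂.g X₂.A gc' Ac' P').2.1 _ _ hP' hop inter_subset_left
      have hs : P'.θ '' (ball (0 : En n) R' ∩ P'.θ ⁻¹' O₀) ⊆ O := by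
        rintro _ ⟨y, hy, rfl⟩
        exact hOO hy.2
      have hI₁ := (hG.tr _ gc' Ac' P' hI hs).p₁
      refine ⟨_, gc', Ac', P', hI, ⟨0, ⟨mem_ball_self hR', by rwa [mem_preimage, h0]⟩, h0⟩, ?_⟩
      rw [pW]
      refine ⟨fun a => ((l2 X₁ hI₁).1 _ a).sub ((l2 X₂ hI).1 _ a), fun ψ hψ => ?_⟩
      rw [ManGrel.split ((l2 X₁ hI₁).1 _) ((l2 X₂ hI).1 _) (l2a hI.ga hI.meas hI.bdd hψ),
        ((h3.src X₁ gc' Ac' _ ψ).1 _ hI₁ hψ).1, ((h3.src X₂ gc' Ac' _ ψ).1 _ hI hψ).1,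
        cA _ _ ((h1.push2 _ _ _ _ _ ψ).1 _ hI₁ hψ).1 ((h1.push2 _ _ _ _ _ ψ).1 _ hI hψ).1
          (p2 _ gc' Ac' P' hI hs ψ), sub_self]
    · obtain ⟨q1, q2⟩ := p3 R r gb Ab B₁ B₂ hB hrR hM
      have b₁ := (h1.restr _ _ _ _ _).2.2.1 R r hB.p₁ hr hrR.le
      have b₂ := (h1.restr _ _ _ _ _).2.2.1 R r hB.p₂ hr hrR.le
      have z := hE.z0 n ι gb Ab r (fun a y => B₁.pull (cm (X₁.G K₁)) a y -
        B₂.pull (cm (X₂.G K₂)) a y) hM.p₂.ga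
        (fun a => ((l2 X₁ hM.p₁).1 _ a).sub ((l2 X₂ hM.p₂).1 _ a)) fun ψ hψ => by
          have r₁ := ((h1.push2 _ _ _ _ _ ψ).2.1 r Γ b₁ hψ).1
          obtain ⟨r₂, a₂⟩ := (h1.push2 _ _ _ _ _ ψ).2.1 r Γ b₂ hψ
          have e : X₁.hf (B₁.push (Hb n r) ψ) = X₁.hf (B₂.push (Hb n r) ψ) :=
            X₁.gp.hfc _ _ r₁ r₂ ((h1.push2 _ _ _ _ _ ψ).2.2 r Γ _ _ _ _ _ b₁ b₂
              (hB.fm.mono hrR.le) ψ fun _ _ _ _ => rfl)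
          rw [ManGrel.split ((l2 X₁ hM.p₁).1 _) ((l2 X₂ hM.p₂).1 _)
            (l2a hM.p₂.ga hM.p₂.meas hM.p₂.bdd hψ),
            ((h3.src X₁ gb Ab _ ψ).2 R r hB.p₁ hr hrR hψ).1,
            ((h3.src X₂ gb Ab _ ψ).2 R r hB.p₂ hr hrR hψ).1, cA _ _ r₁ r₂ (q1 ψ), e,
            cB _ (a₂ fun y hy h0 => (hB.fm.mono hrR.le y hy h0).2.1), sub_self]
      refine ((l2 X₂ hM.p₂).2.2.2.1 W).1 fun a => ?_
      rw [pW]
      filter_upwards [z a, ae_restrict_mem hM.p₂.meas] with y hy hy'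
      rw [q2 y hy']
      exact hy
  intro a
  have := ((l2 X₂ hP).2.2.2.1 W).2 (key.mono fun x hx h => hx (hPO h)) a
  rw [pW] at this
  filter_upwards [this] with y hy
  exact sub_eq_zero.1 hy

end Vale.Agent.P088
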