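import Vale.Agent.P088.ManS

open MeasureTheory Set Metric Filter
open scoped ContDiff Topology InnerProductSpace Manifold Matrix

noncomputable section
namespace Vale.Agent.P088
open Vale.Agent.P136 (D Sm Tst)

variable {n : ℕ} [NeZero n] {M : Type} [TopologicalSpace M] [T2Space M] [CompactSpace M]
  [ConnectedSpace M] [ChartedSpace (EuclideanHalfSpace n) M] [IsManifold (𝓡∂ n) ∞ M]
  [MeasurableSpace M] [BorelSpace M] {ι : Type} [Fintype ι] [DecidableEq ι] [Nonempty ι]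

namespace ManGrn

theorem cs {H : Type*} [NormedAddCommGroup H] [InnerProductSpace ℝ H] (G : H →L[ℝ] H)
    (hs : ∀ a b, ⟪G a, b⟫_ℝ = ⟪a, G b⟫_ℝ) (h0 : ∀ a, 0 ≤ ⟪G a, a⟫_ℝ) (a b : H) :
    ⟪G a, b⟫_ℝ ^ 2 ≤ ⟪G a, a⟫_ℝ * ⟪G b, b⟫_ℝ := by
  have h1 : ∀ t : ℝ, 0 ≤ ⟪G a, a⟫_ℝ * (t * t) + 2 * ⟪G a, b⟫_ℝ * t + ⟪G b, b⟫_ℝ := fun t => by
    have h2 := h0 (t • a + b)
    have h3 : ⟪G b, a⟫_ℝ = ⟪G a, b⟫_ℝ := by rw [hs, real_inner_comm]
    simp only [map_add, map_smul, inner_add_left, inner_add_right, real_inner_smul_left,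
      real_inner_smul_right, h3] at h2
    linarith
  have h4 := discrim_le_zero h1
  unfold discrim at h4
  linarith

omit [NeZero n] [DecidableEq ι] [Nonempty ι] in
theorem app_sm {L : Op n ι} (hL : L.Good) {ψ : ι → En n → ℝ} (h : SmV ψ) : SmV (L.app ψ) := by
  intro a
  unfold Op.app dgd dvg XX
  refine Sm.add (Sm.add (Sm.sum fun i _ => Sm.D (Sm.sum fun j _ => ?_) _)
    (Sm.sum fun i _ => Sm.sum fun a' _ => ?_)) (Sm.sum fun a' _ => ?_)
  · exact (hL.1 i j).mul ((h a).D _)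
  · exact (hL.2.2.1 i a a').mul ((h a').D _)
  · exact (hL.2.2.2.1 a a').mul (h a')

omit [NeZero n] [DecidableEq ι] [Nonempty ι] in
theorem cp_neg {U : Set (En n)} (F : HL n ι U) (a : ι) :
    cp (-F) a =ᵐ[volume.restrict U] fun y => -cp F a y := by
  filter_upwards [Lp.coeFn_neg F] with y hy
  simp only [cp, hy, Pi.neg_apply, PiLp.neg_apply]

omit [NeZero n] [DecidableEq ι] [Nonempty ι] in
theorem nrm_mono {U N : Set (En n)} (h : N ⊆ U) {W : ι → En n → ℝ} (hW : L2On U W) :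
    nrm N W ≤ nrm U W := by
  refine Finset.sum_le_sum fun a _ => setIntegral_mono_set ?_ ?_ h.eventuallyLE
  · exact (hW a).integrable_sq
  · exact ae_of_all _ fun y => sq_nonneg _

omit [NeZero n] [DecidableEq ι] [Nonempty ι] in
theorem l2_mono {U N : Set (En n)} (h : N ⊆ U) {W : ι → En n → ℝ} (hW : L2On U W) :
    L2On N W := fun a => (hW a).mono_measure (Measure.restrict_mono h le_rfl)

omit [NeZero n] [DecidableEq ι] [Nonempty ι] in
theorem int_supp {U O : Set (En n)} (hU : MeasurableSet U) (hO : MeasurableSet O) (F : HL n ι U)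
    (hF : SuppIn O F) (W v : ι → En n → ℝ) (hv : ∀ a, EqOn (v a) (W a) U) (a : ι) :
    ∫ y in U, cp F a y * W a y = ∫ y in O ∩ U, cp F a y * v a y := by
  rw [← Measure.restrict_restrict hO, ← integral_indicator hO]
  refine integral_congr_ae ?_
  filter_upwards [hF, ae_restrict_mem hU] with y h1 h2
  by_cases hy : y ∈ O
  · rw [indicator_of_mem hy, hv a h2]
  · rw [indicator_of_notMem hy]
    simp only [cp, h1 hy, PiLp.zero_apply, zero_mul]

end ManGrn

theorem m_grn (hE : EAll) (h1 : B1 n M ι) (h2 : B2 n M ι) (src : M_src n M ι) :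
    M_grn n M ι := by
  intro X R r gc Ac P hP hr hrR
  have hP' : IP X.g X.A (ball 0 r) gc Ac P :=
    (h1.restr X.g X.A gc Ac P).2.1 _ _ hP isOpen_ball (ball_subset_ball hrR.le)
  have hU : MeasurableSet (ball (0 : En n) r) := measurableSet_ball
  obtain ⟨E, E', hadj, hRp, hE'⟩ :=
    (h2.rep X.g X.A _ _ gc Ac P X.hg X.hA hP'.toPar hU subset_rfl).1
  obtain ⟨-, hl2, -, -, hl5⟩ := h2.l2 X.g X.A _ _ gc Ac P X.hg X.hA hP'.toPar hU subset_rfl
  obtain ⟨ht1, ht2, ht3, -, ht5⟩ := hE.tl n ι (ball (0 : En n) r)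
  have ht5' := ht5 hU isBounded_ball
  obtain ⟨hgood, hT⟩ := hE.cop n ι gc Ac hP.ga
  have hpp : ∀ ψ, ∀ y ∈ ball (0 : En n) r, ∀ a, P.pull (P.push (ball 0 r) ψ) a y = ψ a y :=
    fun ψ => (h1.push X.g X.A gc Ac P _ univ ψ hP'.toPar).1
  have hV0 : ∀ ψ, Tests (ball (0 : En n) r) ψ → V0 n (P.push (ball 0 r) ψ) :=
    fun ψ hψ => (h1.push2 X.g X.A gc Ac P ψ).1 _ hP' hψ
  refine ⟨-(E' ∘L X.G ∘L E), ⟨fun F ψ hψ => ?_, fun ψ hψ => ?_⟩, ?_, fun F K hK a => ?_⟩
  · have hs : SmV ψ := fun a => (hψ a).1.1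
    have hL := ht5' _ (ManGrn.app_sm hgood hs)
    rw [hT]
    simp only [_root_.neg_apply, ContinuousLinearMap.comp_apply, inner_neg_left]
    rw [(ht2 _ hL).2.2, (ht2 _ (ht5' _ hs)).2.2]
    have e1 : ∀ a, ∫ y in ball (0 : En n) r, cp (E' (X.G (E F))) a y * (cop gc Ac).app ψ a y =
        ∫ y in ball (0 : En n) r, P.pull (cm (X.G (E F))) a y * (cop gc Ac).app ψ a y := fun a => by
      refine integral_congr_ae ?_
      filter_upwards [hE' (X.G (E F)) a] with y hy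
      rw [hy]
    simp only [e1]
    rw [((src X gc Ac P ψ).1 _ hP' hψ).1, neg_neg, hl5 _ _ _ (hRp F) (hV0 ψ hψ).1]
    exact Finset.sum_congr rfl fun a _ => setIntegral_congr_fun hU fun y hy => by
      simp only [hpp ψ y hy a]
  · have hs : SmV ψ := fun a => (hψ a).1.1
    have hL := ht5' _ (ManGrn.app_sm hgood hs)
    have hK : Rp (ball 0 r) P (fun a y => -(cop gc Ac).app ψ a y)
        (-E (tl (ball 0 r) ((cop gc Ac).app ψ))) := fun K' => by
      rw [inner_neg_left, hRp _ K', ← Finset.sum_neg_distrib]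
      refine Finset.sum_congr rfl fun a _ => ?_
      rw [← integral_neg]
      refine integral_congr_ae ?_
      filter_upwards [(ht2 _ hL).1 a] with y hy
      rw [hy, neg_mul]
    have hG := ((src X gc Ac P ψ).1 _ hP' hψ).2.1 _ hK
    simp only [_root_.neg_apply, ContinuousLinearMap.comp_apply]
    rw [← map_neg, ← map_neg, hG]
    refine ht3 _ _ fun a => ?_
    filter_upwards [hE' (tm X.g (P.push (ball 0 r) ψ)) a, (hl2 _ (hV0 ψ hψ).1).2 a,
      (ht2 _ (ht5' _ hs)).1 a, ae_restrict_mem hU] with y e1 e2 e3 hy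
    rw [e1, e2, e3, hpp ψ y hy a]
  · obtain ⟨C₁, hC₁, hsc⟩ := hE.scale n h1.hn ι gc Ac r univ hP.ga MeasurableSet.univ
      fun _ _ _ _ => mem_univ _
    simp only [inter_univ] at hsc
    obtain ⟨⟨c, hc, hcm⟩, hen⟩ := h2.cmpn X.g X.A _ gc Ac P X.hg X.hA hP'.toPar
    obtain ⟨C₂, hC₂, hpo⟩ := X.gp.poinc
    obtain ⟨hz, -, -, -, -, -, halg⟩ := h2.alg X.g X.A X.hg X.hA
    have h0 : ∀ K, 0 ≤ ⟪X.G K, K⟫_ℝ := fun K => by
      have e1 := X.gp.low K 0 ⟨hz, fun _ _ => rfl⟩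
      obtain ⟨-, e2, e3⟩ := (halg 0 0 hz hz).2.2.1 0
      rw [zero_smul, zero_smul] at e2
      rw [zero_smul, zero_mul] at e3
      have e4 : renergy X.g X.A (0 : M → ι → ℝ) = 0 := e3
      rw [e2, e4, inner_zero_right] at e1
      linarith
    have hb : ∀ s : ℝ, 0 < s → ∀ F : HL n ι (ball 0 r), SuppIn (ball 0 s) F →
        ⟪X.G (E F), E F⟫_ℝ ≤ C₁ * (1 + C₂ / c) * s ^ 2 * ‖F‖ ^ 2 := fun s hs F hF => by
      refine X.gp.up _ _ (by positivity) fun w hw => ?_
      obtain ⟨v, hv, hvw⟩ := (h1.pull X.g X.A gc Ac P w hw.1).2.1 _ 0 r hP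
        (closedBall_subset_ball hrR)
      have hvw' : ∀ a, EqOn (v a) (P.pull w a) (ball 0 r) :=
        fun a => (hvw a).mono ball_subset_closedBall
      rw [hl5 _ _ _ (hRp F) hw.1]
      simp only [ManGrn.int_supp hU measurableSet_ball F hF _ v hvw']
      have hN : ball (0 : En n) s ∩ ball 0 r = ball 0 (min s r) := by
        ext y; simp only [mem_inter_iff, mem_ball, lt_min_iff]
      rw [hN]
      have hsub : ball (0 : En n) (min s r) ⊆ ball 0 r := ball_subset_ball (min_le_right _ _)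
      have e1 := (hE.tl n ι (ball (0 : En n) (min s r))).2.2.2.1 _ _
        (ManGrn.l2_mono hsub (ht1 F).1) (ManGrn.l2_mono hsub (ht5' _ hv))
      have e2 : nrm (ball 0 (min s r)) (cp F) ≤ ‖F‖ ^ 2 := by
        rw [(ht1 F).2.1]; exact ManGrn.nrm_mono hsub (ht1 F).1
      have e3 := hsc (min s r) (lt_min hs hr) (min_le_right _ _) v hv
      have e4 := hen _ isOpen_ball subset_rfl w v hw.1 hvw'
      have e5 : nrm (ball 0 r) v = nrm (ball 0 r) (P.pull w) :=
        Finset.sum_congr rfl fun a _ => setIntegral_congr_fun hU fun y hy => by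
          simp only [hvw' a hy]
      have e6 := (hcm _ hU subset_rfl w hw.1).2.2
      have e7 := hpo w hw
      have e8 : 0 ≤ renergy X.g X.A w := (halg w w hw.1 hw.1).2.2.2.2.2.2.2.2.1
      have e9 : nrm (ball 0 r) v ≤ C₂ / c * renergy X.g X.A w := by
        rw [e5, div_mul_eq_mul_div, le_div_iff₀ hc]; linarith
      have e10 : nrm (ball 0 (min s r)) v ≤
          C₁ * s ^ 2 * ((1 + C₂ / c) * renergy X.g X.A w) := by
        calc _ ≤ _ := e3
          _ ≤ C₁ * min s r ^ 2 * ((1 + C₂ / c) * renergy X.g X.A w) :=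
            mul_le_mul_of_nonneg_left (by linarith) (by positivity)
          _ ≤ _ := by
            have := (lt_min hs hr).le
            have := min_le_left s r
            gcongr
      have e11 : 0 ≤ nrm (ball 0 (min s r)) v :=
        Finset.sum_nonneg fun a _ => integral_nonneg fun y => sq_nonneg _
      calc _ ≤ _ := e1
        _ ≤ ‖F‖ ^ 2 * (C₁ * s ^ 2 * ((1 + C₂ / c) * renergy X.g X.A w)) :=
          mul_le_mul e2 e10 e11 (sq_nonneg _)
        _ = _ := by ring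
    refine ⟨C₁ * (1 + C₂ / c), fun s hs F h hF hh => ?_⟩
    simp only [_root_.neg_apply, ContinuousLinearMap.comp_apply, inner_neg_left,
      abs_neg]
    rw [real_inner_comm, ← hadj, real_inner_comm]
    refine abs_le_of_sq_le_sq ((ManGrn.cs X.G X.gp.symm h0 _ _).trans ?_) (by positivity)
    calc _ ≤ (C₁ * (1 + C₂ / c) * s ^ 2 * ‖F‖ ^ 2) * (C₁ * (1 + C₂ / c) * s ^ 2 * ‖h‖ ^ 2) :=
          mul_le_mul (hb s hs F hF) (hb s hs h hh) (h0 _) (by positivity)
      _ = _ := by ring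
  · have hKE : K = E F := ext_inner_right ℝ fun K' => by rw [hK K', hRp F K']
    simp only [_root_.neg_apply, ContinuousLinearMap.comp_apply]
    filter_upwards [ManGrn.cp_neg (E' (X.G (E F))) a, hE' (X.G (E F)) a] with y e1 e2
    rw [e1, e2, hKE]

end Vale.Agent.P088
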