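import Vale.Agent.P088.ManS

open MeasureTheory Set Metric Filter
open scoped ContDiff Topology InnerProductSpace Manifold Matrix

noncomputable section
namespace Vale.Agent.P088
open Vale.Agent.P136 (D Sm Tst)

variable {n : ℕ} [NeZero n] {M : Type} [TopologicalSpace M] [T2Space M] [CompactSpace M]
  [ConnectedSpace M] [ChartedSpace (EuclideanHalfSpace n) M] [IsManifold (𝓡∂ n) ∞ M]
  [MeasurableSpace M] [BorelSpace M] {ι : Type} [Fintype ι] [DecidableEq ι] [Nonempty ι]

namespace ManL2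

omit [Nonempty ι] in
lemma abs_le_one {S : ι → ι → ℝ} (h : ∀ a a', ∑ e, S e a * S e a' = if a = a' then 1 else 0)
    (a a' : ι) : |S a a'| ≤ 1 := by
  have h1 := h a' a'
  rw [if_pos rfl] at h1
  refine abs_le_one_iff_mul_self_le_one.2 (h1 ▸ ?_)
  exact Finset.single_le_sum (f := fun e => S e a' * S e a') (fun _ _ => mul_self_nonneg _)
    (Finset.mem_univ a)

omit [Nonempty ι] in
lemma inj {S : ι → ι → ℝ} (h : ∀ a a', ∑ e, S e a * S e a' = if a = a' then 1 else 0)
    {w : ι → ℝ} (hw : ∀ a, ∑ a', S a a' * w a' = 0) : w = 0 := by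
  funext b
  have h1 : ∑ a, S a b * ∑ a', S a a' * w a' = 0 := by simp [hw]
  simp only [Finset.mul_sum, ← mul_assoc] at h1
  rw [Finset.sum_comm] at h1
  simpa [← Finset.sum_mul, h] using h1

end ManL2

theorem m_l2 (hE : EAll) (h1 : B1 n M ι) (alg : M_alg n M ι) : M_l2 n M ι := by
  intro g A Dm V gc Ac P hg hA hP hV hVD
  obtain ⟨-, -, -, -, v5, v6⟩ := h1.vol g A Dm V gc Ac P hg hP hV hVD
  obtain ⟨-, -, -, -, -, a6, a7⟩ := alg g A hg hA
  have tr : ∀ {p : M → Prop}, (∀ᵐ x ∂(vol g), p x) → ∀ᵐ y ∂(volume.restrict V), p (P.θ y) :=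
    fun h => (v6 _).1 (h.mono fun _ hx _ => hx)
  have c1 : ∀ K : LM ι g, L2On V (P.pull (cm K)) := fun K a => by
    refine memLp_finsetSum Finset.univ (f := fun a' y => P.S a a' y * cm K (P.θ y) a')
      fun a' _ => ?_
    have k := (v5 fun x => cm K x a').1 (((Lp.memLp K).eval_piLp a').restrict _)
    have m : AEStronglyMeasurable (P.S a a') (volume.restrict V) :=
      ContinuousOn.aestronglyMeasurable
        (fun y hy => (hP.smS y (hVD hy) a a').continuousAt.continuousWithinAt) hV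
    refine k.of_le (m.mul k.1) ?_
    filter_upwards [ae_restrict_mem hV] with y hy
    rw [norm_mul]
    exact mul_le_of_le_one_left (norm_nonneg _) (ManL2.abs_le_one (hP.orth y (hVD hy)) a a')
  have c2 : ∀ F, RSec n F → ∀ a, P.pull (cm (tm g F)) a =ᵐ[volume.restrict V] P.pull F a :=
    fun F hF a => by
      filter_upwards [tr (a7 F F hF hF).2.2.2.2.2.1] with y hy
      simp only [Fr.pull, hy]
  refine ⟨c1, fun F hF => ⟨fun a => (c1 _ a).ae_eq (c2 F hF a), c2 F hF⟩, fun K K' a => ?_,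
    fun W => ?_, fun k K F hK hF => ?_⟩
  · filter_upwards [tr (a6 K K').1] with y hy
    simp only [Fr.pull, hy, Pi.sub_apply, mul_sub, Finset.sum_sub_distrib]
  · rw [v6 fun x => W x = 0]
    refine ⟨fun h => ?_, fun h a => ?_⟩
    · filter_upwards [ae_all_iff.2 h, ae_restrict_mem hV] with y hy hyV
      exact ManL2.inj (hP.orth y (hVD hyV)) hy
    · filter_upwards [h] with y hy
      simp [Fr.pull, hy]
  · rw [hK]
    refine Finset.sum_congr rfl fun a _ => integral_congr_ae ?_
    filter_upwards [c2 F hF a] with y hy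
    rw [hy]

end Vale.Agent.P088
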