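import Vale.Agent.P088.ManS

open MeasureTheory Set Metric Filter
open scoped ContDiff Topology InnerProductSpace Manifold Matrix

noncomputable section
namespace Vale.Agent.P088
open Vale.Agent.P136 (D Sm Tst)

variable {n : ℕ} [NeZero n] {M : Type} [TopologicalSpace M] [T2Space M] [CompactSpace M]
  [ConnectedSpace M] [ChartedSpace (EuclideanHalfSpace n) M] [IsManifold (𝓡∂ n) ∞ M]
  [MeasurableSpace M] [BorelSpace M] {ι : Type} [Fintype ι] [DecidableEq ι] [Nonempty ι]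

namespace ManLim

omit [NeZero n] in
/-- The derivative of a smooth function is bounded on a bounded set. -/
theorem fd_bdd {v : En n → ℝ} (hv : Sm v) {W : Set (En n)} (hW : Bornology.IsBounded W) :
    ∃ C : ℝ, 0 ≤ C ∧ ∀ z ∈ W, ‖fderiv ℝ v z‖ ≤ C := by
  have hc : Continuous (fderiv ℝ v) := hv.continuous_fderiv (by simp)
  obtain ⟨C, hC⟩ := hW.isCompact_closure.exists_bound_of_continuousOn hc.continuousOn
  exact ⟨max C 0, le_max_right _ _, fun z hz =>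
    (hC z (subset_closure hz)).trans (le_max_left _ _)⟩

omit [T2Space M] [CompactSpace M] [ConnectedSpace M] [IsManifold (𝓡∂ n) ∞ M] [MeasurableSpace M]
  [BorelSpace M] [Nonempty ι] in
/-- A local bound for the derivative of `f ∘ θ`. -/
theorem loc_bd (hE : EAll) (restr : M_restr n M ι) (trans : M_trans n M ι)
    (cover : M_cover n M ι) {g : Bil n M} {A : RForm n M ι} (hg : IsMetric g)
    (hA : IsSkewConn A) {V : Set (En n)} {gc : MatF n} {Ac : ConF n ι} {P : Fr n M ι}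
    (hP : IP g A V gc Ac P) {f : M → ℝ} (hf : ContMDiff (𝓡∂ n) 𝓘(ℝ, ℝ) ∞ f) (x : M) :
    ∃ (N : Set M) (C : ℝ), IsOpen N ∧ x ∈ N ∧ ∀ y ∈ V, P.θ y ∈ N →
      DifferentiableAt ℝ (fun z => f (P.θ z)) y ∧ ‖fderiv ℝ (fun z => f (P.θ z)) y‖ ≤ C := by
  obtain ⟨N, W, gc', Ac', Q, hN, hxN, -, hQ, -, -, him, hsm, -⟩ :=
    cover g A hg hA x univ isOpen_univ (mem_univ x)
  obtain ⟨v, hv, hvW⟩ := hsm f hf
  have hcont : ContinuousOn P.θ V := hP.smθ.continuousOn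
  have hop : IsOpen (V ∩ P.θ ⁻¹' N) := hcont.isOpen_inter_preimage hP.isOpen hN
  have hP' : IP g A (V ∩ P.θ ⁻¹' N) gc Ac P :=
    (restr g A gc Ac P).2.1 V _ hP hop inter_subset_left
  have hsub : P.θ '' (V ∩ P.θ ⁻¹' N) ⊆ Q.θ '' W := by
    rw [him]
    rintro _ ⟨y, hy, rfl⟩
    exact ⟨hy.2, hP.int y hy.1⟩
  obtain ⟨hiso, -, hmaps, hrest⟩ :=
    trans g A W (V ∩ P.θ ⁻¹' N) gc' gc Ac' Ac Q P hA hQ.toPar hP' hsub
  obtain ⟨C, hC⟩ := (hE.isoC n ι gc' gc Ac' Ac _ _ _ hQ.ga hP.ga hop hiso).2.2 hP'.bdd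
    (hQ.bdd.subset hmaps.image_subset)
  obtain ⟨C', hC'0, hC'⟩ := fd_bdd hv hQ.bdd
  refine ⟨N, C' * C, hN, hxN, fun y hy hyN => ?_⟩
  have hy' : y ∈ V ∩ P.θ ⁻¹' N := ⟨hy, hyN⟩
  have hev : (fun z => f (P.θ z)) =ᶠ[𝓝 y] v ∘ Q.tau P := by
    filter_upwards [hop.mem_nhds hy'] with z hz
    have h1 : v (Q.tau P z) = f (Q.θ (Q.tau P z)) := hvW (hmaps hz)
    rw [Function.comp_apply, h1, (hrest z hz).1]
  have hd1 : DifferentiableAt ℝ (Q.tau P) y :=
    (hiso.1.contDiffAt (hop.mem_nhds hy')).differentiableAt (by simp)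
  have hd2 : DifferentiableAt ℝ v (Q.tau P y) := hv.differentiable (by simp) _
  refine ⟨(hd2.comp y hd1).congr_of_eventuallyEq hev, ?_⟩
  rw [hev.fderiv_eq, fderiv_comp y hd2 hd1]
  exact (ContinuousLinearMap.opNorm_comp_le _ _).trans
    (mul_le_mul (hC' _ (hmaps hy')) (hC y hy').1 (norm_nonneg _) hC'0)

omit [T2Space M] [ConnectedSpace M] [IsManifold (𝓡∂ n) ∞ M] [MeasurableSpace M]
  [BorelSpace M] [Nonempty ι] in
/-- `f ∘ θ` has a limit at every point of the closure. -/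
theorem f_lim (hE : EAll) (restr : M_restr n M ι) (trans : M_trans n M ι)
    (cover : M_cover n M ι) {g : Bil n M} {A : RForm n M ι} (hg : IsMetric g)
    (hA : IsSkewConn A) {V : Set (En n)} {gc : MatF n} {Ac : ConF n ι} {P : Fr n M ι}
    (hP : IP g A V gc Ac P) (hV : Convex ℝ V) {f : M → ℝ}
    (hf : ContMDiff (𝓡∂ n) 𝓘(ℝ, ℝ) ∞ f) (y₀ : En n) :
    ∃ L : ℝ, Tendsto (fun z => f (P.θ z)) (𝓝[V] y₀) (𝓝 L) := by
  choose N C hN hxN hb using loc_bd hE restr trans cover hg hA hP hf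
  obtain ⟨t, ht⟩ := isCompact_univ.elim_finite_subcover N hN
    fun x _ => mem_iUnion.2 ⟨x, hxN x⟩
  have key : ∀ y ∈ V, DifferentiableAt ℝ (fun z => f (P.θ z)) y ∧
      ‖fderiv ℝ (fun z => f (P.θ z)) y‖ ≤ ∑ x ∈ t, |C x| := by
    intro y hy
    obtain ⟨x, hx, hyx⟩ := mem_iUnion₂.1 (ht (mem_univ (P.θ y)))
    refine ⟨(hb x y hy hyx).1, (hb x y hy hyx).2.trans ((le_abs_self _).trans ?_)⟩
    exact Finset.single_le_sum (f := fun x => |C x|) (fun _ _ => abs_nonneg _) hx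
  have h0 : 0 ≤ ∑ x ∈ t, |C x| := Finset.sum_nonneg fun _ _ => abs_nonneg _
  have hl : LipschitzOnWith ⟨_, h0⟩ (fun z => f (P.θ z)) V :=
    hV.lipschitzOnWith_of_nnnorm_fderiv_le (𝕜 := ℝ) (fun y hy => (key y hy).1)
      fun y hy => (key y hy).2
  obtain ⟨G, hG, hGe⟩ := hl.extend_real
  refine ⟨G y₀, ?_⟩
  have h1 : Tendsto G (𝓝[V] y₀) (𝓝 (G y₀)) :=
    (hG.continuous.tendsto y₀).mono_left nhdsWithin_le_nhds
  exact h1.congr' (by filter_upwards [self_mem_nhdsWithin] with z hz using (hGe hz).symm)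

end ManLim

theorem m_lim (hE : EAll) (restr : M_restr n M ι) (trans : M_trans n M ι)
    (cover : M_cover n M ι) : M_lim n M ι := by
  intro g A hg hA V gc Ac P hP hV y₀ hy₀
  have hne : (𝓝[V] y₀).NeBot := mem_closure_iff_nhdsWithin_neBot.1 hy₀
  obtain ⟨x, hx⟩ := exists_clusterPt_of_compactSpace (map P.θ (𝓝[V] y₀))
  refine ⟨x, tendsto_nhds_of_unique_mapClusterPt fun x' hx' => ?_⟩
  by_contra hne'
  obtain ⟨f, hf0, hf1, -⟩ := exists_contMDiffMap_zero_one_of_isClosed (𝓡∂ n) (n := ⊤)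
    (isClosed_singleton (x := x')) (isClosed_singleton (x := x)) (disjoint_singleton.2 hne')
  obtain ⟨L, hL⟩ := ManLim.f_lim hE restr trans cover hg hA hP hV f.contMDiff y₀
  have key : ∀ p : M, MapClusterPt p (𝓝[V] y₀) P.θ → f p = L := by
    intro p hp
    have h1 : MapClusterPt (f p) (𝓝[V] y₀) (f ∘ P.θ) :=
      hp.continuousAt_comp f.contMDiff.continuous.continuousAt
    have h2 : ClusterPt (f p) (𝓝 L) := ClusterPt.mono h1 hL
    exact eq_of_nhds_neBot h2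
  have h0 : f x' = 0 := hf0 rfl
  have h1 : f x = 1 := hf1 rfl
  have h2 := key x' hx'
  have h3 := key x hx
  linarith

end Vale.Agent.P088
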