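import Vale.Agent.P088.ManS
import Vale.Agent.P088.IsoRig

open MeasureTheory Set Metric Filter
open scoped ContDiff Topology InnerProductSpace Manifold Matrix

noncomputable section
namespace Vale.Agent.P088
open Vale.Agent.P136 (D Sm Tst)

variable {n : ℕ} [NeZero n] {M : Type} [TopologicalSpace M] [T2Space M] [CompactSpace M]
  [ConnectedSpace M] [ChartedSpace (EuclideanHalfSpace n) M] [IsManifold (𝓡∂ n) ∞ M]
  [MeasurableSpace M] [BorelSpace M] {ι : Type} [Fintype ι] [DecidableEq ι] [Nonempty ι]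

namespace ManLocRel

omit [NeZero n] in
theorem lin_ext {W : Type} [AddCommMonoid W] [Module ℝ W] {T T' : En n →ₗ[ℝ] W}
    (h : ∀ i, T (ee i) = T' (ee i)) : T = T' := by
  refine LinearMap.ext fun v => ?_
  rw [IsoRig.sum_ee v]
  simp only [map_sum, map_smul, h]

omit [Nonempty ι] in
theorem alg {S₁ S₂ d₁ d₂ C B₁ B₂ : Matrix ι ι ℝ} (h₁ : S₁ᵀ * S₁ = 1) (h₂ : S₂ᵀ * S₂ = 1)
    (hC : Cᵀ = -C) (hB : B₁ᵀ = -B₁) (e₁ : d₁ + C * S₁ = S₁ * B₁) (e₂ : d₂ + C * S₂ = S₂ * B₂) :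
    (S₁ᵀ * S₂)ᵀ * (S₁ᵀ * S₂) = 1 ∧
      B₂ = (S₁ᵀ * S₂)ᵀ * B₁ * (S₁ᵀ * S₂) + (S₁ᵀ * S₂)ᵀ * (d₁ᵀ * S₂ + S₁ᵀ * d₂) := by
  have h₃ : S₁ * S₁ᵀ = 1 := mul_eq_one_comm.1 h₁
  have h₄ : (S₁ᵀ * S₂)ᵀ * (S₁ᵀ * S₂) = 1 := by
    rw [Matrix.transpose_mul, Matrix.transpose_transpose, mul_assoc, ← mul_assoc S₁, h₃, one_mul,
      h₂]
  refine ⟨h₄, ?_⟩
  have h₅ : d₁ᵀ * S₂ + S₁ᵀ * d₂ = (S₁ᵀ * S₂) * B₂ - B₁ * (S₁ᵀ * S₂) := by
    rw [eq_sub_of_add_eq e₁, eq_sub_of_add_eq e₂, Matrix.transpose_sub, Matrix.transpose_mul,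
      Matrix.transpose_mul, hC, hB]
    noncomm_ring
  rw [h₅, mul_sub, ← mul_assoc _ _ B₂, h₄, one_mul, mul_assoc _ B₁]
  abel

omit [T2Space M] [CompactSpace M] [ConnectedSpace M] [IsManifold (𝓡∂ n) ∞ M] [MeasurableSpace M]
  [BorelSpace M] in
theorem chainL {E' H' M' : Type} [NormedAddCommGroup E'] [NormedSpace ℝ E'] [TopologicalSpace H']
    [TopologicalSpace M'] [ChartedSpace H' M'] (I' : ModelWithCorners ℝ E' H') {θ : En n → M}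
    {Dm : Set (En n)} {y : En n} {Ψ : M → M'} {ψ : En n → M'} (hu : UniqueDiffOn ℝ Dm)
    (hθ : ContMDiffOn 𝓘(ℝ, En n) (𝓡∂ n) ∞ θ Dm) (hy : y ∈ Dm)
    (hΨ : MDifferentiableAt (𝓡∂ n) I' Ψ (θ y)) (h : ∀ z ∈ Dm, ψ z = Ψ (θ z)) (u : En n) :
    (mfderiv (𝓡∂ n) I' Ψ (θ y) (mfderivWithin 𝓘(ℝ, En n) (𝓡∂ n) θ Dm y u) : E') =
      mfderivWithin 𝓘(ℝ, En n) I' ψ Dm y u := by
  have h1 : MDifferentiableWithinAt 𝓘(ℝ, En n) (𝓡∂ n) θ Dm y :=
    (hθ y hy).mdifferentiableWithinAt (by simp)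
  have h2 := (hΨ.hasMFDerivAt.comp_hasMFDerivWithinAt y h1.hasMFDerivWithinAt).congr_mono h
    (h y hy) subset_rfl
  have h3 := h2.mfderivWithin (hu y hy).uniqueMDiffWithinAt
  exact (congrArg (fun T => T u) h3).symm

omit [T2Space M] [CompactSpace M] [ConnectedSpace M] [IsManifold (𝓡∂ n) ∞ M] [MeasurableSpace M]
  [BorelSpace M] in
theorem g_tr (g : Bil n M) {x x' : M} (h : x = x') (v w : En n) : g x v w = g x' v w := by
  subst h; rfl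

omit [T2Space M] [CompactSpace M] [ConnectedSpace M] [IsManifold (𝓡∂ n) ∞ M] [MeasurableSpace M]
  [BorelSpace M] [Fintype ι] [DecidableEq ι] [Nonempty ι] in
theorem A_tr (A : RForm n M ι) {x x' : M} (h : x = x') (v : En n) : A x v = A x' v := by
  subst h; rfl

/-- The derivative of a matrix function. -/
def dM (f : En n → Matrix ι ι ℝ) (y : En n) : En n →ₗ[ℝ] Matrix ι ι ℝ where
  toFun u := Matrix.of fun a b => fderiv ℝ (fun z => f z a b) y u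
  map_add' u v := by ext a b; simp
  map_smul' c u := by ext a b; simp

end ManLocRel

open ManLocRel in
theorem m_loc : M_loc n M ι := by
  intro g₁ g₂ A₁ A₂ Dm gc Ac P₁ P₂ hA h₁ h₂
  have hmaps : MapsTo P₂.κ (P₂.θ '' Dm) Dm := by
    rintro _ ⟨y, hy, rfl⟩
    rw [h₂.linv y hy]; exact hy
  have hf : ∀ y ∈ Dm, ∀ a b, ContDiffAt ℝ ∞ (fun z => P₁.rel P₂ z a b) y := fun y hy a b =>
    ContDiffAt.sum fun e _ => (h₁.smS y hy e a).mul (h₂.smS y hy e b)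
  have hΦ : ContMDiffOn (𝓡∂ n) (𝓡∂ n) ∞ (fun x => P₁.θ (P₂.κ x)) (P₂.θ '' Dm) :=
    h₁.smθ.comp h₂.smκ hmaps
  have hU : ∀ a b, ContMDiffOn (𝓡∂ n) 𝓘(ℝ, ℝ) ∞ (fun x => P₁.rel P₂ (P₂.κ x) a b)
      (P₂.θ '' Dm) := fun a b =>
    (ContDiffOn.contMDiffOn fun y hy => (hf y hy a b).contDiffWithinAt).comp h₂.smκ hmaps
  refine ⟨hΦ, hU, ?_⟩
  rintro _ ⟨y, hy, rfl⟩
  have hN : P₂.θ '' Dm ∈ 𝓝 (P₂.θ y) := h₂.opn.mem_nhds (mem_image_of_mem _ hy)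
  have hl := h₂.linv y hy
  let L₁ : En n →L[ℝ] En n := mfderivWithin 𝓘(ℝ, En n) (𝓡∂ n) P₁.θ Dm y
  let L₂ : En n →L[ℝ] En n := mfderivWithin 𝓘(ℝ, En n) (𝓡∂ n) P₂.θ Dm y
  have c1 : ∀ u, (mfderiv (𝓡∂ n) 𝓘(ℝ, En n) P₂.κ (P₂.θ y) (L₂ u) : En n) = u := fun u => by
    refine (chainL 𝓘(ℝ, En n) (ψ := id) h₂.uniq h₂.smθ hy
      ((h₂.smκ.contMDiffAt hN).mdifferentiableAt (by simp))
      (fun z hz => (h₂.linv z hz).symm) u).trans ?_
    rw [mfderivWithin_id (h₂.uniq y hy).uniqueMDiffWithinAt]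
    rfl
  have hsurj : Function.Surjective L₂ :=
    (LinearMap.injective_iff_surjective (f := L₂.toLinearMap)).1 fun u u' h => by
      have h' : L₂ u = L₂ u' := h
      rw [← c1 u, ← c1 u', h']
  have c2 : ∀ u, (mfderiv (𝓡∂ n) (𝓡∂ n) (fun x => P₁.θ (P₂.κ x)) (P₂.θ y) (L₂ u) : En n) =
      L₁ u := fun u =>
    chainL (𝓡∂ n) (ψ := P₁.θ) h₂.uniq h₂.smθ hy ((hΦ.contMDiffAt hN).mdifferentiableAt (by simp))
      (fun z hz => by rw [h₂.linv z hz]) u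
  have c3 : ∀ u, rdMat (fun x => P₁.rel P₂ (P₂.κ x)) (P₂.θ y) (L₂ u) = dM (P₁.rel P₂) y u := by
    intro u
    ext a b
    refine (chainL 𝓘(ℝ, ℝ) (ψ := fun z => P₁.rel P₂ z a b) h₂.uniq h₂.smθ hy
      (((hU a b).contMDiffAt hN).mdifferentiableAt (by simp))
      (fun z hz => by rw [h₂.linv z hz]) u).trans ?_
    rw [mfderivWithin_eq_fderivWithin,
      ((hf y hy a b).differentiableAt (by simp)).fderivWithin (h₂.uniq y hy)]
    rfl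
  have hx : P₁.θ (P₂.κ (P₂.θ y)) = P₁.θ y := by rw [hl]
  have o₁ : (Matrix.of fun a b => P₁.S a b y)ᵀ * (Matrix.of fun a b => P₁.S a b y) = 1 := by
    ext a b
    simpa [Matrix.mul_apply, Matrix.one_apply] using h₁.orth y hy a b
  have o₂ : (Matrix.of fun a b => P₂.S a b y)ᵀ * (Matrix.of fun a b => P₂.S a b y) = 1 := by
    ext a b
    simpa [Matrix.mul_apply, Matrix.one_apply] using h₂.orth y hy a b
  have eU : P₁.rel P₂ y =
      (Matrix.of fun a b => P₁.S a b y)ᵀ * (Matrix.of fun a b => P₂.S a b y) := rfl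
  have key := fun i : Fin n => alg (C := Matrix.of fun a b => Ac i a b y)
    (d₁ := Matrix.of fun a b => D (ee i) (P₁.S a b) y)
    (d₂ := Matrix.of fun a b => D (ee i) (P₂.S a b) y)
    (B₁ := A₁ (P₁.θ y) (L₁ (ee i))) (B₂ := A₂ (P₂.θ y) (L₂ (ee i))) o₁ o₂
    (Matrix.ext fun a b => h₁.ga.2.2.2.2 i b a y) (hA.1 _ _)
    (Matrix.ext fun a b => h₁.con y hy i a b) (Matrix.ext fun a b => h₂.con y hy i a b)
  have ed : ∀ i : Fin n, dM (P₁.rel P₂) y (ee i) =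
      (Matrix.of fun a b => D (ee i) (P₁.S a b) y)ᵀ * (Matrix.of fun a b => P₂.S a b y) +
      (Matrix.of fun a b => P₁.S a b y)ᵀ * (Matrix.of fun a b => D (ee i) (P₂.S a b) y) := by
    intro i
    ext a b
    have d₁ := fun e => (h₁.smS y hy e a).differentiableAt (by simp)
    have d₂ := fun e => (h₂.smS y hy e b).differentiableAt (by simp)
    change D (ee i) (fun z => ∑ e, P₁.S e a z * P₂.S e b z) y =
      ∑ e, D (ee i) (P₁.S e a) y * P₂.S e b y + ∑ e, P₁.S e a y * D (ee i) (P₂.S e b) y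
    rw [P136.D_sum_at _ fun e _ => (d₁ e).fun_mul (d₂ e), ← Finset.sum_add_distrib]
    refine Finset.sum_congr rfl fun e _ => ?_
    rw [P136.D_mul_at (d₁ e) (d₂ e), add_comm]
  refine ⟨?_, fun v w => ?_, fun v => ?_⟩
  · simp only [hl, eU]
    exact (key 0).1
  · obtain ⟨u, rfl⟩ := hsurj v
    obtain ⟨u', rfl⟩ := hsurj w
    refine Eq.trans ?_ (g_tr g₁ hx _ _).symm
    rw [c2, c2]
    have hb : (g₂ (P₂.θ y)).compl₁₂ L₂.toLinearMap L₂.toLinearMap =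
        (g₁ (P₁.θ y)).compl₁₂ L₁.toLinearMap L₁.toLinearMap :=
      lin_ext fun i => lin_ext fun j => (h₂.met y hy i j).symm.trans (h₁.met y hy i j)
    exact congrArg (fun T => T u u') hb
  · obtain ⟨u, rfl⟩ := hsurj v
    have hA' : A₁ ((fun x => P₁.θ (P₂.κ x)) (P₂.θ y))
        (mfderiv (𝓡∂ n) (𝓡∂ n) (fun x => P₁.θ (P₂.κ x)) (P₂.θ y) (L₂ u)) =
        A₁ (P₁.θ y) (L₁ u) := (A_tr A₁ hx _).trans (congrArg _ (c2 u))
    rw [c3, hA']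
    simp only [hl]
    have hb : (A₂ (P₂.θ y)).comp L₂.toLinearMap =
        (LinearMap.mulRight ℝ (P₁.rel P₂ y)).comp ((LinearMap.mulLeft ℝ (P₁.rel P₂ y)ᵀ).comp
          ((A₁ (P₁.θ y)).comp L₁.toLinearMap)) +
        (LinearMap.mulLeft ℝ (P₁.rel P₂ y)ᵀ).comp (dM (P₁.rel P₂) y) :=
      lin_ext fun i => by
        refine (key i).2.trans ?_
        rw [← ed, ← eU]
        rfl
    exact congrArg (fun T => T u) hb

end Vale.Agent.P088
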