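import Vale.Agent.P088.ManS

open MeasureTheory Set Metric Filter
open scoped ContDiff Topology InnerProductSpace Manifold Matrix

noncomputable section
namespace Vale.Agent.P088
open Vale.Agent.P136 (D Sm Tst)

variable {n : ℕ} [NeZero n] {M : Type} [TopologicalSpace M] [T2Space M] [CompactSpace M]
  [ConnectedSpace M] [ChartedSpace (EuclideanHalfSpace n) M] [IsManifold (𝓡∂ n) ∞ M]
  [MeasurableSpace M] [BorelSpace M] {ι : Type} [Fintype ι] [DecidableEq ι] [Nonempty ι]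

namespace ManLtrel

omit [Nonempty ι] in
theorem alg {T : ι → ι → ℝ} (h : ∀ a a', ∑ e, T e a * T e a' = if a = a' then 1 else 0) (d : ℝ)
    (f u : ι → ℝ) :
    ∑ a, (d * ∑ a', T a a' * f a') * ∑ b, T a b * u b = d * ∑ a, f a * u a := by
  have e : ∀ a, (d * ∑ a', T a a' * f a') * ∑ b, T a b * u b =
      d * ∑ a', ∑ b, f a' * u b * (T a a' * T a b) := fun a => by
    rw [mul_assoc, Finset.sum_mul_sum]
    exact congrArg _ (Finset.sum_congr rfl fun a' _ => Finset.sum_congr rfl fun b _ => by ring)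
  rw [Finset.sum_congr rfl fun a _ => e a, ← Finset.mul_sum, Finset.sum_comm]
  refine congrArg _ (Finset.sum_congr rfl fun a' _ => ?_)
  rw [Finset.sum_comm]
  simp only [← Finset.mul_sum, h]
  simp

omit [NeZero n] [DecidableEq ι] [Nonempty ι] in
theorem int_sum {V : Set (En n)} {f u : ι → En n → ℝ} (hf : L2On V f) (hu : L2On V u) :
    ∑ a, ∫ y in V, f a y * u a y = ∫ y in V, ∑ a, f a y * u a y :=
  (integral_finsetSum _ fun a _ => (hf a).integrable_mul (hu a)).symm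

omit [NeZero n] [DecidableEq ι] [Nonempty ι] in
theorem int_supp {U O : Set (En n)} (hU : MeasurableSet U) (hs : O ⊆ U) {F : HL n ι U}
    (hF : SuppIn O F) (u : ι → En n → ℝ) :
    ∑ a, ∫ y in U, cp F a y * u a y = ∑ a, ∫ y in O, cp F a y * u a y := by
  refine Finset.sum_congr rfl fun a _ =>
    setIntegral_eq_of_subset_of_ae_sdiff_eq_zero hU.nullMeasurableSet hs ?_
  filter_upwards [(ae_restrict_iff' hU).1 hF] with y hy h
  simp [cp, hy h.1 h.2]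

omit [NeZero n] [Fintype ι] [DecidableEq ι] [Nonempty ι] in
theorem l2_mono {U O : Set (En n)} (hs : O ⊆ U) {f : ι → En n → ℝ} (hf : L2On U f) : L2On O f :=
  fun a => (hf a).mono_measure (Measure.restrict_mono hs le_rfl)

end ManLtrel

open ManLtrel in
omit [T2Space M] [CompactSpace M] [ConnectedSpace M] [IsManifold (𝓡∂ n) ∞ M] [BorelSpace M]
  [Nonempty ι] in
theorem m_ltrel (hE : EAll) (h1 : B1 n M ι) (h2 : B2 n M ι) : M_ltrel n M ι := by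
  intro X₁ X₂ r B g₁ g₂ A₁ A₂ C₁ P₁ P₂ G₁ G₂ hC hP₂ hP₁ hB hsub hgr hG₁ hG₂ F₁ F₂ s₁ s₂ hF
  obtain ⟨hI, hinj, hmaps, hy⟩ :=
    h1.trans X₁.g X₁.A (ball 0 r) B g₁ g₂ A₁ A₂ C₁ P₁ X₁.hA hC.toPar hP₁ hsub
  have mb : MeasurableSet (ball (0 : En n) r) := measurableSet_ball
  have mB := hP₁.isOpen.measurableSet
  have l₁ := ((hE.tl n ι _).1 F₁).1
  have l₂ := ((hE.tl n ι _).1 F₂).1
  obtain ⟨K₁, hK₁⟩ :=
    (h2.rep X₁.g X₁.A _ _ g₁ A₁ C₁ X₁.hg X₁.hA hC.toPar mb Subset.rfl).2.1 _ l₁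
  obtain ⟨K₂, hK₂⟩ :=
    (h2.rep X₂.g X₂.A _ _ g₂ A₂ P₂ X₂.hg X₂.hA hP₂.toPar mb Subset.rfl).2.1 _ l₂
  have hop : IsOpen (C₁.tau P₁ '' B) :=
    (hE.inv n B _ hP₁.isOpen hI.1
      (hE.isoC n ι g₁ g₂ A₁ A₂ B _ _ hC.ga hP₁.ga hP₁.isOpen hI).1).2.1 B hP₁.isOpen Subset.rfl
  have him : C₁.tau P₁ '' B ⊆ ball 0 r := hmaps.image_subset
  have r₂ : Rp B P₂ (cp F₂) K₂ := fun K' => (hK₂ K').trans (int_supp mb hB s₂ _)
  have r₁ : Rp B P₁ (cp F₂) K₁ := fun K' => by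
    have u₁ := (h2.l2 X₁.g X₁.A _ _ g₁ A₁ C₁ X₁.hg X₁.hA hC.toPar hop.measurableSet him).1 K'
    have u₂ := (h2.l2 X₁.g X₁.A _ _ g₂ A₂ P₁ X₁.hg X₁.hA hP₁.toPar mB Subset.rfl).1 K'
    rw [hK₁ K', int_supp mb him s₁, int_sum (l2_mono him l₁) u₁, int_sum (l2_mono hB l₂) u₂,
      integral_image_eq_integral_abs_det_fderiv_smul volume mB (fun y hy =>
        (((hI.1.contDiffAt (hP₁.isOpen.mem_nhds hy)).differentiableAt
          (by simp)).hasFDerivAt).hasFDerivWithinAt) hinj]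
    refine integral_congr_ae ?_
    filter_upwards [hF, ae_restrict_mem mB] with y e hyB
    simp only [e, (hy y hyB).2.2, smul_eq_mul]
    exact (alg (hI.2.2 y hyB).1 _ _ _).symm
  have tr : ∀ p : En n → Prop, (∀ᵐ z ∂(volume.restrict (ball (0 : En n) r)), p z) →
      ∀ᵐ y ∂(volume.restrict B), p (C₁.tau P₁ y) := fun p hp => by
    have e₁ := ((h1.vol X₁.g X₁.A _ _ g₁ A₁ C₁ X₁.hg hC.toPar mb Subset.rfl).2.2.2.2.2
      fun x => p (C₁.κ x)).2 (by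
        filter_upwards [hp, ae_restrict_mem mb] with z h hz
        rwa [hC.linv z hz])
    refine ((h1.vol X₁.g X₁.A _ _ g₂ A₂ P₁ X₁.hg hP₁.toPar mB Subset.rfl).2.2.2.2.2
      fun x => p (C₁.κ x)).1 ?_
    filter_upwards [e₁] with x h hx using h (hsub hx)
  have e₁ := tr _ (ae_all_iff.2 (hG₁ F₁ K₁ hK₁))
  have e₂ := ae_restrict_of_ae_restrict_of_subset hB (ae_all_iff.2 (hG₂ F₂ K₂ hK₂))
  have e₃ := ae_all_iff.2 (hgr _ K₁ K₂ (l2_mono hB l₂) r₁ r₂)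
  filter_upwards [e₁, e₂, e₃, ae_restrict_mem mB] with y a₁ a₂ a₃ hyB a
  rw [a₂ a, ← a₃ a, (hy y hyB).2.2, ← Finset.sum_neg_distrib]
  exact Finset.sum_congr rfl fun b _ => by rw [a₁ b, mul_neg]

end Vale.Agent.P088
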