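import Vale.Agent.P088.ManS

open MeasureTheory Set Metric Filter
open scoped ContDiff Topology InnerProductSpace Manifold Matrix

noncomputable section
namespace Vale.Agent.P088
open Vale.Agent.P136 (D Sm Tst)

variable {n : ℕ} [NeZero n] {M : Type} [TopologicalSpace M] [T2Space M] [CompactSpace M]
  [ConnectedSpace M] [ChartedSpace (EuclideanHalfSpace n) M] [IsManifold (𝓡∂ n) ∞ M]
  [MeasurableSpace M] [BorelSpace M] {ι : Type} [Fintype ι] [DecidableEq ι] [Nonempty ι]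

namespace ManMtr

omit [Nonempty ι] in
theorem dot {T : ι → ι → ℝ} (h : ∀ a a', ∑ e, T e a * T e a' = if a = a' then 1 else 0)
    (u v : ι → ℝ) : ∑ e, (∑ c, T e c * u c) * ∑ d, T e d * v d = ∑ c, u c * v c := by
  calc ∑ e, (∑ c, T e c * u c) * ∑ d, T e d * v d
      = ∑ e, ∑ c, ∑ d, u c * v d * (T e c * T e d) := by
        refine Finset.sum_congr rfl fun e _ => ?_
        rw [Finset.sum_mul_sum]
        exact Finset.sum_congr rfl fun c _ => Finset.sum_congr rfl fun d _ => by ring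
    _ = ∑ c, ∑ d, u c * v d * ∑ e, T e c * T e d := by
        rw [Finset.sum_comm]
        refine Finset.sum_congr rfl fun c _ => ?_
        rw [Finset.sum_comm]
        exact Finset.sum_congr rfl fun d _ => (Finset.mul_sum _ _ _).symm
    _ = ∑ c, u c * v c := by simp [h]

omit [NeZero n] [TopologicalSpace M] [T2Space M] [CompactSpace M] [ConnectedSpace M]
  [ChartedSpace (EuclideanHalfSpace n) M] [IsManifold (𝓡∂ n) ∞ M] [MeasurableSpace M]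
  [BorelSpace M] [DecidableEq ι] [Nonempty ι] in
theorem pull_comp (P : Fr n M ι) (Φ Ψ : En n → En n) (S : ι → ι → En n → ℝ) (F : M → ι → ℝ)
    (a : ι) (z : En n) : (P.comp Φ Ψ S).pull F a z = ∑ b, S a b z * P.pull F b (Φ z) := by
  simp only [Fr.pull, Fr.comp, Finset.sum_mul, Finset.mul_sum, mul_assoc]
  exact Finset.sum_comm

theorem pre (h1 : B1 n M ι) (mtr : M_mtr n M ι) {X₁ X₂ : Sd n M ι} {Γ : Set M}
    {V V' : Set (En n)} {gc gc' : MatF n} {Ac Ac' : ConF n ι} {P₁ P₂ P₁' P₂' : Fr n M ι}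
    (h : MI X₁ X₂ Γ V gc Ac P₁ P₂) (h' : MI X₁ X₂ Γ V' gc' Ac' P₁' P₂') {y y' : En n}
    (hy : y ∈ V) (hy' : y' ∈ V') (e : P₂.θ y = P₂'.θ y') :
    ∃ (r : ℝ) (g : MatF n) (A : ConF n ι) (C Q Q' : Fr n M ι), 0 < r ∧
      MI X₁ X₂ Γ (ball 0 r) g A Q C ∧ MI X₁ X₂ Γ (ball 0 r) g A Q' C ∧
      MI X₁ X₁ Γ (ball 0 r) g A Q Q' ∧ (Q.θ 0 = P₁.θ y ∧ Q.rel C 0 = P₁.rel P₂ y) ∧
      Q'.θ 0 = P₁'.θ y' ∧ Q'.rel C 0 = P₁'.rel P₂' y' := by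
  obtain ⟨R, g, A, C, hR, hC, h0⟩ := h1.xi X₂.g X₂.A X₂.hg X₂.hA _ (h.p₂.int y hy)
  have hop : IsOpen (ball (0 : En n) R ∩ C.θ ⁻¹' (P₂.θ '' V ∩ P₂'.θ '' V')) :=
    hC.smθ.continuousOn.isOpen_inter_preimage isOpen_ball (h.p₂.opn.inter h'.p₂.opn)
  obtain ⟨r, hr, hs⟩ := Metric.isOpen_iff.1 hop 0
    ⟨mem_ball_self hR, ⟨y, hy, h0.symm⟩, y', hy', e.symm.trans h0.symm⟩
  have hI := (h1.restr X₂.g X₂.A g A C).2.1 _ _ hC isOpen_ball (hs.trans inter_subset_left)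
  obtain ⟨Q, hQ, q⟩ := mtr X₁ X₂ Γ V _ gc g Ac A P₁ P₂ C h hI (by
    rintro _ ⟨z, hz, rfl⟩
    exact (hs hz).2.1)
  obtain ⟨Q', hQ', q'⟩ := mtr X₁ X₂ Γ V' _ gc' g Ac' A P₁' P₂' C h' hI (by
    rintro _ ⟨z, hz, rfl⟩
    exact (hs hz).2.2)
  have t : P₂.tau C 0 = y := by rw [Fr.tau, h0, h.p₂.linv y hy]
  have t' : P₂'.tau C 0 = y' := by rw [Fr.tau, h0, e, h'.p₂.linv y' hy']
  exact ⟨r, g, A, C, Q, Q', hr, hQ, hQ',
    ⟨hQ.p₁, hQ'.p₁, fun F hF a => (hQ.eq F hF a).trans (hQ'.eq F hF a).symm⟩,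
    t ▸ q 0 (mem_ball_self hr), t' ▸ q' 0 (mem_ball_self hr)⟩

end ManMtr

theorem m_mtr (h1 : B1 n M ι) : M_mtr n M ι := by
  intro X₁ X₂ Γ V V' gc gc' Ac Ac' P₁ P₂ P₂' h hP hs
  obtain ⟨t1, t2, t3, t4⟩ := h1.trans X₂.g X₂.A V V' gc gc' Ac Ac' P₂ P₂' X₂.hA h.p₂.toPar hP hs
  refine ⟨P₁.comp (P₂.tau P₂') (Function.invFunOn (P₂.tau P₂') V') (P₂.tauS P₂'),
    ⟨(h1.comp X₁.g X₁.A gc gc' Ac Ac' P₁ _ _ hP.ga).1 V V' h.p₁ hP.isOpen hP.bdd t1 t2 t3, hP,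
      fun F hF a => ?_⟩, fun z hz => ⟨rfl, ?_⟩⟩
  · have k1 := ((h1.vol X₂.g X₂.A V V gc Ac P₂ X₂.hg h.p₂.toPar h.p₂.meas subset_rfl).2.2.2.2.2
      fun x => ∀ b, P₁.pull (cm (X₁.hf F)) b (P₂.κ x) = P₂.pull (cm (X₂.hf F)) b (P₂.κ x)).2 (by
        filter_upwards [ae_all_iff.2 (h.eq F hF), ae_restrict_mem h.p₂.meas] with y hy hy'
        rwa [h.p₂.linv y hy'])
    have k2 := ((h1.vol X₂.g X₂.A V' V' gc' Ac' P₂' X₂.hg hP.toPar hP.meas subset_rfl).2.2.2.2.2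
      _).1 (k1.mono fun x hx hx' => hx (hs hx'))
    filter_upwards [k2, ae_restrict_mem hP.meas] with z hz hz'
    rw [ManMtr.pull_comp, (t4 z hz').2.2]
    exact Finset.sum_congr rfl fun b _ => congrArg _ (hz b)
  · ext a b
    simp only [Fr.rel, Fr.comp, Matrix.of_apply, (t4 z hz).2.1]
    exact ManMtr.dot (T := fun a b => P₂.tauS P₂' a b z) (t1.2.2 z hz).1 _ _

theorem m_uniq (h1 : B1 n M ι) (mtr : M_mtr n M ι) (sep1 : M_sep1 n M ι) (sep2 : M_sep2 n M ι) :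
    M_uniq n M ι := by
  have one : ∀ {X₁ X₂ : Sd n M ι} {Γ : Set M} {V V' : Set (En n)} {gc gc' : MatF n}
      {Ac Ac' : ConF n ι} {P₁ P₂ P₁' P₂' : Fr n M ι}, IsGam n Γ → MI X₁ X₂ Γ V gc Ac P₁ P₂ →
      MI X₁ X₂ Γ V' gc' Ac' P₁' P₂' → ∀ y ∈ V, ∀ y' ∈ V', P₂.θ y = P₂'.θ y' →
      P₁.θ y = P₁'.θ y' := by
    intro X₁ X₂ Γ V V' gc gc' Ac Ac' P₁ P₂ P₁' P₂' hΓ h h' y hy y' hy' e
    obtain ⟨r, g, A, C, Q, Q', hr, -, -, hQ, q, q'⟩ := ManMtr.pre h1 mtr h h' hy hy' e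
    rw [← q.1, ← q'.1]
    exact sep1 X₁ Γ r g A Q Q' hΓ hr hQ
  intro X₁ X₂ Γ V V' gc gc' Ac Ac' P₁ P₂ P₁' P₂' hΓ h h' y hy y' hy' e
  refine ⟨one hΓ h h' y hy y' hy' e, ?_⟩
  obtain ⟨r, g, A, C, Q, Q', hr, k, k', hQ, q, q'⟩ := ManMtr.pre h1 mtr h h' hy hy' e
  have := sep2 X₁ Γ r g A Q Q' hΓ hr hQ fun z hz => one hΓ k k' z hz z hz rfl
  rw [← q.2, ← q'.2]
  simp only [Fr.rel, this]

end Vale.Agent.P088
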