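import Vale.Agent.P088.ManS

open MeasureTheory Set Metric Filter
open scoped ContDiff Topology InnerProductSpace Manifold Matrix

noncomputable section
namespace Vale.Agent.P088
open Vale.Agent.P136 (D Sm Tst)

variable {n : ℕ} [NeZero n] {M : Type} [TopologicalSpace M] [T2Space M] [CompactSpace M]
  [ConnectedSpace M] [ChartedSpace (EuclideanHalfSpace n) M] [IsManifold (𝓡∂ n) ∞ M]
  [MeasurableSpace M] [BorelSpace M] {ι : Type} [Fintype ι] [DecidableEq ι] [Nonempty ι]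

namespace ManNotouch

omit [DecidableEq ι] [Nonempty ι] [NeZero n] in
theorem nrm_nonneg (N : Set (En n)) (k : ι → En n → ℝ) : 0 ≤ nrm N k :=
  Finset.sum_nonneg fun _ _ => integral_nonneg fun _ => sq_nonneg _

omit [ConnectedSpace M] [IsManifold (𝓡∂ n) ∞ M] [Nonempty ι] in
/-- The upper bound for the Green form of a source in a thin strip. -/
theorem upper (hE : EAll) (h2 : B2 n M ι) (X : Sd n M ι) {R r : ℝ} {gb gc : MatF n}
    {Ab Ac : ConF n ι} {Pb P : Fr n M ι} {V : Set (En n)} (hB : BP X.g X.A R gb Ab Pb)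
    (hr : r < R) (hP : IP X.g X.A V gc Ac P) (hm : MapsTo (Pb.tau P) V (Hb n r))
    (hθ : ∀ y ∈ V, Pb.θ (Pb.tau P y) = P.θ y) : ∃ C : ℝ, 0 ≤ C ∧
      ∀ (h : ℝ) (N : Set (En n)) (k : ι → En n → ℝ) (K : LM ι X.g), 0 < h → MeasurableSet N →
        N ⊆ V → (∀ y ∈ N, Pb.tau P y 0 ≤ h) → L2On N k → Rp N P k K →
        ⟪X.G K, K⟫_ℝ ≤ C * h ^ 2 * nrm N k := by
  obtain ⟨c, hc, hcm⟩ := (h2.cmpn X.g X.A V gc Ac P X.hg X.hA hP.toPar).1
  obtain ⟨C, hC, hs⟩ := h2.strip X.g X.A R r gb Ab Pb X.hg X.hA hB hr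
  have := (h2.fin X.g X.A X.hg X.hA).1
  refine ⟨C / c, by positivity, fun h N k K hh hN hNV hf hk hK => ?_⟩
  have k0 := nrm_nonneg N k
  refine X.gp.up K _ (by positivity) fun w hw => ?_
  have l2 := h2.l2 X.g X.A V N gc Ac P X.hg X.hA hP.toPar hN hNV
  rw [l2.2.2.2.2 k K w hK hw.1]
  refine ((hE.tl n ι N).2.2.2.1 k (P.pull w) hk (l2.2.1 w hw.1).1).trans ?_
  have hcont : Continuous fun x => ∑ a, w x a ^ 2 :=
    continuous_finsetSum _ fun a _ => (hw.1 a).continuous.pow 2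
  have hi : Integrable (fun x => ∑ a, w x a ^ 2) (vol X.g) :=
    integrableOn_univ.1 (hcont.continuousOn.integrableOn_compact isCompact_univ)
  have e1 : ∫ x in P.θ '' N, ∑ a, w x a ^ 2 ∂(vol X.g) ≤
      ∫ x in Pb.θ '' (Hb n r ∩ {y | y 0 ≤ h}), ∑ a, w x a ^ 2 ∂(vol X.g) := by
    refine setIntegral_mono_set hi.integrableOn
      (ae_of_all _ fun x => Finset.sum_nonneg fun _ _ => sq_nonneg _)
      (LE.le.eventuallyLE ?_)
    rintro _ ⟨y, hy, rfl⟩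
    exact ⟨_, ⟨hm (hNV hy), hf y hy⟩, hθ y (hNV hy)⟩
  have e2 := ((hcm N hN hNV w hw.1).1.trans e1).trans (hs h hh w hw)
  have e3 : nrm N (P.pull w) ≤ C / c * h ^ 2 * renergy X.g X.A w := by
    rw [div_mul_eq_mul_div, div_mul_eq_mul_div, le_div_iff₀ hc]
    linarith
  have e4 := mul_le_mul_of_nonneg_left e3 k0
  linarith

end ManNotouch

omit [ConnectedSpace M] [IsManifold (𝓡∂ n) ∞ M] in
theorem m_notouch (hE : EAll) (h1 : B1 n M ι) (h2 : B2 n M ι) (h3 : B3 n M ι) :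
    M_notouch n M ι := by
  intro X₁ X₂ Γ R ρ q gc Ac P₁ P₂ x₁ hT hl
  by_contra hx
  have hb : x₁ ∈ bdM n M := by_contra fun h => hx (int_iff_not_bd.2 h)
  obtain ⟨R₁, θ, κ, h0, -, hbp⟩ := h1.xb x₁ hb univ isOpen_univ trivial
  obtain ⟨gb, Ab, hB⟩ := hbp X₁.g X₁.A X₁.hg X₁.hA
  obtain ⟨Pb, hB, h0⟩ : ∃ Pb : Fr n M ι, BP X₁.g X₁.A R₁ gb Ab Pb ∧ Pb.θ 0 = x₁ := ⟨_, hB, h0⟩
  have hr : 0 < R₁ / 2 := half_pos hB.pos
  have hB' : BP X₁.g X₁.A (R₁ / 2) gb Ab Pb :=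
    (h1.restr X₁.g X₁.A gb Ab Pb).2.2.1 R₁ (R₁ / 2) hB hr (half_le_self hB.pos.le)
  have hN : Pb.θ '' Hb n (R₁ / 2) ∈ 𝓝 x₁ := hB'.opn.mem_nhds ⟨0, zero_mem_Hb hr, h0⟩
  obtain ⟨ρ', q', hT', -, hsub, hl'⟩ :=
    h3.shrink X₁ X₂ Γ R ρ q gc Ac P₁ P₂ x₁ _ 1 hT hl hN one_pos
  have p₁ := hT'.mi.p₁
  obtain ⟨hI, -, hmap, hθ⟩ := h1.trans X₁.g X₁.A (Hb n (R₁ / 2)) (ball q' ρ') gb gc Ab Ac Pb P₁
    X₁.hA hB'.toPar p₁ hsub
  choose Cl hCl using hE.isobd n ι gb gc Ab Ac _ _ _ hB.ga p₁.ga isOpen_ball hI isBounded_ball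
    (hB'.bdd.subset hmap.image_subset)
  obtain ⟨Cu, hCu, hup⟩ := ManNotouch.upper hE h2 X₁ hB (half_lt_self hB.pos) p₁ hmap
    fun y hy => (hθ y hy).1
  have s0 : ∀ i, 0 ≤ ∑ j, |Cl [i, j]| := fun i => Finset.sum_nonneg fun _ _ => abs_nonneg _
  have s1 : ∀ i, |Cl [i]| + ∑ j, |Cl [i, j]| ≤ ∑ i, (|Cl [i]| + ∑ j, |Cl [i, j]|) := fun i =>
    Finset.single_le_sum (f := fun i => |Cl [i]| + ∑ j, |Cl [i, j]|)
      (fun i _ => add_nonneg (abs_nonneg _) (s0 i)) (Finset.mem_univ i)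
  refine hE.notouch n h1.hn ι gc Ac R ρ' (∑ i, (|Cl [i]| + ∑ j, |Cl [i, j]|) + Cu) q'
    (fun y => Pb.tau P₁ y 0) p₁.ga hT'.posR hT'.pos hT'.nq
    ((EuclideanSpace.proj (𝕜 := ℝ) (0 : Fin n)).contDiff.comp_contDiffOn hI.1)
    (fun y hy => ?_) ?_ (fun y hy i => ⟨?_, fun j => ?_⟩) fun h N k ψ hh hNm hNB hf hk hψ => ?_
  · refine lt_of_le_of_ne (hmap hy).2 fun h => ?_
    have h4 := (hB'.bd _ (hmap hy)).2 h.symm
    rw [(hθ y hy).1] at h4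
    exact int_iff_not_bd.1 (p₁.int y hy) h4
  · have h4 : Tendsto Pb.κ (𝓝 x₁) (𝓝 0) := by
      have h5 := (hB'.smκ.continuousOn.continuousAt hN).tendsto
      rwa [show Pb.κ x₁ = 0 by rw [← h0]; exact hB'.linv 0 (zero_mem_Hb hr)] at h5
    exact (cont0.tendsto 0).comp (h4.comp hl')
  · have h4 := ((hCl [i] y hy).1 0).trans (le_abs_self _)
    have h5 := s1 i
    have h6 := s0 i
    exact h4.trans (by linarith)
  · have h4 := ((hCl [i, j] y hy).1 0).trans (le_abs_self _)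
    have h5 := s1 i
    have h6 : |Cl [i, j]| ≤ ∑ j, |Cl [i, j]| := Finset.single_le_sum (f := fun j => |Cl [i, j]|)
      (fun _ _ => abs_nonneg _) (Finset.mem_univ j)
    exact h4.trans (by linarith [abs_nonneg (Cl [i])])
  · have hNR : N ⊆ ball 0 R := hNB.trans hT'.sub
    have r₁ := h2.rep X₁.g X₁.A _ N gc Ac P₁ X₁.hg X₁.hA p₁.toPar hNm hNB
    have r₂ := h2.rep X₂.g X₂.A _ N gc Ac P₂ X₂.hg X₂.hA hT'.big.toPar hNm hNR
    obtain ⟨K₁, hK₁⟩ := r₁.2.1 k hk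
    obtain ⟨K₂, hK₂⟩ := r₂.2.1 k hk
    have g₁ := r₁.2.2.2 k K₁ _ measurableSet_ball hNB hK₁
    have g₂ := r₂.2.2.2 k K₂ _ measurableSet_ball hNB hK₂
    have gr := hT'.gr _ K₁ K₂ (g₁.2 hk) g₁.1 g₂.1
    have e : ⟪X₂.G K₂, K₂⟫_ℝ = ⟪X₁.G K₁, K₁⟫_ℝ := by
      rw [real_inner_comm, hK₂, real_inner_comm, hK₁]
      refine Finset.sum_congr rfl fun a _ => integral_congr_ae ?_
      filter_upwards [ae_restrict_of_ae_restrict_of_subset hNB (gr a)] with y hy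
      rw [hy]
    have hV := (h1.push2 X₂.g X₂.A gc Ac P₂ ψ).1 _ hT'.big hψ
    have low := X₂.gp.low K₂ _ hV
    rw [(h2.l2 X₂.g X₂.A _ N gc Ac P₂ X₂.hg X₂.hA hT'.big.toPar hNm hNR).2.2.2.2 k K₂ _ hK₂ hV.1,
      ((h2.green X₂.g X₂.A gc Ac P₂ ψ X₂.hg X₂.hA).1 _ hT'.big hψ).1, e] at low
    have e2 : ∑ a, ∫ y in N, k a y * P₂.pull (P₂.push (ball 0 R) ψ) a y =
        ∑ a, ∫ y in N, k a y * ψ a y :=
      Finset.sum_congr rfl fun a _ => setIntegral_congr_fun hNm fun y hy => by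
        simp only [(h1.push X₂.g X₂.A gc Ac P₂ _ (ball 0 R) ψ hT'.big.toPar).1 y (hNR hy) a]
    rw [e2] at low
    refine (low.trans (hup h N k K₁ hh hNm hNB hf hk hK₁)).trans ?_
    refine mul_le_mul_of_nonneg_right (mul_le_mul_of_nonneg_right ?_ (sq_nonneg _))
      (ManNotouch.nrm_nonneg N k)
    exact le_add_of_nonneg_left
      (Finset.sum_nonneg fun i _ => add_nonneg (abs_nonneg _) (s0 i))

end Vale.Agent.P088
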