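import Vale.Agent.P088.ManS

/-!
# P088, manifold part: the good set is the whole interior
-/

open MeasureTheory Set Metric Filter
open scoped ContDiff Topology InnerProductSpace Manifold Matrix

noncomputable section
namespace Vale.Agent.P088
open Vale.Agent.P136 (D Sm Tst)

variable {n : ℕ} [NeZero n] {M : Type} [TopologicalSpace M] [T2Space M] [CompactSpace M]
  [ConnectedSpace M] [ChartedSpace (EuclideanHalfSpace n) M] [IsManifold (𝓡∂ n) ∞ M]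
  [MeasurableSpace M] [BorelSpace M] {ι : Type} [Fintype ι] [DecidableEq ι] [Nonempty ι]

theorem m_onto (h1 : B1 n M ι) (grel : M_grel n M ι) (notouch : M_notouch n M ι)
    (cont : M_cont n M ι) : M_onto n M ι := by
  intro X₁ X₂ Γ O Φ Ψ U Rb r gb Ab B₁ B₂ hG hB hr hrR hI
  obtain ⟨-, -, hpre, -⟩ := h1.conn X₂.g X₂.A X₂.hg X₂.hA
  obtain ⟨w, hw⟩ := Up_nonempty (n := n) hr
  let T : Set (Set M) := {W | IsOpen W ∧ IsPreconnected W ∧ B₂.θ '' Up n r ⊆ W ∧ W ⊆ O}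
  have hT0 : B₂.θ '' Up n r ∈ T :=
    ⟨hI.p₂.opn, (convex_Up r).isPreconnected.image _ hI.p₂.smθ.continuousOn, subset_rfl, by
      rintro _ ⟨y, hy, rfl⟩
      exact (hG.uniq _ _ _ _ _ hI y hy).1⟩
  have o1 : IsOpen (⋃₀ T) := isOpen_sUnion fun W h => h.1
  have o2 : IsPreconnected (⋃₀ T) :=
    isPreconnected_sUnion (B₂.θ w) T (fun W h => h.2.2.1 ⟨w, hw, rfl⟩) fun W h => h.2.1
  have o3 : ⋃₀ T ⊆ O := sUnion_subset fun W h => h.2.2.2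
  have o4 : B₂.θ '' Up n r ⊆ ⋃₀ T := subset_sUnion_of_mem hT0
  refine subset_antisymm hG.int (Subset.trans ?_ o3)
  refine hpre.subset_of_closure_inter_subset o1
    ⟨B₂.θ w, hI.p₂.int w hw, o4 ⟨w, hw, rfl⟩⟩ fun x hx => ?_
  by_contra hx0
  obtain ⟨R, gc, Ac, P, hR, hP, rfl⟩ := h1.xi X₂.g X₂.A X₂.hg X₂.hA x hx.2
  have hV : IsOpen (ball (0 : En n) R ∩ P.θ ⁻¹' ⋃₀ T) :=
    hP.smθ.continuousOn.isOpen_inter_preimage isOpen_ball o1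
  have h8 : IP X₂.g X₂.A (ball 0 (R / 8)) gc Ac P :=
    (h1.restr _ _ _ _ _).2.1 _ _ hP isOpen_ball (ball_subset_ball (by linarith))
  obtain ⟨_, ⟨y₁, hy₁, rfl⟩, hy₁'⟩ := mem_closure_iff.1 hx.1 _ h8.opn
    ⟨0, mem_ball_self (by linarith), rfl⟩
  have n1 : ‖y₁‖ < R / 8 := mem_ball_zero_iff.1 hy₁
  have m0 : (0 : En n) ∈ (ball (0 : En n) R ∩ P.θ ⁻¹' ⋃₀ T)ᶜ := fun h => hx0 h.2
  have m1 : y₁ ∈ ball (0 : En n) R ∩ P.θ ⁻¹' ⋃₀ T := ⟨ball_subset_ball (by linarith) hy₁, hy₁'⟩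
  obtain ⟨y₀, hy₀, hd⟩ := hV.isClosed_compl.exists_infDist_eq_dist ⟨0, m0⟩ y₁
  obtain ⟨ρ, hρd⟩ : ∃ ρ, ρ = dist y₁ y₀ := ⟨_, rfl⟩
  have hρ : 0 < ρ := by
    rw [hρd]
    exact dist_pos.2 fun h => hy₀ (h ▸ m1)
  have hρ1 : ρ < R / 8 := by
    have := infDist_le_dist_of_mem (x := y₁) m0
    rw [hd, dist_zero_right] at this
    linarith
  have hball : ball y₁ ρ ⊆ ball (0 : En n) R ∩ P.θ ⁻¹' ⋃₀ T := by
    rw [hρd, ← hd]
    exact ball_infDist_compl_subset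
  have n0 : ‖y₀‖ < R / 4 := by
    have := dist_triangle y₀ y₁ 0
    rw [dist_zero_right, dist_zero_right, dist_comm] at this
    linarith
  have hS := (h1.restr _ _ _ _ _).2.2.2.2.2 _ y₀ hP
  have hS2 := (h1.restr _ _ _ _ _).2.1 _ (ball 0 (R / 2)) hS isOpen_ball (fun y hy => by
    have h := mem_ball_zero_iff.1 hy
    exact mem_ball_zero_iff.2 ((norm_add_le y y₀).trans_lt (by linarith)))
  have nq : ‖y₁ - y₀‖ = ρ := by rw [hρd, dist_eq_norm]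
  have hsub : ball (y₁ - y₀) ρ ⊆ ball (0 : En n) (R / 2) :=
    ball_subset_ball' (by rw [dist_zero_right, nq]; linarith)
  have hS3 := (h1.restr _ _ _ _ _).2.1 _ _ hS2 isOpen_ball hsub
  have him : (P.shift y₀).θ '' ball (y₁ - y₀) ρ ⊆ ⋃₀ T := by
    rintro _ ⟨y, hy, rfl⟩
    refine (hball (a := y + y₀) ?_).2
    rw [mem_ball, dist_eq_norm] at hy ⊢
    have : y + y₀ - y₁ = y - (y₁ - y₀) := by abel
    rwa [this]
  have hm := hG.tr _ _ _ _ hS3 (him.trans o3)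
  have hTS : TS X₁ X₂ Γ (R / 2) ρ (y₁ - y₀) _ _ _ _ :=
    ⟨hS2, hρ, nq, by linarith, hm, hsub,
      grel X₁ X₂ Γ O _ Φ Ψ U Rb r gb _ Ab _ B₁ B₂ _ _ hG hB hr hrR hI o1 o2 o3 o4 hS3 him⟩
  have hcl : (0 : En n) ∈ closure (ball (y₁ - y₀) ρ) := by
    rw [closure_ball _ hρ.ne', mem_closedBall, dist_comm, dist_zero_right, nq]
  obtain ⟨x₁, hx₁⟩ := h1.lim X₁.g X₁.A X₁.hg X₁.hA _ _ _ _ hm.p₁ (convex_ball _ _) 0 hcl
  obtain ⟨r', P', hr', hm'⟩ := cont X₁ X₂ Γ _ ρ _ _ _ _ _ x₁ hTS hx₁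
    (notouch X₁ X₂ Γ _ ρ _ _ _ _ _ x₁ hTS hx₁)
  obtain ⟨z, hz1, hz2⟩ := mem_closure_iff_nhds.1 hcl _ (ball_mem_nhds (0 : En n) hr')
  have hW : ⋃₀ T ∪ (P.shift y₀).θ '' ball 0 r' ∈ T := by
    refine ⟨o1.union hm'.p₂.opn, ?_, o4.trans subset_union_left, union_subset o3 ?_⟩
    · exact o2.union ((P.shift y₀).θ z) (him ⟨z, hz2, rfl⟩) ⟨z, hz1, rfl⟩
        ((convex_ball 0 r').isPreconnected.image _ hm'.p₂.smθ.continuousOn)
    · rintro _ ⟨y, hy, rfl⟩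
      exact (hG.uniq _ _ _ _ _ hm' y hy).1
  refine hy₀ ⟨mem_ball_zero_iff.2 (by linarith), subset_sUnion_of_mem hW (Or.inr ?_)⟩
  exact ⟨0, mem_ball_self hr', by simp [Fr.shift]⟩

end Vale.Agent.P088
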