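import Vale.Agent.P088.ManS

open MeasureTheory Set Metric Filter
open scoped ContDiff Topology InnerProductSpace Manifold Matrix

noncomputable section
namespace Vale.Agent.P088
open Vale.Agent.P136 (D Sm Tst)

variable {n : ℕ} [NeZero n] {M : Type} [TopologicalSpace M] [T2Space M] [CompactSpace M]
  [ConnectedSpace M] [ChartedSpace (EuclideanHalfSpace n) M] [IsManifold (𝓡∂ n) ∞ M]
  [MeasurableSpace M] [BorelSpace M] {ι : Type} [Fintype ι] [DecidableEq ι] [Nonempty ι]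

namespace ManPoinc

/-- the estimate on the set `N` -/
def Est (g : Bil n M) (A : RForm n M ι) (N : Set M) : Prop :=
  ∃ C : ℝ, 0 ≤ C ∧ ∀ w, V0 n w → ∫ x in N, ∑ a, w x a ^ 2 ∂(vol g) ≤ C * renergy g A w

omit [T2Space M] [ConnectedSpace M] [IsManifold (𝓡∂ n) ∞ M] [DecidableEq ι] [Nonempty ι] in
theorem integ {g : Bil n M} [IsFiniteMeasure (vol g)] {w : M → ι → ℝ} (hw : RSec n w) :
    Integrable (fun x => ∑ a, w x a ^ 2) (vol g) :=
  Continuous.integrable_of_hasCompactSupport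
    (continuous_finsetSum _ fun a _ => (hw a).continuous.pow 2) (HasCompactSupport.of_compactSpace _)

omit [T2Space M] [ConnectedSpace M] [IsManifold (𝓡∂ n) ∞ M] [DecidableEq ι] [Nonempty ι] in
theorem mono {g : Bil n M} [IsFiniteMeasure (vol g)] {w : M → ι → ℝ} (hw : RSec n w)
    {N N' : Set M} (h : N ⊆ N') :
    ∫ x in N, ∑ a, w x a ^ 2 ∂(vol g) ≤ ∫ x in N', ∑ a, w x a ^ 2 ∂(vol g) :=
  setIntegral_mono_set (integ hw).integrableOn
    (Eventually.of_forall fun _ => Finset.sum_nonneg fun _ _ => sq_nonneg _) h.eventuallyLE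

omit [T2Space M] [ConnectedSpace M] [IsManifold (𝓡∂ n) ∞ M] [DecidableEq ι] [Nonempty ι] in
theorem union {g : Bil n M} {A : RForm n M ι} [IsFiniteMeasure (vol g)] {N N' : Set M}
    (h : Est g A N) (h' : Est g A N') : Est g A (N ∪ N') := by
  obtain ⟨C, h0, h⟩ := h
  obtain ⟨C', h0', h'⟩ := h'
  refine ⟨C + C', add_nonneg h0 h0', fun w hw => ?_⟩
  have h1 := integral_mono_measure (Measure.restrict_union_le (μ := vol g) N N')
    (f := fun x => ∑ a, w x a ^ 2)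
    (Eventually.of_forall fun _ => Finset.sum_nonneg fun _ _ => sq_nonneg _)
    (Integrable.add_measure (integ hw.1).integrableOn (integ hw.1).integrableOn)
  rw [integral_add_measure (integ hw.1).integrableOn (integ hw.1).integrableOn] at h1
  linarith [h w hw, h' w hw]

omit [T2Space M] [CompactSpace M] [ConnectedSpace M] [IsManifold (𝓡∂ n) ∞ M] [BorelSpace M]
  [Nonempty ι] in
theorem bdry (h1 : B1 n M ι) (h2 : B2 n M ι) {g : Bil n M} {A : RForm n M ι} (hg : IsMetric g)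
    (hA : IsSkewConn A) {x : M} (hx : x ∈ bdM n M) : ∃ N, IsOpen N ∧ x ∈ N ∧ Est g A N := by
  obtain ⟨R, θ, κ, h3, -, h4⟩ := h1.xb x hx univ isOpen_univ (mem_univ x)
  obtain ⟨gc, Ac, hP⟩ := h4 g A hg hA
  have hR := hP.pos
  have hr : 0 < R / 2 := by linarith
  obtain ⟨C, h0, hC⟩ := h2.strip g A R (R / 2) gc Ac _ hg hA hP (by linarith)
  refine ⟨θ '' Hb n (R / 2), ((h1.restr g A gc Ac _).2.2.1 R (R / 2) hP hr (by linarith)).opn,
    ⟨0, zero_mem_Hb hr, h3⟩, C * (R / 2) ^ 2, by positivity, fun w hw => ?_⟩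
  have h5 := hC (R / 2) hr w hw
  have h6 : Hb n (R / 2) ⊆ {y | y 0 ≤ R / 2} := fun y hy => show y 0 ≤ R / 2 from
    ((le_abs_self _).trans (PiLp.norm_apply_le y 0)).trans (mem_ball_zero_iff.1 hy.1).le
  rwa [inter_eq_left.2 h6] at h5

omit [T2Space M] [ConnectedSpace M] [IsManifold (𝓡∂ n) ∞ M] [Nonempty ι] in
theorem inter (hE : EAll) (h1 : B1 n M ι) (h2 : B2 n M ι) {g : Bil n M} {A : RForm n M ι}
    (hg : IsMetric g) (hA : IsSkewConn A) {x : M} (hx : x ∈ intM n M)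
    (hc : x ∈ closure {x | ∃ N, IsOpen N ∧ x ∈ N ∧ Est g A N}) :
    ∃ N, IsOpen N ∧ x ∈ N ∧ Est g A N := by
  have := (h2.fin g A hg hA).1
  obtain ⟨R, gc, Ac, P, hR, hP, h3⟩ := h1.xi g A hg hA x hx
  have ho : ∀ s, s ≤ R → IsOpen (P.θ '' ball 0 s) := fun s hs =>
    ((h1.restr g A gc Ac P).2.1 _ _ hP isOpen_ball (ball_subset_ball hs)).opn
  obtain ⟨_, ⟨y₀, hy₀, rfl⟩, N₀, hN₀, hy, C₀, hC₀, hN⟩ := mem_closure_iff.1 hc _
    (ho (R / 4) (by linarith)) ⟨0, mem_ball_self (by linarith), h3⟩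
  have hy1 : ‖y₀‖ < R / 4 := mem_ball_zero_iff.1 hy₀
  have hca : ContinuousAt P.θ y₀ := hP.smθ.continuousOn.continuousAt
    (isOpen_ball.mem_nhds (mem_ball_zero_iff.2 (by linarith)))
  obtain ⟨δ₀, hδ₀, h4⟩ := Metric.mem_nhds_iff.1 (hca (hN₀.mem_nhds hy))
  obtain ⟨δ, hδ, d1, d2⟩ : ∃ δ : ℝ, 0 < δ ∧ δ ≤ δ₀ ∧ δ ≤ R / 4 :=
    ⟨min δ₀ (R / 4), lt_min hδ₀ (by linarith), min_le_left _ _, min_le_right _ _⟩
  obtain ⟨C₁, hC₁, h5⟩ := hE.trans n ι gc Ac (R / 2) δ y₀ hP.ga hδ (by linarith)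
  obtain ⟨⟨c, hc0, h6⟩, h7⟩ := h2.cmpn g A _ gc Ac P hg hA hP.toPar
  refine ⟨P.θ '' ball 0 δ, ho δ (by linarith), ⟨0, mem_ball_self hδ, h3⟩,
    c⁻¹ * (C₁ * (c⁻¹ * C₀ + 1)), by positivity, fun w hw => ?_⟩
  have s0 : closedBall (0 : En n) (R / 2) ⊆ ball 0 R := closedBall_subset_ball (by linarith)
  obtain ⟨v, hv, e⟩ := (h1.pull g A gc Ac P w hw.1).2.1 _ 0 (R / 2) hP s0
  have s1 : ball (0 : En n) δ ⊆ closedBall 0 (R / 2) :=
    (ball_subset_ball (by linarith)).trans ball_subset_closedBall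
  have s2 : ball y₀ δ ⊆ closedBall 0 (R / 2) := fun y hy => by
    have h8 : ‖y - y₀‖ < δ := mem_ball_iff_norm.1 hy
    have h9 := norm_sub_norm_le y y₀
    exact mem_closedBall_zero_iff.2 (by linarith)
  have hn : ∀ N, MeasurableSet N → N ⊆ closedBall 0 (R / 2) → nrm N v = nrm N (P.pull w) :=
    fun N hN hs => Finset.sum_congr rfl fun a _ => setIntegral_congr_fun hN fun y hy => by
      simp only [e a (hs hy)]
  have k1 := (h6 _ measurableSet_ball (s1.trans s0) w hw.1).2.1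
  have k2 := (h6 _ measurableSet_ball (s2.trans s0) w hw.1).1
  have k3 := h5 v hv
  have k4 := h7 _ isOpen_ball (ball_subset_closedBall.trans s0) w v hw.1 fun a =>
    (e a).mono ball_subset_closedBall
  have k5 := mono (g := g) hw.1 (N := P.θ '' ball y₀ δ) (N' := N₀)
    (image_subset_iff.2 ((ball_subset_ball d1).trans h4))
  have k6 := hN w hw
  rw [hn _ measurableSet_ball s1, hn _ measurableSet_ball s2] at k3
  have k7 : nrm (ball y₀ δ) (P.pull w) ≤ c⁻¹ * C₀ * renergy g A w := by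
    rw [mul_assoc, le_inv_mul_iff₀ hc0]
    exact k2.trans (k5.trans k6)
  rw [mul_assoc, le_inv_mul_iff₀ hc0, mul_assoc]
  refine k1.trans (k3.trans (mul_le_mul_of_nonneg_left ?_ hC₁))
  linarith

end ManPoinc

theorem m_poinc (hE : EAll) (h1 : B1 n M ι) (h2 : B2 n M ι) : M_poinc n M ι := by
  intro g A hg hA ⟨p, hp⟩
  have := (h2.fin g A hg hA).1
  have hcl : IsClopen {x | ∃ N, IsOpen N ∧ x ∈ N ∧ ManPoinc.Est g A N} := by
    refine ⟨isClosed_of_closure_subset fun x hx => ?_, isOpen_iff_forall_mem_open.2 ?_⟩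
    · by_cases hb : x ∈ bdM n M
      · exact ManPoinc.bdry h1 h2 hg hA hb
      · exact ManPoinc.inter hE h1 h2 hg hA (int_iff_not_bd.2 hb) hx
    · rintro x ⟨N, h3, h4, h5⟩
      exact ⟨N, fun z hz => ⟨N, h3, hz, h5⟩, h3, h4⟩
  have hu := hcl.eq_univ ⟨p, ManPoinc.bdry h1 h2 hg hA hp⟩
  obtain ⟨C, h0, hC⟩ : ManPoinc.Est g A univ := isCompact_univ.induction_on
    (p := fun N => ManPoinc.Est g A N)
    ⟨0, le_rfl, fun w _ => by simp⟩
    (fun s t hst ⟨C, h0, hC⟩ => ⟨C, h0, fun w hw => (ManPoinc.mono hw.1 hst).trans (hC w hw)⟩)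
    (fun s t => ManPoinc.union) fun x _ => by
      obtain ⟨N, h3, h4, h5⟩ := (eq_univ_iff_forall.1 hu) x
      exact ⟨N, mem_nhdsWithin_of_mem_nhds (h3.mem_nhds h4), h5⟩
  refine ⟨C, h0, fun w hw => ?_⟩
  have h3 := hC w hw
  rw [Measure.restrict_univ] at h3
  rwa [((h2.alg g A hg hA).2.2.2.2.2.2 w w hw.1 hw.1).2.2.2.2.2.2.1]

end Vale.Agent.P088
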