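import Vale.Agent.P088.ManS

open MeasureTheory Set Metric Filter
open scoped ContDiff Topology InnerProductSpace Manifold Matrix

noncomputable section
namespace Vale.Agent.P088
open Vale.Agent.P136 (D Sm Tst)

namespace ManPrel

variable {n : ℕ} {M ι : Type}

/-- The gauge as a matrix. -/
def SM (P : Fr n M ι) (y : En n) : Matrix ι ι ℝ := Matrix.of fun a b => P.S a b y

variable [Fintype ι]

theorem pull_eq (P : Fr n M ι) (F : M → ι → ℝ) (a : ι) (y : En n) :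
    P.pull F a y = (SM P y *ᵥ F (P.θ y)) a := rfl

theorem tr_SM (P : Fr n M ι) (Φ Ψ : M → M) (U : M → Matrix ι ι ℝ) (y : En n) :
    SM (P.tr Φ Ψ U) y = SM P y * (U (P.θ y))ᵀ := rfl

theorem rel_eq (P₁ P₂ : Fr n M ι) (y : En n) : P₁.rel P₂ y = (SM P₁ y)ᵀ * SM P₂ y := rfl

theorem push_mem (P : Fr n M ι) {Dm : Set (En n)} (ψ : ι → En n → ℝ) {y : En n} (hy : y ∈ Dm)
    (h : P.κ (P.θ y) = y) : P.push Dm ψ (P.θ y) = (SM P y)ᵀ *ᵥ fun a => ψ a y := by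
  funext a
  rw [Fr.push, if_pos (mem_image_of_mem _ hy), h]
  rfl

theorem push_not (P : Fr n M ι) {Dm : Set (En n)} (ψ : ι → En n → ℝ) {x : M}
    (h : x ∉ P.θ '' Dm) : P.push Dm ψ x = 0 := by
  funext a
  rw [Fr.push, if_neg h]
  rfl

variable [DecidableEq ι]

theorem orthM {P : Fr n M ι} {y : En n}
    (h : ∀ a a', ∑ e, P.S e a y * P.S e a' y = if a = a' then 1 else 0) :
    (SM P y)ᵀ * SM P y = 1 := by
  ext a b
  rw [Matrix.one_apply, ← h]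
  rfl

end ManPrel

open ManPrel

variable {n : ℕ} [NeZero n] {M : Type} [TopologicalSpace M] [T2Space M] [CompactSpace M]
  [ConnectedSpace M] [ChartedSpace (EuclideanHalfSpace n) M] [IsManifold (𝓡∂ n) ∞ M]
  [MeasurableSpace M] [BorelSpace M] {ι : Type} [Fintype ι] [DecidableEq ι] [Nonempty ι]

omit [T2Space M] [CompactSpace M] [ConnectedSpace M] [IsManifold (𝓡∂ n) ∞ M] [BorelSpace M]
  [Nonempty ι] in
theorem m_prel (h1 : B1 n M ι) : M_prel n M ι := by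
  intro X₁ X₂ Γ O Φ Ψ U G
  have inj : InjOn Φ O := fun x hx x' hx' e => by rw [← G.linv x hx, e, G.linv x' hx']
  have c1 : ∀ x ∈ O, (U x)ᵀ * U x = 1 := fun x hx => by
    obtain ⟨R, gc, Ac, P, R0, hP, rfl⟩ := h1.xi X₂.g X₂.A X₂.hg X₂.hA x (G.int hx)
    have hP' := (h1.restr _ _ gc Ac P).2.1 _ _ hP
      (hP.smθ.continuousOn.isOpen_inter_preimage isOpen_ball G.opn) inter_subset_left
    have z0 : (0 : En n) ∈ ball (0 : En n) R ∩ P.θ ⁻¹' O := ⟨mem_ball_self R0, hx⟩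
    have h2 := orthM ((G.tr _ gc Ac P hP' (image_subset_iff.2 inter_subset_right)).p₁.orth 0 z0)
    rw [tr_SM, Matrix.transpose_mul, Matrix.transpose_transpose, Matrix.mul_assoc,
      ← Matrix.mul_assoc (SM P 0)ᵀ, orthM (hP'.orth 0 z0), Matrix.one_mul] at h2
    exact mul_eq_one_comm.1 h2
  refine ⟨c1, fun V gc Ac P hP hO φ x hx => ?_,
    fun R r gb Ab B₁ B₂ hB rR hM => ⟨fun φ x hx => ?_, fun y hy F a => ?_⟩,
    fun P F₁ F₂ y hy e a => ?_, fun P F₁ F₂ a y => ?_⟩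
  · by_cases h : x ∈ P.θ '' V
    · obtain ⟨y, hy, rfl⟩ := h
      rw [push_mem P φ hy (hP.linv y hy), Matrix.mulVec_mulVec]
      refine (push_mem (P.tr Φ Ψ U) φ hy ((G.tr V gc Ac P hP hO).p₁.linv y hy)).trans ?_
      rw [tr_SM, Matrix.transpose_mul, Matrix.transpose_transpose]
    · rw [push_not P φ h, Matrix.mulVec_zero]
      refine push_not _ φ ?_
      rintro ⟨y, hy, e⟩
      exact h ⟨y, hy, inj (hO ⟨y, hy, rfl⟩) hx e⟩
  · have u := G.uniq _ gb Ab B₁ B₂ hM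
    have up : ∀ {X : Sd n M ι} {B : Fr n M ι}, BP X.g X.A R gb Ab B → ∀ y ∈ Hb n r,
        B.θ y ∈ intM n M → y ∈ Up n r := fun hB' y hy hi =>
      ⟨hy.1, lt_of_le_of_ne hy.2 fun e =>
        int_iff_not_bd.1 hi ((hB'.bd y (Hb_mono rR.le hy)).2 e.symm)⟩
    by_cases h : x ∈ B₂.θ '' Hb n r
    · obtain ⟨y, hy, rfl⟩ := h
      have hy' := up hB.p₂ y hy (G.int hx)
      have hR := Hb_mono rR.le hy
      rw [(u y hy').2.1, (u y hy').2.2, push_mem B₁ φ hy (hB.p₁.linv y hR),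
        push_mem B₂ φ hy (hB.p₂.linv y hR), Matrix.mulVec_mulVec, rel_eq, Matrix.mul_assoc,
        mul_eq_one_comm.1 (orthM (hB.p₂.orth y hR)), Matrix.mul_one]
    · rw [push_not B₂ φ h, Matrix.mulVec_zero]
      refine push_not _ φ ?_
      rintro ⟨y, hy, e⟩
      have hy' := up hB.p₁ y hy (e ▸ G.maps x hx)
      exact h ⟨y, hy, inj (u y hy').1 hx ((u y hy').2.1.trans e)⟩
  · obtain ⟨-, u2, u3⟩ := G.uniq _ gb Ab B₁ B₂ hM y hy
    rw [pull_eq, pull_eq, tr_SM, u3, rel_eq, Matrix.transpose_mul, Matrix.transpose_transpose,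
      ← Matrix.mul_assoc, mul_eq_one_comm.1 (orthM (hM.p₂.orth y hy)), Matrix.one_mul, ← u2]
    rfl
  · have e' : F₁ ((P.tr Φ Ψ U).θ y) = U (P.θ y) *ᵥ F₂ (P.θ y) := e
    rw [pull_eq, pull_eq, tr_SM, e', Matrix.mulVec_mulVec, Matrix.mul_assoc, c1 _ hy,
      Matrix.mul_one]
  · rw [pull_eq, pull_eq, pull_eq, tr_SM, Matrix.mulVec_sub, Matrix.mulVec_mulVec]
    rfl

omit [T2Space M] [CompactSpace M] [ConnectedSpace M] [IsManifold (𝓡∂ n) ∞ M] [BorelSpace M]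
  [Nonempty ι] in
theorem m_shrink (h1 : B1 n M ι) (h2 : B2 n M ι) : M_shrink n M ι := by
  intro X₁ X₂ Γ R ρ q gc Ac P₁ P₂ x₁ N ε T ht hN ε0
  obtain ⟨d, d0, hd⟩ := Metric.mem_nhdsWithin_iff.1 (ht hN)
  have ρ0 := T.pos
  obtain ⟨t, t0, t1, t2, t3⟩ : ∃ t : ℝ, 0 < t ∧ t ≤ 1 ∧ 4 * (t * ρ) ≤ d ∧ 4 * (t * ρ) ≤ ε := by
    have h : 4 * (min 1 (min d ε / (4 * ρ)) * ρ) ≤ min d ε := by
      have := (le_div_iff₀ (by positivity)).1 (min_le_right 1 (min d ε / (4 * ρ)))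
      linarith
    exact ⟨_, by positivity, min_le_left _ _, h.trans (min_le_left _ _),
      h.trans (min_le_right _ _)⟩
  have p0 := mul_pos t0 ρ0
  have nq : ‖t • q‖ = t * ρ := by rw [norm_smul, T.nq, Real.norm_of_nonneg t0.le]
  have s1 : ball (t • q) (t * ρ) ⊆ ball q ρ := by
    refine ball_subset_ball' ?_
    have e : t • q - q = (t - 1) • q := by rw [sub_smul, one_smul]
    rw [dist_eq_norm, e, norm_smul, T.nq, Real.norm_eq_abs, abs_of_nonpos (by linarith)]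
    linarith
  have s2 : ball (t • q) (t * ρ) ⊆ ball 0 d := by
    refine ball_subset_ball' ?_
    rw [dist_zero_right, nq]
    linarith
  have p₁ := (h1.restr _ _ gc Ac P₁).2.1 _ _ T.mi.p₁ isOpen_ball s1
  have p₂ := (h1.restr _ _ gc Ac P₂).2.1 _ _ T.mi.p₂ isOpen_ball s1
  refine ⟨t * ρ, t • q, ⟨T.big, p0, nq, T.posR, ⟨p₁, p₂, fun F hF a =>
    ae_restrict_of_ae_restrict_of_subset s1 (T.mi.eq F hF a)⟩, s1.trans T.sub,
    fun k K₁ K₂ hk r₁ r₂ a => ?_⟩, by linarith,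
    image_subset_iff.2 fun y hy => hd ⟨s2 hy, s1 hy⟩, ht.mono_left (nhdsWithin_mono _ s1)⟩
  have a₁ := (h2.rep _ _ _ _ gc Ac P₁ X₁.hg X₁.hA p₁.toPar measurableSet_ball
    Subset.rfl).2.2.2 k K₁ _ measurableSet_ball s1 r₁
  have a₂ := (h2.rep _ _ _ _ gc Ac P₂ X₂.hg X₂.hA p₂.toPar measurableSet_ball
    Subset.rfl).2.2.2 k K₂ _ measurableSet_ball s1 r₂
  exact ae_restrict_of_ae_restrict_of_subset s1 (T.gr _ K₁ K₂ (a₁.2 hk) a₁.1 a₂.1 a)

end Vale.Agent.P088
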