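import Vale.Agent.P088.ManS

open MeasureTheory Set Metric Filter
open scoped ContDiff Topology InnerProductSpace Manifold Matrix

noncomputable section
namespace Vale.Agent.P088
open Vale.Agent.P136 (D Sm Tst)

variable {n : ℕ} [NeZero n] {M : Type} [TopologicalSpace M] [T2Space M] [CompactSpace M]
  [ConnectedSpace M] [ChartedSpace (EuclideanHalfSpace n) M] [IsManifold (𝓡∂ n) ∞ M]
  [MeasurableSpace M] [BorelSpace M] {ι : Type} [Fintype ι] [DecidableEq ι] [Nonempty ι]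

namespace ManPush

omit [NeZero n] in
lemma ext {V K : Set (En n)} (hV : IsOpen V) (hK : IsClosed K) (h : K ⊆ V) {f : En n → ℝ}
    (hf : ContDiffOn ℝ ∞ f V) : ∃ v, Sm v ∧ EqOn v f K := by
  obtain ⟨χ, h0, h1, -⟩ := exists_contMDiffMap_zero_one_nhds_of_isClosed (n := ⊤) 𝓘(ℝ, En n)
    hV.isClosed_compl hK (disjoint_compl_left_iff_subset.2 h)
  refine ⟨fun y => χ y * f y, contDiff_iff_contDiffAt.2 fun y => ?_, fun y hy => ?_⟩
  · by_cases hy : y ∈ V
    · exact χ.contMDiff.contDiff.contDiffAt.mul (hf.contDiffAt (hV.mem_nhds hy))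
    · refine (contDiffAt_const (c := 0)).congr_of_eventuallyEq ?_
      filter_upwards [h0.filter_mono (nhds_le_nhdsSet hy)] with z hz
      rw [hz, zero_mul]
  · simp only [h1.self_of_nhdsSet y hy, one_mul]

omit [NeZero n] [DecidableEq ι] [Nonempty ι] in
lemma push_zero {P : Fr n M ι} {Dm : Set (En n)} {ψ : ι → En n → ℝ} {y : En n}
    (hl : P.κ (P.θ y) = y) (h : ∀ a, ψ a y = 0) : P.push Dm ψ (P.θ y) = 0 := by
  funext a
  simp [Fr.push, hl, h]

omit [NeZero n] [DecidableEq ι] [Nonempty ι] in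
lemma push_out {P : Fr n M ι} {Dm : Set (En n)} (ψ : ι → En n → ℝ) {x : M}
    (h : x ∉ P.θ '' Dm) : P.push Dm ψ x = 0 := by
  funext a
  simp only [Fr.push, if_neg h, Pi.zero_apply]

omit [NeZero n] [DecidableEq ι] [Nonempty ι] in
lemma push_in {P : Fr n M ι} {Dm : Set (En n)} (ψ : ι → En n → ℝ) {y : En n} (hy : y ∈ Dm)
    (hl : P.κ (P.θ y) = y) (a : ι) : P.push Dm ψ (P.θ y) a = ∑ a', P.S a' a y * ψ a' y := by
  simp only [Fr.push, if_pos (mem_image_of_mem _ hy), hl]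

lemma cpt_Hb {r : ℝ} {K : Set (En n)} (hK : IsCompact K) (h : K ⊆ ball 0 r) :
    IsCompact (K ∩ Hb n r) := by
  rw [Hb, ← inter_assoc, inter_eq_left.2 h]
  exact hK.inter_right (isClosed_le continuous_const cont0)

end ManPush

open ManPush

theorem m_pull (hE : EAll) : M_pull n M ι := by
  intro g A gc Ac P F hF
  have c1 : ∀ Dm, Par0 g A Dm gc Ac P → SmOn Dm (P.pull F) := fun Dm h a =>
    ContDiffOn.sum fun a' _ => ContDiffOn.mul (fun y hy => (h.smS y hy a a').contDiffWithinAt)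
      (contMDiffOn_iff_contDiffOn.1 ((hF a').comp_contMDiffOn h.smθ))
  refine ⟨c1, fun V y r h hr => ?_, fun R r h hr => ?_⟩
  · choose v hv using fun a => ext h.isOpen isClosed_closedBall hr (c1 V h.toPar0 a)
    exact ⟨v, fun a => (hv a).1, fun a => (hv a).2⟩
  · choose v hv using fun a => hE.sext n _ 0 R r hr (c1 _ h.toPar0 a)
    exact ⟨v, fun a => (hv a).1, fun a => (hv a).2⟩

theorem m_push : M_push n M ι := by
  intro g A gc Ac P Dm O ψ h
  refine ⟨fun y hy a => ?_, fun hψ hc => ?_⟩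
  · simp only [Fr.pull, push_in ψ hy (h.linv y hy), Finset.mul_sum, ← mul_assoc]
    rw [Finset.sum_comm]
    simp [← Finset.sum_mul, orth_swap (h.orth y hy)]
  · have hK := hc (⋃ a, tsupport (ψ a)) (isCompact_iUnion fun a => (hψ a).1.2)
      (iUnion_subset fun a => (hψ a).2)
    have h0 : ∀ x, x ∉ P.θ '' ((⋃ a, tsupport (ψ a)) ∩ Dm) → P.push Dm ψ x = 0 := fun x hx => by
      by_cases hD : x ∈ P.θ '' Dm
      · obtain ⟨y, hy, rfl⟩ := hD
        exact push_zero (h.linv y hy) fun a => image_eq_zero_of_notMem_tsupport fun ha =>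
          hx ⟨y, ⟨mem_iUnion.2 ⟨a, ha⟩, hy⟩, rfl⟩
      · exact push_out ψ hD
    refine ⟨fun a x => ?_, _, hK, inter_subset_right,
      inter_subset_left.trans (iUnion_subset fun a => (hψ a).2), h0⟩
    by_cases hD : x ∈ P.θ '' Dm
    · have hκ := h.smκ.contMDiffAt (h.opn.mem_nhds hD)
      have hy : P.κ x ∈ Dm := by
        obtain ⟨y, hy, rfl⟩ := hD
        rwa [h.linv y hy]
      have hs : ContDiffAt ℝ ∞ (fun y => ∑ a', P.S a' a y * ψ a' y) (P.κ x) :=
        ContDiffAt.sum fun a' _ => (h.smS _ hy a' a).mul (hψ a').1.1.contDiffAt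
      refine (hs.comp_contMDiffAt hκ).congr_of_eventuallyEq ?_
      filter_upwards [h.opn.mem_nhds hD] with z hz
      simp only [Fr.push, if_pos hz, Function.comp]
    · have hcl := (hK.image_of_continuousOn
        (h.smθ.continuousOn.mono inter_subset_right)).isClosed
      refine (contMDiffAt_const (c := (0 : ℝ))).congr_of_eventuallyEq ?_
      filter_upwards [hcl.isOpen_compl.mem_nhds fun hx => hD (image_mono inter_subset_right hx)]
        with z hz
      rw [h0 z hz, Pi.zero_apply]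

theorem m_push2 (push : M_push n M ι) : M_push2 n M ι := by
  intro g A gc Ac P ψ
  refine ⟨fun V h hψ => ⟨((push g A gc Ac P V V ψ h.toPar).2 hψ fun K hK hV => ?_).1,
    fun x hx => push_out ψ ?_⟩, fun r Γ h hψ => ?_, fun r Γ g' A' gc' Ac' P' h h' fm ψ' e x hx => ?_⟩
  · rwa [inter_eq_left.2 hV]
  · rintro ⟨y, hy, rfl⟩
    exact int_iff_not_bd.1 (h.int y hy) hx
  · obtain ⟨hs, K, hK, hD, -, h0⟩ :=
      (push g A gc Ac P (Hb n r) (ball 0 r) ψ h.toPar).2 hψ fun K => cpt_Hb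
    refine ⟨hs, fun hΓ => ⟨hs, P.θ '' (K ∩ {y | y 0 = 0}),
      (hK.inter_right (isClosed_eq cont0 continuous_const)).image_of_continuousOn
        (h.smθ.continuousOn.mono (inter_subset_left.trans hD)), ?_, fun x hx => h0 x ?_⟩⟩
    · rintro _ ⟨y, hy, rfl⟩
      exact hΓ y (hD hy.1) hy.2
    · rintro ⟨y, hy, rfl⟩
      exact hx.2 ⟨y, ⟨hy, (h.bd y (hD hy)).1 hx.1⟩, rfl⟩
  · have key : ∀ y ∈ Hb n r, y 0 = 0 →
        P.push (Hb n r) ψ (P.θ y) = P'.push (Hb n r) ψ' (P'.θ y) := fun y hy h0 => by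
      funext a
      rw [push_in ψ hy (h.linv y hy), push_in ψ' hy (h'.linv y hy)]
      exact Finset.sum_congr rfl fun a' _ => by
        rw [(fm y hy h0).2.2.1, (fm y hy h0).2.2.2, e y hy h0]
    by_cases h1 : x ∈ P.θ '' Hb n r
    · obtain ⟨y, hy, rfl⟩ := h1
      have h0 := (h.bd y hy).1 hx
      rw [key y hy h0, (fm y hy h0).1]
    · rw [push_out ψ h1, push_out ψ']
      rintro ⟨y, hy, rfl⟩
      exact h1 ⟨y, hy, (fm y hy ((h'.bd y hy).1 hx)).1⟩

end Vale.Agent.P088
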