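import Vale.Agent.P088.ManS

/-!
# P088: restriction, translation and locality of patches
-/

open MeasureTheory Set Metric Filter
open scoped ContDiff Topology InnerProductSpace Manifold Matrix

noncomputable section
namespace Vale.Agent.P088
open Vale.Agent.P136 (D Sm Tst)

namespace ManRestr

variable {n : ℕ} [NeZero n] {M : Type} [TopologicalSpace M]
  [ChartedSpace (EuclideanHalfSpace n) M] {ι : Type} [Fintype ι] [DecidableEq ι]
  {g : Bil n M} {A : RForm n M ι} {gc : MatF n} {Ac : ConF n ι} {P : Fr n M ι}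

theorem trg (g : Bil n M) {x x' : M} (h : x = x') {v v' w w' : En n} (hv : v = v') (hw : w = w') :
    g x v w = g x' v' w' := by
  subst h hv hw
  rfl

omit [Fintype ι] [DecidableEq ι] in
theorem trA (A : RForm n M ι) {x x' : M} (h : x = x') {v v' : En n} (hv : v = v') :
    A x v = A x' v' := by
  subst h hv
  rfl

theorem dth_inter (θ : En n → M) (Dm : Set (En n)) {O : Set (En n)} {y : En n} (h : O ∈ 𝓝 y)
    (i : Fin n) : dth θ (Dm ∩ O) y i = dth θ Dm y i := by
  rw [dth, dth, mfderivWithin_inter h]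

theorem inter {Dm O : Set (En n)} (h : Par g A Dm gc Ac P) (hO : IsOpen O) :
    Par g A (Dm ∩ O) gc Ac P where
  uniq := h.uniq.inter hO
  meas := h.meas.inter hO.measurableSet
  bdd := h.bdd.subset inter_subset_left
  smθ := h.smθ.mono inter_subset_left
  ga := h.ga
  smS := fun y hy => h.smS y hy.1
  orth := fun y hy => h.orth y hy.1
  met := fun y hy i j => by
    simp only [dth_inter _ _ (hO.mem_nhds hy.2)]
    exact h.met y hy.1 i j
  con := fun y hy i a a' => by
    simp only [dth_inter _ _ (hO.mem_nhds hy.2)]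
    exact h.con y hy.1 i a a'
  smκ := h.smκ.mono (image_mono inter_subset_left)
  linv := fun y hy => h.linv y hy.1
  opn := by
    have e : P.θ '' (Dm ∩ O) = P.θ '' Dm ∩ P.κ ⁻¹' O := by
      ext x
      constructor
      · rintro ⟨y, hy, rfl⟩
        refine ⟨⟨y, hy.1, rfl⟩, ?_⟩
        rw [mem_preimage, h.linv y hy.1]
        exact hy.2
      · rintro ⟨⟨y, hy, rfl⟩, hy'⟩
        rw [mem_preimage, h.linv y hy] at hy'
        exact ⟨y, ⟨hy, hy'⟩, rfl⟩
    rw [e]
    exact h.smκ.continuousOn.isOpen_inter_preimage h.opn hO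

theorem sub {Dm O : Set (En n)} (h : Par g A Dm gc Ac P) (hO : IsOpen O) (hs : O ⊆ Dm) :
    Par g A O gc Ac P := by
  have := inter h hO
  rwa [inter_eq_right.2 hs] at this

theorem dth_shift {θ : En n → M} {V : Set (En n)} (hV : IsOpen V)
    (hθ : ContMDiffOn 𝓘(ℝ, En n) (𝓡∂ n) ∞ θ V) {z y : En n} (hy : y + z ∈ V) (i : Fin n) :
    (dth (fun y => θ (y + z)) ((fun y => y + z) ⁻¹' V) y i : En n) = dth θ V (y + z) i := by
  have h1 := ((hθ _ hy).mdifferentiableWithinAt (by simp)).hasMFDerivWithinAt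
  have h2 : HasFDerivWithinAt (fun y : En n => y + z) (ContinuousLinearMap.id ℝ (En n))
      ((fun y => y + z) ⁻¹' V) y := ((hasFDerivAt_id y).add_const z).hasFDerivWithinAt
  have h3 := HasMFDerivWithinAt.comp y (f := fun y : En n => y + z) h1 h2.hasMFDerivWithinAt
    Subset.rfl
  have h4 := h3.mfderivWithin
    ((hV.preimage (continuous_add_const z)).uniqueDiffWithinAt hy).uniqueMDiffWithinAt
  exact congrArg (fun L : En n →L[ℝ] En n => L (ee i)) h4

theorem shift {V : Set (En n)} (h : IP g A V gc Ac P) (z : En n) :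
    IP g A ((fun y => y + z) ⁻¹' V) (fun i j y => gc i j (y + z))
      (fun i a a' y => Ac i a a' (y + z)) (P.shift z) := by
  have ho : IsOpen ((fun y => y + z) ⁻¹' V) := h.isOpen.preimage (continuous_add_const z)
  have ht : ContDiff ℝ ∞ fun y : En n => y + z := contDiff_id.add contDiff_const
  have him : (P.shift z).θ '' ((fun y => y + z) ⁻¹' V) = P.θ '' V := by
    ext x
    constructor
    · rintro ⟨y, hy, rfl⟩
      exact ⟨y + z, hy, rfl⟩
    · rintro ⟨y, hy, rfl⟩
      exact ⟨y - z, by simpa using hy, by simp [Fr.shift]⟩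
  obtain ⟨g1, g2, g3, g4, g5⟩ := h.ga
  refine
    { uniq := ho.uniqueDiffOn
      meas := ho.measurableSet
      bdd := ?_
      smθ := h.smθ.comp ht.contMDiff.contMDiffOn Subset.rfl
      ga := ⟨fun i j => (g1 i j).comp ht, fun i j => funext fun y => congrFun (g2 i j) (y + z),
        fun x => g3 (x + z),
        fun i a a' => (g4 i a a').comp ht, fun i a a' x => g5 i a a' (x + z)⟩
      smS := fun y hy a a' => ContDiffAt.comp (g := P.S a a') (f := fun y : En n => y + z) y
        (h.smS _ hy a a') ht.contDiffAt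
      orth := fun y hy => h.orth _ hy
      met := fun y hy i j => (h.met _ hy i j).trans
        (trg g rfl (dth_shift h.isOpen h.smθ hy i).symm (dth_shift h.isOpen h.smθ hy j).symm)
      con := fun y hy i a a' => ?_
      smκ := ?_
      linv := fun y hy => ?_
      opn := him ▸ h.opn
      isOpen := ho
      int := fun y hy => h.int _ hy }
  · obtain ⟨r, hr⟩ := h.bdd.subset_closedBall z
    refine (isBounded_closedBall (x := (0 : En n)) (r := r)).subset fun y hy => ?_
    simpa [dist_eq_norm] using hr hy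
  · have e : D (ee i) ((P.shift z).S a a') y = D (ee i) (P.S a a') (y + z) := by
      change fderiv ℝ (fun y => P.S a a' (y + z)) y _ = fderiv ℝ _ _ _
      rw [fderiv_comp_add_right]
    rw [e]
    refine (h.con _ hy i a a').trans (Finset.sum_congr rfl fun b _ => ?_)
    rw [trA A rfl (dth_shift h.isOpen h.smθ hy i).symm]
    rfl
  · rw [him]
    exact h.smκ.sub contMDiffOn_const
  · change P.κ (P.θ (y + z)) - z = y
    rw [h.linv _ hy, add_sub_cancel_right]

theorem dth_congr {θ θ' : En n → M} {V V' : Set (En n)} {y : En n} (hV : V ∈ 𝓝 y)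
    (hV' : V' ∈ 𝓝 y) (h : θ =ᶠ[𝓝 y] θ') (i : Fin n) :
    (dth θ V y i : En n) = dth θ' V' y i := by
  rw [dth, dth, mfderivWithin_of_mem_nhds hV, mfderivWithin_of_mem_nhds hV', h.mfderiv_eq]
  rfl

end ManRestr

open ManRestr

variable {n : ℕ} [NeZero n] {M : Type} [TopologicalSpace M] [T2Space M] [CompactSpace M]
  [ConnectedSpace M] [ChartedSpace (EuclideanHalfSpace n) M] [IsManifold (𝓡∂ n) ∞ M]
  [MeasurableSpace M] [BorelSpace M] {ι : Type} [Fintype ι] [DecidableEq ι] [Nonempty ι]

theorem m_restr : M_restr n M ι := by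
  intro g A gc Ac P
  refine ⟨fun Dm O h hO => inter h hO, fun V V' h hV hs => ?_, fun R r h hr hR => ?_,
    fun R V h hV hs => ?_, fun R gc' Ac' h hG he => ?_, fun V z h => shift h z⟩
  · exact ⟨sub h.toPar hV hs, hV, fun y hy => h.int y (hs hy)⟩
  · have e : Hb n R ∩ ball 0 r = Hb n r :=
      Subset.antisymm (fun y hy => ⟨hy.2, hy.1.2⟩) fun y hy => ⟨Hb_mono hR hy, hy.1⟩
    exact ⟨e ▸ inter h.toPar isOpen_ball, hr, fun y hy => h.bd y (Hb_mono hR hy)⟩
  · refine ⟨sub h.toPar hV (hs.trans (Up_sub_Hb R)), hV, fun y hy => ?_⟩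
    rw [int_iff_not_bd, h.bd y (Up_sub_Hb R (hs hy))]
    exact (hs hy).2.ne'
  · exact
      { h with
        ga := hG
        met := fun y hy i j => ((he y hy).1 i j).trans (h.met y hy i j)
        con := fun y hy i a a' => by
          simp only [(he y hy).2]
          exact h.con y hy i a a' }

theorem m_local : M_local n M ι := by
  intro g A gc Ac P V hV hb hG h
  have : Nonempty (Fr n M ι) := ⟨P⟩
  choose! V' P' hy hs hP he using h
  have hn : ∀ y ∈ V, V' y ∈ 𝓝 y := fun y hy' => (hP y hy').isOpen.mem_nhds (hy y hy')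
  have hθ : ∀ y ∈ V, P.θ =ᶠ[𝓝 y] (P' y).θ := fun y hy' =>
    mem_of_superset (hn y hy') fun z hz => (he y hy' z hz).1
  have hS : ∀ y ∈ V, ∀ a a', P.S a a' =ᶠ[𝓝 y] (P' y).S a a' := fun y hy' a a' =>
    mem_of_superset (hn y hy') fun z hz => (he y hy' z hz).2.2 a a'
  have hd : ∀ y ∈ V, ∀ i, (dth P.θ V y i : En n) = dth (P' y).θ (V' y) y i := fun y hy' i =>
    dth_congr (hV.mem_nhds hy') (hn y hy') (hθ y hy') i
  have hm : ∀ y ∈ V, (P' y).θ '' V' y ∈ 𝓝 (P.θ y) := fun y hy' =>
    (hP y hy').opn.mem_nhds ⟨y, hy y hy', (hθ y hy').eq_of_nhds.symm⟩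
  refine
    { uniq := hV.uniqueDiffOn
      meas := hV.measurableSet
      bdd := hb
      smθ := fun y hy' => ((((hP y hy').smθ y (hy y hy')).contMDiffAt
        (hn y hy')).congr_of_eventuallyEq (hθ y hy')).contMDiffWithinAt
      ga := hG
      smS := fun y hy' a a' =>
        ((hP y hy').smS y (hy y hy') a a').congr_of_eventuallyEq (hS y hy' a a')
      orth := fun y hy' a a' => ?_
      met := fun y hy' i j => ((hP y hy').met y (hy y hy') i j).trans
        (trg g (hθ y hy').eq_of_nhds (hd y hy' i) (hd y hy' j)).symm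
      con := fun y hy' i a a' => ?_
      smκ := ?_
      linv := fun y hy' => (he y hy' y (hy y hy')).2.1
      opn := ?_
      isOpen := hV
      int := fun y hy' => (hθ y hy').eq_of_nhds ▸ (hP y hy').int y (hy y hy') }
  · simp only [(he y hy' y (hy y hy')).2.2]
    exact (hP y hy').orth y (hy y hy') a a'
  · have e : D (ee i) (P.S a a') y = D (ee i) ((P' y).S a a') y := by
      change fderiv ℝ _ _ _ = fderiv ℝ _ _ _
      rw [(hS y hy' a a').fderiv_eq]
    rw [e, trA A (hθ y hy').eq_of_nhds (hd y hy' i)]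
    simp only [(he y hy' y (hy y hy')).2.2]
    exact (hP y hy').con y (hy y hy') i a a'
  · rintro _ ⟨y, hy', rfl⟩
    refine ((((hP y hy').smκ _ (mem_of_mem_nhds (hm y hy'))).contMDiffAt
      (hm y hy')).congr_of_eventuallyEq ?_).contMDiffWithinAt
    refine mem_of_superset (hm y hy') ?_
    rintro _ ⟨z, hz, rfl⟩
    change P.κ ((P' y).θ z) = (P' y).κ ((P' y).θ z)
    rw [(hP y hy').linv z hz, ← (he y hy' z hz).1, (he y hy' z hz).2.1]
  · refine isOpen_iff_mem_nhds.2 ?_
    rintro _ ⟨y, hy', rfl⟩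
    refine mem_of_superset (hm y hy') ?_
    rintro _ ⟨z, hz, rfl⟩
    exact ⟨z, hs y hy' hz, (he y hy' z hz).1⟩

end Vale.Agent.P088
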