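import Vale.Agent.P088.ManS

open MeasureTheory Set Metric Filter
open scoped ContDiff Topology InnerProductSpace Manifold Matrix

noncomputable section
namespace Vale.Agent.P088
open Vale.Agent.P136 (D Sm Tst)

namespace ManRun2

theorem app_loc {n : ℕ} {ι : Type} [Fintype ι] (L : Op n ι) {W W' : ι → En n → ℝ} {x : En n}
    (h : ∀ a, W a =ᶠ[𝓝 x] W' a) (a : ι) : L.app W a x = L.app W' a x := by
  have h1 : ∀ i, D (ee i) (XX ee L.γ (W a) i) x = D (ee i) (XX ee L.γ (W' a) i) x := by
    intro i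
    apply Vale.Agent.P136.D_congr
    filter_upwards [(h a).eventuallyEq_nhds] with y hy
    simp only [XX, Vale.Agent.P136.D_congr hy]
  simp only [Op.app, dgd, dvg, h1, fun a => Vale.Agent.P136.D_congr (h a),
    fun a => (h a).eq_of_nhds]

end ManRun2

variable {n : ℕ} [NeZero n] {M : Type} [TopologicalSpace M] [T2Space M] [CompactSpace M]
  [ConnectedSpace M] [ChartedSpace (EuclideanHalfSpace n) M] [IsManifold (𝓡∂ n) ∞ M]
  [MeasurableSpace M] [BorelSpace M] {ι : Type} [Fintype ι] [DecidableEq ι] [Nonempty ι]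

theorem m_run2 (hE : EAll) (h1 : B1 n M ι) (h2 : B2 n M ι) (src : M_src n M ι) :
    M_run2 n M ι := by
  intro X Z K s gc Ac P k W hs hP hZ hG hK hW
  let χ : ContDiffBump (0 : En n) := ⟨4 * s / 3, 5 * s / 3, by positivity, by linarith⟩
  set ψ : ι → En n → ℝ := fun a y => χ y * W a y with hψd
  have hsup : ∀ a, tsupport (ψ a) ⊆ closedBall 0 (5 * s / 3) := fun a =>
    (tsupport_mul_subset_left (f := fun y => χ y) (g := W a)).trans χ.tsupport_eq.subset
  have hsub : closedBall (0 : En n) (5 * s / 3) ⊆ ball 0 (2 * s) :=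
    closedBall_subset_ball (by linarith)
  have hψ : Tests (ball 0 (2 * s)) ψ := by
    intro a
    refine ⟨⟨contDiff_iff_contDiffAt.2 fun y => ?_, ?_⟩, (hsup a).trans hsub⟩
    · by_cases hy : y ∈ tsupport (ψ a)
      · exact χ.contDiffAt.mul ((hW.1 a).contDiffAt (isOpen_ball.mem_nhds (hsub (hsup a hy))))
      · exact (contDiffAt_const (c := (0 : ℝ))).congr_of_eventuallyEq
          (notMem_tsupport_iff_eventuallyEq.1 hy)
    · exact (isCompact_closedBall _ _).of_isClosed_subset (isClosed_tsupport _) (hsup a)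
  have heq : ∀ y ∈ closedBall (0 : En n) s, ∀ a, ψ a =ᶠ[𝓝 y] W a := by
    intro y hy a
    have : y ∈ ball (0 : En n) χ.rIn := closedBall_subset_ball (show s < 4 * s / 3 by linarith) hy
    filter_upwards [χ.eventuallyEq_one_of_mem_ball this] with z hz
    simp only [hψd, hz, Pi.one_apply, one_mul]
  have e1 : ∑ a, ∫ y in ball (0 : En n) s, k a y * W a y =
      ∑ a, ∫ y in ball (0 : En n) s, k a y * ψ a y := by
    refine Finset.sum_congr rfl fun a _ => setIntegral_congr_fun measurableSet_ball fun y hy => ?_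
    simp only [(heq y (ball_subset_closedBall hy) a).eq_of_nhds]
  rw [e1, ← hK ψ hψ, ← neg_eq_zero, ← ((src X gc Ac P ψ).1 _ hP hψ).1 K]
  refine Finset.sum_eq_zero fun a _ => integral_eq_zero_of_ae ?_
  have h3 := ((h1.vol X.g X.A _ _ gc Ac P X.hg hP.toPar measurableSet_ball
    subset_rfl).2.2.2.2.2 fun x => x ∈ intM n M \ Z → cm (X.G K) x = 0).1 (by
      filter_upwards [hG] with x hx _
      exact hx)
  filter_upwards [h3, ae_restrict_mem measurableSet_ball] with y hy hyb
  by_cases h : y ∈ closedBall (0 : En n) s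
  · rw [ManRun2.app_loc _ (heq y h), hW.2 y hyb]
    simp
  · simp [Fr.pull, hy ⟨hP.int y hyb, fun h0 => h (hZ y hyb h0)⟩]

end Vale.Agent.P088
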