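import Vale.Agent.P088.ManS

open MeasureTheory Set Metric Filter
open scoped ContDiff Topology InnerProductSpace Manifold Matrix

noncomputable section
namespace Vale.Agent.P088
open Vale.Agent.P136 (D Sm Tst)

variable {n : ℕ} [NeZero n] {M : Type} [TopologicalSpace M] [T2Space M] [CompactSpace M]
  [ConnectedSpace M] [ChartedSpace (EuclideanHalfSpace n) M] [IsManifold (𝓡∂ n) ∞ M]
  [MeasurableSpace M] [BorelSpace M] {ι : Type} [Fintype ι] [DecidableEq ι] [Nonempty ι]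

namespace ManSep

omit [NeZero n] in
theorem l2 {s : ℝ} {f : En n → ℝ} (hf : ContinuousOn f (closedBall 0 s)) :
    MemLp f 2 (volume.restrict (ball (0 : En n) s)) := by
  obtain ⟨C, hC⟩ := (isCompact_closedBall (0 : En n) s).exists_bound_of_continuousOn hf
  have : IsFiniteMeasure (volume.restrict (ball (0 : En n) s)) :=
    isFiniteMeasure_restrict.2 measure_ball_lt_top.ne
  refine MemLp.of_bound ((hf.mono ball_subset_closedBall).aestronglyMeasurable
    measurableSet_ball) C ?_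
  filter_upwards [ae_restrict_mem measurableSet_ball] with y hy
  exact hC y (ball_subset_closedBall hy)

omit [NeZero n] [DecidableEq ι] [Nonempty ι] in
theorem swap {U : Set (En n)} {f k : ι → En n → ℝ} (hk : L2On U k) (hf : L2On U f) :
    ∑ a, ∫ y in U, k a y * f a y = ∫ y in U, ∑ a, k a y * f a y :=
  (integral_finsetSum _ fun a _ => (hk a).integrable_mul (hf a)).symm

omit [NeZero n] [DecidableEq ι] [Nonempty ι] in
theorem zero {U : Set (En n)} {f : ι → En n → ℝ} (hf : L2On U f)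
    (h : ∫ y in U, ∑ a, f a y * f a y = 0) : ∀ᵐ y ∂(volume.restrict U), ∀ a, f a y = 0 := by
  have h1 := (integral_eq_zero_iff_of_nonneg
    (fun y => Finset.sum_nonneg fun a _ => mul_self_nonneg (f a y))
    (integrable_finsetSum _ fun a _ => (hf a).integrable_mul (hf a))).1 h
  filter_upwards [h1] with y hy a
  exact mul_self_eq_zero.1 ((Finset.sum_eq_zero_iff_of_nonneg
    fun a _ => mul_self_nonneg (f a y)).1 hy a (Finset.mem_univ a))

omit [Nonempty ι] in
theorem alg {S : ι → ι → ℝ} (h : ∀ a a', ∑ e, S e a * S e a' = if a = a' then 1 else 0)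
    (d u : ι → ℝ) : ∑ a', (∑ e, d e * S a' e) * ∑ b, S a' b * u b = ∑ e, d e * u e := by
  have h1 : ∀ e, ∑ a', S a' e * ∑ b, S a' b * u b = u e := fun e => by
    simp only [Finset.mul_sum, ← mul_assoc]
    rw [Finset.sum_comm]
    simp only [← Finset.sum_mul, h, ite_mul, one_mul, zero_mul, Finset.sum_ite_eq,
      Finset.mem_univ, if_true]
  simp only [Finset.sum_mul, mul_assoc]
  rw [Finset.sum_comm]
  simp only [← Finset.mul_sum, h1]

omit [DecidableEq ι] [Nonempty ι] in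
theorem alg2 (T : ι → ι → ℝ) (v f : ι → ℝ) :
    ∑ a, (∑ b, T b a * v b) * f a = ∑ b, v b * ∑ a, T b a * f a := by
  simp only [Finset.sum_mul, Finset.mul_sum]
  rw [Finset.sum_comm]
  exact Finset.sum_congr rfl fun b _ => Finset.sum_congr rfl fun a _ => by ring

omit [T2Space M] [CompactSpace M] [ConnectedSpace M] [IsManifold (𝓡∂ n) ∞ M] [BorelSpace M]
  [Nonempty ι] in
theorem pair (h1 : B1 n M ι) (h2 : B2 n M ι) {X : Sd n M ι} {s : ℝ} (hs : 0 < s) {gc : MatF n}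
    {Ac : ConF n ι} {P : Fr n M ι} (hP : IP X.g X.A (ball 0 (2 * s)) gc Ac P)
    {k ψ : ι → En n → ℝ} {K : LM ι X.g} (hK : Rp (ball 0 s) P k K)
    (hψ : Tests (ball 0 (2 * s)) ψ) : ⟪K, tm X.g (P.push (ball 0 (2 * s)) ψ)⟫_ℝ =
      ∑ a, ∫ y in ball (0 : En n) s, k a y * ψ a y := by
  have hsub : ball (0 : En n) s ⊆ ball 0 (2 * s) := ball_subset_ball (by linarith)
  rw [(h2.l2 _ _ _ _ _ _ _ X.hg X.hA hP.toPar measurableSet_ball hsub).2.2.2.2 k K _ hK
    ((h1.push2 _ _ _ _ _ ψ).1 _ hP hψ).1]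
  refine Finset.sum_congr rfl fun a _ => setIntegral_congr_fun measurableSet_ball fun y hy => ?_
  simp only [(h1.push _ _ _ _ _ _ univ ψ hP.toPar).1 y (hsub hy) a]

omit [T2Space M] [CompactSpace M] [ConnectedSpace M] [IsManifold (𝓡∂ n) ∞ M] [BorelSpace M]
  [Nonempty ι] [MeasurableSpace M] in
theorem cpt {g : Bil n M} {A : RForm n M ι} {s : ℝ} (hs : 0 < s) {gc : MatF n}
    {Ac : ConF n ι} {P : Fr n M ι} (hP : IP g A (ball 0 (2 * s)) gc Ac P) :
    IsCompact (P.θ '' closedBall 0 s) ∧ P.θ '' closedBall 0 s ⊆ intM n M ∧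
      ∀ y ∈ ball (0 : En n) (2 * s), P.θ y ∈ P.θ '' closedBall 0 s → y ∈ closedBall (0 : En n) s := by
  have hsub : closedBall (0 : En n) s ⊆ ball 0 (2 * s) := closedBall_subset_ball (by linarith)
  refine ⟨(isCompact_closedBall _ _).image_of_continuousOn (hP.smθ.continuousOn.mono hsub), ?_, ?_⟩
  · rintro _ ⟨y, hy, rfl⟩
    exact hP.int y (hsub hy)
  · rintro y hy ⟨z, hz, h⟩
    rwa [← hP.linv y hy, ← h, hP.linv z (hsub hz)]

end ManSep

open ManSep

theorem m_sep1 (hE : EAll) (h1 : B1 n M ι) (h2 : B2 n M ι) (h3 : B3 n M ι) : M_sep1 n M ι := by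
  intro X Γ R gc Ac P P' hΓ hR hM
  by_contra hne
  obtain ⟨U, U', hU, hU', h0, h0', hd⟩ := t2_separation hne
  have hb : ball (0 : En n) R ∈ 𝓝 (0 : En n) := ball_mem_nhds _ hR
  obtain ⟨ε, hε, hball⟩ := Metric.mem_nhds_iff.1 (inter_mem hb (inter_mem
    ((hM.p₁.smθ.continuousOn.continuousAt hb).preimage_mem_nhds (hU.mem_nhds h0))
    ((hM.p₂.smθ.continuousOn.continuousAt hb).preimage_mem_nhds (hU'.mem_nhds h0'))))
  obtain ⟨G', hG1, hG2, -⟩ := h3.grn X R (R / 2) gc Ac P hM.p₁ (half_pos hR) (half_lt_self hR)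
  obtain ⟨a₀⟩ := ‹Nonempty ι›
  have := hE.locsol n ι gc Ac (R / 2) G' (oneS n ι) hM.p₁.ga (half_pos hR) hG1 hG2
    (fun _ _ => continuousAt_const) ?_ a₀ a₀
  · simp [oneS] at this
  filter_upwards [Ioo_mem_nhdsGT (half_pos hε)] with s hs W hW
  have hs0 : 0 < s := hs.1
  have hB : ball (0 : En n) (2 * s) ⊆ ball 0 ε := ball_subset_ball (by linarith [hs.2])
  have hBR : ball (0 : En n) (2 * s) ⊆ ball 0 R := fun y hy => (hball (hB hy)).1
  have hsub : ball (0 : En n) s ⊆ ball 0 (2 * s) := ball_subset_ball (by linarith)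
  have hcb : closedBall (0 : En n) s ⊆ ball 0 (2 * s) := closedBall_subset_ball (by linarith)
  have hne' : ∀ y ∈ ball (0 : En n) (2 * s), ∀ z ∈ ball (0 : En n) (2 * s), P.θ y ≠ P'.θ z :=
    fun y hy z hz h => Set.disjoint_left.1 hd (hball (hB hy)).2.1
      (by rw [h]; exact (hball (hB hz)).2.2)
  have hP := (h1.restr _ _ _ _ P).2.1 _ _ hM.p₁ isOpen_ball hBR
  have hP' := (h1.restr _ _ _ _ P').2.1 _ _ hM.p₂ isOpen_ball hBR
  obtain ⟨c1, c2, c3⟩ := cpt hs0 hP
  obtain ⟨d1, d2, -⟩ := cpt hs0 hP'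
  obtain ⟨i1, -, i2, i3⟩ := h1.conn _ _ X.hg X.hA
  have hL : L2On (ball 0 s) W := fun a => l2 ((hW.1 a).continuousOn.mono hcb)
  obtain ⟨-, r1, r2, -⟩ := h2.rep _ _ _ _ _ _ _ X.hg X.hA hP.toPar measurableSet_ball hsub
  obtain ⟨-, r1', r2', -⟩ := h2.rep _ _ _ _ _ _ _ X.hg X.hA hP'.toPar measurableSet_ball hsub
  obtain ⟨K₁, hK₁⟩ := r1 W hL
  obtain ⟨K₂, hK₂⟩ := r1' W hL
  have hrun := h3.run X Γ (P.θ '' closedBall 0 s ∪ P'.θ '' closedBall 0 s) (K₁ - K₂) hΓ
    (c1.union d1).isClosed (union_subset c2 d2) ?_ ?_ ?_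
  rotate_left
  · rw [← diff_diff]
    refine i3 _ s gc Ac P' (i1.sdiff c1.isClosed) (i3 _ s gc Ac P i1 i2 hs0 hP ?_) hs0 hP' ?_
    · rintro _ ⟨y, hy, rfl⟩
      exact hP.int y hy
    · rintro _ ⟨y, hy, rfl⟩
      refine ⟨hP'.int y hy, ?_⟩
      rintro ⟨z, hz, h⟩
      exact hne' z (hcb hz) y hy h
  · filter_upwards [((h2.alg _ _ X.hg X.hA).2.2.2.2.2.1 K₁ K₂).1, r2 W K₁ hK₁, r2' W K₂ hK₂]
      with x e1 e2 e3 hx
    rw [e1, e2 fun h => hx (Or.inl (image_mono ball_subset_closedBall h)),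
      e3 fun h => hx (Or.inr (image_mono ball_subset_closedBall h)), sub_zero]
  · intro F hF
    rw [inner_sub_left, hK₁, hK₂, sub_eq_zero]
    refine Finset.sum_congr rfl fun a _ => integral_congr_ae ?_
    filter_upwards [ae_restrict_of_ae_restrict_of_subset (hsub.trans hBR) (hM.eq F hF a)]
      with y hy
    rw [hy]
  have hr2 := h3.run2 X _ (K₁ - K₂) s gc Ac P W W hs0 hP ?_ hrun ?_ hW
  · rw [swap hL hL] at hr2
    filter_upwards [zero hL hr2] with y hy a
    simp [hy]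
  · rintro y hy (h | ⟨z, hz, h⟩)
    · exact c3 y hy h
    · exact absurd h.symm (hne' y hy z (hcb hz))
  · intro ψ hψ
    rw [inner_sub_left, pair h1 h2 hs0 hP hK₁ hψ,
      (h2.l2 _ _ _ _ _ _ _ X.hg X.hA hP'.toPar measurableSet_ball hsub).2.2.2.2 W K₂ _ hK₂
        ((h1.push2 _ _ _ _ _ ψ).1 _ hP hψ).1, sub_eq_self]
    refine Finset.sum_eq_zero fun a _ => setIntegral_eq_zero_of_forall_eq_zero fun y hy => ?_
    have hn : P'.θ y ∉ P.θ '' ball 0 (2 * s) := fun ⟨z, hz, h⟩ => hne' z hz y (hsub hy) h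
    simp [Fr.pull, Fr.push, if_neg hn]

theorem m_sep2 (hE : EAll) (h1 : B1 n M ι) (h2 : B2 n M ι) (h3 : B3 n M ι) : M_sep2 n M ι := by
  intro X Γ R gc Ac P P' hΓ hR hM hθ
  set T : ι → ι → En n → ℝ := fun a a' y => ∑ e, (P.S a e y - P'.S a e y) * P.S a' e y with hT
  have hTc : ∀ y ∈ ball (0 : En n) R, ∀ a a', ContinuousAt (T a a') y := fun y hy a a' =>
    (ContDiffAt.sum fun e _ => ((hM.p₁.smS y hy a e).sub (hM.p₂.smS y hy a e)).mul
      (hM.p₁.smS y hy a' e)).continuousAt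
  have h0 : (0 : En n) ∈ ball (0 : En n) R := mem_ball_self hR
  obtain ⟨G', hG1, hG2, -⟩ := h3.grn X R (R / 2) gc Ac P hM.p₁ (half_pos hR) (half_lt_self hR)
  have key := hE.locsol n ι gc Ac (R / 2) G' T hM.p₁.ga (half_pos hR) hG1 hG2 (hTc 0 h0) ?_
  · intro a b
    have := alg (hM.p₁.orth 0 h0) (fun e => P.S a e 0 - P'.S a e 0) (Pi.single b 1)
    rw [Finset.sum_eq_zero fun a' _ => mul_eq_zero_of_left (key a a') _] at this
    simpa [Pi.single_apply, sub_eq_zero] using this.symm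
  filter_upwards [Ioo_mem_nhdsGT (half_pos hR)] with s hs W hW
  have hs0 : 0 < s := hs.1
  have hBR : ball (0 : En n) (2 * s) ⊆ ball 0 R := ball_subset_ball (by linarith [hs.2])
  have hsub : ball (0 : En n) s ⊆ ball 0 (2 * s) := ball_subset_ball (by linarith)
  have hcb : closedBall (0 : En n) s ⊆ ball 0 (2 * s) := closedBall_subset_ball (by linarith)
  have hP := (h1.restr _ _ _ _ P).2.1 _ _ hM.p₁ isOpen_ball hBR
  obtain ⟨c1, c2, c3⟩ := cpt hs0 hP
  obtain ⟨i1, -, i2, i3⟩ := h1.conn _ _ X.hg X.hA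
  have cW : ∀ a, ContinuousOn (W a) (closedBall 0 s) := fun a => (hW.1 a).continuousOn.mono hcb
  have cT : ∀ a a', ContinuousOn (T a a') (closedBall 0 s) := fun a a' y hy =>
    (hTc y (hBR (hcb hy)) a a').continuousWithinAt
  have cV : ∀ b, ContinuousOn (fun y => ∑ c, T b c y * W c y) (closedBall 0 s) := fun b =>
    continuousOn_finsetSum _ fun c _ => (cT b c).mul (cW c)
  have hL : L2On (ball 0 s) W := fun a => l2 (cW a)
  have hV : L2On (ball 0 s) fun b y => ∑ c, T b c y * W c y := fun b => l2 (cV b)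
  have hk : L2On (ball 0 s) fun a y => ∑ b, T b a y * ∑ c, T b c y * W c y := fun a =>
    l2 (continuousOn_finsetSum _ fun b _ => (cT b a).mul (cV b))
  obtain ⟨-, r1, r2, -⟩ := h2.rep _ _ _ _ _ _ _ X.hg X.hA hP.toPar measurableSet_ball hsub
  obtain ⟨K, hK⟩ := r1 _ hk
  have hrun := h3.run X Γ (P.θ '' closedBall 0 s) K hΓ c1.isClosed c2 ?_ ?_ ?_
  rotate_left
  · refine i3 _ s gc Ac P i1 i2 hs0 hP ?_
    rintro _ ⟨y, hy, rfl⟩
    exact hP.int y hy
  · filter_upwards [r2 _ K hK] with x e2 hx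
    exact e2 fun h => hx (image_mono ball_subset_closedBall h)
  · intro F hF
    rw [hK, swap hk
      ((h2.l2 _ _ _ _ _ _ _ X.hg X.hA hP.toPar measurableSet_ball hsub).1 (X.hf F))]
    refine integral_eq_zero_of_ae ?_
    filter_upwards [ae_restrict_of_ae_restrict_of_subset (hsub.trans hBR)
      (ae_all_iff.2 (hM.eq F hF)), ae_restrict_mem measurableSet_ball] with y hy hy'
    have hyR := hBR (hsub hy')
    rw [alg2 (fun b a => T b a y)]
    refine Finset.sum_eq_zero fun b _ => mul_eq_zero_of_right _ ?_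
    have e := hy b
    simp only [Fr.pull] at e ⊢
    rw [← hθ hyR, ← sub_eq_zero, ← Finset.sum_sub_distrib] at e
    rw [hT]
    refine (alg (hM.p₁.orth y hyR) (fun e => P.S b e y - P'.S b e y) _).trans ?_
    simpa only [sub_mul] using e
  have hr2 := h3.run2 X _ K s gc Ac P _ W hs0 hP c3 hrun
    (fun ψ hψ => pair h1 h2 hs0 hP hK hψ) hW
  rw [swap hk hL] at hr2
  refine zero hV (Eq.trans (integral_congr_ae (Eventually.of_forall fun y => ?_)) hr2)
  exact (alg2 (fun b a => T b a y) _ fun a => W a y).symm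

end Vale.Agent.P088
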