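import Vale.Agent.P088.ManS

open MeasureTheory Set Metric Filter
open scoped ContDiff Topology InnerProductSpace Manifold Matrix

noncomputable section
namespace Vale.Agent.P088
open Vale.Agent.P136 (D Sm Tst)

variable {n : ℕ} [NeZero n] {M : Type} [TopologicalSpace M] [T2Space M] [CompactSpace M]
  [ConnectedSpace M] [ChartedSpace (EuclideanHalfSpace n) M] [IsManifold (𝓡∂ n) ∞ M]
  [MeasurableSpace M] [BorelSpace M] {ι : Type} [Fintype ι] [DecidableEq ι] [Nonempty ι]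

namespace ManSrc

omit [NeZero n] [DecidableEq ι] [Nonempty ι] in
theorem smV_app {L : Op n ι} (hL : L.Good) {ψ : ι → En n → ℝ} (h : SmV ψ) :
    SmV fun a y => -L.app ψ a y := fun a => by
  have h1 : Sm (dgd ee L.γ (ψ a)) :=
    ContDiff.sum (s := Finset.univ) (f := fun i => D (ee i) (XX ee L.γ (ψ a) i)) fun i _ =>
      P136.Sm.D (ContDiff.sum fun j _ => (hL.1 i j).mul ((h a).D (ee j))) (ee i)
  exact ((h1.add (ContDiff.sum fun i _ => ContDiff.sum fun a' _ =>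
    (hL.2.2.1 i a a').mul ((h a').D _))).add
      (ContDiff.sum fun a' _ => (hL.2.2.2.1 a a').mul (h a'))).neg

omit [NeZero n] [DecidableEq ι] [Nonempty ι] in
theorem neg_int (V : Set (En n)) (f h : ι → En n → ℝ) :
    ∑ a, ∫ y in V, -f a y * h a y = -∑ a, ∫ y in V, f a y * h a y := by
  simp only [neg_mul, integral_neg, Finset.sum_neg_distrib]

omit [T2Space M] [CompactSpace M] [ConnectedSpace M] [IsManifold (𝓡∂ n) ∞ M] [BorelSpace M]
  [DecidableEq ι] [Nonempty ι] in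
theorem rp_neg {g : Bil n M} {V : Set (En n)} {P : Fr n M ι} {f : ι → En n → ℝ} {K : LM ι g}
    (h : Rp V P (fun a y => -f a y) K) (K' : LM ι g) :
    ∑ a, ∫ y in V, P.pull (cm K') a y * f a y = -⟪K, K'⟫_ℝ := by
  rw [h K', neg_int, neg_neg]
  simp only [mul_comm]

omit [T2Space M] [CompactSpace M] [ConnectedSpace M] [IsManifold (𝓡∂ n) ∞ M] [BorelSpace M]
  [Nonempty ι] in
theorem exists_rp (hE : EAll) (h2 : B2 n M ι) (X : Sd n M ι) {Dm V : Set (En n)} {gc : MatF n}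
    {Ac : ConF n ι} {P : Fr n M ι} (hP : Par X.g X.A Dm gc Ac P) (hV : MeasurableSet V)
    (hs : V ⊆ Dm) {ψ : ι → En n → ℝ} (hψ : SmV ψ) :
    ∃ K : LM ι X.g, Rp V P (fun a y => -(cop gc Ac).app ψ a y) K :=
  (h2.rep X.g X.A Dm V gc Ac P X.hg X.hA hP hV hs).2.1 _
    ((hE.tl n ι V).2.2.2.2 hV (hP.bdd.subset hs) _ (smV_app (hE.cop n ι gc Ac hP.ga).1 hψ))

end ManSrc

open ManSrc in
omit [T2Space M] [CompactSpace M] [ConnectedSpace M] [IsManifold (𝓡∂ n) ∞ M] [BorelSpace M]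
  [Nonempty ι] in
theorem m_src (hE : EAll) (h1 : B1 n M ι) (h2 : B2 n M ι) : M_src n M ι := by
  intro X gc Ac P ψ
  have sym : ∀ F F', RSec n F → RSec n F' → rbil X.g X.A F F' = rbil X.g X.A F' F :=
    fun F F' hF hF' => ((h2.alg X.g X.A X.hg X.hA).2.2.2.2.2.2 F F' hF hF').2.2.2.2.2.2.2.1
  refine ⟨fun V hP hψ => ?_, fun R r hP hr hR hψ => ?_⟩
  · have mV := hP.isOpen.measurableSet
    have v0 := (h1.push2 X.g X.A gc Ac P ψ).1 V hP hψ
    have key : ∀ K : LM ι X.g, Rp V P (fun a y => -(cop gc Ac).app ψ a y) K → ∀ w, RSec n w →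
        rbil X.g X.A (P.push V ψ) w = ⟪K, tm X.g w⟫_ℝ := fun K hK w hw => by
      rw [((h2.green X.g X.A gc Ac P ψ X.hg X.hA).1 V hP hψ).2 w hw,
        (h2.l2 X.g X.A V V gc Ac P X.hg X.hA hP.toPar mV Subset.rfl).2.2.2.2 _ K w hK hw, neg_int]
    have gk : ∀ K : LM ι X.g, Rp V P (fun a y => -(cop gc Ac).app ψ a y) K →
        X.G K = tm X.g (P.push V ψ) := fun K hK => by
      rw [← (X.gp.src _ K v0.1 fun w hw => key K hK w hw.1).1, X.gp.dir _ v0]
    obtain ⟨Kp, hK⟩ := exists_rp hE h2 X hP.toPar mV Subset.rfl fun a => (hψ a).1.1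
    refine ⟨fun K => ?_, gk, fun F hF => ?_⟩
    · rw [rp_neg hK, ← X.gp.symm, gk Kp hK, real_inner_comm]
    · have e := (X.gp.src _ Kp v0.1 fun w hw => key Kp hK w hw.1).2 F hF
      rw [rdn_congr X.g X.A (F := F + P.push V ψ) (F' := F - P.push V ψ) fun x hx => by
        simp [v0.2 x hx], sub_self, zero_div, sym _ _ hF v0.1, key Kp hK F hF,
        real_inner_comm Kp] at e
      rw [rp_neg hK, Sd.hf, inner_sub_right, ← e, neg_zero]
  · have mV := (isOpen_Up (n := n) r).measurableSet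
    have hs : Up n r ⊆ Hb n R := (Up_sub_Hb r).trans (Hb_mono hR.le)
    have rs := ((h1.push2 X.g X.A gc Ac P ψ).2.1 r univ
      ((h1.restr X.g X.A gc Ac P).2.2.1 R r hP hr hR.le) hψ).1
    obtain ⟨g1, -, g3⟩ := (h2.green X.g X.A gc Ac P ψ X.hg X.hA).2 R r hP hr hR hψ
    obtain ⟨Kp, hK⟩ := exists_rp hE h2 X hP.toPar mV hs fun a => (hψ a).1.1
    obtain ⟨s1, s2⟩ := X.gp.src _ Kp rs fun w hw => by
      rw [g3 w hw, (h2.l2 X.g X.A _ _ gc Ac P X.hg X.hA hP.toPar mV hs).2.2.2.2 _ Kp w hK hw.1,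
        neg_int]
    refine ⟨fun K => ?_, fun F hF => ?_⟩
    · rw [rp_neg hK, ← X.gp.symm, ← s1, Sd.hf, inner_sub_right, real_inner_comm]
      ring
    · rw [s2 F hF, sym _ _ hF rs, g1 F hF, rp_neg hK, real_inner_comm, sub_eq_add_neg]

end Vale.Agent.P088
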