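import Vale.Agent.P088.ManS
import Vale.Agent.P088.IsoInter
import Vale.Agent.P088.IsoRig

open MeasureTheory Set Metric Filter
open scoped ContDiff Topology InnerProductSpace Manifold Matrix

noncomputable section
namespace Vale.Agent.P088
open Vale.Agent.P136 (D Sm Tst D_mul_at D_sum_at)

namespace ManTrans

section alg
variable {ι κ : Type} [Fintype ι] [DecidableEq ι] [Fintype κ]

omit [DecidableEq ι] in
theorem alg1 (S dS T B : Matrix ι ι ℝ) (dT C A : κ → Matrix ι ι ℝ) (J : κ → ℝ)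
    (h1 : dS + B * S = ∑ k, J k • (S * C k)) (h2 : ∀ k, dT k + C k * T = T * A k) :
    (S * ∑ k, J k • dT k + dS * T) + B * (S * T) = (S * T) * ∑ k, J k • A k := by
  have e1 : dS * T + B * (S * T) = ∑ k, J k • (S * (C k * T)) := by
    rw [← Matrix.mul_assoc, ← Matrix.add_mul, h1, Matrix.sum_mul]
    simp only [Matrix.smul_mul, Matrix.mul_assoc]
  rw [add_assoc, e1, Matrix.mul_sum, Matrix.mul_sum, ← Finset.sum_add_distrib]
  refine Finset.sum_congr rfl fun k _ => ?_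
  rw [Matrix.mul_smul, Matrix.mul_smul, ← smul_add, ← Matrix.mul_add, h2, Matrix.mul_assoc]

omit [DecidableEq ι] in
theorem alg2 (S dS T B : Matrix ι ι ℝ) (dT C A : κ → Matrix ι ι ℝ) (J : κ → ℝ)
    (h1 : dS + B * S = S * ∑ k, J k • A k) (h2 : ∀ k, dT k + C k * T = T * A k)
    (hA : ∀ k, (A k)ᵀ = -A k) (hC : ∀ k, (C k)ᵀ = -C k) :
    (S * (∑ k, J k • dT k)ᵀ + dS * Tᵀ) + B * (S * Tᵀ) = ∑ k, J k • (S * Tᵀ * C k) := by
  have e1 : dS * Tᵀ + B * (S * Tᵀ) = ∑ k, J k • (S * (A k * Tᵀ)) := by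
    rw [← Matrix.mul_assoc, ← Matrix.add_mul, h1, Matrix.mul_sum, Matrix.sum_mul]
    simp only [Matrix.smul_mul, Matrix.mul_smul, Matrix.mul_assoc]
  rw [add_assoc, e1, Matrix.transpose_sum, Matrix.mul_sum, ← Finset.sum_add_distrib]
  refine Finset.sum_congr rfl fun k _ => ?_
  have e2 : (dT k)ᵀ + A k * Tᵀ = Tᵀ * C k := by
    have h3 := congrArg Matrix.transpose (h2 k)
    rw [Matrix.transpose_add, Matrix.transpose_mul, Matrix.transpose_mul, hA, hC,
      Matrix.mul_neg, Matrix.neg_mul] at h3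
    rw [eq_sub_of_add_eq h3]
    abel
  rw [Matrix.transpose_smul, Matrix.mul_smul, ← smul_add, ← Matrix.mul_add, e2, Matrix.mul_assoc]

theorem orth_iff (S : ι → ι → ℝ) :
    (∀ a a', ∑ e, S e a * S e a' = if a = a' then 1 else 0) ↔
      (Matrix.of S)ᵀ * Matrix.of S = 1 := by
  rw [← Matrix.ext_iff]
  simp only [Matrix.mul_apply, Matrix.transpose_apply, Matrix.of_apply, Matrix.one_apply]

theorem lin_sum {V W : Type} [AddCommGroup V] [Module ℝ V] [AddCommGroup W] [Module ℝ W]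
    (G : V →ₗ[ℝ] W) (a : κ → ℝ) (v : κ → V) : G (∑ k, a k • v k) = ∑ k, a k • G (v k) := by
  simp only [map_sum, map_smul]

theorem bil_sum {V : Type} [AddCommGroup V] [Module ℝ V] (G : V →ₗ[ℝ] V →ₗ[ℝ] ℝ)
    (a b : κ → ℝ) (v : κ → V) :
    G (∑ k, a k • v k) (∑ l, b l • v l) = ∑ k, ∑ l, G (v k) (v l) * a k * b l := by
  rw [lin_sum G, LinearMap.sum_apply]
  refine Finset.sum_congr rfl fun k _ => ?_
  rw [LinearMap.smul_apply, lin_sum, Finset.smul_sum]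
  exact Finset.sum_congr rfl fun l _ => by simp only [smul_eq_mul]; ring

end alg

variable {n : ℕ} [NeZero n] {M : Type} [TopologicalSpace M]
  [ChartedSpace (EuclideanHalfSpace n) M] {ι : Type} [Fintype ι] [DecidableEq ι]

theorem dth_comp {θ θ' : En n → M} {Dm D' : Set (En n)} {Φ : En n → En n} {y : En n}
    (hθ : ContMDiffOn 𝓘(ℝ, En n) (𝓡∂ n) ∞ θ Dm) (hΦ : DifferentiableAt ℝ Φ y)
    (hu : UniqueDiffWithinAt ℝ D' y) (hy : y ∈ D') (hm : MapsTo Φ D' Dm)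
    (he : ∀ z ∈ D', θ' z = θ (Φ z)) (i : Fin n) :
    (dth θ' D' y i : En n) =
      ∑ k, D (ee i) (fun z => Φ z k) y • (dth θ Dm (Φ y) k : En n) := by
  have h1 : MDifferentiableWithinAt 𝓘(ℝ, En n) (𝓡∂ n) θ Dm (Φ y) :=
    (hθ _ (hm hy)).mdifferentiableWithinAt (by simp)
  have h2 : MDifferentiableWithinAt 𝓘(ℝ, En n) 𝓘(ℝ, En n) Φ D' y :=
    hΦ.mdifferentiableAt.mdifferentiableWithinAt
  have h3 := mfderivWithin_comp y h1 h2 hm hu.uniqueMDiffWithinAt
  have h4 : mfderivWithin 𝓘(ℝ, En n) (𝓡∂ n) θ' D' y =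
      mfderivWithin 𝓘(ℝ, En n) (𝓡∂ n) (θ ∘ Φ) D' y := mfderivWithin_congr he (he y hy)
  have h5 : mfderivWithin 𝓘(ℝ, En n) 𝓘(ℝ, En n) Φ D' y = fderiv ℝ Φ y := by
    rw [mfderivWithin_eq_fderivWithin, hΦ.fderivWithin hu]
  let L : En n →L[ℝ] En n := mfderivWithin 𝓘(ℝ, En n) (𝓡∂ n) θ Dm (Φ y)
  have h6 : (dth θ' D' y i : En n) = L (fderiv ℝ Φ y (ee i)) := by
    unfold dth
    rw [h4, h3, h5]
    rfl
  rw [h6, IsoRig.sum_ee (fderiv ℝ Φ y (ee i)), map_sum]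
  refine Finset.sum_congr rfl fun k _ => ?_
  rw [map_smul, IsoInter.fd_apply hΦ]
  rfl

theorem g_tr (g : Bil n M) {x x' : M} (h : x = x') (v w : En n) : g x v w = g x' v w := by
  subst h; rfl

omit [Fintype ι] [DecidableEq ι] in
theorem A_tr (A : RForm n M ι) {x x' : M} (h : x = x') (v : En n) : A x v = A x' v := by
  subst h; rfl

theorem g_comp (g : Bil n M) {θ θ' : En n → M} {Dm D' : Set (En n)} {Φ : En n → En n} {y : En n}
    (hθ : ContMDiffOn 𝓘(ℝ, En n) (𝓡∂ n) ∞ θ Dm) (hΦ : DifferentiableAt ℝ Φ y)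
    (hu : UniqueDiffWithinAt ℝ D' y) (hy : y ∈ D') (hm : MapsTo Φ D' Dm)
    (he : ∀ z ∈ D', θ' z = θ (Φ z)) (i j : Fin n) :
    g (θ' y) (dth θ' D' y i) (dth θ' D' y j) =
      ∑ k, ∑ l, g (θ (Φ y)) (dth θ Dm (Φ y) k) (dth θ Dm (Φ y) l) *
        D (ee i) (fun z => Φ z k) y * D (ee j) (fun z => Φ z l) y := by
  refine (g_tr g (he y hy) _ _).trans (Eq.trans ?_ (bil_sum (g (θ (Φ y))) _ _ _))
  exact congrArg₂ (fun v w : En n => g (θ (Φ y)) v w) (dth_comp hθ hΦ hu hy hm he i)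
    (dth_comp hθ hΦ hu hy hm he j)

omit [Fintype ι] [DecidableEq ι] in
theorem A_comp (A : RForm n M ι) {θ θ' : En n → M} {Dm D' : Set (En n)} {Φ : En n → En n}
    {y : En n} (hθ : ContMDiffOn 𝓘(ℝ, En n) (𝓡∂ n) ∞ θ Dm) (hΦ : DifferentiableAt ℝ Φ y)
    (hu : UniqueDiffWithinAt ℝ D' y) (hy : y ∈ D') (hm : MapsTo Φ D' Dm)
    (he : ∀ z ∈ D', θ' z = θ (Φ z)) (i : Fin n) :
    A (θ' y) (dth θ' D' y i) =
      ∑ k, D (ee i) (fun z => Φ z k) y • A (θ (Φ y)) (dth θ Dm (Φ y) k) := by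
  refine (A_tr A (he y hy) _).trans (Eq.trans ?_ (lin_sum (A (θ (Φ y))) _ _))
  exact congrArg (fun v : En n => A (θ (Φ y)) v) (dth_comp hθ hΦ hu hy hm he i)

omit [NeZero n] [DecidableEq ι] in
/-- Derivative of a product of a gauge with a pulled back gauge. -/
theorem D_prod {S T : ι → En n → ℝ} {Φ : En n → En n} {y : En n}
    (hS : ∀ e, ContDiffAt ℝ ∞ (S e) y) (hT : ∀ e, ContDiffAt ℝ ∞ (T e) (Φ y))
    (hΦ : ContDiffAt ℝ ∞ Φ y) (i : Fin n) :
    D (ee i) (fun z => ∑ e, S e z * T e (Φ z)) y =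
      ∑ e, S e y * ∑ k, D (ee i) (fun z => Φ z k) y * D (ee k) (T e) (Φ y) +
        ∑ e, D (ee i) (S e) y * T e (Φ y) := by
  have hc : ∀ e, ContDiffAt ℝ ∞ (fun z => T e (Φ z)) y := fun e => (hT e).comp y hΦ
  rw [D_sum_at _ fun e _ => IsoInter.dA ((hS e).mul (hc e)), ← Finset.sum_add_distrib]
  refine Finset.sum_congr rfl fun e _ => ?_
  rw [D_mul_at (IsoInter.dA (hS e)) (IsoInter.dA (hc e)),
    IsoInter.chain (IsoInter.dA hΦ) (IsoInter.dA (hT e))]
  rfl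

theorem con_mat {g : Bil n M} {A : RForm n M ι} {Dm : Set (En n)} {gc : MatF n} {Ac : ConF n ι}
    {P : Fr n M ι} (h : Par0 g A Dm gc Ac P) {y : En n} (hy : y ∈ Dm) (k : Fin n) :
    (Matrix.of fun a b => D (ee k) (P.S a b) y) +
      (Matrix.of fun a b => Ac k a b y) * (Matrix.of fun a b => P.S a b y) =
      (Matrix.of fun a b => P.S a b y) * A (P.θ y) (dth P.θ Dm y k) := by
  ext a b
  exact h.con y hy k a b

theorem comp0 {g : Bil n M} {A : RForm n M ι} {Dm D' : Set (En n)} {gc gc' : MatF n}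
    {Ac Ac' : ConF n ι} {P : Fr n M ι} {Φ : En n → En n} (Ψ : En n → En n)
    {S : ι → ι → En n → ℝ} (hP : Par0 g A Dm gc Ac P) (hu : UniqueDiffOn ℝ D')
    (hm : MeasurableSet D') (hb : Bornology.IsBounded D') (hga : GA gc' Ac')
    (hI : Iso gc Ac gc' Ac' D' Φ S) (hΦ : ∀ y ∈ D', ContDiffAt ℝ ∞ Φ y)
    (hS : ∀ y ∈ D', ∀ a a', ContDiffAt ℝ ∞ (S a a') y) (hmap : MapsTo Φ D' Dm) :
    Par0 g A D' gc' Ac' (P.comp Φ Ψ S) where
  uniq := hu
  meas := hm
  bdd := hb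
  smθ := hP.smθ.comp (contMDiffOn_iff_contDiffOn.2 hI.1) hmap
  ga := hga
  smS := fun y hy a b => ContDiffAt.sum fun e _ =>
    (hS y hy a e).mul ((hP.smS _ (hmap hy) e b).comp y (hΦ y hy))
  orth := fun y hy => by
    have h1 := (orth_iff fun a b => S a b y).1 (hI.2.2 y hy).1
    have h2 := (orth_iff fun a b => P.S a b (Φ y)).1 (hP.orth _ (hmap hy))
    refine (orth_iff fun a b => (P.comp Φ Ψ S).S a b y).2 ?_
    have e : (Matrix.of fun a b => (P.comp Φ Ψ S).S a b y) =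
        (Matrix.of fun a b => S a b y) * Matrix.of fun a b => P.S a b (Φ y) := rfl
    rw [e, Matrix.transpose_mul, Matrix.mul_assoc, ← Matrix.mul_assoc _ (Matrix.of _), h1,
      Matrix.one_mul, h2]
  met := fun y hy i j => by
    rw [(hI.2.2 y hy).2.1 i j, g_comp g hP.smθ (IsoInter.dA (hΦ y hy)) (hu y hy) hy hmap
      (θ' := (P.comp Φ Ψ S).θ) (fun _ _ => rfl)]
    simp only [hP.met _ (hmap hy)]
  con := fun y hy i a b => by
    have h1 : (Matrix.of fun a b => D (ee i) (S a b) y) +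
        (Matrix.of fun a b => Ac' i a b y) * (Matrix.of fun a b => S a b y) =
        ∑ k, D (ee i) (fun z => Φ z k) y •
          ((Matrix.of fun a b => S a b y) * Matrix.of fun a b => Ac k a b (Φ y)) := by
      ext a b
      refine ((hI.2.2 y hy).2.2 i a b).trans ?_
      simp only [Matrix.sum_apply, Matrix.smul_apply, Matrix.mul_apply, Matrix.of_apply,
        smul_eq_mul, Finset.mul_sum]
      exact Finset.sum_congr rfl fun k _ => Finset.sum_congr rfl fun e _ => by ring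
    have h2 := alg1 _ _ _ _ _ _ _ _ h1 (con_mat hP (hmap hy))
    rw [← A_comp A hP.smθ (IsoInter.dA (hΦ y hy)) (hu y hy) hy hmap
      (θ' := (P.comp Φ Ψ S).θ) (fun _ _ => rfl)] at h2
    have h3 := D_prod (S := fun e => S a e) (T := fun e => P.S e b) (fun e => hS y hy a e)
      (fun e => hP.smS _ (hmap hy) e b) (hΦ y hy) i
    have h4 := congrFun (congrFun h2 a) b
    simp only [Matrix.add_apply, Matrix.sum_apply, Matrix.smul_apply, Matrix.mul_apply,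
      Matrix.of_apply, smul_eq_mul] at h4
    rw [← h3] at h4
    exact h4

theorem trans {g : Bil n M} {A : RForm n M ι} {D₁ V : Set (En n)} {gc₁ gc : MatF n}
    {Ac₁ Ac : ConF n ι} {P₁ P : Fr n M ι} (hA : IsSkewConn A) (h₁ : Par g A D₁ gc₁ Ac₁ P₁)
    (h : IP g A V gc Ac P) (hsub : P.θ '' V ⊆ P₁.θ '' D₁) :
    Iso gc₁ Ac₁ gc Ac V (P₁.tau P) (P₁.tauS P) ∧ InjOn (P₁.tau P) V ∧
      MapsTo (P₁.tau P) V D₁ ∧ ∀ y ∈ V, P₁.θ (P₁.tau P y) = P.θ y ∧
        (∀ a b, P.S a b y = ∑ e, P₁.tauS P a e y * P₁.S e b (P₁.tau P y)) ∧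
        ∀ F a, P.pull F a y = ∑ b, P₁.tauS P a b y * P₁.pull F b (P₁.tau P y) := by
  have hk : ∀ y ∈ V, P₁.tau P y ∈ D₁ ∧ P₁.θ (P₁.tau P y) = P.θ y := by
    intro y hy
    obtain ⟨z, hz, e⟩ := hsub ⟨y, hy, rfl⟩
    have : P₁.tau P y = z := by rw [Fr.tau, ← e, h₁.linv z hz]
    rw [this]
    exact ⟨hz, e⟩
  have hmap : MapsTo (P₁.tau P) V D₁ := fun y hy => (hk y hy).1
  have hτ : ContDiffOn ℝ ∞ (P₁.tau P) V :=
    contMDiffOn_iff_contDiffOn.1 (h₁.smκ.comp h.smθ fun y hy => hsub ⟨y, hy, rfl⟩)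
  have hτa : ∀ y ∈ V, ContDiffAt ℝ ∞ (P₁.tau P) y := fun y hy =>
    hτ.contDiffAt (h.isOpen.mem_nhds hy)
  have eT : ∀ y, (Matrix.of fun a b => P₁.tauS P a b y) =
      (Matrix.of fun a b => P.S a b y) * (Matrix.of fun a b => P₁.S a b (P₁.tau P y))ᵀ :=
    fun y => rfl
  have hS : ∀ y ∈ V, ∀ a b, P.S a b y = ∑ e, P₁.tauS P a e y * P₁.S e b (P₁.tau P y) := by
    intro y hy a b
    have h2 := (orth_iff fun a b => P₁.S a b (P₁.tau P y)).1 (h₁.orth _ (hmap hy))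
    have h3 : (Matrix.of fun a b => P₁.tauS P a b y) *
        (Matrix.of fun a b => P₁.S a b (P₁.tau P y)) = Matrix.of fun a b => P.S a b y := by
      rw [eT, Matrix.mul_assoc, h2, Matrix.mul_one]
    exact (congrFun (congrFun h3 a) b).symm
  refine ⟨⟨hτ, fun a b y hy => ?_, fun y hy => ⟨?_, fun i j => ?_, fun i a b => ?_⟩⟩,
    fun y hy y' hy' e => ?_, hmap, fun y hy => ⟨(hk y hy).2, hS y hy, fun F a => ?_⟩⟩
  · exact (ContDiffAt.sum fun e _ => (h.smS y hy a e).mul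
      ((h₁.smS _ (hmap hy) b e).comp y (hτa y hy))).contDiffWithinAt
  · have h1 := (orth_iff fun a b => P.S a b y).1 (h.orth y hy)
    have h2 := (orth_iff fun a b => P₁.S a b (P₁.tau P y)).1 (h₁.orth _ (hmap hy))
    refine (orth_iff fun a b => P₁.tauS P a b y).2 ?_
    rw [eT, Matrix.transpose_mul, Matrix.transpose_transpose, Matrix.mul_assoc,
      ← Matrix.mul_assoc _ (Matrix.of _), h1, Matrix.one_mul]
    exact mul_eq_one_comm.1 h2
  · rw [h.met y hy i j, g_comp g h₁.smθ (IsoInter.dA (hτa y hy)) (h.uniq y hy) hy hmap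
      (fun z hz => (hk z hz).2.symm)]
    simp only [h₁.met _ (hmap hy)]
  · have h1 := con_mat h.toPar0 hy i
    rw [A_comp A h₁.smθ (IsoInter.dA (hτa y hy)) (h.uniq y hy) hy hmap
      (fun z hz => (hk z hz).2.symm)] at h1
    have h2 := alg2 _ _ _ _ _ _ _ _ h1 (con_mat h₁.toPar0 (hmap hy)) (fun k => hA.1 _ _)
      (fun k => by
        ext a b
        exact h₁.ga.2.2.2.2 k b a _)
    have h3 := D_prod (S := fun e => P.S a e) (T := fun e => P₁.S b e) (fun e => h.smS y hy a e)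
      (fun e => h₁.smS _ (hmap hy) b e) (hτa y hy) i
    rw [← eT] at h2
    have h4 := congrFun (congrFun h2 a) b
    simp only [Matrix.add_apply, Matrix.sum_apply, Matrix.smul_apply, Matrix.mul_apply,
      Matrix.of_apply, smul_eq_mul, Matrix.transpose_apply] at h4
    rw [← h3] at h4
    refine h4.trans ?_
    simp only [Finset.mul_sum]
    exact Finset.sum_congr rfl fun k _ => Finset.sum_congr rfl fun e _ => by ring
  · have e1 : P.θ y = P.θ y' := by rw [← (hk y hy).2, ← (hk y' hy').2, e]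
    rw [← h.linv y hy, e1, h.linv y' hy']
  · simp only [Fr.pull, (hk y hy).2, hS y hy, Finset.sum_mul, Finset.mul_sum, mul_assoc]
    exact Finset.sum_comm

end ManTrans

variable {n : ℕ} [NeZero n] {M : Type} [TopologicalSpace M] [T2Space M] [CompactSpace M]
  [ConnectedSpace M] [ChartedSpace (EuclideanHalfSpace n) M] [IsManifold (𝓡∂ n) ∞ M]
  [MeasurableSpace M] [BorelSpace M] {ι : Type} [Fintype ι] [DecidableEq ι] [Nonempty ι]

theorem m_trans : M_trans n M ι :=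
  fun _ _ _ _ _ _ _ _ _ _ hA h₁ h hsub => ManTrans.trans hA h₁ h hsub

theorem m_comp0 : M_comp0 n M ι :=
  fun _ _ _ _ _ _ _ _ _ _ Ψ _ hP hu hm hb hga hI hΦ hS hmap =>
    ManTrans.comp0 Ψ hP hu hm hb hga hI hΦ hS hmap

end Vale.Agent.P088
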