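import Vale.Agent.P088.ManS

open MeasureTheory Set Metric Filter
open scoped ContDiff Topology InnerProductSpace Manifold Matrix

noncomputable section
namespace Vale.Agent.P088
open Vale.Agent.P136 (D Sm Tst)

variable {n : ℕ} [NeZero n] {M : Type} [TopologicalSpace M] [T2Space M] [CompactSpace M]
  [ConnectedSpace M] [ChartedSpace (EuclideanHalfSpace n) M] [IsManifold (𝓡∂ n) ∞ M]
  [MeasurableSpace M] [BorelSpace M] {ι : Type} [Fintype ι] [DecidableEq ι] [Nonempty ι]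

theorem m_ucpm (hE : EAll) (h1 : B1 n M ι) (h2 : B2 n M ι) : M_ucpm n M ι := by
  intro g A O N W hg hA hO hOc hloc hN hNe hNO hW
  set Z : Set M := {x | ∃ N', IsOpen N' ∧ x ∈ N' ∧ ∀ᵐ z ∂(vol g), z ∈ N' → W z = 0} with hZ
  have hZo : IsOpen Z := isOpen_iff_forall_mem_open.2 fun x ⟨N', a1, a2, a3⟩ =>
    ⟨N', fun z hz => ⟨N', a1, hz, a3⟩, a1, a2⟩
  have hOZ : O ⊆ Z := by
    refine hOc.subset_of_closure_inter_subset hZo ?_ ?_
    · obtain ⟨x, hx⟩ := hNe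
      exact ⟨x, hNO hx, N, hN, hx, hW⟩
    · rintro x ⟨hxc, hxO⟩
      obtain ⟨V, gc, Ac, P, hP, ⟨y, hy, rfl⟩, hws⟩ := hloc x hxO
      obtain ⟨d, hd, hdV⟩ := Metric.isOpen_iff.1 hP.isOpen y hy
      have hB : IP g A (ball y d) gc Ac P := (h1.restr g A gc Ac P).2.1 V _ hP isOpen_ball hdV
      obtain ⟨z, ⟨y', hy', rfl⟩, N', hN', hzN', hW'⟩ :=
        mem_closure_iff.1 hxc _ hB.opn ⟨y, mem_ball_self hd, rfl⟩
      have hopen : IsOpen (ball y d ∩ P.θ ⁻¹' N') :=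
        hB.smθ.continuousOn.isOpen_inter_preimage isOpen_ball hN'
      have h3 := ((h2.l2 g A _ (ball y d ∩ P.θ ⁻¹' N') gc Ac P hg hA hB.toPar
        hopen.measurableSet inter_subset_left).2.2.2.1 W).2 (by
          filter_upwards [hW'] with w hw ⟨u, hu, e⟩
          exact hw (e ▸ hu.2))
      have h4 := hE.wucp n ι gc Ac (ball y d) _ (P.pull W) hP.ga isOpen_ball
        (convex_ball y d).isPreconnected
        ((hE.ws n ι gc Ac V _ hP.ga hP.isOpen hws).1 _ isOpen_ball hdV) hopen ⟨y', hy', hzN'⟩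
        inter_subset_left h3
      exact ⟨_, hB.opn, ⟨y, mem_ball_self hd, rfl⟩,
        ((h2.l2 g A _ _ gc Ac P hg hA hB.toPar measurableSet_ball subset_rfl).2.2.2.1 W).1 h4⟩
  have : SecondCountableTopology (EuclideanHalfSpace n) :=
    inferInstanceAs (SecondCountableTopology {x : En n // 0 ≤ x 0})
  have : SecondCountableTopology M :=
    ChartedSpace.secondCountable_of_sigmaCompact (EuclideanHalfSpace n) M
  rw [ae_iff]
  apply measure_null_of_locally_null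
  intro x hx
  have hx' : x ∈ O := by
    by_contra h0
    exact hx fun h => absurd h h0
  obtain ⟨N', hN', hxN', hW'⟩ := hOZ hx'
  refine ⟨{z | ¬(z ∈ N' → W z = 0)}, ?_, ae_iff.1 hW'⟩
  filter_upwards [nhdsWithin_le_nhds (hN'.mem_nhds hxN'), self_mem_nhdsWithin] with z hz hz'
  exact fun h => hz' fun _ => h hz

theorem m_run (hE : EAll) (h1 : B1 n M ι) (h2 : B2 n M ι) (src : M_src n M ι)
    (ucpm : M_ucpm n M ι) : M_run n M ι := by
  intro X Γ Z K hΓ hZ hZi hc hK hF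
  obtain ⟨⟨p, hp⟩, O, hO, hΓO⟩ := hΓ
  have hpO : p ∈ O ∩ bdM n M := hΓO ▸ hp
  have hpZ : p ∉ Z := fun h => int_iff_not_bd.1 (hZi h) hpO.2
  obtain ⟨R, θ, κ, hθ0, hθO, hBP⟩ :=
    h1.xb p hpO.2 (O ∩ Zᶜ) (hO.inter hZ.isOpen_compl) ⟨hpO.1, hpZ⟩
  obtain ⟨gc, Ac, hP⟩ := hBP X.g X.A X.hg X.hA
  set P : Fr n M ι := ⟨θ, κ, oneS n ι⟩ with hPd
  have hθO' : P.θ '' Hb n R ⊆ O ∩ Zᶜ := hθO
  clear_value P
  have halg := h2.alg X.g X.A X.hg X.hA
  have key : ∀ F, RSec n F → (∀ x ∈ Z, F x = 0) → ⟪K, tm X.g F⟫_ℝ = 0 := by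
    intro F hs h0
    rw [halg.2.2.2.2.1]
    refine integral_eq_zero_of_ae ?_
    filter_upwards [hK, (halg.2.2.2.2.2.2 F F hs hs).2.2.2.2.2.1] with x a1 a2
    rw [a2]
    by_cases hx : x ∈ Z
    · simp [h0 x hx]
    · simp [a1 hx]
  have hpush : ∀ (P' : Fr n M ι) (Dm : Set (En n)) (ψ : ι → En n → ℝ), P'.θ '' Dm ⊆ Zᶜ →
      ∀ x ∈ Z, P'.push Dm ψ x = 0 := by
    intro P' Dm ψ hs x hx
    funext a
    have : x ∉ P'.θ '' Dm := fun h => hs h hx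
    simp only [Fr.push, if_neg this, Pi.zero_apply]
  have hR := hP.pos
  have hr : 0 < R / 2 := half_pos hR
  have hrR : R / 2 < R := half_lt_self hR
  have hPr : BP X.g X.A (R / 2) gc Ac P := (h1.restr X.g X.A gc Ac P).2.2.1 R _ hP hr hrR.le
  have hUH : Up n (R / 2) ⊆ Hb n R := (Up_sub_Hb _).trans (Hb_mono hrR.le)
  have hl2 := h2.l2 X.g X.A _ (Up n (R / 2)) gc Ac P X.hg X.hA hP.toPar
    (isOpen_Up _).measurableSet hUH
  have hz : ∀ a, P.pull (cm (X.G K)) a =ᵐ[volume.restrict (Up n (R / 2))] 0 := by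
    refine hE.z0 n ι gc Ac (R / 2) _ hP.ga (hl2.1 _) fun ψ hψ => ?_
    obtain ⟨hs, ha⟩ := (h1.push2 X.g X.A gc Ac P ψ).2.1 (R / 2) Γ hPr hψ
    rw [((src X gc Ac P ψ).2 R (R / 2) hP hr hrR hψ).1 K, hF _ (ha fun y hy h0 => ?_),
      key _ hs (hpush _ _ _ fun x hx => (hθO' (image_mono (Hb_mono hrR.le) hx)).2), sub_zero]
    rw [hΓO]
    exact ⟨(hθO' ⟨y, Hb_mono hrR.le hy, rfl⟩).1, (hPr.bd y hy).2 h0⟩
  have hI : IP X.g X.A (Up n (R / 2)) gc Ac P :=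
    (h1.restr X.g X.A gc Ac P).2.2.2.1 R _ hP (isOpen_Up _) (Up_mono hrR.le)
  refine ucpm X.g X.A (intM n M \ Z) (P.θ '' Up n (R / 2)) (cm (X.G K)) X.hg X.hA
    ((h1.conn X.g X.A X.hg X.hA).1.sdiff hZ) hc (fun x hx => ?_) hI.opn
    ((Up_nonempty hr).image _) ?_ ((hl2.2.2.2.1 _).1 hz)
  · obtain ⟨R', gc', Ac', P', hR', hI', h0⟩ := h1.xi X.g X.A X.hg X.hA x hx.1
    have hVo : IsOpen (ball (0 : En n) R' ∩ P'.θ ⁻¹' Zᶜ) :=
      hI'.smθ.continuousOn.isOpen_inter_preimage isOpen_ball hZ.isOpen_compl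
    have hV : IP X.g X.A (ball (0 : En n) R' ∩ P'.θ ⁻¹' Zᶜ) gc' Ac' P' :=
      (h1.restr X.g X.A gc' Ac' P').2.1 _ _ hI' hVo inter_subset_left
    refine ⟨_, gc', Ac', P', hV, ⟨0, ⟨mem_ball_self hR', ?_⟩, h0⟩,
      (h2.l2 X.g X.A _ _ gc' Ac' P' X.hg X.hA hV.toPar hVo.measurableSet subset_rfl).1 _,
      fun ψ hψ => ?_⟩
    · rw [mem_preimage, h0]
      exact hx.2
    · rw [((src X gc' Ac' P' ψ).1 _ hV hψ).1 K,
        key _ ((h1.push2 X.g X.A gc' Ac' P' ψ).1 _ hV hψ).1 (hpush _ _ _ ?_), neg_zero]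
      rintro _ ⟨y, hy, rfl⟩
      exact hy.2
  · rintro _ ⟨y, hy, rfl⟩
    exact ⟨hI.int y hy, (hθO' ⟨y, hUH hy, rfl⟩).2⟩

end Vale.Agent.P088
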