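import Vale.Agent.P088.ManS

open MeasureTheory Set Metric Filter
open scoped ContDiff Topology InnerProductSpace Manifold Matrix

noncomputable section
namespace Vale.Agent.P088
open Vale.Agent.P136 (D Sm Tst)

variable {n : ℕ} [NeZero n] {M : Type} [TopologicalSpace M] [T2Space M] [CompactSpace M]
  [ConnectedSpace M] [ChartedSpace (EuclideanHalfSpace n) M] [IsManifold (𝓡∂ n) ∞ M]
  [MeasurableSpace M] [BorelSpace M] {ι : Type} [Fintype ι] [DecidableEq ι] [Nonempty ι]

namespace ManVol

theorem restr_eq {X Y : Type} [MeasurableSpace X] [MeasurableSpace Y] {μ : Measure Y}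
    {ν : Measure X} {θ : X → Y} {Dm V : Set X} (hD : MeasurableSet Dm) (hV : MeasurableSet V)
    (hVD : V ⊆ Dm) (hi : InjOn θ Dm) (hm : AEMeasurable θ (ν.restrict Dm))
    (he : MeasurableEmbedding (V.domRestrict θ))
    (h : μ.restrict (θ '' Dm) = Measure.map θ (ν.restrict Dm)) :
    μ.restrict (θ '' V) = Measure.map (V.domRestrict θ) (ν.comap Subtype.val) := by
  have hmV : MeasurableSet (θ '' V) := by
    rw [← range_domRestrict]; exact he.measurableSet_range
  ext s hs
  have h1 : μ.restrict (θ '' Dm) (s ∩ θ '' V) = μ (s ∩ θ '' V) := by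
    rw [Measure.restrict_apply (hs.inter hmV), inter_eq_left.2
      (inter_subset_right.trans (image_mono hVD))]
  rw [Measure.restrict_apply hs, ← h1, h, Measure.map_apply_of_aemeasurable hm (hs.inter hmV),
    Measure.restrict_apply' hD, he.map_apply, comap_subtype_coe_apply hV]
  congr 1
  ext y
  constructor
  · rintro ⟨⟨h2, z, hz, h3⟩, h4⟩
    have : z = y := hi (hVD hz) h4 h3
    subst this
    exact ⟨⟨z, hz⟩, h2, rfl⟩
  · rintro ⟨⟨z, hz⟩, h2, rfl⟩
    exact ⟨⟨h2, z, hz, rfl⟩, hVD hz⟩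

theorem dens_le {X : Type} [MeasurableSpace X] {κ : Measure X} {w : X → ℝ} {c : ℝ} (hc : 0 < c)
    (h : ∀ᵐ y ∂κ, c ≤ w y ∧ c * w y ≤ 1) :
    κ.withDensity (fun y => ENNReal.ofReal (w y)) ≤ ENNReal.ofReal c⁻¹ • κ ∧
      κ ≤ ENNReal.ofReal c⁻¹ • κ.withDensity fun y => ENNReal.ofReal (w y) := by
  constructor
  · rw [← withDensity_const]
    refine withDensity_mono (h.mono fun y hy => ENNReal.ofReal_le_ofReal ?_)
    rw [← one_div, le_div_iff₀ hc, mul_comm]
    exact hy.2
  · have h1 : ENNReal.ofReal c • κ ≤ κ.withDensity fun y => ENNReal.ofReal (w y) := by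
      rw [← withDensity_const]
      exact withDensity_mono (h.mono fun y hy => ENNReal.ofReal_le_ofReal hy.1)
    intro s
    have h2 := h1 s
    rw [Measure.smul_apply, smul_eq_mul] at h2 ⊢
    calc κ s = ENNReal.ofReal c⁻¹ * (ENNReal.ofReal c * κ s) := by
          rw [← mul_assoc, ← ENNReal.ofReal_mul (by positivity), inv_mul_cancel₀ hc.ne',
            ENNReal.ofReal_one, one_mul]
      _ ≤ _ := by gcongr

end ManVol

theorem m_vol (hE : EAll) (vol0 : M_vol0 n M ι) : M_vol n M ι := by
  intro g A Dm V gc Ac P hg hP hV hVD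
  have h0 := vol0 g A Dm gc Ac P hg hP
  obtain ⟨hs, hpos, -, -, -, -, -, hc⟩ := hE.eden n ι gc Ac hP.ga
  obtain ⟨R, hR⟩ := hP.bdd.subset_closedBall (0 : En n)
  obtain ⟨c, hc0, hc⟩ := hc R
  have hsm : Measurable (sdet gc) := (ContDiff.continuous hs).measurable
  have hi : InjOn P.θ Dm := LeftInvOn.injOn (f₁' := P.κ) hP.linv
  have hct : ContinuousOn P.θ Dm := hP.smθ.continuousOn
  have he : MeasurableEmbedding (V.domRestrict P.θ) :=
    (hct.mono hVD).measurableEmbedding hV (hi.mono hVD)
  have hmV : MeasurableSet (P.θ '' V) := by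
    rw [← range_domRestrict]; exact he.measurableSet_range
  have hv : MeasurableEmbedding (Subtype.val : V → En n) := MeasurableEmbedding.subtype_coe hV
  rw [← restrict_withDensity hP.meas] at h0
  have h1 := ManVol.restr_eq hP.meas hV hVD hi (hct.aemeasurable hP.meas) he h0
  have h2 := map_comap_subtype_coe hV (volume.withDensity fun y => ENNReal.ofReal (sdet gc y))
  rw [restrict_withDensity hV] at h2
  generalize Measure.comap (Subtype.val : V → En n)
    (volume.withDensity fun y => ENNReal.ofReal (sdet gc y)) = ρ at h1 h2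
  obtain ⟨h3, h4⟩ := ManVol.dens_le (κ := volume.restrict V) (w := sdet gc) hc0
    ((ae_restrict_iff' hV).2 (ae_of_all _ fun y hy =>
      ⟨(hc y (hR (hVD hy))).1, (hc y (hR (hVD hy))).2.1⟩))
  have hL : ∀ (f : M → ℝ) (p : ENNReal), MemLp f p ((vol g).restrict (P.θ '' V)) ↔
      MemLp (fun y => f (P.θ y)) p (volume.restrict V) := by
    intro f p
    rw [h1, he.memLp_map_measure_iff]
    have h5 : MemLp (fun y => f (P.θ y)) p (Measure.map Subtype.val ρ) ↔
        MemLp (f ∘ V.domRestrict P.θ) p ρ := hv.memLp_map_measure_iff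
    rw [← h5, h2]
    exact ⟨fun h => h.of_measure_le_smul ENNReal.ofReal_ne_top h4,
      fun h => h.of_measure_le_smul ENNReal.ofReal_ne_top h3⟩
  refine ⟨hmV, ?_, fun f => ?_, fun f => ?_, fun f => hL f 2, fun p => ?_⟩
  · rw [← Measure.restrict_apply_univ, h1, he.map_apply, preimage_univ,
      ← preimage_univ (f := (Subtype.val : V → En n)), ← hv.map_apply, h2]
    refine (h3 univ).trans_lt ?_
    rw [Measure.smul_apply, smul_eq_mul, Measure.restrict_apply_univ]
    exact ENNReal.mul_lt_top ENNReal.ofReal_lt_top (hP.bdd.subset hVD).measure_lt_top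
  · rw [h1, he.integral_map]
    have h5 : ∫ y, f (P.θ y) ∂(Measure.map Subtype.val ρ) = ∫ y, f (V.domRestrict P.θ y) ∂ρ :=
      hv.integral_map _
    rw [← h5, h2, integral_withDensity_eq_integral_toReal_smul hsm.ennreal_ofReal
      (ae_of_all _ fun x => ENNReal.ofReal_lt_top)]
    refine integral_congr_ae (ae_of_all _ fun y => ?_)
    simp only [ENNReal.toReal_ofReal (hpos y).le, smul_eq_mul]
  · rw [IntegrableOn, IntegrableOn, ← memLp_one_iff_integrable, ← memLp_one_iff_integrable]
    exact hL f 1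
  · rw [← ae_restrict_iff' hmV, h1, he.ae_map_iff]
    have h5 : (∀ᵐ y ∂(Measure.map Subtype.val ρ), p (P.θ y)) ↔
        ∀ᵐ y ∂ρ, p (V.domRestrict P.θ y) := hv.ae_map_iff
    rw [← h5, h2]
    exact ⟨fun h => (Measure.absolutelyContinuous_of_le_smul h4).ae_le h,
      fun h => (Measure.absolutelyContinuous_of_le_smul h3).ae_le h⟩

end Vale.Agent.P088
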