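import Vale.Agent.P088.ManS

/-!
# P088: the Riemannian volume in a patch
-/

open MeasureTheory Set Metric Filter
open scoped ContDiff Topology InnerProductSpace Manifold Matrix

noncomputable section
namespace Vale.Agent.P088
open Vale.Agent.P136 (D Sm Tst)

namespace ManVol0

/-- Compatible measures on a countable cover glue to their supremum. -/
theorem glue {X P : Type} [MeasurableSpace X] (μ : P → Measure X) (U : P → Set X)
    (hU : ∀ p, MeasurableSet (U p)) (hc : ∀ p B, MeasurableSet B → μ p B = μ p (B ∩ U p))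
    (hm : ∀ p q B, MeasurableSet B → B ⊆ U p → B ⊆ U q → μ p B = μ q B)
    (e : ℕ → P) (he : ⋃ k, U (e k) = univ) (ν : Measure X) {B : Set X} (hB : MeasurableSet B)
    (hν : ∀ p B', MeasurableSet B' → B' ⊆ B → B' ⊆ U p → ν B' = μ p B') :
    (⨆ p, μ p) B = ν B := by
  set V := disjointed fun k => U (e k) with hV
  have hVm : ∀ k, MeasurableSet (V k) := MeasurableSet.disjointed fun k => hU _
  have hVU : ∀ k, V k ⊆ U (e k) := disjointed_subset _
  have split : ∀ (ρ : Measure X) (C : Set X), MeasurableSet C → ρ C = ∑' k, ρ (C ∩ V k) := by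
    intro ρ C hC
    rw [← measure_iUnion (fun i j hij => (disjoint_disjointed _ hij).mono inter_subset_right
      inter_subset_right) fun k => hC.inter (hVm k), ← inter_iUnion, iUnion_disjointed, he,
      inter_univ]
  set m := Measure.sum fun k => (μ (e k)).restrict (V k) with hmd
  have hma : ∀ C, MeasurableSet C → m C = ∑' k, μ (e k) (C ∩ V k) := fun C hC => by
    rw [hmd, Measure.sum_apply _ hC]
    exact tsum_congr fun k => Measure.restrict_apply hC
  have key : ∀ (ρ : Measure X) (C : Set X), MeasurableSet C →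
      (∀ p B', MeasurableSet B' → B' ⊆ C → B' ⊆ U p → ρ B' = μ p B') → ρ C = m C := by
    intro ρ C hC h
    rw [split ρ C hC, hma C hC]
    exact tsum_congr fun k => h _ _ (hC.inter (hVm k)) inter_subset_left
      (inter_subset_right.trans (hVU k))
  rw [key ν B hB hν]
  refine le_antisymm (Measure.le_iff'.1 (iSup_le fun q => Measure.le_iff.2 fun C hC => ?_) B) ?_
  · rw [hc q C hC, key (μ q) _ (hC.inter (hU q)) fun p B' hB' h h' =>
      hm q p B' hB' (h.trans inter_subset_right) h']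
    exact measure_mono inter_subset_left
  · rw [hma B hB, split (⨆ p, μ p) B hB]
    exact ENNReal.tsum_le_tsum fun k => Measure.le_iff'.1 (le_iSup μ (e k)) _

theorem sum_ee {n : ℕ} (v : En n) : v = ∑ p, v p • ee p := by
  ext i
  simp [ee, Finset.sum_apply, Pi.single_apply]

/-- The Gram determinant after a linear change of variables. -/
theorem det_gram {n : ℕ} (b : En n →ₗ[ℝ] En n →ₗ[ℝ] ℝ) (L J : En n →L[ℝ] En n) :
    (Matrix.of fun i j => b (L (J (ee i))) (L (J (ee j)))).det =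
      J.det ^ 2 * (Matrix.of fun i j => b (L (ee i)) (L (ee j))).det := by
  have hA : (Matrix.of fun k i => J (ee i) k).det = J.det := by
    rw [ContinuousLinearMap.det,
      ← LinearMap.det_toMatrix (EuclideanSpace.basisFun (Fin n) ℝ).toBasis]
    exact congrArg Matrix.det (by
      ext k i
      simp [LinearMap.toMatrix_apply, ee])
  have e : (Matrix.of fun i j => b (L (J (ee i))) (L (J (ee j)))) =
      (Matrix.of fun k i => J (ee i) k)ᵀ * (Matrix.of fun i j => b (L (ee i)) (L (ee j))) *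
        Matrix.of fun k i => J (ee i) k := by
    ext i j
    simp only [Matrix.mul_apply, Matrix.of_apply, Matrix.transpose_apply]
    conv_lhs => rw [sum_ee (J (ee i)), sum_ee (J (ee j))]
    simp only [map_sum, map_smul, LinearMap.sum_apply, LinearMap.smul_apply, smul_eq_mul,
      Finset.sum_mul, Finset.mul_sum]
    refine Finset.sum_congr rfl fun l _ => Finset.sum_congr rfl fun k _ => by ring
  rw [e, Matrix.det_mul, Matrix.det_mul, Matrix.det_transpose, hA]
  ring

variable {n : ℕ} [NeZero n] {M : Type} [TopologicalSpace M]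
  [ChartedSpace (EuclideanHalfSpace n) M]

/-- A weak patch. -/
structure WP (θ : En n → M) (κ : M → En n) (Dm : Set (En n)) : Prop where
  uniq : UniqueDiffOn ℝ Dm
  meas : MeasurableSet Dm
  smθ : ContMDiffOn 𝓘(ℝ, En n) (𝓡∂ n) ∞ θ Dm
  smκ : ContMDiffOn (𝓡∂ n) 𝓘(ℝ, En n) ∞ κ (θ '' Dm)
  linv : ∀ y ∈ Dm, κ (θ y) = y
  opn : IsOpen (θ '' Dm)

/-- The volume density of a parametrization. -/
def rho (g : Bil n M) (θ : En n → M) (Dm : Set (En n)) (y : En n) : ENNReal :=
  ENNReal.ofReal √((Matrix.of fun i j => g (θ y) (dth θ Dm y i) (dth θ Dm y j)).det)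

theorem transport (g : Bil n M) {x x' : M} (h : x = x') (v w : En n) : g x v w = g x' v w := by
  subst h
  rfl

variable {θ θ' : En n → M} {κ κ' : M → En n} {Dm Dm' : Set (En n)}

theorem tau_diff (h : WP θ κ Dm) (h' : WP θ' κ' Dm') {y : En n} (hy : y ∈ Dm)
    (hy' : θ y ∈ θ' '' Dm') : DifferentiableWithinAt ℝ (κ' ∘ θ) Dm y := by
  have h1 : MDifferentiableAt (𝓡∂ n) 𝓘(ℝ, En n) κ' (θ y) :=
    ((h'.smκ _ hy').contMDiffAt (h'.opn.mem_nhds hy')).mdifferentiableAt (by simp)
  have h2 := (h.smθ y hy).mdifferentiableWithinAt (by simp)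
  exact (h1.comp_mdifferentiableWithinAt y h2).differentiableWithinAt

theorem rinv (h' : WP θ' κ' Dm') {x : M} (hx : x ∈ θ' '' Dm') : κ' x ∈ Dm' ∧ θ' (κ' x) = x := by
  obtain ⟨z, hz, rfl⟩ := hx
  rw [h'.linv z hz]
  exact ⟨hz, rfl⟩

theorem dth_eq (h : WP θ κ Dm) (h' : WP θ' κ' Dm') {y : En n} (hy : y ∈ Dm)
    (hy' : θ y ∈ θ' '' Dm') (v : En n) :
    (mfderivWithin 𝓘(ℝ, En n) (𝓡∂ n) θ Dm y v : En n) =
      mfderivWithin 𝓘(ℝ, En n) (𝓡∂ n) θ' Dm' (κ' (θ y)) (fderivWithin ℝ (κ' ∘ θ) Dm y v) := by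
  have hn : Dm ∩ θ ⁻¹' (θ' '' Dm') ∈ 𝓝[Dm] y :=
    inter_mem self_mem_nhdsWithin ((h.smθ.continuousOn y hy) (h'.opn.mem_nhds hy'))
  have h1 := ((h'.smθ _ (rinv h' hy').1).mdifferentiableWithinAt (by simp)).hasMFDerivWithinAt
  have h2 := ((tau_diff h h' hy hy').hasFDerivWithinAt.mono
    (inter_subset_left (t := θ ⁻¹' (θ' '' Dm')))).hasMFDerivWithinAt
  have h3 := HasMFDerivWithinAt.comp y (f := κ' ∘ θ) h1 h2 fun z hz => (rinv h' hz.2).1
  have h4 := (h3.congr_mono (f₁ := θ) (fun z hz => (rinv h' hz.2).2.symm) (rinv h' hy').2.symm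
    Subset.rfl).mono_of_mem_nhdsWithin hn
  rw [h4.mfderivWithin (h.uniq y hy).uniqueMDiffWithinAt]
  rfl

theorem rho_eq (g : Bil n M) (h : WP θ κ Dm) (h' : WP θ' κ' Dm') {y : En n} (hy : y ∈ Dm)
    (hy' : θ y ∈ θ' '' Dm') : rho g θ Dm y =
      ENNReal.ofReal |(fderivWithin ℝ (κ' ∘ θ) Dm y).det| * rho g θ' Dm' (κ' (θ y)) := by
  have e := det_gram (g (θ' (κ' (θ y))))
    (mfderivWithin 𝓘(ℝ, En n) (𝓡∂ n) θ' Dm' (κ' (θ y))) (fderivWithin ℝ (κ' ∘ θ) Dm y)
  have e' : (Matrix.of fun i j => g (θ y) (dth θ Dm y i) (dth θ Dm y j)).det =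
      (fderivWithin ℝ (κ' ∘ θ) Dm y).det ^ 2 * (Matrix.of fun i j => g (θ' (κ' (θ y)))
        (dth θ' Dm' (κ' (θ y)) i) (dth θ' Dm' (κ' (θ y)) j)).det := by
    refine Eq.trans (congrArg Matrix.det ?_) e
    ext i j
    refine (transport g (rinv h' hy').2.symm _ _).trans ?_
    exact congrArg₂ (fun v w : En n => g (θ' (κ' (θ y))) v w) (dth_eq h h' hy hy' (ee i))
      (dth_eq h h' hy hy' (ee j))
  rw [rho, rho, e', Real.sqrt_mul (sq_nonneg _), Real.sqrt_sq_eq_abs,
    ENNReal.ofReal_mul (abs_nonneg _)]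

variable [MeasurableSpace M] [BorelSpace M]

/-- The volume measure of a parametrization. -/
def nu (g : Bil n M) (θ : En n → M) (Dm : Set (En n)) : Measure M :=
  Measure.map θ ((volume.restrict Dm).withDensity (rho g θ Dm))

theorem meas_pre (h : WP θ κ Dm) {B : Set M} (hB : MeasurableSet B) :
    MeasurableSet (θ ⁻¹' B ∩ Dm) := by
  have := h.meas.subtype_image
    ((continuousOn_iff_continuous_domRestrict.1 h.smθ.continuousOn).measurable hB)
  refine (congrArg MeasurableSet ?_).mp this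
  ext y
  exact ⟨fun ⟨z, hz, e⟩ => e ▸ ⟨hz, z.2⟩, fun hy => ⟨⟨y, hy.2⟩, hy.1, rfl⟩⟩

theorem nu_apply (g : Bil n M) (h : WP θ κ Dm) {B : Set M} (hB : MeasurableSet B) :
    nu g θ Dm B = ∫⁻ y in θ ⁻¹' B ∩ Dm, rho g θ Dm y := by
  rw [nu, Measure.map_apply_of_aemeasurable ((h.smθ.continuousOn.aemeasurable h.meas).mono_ac
    (withDensity_absolutelyContinuous _ _)) hB, withDensity_apply',
    Measure.restrict_restrict' h.meas]

theorem nu_inter (g : Bil n M) (h : WP θ κ Dm) {B : Set M} (hB : MeasurableSet B) :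
    nu g θ Dm B = nu g θ Dm (B ∩ θ '' Dm) := by
  rw [nu_apply g h hB, nu_apply g h (hB.inter h.opn.measurableSet)]
  congr 2
  ext y
  exact ⟨fun hy => ⟨⟨hy.1, y, hy.2, rfl⟩, hy.2⟩, fun hy => ⟨hy.1.1, hy.2⟩⟩

theorem nu_eq (g : Bil n M) (h : WP θ κ Dm) (h' : WP θ' κ' Dm') {B : Set M}
    (hB : MeasurableSet B) (h1 : B ⊆ θ '' Dm) (h2 : B ⊆ θ' '' Dm') :
    nu g θ Dm B = nu g θ' Dm' B := by
  have him : (κ' ∘ θ) '' (θ ⁻¹' B ∩ Dm) = θ' ⁻¹' B ∩ Dm' := by
    ext z
    constructor
    · rintro ⟨y, hy, rfl⟩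
      have := rinv h' (h2 hy.1)
      refine ⟨?_, this.1⟩
      change θ' (κ' (θ y)) ∈ B
      rw [this.2]
      exact hy.1
    · rintro ⟨hz, hz'⟩
      obtain ⟨y, hy, e⟩ := h1 hz
      refine ⟨y, ⟨?_, hy⟩, ?_⟩
      · change θ y ∈ B
        rw [e]
        exact hz
      · change κ' (θ y) = z
        rw [e, h'.linv z hz']
  have hinj : InjOn (κ' ∘ θ) (θ ⁻¹' B ∩ Dm) := fun y hy z hz e => by
    have e' : θ y = θ z := by
      rw [← (rinv h' (h2 hy.1)).2, ← (rinv h' (h2 hz.1)).2]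
      exact congrArg θ' e
    rw [← h.linv y hy.2, e', h.linv z hz.2]
  rw [nu_apply g h hB, nu_apply g h' hB, ← him,
    lintegral_image_eq_lintegral_abs_det_fderiv_mul volume (meas_pre h hB)
      (fun y hy => (tau_diff h h' hy.2 (h2 hy.1)).hasFDerivWithinAt.mono inter_subset_right) hinj]
  exact setLIntegral_congr_fun (meas_pre h hB) fun y hy => rho_eq g h h' hy.2 (h2 hy.1)

variable [IsManifold (𝓡∂ n) ∞ M]

omit [MeasurableSpace M] [BorelSpace M] in
theorem wp_chart (p : M) : WP (extChartAt (𝓡∂ n) p).symm (extChartAt (𝓡∂ n) p)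
    (extChartAt (𝓡∂ n) p).target where
  uniq := uniqueDiffOn_extChartAt_target p
  meas := by
    rw [extChartAt_target]
    exact ((chartAt _ p).open_target.preimage (𝓡∂ n).continuous_symm).measurableSet.inter
      (𝓡∂ n).isClosed_range.measurableSet
  smθ := contMDiffOn_extChartAt_symm p
  smκ := by
    rw [PartialEquiv.symm_image_target_eq_source, extChartAt_source]
    exact contMDiffOn_extChartAt
  linv := fun y hy => (extChartAt (𝓡∂ n) p).right_inv hy
  opn := by
    rw [PartialEquiv.symm_image_target_eq_source]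
    exact isOpen_extChartAt_source p

omit [BorelSpace M] in
theorem vol_eq (g : Bil n M) : vol g =
    ⨆ p : M, nu g (extChartAt (𝓡∂ n) p).symm (extChartAt (𝓡∂ n) p).target := by
  refine iSup_congr fun p => congrArg _ (withDensity_congr_ae ?_)
  filter_upwards [ae_restrict_mem (wp_chart p).meas] with y hy
  have e : ∀ i, dth (extChartAt (𝓡∂ n) p).symm (extChartAt (𝓡∂ n) p).target y i =
      coordVec p y i := fun i => by
    rw [extChartAt_target] at hy
    rw [dth, coordVec, extChartAt_target, inter_comm, mfderivWithin_inter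
      (((chartAt _ p).open_target.preimage (𝓡∂ n).continuous_symm).mem_nhds hy.1)]
  simp only [rho, gc, e]

end ManVol0

open ManVol0

variable {n : ℕ} [NeZero n] {M : Type} [TopologicalSpace M] [T2Space M] [CompactSpace M]
  [ConnectedSpace M] [ChartedSpace (EuclideanHalfSpace n) M] [IsManifold (𝓡∂ n) ∞ M]
  [MeasurableSpace M] [BorelSpace M] {ι : Type} [Fintype ι] [DecidableEq ι] [Nonempty ι]

theorem m_vol0 : M_vol0 n M ι := by
  intro g A Dm gc Ac P _ hP
  have hW : WP P.θ P.κ Dm := ⟨hP.uniq, hP.meas, hP.smθ, hP.smκ, hP.linv, hP.opn⟩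
  have e : Measure.map P.θ ((volume.restrict Dm).withDensity
      fun y => ENNReal.ofReal (sdet gc y)) = nu g P.θ Dm := by
    refine congrArg _ (withDensity_congr_ae ?_)
    filter_upwards [ae_restrict_mem hP.meas] with y hy
    simp only [rho, sdet, hP.met y hy]
  obtain ⟨t, -, ht⟩ := isCompact_univ.elim_nhds_subcover
    (fun p : M => (extChartAt (𝓡∂ n) p).source) fun p _ => extChartAt_source_mem_nhds p
  obtain ⟨f, hf⟩ := countable_iff_exists_subset_range.1 t.countable_toSet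
  rw [e, vol_eq]
  ext B hB
  rw [Measure.restrict_apply hB, nu_inter g hW hB]
  refine glue _ (fun p => (extChartAt (𝓡∂ n) p).symm '' (extChartAt (𝓡∂ n) p).target)
    (fun p => (wp_chart p).opn.measurableSet) (fun p B hB => nu_inter g (wp_chart p) hB)
    (fun p q B hB h h' => nu_eq g (wp_chart p) (wp_chart q) hB h h') f ?_ _
    (hB.inter hP.opn.measurableSet) fun p B' hB' h h' =>
      nu_eq g hW (wp_chart p) hB' (h.trans inter_subset_right) h'
  refine eq_univ_of_forall fun x => ?_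
  obtain ⟨p, hp, hx⟩ := mem_iUnion₂.1 (ht (mem_univ x))
  obtain ⟨k, rfl⟩ := hf hp
  refine mem_iUnion.2 ⟨k, ?_⟩
  rwa [PartialEquiv.symm_image_target_eq_source]

end Vale.Agent.P088
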