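import Vale.Agent.P088.ManEAll
import Vale.Agent.P088.ManVol0
import Vale.Agent.P088.ManCap
import Vale.Agent.P088.ManGrel
import Vale.Agent.P088.ManNotouch
import Vale.Agent.P088.ManCont
import Vale.Agent.P088.ManBstep
import Vale.Agent.P088.ManGp
import Vale.Agent.P088.ManCapA
import Vale.Agent.P088.ManChart
import Vale.Agent.P088.ManGrn
import Vale.Agent.P088.ManSrc
import Vale.Agent.P088.ManGreen
import Vale.Agent.P088.ManL2
import Vale.Agent.P088.ManRep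
import Vale.Agent.P088.ManVol
import Vale.Agent.P088.ManAlg
import Vale.Agent.P088.ManFin
import Vale.Agent.P088.ManCmpn
import Vale.Agent.P088.ManPoinc
import Vale.Agent.P088.ManTrans
import Vale.Agent.P088.ManComp
import Vale.Agent.P088.ManLocRel
import Vale.Agent.P088.ManDens
import Vale.Agent.P088.ManRestr
import Vale.Agent.P088.ManPush
import Vale.Agent.P088.ManCover
import Vale.Agent.P088.ManLim
import Vale.Agent.P088.ManCmp
import Vale.Agent.P088.ManRb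
import Vale.Agent.P088.ManUcpm
import Vale.Agent.P088.ManRun2
import Vale.Agent.P088.ManSep
import Vale.Agent.P088.ManMtr
import Vale.Agent.P088.ManGlue
import Vale.Agent.P088.ManPrel
import Vale.Agent.P088.ManLtrel
import Vale.Agent.P088.ManOnto
import Vale.Agent.P088.ManBext
import Vale.Agent.P088.ManFinal

/-!
# P088, manifold part: assembly
-/

open MeasureTheory Set Metric Filter
open scoped ContDiff Topology InnerProductSpace Manifold Matrix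

noncomputable section
namespace Vale.Agent.P088

section
variable {n : ℕ} [NeZero n] {M : Type} [TopologicalSpace M] [T2Space M] [CompactSpace M]
  [ConnectedSpace M] [ChartedSpace (EuclideanHalfSpace n) M] [IsManifold (𝓡∂ n) ∞ M]
  [MeasurableSpace M] [BorelSpace M] {ι : Type} [Fintype ι] [DecidableEq ι] [Nonempty ι]

theorem man_b1 (hE : EAll) (hn : 3 ≤ n) : B1 n M ι :=
  have cover : M_cover n M ι := m_cover hE (m_xi hE) (m_xb hE) m_restr (m_pull hE)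
  { hn := hn
    xi := m_xi hE
    xb := m_xb hE
    restr := m_restr
    loca := m_local
    pull := m_pull hE
    push := m_push
    push2 := m_push2 m_push
    trans := m_trans
    comp0 := m_comp0
    comp := m_comp hE m_restr m_comp0
    loc := m_loc
    cover := cover
    conn := m_conn hn m_restr cover
    lim := m_lim hE m_restr m_trans cover
    vol := m_vol hE m_vol0
    dens := m_dens }

theorem man_b2 (hE : EAll) (h1 : B1 n M ι) : B2 n M ι :=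
  have fin := m_fin hE h1
  have alg := m_alg fin
  have l2 := m_l2 hE h1 alg
  have cmpn := m_cmpn hE h1 fin alg
  { fin := fin
    alg := alg
    l2 := l2
    rep := m_rep hE h1 alg l2
    cmpn := cmpn
    green := m_green hE h1 alg
    strip := m_strip hE h1 cmpn }

theorem man_b3 (hE : EAll) (h1 : B1 n M ι) (h2 : B2 n M ι) : B3 n M ι :=
  have src := m_src hE h1 h2
  have ucpm := m_ucpm hE h1 h2
  { src := src
    grn := m_grn hE h1 h2 src
    cmp := m_cmp hE h1 h2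
    cap := m_cap hE h1 h2 (m_capA hE h1 h2)
    ucpm := ucpm
    run := m_run hE h1 h2 src ucpm
    run2 := m_run2 hE h1 h2 src
    mtr := m_mtr h1
    prel := m_prel h1
    shrink := m_shrink h1 h2
    ltrel := m_ltrel hE h1 h2 }

theorem man_main (hE : EAll) (hn : 3 ≤ n) (X₁ X₂ : Sd n M ι) (Γ : Set M) (hΓ : IsGam n Γ)
    (hS : RSame Γ X₁.g X₁.A X₂.g X₂.A) : RRel Γ X₁.g X₁.A X₂.g X₂.A := by
  have h1 : B1 n M ι := man_b1 hE hn
  have h2 := man_b2 hE h1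
  have h3 := man_b3 hE h1 h2
  have uniq := m_uniq h1 h3.mtr (m_sep1 hE h1 h2 h3) (m_sep2 hE h1 h2 h3)
  have onto := m_onto h1 (m_grel hE h1 h2 h3) (m_notouch hE h1 h2 h3) (m_cont hE h1 h2 h3)
  have bst : ∀ p ∈ Γ, ∃ (R r : ℝ) (gc : MatF n) (Ac : ConF n ι) (P₁ P₂ : Fr n M ι),
      MB X₁ X₂ Γ R gc Ac P₁ P₂ ∧ P₂.θ 0 = p ∧ 0 < r ∧ r < R ∧
        MI X₁ X₂ Γ (Up n r) gc Ac P₁ P₂ := by
    intro p hp
    obtain ⟨R, gc, Ac, P₁, P₂, hB, h0⟩ := m_bstep hE h1 h2 h3 X₁ X₂ Γ hΓ hS p hp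
    have hR := hB.p₁.pos
    exact ⟨R, R / 2, gc, Ac, P₁, P₂, hB, h0, by linarith, by linarith,
      m_rb hE h1 h2 h3 X₁ X₂ Γ R (R / 2) gc Ac P₁ P₂ hS hB (by linarith) (by linarith)⟩
  obtain ⟨O, Φ, Ψ, U, hG⟩ := m_glue h1 h3.mtr uniq X₁ X₂ Γ hΓ
  obtain ⟨O', Φ', Ψ', U', hG'⟩ := m_glue h1 h3.mtr uniq X₂ X₁ Γ hΓ
  obtain ⟨p, hp⟩ := hΓ.1
  obtain ⟨R, r, gc, Ac, P₁, P₂, hB, -, hr, hrR, hI⟩ := bst p hp
  obtain rfl := onto X₁ X₂ Γ O Φ Ψ U R r gc Ac P₁ P₂ hG hB hr hrR hI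
  obtain rfl := onto X₂ X₁ Γ O' Φ' Ψ' U' R r gc Ac P₂ P₁ hG' hB.symm hr hrR hI.symm
  have ginv : M_ginv n M ι := m_ginv h1
  exact m_final h1 ginv X₁ X₂ Γ Φ Ψ Φ' Ψ' U U' hG hG'
    (m_bext hE h1 ginv X₁ X₂ Γ Φ Ψ Φ' Ψ' U U' hG hG')
    (m_bext hE h1 ginv X₂ X₁ Γ Φ' Ψ' Φ Ψ U' U hG' hG) bst

end

theorem s_real (hLT : S_LT) (hj : S_jets) (hend : S_end) (hrig : S_rig) (hii : S_isoInter)
    (hcop : S_cop) (hw : S_weyl) (hu : S_ucp) (_hie : S_ie) (hg : S_green) (hext : S_ext)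
    (hgl : S_glue) : S_real := by
  intro n _ hn ι _ _ _ M _ _ _ _ _ _ _ _ Γ hne hO g₁ g₂ A₁ A₂ hg₁ hg₂ hA₁ hA₂ hS
  have hE := eall hLT hj hend hrig hii hcop hw hu hg hext hgl
  have h1 : B1 n M ι := man_b1 hE hn
  have h2 := man_b2 hE h1
  have hb : (bdM n M).Nonempty := by
    obtain ⟨O, -, hO⟩ := hO
    exact hne.mono (hO ▸ inter_subset_right)
  obtain ⟨G₁, Q₁, p₁⟩ := m_gp hE h2 (m_poinc hE h1 h2) g₁ A₁ hg₁ hA₁ hb
  obtain ⟨G₂, Q₂, p₂⟩ := m_gp hE h2 (m_poinc hE h1 h2) g₂ A₂ hg₂ hA₂ hb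
  exact man_main hE hn (Sd.mk g₁ A₁ G₁ Q₁ hg₁ hA₁ p₁) (Sd.mk g₂ A₂ G₂ Q₂ hg₂ hA₂ p₂) Γ
    ⟨hne, hO⟩ hS

end Vale.Agent.P088
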