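import Vale.Agent.P088.ManS

open MeasureTheory Set Metric Filter
open scoped ContDiff Topology InnerProductSpace Manifold Matrix

noncomputable section
namespace Vale.Agent.P088
open Vale.Agent.P136 (D Sm Tst)

variable {n : ℕ} [NeZero n] {M : Type} [TopologicalSpace M] [T2Space M] [CompactSpace M]
  [ConnectedSpace M] [ChartedSpace (EuclideanHalfSpace n) M] [IsManifold (𝓡∂ n) ∞ M]
  [MeasurableSpace M] [BorelSpace M] {ι : Type} [Fintype ι] [DecidableEq ι] [Nonempty ι]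

namespace ManRb

omit [NeZero n] [DecidableEq ι] [Nonempty ι] in
theorem app_sm {L : Op n ι} (hL : L.Good) {W : ι → En n → ℝ} (hW : SmV W) : SmV (L.app W) :=
  fun a => by
    have h := ((Sm.sum (s := Finset.univ) fun i _ => (Sm.sum (s := Finset.univ) fun j _ =>
      (hL.1 i j).mul ((hW a).D (ee j))).D (ee i)).add
      (Sm.sum (s := Finset.univ) fun i _ => Sm.sum (s := Finset.univ) fun a' _ =>
        (hL.2.2.1 i a a').mul ((hW a').D (ee i)))).add
      (Sm.sum (s := Finset.univ) fun a' _ => (hL.2.2.2.1 a a').mul (hW a'))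
    exact h

omit [NeZero n] [DecidableEq ι] [Nonempty ι] in
theorem eden_sub (g : MatF n) (A : ConF n ι) (ψ : ι → En n → ℝ) {v w : ι → En n → ℝ}
    (hv : SmV v) (hw : SmV w) (x : En n) :
    eden g A ψ (fun a y => v a y - w a y) x = eden g A ψ v x - eden g A ψ w x := by
  have h : ∀ j a, cov A j (fun a y => v a y - w a y) a x = cov A j v a x - cov A j w a x := by
    intro j a
    simp only [cov, Vale.Agent.P136.D_sub_at ((hv a).dAt x) ((hw a).dAt x), mul_sub,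
      Finset.sum_sub_distrib]
    ring
  simp only [eden, h, mul_sub, Finset.sum_sub_distrib]

theorem bdd_Up (r : ℝ) : Bornology.IsBounded (Up n r) := isBounded_ball.subset inter_subset_left

theorem int_sm {f : En n → ℝ} (hf : Sm f) (r : ℝ) : IntegrableOn f (Up n r) :=
  (hf.cont.continuousOn.integrableOn_compact (isCompact_closedBall (0 : En n) r)).mono_set
    (inter_subset_left.trans ball_subset_closedBall)

omit [Nonempty ι] in
theorem flat (hE : EAll) {g : MatF n} {A : ConF n ι} (hg : GA g A) {r : ℝ}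
    {ψ v w : ι → En n → ℝ} (hψ : Tests (ball 0 r) ψ) (hv : SmV v) (hw : SmV w)
    (h : ∀ y ∈ ball (0 : En n) r, y 0 = 0 → ∀ a, v a y = w a y) :
    enB (Up n r) g A ψ v + ∑ a, ∫ y in Up n r, v a y * (cop g A).app ψ a y =
      enB (Up n r) g A ψ w + ∑ a, ∫ y in Up n r, w a y * (cop g A).app ψ a y := by
  have sψ : SmV ψ := fun a => (hψ a).1.1
  have sL : SmV ((cop g A).app ψ) := app_sm (hE.cop n ι g A hg).1 sψ
  have h1 := hE.ibp2 n ι g A r ψ (fun a y => v a y - w a y) hg hψ (fun a => (hv a).sub (hw a))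
    fun y hy h0 a => sub_eq_zero.2 (h y hy h0 a)
  have he := (hE.eden n ι g A hg).2.2.2.2.2.1
  have h2 : enB (Up n r) g A ψ (fun a y => v a y - w a y) =
      enB (Up n r) g A ψ v - enB (Up n r) g A ψ w := by
    unfold enB
    rw [← integral_sub (int_sm (he _ _ sψ hv) r) (int_sm (he _ _ sψ hw) r)]
    exact integral_congr_ae (Eventually.of_forall fun x => eden_sub g A ψ hv hw x)
  have h3 : ∀ a, ∫ y in Up n r, (cop g A).app ψ a y * (v a y - w a y) =
      (∫ y in Up n r, v a y * (cop g A).app ψ a y) -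
        ∫ y in Up n r, w a y * (cop g A).app ψ a y := fun a => by
    rw [← integral_sub (int_sm ((hv a).mul (sL a)) r) (int_sm ((hw a).mul (sL a)) r)]
    exact integral_congr_ae (Eventually.of_forall fun x => by ring)
  simp only [h3, Finset.sum_sub_distrib] at h1
  linarith

omit [T2Space M] [CompactSpace M] [ConnectedSpace M] [IsManifold (𝓡∂ n) ∞ M] [BorelSpace M]
  [Nonempty ι] in
theorem side (hE : EAll) (h2 : B2 n M ι) (h3 : B3 n M ι) (X : Sd n M ι) {R r : ℝ} {gc : MatF n}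
    {Ac : ConF n ι} {P : Fr n M ι} (hP : BP X.g X.A R gc Ac P) (hr : 0 < r) (hR : r < R)
    {ψ : ι → En n → ℝ} (hψ : Tests (ball 0 r) ψ) {F : M → ι → ℝ} (hF : RSec n F)
    {v : ι → En n → ℝ} (hv : SmV v) (e : ∀ a, EqOn (v a) (P.pull F a) (Hb n r)) :
    (rdn X.g X.A (F + P.push (Hb n r) ψ) - rdn X.g X.A (F - P.push (Hb n r) ψ)) / 4 =
      (enB (Up n r) gc Ac ψ v + ∑ a, ∫ y in Up n r, v a y * (cop gc Ac).app ψ a y) -
        ∑ a, ∫ y in Up n r, P.pull (cm (X.hf F)) a y * (cop gc Ac).app ψ a y := by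
  have hg : GA gc Ac := hP.ga
  have mU : MeasurableSet (Up n r) := (isOpen_Up r).measurableSet
  have sψ : SmV ψ := fun a => (hψ a).1.1
  have sL : SmV ((cop gc Ac).app ψ) := app_sm (hE.cop n ι gc Ac hg).1 sψ
  have l2L : L2On (Up n r) ((cop gc Ac).app ψ) :=
    (hE.tl n ι (Up n r)).2.2.2.2 mU (bdd_Up r) _ sL
  obtain ⟨a1, a2, a3, -⟩ := h2.l2 X.g X.A (Hb n R) (Up n r) gc Ac P X.hg X.hA hP.toPar mU
    ((Up_sub_Hb r).trans (Hb_mono hR.le))
  have e1 : enB (Up n r) gc Ac ψ (P.pull F) = enB (Up n r) gc Ac ψ v := by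
    refine setIntegral_congr_fun mU fun x hx => ?_
    refine (hE.eden n ι gc Ac hg).2.2.2.2.2.2.1 _ _ _ _ x (fun _ => EventuallyEq.rfl) fun a => ?_
    filter_upwards [(isOpen_Up r).mem_nhds hx] with y hy
    exact (e a (Up_sub_Hb r hy)).symm
  have e2 : ∀ a, ∫ y in Up n r, P.pull (cm (X.hf F)) a y * (cop gc Ac).app ψ a y =
      (∫ y in Up n r, v a y * (cop gc Ac).app ψ a y) -
        ∫ y in Up n r, P.pull (cm (X.Q F)) a y * (cop gc Ac).app ψ a y := fun a => by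
    have i1 : Integrable (fun y => P.pull (cm (X.Q F)) a y * (cop gc Ac).app ψ a y)
        (volume.restrict (Up n r)) := (a1 (X.Q F) a).integrable_mul (l2L a)
    rw [← integral_sub (int_sm ((hv a).mul (sL a)) r) i1]
    refine integral_congr_ae ?_
    filter_upwards [a3 (tm X.g F) (X.Q F) a, (a2 F hF).2 a, ae_restrict_mem mU] with y b1 b2 hy
    have b3 : P.pull (cm (X.hf F)) a y = _ := b1
    rw [b3, b2, ← e a (Up_sub_Hb r hy)]
    ring
  rw [((h3.src X gc Ac P ψ).2 R r hP hr hR hψ).2 F hF, e1]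
  simp only [e2, Finset.sum_sub_distrib]
  ring

omit [NeZero n] [Nonempty ι] [TopologicalSpace M] [T2Space M] [CompactSpace M] [ConnectedSpace M]
  [MeasurableSpace M] [BorelSpace M] in
theorem pull_flat {P : Fr n M ι} {y : En n}
    (h : ∀ a a', P.S a a' y = if a = a' then 1 else 0) (F : M → ι → ℝ) (a : ι) :
    P.pull F a y = F (P.θ y) a := by
  simp [Fr.pull, h]

end ManRb

open ManRb in
theorem m_rb (hE : EAll) (h1 : B1 n M ι) (h2 : B2 n M ι) (h3 : B3 n M ι) : M_rb n M ι := by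
  intro X₁ X₂ Γ R r gc Ac P₁ P₂ hS hB hr hR
  have mU : MeasurableSet (Up n r) := (isOpen_Up r).measurableSet
  have sub : Up n r ⊆ Hb n R := (Up_sub_Hb r).trans (Hb_mono hR.le)
  refine ⟨(h1.restr _ _ gc Ac P₁).2.2.2.1 R _ hB.p₁ (isOpen_Up r) (Up_mono hR.le),
    (h1.restr _ _ gc Ac P₂).2.2.2.1 R _ hB.p₂ (isOpen_Up r) (Up_mono hR.le), fun F hF => ?_⟩
  have l1 := (h2.l2 X₁.g X₁.A (Hb n R) (Up n r) gc Ac P₁ X₁.hg X₁.hA hB.p₁.toPar mU sub).1
    (X₁.hf F)
  have l2 := (h2.l2 X₂.g X₂.A (Hb n R) (Up n r) gc Ac P₂ X₂.hg X₂.hA hB.p₂.toPar mU sub).1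
    (X₂.hf F)
  have hg : GA gc Ac := hB.p₁.ga
  have b1 := (h1.restr _ _ gc Ac P₁).2.2.1 R r hB.p₁ hr hR.le
  have b2 := (h1.restr _ _ gc Ac P₂).2.2.1 R r hB.p₂ hr hR.le
  have fm : FM Γ r P₁ P₂ := hB.fm.mono hR.le
  obtain ⟨v₁, s₁, e₁⟩ := (h1.pull _ _ gc Ac P₁ F hF.1).2.2 R r hB.p₁ hR
  obtain ⟨v₂, s₂, e₂⟩ := (h1.pull _ _ gc Ac P₂ F hF.1).2.2 R r hB.p₂ hR
  have key := hE.z0 n ι gc Ac r
    (fun a y => P₁.pull (cm (X₁.hf F)) a y - P₂.pull (cm (X₂.hf F)) a y) hg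
    (fun a => (l1 a).sub (l2 a)) fun ψ hψ => by
      have sψ : SmV ψ := fun a => (hψ a).1.1
      have l2L : L2On (Up n r) ((cop gc Ac).app ψ) :=
        (hE.tl n ι (Up n r)).2.2.2.2 mU (bdd_Up r) _ (app_sm (hE.cop n ι gc Ac hg).1 sψ)
      have k1 := side hE h2 h3 X₁ hB.p₁ hr hR hψ hF.1 s₁ e₁
      have k2 := side hE h2 h3 X₂ hB.p₂ hr hR hψ hF.1 s₂ e₂
      have k3 := flat hE hg hψ s₁ s₂ fun y hy h0 a => by
        have hy' : y ∈ Hb n r := ⟨hy, le_of_eq h0.symm⟩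
        obtain ⟨c1, -, c2, c3⟩ := fm y hy' h0
        rw [e₁ a hy', e₂ a hy', pull_flat c2, pull_flat c3, c1]
      obtain ⟨sp, K', hK', hK'Γ, z'⟩ := ((h1.push2 _ _ gc Ac P₁ ψ).2.1 r Γ b1 hψ).2
        fun y hy h0 => (fm y hy h0).1 ▸ (fm y hy h0).2.1
      obtain ⟨sF, K, hK, hKΓ, z⟩ := hF
      have al := (h2.alg X₁.g X₁.A X₁.hg X₁.hA).2.2.2.2.2.2 F _ sF sp
      have pb := (h1.push2 _ _ gc Ac P₁ ψ).2.2 r Γ _ _ gc Ac P₂ b1 b2 fm ψ fun _ _ _ _ => rfl
      have r1 : rdn X₁.g X₁.A (F + P₁.push (Hb n r) ψ) =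
          rdn X₂.g X₂.A (F + P₂.push (Hb n r) ψ) := by
        rw [hS _ al.1 ⟨K ∪ K', hK.union hK', union_subset hKΓ hK'Γ, fun x hx => by
          rw [Pi.add_apply, z x ⟨hx.1, fun h => hx.2 (Or.inl h)⟩,
            z' x ⟨hx.1, fun h => hx.2 (Or.inr h)⟩, add_zero]⟩]
        exact rdn_congr _ _ fun x hx => by rw [Pi.add_apply, Pi.add_apply, pb x hx]
      have r2 : rdn X₁.g X₁.A (F - P₁.push (Hb n r) ψ) =
          rdn X₂.g X₂.A (F - P₂.push (Hb n r) ψ) := by
        rw [hS _ al.2.1 ⟨K ∪ K', hK.union hK', union_subset hKΓ hK'Γ, fun x hx => by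
          rw [Pi.sub_apply, z x ⟨hx.1, fun h => hx.2 (Or.inl h)⟩,
            z' x ⟨hx.1, fun h => hx.2 (Or.inr h)⟩, sub_zero]⟩]
        exact rdn_congr _ _ fun x hx => by rw [Pi.sub_apply, Pi.sub_apply, pb x hx]
      have k4 : ∀ a, ∫ y in Up n r, (P₁.pull (cm (X₁.hf F)) a y - P₂.pull (cm (X₂.hf F)) a y) *
          (cop gc Ac).app ψ a y =
          (∫ y in Up n r, P₁.pull (cm (X₁.hf F)) a y * (cop gc Ac).app ψ a y) -
            ∫ y in Up n r, P₂.pull (cm (X₂.hf F)) a y * (cop gc Ac).app ψ a y := fun a => by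
        have i1 : Integrable (fun y => P₁.pull (cm (X₁.hf F)) a y * (cop gc Ac).app ψ a y)
            (volume.restrict (Up n r)) := (l1 a).integrable_mul (l2L a)
        have i2 : Integrable (fun y => P₂.pull (cm (X₂.hf F)) a y * (cop gc Ac).app ψ a y)
            (volume.restrict (Up n r)) := (l2 a).integrable_mul (l2L a)
        rw [← integral_sub i1 i2]
        exact integral_congr_ae (Eventually.of_forall fun x => by ring)
      simp only [k4, Finset.sum_sub_distrib]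
      rw [r1, r2] at k1
      linarith
  intro a
  filter_upwards [key a] with y hy
  exact sub_eq_zero.1 hy

end Vale.Agent.P088
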