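import Vale.Agent.P088.ManS

open MeasureTheory Set Metric Filter
open scoped ContDiff Topology InnerProductSpace Manifold Matrix

noncomputable section
namespace Vale.Agent.P088
open Vale.Agent.P136 (D Sm Tst)

variable {n : ℕ} [NeZero n] {M : Type} [TopologicalSpace M] [T2Space M] [CompactSpace M]
  [ConnectedSpace M] [ChartedSpace (EuclideanHalfSpace n) M] [IsManifold (𝓡∂ n) ∞ M]
  [MeasurableSpace M] [BorelSpace M] {ι : Type} [Fintype ι] [DecidableEq ι] [Nonempty ι]

namespace ManRep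

theorem sum_sq_orth {ι : Type} [Fintype ι] [DecidableEq ι] {S : ι → ι → ℝ}
    (h : ∀ a a', ∑ e, S e a * S e a' = if a = a' then 1 else 0) (v : ι → ℝ) :
    ∑ a, (∑ a', S a a' * v a') ^ 2 = ∑ a, v a * v a := by
  have e : ∑ a, (∑ a', S a a' * v a') ^ 2 = ∑ b, ∑ b', (∑ e, S e b * S e b') * (v b * v b') := by
    simp only [pow_two, Finset.sum_mul, Finset.mul_sum]
    rw [Finset.sum_comm]
    refine Finset.sum_congr rfl fun b _ => ?_
    rw [Finset.sum_comm]
    exact Finset.sum_congr rfl fun _ _ => Finset.sum_congr rfl fun _ _ => by ring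
  rw [e]
  simp [h]

theorem int_cm {n : ℕ} [NeZero n] {M : Type} [TopologicalSpace M]
    [ChartedSpace (EuclideanHalfSpace n) M] [MeasurableSpace M] {ι : Type} [Fintype ι]
    {g : Bil n M} (K K' : LM ι g) : Integrable (fun x => ∑ a, cm K x a * cm K' x a) (vol g) := by
  refine (L2.integrable_inner (𝕜 := ℝ) K' K).congr (ae_of_all _ fun x => ?_)
  simp [cm, PiLp.inner_apply]

end ManRep

open ManRep in
theorem m_rep (hE : EAll) (h1 : B1 n M ι) (alg : M_alg n M ι) (l2 : M_l2 n M ι) :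
    M_rep n M ι := by
  intro g A Dm V gc Ac P hg hA hP hV hVD
  obtain ⟨v1, -, v3, v4, -, v6⟩ := h1.vol g A Dm V gc Ac P hg hP hV hVD
  obtain ⟨l1, -, -, l4, -⟩ := l2 g A Dm V gc Ac P hg hA hP hV hVD
  obtain ⟨-, -, -, -, a5, -, -⟩ := alg g A hg hA
  obtain ⟨-, t2, t3, -, -⟩ := hE.tl n ι V
  have tr : ∀ {p : M → Prop}, (∀ᵐ x ∂(vol g), p x) → ∀ᵐ y ∂(volume.restrict V), p (P.θ y) :=
    fun h => (v6 _).1 (h.mono fun _ hx _ => hx)
  obtain ⟨R, hR⟩ := hP.bdd.subset_closedBall (0 : En n)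
  obtain ⟨s1, s2, -, -, -, -, -, s8⟩ := hE.eden n ι gc Ac hP.ga
  obtain ⟨c, hc, hcb⟩ := s8 R
  let L : LM ι g →ₗ[ℝ] HL n ι V :=
    { toFun := fun K => tl V (P.pull (cm K))
      map_add' := fun K K' => t3 _ _ fun a => by
        filter_upwards [(t2 _ (l1 (K + K'))).1 a, (t2 _ (l1 K)).1 a, (t2 _ (l1 K')).1 a,
          tr (Lp.coeFn_add K K'),
          Lp.coeFn_add (tl V (P.pull (cm K))) (tl V (P.pull (cm K')))] with y e1 e2 e3 e4 e5
        rw [e1]
        simp only [cp] at e2 e3 ⊢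
        rw [e5, Pi.add_apply, PiLp.add_apply, e2, e3]
        simp only [Fr.pull, cm, e4, Pi.add_apply, PiLp.add_apply, mul_add, Finset.sum_add_distrib]
      map_smul' := fun r K => t3 _ _ fun a => by
        filter_upwards [(t2 _ (l1 (r • K))).1 a, (t2 _ (l1 K)).1 a, tr (Lp.coeFn_smul r K),
          Lp.coeFn_smul r (tl V (P.pull (cm K)))] with y e1 e2 e4 e5
        rw [e1]
        simp only [cp, RingHom.id_apply] at e2 ⊢
        rw [e5, Pi.smul_apply, PiLp.smul_apply, e2]
        simp only [Fr.pull, cm, e4, Pi.smul_apply, PiLp.smul_apply, smul_eq_mul, Finset.mul_sum]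
        exact Finset.sum_congr rfl fun _ _ => by ring }
  have hb : ∀ K, ‖L K‖ ≤ √c⁻¹ * ‖K‖ := by
    intro K
    have i0 := int_cm K K
    have i1 := (v4 _).1 i0.integrableOn
    have n0 : ∀ x, 0 ≤ ∑ a, cm K x a * cm K x a := fun x =>
      Finset.sum_nonneg fun _ _ => mul_self_nonneg _
    have e1 : ‖L K‖ ^ 2 = ∫ y in V, ∑ a, cm K (P.θ y) a * cm K (P.θ y) a := by
      change ‖tl V (P.pull (cm K))‖ ^ 2 = _
      rw [(t2 _ (l1 K)).2.1, nrm, ← integral_finsetSum _ fun a _ => (l1 K a).integrable_sq]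
      exact setIntegral_congr_fun hV fun y hy => sum_sq_orth (hP.orth y (hVD hy)) _
    have i2 : IntegrableOn (fun y => sdet gc y * ∑ a, cm K (P.θ y) a * cm K (P.θ y) a) V := by
      refine Integrable.bdd_mul (c := c⁻¹) i1 s1.continuous.aestronglyMeasurable ?_
      filter_upwards [ae_restrict_mem hV] with y hy
      rw [Real.norm_eq_abs, abs_of_pos (s2 y), ← one_div, le_div_iff₀ hc, mul_comm]
      exact (hcb y (hR (hVD hy))).2.1
    have e2 : c * ‖L K‖ ^ 2 ≤ ‖K‖ ^ 2 := by
      rw [e1, ← integral_const_mul, ← real_inner_self_eq_norm_sq, a5]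
      refine (setIntegral_mono_on (i1.const_mul c) i2 hV fun y hy =>
        mul_le_mul_of_nonneg_right (hcb y (hR (hVD hy))).1 (n0 _)).trans ?_
      rw [← v3 fun x => ∑ a, cm K x a * cm K x a]
      exact setIntegral_le_integral i0 (ae_of_all _ n0)
    refine le_of_sq_le_sq ?_ (by positivity)
    rw [mul_pow, Real.sq_sqrt (inv_nonneg.2 hc.le), le_inv_mul_iff₀ hc]
    exact e2
  let E' : LM ι g →L[ℝ] HL n ι V := L.mkContinuous _ hb
  have c1 : ∀ F, Rp V P (cp F) (ContinuousLinearMap.adjoint E' F) := fun F K' => by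
    rw [ContinuousLinearMap.adjoint_inner_left]
    exact (t2 _ (l1 K')).2.2 F
  refine ⟨⟨ContinuousLinearMap.adjoint E', E', fun F K =>
    ContinuousLinearMap.adjoint_inner_left _ _ _, c1, fun K a => (t2 _ (l1 K)).1 a⟩,
    fun k hk => ⟨ContinuousLinearMap.adjoint E' (tl V k), fun K' => ?_⟩, fun k K hK => ?_,
    fun k K V' hV' hVV hK => ⟨fun K' => ?_, fun hk a => ?_⟩⟩
  · rw [c1 _ K']
    refine Finset.sum_congr rfl fun a _ => integral_congr_ae ?_
    filter_upwards [(t2 _ hk).1 a] with y hy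
    rw [hy]
  · have hm := (Lp.memLp K).indicator v1.compl
    have e0 := hm.coeFn_toLp
    have z1 : ∀ a, P.pull (cm (hm.toLp _ : LM ι g)) a =ᵐ[volume.restrict V] 0 := by
      refine (l4 _).2 ?_
      filter_upwards [e0] with x hx hxV
      funext a
      simp [cm, hx, hxV]
    have z2 : ⟪K, (hm.toLp _ : LM ι g)⟫_ℝ = 0 := by
      rw [hK]
      refine Finset.sum_eq_zero fun a _ => integral_eq_zero_of_ae ?_
      filter_upwards [z1 a] with y hy
      rw [hy]
      simp
    have z3 : (hm.toLp _ : LM ι g) = 0 := by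
      rw [← inner_self_eq_zero (𝕜 := ℝ), ← z2, a5, a5]
      refine integral_congr_ae ?_
      filter_upwards [e0] with x hx
      by_cases hxV : x ∈ P.θ '' V
      · simp only [cm, hx, indicator_of_notMem (notMem_compl_iff.2 hxV), PiLp.zero_apply,
          mul_zero]
      · simp only [cm, hx, indicator_of_mem (mem_compl hxV)]
    rw [z3] at e0
    filter_upwards [e0, Lp.coeFn_zero (EuclideanSpace ℝ ι) 2 (vol g)] with x e1 e2 hxV
    rw [e2, indicator_of_mem (mem_compl hxV)] at e1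
    funext a
    simp only [cm, ← e1, Pi.zero_apply, PiLp.zero_apply]
  · rw [hK K']
    refine Finset.sum_congr rfl fun a _ => ?_
    simp only [← indicator_mul_left]
    rw [setIntegral_indicator hV, inter_eq_right.2 hVV]
  · rw [memLp_indicator_iff_restrict hV, Measure.restrict_restrict hV, inter_eq_left.2 hVV]
    exact hk a

end Vale.Agent.P088
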