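import Vale.Agent.P088.ManE

/-!
# P088, manifold part: patches, Green package and the manifold statements
-/

open MeasureTheory Set Metric Filter
open scoped ContDiff Topology InnerProductSpace Manifold Matrix

noncomputable section
namespace Vale.Agent.P088
open Vale.Agent.P136 (D Sm Tst)

/-- Interior points. -/
abbrev intM (n : ℕ) [NeZero n] (M : Type) [TopologicalSpace M]
    [ChartedSpace (EuclideanHalfSpace n) M] : Set M := (𝓡∂ n).interior M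

/-- Boundary points. -/
abbrev bdM (n : ℕ) [NeZero n] (M : Type) [TopologicalSpace M]
    [ChartedSpace (EuclideanHalfSpace n) M] : Set M := (𝓡∂ n).boundary M

/-- A parametrization `θ`, its left inverse `κ` and a gauge `S`. -/
structure Fr (n : ℕ) (M ι : Type) where
  θ : En n → M
  κ : M → En n
  S : ι → ι → En n → ℝ

section frames
variable {n : ℕ} {M : Type} {ι : Type} [Fintype ι]

/-- A section in the coordinates and the gauge of `P`. -/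
def Fr.pull (P : Fr n M ι) (F : M → ι → ℝ) : ι → En n → ℝ :=
  fun a y => ∑ a', P.S a a' y * F (P.θ y) a'

open Classical in
/-- A field on `Dm` as a section (zero outside the patch). -/
def Fr.push (P : Fr n M ι) (Dm : Set (En n)) (ψ : ι → En n → ℝ) : M → ι → ℝ :=
  fun x a => if x ∈ P.θ '' Dm then ∑ a', P.S a' a (P.κ x) * ψ a' (P.κ x) else 0

/-- Transport of a frame by a map of the manifold and a gauge. -/
def Fr.tr (P : Fr n M ι) (Φ Ψ : M → M) (U : M → Matrix ι ι ℝ) : Fr n M ι :=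
  ⟨fun y => Φ (P.θ y), fun x => P.κ (Ψ x), fun a b y => ∑ e, P.S a e y * U (P.θ y) b e⟩

/-- Change of coordinates and gauge. -/
def Fr.comp (P : Fr n M ι) (Φ Ψ : En n → En n) (S : ι → ι → En n → ℝ) : Fr n M ι :=
  ⟨fun y => P.θ (Φ y), fun x => Ψ (P.κ x), fun a b y => ∑ e, S a e y * P.S e b (Φ y)⟩

/-- Translation of the coordinates. -/
def Fr.shift (P : Fr n M ι) (z : En n) : Fr n M ι :=
  ⟨fun y => P.θ (y + z), fun x => P.κ x - z, fun a b y => P.S a b (y + z)⟩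

/-- The transition map from `P` to `P₁`. -/
def Fr.tau (P₁ P : Fr n M ι) : En n → En n := fun y => P₁.κ (P.θ y)

/-- The transition gauge from `P` to `P₁`. -/
def Fr.tauS (P₁ P : Fr n M ι) : ι → ι → En n → ℝ :=
  fun a b y => ∑ e, P.S a e y * P₁.S b e (P₁.κ (P.θ y))

/-- The gauge `S₁ᵀ S₂` relating two frames. -/
def Fr.rel (P₁ P₂ : Fr n M ι) (y : En n) : Matrix ι ι ℝ :=
  Matrix.of fun a b => ∑ e, P₁.S e a y * P₂.S e b y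

end frames

section defs
variable {n : ℕ} [NeZero n] {M : Type} [TopologicalSpace M]
  [ChartedSpace (EuclideanHalfSpace n) M] {ι : Type} [Fintype ι] [DecidableEq ι]

/-- The coordinate vector fields of `θ` on `Dm`. -/
def dth (θ : En n → M) (Dm : Set (En n)) (y : En n) (i : Fin n) : TangentSpace (𝓡∂ n) (θ y) :=
  mfderivWithin 𝓘(ℝ, En n) (𝓡∂ n) θ Dm y (ee i)

/-- `(gc, Ac)` are the coefficients of `(g, A)` pulled back by `θ` in the gauge `S`. -/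
structure Par0 (g : Bil n M) (A : RForm n M ι) (Dm : Set (En n)) (gc : MatF n) (Ac : ConF n ι)
    (P : Fr n M ι) : Prop where
  uniq : UniqueDiffOn ℝ Dm
  meas : MeasurableSet Dm
  bdd : Bornology.IsBounded Dm
  smθ : ContMDiffOn 𝓘(ℝ, En n) (𝓡∂ n) ∞ P.θ Dm
  ga : GA gc Ac
  smS : ∀ y ∈ Dm, ∀ a a', ContDiffAt ℝ ∞ (P.S a a') y
  orth : ∀ y ∈ Dm, ∀ a a', ∑ e, P.S e a y * P.S e a' y = if a = a' then 1 else 0
  met : ∀ y ∈ Dm, ∀ i j, gc i j y = g (P.θ y) (dth P.θ Dm y i) (dth P.θ Dm y j)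
  con : ∀ y ∈ Dm, ∀ i a a', D (ee i) (P.S a a') y + ∑ e, Ac i a e y * P.S e a' y =
    ∑ e, P.S a e y * A (P.θ y) (dth P.θ Dm y i) e a'

/-- A patch: moreover `θ` is a diffeomorphism onto an open set. -/
structure Par (g : Bil n M) (A : RForm n M ι) (Dm : Set (En n)) (gc : MatF n) (Ac : ConF n ι)
    (P : Fr n M ι) : Prop extends Par0 g A Dm gc Ac P where
  smκ : ContMDiffOn (𝓡∂ n) 𝓘(ℝ, En n) ∞ P.κ (P.θ '' Dm)
  linv : ∀ y ∈ Dm, P.κ (P.θ y) = y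
  opn : IsOpen (P.θ '' Dm)

/-- An interior patch. -/
structure IP (g : Bil n M) (A : RForm n M ι) (V : Set (En n)) (gc : MatF n) (Ac : ConF n ι)
    (P : Fr n M ι) : Prop extends Par g A V gc Ac P where
  isOpen : IsOpen V
  int : ∀ y ∈ V, P.θ y ∈ intM n M

/-- A boundary patch. -/
structure BP (g : Bil n M) (A : RForm n M ι) (R : ℝ) (gc : MatF n) (Ac : ConF n ι)
    (P : Fr n M ι) : Prop extends Par g A (Hb n R) gc Ac P where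
  pos : 0 < R
  bd : ∀ y ∈ Hb n R, P.θ y ∈ bdM n M ↔ y 0 = 0

/-- The bilinear energy density. -/
def rbd (g : Bil n M) (A : RForm n M ι) (F F' : M → ι → ℝ) (x : M) : ℝ :=
  ∑ i, ∑ j, (Matrix.of fun k l : Fin n => g x (ee k) (ee l))⁻¹ i j *
    (rdA A F x (ee i) ⬝ᵥ rdA A F' x (ee j))

/-- Smooth sections vanishing on the boundary. -/
def V0 (n : ℕ) [NeZero n] [ChartedSpace (EuclideanHalfSpace n) M] (w : M → ι → ℝ) : Prop :=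
  RSec n w ∧ ∀ x ∈ bdM n M, w x = 0

/-- Admissible boundary data. -/
def Adm (n : ℕ) [NeZero n] [ChartedSpace (EuclideanHalfSpace n) M] (Γ : Set M)
    (F : M → ι → ℝ) : Prop :=
  RSec n F ∧ ∃ K, IsCompact K ∧ K ⊆ Γ ∧ ∀ x ∈ bdM n M \ K, F x = 0

/-- A nonempty relatively open piece of the boundary. -/
def IsGam (n : ℕ) [NeZero n] [ChartedSpace (EuclideanHalfSpace n) M] (Γ : Set M) : Prop :=
  Γ.Nonempty ∧ ∃ O, IsOpen O ∧ Γ = O ∩ bdM n M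

/-- The two frames agree on the flat part, which lies in `Γ`, with trivial gauge. -/
def FM (Γ : Set M) (R : ℝ) (P₁ P₂ : Fr n M ι) : Prop :=
  ∀ y ∈ Hb n R, y 0 = 0 → P₁.θ y = P₂.θ y ∧ P₂.θ y ∈ Γ ∧
    (∀ a a', P₁.S a a' y = if a = a' then 1 else 0) ∧
    ∀ a a', P₂.S a a' y = if a = a' then 1 else 0

/-- The field on the full ball given by a test field and a section. -/
def capJ (P : Fr n M ι) (ψ : ι → En n → ℝ) (w : M → ι → ℝ) : ι → En n → ℝ :=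
  fun a y => if 0 ≤ y 0 then ψ a y + P.pull w a y else ψ a y

/-- `(Φ, U)` relates the two pairs on the set `N`. -/
def LocRel (g₁ : Bil n M) (A₁ : RForm n M ι) (g₂ : Bil n M) (A₂ : RForm n M ι) (N : Set M)
    (Φ : M → M) (U : M → Matrix ι ι ℝ) : Prop :=
  ContMDiffOn (𝓡∂ n) (𝓡∂ n) ∞ Φ N ∧
    (∀ a b, ContMDiffOn (𝓡∂ n) 𝓘(ℝ, ℝ) ∞ (fun x => U x a b) N) ∧ ∀ x ∈ N, (U x)ᵀ * U x = 1 ∧
    (∀ v w, g₂ x v w =
      g₁ (Φ x) (mfderiv (𝓡∂ n) (𝓡∂ n) Φ x v) (mfderiv (𝓡∂ n) (𝓡∂ n) Φ x w)) ∧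
    ∀ v, A₂ x v =
      (U x)ᵀ * A₁ (Φ x) (mfderiv (𝓡∂ n) (𝓡∂ n) Φ x v) * U x + (U x)ᵀ * rdMat U x v

variable [MeasurableSpace M]

/-- The bilinear energy; `renergy g A F = rbil g A F F` holds by `rfl`. -/
def rbil (g : Bil n M) (A : RForm n M ι) (F F' : M → ι → ℝ) : ℝ := ∫ x, rbd g A F F' x ∂(vol g)

/-- Square integrable sections. -/
abbrev LM (ι : Type) [Fintype ι] (g : Bil n M) : Type := Lp (EuclideanSpace ℝ ι) 2 (vol g)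

open Classical in
/-- The class in `L²` of a section (zero if it is not square integrable). -/
def tm (g : Bil n M) (F : M → ι → ℝ) : LM ι g :=
  if h : MemLp (fun x => (WithLp.toLp 2 (F x) : EuclideanSpace ℝ ι)) 2 (vol g) then h.toLp _
  else 0

/-- The components of an element of `L²`. -/
def cm {g : Bil n M} (K : LM ι g) : M → ι → ℝ := fun x a => K x a

/-- `K` represents the source `k` given in the patch `P` on `V`. -/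
def Rp {g : Bil n M} (V : Set (En n)) (P : Fr n M ι) (k : ι → En n → ℝ) (K : LM ι g) : Prop :=
  ∀ K' : LM ι g, ⟪K, K'⟫_ℝ = ∑ a, ∫ y in V, k a y * P.pull (cm K') a y

/-- The energy form on the manifold with a cap. -/
def capB (g : Bil n M) (A : RForm n M ι) (gc : MatF n) (Ac : ConF n ι) (P : Fr n M ι) (r : ℝ)
    (ψ : ι → En n → ℝ) (w : M → ι → ℝ) (ψ' : ι → En n → ℝ) (w' : M → ι → ℝ) : ℝ :=
  enB (Lo n r) gc Ac ψ ψ' + rbil g A (P.push (Hb n r) ψ + w) (P.push (Hb n r) ψ' + w')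

/-- The Green operator `G` and the map `Q` to the `H¹₀` part. -/
structure GP (g : Bil n M) (A : RForm n M ι) (G : LM ι g →L[ℝ] LM ι g)
    (Q : (M → ι → ℝ) → LM ι g) : Prop where
  poinc : ∃ C : ℝ, 0 ≤ C ∧ ∀ w, V0 n w → ‖tm g w‖ ^ 2 ≤ C * renergy g A w
  symm : ∀ K K', ⟪G K, K'⟫_ℝ = ⟪K, G K'⟫_ℝ
  low : ∀ K w, V0 n w → 2 * ⟪K, tm g w⟫_ℝ - renergy g A w ≤ ⟪G K, K⟫_ℝ
  up : ∀ K (a : ℝ), 0 ≤ a → (∀ w, V0 n w → ⟪K, tm g w⟫_ℝ ^ 2 ≤ a * renergy g A w) →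
    ⟪G K, K⟫_ℝ ≤ a
  src : ∀ ψ K, RSec n ψ → (∀ w, V0 n w → rbil g A ψ w = ⟪K, tm g w⟫_ℝ) → Q ψ = G K ∧
    ∀ F, RSec n F → (rdn g A (F + ψ) - rdn g A (F - ψ)) / 4 = rbil g A F ψ - ⟪Q F, K⟫_ℝ
  dir : ∀ w, V0 n w → Q w = tm g w
  hfc : ∀ F F', RSec n F → RSec n F' → (∀ x ∈ bdM n M, F x = F' x) →
    tm g F - Q F = tm g F' - Q F'

end defs

/-- One of the two sides: metric, connection and Green package. -/
def Sd (n : ℕ) [NeZero n] (M : Type) [TopologicalSpace M]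
    [ChartedSpace (EuclideanHalfSpace n) M] [MeasurableSpace M] (ι : Type) [Fintype ι]
    [DecidableEq ι] : Type :=
  (g : Bil n M) ×' (A : RForm n M ι) ×' (G : LM ι g →L[ℝ] LM ι g) ×'
    (Q : (M → ι → ℝ) → LM ι g) ×' (IsMetric g ∧ IsSkewConn A ∧ GP g A G Q)

section rel
variable {n : ℕ} [NeZero n] {M : Type} [TopologicalSpace M]
  [ChartedSpace (EuclideanHalfSpace n) M] [MeasurableSpace M] {ι : Type} [Fintype ι]
  [DecidableEq ι]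

/-- Constructor. -/
def Sd.mk (g : Bil n M) (A : RForm n M ι) (G : LM ι g →L[ℝ] LM ι g) (Q : (M → ι → ℝ) → LM ι g)
    (hg : IsMetric g) (hA : IsSkewConn A) (gp : GP g A G Q) : Sd n M ι :=
  ⟨g, A, G, Q, hg, hA, gp⟩

def Sd.g (X : Sd n M ι) : Bil n M := X.1

def Sd.A (X : Sd n M ι) : RForm n M ι := X.2.1

def Sd.G (X : Sd n M ι) : LM ι X.g →L[ℝ] LM ι X.g := X.2.2.1

def Sd.Q (X : Sd n M ι) : (M → ι → ℝ) → LM ι X.g := X.2.2.2.1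

theorem Sd.hg (X : Sd n M ι) : IsMetric X.g := X.2.2.2.2.1

theorem Sd.hA (X : Sd n M ι) : IsSkewConn X.A := X.2.2.2.2.2.1

theorem Sd.gp (X : Sd n M ι) : GP X.g X.A X.G X.Q := X.2.2.2.2.2.2

/-- The harmonic extension of the boundary values of `F`. -/
def Sd.hf (X : Sd n M ι) (F : M → ι → ℝ) : LM ι X.g := tm X.g F - X.Q F

/-- Matched interior patches. -/
structure MI (X₁ X₂ : Sd n M ι) (Γ : Set M) (V : Set (En n)) (gc : MatF n) (Ac : ConF n ι)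
    (P₁ P₂ : Fr n M ι) : Prop where
  p₁ : IP X₁.g X₁.A V gc Ac P₁
  p₂ : IP X₂.g X₂.A V gc Ac P₂
  eq : ∀ F, Adm n Γ F → ∀ a,
    P₁.pull (cm (X₁.hf F)) a =ᵐ[volume.restrict V] P₂.pull (cm (X₂.hf F)) a

/-- Matched boundary patches. -/
structure MB (X₁ X₂ : Sd n M ι) (Γ : Set M) (R : ℝ) (gc : MatF n) (Ac : ConF n ι)
    (P₁ P₂ : Fr n M ι) : Prop where
  p₁ : BP X₁.g X₁.A R gc Ac P₁
  p₂ : BP X₂.g X₂.A R gc Ac P₂
  fm : FM Γ R P₁ P₂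

/-- The Green operators are related on `V`. -/
def GR (X₁ X₂ : Sd n M ι) (V : Set (En n)) (P₁ P₂ : Fr n M ι) : Prop :=
  ∀ (k : ι → En n → ℝ) (K₁ : LM ι X₁.g) (K₂ : LM ι X₂.g), L2On V k → Rp V P₁ k K₁ →
    Rp V P₂ k K₂ → ∀ a, P₁.pull (cm (X₁.G K₁)) a =ᵐ[volume.restrict V] P₂.pull (cm (X₂.G K₂)) a

/-- All matched patches glued to one map `Φ` with gauge `U` on the open set `O`. -/
structure Glob (X₁ X₂ : Sd n M ι) (Γ O : Set M) (Φ Ψ : M → M) (U : M → Matrix ι ι ℝ) :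
    Prop where
  opn : IsOpen O
  int : O ⊆ intM n M
  maps : ∀ x ∈ O, Φ x ∈ intM n M
  linv : ∀ x ∈ O, Ψ (Φ x) = x
  tr : ∀ V gc Ac P, IP X₂.g X₂.A V gc Ac P → P.θ '' V ⊆ O →
    MI X₁ X₂ Γ V gc Ac (P.tr Φ Ψ U) P
  uniq : ∀ V gc Ac P₁ P₂, MI X₁ X₂ Γ V gc Ac P₁ P₂ → ∀ y ∈ V,
    P₂.θ y ∈ O ∧ Φ (P₂.θ y) = P₁.θ y ∧ U (P₂.θ y) = P₁.rel P₂ y

/-- A matched ball `B(q, ρ)` whose sphere passes through the center of the patch `P₂`. -/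
structure TS (X₁ X₂ : Sd n M ι) (Γ : Set M) (R ρ : ℝ) (q : En n) (gc : MatF n) (Ac : ConF n ι)
    (P₁ P₂ : Fr n M ι) : Prop where
  big : IP X₂.g X₂.A (ball 0 R) gc Ac P₂
  pos : 0 < ρ
  nq : ‖q‖ = ρ
  posR : 0 < R
  mi : MI X₁ X₂ Γ (ball q ρ) gc Ac P₁ P₂
  sub : ball q ρ ⊆ ball 0 R
  gr : GR X₁ X₂ (ball q ρ) P₁ P₂

end rel

section stm
variable (n : ℕ) [NeZero n] (M : Type) [TopologicalSpace M]
  [ChartedSpace (EuclideanHalfSpace n) M] [MeasurableSpace M] (ι : Type) [Fintype ι]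
  [DecidableEq ι]

/-! ## Patches -/

/-- Existence of interior ball patches. -/
def M_xi : Prop := ∀ (g : Bil n M) (A : RForm n M ι), IsMetric g → IsSkewConn A →
  ∀ x ∈ intM n M, ∃ (R : ℝ) (gc : MatF n) (Ac : ConF n ι) (P : Fr n M ι), 0 < R ∧
    IP g A (ball 0 R) gc Ac P ∧ P.θ 0 = x

/-- Existence of boundary patches, the same parametrization for all pairs. -/
def M_xb : Prop := ∀ p ∈ bdM n M, ∀ O : Set M, IsOpen O → p ∈ O →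
  ∃ (R : ℝ) (θ : En n → M) (κ : M → En n), θ 0 = p ∧ θ '' Hb n R ⊆ O ∧
    ∀ (g : Bil n M) (A : RForm n M ι), IsMetric g → IsSkewConn A →
      ∃ (gc : MatF n) (Ac : ConF n ι), BP g A R gc Ac ⟨θ, κ, oneS n ι⟩

/-- Restriction of patches. -/
def M_restr : Prop := ∀ (g : Bil n M) (A : RForm n M ι) (gc : MatF n) (Ac : ConF n ι)
  (P : Fr n M ι),
    (∀ Dm O, Par g A Dm gc Ac P → IsOpen O → Par g A (Dm ∩ O) gc Ac P) ∧
    (∀ V V', IP g A V gc Ac P → IsOpen V' → V' ⊆ V → IP g A V' gc Ac P) ∧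
    (∀ R r, BP g A R gc Ac P → 0 < r → r ≤ R → BP g A r gc Ac P) ∧
    (∀ R V, BP g A R gc Ac P → IsOpen V → V ⊆ Up n R → IP g A V gc Ac P) ∧
    (∀ R gc' Ac', BP g A R gc Ac P → GA gc' Ac' →
      (∀ y ∈ Hb n R, (∀ i j, gc' i j y = gc i j y) ∧ ∀ i a a', Ac' i a a' y = Ac i a a' y) →
      BP g A R gc' Ac' P) ∧
    ∀ V z, IP g A V gc Ac P → IP g A ((fun y => y + z) ⁻¹' V) (fun i j y => gc i j (y + z))
      (fun i a a' y => Ac i a a' (y + z)) (P.shift z)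

/-- Being an interior patch is a local property. -/
def M_local : Prop := ∀ (g : Bil n M) (A : RForm n M ι) (gc : MatF n) (Ac : ConF n ι)
  (P : Fr n M ι) (V : Set (En n)), IsOpen V → Bornology.IsBounded V → GA gc Ac →
    (∀ y ∈ V, ∃ (V' : Set (En n)) (P' : Fr n M ι), y ∈ V' ∧ V' ⊆ V ∧ IP g A V' gc Ac P' ∧
      ∀ z ∈ V', P.θ z = P'.θ z ∧ P.κ (P.θ z) = z ∧ ∀ a a', P.S a a' z = P'.S a a' z) →
    IP g A V gc Ac P

/-- Smoothness and smooth extension of pulled back sections. -/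
def M_pull : Prop := ∀ (g : Bil n M) (A : RForm n M ι) (gc : MatF n) (Ac : ConF n ι)
  (P : Fr n M ι) (F : M → ι → ℝ), RSec n F →
    (∀ Dm, Par0 g A Dm gc Ac P → SmOn Dm (P.pull F)) ∧
    (∀ V y r, IP g A V gc Ac P → closedBall y r ⊆ V →
      ∃ v, SmV v ∧ ∀ a, EqOn (v a) (P.pull F a) (closedBall y r)) ∧
    ∀ R r, BP g A R gc Ac P → r < R → ∃ v, SmV v ∧ ∀ a, EqOn (v a) (P.pull F a) (Hb n r)

/-- Pushing test fields forward. -/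
def M_push : Prop := ∀ (g : Bil n M) (A : RForm n M ι) (gc : MatF n) (Ac : ConF n ι)
  (P : Fr n M ι) (Dm O : Set (En n)) (ψ : ι → En n → ℝ), Par g A Dm gc Ac P →
    (∀ y ∈ Dm, ∀ a, P.pull (P.push Dm ψ) a y = ψ a y) ∧
    (Tests O ψ → (∀ K, IsCompact K → K ⊆ O → IsCompact (K ∩ Dm)) → RSec n (P.push Dm ψ) ∧
      ∃ K, IsCompact K ∧ K ⊆ Dm ∧ K ⊆ O ∧ ∀ x, x ∉ P.θ '' K → P.push Dm ψ x = 0)

/-- Pushed test fields: the two cases that are used. -/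
def M_push2 : Prop := ∀ (g : Bil n M) (A : RForm n M ι) (gc : MatF n) (Ac : ConF n ι)
  (P : Fr n M ι) (ψ : ι → En n → ℝ),
    (∀ V, IP g A V gc Ac P → Tests V ψ → V0 n (P.push V ψ)) ∧
    (∀ r (Γ : Set M), BP g A r gc Ac P → Tests (ball 0 r) ψ → RSec n (P.push (Hb n r) ψ) ∧
      ((∀ y ∈ Hb n r, y 0 = 0 → P.θ y ∈ Γ) → Adm n Γ (P.push (Hb n r) ψ))) ∧
    ∀ r (Γ : Set M) (g' : Bil n M) (A' : RForm n M ι) (gc' : MatF n) (Ac' : ConF n ι)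
      (P' : Fr n M ι), BP g A r gc Ac P → BP g' A' r gc' Ac' P' → FM Γ r P P' →
      ∀ ψ' : ι → En n → ℝ, (∀ y ∈ Hb n r, y 0 = 0 → ∀ a, ψ a y = ψ' a y) →
        ∀ x ∈ bdM n M, P.push (Hb n r) ψ x = P'.push (Hb n r) ψ' x

/-- Transition maps are isometries. -/
def M_trans : Prop := ∀ (g : Bil n M) (A : RForm n M ι) (D₁ V : Set (En n)) (gc₁ gc : MatF n)
  (Ac₁ Ac : ConF n ι) (P₁ P : Fr n M ι), IsSkewConn A → Par g A D₁ gc₁ Ac₁ P₁ →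
    IP g A V gc Ac P → P.θ '' V ⊆ P₁.θ '' D₁ →
    Iso gc₁ Ac₁ gc Ac V (P₁.tau P) (P₁.tauS P) ∧ InjOn (P₁.tau P) V ∧
      MapsTo (P₁.tau P) V D₁ ∧ ∀ y ∈ V, P₁.θ (P₁.tau P y) = P.θ y ∧
        (∀ a b, P.S a b y = ∑ e, P₁.tauS P a e y * P₁.S e b (P₁.tau P y)) ∧
        ∀ F a, P.pull F a y = ∑ b, P₁.tauS P a b y * P₁.pull F b (P₁.tau P y)

/-- Composition of a pre-patch with an isometry. -/
def M_comp0 : Prop := ∀ (g : Bil n M) (A : RForm n M ι) (Dm D' : Set (En n)) (gc gc' : MatF n)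
  (Ac Ac' : ConF n ι) (P : Fr n M ι) (Φ Ψ : En n → En n) (S : ι → ι → En n → ℝ),
    Par0 g A Dm gc Ac P → UniqueDiffOn ℝ D' → MeasurableSet D' → Bornology.IsBounded D' →
    GA gc' Ac' → Iso gc Ac gc' Ac' D' Φ S → (∀ y ∈ D', ContDiffAt ℝ ∞ Φ y) →
    (∀ y ∈ D', ∀ a a', ContDiffAt ℝ ∞ (S a a') y) → MapsTo Φ D' Dm →
    Par0 g A D' gc' Ac' (P.comp Φ Ψ S)

/-- Composition of patches with isometries. -/
def M_comp : Prop := ∀ (g : Bil n M) (A : RForm n M ι) (gc gc' : MatF n) (Ac Ac' : ConF n ι)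
  (P : Fr n M ι) (Φ : En n → En n) (S : ι → ι → En n → ℝ), GA gc' Ac' →
    (∀ U V, IP g A U gc Ac P → IsOpen V → Bornology.IsBounded V → Iso gc Ac gc' Ac' V Φ S →
      InjOn Φ V → MapsTo Φ V U → IP g A V gc' Ac' (P.comp Φ (Function.invFunOn Φ V) S)) ∧
    ∀ R r, BP g A R gc Ac P → 0 < r → FlatIso gc Ac gc' Ac' r Φ S → ∃ r' : ℝ, 0 < r' ∧ r' ≤ r ∧
      r' ≤ R ∧ BP g A r' gc' Ac' (P.comp Φ (Function.invFunOn Φ (ball 0 r)) S)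

/-- Two frames with the same coefficients give a local relation. -/
def M_loc : Prop := ∀ (g₁ g₂ : Bil n M) (A₁ A₂ : RForm n M ι) (Dm : Set (En n)) (gc : MatF n)
  (Ac : ConF n ι) (P₁ P₂ : Fr n M ι), IsSkewConn A₁ → Par0 g₁ A₁ Dm gc Ac P₁ →
    Par g₂ A₂ Dm gc Ac P₂ → LocRel g₁ A₁ g₂ A₂ (P₂.θ '' Dm) (fun x => P₁.θ (P₂.κ x))
      fun x => P₁.rel P₂ (P₂.κ x)

/-- Every point has a nice neighbourhood. -/
def M_cover : Prop := ∀ (g : Bil n M) (A : RForm n M ι), IsMetric g → IsSkewConn A →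
  ∀ (x : M) (O : Set M), IsOpen O → x ∈ O → ∃ (N : Set M) (V : Set (En n)) (gc : MatF n)
    (Ac : ConF n ι) (P : Fr n M ι), IsOpen N ∧ x ∈ N ∧ N ⊆ O ∧ IP g A V gc Ac P ∧
      Convex ℝ V ∧ V.Nonempty ∧ P.θ '' V = N ∩ intM n M ∧
      (∀ f : M → ℝ, ContMDiff (𝓡∂ n) 𝓘(ℝ, ℝ) ∞ f → ∃ v, Sm v ∧ EqOn v (fun y => f (P.θ y)) V) ∧
      ∀ F, RSec n F → ∃ v, SmV v ∧ ∀ a, EqOn (v a) (P.pull F a) V

/-- Topology of the interior. -/
def M_conn : Prop := ∀ (g : Bil n M) (A : RForm n M ι), IsMetric g → IsSkewConn A →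
  IsOpen (intM n M) ∧ Dense (intM n M) ∧ IsPreconnected (intM n M) ∧
    ∀ (O : Set M) (s : ℝ) (gc : MatF n) (Ac : ConF n ι) (P : Fr n M ι), IsOpen O →
      IsPreconnected O → 0 < s → IP g A (ball 0 (2 * s)) gc Ac P →
      P.θ '' ball 0 (2 * s) ⊆ O → IsPreconnected (O \ P.θ '' closedBall 0 s)

/-- An interior patch on a convex set has a limit at every boundary point of the set. -/
def M_lim : Prop := ∀ (g : Bil n M) (A : RForm n M ι), IsMetric g → IsSkewConn A →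
  ∀ (V : Set (En n)) (gc : MatF n) (Ac : ConF n ι) (P : Fr n M ι), IP g A V gc Ac P →
    Convex ℝ V → ∀ y₀ ∈ closure V, ∃ x, Tendsto P.θ (𝓝[V] y₀) (𝓝 x)

/-! ## Measure and energy in a patch -/

/-- The volume in a patch. -/
def M_vol0 : Prop := ∀ (g : Bil n M) (A : RForm n M ι) (Dm : Set (En n)) (gc : MatF n)
  (Ac : ConF n ι) (P : Fr n M ι), IsMetric g → Par g A Dm gc Ac P →
    (vol g).restrict (P.θ '' Dm) =
      Measure.map P.θ ((volume.restrict Dm).withDensity fun y => ENNReal.ofReal (sdet gc y))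

/-- Integrals in a patch. -/
def M_vol : Prop := ∀ (g : Bil n M) (A : RForm n M ι) (Dm V : Set (En n)) (gc : MatF n)
  (Ac : ConF n ι) (P : Fr n M ι), IsMetric g → Par g A Dm gc Ac P → MeasurableSet V → V ⊆ Dm →
    MeasurableSet (P.θ '' V) ∧ vol g (P.θ '' V) < ⊤ ∧
    (∀ f : M → ℝ, ∫ x in P.θ '' V, f x ∂(vol g) = ∫ y in V, sdet gc y * f (P.θ y)) ∧
    (∀ f : M → ℝ, IntegrableOn f (P.θ '' V) (vol g) ↔ IntegrableOn (fun y => f (P.θ y)) V) ∧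
    (∀ f : M → ℝ, MemLp f 2 ((vol g).restrict (P.θ '' V)) ↔
      MemLp (fun y => f (P.θ y)) 2 (volume.restrict V)) ∧
    ∀ p : M → Prop, (∀ᵐ x ∂(vol g), x ∈ P.θ '' V → p x) ↔ ∀ᵐ y ∂(volume.restrict V), p (P.θ y)

/-- The energy density in a patch. -/
def M_dens : Prop := ∀ (g : Bil n M) (A : RForm n M ι) (Dm : Set (En n)) (gc : MatF n)
  (Ac : ConF n ι) (P : Fr n M ι) (F F' : M → ι → ℝ), IsMetric g → Par0 g A Dm gc Ac P →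
    RSec n F → RSec n F' → ∀ y ∈ interior Dm,
      eden gc Ac (P.pull F) (P.pull F') y = sdet gc y * rbd g A F F' (P.θ y)

/-- Finiteness. -/
def M_fin : Prop := ∀ (g : Bil n M) (A : RForm n M ι), IsMetric g → IsSkewConn A →
  IsFiniteMeasure (vol g) ∧ vol g (bdM n M) = 0 ∧
    ∀ F F' : M → ι → ℝ, RSec n F → RSec n F' → Integrable (rbd g A F F') (vol g)

/-- Algebra of smooth sections, of the energy and of `tm`. -/
def M_alg : Prop := ∀ (g : Bil n M) (A : RForm n M ι), IsMetric g → IsSkewConn A →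
  RSec n (0 : M → ι → ℝ) ∧ (∀ (F : M → ι → ℝ) x, 0 ≤ rbd g A F F x) ∧
    (∀ (F F' : M → ι → ℝ) x, rbd g A F F' x = rbd g A F' F x) ∧
    (∀ (F F' : M → ι → ℝ) x, F =ᶠ[𝓝 x] 0 → rbd g A F F' x = 0) ∧
    (∀ K K' : LM ι g, ⟪K, K'⟫_ℝ = ∫ x, ∑ a, cm K x a * cm K' x a ∂(vol g)) ∧
    (∀ K K' : LM ι g, (∀ᵐ x ∂(vol g), cm (K - K') x = cm K x - cm K' x) ∧
      ∀ᵐ x ∂(vol g), cm (K + K') x = cm K x + cm K' x) ∧
    ∀ F F' : M → ι → ℝ, RSec n F → RSec n F' → RSec n (F + F') ∧ RSec n (F - F') ∧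
      (∀ c : ℝ, RSec n (c • F) ∧ tm g (c • F) = c • tm g F ∧
        rbil g A (c • F) F' = c * rbil g A F F') ∧
      tm g (F + F') = tm g F + tm g F' ∧ tm g (F - F') = tm g F - tm g F' ∧
      (∀ᵐ x ∂(vol g), cm (tm g F) x = F x) ∧ ‖tm g F‖ ^ 2 = ∫ x, ∑ a, F x a ^ 2 ∂(vol g) ∧
      rbil g A F F' = rbil g A F' F ∧ 0 ≤ renergy g A F ∧
      ∀ F'', RSec n F'' → rbil g A (F + F') F'' = rbil g A F F'' + rbil g A F' F'' ∧
        rbil g A (F - F') F'' = rbil g A F F'' - rbil g A F' F''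

/-- `L²` sections in a patch. -/
def M_l2 : Prop := ∀ (g : Bil n M) (A : RForm n M ι) (Dm V : Set (En n)) (gc : MatF n)
  (Ac : ConF n ι) (P : Fr n M ι), IsMetric g → IsSkewConn A → Par g A Dm gc Ac P →
    MeasurableSet V → V ⊆ Dm →
    (∀ K : LM ι g, L2On V (P.pull (cm K))) ∧
    (∀ F, RSec n F → L2On V (P.pull F) ∧
      ∀ a, P.pull (cm (tm g F)) a =ᵐ[volume.restrict V] P.pull F a) ∧
    (∀ (K K' : LM ι g) a, P.pull (cm (K - K')) a =ᵐ[volume.restrict V]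
      fun y => P.pull (cm K) a y - P.pull (cm K') a y) ∧
    (∀ W : M → ι → ℝ, (∀ a, P.pull W a =ᵐ[volume.restrict V] 0) ↔
      ∀ᵐ x ∂(vol g), x ∈ P.θ '' V → W x = 0) ∧
    ∀ k (K : LM ι g) F, Rp V P k K → RSec n F →
      ⟪K, tm g F⟫_ℝ = ∑ a, ∫ y in V, k a y * P.pull F a y

/-- Sources given in a patch. -/
def M_rep : Prop := ∀ (g : Bil n M) (A : RForm n M ι) (Dm V : Set (En n)) (gc : MatF n)
  (Ac : ConF n ι) (P : Fr n M ι), IsMetric g → IsSkewConn A → Par g A Dm gc Ac P →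
    MeasurableSet V → V ⊆ Dm →
    (∃ E : HL n ι V →L[ℝ] LM ι g, ∃ E' : LM ι g →L[ℝ] HL n ι V,
      (∀ F K, ⟪E F, K⟫_ℝ = ⟪F, E' K⟫_ℝ) ∧ (∀ F, Rp V P (cp F) (E F)) ∧
        ∀ K a, cp (E' K) a =ᵐ[volume.restrict V] P.pull (cm K) a) ∧
    (∀ k, L2On V k → ∃ K : LM ι g, Rp V P k K) ∧
    (∀ k (K : LM ι g), Rp V P k K → ∀ᵐ x ∂(vol g), x ∉ P.θ '' V → cm K x = 0) ∧
    ∀ k (K : LM ι g) V', MeasurableSet V' → V ⊆ V' → Rp V P k K →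
      Rp V' P (fun a => V.indicator (k a)) K ∧
        (L2On V k → L2On V' fun a => V.indicator (k a))

/-- Comparison of norms and energies on the manifold and in a patch. -/
def M_cmpn : Prop := ∀ (g : Bil n M) (A : RForm n M ι) (Dm : Set (En n)) (gc : MatF n)
  (Ac : ConF n ι) (P : Fr n M ι), IsMetric g → IsSkewConn A → Par g A Dm gc Ac P →
    (∃ c : ℝ, 0 < c ∧ ∀ N, MeasurableSet N → N ⊆ Dm → ∀ F, RSec n F →
      c * nrm N (P.pull F) ≤ ∫ x in P.θ '' N, ∑ a, F x a ^ 2 ∂(vol g) ∧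
      c * ∫ x in P.θ '' N, ∑ a, F x a ^ 2 ∂(vol g) ≤ nrm N (P.pull F) ∧
      c * nrm N (P.pull F) ≤ ‖tm g F‖ ^ 2) ∧
    ∀ N, IsOpen N → N ⊆ Dm → ∀ (F : M → ι → ℝ) (v : ι → En n → ℝ), RSec n F →
      (∀ a, EqOn (v a) (P.pull F a) N) → enU N gc Ac v ≤ renergy g A F

/-- Green's formula for pushed test fields. -/
def M_green : Prop := ∀ (g : Bil n M) (A : RForm n M ι) (gc : MatF n) (Ac : ConF n ι)
  (P : Fr n M ι) (ψ : ι → En n → ℝ), IsMetric g → IsSkewConn A →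
    (∀ V, IP g A V gc Ac P → Tests V ψ → renergy g A (P.push V ψ) = enU V gc Ac ψ ∧
      ∀ w, RSec n w →
        rbil g A (P.push V ψ) w = -∑ a, ∫ y in V, (cop gc Ac).app ψ a y * P.pull w a y) ∧
    ∀ R r, BP g A R gc Ac P → 0 < r → r < R → Tests (ball 0 r) ψ →
      (∀ w, RSec n w → rbil g A (P.push (Hb n r) ψ) w = enB (Up n r) gc Ac ψ (P.pull w)) ∧
      (∀ ψ', Tests (ball 0 r) ψ' → rbil g A (P.push (Hb n r) ψ) (P.push (Hb n r) ψ') =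
        enB (Up n r) gc Ac ψ ψ') ∧
      ∀ w, V0 n w → rbil g A (P.push (Hb n r) ψ) w =
        -∑ a, ∫ y in Up n r, (cop gc Ac).app ψ a y * P.pull w a y

/-! ## The Green package -/

/-- Poincare inequality in a strip along the boundary. -/
def M_strip : Prop := ∀ (g : Bil n M) (A : RForm n M ι) (R r : ℝ) (gc : MatF n) (Ac : ConF n ι)
  (P : Fr n M ι), IsMetric g → IsSkewConn A → BP g A R gc Ac P → r < R → ∃ C : ℝ, 0 ≤ C ∧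
    ∀ h : ℝ, 0 < h → ∀ w, V0 n w →
      ∫ x in P.θ '' (Hb n r ∩ {y | y 0 ≤ h}), ∑ a, w x a ^ 2 ∂(vol g) ≤
        C * h ^ 2 * renergy g A w

/-- Poincare inequality. -/
def M_poinc : Prop := ∀ (g : Bil n M) (A : RForm n M ι), IsMetric g → IsSkewConn A →
  (bdM n M).Nonempty → ∃ C : ℝ, 0 ≤ C ∧ ∀ w, V0 n w → ‖tm g w‖ ^ 2 ≤ C * renergy g A w

def M_gp : Prop := ∀ (g : Bil n M) (A : RForm n M ι), IsMetric g → IsSkewConn A →
  (bdM n M).Nonempty → ∃ G Q, GP g A G Q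

/-- The weak equations satisfied by `G K` and by harmonic extensions. -/
def M_src : Prop := ∀ (X : Sd n M ι) (gc : MatF n) (Ac : ConF n ι) (P : Fr n M ι)
  (ψ : ι → En n → ℝ),
    (∀ V, IP X.g X.A V gc Ac P → Tests V ψ →
      (∀ K, ∑ a, ∫ y in V, P.pull (cm (X.G K)) a y * (cop gc Ac).app ψ a y =
        -⟪K, tm X.g (P.push V ψ)⟫_ℝ) ∧
      (∀ K, Rp V P (fun a y => -(cop gc Ac).app ψ a y) K → X.G K = tm X.g (P.push V ψ)) ∧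
      ∀ F, RSec n F → ∑ a, ∫ y in V, P.pull (cm (X.hf F)) a y * (cop gc Ac).app ψ a y = 0) ∧
    ∀ R r, BP X.g X.A R gc Ac P → 0 < r → r < R → Tests (ball 0 r) ψ →
      (∀ K, ∑ a, ∫ y in Up n r, P.pull (cm (X.G K)) a y * (cop gc Ac).app ψ a y =
        ⟪K, X.hf (P.push (Hb n r) ψ)⟫_ℝ - ⟪K, tm X.g (P.push (Hb n r) ψ)⟫_ℝ) ∧
      ∀ F, RSec n F →
        (rdn X.g X.A (F + P.push (Hb n r) ψ) - rdn X.g X.A (F - P.push (Hb n r) ψ)) / 4 =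
          enB (Up n r) gc Ac ψ (P.pull F) +
            ∑ a, ∫ y in Up n r, P.pull (cm (X.Q F)) a y * (cop gc Ac).app ψ a y

/-- The Green operator seen in an interior ball. -/
def M_grn : Prop := ∀ (X : Sd n M ι) (R r : ℝ) (gc : MatF n) (Ac : ConF n ι) (P : Fr n M ι),
  IP X.g X.A (ball 0 R) gc Ac P → 0 < r → r < R →
    ∃ G' : HL n ι (ball 0 r) →L[ℝ] HL n ι (ball 0 r), IsGreen (cop gc Ac) _ G' ∧ GScale G' ∧
      ∀ F (K : LM ι X.g), Rp (ball 0 r) P (cp F) K → ∀ a,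
        cp (G' F) a =ᵐ[volume.restrict (ball 0 r)] fun y => -P.pull (cm (X.G K)) a y

/-! ## The boundary step -/

def M_cmp : Prop := ∀ (X₁ X₂ : Sd n M ι) (Γ : Set M) (R r : ℝ) (gc₁ gc₂ : MatF n)
  (Ac₁ Ac₂ : ConF n ι) (P₁ P₂ : Fr n M ι), RSame Γ X₁.g X₁.A X₂.g X₂.A →
    BP X₁.g X₁.A R gc₁ Ac₁ P₁ → BP X₂.g X₂.A R gc₂ Ac₂ P₂ → FM Γ R P₁ P₂ → 0 < r → r < R →
    Cmp gc₁ Ac₁ gc₂ Ac₂ r

/-- Estimates and Green's formula on the manifold with a cap. -/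
def M_capA : Prop := ∀ (g : Bil n M) (A : RForm n M ι) (R r : ℝ) (gc : MatF n) (Ac : ConF n ι)
  (P : Fr n M ι), IsMetric g → IsSkewConn A → BP g A R gc Ac P → 0 < r → r < R →
    (∃ C : ℝ, 0 ≤ C ∧ ∀ ψ w, Tests (ball 0 r) ψ → V0 n w → L2On (ball 0 r) (capJ P ψ w) ∧
      nrm (ball 0 r) (capJ P ψ w) ≤ C * capB g A gc Ac P r ψ w ψ w ∧ ∀ s : ℝ, 0 < s →
        nrm (ball 0 s ∩ ball 0 r) (capJ P ψ w) ≤ C * s ^ 2 * capB g A gc Ac P r ψ w ψ w) ∧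
    ∀ φ ψ w, Tests (ball 0 r) φ → Tests (ball 0 r) ψ → V0 n w →
      ∑ a, ∫ y in ball (0 : En n) r, (cop gc Ac).app φ a y * capJ P ψ w a y =
        -capB g A gc Ac P r φ 0 ψ w

/-- The Green operator of the manifold with a cap glued along the flat part. -/
def M_cap : Prop := ∀ (g : Bil n M) (A : RForm n M ι) (R r : ℝ) (gc : MatF n) (Ac : ConF n ι)
  (P : Fr n M ι), IsMetric g → IsSkewConn A → BP g A R gc Ac P → 0 < r → r < R →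
    ∃ G : HL n ι (ball 0 r) →L[ℝ] HL n ι (ball 0 r), IsGreen (cop gc Ac) _ G ∧ GScale G ∧
      (∀ F F', ⟪G F, F'⟫_ℝ = ⟪F, G F'⟫_ℝ) ∧ ∀ F, SuppIn (Lo n r) F →
        IsLUB {t | ∃ ψ, Tests (ball 0 r) ψ ∧ t = 2 * ⟪F, tl (ball 0 r) ψ⟫_ℝ -
          enU (Lo n r) gc Ac ψ - rdn g A (P.push (Hb n r) ψ)} (-⟪G F, F⟫_ℝ)

def M_bstep : Prop := ∀ (X₁ X₂ : Sd n M ι) (Γ : Set M), IsGam n Γ →
  RSame Γ X₁.g X₁.A X₂.g X₂.A → ∀ p ∈ Γ, ∃ (R : ℝ) (gc : MatF n) (Ac : ConF n ι)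
    (P₁ P₂ : Fr n M ι), MB X₁ X₂ Γ R gc Ac P₁ P₂ ∧ P₂.θ 0 = p

def M_rb : Prop := ∀ (X₁ X₂ : Sd n M ι) (Γ : Set M) (R r : ℝ) (gc : MatF n) (Ac : ConF n ι)
  (P₁ P₂ : Fr n M ι), RSame Γ X₁.g X₁.A X₂.g X₂.A → MB X₁ X₂ Γ R gc Ac P₁ P₂ → 0 < r → r < R →
    MI X₁ X₂ Γ (Up n r) gc Ac P₁ P₂

/-! ## Separation of points and gluing -/

/-- Unique continuation on the manifold. -/
def M_ucpm : Prop := ∀ (g : Bil n M) (A : RForm n M ι) (O N : Set M) (W : M → ι → ℝ),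
  IsMetric g → IsSkewConn A → IsOpen O → IsPreconnected O →
    (∀ x ∈ O, ∃ (V : Set (En n)) (gc : MatF n) (Ac : ConF n ι) (P : Fr n M ι),
      IP g A V gc Ac P ∧ x ∈ P.θ '' V ∧ WS gc Ac V (P.pull W)) →
    IsOpen N → N.Nonempty → N ⊆ O → (∀ᵐ x ∂(vol g), x ∈ N → W x = 0) →
    ∀ᵐ x ∂(vol g), x ∈ O → W x = 0

/-- Runge approximation in dual form. -/
def M_run : Prop := ∀ (X : Sd n M ι) (Γ Z : Set M) (K : LM ι X.g), IsGam n Γ → IsClosed Z →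
  Z ⊆ intM n M → IsPreconnected (intM n M \ Z) → (∀ᵐ x ∂(vol X.g), x ∉ Z → cm K x = 0) →
    (∀ F, Adm n Γ F → ⟪K, X.hf F⟫_ℝ = 0) →
    ∀ᵐ x ∂(vol X.g), x ∈ intM n M \ Z → cm (X.G K) x = 0

/-- Consequence for local solutions. -/
def M_run2 : Prop := ∀ (X : Sd n M ι) (Z : Set M) (K : LM ι X.g) (s : ℝ) (gc : MatF n)
  (Ac : ConF n ι) (P : Fr n M ι) (k W : ι → En n → ℝ), 0 < s →
    IP X.g X.A (ball 0 (2 * s)) gc Ac P →
    (∀ y ∈ ball (0 : En n) (2 * s), P.θ y ∈ Z → y ∈ closedBall (0 : En n) s) →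
    (∀ᵐ x ∂(vol X.g), x ∈ intM n M \ Z → cm (X.G K) x = 0) →
    (∀ ψ, Tests (ball 0 (2 * s)) ψ → ⟪K, tm X.g (P.push (ball 0 (2 * s)) ψ)⟫_ℝ =
      ∑ a, ∫ y in ball (0 : En n) s, k a y * ψ a y) →
    Sol (cop gc Ac) (ball 0 (2 * s)) W 0 → ∑ a, ∫ y in ball (0 : En n) s, k a y * W a y = 0

def M_sep1 : Prop := ∀ (X : Sd n M ι) (Γ : Set M) (R : ℝ) (gc : MatF n) (Ac : ConF n ι)
  (P P' : Fr n M ι), IsGam n Γ → 0 < R → MI X X Γ (ball 0 R) gc Ac P P' → P.θ 0 = P'.θ 0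

def M_sep2 : Prop := ∀ (X : Sd n M ι) (Γ : Set M) (R : ℝ) (gc : MatF n) (Ac : ConF n ι)
  (P P' : Fr n M ι), IsGam n Γ → 0 < R → MI X X Γ (ball 0 R) gc Ac P P' →
    EqOn P.θ P'.θ (ball 0 R) → ∀ a a', P.S a a' 0 = P'.S a a' 0

/-- Transfer of a matching to another patch of the second side. -/
def M_mtr : Prop := ∀ (X₁ X₂ : Sd n M ι) (Γ : Set M) (V V' : Set (En n)) (gc gc' : MatF n)
  (Ac Ac' : ConF n ι) (P₁ P₂ P₂' : Fr n M ι), MI X₁ X₂ Γ V gc Ac P₁ P₂ →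
    IP X₂.g X₂.A V' gc' Ac' P₂' → P₂'.θ '' V' ⊆ P₂.θ '' V → ∃ P₁' : Fr n M ι,
      MI X₁ X₂ Γ V' gc' Ac' P₁' P₂' ∧ ∀ z ∈ V', P₁'.θ z = P₁.θ (P₂.tau P₂' z) ∧
        P₁'.rel P₂' z = P₁.rel P₂ (P₂.tau P₂' z)

/-- Two matchings through the same point agree. -/
def M_uniq : Prop := ∀ (X₁ X₂ : Sd n M ι) (Γ : Set M) (V V' : Set (En n)) (gc gc' : MatF n)
  (Ac Ac' : ConF n ι) (P₁ P₂ P₁' P₂' : Fr n M ι), IsGam n Γ → MI X₁ X₂ Γ V gc Ac P₁ P₂ →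
    MI X₁ X₂ Γ V' gc' Ac' P₁' P₂' → ∀ y ∈ V, ∀ y' ∈ V', P₂.θ y = P₂'.θ y' →
      P₁.θ y = P₁'.θ y' ∧ P₁.rel P₂ y = P₁'.rel P₂' y'

def M_glue : Prop := ∀ (X₁ X₂ : Sd n M ι) (Γ : Set M), IsGam n Γ →
  ∃ (O : Set M) (Φ Ψ : M → M) (U : M → Matrix ι ι ℝ), Glob X₁ X₂ Γ O Φ Ψ U

/-! ## Continuation -/

/-- Pointwise relations between pushed and pulled fields on the two sides. -/
def M_prel : Prop := ∀ (X₁ X₂ : Sd n M ι) (Γ O : Set M) (Φ Ψ : M → M) (U : M → Matrix ι ι ℝ),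
  Glob X₁ X₂ Γ O Φ Ψ U → (∀ x ∈ O, (U x)ᵀ * U x = 1) ∧
    (∀ V gc Ac P, IP X₂.g X₂.A V gc Ac P → P.θ '' V ⊆ O → ∀ φ, ∀ x ∈ O,
      (P.tr Φ Ψ U).push V φ (Φ x) = U x *ᵥ P.push V φ x) ∧
    (∀ R r gb Ab B₁ B₂, MB X₁ X₂ Γ R gb Ab B₁ B₂ → r < R → MI X₁ X₂ Γ (Up n r) gb Ab B₁ B₂ →
      (∀ φ, ∀ x ∈ O, B₁.push (Hb n r) φ (Φ x) = U x *ᵥ B₂.push (Hb n r) φ x) ∧
      ∀ y ∈ Up n r, ∀ F a, (B₂.tr Φ Ψ U).pull F a y = B₁.pull F a y) ∧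
    (∀ (P : Fr n M ι) F₁ F₂ y, P.θ y ∈ O → F₁ (Φ (P.θ y)) = U (P.θ y) *ᵥ F₂ (P.θ y) →
      ∀ a, (P.tr Φ Ψ U).pull F₁ a y = P.pull F₂ a y) ∧
    ∀ (P : Fr n M ι) (F₁ F₂ : M → ι → ℝ) a y,
      P.pull (fun x => (U x)ᵀ *ᵥ F₁ (Φ x) - F₂ x) a y =
        (P.tr Φ Ψ U).pull F₁ a y - P.pull F₂ a y

/-- The Green relation on the component that contains the boundary patch. -/
def M_grel : Prop := ∀ (X₁ X₂ : Sd n M ι) (Γ O O₀ : Set M) (Φ Ψ : M → M)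
  (U : M → Matrix ι ι ℝ) (R r : ℝ) (gb gc : MatF n) (Ab Ac : ConF n ι) (B₁ B₂ P : Fr n M ι)
  (V : Set (En n)), Glob X₁ X₂ Γ O Φ Ψ U → MB X₁ X₂ Γ R gb Ab B₁ B₂ → 0 < r → r < R →
    MI X₁ X₂ Γ (Up n r) gb Ab B₁ B₂ → IsOpen O₀ → IsPreconnected O₀ → O₀ ⊆ O →
    B₂.θ '' Up n r ⊆ O₀ → IP X₂.g X₂.A V gc Ac P → P.θ '' V ⊆ O₀ →
    GR X₁ X₂ V (P.tr Φ Ψ U) P

/-- Shrinking the tangent ball. -/
def M_shrink : Prop := ∀ (X₁ X₂ : Sd n M ι) (Γ : Set M) (R ρ : ℝ) (q : En n) (gc : MatF n)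
  (Ac : ConF n ι) (P₁ P₂ : Fr n M ι) (x₁ : M) (N : Set M) (ε : ℝ),
    TS X₁ X₂ Γ R ρ q gc Ac P₁ P₂ → Tendsto P₁.θ (𝓝[ball q ρ] 0) (𝓝 x₁) → N ∈ 𝓝 x₁ → 0 < ε →
    ∃ (ρ' : ℝ) (q' : En n), TS X₁ X₂ Γ R ρ' q' gc Ac P₁ P₂ ∧ 2 * ρ' < ε ∧
      P₁.θ '' ball q' ρ' ⊆ N ∧ Tendsto P₁.θ (𝓝[ball q' ρ'] 0) (𝓝 x₁)

def M_notouch : Prop := ∀ (X₁ X₂ : Sd n M ι) (Γ : Set M) (R ρ : ℝ) (q : En n) (gc : MatF n)
  (Ac : ConF n ι) (P₁ P₂ : Fr n M ι) (x₁ : M), TS X₁ X₂ Γ R ρ q gc Ac P₁ P₂ →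
    Tendsto P₁.θ (𝓝[ball q ρ] 0) (𝓝 x₁) → x₁ ∈ intM n M

/-- The Green relation in the form needed for the local continuation theorem. -/
def M_ltrel : Prop := ∀ (X₁ X₂ : Sd n M ι) (r : ℝ) (B : Set (En n)) (g₁ g₂ : MatF n)
  (A₁ A₂ : ConF n ι) (C₁ P₁ P₂ : Fr n M ι) (G₁ G₂ : HL n ι (ball 0 r) →L[ℝ] HL n ι (ball 0 r)),
    IP X₁.g X₁.A (ball 0 r) g₁ A₁ C₁ → IP X₂.g X₂.A (ball 0 r) g₂ A₂ P₂ →
    IP X₁.g X₁.A B g₂ A₂ P₁ → B ⊆ ball 0 r → P₁.θ '' B ⊆ C₁.θ '' ball 0 r →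
    GR X₁ X₂ B P₁ P₂ →
    (∀ F (K : LM ι X₁.g), Rp (ball 0 r) C₁ (cp F) K → ∀ a,
      cp (G₁ F) a =ᵐ[volume.restrict (ball 0 r)] fun y => -C₁.pull (cm (X₁.G K)) a y) →
    (∀ F (K : LM ι X₂.g), Rp (ball 0 r) P₂ (cp F) K → ∀ a,
      cp (G₂ F) a =ᵐ[volume.restrict (ball 0 r)] fun y => -P₂.pull (cm (X₂.G K)) a y) →
    ∀ F₁ F₂ : HL n ι (ball 0 r), SuppIn (C₁.tau P₁ '' B) F₁ → SuppIn B F₂ →
      (∀ᵐ y ∂(volume.restrict B), ∀ a, cp F₂ a y = |(fderiv ℝ (C₁.tau P₁) y).det| *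
        ∑ a', C₁.tauS P₁ a a' y * cp F₁ a' (C₁.tau P₁ y)) →
      ∀ᵐ y ∂(volume.restrict B), ∀ a,
        cp (G₂ F₂) a y = ∑ a', C₁.tauS P₁ a a' y * cp (G₁ F₁) a' (C₁.tau P₁ y)

def M_cont : Prop := ∀ (X₁ X₂ : Sd n M ι) (Γ : Set M) (R ρ : ℝ) (q : En n) (gc : MatF n)
  (Ac : ConF n ι) (P₁ P₂ : Fr n M ι) (x₁ : M), TS X₁ X₂ Γ R ρ q gc Ac P₁ P₂ →
    Tendsto P₁.θ (𝓝[ball q ρ] 0) (𝓝 x₁) → x₁ ∈ intM n M →
    ∃ (r' : ℝ) (P₁' : Fr n M ι), 0 < r' ∧ MI X₁ X₂ Γ (ball 0 r') gc Ac P₁' P₂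

def M_onto : Prop := ∀ (X₁ X₂ : Sd n M ι) (Γ O : Set M) (Φ Ψ : M → M) (U : M → Matrix ι ι ℝ)
  (R r : ℝ) (gb : MatF n) (Ab : ConF n ι) (B₁ B₂ : Fr n M ι), Glob X₁ X₂ Γ O Φ Ψ U →
    MB X₁ X₂ Γ R gb Ab B₁ B₂ → 0 < r → r < R → MI X₁ X₂ Γ (Up n r) gb Ab B₁ B₂ →
    O = intM n M

/-! ## The extension to the boundary -/

/-- The output of the extension step. -/
def LocExt (X₁ X₂ : Sd n M ι) (Φ : M → M) (U : M → Matrix ι ι ℝ) : Prop :=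
  ∀ q : M, ∃ (N : Set M) (Φ' : M → M) (U' : M → Matrix ι ι ℝ), IsOpen N ∧ q ∈ N ∧
    LocRel X₁.g X₁.A X₂.g X₂.A N Φ' U' ∧ EqOn Φ' Φ (N ∩ intM n M) ∧ EqOn U' U (N ∩ intM n M)

/-- The two glued maps are inverse to each other and continuous. -/
def M_ginv : Prop := ∀ (X₁ X₂ : Sd n M ι) (Γ : Set M) (Φ Ψ Φ' Ψ' : M → M)
  (U U' : M → Matrix ι ι ℝ), Glob X₁ X₂ Γ (intM n M) Φ Ψ U →
    Glob X₂ X₁ Γ (intM n M) Φ' Ψ' U' → ∀ x ∈ intM n M, Φ' (Φ x) = x ∧ ContinuousAt Φ x ∧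
      ∃ (N : Set M) (Φ'' : M → M) (U'' : M → Matrix ι ι ℝ), IsOpen N ∧ x ∈ N ∧
        LocRel X₁.g X₁.A X₂.g X₂.A N Φ'' U'' ∧ EqOn Φ'' Φ (N ∩ intM n M) ∧
          EqOn U'' U (N ∩ intM n M)

def M_bext : Prop := ∀ (X₁ X₂ : Sd n M ι) (Γ : Set M) (Φ Ψ Φ' Ψ' : M → M)
  (U U' : M → Matrix ι ι ℝ), Glob X₁ X₂ Γ (intM n M) Φ Ψ U →
    Glob X₂ X₁ Γ (intM n M) Φ' Ψ' U' → LocExt n M ι X₁ X₂ Φ U

def M_final : Prop := ∀ (X₁ X₂ : Sd n M ι) (Γ : Set M) (Φ Ψ Φ' Ψ' : M → M)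
  (U U' : M → Matrix ι ι ℝ), Glob X₁ X₂ Γ (intM n M) Φ Ψ U →
    Glob X₂ X₁ Γ (intM n M) Φ' Ψ' U' → LocExt n M ι X₁ X₂ Φ U → LocExt n M ι X₂ X₁ Φ' U' →
    (∀ p ∈ Γ, ∃ (R r : ℝ) (gc : MatF n) (Ac : ConF n ι) (P₁ P₂ : Fr n M ι),
      MB X₁ X₂ Γ R gc Ac P₁ P₂ ∧ P₂.θ 0 = p ∧ 0 < r ∧ r < R ∧
        MI X₁ X₂ Γ (Up n r) gc Ac P₁ P₂) →
    RRel Γ X₁.g X₁.A X₂.g X₂.A

/-! ## Bundles of statements -/

/-- All Euclidean tools. -/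
structure EAll : Prop where
  lt : S_LT
  jets : S_jets
  send : S_end
  rig : S_rig
  isoInter : S_isoInter
  cop : S_cop
  weyl : S_weyl
  ucp : S_ucp
  sgreen : S_green
  sext : S_ext
  eden : E_eden
  kato : E_kato
  trans : E_trans
  hardy : E_hardy
  refl : E_refl
  scale : E_scale
  ibp1 : E_ibp1
  ibp2 : E_ibp2
  wucp : E_wucp
  ws : E_ws
  z0 : E_z0
  inv : E_inv
  isoC : E_isoC
  isobd : E_isobd
  isoext : E_isoext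
  notouch : E_notouch
  gluega : E_gluega
  gaext : E_gaext
  bstep2 : E_bstep2
  locsol : E_locsol
  tl : E_tl
  hilb : A_hilb

/-- First layer: patches. -/
structure B1 : Prop where
  hn : 3 ≤ n
  xi : M_xi n M ι
  xb : M_xb n M ι
  restr : M_restr n M ι
  loca : M_local n M ι
  pull : M_pull n M ι
  push : M_push n M ι
  push2 : M_push2 n M ι
  trans : M_trans n M ι
  comp0 : M_comp0 n M ι
  comp : M_comp n M ι
  loc : M_loc n M ι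
  cover : M_cover n M ι
  conn : M_conn n M ι
  lim : M_lim n M ι
  vol : M_vol n M ι
  dens : M_dens n M ι

/-- Second layer: measure and energy. -/
structure B2 : Prop where
  fin : M_fin n M ι
  alg : M_alg n M ι
  l2 : M_l2 n M ι
  rep : M_rep n M ι
  cmpn : M_cmpn n M ι
  green : M_green n M ι
  strip : M_strip n M ι

/-- Third layer: Green operators. -/
structure B3 : Prop where
  src : M_src n M ι
  grn : M_grn n M ι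
  cmp : M_cmp n M ι
  cap : M_cap n M ι
  ucpm : M_ucpm n M ι
  run : M_run n M ι
  run2 : M_run2 n M ι
  mtr : M_mtr n M ι
  prel : M_prel n M ι
  shrink : M_shrink n M ι
  ltrel : M_ltrel n M ι

end stm

/-! ## Small shared lemmas -/

section small
variable {n : ℕ} [NeZero n] {M : Type} [TopologicalSpace M]
  [ChartedSpace (EuclideanHalfSpace n) M] {ι : Type} [Fintype ι] [DecidableEq ι]

theorem cont0 : Continuous fun y : En n => y 0 :=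
  (EuclideanSpace.proj (𝕜 := ℝ) (0 : Fin n)).continuous

theorem isOpen_Up (r : ℝ) : IsOpen (Up n r) := isOpen_ball.inter (isOpen_lt continuous_const cont0)

theorem isOpen_Lo (r : ℝ) : IsOpen (Lo n r) := isOpen_ball.inter (isOpen_lt cont0 continuous_const)

theorem meas_Hb (r : ℝ) : MeasurableSet (Hb n r) :=
  measurableSet_ball.inter (isClosed_le continuous_const cont0).measurableSet

theorem Up_sub_Hb (r : ℝ) : Up n r ⊆ Hb n r := fun y h =>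
  ⟨h.1, (le_of_lt (show 0 < y 0 from h.2) : 0 ≤ y 0)⟩

theorem Up_mono {r R : ℝ} (h : r ≤ R) : Up n r ⊆ Up n R := fun _ hy =>
  ⟨ball_subset_ball h hy.1, hy.2⟩

theorem Hb_mono {r R : ℝ} (h : r ≤ R) : Hb n r ⊆ Hb n R := fun _ hy =>
  ⟨ball_subset_ball h hy.1, hy.2⟩

theorem Lo_mono {r R : ℝ} (h : r ≤ R) : Lo n r ⊆ Lo n R := fun _ hy =>
  ⟨ball_subset_ball h hy.1, hy.2⟩

theorem zero_mem_Hb {r : ℝ} (h : 0 < r) : (0 : En n) ∈ Hb n r := ⟨mem_ball_self h, le_refl (0 : ℝ)⟩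

theorem convex_Up (r : ℝ) : Convex ℝ (Up n r) :=
  (convex_ball 0 r).inter
    (convex_halfSpace_gt (EuclideanSpace.proj (𝕜 := ℝ) (0 : Fin n)).isLinear (0 : ℝ))

theorem Hb_sub_closure (r : ℝ) : Hb n r ⊆ closure (Up n r) := by
  intro y hy
  have hc : Continuous fun t : ℝ => y + t • (ee 0 : En n) := by fun_prop
  have h1 : Tendsto (fun t : ℝ => y + t • (ee 0 : En n)) (𝓝[>] 0) (𝓝 y) := by
    have := hc.tendsto 0
    simp only [zero_smul, add_zero] at this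
    exact this.mono_left nhdsWithin_le_nhds
  refine mem_closure_of_tendsto h1 ?_
  filter_upwards [h1 (isOpen_ball.mem_nhds hy.1), self_mem_nhdsWithin] with t ht ht0
  refine ⟨ht, ?_⟩
  have h0 : 0 ≤ y 0 := hy.2
  have h2 : 0 < t := ht0
  simp only [mem_ofPred_eq, PiLp.add_apply, PiLp.smul_apply, ee, PiLp.single_apply,
    if_true, smul_eq_mul, mul_one]
  linarith

theorem Up_nonempty {r : ℝ} (h : 0 < r) : (Up n r).Nonempty :=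
  closure_nonempty_iff.1 ⟨0, Hb_sub_closure r (zero_mem_Hb h)⟩

theorem flat_null : (volume : Measure (En n)) {y | y 0 = 0} = 0 := by
  have h := Measure.addHaar_submodule (volume : Measure (En n))
    (LinearMap.ker (EuclideanSpace.proj (𝕜 := ℝ) (0 : Fin n)).toLinearMap) (by
      intro h
      have h1 : (ee 0 : En n) ∈
          LinearMap.ker (EuclideanSpace.proj (𝕜 := ℝ) (0 : Fin n)).toLinearMap := by
        rw [h]; trivial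
      simp [ee] at h1)
  exact h

theorem Hb_ae_eq (r : ℝ) : Hb n r =ᵐ[volume] Up n r := by
  have h : ∀ᵐ y : En n, y 0 ≠ 0 := by
    rw [ae_iff]; simpa using flat_null
  filter_upwards [h] with y hy
  exact propext ⟨fun h1 => ⟨h1.1, lt_of_le_of_ne h1.2 hy.symm⟩, fun h1 => Up_sub_Hb r h1⟩

omit [NeZero n] in
theorem orth_swap {S : ι → ι → ℝ} (h : ∀ a a', ∑ e, S e a * S e a' = if a = a' then 1 else 0)
    (a a' : ι) : ∑ e, S a e * S a' e = if a = a' then 1 else 0 := by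
  have h1 : (Matrix.of S)ᵀ * Matrix.of S = 1 := by
    ext i j
    simp [Matrix.mul_apply, h, Matrix.one_apply]
  have h3 : Matrix.of S * (Matrix.of S)ᵀ = 1 := mul_eq_one_comm.1 h1
  have h2 := congrFun (congrFun h3 a) a'
  simpa [Matrix.mul_apply, Matrix.one_apply] using h2

omit [NeZero n] in
theorem Iso.mono {g₁ g₂ : MatF n} {A₁ A₂ : ConF n ι} {V V' : Set (En n)} {Φ : En n → En n}
    {S : ι → ι → En n → ℝ} (h : Iso g₁ A₁ g₂ A₂ V Φ S) (hV : V' ⊆ V) : Iso g₁ A₁ g₂ A₂ V' Φ S :=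
  ⟨h.1.mono hV, fun a a' => (h.2.1 a a').mono hV, fun y hy => h.2.2 y (hV hy)⟩

theorem int_iff_not_bd {x : M} : x ∈ intM n M ↔ x ∉ bdM n M := by
  rw [← mem_compl_iff, ModelWithCorners.compl_boundary]

omit [Fintype ι] in
theorem FM.symm {Γ : Set M} {R : ℝ} {P₁ P₂ : Fr n M ι} (h : FM Γ R P₁ P₂) : FM Γ R P₂ P₁ :=
  fun y hy h0 => ⟨(h y hy h0).1.symm, (h y hy h0).1 ▸ (h y hy h0).2.1, (h y hy h0).2.2.2,
    (h y hy h0).2.2.1⟩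

omit [Fintype ι] in
theorem FM.mono {Γ : Set M} {R r : ℝ} {P₁ P₂ : Fr n M ι} (h : FM Γ R P₁ P₂) (hr : r ≤ R) :
    FM Γ r P₁ P₂ := fun y hy h0 => h y (Hb_mono hr hy) h0

variable [MeasurableSpace M]

omit [DecidableEq ι] in
theorem rdn_congr (g : Bil n M) (A : RForm n M ι) {F F' : M → ι → ℝ}
    (h : ∀ x ∈ bdM n M, F x = F' x) : rdn g A F = rdn g A F' := by
  unfold rdn
  congr 2
  ext G
  exact and_congr_right fun _ => forall₂_congr fun x hx => by rw [h x hx]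

theorem MI.symm {X₁ X₂ : Sd n M ι} {Γ : Set M} {V : Set (En n)} {gc : MatF n} {Ac : ConF n ι}
    {P₁ P₂ : Fr n M ι} (h : MI X₁ X₂ Γ V gc Ac P₁ P₂) : MI X₂ X₁ Γ V gc Ac P₂ P₁ :=
  ⟨h.p₂, h.p₁, fun F hF a => (h.eq F hF a).symm⟩

theorem MB.symm {X₁ X₂ : Sd n M ι} {Γ : Set M} {R : ℝ} {gc : MatF n} {Ac : ConF n ι}
    {P₁ P₂ : Fr n M ι} (h : MB X₁ X₂ Γ R gc Ac P₁ P₂) : MB X₂ X₁ Γ R gc Ac P₂ P₁ :=
  ⟨h.p₂, h.p₁, h.fm.symm⟩

omit [DecidableEq ι] in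
theorem RSame.symm {Γ : Set M} {g₁ g₂ : Bil n M} {A₁ A₂ : RForm n M ι}
    (h : RSame Γ g₁ A₁ g₂ A₂) : RSame Γ g₂ A₂ g₁ A₁ := fun F h1 h2 => (h F h1 h2).symm

end small

end Vale.Agent.P088
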