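import Vale.Agent.P088.StA

/-! Moments of the dyadic sums. -/

noncomputable section

namespace Vale.Agent.P088

namespace Mom

theorem geo (k n : ℕ) : ∑ j ∈ Finset.range n,
    (if j ≤ k then (2 : ℝ) ^ j / 2 ^ k else 2 ^ k / 2 ^ j) ≤
      if n ≤ k then (2 : ℝ) ^ n / 2 ^ k else 3 - 2 * 2 ^ k / 2 ^ n := by
  induction n with
  | zero => simp
  | succ n ih =>
    rw [Finset.sum_range_succ]
    rcases lt_trichotomy n k with h | h | h
    · rw [if_pos h.le] at ih
      rw [if_pos h.le, if_pos (Nat.succ_le_of_lt h), pow_succ, mul_two, add_div]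
      linarith
    · subst h
      rw [if_pos le_rfl, div_self (by positivity)] at ih
      rw [if_pos le_rfl, if_neg (by omega), div_self (by positivity), pow_succ, mul_comm (2 : ℝ),
        div_self (by positivity)]
      linarith
    · rw [if_neg (by omega)] at ih
      rw [if_neg (by omega), if_neg (by omega), pow_succ]
      have : (2 : ℝ) * 2 ^ k / (2 ^ n * 2) = 2 ^ k / 2 ^ n := by field_simp
      have h2 : (2 : ℝ) * 2 ^ k / 2 ^ n = 2 * (2 ^ k / 2 ^ n) := by ring
      linarith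

theorem geo' (k n : ℕ) : ∑ j ∈ Finset.range n,
    (if j ≤ k then (2 : ℝ) ^ j / 2 ^ k else 2 ^ k / 2 ^ j) ≤ 3 := by
  refine (geo k n).trans ?_
  split_ifs with h
  · exact (div_le_one_of_le₀ (pow_le_pow_right₀ one_le_two h) (by positivity)).trans (by norm_num)
  · have : (0 : ℝ) ≤ 2 * 2 ^ k / 2 ^ n := by positivity
    linarith

theorem pow_exp (m : ℕ) {x : ℝ} (hx : 0 ≤ x) : x ^ m * Real.exp (-x) ≤ m.factorial := by
  have h := Real.pow_div_factorial_le_exp x hx m
  rw [div_le_iff₀ (by positivity)] at h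
  rw [Real.exp_neg, ← div_eq_mul_inv, div_le_iff₀ (Real.exp_pos x), mul_comm]
  exact h

/-- The constants. -/
def D (m : ℕ) : ℝ := Real.exp 1 * (2 ^ (m + 1) * (m + 1).factorial)

theorem one_le_fac (m : ℕ) : (1 : ℝ) ≤ m.factorial := by exact_mod_cast m.factorial_pos

theorem exp_le_D (m : ℕ) : Real.exp 1 ≤ D m :=
  le_mul_of_one_le_right (Real.exp_pos 1).le
    (one_le_mul_of_one_le_of_one_le (one_le_pow₀ one_le_two) (one_le_fac _))

theorem one_le_D (m : ℕ) : 1 ≤ D m := (Real.one_le_exp zero_le_one).trans (exp_le_D m)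

theorem D_mono {m n : ℕ} (h : m ≤ n) : D m ≤ D n := by
  unfold D
  have h1 : ((m + 1).factorial : ℝ) ≤ (n + 1).factorial := by
    exact_mod_cast Nat.factorial_le (by omega)
  gcongr
  exact one_le_two

theorem term {L y : ℝ} (hL : 0 < L) {m k j : ℕ} (hm : 1 ≤ m)
    (h1 : j ≤ k → (L * 2 ^ k - L * 2 ^ j) * y ≤ 1) (h2 : k < j → 1 / 2 ≤ L * 2 ^ k * y) :
    (L * 2 ^ j) ^ m * Real.exp (-(L * 2 ^ j * y)) ≤
      D m * ((L * 2 ^ k) ^ m * Real.exp (-(L * 2 ^ k * y))) *
        (if j ≤ k then (2 : ℝ) ^ j / 2 ^ k else 2 ^ k / 2 ^ j) := by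
  split_ifs with h
  · have a1 : Real.exp (-(L * 2 ^ j * y)) ≤ D m * Real.exp (-(L * 2 ^ k * y)) := by
      refine le_trans ?_ (mul_le_mul_of_nonneg_right (exp_le_D m) (Real.exp_pos _).le)
      rw [← Real.exp_add]
      exact Real.exp_le_exp.2 (by linarith [h1 h])
    have a2 : (L * 2 ^ j) ^ m ≤ (L * 2 ^ k) ^ m * (2 ^ j / 2 ^ k) := by
      have e : L * 2 ^ j = L * 2 ^ k * (2 ^ j / 2 ^ k) := by field_simp
      rw [e, mul_pow (L * 2 ^ k)]
      refine mul_le_mul_of_nonneg_left (pow_le_of_le_one (by positivity)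
        (div_le_one_of_le₀ (pow_le_pow_right₀ one_le_two h) (by positivity)) (by omega))
        (by positivity)
    calc _ ≤ (L * 2 ^ k) ^ m * (2 ^ j / 2 ^ k) * (D m * Real.exp (-(L * 2 ^ k * y))) :=
          mul_le_mul a2 a1 (Real.exp_pos _).le (by positivity)
      _ = _ := by ring
  · obtain ⟨l, rfl⟩ := Nat.exists_eq_add_of_le (not_le.1 h).le
    have a0 := h2 (not_le.1 h)
    have a1 : (1 : ℝ) ≤ 2 ^ l := one_le_pow₀ one_le_two
    have a2 : Real.exp (-(L * 2 ^ (k + l) * y)) ≤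
        Real.exp 1 * Real.exp (-(2 ^ l / 2)) * Real.exp (-(L * 2 ^ k * y)) := by
      rw [← Real.exp_add, ← Real.exp_add, pow_add]
      refine Real.exp_le_exp.2 ?_
      nlinarith [mul_le_mul_of_nonneg_left a0 (sub_nonneg.2 a1)]
    have a3 := pow_exp (m + 1) (x := (2 : ℝ) ^ l / 2) (by positivity)
    have a4 : ((2 : ℝ) ^ l) ^ m * Real.exp (-(2 ^ l / 2)) ≤
        2 ^ (m + 1) * (m + 1).factorial * (1 / 2 ^ l) := by
      have e : ((2 : ℝ) ^ l) ^ m = 2 ^ (m + 1) * (2 ^ l / 2) ^ (m + 1) * (1 / 2 ^ l) := by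
        rw [div_pow, pow_succ ((2 : ℝ) ^ l)]; field_simp
      rw [e]
      calc _ = 2 ^ (m + 1) * (((2 : ℝ) ^ l / 2) ^ (m + 1) * Real.exp (-(2 ^ l / 2))) *
            (1 / 2 ^ l) := by ring
        _ ≤ _ := by gcongr
    have e2 : (2 : ℝ) ^ k / 2 ^ (k + l) = 1 / 2 ^ l := by rw [pow_add]; field_simp
    calc _ ≤ (L * 2 ^ (k + l)) ^ m * (Real.exp 1 * Real.exp (-(2 ^ l / 2)) *
          Real.exp (-(L * 2 ^ k * y))) := mul_le_mul_of_nonneg_left a2 (by positivity)
      _ = Real.exp 1 * ((L * 2 ^ k) ^ m * Real.exp (-(L * 2 ^ k * y))) *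
          ((2 ^ l) ^ m * Real.exp (-(2 ^ l / 2))) := by rw [pow_add, ← mul_assoc L, mul_pow]; ring
      _ ≤ Real.exp 1 * ((L * 2 ^ k) ^ m * Real.exp (-(L * 2 ^ k * y))) *
          (2 ^ (m + 1) * (m + 1).factorial * (1 / 2 ^ l)) :=
          mul_le_mul_of_nonneg_left a4 (by positivity)
      _ = _ := by rw [e2, D]; ring

theorem cl_le {L : ℝ} (hL : 0 < L) (J : ℕ) (y : ℝ) : cl L J y ≤ L * 2 ^ J := by
  refine max_le (le_mul_of_one_le_right hL.le (one_le_pow₀ one_le_two)) ?_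
  have h : (0 : ℝ) < 1 / (L * 2 ^ J) := by positivity
  exact (one_div_le_one_div_of_le h (le_max_right _ _)).trans (by rw [one_div_one_div])

theorem ref {L : ℝ} (hL : 0 < L) (J : ℕ) (y : ℝ) : ∃ k ≤ J, L * 2 ^ k ≤ cl L J y ∧
    cl L J y ≤ 2 * (L * 2 ^ k) ∧ (k < J → 1 / 2 ≤ L * 2 ^ k * y) ∧
      ∀ j ≤ k, (L * 2 ^ k - L * 2 ^ j) * y ≤ 1 := by
  classical
  have h0 : L * 2 ^ 0 ≤ cl L J y := by rw [pow_zero, mul_one]; exact le_max_left _ _
  set k := Nat.findGreatest (fun j => L * 2 ^ j ≤ cl L J y) J with hk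
  have h1 : L * 2 ^ k ≤ cl L J y :=
    Nat.findGreatest_spec (P := fun j => L * 2 ^ j ≤ cl L J y) (Nat.zero_le J) h0
  have h2 : ∀ j, k < j → j ≤ J → cl L J y < L * 2 ^ j := fun j a b =>
    not_le.1 (Nat.findGreatest_is_greatest (P := fun j => L * 2 ^ j ≤ cl L J y) a b)
  have hkJ : k ≤ J := Nat.findGreatest_le J
  have hp : 0 < L * 2 ^ k := by positivity
  have h3 : cl L J y ≤ 2 * (L * 2 ^ k) := by
    rcases hkJ.eq_or_lt with e | e
    · have := cl_le hL J y
      rw [← e] at this ⊢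
      linarith
    · have := h2 (k + 1) (Nat.lt_succ_self k) e
      rw [pow_succ] at this
      linarith
  have hΛ : (0 : ℝ) < 1 / (L * 2 ^ J) := by positivity
  refine ⟨k, hkJ, h1, h3, fun e => ?_, fun j hj => ?_⟩
  · have a1 : 1 / max y (1 / (L * 2 ^ J)) < L * 2 ^ J :=
      (le_max_right _ _).trans_lt (h2 J e le_rfl)
    rcases le_total y (1 / (L * 2 ^ J)) with a | a
    · rw [max_eq_right a, one_div_one_div] at a1
      exact absurd a1 (lt_irrefl _)
    · have a2 : 1 / max y (1 / (L * 2 ^ J)) ≤ 2 * (L * 2 ^ k) := (le_max_right _ _).trans h3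
      rw [max_eq_left a, div_le_iff₀ (hΛ.trans_le a)] at a2
      linarith
  · have b1 : L * 2 ^ j ≤ L * 2 ^ k := by gcongr; exact one_le_two
    have b2 : L ≤ L * 2 ^ j := le_mul_of_one_le_right hL.le (one_le_pow₀ one_le_two)
    rcases le_or_gt y 0 with a | a
    · nlinarith
    · rcases le_max_iff.1 h1 with b | b
      · nlinarith
      · have b3 := b.trans (one_div_le_one_div_of_le a (le_max_left _ _))
        rw [le_div_iff₀ a] at b3
        nlinarith [mul_pos (hL.trans_le b2) a]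

end Mom

open Mom in
theorem s_mom : S_mom := by
  intro K I hK
  have hE : 1 ≤ Real.exp 1 := Real.one_le_exp zero_le_one
  have hD := one_le_D (2 * K + I)
  have hF := one_le_fac (2 * K)
  have h2 : (1 : ℝ) ≤ 2 ^ (2 * K) := one_le_pow₀ one_le_two
  set Q : ℝ := 3 * D (2 * K + I) * 2 ^ (2 * K) with hQ
  have hQ1 : 3 * D (2 * K + I) ≤ Q := le_mul_of_one_le_right (by linarith) h2
  have hQ2 : 2 ^ (2 * K) ≤ Q := le_mul_of_one_le_left (by linarith) (by linarith)
  set C : ℝ := Q * (2 * Real.exp 1 * (2 * K).factorial) with hC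
  have hEF : 1 ≤ Real.exp 1 * (2 * K).factorial := one_le_mul_of_one_le_of_one_le hE hF
  have c1 : 2 * Q ≤ C := by nlinarith
  have c2 : Q * Real.exp 1 ≤ C := by
    have : Real.exp 1 ≤ 2 * Real.exp 1 * (2 * K).factorial := by nlinarith
    exact mul_le_mul_of_nonneg_left this (by linarith)
  have c3 : Q * (2 * K).factorial ≤ C := by
    have : ((2 * K).factorial : ℝ) ≤ 2 * Real.exp 1 * (2 * K).factorial := by nlinarith
    exact mul_le_mul_of_nonneg_left this (by linarith)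
  refine ⟨C, by linarith, fun L J y hL1 => ?_⟩
  have hL : 0 < L := one_pos.trans_le hL1
  obtain ⟨k, hkJ, k1, k2, k3, k4⟩ := ref hL J y
  set c := cl L J y with hc
  set w := L * 2 ^ k with hw
  set e := Real.exp (-(w * y)) with he
  have w0 : 0 < w := by positivity
  have c0 : 0 < c := w0.trans_le k1
  have e0 : 0 < e := Real.exp_pos _
  have up : ∀ i ≤ I, dy K L J i y ≤ 3 * D (2 * K + I) * (w ^ (2 * K + i) * e) := by
    intro i hi
    refine (Finset.sum_le_sum fun j hj => term hL (k := k) (by omega) (k4 j) fun h =>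
      k3 (by have := Finset.mem_range.1 hj; omega)).trans ?_
    rw [← Finset.mul_sum]
    have := D_mono (show 2 * K + i ≤ 2 * K + I by omega)
    calc _ ≤ D (2 * K + I) * (w ^ (2 * K + i) * e) * 3 :=
          mul_le_mul (mul_le_mul_of_nonneg_right this (by positivity)) (geo' k _)
            (Finset.sum_nonneg fun j _ => by split_ifs <;> positivity) (by positivity)
      _ = _ := by ring
  have lo : ∀ i, w ^ (2 * K + i) * e ≤ dy K L J i y := fun i =>
    Finset.single_le_sum (f := fun j => (L * 2 ^ j) ^ (2 * K + i) * Real.exp (-(L * 2 ^ j * y)))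
      (fun j _ => by positivity) (Finset.mem_range.2 (Nat.lt_succ_of_le hkJ))
  have u0 := up 0 (Nat.zero_le I)
  have l0 := lo 0
  rw [add_zero] at u0 l0
  have p0 : 0 < w ^ (2 * K) * e := by positivity
  have cw : c ^ (2 * K) ≤ 2 ^ (2 * K) * w ^ (2 * K) := by
    rw [← mul_pow]; exact pow_le_pow_left₀ c0.le k2 _
  have hΛ : (0 : ℝ) < 1 / (L * 2 ^ J) := by positivity
  refine ⟨fun i hi => (up i hi).trans ?_, ?_, ?_, u0.trans ?_, fun hy => u0.trans ?_,
    le_max_left _ _, cl_le hL J y, fun y' h => ?_, fun y' h => ?_⟩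
  · calc _ = 3 * D (2 * K + I) * w ^ i * (w ^ (2 * K) * e) := by rw [pow_add]; ring
      _ ≤ _ := by gcongr; linarith
  · calc _ ≤ 2 * w * (3 * D (2 * K + I) * (w ^ (2 * K) * e)) :=
          mul_le_mul k2 u0 (p0.le.trans l0) (by positivity)
      _ = 2 * (3 * D (2 * K + I)) * (w ^ (2 * K + 1) * e) := by rw [pow_succ]; ring
      _ ≤ _ := mul_le_mul (by linarith) (lo 1) (by positivity) (by linarith)
  · have a1 : Real.exp (-(L * max y 0)) ≤ Real.exp 1 * e := by
      rw [he, ← Real.exp_add]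
      refine Real.exp_le_exp.2 ?_
      have := k4 0 (Nat.zero_le k)
      rw [pow_zero, mul_one] at this
      nlinarith [mul_le_mul_of_nonneg_left (le_max_left y 0) hL.le]
    calc _ ≤ 2 ^ (2 * K) * w ^ (2 * K) * (Real.exp 1 * e) :=
          mul_le_mul cw a1 (Real.exp_pos _).le (by positivity)
      _ = 2 ^ (2 * K) * Real.exp 1 * (w ^ (2 * K) * e) := by ring
      _ ≤ _ := mul_le_mul ((mul_le_mul_of_nonneg_right hQ2 (by linarith)).trans c2) l0 p0.le
          (by linarith)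
  · have a1 : e ≤ Real.exp (c * max (-y) 0) := by
      refine Real.exp_le_exp.2 ?_
      nlinarith [mul_le_mul_of_nonneg_left (le_max_left (-y) 0) w0.le,
        mul_le_mul_of_nonneg_right k1 (le_max_right (-y) 0)]
    rw [mul_assoc C]
    gcongr
    linarith
  · rw [le_div_iff₀ (by positivity)]
    have a1 := pow_exp (2 * K) (x := w * y) (by positivity)
    calc _ = 3 * D (2 * K + I) * ((w * y) ^ (2 * K) * e) := by rw [mul_pow]; ring
      _ ≤ Q * (2 * K).factorial := mul_le_mul hQ1 a1 (by positivity) (by linarith)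
      _ ≤ C := c3
  · exact max_le_max le_rfl (one_div_le_one_div_of_le (hΛ.trans_le (le_max_right _ _))
      (max_le_max h le_rfl))
  · have a0 : L ≤ c := le_max_left _ _
    refine max_le (by linarith) ?_
    have a1 : 1 / max y (1 / (L * 2 ^ J)) ≤ c := le_max_right _ _
    have a2 : max y (1 / (L * 2 ^ J)) - max y' (1 / (L * 2 ^ J)) ≤ |y' - y| := by
      rw [abs_sub_comm]
      exact (le_abs_self _).trans (abs_max_sub_max_le_abs _ _ _)
    rw [div_le_iff₀ (hΛ.trans_le (le_max_right _ _))] at a1 ⊢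
    nlinarith [mul_le_mul_of_nonneg_right a2 c0.le]

end Vale.Agent.P088
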