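import Vale.Agent.P088.StN

/-!
# P088: assembly of the estimate in the innermost zone
-/

noncomputable section
namespace Vale.Agent.P088

theorem s_NZ (hF : S_fock) (hE : S_frame) (b : S_NZB) (m : S_NZM) (z : S_NZ1) (hN : S_NZN)
    (hO : S_OUT) : S_NZ := by
  intro n hn ι _ f hf
  obtain ⟨F, hFo⟩ := hF n
  obtain ⟨CE, om₀, hCE, hom₀, hfr⟩ := hE n 6
  obtain ⟨Cb, hCb, hb⟩ := b n ι f hf
  obtain ⟨Cm, hCm, hm⟩ := m n ι f hf
  obtain ⟨Cz, hCz, hz⟩ := z n hn ι f hf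
  obtain ⟨Cn, hCn, hn'⟩ := hN n ι f hf
  obtain ⟨Co, -, ho⟩ := hO n ι f hf
  obtain ⟨P, hP⟩ : ∃ P, P = Cn * Cz * Cm := ⟨_, rfl⟩
  have h1 : 1 ≤ Cn * Cz := one_le_mul_of_one_le_of_one_le hCn hCz
  have hP1 : 1 ≤ P := hP ▸ one_le_mul_of_one_le_of_one_le h1 hCm
  refine ⟨4 * P * Cb, by nlinarith, fun k η hk hη => ?_⟩
  obtain ⟨e, he⟩ : ∃ e, e = η / (4 * P) := ⟨_, rfl⟩
  have he0 : 0 < e := by rw [he]; positivity
  have heP : e * P = η / 4 := by rw [he]; field_simp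
  obtain ⟨ε₁, hε₁, hm⟩ := hm k e hk he0
  obtain ⟨ε₂, hε₂, hz⟩ := hz k e hk he0
  obtain ⟨ε, hε⟩ : ∃ ε, ε = min 1 (min ε₁ ε₂) := ⟨_, rfl⟩
  have hε0 : 0 < ε := by rw [hε]; positivity
  have hom : 0 < min om₀ (ε / CE) := by positivity
  refine ((((((hb k e hk he0).and hm).and hz).and (hn' k e hk he0)).and (ho 1 one_pos)).and
    (Ev.ok f hom 0)).mono ?_
  rintro c ⟨⟨⟨⟨⟨cb, cm⟩, cz⟩, cn⟩, co⟩, cok⟩ g q hT
  obtain ⟨-, -, -, -, -, -, -, -, s2, y2, n2, -⟩ := cok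
  obtain ⟨E, hE1, hE2, hE3⟩ := hfr c.γ₂ _ s2 y2 (min_le_left _ _) (n2.mono_k (by norm_num))
  have hle : CE * min om₀ (ε / CE) ≤ ε := by
    have := mul_le_mul_of_nonneg_left (min_le_right om₀ (ε / CE)) (by linarith : 0 ≤ CE)
    rwa [mul_div_cancel₀ _ (by linarith : CE ≠ 0)] at this
  have fr : ∀ ε', ε ≤ ε' → FrOk c E ε' := fun ε' h => ⟨hE1, hE2.mono (hle.trans h), hE3⟩
  obtain ⟨K₁, k1⟩ := cz F E g q hFo
    (fr _ (hε ▸ (min_le_right _ _).trans (min_le_right _ _))) hT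
  obtain ⟨K₂, k2⟩ := cn F E g q hFo (fr _ (hε ▸ min_le_left _ _)) hT
  have a1 := k1 (max K₁ K₂) (le_max_left _ _)
  have a2 := k2 (max K₁ K₂) (le_max_right _ _)
  have a3 := cm F E g q hFo (fr _ (hε ▸ (min_le_right _ _).trans (min_le_left _ _))) hT
    (max K₁ K₂)
  have a4 := cb g q hT
  obtain ⟨-, -, -, -, -, p1, -, p3, -, p5, p6, p7, p8, -, -, -, -, -, -, p9, -⟩ := co g q hT
  have p6 := p6 1
  generalize SqF f c g F E k (max K₁ K₂) = sF at *
  generalize SqS f c g F E k (max K₁ K₂) = sS at *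
  generalize GGt f c g q k = gt at *
  generalize I0 (nl f c) (Nk f c k) g = I at *
  generalize GG f c g q = G at *
  generalize Rr f c g q 1 = R at *
  generalize NN f c g = N at *
  generalize V2 f c g q = V at *
  have hA : 0 ≤ A1 f c g q + A3 f c g q + Gn f c g q := by linarith
  generalize A1 f c g q + A3 f c g q + Gn f c g q = A at *
  have b1 := mul_le_mul_of_nonneg_left a1 (by linarith : 0 ≤ Cn)
  have b2 := mul_le_mul_of_nonneg_left a3 (by linarith : 0 ≤ Cn * Cz)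
  have b3 := mul_le_mul_of_nonneg_left a4 (by linarith : 0 ≤ P)
  have hS : 0 ≤ e * (R + N + V) := by positivity
  have hP2 : Cn * Cz ≤ P := hP ▸ le_mul_of_one_le_right (by linarith) hCm
  have hP3 : Cn ≤ P := (le_mul_of_one_le_right (by linarith) hCz).trans hP2
  have c1 := mul_le_mul_of_nonneg_right hP2 hS
  have c2 : Cn * (e * (N + V)) ≤ P * (e * (R + N + V)) :=
    mul_le_mul hP3 (mul_le_mul_of_nonneg_left (by linarith) he0.le) (by positivity) (by linarith)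
  have c3 : e * N ≤ P * (e * (R + N + V)) :=
    (mul_le_mul_of_nonneg_left (by linarith) he0.le).trans (le_mul_of_one_le_left hS hP1)
  have c4 : P * (e * (R + N + V)) = η / 4 * (R + N + V) := by rw [← heP]; ring
  have c5 : P * (4 * G) ≤ 4 * P * Cb * G := by
    have := mul_le_mul_of_nonneg_left hCb (by positivity : 0 ≤ 4 * P * G)
    linarith
  have c6 : P * (Cb / k * A) ≤ 4 * P * Cb / k * A := by
    have : 0 ≤ P * (Cb / k * A) := by
      have : 0 < k := by linarith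
      have : 0 ≤ Cb := by linarith
      positivity
    have e : 4 * P * Cb / k * A = 4 * (P * (Cb / k * A)) := by ring
    linarith
  have c7 : Cn * Cz * (Cm * gt) = P * gt := by rw [hP]; ring
  nlinarith

end Vale.Agent.P088
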