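import Vale.Agent.P088.StN
import Vale.Agent.P088.SbAlg

/-!
P088: the chain inequality applied to the moments
-/

open MeasureTheory Set Metric
open scoped ContDiff Topology

noncomputable section
namespace Vale.Agent.P088
open Vale.Agent.P136 (D Dp Dm Sm Tst)

namespace NZ1

theorem ex_small {X Y : ℝ} (hX : 0 ≤ X) (hY : 0 < Y) :
    ∃ t₀ : ℝ, 0 < t₀ ∧ ∀ t, 0 ≤ t → t ≤ t₀ → X * t ≤ Y := by
  refine ⟨Y / (X + 1), by positivity, fun t ht h => ?_⟩
  rw [le_div_iff₀ (by positivity)] at h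
  nlinarith

theorem cube {φ L θ : ℝ} (hφ : 0 < φ) (hL : 1 ≤ L) (hθ : 0 < θ) (hθ1 : θ ≤ 1)
    (h : L ^ 20 ≤ θ ^ 2 * φ ^ 2) : φ * L ^ 3 ≤ θ * φ ^ 2 ∧ L ^ 4 ≤ θ * φ ^ 2 := by
  have h1 : L ^ 3 ≤ θ * φ := by
    refine (pow_le_pow_iff_left₀ (by positivity) (by positivity) two_ne_zero).1 ?_
    rw [← pow_mul, mul_pow]
    exact (pow_le_pow_right₀ hL (by norm_num)).trans h
  have h2 : L ^ 4 ≤ L ^ 20 := pow_le_pow_right₀ hL (by norm_num)
  have h3 : θ ^ 2 * φ ^ 2 ≤ θ * φ ^ 2 :=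
    mul_le_mul_of_nonneg_right (by nlinarith) (by positivity)
  exact ⟨by nlinarith, by linarith⟩

theorem sqrt_le {t : ℝ} (ht : 1 ≤ t) : √t ≤ t := Real.sqrt_le_iff.2 ⟨by linarith, by nlinarith⟩

theorem small {φ L θ t B om C c : ℝ} (hφ : 0 < φ) (hL : 1 ≤ L) (hθ : 0 < θ) (hθ1 : θ ≤ 1)
    (h : L ^ 20 ≤ θ ^ 2 * φ ^ 2) (ht : 1 ≤ t) (htB : t ≤ B * L) (hom : 0 ≤ om) (hC : 0 ≤ C)
    (h1 : 2 * C * B ^ 2 * θ ≤ c / 4) (h2 : C * B * om ≤ c / 4) :
    C * (φ * √t * L + t * L ^ 2 + om * φ ^ 2 / L) ≤ 1 / 2 * (c * φ ^ 2 / t) := by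
  obtain ⟨h3, h4⟩ := cube hφ hL hθ hθ1 h
  have hL0 : 0 < L := by linarith
  have ht0 : 0 < t := by linarith
  have h5 : t ^ 2 ≤ B ^ 2 * L ^ 2 := by
    rw [← mul_pow]; exact pow_le_pow_left₀ ht0.le htB 2
  have e1 : φ * √t * L * t ≤ B ^ 2 * (θ * φ ^ 2) := by
    calc φ * √t * L * t ≤ φ * t * L * t := by gcongr; exact sqrt_le ht
      _ = φ * L * t ^ 2 := by ring
      _ ≤ φ * L * (B ^ 2 * L ^ 2) := by gcongr
      _ = B ^ 2 * (φ * L ^ 3) := by ring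
      _ ≤ _ := by gcongr
  have e2 : t * L ^ 2 * t ≤ B ^ 2 * (θ * φ ^ 2) := by
    calc t * L ^ 2 * t = L ^ 2 * t ^ 2 := by ring
      _ ≤ L ^ 2 * (B ^ 2 * L ^ 2) := by gcongr
      _ = B ^ 2 * L ^ 4 := by ring
      _ ≤ _ := by gcongr
  have e3 : om * φ ^ 2 / L * t ≤ B * om * φ ^ 2 := by
    calc om * φ ^ 2 / L * t ≤ om * φ ^ 2 / L * (B * L) := by gcongr
      _ = _ := by field_simp
  rw [← mul_div_assoc, le_div_iff₀ ht0]
  have e4 := mul_le_mul_of_nonneg_left (add_le_add (add_le_add e1 e2) e3) hC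
  have e5 := mul_le_mul_of_nonneg_right (add_le_add h1 h2) (sq_nonneg φ)
  linarith

theorem crude {φ L θ t om : ℝ} (hφ : 0 < φ) (hL : 1 ≤ L) (hθ : 0 < θ) (hθ1 : θ ≤ 1)
    (h : L ^ 20 ≤ θ ^ 2 * φ ^ 2) (ht : 1 ≤ t) (hom : om ≤ 1) :
    φ * √t * L + t * L ^ 2 + om * φ ^ 2 / L ≤ 3 * (φ ^ 2 * t) := by
  obtain ⟨h3, h4⟩ := cube hφ hL hθ hθ1 h
  have hL0 : 0 < L := by linarith
  have h0 : θ * φ ^ 2 ≤ φ ^ 2 := mul_le_of_le_one_left (by positivity) hθ1
  have h5 : φ * L ≤ φ ^ 2 :=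
    (mul_le_mul_of_nonneg_left (le_self_pow₀ hL (by norm_num)) hφ.le).trans (h3.trans h0)
  have h6 : L ^ 2 ≤ φ ^ 2 := (pow_le_pow_right₀ hL (by norm_num)).trans (h4.trans h0)
  have e1 : φ * √t * L ≤ φ ^ 2 * t := by
    calc φ * √t * L = φ * L * √t := by ring
      _ ≤ φ ^ 2 * t := mul_le_mul h5 (sqrt_le ht) (by positivity) (by positivity)
  have e2 : t * L ^ 2 ≤ φ ^ 2 * t := by
    rw [mul_comm]; exact mul_le_mul_of_nonneg_right h6 (by linarith)
  have e3 : om * φ ^ 2 / L ≤ φ ^ 2 * t := by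
    rw [div_le_iff₀ hL0]
    have h7 : om * φ ^ 2 ≤ φ ^ 2 := mul_le_of_le_one_left (by positivity) hom
    have h8 : 1 ≤ t * L := one_le_mul_of_one_le_of_one_le ht hL
    have h9 := mul_le_mul_of_nonneg_left h8 (sq_nonneg φ)
    linarith
  linarith

theorem tail {a L θ k A T : ℝ} {m : ℕ} (ha : 0 < a) (hL : 1 ≤ L) (hθ : 1 ≤ θ * L) (hk : 1 ≤ k)
    (hA : 0 ≤ A) (hlog : Real.log a ≤ A * L) (hm : 4 * (A + T + 1) * k * L ≤ (m : ℝ) + 1) :
    a * ((m : ℝ) + 1) * (((m : ℝ) + 1) ^ 2 * Real.exp (T * k * L) / 2 ^ m) ≤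
      2592 * θ * (4 / 5) ^ m := by
  set t : ℝ := (m : ℝ) + 1 with ht
  have ht0 : 0 < t := by positivity
  have h1 : t ^ 3 ≤ 1296 * Real.exp (t / 6) := by
    have := Real.pow_div_factorial_le_exp (t / 6) (by positivity) 3
    norm_num [Nat.factorial] at this
    linarith
  have h2 : Real.exp (2 / 3 * t) ≤ 2 * 2 ^ m := by
    have h3 : Real.exp (2 / 3) ≤ 2 := by
      rw [← Real.le_log_iff_exp_le two_pos]
      linarith [Real.log_two_gt_d9]
    rw [mul_comm, ht, ← Nat.cast_succ, Real.exp_nat_mul, ← pow_succ']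
    exact pow_le_pow_left₀ (by positivity) h3 _
  have h3 : Real.exp (-(t / 4)) ≤ (4 / 5) ^ m := by
    have h4 : Real.exp (-(1 / 4)) ≤ 4 / 5 := by
      rw [Real.exp_neg, inv_le_comm₀ (by positivity) (by norm_num)]
      linarith [Real.add_one_le_exp (1 / 4 : ℝ)]
    calc Real.exp (-(t / 4)) ≤ Real.exp (m * -(1 / 4)) := Real.exp_le_exp.2 (by rw [ht]; linarith)
      _ ≤ _ := by rw [Real.exp_nat_mul]; exact pow_le_pow_left₀ (by positivity) h4 _
  have h4 : a * Real.exp (T * k * L) * Real.exp (-(t / 4)) ≤ θ := by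
    have h5 : L ≤ k * L := le_mul_of_one_le_left (by linarith) hk
    have h6 : A * L ≤ A * (k * L) := mul_le_mul_of_nonneg_left h5 hA
    have h7 : a * Real.exp (T * k * L) * Real.exp (-(t / 4)) ≤ Real.exp (-L) := by
      rw [← Real.exp_log ha, ← Real.exp_add, ← Real.exp_add]
      exact Real.exp_le_exp.2 (by linarith)
    refine h7.trans ?_
    rw [Real.exp_neg, inv_le_iff_one_le_mul₀ (by positivity)]
    have h8 : 0 ≤ θ := by
      by_contra h9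
      nlinarith
    have h9 : θ * L ≤ θ * Real.exp L :=
      mul_le_mul_of_nonneg_left (by linarith [Real.add_one_le_exp L]) h8
    linarith
  have h5 : Real.exp (t / 6) =
      Real.exp (-(t / 4)) * Real.exp (-(t / 4)) * Real.exp (2 / 3 * t) := by
    rw [← Real.exp_add, ← Real.exp_add]; congr 1; ring
  rw [← mul_div_assoc, div_le_iff₀ (by positivity)]
  calc a * t * (t ^ 2 * Real.exp (T * k * L)) = a * Real.exp (T * k * L) * t ^ 3 := by ring
    _ ≤ a * Real.exp (T * k * L) * (1296 * Real.exp (t / 6)) := by gcongr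
    _ = 1296 * (a * Real.exp (T * k * L) * Real.exp (-(t / 4))) * Real.exp (-(t / 4)) *
        Real.exp (2 / 3 * t) := by rw [h5]; ring
    _ ≤ 1296 * θ * (4 / 5) ^ m * (2 * 2 ^ m) := by
        have : 0 ≤ θ := le_trans (by positivity) h4
        gcongr
    _ = _ := by ring

theorem geo (K : ℕ) : ∑ m ∈ Finset.range K, (4 / 5 : ℝ) ^ m ≤ 5 := by
  have h := (summable_geometric_of_lt_one (r := (4 / 5 : ℝ)) (by norm_num)
    (by norm_num)).sum_le_tsum (Finset.range K) (fun _ _ => by positivity)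
  rw [tsum_geometric_of_lt_one (by norm_num) (by norm_num)] at h
  norm_num at h ⊢
  exact h

theorem sumint {X : Type} [MeasurableSpace X] {μ : Measure X} {u e g : ℕ → X → ℝ} {l I : X → ℝ}
    {K : ℕ} {C c η T : ℝ} (hu : ∀ m, Integrable (u m) μ) (he : ∀ m, Integrable (e m) μ)
    (hg : ∀ m, Integrable (g m) μ) (hl : Integrable l μ) (hI : Integrable I μ)
    (hI0 : 0 ≤ ∫ x, I x ∂μ) (hη : 0 ≤ η)
    (P1 : ∀ m x, C * e m x ≤ 1 / 2 * u m x + η * (4 / 5) ^ m * I x)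
    (P2 : ∀ x, C * e K x + C * l x ≤ η * I x) (P3 : ∀ m x, c * g m x ≤ u m x)
    (H : (∑ m ∈ Finset.range K, ∫ x, u m x ∂μ) -
      C * (∑ m ∈ Finset.range (K + 1), ∫ x, e m x ∂μ) - C * ∫ x, l x ∂μ ≤ T) :
    c / 2 * ∑ m ∈ Finset.range K, ∫ x, g m x ∂μ ≤ T + 6 * η * ∫ x, I x ∂μ := by
  have h1 : ∀ m, C * ∫ x, e m x ∂μ ≤
      1 / 2 * ∫ x, u m x ∂μ + η * (∫ x, I x ∂μ) * (4 / 5) ^ m := by
    intro m
    have := integral_mono ((he m).const_mul C)
      (((hu m).const_mul (1 / 2)).add (hI.const_mul (η * (4 / 5) ^ m))) (P1 m)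
    simp only [Pi.add_apply] at this
    rw [integral_add ((hu m).const_mul _) (hI.const_mul _), integral_const_mul,
      integral_const_mul, integral_const_mul] at this
    linarith
  have h2 : C * ∫ x, e K x ∂μ + C * ∫ x, l x ∂μ ≤ η * ∫ x, I x ∂μ := by
    have := integral_mono (((he K).const_mul C).add (hl.const_mul C)) (hI.const_mul η) P2
    simp only [Pi.add_apply] at this
    rwa [integral_add ((he K).const_mul _) (hl.const_mul _), integral_const_mul,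
      integral_const_mul, integral_const_mul] at this
  have h3 : ∀ m, c * ∫ x, g m x ∂μ ≤ ∫ x, u m x ∂μ := by
    intro m
    have := integral_mono ((hg m).const_mul c) (hu m) (P3 m)
    rwa [integral_const_mul] at this
  have h4 := Finset.sum_le_sum fun m (_ : m ∈ Finset.range K) => h1 m
  have h5 := Finset.sum_le_sum fun m (_ : m ∈ Finset.range K) => h3 m
  rw [Finset.sum_add_distrib, ← Finset.mul_sum, ← Finset.mul_sum, ← Finset.mul_sum] at h4
  rw [← Finset.mul_sum] at h5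
  rw [Finset.sum_range_succ] at H
  have h6 := mul_le_mul_of_nonneg_left (geo K) (mul_nonneg hη hI0)
  linarith

variable {n : ℕ} {ι : Type}

theorem near_eE {c : Cx n ι} {E : MatF n} {δ : ℝ} (hδ : δ ≤ 1) (hγ : SmM c.γ₁)
    (hs : SymM c.γ₁) (hE : SmM E) (h1 : Near 4 δ c.γ₁) (h2 : Near 4 δ E) :
    Near 4 ((16 * n + 2) * δ) (eE c E) := by
  intro a i x
  have hc : ∀ (γ : MatF n), SmM γ → ∀ i j, ContDiffAt ℝ ∞
      (fun y => γ i j y - if i = j then 1 else 0) x :=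
    fun γ h i j => ((h i j).sub contDiff_const).contDiffAt
  have h3 := SbAlg.sum zero_le_one Finset.univ _ (fun _ => 2 ^ 4 * δ * δ)
    (fun j _ => (hc _ hγ i j).mul (hc _ hE a j))
    (fun j _ => SbAlg.mul zero_le_one (hc _ hγ i j) (hc _ hE a j) (h1 i j x) (h2 a j x))
  have h4 := SbAlg.add (ContDiffAt.sum fun j _ => (hc _ hγ i j).mul (hc _ hE a j))
    ((hc _ hγ a i).add (hc _ hE a i)) h3
    (SbAlg.add (hc _ hγ a i) (hc _ hE a i) (h1 a i x) (h2 a i x))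
  have h0 : 0 ≤ δ := SbAlg.nonneg (h1 a i x)
  refine SbAlg.mono zero_le_one (SbAlg.congr (Filter.Eventually.of_forall fun y => ?_) h4)
    le_rfl ?_ le_rfl
  · simp only [eE, sub_mul, mul_sub, Finset.sum_sub_distrib, mul_ite, ite_mul, mul_one, one_mul,
      mul_zero, zero_mul, Finset.sum_ite_eq, Finset.mem_univ, if_true]
    rw [hs a i, if_congr (eq_comm (a := i) (b := a)) rfl rfl]
    ring
  · rw [Finset.sum_const, Finset.card_univ, Fintype.card_fin, nsmul_eq_mul]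
    have : (n : ℝ) * (δ * δ) ≤ n * δ :=
      mul_le_mul_of_nonneg_left (mul_le_of_le_one_left h0 hδ) (Nat.cast_nonneg n)
    linarith

theorem n2_nonneg (ζ : Fin n → ℝ) : 0 ≤ n2 ζ := Finset.sum_nonneg fun _ _ => sq_nonneg _

theorem nzD_nonneg (Cw : ℝ) (L : En n → ℝ) (m : ℕ) {J : Type} [Fintype J] (F : J → En n → ℝ)
    (x : En n) : 0 ≤ nzD Cw L m F x :=
  Finset.sum_nonneg fun _ _ => by positivity

theorem nzD_zero (Cw : ℝ) (L : En n → ℝ) (m : ℕ) {J : Type} [Fintype J] {F : J → En n → ℝ}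
    {S : Set (En n)} (h : Tests S F) {x : En n} (hx : x ∉ S) : nzD Cw L m F x = 0 := by
  refine Finset.sum_eq_zero fun j _ => ?_
  have h1 : x ∉ tsupport (F j) := fun h' => hx ((h j).2 h')
  simp [P136.D_eq_zero_of_notMem h1, image_eq_zero_of_notMem_tsupport h1]

theorem nzD_int (Cw : ℝ) {L : En n → ℝ} (hL : Sm L) (m : ℕ) {J : Type} [Fintype J]
    {F : J → En n → ℝ} {S : Set (En n)} (h : Tests S F) {w : En n → ℝ} (hw : Continuous w) :
    Integrable fun x => w x * nzD Cw L m F x :=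
  Tst.integrable_cmul hw (Tst.sum _ fun j _ => (Tst.sum _ fun _ _ => ((h j).1.D _).sq).add
    (Tst.mul_left ((hL.cmul _).pow 2) (h j).1.sq))

theorem nzD_low {Cw : ℝ} (hC : 1 ≤ Cw) (L : En n → ℝ) (m : ℕ) {J : Type} [Fintype J]
    (F : J → En n → ℝ) (x : En n) :
    ((m : ℝ) + 1) ^ 2 * L x ^ 2 * ∑ j, F j x ^ 2 ≤ nzD Cw L m F x := by
  rw [Finset.mul_sum]
  refine Finset.sum_le_sum fun j _ => ?_
  have h1 : ((m : ℝ) + 1) ^ 2 ≤ lamk n Cw m ^ 2 := by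
    refine pow_le_pow_left₀ (by positivity) ?_ 2
    have : (0 : ℝ) ≤ n / 2 := by positivity
    unfold lamk; linarith
  have h2 : 0 ≤ ∑ i, D (ee i) (F j) x ^ 2 := by positivity
  have h3 := mul_le_mul_of_nonneg_right h1 (by positivity : 0 ≤ L x ^ 2 * F j x ^ 2)
  rw [mul_pow]
  linarith

/-- The integrand of the tail bound. -/
def Kf (f : Fx) (c : Cx n ι) (k : ℝ) (u : X2 n → ℝ) : X2 n → ℝ :=
  (Nk f c (2 * k)).indicator fun p => n2 (zx f c u p) + aX f c p.1 * u p ^ 2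

theorem sm_parts {f : Fx} {c : Cx n ι} (h : W0 f c) :
    Sm (QQ c) ∧ Sm (FF f c) ∧ Sm (vv f c) ∧ Sm (Psi f c) ∧ Sm (phi f c) ∧ Sm (nl f c) ∧
      Sm (aX f c) ∧ Sm (LX f c) ∧ Sm (lX f c) := by
  obtain ⟨⟨-, -, -, -, h1, -, h2, h3, -, h4, -, -, -, -, -, -, -, h5, -, -, -, -, h6, -, -, -, -,
    -, -, -, -, -, -, -, -, -, -, h7, h8, h9, -⟩, -⟩ := h
  exact ⟨h1, h2, h3, h4, h5, h6, h7, h8, h9⟩

theorem Kf_nonneg {f : Fx} {c : Cx n ι} (h : W0 f c) (k : ℝ) (u : X2 n → ℝ) (p : X2 n) :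
    0 ≤ Kf f c k u p :=
  indicator_nonneg (fun p _ => add_nonneg (n2_nonneg _)
    (mul_nonneg (h.2.1 p.1).1.le (sq_nonneg _))) p

theorem tst_n2 {f : Fx} {c : Cx n ι} (h : W0 f c) {u : X2 n → ℝ} (hu : Tst u) :
    Tst fun p => n2 (zx f c u p) :=
  Tst.sum _ fun _ _ => (Tst.Dm (sm_parts h).2.2.2.2.1 hu _).sq

theorem Kf_int {f : Fx} {c : Cx n ι} (h : W0 f c) (k : ℝ) {u : X2 n → ℝ} (hu : Tst u) :
    Integrable (Kf f c k u) := by
  obtain ⟨-, -, h3, h4, -, -, h7, -, -⟩ := sm_parts h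
  refine Integrable.indicator ((tst_n2 h hu).integrable.add
    (Tst.integrable_cmul (h7.cont.comp continuous_fst) hu.sq)) ?_
  exact (isClosed_le h4.cont (continuous_const.mul h3.cont)).measurableSet

theorem Kf_le {f : Fx} {c : Cx n ι} (h : W0 f c) (hL : 1 ≤ c.L0) {k C : ℝ}
    (h8 : ∀ p ∈ Om2 c, W8 f c C k p) {u : X2 n → ℝ} (hu : Tst u) (hs : tsupport u ⊆ Om2 c) :
    ∫ x, ∫ y, Kf f c k u (x, y) ≤
      (∫ p in Nr f c 16, nl f c p * u p ^ 2) + ∫ p in univ, vv f c p ^ 2 * n2 (zx f c u p) := by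
  obtain ⟨h1, h2, h3, -, -, h6, -, -, -⟩ := sm_parts h
  have hm : MeasurableSet (Nr f c 16) :=
    (isClosed_le ((h1.cont.pow 2).mul h2.cont) continuous_const).measurableSet
  have i1 : Integrable ((Nr f c 16).indicator fun p => nl f c p * u p ^ 2) :=
    (Tst.integrable_cmul h6.cont hu.sq).indicator hm
  have i2 : Integrable fun p => vv f c p ^ 2 * n2 (zx f c u p) :=
    Tst.integrable_cmul (h3.cont.pow 2) (tst_n2 h hu)
  have e1 : ∫ x, ∫ y, Kf f c k u (x, y) = ∫ p, Kf f c k u p :=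
    (integral_prod _ (Kf_int h k hu)).symm
  rw [e1, Measure.restrict_univ, ← integral_indicator hm, ← integral_add i1 i2]
  refine integral_mono (Kf_int h k hu) (i1.add i2) fun p => ?_
  obtain ⟨a0, a1, -⟩ := h.2.1 p.1
  obtain ⟨b0, -, b1, b2, -⟩ := h.2.2.1 p
  have hP : 0 ≤ Psi f c p := mul_nonneg (le_trans (by positivity) b0) b1.le
  have hn : aX f c p.1 ≤ nl f c p := by
    have c1 : 1 ≤ LX f c p.1 ^ 2 := one_le_pow₀ (hL.trans a1)
    have c2 : 1 ≤ LX f c p.1 ^ 2 * (1 + Psi f c p) :=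
      one_le_mul_of_one_le_of_one_le c1 (by linarith)
    rw [nl, mul_assoc]
    exact le_mul_of_one_le_right a0.le c2
  have hz := n2_nonneg (zx f c u p)
  have hv : n2 (zx f c u p) ≤ vv f c p ^ 2 * n2 (zx f c u p) :=
    le_mul_of_one_le_left hz (one_le_pow₀ (hL.trans b2))
  have hi : 0 ≤ (Nr f c 16).indicator (fun p => nl f c p * u p ^ 2) p := by
    by_cases hp : p ∈ Nr f c 16
    · rw [indicator_of_mem hp]
      exact mul_nonneg (a0.le.trans hn) (sq_nonneg _)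
    · rw [indicator_of_notMem hp]
  show Kf f c k u p ≤ (Nr f c 16).indicator (fun p => nl f c p * u p ^ 2) p +
    vv f c p ^ 2 * n2 (zx f c u p)
  by_cases hp : p ∈ Nk f c (2 * k)
  · rw [Kf, indicator_of_mem hp]
    by_cases hO : p ∈ Om2 c
    · have h9 : p ∈ Nr f c 16 := le_trans (h8 p hO hp).1 (by norm_num : (1 : ℝ) ≤ 16)
      rw [indicator_of_mem h9]
      have := mul_le_mul_of_nonneg_right hn (sq_nonneg (u p))
      linarith
    · rw [image_eq_zero_of_notMem_tsupport fun h' => hO (hs h')]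
      linarith
  · rw [Kf, indicator_of_notMem hp]
    linarith

theorem chain {f : Fx} {c : Cx n ι} {E : MatF n} {δ C L₀ : ℝ} (h : W0 f c) (hδ : δ ≤ 1)
    (hC : 1 ≤ C) (hc : c.Ok f δ L₀) (hE : FrOk c E δ) (hx : ∀ x, ‖x‖ ≤ 2 → W1x f c C x) :
    ChainOk c.γ₁ (eE c E) (lX f c) (4 * C) ((16 * n + 2) * δ) (LX f c)
      (closedBall c.p0 (1 / 2)) := by
  obtain ⟨-, hL, -, -, hp, g1, g2, g3, -⟩ := hc
  obtain ⟨-, -, -, -, -, -, -, s8, s9⟩ := sm_parts h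
  have h0 : 0 ≤ (n : ℝ) := Nat.cast_nonneg n
  refine ⟨g1, g2, fun i j x => ?_, fun a i => Sm.sum fun j _ => (g1 i j).mul (hE.1 a j),
    near_eE hδ g1 g2 hE.1 (g3.mono_k (by norm_num)) (hE.2.1.mono_k (by norm_num)), s9, s8.cont,
    fun x => hL.trans (h.2.1 x).2.1, fun x hx' => ?_⟩
  · have h1 : 0 ≤ δ := SbAlg.nonneg (g3 i j x)
    exact SbAlg.mono zero_le_one (g3 i j x) (by norm_num) (by nlinarith) le_rfl
  · rw [mem_closedBall, dist_eq_norm] at hx'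
    have h1 : ‖x‖ ≤ 2 := by
      have := norm_add_le (x - c.p0) c.p0
      rw [sub_add_cancel] at this
      linarith
    have h2 : 1 / 2 ≤ ‖x‖ := by
      have := norm_sub_le x (x - c.p0)
      rw [sub_sub_cancel] at this
      linarith
    obtain ⟨-, -, -, w4, w5, -⟩ := hx x h1
    have h3 : 1 ≤ LX f c x := hL.trans (h.2.1 x).2.1
    refine ⟨fun l hl hl' => (w4 l hl (hl'.trans (by norm_num))).trans ?_, ?_, fun ξ => ?_⟩
    · exact mul_le_mul_of_nonneg_right (by linarith) (by positivity)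
    · simp only [(h.2.1 x).2.2.2.2, mul_pow]
      rw [← Finset.mul_sum, ← EuclideanSpace.real_norm_sq_eq]
      have h4 : 1 ≤ 4 * C * ‖x‖ ^ 2 := by nlinarith
      have h5 := mul_le_mul_of_nonneg_left h4 (sq_nonneg (LX f c x))
      linarith
    · exact (mul_nonneg (by linarith) (n2_nonneg ξ)).trans (w5 ξ)

theorem one {f : Fx} {c : Cx n ι} (h : W0 f c) (hL : 1 ≤ c.L0) (hw : 1 ≤ f.Cw) {F : Fock n}
    {G : (m : ℕ) → Fin (F.d m) → En n → ℝ} {S : Set (En n)} (hG : ∀ m, Tests S (G m))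
    {I : En n → ℝ} (hI : Integrable I) (hI0 : ∀ x, 0 ≤ I x) {A T k θ om C c₀ η R : ℝ} {K : ℕ}
    (hA : 0 ≤ A) (hT : 0 ≤ T) (hk : 1 ≤ k) (hθ : 0 < θ) (hθ1 : θ ≤ 1) (hom : 0 ≤ om)
    (hom1 : om ≤ 1) (hC : 0 ≤ C) (hc : 0 < c₀)
    (e1 : 2 * C * (4 * (A + T + 1) * k) ^ 2 * θ ≤ c₀ / 4)
    (e2 : C * (4 * (A + T + 1) * k) * om ≤ c₀ / 4) (e3 : 4 * C * T * 2592 * θ ≤ η)
    (ht : ∀ (m : ℕ) x, nzD f.Cw (LX f c) m (G m) x ≤
      T * ((m : ℝ) + 1) ^ 2 * Real.exp (T * k * LX f c x) / 2 ^ m * I x)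
    (hS : ∀ x ∈ S, LX f c x ^ 20 ≤ θ ^ 2 * aX f c x ∧ 1 ≤ θ * LX f c x ∧
      Real.log (aX f c x) ≤ A * LX f c x ∧ 4 * (A + T + 1) * k * LX f c x ≤ (K : ℝ) + 1)
    (H : (∑ m ∈ Finset.range K, ∫ x, (c₀ * Real.exp (2 * lX f c x) / (m + 1)) *
        nzD f.Cw (LX f c) m (G m) x) -
      C * (∑ m ∈ Finset.range (K + 1), ∫ x, (Real.exp (lX f c x) * √((m : ℝ) + 1) * LX f c x +
        (m + 1) * LX f c x ^ 2 + om * Real.exp (2 * lX f c x) / LX f c x) *
          nzD f.Cw (LX f c) m (G m) x) -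
      C * ∫ x, Real.exp (2 * lX f c x) * (K + 1) * nzD f.Cw (LX f c) K (G K) x ≤ R) :
    c₀ / 2 * ∑ m ∈ Finset.range K, ∫ x, aX f c x * LX f c x ^ 2 * ((m : ℝ) + 1) *
      ∑ j, G m j x ^ 2 ≤ R + 6 * η * ∫ x, I x := by
  obtain ⟨-, -, -, -, -, -, s7, s8, s9⟩ := sm_parts h
  have c7 := s7.cont
  have c8 := s8.cont
  have c9 := s9.cont
  have hL1 : ∀ x, 1 ≤ LX f c x := fun x => hL.trans (h.2.1 x).2.1
  have hη : 0 ≤ η := le_trans (by positivity) e3
  have hφ : ∀ x, Real.exp (2 * lX f c x) = Real.exp (lX f c x) ^ 2 := fun x => by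
    rw [← Real.exp_nat_mul]; rfl
  have ha : ∀ x, aX f c x = Real.exp (lX f c x) ^ 2 := fun x => by
    rw [← hφ, (h.2.1 x).2.2.2.1]
  have big : ∀ (m : ℕ) x, x ∈ S → 4 * (A + T + 1) * k * LX f c x ≤ (m : ℝ) + 1 →
      4 * C * (aX f c x * ((m : ℝ) + 1) * nzD f.Cw (LX f c) m (G m) x) ≤
        η * (4 / 5) ^ m * I x := by
    intro m x hx hm
    obtain ⟨-, q2, q3, -⟩ := hS x hx
    have a0 := (h.2.1 x).1
    have q5 := tail a0 (hL1 x) q2 hk hA q3 hm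
    have q6 := hI0 x
    calc 4 * C * (aX f c x * ((m : ℝ) + 1) * nzD f.Cw (LX f c) m (G m) x)
        ≤ 4 * C * (aX f c x * ((m : ℝ) + 1) *
          (T * ((m : ℝ) + 1) ^ 2 * Real.exp (T * k * LX f c x) / 2 ^ m * I x)) := by
          gcongr; exact ht m x
      _ = 4 * C * T * (aX f c x * ((m : ℝ) + 1) *
          (((m : ℝ) + 1) ^ 2 * Real.exp (T * k * LX f c x) / 2 ^ m)) * I x := by ring
      _ ≤ 4 * C * T * (2592 * θ * (4 / 5) ^ m) * I x := by gcongr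
      _ = 4 * C * T * 2592 * θ * (4 / 5) ^ m * I x := by ring
      _ ≤ _ := by gcongr
  have crd : ∀ (m : ℕ) x, x ∈ S → C * ((Real.exp (lX f c x) * √((m : ℝ) + 1) * LX f c x +
      (m + 1) * LX f c x ^ 2 + om * Real.exp (2 * lX f c x) / LX f c x) *
        nzD f.Cw (LX f c) m (G m) x) ≤
      3 * C * (aX f c x * ((m : ℝ) + 1) * nzD f.Cw (LX f c) m (G m) x) := by
    intro m x hx
    have q1 := (hS x hx).1
    rw [ha] at q1
    have q2 := crude (t := (m : ℝ) + 1) (Real.exp_pos _) (hL1 x) hθ hθ1 q1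
      (by linarith [Nat.cast_nonneg (α := ℝ) m]) hom1
    have q3 := mul_le_mul_of_nonneg_left (mul_le_mul_of_nonneg_right q2
      (nzD_nonneg f.Cw (LX f c) m (G m) x)) hC
    rw [hφ, ha]
    linarith
  have ce : ∀ m : ℕ, Continuous fun x => Real.exp (lX f c x) * √((m : ℝ) + 1) * LX f c x +
      (m + 1) * LX f c x ^ 2 + om * Real.exp (2 * lX f c x) / LX f c x := fun m =>
    Continuous.add (by fun_prop)
      (Continuous.div (by fun_prop) c8 fun x => (zero_lt_one.trans_le (hL1 x)).ne')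
  refine sumint (fun m => nzD_int _ s8 m (hG m) (by fun_prop))
    (fun m => nzD_int _ s8 m (hG m) (ce m))
    (fun m => Tst.integrable_cmul (by fun_prop) (Tst.sum _ fun j _ => (hG m j).1.sq))
    (nzD_int _ s8 K (hG K) (by fun_prop)) hI (integral_nonneg hI0) hη ?_ ?_ ?_ H
  · intro m x
    have q0 := nzD_nonneg f.Cw (LX f c) m (G m) x
    have q1 : 0 ≤ η * (4 / 5) ^ m * I x := mul_nonneg (by positivity) (hI0 x)
    by_cases hx : x ∈ S
    · rcases le_total ((m : ℝ) + 1) (4 * (A + T + 1) * k * LX f c x) with hm | hm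
      · have q2 := (hS x hx).1
        rw [ha] at q2
        have q3 := small (Real.exp_pos _) (hL1 x) hθ hθ1 q2
          (by linarith [Nat.cast_nonneg (α := ℝ) m]) hm hom hC e1 e2
        have q4 := mul_le_mul_of_nonneg_right q3 q0
        rw [hφ]
        linarith
      · have q2 := big m x hx hm
        have q3 := crd m x hx
        have a0 := (h.2.1 x).1
        have q4 : 0 ≤ C * (aX f c x * ((m : ℝ) + 1) * nzD f.Cw (LX f c) m (G m) x) := by
          positivity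
        have q5 : 0 ≤ c₀ * Real.exp (2 * lX f c x) / (m + 1) * nzD f.Cw (LX f c) m (G m) x := by
          positivity
        linarith
    · rw [nzD_zero _ _ _ (hG m) hx]
      linarith
  · intro x
    have q1 : η * (4 / 5) ^ K * I x ≤ η * I x := by
      rw [mul_assoc]
      exact mul_le_mul_of_nonneg_left (mul_le_of_le_one_left (hI0 x)
        (pow_le_one₀ (by norm_num) (by norm_num))) hη
    by_cases hx : x ∈ S
    · have q2 := big K x hx (hS x hx).2.2.2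
      have q3 := crd K x hx
      rw [(h.2.1 x).2.2.2.1] at q3 ⊢
      linarith
    · rw [nzD_zero _ _ _ (hG K) hx]
      have := mul_nonneg hη (hI0 x)
      linarith
  · intro m x
    have q1 := nzD_low hw (LX f c) m (G m) x
    have a0 := (h.2.1 x).1
    rw [(h.2.1 x).2.2.2.1]
    calc c₀ * (aX f c x * LX f c x ^ 2 * ((m : ℝ) + 1) * ∑ j, G m j x ^ 2)
        = c₀ * aX f c x / (m + 1) * (((m : ℝ) + 1) ^ 2 * LX f c x ^ 2 * ∑ j, G m j x ^ 2) := by
          field_simp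
      _ ≤ _ := by gcongr

end NZ1

open NZ1 in
theorem s_NZ1 (h0 : S_w0) (hx : S_w1x) (h2 : S_w2) (h8 : S_w8) (hA : S_fockAlg) (hN : S_nzp)
    (hI : S_NZI) (hT : S_NZT) : S_NZ1 := by
  intro n hn ι _ f hf
  have hw : 1 ≤ f.Cw := hf.2.2.2.2.2.2.2.2.2.2.2.1
  obtain ⟨A, hA1, hx⟩ := hx n ι f hf
  obtain ⟨c₀, hc₀, hN⟩ := hN n hn (4 * A) (by linarith)
  obtain ⟨C, om₀, hC, hom₀, hN⟩ := hN f.Cw hw
  obtain ⟨T, hT1, hT⟩ := hT n ι f hf
  obtain ⟨C₂, -, h2⟩ := h2 n ι f hf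
  obtain ⟨C₈, -, h8⟩ := h8 n ι f hf
  refine ⟨max 1 (2 / c₀), le_max_left _ _, fun k η hk hη => ?_⟩
  have hB : 0 ≤ 4 * (A + T + 1) * k := by positivity
  obtain ⟨t₁, ht₁, e1⟩ := ex_small (X := 2 * C * (4 * (A + T + 1) * k) ^ 2) (Y := c₀ / 4)
    (by positivity) (by positivity)
  obtain ⟨t₂, ht₂, e2⟩ := ex_small (X := C * (4 * (A + T + 1) * k)) (Y := c₀ / 4)
    (by positivity) (by positivity)
  obtain ⟨t₃, ht₃, e3⟩ := ex_small (X := 4 * C * T * 2592) (Y := c₀ * η / 12)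
    (by positivity) (by positivity)
  obtain ⟨δ₀, hδ₀, e4⟩ := ex_small (X := 16 * (n : ℝ) + 2) (Y := min 1 (min om₀ t₂))
    (by positivity) (by positivity)
  set θ := min 1 (min t₁ t₃) with hθ
  have hθ0 : 0 < θ := by positivity
  have hθ1 : θ ≤ 1 := min_le_left _ _
  set δ := min 1 δ₀ with hδ
  have hδ0 : 0 < δ := by positivity
  have hδ1 : δ ≤ 1 := min_le_left _ _
  have e5 := e4 δ hδ0.le (min_le_right _ _)
  rw [le_min_iff, le_min_iff] at e5
  have hom : 0 ≤ (16 * (n : ℝ) + 2) * δ := by positivity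
  refine ⟨δ, hδ0, (((((h0 n ι f hf).and hx).and (h2 (θ ^ 2) (by positivity))).and
    ((h8 k hk).and (hT k hk))).and (Ev.ok f hδ0 1)).mono ?_⟩
  rintro c ⟨⟨⟨⟨w0, w1⟩, w2⟩, w8, wT⟩, hc⟩ F E g q hF hE hg
  have hch := chain w0 hδ1 hA1 hc hE w1
  have hL : 1 ≤ c.L0 := hc.1
  have hE1 : FrOk c E 1 := ⟨hE.1, hE.2.1.mono hδ1, hE.2.2⟩
  obtain ⟨Lb, hLb⟩ := (isCompact_closedBall c.p0 (1 / 2)).exists_bound_of_continuousOn
    (sm_parts w0).2.2.2.2.2.2.2.1.cont.continuousOn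
  refine ⟨⌈4 * (A + T + 1) * k * Lb⌉₊, fun K hK => ?_⟩
  have hS : ∀ x ∈ closedBall c.p0 (1 / 2), LX f c x ^ 20 ≤ θ ^ 2 * aX f c x ∧ 1 ≤ θ * LX f c x ∧
      Real.log (aX f c x) ≤ A * LX f c x ∧ 4 * (A + T + 1) * k * LX f c x ≤ (K : ℝ) + 1 := by
    intro x hx'
    have q1 := hLb x hx'
    rw [mem_closedBall, dist_eq_norm] at hx'
    obtain ⟨-, q2, -, q3, -⟩ := w2 (x, x) ⟨hx', hx'⟩
    have q4 : ‖x‖ ≤ 2 := by
      have := norm_add_le (x - c.p0) c.p0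
      rw [sub_add_cancel, hc.2.2.2.2.1] at this
      linarith
    have q5 : 1 ≤ LX f c x := hL.trans (w0.2.1 x).2.1
    refine ⟨q2, q3.trans (mul_le_mul_of_nonneg_right (by nlinarith) (by linarith)),
      (w1 x q4).2.2.2.2.2, ?_⟩
    have q6 := mul_le_mul_of_nonneg_left ((le_abs_self _).trans q1) hB
    have q7 := Nat.le_ceil (4 * (A + T + 1) * k * Lb)
    have q8 : (⌈4 * (A + T + 1) * k * Lb⌉₊ : ℝ) ≤ K := by exact_mod_cast hK
    linarith
  have key : ∀ s, c₀ / 2 * ∑ m ∈ Finset.range K, ∫ x, aX f c x * LX f c x ^ 2 * ((m : ℝ) + 1) *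
      ∑ j, fm f c F E (ck f c k (g s)) m j x ^ 2 ≤
      (∑ m ∈ Finset.range (K + 1), ∑ j, ∫ x,
        nzS F c.γ₁ (eE c E) (lX f c) f.Cw (fm f c F E (ck f c k (g s))) m j x ^ 2) +
      c₀ / 2 * η * ((∫ p in Nr f c 16, nl f c p * g s p ^ 2) +
        ∫ p in univ, vv f c p ^ 2 * n2 (zx f c (g s) p)) := by
    intro s
    have t1 : Tst (g s) := (hg.1 s).1
    have t2 : tsupport (g s) ⊆ Om2 c := fun p hp => ((hg.1 s).2.2.1 hp).1
    have t3 : Tst (ck f c k (g s)) := Tst.mul_left w8.1 t1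
    have t4 : tsupport (ck f c k (g s)) ⊆ tsupport (g s) := tsupport_mul_subset_right
    have hG : ∀ m, Tests (closedBall c.p0 (1 / 2)) (fm f c F E (ck f c k (g s)) m) := by
      intro m j
      obtain ⟨r1, r2⟩ := (hI n ι f c F E _ _ w0 hc.2.2.2.2.2.1 hc.2.2.2.2.2.2.2.2.1 hF hE.1
        t3 t3).1 m j
      refine ⟨r1, r2.trans ?_⟩
      rintro _ ⟨p, hp, rfl⟩
      rw [mem_closedBall, dist_eq_norm]
      exact (t2 (t4 hp)).1
    have r1 := one w0 hL hw hG (I := fun x => ∫ y, Kf f c k (g s) (x, y))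
      (Kf_int w0 k t1).integral_prod_left
      (fun x => integral_nonneg fun y => Kf_nonneg w0 k _ _) (by linarith) (by linarith) hk hθ0 hθ1
      hom e5.1 hC hc₀ (e1 θ hθ0.le ((min_le_right _ _).trans (min_le_left _ _)))
      (e2 _ hom e5.2.2) (e3 θ hθ0.le ((min_le_right _ _).trans (min_le_right _ _)))
      (wT F E (g s) hF hE1 t1 t2) hS
      (hN F _ _ _ _ _ _ K _ (hA n hn F hF) e5.2.1 hch hG)
    have r2 := mul_le_mul_of_nonneg_left (Kf_le w0 hL w8.2.2.2 t1 t2)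
      (by positivity : 0 ≤ c₀ / 2 * η)
    linarith
  have k1 := Finset.sum_le_sum fun s (_ : s ∈ Finset.univ) => key s
  rw [← Finset.mul_sum, Finset.sum_add_distrib, ← Finset.mul_sum, Finset.sum_add_distrib] at k1
  have k2 : 0 ≤ IY f c q (fun p => vv f c p ^ 2) univ :=
    Finset.sum_nonneg fun s _ => integral_nonneg fun p => mul_nonneg (sq_nonneg _) (n2_nonneg _)
  have k3 : 0 ≤ SqS f c g F E k K :=
    Finset.sum_nonneg fun s _ => Finset.sum_nonneg fun m _ => Finset.sum_nonneg fun j _ =>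
      integral_nonneg fun x => sq_nonneg _
  have k4 : c₀ / 2 * SqF f c g F E k K ≤ SqS f c g F E k K +
      c₀ / 2 * η * (NN f c g + IX f c g (fun p => vv f c p ^ 2) univ) := k1
  have k5 : SqS f c g F E k K ≤ c₀ / 2 * (max 1 (2 / c₀) * SqS f c g F E k K) := by
    have : 1 ≤ c₀ / 2 * max 1 (2 / c₀) := by
      calc (1 : ℝ) = c₀ / 2 * (2 / c₀) := by field_simp
        _ ≤ _ := mul_le_mul_of_nonneg_left (le_max_right _ _) (by positivity)
    rw [← mul_assoc]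
    exact le_mul_of_one_le_left k3 this
  have k6 := mul_le_mul_of_nonneg_left k2 (by positivity : 0 ≤ c₀ / 2 * η)
  refine le_of_mul_le_mul_left ?_ (by positivity : 0 < c₀ / 2)
  unfold V2
  linarith

end Vale.Agent.P088
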