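import Vale.Agent.P088.StI

open MeasureTheory Set Metric
open scoped ContDiff Topology

noncomputable section
namespace Vale.Agent.P088
open Vale.Agent.P136 (D Dp Dm Sm Tst)

namespace OUT

variable {n : ℕ} {ι : Type}

lemma key [Fintype ι] {F1 F2 F3 F4 : ι → X2 n → ℝ} {S1 S2 : Set (X2 n)} {a b d : ℝ}
    (h1 : ∀ s, Integrable (F1 s)) (h2 : ∀ s, Integrable (F2 s)) (h3 : ∀ s, Integrable (F3 s))
    (h4 : ∀ s, Integrable (F4 s)) (m1 : MeasurableSet S1) (m2 : MeasurableSet S2)
    (h : ∀ s p, S1.indicator (F1 s) p ≤ a * S2.indicator (F2 s) p + b * F3 s p + d * F4 s p) :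
    ∑ s, ∫ p in S1, F1 s p ≤ a * (∑ s, ∫ p in S2, F2 s p) + b * (∑ s, ∫ p in univ, F3 s p) +
      d * ∑ s, ∫ p in univ, F4 s p := by
  rw [Finset.mul_sum, Finset.mul_sum, Finset.mul_sum, ← Finset.sum_add_distrib,
    ← Finset.sum_add_distrib]
  refine Finset.sum_le_sum fun s _ => ?_
  have i2 := ((h2 s).indicator m2).const_mul a
  have i3 := (h3 s).const_mul b
  have i4 := (h4 s).const_mul d
  have i5 : Integrable fun p => a * S2.indicator (F2 s) p + b * F3 s p := i2.add i3
  rw [setIntegral_univ, setIntegral_univ, ← integral_indicator m1, ← integral_indicator m2,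
    ← integral_const_mul, ← integral_const_mul, ← integral_const_mul, ← integral_add i2 i3,
    ← integral_add i5 i4]
  exact integral_mono ((h1 s).indicator m1) (i5.add i4) (h s)

lemma n2_nonneg (ζ : Fin n → ℝ) : 0 ≤ n2 ζ := Finset.sum_nonneg fun _ _ => sq_nonneg _

lemma cut_nonneg (s : ℝ) : 0 ≤ cut s := Real.smoothTransition.nonneg _

lemma cut_le (s : ℝ) : cut s ≤ 1 := Real.smoothTransition.le_one _

lemma cut_one {s : ℝ} (h : s ≤ 1) : cut s = 1 :=
  Real.smoothTransition.one_of_one_le (by linarith)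

lemma cut_zero {s : ℝ} (h : 2 ≤ s) : cut s = 0 :=
  Real.smoothTransition.zero_of_nonpos (by linarith)

lemma bil_comb (γ : Fin n → Fin n → ℝ) (a b : Fin n → ℝ) (s t : ℝ) :
    bil γ (fun i => s * a i + t * b i) (fun i => s * a i + t * b i) =
      s ^ 2 * bil γ a a + s * t * (bil γ a b + bil γ b a) + t ^ 2 * bil γ b b := by
  simp only [bil, Finset.mul_sum, ← Finset.sum_add_distrib]
  refine Finset.sum_congr rfl fun i _ => Finset.sum_congr rfl fun j _ => ?_
  ring

lemma zd_comb (p : X2 n) (a b : Fin n → ℝ) (s t : ℝ) :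
    zd p (fun i => s * a i + t * b i) = s * zd p a + t * zd p b := by
  simp only [zd, Finset.mul_sum, ← Finset.sum_add_distrib]
  refine Finset.sum_congr rfl fun i _ => ?_
  ring

lemma bil_symm {γ : Fin n → Fin n → ℝ} (h : ∀ i j, γ i j = γ j i) (a b : Fin n → ℝ) :
    bil γ a b = bil γ b a := by
  simp only [bil]
  rw [Finset.sum_comm]
  refine Finset.sum_congr rfl fun i _ => Finset.sum_congr rfl fun j _ => ?_
  rw [h j i]
  ring

/-- the elementary pointwise facts -/
structure PF (f : Fx) (c : Cx n ι) (p : X2 n) : Prop where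
  Q : 0 ≤ QQ c p
  F : 0 < FF f c p
  v : 1 ≤ vv f c p
  s : 2 ≤ sig f c p
  rx : 0 ≤ rx f c p
  ry : 0 ≤ ry f c p
  fp : 0 ≤ fp f c p
  Rs : 0 < Rs f c p
  a : 0 < aX f c p.1
  L : 1 ≤ LX f c p.1
  lo : ∀ ζ, n2 ζ / 2 ≤ bil (gm c p) ζ ζ
  hi : ∀ ζ, bil (gm c p) ζ ζ ≤ 2 * n2 ζ
  zz : bil (gm c p) (zt c p) (zt c p) = QQ c p
  zd : ∀ ζ, bil (gm c p) (zt c p) ζ = zd p ζ
  sym : ∀ i j, gm c p i j = gm c p j i
  th1 : QQ c p < f.t0 ^ 2 → thI f c p = 1
  th0 : 2 * f.t0 ^ 2 < QQ c p → thI f c p = 0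

variable {f : Fx} {c : Cx n ι}

lemma pf {om L : ℝ} (hc : c.Ok f om L) (h : W0 f c) (p : X2 n) : PF f c p := by
  obtain ⟨-, hx, hp, -, hl⟩ := h
  obtain ⟨-, hL, -, -, -, -, -, -, -, hs, -⟩ := hc
  obtain ⟨p1, -, p3, p4, p5, p6, p7, -, -, -, -, p12, p13, p14, p15, -, -, p18⟩ := hp p
  refine ⟨le_trans (by positivity) p1, p3, hL.trans p4, p5, p6, p7, p12, p13, (hx p.1).1,
    hL.trans (hx p.1).2.1, fun ζ => (p18 ζ).2.2.2.2.1, fun ζ => (p18 ζ).2.2.2.2.2, p14, p15,
    fun i j => ?_, fun h => ((hl p).2.1 h).2.self_of_nhds,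
    fun h => ((hl p).2.2.2.1 h).self_of_nhds⟩
  simp only [gm]
  rw [hs i j]

namespace PF
variable {p : X2 n} (h : PF f c p)
include h

lemma psi : 0 ≤ Psi f c p := mul_nonneg h.Q h.F.le
lemma al : 0 ≤ al f c p := mul_nonneg h.F.le (by linarith [h.s])
lemma my : 0 ≤ my f c p := mul_nonneg h.psi (by linarith [h.v])
lemma mx : 0 ≤ mx f c p := add_nonneg h.my h.fp
lemma nl : 0 ≤ nl f c p :=
  mul_nonneg (mul_nonneg h.a.le (sq_nonneg _)) (by linarith [h.psi])
lemma le_nl : aX f c p.1 * LX f c p.1 ^ 2 ≤ P088.nl f c p :=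
  le_mul_of_one_le_right (mul_nonneg h.a.le (sq_nonneg _)) (by linarith [h.psi])
lemma al_le : P088.al f c p ≤ AA f c p :=
  mul_le_mul_of_nonneg_left (by nlinarith [h.s]) h.F.le
lemma AA_le : AA f c p ≤ HX f c p :=
  le_add_of_nonneg_right (mul_nonneg h.fp (by unfold SS; linarith [h.v, h.L]))
lemma b0 (ζ : Fin n → ℝ) : 0 ≤ bil (gm c p) ζ ζ :=
  le_trans (by have := n2_nonneg ζ; positivity) (h.lo ζ)

lemma pi0 (ζ : Fin n → ℝ) : 0 ≤ piZ c p ζ := by
  unfold piZ
  rcases h.Q.eq_or_lt with hQ | hQ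
  · rw [← hQ, div_zero, sub_zero]
    exact h.b0 ζ
  · have h1 := h.b0 fun i => 1 * ζ i + -(P088.zd p ζ / QQ c p) * zt c p i
    rw [bil_comb, bil_symm h.sym ζ (zt c p), h.zz, h.zd] at h1
    refine h1.trans (le_of_eq ?_)
    field_simp
    ring

lemma pi_le (ζ : Fin n → ℝ) : piZ c p ζ ≤ 2 * n2 ζ :=
  (sub_le_self _ (div_nonneg (sq_nonneg _) h.Q)).trans (h.hi ζ)

lemma pi_sub (a b : Fin n → ℝ) : 3 / 4 * piZ c p a - 6 * n2 b ≤ piZ c p (b - a) ∧
    3 / 4 * piZ c p b - 6 * n2 a ≤ piZ c p (b - a) := by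
  have e : b - a = fun i => (-1) * a i + 1 * b i := by
    funext i
    simp only [Pi.sub_apply]
    ring
  have h1 := h.pi0 fun i => (1 / 2) * a i + (-2) * b i
  have h2 := h.pi0 fun i => (-2) * a i + (1 / 2) * b i
  have h3 := h.pi_le a
  have h4 := h.pi_le b
  rw [e]
  simp only [piZ, bil_comb, zd_comb, div_eq_mul_inv] at h1 h2 h3 h4 ⊢
  constructor <;> nlinarith

omit h in
lemma ch (r : ℝ) : 0 ≤ (1 - thI f c p) * cut r ∧ (1 - thI f c p) * cut r ≤ 1 := by
  have h1 : 0 ≤ thI f c p := cut_nonneg _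
  have h2 : thI f c p ≤ 1 := cut_le _
  have h3 := cut_nonneg r
  have h4 := cut_le r
  constructor <;> nlinarith

lemma ch_ne {r : ℝ} (hne : (1 - thI f c p) * cut (r / P088.Rs f c p) ≠ 0) :
    f.t0 ^ 2 / 4 ≤ QQ c p ∧ r ≤ 4 * P088.Rs f c p := by
  constructor
  · by_contra k
    apply hne
    rw [h.th1 (by nlinarith [sq_nonneg f.t0])]
    simp
  · by_contra k
    apply hne
    rw [cut_zero, mul_zero]
    rw [le_div_iff₀ h.Rs]
    linarith [h.Rs]

lemma pw4 {S : Set (X2 n)} {r : ℝ} {A B E : ℝ} (F : X2 n → ℝ) (hF : F p = P088.al f c p * E)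
    (hS : f.t0 ^ 2 / 4 ≤ QQ c p ∧ r ≤ 4 * P088.Rs f c p → p ∈ S) (hE : 0 ≤ E)
    (hAB : 3 / 4 * A - 6 * B ≤ E) :
    ((1 - thI f c p) * cut (r / P088.Rs f c p)) ^ 2 * P088.al f c p * A ≤
      4 / 3 * S.indicator F p +
      8 * (((1 - thI f c p) * cut (r / P088.Rs f c p)) ^ 2 * P088.al f c p * B) := by
  have h0 : 0 ≤ P088.al f c p * E := mul_nonneg h.al hE
  by_cases hne : (1 - thI f c p) * cut (r / P088.Rs f c p) = 0
  · rw [hne]
    have : 0 ≤ S.indicator F p := by
      by_cases hp : p ∈ S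
      · rw [indicator_of_mem hp, hF]; exact h0
      · rw [indicator_of_notMem hp]
    linarith
  · rw [indicator_of_mem (hS (h.ch_ne hne)), hF]
    obtain ⟨h1, h2⟩ := ch (f := f) (c := c) (p := p) (r / P088.Rs f c p)
    generalize (1 - thI f c p) * cut (r / P088.Rs f c p) = x at *
    have h3 : x ^ 2 ≤ 1 := by nlinarith
    have h4 : 0 ≤ x ^ 2 * P088.al f c p := mul_nonneg (sq_nonneg _) h.al
    have h5 := mul_le_mul_of_nonneg_left hAB h4
    have h6 := mul_le_mul_of_nonneg_right h3 h0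
    nlinarith

end PF

lemma tst_n2 {ζ : X2 n → Fin n → ℝ} (h : ∀ i, Tst fun p => ζ p i) : Tst fun p => n2 (ζ p) :=
  P136.Tst.sum _ fun i _ => (h i).sq

lemma int_pi (h0 : W0 f c) (hp : ∀ p, PF f c p) {w : X2 n → ℝ} (hw : Continuous w)
    {ζ : X2 n → Fin n → ℝ} (h : ∀ i, Tst fun p => ζ p i) :
    Integrable fun p => w p * piZ c p (ζ p) := by
  have hg : ∀ i j, Continuous fun p => gm c p i j := fun i j => (h0.1.2.2.1 i j).cont
  have hQ : Continuous (QQ c) := h0.1.2.2.2.2.1.cont
  have hζ : ∀ i, Continuous fun p => ζ p i := fun i => (h i).sm.cont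
  have hz : ∀ i, Continuous fun p : X2 n => zz p i := fun i => by unfold zz; fun_prop
  have m1 : Continuous fun p => bil (gm c p) (ζ p) (ζ p) :=
    continuous_finsetSum _ fun i _ => continuous_finsetSum _ fun j _ =>
      ((hg i j).mul (hζ i)).mul (hζ j)
  have m2 : Continuous fun p => zd p (ζ p) := continuous_finsetSum _ fun i _ => (hz i).mul (hζ i)
  have m3 : Measurable fun p => w p * piZ c p (ζ p) :=
    hw.measurable.mul (m1.measurable.sub ((m2.measurable.pow_const 2).div hQ.measurable))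
  refine ((tst_n2 h).integrable_cmul (m := fun p => |w p| * 2) (by fun_prop)).mono'
    m3.aestronglyMeasurable (Filter.Eventually.of_forall fun p => ?_)
  rw [Real.norm_eq_abs, abs_mul, abs_of_nonneg ((hp p).pi0 _), mul_assoc]
  exact mul_le_mul_of_nonneg_left ((hp p).pi_le _) (abs_nonneg _)

lemma I0_nonneg [Fintype ι] {w : X2 n → ℝ} (hw : ∀ p, 0 ≤ w p) (S : Set (X2 n))
    (u : ι → X2 n → ℝ) : 0 ≤ I0 w S u :=
  Finset.sum_nonneg fun _ _ => integral_nonneg fun p => mul_nonneg (hw p) (sq_nonneg _)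

lemma IX_nonneg [Fintype ι] {w : X2 n → ℝ} (hw : ∀ p, 0 ≤ w p) (S : Set (X2 n))
    (u : ι → X2 n → ℝ) : 0 ≤ IX f c u w S :=
  Finset.sum_nonneg fun _ _ => integral_nonneg fun p => mul_nonneg (hw p) (n2_nonneg _)

lemma IY_nonneg [Fintype ι] {w : X2 n → ℝ} (hw : ∀ p, 0 ≤ w p) (S : Set (X2 n))
    (u : ι → X2 n → ℝ) : 0 ≤ IY f c u w S :=
  Finset.sum_nonneg fun _ _ => integral_nonneg fun p => mul_nonneg (hw p) (n2_nonneg _)

lemma nonneg [Fintype ι] (hp : ∀ p, PF f c p) (g q : ι → X2 n → ℝ) :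
    0 ≤ A1 f c g q ∧ (∀ N, 0 ≤ A2 f c g q N) ∧ 0 ≤ A3 f c g q ∧ 0 ≤ A5 f c g q ∧
      0 ≤ Gn f c g q ∧ (∀ r, 0 ≤ Rr f c g q r) ∧ 0 ≤ NN f c g ∧ 0 ≤ V2 f c g q ∧ 0 ≤ Sx f c g ∧
      0 ≤ Sy f c q ∧ 0 ≤ Dx f c g ∧ 0 ≤ Dy f c q ∧ 0 ≤ qLX f c g ∧ 0 ≤ qLY f c q ∧
      0 ≤ GG f c g q ∧ (∀ N, 0 ≤ TT2 f c g N ∧ 0 ≤ TZ f c g N) := by
  refine ⟨add_nonneg (IX_nonneg (fun p => (hp p).mx) _ _) (IY_nonneg (fun p => (hp p).my) _ _),
    fun N => Finset.sum_nonneg fun _ _ => integral_nonneg fun p => ?_,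
    Finset.sum_nonneg fun _ _ => integral_nonneg fun p => ?_,
    Finset.sum_nonneg fun _ _ => integral_nonneg fun p => div_nonneg (sq_nonneg _) (hp p).psi,
    add_nonneg (I0_nonneg (fun p => mul_nonneg (hp p).mx (hp p).rx) _ _)
      (I0_nonneg (fun p => mul_nonneg (hp p).my (hp p).ry) _ _),
    fun r => I0_nonneg (fun p => sq_nonneg _) _ _, I0_nonneg (fun p => (hp p).nl) _ _,
    add_nonneg (IX_nonneg (fun p => sq_nonneg _) _ _) (IY_nonneg (fun p => sq_nonneg _) _ _),
    I0_nonneg (fun p => by positivity) _ _, I0_nonneg (fun p => by positivity) _ _,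
    IX_nonneg (fun p => div_nonneg (sq_nonneg _) (add_nonneg (hp p).rx (hp p).al)) _ _,
    IY_nonneg (fun p => div_nonneg (sq_nonneg _) (add_nonneg (hp p).ry (hp p).al)) _ _,
    Finset.sum_nonneg fun _ _ => integral_nonneg fun p => sq_nonneg _,
    Finset.sum_nonneg fun _ _ => integral_nonneg fun p => sq_nonneg _,
    Finset.sum_nonneg fun _ _ => integral_nonneg fun p => sq_nonneg _,
    fun N => ⟨Finset.sum_nonneg fun _ _ => integral_nonneg fun p => ?_,
      Finset.sum_nonneg fun _ _ => integral_nonneg fun p => by positivity⟩⟩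
  · exact mul_nonneg (mul_nonneg (div_nonneg (sq_nonneg _)
      (add_nonneg (sq_nonneg _) (hp p).psi)) (hp p).al) ((hp p).b0 _)
  · exact mul_nonneg (div_nonneg (hp p).al (by linarith [(hp p).v])) (n2_nonneg _)
  · exact mul_nonneg (div_nonneg (sq_nonneg _) (hp p).Q) (n2_nonneg _)

lemma ind_nonneg {S : Set (X2 n)} {F : X2 n → ℝ} {p : X2 n} (h : 0 ≤ F p) :
    0 ≤ S.indicator F p := by
  by_cases hp : p ∈ S
  · rwa [indicator_of_mem hp]
  · rw [indicator_of_notMem hp]

end OUT

open OUT in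
theorem s_OUT (h0 : S_w0) (h2 : S_w2) (h4 : S_w4) (h5 : S_w5) : S_OUT := by
  intro n ι _ f hf
  obtain ⟨C2, -, h2⟩ := h2 n ι f hf
  obtain ⟨C, hC, h4⟩ := h4 n ι f hf
  obtain ⟨Cn, -, h5⟩ := h5 n
  obtain ⟨C5, -, h5⟩ := h5 ι f hf
  refine ⟨C, hC, fun η hη => ?_⟩
  refine ((((h0 n ι f hf).and (h2 1 one_pos)).and (h4 (η / 2) (by positivity))).and
    ((h5 1 one_pos).and (Ev.ok f one_pos 0))).mono ?_
  rintro c ⟨⟨⟨w0, w2⟩, w4⟩, w5, hc⟩ g q ⟨hT, -⟩
  have hp := pf hc w0
  have hnn := nonneg hp g q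
  obtain ⟨-, -, -, -, cQ, -, cF, cv, -, cP, cal, -, -, -, -, -, -, cphi, -, -, -, -, cnl, -, -,
    -, -, crx, cry, -, cmx, cmy, -, -, cRs, cchX, cchY, caX, cLX, -⟩ := w0.1
  have hg : ∀ s p, g s p ≠ 0 → p ∈ Om2 c := fun s p h =>
    ((hT s).2.2.1 (subset_tsupport _ h)).1
  have hq : ∀ s p, q s p ≠ 0 → p ∈ Om2 c := fun s p h =>
    ((hT s).2.2.2 (subset_tsupport _ h)).1
  have tx : ∀ s i, Tst fun p => zx f c (g s) p i := fun s i => (hT s).1.Dm cphi _
  have ty : ∀ s i, Tst fun p => zy f c (q s) p i := fun s i => (hT s).2.1.Dm cphi _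
  have hzx : ∀ s p, n2 (zx f c (g s) p) ≠ 0 → p ∈ Om2 c := by
    intro s p h
    by_contra k
    refine h (Finset.sum_eq_zero fun i _ => ?_)
    have : Dm (phi f c) (ex i) (g s) p = 0 := image_eq_zero_of_notMem_tsupport fun h' =>
      k ((hT s).2.2.1 (P136.tsupport_Dm _ _ _ h')).1
    simp [zx, this]
  have mN : ∀ r, MeasurableSet (Nr f c r) := fun r =>
    (isClosed_le ((cQ.cont.pow 2).mul cF.cont) continuous_const).measurableSet
  have mK : ∀ r, MeasurableSet (Nk f c r) := fun r =>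
    (isClosed_le cP.cont (continuous_const.mul cv.cont)).measurableSet
  have mX : MeasurableSet (sX f c 4) := ((isClosed_le continuous_const cQ.cont).inter
    (isClosed_le crx.cont (continuous_const.mul cRs.cont))).measurableSet
  have mY : MeasurableSet (sY f c 4) := ((isClosed_le continuous_const cQ.cont).inter
    (isClosed_le cry.cont (continuous_const.mul cRs.cont))).measurableSet
  have ig : ∀ {w : X2 n → ℝ}, Continuous w → ∀ s, Integrable fun p => w p * g s p ^ 2 :=
    fun hw s => (hT s).1.sq.integrable_cmul hw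
  have iq : ∀ {w : X2 n → ℝ}, Continuous w → ∀ s, Integrable fun p => w p * q s p ^ 2 :=
    fun hw s => (hT s).2.1.sq.integrable_cmul hw
  have ir : ∀ s, Integrable fun p => al f c p ^ 2 * rr g q s p ^ 2 :=
    fun s => ((hT s).1.add (hT s).2.1).sq.integrable_cmul (cal.cont.pow 2)
  have ix : ∀ {w : X2 n → ℝ}, Continuous w → ∀ s, Integrable fun p => w p * n2 (zx f c (g s) p) :=
    fun hw s => (tst_n2 (tx s)).integrable_cmul hw
  have iy : ∀ {w : X2 n → ℝ}, Continuous w → ∀ s, Integrable fun p => w p * n2 (zy f c (q s) p) :=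
    fun hw s => (tst_n2 (ty s)).integrable_cmul hw
  have c1 : Continuous fun p => mx f c p * rx f c p := cmx.cont.mul crx.cont
  have c2 : Continuous fun p => my f c p * ry f c p := cmy.cont.mul cry.cont
  have c3 : Continuous fun p : X2 n => LX f c p.1 ^ 2 := (cLX.cont.comp continuous_fst).pow 2
  have n1 : ∀ s p, 0 ≤ mx f c p * rx f c p * g s p ^ 2 := fun s p =>
    mul_nonneg (mul_nonneg (hp p).mx (hp p).rx) (sq_nonneg _)
  have n2' : ∀ s p, 0 ≤ my f c p * ry f c p * q s p ^ 2 := fun s p =>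
    mul_nonneg (mul_nonneg (hp p).my (hp p).ry) (sq_nonneg _)
  have n3 : ∀ s p, 0 ≤ nl f c p * g s p ^ 2 := fun s p => mul_nonneg (hp p).nl (sq_nonneg _)
  have iv : ∀ s, Integrable fun p => al f c p * piZ c p (zy f c (q s) p - zx f c (g s) p) :=
    fun s => int_pi w0 hp cal.cont fun i => (ty s i).sub (tx s i)
  refine ⟨fun k hk => ?_, fun r hr => ?_, ?_, ?_, ?_, hnn⟩
  · have hk0 : 0 < k := by linarith
    have hCk : 0 ≤ C / k := by positivity
    have := key (a := 1) (b := C / k) (d := C / k) (ig cnl.cont) (ig cnl.cont) (ig c1) (iq c2)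
      (mN 16) (mK k) fun s p => by
        have e1 := mul_nonneg hCk (n1 s p)
        have e2 := mul_nonneg hCk (n2' s p)
        have e3 : 0 ≤ (Nk f c k).indicator (fun p => nl f c p * g s p ^ 2) p :=
          ind_nonneg (n3 s p)
        by_cases hN : p ∈ Nr f c 16
        · rw [indicator_of_mem hN]
          by_cases hK : p ∈ Nk f c k
          · rw [indicator_of_mem hK]
            linarith
          · by_cases h0 : g s p = 0
            · rw [h0] at e1 ⊢
              linarith
            · have e4 := ((w4 p (hg s p h0)).2.2.2.1 k hk hN hK).1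
              have e5 : nl f c p ≤ C / k * (mx f c p * rx f c p) := by
                rw [div_mul_eq_mul_div, le_div_iff₀ hk0]
                linarith
              have e6 := mul_le_mul_of_nonneg_right e5 (sq_nonneg (g s p))
              linarith
        · rw [indicator_of_notMem hN]
          linarith
    unfold NN Gn I0
    linarith
  · have := key (a := 1) (b := η) (d := η) ir ir (ig c1) (iq c2) (mN r) (mN 1) fun s p => by
        have e1 := mul_nonneg hη.le (n1 s p)
        have e2 := mul_nonneg hη.le (n2' s p)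
        have e3 : 0 ≤ (Nr f c 1).indicator (fun p => al f c p ^ 2 * rr g q s p ^ 2) p :=
          ind_nonneg (by positivity)
        by_cases hN : p ∈ Nr f c r
        · rw [indicator_of_mem hN]
          by_cases hK : p ∈ Nr f c 1
          · rw [indicator_of_mem hK]
            linarith
          · by_cases h0 : rr g q s p = 0
            · rw [h0]
              linarith
            · have hO : p ∈ Om2 c := by
                by_cases h1 : g s p = 0
                · exact hq s p fun h2 => h0 (by simp [rr, h1, h2])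
                · exact hg s p h1
              have h16 : p ∈ Nr f c 16 := le_trans hN hr
              have hQ := ((w2 p hO).2.2.2.2.2.2.2.2.2.2.2.2.1 h16).2.2.2.2.2.2.2.1
              obtain ⟨e4, e5, -⟩ := (w4 p hO).2.1 hK
              have e6 := (e4 fun h => absurd h.1 (not_le.2 hQ)).1
              have e7 := (e5 fun h => absurd h.1 (not_le.2 hQ)).1
              have e8 : al f c p ^ 2 ≤ AA f c p ^ 2 := pow_le_pow_left₀ (hp p).al (hp p).al_le 2
              have e9 : al f c p ^ 2 ≤ HX f c p ^ 2 :=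
                pow_le_pow_left₀ (hp p).al ((hp p).al_le.trans (hp p).AA_le) 2
              have e10 := mul_le_mul_of_nonneg_right (e9.trans e6) (sq_nonneg (g s p))
              have e11 := mul_le_mul_of_nonneg_right (e8.trans e7) (sq_nonneg (q s p))
              have e12 := mul_nonneg (sq_nonneg (al f c p)) (sq_nonneg (g s p - q s p))
              simp only [rr] at e3 ⊢
              linarith
        · rw [indicator_of_notMem hN]
          linarith
    unfold Rr Gn I0
    linarith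
  · have hC0 : 0 ≤ C := by linarith
    have k1 := key (a := 1) (b := C) (d := C) (ig ((caX.cont.comp continuous_fst).mul c3))
      (ig cnl.cont) (ig c1) (ig ((cchX.cont.pow 2).mul (cal.cont.pow 2))) MeasurableSet.univ
      (mN 16) fun s p => by
        have e1 := mul_nonneg hC0 (n1 s p)
        have e2 : 0 ≤ C * (chX f c p ^ 2 * al f c p ^ 2 * g s p ^ 2) := by positivity
        simp only [indicator_univ, Pi.mul_apply, Function.comp, Pi.pow_apply]
        by_cases hN : p ∈ Nr f c 16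
        · rw [indicator_of_mem hN]
          have := mul_le_mul_of_nonneg_right (hp p).le_nl (sq_nonneg (g s p))
          linarith
        · rw [indicator_of_notMem hN]
          by_cases h0 : g s p = 0
          · simp [h0]
          · have hO := hg s p h0
            have e4 := (w4 p hO).2.2.2.2.1 fun h =>
              hN (le_trans h (by norm_num : (1 : ℝ) ≤ 16))
            have e5 := mul_le_mul_of_nonneg_right e4 (sq_nonneg (g s p))
            unfold GX at e5
            split_ifs at e5 with hs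
            · have hR := (hp p).Rs
              have e6 := ((w5 p hO).1 ⟨hs.1, by linarith [hs.2]⟩).1
              have e7 : chX f c p = 1 := by
                unfold chX
                rw [(hp p).th0 e6, cut_one (by rw [div_le_iff₀ hR]; exact hs.2)]
                ring
              rw [e7]
              linarith
            · linarith
    have k2 := key (a := C) (b := C) (d := 0) (ix c3) (ix (cv.cont.pow 2)) (ix cmx.cont)
      (ix cmx.cont) MeasurableSet.univ MeasurableSet.univ fun s p => by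
        simp only [indicator_univ, Pi.pow_apply]
        by_cases h0 : n2 (zx f c (g s) p) = 0
        · simp [h0]
        · have e4 := (w4 p (hzx s p h0)).2.2.2.2.2
          have := mul_le_mul_of_nonneg_right e4 (n2_nonneg (zx f c (g s) p))
          linarith
    have k3 := mul_nonneg hC0 (I0_nonneg (fun p => mul_nonneg (hp p).my (hp p).ry) univ q)
    have k4 := mul_nonneg hC0 (IY_nonneg (f := f) (c := c) (fun p => (hp p).my) univ q)
    have k5 := mul_nonneg hC0
      (IY_nonneg (f := f) (c := c) (fun p => sq_nonneg (vv f c p)) univ q)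
    have k6 := mul_le_mul_of_nonneg_right hC hnn.2.2.2.2.2.2.1
    simp only [Pi.mul_apply, Function.comp, Pi.pow_apply] at k1 k2
    unfold NN Gn Sx V2 A1 I0 IX at *
    linarith
  · have cw : Continuous fun p => chX f c p ^ 2 * al f c p := (cchX.cont.pow 2).mul cal.cont
    have := key (a := 4 / 3) (b := 8) (d := 0) (fun s => int_pi w0 hp cw (tx s)) iv (iy cw)
      (iy cw) MeasurableSet.univ mX fun s p => by
        rw [indicator_univ, zero_mul, add_zero]
        exact (hp p).pw4 _ rfl (fun h => h) ((hp p).pi0 _) ((hp p).pi_sub _ _).1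
    rw [Measure.restrict_univ] at this
    unfold SLx SMy A4 IY
    rw [Measure.restrict_univ]
    linarith
  · have cw : Continuous fun p => chY f c p ^ 2 * al f c p := (cchY.cont.pow 2).mul cal.cont
    have := key (a := 4 / 3) (b := 8) (d := 0) (fun s => int_pi w0 hp cw (ty s)) iv (ix cw)
      (ix cw) MeasurableSet.univ mY fun s p => by
        rw [indicator_univ, zero_mul, add_zero]
        exact (hp p).pw4 _ rfl (fun h => h) ((hp p).pi0 _) ((hp p).pi_sub _ _).2
    rw [Measure.restrict_univ] at this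
    unfold SLy SMx A4 IX
    rw [Measure.restrict_univ]
    linarith

end Vale.Agent.P088
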