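import Vale.Agent.P088.StN
import Vale.Agent.P088.IdTool
import Vale.Agent.P088.OUT

/-!
# P088: the commutator with the cutoff of the innermost zone
-/

open MeasureTheory Set Metric Filter
open scoped ContDiff Topology

noncomputable section
namespace Vale.Agent.P088
open Vale.Agent.P136 (D Dp Dm Sm Tst)

namespace NZB
variable {n : ℕ} {ι : Type}

theorem D_onX {g : En n → ℝ} (hg : Sm g) (j : Fin n) (p : X2 n) :
    D (ex j) (fun q : X2 n => g q.1) p = D (ee j) g p.1 := by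
  have h := ((hg.dAt p.1).hasFDerivAt.comp p hasFDerivAt_fst).fderiv
  simp only [D]
  rw [show (fun q : X2 n => g q.1) = g ∘ Prod.fst from rfl, h]
  simp [ex]

theorem D_onY {g : En n → ℝ} (hg : Sm g) (j : Fin n) (p : X2 n) :
    D (ey j) (fun q : X2 n => g q.2) p = D (ee j) g p.2 := by
  have h := ((hg.dAt p.2).hasFDerivAt.comp p hasFDerivAt_snd).fderiv
  simp only [D]
  rw [show (fun q : X2 n => g q.2) = g ∘ Prod.snd from rfl, h]
  simp [ey]

theorem D_addv (f : X2 n → ℝ) (v w : X2 n) : D (v + w) f = fun p => D v f p + D w f p :=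
  funext fun p => by simp only [D, map_add]

theorem Lm_mul {v : Fin n → X2 n} {γ : Fin n → Fin n → X2 n → ℝ} {φ χ u : X2 n → ℝ} (hγ : SmM γ)
    (hs : SymM γ) (hφ : Sm φ) (hχ : Sm χ) (hu : Sm u) (p : X2 n) :
    Lm v γ φ (fun q => χ q * u q) p = χ p * Lm v γ φ u p -
      2 * ∑ j, (∑ i, γ i j p * D (v i) χ p) * Dm φ (v j) u p + dgd v γ χ p * u p := by
  have hZ : ∀ i, Sm (Zm v γ φ u i) := fun i =>
    P136.Sm.sum fun j _ => P136.Sm.mul (hγ i j) (P136.Sm.Dm hφ hu _)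
  have hX : ∀ i, Sm (XX v γ χ i) := IdT.sm_XX hγ hχ
  have e : ∀ i, Zm v γ φ (fun q => χ q * u q) i =
      fun q => χ q * Zm v γ φ u i q + (-XX v γ χ i q) * u q := fun i => funext fun q => by
    simp only [Zm, XX, P136.Dm_mul hχ hu, Finset.mul_sum, neg_mul, Finset.sum_mul,
      ← Finset.sum_neg_distrib, ← Finset.sum_add_distrib]
    exact Finset.sum_congr rfl fun j _ => by ring
  have e2 : ∀ i, Dm φ (v i) (Zm v γ φ (fun q => χ q * u q) i) p =
      χ p * Dm φ (v i) (Zm v γ φ u i) p - D (v i) χ p * Zm v γ φ u i p -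
        XX v γ χ i p * Dm φ (v i) u p + D (v i) (XX v γ χ i) p * u p := fun i => by
    rw [e, P136.Dm_add (hχ.mul (hZ i)) ((hX i).neg.mul hu), P136.Dm_mul hχ (hZ i),
      P136.Dm_mul (hX i).neg hu]
    simp only [P136.D_neg]
    ring
  have e3 : ∑ i, D (v i) χ p * Zm v γ φ u i p =
      ∑ j, (∑ i, γ i j p * D (v i) χ p) * Dm φ (v j) u p := by
    simp only [Zm, Finset.mul_sum, Finset.sum_mul]
    rw [Finset.sum_comm]
    exact Finset.sum_congr rfl fun j _ => Finset.sum_congr rfl fun i _ => by ring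
  have e4 : ∑ i, XX v γ χ i p * Dm φ (v i) u p =
      ∑ j, (∑ i, γ i j p * D (v i) χ p) * Dm φ (v j) u p :=
    Finset.sum_congr rfl fun j _ => by simp only [XX, hs j]
  simp only [Lm, e2, Finset.sum_add_distrib, Finset.sum_sub_distrib, e3, e4, dgd, dvg,
    ← Finset.mul_sum, ← Finset.sum_mul]
  ring

theorem dgd_nd {v : Fin n → X2 n} {γ : Fin n → Fin n → X2 n → ℝ} {χ : X2 n → ℝ} (hγ : SmM γ)
    (hχ : Sm χ) (p : X2 n) : dgd v γ χ p =
      ∑ i, ∑ j, (γ i j p * D (v i) (D (v j) χ) p + D (v i) (γ i j) p * D (v j) χ p) := by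
  have e : ∀ i, D (v i) (XX v γ χ i) p =
      ∑ j, (γ i j p * D (v i) (D (v j) χ) p + D (v i) (γ i j) p * D (v j) χ p) := fun i => by
    have := P136.D_sum_at (x := p) (f := fun j q => γ i j q * D (v j) χ q) Finset.univ
      (fun j _ => ((hγ i j).mul (hχ.D _)).dAt p) (v i)
    exact this.trans (Finset.sum_congr rfl fun j _ =>
      P136.D_mul_at ((hγ i j).dAt p) ((hχ.D _).dAt p) _)
  simp only [dgd, dvg, e]

theorem sq1 {α : Type} [Fintype α] {f : α → ℝ} {c R : ℝ} (hR : 0 ≤ R) (h : ∀ i, |f i| ≤ c * √R) :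
    (∑ i, f i) ^ 2 ≤ (Fintype.card α * c) ^ 2 * R := by
  have h1 : |∑ i, f i| ≤ Fintype.card α * c * √R := (Finset.abs_sum_le_sum_abs _ _).trans
    ((Finset.sum_le_card_nsmul _ _ _ fun i _ => h i).trans_eq (by simp [mul_assoc]))
  have h2 := pow_le_pow_left₀ (abs_nonneg _) h1 2
  rwa [sq_abs, mul_pow, Real.sq_sqrt hR] at h2

theorem sq2 {α β : Type} [Fintype α] [Fintype β] {f : α → β → ℝ} {c R : ℝ} (hR : 0 ≤ R)
    (h : ∀ i j, |f i j| ≤ c * √R) :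
    (∑ i, ∑ j, f i j) ^ 2 ≤ (Fintype.card α * (Fintype.card β * c)) ^ 2 * R :=
  sq1 hR fun i => (Finset.abs_sum_le_sum_abs _ _).trans
    ((Finset.sum_le_card_nsmul _ _ _ fun j _ => h i j).trans_eq (by simp [mul_assoc]))

theorem m2 {g t m c : ℝ} (hg : |g| ≤ m) (ht : |t| ≤ c) : |g * t| ≤ m * c := by
  rw [abs_mul]
  exact mul_le_mul hg ht (abs_nonneg _) ((abs_nonneg _).trans hg)

theorem near_bd {γ : MatF n} (hγ : SmM γ) (h : Near 8 1 γ) (i j l : Fin n) (x : En n) :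
    |γ i j x| ≤ 2 ∧ |D (ee l) (γ i j) x| ≤ 1 := by
  have h0 : |γ i j x - if i = j then 1 else 0| ≤ 1 := by simpa [Ds] using h i j x [] (by simp)
  have h1 : |D (ee l) (fun y => γ i j y - if i = j then 1 else 0) x| ≤ 1 := by
    simpa [Ds] using h i j x [l] (by simp)
  rw [P136.D_sub_at ((hγ i j).dAt x) (differentiableAt_const _), P136.D_const, sub_zero] at h1
  refine ⟨?_, h1⟩
  rw [abs_le] at h0 ⊢
  split_ifs at h0 <;> constructor <;> linarith [h0.1, h0.2]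

section coef
variable (c : Cx n ι) (χ : X2 n → ℝ) (p : X2 n)

def av (j : Fin n) : ℝ := ∑ i, c.γ₂ i j p.2 * D (ey i) χ p
def bv (j : Fin n) : ℝ := ∑ i, (c.γ₁ i j p.1 * D (ex i) χ p + c.γ₂ i j p.2 * D (ey i) χ p)
def mu' : ℝ := dgd ey (onY c.γ₂) χ p
def nu' : ℝ := dgd ex (onX c.γ₁) χ p - dgd ey (onY c.γ₂) χ p
def Bq [Fintype ι] (f : Fx) (q : ι → X2 n → ℝ) (s : ι) : ℝ :=
  ∑ a, ∑ e, (c.b a e s p.2 * zy f c (q e) p a - D (ee a) (c.b a e s) p.2 * q e p)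

end coef

theorem ident [Fintype ι] {f : Fx} {c : Cx n ι} {χ : X2 n → ℝ} {g q : ι → X2 n → ℝ}
    (h₁ : SmM (onX c.γ₁)) (s₁ : SymM (onX c.γ₁)) (h₂ : SmM (onY c.γ₂)) (s₂ : SymM (onY c.γ₂))
    (hb : ∀ i a a', Sm (c.b i a a')) (hφ : Sm (phi f c)) (hχ : Sm χ) (hg : ∀ s, Sm (g s))
    (hq : ∀ s, Sm (q s)) (s : ι) (p : X2 n) :
    Gt f c (fun p => χ p * g s p) (fun p => χ p * q s p) p =
      χ p * Gf f c g q s p - (χ p * Bq c p f q s +
        2 * ∑ j, av c χ p j * (zy f c (q s) p - zx f c (g s) p) j +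
        2 * ∑ j, bv c χ p j * zx f c (g s) p j - mu' c χ p * rr g q s p - nu' c χ p * g s p) := by
  have e : ∀ a e, Dm (phi f c) (ey a) (fun p' => c.b a e s p'.2 * q e p') p =
      c.b a e s p.2 * zy f c (q e) p a - D (ee a) (c.b a e s) p.2 * q e p := fun a e => by
    rw [P136.Dm_mul (m := fun p' : X2 n => c.b a e s p'.2) ((hb a e s).comp contDiff_snd) (hq e)]
    simp only [D_onY (hb a e s), zy]
  simp only [Gt, Gf, d2b, e]
  rw [Lm_mul h₁ s₁ hφ hχ (hg s), Lm_mul h₂ s₂ hφ hχ (hq s)]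
  simp only [Bq, av, bv, mu', nu', rr, onX, onY, zx, zy, Pi.sub_apply, mul_sub, add_mul,
    Finset.sum_add_distrib, Finset.sum_sub_distrib]
  ring

/-- Bounds for the coefficients in the transition zone, in terms of real numbers. -/
theorem coef {c : Cx n ι} {χ : X2 n → ℝ} {p : X2 n} {C P v a e k : ℝ} (h₁ : SmM c.γ₁)
    (h₂ : SmM c.γ₂) (n₁ : Near 8 1 c.γ₁) (n₂ : Near 8 1 c.γ₂) (hχ : Sm χ) (hC : 1 ≤ C) (hv : 1 ≤ v)
    (hk : 1 ≤ k) (hP : 0 ≤ P) (hPa : P ≤ C * a) (he : ∀ i j, |c.γ₂ i j p.2 - c.γ₁ i j p.1| ≤ e)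
    (he' : e ^ 2 * P ≤ 66 * C) (d1 : ∀ i, D (exy i) χ p ^ 2 ≤ P)
    (d2 : ∀ i j, |D (exy i) (D (exy j) χ) p| ≤ P) (d3 : ∀ i, |D (ex i + ey i) χ p| ≤ C * v)
    (d4 : ∀ i j, D (exy j) (D (ex i + ey i) χ) p ^ 2 * k ≤ C * a * v) :
    (∀ j, av c χ p j ^ 2 ≤ (n * 2) ^ 2 * P) ∧ (∀ j, bv c χ p j ^ 2 ≤ (n * (11 * C)) ^ 2 * v ^ 2) ∧
      mu' c χ p ^ 2 ≤ (n * (n * 3)) ^ 2 * (P ^ 2 + P) ∧
      nu' c χ p ^ 2 ≤ (n * (n * 7)) ^ 2 * (66 * C ^ 2 * a * v) := by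
  have o₁ : SmM (onX c.γ₁) := fun i j => (h₁ i j).comp contDiff_fst
  have o₂ : SmM (onY c.γ₂) := fun i j => (h₂ i j).comp contDiff_snd
  have g1 := near_bd h₁ n₁
  have g2 := near_bd h₂ n₂
  have ha : 0 ≤ a := nonneg_of_mul_nonneg_right (hP.trans hPa) (by linarith)
  have e0 : ∀ i j, (c.γ₂ i j p.2 - c.γ₁ i j p.1) ^ 2 ≤ e ^ 2 := fun i j =>
    sq_le_sq' (abs_le.1 (he i j)).1 (abs_le.1 (he i j)).2
  refine ⟨fun j => ?_, fun j => ?_, ?_, ?_⟩
  · have := sq1 hP (f := fun i => c.γ₂ i j p.2 * D (ey i) χ p)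
      fun i => m2 (g2 i j i p.2).1 (Real.abs_le_sqrt (d1 (.inr i)))
    rwa [Fintype.card_fin] at this
  · have := sq1 (c := 11 * C) (sq_nonneg v)
      (f := fun i => c.γ₁ i j p.1 * D (ex i) χ p + c.γ₂ i j p.2 * D (ey i) χ p) fun i => by
        have a1 := abs_le.1 (m2 (g1 i j i p.1).1 (d3 i))
        have a2 : ((c.γ₂ i j p.2 - c.γ₁ i j p.1) * D (ey i) χ p) ^ 2 ≤ (9 * C * v) ^ 2 := by
          rw [mul_pow]
          refine ((mul_le_mul (e0 i j) (d1 (.inr i)) (sq_nonneg _) (sq_nonneg _)).trans he').trans ?_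
          have : 1 ≤ C * v ^ 2 := by nlinarith
          nlinarith
        have a3 := abs_le_of_sq_le_sq' a2 (by positivity)
        rw [Real.sqrt_sq (by linarith), abs_le]
        simp only [D_addv] at a1
        constructor <;> linarith [a1.1, a1.2, a3.1, a3.2]
    rwa [Fintype.card_fin] at this
  · rw [mu', dgd_nd o₂ hχ]
    have := sq2 (c := 3) (by positivity : 0 ≤ P ^ 2 + P)
      (f := fun i j => onY c.γ₂ i j p * D (ey i) (D (ey j) χ) p +
        D (ey i) (onY c.γ₂ i j) p * D (ey j) χ p) fun i j => by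
        have a0 : P ≤ √(P ^ 2 + P) := Real.le_sqrt_of_sq_le (by linarith)
        have a1 := abs_le.1 (m2 (g2 i j i p.2).1 ((d2 (.inr i) (.inr j)).trans a0))
        have a2 := abs_le.1 (m2 (g2 i j i p.2).2 (Real.abs_le_sqrt
          (show D (ey j) χ p ^ 2 ≤ P ^ 2 + P from (d1 (.inr j)).trans (by nlinarith))))
        have a3 : D (ey i) (onY c.γ₂ i j) p = D (ee i) (c.γ₂ i j) p.2 := D_onY (h₂ i j) i p
        rw [a3, abs_le]
        constructor <;> linarith! [a1.1, a1.2, a2.1, a2.2]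
    rwa [Fintype.card_fin] at this
  · rw [nu', dgd_nd o₂ hχ, dgd_nd o₁ hχ, ← Finset.sum_sub_distrib]
    simp only [← Finset.sum_sub_distrib]
    have hav : a ≤ a * v := le_mul_of_one_le_right ha hv
    have r1 : C * a * v ≤ 66 * C ^ 2 * a * v := by
      have : 0 ≤ a * v := by positivity
      nlinarith [mul_nonneg (sub_nonneg.2 hC) this]
    have r2 : P ≤ 66 * C ^ 2 * a * v := by nlinarith
    have := sq2 (c := 7) (hP.trans r2)
      (f := fun i j => onX c.γ₁ i j p * D (ex i) (D (ex j) χ) p +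
        D (ex i) (onX c.γ₁ i j) p * D (ex j) χ p - (onY c.γ₂ i j p * D (ey i) (D (ey j) χ) p +
        D (ey i) (onY c.γ₂ i j) p * D (ey j) χ p)) fun i j => by
        have b : ∀ i j, |D (exy j) (D (ex i + ey i) χ) p| ≤ √(66 * C ^ 2 * a * v) := fun i j =>
          Real.abs_le_sqrt ((le_mul_of_one_le_right (sq_nonneg _) hk).trans ((d4 i j).trans r1))
        have a1 := abs_le.1 (m2 (g1 i j i p.1).1 (b j (.inl i)))
        have a2 := abs_le.1 (m2 (g1 i j i p.1).1 (b i (.inr j)))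
        have a3 := abs_le.1 (m2 (g1 i j i p.1).2 (Real.abs_le_sqrt ((d1 (.inl j)).trans r2)))
        have a4 := abs_le.1 (m2 (g2 i j i p.2).2 (Real.abs_le_sqrt ((d1 (.inr j)).trans r2)))
        have a5 : ((c.γ₂ i j p.2 - c.γ₁ i j p.1) * D (ey i) (D (ey j) χ) p) ^ 2 ≤
            66 * C ^ 2 * a * v := by
          have t := d2 (.inr i) (.inr j)
          rw [mul_pow]
          refine (mul_le_mul (e0 i j) (sq_le_sq' (abs_le.1 t).1 (abs_le.1 t).2) (sq_nonneg _)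
            (sq_nonneg _)).trans ?_
          have t1 := mul_le_mul he' (hPa.trans (mul_le_mul_of_nonneg_left hav (by linarith))) hP
            (by linarith)
          linarith
        have a6 := abs_le.1 (Real.abs_le_sqrt a5)
        have c1 : D (ey i) (onY c.γ₂ i j) p = D (ee i) (c.γ₂ i j) p.2 := D_onY (h₂ i j) i p
        have c2 : D (ex i) (onX c.γ₁ i j) p = D (ee i) (c.γ₁ i j) p.1 := D_onX (h₁ i j) i p
        simp only [exy, Sum.elim_inl, Sum.elim_inr, D_addv,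
          P136.D_add_at ((hχ.D _).dAt p) ((hχ.D _).dAt p)] at a1 a2 a3 a4
        rw [P136.D_comm hχ (ey j) (ex i), P136.D_comm hχ (ey j) (ey i)] at a2
        rw [c1, c2, abs_le]
        simp only [onX, onY]
        constructor <;> linarith [a1.1, a1.2, a2.1, a2.2, a3.1, a3.2, a4.1, a4.2, a6.1, a6.2]
    rwa [Fintype.card_fin] at this

theorem loc_const {χ : X2 n → ℝ} {t : ℝ} {p : X2 n} (h : χ =ᶠ[𝓝 p] fun _ => t) (w : X2 n) :
    D w χ =ᶠ[𝓝 p] fun _ => 0 :=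
  (h.fderiv (𝕜 := ℝ)).mono fun q hq => by simp [D, hq]

theorem coef0 {c : Cx n ι} {χ : X2 n → ℝ} {p : X2 n} {t : ℝ} (o₁ : SmM (onX c.γ₁))
    (o₂ : SmM (onY c.γ₂)) (hχ : Sm χ) (h : χ =ᶠ[𝓝 p] fun _ => t) :
    (∀ j, av c χ p j = 0) ∧ (∀ j, bv c χ p j = 0) ∧ mu' c χ p = 0 ∧ nu' c χ p = 0 := by
  have d1 : ∀ w, D w χ p = 0 := fun w => (loc_const h w).self_of_nhds
  have d2 : ∀ v w, D v (D w χ) p = 0 := fun v w => (loc_const (loc_const h w) v).self_of_nhds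
  simp [av, bv, mu', nu', dgd_nd o₁ hχ, dgd_nd o₂ hχ, d1, d2]

theorem nr16 {f : Fx} {c : Cx n ι} {p : X2 n} (h : p ∈ Nr f c 1) : p ∈ Nr f c 16 :=
  le_trans (a := QQ c p ^ 2 * FF f c p) (b := 1) (c := 16) h (by norm_num)

theorem sizes {f : Fx} {c : Cx n ι} {L C₂ : ℝ} {p : X2 n} (hc : c.Ok f 1 L) (w0 : W0 f c)
    (w2 : W2 f c C₂ (1 / 2) p) (hN : p ∈ Nr f c 16) :
    c.L0 ≤ vv f c p ∧ c.L0 ≤ LX f c p.1 ∧ 2 * c.L0 ≤ aX f c p.1 ∧ aX f c p.1 ≤ 2 * al f c p ∧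
      aX f c p.1 ≤ 4 * FF f c p ∧ vv f c p ≤ C₂ * LX f c p.1 := by
  obtain ⟨-, a1, -, -, -, -, -, -, -, -, -, -, a2, -⟩ := w2
  obtain ⟨-, -, b1, b2, -, b3, -⟩ := a2 hN
  have l1 := (w0.2.1 p.1).2.1
  have l2 : LX f c p.1 ≤ LX f c p.1 ^ 20 := le_self_pow₀ (hc.2.1.trans l1) (by norm_num)
  exact ⟨(w0.2.2.1 p).2.2.2.1, l1, by linarith, by linarith [(abs_le.1 b1).1],
    by linarith [(abs_le.1 b2).1], b3⟩

theorem coef2 {f : Fx} {c : Cx n ι} {L k C C₂ Cq : ℝ} {p : X2 n} (hc : c.Ok f 1 L) (w0 : W0 f c)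
    (hk : 1 ≤ k) (hC : 1 ≤ C) (hC₂ : 1 ≤ C₂) (hχ : Sm (chk f c k)) (hp : p ∈ Dom f c)
    (hN : p ∈ Nk f c (2 * k)) (wq : WQ c Cq 1 p) (w2 : W2 f c C₂ (1 / 2) p) (w8 : W8 f c C k p) :
    (∀ j, av c (chk f c k) p j ^ 2 ≤ (n * 2) ^ 2 * (2 * C) / k * (al f c p / vv f c p)) ∧
      (∀ j, bv c (chk f c k) p j ^ 2 ≤ (n * (11 * C)) ^ 2 / k * mx f c p) ∧
      mu' c (chk f c k) p ^ 2 ≤ (n * (n * 3)) ^ 2 * (6 * C ^ 2) / c.L0 * al f c p ^ 2 ∧
      nu' c (chk f c k) p ^ 2 ≤ (n * (n * 7)) ^ 2 * (66 * C ^ 2 * C₂) / c.L0 * nl f c p := by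
  have pf := OUT.pf hc w0
  obtain ⟨n1, d12, d34, -⟩ := w8 hN
  obtain ⟨s1, s2, s3, s4, s5, s6⟩ := sizes hc w0 w2 (nr16 n1)
  obtain ⟨-, hL, -, -, -, h₁, -, n₁, h₂, -, n₂, -⟩ := hc
  have hv := (pf p).v
  have ha := (pf p).a
  have hal := (pf p).al
  have hmx := (pf p).mx
  have hnl := (pf p).nl
  have hkv : 1 ≤ k * vv f c p := one_le_mul_of_one_le_of_one_le hk hv
  have hk0 : 0 < k := by linarith
  have hL0 : 0 < c.L0 := by linarith
  by_cases hP : Psi f c p < k * vv f c p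
  · obtain ⟨-, -, -, -, -, -, -, cv, -, cP, -⟩ := w0.1
    have h1 : chk f c k =ᶠ[𝓝 p] fun _ => 1 := by
      have : ∀ᶠ p' in 𝓝 p, Psi f c p' < k * vv f c p' :=
        cP.cont.continuousAt.eventually_lt (continuous_const.mul cv.cont).continuousAt hP
      exact this.mono fun p' h => OUT.cut_one (div_le_one_of_le₀ h.le
        (mul_nonneg hk0.le (by linarith [(pf p').v])))
    obtain ⟨z1, z2, z3, z4⟩ := coef0 (c := c) (fun i j => (h₁ i j).comp contDiff_fst)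
      (fun i j => (h₂ i j).comp contDiff_snd) hχ h1
    simp only [z1, z2, z3, z4, sq (0 : ℝ), mul_zero]
    exact ⟨fun _ => by positivity, fun _ => by positivity, by positivity, by positivity⟩
  have hQ := (pf p).Q
  have eP : C * aX f c p.1 / (k * vv f c p) * (k * vv f c p) = C * aX f c p.1 := by field_simp
  have hP0 : 0 ≤ C * aX f c p.1 / (k * vv f c p) := by positivity
  have hd : ∀ i, D (exy i) (chk f c k) p ^ 2 ≤ C * aX f c p.1 / (k * vv f c p) ∧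
      ∀ j, |D (exy i) (D (exy j) (chk f c k)) p| ≤ C * aX f c p.1 / (k * vv f c p) := fun i =>
    ⟨(le_div_iff₀ (by linarith)).2 (d12 i).1, fun j => (le_div_iff₀ (by linarith)).2 ((d12 i).2 j)⟩
  generalize C * aX f c p.1 / (k * vv f c p) = P at eP hP0 hd
  have hPa : P ≤ C * aX f c p.1 := eP ▸ le_mul_of_one_le_right hP0 hkv
  have t1 : QQ c p * aX f c p.1 ≤ 8 * (k * vv f c p) := by
    have : QQ c p * FF f c p ≤ 2 * k * vv f c p := hN
    nlinarith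
  have t2 : QQ c p * P ≤ 8 * C := by
    refine le_of_mul_le_mul_right ?_ (show 0 < k * vv f c p by linarith)
    rw [mul_assoc, eP]
    nlinarith
  have t3 : (1 / aX f c p.1 ^ 2) ^ 2 * P ≤ C := by
    refine (mul_le_mul_of_nonneg_left hPa (sq_nonneg _)).trans ?_
    have : aX f c p.1 ≤ aX f c p.1 ^ 4 := le_self_pow₀ (by linarith) (by norm_num)
    rw [div_pow, one_pow, ← pow_mul, div_mul_eq_mul_div, one_mul, div_le_iff₀ (by positivity)]
    exact mul_le_mul_of_nonneg_left this (by linarith)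
  obtain ⟨r1, r2, r3, r4⟩ := coef (e := 2 * √(QQ c p) + 1 / aX f c p.1 ^ 2) h₁ h₂ n₁ n₂ hχ hC hv hk
    hP0 hPa (fun i j => by
      obtain ⟨-, -, u1, u2⟩ := wq.2.2.2.2.1 i j
      have u3 : |c.γ₁ i j p.1 - c.γ₂ i j p.1| ≤ 1 / aX f c p.1 ^ 2 := by
        simpa [Ds] using hp.2 i j [] (by simp)
      rw [abs_le] at u1 u2 u3 ⊢
      simp only [g2] at u1
      constructor <;> linarith [u1.1, u1.2, u2.1, u2.2, u3.1, u3.2])
    (by
      have u : (2 * √(QQ c p) + 1 / aX f c p.1 ^ 2) ^ 2 ≤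
          8 * QQ c p + 2 * (1 / aX f c p.1 ^ 2) ^ 2 := by
        nlinarith [Real.sq_sqrt hQ, sq_nonneg (2 * √(QQ c p) - 1 / aX f c p.1 ^ 2)]
      linarith [mul_le_mul_of_nonneg_right u hP0])
    (fun i => (hd i).1) (fun i => (hd i).2) (fun i => (d34 i).1) (fun i => (d34 i).2)
  have t4 : P * (k * vv f c p) ≤ 2 * C * al f c p := by nlinarith
  have t5 : P * c.L0 ≤ 2 * C * al f c p :=
    (mul_le_mul_of_nonneg_left (s1.trans (le_mul_of_one_le_left (by linarith) hk)) hP0).trans t4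
  refine ⟨fun j => (r1 j).trans ?_, fun j => (r2 j).trans ?_, r3.trans ?_, r4.trans ?_⟩
  · rw [div_mul_div_comm, le_div_iff₀ (by linarith), mul_assoc, mul_assoc]
    exact mul_le_mul_of_nonneg_left t4 (sq_nonneg _)
  · rw [div_mul_eq_mul_div, le_div_iff₀ hk0, mul_assoc]
    refine mul_le_mul_of_nonneg_left ?_ (sq_nonneg _)
    have := mul_le_mul_of_nonneg_right (not_lt.1 hP) (by linarith : 0 ≤ vv f c p)
    unfold mx
    linarith [(pf p).fp]
  · rw [div_mul_eq_mul_div, le_div_iff₀ hL0, mul_assoc, mul_assoc]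
    refine mul_le_mul_of_nonneg_left ?_ (sq_nonneg _)
    have u1 : P ≤ 2 * C * al f c p := (le_mul_of_one_le_right hP0 hL).trans t5
    have u2 : 1 ≤ C * al f c p := one_le_mul_of_one_le_of_one_le hC (by linarith)
    nlinarith [mul_le_mul u1 t5 (by positivity) (by positivity)]
  · rw [div_mul_eq_mul_div, le_div_iff₀ hL0, mul_assoc, mul_assoc _ (66 * C ^ 2 * C₂)]
    refine mul_le_mul_of_nonneg_left ?_ (sq_nonneg _)
    have u1 := mul_le_mul s6 s2 hL0.le (by linarith)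
    have u2 := mul_le_mul_of_nonneg_left (pf p).le_nl (by linarith : 0 ≤ C₂)
    have u3 : aX f c p.1 * (vv f c p * c.L0) ≤ C₂ * nl f c p :=
      (mul_le_mul_of_nonneg_left u1 ha.le).trans (by linarith)
    linarith [mul_le_mul_of_nonneg_left u3 (by positivity : 0 ≤ 66 * C ^ 2)]

theorem Bq_bd [Fintype ι] {f : Fx} {c : Cx n ι} (hb : ∀ i a a' x, SB ee 4 f.Mb 1 (c.b i a a') x)
    (q : ι → X2 n → ℝ) (s : ι) (p : X2 n) : Bq c p f q s ^ 2 ≤
      (n * (Fintype.card ι * (2 * f.Mb))) ^ 2 * ∑ e, (n2 (zy f c (q e) p) + q e p ^ 2) := by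
  have h0 : ∀ e, 0 ≤ n2 (zy f c (q e) p) + q e p ^ 2 := fun e =>
    add_nonneg (OUT.n2_nonneg _) (sq_nonneg _)
  have := sq2 (c := 2 * f.Mb) (Finset.sum_nonneg fun e (_ : e ∈ Finset.univ) => h0 e)
    (f := fun a e => c.b a e s p.2 * zy f c (q e) p a - D (ee a) (c.b a e s) p.2 * q e p)
    fun a e => by
      have b0 : |c.b a e s p.2| ≤ f.Mb := by simpa [Ds] using hb a e s p.2 [] (by simp)
      have b1 : |D (ee a) (c.b a e s) p.2| ≤ f.Mb := by
        simpa [Ds] using hb a e s p.2 [a] (by simp)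
      have b2 := Finset.single_le_sum (fun e _ => h0 e) (Finset.mem_univ e)
      have b3 : zy f c (q e) p a ^ 2 ≤ n2 (zy f c (q e) p) :=
        Finset.single_le_sum (f := fun a => zy f c (q e) p a ^ 2) (fun _ _ => sq_nonneg _)
          (Finset.mem_univ a)
      have a1 := abs_le.1 (m2 b0 (Real.abs_le_sqrt (le_trans (show zy f c (q e) p a ^ 2 ≤ _ by
        linarith [sq_nonneg (q e p)]) b2)))
      have a2 := abs_le.1 (m2 b1 (Real.abs_le_sqrt (le_trans (show q e p ^ 2 ≤ _ by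
        linarith [OUT.n2_nonneg (zy f c (q e) p)]) b2)))
      rw [abs_le]
      constructor <;> linarith [a1.1, a1.2, a2.1, a2.2]
  rwa [Fintype.card_fin] at this

theorem rest_bd {a b V ζ : Fin n → ℝ} {χ G B m w r g A A' M N : ℝ} (h0 : 0 ≤ χ) (h1 : χ ≤ 1)
    (ha : ∀ j, a j ^ 2 ≤ A) (hb : ∀ j, b j ^ 2 ≤ A') (hm : m ^ 2 ≤ M) (hw : w ^ 2 ≤ N) :
    (χ * G - (χ * B + 2 * ∑ j, a j * V j + 2 * ∑ j, b j * ζ j - m * r - w * g)) ^ 2 ≤
      2 * G ^ 2 + 40 * n * A' * n2 ζ + 40 * n * A * n2 V + 10 * M * r ^ 2 + 10 * N * g ^ 2 +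
        10 * B ^ 2 := by
  have cs : ∀ {a V : Fin n → ℝ} {A : ℝ}, (∀ j, a j ^ 2 ≤ A) →
      (∑ j, a j * V j) ^ 2 ≤ n * A * n2 V := fun h =>
    (Finset.sum_mul_sq_le_sq_mul_sq _ _ _).trans (mul_le_mul_of_nonneg_right
      ((Finset.sum_le_card_nsmul _ _ _ fun j _ => h j).trans_eq (by simp)) (OUT.n2_nonneg _))
  have c1 := cs (V := V) ha
  have c2 := cs (V := ζ) hb
  have x2 : χ ^ 2 ≤ 1 := pow_le_one₀ h0 h1
  have c3 := mul_le_mul_of_nonneg_right x2 (sq_nonneg G)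
  have c4 := mul_le_mul_of_nonneg_right x2 (sq_nonneg B)
  have c5 := mul_le_mul_of_nonneg_right hm (sq_nonneg r)
  have c6 := mul_le_mul_of_nonneg_right hw (sq_nonneg g)
  rw [← mul_pow] at c3 c4 c5 c6
  generalize ∑ j, a j * V j = t2, ∑ j, b j * ζ j = t3, χ * G = t0, χ * B = t1, m * r = t4,
    w * g = t5 at *
  linarith [sq_nonneg (t0 + (t1 + 2 * t2 + 2 * t3 - t4 - t5)), sq_nonneg (t1 - 2 * t2),
    sq_nonneg (t1 - 2 * t3), sq_nonneg (t1 + t4), sq_nonneg (t1 + t5), sq_nonneg (t2 - t3),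
    sq_nonneg (2 * t2 + t4), sq_nonneg (2 * t2 + t5), sq_nonneg (2 * t3 + t4),
    sq_nonneg (2 * t3 + t5), sq_nonneg (t4 - t5)]

theorem step {A B : X2 n → ℝ} (hA : Integrable A) (hB : Integrable B) (b : ℝ) :
    Integrable (fun p => A p + b * B p) ∧ ∫ p, (A p + b * B p) = (∫ p, A p) + b * ∫ p, B p :=
  ⟨hA.add (hB.const_mul b), by rw [integral_add hA (hB.const_mul b), integral_const_mul]⟩

theorem intg [Fintype ι] {A F1 F2 F3 F4 F5 F6 : ι → X2 n → ℝ} {a b : ℝ}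
    (i0 : ∀ s, Integrable (A s)) (i1 : ∀ s, Integrable (F1 s)) (i2 : ∀ s, Integrable (F2 s))
    (i3 : ∀ s, Integrable (F3 s)) (i4 : ∀ s, Integrable (F4 s)) (i5 : ∀ s, Integrable (F5 s))
    (i6 : ∀ s, Integrable (F6 s)) (h : ∀ p, ∑ s, A s p ≤ ∑ s, (2 * F1 s p + a * F2 s p +
      a * F3 s p + b * F4 s p + b * F5 s p + b * F6 s p)) :
    ∑ s, ∫ p, A s p ≤ 2 * (∑ s, ∫ p, F1 s p) + a * (∑ s, ∫ p, F2 s p) + a * (∑ s, ∫ p, F3 s p) +
      b * (∑ s, ∫ p, F4 s p) + b * (∑ s, ∫ p, F5 s p) + b * ∑ s, ∫ p, F6 s p := by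
  have j2 := fun s => step ((i1 s).const_mul 2) (i2 s) a
  have j3 := fun s => step (j2 s).1 (i3 s) a
  have j4 := fun s => step (j3 s).1 (i4 s) b
  have j5 := fun s => step (j4 s).1 (i5 s) b
  have j6 := fun s => step (j5 s).1 (i6 s) b
  have := integral_mono (integrable_finsetSum _ fun s _ => i0 s)
    (integrable_finsetSum _ fun s _ => (j6 s).1) h
  rw [integral_finsetSum _ fun s _ => i0 s, integral_finsetSum _ fun s _ => (j6 s).1] at this
  simpa only [(j6 _).2, (j5 _).2, (j4 _).2, (j3 _).2, (j2 _).2, integral_const_mul,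
    Finset.sum_add_distrib, ← Finset.mul_sum] using this

theorem fin_alg {A3 A4 A5 L η a l v g q z : ℝ} (h3 : 0 ≤ A3) (h4 : 0 ≤ A4) (h5 : 0 ≤ A5)
    (hL : 0 < L) (hK : 10 * A3 + 10 * A4 + 20 * A5 ≤ η * L) (ha : L ≤ a) (hl : L ≤ l) (hv : L ≤ v)
    (hz : 0 ≤ z) : 10 * (A3 / L * a) * (g + q) ^ 2 + 10 * (A4 / L * l) * g ^ 2 +
      10 * A5 * (z + q ^ 2) ≤ η * (a * (g + q) ^ 2) + η * (l * g ^ 2) + η * (v * z) := by
  refine le_of_mul_le_mul_right ?_ hL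
  have e : (10 * (A3 / L * a) * (g + q) ^ 2 + 10 * (A4 / L * l) * g ^ 2 + 10 * A5 * (z + q ^ 2)) *
      L = 10 * A3 * (a * (g + q) ^ 2) + 10 * A4 * (l * g ^ 2) + 10 * A5 * (L * z + L * q ^ 2) := by
    field_simp
  have y1 := mul_le_mul_of_nonneg_right hv hz
  have y2 := mul_le_mul_of_nonneg_right ha (sq_nonneg (g + q))
  have y3 := mul_le_mul_of_nonneg_right hl (sq_nonneg g)
  have y4 : L * z + L * q ^ 2 ≤ v * z + 2 * (a * (g + q) ^ 2) + 2 * (l * g ^ 2) := by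
    linarith [mul_nonneg hL.le (sq_nonneg (2 * g + q))]
  have x1 : 0 ≤ v * z := le_trans (by positivity) y1
  have x2 : 0 ≤ a * (g + q) ^ 2 := le_trans (by positivity) y2
  have x3 : 0 ≤ l * g ^ 2 := le_trans (by positivity) y3
  rw [e]
  generalize v * z = Z, a * (g + q) ^ 2 = X, l * g ^ 2 = Y, L * z + L * q ^ 2 = W at *
  linarith [mul_le_mul_of_nonneg_left y4 h5, mul_le_mul_of_nonneg_right hK (add_nonneg x1
    (add_nonneg x2 x3)), mul_nonneg h3 x1, mul_nonneg h3 x3, mul_nonneg h4 x1, mul_nonneg h4 x2,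
    mul_nonneg h5 x1]

theorem pw [Fintype ι] {f : Fx} {c : Cx n ι} {L k C C₂ Cq K η : ℝ} {g q : ι → X2 n → ℝ}
    (hc : c.Ok f 1 L) (w0 : W0 f c) (hk : 1 ≤ k) (hC : 1 ≤ C) (hC₂ : 1 ≤ C₂) (hχ : Sm (chk f c k))
    (hz : ∀ p, p ∉ Nk f c (2 * k) → chk f c k =ᶠ[𝓝 p] 0)
    (hw : ∀ p ∈ Om2 c, WQ c Cq 1 p ∧ W2 f c C₂ (1 / 2) p ∧ W8 f c C k p) (hT : TT f c g q)
    (K1 : 40 * n * ((n * 2) ^ 2 * (2 * C)) ≤ K) (K2 : 40 * n * (n * (11 * C)) ^ 2 ≤ K)
    (K3 : 10 * ((n * (n * 3)) ^ 2 * (6 * C ^ 2)) + 10 * ((n * (n * 7)) ^ 2 * (66 * C ^ 2 * C₂)) +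
      20 * (Fintype.card ι * (n * (Fintype.card ι * (2 * f.Mb))) ^ 2) ≤ η * c.L0) (hη : 0 < η)
    (p : X2 n) : ∑ s, Gt f c (ck f c k (g s)) (ck f c k (q s)) p ^ 2 ≤
      ∑ s, (2 * Gf f c g q s p ^ 2 + K / k * (mx f c p * n2 (zx f c (g s) p)) +
        K / k * (al f c p / vv f c p * n2 (zy f c (q s) p - zx f c (g s) p)) +
        η * (Nr f c 1).indicator (fun p => al f c p ^ 2 * rr g q s p ^ 2) p +
        η * (Nr f c 16).indicator (fun p => nl f c p * g s p ^ 2) p +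
        η * (vv f c p ^ 2 * n2 (zy f c (q s) p))) := by
  have pf := OUT.pf hc w0
  obtain ⟨-, -, -, -, -, -, -, -, -, -, -, -, -, -, -, -, -, hφ, -, -, -, -, -, -,
    -, -, -, -, -, -, -, -, -, -, -, -, -, -, -, -, -, o₁, s₁, o₂, s₂⟩ := w0.1
  have hb := hc.2.2.2.2.2.2.2.2.2.2.2
  have id := fun s => ident o₁ s₁ o₂ s₂ hb.1 hφ hχ (fun s => (hT.1 s).1.sm)
    (fun s => (hT.1 s).2.1.sm) s p
  have x0 : 0 ≤ chk f c k p := OUT.cut_nonneg _
  have x1 : chk f c k p ≤ 1 := OUT.cut_le _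
  have hv := (pf p).v
  have hal := (pf p).al
  have hmx := (pf p).mx
  have hnl := (pf p).nl
  have hk0 : 0 < k := by linarith
  have nx := fun s => OUT.n2_nonneg (zx f c (g s) p)
  have ny := fun s => OUT.n2_nonneg (zy f c (q s) p)
  have nv := fun s => OUT.n2_nonneg (zy f c (q s) p - zx f c (g s) p)
  by_cases hp : p ∈ Dom f c ∧ p ∈ Nk f c (2 * k)
  · obtain ⟨wq, w2, w8⟩ := hw p hp.1.1
    obtain ⟨r1, r2, r3, r4⟩ := coef2 hc w0 hk hC hC₂ hχ hp.1 hp.2 wq w2 w8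
    have n1 := (w8 hp.2).1
    obtain ⟨s1, s2, s3, s4, -, -⟩ := sizes hc w0 w2 (nr16 n1)
    have hL := hc.2.1
    have hL0 : 0 < c.L0 := by linarith
    have hB := Bq_bd hb.2 q
    refine (Finset.sum_le_sum fun s _ => ((congrArg (· ^ 2) (id s)).le.trans
      (rest_bd x0 x1 r1 r2 r3 r4)).trans (add_le_add le_rfl
        (mul_le_mul_of_nonneg_left (hB s p) (by norm_num : (0 : ℝ) ≤ 10)))).trans ?_
    rw [Finset.sum_add_distrib, Finset.sum_const, nsmul_eq_mul, Finset.card_univ, Finset.mul_sum,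
      Finset.mul_sum, Finset.mul_sum, ← Finset.sum_add_distrib]
    refine Finset.sum_le_sum fun s _ => ?_
    rw [indicator_of_mem n1, indicator_of_mem (nr16 n1)]
    have e1 := mul_le_mul_of_nonneg_right (div_le_div_of_nonneg_right K2 hk0.le)
      (mul_nonneg hmx (nx s))
    have e2 := mul_le_mul_of_nonneg_right (div_le_div_of_nonneg_right K1 hk0.le)
      (mul_nonneg (div_nonneg hal (by linarith : 0 ≤ vv f c p)) (nv s))
    have e3 := fin_alg (g := g s p) (q := q s p) (a := al f c p ^ 2) (l := nl f c p)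
      (v := vv f c p ^ 2) (by positivity) (by positivity) (by positivity) hL0 K3
      (le_trans (by linarith) (le_self_pow₀ (by linarith) two_ne_zero))
      (le_trans (le_trans (by linarith) (le_mul_of_one_le_right (pf p).a.le
        (one_le_pow₀ (pf p).L))) (pf p).le_nl) (s1.trans (le_self_pow₀ hv two_ne_zero)) (ny s)
    simp only [rr, mul_div_assoc] at e1 e2 e3 ⊢
    linarith
  · have hR : ∀ s, Gt f c (ck f c k (g s)) (ck f c k (q s)) p = chk f c k p * Gf f c g q s p := by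
      intro s
      refine (id s).trans ?_
      by_cases hD : p ∈ Dom f c
      · have h := hz p fun h => hp ⟨hD, h⟩
        obtain ⟨z1, z2, z3, z4⟩ := coef0 (c := c) o₁ o₂ hχ h
        simp [z1, z2, z3, z4, h.self_of_nhds]
      · have zg : ∀ s, g s p = 0 := fun s =>
          image_eq_zero_of_notMem_tsupport fun h => hD ((hT.1 s).2.2.1 h)
        have zq : ∀ s, q s p = 0 := fun s =>
          image_eq_zero_of_notMem_tsupport fun h => hD ((hT.1 s).2.2.2 h)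
        have z1 : ∀ s j, zx f c (g s) p j = 0 := fun s j => image_eq_zero_of_notMem_tsupport
          (f := Dm (phi f c) (ex j) (g s)) fun h => hD ((hT.1 s).2.2.1 (P136.tsupport_Dm _ _ _ h))
        have z2 : ∀ s j, zy f c (q s) p j = 0 := fun s j => image_eq_zero_of_notMem_tsupport
          (f := Dm (phi f c) (ey j) (q s)) fun h => hD ((hT.1 s).2.2.2 (P136.tsupport_Dm _ _ _ h))
        simp [Bq, rr, zg, zq, z1, z2]
    refine Finset.sum_le_sum fun s _ => ?_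
    have hK : 0 ≤ K := le_trans (by positivity) K1
    have e1 := mul_le_mul_of_nonneg_right (pow_le_one₀ (n := 2) x0 x1) (sq_nonneg (Gf f c g q s p))
    have e2 : 0 ≤ (Nr f c 1).indicator (fun p => al f c p ^ 2 * rr g q s p ^ 2) p :=
      OUT.ind_nonneg (by positivity)
    have e3 : 0 ≤ (Nr f c 16).indicator (fun p => nl f c p * g s p ^ 2) p :=
      OUT.ind_nonneg (by positivity)
    have := nx s
    have := ny s
    have := nv s
    rw [hR, mul_pow]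
    refine e1.trans ?_
    rw [one_mul, two_mul, add_assoc, add_assoc, add_assoc, add_assoc, add_assoc]
    exact le_add_of_nonneg_right (by positivity)

end NZB

open NZB in
theorem s_NZB (h0 : S_w0) (hq : S_wq) (h2 : S_w2) (h8 : S_w8) : S_NZB := by
  intro n ι _ f hf
  obtain ⟨Cq, -, hq⟩ := hq n
  obtain ⟨C₂, hC₂, h2⟩ := h2 n ι f hf
  obtain ⟨C, hC, h8⟩ := h8 n ι f hf
  refine ⟨1 + 40 * n * ((n * 2) ^ 2 * (2 * C)) + 40 * n * (n * (11 * C)) ^ 2,
    by rw [add_assoc]; exact le_add_of_nonneg_right (by positivity), fun k η hk hη => ?_⟩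
  refine ((((h0 n ι f hf).and (hq ι f hf 1 one_pos)).and ((h2 (1 / 2) (by norm_num)).and
    (h8 k hk))).and (Ev.ok f one_pos ((10 * ((n * (n * 3)) ^ 2 * (6 * C ^ 2)) +
      10 * ((n * (n * 7)) ^ 2 * (66 * C ^ 2 * C₂)) +
      20 * (Fintype.card ι * (n * (Fintype.card ι * (2 * f.Mb))) ^ 2)) / η))).mono ?_
  rintro c ⟨⟨⟨w0, wq⟩, w2, hχ, hz, -, w8⟩, hc⟩ g q hT
  have k1 : (0 : ℝ) ≤ 40 * n * ((n * 2) ^ 2 * (2 * C)) := by positivity
  have k2 : (0 : ℝ) ≤ 40 * n * (n * (11 * C)) ^ 2 := by positivity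
  have hK : 0 ≤ (1 + 40 * n * ((n * 2) ^ 2 * (2 * C)) + 40 * n * (n * (11 * C)) ^ 2) / k := by
    positivity
  have h := pw (K := 1 + 40 * n * ((n * 2) ^ 2 * (2 * C)) + 40 * n * (n * (11 * C)) ^ 2) hc w0 hk
    hC hC₂ hχ hz (fun p hp => ⟨wq p hp, w2 p hp, w8 p hp⟩) hT (by linarith) (by linarith)
    ((div_le_iff₀' hη).1 hc.1) hη
  have pf := OUT.pf hc w0
  obtain ⟨-, -, -, -, -, -, -, -, -, -, -, -, -, -, n0, -⟩ := OUT.nonneg pf g q
  have n1 := OUT.IY_nonneg (f := f) (c := c) (fun p => (pf p).my) univ q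
  have n2' := (OUT.nonneg pf g q).2.2.2.2.1
  have n3 := OUT.IX_nonneg (f := f) (c := c) (fun p => sq_nonneg (vv f c p)) univ g
  obtain ⟨-, -, -, -, cQ, -, cF, cv, -, -, cal, -, -, -, -, -, -, hφ, -, -, -, -, cnl, -,
    -, -, -, -, -, -, cmx, -, -, -, -, -, -, -, -, -, -, o₁, -, o₂, -⟩ := w0.1
  have tx : ∀ s i, Tst fun p => zx f c (g s) p i := fun s i => (hT.1 s).1.Dm hφ _
  have ty : ∀ s i, Tst fun p => zy f c (q s) p i := fun s i => (hT.1 s).2.1.Dm hφ _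
  have mN : ∀ r, MeasurableSet (Nr f c r) := fun r =>
    (isClosed_le ((cQ.cont.pow 2).mul cF.cont) continuous_const).measurableSet
  have hb := hc.2.2.2.2.2.2.2.2.2.2.2.1
  have := intg (fun s => ((IdT.tst_Lm o₁ hφ ((hT.1 s).1.mul_left hχ)).add
      (IdT.tst_Lm o₂ hφ ((hT.1 s).2.1.mul_left hχ))).sq.integrable)
    (fun s => ((IdT.tst_Lm o₁ hφ (hT.1 s).1).add ((IdT.tst_Lm o₂ hφ (hT.1 s).2.1).add
      (P136.Tst.sum _ fun a _ => P136.Tst.sum _ fun e _ => P136.Tst.Dm hφ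
        ((hT.1 e).2.1.mul_left ((hb a e s).comp contDiff_snd)) _))).sq.integrable)
    (fun s => (OUT.tst_n2 (tx s)).integrable_cmul cmx.cont)
    (fun s => (OUT.tst_n2 fun i => (ty s i).sub (tx s i)).integrable_cmul
      (cal.cont.div cv.cont fun p => by linarith [(pf p).v]))
    (fun s => (((hT.1 s).1.add (hT.1 s).2.1).sq.integrable_cmul (cal.cont.pow 2)).indicator (mN 1))
    (fun s => ((hT.1 s).1.sq.integrable_cmul cnl.cont).indicator (mN 16))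
    (fun s => (OUT.tst_n2 (ty s)).integrable_cmul (cv.cont.pow 2)) h
  simp only [integral_indicator (mN _)] at this
  have m1 := mul_nonneg hK (add_nonneg n1 n2')
  have m2 := mul_nonneg hη.le n3
  generalize (1 + 40 * n * ((n * 2) ^ 2 * (2 * C)) + 40 * n * (n * (11 * C)) ^ 2) / k = K at *
  have m3 : GGt f c g q k ≤ 2 * GG f c g q + K * IX f c g (mx f c) univ + K * A3 f c g q +
      η * Rr f c g q 1 + η * NN f c g + η * IY f c q (fun p => vv f c p ^ 2) univ := by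
    simp only [A3, IX, IY, IV, setIntegral_univ]
    exact this
  unfold A1 V2
  linarith

end Vale.Agent.P088
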