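import Vale.Agent.P088.NZIa

/-!
# P088: the chain identity for the moments
-/

open MeasureTheory Set Metric
open scoped ContDiff Topology

noncomputable section
namespace Vale.Agent.P088
namespace NZI
open Vale.Agent.P136 (D Dp Dm Sm Tst)
open Vale.Agent.P136

variable {n : ℕ}

lemma alg (h1 A1 A2 Z1 Z2 C : Fin n → ℝ) (hh B1 B2 G : Fin n → Fin n → ℝ) (g q L : ℝ)
    (har : ∑ a, hh a a = 0) :
    L - 2 * (∑ a, h1 a * Z1 a) + (∑ a, (h1 a * A1 a + ∑ b, hh a b * B1 a b)) * g -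
        2 * ∑ a, (h1 a * (Z2 a - Z1 a) -
          (h1 a * (A2 a - A1 a) + ∑ b, hh a b * (B2 a b - B1 a b)) * g) =
      L + q * (∑ a, (h1 a * C a + ∑ b, hh a b * G a b)) +
        (∑ a, h1 a * (-(q * C a) - g * A1 a - 2 * Z2 a + 2 * g * A2 a)) +
        ∑ a, ∑ b, hh a b * (-(q * (G a b - if a = b then 1 else 0)) -
          g * (B1 a b - if a = b then 1 else 0) + 2 * g * B2 a b) := by
  have e : ∀ a, ∑ b, hh a b * (-(q * (G a b - if a = b then 1 else 0)) -
      g * (B1 a b - if a = b then 1 else 0) + 2 * g * B2 a b) =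
      -(q * ∑ b, hh a b * G a b) - g * (∑ b, hh a b * B1 a b) + 2 * g * (∑ b, hh a b * B2 a b) +
        (q + g) * hh a a := fun a => by
    have : hh a a = ∑ b, hh a b * if a = b then 1 else 0 := by simp
    rw [this]
    simp only [Finset.mul_sum, ← Finset.sum_neg_distrib, ← Finset.sum_sub_distrib,
      ← Finset.sum_add_distrib]
    exact Finset.sum_congr rfl fun b _ => by ring
  have e2 : ∀ a, ∑ b, hh a b * (B2 a b - B1 a b) = ∑ b, hh a b * B2 a b - ∑ b, hh a b * B1 a b :=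
    fun a => by simp only [mul_sub, Finset.sum_sub_distrib]
  have e3 : ∑ a, (q + g) * hh a a = 0 := by rw [← Finset.mul_sum, har, mul_zero]
  simp only [e, e2]
  rw [← sub_eq_zero, ← neg_zero, ← e3, Finset.mul_sum, Finset.sum_mul, Finset.mul_sum,
    Finset.mul_sum]
  have : ∀ (x y z u v w t : Fin n → ℝ), (∀ a, -x a + y a - z a - u a - v a - w a = -t a) →
      L - ∑ a, x a + ∑ a, y a - ∑ a, z a - (L + ∑ a, u a + ∑ a, v a + ∑ a, w a) = -∑ a, t a := by
    intro x y z u v w t h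
    rw [← Finset.sum_neg_distrib, ← Finset.sum_congr rfl fun a _ => h a]
    simp only [Finset.sum_sub_distrib, Finset.sum_add_distrib, Finset.sum_neg_distrib]; ring
  exact this _ _ _ _ _ _ _ fun a => by ring

lemma D_hW {E : MatF n} (hE' : SmM E) {H : En n → ℝ} (hH : Sm H) {W : X2 n → ℝ} (hW : Sm W)
    (j : Fin n) (p : X2 n) : D (ex j) (fun p => hE E H p * W p) p = hE E H p * D (ex j) W p +
      ∑ b, hE E (D (ee b) H) p * (W p * (Uc E b j p - E b j p.1)) := by
  rw [D_mul_at ((sm_hE hE' hH).dAt p) (hW.dAt p), D_hE_x hE' hH, Finset.sum_mul]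
  congr 1
  exact Finset.sum_congr rfl fun b _ => by ring

lemma sum_hW (h1 : Fin n → ℝ) (hh : Fin n → Fin n → ℝ) (d : Fin n → Fin n → ℝ)
    (t : Fin n → Fin n → Fin n → ℝ) :
    ∑ j, ∑ a, (h1 a * d a j + ∑ b, hh a b * t a b j) =
      ∑ a, (h1 a * ∑ j, d a j + ∑ b, hh a b * ∑ j, t a b j) := by
  rw [Finset.sum_comm]
  refine Finset.sum_congr rfl fun a _ => ?_
  rw [Finset.sum_add_distrib, ← Finset.mul_sum, Finset.sum_comm]
  simp only [Finset.mul_sum]

variable {ι : Type} (f : Fx) (c : Cx n ι)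

def W1' (E : MatF n) (a j : Fin n) (p : X2 n) : ℝ := ∑ i, c.γ₁ i j p.1 * (Uc E a i p - E a i p.1)
def W2' (E : MatF n) (a j : Fin n) (p : X2 n) : ℝ := ∑ i, c.γ₁ i j p.1 * Uc E a i p

def R1' (E : MatF n) (g q : X2 n → ℝ) (a : Fin n) (p : X2 n) : ℝ :=
  -(q p * ∑ i, ∑ j, D (ee i) (c.γ₂ i j) p.2 * E a j p.1) - g p * (∑ j, D (ex j) (W1' c E a j) p) -
    2 * (∑ j, W2' c E a j p * zx f c g p j) + 2 * g p * ∑ j, D (ex j) (W2' c E a j) p

def R2' (E : MatF n) (g q : X2 n → ℝ) (a b : Fin n) (p : X2 n) : ℝ :=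
  -(q p * ((∑ i, ∑ j, c.γ₂ i j p.2 * E a i p.1 * E b j p.1) - if a = b then 1 else 0)) -
    g p * ((∑ j, W1' c E a j p * (Uc E b j p - E b j p.1)) - if a = b then 1 else 0) +
    2 * g p * ∑ j, W2' c E a j p * (Uc E b j p - E b j p.1)

lemma RR1_eq (E : MatF n) (g q : X2 n → ℝ) (a : Fin n) :
    RR1 f c E g q a = fun p => fX f c p.1 ^ 1 * R1' f c E g q a p := by
  funext p
  have : ∑ i, ∑ j, c.γ₁ i j p.1 * Uc E a i p * zx f c g p j = ∑ j, W2' c E a j p * zx f c g p j := by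
    rw [Finset.sum_comm]; simp only [W2', Finset.sum_mul]
  unfold RR1 R1'; rw [this, pow_one]; rfl

lemma RR2_eq (hf : ∀ x, fX f c x ^ 2 = aX f c x) (E : MatF n) (g q : X2 n → ℝ) (a b : Fin n) :
    RR2 f c E g q a b = fun p => fX f c p.1 ^ 2 * R2' c E g q a b p := by
  funext p
  have h1 : ∑ i, ∑ j, c.γ₁ i j p.1 * (Uc E a i p - E a i p.1) * (Uc E b j p - E b j p.1) =
      ∑ j, W1' c E a j p * (Uc E b j p - E b j p.1) := by
    rw [Finset.sum_comm]; simp only [W1', Finset.sum_mul]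
  have h2 : ∑ i, ∑ j, c.γ₁ i j p.1 * Uc E a i p * (Uc E b j p - E b j p.1) =
      ∑ j, W2' c E a j p * (Uc E b j p - E b j p.1) := by
    rw [Finset.sum_comm]; simp only [W2', Finset.sum_mul]
  unfold RR2 R2'; rw [h1, h2, hf]

variable {f c} {E : MatF n} {g q : X2 n → ℝ} {H : En n → ℝ}

lemma sm_W1 (h1 : SmM c.γ₁) (hE' : SmM E) (a j : Fin n) : Sm (W1' c E a j) :=
  Sm.sum fun i _ => (sm_fst (h1 i j)).mul ((sm_Uc hE' a i).sub (sm_fst (hE' a i)))

lemma sm_W2 (h1 : SmM c.γ₁) (hE' : SmM E) (a j : Fin n) : Sm (W2' c E a j) :=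
  Sm.sum fun i _ => (sm_fst (h1 i j)).mul (sm_Uc hE' a i)

lemma tst_R1 (h1 : SmM c.γ₁) (h2 : SmM c.γ₂) (hφ : Sm (phi f c)) (hE' : SmM E) (hg : Tst g)
    (hq : Tst q) (a : Fin n) : Tst (R1' f c E g q a) :=
  ((((hq.mul_right (Sm.sum fun i _ => Sm.sum fun j _ =>
    (sm_snd ((h2 i j).D _)).mul (sm_fst (hE' a j)))).neg).sub
    (hg.mul_right (Sm.sum fun j _ => (sm_W1 h1 hE' a j).D _))).sub
    ((Tst.sum _ fun j _ => Tst.mul_left (sm_W2 h1 hE' a j) (Tst.Dm hφ hg _)).const_mul 2)).add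
    ((hg.const_mul 2).mul_right (Sm.sum fun j _ => (sm_W2 h1 hE' a j).D _))

lemma tst_R2 (h1 : SmM c.γ₁) (h2 : SmM c.γ₂) (hE' : SmM E) (hg : Tst g)
    (hq : Tst q) (a b : Fin n) : Tst (R2' c E g q a b) :=
  (((hq.mul_right ((Sm.sum fun i _ => Sm.sum fun j _ => ((sm_snd (h2 i j)).mul
    (sm_fst (hE' a i))).mul (sm_fst (hE' b j))).sub (Sm.const _))).neg).sub
    (hg.mul_right ((Sm.sum fun j _ => (sm_W1 h1 hE' a j).mul
      ((sm_Uc hE' b j).sub (sm_fst (hE' b j)))).sub (Sm.const _)))).add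
    ((hg.const_mul 2).mul_right (Sm.sum fun j _ => (sm_W2 h1 hE' a j).mul
      ((sm_Uc hE' b j).sub (sm_fst (hE' b j)))))

lemma pw (h1 : SmM c.γ₁) (s1 : SymM (onX c.γ₁)) (h2 : SmM c.γ₂) (s2 : SymM (onY c.γ₂))
    (hφ : Sm (phi f c)) (hE' : SmM E) (hg : Sm g) (hH : Sm H)
    (har : ∀ w, ∑ a, D (ee a) (D (ee a) H) w = 0) (p : X2 n) :
    Lm ex (onX c.γ₁) (phi f c) (fun p => hE E H p * g p) p -
        2 * ∑ a, ∑ l, Dm (phi f c) (ex l)
          (fun p => eE c E a l p.1 * (hE E (D (ee a) H) p * g p)) p =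
      hE E H p * Lm ex (onX c.γ₁) (phi f c) g p + q p * dgd ey (onY c.γ₂) (hE E H) p +
        (∑ a, hE E (D (ee a) H) p * R1' f c E g q a p) +
        ∑ a, ∑ b, hE E (D (ee a) (D (ee b) H)) p * R2' c E g q a b p := by
  have h1' : SmM (onX c.γ₁) := fun i j => sm_fst (h1 i j)
  have y1 : ∀ i j (p : X2 n), c.γ₁ i j p.1 = c.γ₁ j i p.1 := fun i j p => congrFun (s1 i j) p
  have y2 : ∀ i j (p : X2 n), c.γ₂ i j p.2 = c.γ₂ j i p.2 := fun i j p => congrFun (s2 i j) p
  have cm : ∀ a b, D (ee b) (D (ee a) H) = D (ee a) (D (ee b) H) := fun a b => D_comm hH _ _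
  have t1 : ∑ i, ∑ j, onX c.γ₁ i j p * D (ex i) (hE E H) p * Dm (phi f c) (ex j) g p =
      ∑ a, hE E (D (ee a) H) p * ∑ j, W1' c E a j p * zx f c g p j := by
    simp only [D_hE_x hE' hH, W1', Finset.mul_sum, Finset.sum_mul, onX, zx]
    rw [Finset.sum_comm, Finset.sum_congr rfl fun j _ => Finset.sum_comm, Finset.sum_comm]
    exact Finset.sum_congr rfl fun a _ => Finset.sum_congr rfl fun j _ =>
      Finset.sum_congr rfl fun i _ => by ring
  have t2 : dgd ex (onX c.γ₁) (hE E H) p = ∑ a, (hE E (D (ee a) H) p *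
      ∑ j, D (ex j) (W1' c E a j) p + ∑ b, hE E (D (ee a) (D (ee b) H)) p *
        ∑ j, W1' c E a j p * (Uc E b j p - E b j p.1)) := by
    have e : ∀ j, XX ex (onX c.γ₁) (hE E H) j =
        fun p => ∑ a, hE E (D (ee a) H) p * W1' c E a j p := fun j => by
      funext p
      simp only [XX, D_hE_x hE' hH, W1', Finset.mul_sum, onX]
      rw [Finset.sum_comm]
      exact Finset.sum_congr rfl fun a _ => Finset.sum_congr rfl fun i _ => by rw [y1 j i]; ring
    rw [← sum_hW]; unfold dgd dvg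
    refine Finset.sum_congr rfl fun j _ => ?_
    rw [e, D_sum_at _ fun a _ => ((sm_hE hE' (hH.D _)).mul (sm_W1 h1 hE' a j)).dAt p]
    refine Finset.sum_congr rfl fun a _ => ?_
    rw [D_hW hE' (hH.D _) (sm_W1 h1 hE' a j)]
    simp only [cm a]
  have t3 : ∀ a, ∑ l, Dm (phi f c) (ex l) (fun p => eE c E a l p.1 * (hE E (D (ee a) H) p * g p)) p =
      hE E (D (ee a) H) p * ((∑ j, W2' c E a j p * zx f c g p j) -
        ∑ j, W1' c E a j p * zx f c g p j) - (hE E (D (ee a) H) p *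
        ((∑ j, D (ex j) (W2' c E a j) p) - ∑ j, D (ex j) (W1' c E a j) p) +
        ∑ b, hE E (D (ee a) (D (ee b) H)) p * ((∑ j, W2' c E a j p * (Uc E b j p - E b j p.1)) -
          ∑ j, W1' c E a j p * (Uc E b j p - E b j p.1))) * g p := fun a => by
    have e : ∀ l, (fun p : X2 n => eE c E a l p.1 * (hE E (D (ee a) H) p * g p)) =
        fun p => (hE E (D (ee a) H) p * (W2' c E a l p - W1' c E a l p)) * g p := fun l => by
      funext p
      have : eE c E a l p.1 = W2' c E a l p - W1' c E a l p := by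
        simp only [eE, W1', W2', ← Finset.sum_sub_distrib]
        exact Finset.sum_congr rfl fun i _ => by rw [y1 l i]; ring
      rw [this]; ring
    have hW := fun l => (sm_W2 h1 hE' a l).sub (sm_W1 h1 hE' a l)
    simp only [e, Dm_mul ((sm_hE hE' (hH.D _)).mul (hW _)) hg, D_hW hE' (hH.D _) (hW _),
      D_sub_at ((sm_W2 h1 hE' a _).dAt p) ((sm_W1 h1 hE' a _).dAt p), cm a]
    rw [Finset.sum_sub_distrib, ← Finset.sum_mul, Finset.sum_add_distrib, Finset.sum_comm]
    simp only [← Finset.sum_sub_distrib, Finset.mul_sum, zx, sub_mul]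
    congr 1
    exact Finset.sum_congr rfl fun l _ => by ring
  have t4 : dgd ey (onY c.γ₂) (hE E H) p = ∑ a, (hE E (D (ee a) H) p *
      (∑ i, ∑ j, D (ee i) (c.γ₂ i j) p.2 * E a j p.1) + ∑ b, hE E (D (ee a) (D (ee b) H)) p *
        ∑ i, ∑ j, c.γ₂ i j p.2 * E a i p.1 * E b j p.1) := by
    have hW : ∀ a i, Sm fun p : X2 n => ∑ j, c.γ₂ i j p.2 * E a j p.1 := fun a i =>
      Sm.sum fun j _ => (sm_snd (h2 i j)).mul (sm_fst (hE' a j))
    have e : ∀ i, XX ey (onY c.γ₂) (hE E H) i =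
        fun p => ∑ a, hE E (D (ee a) H) p * ∑ j, c.γ₂ i j p.2 * E a j p.1 := fun i => by
      funext p
      simp only [XX, D_hE_y hE' hH, Finset.mul_sum, onY]
      rw [Finset.sum_comm]
      exact Finset.sum_congr rfl fun a _ => Finset.sum_congr rfl fun i _ => by ring
    have e' : ∀ a b, ∑ i, ∑ j, c.γ₂ i j p.2 * E a i p.1 * E b j p.1 =
        ∑ i, ∑ j, c.γ₂ i j p.2 * E a j p.1 * E b i p.1 := fun a b => by
      rw [Finset.sum_comm]
      exact Finset.sum_congr rfl fun i _ => Finset.sum_congr rfl fun j _ => by rw [y2 j i]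
    simp only [e']
    rw [← sum_hW]; unfold dgd dvg
    refine Finset.sum_congr rfl fun i _ => ?_
    rw [e, D_sum_at _ fun a _ => ((sm_hE hE' (hH.D _)).mul (hW a i)).dAt p]
    refine Finset.sum_congr rfl fun a _ => ?_
    rw [D_mul_at ((sm_hE hE' (hH.D _)).dAt p) ((hW a i).dAt p), D_hE_y hE' (hH.D _),
      D_sum_at _ fun j _ => ((sm_snd (h2 i j)).mul (sm_fst (hE' a j))).dAt p, Finset.sum_mul]
    simp only [D_mul_at ((sm_snd (h2 i _)).dAt p) ((sm_fst (hE' a _)).dAt p), D_fst (hE' a _),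
      D_snd (h2 i _), cm a]
    congr 1
    · simp [ey, D_zero]
    · exact Finset.sum_congr rfl fun b _ => by rw [← Finset.sum_mul]; ring
  rw [Lm_mul ex h1' s1 hφ (sm_hE hE' hH) hg, t1, t2, t4]
  simp only [t3]
  exact alg _ _ _ _ _ _ (fun a b => hE E (D (ee a) (D (ee b) H)) p) _ _ _ _ _ _ (har _)

lemma mom_eq {m k : ℕ} (h : Hom m k H) (R : X2 n → ℝ) (x : En n) :
    momt f c E (fun p => fX f c p.1 ^ k * R p) H x = fi (fun p =>
      Real.exp (psik (lX f c) f.Cw m p.1 - phi f c p) * (hE E H p * R p)) x := by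
  unfold momt fi
  rw [← integral_const_mul]
  congr 1; funext y
  have e : wv f c E (x, y) = fX f c x • wz E (x, y) := by ext a; simp [wv, wz]
  have e2 : Real.exp (psik (lX f c) f.Cw m x - phi f c (x, y)) =
      Real.exp ((f.Cw + n / 2) * lX f c x) * Real.exp (-phi f c (x, y)) * fX f c x ^ m := by
    rw [fX, ← Real.exp_nat_mul, ← Real.exp_add, ← Real.exp_add]
    congr 1; simp only [psik, lamk]; ring
  have := h (fX f c x) (wz E (x, y))
  simp only [hE]
  rw [e, e2]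
  linear_combination (Real.exp ((f.Cw + n / 2) * lX f c x) * Real.exp (-phi f c (x, y)) *
    R (x, y)) * this

lemma ibp_y (hp : S_par) (h2 : SmM c.γ₂) (s2 : SymM (onY c.γ₂)) (hφ : Sm (phi f c))
    {ψ : En n → ℝ} (hψ : Sm ψ) {h : X2 n → ℝ} (hh : Sm h) (hq : Tst q) (x : En n) :
    fi (fun p => Real.exp (ψ p.1 - phi f c p) * (q p * dgd ey (onY c.γ₂) h p)) x =
      fi (fun p => Real.exp (ψ p.1 - phi f c p) * (h p * Lm ey (onY c.γ₂) (phi f c) q p)) x := by
  have h2' : SmM (onY c.γ₂) := fun i j => sm_snd (h2 i j)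
  have hθ : Sm fun p : X2 n => Real.exp (ψ p.1 - phi f c p) := ((sm_fst hψ).sub hφ).exp
  have hT : ∀ i, Tst fun p => h p * Zm ey (onY c.γ₂) (phi f c) q i p +
      XX ey (onY c.γ₂) h i p * q p := fun i =>
    (Tst.mul_left hh (IdT.tst_Zm h2' hφ hq i)).add (Tst.mul_left (IdT.sm_XX h2' hh i) hq)
  have e : (fun p => Real.exp (ψ p.1 - phi f c p) * (q p * dgd ey (onY c.γ₂) h p)) = fun p =>
      Real.exp (ψ p.1 - phi f c p) * (h p * Lm ey (onY c.γ₂) (phi f c) q p) +
        ∑ i, D (ey i) (fun p => Real.exp (ψ p.1 - phi f c p) *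
          (h p * Zm ey (onY c.γ₂) (phi f c) q i p + XX ey (onY c.γ₂) h i p * q p)) p := by
    funext p
    have e1 : ∀ i, D (ey i) (fun p => Real.exp (ψ p.1 - phi f c p) *
          (h p * Zm ey (onY c.γ₂) (phi f c) q i p + XX ey (onY c.γ₂) h i p * q p)) p =
        -(Real.exp (ψ p.1 - phi f c p) * (h p * Dm (phi f c) (ey i)
          (Zm ey (onY c.γ₂) (phi f c) q i) p - D (ey i) h p * Zm ey (onY c.γ₂) (phi f c) q i p +
          (XX ey (onY c.γ₂) h i p * Dm (phi f c) (ey i) q p -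
            D (ey i) (XX ey (onY c.γ₂) h i) p * q p))) := fun i => by
      have := congrFun (Dm_conj (sm_fst hψ) hφ (hT i).sm (ey i)) p
      rw [Dm_add (hh.mul (IdT.tst_Zm h2' hφ hq i).sm) ((IdT.sm_XX h2' hh i).mul hq.sm),
        Dm_mul hh (IdT.tst_Zm h2' hφ hq i).sm, Dm_mul (IdT.sm_XX h2' hh i) hq.sm] at this
      rw [← this]
      simp only [Dm, D_fst hψ]
      simp [ey, D_zero]
    have e2 : ∑ i, XX ey (onY c.γ₂) h i p * Dm (phi f c) (ey i) q p =
        ∑ i, D (ey i) h p * Zm ey (onY c.γ₂) (phi f c) q i p := by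
      simp only [XX, Zm, Finset.sum_mul, Finset.mul_sum]
      rw [Finset.sum_comm]
      exact Finset.sum_congr rfl fun i _ => Finset.sum_congr rfl fun j _ => by rw [s2 j i]; ring
    simp only [e1, Finset.sum_neg_distrib, ← Finset.mul_sum, Finset.sum_add_distrib,
      Finset.sum_sub_distrib, e2, ← Finset.sum_mul, Lm, dgd, dvg]
    ring
  rw [e, fi_add hp (Tst.mul_left hθ (Tst.mul_left hh (IdT.tst_Lm h2' hφ hq)))
    (Tst.sum _ fun i _ => (Tst.mul_left hθ (hT i)).D _),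
    fi_sum hp _ fun i => (Tst.mul_left hθ (hT i)).D _]
  simp only [fi_Dy hp (Tst.mul_left hθ (hT _)), Finset.sum_const_zero, add_zero]

lemma chain (hp : S_par) (h0 : W0 f c) (h1 : SmM c.γ₁) (h2 : SmM c.γ₂) (hE' : SmM E) (hg : Tst g)
    (hq : Tst q) (hH : Sm H) {m : ℕ} (hm : Hom m 0 H) (har : ∀ w, ∑ a, D (ee a) (D (ee a) H) w = 0)
    (x : En n) :
    Lm ee c.γ₁ (psik (lX f c) f.Cw m) (momt f c E g H) x -
        2 * ∑ a, ∑ l, fi (fun p => Real.exp (psik (lX f c) f.Cw m p.1 - phi f c p) *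
          Dm (phi f c) (ex l) (fun p => eE c E a l p.1 * (hE E (D (ee a) H) p * g p)) p) x =
      momt f c E (Gt f c g q) H x + (∑ a, momt f c E (RR1 f c E g q a) (Ds ee [a] H) x) +
        ∑ a, ∑ b, momt f c E (RR2 f c E g q a b) (Ds ee [a, b] H) x := by
  obtain ⟨⟨-, -, -, -, -, -, -, -, -, -, -, -, -, -, -, -, -, hφ, -, -, -, -, -, -, -, -, -, -, -,
    -, -, -, -, -, -, -, -, -, -, hl, -, h1', s1, h2', s2⟩, hx, -⟩ := h0
  have hψ : Sm (psik (lX f c) f.Cw m) := hl.cmul _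
  have hθ : Sm fun p : X2 n => Real.exp (psik (lX f c) f.Cw m p.1 - phi f c p) :=
    ((sm_fst hψ).sub hφ).exp
  have he : ∀ a l, Sm (eE c E a l) := fun a l => Sm.sum fun j _ => (h1 l j).mul (hE' a j)
  have m0 : ∀ R, momt f c E R H = fi (fun p =>
      Real.exp (psik (lX f c) f.Cw m p.1 - phi f c p) * (hE E H p * R p)) := fun R => by
    funext x; rw [← mom_eq hm]; simp only [pow_zero, one_mul]
  have hh := sm_hE hE' hH
  have T1 := Tst.mul_left hθ (IdT.tst_Lm (v := ex) h1' hφ (Tst.mul_left hh hg))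
  have T2 := fun a l => Tst.mul_left hθ (Tst.Dm hφ (Tst.mul_left (sm_fst (he a l))
    (Tst.mul_left (sm_hE hE' (hH.D (ee a))) hg)) (ex l))
  have T3 := Tst.mul_left hθ (Tst.mul_left hh (IdT.tst_Lm (v := ex) h1' hφ hg))
  have T4 := Tst.mul_left hθ (Tst.mul_left hh (IdT.tst_Lm (v := ey) h2' hφ hq))
  have T5 := Tst.mul_left hθ (hq.mul_right (IdT.sm_dgd (v := ey) h2' hh))
  have T6 := fun a => Tst.mul_left hθ (Tst.mul_left (sm_hE hE' (hH.D (ee a)))
    (tst_R1 h1 h2 hφ hE' hg hq a))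
  have T7 := fun a b => Tst.mul_left hθ (Tst.mul_left (sm_hE hE' ((hH.D (ee b)).D (ee a)))
    (tst_R2 h1 h2 hE' hg hq a b))
  have g0 : momt f c E (Gt f c g q) H x = fi (fun p =>
      Real.exp (psik (lX f c) f.Cw m p.1 - phi f c p) *
        (hE E H p * Lm ex (onX c.γ₁) (phi f c) g p) +
      Real.exp (psik (lX f c) f.Cw m p.1 - phi f c p) *
        (hE E H p * Lm ey (onY c.γ₂) (phi f c) q p)) x := by
    rw [m0]; congr 1; funext p; simp only [Gt]; ring
  have g1 := g0.trans (fi_add hp T3 T4 x)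
  rw [← ibp_y hp h2 s2 hφ hψ hh hq x, ← fi_add hp T3 T5] at g1
  have g2 := (Finset.sum_congr rfl fun a _ =>
    (congrArg (fun R => momt f c E R (Ds ee [a] H) x) (RR1_eq f c E g q a)).trans
      (mom_eq (hm.D hH (ee a)) _ x)).trans (fi_sum hp Finset.univ T6 x).symm
  have g3 := (Finset.sum_congr rfl fun a _ => (Finset.sum_congr rfl fun b _ =>
    (congrArg (fun R => momt f c E R (Ds ee [a, b] H) x)
      (RR2_eq f c (fun x => (hx x).2.2.1) E g q a b)).trans
      (mom_eq ((hm.D hH (ee b)).D (hH.D _) (ee a)) _ x)).trans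
      (fi_sum hp Finset.univ (T7 a) x).symm).trans
    (fi_sum hp Finset.univ (fun a => Tst.sum Finset.univ fun l _ => T7 a l) x).symm
  have g4 := (Finset.sum_congr rfl fun a _ => (fi_sum hp Finset.univ (T2 a) x).symm).trans
    (fi_sum hp Finset.univ (fun a => Tst.sum Finset.univ fun l _ => T2 a l) x).symm
  rw [g1, g2, g3, g4, m0, fi_Lm hp hψ h1 (Tst.mul_left hθ (Tst.mul_left hh hg)),
    Lm_conj ex h1' (sm_fst hψ) hφ (hh.mul hg.sm),
    ← fi_add hp (T3.add T5) (Tst.sum _ fun a _ => T6 a),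
    ← fi_add hp ((T3.add T5).add (Tst.sum _ fun a _ => T6 a))
      (Tst.sum _ fun a _ => Tst.sum _ fun l _ => T7 a l), sub_eq_add_neg, ← neg_mul,
    ← fi_mul (fun _ => (-2 : ℝ)), ← fi_add hp T1
      ((Tst.sum _ fun a _ => Tst.sum _ fun l _ => T2 a l).const_mul (-2))]
  congr 1; funext p
  have := pw (q := q) h1 s1 h2 s2 hφ hE' hg.sm hH har p
  simp only [← Finset.mul_sum]
  linear_combination Real.exp (psik (lX f c) f.Cw m p.1 - phi f c p) * this

end NZI

open NZI Vale.Agent.P136 in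
theorem s_NZI (hp : S_par) : S_NZI := by
  intro n ι f c F E g q h0 h1 h2 hF hE' hg hq
  obtain ⟨F1, F2, F3, -, -, -, F7, F8⟩ := hF
  have hom : ∀ m j, Hom m 0 (F.H m j) := fun m j s w => by rw [F2, pow_zero, one_mul]
  have key := fun m j x => chain (q := q) hp h0 h1 h2 hE' hg hq (F1 m j) (hom m j) (F3 m j) x
  obtain ⟨⟨-, -, -, -, -, -, -, -, -, -, -, -, -, -, -, -, -, hφ, -, -, -, -, -, -, -, -, -, -, -,
    -, -, -, -, -, -, -, -, -, -, hl, -⟩, -⟩ := h0
  have hψ : ∀ m, Sm (psik (lX f c) f.Cw m) := fun m => hl.cmul _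
  have hθ : ∀ m, Sm fun p : X2 n => Real.exp (psik (lX f c) f.Cw m p.1 - phi f c p) :=
    fun m => ((sm_fst (hψ m)).sub hφ).exp
  have he : ∀ a l, Sm (eE c E a l) := fun a l => Sm.sum fun j _ => (h1 l j).mul (hE' a j)
  have m0 : ∀ m j, fm f c F E g m j = fi (fun p =>
      Real.exp (psik (lX f c) f.Cw m p.1 - phi f c p) * (hE E (F.H m j) p * g p)) := fun m j => by
    funext x; rw [← mom_eq (hom m j)]; simp only [pow_zero, one_mul, fm]
  have T0 := fun m j => Tst.mul_left (hθ m) (Tst.mul_left (sm_hE hE' (F1 m j)) hg)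
  refine ⟨fun m j => ?_, fun m j x => ?_⟩
  · rw [m0]
    refine ⟨fi_tst hp (T0 m j), (((hp n _).1 (T0 m j).sm.cont (T0 m j).2).2.2.1).trans
      (image_mono ?_)⟩
    exact (tsupport_mul_subset_right).trans tsupport_mul_subset_right
  · rw [← key m j x]
    cases m with
    | zero =>
      have : ∀ a, D (ee a) (F.H 0 j) = fun _ => 0 := fun a => funext (F7 a j)
      simp [nzS, fm, this, hE, Dm, D_const, fi]
    | succ m =>
      simp only [nzS, nzB, fm, sub_eq_add_neg]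
      congr 1
      rw [neg_mul, neg_mul, mul_assoc, Finset.mul_sum]
      congr 2
      refine Finset.sum_congr rfl fun a _ => ?_
      have T := fun i l => Tst.mul_left (sm_fst (he a l)) (Tst.mul_left (sm_hE hE' (F1 m i)) hg)
      have e1 : ∀ i, opT (eE c E) (lX f c) f.Cw m a (momt f c E g (F.H m i)) x =
          ∑ l, fi (fun p => Real.exp (psik (lX f c) f.Cw m p.1 - phi f c p) *
            Dm (phi f c) (ex l) (fun p => eE c E a l p.1 * (hE E (F.H m i) p * g p)) p) x :=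
        fun i => Finset.sum_congr rfl fun l _ => by
          have : (fun y => eE c E a l y * momt f c E g (F.H m i) y) = fi (fun p =>
              Real.exp (psik (lX f c) f.Cw m p.1 - phi f c p) *
                (eE c E a l p.1 * (hE E (F.H m i) p * g p))) := by
            funext y
            rw [show momt f c E g (F.H m i) = _ from m0 m i, ← fi_mul]
            congr 1; funext p; ring
          rw [this, fi_Dm hp (hψ m) (Tst.mul_left (hθ m) (T i l)),
            Dm_conj (sm_fst (hψ m)) hφ (T i l).sm]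
      simp only [e1, Finset.mul_sum]
      rw [Finset.sum_comm]
      refine Finset.sum_congr rfl fun l _ => ?_
      have T' := fun i => Tst.mul_left (hθ m) (Tst.Dm hφ (T i l) (ex l))
      have g5 := (fi_sum hp Finset.univ (fun i => (T' i).const_mul (F.c a m i j)) x).trans
        (Finset.sum_congr rfl fun i _ => fi_mul (fun _ => F.c a m i j) _ x)
      rw [← Finset.mul_sum, ← g5, ← fi_mul fun x => Real.exp (lX f c x)]
      congr 1; funext p
      have e2 : (fun p => eE c E a l p.1 * (hE E (D (ee a) (F.H (m + 1) j)) p * g p)) =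
          fun p => ∑ i, F.c a m i j * (eE c E a l p.1 * (hE E (F.H m i) p * g p)) := by
        funext p
        simp only [hE, F8, Finset.sum_mul, Finset.mul_sum]
        exact Finset.sum_congr rfl fun i _ => by ring
      have e3 : Real.exp (psik (lX f c) f.Cw (m + 1) p.1 + -phi f c p) =
          Real.exp (lX f c p.1) * Real.exp (psik (lX f c) f.Cw m p.1 - phi f c p) := by
        rw [← Real.exp_add]; congr 1; simp only [psik, lamk]; push_cast; ring
      rw [e2, IdT.Dm_sum _ fun i _ => ((T i l).sm.cmul _), e3, Finset.mul_sum, Finset.mul_sum]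
      refine Finset.sum_congr rfl fun i _ => ?_
      rw [Dm_mul (Sm.const _) (T i l).sm]
      simp only [D_const]; ring



end Vale.Agent.P088
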