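import Vale.Agent.P088.StN
import Vale.Agent.P088.IdTool

/-!
# P088: tools for the chain identity
-/

open MeasureTheory Set Metric
open scoped ContDiff Topology

noncomputable section
namespace Vale.Agent.P088.NZI
open Vale.Agent.P136 (D Dp Dm Sm Tst)
open Vale.Agent.P136

variable {n : ℕ}

/-- Integration along the fibres. -/
def fi (K : X2 n → ℝ) : En n → ℝ := fun x => ∫ y, K (x, y)

lemma sm_fst {m : En n → ℝ} (hm : Sm m) : Sm fun p : X2 n => m p.1 := hm.comp contDiff_fst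
lemma sm_snd {m : En n → ℝ} (hm : Sm m) : Sm fun p : X2 n => m p.2 := hm.comp contDiff_snd

lemma D_fst {m : En n → ℝ} (hm : Sm m) (v p : X2 n) : D v (fun p : X2 n => m p.1) p = D v.1 m p.1 := by
  have h := ((hm.dAt p.1).hasFDerivAt.comp p (hasFDerivAt_fst (p := p))).fderiv
  simp only [D]
  rw [show (fun p : X2 n => m p.1) = m ∘ Prod.fst from rfl, h]; simp

lemma D_snd {m : En n → ℝ} (hm : Sm m) (v p : X2 n) : D v (fun p : X2 n => m p.2) p = D v.2 m p.2 := by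
  have h := ((hm.dAt p.2).hasFDerivAt.comp p (hasFDerivAt_snd (p := p))).fderiv
  simp only [D]
  rw [show (fun p : X2 n => m p.2) = m ∘ Prod.snd from rfl, h]; simp

lemma D_zero (m : En n → ℝ) (x : En n) : D 0 m x = 0 := by simp [D]

section fib
variable (hp : S_par)
include hp

lemma fi_int {K : X2 n → ℝ} (hK : Tst K) (x : En n) : Integrable fun y => K (x, y) :=
  ((hp n K).1 hK.sm.cont hK.2).2.2.2.1 x

lemma fi_tst {K : X2 n → ℝ} (hK : Tst K) : Tst (fi K) := ((hp n K).2 hK).1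

lemma fi_D {K : X2 n → ℝ} (hK : Tst K) (i : Fin n) (x : En n) :
    D (ee i) (fi K) x = fi (D (ex i) K) x := (((hp n K).2 hK).2 i x).1

lemma fi_Dy {K : X2 n → ℝ} (hK : Tst K) (i : Fin n) (x : En n) : fi (D (ey i) K) x = 0 :=
  (((hp n K).2 hK).2 i x).2

lemma fi_add {K K' : X2 n → ℝ} (hK : Tst K) (hK' : Tst K') (x : En n) :
    fi (fun p => K p + K' p) x = fi K x + fi K' x :=
  integral_add (fi_int hp hK x) (fi_int hp hK' x)

lemma fi_sum {J : Type} (s : Finset J) {K : J → X2 n → ℝ} (hK : ∀ j, Tst (K j)) (x : En n) :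
    fi (fun p => ∑ j ∈ s, K j p) x = ∑ j ∈ s, fi (K j) x :=
  integral_finsetSum _ fun j _ => fi_int hp (hK j) x

omit hp in
lemma fi_mul (m : En n → ℝ) (K : X2 n → ℝ) (x : En n) :
    fi (fun p => m p.1 * K p) x = m x * fi K x := integral_const_mul (m x) fun y => K (x, y)

lemma fi_Dm {ψ : En n → ℝ} (hψ : Sm ψ) {K : X2 n → ℝ} (hK : Tst K) (i : Fin n) :
    Dm ψ (ee i) (fi K) = fi (Dm (fun p : X2 n => ψ p.1) (ex i) K) := by
  funext x
  have e : Dm (fun p : X2 n => ψ p.1) (ex i) K =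
      fun p => (fun _ => (-1 : ℝ)) p.1 * D (ex i) K p + D (ee i) ψ p.1 * K p := by
    funext p; simp only [Dm, D_fst hψ]; simp [ex]
  rw [e, fi_add hp (Tst.mul_left (sm_fst (Sm.const _)) (hK.D _))
    (Tst.mul_left (sm_fst (hψ.D _)) hK), fi_mul, fi_mul (fun _ => (-1 : ℝ)), ← fi_D hp hK]
  simp [Dm]

lemma fi_Lm {ψ : En n → ℝ} (hψ : Sm ψ) {γ : MatF n} (hγ : SmM γ) {K : X2 n → ℝ} (hK : Tst K)
    (x : En n) : Lm ee γ ψ (fi K) x = fi (Lm ex (onX γ) (fun p : X2 n => ψ p.1) K) x := by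
  have hγ' : SmM (onX γ) := fun i j => sm_fst (hγ i j)
  have e : ∀ i, Zm ee γ ψ (fi K) i = fi (Zm ex (onX γ) (fun p : X2 n => ψ p.1) K i) := fun i => by
    funext x
    unfold Zm
    rw [fi_sum hp _ fun j => Tst.mul_left (hγ' i j) (Tst.Dm (sm_fst hψ) hK _)]
    refine Finset.sum_congr rfl fun j _ => ?_
    rw [fi_Dm hp hψ hK]
    exact (fi_mul (γ i j) _ x).symm
  unfold Lm
  rw [fi_sum hp _ fun i => Tst.Dm (sm_fst hψ) (IdT.tst_Zm hγ' (sm_fst hψ) hK i) _]
  refine Finset.sum_congr rfl fun i _ => ?_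
  rw [e, fi_Dm hp hψ (IdT.tst_Zm hγ' (sm_fst hψ) hK i)]

end fib

section conj
variable {X : Type} [NormedAddCommGroup X] [NormedSpace ℝ X]

lemma Dm_conj {ψ φ u : X → ℝ} (hψ : Sm ψ) (hφ : Sm φ) (hu : Sm u) (v : X) :
    Dm ψ v (fun p => Real.exp (ψ p - φ p) * u p) = fun p => Real.exp (ψ p - φ p) * Dm φ v u p := by
  funext p
  simp only [Dm]
  rw [D_mul_at ((hψ.sub hφ).exp.dAt p) (hu.dAt p), D_exp_at ((hψ.sub hφ).dAt p),
    D_sub_at (hψ.dAt p) (hφ.dAt p)]
  ring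

lemma Lm_conj {κ : Type} [Fintype κ] (v : κ → X) {γ : κ → κ → X → ℝ} (hγ : SmM γ) {ψ φ u : X → ℝ}
    (hψ : Sm ψ) (hφ : Sm φ) (hu : Sm u) :
    Lm v γ ψ (fun p => Real.exp (ψ p - φ p) * u p) =
      fun p => Real.exp (ψ p - φ p) * Lm v γ φ u p := by
  have e : ∀ i, Zm v γ ψ (fun p => Real.exp (ψ p - φ p) * u p) i =
      fun p => Real.exp (ψ p - φ p) * Zm v γ φ u i p := fun i => by
    funext p; simp only [Zm, Dm_conj hψ hφ hu, Finset.mul_sum]
    exact Finset.sum_congr rfl fun j _ => by ring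
  have hZ : ∀ i, Sm (Zm v γ φ u i) := fun i => Sm.sum fun j _ => (hγ i j).mul (hφ.Dm hu _)
  funext p
  simp only [Lm, e, Dm_conj hψ hφ (hZ _), Finset.mul_sum]

lemma Lm_mul {κ : Type} [Fintype κ] (v : κ → X) {γ : κ → κ → X → ℝ} (hγ : SmM γ) (hs : SymM γ)
    {φ h u : X → ℝ} (hφ : Sm φ) (hh : Sm h) (hu : Sm u) (p : X) :
    Lm v γ φ (fun p => h p * u p) p = h p * Lm v γ φ u p -
      2 * (∑ i, ∑ j, γ i j p * D (v i) h p * Dm φ (v j) u p) + dgd v γ h p * u p := by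
  have hZ : ∀ i, Sm (Zm v γ φ u i) := fun i => Sm.sum fun j _ => (hγ i j).mul (hφ.Dm hu _)
  have e : ∀ i, Zm v γ φ (fun p => h p * u p) i =
      fun p => h p * Zm v γ φ u i p + (-XX v γ h i p) * u p := fun i => by
    funext p; simp only [Zm, XX, Dm_mul hh hu, Finset.mul_sum, neg_mul, Finset.sum_mul,
      ← Finset.sum_neg_distrib, ← Finset.sum_add_distrib]
    exact Finset.sum_congr rfl fun j _ => by ring
  have e2 : ∑ i, XX v γ h i p * Dm φ (v i) u p =
      ∑ i, ∑ j, γ i j p * D (v i) h p * Dm φ (v j) u p := by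
    simp only [XX, Finset.sum_mul]
    rw [Finset.sum_comm]
    exact Finset.sum_congr rfl fun i _ => Finset.sum_congr rfl fun j _ => by rw [hs j i]
  have e3 : ∑ i, D (v i) h p * Zm v γ φ u i p =
      ∑ i, ∑ j, γ i j p * D (v i) h p * Dm φ (v j) u p := by
    simp only [Zm, Finset.mul_sum]
    exact Finset.sum_congr rfl fun i _ => Finset.sum_congr rfl fun j _ => by ring
  have e4 : Lm v γ φ (fun p => h p * u p) p = ∑ i, (h p * Dm φ (v i) (Zm v γ φ u i) p -
      D (v i) h p * Zm v γ φ u i p - XX v γ h i p * Dm φ (v i) u p +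
      D (v i) (XX v γ h i) p * u p) := by
    refine Finset.sum_congr rfl fun i _ => ?_
    rw [e, Dm_add (hh.mul (hZ i)) ((IdT.sm_XX hγ hh i).neg.mul hu), Dm_mul hh (hZ i),
      Dm_mul (IdT.sm_XX hγ hh i).neg hu]
    simp only [D_neg]; ring
  rw [e4]
  simp only [Finset.sum_add_distrib, Finset.sum_sub_distrib, e2, e3, ← Finset.mul_sum,
    ← Finset.sum_mul, Lm, dgd, dvg]
  ring

end conj

/-! ## The harmonic function along the fibre -/

def wz (E : MatF n) (p : X2 n) : En n := WithLp.toLp 2 fun a => ∑ i, E a i p.1 * zz p i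

def hE (E : MatF n) (H : En n → ℝ) (p : X2 n) : ℝ := H (wz E p)

lemma sm_zz (i : Fin n) : Sm fun p : X2 n => zz p i := by
  unfold zz
  exact (EuclideanSpace.proj i : En n →L[ℝ] ℝ).contDiff.comp (contDiff_snd.sub contDiff_fst)

lemma D_zz (v p : X2 n) (i : Fin n) : D v (fun p : X2 n => zz p i) p = v.2 i - v.1 i := by
  have h : (fun p : X2 n => zz p i) = ((EuclideanSpace.proj i : En n →L[ℝ] ℝ).comp
      (ContinuousLinearMap.snd ℝ (En n) (En n) - ContinuousLinearMap.fst ℝ (En n) (En n))) := by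
    funext p; simp [zz]
  simp only [D]; rw [h, ContinuousLinearMap.fderiv]; simp

lemma sm_wa {E : MatF n} (hE : SmM E) (a : Fin n) : Sm fun p : X2 n => ∑ i, E a i p.1 * zz p i :=
  Sm.sum fun i _ => (sm_fst (hE a i)).mul (sm_zz i)

lemma sm_wz {E : MatF n} (hE : SmM E) : ContDiff ℝ ∞ (wz E) :=
  contDiff_euclidean.2 fun a => sm_wa hE a

lemma sm_hE {E : MatF n} (hE' : SmM E) {H : En n → ℝ} (hH : Sm H) : Sm (hE E H) :=
  hH.comp (sm_wz hE')

lemma sm_Uc {E : MatF n} (hE : SmM E) (a i : Fin n) : Sm (Uc E a i) :=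
  Sm.sum fun l _ => (sm_fst ((hE a l).D _)).mul (sm_zz l)

lemma D_hE {E : MatF n} (hE' : SmM E) {H : En n → ℝ} (hH : Sm H) (v p : X2 n) :
    D v (hE E H) p =
      ∑ a, hE E (D (ee a) H) p * D v (fun p : X2 n => ∑ i, E a i p.1 * zz p i) p := by
  have hw : DifferentiableAt ℝ (wz E) p := ((sm_wz hE').differentiable (by simp)) p
  have h1 : fderiv ℝ (hE E H) p = (fderiv ℝ H (wz E p)).comp (fderiv ℝ (wz E) p) :=
    fderiv_comp p (hH.dAt _) hw
  have h2 : ∀ a, D v (fun p : X2 n => ∑ i, E a i p.1 * zz p i) p = fderiv ℝ (wz E) p v a :=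
    fun a => by
      have := ((EuclideanSpace.proj a : En n →L[ℝ] ℝ).hasFDerivAt.comp p hw.hasFDerivAt).fderiv
      simp only [D]
      rw [show (fun p : X2 n => ∑ i, E a i p.1 * zz p i) =
        (EuclideanSpace.proj a : En n →L[ℝ] ℝ) ∘ wz E from rfl, this]; simp
  have h3 : fderiv ℝ (wz E) p v = ∑ a, fderiv ℝ (wz E) p v a • ee a := by
    ext b; simp [ee, Finset.sum_apply, Pi.single_apply]
  simp only [h2]
  simp only [D, h1, ContinuousLinearMap.comp_apply, hE]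
  conv_lhs => rw [h3]
  simp only [map_sum, map_smul, smul_eq_mul, mul_comm]

lemma D_hE_x {E : MatF n} (hE' : SmM E) {H : En n → ℝ} (hH : Sm H) (i : Fin n) (p : X2 n) :
    D (ex i) (hE E H) p = ∑ a, hE E (D (ee a) H) p * (Uc E a i p - E a i p.1) := by
  rw [D_hE hE' hH]
  refine Finset.sum_congr rfl fun a _ => ?_
  congr 1
  rw [D_sum_at _ fun l _ => ((sm_fst (hE' a l)).mul (sm_zz l)).dAt p]
  simp only [D_mul_at ((sm_fst (hE' a _)).dAt p) ((sm_zz _).dAt p), D_zz, D_fst (hE' a _),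
    Finset.sum_add_distrib, Uc]
  simp [ex, ee]; ring

lemma D_hE_y {E : MatF n} (hE' : SmM E) {H : En n → ℝ} (hH : Sm H) (i : Fin n) (p : X2 n) :
    D (ey i) (hE E H) p = ∑ a, hE E (D (ee a) H) p * E a i p.1 := by
  rw [D_hE hE' hH]
  refine Finset.sum_congr rfl fun a _ => ?_
  congr 1
  rw [D_sum_at _ fun l _ => ((sm_fst (hE' a l)).mul (sm_zz l)).dAt p]
  simp only [D_mul_at ((sm_fst (hE' a _)).dAt p) ((sm_zz _).dAt p), D_zz, D_fst (hE' a _),
    Finset.sum_add_distrib]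
  simp [ey, ee, D_zero]

/-- Homogeneity of degree `m - k`. -/
def Hom (m k : ℕ) (H : En n → ℝ) : Prop := ∀ (s : ℝ) w, s ^ k * H (s • w) = s ^ m * H w

lemma Hom.D {m k : ℕ} {H : En n → ℝ} (h : Hom m k H) (hH : Sm H) (v : En n) :
    Hom m (k + 1) (D v H) := fun s w => by
  have e : (fun w => s ^ k * H (s • w)) = fun w => s ^ m * H w := funext (h s)
  have h1 : P136.D v (fun w => H (s • w)) w = s * P136.D v H (s • w) := by
    have := ((hH.dAt (s • w)).hasFDerivAt.comp w ((hasFDerivAt_id w).const_smul s)).fderiv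
    simp only [P136.D]
    rw [show (fun w => H (s • w)) = H ∘ HSMul.hSMul s from rfl, this]; simp
  have h2 : P136.D v (fun w => s ^ k * H (s • w)) w = P136.D v (fun w => s ^ m * H w) w := by
    rw [e]
  rw [D_const_mul_at (f := fun w => H (s • w))
    ((hH.dAt (s • w)).comp w ((differentiableAt_id).const_smul s)), D_const_mul_at (hH.dAt w),
    h1] at h2
  rw [← h2]; ring

end Vale.Agent.P088.NZI
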