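import Vale.Agent.P088.NZMa

/-!
# P088: the right-hand sides of the chain
-/

open MeasureTheory Set Metric Filter
open scoped ContDiff Topology

noncomputable section
namespace Vale.Agent.P088
open Vale.Agent.P136 (D Dp Dm Sm Tst Dm_mul tsupport_Dm)

namespace NZM

variable {n : ℕ} {ι : Type}

theorem sum_int_le {J : Type} (t : Finset J) {u : J → En n → ℝ} {B : En n → ℝ}
    (h0 : ∀ i x, 0 ≤ u i x) (h : ∀ x, ∑ i ∈ t, u i x ≤ B x) (hB : Integrable B) :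
    ∑ i ∈ t, ∫ x, u i x ≤ ∫ x, B x := by
  classical
  rw [← Finset.sum_filter_of_ne (s := t) (f := fun i => ∫ x, u i x)
    (p := fun i => Integrable (u i)) (fun i _ hi => by_contra fun hc => hi (integral_undef hc)),
    ← integral_finsetSum _ fun i hi => (Finset.mem_filter.1 hi).2]
  refine integral_mono (integrable_finsetSum _ fun i hi => (Finset.mem_filter.1 hi).2) hB
    fun x => le_trans ?_ (h x)
  exact Finset.sum_le_sum_of_subset_of_nonneg (Finset.filter_subset _ _) fun i _ _ => h0 i x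

theorem sq_sum (u : Fin n → ℝ) : (∑ a, u a) ^ 2 ≤ n * ∑ a, u a ^ 2 := by
  simpa using sq_sum_le_card_mul_sum_sq (s := Finset.univ) (f := u)

theorem sq3 (x : ℝ) (y : Fin n → ℝ) (z : Fin n → Fin n → ℝ) :
    (x + ∑ a, y a + ∑ a, ∑ b, z a b) ^ 2 ≤
      3 * (x ^ 2 + n * ∑ a, y a ^ 2 + (n : ℝ) ^ 2 * ∑ a, ∑ b, z a b ^ 2) := by
  have h1 := sq_sum y
  have h2 := sq_sum fun a => ∑ b, z a b
  have h3 : ∑ a, (∑ b, z a b) ^ 2 ≤ n * ∑ a, ∑ b, z a b ^ 2 := by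
    rw [Finset.mul_sum]
    exact Finset.sum_le_sum fun a _ => sq_sum _
  have h4 := mul_le_mul_of_nonneg_left h3 (Nat.cast_nonneg (α := ℝ) n)
  generalize ∑ a, y a = Y at h1 ⊢
  generalize ∑ a, ∑ b, z a b = Z at h2 ⊢
  nlinarith [sq_nonneg (x - Y), sq_nonneg (x - Z), sq_nonneg (Y - Z)]

/-- Integration of the Bessel bounds. -/
theorem core (hp : S_par) {J : Type} (t : Finset J) {u M0 : J → En n → ℝ}
    {M1 : Fin n → J → En n → ℝ} {M2 : Fin n → Fin n → J → En n → ℝ} {K0 : X2 n → ℝ}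
    {K1 : Fin n → X2 n → ℝ} {K2 : Fin n → Fin n → X2 n → ℝ} {C : ℝ}
    (hu : ∀ i x, u i x = M0 i x + ∑ a, M1 a i x + ∑ a, ∑ b, M2 a b i x)
    (t0 : Tst K0) (t1 : ∀ a, Tst (K1 a)) (t2 : ∀ a b, Tst (K2 a b))
    (b0 : ∀ x, ∑ i ∈ t, M0 i x ^ 2 ≤ C * ∫ y, K0 (x, y))
    (b1 : ∀ a x, ∑ i ∈ t, M1 a i x ^ 2 ≤ C * ∫ y, K1 a (x, y))
    (b2 : ∀ a b x, ∑ i ∈ t, M2 a b i x ^ 2 ≤ C * ∫ y, K2 a b (x, y)) :
    ∑ i ∈ t, ∫ x, u i x ^ 2 ≤ 3 * C * ((∫ p, K0 p) +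
      ∫ p, (n * ∑ a, K1 a p + (n : ℝ) ^ 2 * ∑ a, ∑ b, K2 a b p)) := by
  have hI : ∀ K : X2 n → ℝ, Tst K → ∀ x, Integrable fun y => K (x, y) := fun K hK =>
    ((hp n K).1 hK.1.continuous hK.2).2.2.2.1
  have s1 : Tst fun p => ∑ a, K1 a p := Tst.sum _ fun a _ => t1 a
  have s2 : ∀ a, Tst fun p => ∑ b, K2 a b p := fun a => Tst.sum _ fun b _ => t2 a b
  have s3 : Tst fun p => ∑ a, ∑ b, K2 a b p := Tst.sum _ fun a _ => s2 a
  have s4 := (s1.const_mul n).add (s3.const_mul ((n : ℝ) ^ 2))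
  have s5 := t0.add s4
  obtain ⟨c1, c2, -, -, c3⟩ := (hp n _).1 s5.1.continuous s5.2
  rw [← integral_add t0.integrable s4.integrable, ← c3, ← integral_const_mul]
  refine sum_int_le t (fun _ _ => sq_nonneg _) (fun x => ?_)
    ((c1.integrable_of_hasCompactSupport c2).const_mul _)
  rw [integral_add (hI _ t0 x) (hI _ s4 x),
    integral_add (hI _ (s1.const_mul _) x) (hI _ (s3.const_mul _) x), integral_const_mul,
    integral_const_mul, integral_finsetSum _ fun a _ => hI _ (t1 a) x,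
    integral_finsetSum _ fun a _ => hI _ (s2 a) x,
    Finset.sum_congr rfl fun a _ => integral_finsetSum _ fun b _ => hI _ (t2 a b) x]
  refine (Finset.sum_le_sum fun i _ => (hu i x).symm ▸ sq3 _ _ _).trans ?_
  rw [← Finset.mul_sum, Finset.sum_add_distrib, Finset.sum_add_distrib, ← Finset.mul_sum,
    ← Finset.mul_sum]
  have e1 : ∑ i ∈ t, ∑ a, M1 a i x ^ 2 ≤ C * ∑ a, ∫ y, K1 a (x, y) := by
    rw [Finset.sum_comm, Finset.mul_sum]
    exact Finset.sum_le_sum fun a _ => b1 a x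
  have e2 : ∑ i ∈ t, ∑ a, ∑ b, M2 a b i x ^ 2 ≤ C * ∑ a, ∑ b, ∫ y, K2 a b (x, y) := by
    rw [Finset.sum_comm, Finset.mul_sum]
    refine Finset.sum_le_sum fun a _ => ?_
    rw [Finset.sum_comm, Finset.mul_sum]
    exact Finset.sum_le_sum fun b _ => b2 a b x
  have e3 := mul_le_mul_of_nonneg_left e1 (Nat.cast_nonneg (α := ℝ) n)
  have e4 := mul_le_mul_of_nonneg_left e2 (sq_nonneg (n : ℝ))
  have e5 := b0 x
  linarith

section tst
variable {f : Fx} {c : Cx n ι} {E : MatF n} {g q : X2 n → ℝ} {p : X2 n}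

theorem tst_Gt (h1 : SmM (onX c.γ₁)) (h2 : SmM (onY c.γ₂)) (hφ : Sm (phi f c)) (hg : Tst g)
    (hq : Tst q) : Tst (Gt f c g q) :=
  (IdT.tst_Lm h1 hφ hg).add (IdT.tst_Lm h2 hφ hq)

theorem tst_RR1 (h1 : SmM c.γ₁) (h2 : SmM c.γ₂) (sE : SmM E) (hφ : Sm (phi f c))
    (hf : Sm (fX f c)) (hg : Tst g) (hq : Tst q) (a : Fin n) : Tst (RR1 f c E g q a) :=
  Tst.mul_left (sm_fst hf) ((((hq.mul_right (Sm.sum fun i _ => Sm.sum fun j _ =>
    (sm_snd ((h2 i j).D _)).mul (sm_fst (sE a j)))).neg.sub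
    (hg.mul_right (Sm.sum fun j _ => Sm.D (Sm.sum fun i _ => (sm_fst (h1 i j)).mul
      ((sm_Uc sE a i).sub (sm_fst (sE a i)))) _))).sub
    (Tst.const_mul 2 (Tst.sum _ fun i _ => Tst.sum _ fun j _ =>
      Tst.mul_left ((sm_fst (h1 i j)).mul (sm_Uc sE a i)) (hg.Dm hφ _)))).add
    ((hg.const_mul 2).mul_right (Sm.sum fun j _ => Sm.D (Sm.sum fun i _ =>
      (sm_fst (h1 i j)).mul (sm_Uc sE a i)) _)))

theorem tst_RR2 (h1 : SmM c.γ₁) (h2 : SmM c.γ₂) (sE : SmM E) (ha : Sm (aX f c))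
    (hg : Tst g) (hq : Tst q) (a b : Fin n) : Tst (RR2 f c E g q a b) :=
  Tst.mul_left (sm_fst ha) (((hq.mul_right ((Sm.sum fun i _ => Sm.sum fun j _ =>
    ((sm_snd (h2 i j)).mul (sm_fst (sE a i))).mul (sm_fst (sE b j))).sub (Sm.const _))).neg.sub
    (hg.mul_right ((Sm.sum fun i _ => Sm.sum fun j _ => ((sm_fst (h1 i j)).mul
      ((sm_Uc sE a i).sub (sm_fst (sE a i)))).mul ((sm_Uc sE b j).sub (sm_fst (sE b j)))).sub
      (Sm.const _)))).add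
    ((hg.const_mul 2).mul_right (Sm.sum fun i _ => Sm.sum fun j _ => ((sm_fst (h1 i j)).mul
      (sm_Uc sE a i)).mul ((sm_Uc sE b j).sub (sm_fst (sE b j))))))

theorem Dm_ev {φ u : X2 n → ℝ} (h : u =ᶠ[𝓝 p] 0) (v : X2 n) : Dm φ v u =ᶠ[𝓝 p] 0 :=
  notMem_tsupport_iff_eventuallyEq.1 fun h1 =>
    notMem_tsupport_iff_eventuallyEq.2 h (tsupport_Dm φ u v h1)

theorem Lm_zero {v : Fin n → X2 n} {γ : Fin n → Fin n → X2 n → ℝ} {φ u : X2 n → ℝ}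
    (h : u =ᶠ[𝓝 p] 0) : Lm v γ φ u p = 0 := by
  refine Finset.sum_eq_zero fun i _ => (Dm_ev ?_ _).self_of_nhds
  filter_upwards [eventually_all.2 fun j => Dm_ev (φ := φ) h (v j)] with x hx
  exact Finset.sum_eq_zero fun j _ => mul_eq_zero_of_right _ (hx j)

theorem van (hg : g =ᶠ[𝓝 p] 0) (hq : q =ᶠ[𝓝 p] 0) : Gt f c g q p = 0 ∧
    (∀ a, RR1 f c E g q a p = 0) ∧ ∀ a b, RR2 f c E g q a b p = 0 := by
  have h1 : g p = 0 := hg.self_of_nhds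
  have h2 : q p = 0 := hq.self_of_nhds
  have h3 : ∀ j, zx f c g p j = 0 := fun j => (Dm_ev hg _).self_of_nhds
  refine ⟨by rw [Gt, Lm_zero hg, Lm_zero hq, add_zero], fun a => ?_, fun a b => ?_⟩
  · simp [RR1, h1, h2, h3]
  · simp [RR2, h1, h2]

theorem ck_ev {k : ℝ} {u : X2 n → ℝ} (h : chk f c k =ᶠ[𝓝 p] 0 ∨ p ∉ tsupport u) :
    ck f c k u =ᶠ[𝓝 p] 0 := by
  rcases h with h | h
  · filter_upwards [h] with x hx using mul_eq_zero_of_left hx _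
  · filter_upwards [notMem_tsupport_iff_eventuallyEq.1 h] with x hx using mul_eq_zero_of_right _ hx

theorem chk_sq (k : ℝ) (p : X2 n) : chk f c k p ^ 2 ≤ 1 :=
  pow_le_one₀ (Real.smoothTransition.nonneg _) (Real.smoothTransition.le_one _)

theorem ck_sq (k : ℝ) (u : X2 n → ℝ) (p : X2 n) : ck f c k u p ^ 2 ≤ u p ^ 2 := by
  rw [ck, mul_pow]
  exact mul_le_of_le_one_left (sq_nonneg _) (chk_sq k p)

theorem zx_ck {k w A : ℝ} (hc : Sm (chk f c k)) (hg : Sm g) (hw : 0 ≤ w)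
    (h : ∀ i, D (ex i) (chk f c k) p ^ 2 * w ≤ A) :
    n2 (zx f c (ck f c k g) p) * w ≤ 2 * n2 (zx f c g p) * w + 2 * n * A * g p ^ 2 := by
  have h1 : ∀ i, zx f c (ck f c k g) p i ^ 2 * w ≤
      2 * zx f c g p i ^ 2 * w + 2 * A * g p ^ 2 := by
    intro i
    have e : zx f c (ck f c k g) p i =
        chk f c k p * zx f c g p i - D (ex i) (chk f c k) p * g p :=
      congrFun (Dm_mul (φ := phi f c) hc hg (ex i)) p
    have h2 := chk_sq (f := f) (c := c) k p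
    have h3 := mul_le_mul_of_nonneg_right (h i) (sq_nonneg (g p))
    rw [e]
    generalize chk f c k p = χ at h2
    generalize D (ex i) (chk f c k) p = d at h3
    generalize zx f c g p i = ζ
    have h4 : (χ * ζ - d * g p) ^ 2 ≤ 2 * ζ ^ 2 + 2 * (d ^ 2 * g p ^ 2) := by
      nlinarith [sq_nonneg (χ * ζ + d * g p), mul_le_mul_of_nonneg_right h2 (sq_nonneg ζ)]
    have h5 := mul_le_mul_of_nonneg_right h4 hw
    linarith
  rw [n2, n2, Finset.sum_mul]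
  refine (Finset.sum_le_sum fun i _ => h1 i).trans (le_of_eq ?_)
  rw [Finset.sum_add_distrib, ← Finset.sum_mul, ← Finset.mul_sum, Finset.sum_const,
    Finset.card_univ, Fintype.card_fin, nsmul_eq_mul]
  ring

theorem Nr_mono (h : p ∈ Nr f c 1) : p ∈ Nr f c 16 :=
  le_trans (show QQ c p ^ 2 * FF f c p ≤ 1 from h) (by norm_num : (1 : ℝ) ≤ 16)

end tst

theorem fin0 {a Ψ L al2 G r2 g2 : ℝ} (ha : 0 ≤ a) (hΨ : 0 ≤ Ψ) (hL : 1 ≤ L)
    (hnl : a * L ^ 2 * (1 + Ψ) ≤ al2) (hr : 0 ≤ r2) (hG : G ≤ 2 * r2 + 3 * g2) :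
    a * L ^ 2 * (1 + Ψ) * G ≤ 2 * (al2 * r2) + 3 * (a * L ^ 2 * (1 + Ψ) * g2) := by
  have h1 := mul_le_mul_of_nonneg_left hG (by positivity : 0 ≤ a * L ^ 2 * (1 + Ψ))
  have h2 := mul_le_mul_of_nonneg_right hnl hr
  linarith

theorem fin1 {a Ψ Q v L k A G Z Y g2 T : ℝ} (ha : 0 ≤ a) (hΨ : 0 ≤ Ψ) (hk : 1 ≤ k) (hv : 1 ≤ v)
    (hL : 1 ≤ L) (hA : 0 ≤ A) (hQ : a * Q ≤ 4 * Ψ) (hN : Ψ ≤ 2 * k * v) (hG : 0 ≤ G)
    (hZ0 : 0 ≤ Z) (hY : 0 ≤ Y) (hg : 0 ≤ g2) (hZ : Z * (k * v) ≤ 2 * Y * (k * v) + A * a * g2)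
    (h1 : a * L ^ 2 * (1 + Ψ) * G ≤ 3 * T) (h2 : a * L ^ 2 * (1 + Ψ) * g2 ≤ T)
    (h3 : v ^ 2 * Y ≤ T) :
    (1 + Ψ) * (a * (G + Q * Z)) ≤ (51 + 8 * A) * k ^ 2 * T := by
  have hkv : 1 ≤ k * v := one_le_mul_of_one_le_of_one_le hk hv
  have hL2 : 1 ≤ L ^ 2 := one_le_pow₀ hL
  have hk2 : 1 ≤ k ^ 2 := one_le_pow₀ hk
  have hT : 0 ≤ T := le_trans (by positivity) h3
  have b1 : a * 1 * (1 + Ψ) * G ≤ a * L ^ 2 * (1 + Ψ) * G := by gcongr
  have b2 : a * 1 * (1 + Ψ) * g2 ≤ a * L ^ 2 * (1 + Ψ) * g2 := by gcongr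
  have b3 : a * Q * Z ≤ 8 * (Z * (k * v)) := by
    have := mul_le_mul_of_nonneg_right (hQ.trans (by linarith : 4 * Ψ ≤ 8 * (k * v))) hZ0
    linarith
  have b4 : (1 + Ψ) * (a * Q * Z) ≤ (1 + Ψ) * (8 * (2 * Y * (k * v) + A * a * g2)) :=
    mul_le_mul_of_nonneg_left (by linarith) (by linarith)
  have b5 : (1 + Ψ) * (Y * (k * v)) ≤ 3 * (k * v) * (Y * (k * v)) :=
    mul_le_mul_of_nonneg_right (by linarith) (by positivity)
  have b6 := mul_le_mul_of_nonneg_left h3 (sq_nonneg k)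
  have b7 := mul_le_mul_of_nonneg_left (b2.trans h2) hA
  have b8 := mul_le_mul_of_nonneg_right hk2 hT
  have b9 := mul_le_mul_of_nonneg_left b8 hA
  linarith

theorem fin2 {a Ψ Q v L k C ε G T : ℝ} (ha : 1 ≤ a) (hΨ : 0 ≤ Ψ) (hk : 1 ≤ k) (hv : 1 ≤ v)
    (hL : 1 ≤ L) (hC : 1 ≤ C) (hQ : a * Q ≤ 4 * Ψ) (hN : Ψ ≤ 2 * k * v) (hG : 0 ≤ G)
    (hvL : v ≤ C * L) (ha2 : 1 ≤ ε ^ 2 * a) (hΨa : (1 + Ψ) ^ 2 ≤ C * a)
    (h1 : a * L ^ 2 * (1 + Ψ) * G ≤ 3 * T) :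
    (1 + Ψ) ^ 2 * ((a ^ 2 * (ε ^ 2 * Q) + a ^ 2 * (1 / a ^ 2) ^ 2) * G) ≤
      75 * C ^ 2 * k ^ 2 * ε ^ 2 * T := by
  have hkv : 1 ≤ k * v := one_le_mul_of_one_le_of_one_le hk hv
  have hL2 : 1 ≤ L ^ 2 := one_le_pow₀ hL
  have hk2 : 1 ≤ k ^ 2 := one_le_pow₀ hk
  have hnl : 1 ≤ a * L ^ 2 * (1 + Ψ) :=
    one_le_mul_of_one_le_of_one_le (one_le_mul_of_one_le_of_one_le ha hL2) (by linarith)
  have b1 : (1 + Ψ) * (a * Q) ≤ 3 * (k * v) * (8 * (k * v)) := by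
    refine (mul_le_mul_of_nonneg_left (hQ.trans (by linarith : 4 * Ψ ≤ 8 * (k * v)))
      (by linarith)).trans ?_
    exact mul_le_mul_of_nonneg_right (by linarith) (by positivity)
  have b2 : 3 * (k * v) * (8 * (k * v)) ≤ 3 * (k * (C * L)) * (8 * (k * (C * L))) := by gcongr
  have b3 := mul_le_mul_of_nonneg_left (b1.trans b2) (by positivity : 0 ≤ (1 + Ψ) * a * ε ^ 2)
  have b4 : (1 + Ψ) ^ 2 * (a ^ 2 * (1 / a ^ 2) ^ 2) ≤ C * ε ^ 2 := by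
    have e : a ^ 2 * (1 / a ^ 2) ^ 2 = 1 / a ^ 2 := by field_simp
    rw [e, mul_one_div, div_le_iff₀ (by positivity)]
    have := mul_le_mul_of_nonneg_left ha2 (by positivity : 0 ≤ C * a)
    linarith
  have b5 : C * ε ^ 2 ≤ C ^ 2 * k ^ 2 * ε ^ 2 * (a * L ^ 2 * (1 + Ψ)) := by
    have e : C * 1 * 1 * ε ^ 2 * 1 ≤ C * C * k ^ 2 * ε ^ 2 * (a * L ^ 2 * (1 + Ψ)) := by gcongr
    linarith
  have b6 : (1 + Ψ) ^ 2 * (a ^ 2 * (ε ^ 2 * Q) + a ^ 2 * (1 / a ^ 2) ^ 2) ≤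
      25 * C ^ 2 * k ^ 2 * ε ^ 2 * (a * L ^ 2 * (1 + Ψ)) := by linarith
  have b7 := mul_le_mul_of_nonneg_right b6 hG
  have b8 := mul_le_mul_of_nonneg_left h1 (by positivity : 0 ≤ 25 * C ^ 2 * k ^ 2 * ε ^ 2)
  linarith

/-- The constant in the pointwise bound. -/
def MM (n : ℕ) (C2 C8 : ℝ) : ℝ :=
  (n : ℝ) ^ 2 * (27 * ((n : ℝ) ^ 2 * (5 * n + 4)) ^ 2 * (51 + 8 * (2 * n * C8))) +
    (n : ℝ) ^ 4 * (36 * ((n : ℝ) ^ 2 * (4 * n * (n + 4) + 8)) ^ 2 * (75 * C2 ^ 2))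

theorem pw {f : Fx} {c : Cx n ι} {E : MatF n} {g q : X2 n → ℝ} {p : X2 n} {ε k Cq C2 C8 : ℝ}
    (h0 : 0 < ε) (he : ε ≤ 1) (hk : 1 ≤ k) (hC2 : 1 ≤ C2) (hC8 : 1 ≤ C8) (hc : c.Ok f ε 1)
    (w0 : W0 f c) (wq : WQ c Cq ε p) (w2 : W2 f c C2 (ε ^ 2 / 2) p) (w8 : W8 f c C8 k p)
    (hχ : Sm (chk f c k)) (hF : FrOk c E ε) (hg : Sm g) (hp : p ∈ Dom f c)
    (hN : p ∈ Nk f c (2 * k)) :
    n * ∑ a, (1 + Psi f c p) ^ 1 * RR1 f c E (ck f c k g) (ck f c k q) a p ^ 2 +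
      (n : ℝ) ^ 2 * ∑ a, ∑ b, (1 + Psi f c p) ^ 2 * RR2 f c E (ck f c k g) (ck f c k q) a b p ^ 2 ≤
      MM n C2 C8 * k ^ 2 * ε ^ 2 * (al f c p ^ 2 * (g p + q p) ^ 2 + nl f c p * g p ^ 2 +
        vv f c p ^ 2 * n2 (zx f c g p)) := by
  obtain ⟨-, hL0, -, -, -, s1, -, n1, -, -, n2', -⟩ := hc
  obtain ⟨-, wx, wp, -⟩ := w0
  obtain ⟨ha, hL, hfX, -⟩ := wx p.1
  obtain ⟨q1, -, hFF, hv, -⟩ := wp p
  obtain ⟨hNr, d8, -⟩ := w8 hN
  obtain ⟨-, a20, -, -, -, -, -, -, -, -, -, -, w16, -⟩ := w2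
  obtain ⟨-, -, -, b1, -, b2, -, -, b3, b4, -⟩ := w16 (Nr_mono hNr)
  obtain ⟨-, -, -, -, c1, -⟩ := wq
  have hn : (0 : ℝ) ≤ n := Nat.cast_nonneg n
  have hQ0 : 0 ≤ QQ c p := le_trans (by positivity) q1
  have hΨ : 0 ≤ Psi f c p := mul_nonneg hQ0 hFF.le
  have hε2 : ε ^ 2 ≤ 1 := pow_le_one₀ h0.le he
  have hL1 : 1 ≤ LX f c p.1 := hL0.trans hL
  have hv1 : 1 ≤ vv f c p := hL0.trans hv
  have ha2 : 1 ≤ ε ^ 2 * aX f c p.1 := by
    have h1 := (one_le_pow₀ hL1).trans a20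
    have h2 : 0 ≤ ε ^ 2 * aX f c p.1 := by positivity
    linarith
  have ha1 : 1 ≤ aX f c p.1 := ha2.trans (mul_le_of_le_one_left ha.le hε2)
  have hQ : aX f c p.1 * QQ c p ≤ 4 * Psi f c p := by
    have h1 := (abs_le.1 b1).1
    have h2 := mul_le_mul_of_nonneg_right hε2 ha.le
    have h3 := mul_le_mul_of_nonneg_right (by linarith : aX f c p.1 ≤ 4 * FF f c p) hQ0
    rw [Psi]; linarith
  have hnl : aX f c p.1 * LX f c p.1 ^ 2 * (1 + Psi f c p) ≤ al f c p ^ 2 :=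
    b3.trans (mul_le_of_le_one_left (sq_nonneg _) (by linarith))
  have hz0 : ∀ l, |zz p l| ≤ ‖zz p‖ := fun l => PiLp.norm_apply_le (zz p) l
  have hz : ∀ l, |zz p l| ≤ 1 := fun l => (hz0 l).trans (by
    have h1 := norm_sub_le (p.2 - c.p0) (p.1 - c.p0)
    rw [sub_sub_sub_cancel_right] at h1
    exact h1.trans (by linarith [hp.1.1, hp.1.2]))
  have hs := Real.sqrt_nonneg (QQ c p)
  have hs2 := Real.sq_sqrt hQ0
  have hz' : ∀ l, |zz p l| ≤ 2 * √(QQ c p) := fun l => (hz0 l).trans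
    (le_trans (le_abs_self _) (abs_le_of_sq_le_sq (by linarith) (by positivity)))
  have hG : ck f c k q p ^ 2 + ck f c k g p ^ 2 ≤ 2 * (g p + q p) ^ 2 + 3 * g p ^ 2 := by
    nlinarith [ck_sq (f := f) (c := c) k q p, ck_sq (f := f) (c := c) k g p,
      sq_nonneg (2 * g p + q p)]
  have f0 := fin0 ha.le hΨ hL1 hnl (sq_nonneg _) hG
  have hZ := zx_ck hχ hg (by positivity : 0 ≤ k * vv f c p) fun i => (d8 (.inl i)).1
  have t1 : 0 ≤ al f c p ^ 2 * (g p + q p) ^ 2 := by positivity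
  have t2 : 0 ≤ aX f c p.1 * LX f c p.1 ^ 2 * (1 + Psi f c p) * g p ^ 2 := by positivity
  have t3 : 0 ≤ vv f c p ^ 2 * n2 (zx f c g p) := mul_nonneg (sq_nonneg _) (n2_nonneg _)
  rw [nl]
  obtain ⟨T, hT⟩ : ∃ T, T = al f c p ^ 2 * (g p + q p) ^ 2 +
    aX f c p.1 * LX f c p.1 ^ 2 * (1 + Psi f c p) * g p ^ 2 + vv f c p ^ 2 * n2 (zx f c g p) :=
    ⟨_, rfl⟩
  rw [← hT]
  have f1 := fin1 (A := 2 * n * C8) (T := T) ha.le hΨ hk hv1 hL1 (by positivity) hQ hN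
    (by positivity : 0 ≤ ck f c k q p ^ 2 + ck f c k g p ^ 2) (n2_nonneg _) (n2_nonneg _)
    (sq_nonneg (g p)) (hZ.trans_eq (by ring)) (by linarith) (by linarith) (by linarith)
  have f2 := fin2 (T := T) ha1 hΨ hk hv1 hL1 hC2 hQ hN
    (by positivity : 0 ≤ ck f c k q p ^ 2 + ck f c k g p ^ 2) b2 ha2 b4 (by linarith)
  have r1 : ∀ a, |(1 + Psi f c p) ^ 1 * RR1 f c E (ck f c k g) (ck f c k q) a p ^ 2| ≤
      27 * ((n : ℝ) ^ 2 * (5 * n + 4) * ε) ^ 2 * ((51 + 8 * (2 * n * C8)) * k ^ 2 * T) := by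
    intro a
    have h1 := rr1_bd (f := f) (g := ck f c k g) (q := ck f c k q) h0.le he hF.1 hF.2.1 s1 n1 n2'
      hz hs hz' a
    rw [hfX, mul_pow √_, hs2, Real.sq_sqrt (n2_nonneg _)] at h1
    have h2 := mul_le_mul_of_nonneg_left h1 (by linarith : 0 ≤ 1 + Psi f c p)
    have h3 := mul_le_mul_of_nonneg_left f1
      (by positivity : 0 ≤ 27 * ((n : ℝ) ^ 2 * (5 * n + 4) * ε) ^ 2)
    rw [abs_of_nonneg (by positivity), pow_one]
    linarith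
  have r2 : ∀ a b, |(1 + Psi f c p) ^ 2 * RR2 f c E (ck f c k g) (ck f c k q) a b p ^ 2| ≤
      36 * ((n : ℝ) ^ 2 * (4 * n * (n + 4) + 8)) ^ 2 * (75 * C2 ^ 2 * k ^ 2 * ε ^ 2 * T) := by
    intro a b
    have h1 := rr2_bd (f := f) (g := ck f c k g) (q := ck f c k q) h0.le he hF n1 hz hs hz'
      (δ := 1 / aX f c p.1 ^ 2) (by positivity)
      (fun i j => by simpa [Ds] using hp.2 i j [] (Nat.zero_le _))
      (fun i j => by
        have h4 := asub (c1 i j).2.2.1 (c1 i j).2.2.2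
        rw [sub_sub_sub_cancel_right] at h4
        exact h4.trans_eq (by ring)) a b
    rw [mul_pow ε, hs2] at h1
    have h2 := mul_le_mul_of_nonneg_left h1 (sq_nonneg (1 + Psi f c p))
    have h3 := mul_le_mul_of_nonneg_left f2
      (by positivity : 0 ≤ 36 * ((n : ℝ) ^ 2 * (4 * n * (n + 4) + 8)) ^ 2)
    rw [abs_of_nonneg (by positivity)]
    linarith
  have e1 := mul_le_mul_of_nonneg_left ((le_abs_self _).trans (sum1 r1)) hn
  have e2 := mul_le_mul_of_nonneg_left ((le_abs_self _).trans (sum2 r2)) (sq_nonneg (n : ℝ))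
  refine (add_le_add e1 e2).trans (le_of_eq ?_)
  rw [MM]
  ring

end NZM

open NZM in
theorem s_NZM (h0 : S_w0) (hq : S_wq) (h2 : S_w2) (h8 : S_w8) (hp : S_par) (hb : S_mbes)
    (hI : S_NZI) : S_NZM := by
  intro n ι _ f hf
  obtain ⟨Cq, -, hq⟩ := hq n
  obtain ⟨C2, hC2, h2⟩ := h2 n ι f hf
  obtain ⟨C8, hC8, h8⟩ := h8 n ι f hf
  obtain ⟨Cb, hCb, hb⟩ := hb n ι f hf
  refine ⟨3 * Cb, by linarith, fun k η hk hη => ?_⟩
  have hM : 0 ≤ MM n C2 C8 := by unfold MM; positivity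
  obtain ⟨ε, e0, e1, e2⟩ : ∃ ε : ℝ, 0 < ε ∧ ε ≤ 1 ∧ ε * (3 * Cb * (MM n C2 C8 * k ^ 2) + 1) ≤ η :=
    ⟨min 1 (η / (3 * Cb * (MM n C2 C8 * k ^ 2) + 1)), by positivity, min_le_left _ _,
      (le_div_iff₀ (by positivity)).1 (min_le_right _ _)⟩
  have e3 : 3 * Cb * (MM n C2 C8 * k ^ 2 * ε ^ 2) ≤ η := by
    have h1 : ε ^ 2 ≤ ε := by nlinarith
    have h3 := mul_le_mul_of_nonneg_left h1
      (by positivity : 0 ≤ 3 * Cb * (MM n C2 C8 * k ^ 2))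
    linarith
  refine ⟨ε, e0, ((((((Ev.ok f e0 1).and (h0 n ι f hf)).and (hq ι f hf ε e0)).and
    (h2 (ε ^ 2 / 2) (by positivity))).and (h8 k hk)).and (hb k hk)).mono ?_⟩
  rintro c ⟨⟨⟨⟨⟨hc, w0⟩, wq⟩, w2⟩, hχ, hχ0, -, w8⟩, wb⟩ F E g q hF hE hT K
  have s1 : SmM c.γ₁ := hc.2.2.2.2.2.1
  have s2 : SmM c.γ₂ := hc.2.2.2.2.2.2.2.2.1
  obtain ⟨⟨-, -, -, -, sQ, -, sF, sv, -, sΨ, sal, -, -, -, -, -, -, sφ, -, -, -, -, snl, -, -, -,
    -, -, -, -, -, -, -, -, -, -, -, sa, -, -, sf, sx, -, sy, -⟩, wx, wp, -⟩ := id w0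
  have hE1 : FrOk c E 1 := ⟨hE.1, hE.2.1.mono e1, hE.2.2⟩
  have hnl : ∀ p, 0 ≤ nl f c p := fun p =>
    mul_nonneg (mul_nonneg (wx p.1).1.le (sq_nonneg _)) (add_nonneg zero_le_one
      (mul_nonneg (le_trans (by positivity) (wp p).1) (wp p).2.2.1.le))
  have hNr : ∀ r, MeasurableSet (Nr f c r) := fun r =>
    (isClosed_le ((sQ.pow 2).mul sF).cont continuous_const).measurableSet
  have key : ∀ s, ∑ m ∈ Finset.range (K + 1), ∑ j, ∫ x,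
      nzS F c.γ₁ (eE c E) (lX f c) f.Cw (fm f c F E (ck f c k (g s))) m j x ^ 2 ≤
      3 * Cb * (∫ p, Gt f c (ck f c k (g s)) (ck f c k (q s)) p ^ 2) +
        η * ((∫ p in Nr f c 1, al f c p ^ 2 * rr g q s p ^ 2) +
          (∫ p in Nr f c 16, nl f c p * g s p ^ 2) +
          ∫ p in univ, vv f c p ^ 2 * n2 (zx f c (g s) p)) := by
    intro s
    obtain ⟨tg, tq, dg, dq⟩ := hT.1 s
    have tg' : Tst (ck f c k (g s)) := tg.mul_left hχ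
    have tq' : Tst (ck f c k (q s)) := tq.mul_left hχ
    have hv : ∀ p, ¬ (p ∈ Dom f c ∧ p ∈ Nk f c (2 * k)) → _ := fun p h =>
      van (f := f) (c := c) (E := E) (g := ck f c k (g s)) (q := ck f c k (q s)) (p := p)
        (ck_ev ((not_and_or.1 h).symm.imp (hχ0 p) fun h1 h2 => h1 (dg h2)))
        (ck_ev ((not_and_or.1 h).symm.imp (hχ0 p) fun h1 h2 => h1 (dq h2)))
    have hs : ∀ {R : X2 n → ℝ}, (∀ p, ¬ (p ∈ Dom f c ∧ p ∈ Nk f c (2 * k)) → R p = 0) →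
        ∀ p, R p ≠ 0 → p ∈ Om2 c ∧ p ∈ Nk f c (2 * k) := fun h p h1 =>
      (not_not.1 fun h2 => h1 (h p h2)).imp_left fun h3 => h3.1
    have t0 := tst_Gt sx sy sφ tg' tq'
    have t1 := tst_RR1 s1 s2 hE.1 sφ sf tg' tq'
    have t2 := tst_RR2 s1 s2 hE.1 sa tg' tq'
    have sw := fun l : ℕ => ((Sm.const 1).add sΨ).pow l
    have u1 := fun a => (t1 a).sq.mul_left (sw 1)
    have u2 := fun a b => (t2 a b).sq.mul_left (sw 2)
    have c0 := core hp ((Finset.range (K + 1)).sigma fun m => (Finset.univ : Finset (Fin (F.d m))))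
      (C := Cb) (fun i x => (hI n ι f c F E _ _ w0 s1 s2 hF hE.1 tg' tq').2 i.1 i.2 x)
      (t0.sq.mul_left (sw 0)) u1 u2
      (fun x => (Finset.sum_sigma' _ _ _).symm.trans_le
        ((wb F E _ hF hE1 t0.1.continuous (hs fun p h => (hv p h).1) [] (by simp) x).1 (K + 1)))
      (fun a x => (Finset.sum_sigma' _ _ _).symm.trans_le
        ((wb F E _ hF hE1 (t1 a).1.continuous (hs fun p h => (hv p h).2.1 a) [a] (by simp) x).1
          (K + 1)))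
      (fun a b x => (Finset.sum_sigma' _ _ _).symm.trans_le
        ((wb F E _ hF hE1 (t2 a b).1.continuous (hs fun p h => (hv p h).2.2 a b) [a, b]
          (by simp) x).1 (K + 1)))
    rw [Finset.sum_sigma']
    refine c0.trans ?_
    simp only [pow_zero, one_mul]
    have i1 : Integrable fun p => al f c p ^ 2 * rr g q s p ^ 2 :=
      ((tg.add tq).sq.mul_left (sal.pow 2)).integrable
    have i2 : Integrable fun p => nl f c p * g s p ^ 2 := (tg.sq.mul_left snl).integrable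
    have i3 : Integrable fun p => vv f c p ^ 2 * n2 (zx f c (g s) p) :=
      ((Tst.sum _ fun i _ => (tg.Dm sφ (ex i)).sq).mul_left (sv.pow 2)).integrable
    have j1 := i1.indicator (hNr 1)
    have j2 := i2.indicator (hNr 16)
    rw [Measure.restrict_univ, ← integral_indicator (hNr 1), ← integral_indicator (hNr 16),
      ← integral_add j1 j2, ← integral_add (Vale.Agent.P136.iadd j1 j2) i3, mul_add, add_le_add_iff_left,
      ← integral_const_mul, ← integral_const_mul]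
    refine integral_mono ((((Tst.sum _ fun a _ => u1 a).const_mul _).add
      ((Tst.sum _ fun a _ => Tst.sum _ fun b _ => u2 a b).const_mul _)).const_mul _).integrable
      ((Vale.Agent.P136.iadd (Vale.Agent.P136.iadd j1 j2) i3).const_mul _) fun p => ?_
    have k1 : 0 ≤ al f c p ^ 2 * rr g q s p ^ 2 := by positivity
    have k2 : 0 ≤ nl f c p * g s p ^ 2 := mul_nonneg (hnl p) (sq_nonneg _)
    have k3 : 0 ≤ vv f c p ^ 2 * n2 (zx f c (g s) p) := mul_nonneg (sq_nonneg _) (n2_nonneg _)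
    by_cases h : p ∈ Dom f c ∧ p ∈ Nk f c (2 * k)
    · have m1 : p ∈ Nr f c 1 := (w8 p h.1.1 h.2).1
      have m2 : p ∈ Nr f c 16 := Nr_mono m1
      have m3 := mul_le_mul_of_nonneg_left (pw (q := q s) e0 e1 hk hC2 hC8 hc w0 (wq p h.1.1)
        (w2 p h.1.1) (w8 p h.1.1) hχ hE tg.1 h.1 h.2) (by linarith : 0 ≤ 3 * Cb)
      have m4 := mul_le_mul_of_nonneg_right e3 (add_nonneg (add_nonneg k1 k2) k3)
      simp only [indicator_of_mem m1, indicator_of_mem m2]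
      exact m3.trans (le_trans (le_of_eq (mul_assoc _ _ _).symm) m4)
    · simp only [(hv p h).2.1, (hv p h).2.2, zero_pow two_ne_zero, mul_zero,
        Finset.sum_const_zero, add_zero]
      exact mul_nonneg hη.le (add_nonneg (add_nonneg (indicator_apply_nonneg fun _ => k1)
        (indicator_apply_nonneg fun _ => k2)) k3)
  have hY : 0 ≤ IY f c q (fun p => vv f c p ^ 2) univ := Finset.sum_nonneg fun s _ =>
    integral_nonneg fun p => mul_nonneg (sq_nonneg _) (n2_nonneg _)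
  refine (Finset.sum_le_sum fun s _ => key s).trans ?_
  rw [Finset.sum_add_distrib, ← Finset.mul_sum, ← Finset.mul_sum, Finset.sum_add_distrib,
    Finset.sum_add_distrib]
  refine add_le_add le_rfl (mul_le_mul_of_nonneg_left ?_ hη.le)
  exact add_le_add le_rfl (le_add_of_nonneg_right hY)

end Vale.Agent.P088
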