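import Vale.Agent.P088.StN
import Vale.Agent.P088.IdTool

/-!
# P088: pointwise bounds for the error terms of the chain
-/

open MeasureTheory Set Metric
open scoped ContDiff Topology

noncomputable section
namespace Vale.Agent.P088
open Vale.Agent.P136 (D Dp Dm Sm Tst D_add_at D_sub_at D_mul_at D_sum_at)

namespace NZM

variable {n : ℕ} {ι : Type}

theorem sum1 {F : Fin n → ℝ} {B : ℝ} (h : ∀ i, |F i| ≤ B) : |∑ i, F i| ≤ n * B := by
  refine (Finset.abs_sum_le_sum_abs _ _).trans ((Finset.sum_le_sum fun i _ => h i).trans ?_)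
  simp

theorem sum2 {F : Fin n → Fin n → ℝ} {B : ℝ} (h : ∀ i j, |F i j| ≤ B) :
    |∑ i, ∑ j, F i j| ≤ n * (n * B) := sum1 fun i => sum1 (h i)

theorem amul {x y A B : ℝ} (h : |x| ≤ A) (h' : |y| ≤ B) : |x * y| ≤ A * B := by
  rw [abs_mul]
  exact mul_le_mul h h' (abs_nonneg _) ((abs_nonneg _).trans h)

theorem aadd {x y A B : ℝ} (h : |x| ≤ A) (h' : |y| ≤ B) : |x + y| ≤ A + B :=
  (abs_add_le _ _).trans (add_le_add h h')

theorem asub {x y A B : ℝ} (h : |x| ≤ A) (h' : |y| ≤ B) : |x - y| ≤ A + B :=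
  (abs_sub _ _).trans (add_le_add h h')

theorem near0 {k : ℕ} {ε : ℝ} {γ : MatF n} (h : Near k ε γ) (he : ε ≤ 1) (i j : Fin n)
    (x : En n) : |γ i j x| ≤ 2 := by
  have h1 := h i j x [] (Nat.zero_le _)
  simp only [Ds, List.foldr_nil, List.length_nil, pow_zero, mul_one] at h1
  have h2 := abs_le.1 h1
  split_ifs at h2 <;> exact abs_le.2 ⟨by linarith [h2.1], by linarith [h2.2]⟩

theorem D_sub_c (u : En n → ℝ) (a : ℝ) (v : En n) : D v (fun y => u y - a) = D v u := by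
  funext x
  simp only [D, fderiv_sub_const]

theorem near1 {k : ℕ} {ε : ℝ} {γ : MatF n} (h : Near k ε γ) (hk : 1 ≤ k) (i j l : Fin n)
    (x : En n) : |D (ee l) (γ i j) x| ≤ ε := by
  have h1 := h i j x [l] hk
  simpa only [Ds, List.foldr_nil, List.foldr_cons, one_pow, mul_one, D_sub_c] using h1

theorem near2 {k : ℕ} {ε : ℝ} {γ : MatF n} (h : Near k ε γ) (hk : 2 ≤ k) (i j l l' : Fin n)
    (x : En n) : |D (ee l) (D (ee l') (γ i j)) x| ≤ ε := by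
  have h1 := h i j x [l, l'] hk
  simpa only [Ds, List.foldr_nil, List.foldr_cons, one_pow, mul_one, D_sub_c] using h1

theorem sm_fst {u : En n → ℝ} (h : Sm u) : Sm fun p : X2 n => u p.1 := h.comp contDiff_fst

theorem sm_snd {u : En n → ℝ} (h : Sm u) : Sm fun p : X2 n => u p.2 := h.comp contDiff_snd

theorem D_fst {u : En n → ℝ} (h : Sm u) (j : Fin n) (p : X2 n) :
    D (ex j) (fun p' : X2 n => u p'.1) p = D (ee j) u p.1 := by
  have h1 := ((h.dAt p.1).hasFDerivAt.comp p hasFDerivAt_fst).fderiv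
  exact congrArg (fun L : X2 n →L[ℝ] ℝ => L (ex j)) h1

/-- A coordinate of `y - x`. -/
def zL (j : Fin n) : X2 n →L[ℝ] ℝ :=
  (EuclideanSpace.proj j).comp (ContinuousLinearMap.snd ℝ _ _ - ContinuousLinearMap.fst ℝ _ _)

theorem sm_z (j : Fin n) : Sm fun q : X2 n => zz q j := (zL j).contDiff

theorem D_z (j l : Fin n) (p : X2 n) : |D (ex j) (fun q => zz q l) p| ≤ 1 := by
  have h : D (ex j) (fun q => zz q l) p = zz (ex j) l :=
    congrArg (fun L : X2 n →L[ℝ] ℝ => L (ex j)) (zL l).fderiv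
  rw [h]
  by_cases e : l = j <;> simp [zz, ex, ee, e]

theorem sm_Uc {E : MatF n} (h : SmM E) (a i : Fin n) : Sm (Uc E a i) :=
  Sm.sum fun l _ => (sm_fst ((h a l).D _)).mul (sm_z l)

section pt
variable {E : MatF n} {ε : ℝ} {p : X2 n}

theorem Uc_bd (hE : Near 6 ε E) {ζ : ℝ} (hz : ∀ l, |zz p l| ≤ ζ) (a i : Fin n) :
    |Uc E a i p| ≤ n * (ε * ζ) :=
  sum1 fun l => amul (near1 hE (by norm_num) _ _ _ _) (hz l)

theorem Uc_bd1 (hE : Near 6 ε E) (he : ε ≤ 1) (hz : ∀ l, |zz p l| ≤ 1) (a i : Fin n) :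
    |Uc E a i p| ≤ n :=
  (Uc_bd hE hz a i).trans (by nlinarith [Nat.cast_nonneg (α := ℝ) n])

theorem D_Uc (sE : SmM E) (hE : Near 6 ε E) (hz : ∀ l, |zz p l| ≤ 1) (a i j : Fin n) :
    |D (ex j) (Uc E a i) p| ≤ n * (ε * 1 + ε * 1) := by
  have h : D (ex j) (Uc E a i) p = ∑ l, (D (ee i) (E a l) p.1 * D (ex j) (fun q => zz q l) p +
      D (ee j) (D (ee i) (E a l)) p.1 * zz p l) := by
    refine (D_sum_at _ (fun l _ => ((sm_fst ((sE a l).D _)).mul (sm_z l)).dAt p) _).trans ?_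
    refine Finset.sum_congr rfl fun l _ => ?_
    rw [D_mul_at ((sm_fst ((sE a l).D _)).dAt p) ((sm_z l).dAt p), D_fst ((sE a l).D _)]
  rw [h]
  exact sum1 fun l => aadd (amul (near1 hE (by norm_num) _ _ _ _) (D_z _ _ _))
    (amul (near2 hE (by norm_num) _ _ _ _ _) (hz l))

/-- The divergence of `γ U`. -/
theorem div_bd {γ : MatF n} (sγ : SmM γ) (hγ : Near 8 ε γ) (he : ε ≤ 1)
    {U : Fin n → X2 n → ℝ} (sU : ∀ i, Sm (U i)) {A B : ℝ} (h0 : ∀ i, |U i p| ≤ A)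
    (h1 : ∀ i j, |D (ex j) (U i) p| ≤ B) :
    |∑ j, D (ex j) (fun p' => ∑ i, γ i j p'.1 * U i p') p| ≤ n * (n * (2 * B + ε * A)) := by
  refine sum1 fun j => ?_
  rw [D_sum_at _ fun i _ => ((sm_fst (sγ i j)).mul (sU i)).dAt p]
  refine sum1 fun i => ?_
  rw [D_mul_at ((sm_fst (sγ i j)).dAt p) ((sU i).dAt p), D_fst (sγ i j)]
  exact aadd (amul (near0 hγ he _ _ _) (h1 i j)) (amul (near1 hγ (by norm_num) _ _ _ _) (h0 i))

end pt

theorem real1 {φ q g T1 T2 T3 T4 A Z : ℝ} (h1 : |T1| ≤ A) (h2 : |T2| ≤ A) (h3 : |T3| ≤ A)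
    (h4 : |T4| ≤ A * Z) :
    (φ * (-(q * T1) - g * T2 - 2 * T4 + 2 * g * T3)) ^ 2 ≤
      27 * A ^ 2 * (φ ^ 2 * (q ^ 2 + g ^ 2 + Z ^ 2)) := by
  have a1 := amul (le_refl |q|) h1
  have a2 := amul (le_refl |g|) h2
  have a3 := amul (le_refl |g|) h3
  have h5 : |-(q * T1) - g * T2 - 2 * T4 + 2 * g * T3| ≤ A * (|q| + 3 * |g| + 2 * Z) := by
    have b1 := abs_le.1 a1
    have b2 := abs_le.1 a2
    have b3 := abs_le.1 a3
    have b4 := abs_le.1 h4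
    exact abs_le.2 ⟨by linarith [b1.2, b2.2, b3.1, b4.2], by linarith [b1.1, b2.1, b3.2, b4.1]⟩
  have h6 := pow_le_pow_left₀ (abs_nonneg _) h5 2
  rw [sq_abs, mul_pow] at h6
  have h7 : (|q| + 3 * |g| + 2 * Z) ^ 2 ≤ 27 * (q ^ 2 + g ^ 2 + Z ^ 2) := by
    rw [← sq_abs q, ← sq_abs g]
    nlinarith [sq_nonneg (|q| - 3 * |g|), sq_nonneg (|q| - 2 * Z), sq_nonneg (3 * |g| - 2 * Z),
      sq_nonneg |q|, sq_nonneg Z]
  have h8 := h6.trans (mul_le_mul_of_nonneg_left h7 (sq_nonneg A))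
  rw [mul_pow]
  have h9 := mul_le_mul_of_nonneg_left h8 (sq_nonneg φ)
  linarith

theorem real2 {a q g S1 S2 S3 B x y : ℝ} (h1 : |S1| ≤ B * (x + y)) (h2 : |S2| ≤ B * (x + y))
    (h3 : |S3| ≤ B * (x + y)) :
    (a * (-(q * S1) - g * S2 + 2 * g * S3)) ^ 2 ≤
      36 * B ^ 2 * ((a ^ 2 * x ^ 2 + a ^ 2 * y ^ 2) * (q ^ 2 + g ^ 2)) := by
  have a1 := amul (le_refl |q|) h1
  have a2 := amul (le_refl |g|) h2
  have a3 := amul (le_refl |g|) h3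
  have h5 : |-(q * S1) - g * S2 + 2 * g * S3| ≤ B * (x + y) * (|q| + 3 * |g|) := by
    have b1 := abs_le.1 a1
    have b2 := abs_le.1 a2
    have b3 := abs_le.1 a3
    exact abs_le.2 ⟨by linarith [b1.2, b2.2, b3.1], by linarith [b1.1, b2.1, b3.2]⟩
  have h6 := pow_le_pow_left₀ (abs_nonneg _) h5 2
  rw [sq_abs, mul_pow, mul_pow] at h6
  have h7 : (|q| + 3 * |g|) ^ 2 ≤ 18 * (q ^ 2 + g ^ 2) := by
    rw [← sq_abs q, ← sq_abs g]
    nlinarith [sq_nonneg (|q| - 3 * |g|), sq_nonneg |q|]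
  have h8 : (x + y) ^ 2 ≤ 2 * (x ^ 2 + y ^ 2) := by nlinarith [sq_nonneg (x - y)]
  have h9 : B ^ 2 * (x + y) ^ 2 * (|q| + 3 * |g|) ^ 2 ≤
      B ^ 2 * (2 * (x ^ 2 + y ^ 2)) * (18 * (q ^ 2 + g ^ 2)) := by gcongr
  rw [mul_pow]
  have h10 := mul_le_mul_of_nonneg_left (h6.trans h9) (sq_nonneg a)
  linarith

theorem le_sqrt_n2 (ζ : Fin n → ℝ) (j : Fin n) : |ζ j| ≤ √(n2 ζ) :=
  Real.abs_le_sqrt (Finset.single_le_sum (f := fun i => ζ i ^ 2) (fun _ _ => sq_nonneg _)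
    (Finset.mem_univ j))

theorem n2_nonneg (ζ : Fin n → ℝ) : 0 ≤ n2 ζ := Finset.sum_nonneg fun _ _ => sq_nonneg _

section pt2
variable {f : Fx} {c : Cx n ι} {E : MatF n} {ε s : ℝ} {p : X2 n} {g q : X2 n → ℝ}

theorem rr1_bd (h0 : 0 ≤ ε) (he : ε ≤ 1) (sE : SmM E) (hE : Near 6 ε E) (sγ : SmM c.γ₁)
    (h1 : Near 8 ε c.γ₁) (h2 : Near 8 ε c.γ₂) (hz : ∀ l, |zz p l| ≤ 1) (hs : 0 ≤ s)
    (hz' : ∀ l, |zz p l| ≤ 2 * s) (a : Fin n) :
    RR1 f c E g q a p ^ 2 ≤ 27 * ((n : ℝ) ^ 2 * (5 * n + 4) * ε) ^ 2 *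
      (fX f c p.1 ^ 2 * (q p ^ 2 + g p ^ 2 + (s * √(n2 (zx f c g p))) ^ 2)) := by
  have hn : (0 : ℝ) ≤ n := Nat.cast_nonneg n
  have hZ := Real.sqrt_nonneg (n2 (zx f c g p))
  have hne : 0 ≤ (n : ℝ) ^ 2 * ε := by positivity
  have hne3 : 0 ≤ (n : ℝ) ^ 3 * ε := by positivity
  refine real1 ?_ ?_ ?_ ?_
  · refine (sum2 fun i j => amul (near1 h2 (by norm_num) _ _ _ _) (near0 hE he _ _ _)).trans ?_
    nlinarith
  · refine (div_bd sγ h1 he (U := fun i p' => Uc E a i p' - E a i p'.1)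
      (fun i => (sm_Uc sE a i).sub (sm_fst (sE a i))) (A := n + 2)
      (B := n * (ε * 1 + ε * 1) + ε) (fun i => asub (Uc_bd1 hE he hz a i) (near0 hE he _ _ _))
      fun i j => ?_).trans (le_of_eq (by ring))
    rw [D_sub_at ((sm_Uc sE a i).dAt p) ((sm_fst (sE a i)).dAt p), D_fst (sE a i)]
    exact asub (D_Uc sE hE hz a i j) (near1 hE (by norm_num) _ _ _ _)
  · refine (div_bd sγ h1 he (sm_Uc sE a) (Uc_bd1 hE he hz a) (D_Uc sE hE hz a)).trans ?_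
    nlinarith
  · refine (sum2 fun i j => amul (amul (near0 h1 he _ _ _) (Uc_bd hE hz' a i))
      (le_sqrt_n2 _ j)).trans ?_
    have h3 := mul_nonneg hs hZ
    have h4 := mul_nonneg hne h3
    have h5 := mul_nonneg hne3 h3
    nlinarith

theorem rr2_bd (h0 : 0 ≤ ε) (he : ε ≤ 1) (hF : FrOk c E ε) (h1 : Near 8 ε c.γ₁)
    (hz : ∀ l, |zz p l| ≤ 1) (hs : 0 ≤ s) (hz' : ∀ l, |zz p l| ≤ 2 * s) {δ : ℝ} (hδ : 0 ≤ δ)
    (h12 : ∀ i j, |c.γ₁ i j p.1 - c.γ₂ i j p.1| ≤ δ)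
    (h22 : ∀ i j, |c.γ₂ i j p.2 - c.γ₂ i j p.1| ≤ 2 * (ε * s)) (a b : Fin n) :
    RR2 f c E g q a b p ^ 2 ≤ 36 * ((n : ℝ) ^ 2 * (4 * n * (n + 4) + 8)) ^ 2 *
      ((aX f c p.1 ^ 2 * (ε * s) ^ 2 + aX f c p.1 ^ 2 * δ ^ 2) * (q p ^ 2 + g p ^ 2)) := by
  obtain ⟨-, hE, hI⟩ := hF
  have hn : (0 : ℝ) ≤ n := Nat.cast_nonneg n
  have hx : 0 ≤ ε * s := mul_nonneg h0 hs
  have e0 := fun a i => near0 hE he a i p.1
  have u0 := Uc_bd hE hz'
  have u1 := Uc_bd1 hE he hz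
  generalize hxe : ε * s = x at hx h22 ⊢
  have u2 : ∀ a i, |Uc E a i p| ≤ n * (2 * x) := fun a i =>
    (u0 a i).trans (le_of_eq (by rw [← hxe]; ring))
  have p1 : 0 ≤ (n : ℝ) ^ 2 * x := by positivity
  have p2 : 0 ≤ (n : ℝ) ^ 3 * x := by positivity
  have p3 : 0 ≤ (n : ℝ) ^ 4 * x := by positivity
  have p4 : 0 ≤ (n : ℝ) ^ 2 * δ := by positivity
  have p5 : 0 ≤ (n : ℝ) ^ 3 * δ := by positivity
  have p6 : 0 ≤ (n : ℝ) ^ 4 * δ := by positivity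
  refine real2 ?_ ?_ ?_
  · rw [← hI p.1 a b, ← Finset.sum_sub_distrib]
    simp only [← Finset.sum_sub_distrib]
    refine (sum2 (B := 2 * x * 2 * 2) fun i j => ?_).trans (by linarith)
    refine le_trans (le_of_eq ?_) (amul (amul (h22 i j) (e0 a i)) (e0 b j))
    congr 1; ring
  · rw [← hI p.1 a b, ← Finset.sum_sub_distrib]
    simp only [← Finset.sum_sub_distrib]
    refine (sum2 (B := 2 * (n * (2 * x) * (n + 2) + 2 * (n * (2 * x))) + δ * 2 * 2)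
      fun i j => ?_).trans (by linarith)
    refine le_trans (le_of_eq ?_) (aadd (amul (near0 h1 he i j p.1)
      (asub (amul (u2 a i) (asub (u1 b j) (e0 b j))) (amul (e0 a i) (u2 b j))))
      (amul (amul (h12 i j) (e0 a i)) (e0 b j)))
    congr 1; ring
  · refine (sum2 fun i j => amul (amul (near0 h1 he _ _ _) (u2 a i))
      (asub (u1 b j) (e0 b j))).trans (by linarith)

end pt2

end NZM

end Vale.Agent.P088
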