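import Vale.Agent.P088.StW

/-!
# P088: structure of the weight at the critical points
-/

open MeasureTheory Set Metric Filter
open scoped ContDiff Topology

noncomputable section
namespace Vale.Agent.P088
open Vale.Agent.P136

namespace Ww5

section vec
variable {n : ℕ}

def dot (a b : Fin n → ℝ) : ℝ := ∑ i, a i * b i

lemma abs_mul_le {x y a b : ℝ} (hx : |x| ≤ a) (hy : |y| ≤ b) : |x * y| ≤ a * b := by
  rw [abs_mul]
  exact mul_le_mul hx hy (abs_nonneg _) ((abs_nonneg _).trans hx)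

lemma dot_le {a b : Fin n → ℝ} {A B : ℝ} (ha : ∀ i, |a i| ≤ A) (hb : ∀ i, |b i| ≤ B) :
    |dot a b| ≤ n * (A * B) :=
  (Finset.abs_sum_le_sum_abs _ _).trans ((Finset.sum_le_sum fun i _ =>
    abs_mul_le (ha i) (hb i)).trans_eq (by simp))

lemma dot_sq (a b : Fin n → ℝ) : dot a b ^ 2 ≤ n2 a * n2 b :=
  Finset.sum_mul_sq_le_sq_mul_sq _ _ _

lemma n2_nonneg (a : Fin n → ℝ) : 0 ≤ n2 a := Finset.sum_nonneg fun _ _ => sq_nonneg _

lemma sq_le_n2 (a : Fin n → ℝ) (i : Fin n) : a i ^ 2 ≤ n2 a :=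
  Finset.single_le_sum (f := fun i => a i ^ 2) (fun _ _ => sq_nonneg _) (Finset.mem_univ i)

lemma n2_le {a : Fin n → ℝ} {A : ℝ} (ha : ∀ i, |a i| ≤ A) : n2 a ≤ n * A ^ 2 :=
  (Finset.sum_le_sum fun i _ => sq_le_sq' (abs_le.1 (ha i)).1 (abs_le.1 (ha i)).2).trans_eq
    (by simp)

lemma abs_le_of_n2 {a : Fin n → ℝ} {A : ℝ} (hA : 0 ≤ A) (h : n2 a ≤ A ^ 2) (i : Fin n) :
    |a i| ≤ A := abs_le.2 (abs_le_of_sq_le_sq' ((sq_le_n2 a i).trans h) hA)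

lemma dot_self (a : Fin n → ℝ) : dot a a = n2 a := by simp [dot, n2, sq]

lemma n2_eq (x : En n) : n2 (fun i => x i) = ‖x‖ ^ 2 := by
  rw [EuclideanSpace.real_norm_sq_eq]; rfl

lemma n2_three (a b d : Fin n → ℝ) (s t : ℝ) :
    n2 (fun i => a i - s * b i - t * d i) ≤ 3 * (n2 a + s ^ 2 * n2 b + t ^ 2 * n2 d) := by
  simp only [n2, Finset.mul_sum, ← Finset.sum_add_distrib]
  exact Finset.sum_le_sum fun i _ => by
    nlinarith [sq_nonneg (a i + s * b i), sq_nonneg (a i + t * d i), sq_nonneg (s * b i - t * d i)]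

lemma bil_near {γ : Fin n → Fin n → ℝ} {om A B : ℝ} {a b : Fin n → ℝ}
    (h : ∀ i j, |γ i j - if i = j then 1 else 0| ≤ om) (ha : ∀ i, |a i| ≤ A)
    (hb : ∀ i, |b i| ≤ B) : |bil γ a b - dot a b| ≤ n * (n * (om * A * B)) := by
  have e : bil γ a b - dot a b = ∑ i, ∑ j, (γ i j - if i = j then 1 else 0) * a i * b j := by
    simp [bil, dot, sub_mul, Finset.sum_sub_distrib]
  rw [e]
  refine (Finset.abs_sum_le_sum_abs _ _).trans ((Finset.sum_le_sum fun i _ =>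
    (Finset.abs_sum_le_sum_abs _ _).trans (Finset.sum_le_sum fun j _ =>
      abs_mul_le (abs_mul_le (h i j) (ha i)) (hb j))).trans_eq (by simp))

lemma rho_eq (v : Fin n → X2 n) (γ : Fin n → Fin n → X2 n → ℝ) (φ : X2 n → ℝ) (p : X2 n) :
    rho v γ φ p = bil (fun i j => γ i j p) (fun i => D (v i) φ p) fun i => D (v i) φ p := by
  simp only [rho, dir, XX, bil, Finset.sum_mul]
  exact Finset.sum_congr rfl fun i _ => Finset.sum_congr rfl fun j _ => by ring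

/-- The balance `my m ≈ ± al zt` forces `Q < t1²` and `my ≤ 11 t1 al`. -/
lemma balance {m zt ρ : Fin n → ℝ} {my al Q s δ w t1 : ℝ} (hm1 : 1 / 4 ≤ n2 m)
    (hm : ∀ i, |m i| ≤ 3 / 2) (hm2 : n2 m ≤ 9 / 4) (hz : n2 zt ≤ 2 * Q) (hs : s ^ 2 = 1)
    (hmy : 0 < my) (hal : 0 < al) (hδ : n * δ ≤ 1 / 1000) (hρ : ∀ i, |ρ i| ≤ 4 * δ * my)
    (hw : 0 ≤ w) (he : my * n2 m + w = s * al * dot zt m + dot ρ m) (hQ : 0 ≤ Q) (ht : 0 < t1) :
    my / 5 ≤ s * al * dot zt m ∧ (al ^ 2 * Q ≤ (my / 7) ^ 2 → False) ∧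
      (Q < t1 ^ 2 → my ≤ 11 * t1 * al) := by
  have h1 := (abs_le.1 (dot_le hρ hm)).2
  have h2 : n * (4 * δ * my * (3 / 2)) ≤ my * (6 / 1000) := by nlinarith
  have h3 : my * (n2 m - 6 / 1000) ≤ s * al * dot zt m := by nlinarith
  have h4 : (s * al * dot zt m) ^ 2 ≤ al ^ 2 * (2 * Q) * n2 m := by
    rw [mul_pow, mul_pow, hs, one_mul, mul_assoc]
    exact mul_le_mul_of_nonneg_left ((dot_sq _ _).trans
      (mul_le_mul_of_nonneg_right hz (n2_nonneg _))) (sq_nonneg _)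
  have h5 : 0 ≤ my * (n2 m - 6 / 1000) := mul_nonneg hmy.le (by linarith)
  have h6 := (pow_le_pow_left₀ h5 h3 2).trans h4
  have h0 : my / 5 ≤ s * al * dot zt m := by nlinarith
  refine ⟨h0, fun h => ?_, fun h => ?_⟩
  · have h7 : al ^ 2 * (2 * Q) * n2 m ≤ my ^ 2 * (2 / 49 * n2 m) := by
      nlinarith [n2_nonneg m]
    have h8 : my ^ 2 * (n2 m - 6 / 1000) ^ 2 ≤ my ^ 2 * (2 / 49 * n2 m) := by nlinarith
    have h9 := le_of_mul_le_mul_left h8 (by positivity)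
    nlinarith
  · refine (abs_le_of_sq_le_sq' ?_ (by positivity)).2
    have h7 := (pow_le_pow_left₀ (by positivity) h0 2).trans h4
    have h8 : al ^ 2 * (2 * Q) * n2 m ≤ al ^ 2 * (2 * t1 ^ 2) * (9 / 4) :=
      mul_le_mul (mul_le_mul_of_nonneg_left (by linarith) (sq_nonneg _)) hm2 (n2_nonneg _)
        (by positivity)
    nlinarith [mul_nonneg (sq_nonneg al) (sq_nonneg t1)]

lemma dot_lin (a b d e : Fin n → ℝ) (s t : ℝ) :
    dot (fun i => s * a i + t * b i + d i) e = s * dot a e + t * dot b e + dot d e := by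
  simp only [dot, Finset.mul_sum, ← Finset.sum_add_distrib]
  exact Finset.sum_congr rfl fun i _ => by ring

lemma dot_comm (a b : Fin n → ℝ) : dot a b = dot b a :=
  Finset.sum_congr rfl fun _ _ => mul_comm _ _

/-- The gradient in the other group of variables is large. -/
lemma lower {γ : Fin n → Fin n → ℝ} {m x ψ φ ρ₁ ρ₂ : Fin n → ℝ} {my fp om δ : ℝ}
    (h : ∀ i j, |γ i j - if i = j then 1 else 0| ≤ om) (ho : n * (n * om) ≤ 1 / 1000)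
    (hm1 : 1 / 4 ≤ n2 m) (hm2 : n2 m ≤ 9 / 4) (hx : n2 x ≤ 9 / 4) (hmx : 1 / 8 ≤ dot m x)
    (hmy : 0 < my) (hf : 0 ≤ fp) (hδ : n * δ ≤ 1 / 1000) (hδ' : δ ≤ 1 / 1000)
    (h1 : ∀ i, |ρ₁ i| ≤ 7 * δ * my) (h2 : ∀ i, |ρ₂ i| ≤ 7 * δ * my)
    (hψ : ∀ i, ψ i = 2 * my * m i + ρ₁ i) (hφ : ∀ i, φ i = 2 * my * m i + fp * x i + ρ₂ i)
    (b1 : n2 φ / 2 ≤ bil γ φ φ) (b2 : bil γ φ φ ≤ 2 * n2 φ) :
    (my + fp) ^ 2 ≤ 288 * bil γ φ φ ∧ bil γ φ φ ≤ 32 * n * (my + fp) ^ 2 ∧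
      n2 ψ ≤ n * (4 * my) ^ 2 ∧ my ^ 2 * bil γ φ φ ≤ 800 * n * bil γ ψ φ ^ 2 := by
  have am : ∀ i, |m i| ≤ 3 / 2 := abs_le_of_n2 (by norm_num) (by linarith)
  have ax : ∀ i, |x i| ≤ 3 / 2 := abs_le_of_n2 (by norm_num) (by linarith)
  have dm : δ * my ≤ my / 1000 := by nlinarith
  have nm : n * δ * my ≤ my / 1000 := by nlinarith
  have aψ : ∀ i, |ψ i| ≤ 4 * my := fun i => by
    have k1 := abs_le.1 (abs_mul_le (abs_of_pos hmy).le (am i))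
    have k2 := abs_le.1 (h1 i)
    rw [hψ, abs_le]
    constructor <;> linarith [k1.1, k1.2, k2.1, k2.2]
  have aφ : ∀ i, |φ i| ≤ 4 * (my + fp) := fun i => by
    have k1 := abs_le.1 (abs_mul_le (abs_of_pos hmy).le (am i))
    have k2 := abs_le.1 (h2 i)
    have k3 := abs_le.1 (abs_mul_le (abs_of_nonneg hf).le (ax i))
    rw [hφ, abs_le]
    constructor <;> linarith [k1.1, k1.2, k2.1, k2.2, k3.1, k3.2]
  have d1 : (my + fp) / 8 ≤ dot φ m := by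
    rw [show φ = _ from funext hφ, dot_lin, dot_self, dot_comm x]
    have k1 := (abs_le.1 (dot_le h2 am)).1
    linarith [mul_le_mul_of_nonneg_left hm1 hmy.le, mul_le_mul_of_nonneg_left hmx hf]
  have d2 := (pow_le_pow_left₀ (by positivity) d1 2).trans (dot_sq _ _)
  have d3 := mul_le_mul_of_nonneg_left hm2 (n2_nonneg φ)
  have d4 := n2_le aφ
  have r2 : bil γ φ φ ≤ 32 * n * (my + fp) ^ 2 := by linarith
  refine ⟨by linarith, r2, n2_le aψ, ?_⟩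
  have e : dot ψ φ = 2 * my * dot φ m + dot ρ₁ φ := by
    rw [show ψ = fun i => 2 * my * m i + 0 * m i + ρ₁ i from funext fun i => by rw [hψ]; ring,
      dot_lin, dot_comm m]
    ring
  have k1 := (abs_le.1 (dot_le h1 aφ)).1
  have k2 := (abs_le.1 (bil_near h aψ aφ)).1
  have P : 0 ≤ my * (my + fp) := by positivity
  have k3 : my * (my + fp) / 5 ≤ bil γ ψ φ := by
    linarith [mul_le_mul_of_nonneg_left d1 hmy.le, mul_le_mul_of_nonneg_right ho P,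
      mul_le_mul_of_nonneg_right hδ P]
  have k4 := mul_le_mul_of_nonneg_left (pow_le_pow_left₀ (by positivity) k3 2)
    (Nat.cast_nonneg (α := ℝ) n)
  linarith [mul_le_mul_of_nonneg_left r2 (sq_nonneg my)]

/-- Polarization. -/
lemma polar {a b d al Q my P e R U₁ Q₁ U₂ Q₂ : ℝ} (C : ℝ)
    (h : ∀ U W : ℝ, |a * (U * U) + b * (U * W + W * U) + d * (W * W) + al * W ^ 2 / (4 * Q)| ≤
      e * al * W ^ 2 / Q + C * (my * U + al * W / 2) ^ 2 / P)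
    (h1 : e * al * Q₁ ^ 2 / Q + C * (my * U₁ + al * Q₁ / 2) ^ 2 / P ≤ R)
    (h2 : e * al * Q₂ ^ 2 / Q + C * (my * U₂ + al * Q₂ / 2) ^ 2 / P ≤ R) :
    |a * (U₁ * U₂) + b * (U₁ * Q₂ + Q₁ * U₂) + d * (Q₁ * Q₂) + al * (Q₁ * Q₂) / (4 * Q)| ≤ R := by
  have k1 := abs_le.1 (h (U₁ + U₂) (Q₁ + Q₂))
  have k2 := abs_le.1 (h (U₁ - U₂) (Q₁ - Q₂))
  simp only [div_eq_mul_inv] at *
  generalize (4 * Q)⁻¹ = q₁ at *
  generalize Q⁻¹ = q₂ at *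
  generalize P⁻¹ = q₃ at *
  rw [abs_le]
  constructor <;> linarith [k1.1, k1.2, k2.1, k2.2]

end vec

section scal

/-- The scalar setting. -/
structure Sc (F v σ Q t0 ε : ℝ) : Prop where
  F0 : 0 < F
  e0 : 0 < ε
  e1 : ε ≤ 1
  ev : 1 ≤ ε * v
  vF : v ^ 20 ≤ ε * F
  s2 : 2 ≤ σ
  s15 : σ ≤ 15 * v
  t0 : 0 < t0
  Q2 : Q ≤ 2

variable {F v σ Q t0 ε : ℝ}

lemma Sc.v1 (h : Sc F v σ Q t0 ε) : 1 ≤ v := by nlinarith [h.e0, h.e1, h.ev, h.s2, h.s15]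

lemma Sc.pw (h : Sc F v σ Q t0 ε) {j : ℕ} (hj : j ≤ 20) : v ^ j ≤ ε * F :=
  (pow_le_pow_right₀ h.v1 hj).trans h.vF

lemma Sc.F1 (h : Sc F v σ Q t0 ε) : 1 ≤ F := by
  have := h.pw (j := 0) (by norm_num)
  nlinarith [h.e1, h.F0]

lemma Sc.far (h : Sc F v σ Q t0 ε) {C r : ℝ} (hC : 0 ≤ C) (he : C * (4 * t0 ^ 2 + 1) * ε < t0 ^ 2)
    (hQ : t0 ^ 2 / 4 ≤ Q) (hr : r ≤ 4 * (F * t0 ^ 2 * v ^ 6))
    (hz : (F * σ * √Q) ^ 2 ≤ C * (r + v ^ 2)) : False := by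
  have Q0 : 0 ≤ Q := le_trans (by positivity) hQ
  rw [mul_pow, Real.sq_sqrt Q0] at hz
  have F0 := h.F0
  have v1 := h.v1
  have a1 : v ^ 2 ≤ F * v ^ 6 := (pow_le_pow_right₀ v1 (by norm_num)).trans
    (le_mul_of_one_le_left (by positivity) h.F1)
  have a2 : F * v ^ 6 ≤ F * (ε * F) := mul_le_mul_of_nonneg_left (h.pw (by norm_num)) F0.le
  have a3 : r + v ^ 2 ≤ (4 * t0 ^ 2 + 1) * (F * (ε * F)) := by
    nlinarith [mul_le_mul_of_nonneg_left a2 (sq_nonneg t0)]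
  have a4 : 4 ≤ σ ^ 2 := by nlinarith [h.s2]
  have a5 : t0 ^ 2 ≤ σ ^ 2 * Q := by nlinarith
  have a6 := mul_le_mul_of_nonneg_left a3 hC
  have a7 := mul_lt_mul_of_pos_right he (pow_pos F0 2)
  nlinarith [mul_le_mul_of_nonneg_left a5 (sq_nonneg F)]

lemma Sc.rs (h : Sc F v σ Q t0 ε) (hQ : 2 * t0 ^ 2 < Q) {ρ : ℝ} (he : ε ≤ 4 * ρ * t0 ^ 2) :
    F * t0 ^ 2 * v ^ 6 * v ^ 4 ≤ ρ * (Q * F * v) ^ 2 := by
  have F0 := h.F0
  have t2 := pow_pos h.t0 2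
  have r0 : 0 ≤ ρ := by nlinarith [h.e0]
  have a1 : v ^ 8 ≤ 4 * ρ * t0 ^ 2 * F :=
    (h.pw (by norm_num)).trans (mul_le_mul_of_nonneg_right he F0.le)
  have a2 : 4 * (t0 ^ 2) ^ 2 ≤ Q ^ 2 := by nlinarith
  have a3 := mul_le_mul_of_nonneg_left a1 (by positivity : 0 ≤ F * t0 ^ 2 * v ^ 2)
  have a4 := mul_le_mul_of_nonneg_left a2 (by positivity : 0 ≤ ρ * F ^ 2 * v ^ 2)
  nlinarith

lemma Sc.rs' (h : Sc F v σ Q t0 ε) (hQ : 2 * t0 ^ 2 < Q) {ρ : ℝ} (he : ε ≤ 4 * ρ * t0 ^ 2) :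
    F * t0 ^ 2 * v ^ 6 ≤ ρ * (Q * F * v) ^ 2 :=
  (le_mul_of_one_le_right (by have := h.F0; have := h.v1; positivity)
    (one_le_pow₀ h.v1)).trans (h.rs hQ he)

lemma Sc.al_le (h : Sc F v σ Q t0 ε) (hQ : 2 * t0 ^ 2 < Q) {η : ℝ} (hη : 0 < η)
    (he : 15 * ε ≤ 2 * η * t0 ^ 2) : F * σ ≤ η * (Q * F * v) * v := by
  have F0 := h.F0
  have v1 := h.v1
  have a1 : 15 ≤ η * Q * v := by
    nlinarith [h.ev, mul_le_mul_of_nonneg_right he (zero_le_one.trans v1),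
      mul_le_mul_of_nonneg_left hQ.le (mul_nonneg hη.le (zero_le_one.trans v1))]
  nlinarith [mul_le_mul_of_nonneg_left h.s15 F0.le,
    mul_le_mul_of_nonneg_left a1 (by positivity : 0 ≤ F * v)]

lemma Sc.v8 (h : Sc F v σ Q t0 ε) {η r : ℝ} (he : (4 * t0 ^ 2 + 15) * ε ≤ 4 * η)
    (hr : r ≤ 4 * (F * t0 ^ 2 * v ^ 6)) : v ^ 8 * (r + F * σ) ≤ η * (F * σ) ^ 2 := by
  have F0 := h.F0
  have v1 := h.v1
  have η0 : 0 ≤ η := by nlinarith [h.e0, sq_nonneg t0]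
  have a1 : F * σ ≤ 15 * (F * v ^ 6) := by
    nlinarith [mul_le_mul_of_nonneg_left h.s15 F0.le,
      mul_le_mul_of_nonneg_left (le_self_pow₀ v1 (by norm_num : 6 ≠ 0)) F0.le]
  have a2 : v ^ 8 * (r + F * σ) ≤ v ^ 8 * ((4 * t0 ^ 2 + 15) * (F * v ^ 6)) :=
    mul_le_mul_of_nonneg_left (by linarith) (by positivity)
  have a3 := mul_le_mul_of_nonneg_left (h.pw (j := 14) (by norm_num))
    (by positivity : 0 ≤ (4 * t0 ^ 2 + 15) * F)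
  have a4 := mul_le_mul_of_nonneg_right he (sq_nonneg F)
  have a5 : 4 ≤ σ ^ 2 := by nlinarith [h.s2]
  have a6 := mul_le_mul_of_nonneg_left a5 (mul_nonneg η0 (sq_nonneg F))
  nlinarith

lemma Sc.aa (h : Sc F v σ Q t0 ε) (hQ : 2 * t0 ^ 2 < Q) :
    F * σ ^ 2 ≤ 225 / (2 * t0 ^ 2) * (Q * F * v) * v := by
  have F0 := h.F0
  have t2 := pow_pos h.t0 2
  have a1 : σ ^ 2 ≤ (15 * v) ^ 2 := pow_le_pow_left₀ (by linarith [h.s2]) h.s15 2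
  have a2 : 225 ≤ 225 / (2 * t0 ^ 2) * Q := by
    rw [div_mul_eq_mul_div, le_div_iff₀ (by positivity)]; linarith
  nlinarith [mul_le_mul_of_nonneg_left a1 F0.le,
    mul_le_mul_of_nonneg_left a2 (by positivity : 0 ≤ F * v ^ 2)]

lemma Sc.kk (h : Sc F v σ Q t0 ε) {K k : ℝ} (he : K ^ 2 * ε ≤ t0 ^ 2) (h0 : 0 ≤ k)
    (hk : k ≤ K * v) : k ^ 2 ≤ F * t0 ^ 2 * v ^ 6 := by
  have v1 := h.v1
  have a1 : k ^ 2 ≤ (K * v) ^ 2 := pow_le_pow_left₀ h0 hk 2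
  have a2 : K ^ 2 ≤ F * t0 ^ 2 := by
    nlinarith [mul_le_mul_of_nonneg_left (h.pw (j := 0) (by norm_num)) (sq_nonneg K),
      mul_le_mul_of_nonneg_right he h.F0.le]
  have a3 : v ^ 2 ≤ v ^ 6 := pow_le_pow_right₀ v1 (by norm_num)
  have := mul_le_mul a2 a3 (by positivity) (by have := h.F0; positivity)
  nlinarith

lemma Sc.nr (h : Sc F v σ Q t0 ε) (hQ : 2 * t0 ^ 2 < Q) (he : 4 * ε ≤ (t0 ^ 2) ^ 2) :
    16 < Q ^ 2 * F := by
  have t2 := pow_pos h.t0 2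
  have a2 : 4 * (t0 ^ 2) ^ 2 < Q ^ 2 := by nlinarith
  nlinarith [h.pw (j := 0) (by norm_num), mul_lt_mul_of_pos_right a2 h.F0,
    mul_le_mul_of_nonneg_right he h.F0.le]

lemma Sc.sm (h : Sc F v σ Q t0 ε) {K η : ℝ} (hK : 0 ≤ K) (he : K * ε ≤ η) {j : ℕ} (hj : j ≤ 20) :
    K * v ^ j ≤ η * (F * σ) := by
  have η0 : 0 ≤ η := (mul_nonneg hK h.e0.le).trans he
  nlinarith [mul_le_mul_of_nonneg_left (h.pw hj) hK, mul_le_mul_of_nonneg_right he h.F0.le,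
    mul_nonneg (mul_nonneg η0 h.F0.le) (by linarith [h.s2] : 0 ≤ σ - 1)]

lemma Sc.thin (h : Sc F v σ Q t0 ε) (hQ : 2 * t0 ^ 2 < Q) {lam : ℝ} (hl : lam ≤ 1 / 8)
    (he : 168 * ε ≤ t0) (hs : σ ≤ 3 + lam * v * √Q) : (F * σ) ^ 2 * Q ≤ (Q * F * v / 7) ^ 2 := by
  have t2 := pow_pos h.t0 2
  have Q0 : 0 ≤ Q := by linarith
  have v1 := h.v1
  have q1 : t0 ≤ √Q := Real.le_sqrt_of_sq_le (by linarith)
  have q2 : 168 ≤ v * √Q := by
    nlinarith [h.ev, mul_le_mul_of_nonneg_left (he.trans q1) (zero_le_one.trans v1)]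
  have q3 : σ ≤ v * √Q / 7 := by nlinarith
  have q4 := pow_le_pow_left₀ (by linarith [h.s2]) q3 2
  rw [div_pow, mul_pow, Real.sq_sqrt Q0] at q4
  nlinarith [mul_le_mul_of_nonneg_left q4 (mul_nonneg (sq_nonneg F) Q0)]

lemma Sc.zd (h : Sc F v σ Q t0 ε) (hQ : 2 * t0 ^ 2 < Q) {N : ℝ} (hN : 0 ≤ N)
    (he : 113 * N * ε ≤ t0) : F * σ * (N * (ε * √Q * (3 / 2))) ≤ Q * F * v / 5 := by
  have Q0 : 0 ≤ Q := le_trans (by positivity) hQ.le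
  have q1 : t0 ≤ √Q := Real.le_sqrt_of_sq_le (by linarith [sq_nonneg t0])
  have F0 := h.F0
  have e0 := h.e0
  have v0 : 0 ≤ v := zero_le_one.trans h.v1
  have a1 := mul_le_mul_of_nonneg_left h.s15 (by positivity : 0 ≤ F * (N * (ε * √Q)))
  have a2 := mul_le_mul_of_nonneg_left (he.trans q1) (by positivity : 0 ≤ F * v * √Q)
  have a3 : F * v * √Q * √Q = Q * F * v := by rw [mul_assoc, Real.mul_self_sqrt Q0]; ring
  have a4 : 0 ≤ F * v * √Q * N * ε := by positivity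
  linarith

lemma Sc.fp (h : Sc F v σ Q t0 ε) {C g L η : ℝ} (hC : 0 ≤ C) (hL : 0 ≤ L) (h1 : L ≤ C * v)
    (h2 : g ^ 2 ≤ C * F) (he : C ^ 3 * ε ≤ η * t0 ^ 2) :
    (g * L) ^ 2 ≤ η * (F * t0 ^ 2 * v ^ 6) := by
  have F0 := h.F0
  have v1 := h.v1
  have e0 := h.e0
  have a1 := mul_le_mul h2 (pow_le_pow_left₀ hL h1 2) (by positivity) (by positivity)
  have a2 : 1 ≤ ε * v ^ 4 := h.ev.trans (mul_le_mul_of_nonneg_left
    (le_self_pow₀ v1 (by norm_num)) e0.le)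
  have a3 := mul_le_mul_of_nonneg_left a2 (by positivity : 0 ≤ C ^ 3 * F * v ^ 2)
  have a4 := mul_le_mul_of_nonneg_left he (by positivity : 0 ≤ F * v ^ 6)
  rw [mul_pow]
  linarith

lemma Sc.fxx (h : Sc F v σ Q t0 ε) {C g L η : ℝ} (hC : 0 ≤ C) (hL : 0 ≤ L) (h1 : L ≤ C * v)
    (h2 : g ^ 2 ≤ C * F) (hη : 0 < η) (he : C ^ 7 * ε ≤ (η / 2) ^ 2) :
    C * g * L ^ 2 ≤ η / 2 * (F * σ) := by
  have F0 := h.F0
  have s0 : 1 ≤ σ := by linarith [h.s2]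
  refine (abs_le_of_sq_le_sq' ?_ (by positivity)).2
  have a1 := mul_le_mul_of_nonneg_left
    (mul_le_mul h2 (pow_le_pow_left₀ hL h1 4) (by positivity) (by positivity)) (sq_nonneg C)
  have a2 := mul_le_mul_of_nonneg_left (h.sm (by positivity) he (by norm_num : 4 ≤ 20)) F0.le
  have a3 := mul_le_mul_of_nonneg_left s0 (by positivity : 0 ≤ (η / 2) ^ 2 * F ^ 2 * σ)
  linarith

/-- The quadratic correction in the Hessian. -/
lemma quad {Q ε a b za zb : ℝ} (hQ : 0 < Q) (hQ2 : Q ≤ 2) (h1 : ε ≤ 1) (s : ℝ) (hs : s ^ 2 = 1)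
    (ha : |a - 2 * s * za| ≤ ε * Q) (hb : |b - 2 * s * zb| ≤ ε * Q) (hza : za ^ 2 ≤ 2 * Q)
    (hzb : zb ^ 2 ≤ 2 * Q) : a ^ 2 ≤ 20 * Q ∧ |a * b / (4 * Q) - za * zb / Q| ≤ 3 * ε := by
  have e0 : 0 ≤ ε * Q := (abs_nonneg _).trans ha
  have e1 : ε * Q ≤ Q := by nlinarith
  have sa : |s * za| ≤ 2 := abs_le.2 (abs_le_of_sq_le_sq' (by nlinarith) (by norm_num))
  have sb : |s * zb| ≤ 2 := abs_le.2 (abs_le_of_sq_le_sq' (by nlinarith) (by norm_num))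
  constructor
  · have := sq_le_sq' (abs_le.1 ha).1 (abs_le.1 ha).2
    nlinarith [sq_nonneg (a - 4 * s * za)]
  · have k1 := abs_le.1 (abs_mul_le sa hb)
    have k2 := abs_le.1 (abs_mul_le sb ha)
    have k3 := abs_le.1 (abs_mul_le ha (hb.trans (e1.trans hQ2)))
    have e : a * b / (4 * Q) - za * zb / Q = (a * b - 4 * (s ^ 2 * (za * zb))) / (4 * Q) := by
      rw [hs]; field_simp
    rw [e, abs_div, abs_of_pos (by positivity : 0 < 4 * Q), div_le_iff₀ (by positivity), abs_le]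
    constructor <;> nlinarith [k1.1, k1.2, k2.1, k2.2, k3.1, k3.2]

end scal

section pt
variable {n : ℕ} {ι : Type} {f : Fx} {c : Cx n ι} {C ε η δ om : ℝ} {p : X2 n}

lemma D_fst {g : En n → ℝ} (hg : Sm g) (w : X2 n) :
    D w (fun p : X2 n => g p.1) = fun p => D w.1 g p.1 := funext fun p => by
  have h : HasFDerivAt (fun p : X2 n => g p.1) _ p :=
    (hg.dAt p.1).hasFDerivAt.comp p hasFDerivAt_fst
  simp only [D]; rw [h.fderiv]; rfl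

lemma D_zero (g : En n → ℝ) (x : En n) : D 0 g x = 0 := by simp [D]

lemma phi_D (h : W0 f c) (hQ : f.t0 ^ 2 / 2 < QQ c p) (w : X2 n) : D w (phi f c) =ᶠ[𝓝 p]
    fun p => D w (Psi f c) p + f.Cw * D w (lu f c) p + D w.1 (fX f c) p.1 := by
  obtain ⟨⟨-, -, -, -, -, -, -, -, -, sP, -, -, sl, -, -, -, -, -, -, -, -, -, -, -, -, -, -, -,
    -, -, -, -, -, -, -, -, -, -, -, -, sf, -⟩, -, -, -, h5⟩ := h
  have sf' : Sm fun p : X2 n => fX f c p.1 := sf.comp contDiff_fst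
  have e : phi f c =ᶠ[𝓝 p] fun p => Psi f c p + f.Cw * lu f c p + fX f c p.1 :=
    ((h5 p).2.2.1 hQ).mono fun q hq => by simp only [phi, ph0, ff, hq, Pi.one_apply, one_mul]
  refine (e.fderiv (𝕜 := ℝ)).mono fun q hq => ?_
  have : D w (phi f c) q = D w (fun p => Psi f c p + f.Cw * lu f c p + fX f c p.1) q := by
    simp only [D]; rw [hq]
  rw [this, D_add_at ((sP.add (sl.cmul _)).dAt q) (sf'.dAt q),
    D_add_at (sP.dAt q) ((sl.cmul _).dAt q), D_const_mul_at (sl.dAt q), D_fst sf]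

lemma phi_DD (h : W0 f c) (hQ : f.t0 ^ 2 / 2 < QQ c p) (v w : X2 n) :
    D v (D w (phi f c)) p = D v (D w (Psi f c)) p + f.Cw * D v (D w (lu f c)) p +
      D v.1 (D w.1 (fX f c)) p.1 := by
  rw [D_congr (phi_D h hQ w)]
  obtain ⟨⟨-, -, -, -, -, -, -, -, -, sP, -, -, sl, -, -, -, -, -, -, -, -, -, -, -, -, -, -, -,
    -, -, -, -, -, -, -, -, -, -, -, -, sf, -⟩, -⟩ := h
  have sf' : Sm fun p : X2 n => D w.1 (fX f c) p.1 := (sf.D _).comp contDiff_fst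
  rw [D_add_at (((sP.D w).add ((sl.D w).cmul _)).dAt p) (sf'.dAt p),
    D_add_at ((sP.D w).dAt p) (((sl.D w).cmul _).dAt p), D_const_mul_at ((sl.D w).dAt p),
    D_fst (sf.D _)]

/-- The facts that are used at the point `p`. -/
structure Hy (f : Fx) (c : Cx n ι) (C ε η δ om : ℝ) (p : X2 n) : Prop where
  ok : f.Ok
  w0 : W0 f c
  C1 : 1 ≤ C
  sc : Sc (FF f c p) (vv f c p) (sig f c p) (QQ c p) f.t0 ε
  u1 : ∀ i, D (ex i) uu p = mv p i ∧ D (ey i) uu p = mv p i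
  u2 : ∀ i j : Fin n ⊕ Fin n, |D (exy i) (D (exy j) uu) p| ≤ 1 / 2
  q3 : ∀ i, |zt c p i - zz p i| ≤ ε * √(QQ c p)
  q4 : ∀ i, |D (ex i) (QQ c) p + 2 * zt c p i| ≤ ε * QQ c p ∧
    |D (ey i) (QQ c) p - 2 * zt c p i| ≤ ε * QQ c p
  q5 : ∀ i j, |D (ex i) (D (ex j) (QQ c)) p - 2 * Gm c p i j| ≤ ε * √(QQ c p) ∧
    |D (ey i) (D (ey j) (QQ c)) p - 2 * Gm c p i j| ≤ ε * √(QQ c p)
  mx : 1 / 8 ≤ dot (mv p) fun i => p.1 i
  m1 : 1 / 4 ≤ n2 (mv p)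
  m2 : n2 (mv p) ≤ 9 / 4
  x2 : n2 (fun i => p.1 i) ≤ 9 / 4
  l1 : ∀ i, D (ex i) (lu f c) p = LU f.K c.L0 c.sg c.J (uu p) / 2 * mv p i ∧
    D (ey i) (lu f c) p = LU f.K c.L0 c.sg c.J (uu p) / 2 * mv p i
  l2 : 0 ≤ LU f.K c.L0 c.sg c.J (uu p) ∧ LU f.K c.L0 c.sg c.J (uu p) ≤ C * vv f c p
  l3 : ∀ i j, |D (exy i) (D (exy j) (lu f c)) p| ≤ C * vv f c p ^ 2
  x1 : ∀ i j, |D (ee i) (D (ee j) (fX f c)) p.1| ≤ C * fX f c p.1 * LX f c p.1 ^ 2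
  s3 : f.t1 ^ 2 ≤ QQ c p → sig f c p ≤ 3 + f.lam * vv f c p * √(QQ c p)
  s4 : QQ c p ≤ 2 * f.t1 ^ 2 → 0 ≤ zd p (mv p) →
    LX f c p.1 ≤ C * vv f c p ∧ aX f c p.1 ≤ C * FF f c p
  w4 : QQ c p ≤ 2 * f.t0 ^ 2 → z0 f c p ^ 2 ≤ C * (rx f c p + vv f c p ^ 2) ∧
    z0 f c p ^ 2 ≤ C * (ry f c p + vv f c p ^ 2)
  h1 : ∀ v, D v (Psi f c) p = my f c p * D v uu p + al f c p / 2 * D v (QQ c) p
  h2 : ∀ v w, D v (D w (Psi f c)) p =
    S2 f c p (D v uu p) (D v (QQ c) p) (D w uu p) (D w (QQ c) p) +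
      my f c p * D v (D w uu) p + al f c p / 2 * D v (D w (QQ c)) p
  cv : ∀ U Q : ℝ, f.t0 ^ 2 / 4 ≤ QQ c p →
    |S2 f c p U Q U Q + al f c p * Q ^ 2 / (4 * QQ c p)| ≤
      (ε + f.gam0) * al f c p * Q ^ 2 / QQ c p +
        C * (my f c p * U + al f c p * Q / 2) ^ 2 / Psi f c p
  nr : ∀ i j, |g1 c p i j - if i = j then 1 else 0| ≤ om
  nr2 : ∀ i j, |g2 c p i j - if i = j then 1 else 0| ≤ om
  om1 : n * (n * om) ≤ 1 / 1000
  d0 : 0 < δ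
  d1 : n * δ ≤ 1 / 1000
  d2 : δ ≤ 1 / 1000
  η0 : 0 < η
  e1 : C * (4 * f.t0 ^ 2 + 1) * ε < f.t0 ^ 2
  e2 : ε ≤ 4 * (δ ^ 2 / 100) * f.t0 ^ 2
  e3 : ε ≤ 4 * η * f.t0 ^ 2
  e4 : 15 * ε ≤ 2 * η * f.t0 ^ 2
  e5 : (4 * f.t0 ^ 2 + 15) * ε ≤ 4 * η
  e6 : (f.Cw * C) ^ 2 * ε ≤ f.t0 ^ 2
  e7 : 4 * ε ≤ (f.t0 ^ 2) ^ 2
  e8 : 168 * ε ≤ f.t0
  e9 : 8 * ε ≤ δ
  e10 : 113 * n * ε ≤ f.t0
  e11 : C ^ 3 * ε ≤ η * f.t0 ^ 2
  e12 : C ^ 3 * ε ≤ f.t0 ^ 2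
  e13 : (20 * C + f.Cw * C) * ε ≤ η / 4
  e14 : 24 * ε ≤ η / 4
  e15 : C ^ 7 * ε ≤ (η / 2) ^ 2

/-- The common consequences once `Q > 2 t0²`. -/
lemma Hy.base (h : Hy f c C ε η δ om p) (hQ : 2 * f.t0 ^ 2 < QQ c p) :
    ∃ (k : ℝ) (e e' : Fin n → ℝ), 0 ≤ k ∧ k ^ 2 ≤ Rs f c p ∧ fp f c p = fX f c p.1 * LX f c p.1 ∧
      (∀ i, |e i| ≤ δ * my f c p ∧ |e' i| ≤ δ * my f c p) ∧
      (∀ i, dx (Psi f c) p i = my f c p * mv p i - al f c p * zt c p i + e i) ∧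
      (∀ i, dyy (Psi f c) p i = my f c p * mv p i + al f c p * zt c p i + e' i) ∧
      (∀ i, dx (phi f c) p i = dx (Psi f c) p i + k * mv p i + fp f c p * p.1 i) ∧
      (∀ i, dyy (phi f c) p i = dyy (Psi f c) p i + k * mv p i) ∧
      100 * Rs f c p ≤ (δ * my f c p) ^ 2 ∧ 0 < my f c p ∧ 0 < al f c p ∧
      n2 (zt c p) ≤ 2 * QQ c p := by
  have S := h.sc
  have F0 := S.F0
  have v1 := S.v1
  have t2 := pow_pos S.t0 2
  have Q0 : 0 < QQ c p := by linarith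
  have hQ' : f.t0 ^ 2 / 2 < QQ c p := by linarith
  have cw : 1 ≤ f.Cw := h.ok.2.2.2.2.2.2.2.2.2.2.2.1
  have my0 : 0 < my f c p := by unfold my Psi; positivity
  have al0 : 0 < al f c p := mul_pos F0 (by linarith [S.s2])
  have c1 : chf f c p = 1 := ((h.w0.2.2.2.2 p).2.2.1 hQ').eq_of_nhds
  have ef : fp f c p = fX f c p.1 * LX f c p.1 := by simp only [fp, c1, one_mul]
  have sm : al f c p / 2 * (ε * QQ c p) ≤ δ * my f c p := by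
    simp only [al, my, Psi]
    nlinarith [mul_le_mul_of_nonneg_left S.s15 (by have := S.e0; positivity :
        0 ≤ FF f c p * ε * QQ c p),
      mul_le_mul_of_nonneg_right h.e9 (by positivity : 0 ≤ QQ c p * FF f c p * vv f c p),
      mul_pos S.e0 (by positivity : 0 < QQ c p * FF f c p * vv f c p)]
  have ab : |al f c p / 2| ≤ al f c p / 2 := (abs_of_pos (half_pos al0)).le
  have dfX : ∀ i, D (ee i) (fX f c) p.1 = fp f c p * p.1 i := fun i => by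
    have sl : Sm (lX f c) := by
      obtain ⟨⟨-, -, -, -, -, -, -, -, -, -, -, -, -, -, -, -, -, -, -, -, -, -, -, -, -, -, -, -,
        -, -, -, -, -, -, -, -, -, -, -, sl, -⟩, -⟩ := h.w0
      exact sl
    have := D_exp_at (sl.dAt p.1) (ee i)
    rw [(h.w0.2.1 p.1).2.2.2.2 i] at this
    rw [ef, mul_assoc]
    exact this
  refine ⟨f.Cw * (LU f.K c.L0 c.sg c.J (uu p) / 2),
    fun i => al f c p / 2 * (D (ex i) (QQ c) p + 2 * zt c p i),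
    fun i => al f c p / 2 * (D (ey i) (QQ c) p - 2 * zt c p i), ?_, ?_, ef, fun i =>
      ⟨(abs_mul_le ab (h.q4 i).1).trans sm, (abs_mul_le ab (h.q4 i).2).trans sm⟩,
    fun i => ?_, fun i => ?_, fun i => ?_, fun i => ?_, ?_, my0, al0, ?_⟩
  · have := h.l2.1
    positivity
  · refine S.kk h.e6 (by have := h.l2.1; positivity) ?_
    nlinarith [h.l2.1, mul_le_mul_of_nonneg_left h.l2.2 (zero_le_one.trans cw),
      mul_nonneg (zero_le_one.trans cw) h.l2.1]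
  · simp only [dx, h.h1, (h.u1 i).1]; ring
  · simp only [dyy, h.h1, (h.u1 i).2]; ring
  · simp only [dx]
    rw [(phi_D h.w0 hQ' (ex i)).eq_of_nhds, (h.l1 i).1, show (ex i).1 = ee i from rfl, dfX]; ring
  · simp only [dyy]
    rw [(phi_D h.w0 hQ' (ey i)).eq_of_nhds, (h.l1 i).2, show (ey i).1 = 0 from rfl, D_zero]; ring
  · have := S.rs' hQ h.e2
    simp only [Rs, my, Psi]
    nlinarith
  · have h3 := h.w0.2.2.1 p
    have a := (h3.2.2.2.2.2.2.2.2.2.2.2.2.2.2.2.2.2 (zt c p)).2.2.2.2.1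
    rw [h3.2.2.2.2.2.2.2.2.2.2.2.2.2.1] at a
    linarith

lemma n_bd {F v Q t0 C e al a b : ℝ} (F0 : 0 < F) (hQ : 2 * t0 ^ 2 < Q) (Q0 : 0 < Q) (hC : 0 ≤ C)
    (he : 0 ≤ e * al) (h1 : a ^ 2 ≤ 20 * Q) (h2 : b ^ 2 ≤ 40 * (F * t0 ^ 2 * v ^ 6)) :
    e * al * a ^ 2 / Q + C * b ^ 2 / (Q * F) ≤ 20 * e * al + 20 * C * v ^ 6 := by
  refine add_le_add ?_ ?_
  · rw [div_le_iff₀ Q0]
    linarith [mul_le_mul_of_nonneg_left h1 he]
  · rw [div_le_iff₀ (by positivity)]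
    linarith [mul_le_mul_of_nonneg_left h2 hC,
      mul_le_mul_of_nonneg_left hQ.le (by positivity : 0 ≤ C * F * v ^ 6)]

lemma fin_bd {S my al uu qq G Cw ll a b za zb Q ε g C V η τ : ℝ}
    (P : |S + al * (a * b) / (4 * Q)| ≤ 20 * (ε + g) * al + 20 * C * V)
    (k1 : |al * (a * b / (4 * Q) - za * zb / Q)| ≤ al * (3 * ε)) (k2 : |my * uu| ≤ my * (1 / 2))
    (k3 : |al * (qq - 2 * G)| ≤ al * (ε * 2)) (k4 : |Cw * ll| ≤ Cw * (C * V))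
    (k5 : (20 * C + Cw * C) * V ≤ η / 4 * al) (k6 : 24 * ε * al ≤ η / 4 * al)
    (k7 : 20 * g * al + my / 2 ≤ 22 * τ * al) :
    |S + my * uu + al / 2 * qq + Cw * ll - al * (G - za * zb / Q)| ≤ (η / 2 + 22 * τ) * al := by
  rw [abs_le] at *
  simp only [mul_div_assoc] at *
  constructor <;> linarith [P.1, P.2, k1.1, k1.2, k2.1, k2.2, k3.1, k3.2, k4.1, k4.2]

lemma tau_bd (h : f.Ok) : 0 < f.t1 ∧ f.t1 + 8 * f.gam0 ≤ f.tau ∧ 0 < f.gam0 := by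
  obtain ⟨l0, l1, -, -, T0, -, g0, g1, t0, t1, -⟩ := h
  have g2 : f.T0 ≤ f.T0 / f.lam := by rw [le_div_iff₀ l0]; nlinarith
  exact ⟨by linarith, by unfold Fx.tau; linarith, g0⟩

/-- The Hessian of `Ψ + Cw lu` in one group of variables. -/
lemma Hy.hess (h : Hy f c C ε η δ om p) (hQ : 2 * f.t0 ^ 2 < QQ c p) {v w : X2 n} {s za zb G : ℝ}
    (hs : s ^ 2 = 1) (hmy : my f c p ≤ 11 * f.t1 * al f c p) (al0 : 0 < al f c p)
    (ha : |D v (QQ c) p - 2 * s * za| ≤ ε * QQ c p) (hb : |D w (QQ c) p - 2 * s * zb| ≤ ε * QQ c p)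
    (hza : za ^ 2 ≤ 2 * QQ c p) (hzb : zb ^ 2 ≤ 2 * QQ c p)
    (pa : D v (Psi f c) p ^ 2 ≤ 40 * Rs f c p) (pb : D w (Psi f c) p ^ 2 ≤ 40 * Rs f c p)
    (hu : |D v (D w uu) p| ≤ 1 / 2) (hq : |D v (D w (QQ c)) p - 2 * G| ≤ ε * √(QQ c p))
    (hl : |D v (D w (lu f c)) p| ≤ C * vv f c p ^ 2) :
    |D v (D w (Psi f c)) p + f.Cw * D v (D w (lu f c)) p - al f c p * (G - za * zb / QQ c p)| ≤
      (η / 2 + 22 * f.tau) * al f c p := by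
  have S := h.sc
  have v1 := S.v1
  have e0 := S.e0
  have C0 : 0 ≤ C := zero_le_one.trans h.C1
  have Q0 : 0 < QQ c p := lt_of_le_of_lt (by positivity) hQ
  have cw : 0 < f.Cw := one_pos.trans_le h.ok.2.2.2.2.2.2.2.2.2.2.2.1
  obtain ⟨tp, t1, g0⟩ := tau_bd h.ok
  have my0 : 0 < my f c p := mul_pos (mul_pos Q0 S.F0) (one_pos.trans_le v1)
  obtain ⟨a1, a2⟩ := quad Q0 S.Q2 S.e1 s hs ha hb hza hzb
  obtain ⟨b1, -⟩ := quad Q0 S.Q2 S.e1 s hs hb ha hzb hza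
  have N : ∀ u : X2 n, D u (QQ c) p ^ 2 ≤ 20 * QQ c p → D u (Psi f c) p ^ 2 ≤ 40 * Rs f c p →
      (ε + f.gam0) * al f c p * D u (QQ c) p ^ 2 / QQ c p +
        C * (my f c p * D u uu p + al f c p * D u (QQ c) p / 2) ^ 2 / Psi f c p ≤
        20 * (ε + f.gam0) * al f c p + 20 * C * vv f c p ^ 6 := fun u h1 h2 => by
    have e : my f c p * D u uu p + al f c p * D u (QQ c) p / 2 = D u (Psi f c) p := by
      rw [h.h1]; ring
    rw [e]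
    exact n_bd S.F0 hQ Q0 C0 (by positivity) h1 h2
  have hQ4 : f.t0 ^ 2 / 4 ≤ QQ c p := by linarith [sq_nonneg f.t0]
  have P := polar C (fun U W => h.cv U W hQ4) (N v a1 pa) (N w b1 pb)
  have sq2 : √(QQ c p) ≤ 2 := Real.sqrt_le_iff.2 ⟨by norm_num, by linarith [S.Q2]⟩
  rw [h.h2]
  refine fin_bd P (abs_mul_le (abs_of_pos al0).le a2) (abs_mul_le (abs_of_pos my0).le hu)
    (abs_mul_le (abs_of_pos al0).le (hq.trans (mul_le_mul_of_nonneg_left sq2 e0.le)))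
    (abs_mul_le (abs_of_pos cw).le
      (hl.trans (mul_le_mul_of_nonneg_left (pow_le_pow_right₀ v1 (by norm_num : 2 ≤ 6)) C0)))
    (S.sm (by positivity) h.e13 (by norm_num)) (mul_le_mul_of_nonneg_right h.e14 al0.le) ?_
  linarith [mul_le_mul_of_nonneg_right t1 al0.le, mul_pos tp al0, mul_pos g0 al0]

lemma Hy.bils (h : Hy f c C ε η δ om p) :
    rx f c p = bil (g1 c p) (dx (phi f c) p) (dx (phi f c) p) ∧
    ry f c p = bil (g2 c p) (dyy (phi f c) p) (dyy (phi f c) p) ∧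
    ∀ ζ, n2 ζ / 2 ≤ bil (g1 c p) ζ ζ ∧ bil (g1 c p) ζ ζ ≤ 2 * n2 ζ ∧
      n2 ζ / 2 ≤ bil (g2 c p) ζ ζ ∧ bil (g2 c p) ζ ζ ≤ 2 * n2 ζ :=
  ⟨rho_eq _ _ _ _, rho_eq _ _ _ _, fun ζ =>
    have a := (h.w0.2.2.1 p).2.2.2.2.2.2.2.2.2.2.2.2.2.2.2.2.2 ζ
    ⟨a.1, a.2.1, a.2.2.1, a.2.2.2.1⟩⟩

lemma small {R A k x : ℝ} (hA : 0 ≤ A) (h : 100 * R ≤ A ^ 2) (hk : k ^ 2 ≤ R)
    (hx : |x| ≤ 3 / 2) : |k * x| ≤ A := by
  have a : |k| ≤ A / 10 := abs_le.2 (abs_le_of_sq_le_sq' (by linarith) (by positivity))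
  linarith [abs_mul_le a hx]

lemma up_le {a b X Y : ℝ} (h : Y ≤ a * X) (hab : a ≤ b) (hX : 0 ≤ X) : Y ≤ b * X :=
  h.trans (mul_le_mul_of_nonneg_right hab hX)

lemma Hy.w5y (h : Hy f c C ε η δ om p) {C' : ℝ}
    (hC : 225 / (2 * f.t0 ^ 2) + C + 288 + 800 * n ≤ C') : W5y f c 22 C' η p := by
  intro hp
  have S := h.sc
  have C0 : 0 ≤ C := zero_le_one.trans h.C1
  have v0 : 0 < vv f c p := one_pos.trans_le S.v1
  have n0 : (0 : ℝ) ≤ n := Nat.cast_nonneg n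
  have c0 : 0 ≤ 225 / (2 * f.t0 ^ 2) := by positivity
  have hQ : 2 * f.t0 ^ 2 < QQ c p := by
    by_contra hn
    exact S.far C0 h.e1 hp.1 hp.2 (h.w4 (not_lt.1 hn)).2
  have Q0 : 0 ≤ QQ c p := le_trans (by positivity) hQ.le
  obtain ⟨k, e, e', k0, k2, -, he, px, py, fx, fy, sm, my0, al0, hz⟩ := h.base hQ
  obtain ⟨ex', ey', hb⟩ := h.bils
  obtain ⟨tp, t1, g0⟩ := tau_bd h.ok
  have R0 : 0 < Rs f c p := (h.w0.2.2.1 p).2.2.2.2.2.2.2.2.2.2.2.2.1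
  have fp0 : 0 ≤ fp f c p := (h.w0.2.2.1 p).2.2.2.2.2.2.2.2.2.2.2.1
  have dm : 0 ≤ δ * my f c p := (mul_pos h.d0 my0).le
  have am : ∀ i, |mv p i| ≤ 3 / 2 := abs_le_of_n2 (by norm_num) (by linarith [h.m2])
  have nφ : n2 (dyy (phi f c) p) ≤ 8 * Rs f c p := by linarith [(hb (dyy (phi f c) p)).2.2.1, hp.2]
  have aφ := abs_le_of_n2 dm (nφ.trans (by linarith))
  have ak := fun i => small dm sm k2 (am i)
  set ρ : Fin n → ℝ := fun i => dyy (phi f c) p i - e' i - k * mv p i with hρ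
  have aρ : ∀ i, |ρ i| ≤ 3 * δ * my f c p := fun i => by
    have k1 := abs_le.1 (aφ i)
    have k2 := abs_le.1 (he i).2
    have k3 := abs_le.1 (ak i)
    rw [hρ, abs_le]
    constructor <;> linarith [k1.1, k1.2, k2.1, k2.2, k3.1, k3.2]
  have eρ : ∀ i, ρ i = my f c p * mv p i + al f c p * zt c p i + 0 := fun i => by
    simp only [hρ, fy, py]; ring
  have bal := balance (s := -1) (w := 0) h.m1 am h.m2 hz (by norm_num) my0 al0 h.d1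
    (fun i => (aρ i).trans (by linarith)) le_rfl (by
      rw [show ρ = _ from funext eρ, dot_lin, dot_self]
      simp [dot]) Q0 tp
  have hQ1 : QQ c p < f.t1 ^ 2 := by
    by_contra hn
    exact bal.2.1 (S.thin hQ h.ok.2.1 h.e8 (h.s3 (not_lt.1 hn)))
  have hmy := bal.2.2 hQ1
  have nψ : n2 (dyy (Psi f c) p) ≤ 40 * Rs f c p := by
    have := n2_three (dyy (phi f c) p) (mv p) (mv p) k 0
    rw [show (fun i => dyy (phi f c) p i - k * mv p i - 0 * mv p i) = dyy (Psi f c) p from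
      funext fun i => by rw [fy]; ring] at this
    nlinarith [mul_le_mul k2 h.m2 (n2_nonneg _) R0.le]
  obtain ⟨l1, l2, l3, l4⟩ := lower (ψ := dx (Psi f c) p) (φ := dx (phi f c) p)
    (ρ₁ := fun i => e i - ρ i) (ρ₂ := fun i => e i - ρ i + k * mv p i) h.nr h.om1 h.m1 h.m2 h.x2
    h.mx my0 fp0 h.d1 h.d2 (fun i => by
      have k1 := abs_le.1 (aρ i)
      have k2 := abs_le.1 (he i).1
      rw [abs_le]
      constructor <;> linarith [k1.1, k1.2, k2.1, k2.2]) (fun i => by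
      have k1 := abs_le.1 (aρ i)
      have k2 := abs_le.1 (he i).1
      have k3 := abs_le.1 (ak i)
      rw [abs_le]
      constructor <;> linarith [k1.1, k1.2, k2.1, k2.2, k3.1, k3.2])
    (fun i => by rw [px, eρ]; ring) (fun i => by rw [fx, px, eρ]; ring) (hb _).1 (hb _).2.1
  rw [← ex'] at l1 l2 l4
  refine ⟨hQ, hQ1, not_le.2 (S.nr hQ h.e7), fun i j => ?_, ?_, S.al_le hQ h.η0 h.e4,
    S.v8 h.e5 hp.2, ?_, up_le nψ (by linarith) R0.le, S.rs hQ h.e3,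
    up_le l1 (by linarith) (h.w0.2.2.1 p).2.2.2.2.2.1, up_le l2 (by linarith) (sq_nonneg _),
    up_le (a := 16 * n) (by linarith) (by linarith) (sq_nonneg _),
    up_le l4 (by linarith) (sq_nonneg _)⟩
  · rw [phi_DD h.w0 (by linarith [sq_nonneg f.t0]), show (ey i).1 = 0 from rfl, D_zero, add_zero]
    refine (h.hess hQ (s := 1) (by norm_num) hmy al0 (by rw [mul_one]; exact (h.q4 i).2)
      (by rw [mul_one]; exact (h.q4 j).2) ((sq_le_n2 _ i).trans hz) ((sq_le_n2 _ j).trans hz)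
      ((sq_le_n2 _ i).trans nψ) ((sq_le_n2 _ j).trans nψ) (h.u2 (.inr i) (.inr j)) (h.q5 i j).2
      (h.l3 (.inr i) (.inr j))).trans ?_
    exact mul_le_mul_of_nonneg_right (by linarith [h.η0]) al0.le
  · exact up_le hmy (by linarith) al0.le
  · rw [mul_assoc]
    exact up_le (by rw [← mul_assoc]; exact S.aa hQ) (by linarith) (by positivity)

lemma Hy.w5x (h : Hy f c C ε η δ om p) {C' : ℝ}
    (hC : 225 / (2 * f.t0 ^ 2) + C + 288 + 800 * n ≤ C') : W5x f c 22 C' η p := by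
  intro hp
  have S := h.sc
  have C0 : 0 ≤ C := zero_le_one.trans h.C1
  have v0 : 0 < vv f c p := one_pos.trans_le S.v1
  have n0 : (0 : ℝ) ≤ n := Nat.cast_nonneg n
  have c0 : 0 ≤ 225 / (2 * f.t0 ^ 2) := by positivity
  have hQ : 2 * f.t0 ^ 2 < QQ c p := by
    by_contra hn
    exact S.far C0 h.e1 hp.1 hp.2 (h.w4 (not_lt.1 hn)).1
  have Q0 : 0 ≤ QQ c p := le_trans (by positivity) hQ.le
  obtain ⟨k, e, e', k0, k2, ef, he, px, py, fx, fy, sm, my0, al0, hz⟩ := h.base hQ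
  obtain ⟨ex', ey', hb⟩ := h.bils
  obtain ⟨tp, t1, g0⟩ := tau_bd h.ok
  have R0 : 0 < Rs f c p := (h.w0.2.2.1 p).2.2.2.2.2.2.2.2.2.2.2.2.1
  have fp0 : 0 ≤ fp f c p := (h.w0.2.2.1 p).2.2.2.2.2.2.2.2.2.2.2.1
  have dm : 0 ≤ δ * my f c p := (mul_pos h.d0 my0).le
  have am : ∀ i, |mv p i| ≤ 3 / 2 := abs_le_of_n2 (by norm_num) (by linarith [h.m2])
  have ax : ∀ i, |p.1 i| ≤ 3 / 2 :=
    abs_le_of_n2 (a := fun i => p.1 i) (by norm_num) (by linarith [h.x2])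
  have nφ : n2 (dx (phi f c) p) ≤ 8 * Rs f c p := by linarith [(hb (dx (phi f c) p)).1, hp.2]
  have aφ := abs_le_of_n2 dm (nφ.trans (by linarith))
  have ak := fun i => small dm sm k2 (am i)
  set ρ : Fin n → ℝ := fun i => dx (phi f c) p i - e i - k * mv p i with hρ
  have aρ : ∀ i, |ρ i| ≤ 3 * δ * my f c p := fun i => by
    have k1 := abs_le.1 (aφ i)
    have k2 := abs_le.1 (he i).1
    have k3 := abs_le.1 (ak i)
    rw [hρ, abs_le]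
    constructor <;> linarith [k1.1, k1.2, k2.1, k2.2, k3.1, k3.2]
  have eρ : ∀ i, ρ i = my f c p * mv p i + -al f c p * zt c p i + fp f c p * p.1 i := fun i => by
    simp only [hρ, fx, px]; ring
  have bal := balance (s := 1) (w := fp f c p * dot (mv p) fun i => p.1 i) h.m1 am h.m2 hz
    (by norm_num) my0 al0 h.d1 (fun i => (aρ i).trans (by linarith))
    (mul_nonneg fp0 (by linarith [h.mx])) (by
      rw [show ρ = _ from funext eρ, dot_lin, dot_self, dot_comm (mv p) fun i => p.1 i]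
      have : dot (fun i => fp f c p * p.1 i) (mv p) = fp f c p * dot (fun i => p.1 i) (mv p) := by
        simp only [dot, Finset.mul_sum, mul_assoc]
      rw [this]
      ring) Q0 tp
  have hQ1 : QQ c p < f.t1 ^ 2 := by
    by_contra hn
    exact bal.2.1 (S.thin hQ h.ok.2.1 h.e8 (h.s3 (not_lt.1 hn)))
  have hmy := bal.2.2 hQ1
  have hzd : 0 ≤ zd p (mv p) := by
    have k1 := (abs_le.1 (dot_le h.q3 am)).2
    have k2 : dot (fun i => zt c p i - zz p i) (mv p) = dot (zt c p) (mv p) - zd p (mv p) := by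
      simp only [dot, zd, sub_mul, Finset.sum_sub_distrib]
    rw [k2] at k1
    have k3 : al f c p * _ ≤ my f c p / 5 := S.zd hQ n0 h.e10
    refine nonneg_of_mul_nonneg_right (a := al f c p) ?_ al0
    linarith [mul_le_mul_of_nonneg_left k1 al0.le, bal.1]
  obtain ⟨hL, ha⟩ := h.s4 (by linarith [sq_nonneg f.t1]) hzd
  have X := h.w0.2.1 p.1
  have L0 : 0 ≤ LX f c p.1 := by
    have := div_nonneg fp0 (Real.exp_pos (lX f c p.1)).le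
    rwa [ef, fX, mul_div_cancel_left₀ _ (Real.exp_pos _).ne'] at this
  rw [← X.2.2.1] at ha
  have f1 : fp f c p ^ 2 ≤ η * Rs f c p := ef ▸ S.fp C0 L0 hL ha h.e11
  have f2 : fp f c p ^ 2 ≤ Rs f c p := by
    have := S.fp (η := 1) C0 L0 hL ha (by rw [one_mul]; exact h.e12)
    rwa [one_mul, ← ef] at this
  have af := fun i => small dm sm f2 (ax i)
  have f3 : fp f c p ≤ my f c p := by
    have := (abs_le.1 (small dm sm f2 (x := 1) (by norm_num))).2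
    nlinarith [h.d2]
  have nψ : n2 (dx (Psi f c) p) ≤ 40 * Rs f c p := by
    have := n2_three (dx (phi f c) p) (mv p) (fun i => p.1 i) k (fp f c p)
    rw [show (fun i => dx (phi f c) p i - k * mv p i - fp f c p * p.1 i) = dx (Psi f c) p from
      funext fun i => by rw [fx]; ring] at this
    linarith [mul_le_mul k2 h.m2 (n2_nonneg _) R0.le, mul_le_mul f2 h.x2 (n2_nonneg _) R0.le]
  obtain ⟨l1, l2, -, l4⟩ := lower (ψ := dyy (Psi f c) p) (φ := dyy (phi f c) p) (fp := 0)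
    (ρ₁ := fun i => e' i - ρ i + fp f c p * p.1 i)
    (ρ₂ := fun i => e' i - ρ i + fp f c p * p.1 i + k * mv p i) h.nr2 h.om1 h.m1 h.m2 h.x2
    h.mx my0 le_rfl h.d1 h.d2 (fun i => by
      have k1 := abs_le.1 (aρ i)
      have k2 := abs_le.1 (he i).2
      have k4 := abs_le.1 (af i)
      rw [abs_le]
      constructor <;> linarith [k1.1, k1.2, k2.1, k2.2, k4.1, k4.2]) (fun i => by
      have k1 := abs_le.1 (aρ i)
      have k2 := abs_le.1 (he i).2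
      have k3 := abs_le.1 (ak i)
      have k4 := abs_le.1 (af i)
      rw [abs_le]
      constructor <;> linarith [k1.1, k1.2, k2.1, k2.2, k3.1, k3.2, k4.1, k4.2])
    (fun i => by rw [py, eρ]; ring) (fun i => by rw [fy, py, eρ]; ring) (hb _).2.2.1 (hb _).2.2.2
  rw [← ey'] at l1 l2 l4
  rw [add_zero] at l1 l2
  have ss : SS f c p ≤ (1 + C) * vv f c p := by unfold SS; linarith
  have S0 : 0 ≤ SS f c p := add_nonneg v0.le L0
  refine ⟨hQ, hQ1, fun hy => ?_, not_le.2 (S.nr hQ h.e7), up_le ss (by linarith) v0.le, f1,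
    fun i j => ?_, ?_, S.al_le hQ h.η0 h.e4, S.v8 h.e5 hp.2, ?_, up_le nψ (by linarith) R0.le,
    S.rs hQ h.e3, up_le l1 (by linarith) (h.w0.2.2.1 p).2.2.2.2.2.2.1,
    up_le l2 (by linarith) (sq_nonneg _), up_le l4 (by linarith) (sq_nonneg _)⟩
  · have k1 : (δ * my f c p) ^ 2 ≤ (1 / 1000 * my f c p) ^ 2 :=
      pow_le_pow_left₀ dm (mul_le_mul_of_nonneg_right h.d2 my0.le) 2
    linarith [hy.2, pow_pos my0 2]
  · rw [phi_DD h.w0 (by linarith [sq_nonneg f.t0])]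
    have k1 := abs_le.1 (h.hess hQ (s := -1) (by norm_num) hmy al0 (za := zt c p i)
      (zb := zt c p j) (by simpa using (h.q4 i).1) (by simpa using (h.q4 j).1)
      ((sq_le_n2 _ i).trans hz) ((sq_le_n2 _ j).trans hz)
      ((sq_le_n2 _ i).trans nψ) ((sq_le_n2 _ j).trans nψ) (h.u2 (.inl i) (.inl j)) (h.q5 i j).1
      (h.l3 (.inl i) (.inl j)))
    have k2 : |D (ex i).1 (D (ex j).1 (fX f c)) p.1| ≤ η / 2 * al f c p :=
      (h.x1 i j).trans (S.fxx C0 L0 hL ha h.η0 h.e15)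
    rw [abs_le] at k2 ⊢
    constructor <;> linarith [k1.1, k1.2, k2.1, k2.2]
  · refine up_le (a := 22 * f.t1) ?_ (by linarith) al0.le
    change my f c p + fp f c p ≤ _
    linarith
  · have k1 : AA f c p ≤ _ * my f c p * vv f c p := S.aa hQ
    have k2 := mul_le_mul f3 ss S0 my0.le
    rw [mul_assoc]
    refine up_le (a := 225 / (2 * f.t0 ^ 2) + (1 + C)) ?_ (by linarith) (by positivity)
    unfold HX
    linarith

end pt

lemma ev_lt (a : ℝ) {b : ℝ} (hb : 0 < b) : ∀ᶠ ε in 𝓝[>] (0 : ℝ), a * ε < b := by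
  have : Tendsto (fun ε : ℝ => a * ε) (𝓝 0) (𝓝 (a * 0)) := tendsto_id.const_mul a
  rw [mul_zero] at this
  exact (this.eventually (gt_mem_nhds hb)).filter_mono nhdsWithin_le_nhds

lemma geom {n : ℕ} {ι : Type} {c : Cx n ι} {p : X2 n} (ha : ‖c.p0‖ = 1) (hp : p ∈ Om2 c) :
    ‖p.1‖ ≤ 2 ∧ 1 / 4 ≤ n2 (mv p) ∧ n2 (mv p) ≤ 9 / 4 ∧ n2 (fun i => p.1 i) ≤ 9 / 4 := by
  have e : mid p - c.p0 = (1 / 2 : ℝ) • ((p.1 - c.p0) + (p.2 - c.p0)) := by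
    simp only [mid]; module
  have h : ‖mid p - c.p0‖ ≤ 1 / 2 := by
    rw [e, norm_smul, Real.norm_eq_abs, abs_of_pos (by norm_num)]
    linarith [norm_add_le (p.1 - c.p0) (p.2 - c.p0), hp.1, hp.2]
  have h1 := abs_le.1 ((abs_norm_sub_norm_le _ _).trans h)
  have h2 := abs_le.1 ((abs_norm_sub_norm_le _ _).trans hp.1)
  rw [show n2 (mv p) = _ from n2_eq (mid p), n2_eq]
  rw [ha] at h1 h2
  exact ⟨by linarith [h2.2], by nlinarith [h1.1], by nlinarith [h1.2, norm_nonneg (mid p)],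
    by nlinarith [h2.2, norm_nonneg p.1]⟩

lemma ex_eps {t0 η δ : ℝ} (t0' : 0 < t0) (hη : 0 < η) (d0 : 0 < δ) (C Cw N : ℝ) :
    ∃ ε : ℝ, 0 < ε ∧ ε ≤ 1 ∧ C * (4 * t0 ^ 2 + 1) * ε < t0 ^ 2 ∧ ε ≤ 4 * (δ ^ 2 / 100) * t0 ^ 2 ∧
      ε ≤ 4 * η * t0 ^ 2 ∧ 15 * ε ≤ 2 * η * t0 ^ 2 ∧ (4 * t0 ^ 2 + 15) * ε ≤ 4 * η ∧
      (Cw * C) ^ 2 * ε ≤ t0 ^ 2 ∧ 4 * ε ≤ (t0 ^ 2) ^ 2 ∧ 168 * ε ≤ t0 ∧ 8 * ε ≤ δ ∧
      113 * N * ε ≤ t0 ∧ C ^ 3 * ε ≤ η * t0 ^ 2 ∧ C ^ 3 * ε ≤ t0 ^ 2 ∧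
      (20 * C + Cw * C) * ε ≤ η / 4 ∧ 24 * ε ≤ η / 4 ∧ C ^ 7 * ε ≤ (η / 2) ^ 2 := by
  refine Eventually.exists (f := 𝓝[>] (0 : ℝ)) ?_
  filter_upwards [self_mem_nhdsWithin, ev_lt 1 one_pos,
    ev_lt (C * (4 * t0 ^ 2 + 1)) (pow_pos t0' 2),
    ev_lt 1 (by positivity : 0 < 4 * (δ ^ 2 / 100) * t0 ^ 2),
    ev_lt 1 (by positivity : 0 < 4 * η * t0 ^ 2), ev_lt 15 (by positivity : 0 < 2 * η * t0 ^ 2),
    ev_lt (4 * t0 ^ 2 + 15) (by positivity : 0 < 4 * η), ev_lt ((Cw * C) ^ 2) (pow_pos t0' 2),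
    ev_lt 4 (by positivity : 0 < (t0 ^ 2) ^ 2), ev_lt 168 t0', ev_lt 8 d0, ev_lt (113 * N) t0',
    ev_lt (C ^ 3) (by positivity : 0 < η * t0 ^ 2), ev_lt (C ^ 3) (pow_pos t0' 2),
    ev_lt (20 * C + Cw * C) (by positivity : 0 < η / 4), ev_lt 24 (by positivity : 0 < η / 4),
    ev_lt (C ^ 7) (by positivity : 0 < (η / 2) ^ 2)]
    with ε e0 e16 e1 e2 e3 e4 e5 e6 e7 e8 e9 e10 e11 e12 e13 e14 e15
  rw [one_mul] at e2 e3 e16
  exact ⟨e0, e16.le, e1, e2.le, e3.le, e4.le, e5.le, e6.le, e7.le, e8.le, e9.le, e10.le, e11.le,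
    e12.le, e13.le, e14.le, e15.le⟩

lemma ex_del (N : ℝ) (hN : 0 ≤ N) :
    ∃ δ om : ℝ, 0 < δ ∧ 0 < om ∧ N * δ ≤ 1 / 1000 ∧ δ ≤ 1 / 1000 ∧ N * (N * om) ≤ 1 / 1000 := by
  obtain ⟨δ, hδ⟩ : ∃ δ : ℝ, δ = 1 / (1000 * (N + 1)) := ⟨_, rfl⟩
  have d0 : 0 < δ := by rw [hδ]; positivity
  have d1 : (N + 1) * δ = 1 / 1000 := by rw [hδ]; field_simp
  have k : N * δ ≤ 1 / 1000 := by linarith
  exact ⟨δ, 1000 * δ ^ 2, d0, by positivity, k, by linarith [mul_nonneg hN d0.le],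
    by linarith [mul_le_mul k k (by positivity) (by norm_num)]⟩

lemma s15 {v σ Q ε : ℝ} (e0 : 0 < ε) (e1 : ε ≤ 1) (h : 1 ≤ ε * v) (hQ : Q ≤ 2)
    (hs : σ ≤ 3 + 8 * v * √Q) : 0 ≤ v ∧ σ ≤ 15 * v := by
  have v1 : 1 ≤ v := by nlinarith
  have sq : √Q ≤ 3 / 2 := Real.sqrt_le_iff.2 ⟨by norm_num, by linarith⟩
  exact ⟨by linarith, by linarith [mul_le_mul_of_nonneg_left sq (zero_le_one.trans v1)]⟩

end Ww5

open Ww5 in
theorem s_w5 (h0 : S_w0) (hq : S_wq) (hh : S_hess) (hc : S_conv) (h1 : S_w1) (hx : S_w1x)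
    (h2 : S_w2) (_h3 : S_w3) (h4 : S_w4) : S_w5 := by
  intro n
  refine ⟨22, by norm_num, fun ι f hf => ?_⟩
  obtain ⟨Cq, -, hq⟩ := hq n
  obtain ⟨C₁, c1, hc⟩ := hc n ι f hf
  obtain ⟨C₂, c2, h1⟩ := h1 n ι f hf
  obtain ⟨C₃, c3, hx⟩ := hx n ι f hf
  obtain ⟨C₄, c4, h2⟩ := h2 n ι f hf
  obtain ⟨C₅, c5, h4⟩ := h4 n ι f hf
  obtain ⟨C, C1, k1, k2, k3, k4, k5⟩ :
      ∃ C, 1 ≤ C ∧ C₁ ≤ C ∧ C₂ ≤ C ∧ C₃ ≤ C ∧ C₄ ≤ C ∧ C₅ ≤ C :=
    ⟨C₁ + C₂ + C₃ + C₄ + C₅, by linarith, by linarith, by linarith, by linarith, by linarith,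
      by linarith⟩
  have t0 : 0 < f.t0 := hf.2.2.2.2.2.2.2.2.1
  have n0 : (0 : ℝ) ≤ n := Nat.cast_nonneg n
  refine ⟨225 / (2 * f.t0 ^ 2) + C + 288 + 800 * n, by
    have : 0 ≤ 225 / (2 * f.t0 ^ 2) := by positivity
    linarith, fun η hη => ?_⟩
  obtain ⟨δ, om, d0, o0, d1, d2, o1⟩ := ex_del n n0
  obtain ⟨ε, e0, e16, e1, e2, e3, e4, e5, e6, e7, e8, e9, e10, e11, e12, e13, e14, e15⟩ :=
    ex_eps t0 hη d0 C f.Cw n
  refine (((((((h0 n ι f hf).and (hq ι f hf ε e0)).and (hc ε e0)).and h1).and hx).and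
    (h2 ε e0)).and (h4 1 one_pos)).and (Ev.ok f o0 0) |>.mono ?_
  rintro c ⟨⟨⟨⟨⟨⟨⟨w0, wq⟩, wc⟩, w1⟩, wx⟩, w2⟩, w4⟩, ok⟩ p hp
  obtain ⟨g1', g2', g3', g4'⟩ := geom ok.2.2.2.2.1 hp
  obtain ⟨q1, q2, -, q3, -, q4, q5, -, -, -, q6, q7⟩ := wq p hp
  obtain ⟨-, -, -, -, -, -, a1, -, -, -, -, a2, a3, a4, -⟩ := w1 p hp
  obtain ⟨b1, -, b2, -, b3, -, -, -, b4, -, b5, -⟩ := w2 p hp
  obtain ⟨Q0', -, F0, -, s2, rx0, ry0, -⟩ := w0.2.2.1 p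
  obtain ⟨v0, s1⟩ := s15 e0 e16 b2 q6 b3
  have Q0 : 0 ≤ QQ c p := le_trans (by positivity) Q0'
  have H : Hy f c C ε η δ om p :=
    { ok := hf
      w0 := w0
      C1 := C1
      sc := ⟨F0, e0, e16, b2, b1, s2, s1, t0, q6⟩
      u1 := q1
      u2 := fun i j => by rw [q2]; split_ifs <;> norm_num
      q3 := fun i => (q3 i).2.2.2
      q4 := q4
      q5 := fun i j => ⟨(q5 i j).1, (q5 i j).2.2⟩
      mx := q7
      m1 := g2'
      m2 := g3'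
      x2 := g4'
      l1 := a2
      l2 := ⟨a3, up_le a4 k2 v0⟩
      l3 := fun i j => up_le (a1 [i, j] (by simp) (by simp)) k2 (sq_nonneg _)
      x1 := fun i j => up_le ((wx p.1 g1').2.1 [i, j] (by simp))
        (mul_le_mul_of_nonneg_right k3 (Real.exp_pos _).le) (sq_nonneg _)
      s3 := b4
      s4 := fun j1 j2 => ⟨up_le (b5 (.inr ⟨j1, j2⟩)).1 k4 v0, up_le (b5 (.inr ⟨j1, j2⟩)).2 k4 F0.le⟩
      w4 := fun k => ⟨up_le ((w4 p hp).1 k).1 k5 (add_nonneg rx0 (sq_nonneg _)),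
        up_le ((w4 p hp).1 k).2 k5 (add_nonneg ry0 (sq_nonneg _))⟩
      h1 := fun v => (hh n ι f c hf w0 p v v).1
      h2 := fun v w => (hh n ι f c hf w0 p v w).2.1
      cv := fun U Q k => ((wc p hp U Q).2 k).trans (add_le_add le_rfl
        (div_le_div_of_nonneg_right (mul_le_mul_of_nonneg_right k1 (sq_nonneg _))
          (mul_nonneg Q0 F0.le)))
      nr := fun i j => by simpa [Ds, g1] using ok.2.2.2.2.2.2.2.1 i j p.1 [] (by simp)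
      nr2 := fun i j => by simpa [Ds, g2] using ok.2.2.2.2.2.2.2.2.2.2.1 i j p.2 [] (by simp)
      om1 := o1
      d0 := d0
      d1 := d1
      d2 := d2
      η0 := hη
      e1 := e1
      e2 := e2
      e3 := e3
      e4 := e4
      e5 := e5
      e6 := e6
      e7 := e7
      e8 := e8
      e9 := e9
      e10 := e10
      e11 := e11
      e12 := e12
      e13 := e13
      e14 := e14
      e15 := e15 }
  exact ⟨H.w5x le_rfl, H.w5y le_rfl⟩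

end Vale.Agent.P088
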