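import Vale.Agent.P088.StN
import Vale.Agent.P088.IdTool
import Vale.Agent.P088.Ww5

/-!
# P088: from the moments to the weighted norm
-/

open MeasureTheory Set Metric Filter
open scoped ContDiff Topology

noncomputable section
namespace Vale.Agent.P088
open Vale.Agent.P136 Ww5

namespace NZN

section cov
variable {n : ℕ}

/-- The affine parametrization of the slice. -/
def Af (S : Matrix (Fin n) (Fin n) ℝ) (x w : En n) : X2 n := (x, x + Matrix.toLpLin 2 2 S w)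

lemma cov {S T : Matrix (Fin n) (Fin n) ℝ} (h : T * S = 1) (x : En n) {G : X2 n → ℝ}
    (hG : Continuous G) : ∫ w, G (Af S x w) = |T.det| * ∫ y, G (x, y) := by
  have h1 : T.det * S.det = 1 := by rw [← Matrix.det_mul, h, Matrix.det_one]
  have h2 : LinearMap.det (Matrix.toLpLin 2 2 S) ≠ 0 := by
    rw [LinearMap.det_toLpLin]; exact right_ne_zero_of_mul_eq_one h1
  have h3 := Measure.map_linearMap_addHaar_eq_smul_addHaar (volume : Measure (En n)) h2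
  have h4 : Continuous fun y => G (x, x + y) := by fun_prop
  have h5 := integral_map (μ := (volume : Measure (En n))) (φ := Matrix.toLpLin 2 2 S)
    (LinearMap.continuous_of_finiteDimensional _).aemeasurable h4.aestronglyMeasurable
  rw [h3, integral_smul_measure, ENNReal.toReal_ofReal (abs_nonneg _), LinearMap.det_toLpLin,
    ← eq_inv_of_mul_eq_one_left h1, integral_add_left_eq_self (fun y => G (x, y)) x] at h5
  exact h5.symm

lemma hasF (S : Matrix (Fin n) (Fin n) ℝ) (x w : En n) : HasFDerivAt (Af S x)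
    ((0 : En n →L[ℝ] En n).prod (LinearMap.toContinuousLinearMap (Matrix.toLpLin 2 2 S))) w :=
  (hasFDerivAt_const x w).prodMk
    ((LinearMap.toContinuousLinearMap (Matrix.toLpLin 2 2 S)).hasFDerivAt.const_add x)

lemma smA (S : Matrix (Fin n) (Fin n) ℝ) (x : En n) : ContDiff ℝ ∞ (Af S x) :=
  contDiff_const.prodMk
    (contDiff_const.add (LinearMap.toContinuousLinearMap (Matrix.toLpLin 2 2 S)).contDiff)

lemma D_Af (S : Matrix (Fin n) (Fin n) ℝ) (x : En n) {G : X2 n → ℝ} (hG : Sm G) (a : Fin n)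
    (w : En n) : D (ee a) (fun w => G (Af S x w)) w = ∑ i, S i a * D (ey i) G (Af S x w) := by
  have h : HasFDerivAt (fun w => G (Af S x w)) _ w :=
    (hG.dAt _).hasFDerivAt.comp w (hasF S x w)
  have e : ((0 : En n), Matrix.toLpLin 2 2 S (ee a)) = ∑ i, S i a • ey i := by
    ext j
    · simp [ey, Prod.fst_sum]
    · simp [ey, ee, Prod.snd_sum, Pi.single_apply]
  simp only [D]
  rw [h.fderiv]
  change fderiv ℝ G (Af S x w) ((0 : En n), Matrix.toLpLin 2 2 S (ee a)) = _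
  rw [e, map_sum]
  simp

lemma Dp_Af (S : Matrix (Fin n) (Fin n) ℝ) (x : En n) {G ψ : X2 n → ℝ} (hG : Sm G) (hψ : Sm ψ)
    (a : Fin n) : Dp (fun w => ψ (Af S x w)) (ee a) (fun w => G (Af S x w)) =
      fun w => (fun p => ∑ i, S i a * Dp ψ (ey i) G p) (Af S x w) := funext fun w => by
  simp only [Dp, D_Af S x hG, D_Af S x hψ, mul_add, Finset.sum_add_distrib, Finset.sum_mul,
    mul_assoc]

lemma ccG_Af (S : Matrix (Fin n) (Fin n) ℝ) (x : En n) {G ψ : X2 n → ℝ} (hG : Sm G) (hψ : Sm ψ)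
    (e : ∀ w, ψ (Af S x w) = ‖w‖ ^ 2 / 2) (w : En n) : ccG (fun w => G (Af S x w)) w =
      ∑ i, ∑ j, (∑ a, S i a * S j a) * Dp ψ (ey i) (Dp ψ (ey j) G) (Af S x w) := by
  unfold ccG
  rw [← show (fun w => ψ (Af S x w)) = _ from funext e]
  have : ∀ a, Dp (fun w => ψ (Af S x w)) (ee a) (Dp (fun w => ψ (Af S x w)) (ee a)
      fun w => G (Af S x w)) w =
      ∑ i, ∑ j, S i a * S j a * Dp ψ (ey i) (Dp ψ (ey j) G) (Af S x w) := fun a => by
    rw [Dp_Af S x hG hψ, Dp_Af S x (Sm.sum fun i _ => (hψ.Dp hG _).cmul _) hψ]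
    refine Finset.sum_congr rfl fun i _ => ?_
    rw [IdT.Dp_sum _ fun j _ => (hψ.Dp hG _).cmul _, Finset.mul_sum]
    refine Finset.sum_congr rfl fun j _ => ?_
    rw [Dp_mul (Sm.const _) (hψ.Dp hG _)]
    simp only [D_const]
    ring
  simp only [this, Finset.sum_mul]
  rw [Finset.sum_comm]
  exact Finset.sum_congr rfl fun i _ => Finset.sum_comm

lemma tail {t : ℕ → ℝ} {B : ℝ} (h0 : ∀ m, 0 ≤ t m) (hB : 0 ≤ B)
    (h : ∀ m : ℕ, t m ≤ B * ((m + 1) / 2 ^ m)) (K K' : ℕ) :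
    ∑ m ∈ Finset.range K', t m ≤ ∑ m ∈ Finset.range K, t m + B * ((2 * K + 4) / 2 ^ K) := by
  rcases le_total K' K with hK | hK
  · exact (Finset.sum_le_sum_of_subset_of_nonneg (Finset.range_mono hK) fun m _ _ => h0 m).trans
      (le_add_of_nonneg_right (by positivity))
  · have : ∑ m ∈ Finset.range K', t m + B * ((2 * K' + 4) / 2 ^ K') ≤
        ∑ m ∈ Finset.range K, t m + B * ((2 * K + 4) / 2 ^ K) := by
      induction K', hK using Nat.le_induction with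
      | base => exact le_rfl
      | succ m _ ih =>
        have e : (2 * ((m + 1 : ℕ) : ℝ) + 4) / 2 ^ (m + 1) + (m + 1) / 2 ^ m =
            (2 * m + 4) / 2 ^ m := by
          push_cast; field_simp; ring
        rw [Finset.sum_range_succ]
        linarith [h m, congrArg (B * ·) e]
    linarith [show 0 ≤ B * ((2 * (K' : ℝ) + 4) / 2 ^ K') by positivity]

lemma tail0 (A : ℝ) {η : ℝ} (hη : 0 < η) :
    ∃ K₀ : ℕ, ∀ K ≥ K₀, A * ((2 * (K : ℝ) + 4) / 2 ^ K) ≤ η := by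
  have h1 := tendsto_pow_const_div_const_pow_of_one_lt 1 (one_lt_two (α := ℝ))
  have h0 := tendsto_pow_const_div_const_pow_of_one_lt 0 (one_lt_two (α := ℝ))
  have h := ((h1.const_mul 2).add (h0.const_mul 4)).const_mul A
  simp only [mul_zero, add_zero] at h
  refine (eventually_atTop.1 (h.eventually (gt_mem_nhds hη))).imp fun K₀ h K hK => ?_
  exact le_of_eq_of_le (by ring) (h K hK).le

end cov

section slice
variable {n : ℕ} {ι : Type} (f : Fx) (c : Cx n ι)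

def ps (E : MatF n) (p : X2 n) : ℝ := ‖wv f c E p‖ ^ 2 / 2

def GH (E : MatF n) (u : X2 n → ℝ) (p : X2 n) : ℝ := Real.exp (-thw f c E p) * u p

def Mq (E : MatF n) (u : X2 n → ℝ) (p : X2 n) : ℝ :=
  ∑ i, ∑ j, c.γ₂ i j p.1 * Dp (ps f c E) (ey i) (Dp (ps f c E) (ey j) (GH f c E u)) p

variable {f c} {E : MatF n} {u : X2 n → ℝ}

lemma sm_ps (hw : ContDiff ℝ ∞ (wv f c E)) : Sm (ps f c E) := (hw.norm_sq ℝ).div_const 2

lemma tst_GH (ht : Sm (thw f c E)) (hu : Tst u) : Tst (GH f c E u) := hu.mul_left ht.neg.exp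

lemma tst_Mq (hγ : SmM c.γ₂) (hw : ContDiff ℝ ∞ (wv f c E)) (ht : Sm (thw f c E)) (hu : Tst u) :
    Tst (Mq f c E u) := Tst.sum _ fun i _ => Tst.sum _ fun j _ =>
  Tst.mul_left ((hγ i j).comp contDiff_fst)
    (Tst.Dp (sm_ps hw) (Tst.Dp (sm_ps hw) (tst_GH ht hu) _) _)

lemma frame (hE : FrOk c E 1) (hs : SymM c.γ₂) (x : En n) :
    ∃ S T : Matrix (Fin n) (Fin n) ℝ, T * S = 1 ∧ (∀ w, wv f c E (Af S x w) = w) ∧
      (∀ i j, ∑ a, S i a * S j a = c.γ₂ i j x / fX f c x ^ 2) ∧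
      |T.det| ≤ n.factorial * 2 ^ n * fX f c x ^ n := by
  have f0 : 0 < fX f c x := Real.exp_pos _
  set Em : Matrix (Fin n) (Fin n) ℝ := Matrix.of fun a i => E a i x with hEm
  set G : Matrix (Fin n) (Fin n) ℝ := Matrix.of fun i j => c.γ₂ i j x with hG
  have h1 : Em * (G * Em.transpose) = 1 := by
    ext a b
    rw [Matrix.one_apply, ← hE.2.2 x a b]
    simp only [Matrix.mul_apply, hEm, hG, Matrix.of_apply, Matrix.transpose_apply, Finset.mul_sum,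
      mul_assoc]
  have h2 : G * Em.transpose * Em = 1 := mul_eq_one_comm.1 h1
  have h3 : (fX f c x • Em) * ((fX f c x)⁻¹ • (G * Em.transpose)) = 1 := by
    rw [Matrix.smul_mul, Matrix.mul_smul, smul_smul, mul_inv_cancel₀ f0.ne', one_smul, h1]
  refine ⟨(fX f c x)⁻¹ • (G * Em.transpose), fX f c x • Em, h3, fun w => ?_, fun i j => ?_, ?_⟩
  · ext a
    have := congrFun (Matrix.mulVec_mulVec w.ofLp (fX f c x • Em)
      ((fX f c x)⁻¹ • (G * Em.transpose))) a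
    rw [h3, Matrix.one_mulVec] at this
    rw [← this]
    simp only [wv, Af, zz, add_sub_cancel_left, Matrix.toLpLin_apply]
    simp [Matrix.mulVec, dotProduct, hEm, Finset.mul_sum, mul_assoc]
  · have e : G * Em.transpose * (G * Em.transpose).transpose = G.transpose := by
      rw [Matrix.transpose_mul, Matrix.transpose_transpose, ← Matrix.mul_assoc, h2, Matrix.one_mul]
    have e' := congrFun (congrFun e i) j
    rw [Matrix.mul_apply] at e'
    simp only [Matrix.transpose_apply] at e'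
    rw [hs i j, show c.γ₂ j i x = G j i from rfl, ← e', Finset.sum_div]
    refine Finset.sum_congr rfl fun a _ => ?_
    simp only [Matrix.smul_apply, smul_eq_mul]
    field_simp
  · have : |Em.det| ≤ n.factorial * 2 ^ n := by
      simpa using Matrix.det_le (A := Em) (abv := AbsoluteValue.abs) (x := 2) fun a i => by
        have := abs_le.1 (show |E a i x - if a = i then 1 else 0| ≤ 1 by
          simpa [Ds] using hE.2.1 a i x [] (by simp))
        change |E a i x| ≤ 2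
        rw [abs_le]
        split_ifs at this <;> constructor <;> linarith [this.1, this.2]
    rw [Matrix.det_smul, abs_mul, Fintype.card_fin, abs_of_pos (pow_pos f0 n), mul_comm]
    exact mul_le_mul_of_nonneg_right this (pow_pos f0 n).le

lemma slice (w0 : W0 f c) (hp : S_par) (hγ : SmM c.γ₂) (hs : SymM c.γ₂) (hE : FrOk c E 1)
    (hw : ContDiff ℝ ∞ (wv f c E)) (ht : Sm (thw f c E)) (hu : Tst u)
    (hb : ∀ p, u p ≠ 0 → |thw f c E p| ≤ 1 ∧ Psi f c p ≤ ‖wv f c E p‖ ^ 2)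
    {F : Fock n} (hF : F.Ok) {C : ℝ} (C0 : 0 ≤ C) (hn : ∀ (u : En n → ℝ) (A : ℝ), Tst u →
      (∀ K, ∑ k ∈ Finset.range K, ((k : ℝ) + 1) * ∑ j, (∫ w, u w * F.H k j w * gs w) ^ 2 ≤ A) →
      ∫ w, (1 + ‖w‖ ^ 2) * u w ^ 2 ≤ C * (A + ∫ w, ccG u w ^ 2)) (x : En n) {A : ℝ}
    (hA : ∀ K, ∑ m ∈ Finset.range K, ((m : ℝ) + 1) * ∑ j, fm f c F E u m j x ^ 2 ≤ A) :
    ∫ y, nl f c (x, y) * u (x, y) ^ 2 ≤ Real.exp 2 * C *
      (n.factorial * 2 ^ n * (aX f c x * LX f c x ^ 2 * A) +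
        ∫ y, LX f c x ^ 2 / aX f c x * Mq f c E u (x, y) ^ 2) := by
  obtain ⟨S, T, h1, h2, h3, h4⟩ := frame (f := f) hE hs x
  obtain ⟨a0, -, fa, -⟩ := w0.2.1 x
  have f0 : 0 < fX f c x := Real.exp_pos _
  have J0 : 0 < |T.det| := abs_pos.2 (left_ne_zero_of_mul_eq_one
    (b := S.det) (by rw [← Matrix.det_mul, h1, Matrix.det_one]))
  have tG := tst_GH ht hu
  have cw := hw.continuous
  have cG := tG.sm.cont
  have tu : Tst fun w => GH f c E u (Af S x w) := ⟨tG.1.comp (smA S x),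
    HasCompactSupport.intro (tG.2.isCompact.image cw) fun w hw' =>
      image_eq_zero_of_notMem_tsupport fun h => hw' ⟨_, h, h2 w⟩⟩
  have e1 : ∀ m j, (∫ w, GH f c E u (Af S x w) * F.H m j w * gs w) ^ 2 ≤
      |T.det| * (n.factorial * 2 ^ n) * fm f c F E u m j x ^ 2 := fun m j => by
    have cH := (hF.1 m j).cont
    have := cov h1 x (G := fun p => GH f c E u p * F.H m j (wv f c E p) * gs (wv f c E p))
      (by unfold gs; fun_prop)
    simp only [h2] at this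
    have e : ∀ y, GH f c E u (x, y) * F.H m j (wv f c E (x, y)) * gs (wv f c E (x, y)) =
        Real.exp (f.Cw * lX f c x) *
          (Real.exp (-phi f c (x, y)) * u (x, y) * F.H m j (wv f c E (x, y))) := fun y => by
      have : Real.exp (-thw f c E (x, y)) * gs (wv f c E (x, y)) =
          Real.exp (f.Cw * lX f c x) * Real.exp (-phi f c (x, y)) := by
        rw [gs, ← Real.exp_add, ← Real.exp_add, thw]; congr 1; ring
      rw [GH]
      linear_combination (u (x, y) * F.H m j (wv f c E (x, y))) * this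
    have e' : Real.exp ((f.Cw + n / 2) * lX f c x) ^ 2 =
        Real.exp (f.Cw * lX f c x) ^ 2 * fX f c x ^ n := by
      rw [fX, ← Real.exp_nat_mul, ← Real.exp_nat_mul, ← Real.exp_nat_mul, ← Real.exp_add]
      congr 1; push_cast; ring
    rw [this]
    simp only [e]
    rw [integral_const_mul, fm, momt, mul_pow, mul_pow, mul_pow, e']
    generalize (∫ y, Real.exp (-phi f c (x, y)) * u (x, y) * F.H m j (wv f c E (x, y))) = I
    linarith [mul_le_mul_of_nonneg_left h4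
      (by positivity : 0 ≤ |T.det| * (Real.exp (f.Cw * lX f c x) ^ 2 * I ^ 2))]
  have k := hn _ (|T.det| * (n.factorial * 2 ^ n) * A) tu fun K => by
    refine le_trans (Finset.sum_le_sum fun m _ => ?_)
      ((Finset.mul_sum _ _ _).ge.trans (mul_le_mul_of_nonneg_left (hA K) (by positivity)))
    rw [mul_left_comm, Finset.mul_sum _ _ (|T.det| * _)]
    exact mul_le_mul_of_nonneg_left (Finset.sum_le_sum fun j _ => e1 m j) (by positivity)
  have c2 : Continuous fun p => (1 + ‖wv f c E p‖ ^ 2) * GH f c E u p ^ 2 := by fun_prop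
  have e2 := cov h1 x c2
  simp only [h2] at e2
  have cM := (tst_Mq hγ hw ht hu).sm.cont
  have e3 := cov h1 x (G := fun p => (Mq f c E u p / aX f c x) ^ 2) (by fun_prop)
  have e4 : ∀ w, ccG (fun w => GH f c E u (Af S x w)) w = Mq f c E u (Af S x w) / aX f c x :=
    fun w => by
      rw [ccG_Af S x tG.sm (sm_ps hw) fun w => by rw [ps, h2], Mq, Finset.sum_div]
      refine Finset.sum_congr rfl fun i _ => ?_
      rw [Finset.sum_div]
      exact Finset.sum_congr rfl fun j _ => by rw [h3, fa, div_mul_eq_mul_div]; rfl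
  simp only [e4] at k
  rw [e2, e3] at k
  have k2 : ∫ y, (1 + ‖wv f c E (x, y)‖ ^ 2) * GH f c E u (x, y) ^ 2 ≤
      C * (n.factorial * 2 ^ n * A + ∫ y, (Mq f c E u (x, y) / aX f c x) ^ 2) :=
    le_of_mul_le_mul_left (k.trans_eq (by ring)) J0
  have k3 : ∫ y, nl f c (x, y) * u (x, y) ^ 2 ≤ ∫ y, Real.exp 2 * (aX f c x * LX f c x ^ 2) *
      ((1 + ‖wv f c E (x, y)‖ ^ 2) * GH f c E u (x, y) ^ 2) := by
    refine integral_mono_of_nonneg (Eventually.of_forall fun y => ?_)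
      (((hp n _).1 c2 tG.sq.2.mul_left).2.2.2.1 x |>.const_mul _) (Eventually.of_forall fun y => ?_)
    · obtain ⟨Q0, -, F0, -⟩ := w0.2.2.1 (x, y)
      have : 0 ≤ Psi f c (x, y) := mul_nonneg (le_trans (by positivity) Q0) F0.le
      simp only [nl, Pi.zero_apply]
      positivity
    · by_cases h0 : u (x, y) = 0
      · simp [h0, GH]
      · obtain ⟨b1, b2⟩ := hb _ h0
        have b3 : 1 ≤ Real.exp 2 * Real.exp (-thw f c E (x, y)) ^ 2 := by
          rw [← Real.exp_nat_mul, ← Real.exp_add]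
          exact Real.one_le_exp (by push_cast; linarith [(abs_le.1 b1).2])
        have b4 := mul_le_mul b3 (add_le_add_right b2 1) (by
          obtain ⟨Q0, -, F0, -⟩ := w0.2.2.1 (x, y)
          exact add_nonneg zero_le_one (mul_nonneg (le_trans (by positivity) Q0) F0.le))
          (by positivity)
        simp only [nl, GH]
        linarith [mul_le_mul_of_nonneg_left b4
          (by positivity : 0 ≤ aX f c x * LX f c x ^ 2 * u (x, y) ^ 2)]
  have e5 : ∫ y, LX f c x ^ 2 / aX f c x * Mq f c E u (x, y) ^ 2 =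
      aX f c x * LX f c x ^ 2 * ∫ y, (Mq f c E u (x, y) / aX f c x) ^ 2 := by
    rw [← integral_const_mul]
    congr 1
    funext y
    field_simp
  rw [integral_const_mul] at k3
  rw [e5]
  linarith [mul_le_mul_of_nonneg_left k2
    (by positivity : 0 ≤ Real.exp 2 * (aX f c x * LX f c x ^ 2))]

end slice

section alg
variable {n : ℕ} {ι : Type} [Fintype ι]

lemma sum2 {α β : Type} [Fintype α] [Fintype β] {F : α → β → ℝ} {B : ℝ} (h : ∀ i j, |F i j| ≤ B) :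
    |∑ i, ∑ j, F i j| ≤ Fintype.card α * (Fintype.card β * B) :=
  (Finset.abs_sum_le_sum_abs _ _).trans ((Finset.sum_le_sum fun i _ =>
    (Finset.abs_sum_le_sum_abs _ _).trans (Finset.sum_le_sum fun j _ => h i j)).trans_eq (by simp))

lemma alg {γ γ' dγ PP xx tt : Fin n → Fin n → ℝ} {b R : Fin n → ι → ℝ} {P x t : Fin n → ℝ}
    {χ g ρ s μ Mb X Y : ℝ} (hχ : |χ| ≤ 1) (hγ : ∀ i j, |γ i j| ≤ 2)
    (hμ : ∀ i j, |γ i j - γ' i j| ≤ μ) (hd : ∀ i j, |dγ i j| ≤ 1) (hb : ∀ a s', |b a s'| ≤ Mb)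
    (hP : ∀ i, |P i| ≤ X) (hR : ∀ a s', |R a s'| ≤ X) (hY : ∀ i j, |PP i j| ≤ Y)
    (hx : ∀ i, |x i| ≤ ρ * s) (ht : ∀ i, |t i| ≤ ρ * s) (hxx : ∀ i j, |xx i j| ≤ ρ * s ^ 2)
    (htt : ∀ i j, |tt i j| ≤ ρ * s ^ 2) (r0 : 0 ≤ ρ) (r1 : ρ ≤ 1) (X0 : 0 ≤ X)
    (hc : n * (Fintype.card ι * Mb) + n * n ≤ ρ * s)
    (he : (∑ i, ∑ j, (γ' i j * PP i j + dγ i j * P j)) + ∑ a, ∑ s', b a s' * R a s' = 0) :
    |∑ i, ∑ j, γ i j * (χ * PP i j + x i * P j + ((x j - 2 * (t j * χ)) * P i +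
      (xx i j - 2 * (t j * x i + tt i j * χ)) * g) -
        2 * (t i * (χ * P j + (x j - 2 * (t j * χ)) * g)))| ≤
      (1 + 12 * n ^ 2) * (ρ * s) * X + n ^ 2 * μ * Y + 22 * n ^ 2 * (ρ * s ^ 2) * |g| := by
  have hβ : ∀ i, |x i - 2 * (t i * χ)| ≤ 3 * (ρ * s) := fun i => by
    have k1 := abs_le.1 (hx i)
    have k2 := abs_le.1 (abs_mul_le (ht i) hχ)
    rw [abs_le]
    constructor <;> linarith [k1.1, k1.2, k2.1, k2.2]
  have rr := mul_le_mul_of_nonneg_right r1 (by positivity : 0 ≤ ρ * s ^ 2)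
  have hκ : ∀ i j, |xx i j - 2 * (t j * x i + tt i j * χ) - 2 * (t i * (x j - 2 * (t j * χ)))| ≤
      11 * (ρ * s ^ 2) := fun i j => by
    have k1 := abs_le.1 (hxx i j)
    have k2 := abs_le.1 (abs_mul_le (htt i j) hχ)
    have k3 := abs_le.1 (abs_mul_le (ht j) (hx i))
    have k4 := abs_le.1 (abs_mul_le (ht i) (hβ j))
    rw [abs_le]
    constructor <;> linarith [k1.1, k1.2, k2.1, k2.2, k3.1, k3.2, k4.1, k4.2]
  have e : ∑ i, ∑ j, γ i j * (χ * PP i j + x i * P j + ((x j - 2 * (t j * χ)) * P i +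
      (xx i j - 2 * (t j * x i + tt i j * χ)) * g) -
        2 * (t i * (χ * P j + (x j - 2 * (t j * χ)) * g))) =
      χ * (∑ i, ∑ j, (γ' i j * PP i j + dγ i j * P j)) + ∑ i, ∑ j,
        (χ * ((γ i j - γ' i j) * PP i j) - χ * (dγ i j * P j) +
          γ i j * ((x i - 2 * (t i * χ)) * P j) + γ i j * ((x j - 2 * (t j * χ)) * P i) +
          γ i j * ((xx i j - 2 * (t j * x i + tt i j * χ) -
            2 * (t i * (x j - 2 * (t j * χ)))) * g)) := by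
    simp only [Finset.mul_sum, ← Finset.sum_add_distrib]
    exact Finset.sum_congr rfl fun i _ => Finset.sum_congr rfl fun j _ => by ring
  have k1 := abs_le.1 (abs_mul_le hχ (sum2 fun a s' => abs_mul_le (hb a s') (hR a s')))
  have k2 := abs_le.1 (sum2 (B := μ * Y + X + 12 * (ρ * s) * X + 22 * (ρ * s ^ 2) * |g|)
    (F := fun i j => χ * ((γ i j - γ' i j) * PP i j) - χ * (dγ i j * P j) +
      γ i j * ((x i - 2 * (t i * χ)) * P j) + γ i j * ((x j - 2 * (t j * χ)) * P i) +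
      γ i j * ((xx i j - 2 * (t j * x i + tt i j * χ) -
        2 * (t i * (x j - 2 * (t j * χ)))) * g)) fun i j => by
    have a1 := abs_le.1 (abs_mul_le hχ (abs_mul_le (hμ i j) (hY i j)))
    have a2 := abs_le.1 (abs_mul_le hχ (abs_mul_le (hd i j) (hP j)))
    have a3 := abs_le.1 (abs_mul_le (hγ i j) (abs_mul_le (hβ i) (hP j)))
    have a4 := abs_le.1 (abs_mul_le (hγ i j) (abs_mul_le (hβ j) (hP i)))
    have a5 := abs_le.1 (abs_mul_le (hγ i j) (abs_mul_le (hκ i j) (le_refl |g|)))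
    rw [abs_le]
    constructor <;> linarith [a1.1, a1.2, a2.1, a2.2, a3.1, a3.2, a4.1, a4.2, a5.1, a5.2])
  have k3 := mul_le_mul_of_nonneg_right hc X0
  rw [Fintype.card_fin] at k1 k2
  rw [e, eq_neg_of_add_eq_zero_left he, abs_le]
  constructor <;> linarith [k1.1, k1.2, k2.1, k2.2]

lemma sqb {M N L s ρ μ X Y g e P : ℝ} (s0 : 0 < s) (he : e ^ 2 ≤ Real.exp 2) (hP : 0 ≤ P)
    (hμ : μ ^ 2 * s ≤ ρ ^ 2)
    (h : |M| ≤ (1 + 12 * N ^ 2) * (ρ * s) * X + N ^ 2 * μ * Y + 22 * N ^ 2 * (ρ * s ^ 2) * |g|) :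
    L ^ 2 / s ^ 2 * (e * M) ^ 2 ≤ 3 * Real.exp 2 * (1 + 22 * N ^ 2) ^ 2 * ρ ^ 2 *
      (L ^ 2 * X ^ 2 + L ^ 2 / (s ^ 2 * s) * Y ^ 2 + s ^ 2 * L ^ 2 * (1 + P) * g ^ 2) := by
  have h1 := sq_le_sq' (abs_le.1 h).1 (abs_le.1 h).2
  have h2 : M ^ 2 ≤ 3 * (((1 + 12 * N ^ 2) * (ρ * s) * X) ^ 2 + (N ^ 2 * μ * Y) ^ 2 +
      (22 * N ^ 2 * (ρ * s ^ 2) * |g|) ^ 2) := by
    generalize (1 + 12 * N ^ 2) * (ρ * s) * X = a at *
    generalize N ^ 2 * μ * Y = b at *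
    generalize 22 * N ^ 2 * (ρ * s ^ 2) * |g| = d at *
    nlinarith [sq_nonneg (a - b), sq_nonneg (a - d), sq_nonneg (b - d)]
  have c1 : (1 + 12 * N ^ 2) ^ 2 ≤ (1 + 22 * N ^ 2) ^ 2 :=
    pow_le_pow_left₀ (by positivity) (by linarith [sq_nonneg N]) 2
  have c2 : (N ^ 2) ^ 2 ≤ (1 + 22 * N ^ 2) ^ 2 :=
    pow_le_pow_left₀ (by positivity) (by linarith [sq_nonneg N]) 2
  have c3 : (22 * N ^ 2) ^ 2 ≤ (1 + 22 * N ^ 2) ^ 2 * (1 + P) :=
    (pow_le_pow_left₀ (by positivity) (by linarith) 2).trans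
      (le_mul_of_one_le_right (by positivity) (by linarith))
  have c4 : μ ^ 2 ≤ ρ ^ 2 / s := (le_div_iff₀ s0).2 hμ
  have h3 : M ^ 2 ≤ 3 * (1 + 22 * N ^ 2) ^ 2 * ρ ^ 2 *
      (s ^ 2 * X ^ 2 + 1 / s * Y ^ 2 + s ^ 2 * s ^ 2 * (1 + P) * g ^ 2) := by
    simp only [mul_pow, sq_abs] at h2
    rw [div_eq_mul_one_div] at c4
    linarith [mul_le_mul_of_nonneg_right c1 (by positivity : 0 ≤ ρ ^ 2 * s ^ 2 * X ^ 2),
      mul_le_mul_of_nonneg_right (mul_le_mul c2 c4 (by positivity) (by positivity)) (sq_nonneg Y),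
      mul_le_mul_of_nonneg_right c3 (by positivity : 0 ≤ ρ ^ 2 * (s ^ 2) ^ 2 * g ^ 2)]
  refine (mul_le_mul_of_nonneg_left ((mul_pow e M 2).trans_le
    (mul_le_mul he h3 (sq_nonneg _) (Real.exp_pos _).le)) (by positivity)).trans_eq ?_
  field_simp

end alg

section pt
variable {n : ℕ} {ι : Type} {f : Fx} {c : Cx n ι} {E : MatF n}

lemma conj (hφ : Sm (phi f c)) (hl : Sm (lX f c)) (ht : Sm (thw f c E)) {h : X2 n → ℝ} (hh : Sm h)
    (i : Fin n) : Dp (ps f c E) (ey i) (fun p => Real.exp (-thw f c E p) * h p) = fun p =>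
      Real.exp (-thw f c E p) * (Dp (phi f c) (ey i) h p - 2 * (D (ey i) (thw f c E) p * h p)) := by
  funext p
  have hl' : Sm fun p : X2 n => lX f c p.1 := hl.comp contDiff_fst
  have e : ps f c E = fun p => phi f c p - f.Cw * lX f c p.1 - thw f c E p :=
    funext fun p => by simp only [ps, thw]; ring
  simp only [Dp]
  rw [e, D_mul_at (ht.neg.exp.dAt p) (hh.dAt p), D_exp_at (ht.neg.dAt p), D_neg,
    D_sub_at ((hφ.sub (hl'.cmul _)).dAt p) (ht.dAt p), D_sub_at (hφ.dAt p) ((hl'.cmul _).dAt p),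
    D_const_mul_at (hl'.dAt p), D_fst hl, show (ey i).1 = 0 from rfl]
  simp only [D_zero]
  ring

lemma Mq_eq (hφ : Sm (phi f c)) (hl : Sm (lX f c)) (ht : Sm (thw f c E)) {χ g : X2 n → ℝ}
    (hχ : Sm χ) (hg : Sm g) (p : X2 n) : Mq f c E (fun p => χ p * g p) p =
    Real.exp (-thw f c E p) * ∑ i, ∑ j, c.γ₂ i j p.1 *
      (χ p * Dp (phi f c) (ey i) (Dp (phi f c) (ey j) g) p + D (ey i) χ p * py f c g p j +
        ((D (ey j) χ p - 2 * (D (ey j) (thw f c E) p * χ p)) * py f c g p i +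
          (D (ey i) (D (ey j) χ) p - 2 * (D (ey j) (thw f c E) p * D (ey i) χ p +
            D (ey i) (D (ey j) (thw f c E)) p * χ p)) * g p) -
        2 * (D (ey i) (thw f c E) p * (χ p * py f c g p j +
          (D (ey j) χ p - 2 * (D (ey j) (thw f c E) p * χ p)) * g p))) := by
  simp only [Mq, Finset.mul_sum]
  refine Finset.sum_congr rfl fun i _ => Finset.sum_congr rfl fun j _ => ?_
  have sβ : Sm fun p => D (ey j) χ p - 2 * (D (ey j) (thw f c E) p * χ p) :=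
    (hχ.D _).sub (((ht.D _).mul hχ).cmul 2)
  have e : Dp (ps f c E) (ey j) (GH f c E fun p => χ p * g p) = fun p =>
      Real.exp (-thw f c E p) * (χ p * Dp (phi f c) (ey j) g p +
        (D (ey j) χ p - 2 * (D (ey j) (thw f c E) p * χ p)) * g p) := by
    unfold GH
    rw [conj hφ hl ht (hχ.mul hg), Dp_mul hχ hg]
    funext p
    ring
  rw [e, conj hφ hl ht ((hχ.mul (hφ.Dp hg _)).add (sβ.mul hg)),
    Dp_add (hχ.mul (hφ.Dp hg _)) (sβ.mul hg), Dp_mul hχ (hφ.Dp hg _), Dp_mul sβ hg]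
  simp only [py]
  rw [D_sub_at ((hχ.D _).dAt p) ((((ht.D _).mul hχ).cmul 2).dAt p),
    D_const_mul_at (((ht.D _).mul hχ).dAt p), D_mul_at ((ht.D _).dAt p) (hχ.dAt p)]
  ring

lemma D_snd {g : En n → ℝ} (hg : Sm g) (w p : X2 n) :
    D w (fun p : X2 n => g p.2) p = D w.2 g p.2 := by
  have h : HasFDerivAt (fun p : X2 n => g p.2) _ p :=
    (hg.dAt p.2).hasFDerivAt.comp p hasFDerivAt_snd
  simp only [D]; rw [h.fderiv]; rfl

lemma Lp_eq (hφ : Sm (phi f c)) (hγ : SmM c.γ₂) {g : X2 n → ℝ} (hg : Sm g) (p : X2 n) :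
    Lp' ey (onY c.γ₂) (phi f c) g p =
      ∑ i, ∑ j, (c.γ₂ i j p.2 * Dp (phi f c) (ey i) (Dp (phi f c) (ey j) g) p +
        D (ee i) (c.γ₂ i j) p.2 * py f c g p j) := by
  refine Finset.sum_congr rfl fun i _ => ?_
  have sγ : ∀ j, Sm (onY c.γ₂ i j) := fun j => (hγ i j).comp contDiff_snd
  rw [IdT.Dp_sum _ fun j _ => (sγ j).mul (hφ.Dp hg _)]
  refine Finset.sum_congr rfl fun j _ => ?_
  rw [Dp_mul (sγ j) (hφ.Dp hg _)]
  exact congrArg (_ + · * _) (D_snd (hγ i j) (ey i) p)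

lemma scal {F v a s Q C k ε ρ B : ℝ} (F0 : 0 < F) (s0 : 0 < s) (hs : s ^ 2 = a) (e0 : 0 < ε)
    (e1 : ε ≤ 1 / 200) (hv : 1 ≤ ε * v) (hF : v ^ 20 ≤ ε * F) (ha : |2 * F - a| ≤ ε * a)
    (hQ : Q ^ 2 * F ≤ 1) (Q0 : 0 ≤ Q) (C0 : 0 ≤ C) (k1 : 1 ≤ k) (r0 : 0 ≤ ρ) (r1 : ρ ≤ 1)
    (h1 : C * ε ≤ ρ ^ 2) (h2 : (C * k) ^ 2 * ε ≤ ρ ^ 2) (h3 : B ^ 2 * ε ≤ ρ ^ 2) :
    (∀ x, x ^ 2 * (k * v) ≤ C * a → |x| ≤ ρ * s) ∧
    (∀ x, |x| * (k * v) ≤ C * a → |x| ≤ ρ * s ^ 2) ∧ C * k * v ^ 2 ≤ ρ * s ∧ B ≤ ρ * s ∧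
    (2 * (ε * √Q)) ^ 2 * s ≤ 8 * ε := by
  have a0 : 0 < a := hs ▸ pow_pos s0 2
  have v1 : 1 ≤ v := by nlinarith
  have ea : ε * a ≤ a / 200 := by linarith [mul_le_mul_of_nonneg_right e1 a0.le]
  have Fa : ε * F ≤ ε * a := mul_le_mul_of_nonneg_left (by linarith [(abs_le.1 ha).2]) e0.le
  have kv : 1 ≤ ε * (k * v) := hv.trans (mul_le_mul_of_nonneg_left
    (le_mul_of_one_le_left (by linarith) k1) e0.le)
  have key : ∀ y, 0 ≤ y → y * (k * v) ≤ C * a → y ≤ ρ ^ 2 * a := fun y y0 h => by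
    linarith [mul_le_mul_of_nonneg_left kv y0, mul_le_mul_of_nonneg_left h e0.le,
      mul_le_mul_of_nonneg_right h1 a0.le]
  have pw : ∀ j ≤ 20, v ^ j ≤ ε * a := fun j hj => ((pow_le_pow_right₀ v1 hj).trans hF).trans Fa
  refine ⟨fun x h => abs_le.2 (abs_le_of_sq_le_sq' ?_ (by positivity)), fun x h => ?_,
    (abs_le_of_sq_le_sq' ?_ (by positivity)).2, (abs_le_of_sq_le_sq' ?_ (by positivity)).2, ?_⟩
  · rw [mul_pow, hs]; exact key _ (sq_nonneg x) h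
  · rw [hs]
    linarith [key _ (abs_nonneg x) h, mul_le_mul_of_nonneg_right r1 (by positivity : 0 ≤ ρ * a)]
  · rw [mul_pow ρ, hs]
    linarith [mul_le_mul_of_nonneg_left (pw 4 (by norm_num)) (sq_nonneg (C * k)),
      mul_le_mul_of_nonneg_right h2 a0.le]
  · rw [mul_pow ρ, hs]
    linarith [mul_le_mul_of_nonneg_left (pw 0 (by norm_num)) (sq_nonneg B),
      mul_le_mul_of_nonneg_right h3 a0.le]
  · have b1 : Q * s ≤ 2 := (abs_le_of_sq_le_sq' (by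
      rw [mul_pow, hs]
      linarith [mul_le_mul_of_nonneg_left (by linarith [(abs_le.1 ha).1] : a ≤ 4 * F)
        (sq_nonneg Q)]) zero_le_two).2
    rw [mul_pow, mul_pow, Real.sq_sqrt Q0]
    nlinarith [mul_le_mul_of_nonneg_left b1 (sq_nonneg ε)]

variable [Fintype ι]

/-- The dominating function. -/
def dom (f : Fx) (c : Cx n ι) (g : ι → X2 n → ℝ) (s : ι) (p : X2 n) : ℝ :=
  (∑ s', LX f c p.1 ^ 2 * n2 (py f c (g s') p)) + LX f c p.1 ^ 2 / (aX f c p.1 * fX f c p.1) *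
    (∑ i, ∑ j, Dp (phi f c) (ey i) (Dp (phi f c) (ey j) (g s)) p ^ 2) + nl f c p * g s p ^ 2

lemma ptw {Cq C₂ C k ε ρ om L₀ : ℝ} {p : X2 n} {g q : ι → X2 n → ℝ} (w0 : W0 f c)
    (wq : WQ c Cq ε p) (w2 : W2 f c C₂ ε p) (w8 : W8 f c C k p) (ok : c.Ok f om L₀) (o1 : om ≤ 1)
    (hχ : Sm (chk f c k)) (ht : Sm (thw f c E)) (hE : FrOk c E 1) (hT : TT f c g q)
    (hp : p ∈ Nk f c (2 * k)) (e0 : 0 < ε) (e1 : ε ≤ 1 / 200) (C0 : 0 ≤ C) (k1 : 1 ≤ k)
    (r0 : 0 ≤ ρ) (r1 : ρ ≤ 1) (h1 : C * ε ≤ ρ ^ 2) (h2 : (C * k) ^ 2 * ε ≤ ρ ^ 2)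
    (h3 : (n * (Fintype.card ι * f.Mb) + n * n) ^ 2 * ε ≤ ρ ^ 2) (h4 : 8 * ε ≤ ρ ^ 2) (s : ι) :
    LX f c p.1 ^ 2 / aX f c p.1 * Mq f c E (ck f c k (g s)) p ^ 2 ≤
      3 * Real.exp 2 * (1 + 22 * n ^ 2) ^ 2 * ρ ^ 2 * dom f c g s p := by
  obtain ⟨N1, b1, -, b2⟩ := w8 hp
  obtain ⟨b3, -, -, b4⟩ := b2 E hE
  obtain ⟨a1, -, a2, -, -, -, -, -, -, -, -, -, a3, -⟩ := w2
  obtain ⟨-, -, -, a4, -, -, a5, -⟩ := a3 (le_trans N1 (by norm_num) : _ ≤ (16 : ℝ))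
  obtain ⟨Q0', -, F0, -⟩ := w0.2.2.1 p
  have Q0 : 0 ≤ QQ c p := le_trans (by positivity) Q0'
  have s0 : 0 < fX f c p.1 := Real.exp_pos _
  have fa := (w0.2.1 p.1).2.2.1
  obtain ⟨c1, c2, c3, c4, c5⟩ := scal F0 s0 fa e0 e1 a2 a1 a4 N1 Q0 C0 k1 r0 r1 h1 h2 h3
  obtain ⟨⟨-, -, -, -, -, -, -, -, -, -, -, -, -, -, -, -, -, hφ, -, -, -, -, -, -, -, -, -, -,
    -, -, -, -, -, -, -, -, -, -, -, hl, -⟩, -⟩ := w0
  have hz : ‖zz p‖ ≤ 1 / 10 := (abs_le_of_sq_le_sq' (by linarith) (by norm_num)).2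
  have he := hT.2 p (.inr hz) s
  rw [L2b, Lp_eq hφ ok.2.2.2.2.2.2.2.2.1 (hT.1 s).1.sm] at he
  have X0 : 0 ≤ ∑ s', n2 (py f c (g s') p) := Finset.sum_nonneg fun _ _ => n2_nonneg _
  have hR : ∀ a s', |py f c (g s') p a| ≤ √(∑ s', n2 (py f c (g s') p)) := fun a s' =>
    Real.abs_le_sqrt ((sq_le_n2 _ a).trans (Finset.single_le_sum
      (f := fun s' => n2 (py f c (g s') p)) (fun _ _ => n2_nonneg _) (Finset.mem_univ s')))
  have Y0 : 0 ≤ ∑ i, ∑ j, Dp (phi f c) (ey i) (Dp (phi f c) (ey j) (g s)) p ^ 2 := by positivity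
  have k := alg (γ := fun i j => c.γ₂ i j p.1) (χ := chk f c k p) (g := g s p)
    (abs_le.2 ⟨neg_one_lt_zero.le.trans (Real.smoothTransition.nonneg _),
      Real.smoothTransition.le_one _⟩) (fun i j => by
      have := abs_le.1 (show |c.γ₂ i j p.1 - if i = j then 1 else 0| ≤ om by
        simpa [Ds] using ok.2.2.2.2.2.2.2.2.2.2.1 i j p.1 [] (by simp))
      rw [abs_le]
      split_ifs at this <;> constructor <;> linarith [this.1, this.2])
    (μ := 2 * (ε * √(QQ c p))) (fun i j => by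
      have k1 := abs_le.1 (wq.2.2.2.2.1 i j).2.2.2
      have k2 := abs_le.1 (show |c.γ₂ i j p.2 - gm c p i j| ≤ _ from (wq.2.2.2.2.1 i j).2.2.1)
      rw [abs_le]
      constructor <;> linarith [k1.1, k1.2, k2.1, k2.2]) (fun i j => by
      have := ok.2.2.2.2.2.2.2.2.2.2.1 i j p.2 [i] (by simp)
      simp only [Ds, List.foldr, one_pow, mul_one] at this
      rw [D_sub_at ((ok.2.2.2.2.2.2.2.2.1 i j).dAt _) (differentiableAt_const _), D_const,
        sub_zero] at this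
      exact this.trans o1)
    (fun a s' => by simpa [Ds] using ok.2.2.2.2.2.2.2.2.2.2.2.2 a s s' p.2 [] (by simp))
    (fun i => hR i s) hR (fun i j => Real.abs_le_sqrt (le_trans (Finset.single_le_sum
      (f := fun j => Dp (phi f c) (ey i) (Dp (phi f c) (ey j) (g s)) p ^ 2)
      (fun _ _ => sq_nonneg _) (Finset.mem_univ j)) (Finset.single_le_sum
      (f := fun i => ∑ j, Dp (phi f c) (ey i) (Dp (phi f c) (ey j) (g s)) p ^ 2)
      (fun _ _ => by positivity) (Finset.mem_univ i))))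
    (fun i => c1 _ (b1 (.inr i)).1) (fun i => (b4 i).1.trans c3)
    (fun i j => c2 _ ((b1 (.inr i)).2 (.inr j))) (fun i j => ((b4 i).2 j).trans (by
      rw [sq (fX f c p.1), ← mul_assoc ρ]; exact mul_le_mul_of_nonneg_right c3 s0.le))
    r0 r1 (Real.sqrt_nonneg _) c4 he
  have k' := sqb (L := LX f c p.1) (e := Real.exp (-thw f c E p)) s0 (by
    rw [← Real.exp_nat_mul]
    exact Real.exp_le_exp.2 (by push_cast; linarith [(abs_le.1 b3).1]))
    (mul_nonneg Q0 F0.le) (c5.trans h4) k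
  rw [Real.sq_sqrt X0, Real.sq_sqrt Y0, fa] at k'
  rw [dom, ← Finset.mul_sum]
  exact (congrArg (_ * · ^ 2) (Mq_eq hφ hl ht hχ (hT.1 s).1.sm p)).trans_le k'

end pt

section int
variable {n : ℕ} {ι : Type} {f : Fx} {c : Cx n ι} {E : MatF n}

lemma int_le {K A : X2 n → ℝ} {S : Set (X2 n)} (hS : MeasurableSet S) (hA : Integrable A)
    (K0 : ∀ p, 0 ≤ K p) (A0 : ∀ p, 0 ≤ A p) (h : ∀ p, K p ≠ 0 → p ∈ S ∧ K p ≤ A p) :
    ∫ p, K p ≤ ∫ p in S, A p := by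
  rw [← integral_indicator hS]
  refine integral_mono_of_nonneg (Eventually.of_forall K0) (hA.indicator hS)
    (Eventually.of_forall fun p => ?_)
  by_cases h0 : K p = 0
  · rw [h0]; exact indicator_nonneg (fun p _ => A0 p) p
  · rw [indicator_of_mem (h p h0).1]; exact (h p h0).2

lemma Mq_zero {u : X2 n → ℝ} {p : X2 n} (h : p ∉ tsupport u) : Mq f c E u p = 0 :=
  Finset.sum_eq_zero fun i _ => Finset.sum_eq_zero fun j _ => by
    have : tsupport (GH f c E u) ⊆ tsupport u := tsupport_mul_subset_right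
    rw [image_eq_zero_of_notMem_tsupport (f := Dp _ (ey i) _) fun h' => h
      (this (tsupport_Dp _ _ _ (tsupport_Dp _ _ _ h'))), mul_zero]

lemma nl_nn (w0 : W0 f c) (p : X2 n) : aX f c p.1 * LX f c p.1 ^ 2 ≤ nl f c p ∧ 0 ≤ nl f c p := by
  obtain ⟨Q0, -, F0, -⟩ := w0.2.2.1 p
  have h1 : 0 ≤ Psi f c p := mul_nonneg (le_trans (by positivity) Q0) F0.le
  have h2 := (w0.2.1 p.1).1
  exact ⟨le_mul_of_one_le_right (by positivity) (by linarith), by unfold nl; positivity⟩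

lemma Nr_meas (w0 : W0 f c) (r : ℝ) : MeasurableSet (Nr f c r) :=
  (isClosed_le ((w0.1.2.2.2.2.1.cont.pow 2).mul w0.1.2.2.2.2.2.2.1.cont)
    continuous_const).measurableSet

lemma Nr_mono {r r' : ℝ} (h : r ≤ r') : Nr f c r ⊆ Nr f c r' := fun _ hp => le_trans hp h

lemma int3 {A B G : En n → ℝ} {a b d : ℝ} (hA : Integrable A) (hB : Integrable B)
    (hG : Integrable G) (h : ∀ x, A x ≤ a * B x + b * A x + d * G x) :
    ∫ x, A x ≤ a * (∫ x, B x) + b * (∫ x, A x) + d * ∫ x, G x := by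
  rw [← integral_const_mul, ← integral_const_mul, ← integral_const_mul,
    ← integral_add (hB.const_mul _) (hA.const_mul _),
    ← integral_add (iadd (hB.const_mul _) (hA.const_mul _)) (hG.const_mul _)]
  exact integral_mono hA (iadd (iadd (hB.const_mul _) (hA.const_mul _)) (hG.const_mul _)) h

lemma slice2 (w0 : W0 f c) (hp : S_par) (hγ : SmM c.γ₂) (hs : SymM c.γ₂) (hE : FrOk c E 1)
    (hw : ContDiff ℝ ∞ (wv f c E)) (ht : Sm (thw f c E)) {u : X2 n → ℝ} (hu : Tst u)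
    (hb : ∀ p, u p ≠ 0 → p ∈ Om2 c ∧ |thw f c E p| ≤ 1 ∧ Psi f c p ≤ ‖wv f c E p‖ ^ 2)
    {F : Fock n} (hF : F.Ok) {C : ℝ} (C0 : 0 ≤ C) (hn : ∀ (u : En n → ℝ) (A : ℝ), Tst u →
      (∀ K, ∑ k ∈ Finset.range K, ((k : ℝ) + 1) * ∑ j, (∫ w, u w * F.H k j w * gs w) ^ 2 ≤ A) →
      ∫ w, (1 + ‖w‖ ^ 2) * u w ^ 2 ≤ C * (A + ∫ w, ccG u w ^ 2)) {B η : ℝ} (B0 : 0 ≤ B)
    (η0 : 0 ≤ η) (hB : ∀ x, ‖x - c.p0‖ ≤ 1 / 2 → ∀ m, ∑ j, fm f c F E u m j x ^ 2 ≤
      B / 2 ^ m * ∫ y, u (x, y) ^ 2) {K : ℕ}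
    (hK : Real.exp 2 * C * (n.factorial * 2 ^ n) * B * ((2 * (K : ℝ) + 4) / 2 ^ K) ≤ η)
    (x : En n) (hi : Integrable fun y => nl f c (x, y) * u (x, y) ^ 2) :
    ∫ y, nl f c (x, y) * u (x, y) ^ 2 ≤ Real.exp 2 * C * (n.factorial * 2 ^ n) *
      (∑ m ∈ Finset.range K, aX f c x * LX f c x ^ 2 * ((m : ℝ) + 1) *
        ∑ j, fm f c F E u m j x ^ 2) + η * (∫ y, nl f c (x, y) * u (x, y) ^ 2) +
      Real.exp 2 * C * ∫ y, LX f c x ^ 2 / aX f c x * Mq f c E u (x, y) ^ 2 := by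
  have ax := (w0.2.1 x).1
  have I0 : 0 ≤ ∫ y, u (x, y) ^ 2 := integral_nonneg fun _ => sq_nonneg _
  by_cases hx : ‖x - c.p0‖ ≤ 1 / 2
  · have k := slice w0 hp hγ hs hE hw ht hu (fun p h => (hb p h).2) hF C0 hn x
      (tail (B := B * ∫ y, u (x, y) ^ 2) (fun m => by positivity) (by positivity) (fun m =>
        (mul_le_mul_of_nonneg_left (hB x hx m) (by positivity)).trans_eq (by ring)) K)
    have k1 : aX f c x * LX f c x ^ 2 * ∫ y, u (x, y) ^ 2 ≤ ∫ y, nl f c (x, y) * u (x, y) ^ 2 := by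
      rw [← integral_const_mul]
      exact integral_mono_of_nonneg (Eventually.of_forall fun y => by
        simp only [Pi.zero_apply]; positivity) hi (Eventually.of_forall fun y =>
          mul_le_mul_of_nonneg_right (nl_nn w0 (x, y)).1 (sq_nonneg _))
    have k2 := mul_le_mul hK k1 (by positivity) η0
    have e : ∑ m ∈ Finset.range K, aX f c x * LX f c x ^ 2 * ((m : ℝ) + 1) *
        ∑ j, fm f c F E u m j x ^ 2 = aX f c x * LX f c x ^ 2 *
          ∑ m ∈ Finset.range K, ((m : ℝ) + 1) * ∑ j, fm f c F E u m j x ^ 2 := by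
      rw [Finset.mul_sum]
      exact Finset.sum_congr rfl fun m _ => mul_assoc _ _ _
    rw [e]
    linarith
  · have h0 : ∀ y, u (x, y) = 0 := fun y => by
      by_contra h
      exact hx (hb _ h).1.1
    have k1 : 0 ≤ ∫ y, LX f c x ^ 2 / aX f c x * Mq f c E u (x, y) ^ 2 :=
      integral_nonneg fun _ => by simp only [Pi.zero_apply]; positivity
    simp only [h0, ne_eq, OfNat.ofNat_ne_zero, not_false_eq_true, zero_pow, mul_zero,
      integral_zero]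
    positivity

lemma fm_int (w0 : W0 f c) (hp : S_par) (hw : ContDiff ℝ ∞ (wv f c E)) {u : X2 n → ℝ} (hu : Tst u)
    {F : Fock n} (hF : F.Ok) (m : ℕ) : Integrable fun x => aX f c x * LX f c x ^ 2 * ((m : ℝ) + 1) *
      ∑ j, fm f c F E u m j x ^ 2 := by
  obtain ⟨sφ, sa, sL, sl⟩ : Sm (phi f c) ∧ Sm (aX f c) ∧ Sm (LX f c) ∧ Sm (lX f c) := by
    obtain ⟨⟨-, -, -, -, -, -, -, -, -, -, -, -, -, -, -, -, -, h1, -, -, -, -, -, -, -, -, -, -,
      -, -, -, -, -, -, -, -, -, h3, h4, h5, -⟩, -⟩ := w0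
    exact ⟨h1, h3, h4, h5⟩
  simp only [Finset.mul_sum]
  refine integrable_finsetSum _ fun j _ => ?_
  have c1 : Continuous fun p => Real.exp (-phi f c p) * u p * F.H m j (wv f c E p) :=
    (sφ.neg.exp.cont.mul hu.sm.cont).mul ((hF.1 m j).cont.comp hw.continuous)
  have c2 : HasCompactSupport fun p => Real.exp (-phi f c p) * u p * F.H m j (wv f c E p) :=
    HasCompactSupport.mul_right (f := fun p => Real.exp (-phi f c p) * u p) hu.2.mul_left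
  obtain ⟨r1, r2, -⟩ := (hp n _).1 c1 c2
  have e : (fun x => fm f c F E u m j x) = fun x => Real.exp ((f.Cw + n / 2) * lX f c x) *
      ∫ y, Real.exp (-phi f c (x, y)) * u (x, y) * F.H m j (wv f c E (x, y)) := rfl
  have r3 : Continuous fun x => fm f c F E u m j x := by
    rw [e]; exact (sl.cmul (f.Cw + n / 2)).exp.cont.mul r1
  have r4 : HasCompactSupport fun x => fm f c F E u m j x := by
    rw [e]
    exact HasCompactSupport.mul_left (f := fun x => Real.exp ((f.Cw + n / 2) * lX f c x)) r2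
  have r5 : HasCompactSupport fun x => fm f c F E u m j x ^ 2 :=
    r4.comp_left (g := fun t : ℝ => t ^ 2) (by simp)
  have r6 : Continuous fun x => aX f c x * LX f c x ^ 2 * ((m : ℝ) + 1) :=
    (sa.cont.mul (sL.cont.pow 2)).mul continuous_const
  exact (r6.mul (r3.pow 2)).integrable_of_hasCompactSupport (HasCompactSupport.mul_left r5)

/-- The estimate for one component. -/
lemma comp (w0 : W0 f c) (hp : S_par) (hγ : SmM c.γ₂) (hs : SymM c.γ₂) (hE : FrOk c E 1)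
    (hw : ContDiff ℝ ∞ (wv f c E)) (ht : Sm (thw f c E)) {u : X2 n → ℝ} (hu : Tst u)
    (hb : ∀ p, u p ≠ 0 → p ∈ Om2 c ∧ |thw f c E p| ≤ 1 ∧ Psi f c p ≤ ‖wv f c E p‖ ^ 2)
    {F : Fock n} (hF : F.Ok) {C : ℝ} (C0 : 0 ≤ C) (hn : ∀ (u : En n → ℝ) (A : ℝ), Tst u →
      (∀ K, ∑ k ∈ Finset.range K, ((k : ℝ) + 1) * ∑ j, (∫ w, u w * F.H k j w * gs w) ^ 2 ≤ A) →
      ∫ w, (1 + ‖w‖ ^ 2) * u w ^ 2 ≤ C * (A + ∫ w, ccG u w ^ 2)) {B η : ℝ} (B0 : 0 ≤ B)
    (η0 : 0 ≤ η) (hB : ∀ x, ‖x - c.p0‖ ≤ 1 / 2 → ∀ m, ∑ j, fm f c F E u m j x ^ 2 ≤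
      B / 2 ^ m * ∫ y, u (x, y) ^ 2) {K : ℕ}
    (hK : Real.exp 2 * C * (n.factorial * 2 ^ n) * B * ((2 * (K : ℝ) + 4) / 2 ^ K) ≤ η) :
    ∫ p, nl f c p * u p ^ 2 ≤ Real.exp 2 * C * (n.factorial * 2 ^ n) *
      (∑ m ∈ Finset.range K, ∫ x, aX f c x * LX f c x ^ 2 * ((m : ℝ) + 1) *
        ∑ j, fm f c F E u m j x ^ 2) + η * (∫ p, nl f c p * u p ^ 2) +
      Real.exp 2 * C * ∫ p, LX f c p.1 ^ 2 / aX f c p.1 * Mq f c E u p ^ 2 := by
  obtain ⟨sl, sa, sL⟩ : Sm (nl f c) ∧ Sm (aX f c) ∧ Sm (LX f c) := by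
    obtain ⟨⟨-, -, -, -, -, -, -, -, -, -, -, -, -, -, -, -, -, -, -, -, -, -, h2, -, -, -, -, -,
      -, -, -, -, -, -, -, -, -, h3, h4, -⟩, -⟩ := w0
    exact ⟨h2, h3, h4⟩
  have tM := tst_Mq hγ hw ht hu
  have c1 : Continuous fun p => nl f c p * u p ^ 2 := sl.cont.mul (hu.sm.cont.pow 2)
  have c2 : HasCompactSupport fun p => nl f c p * u p ^ 2 :=
    HasCompactSupport.mul_left (f := nl f c) hu.sq.2
  have c3 : Continuous fun p : X2 n => LX f c p.1 ^ 2 / aX f c p.1 * Mq f c E u p ^ 2 :=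
    (((sL.cont.comp continuous_fst).pow 2).div (sa.cont.comp continuous_fst)
      fun p => (w0.2.1 p.1).1.ne').mul (tM.sm.cont.pow 2)
  have c4 : HasCompactSupport fun p : X2 n => LX f c p.1 ^ 2 / aX f c p.1 * Mq f c E u p ^ 2 :=
    HasCompactSupport.mul_left (f := fun p : X2 n => LX f c p.1 ^ 2 / aX f c p.1) tM.sq.2
  obtain ⟨p1, p2, -, p3, p4⟩ := (hp n _).1 c1 c2
  obtain ⟨q1, q2, -, -, q4⟩ := (hp n _).1 c3 c4
  have iF := fm_int w0 hp hw hu hF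
  rw [← p4, ← q4, ← integral_finsetSum _ fun m _ => iF m]
  exact int3 (p1.integrable_of_hasCompactSupport p2) (integrable_finsetSum _ fun m _ => iF m)
    (q1.integrable_of_hasCompactSupport q2) fun x =>
      slice2 w0 hp hγ hs hE hw ht hu hb hF C0 hn B0 η0 hB hK x (p3 x)

variable [Fintype ι]

lemma dom_le (w0 : W0 f c) {g : ι → X2 n → ℝ} (hg : ∀ s, Tst (g s)) {K : ι → X2 n → ℝ} {A : ℝ}
    (A0 : 0 ≤ A) (K0 : ∀ s p, 0 ≤ K s p)
    (h : ∀ s p, K s p ≠ 0 → p ∈ Nr f c 1 ∧ K s p ≤ A * dom f c g s p) :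
    ∑ s, ∫ p, K s p ≤ A * (Fintype.card ι * IPy f c g + IP2 f c g + NN f c g) := by
  have a0 := fun x => (w0.2.1 x).1
  have f0 : ∀ x, 0 < fX f c x := fun x => Real.exp_pos _
  obtain ⟨sl, sφ, sa, sL, sf⟩ : Sm (nl f c) ∧ Sm (phi f c) ∧ Sm (aX f c) ∧ Sm (LX f c) ∧
      Sm (fX f c) := by
    obtain ⟨⟨-, -, -, -, -, -, -, -, -, -, -, -, -, -, -, -, -, h1, -, -, -, -, h2, -, -, -, -, -,
      -, -, -, -, -, -, -, -, -, h3, h4, -, h5, -⟩, -⟩ := w0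
    exact ⟨h2, h1, h3, h4, h5⟩
  have cL := (sL.cont.comp (continuous_fst (Y := En n))).pow 2
  have i1 : ∀ s, Integrable fun p => LX f c p.1 ^ 2 * n2 (py f c (g s) p) := fun s =>
    (Tst.sum _ fun i _ => (Tst.Dp sφ (hg s) (ey i)).sq).integrable_cmul cL
  have i2 : ∀ s, Integrable fun p => LX f c p.1 ^ 2 / (aX f c p.1 * fX f c p.1) *
      ∑ i, ∑ j, Dp (phi f c) (ey i) (Dp (phi f c) (ey j) (g s)) p ^ 2 := fun s =>
    (Tst.sum _ fun i _ => Tst.sum _ fun j _ =>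
      (Tst.Dp sφ (Tst.Dp sφ (hg s) (ey j)) (ey i)).sq).integrable_cmul
      (cL.div ((sa.mul sf).cont.comp continuous_fst) fun p => (mul_pos (a0 _) (f0 _)).ne')
  have i3 : ∀ s, Integrable fun p => nl f c p * g s p ^ 2 := fun s =>
    (hg s).sq.integrable_cmul sl.cont
  have n1 : ∀ s p, 0 ≤ LX f c p.1 ^ 2 * n2 (py f c (g s) p) := fun s p =>
    mul_nonneg (sq_nonneg _) (n2_nonneg _)
  have n2' : ∀ s p, 0 ≤ LX f c p.1 ^ 2 / (aX f c p.1 * fX f c p.1) *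
      ∑ i, ∑ j, Dp (phi f c) (ey i) (Dp (phi f c) (ey j) (g s)) p ^ 2 := fun s p => by
    have := a0 p.1
    have := f0 p.1
    positivity
  have n3 : ∀ s p, 0 ≤ nl f c p * g s p ^ 2 := fun s p => mul_nonneg (nl_nn w0 p).2 (sq_nonneg _)
  have i4 := integrable_finsetSum Finset.univ fun s _ => i1 s
  have mono : ∀ {G : X2 n → ℝ} {r : ℝ}, Integrable G → (∀ p, 0 ≤ G p) → 1 ≤ r →
      ∫ p in Nr f c 1, G p ≤ ∫ p in Nr f c r, G p := fun hG G0 hr =>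
    setIntegral_mono_set hG.integrableOn (Eventually.of_forall G0) (Nr_mono hr).eventuallyLE
  have e : A * (Fintype.card ι * IPy f c g + IP2 f c g + NN f c g) = ∑ s, A * (IPy f c g +
      (∫ p in Nr f c 4, LX f c p.1 ^ 2 / (aX f c p.1 * fX f c p.1) *
        ∑ i, ∑ j, Dp (phi f c) (ey i) (Dp (phi f c) (ey j) (g s)) p ^ 2) +
      ∫ p in Nr f c 16, nl f c p * g s p ^ 2) := by
    simp only [← Finset.mul_sum, Finset.sum_add_distrib, Finset.sum_const, Finset.card_univ,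
      nsmul_eq_mul, IP2, NN, I0]
  rw [e]
  refine Finset.sum_le_sum fun s _ => (int_le (Nr_meas w0 1)
    ((iadd (iadd i4 (i2 s)) (i3 s)).const_mul A) (K0 s) (fun p => mul_nonneg A0 (add_nonneg
      (add_nonneg (Finset.sum_nonneg fun s' _ => n1 s' p) (n2' s p)) (n3 s p))) (h s)).trans ?_
  rw [integral_const_mul]
  refine mul_le_mul_of_nonneg_left ?_ A0
  rw [integral_add (iadd i4 (i2 s)).integrableOn (i3 s).integrableOn,
    integral_add i4.integrableOn (i2 s).integrableOn,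
    integral_finsetSum _ fun s _ => (i1 s).integrableOn]
  exact add_le_add (add_le_add (Finset.sum_le_sum fun s' _ => mono (i1 s') (n1 s') (by norm_num))
    (mono (i2 s) (n2' s) (by norm_num))) (mono (i3 s) (n3 s) (by norm_num))

lemma chk_le (k : ℝ) (u : X2 n → ℝ) (p : X2 n) : ck f c k u p ^ 2 ≤ u p ^ 2 := by
  rw [ck, mul_pow]
  exact mul_le_of_le_one_left (sq_nonneg _) (pow_le_one₀ (Real.smoothTransition.nonneg _)
    (Real.smoothTransition.le_one _))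

lemma main {Cq C₂ C₈ Cb Cn Cx' k ε ρ η : ℝ} (w0 : W0 f c) (hp : S_par)
    (wq : ∀ p ∈ Om2 c, WQ c Cq ε p) (w2 : ∀ p ∈ Om2 c, W2 f c C₂ ε p) (hχ : Sm (chk f c k))
    (hχ0 : ∀ p, p ∉ Nk f c (2 * k) → chk f c k =ᶠ[𝓝 p] 0) (hw : ContDiff ℝ ∞ (wv f c E))
    (ht : Sm (thw f c E)) (w8 : ∀ p ∈ Om2 c, W8 f c C₈ k p) (ok : c.Ok f 1 1) {F : Fock n}
    (hF : F.Ok) (hE : FrOk c E 1) {g q : ι → X2 n → ℝ} (hT : TT f c g q) (Cb0 : 0 ≤ Cb)
    (hb : ∀ R : X2 n → ℝ, Continuous R → (∀ p, R p ≠ 0 → p ∈ Om2 c ∧ p ∈ Nk f c (2 * k)) →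
      ∀ x (m : ℕ), ∑ j, fm f c F E R m j x ^ 2 ≤
        Cb * ((m : ℝ) + 1) ^ 0 * Real.exp (Cb * k * LX f c x) / 2 ^ m * ∫ y, R (x, y) ^ 2)
    (Cn0 : 0 ≤ Cn) (hn : ∀ (u : En n → ℝ) (A : ℝ), Tst u →
      (∀ K, ∑ k ∈ Finset.range K, ((k : ℝ) + 1) * ∑ j, (∫ w, u w * F.H k j w * gs w) ^ 2 ≤ A) →
      ∫ w, (1 + ‖w‖ ^ 2) * u w ^ 2 ≤ Cn * (A + ∫ w, ccG u w ^ 2))
    (hX : IPy f c g ≤ Cx' * NN f c g) (hY : IP2 f c g ≤ Cx' * NN f c g)
    (e0 : 0 < ε) (e1 : ε ≤ 1 / 200) (C0 : 0 ≤ C₈) (k1 : 1 ≤ k)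
    (r0 : 0 ≤ ρ) (r1 : ρ ≤ 1) (h1 : C₈ * ε ≤ ρ ^ 2) (h2 : (C₈ * k) ^ 2 * ε ≤ ρ ^ 2)
    (h3 : (n * (Fintype.card ι * f.Mb) + n * n) ^ 2 * ε ≤ ρ ^ 2) (h4 : 8 * ε ≤ ρ ^ 2)
    (η0 : 0 < η) (hρ : Real.exp 2 * Cn * (3 * Real.exp 2 * (1 + 22 * n ^ 2) ^ 2 * ρ ^ 2 *
      (Fintype.card ι * Cx' + Cx' + 1)) ≤ η / 2) :
    ∃ K₀, ∀ K, K₀ ≤ K → I0 (nl f c) (Nk f c k) g ≤
      Real.exp 2 * Cn * (n.factorial * 2 ^ n) * SqF f c g F E k K + η * NN f c g := by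
  obtain ⟨sl, sL, sP, sv⟩ : Sm (nl f c) ∧ Sm (LX f c) ∧ Sm (Psi f c) ∧ Sm (vv f c) := by
    obtain ⟨⟨-, -, -, -, -, -, -, h1, -, h3, -, -, -, -, -, -, -, -, -, -, -, -, h2, -, -, -, -, -,
      -, -, -, -, -, -, -, -, -, -, h4, -⟩, -⟩ := w0
    exact ⟨h2, h4, h3, h1⟩
  obtain ⟨Lm, hLm⟩ := (isCompact_closedBall c.p0 (1 / 2)).bddAbove_image sL.cont.continuousOn
  refine (tail0 (Real.exp 2 * Cn * (n.factorial * 2 ^ n) * (Cb * Real.exp (Cb * k * Lm)))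
    (half_pos η0)).imp fun K₀ hK K hKK => ?_
  have tu : ∀ s, Tst (ck f c k (g s)) := fun s => (hT.1 s).1.mul_left hχ
  have su : ∀ s p, p ∈ tsupport (ck f c k (g s)) → p ∈ Om2 c ∧ p ∈ Nk f c (2 * k) := fun s p h =>
    ⟨((hT.1 s).2.2.1 (tsupport_mul_subset_right h)).1, by_contra fun h' =>
      notMem_tsupport_iff_eventuallyEq.2 (hχ0 p h') (tsupport_mul_subset_left h)⟩
  have su' := fun s p h => su s p (subset_tsupport _ h)
  have k2 := fun s => comp w0 hp ok.2.2.2.2.2.2.2.2.1 ok.2.2.2.2.2.2.2.2.2.1 hE hw ht (tu s)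
    (fun p h => have := (w8 p (su' s p h).1 (su' s p h).2).2.2.2 E hE
      ⟨(su' s p h).1, this.1, this.2.2.1⟩) hF Cn0 hn (by positivity) (half_pos η0).le
    (fun x hx m => (hb _ (tu s).sm.cont (su' s) x m).trans (mul_le_mul_of_nonneg_right
      (div_le_div_of_nonneg_right (by
        rw [pow_zero, mul_one]
        exact mul_le_mul_of_nonneg_left (Real.exp_le_exp.2 (mul_le_mul_of_nonneg_left
          (hLm ⟨x, mem_closedBall_iff_norm.2 hx, rfl⟩) (by positivity))) Cb0) (by positivity))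
      (integral_nonneg fun _ => sq_nonneg _))) (hK K hKK)
  have k3 := dom_le w0 (fun s => (hT.1 s).1)
    (by positivity : 0 ≤ 3 * Real.exp 2 * (1 + 22 * (n : ℝ) ^ 2) ^ 2 * ρ ^ 2)
    (K := fun s p => LX f c p.1 ^ 2 / aX f c p.1 * Mq f c E (ck f c k (g s)) p ^ 2)
    (fun s p => by have := (w0.2.1 p.1).1; positivity) fun s p h => by
      have hp' := su s p (by_contra fun h' => h (by simp only [Mq_zero h']; simp))
      exact ⟨(w8 p hp'.1 hp'.2).1, ptw w0 (wq p hp'.1) (w2 p hp'.1) (w8 p hp'.1) ok le_rfl hχ ht hE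
        hT hp'.2 e0 e1 C0 k1 r0 r1 h1 h2 h3 h4 s⟩
  have n3 : ∀ (u : X2 n → ℝ) p, 0 ≤ nl f c p * u p ^ 2 := fun u p =>
    mul_nonneg (nl_nn w0 p).2 (sq_nonneg _)
  have k4 : ∑ s, ∫ p, nl f c p * ck f c k (g s) p ^ 2 ≤ NN f c g :=
    Finset.sum_le_sum fun s _ => int_le (Nr_meas w0 16) ((hT.1 s).1.sq.integrable_cmul sl.cont)
      (n3 _) (n3 _) fun p h =>
        have hp' := su' s p fun h' => h (by simp only [h']; simp)
        ⟨Nr_mono (by norm_num) (w8 p hp'.1 hp'.2).1,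
          mul_le_mul_of_nonneg_left (chk_le k _ p) (nl_nn w0 p).2⟩
  have k5 : I0 (nl f c) (Nk f c k) g ≤ ∑ s, ∫ p, nl f c p * ck f c k (g s) p ^ 2 := by
    refine Finset.sum_le_sum fun s _ => le_trans (le_of_eq (setIntegral_congr_fun
      (isClosed_le sP.cont (continuous_const.mul sv.cont)).measurableSet fun p hp => ?_))
      (setIntegral_le_integral ((tu s).sq.integrable_cmul sl.cont) (Eventually.of_forall (n3 _)))
    have v0 : 0 < k * vv f c p := mul_pos (by linarith)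
      (one_pos.trans_le (ok.1.trans (w0.2.2.1 p).2.2.2.1))
    have : chk f c k p = 1 := Real.smoothTransition.one_of_one_le (by
      linarith [(div_le_one v0).2 hp])
    simp only [ck, this, one_mul]
  have k6 := Finset.sum_le_sum fun s (_ : s ∈ Finset.univ) => k2 s
  rw [Finset.sum_add_distrib, Finset.sum_add_distrib, ← Finset.mul_sum, ← Finset.mul_sum,
    ← Finset.mul_sum] at k6
  have N0 : 0 ≤ NN f c g := Finset.sum_nonneg fun s _ => integral_nonneg (n3 _)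
  have k7 : Fintype.card ι * IPy f c g + IP2 f c g + NN f c g ≤
      (Fintype.card ι * Cx' + Cx' + 1) * NN f c g := by
    linarith [mul_le_mul_of_nonneg_left hX (Nat.cast_nonneg (α := ℝ) (Fintype.card ι))]
  have k8 := mul_le_mul_of_nonneg_left (k3.trans (mul_le_mul_of_nonneg_left k7 (by positivity)))
    (by positivity : 0 ≤ Real.exp 2 * Cn)
  unfold SqF
  linarith [mul_le_mul_of_nonneg_left k4 (half_pos η0).le, mul_le_mul_of_nonneg_right hρ N0]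

end int

end NZN

open NZN in
theorem s_NZN (h0 : S_w0) (hq : S_wq) (h2 : S_w2) (h8 : S_w8) (hp : S_par) (hb : S_mbes)
    (hn : S_n1) (hXY : S_XY) : S_NZN := by
  intro n ι _ f hf
  obtain ⟨Cq, -, hq⟩ := hq n
  obtain ⟨C₂, -, h2⟩ := h2 n ι f hf
  obtain ⟨C₈, c8, h8⟩ := h8 n ι f hf
  obtain ⟨Cb, cb, hb⟩ := hb n ι f hf
  obtain ⟨Cn, cn, hn⟩ := hn n
  obtain ⟨Cx', cx, hXY⟩ := hXY n ι f hf
  refine ⟨Real.exp 2 * Cn * (n.factorial * 2 ^ n), one_le_mul_of_one_le_of_one_le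
    (one_le_mul_of_one_le_of_one_le (Real.one_le_exp zero_le_two) cn)
    (one_le_mul_of_one_le_of_one_le (by exact_mod_cast n.factorial_pos) (one_le_pow₀ one_le_two)),
    fun k η k1 hη => ?_⟩
  obtain ⟨ρ, ⟨r0, r1⟩, r2⟩ := ((Eventually.and (p := fun ε => 0 < ε) (f := 𝓝[>] (0 : ℝ))
    self_mem_nhdsWithin (ev_lt 1 one_pos)).and (ev_lt (Real.exp 2 * Cn * (3 * Real.exp 2 *
      (1 + 22 * n ^ 2) ^ 2 * (Fintype.card ι * Cx' + Cx' + 1))) (half_pos hη))).exists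
  have rr := pow_pos r0 2
  obtain ⟨ε, ⟨⟨⟨⟨e0, e1⟩, e2⟩, e3⟩, e4⟩, e5⟩ := (((((Eventually.and (p := fun ε => 0 < ε)
    (f := 𝓝[>] (0 : ℝ)) self_mem_nhdsWithin (ev_lt 1 (by norm_num : (0 : ℝ) < 1 / 200))).and
    (ev_lt C₈ rr)).and (ev_lt ((C₈ * k) ^ 2) rr)).and
    (ev_lt ((n * (Fintype.card ι * f.Mb) + n * n) ^ 2) rr)).and (ev_lt 8 rr)).exists
  rw [one_mul] at r1 e1
  have r3 : Real.exp 2 * Cn * (3 * Real.exp 2 * (1 + 22 * n ^ 2) ^ 2 * ρ ^ 2 *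
      (Fintype.card ι * Cx' + Cx' + 1)) ≤ η / 2 := by
    linarith [mul_le_mul_of_nonneg_left r1.le (by positivity : 0 ≤ Real.exp 2 * Cn *
      (3 * Real.exp 2 * (1 + 22 * n ^ 2) ^ 2 * (Fintype.card ι * Cx' + Cx' + 1)) * ρ)]
  refine ((((((h0 n ι f hf).and (hq ι f hf ε e0)).and (h2 ε e0)).and (h8 k k1)).and
    (hb k k1)).and hXY).and (Ev.ok f one_pos 1) |>.mono ?_
  rintro c ⟨⟨⟨⟨⟨⟨w0, wq⟩, w2⟩, s1, s2, s3, w8⟩, wb⟩, wx⟩, ok⟩ F E g q hF hE hT
  exact main w0 hp wq w2 s1 s2 (s3 E hE.1).1 (s3 E hE.1).2 w8 ok hF hE hT (by linarith)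
    (fun R hR hR' x m => (wb F E R hF hE hR hR' [] (by simp) x).2 m) (by linarith) (hn F hF)
    (wx g q hT).1 (wx g q hT).2 e0 e1.le (by linarith) k1 r0.le r1.le e2.le e3.le e4.le e5.le hη r3

end Vale.Agent.P088
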