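import Vale.Agent.P088.StN

/-!
# P088: tail bound for the moments
-/

open MeasureTheory Set Metric
open scoped ContDiff Topology

noncomputable section
namespace Vale.Agent.P088
open Vale.Agent.P136

namespace NZT

variable {n : ℕ} {ι : Type} {f : Fx} {c : Cx n ι} {E : MatF n}

lemma D_fst {F : En n → ℝ} (hF : Sm F) (i : Fin n) (p : X2 n) :
    D (ex i) (fun q : X2 n => F q.1) p = D (ee i) F p.1 := by
  have h := ((hF.dAt p.1).hasFDerivAt.comp p (hasFDerivAt_fst (𝕜 := ℝ) (p := p))).fderiv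
  unfold D
  rw [show (fun q : X2 n => F q.1) = F ∘ Prod.fst from rfl, h]
  rfl

lemma sm_fst {F : En n → ℝ} (hF : Sm F) : Sm fun q : X2 n => F q.1 :=
  ContDiff.comp hF contDiff_fst

lemma sm_co (l : Fin n) : Sm fun x : En n => x l := (EuclideanSpace.proj (𝕜 := ℝ) l).contDiff

lemma sm_zz (l : Fin n) : Sm fun p : X2 n => zz p l :=
  ContDiff.comp (sm_co l) (contDiff_snd.sub contDiff_fst)

lemma D_zz (i l : Fin n) (p : X2 n) :
    D (ex i) (fun q : X2 n => zz q l) p = -if l = i then 1 else 0 := by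
  let T : X2 n →L[ℝ] ℝ := (EuclideanSpace.proj (𝕜 := ℝ) l).comp
    (ContinuousLinearMap.snd ℝ _ _ - ContinuousLinearMap.fst ℝ _ _)
  have h : (fun q : X2 n => zz q l) = T := rfl
  unfold D
  rw [h, T.fderiv]
  simp [T, ex, ee]

lemma chain {W : X2 n → En n} (hW : ContDiff ℝ ∞ W) {H : En n → ℝ} (hH : Sm H) (v p : X2 n) :
    D v (fun q => H (W q)) p = ∑ a, D v (fun q => W q a) p * D (ee a) H (W p) := by
  have h1 := (hW.differentiable (by simp) p).hasFDerivAt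
  have h := ((hH.dAt (W p)).hasFDerivAt.comp p h1).fderiv
  have h2 : ∀ a, D v (fun q => W q a) p = fderiv ℝ W p v a := fun a => by
    have := ((EuclideanSpace.proj (𝕜 := ℝ) a).hasFDerivAt.comp p h1).fderiv
    unfold D
    rw [show (fun q => W q a) = EuclideanSpace.proj (𝕜 := ℝ) a ∘ W from rfl, this]
    rfl
  have h3 : fderiv ℝ W p v = ∑ a, fderiv ℝ W p v a • ee a := by
    ext b
    simp [ee, Pi.single_apply]
  simp only [h2]
  unfold D
  rw [show (fun q => H (W q)) = H ∘ W from rfl, h, ContinuousLinearMap.comp_apply]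
  conv_lhs => rw [h3]
  simp

/-- The first remainder. -/
def R1 (f : Fx) (c : Cx n ι) (g : X2 n → ℝ) (i : Fin n) (p : X2 n) : ℝ :=
  (f.Cw + n / 2) * (LX f c p.1 * p.1 i) * g p - zx f c g p i

/-- The second remainder. -/
def R2 (f : Fx) (c : Cx n ι) (E : MatF n) (g : X2 n → ℝ) (i a : Fin n) (p : X2 n) : ℝ :=
  g p * D (ex i) (fun q => wv f c E q a) p

lemma deriv_momt (hp : S_par) (hφ : Sm (phi f c)) (hl : Sm (lX f c)) (hL : Sm (LX f c))
    (hd : ∀ x i, D (ee i) (lX f c) x = LX f c x * x i) (hW : ContDiff ℝ ∞ (wv f c E))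
    {g : X2 n → ℝ} (hg : Tst g) {H : En n → ℝ} (hH : Sm H) (i : Fin n) (x : En n) :
    D (ee i) (momt f c E g H) x = momt f c E (R1 f c g i) H x +
      ∑ a, momt f c E (R2 f c E g i a) (Ds ee [a] H) x := by
  have tk : ∀ {R : X2 n → ℝ} {h : En n → ℝ}, Tst R → Sm h →
      Tst fun p => Real.exp (-phi f c p) * R p * h (wv f c E p) := fun hR hh =>
    (hR.mul_left hφ.neg.exp).mul_right (ContDiff.comp hh hW)
  have ik : ∀ {R : X2 n → ℝ} {h : En n → ℝ}, Tst R → Sm h →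
      Integrable fun y => Real.exp (-phi f c (x, y)) * R (x, y) * h (wv f c E (x, y)) :=
    fun hR hh => ((hp n _).1 (tk hR hh).sm.cont (tk hR hh).2).2.2.2.1 x
  have hz : Tst fun p => zx f c g p i := hg.Dm hφ _
  have h1 : Tst (R1 f c g i) :=
    (hg.mul_left (((sm_fst hL).mul (sm_fst (sm_co i))).cmul _)).sub hz
  have h2 : ∀ a, Tst (R2 f c E g i a) := fun a =>
    hg.mul_right (Sm.D (ContDiff.comp (sm_co a) hW) _)
  obtain ⟨t1, t2⟩ := (hp n _).2 (tk hg hH)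
  have e : ∀ p, D (ex i) (fun p => Real.exp (-phi f c p) * g p * H (wv f c E p)) p =
      Real.exp (-phi f c p) * R1 f c g i p * H (wv f c E p) +
        (∑ a, Real.exp (-phi f c p) * R2 f c E g i a p * Ds ee [a] H (wv f c E p)) -
        (f.Cw + n / 2) * (LX f c p.1 * p.1 i) *
          (Real.exp (-phi f c p) * g p * H (wv f c E p)) := fun p => by
    have hH' : Sm fun q => H (wv f c E q) := ContDiff.comp hH hW
    rw [D_mul_at ((hφ.neg.exp.mul hg.sm).dAt p) (hH'.dAt p),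
      D_mul_at (hφ.neg.exp.dAt p) (hg.sm.dAt p), D_exp_at (hφ.neg.dAt p), D_neg, chain hW hH,
      Finset.mul_sum]
    have : ∀ a, Real.exp (-phi f c p) * R2 f c E g i a p * Ds ee [a] H (wv f c E p) =
        Real.exp (-phi f c p) * g p *
          (D (ex i) (fun q => wv f c E q a) p * D (ee a) H (wv f c E p)) := fun a => by
      simp only [R2, Ds, List.foldr]
      ring
    simp only [this, R1, zx, Dm]
    ring
  have hs : ∀ a, Sm (Ds ee [a] H) := fun a => hH.D _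
  unfold momt
  rw [D_mul_at ((hl.cmul _).exp.dAt x) (t1.sm.dAt x), (t2 i x).1, D_exp_at ((hl.cmul _).dAt x),
    D_const_mul_at (hl.dAt x), hd]
  simp only [e]
  rw [integral_sub (iadd (ik h1 hH) (integrable_finsetSum _ fun a _ => ik (h2 a) (hs a)))
    ((ik hg hH).const_mul _), integral_add (ik h1 hH)
    (integrable_finsetSum _ fun a _ => ik (h2 a) (hs a)),
    integral_finsetSum _ fun a _ => ik (h2 a) (hs a), integral_const_mul, ← Finset.mul_sum]
  ring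

lemma momt_mul (w : En n → ℝ) (g : X2 n → ℝ) (H : En n → ℝ) (x : En n) :
    momt f c E (fun p => w p.1 * g p) H x = w x * momt f c E g H x := by
  unfold momt
  rw [mul_left_comm, ← integral_const_mul (w x)]
  congr 2
  funext y
  ring

lemma D_wv (hl : Sm (lX f c)) (hd : ∀ x i, D (ee i) (lX f c) x = LX f c x * x i) (hE : SmM E)
    (i a : Fin n) (p : X2 n) : D (ex i) (fun q => wv f c E q a) p =
      LX f c p.1 * p.1 i * wv f c E p a + fX f c p.1 * (Uc E a i p - E a i p.1) := by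
  have hf : Sm (fX f c) := hl.exp
  have h1 : ∀ l, Sm fun q : X2 n => E a l q.1 * zz q l := fun l => (sm_fst (hE a l)).mul (sm_zz l)
  have e : (fun q => wv f c E q a) = fun q => fX f c q.1 * ∑ l, E a l q.1 * zz q l := rfl
  have e' : wv f c E p a = fX f c p.1 * ∑ l, E a l p.1 * zz p l := rfl
  have h2 : D (ee i) (fX f c) p.1 = fX f c p.1 * (LX f c p.1 * p.1 i) := by
    rw [← hd]
    exact D_exp_at (hl.dAt _) _
  rw [e, e', D_mul_at ((sm_fst hf).dAt p) ((Sm.sum fun l _ => h1 l).dAt p), D_fst hf, h2,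
    D_sum_at _ fun l _ => (h1 l).dAt p]
  have h3 : ∀ l, D (ex i) (fun q : X2 n => E a l q.1 * zz q l) p =
      D (ee i) (E a l) p.1 * zz p l - if l = i then E a l p.1 else 0 := fun l => by
    rw [D_mul_at ((sm_fst (hE a l)).dAt p) ((sm_zz l).dAt p), D_zz, D_fst (hE a l)]
    split_ifs <;> ring
  simp only [h3, Finset.sum_sub_distrib, Finset.sum_ite_eq', Finset.mem_univ, if_true, Uc]
  ring

lemma om_bd {p : X2 n} (h0 : ‖c.p0‖ = 1) (hp : p ∈ Om2 c) (i : Fin n) :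
    |p.1 i| ≤ 2 ∧ |zz p i| ≤ 1 := by
  obtain ⟨h1, h2⟩ := hp
  constructor
  · have := norm_add_le (p.1 - c.p0) c.p0
    rw [sub_add_cancel] at this
    exact (PiLp.norm_apply_le p.1 i).trans (by linarith)
  · have := norm_sub_le (p.2 - c.p0) (p.1 - c.p0)
    rw [sub_sub_sub_cancel_right] at this
    exact (PiLp.norm_apply_le (zz p) i).trans (this.trans (by linarith))

lemma uc_bd (hE : FrOk c E 1) {p : X2 n} (hz : ∀ i, |zz p i| ≤ 1) (a i : Fin n) :
    |Uc E a i p - E a i p.1| ≤ n + 2 := by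
  have h1 : |E a i p.1| ≤ 2 := by
    have h : |E a i p.1 - if a = i then 1 else 0| ≤ 1 := by
      simpa [Ds] using hE.2.1 a i p.1 [] (by simp)
    rw [abs_le] at h ⊢
    split_ifs at h <;> constructor <;> linarith [h.1, h.2]
  have h2 : ∀ l, |D (ee i) (E a l) p.1 * zz p l| ≤ 1 := fun l => by
    have h := hE.2.1 a l p.1 [i] (by simp)
    simp only [Ds, List.foldr, one_pow, mul_one] at h
    rw [D_sub_at ((hE.1 a l).dAt _) (differentiableAt_const _), D_const, sub_zero] at h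
    rw [abs_mul]
    exact mul_le_one₀ h (abs_nonneg _) (hz l)
  have h3 : |Uc E a i p| ≤ n :=
    (Finset.abs_sum_le_sum_abs _ _).trans ((Finset.sum_le_sum fun l _ => h2 l).trans (by simp))
  exact (abs_sub _ _).trans (add_le_add h3 h1)

lemma chk_sq (k : ℝ) (p : X2 n) : chk f c k p ^ 2 ≤ 1 :=
  pow_le_one₀ (Real.smoothTransition.nonneg _) (Real.smoothTransition.le_one _)

lemma alg1 {β L x χ u z d a N C : ℝ} (hx : |x| ≤ 2) (hL : L ^ 2 ≤ a) (hχ : χ ^ 2 ≤ 1)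
    (hz : z ^ 2 ≤ N) (hd : d ^ 2 ≤ C * a) (hC : 1 ≤ C) :
    (β * (L * x) * (χ * u) - (χ * z - d * u)) ^ 2 ≤ (8 * β ^ 2 + 4 * C) * (N + a * u ^ 2) := by
  have ha : 0 ≤ a := (sq_nonneg _).trans hL
  have hN : 0 ≤ N := (sq_nonneg _).trans hz
  have hx2 : x ^ 2 ≤ 4 := by nlinarith [sq_abs x, abs_nonneg x]
  have h1 : (β * (L * x) * (χ * u)) ^ 2 ≤ β ^ 2 * (a * 4) * (1 * u ^ 2) := by
    simp only [mul_pow]
    gcongr
  have h2 : (χ * z) ^ 2 ≤ 1 * N := by
    rw [mul_pow]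
    gcongr
  have h3 : (d * u) ^ 2 ≤ C * a * u ^ 2 := by
    rw [mul_pow]
    gcongr
  have h4 : 0 ≤ a * u ^ 2 := by positivity
  nlinarith [sq_nonneg (β * (L * x) * (χ * u) + (χ * z - d * u)), sq_nonneg (χ * z + d * u),
    mul_nonneg (sq_nonneg β) hN, mul_nonneg (sub_nonneg.2 hC) hN]

lemma alg2 {L x w F U a k v C B : ℝ} (hx : |x| ≤ 2) (hL1 : 1 ≤ L) (hL : L ^ 20 ≤ a)
    (hw : w ^ 2 ≤ 8 * k * v) (hk : k ≤ L) (hk0 : 0 ≤ k) (hv : v ≤ C * L) (hC : 1 ≤ C)
    (hF : F ^ 2 = a) (hU : |U| ≤ B) : (L * x * w + F * U) ^ 2 ≤ (64 * C + 2 * B ^ 2) * a := by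
  have hx2 : x ^ 2 ≤ 4 := by nlinarith [sq_abs x, abs_nonneg x]
  have h4 : L ^ 4 ≤ a := (pow_le_pow_right₀ hL1 (by norm_num)).trans hL
  have h5 : w ^ 2 ≤ 8 * L * (C * L) := hw.trans (by
    have : k * v ≤ k * (C * L) := mul_le_mul_of_nonneg_left hv hk0
    have : k * (C * L) ≤ L * (C * L) := mul_le_mul_of_nonneg_right hk (by positivity)
    linarith)
  have h1 : (L * x * w) ^ 2 ≤ L ^ 2 * 4 * (8 * L * (C * L)) := by
    simp only [mul_pow]
    gcongr
  have h2 : (F * U) ^ 2 ≤ a * B ^ 2 := by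
    rw [mul_pow, hF, ← sq_abs U]
    have : 0 ≤ a := hF ▸ sq_nonneg F
    gcongr
  have h3 : C * L ^ 4 ≤ C * a := mul_le_mul_of_nonneg_left h4 (by linarith)
  nlinarith [sq_nonneg (L * x * w - F * U)]

lemma fin_alg {J : Type} [Fintype J] {d M1 : Fin n → J → ℝ} {M2 : Fin n → Fin n → J → ℝ}
    {M0 F : J → ℝ} {β L m T A1 A2 : ℝ} (hβ : 0 ≤ β) (hm : 0 ≤ m) (hT : 0 ≤ T) (h1 : 0 ≤ A1)
    (h2 : 0 ≤ A2) (e1 : ∀ i j, d i j = M1 i j + ∑ a, M2 i a j) (e0 : ∀ j, M0 j = L * F j)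
    (b0 : ∑ j, M0 j ^ 2 ≤ T) (b1 : ∀ i, ∑ j, M1 i j ^ 2 ≤ A1 * T)
    (b2 : ∀ i a, ∑ j, M2 i a j ^ 2 ≤ A2 * (m + 1) * T) :
    ∑ j, (∑ i, d i j ^ 2 + ((m + β) * L) ^ 2 * F j ^ 2) ≤
      (2 * n * A1 + 2 * n ^ 3 * A2 + (1 + β) ^ 2) * (m + 1) ^ 2 * T := by
  have c1 : ∀ i j, d i j ^ 2 ≤ 2 * M1 i j ^ 2 + 2 * n * ∑ a, M2 i a j ^ 2 := fun i j => by
    have := sq_sum_le_card_mul_sum_sq (s := Finset.univ) (f := fun a => M2 i a j)
    simp only [Finset.card_univ, Fintype.card_fin] at this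
    rw [e1]
    nlinarith [sq_nonneg (M1 i j - ∑ a, M2 i a j)]
  have hm1 : 1 ≤ (m + 1) ^ 2 := by nlinarith
  have hm2 : m + 1 ≤ (m + 1) ^ 2 := by nlinarith
  have c2 : ∀ i, ∑ j, d i j ^ 2 ≤ (2 * A1 + 2 * n ^ 2 * A2) * (m + 1) ^ 2 * T := fun i => by
    refine (Finset.sum_le_sum fun j _ => c1 i j).trans ?_
    rw [Finset.sum_add_distrib, ← Finset.mul_sum, ← Finset.mul_sum, Finset.sum_comm]
    have c3 : ∑ a, ∑ j, M2 i a j ^ 2 ≤ n * (A2 * (m + 1) ^ 2 * T) :=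
      (Finset.sum_le_sum fun a _ => (b2 i a).trans
        (show _ ≤ A2 * (m + 1) ^ 2 * T by gcongr)).trans (by simp)
    have c4 : ∑ j, M1 i j ^ 2 ≤ A1 * (m + 1) ^ 2 * T :=
      (b1 i).trans (by gcongr; exact le_mul_of_one_le_right h1 hm1)
    have c5 := mul_le_mul_of_nonneg_left c3 (show (0 : ℝ) ≤ 2 * n by positivity)
    nlinarith
  have c6 : ∑ j, ((m + β) * L) ^ 2 * F j ^ 2 ≤ (1 + β) ^ 2 * (m + 1) ^ 2 * T := by
    have : ∀ j, ((m + β) * L) ^ 2 * F j ^ 2 = (m + β) ^ 2 * M0 j ^ 2 := fun j => by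
      rw [e0]
      ring
    simp only [this]
    rw [← Finset.mul_sum, ← mul_pow]
    have : 0 ≤ ∑ j, M0 j ^ 2 := Finset.sum_nonneg fun j _ => sq_nonneg _
    gcongr
    nlinarith [mul_nonneg hβ hm]
  rw [Finset.sum_add_distrib, Finset.sum_comm]
  have c7 : ∑ i, ∑ j, d i j ^ 2 ≤ n * ((2 * A1 + 2 * n ^ 2 * A2) * (m + 1) ^ 2 * T) :=
    (Finset.sum_le_sum fun i _ => c2 i).trans (by simp)
  nlinarith

end NZT

open NZT in
theorem s_NZT (h0 : S_w0) (h2 : S_w2) (h8 : S_w8) (hp : S_par) (hb : S_mbes) : S_NZT := by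
  intro n ι f hf
  obtain ⟨C2, hC2, H2⟩ := h2 n ι f hf
  obtain ⟨C8, hC8, H8⟩ := h8 n ι f hf
  obtain ⟨Cb, hCb, Hb⟩ := hb n ι f hf
  have hCw : 1 ≤ f.Cw := hf.2.2.2.2.2.2.2.2.2.2.2.1
  set β : ℝ := f.Cw + n / 2 with hβ
  have hβ0 : 0 ≤ β := by positivity
  set A1 : ℝ := 8 * β ^ 2 + 4 * C8 with hA1
  set A2 : ℝ := 64 * C2 + 2 * ((n : ℝ) + 2) ^ 2 with hA2
  have hA10 : 0 ≤ A1 := by positivity
  have hA20 : 0 ≤ A2 := by positivity
  set B : ℝ := 2 * n * A1 + 2 * n ^ 3 * A2 + (1 + β) ^ 2 with hB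
  have hB1 : 1 ≤ B := by
    have : 0 ≤ 2 * n * A1 + 2 * n ^ 3 * A2 := by positivity
    nlinarith
  refine ⟨Cb * B, one_le_mul_of_one_le_of_one_le hCb hB1, fun k hk => ?_⟩
  refine (((((h0 n ι f hf).and (H2 1 one_pos)).and (H8 k hk)).and (Hb k hk)).and
    (Ev.ok f one_pos k)).mono ?_
  rintro c ⟨⟨⟨⟨⟨sm, wx, wp, -⟩, w2⟩, sχ, zχ, sw, w8⟩, hbes⟩, hc⟩ F E u hF hE hu hsu m x
  obtain ⟨-, -, -, -, -, -, -, sv, -, sP, -, -, -, -, -, -, -, sφ, -, -, -, -, -, -, -, -, -, -,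
    -, -, -, -, -, -, -, -, -, sa, sL, sl, -⟩ := sm
  have hd : ∀ x i, D (ee i) (lX f c) x = LX f c x * x i := fun x => (wx x).2.2.2.2
  have hL1 : ∀ x, 1 ≤ LX f c x := fun x => hc.2.1.trans (wx x).2.1
  have hW := (sw E hE.1).1
  have hg : Tst (ck f c k u) := hu.mul_left sχ
  set G : X2 n → ℝ := fun p => n2 (zx f c u p) + aX f c p.1 * u p ^ 2 with hG
  have tG : Tst G :=
    (Tst.sum _ fun i _ => (hu.Dm sφ (ex i)).sq).add (hu.sq.mul_left (sm_fst sa))
  have hN0 : ∀ p, 0 ≤ n2 (zx f c u p) := fun p => Finset.sum_nonneg fun i _ => sq_nonneg _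
  have hG0 : ∀ p, 0 ≤ G p := fun p => add_nonneg (hN0 p) (mul_nonneg (wx _).1.le (sq_nonneg _))
  have mN : MeasurableSet {y | (x, y) ∈ Nk f c (2 * k)} :=
    (isClosed_le (sP.cont.comp (Continuous.prodMk_right x))
      (continuous_const.mul (sv.cont.comp (Continuous.prodMk_right x)))).measurableSet
  have iG : Integrable fun y => (Nk f c (2 * k)).indicator G (x, y) :=
    (((hp n G).1 tG.sm.cont tG.2).2.2.2.1 x).indicator mN
  set I := ∫ y, (Nk f c (2 * k)).indicator G (x, y) with hI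
  have hI0 : 0 ≤ I := integral_nonneg fun y => indicator_nonneg (fun p _ => hG0 p) _
  have tail : ∀ (R : X2 n → ℝ) (A : ℝ) (l : List (Fin n)), Continuous R → 0 ≤ A → l.length ≤ 2 →
      (∀ p, ¬ (p ∈ Om2 c ∧ p ∈ Nk f c (2 * k)) → R p = 0) →
      (∀ p ∈ Om2 c, p ∈ Nk f c (2 * k) → R p ^ 2 ≤ A * G p) →
      ∑ j, momt f c E R (Ds ee l (F.H m j)) x ^ 2 ≤
        A * ((m : ℝ) + 1) ^ l.length * (Cb * Real.exp (Cb * k * LX f c x) / 2 ^ m * I) := by
    intro R A l hR hA hl hz hle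
    have h1 := (hbes F E R hF hE hR (fun p h => by_contra fun h' => h (hz p h')) l hl x).2 m
    have h3 : ∫ y, R (x, y) ^ 2 ≤ A * I := by
      rw [hI, ← integral_const_mul]
      refine integral_mono_of_nonneg (ae_of_all _ fun y => sq_nonneg _) (iG.const_mul A)
        (ae_of_all _ fun y => ?_)
      by_cases h : (x, y) ∈ Om2 c ∧ (x, y) ∈ Nk f c (2 * k)
      · simp only [indicator_of_mem h.2]
        exact hle _ h.1 h.2
      · simp only [hz _ h, zero_pow two_ne_zero]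
        exact mul_nonneg hA (indicator_nonneg (fun p _ => hG0 p) _)
    refine h1.trans ((mul_le_mul_of_nonneg_left h3 (by positivity)).trans (le_of_eq ?_))
    ring
  have out : ∀ p, ¬ (p ∈ Om2 c ∧ p ∈ Nk f c (2 * k)) → ck f c k u =ᶠ[𝓝 p] 0 := by
    intro p h
    rcases not_and_or.1 h with h | h
    · filter_upwards [notMem_tsupport_iff_eventuallyEq.1 fun h' => h (hsu h')] with q hq
      simp [ck, hq]
    · filter_upwards [zχ p h] with q hq
      simp [ck, hq]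
  have out0 : ∀ p, ¬ (p ∈ Om2 c ∧ p ∈ Nk f c (2 * k)) → ck f c k u p = 0 := fun p h =>
    (out p h).self_of_nhds
  have hLa : ∀ p ∈ Om2 c, LX f c p.1 ^ 20 ≤ aX f c p.1 := fun p h => by
    simpa using (w2 p h).2.1
  have hL2 : ∀ p ∈ Om2 c, LX f c p.1 ^ 2 ≤ aX f c p.1 := fun p h =>
    (pow_le_pow_right₀ (hL1 _) (by norm_num)).trans (hLa p h)
  have hgu : ∀ p, ck f c k u p ^ 2 ≤ u p ^ 2 := fun p => by
    rw [ck, mul_pow]
    exact mul_le_of_le_one_left (sq_nonneg _) (chk_sq k p)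
  have b0 := tail (fun p => LX f c p.1 * ck f c k u p) 1 [] (hg.mul_left (sm_fst sL)).sm.cont
    zero_le_one (by simp) (fun p h => by simp [out0 p h]) fun p h _ => by
      rw [mul_pow, one_mul]
      exact le_add_of_nonneg_of_le (hN0 p)
        (mul_le_mul (hL2 p h) (hgu p) (sq_nonneg _) (wx _).1.le)
  have b1 := fun i => tail (R1 f c (ck f c k u) i) A1 []
    ((hg.mul_left (((sm_fst sL).mul (sm_fst (sm_co i))).cmul _)).sub (hg.Dm sφ _)).sm.cont hA10
    (by simp) (fun p h => by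
      simp only [R1, zx, Dm, out0 p h, D_congr (out p h), mul_zero, add_zero, zero_sub, neg_neg]
      exact D_const 0 _ _) fun p h h' => by
      have e : zx f c (ck f c k u) p i =
          chk f c k p * zx f c u p i - D (ex i) (chk f c k) p * u p :=
        congrFun (Dm_mul sχ hu.sm (ex i)) p
      have h1 : D (ex i) (chk f c k) p ^ 2 * (k * vv f c p) ≤ C8 * aX f c p.1 :=
        ((w8 p h h').2.1 (Sum.inl i)).1
      have h3 : 1 ≤ k * vv f c p :=
        one_le_mul_of_one_le_of_one_le hk (hc.2.1.trans (wp p).2.2.2.1)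
      rw [R1, e]
      exact alg1 (om_bd hc.2.2.2.2.1 h i).1 (hL2 p h) (chk_sq k p)
        (Finset.single_le_sum (f := fun i => zx f c u p i ^ 2) (fun _ _ => sq_nonneg _)
          (Finset.mem_univ i)) ((le_mul_of_one_le_right (sq_nonneg _) h3).trans h1) hC8
  have b2 := fun i a => tail (R2 f c E (ck f c k u) i a) A2 [a]
    (hg.mul_right (Sm.D (ContDiff.comp (sm_co a) hW) _)).sm.cont hA20 (by simp)
    (fun p h => by simp [R2, out0 p h]) fun p h h' => by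
      obtain ⟨q1, -, -, q2⟩ := w8 p h h'
      have h16 : p ∈ Nr f c 16 := le_trans (b := (1 : ℝ)) q1 (by norm_num)
      have h1 : wv f c E p a ^ 2 ≤ 8 * k * vv f c p := by
        have h3 : wv f c E p a ^ 2 ≤ ‖wv f c E p‖ ^ 2 := by
          rw [← sq_abs]
          exact pow_le_pow_left₀ (abs_nonneg _) (PiLp.norm_apply_le (wv f c E p) a) 2
        have h4 : Psi f c p ≤ 2 * k * vv f c p := h'
        linarith [(q2 E hE).2.1]
      have h3 := alg2 (om_bd hc.2.2.2.2.1 h i).1 (hL1 _) (hLa p h) h1 (hc.1.trans (wx _).2.1)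
        (by linarith) ((w2 p h).2.2.2.2.2.2.2.2.2.2.2.2.1 h16).2.2.2.2.2.1 hC2 (wx _).2.2.1
        (uc_bd hE (fun l => (om_bd hc.2.2.2.2.1 h l).2) a i)
      rw [R2, D_wv sl hd hE.1, mul_pow]
      have h4 := mul_le_mul (hgu p) h3 (sq_nonneg _) (sq_nonneg _)
      have h5 := mul_nonneg hA20 (hN0 p)
      simp only [hG]
      nlinarith
  simp only [List.length_nil, List.length_singleton, pow_zero, pow_one, mul_one, one_mul]
    at b0 b1 b2
  have key := fin_alg (β := β) (L := LX f c x) (F := fun j => fm f c F E (ck f c k u) m j x)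
    (d := fun i j => D (ee i) (fm f c F E (ck f c k u) m j) x) hβ0 (Nat.cast_nonneg m)
    (by positivity) hA10 hA20
    (fun i j => deriv_momt hp sφ sl sL hd hW hg (hF.1 m j) i x)
    (fun j => momt_mul (LX f c) _ _ x) b0 b1 b2
  have e : lamk n f.Cw m = m + β := by rw [lamk, hβ, add_assoc]
  simp only [nzD, e]
  refine key.trans ?_
  have h4 : Real.exp (Cb * k * LX f c x) ≤ Real.exp (Cb * B * k * LX f c x) := by
    have := hL1 x
    gcongr
    exact le_mul_of_one_le_right (by linarith) hB1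
  calc B * ((m : ℝ) + 1) ^ 2 * (Cb * Real.exp (Cb * k * LX f c x) / 2 ^ m * I)
      ≤ B * ((m : ℝ) + 1) ^ 2 * (Cb * Real.exp (Cb * B * k * LX f c x) / 2 ^ m * I) := by gcongr
    _ = _ := by ring

end Vale.Agent.P088
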