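import Vale.Agent.P088.StA

/-!
# P088: the chain inequality
-/

open MeasureTheory Set Metric
open scoped ContDiff Topology

noncomputable section
namespace Vale.Agent.P088
open Vale.Agent.P136 (D Dp Dm Sm Tst)

namespace Nzp

variable {n : ℕ} {A : ℝ}

/-- The data at a point. -/
structure Dat (n : ℕ) (A : ℝ) where
  γ : MatF n
  φ : En n → ℝ
  lam : ℝ
  L : ℝ
  x : En n
  hγ : SmM γ
  hφ : Sm φ
  hlam : 1 ≤ lam
  hL : 1 ≤ L
  bγ : ∀ i j, SB ee 4 2 L (γ i j) x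
  bφ : SB1 ee 4 (lam * A) L φ x

/-- Symbol classes with constants that are uniform in the data. -/
def Sy (k p q : ℕ) (f : Dat n A → En n → ℝ) : Prop :=
  ∃ C : ℝ, 0 ≤ C ∧ ∀ d, Sm (f d) ∧ SB ee k (C * (d.lam ^ p * d.L ^ q)) d.L (f d) d.x

theorem Dat.L0 (d : Dat n A) : 0 ≤ d.L := zero_le_one.trans d.hL

theorem Dat.w0 (d : Dat n A) (p q : ℕ) : 0 ≤ d.lam ^ p * d.L ^ q :=
  mul_nonneg (pow_nonneg (zero_le_one.trans d.hlam) _) (pow_nonneg d.L0 _)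

variable {k k' p p' q q' : ℕ} {f g : Dat n A → En n → ℝ}

theorem Sy.mono (ha : S_sbAlg) (h : Sy k p q f) (hk : k' ≤ k) (hp : p ≤ p') : Sy k' p' q f := by
  obtain ⟨C, hC, h⟩ := h
  refine ⟨C, hC, fun d => ⟨(h d).1, (ha _ _ ee k d.L d.x d.L0).2.1 _ _ _ _ _ (h d).2 hk ?_ le_rfl⟩⟩
  exact mul_le_mul_of_nonneg_left (mul_le_mul_of_nonneg_right (pow_le_pow_right₀ d.hlam hp)
    (pow_nonneg d.L0 _)) hC

theorem Sy.add (ha : S_sbAlg) (h : Sy k p q f) (h' : Sy k p q g) :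
    Sy k p q fun d x => f d x + g d x := by
  obtain ⟨C, hC, h⟩ := h
  obtain ⟨C', hC', h'⟩ := h'
  refine ⟨C + C', add_nonneg hC hC', fun d => ⟨(h d).1.add (h' d).1, ?_⟩⟩
  rw [add_mul]
  exact ((ha _ _ ee k d.L d.x d.L0).2.2.2.2.2.2.1 _ _ _ _ (h d).1.contDiffAt (h' d).1.contDiffAt
    (h d).2 (h' d).2).1

theorem Sy.sub (ha : S_sbAlg) (h : Sy k p q f) (h' : Sy k p q g) :
    Sy k p q fun d x => f d x - g d x := by
  obtain ⟨C, hC, h⟩ := h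
  obtain ⟨C', hC', h'⟩ := h'
  refine ⟨C + C', add_nonneg hC hC', fun d => ⟨(h d).1.sub (h' d).1, ?_⟩⟩
  rw [add_mul]
  exact ((ha _ _ ee k d.L d.x d.L0).2.2.2.2.2.2.1 _ _ _ _ (h d).1.contDiffAt (h' d).1.contDiffAt
    (h d).2 (h' d).2).2.1

theorem Sy.mul (ha : S_sbAlg) (h : Sy k p q f) (h' : Sy k p' q' g) :
    Sy k (p + p') (q + q') fun d x => f d x * g d x := by
  obtain ⟨C, hC, h⟩ := h
  obtain ⟨C', hC', h'⟩ := h'
  refine ⟨2 ^ k * C * C', by positivity, fun d => ⟨(h d).1.mul (h' d).1, ?_⟩⟩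
  have e : 2 ^ k * C * C' * (d.lam ^ (p + p') * d.L ^ (q + q')) =
      2 ^ k * (C * (d.lam ^ p * d.L ^ q)) * (C' * (d.lam ^ p' * d.L ^ q')) := by ring
  rw [e]
  exact ((ha _ _ ee k d.L d.x d.L0).2.2.2.2.2.2.1 _ _ _ _ (h d).1.contDiffAt (h' d).1.contDiffAt
    (h d).2 (h' d).2).2.2

theorem Sy.cmul (ha : S_sbAlg) (c : ℝ) (h : Sy k p q f) : Sy k p q fun d x => c * f d x := by
  obtain ⟨C, hC, h⟩ := h
  refine ⟨|c| * C, by positivity, fun d => ⟨(h d).1.cmul c, ?_⟩⟩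
  rw [mul_assoc]
  exact (ha _ _ ee k d.L d.x d.L0).2.2.2.2.2.1 _ _ _ (h d).1.contDiffAt (h d).2

theorem Sy.sum (ha : S_sbAlg) {f : Fin n → Dat n A → En n → ℝ} (h : ∀ i, Sy k p q (f i)) :
    Sy k p q fun d x => ∑ i, f i d x := by
  choose C hC h using h
  refine ⟨∑ i, C i, Finset.sum_nonneg fun i _ => hC i, fun d =>
    ⟨P136.Sm.sum fun i _ => (h i d).1, ?_⟩⟩
  rw [Finset.sum_mul]
  exact (ha _ _ ee k d.L d.x d.L0).2.2.2.2.2.2.2.1 _ _ (fun i => f i d) _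
    (fun i _ => (h i d).1.contDiffAt) fun i _ => (h i d).2

theorem Sy.der (ha : S_sbAlg) (h : Sy (k + 1) p q f) (i : Fin n) :
    Sy k p (q + 1) fun d => D (ee i) (f d) := by
  obtain ⟨C, hC, h⟩ := h
  refine ⟨C, hC, fun d => ⟨(h d).1.D _, ?_⟩⟩
  have e : C * (d.lam ^ p * d.L ^ (q + 1)) = C * (d.lam ^ p * d.L ^ q) * d.L := by ring
  rw [e]
  exact (ha _ _ ee k d.L d.x d.L0).2.2.2.1 _ _ _ (h d).2

theorem sy_gam (i j : Fin n) : Sy 4 0 0 fun d : Dat n A => d.γ i j :=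
  ⟨2, zero_le_two, fun d => ⟨d.hγ i j, by simpa using d.bγ i j⟩⟩

theorem sy_phi (ha : S_sbAlg) (hA : 0 ≤ A) (i : Fin n) :
    Sy 3 1 1 fun d : Dat n A => D (ee i) d.φ := by
  refine ⟨A, hA, fun d => ⟨d.hφ.D _, ?_⟩⟩
  have e : A * (d.lam ^ 1 * d.L ^ 1) = d.lam * A * d.L := by ring
  rw [e]
  exact (ha _ _ ee 3 d.L d.x d.L0).2.2.2.2.1 _ _ _ d.bφ

theorem sy_XX (ha : S_sbAlg) (hA : 0 ≤ A) (i : Fin n) :
    Sy 3 1 1 fun d : Dat n A => XX ee d.γ d.φ i :=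
  Sy.sum ha fun j => ((sy_gam i j).mono ha (by norm_num) le_rfl).mul ha (sy_phi ha hA j)

/-- The first-order coefficient without multiplier. -/
def Q0 (γ : MatF n) (φ : En n → ℝ) (i k : Fin n) : En n → ℝ := fun p =>
  8 * (∑ j, γ i j p * D (ee j) (XX ee γ φ k) p) - 4 * ∑ l, XX ee γ φ l p * D (ee l) (γ i k) p

/-- The zero-order coefficient without multiplier. -/
def c0 (γ : MatF n) (φ : En n → ℝ) : En n → ℝ := fun p =>
  1 / 2 * (∑ k, D (ee k) (fun q => ∑ i, (Q0 γ φ i k q + Q0 γ φ k i q) * D (ee i) φ q) p) +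
    2 * ∑ i, D (ee i) (fun q => ∑ j, γ i j q * D (ee j) (fun y => ∑ l, D (ee l) (XX ee γ φ l) y) q) p

theorem Qco_zero (γ : MatF n) (φ : En n → ℝ) (i k : Fin n) :
    Qco ee γ φ (fun _ _ => 0) i k = Q0 γ φ i k := by
  funext p
  simp [Qco, Q0, dir, dvg, P136.D_const]

theorem cco_zero (γ : MatF n) (φ : En n → ℝ) : cco ee γ φ (fun _ _ => 0) = c0 γ φ := by
  funext p
  have e1 : dir ee (fun _ _ => (0 : ℝ)) φ = fun _ => 0 := by
    funext q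
    simp [dir]
  have e2 : dgd ee γ (fun _ => 0) p = 0 := by
    have e3 : XX ee γ (fun _ => 0) = fun _ _ => 0 := by
      funext i q
      simp [XX, P136.D_const]
    simp [dgd, dvg, e3, P136.D_const]
  unfold cco
  rw [e1, e2]
  simp only [Qco_zero, dir, P136.D_const, mul_zero, zero_mul, Finset.sum_const_zero, dvg, add_zero,
    sub_zero]
  rfl

theorem sy_Q0 (ha : S_sbAlg) (hA : 0 ≤ A) (i k : Fin n) :
    Sy 2 1 2 fun d : Dat n A => Q0 d.γ d.φ i k :=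
  (Sy.cmul ha 8 (Sy.sum ha fun j => ((sy_gam i j).mono ha (by norm_num) le_rfl).mul ha
    ((sy_XX ha hA k).der ha j))).sub ha (Sy.cmul ha 4 (Sy.sum ha fun l =>
      (((sy_XX ha hA l).mul ha ((sy_gam i k).der ha l)).mono ha (by norm_num) le_rfl)))

theorem sy_c0 (ha : S_sbAlg) (hA : 0 ≤ A) : Sy 0 2 4 fun d : Dat n A => c0 d.γ d.φ := by
  have h1 : ∀ k : Fin n, Sy 1 2 3 fun (d : Dat n A) q =>
      ∑ i, (Q0 d.γ d.φ i k q + Q0 d.γ d.φ k i q) * D (ee i) d.φ q := fun k =>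
    Sy.sum ha fun i => (((sy_Q0 ha hA i k).add ha (sy_Q0 ha hA k i)).mono ha (by norm_num)
      le_rfl).mul ha ((sy_phi ha hA i).mono ha (by norm_num) le_rfl)
  have h2 : Sy 2 1 2 fun (d : Dat n A) y => ∑ l, D (ee l) (XX ee d.γ d.φ l) y :=
    Sy.sum ha fun l => (sy_XX ha hA l).der ha l
  have h3 : ∀ i : Fin n, Sy 1 2 3 fun (d : Dat n A) q => ∑ j, d.γ i j q *
      D (ee j) (fun y => ∑ l, D (ee l) (XX ee d.γ d.φ l) y) q := fun i =>
    (Sy.sum ha fun j => ((sy_gam i j).mono ha (by norm_num) le_rfl).mul ha (h2.der ha j)).mono ha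
      le_rfl (by norm_num)
  exact (Sy.cmul ha (1 / 2) (Sy.sum ha fun k => (h1 k).der ha k)).add ha
    (Sy.cmul ha 2 (Sy.sum ha fun i => (h3 i).der ha i))

theorem Sy.val (h : Sy k p q f) :
    ∃ C : ℝ, 0 ≤ C ∧ ∀ d, |f d d.x| ≤ C * (d.lam ^ p * d.L ^ q) := by
  obtain ⟨C, hC, h⟩ := h
  exact ⟨C, hC, fun d => by simpa [Ds] using (h d).2 [] (Nat.zero_le _)⟩

theorem quad {Q a b q E : ℝ} (hQ : |Q| ≤ q) (ha : a ^ 2 ≤ E) (hb : b ^ 2 ≤ E) :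
    -(q * E) ≤ Q * a * b := by
  have h1 : |a * b| ≤ E := abs_le.2 ⟨by nlinarith [sq_nonneg (a + b)], by
    nlinarith [sq_nonneg (a - b)]⟩
  have h2 : |Q * a * b| ≤ q * E := by
    rw [mul_assoc, abs_mul]
    exact mul_le_mul hQ h1 (abs_nonneg _) ((abs_nonneg _).trans hQ)
  exact (abs_le.1 h2).1

/-- The pointwise bound for the error terms. -/
theorem pointwise (ha : S_sbAlg) (hA : 1 ≤ A) : ∃ C : ℝ, 0 ≤ C ∧ ∀ (d : Dat n A) (u : En n → ℝ),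
    -(C * d.lam * (d.L ^ 2 * (∑ i, D (ee i) u d.x ^ 2 + (d.lam * d.L) ^ 2 * u d.x ^ 2))) ≤
      ∑ i, ∑ k, Q0 d.γ d.φ i k d.x * Dm d.φ (ee i) u d.x * Dm d.φ (ee k) u d.x -
        c0 d.γ d.φ d.x * u d.x ^ 2 := by
  have hA0 : 0 ≤ A := zero_le_one.trans hA
  choose Cq hq0 hq using fun i k => (sy_Q0 (n := n) ha hA0 i k).val
  obtain ⟨Cc, hc0, hc⟩ := (sy_c0 (n := n) ha hA0).val
  have hs : 0 ≤ ∑ i, ∑ k, Cq i k :=
    Finset.sum_nonneg fun i _ => Finset.sum_nonneg fun k _ => hq0 i k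
  refine ⟨(∑ i, ∑ k, Cq i k) * (2 * A ^ 2) + Cc, by positivity, fun d u => ?_⟩
  obtain ⟨G, hG⟩ : ∃ G, G = ∑ i, D (ee i) u d.x ^ 2 := ⟨_, rfl⟩
  obtain ⟨Z, hZ⟩ : ∃ Z, Z = (d.lam * d.L) ^ 2 * u d.x ^ 2 := ⟨_, rfl⟩
  have hG0 : 0 ≤ G := hG ▸ Finset.sum_nonneg fun i _ => sq_nonneg _
  have hZ0 : 0 ≤ Z := hZ ▸ by positivity
  have hA2 : 1 ≤ A ^ 2 := one_le_pow₀ hA
  have h1 : ∀ i, Dm d.φ (ee i) u d.x ^ 2 ≤ 2 * A ^ 2 * (G + Z) := fun i => by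
    have a1 : D (ee i) u d.x ^ 2 ≤ G := hG ▸ Finset.single_le_sum
      (f := fun i => D (ee i) u d.x ^ 2) (fun i _ => sq_nonneg _) (Finset.mem_univ i)
    have a2 : |D (ee i) d.φ d.x| ≤ d.lam * A * d.L ^ 1 := d.bφ [i] (by simp) (by simp)
    have a3 : D (ee i) d.φ d.x ^ 2 ≤ (d.lam * A * d.L ^ 1) ^ 2 := by
      rw [← sq_abs]
      exact pow_le_pow_left₀ (abs_nonneg _) a2 2
    have a4 := mul_le_mul_of_nonneg_right a3 (sq_nonneg (u d.x))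
    have a5 : (d.lam * A * d.L ^ 1) ^ 2 * u d.x ^ 2 = A ^ 2 * Z := by rw [hZ]; ring
    have a6 := mul_le_mul_of_nonneg_right hA2 hG0
    have a7 := sq_nonneg (D (ee i) u d.x + D (ee i) d.φ d.x * u d.x)
    unfold Dm
    linarith
  have h2 : -((∑ i, ∑ k, Cq i k) * ((d.lam ^ 1 * d.L ^ 2) * (2 * A ^ 2 * (G + Z)))) ≤
      ∑ i, ∑ k, Q0 d.γ d.φ i k d.x * Dm d.φ (ee i) u d.x * Dm d.φ (ee k) u d.x := by
    rw [Finset.sum_mul, ← Finset.sum_neg_distrib]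
    refine Finset.sum_le_sum fun i _ => ?_
    rw [Finset.sum_mul, ← Finset.sum_neg_distrib]
    refine Finset.sum_le_sum fun k _ => ?_
    rw [← mul_assoc]
    exact quad (hq i k d) (h1 i) (h1 k)
  have h3 := mul_le_mul_of_nonneg_right ((le_abs_self _).trans (hc d)) (sq_nonneg (u d.x))
  have h4 : Cc * (d.lam ^ 2 * d.L ^ 4) * u d.x ^ 2 = Cc * (d.L ^ 2 * Z) := by rw [hZ]; ring
  have h5 : Cc * (d.L ^ 2 * Z) ≤ Cc * (d.lam * (d.L ^ 2 * (G + Z))) := by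
    refine mul_le_mul_of_nonneg_left ?_ hc0
    have a1 : d.L ^ 2 * Z ≤ d.L ^ 2 * (G + Z) :=
      mul_le_mul_of_nonneg_left (by linarith) (sq_nonneg _)
    exact a1.trans (le_mul_of_one_le_left (by positivity) d.hlam)
  rw [← hG, ← hZ]
  linarith

theorem tst_Lm {γ : MatF n} {φ u : En n → ℝ} (hγ : SmM γ) (hφ : Sm φ) (hu : Tst u) :
    Tst (Lm ee γ φ u) :=
  P136.Tst.sum _ fun i _ => P136.Tst.Dm hφ
    (P136.Tst.sum _ fun j _ => P136.Tst.mul_left (hγ i j) (hu.Dm hφ _)) _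

theorem tst_Lp {γ : MatF n} {φ u : En n → ℝ} (hγ : SmM γ) (hφ : Sm φ) (hu : Tst u) :
    Tst (Lp' ee γ φ u) :=
  P136.Tst.sum _ fun i _ => P136.Tst.Dp hφ
    (P136.Tst.sum _ fun j _ => P136.Tst.mul_left (hγ i j) (hu.Dp hφ _)) _

theorem sm_psi {ℓ : En n → ℝ} (hℓ : Sm ℓ) (Cw : ℝ) (k : ℕ) : Sm (psik ℓ Cw k) := hℓ.cmul _

theorem tst_B (F : Fock n) {e : MatF n} {ℓ : En n → ℝ} (he : SmM e) (hℓ : Sm ℓ) (Cw : ℝ) (k : ℕ)
    {f : Fin (F.d k) → En n → ℝ} (hf : ∀ i, Tst (f i)) (j : Fin (F.d (k + 1))) :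
    Tst (nzB F e ℓ Cw k f j) :=
  P136.Tst.mul_left (hℓ.exp.cmul (-2)) (P136.Tst.sum _ fun a _ => P136.Tst.sum _ fun i _ =>
    P136.Tst.const_mul _ (P136.Tst.sum _ fun l _ =>
      P136.Tst.Dm (sm_psi hℓ Cw k) (P136.Tst.mul_left (he a l) (hf i)) _))

theorem tst_L (F : Fock n) {e : MatF n} {ℓ : En n → ℝ} (he : SmM e) (hℓ : Sm ℓ) (Cw : ℝ) (k : ℕ)
    {f : Fin (F.d (k + 1)) → En n → ℝ} (hf : ∀ i, Tst (f i)) (i : Fin (F.d k)) :
    Tst (nzL F e ℓ Cw k f i) :=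
  P136.Tst.const_mul _ (P136.Tst.sum _ fun a _ => P136.Tst.sum _ fun j _ =>
    P136.Tst.const_mul _ (P136.Tst.sum _ fun l _ => P136.Tst.mul_left (he a l)
      (P136.Tst.Dp (sm_psi hℓ Cw (k + 2)) (P136.Tst.mul_left hℓ.exp (hf j)) _)))

theorem int_one {m Lf u : En n → ℝ} (hm : Continuous m) (hL : Continuous Lf) (hu : Tst u)
    (lam : ℝ) :
    Integrable fun x => m x * (∑ i, D (ee i) u x ^ 2 + (lam * Lf x) ^ 2 * u x ^ 2) := by
  have h1 : Integrable fun x => m x * ∑ i, D (ee i) u x ^ 2 :=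
    (P136.Tst.sum _ fun i _ => (hu.D (ee i)).sq).integrable_cmul hm
  have h2 : Integrable fun x => (m x * (lam * Lf x) ^ 2) * u x ^ 2 :=
    hu.sq.integrable_cmul (hm.mul ((continuous_const.mul hL).pow 2))
  refine (P136.iadd h1 h2).congr (Filter.Eventually.of_forall fun x => ?_)
  ring

theorem int_nzD {m Lf : En n → ℝ} (hm : Continuous m) (hL : Continuous Lf) (Cw : ℝ) (k : ℕ)
    {J : Type} [Fintype J] {f : J → En n → ℝ} (hf : ∀ j, Tst (f j)) :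
    Integrable fun x => m x * nzD Cw Lf k f x := by
  simp only [nzD, Finset.mul_sum]
  exact integrable_finsetSum _ fun j _ => int_one hm hL (hf j) _

theorem nzD_nonneg (Lf : En n → ℝ) (Cw : ℝ) (k : ℕ) {J : Type} [Fintype J] (f : J → En n → ℝ)
    (x : En n) : 0 ≤ nzD Cw Lf k f x :=
  Finset.sum_nonneg fun _ _ => add_nonneg (Finset.sum_nonneg fun _ _ => sq_nonneg _)
    (mul_nonneg (sq_nonneg _) (sq_nonneg _))

theorem sb_gam (ha : S_sbAlg) {γ : MatF n} {om L : ℝ} (hγ : SmM γ) (h : Near 4 om γ) (hom : om ≤ 1)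
    (hL : 1 ≤ L) (i j : Fin n) (x : En n) : SB ee 4 2 L (γ i j) x := by
  have h1 := ((ha _ _ ee 4 1 x zero_le_one).2.2.2.2.2.2.1 _ _ _ _
    ((hγ i j).sub (P136.Sm.const _)).contDiffAt contDiffAt_const (h i j x)
    ((ha _ _ ee 4 1 x zero_le_one).2.2.1 (if i = j then 1 else 0))).1
  simp only [sub_add_cancel] at h1
  refine (ha _ _ ee 4 1 x zero_le_one).2.1 _ _ _ _ _ h1 le_rfl ?_ hL
  split_ifs
  · rw [abs_one]
    linarith
  · rw [abs_zero]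
    linarith

theorem sb_phi (ha : S_sbAlg) {ℓ : En n → ℝ} {L lam : ℝ} {x : En n} (hℓ : Sm ℓ) (hL : 0 ≤ L)
    (hlam : 0 ≤ lam) (h : SB1 ee 4 A L ℓ x) : SB1 ee 4 (lam * A) L (fun y => lam * ℓ y) x := by
  intro l hl hk
  obtain ⟨l', i, rfl⟩ := (List.eq_nil_or_concat' l).resolve_left hl
  have h1 := (ha _ _ ee 3 L x hL).2.2.2.2.2.1 _ _ lam (hℓ.D (ee i)).contDiffAt
    ((ha _ _ ee 3 L x hL).2.2.2.2.1 _ _ i h)
  have e : D (ee i) (fun y => lam * ℓ y) = fun y => lam * D (ee i) ℓ y :=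
    funext fun y => P136.D_const_mul_at (hℓ.dAt y) lam _
  rw [List.length_append, List.length_singleton] at hk ⊢
  have h2 := h1 l' (by omega)
  rw [abs_of_nonneg hlam, ← e] at h2
  rw [Ds, List.foldr_append]
  refine h2.trans (le_of_eq ?_)
  ring

/-- The commutator estimate for one function. -/
theorem diag (hDI : S_DI) (ha : S_sbAlg) (hA : 1 ≤ A) : ∃ C : ℝ, 0 ≤ C ∧
    ∀ (γ e : MatF n) (ℓ Lf : En n → ℝ) (om lam : ℝ) (S : Set (En n)) (u : En n → ℝ), om ≤ 1 →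
      1 ≤ lam → ChainOk γ e ℓ A om Lf S → IsTest S u →
      (∫ x, Lp' ee γ (fun y => lam * ℓ y) u x ^ 2) -
        C * lam * ∫ x, Lf x ^ 2 * (∑ i, D (ee i) u x ^ 2 + (lam * Lf x) ^ 2 * u x ^ 2) ≤
      ∫ x, Lm ee γ (fun y => lam * ℓ y) u x ^ 2 := by
  obtain ⟨C, hC, h⟩ := pointwise (n := n) ha hA
  refine ⟨C, hC, fun γ e ℓ Lf om lam S u hom hlam hc hu => ?_⟩
  obtain ⟨hγ, hs, hn, -, -, hℓ, hL, hL1, hS⟩ := hc
  have hφ : Sm fun y => lam * ℓ y := hℓ.cmul lam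
  have h1 := hDI _ volume _ ee γ _ u (fun _ _ => 0) hγ hs hφ hu.1 fun _ => P136.Sm.const 0
  have hX : ∀ k, Sm (XX ee γ (fun y => lam * ℓ y) k) := fun k =>
    P136.Sm.sum fun j _ => (hγ k j).mul (hφ.D _)
  have hQ : ∀ i k, Sm (Q0 γ (fun y => lam * ℓ y) i k) := fun i k =>
    ((P136.Sm.sum fun j _ => (hγ i j).mul ((hX k).D _)).cmul 8).sub
      ((P136.Sm.sum fun l _ => (hX l).mul ((hγ i k).D _)).cmul 4)
  have hc0 : Sm (c0 γ fun y => lam * ℓ y) :=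
    ((P136.Sm.sum fun k _ => (P136.Sm.sum fun i _ =>
      ((hQ i k).add (hQ k i)).mul (hφ.D _)).D _).cmul _).add ((P136.Sm.sum fun i _ =>
        (P136.Sm.sum fun j _ => (hγ i j).mul ((P136.Sm.sum fun l _ => (hX l).D _).D _)).D _).cmul 2)
  have i1 : Integrable fun p => ∑ i, ∑ k, Q0 γ (fun y => lam * ℓ y) i k p *
      Dm (fun y => lam * ℓ y) (ee i) u p * Dm (fun y => lam * ℓ y) (ee k) u p :=
    (P136.Tst.sum _ fun i _ => P136.Tst.sum _ fun k _ => P136.Tst.mul_left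
      ((hQ i k).mul (hu.1.Dm hφ _).sm) (hu.1.Dm hφ _)).integrable
  have i2 : Integrable fun p => c0 γ (fun y => lam * ℓ y) p * u p ^ 2 :=
    hu.1.sq.integrable_cmul hc0.cont
  have i3 := int_one (hL.pow 2) hL hu.1 lam
  simp only [Nop, zero_mul, Finset.sum_const_zero, mul_zero, add_zero, Qco_zero, cco_zero,
    ne_eq, OfNat.ofNat_ne_zero, not_false_eq_true, zero_pow, integral_zero, sub_zero] at h1
  have h2 := integral_mono (i3.const_mul (C * lam)).neg (P136.isub i1 i2) fun x => by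
    by_cases hx : x ∈ S
    · exact h ⟨γ, fun y => lam * ℓ y, lam, Lf x, x, hγ, hφ, hlam, hL1 x,
        fun i j => sb_gam ha hγ hn hom (hL1 x) i j x,
        sb_phi ha hℓ (zero_le_one.trans (hL1 x)) (zero_le_one.trans hlam) (hS x hx).1⟩ u
    · have hx' : x ∉ tsupport u := fun h => hx (hu.2 h)
      simp [Dm, P136.D_eq_zero_of_notMem hx', image_eq_zero_of_notMem_tsupport hx']
  simp only [Pi.neg_apply, Pi.pow_apply] at h2
  rw [integral_neg, integral_const_mul, integral_sub i1 i2] at h2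
  linarith

theorem comb {S a a' b l X Y g P Q R : ℕ → ℝ} {C1 C2 C3 C : ℝ} (h2 : 4 * C2 ≤ C) (h1 : C1 ≤ C)
    (h3 : C3 ≤ C) (hP : ∀ k, 0 ≤ P k) (hQ : ∀ k, 0 ≤ Q k) (hR : ∀ k, 0 ≤ R k)
    (S0 : S 0 = a 0) (Ss : ∀ k, S (k + 1) = a (k + 1) + b k + 2 * X k) (l0 : l 0 = 0)
    (hX : ∀ k, Y k - C2 * (P k + P (k + 1)) ≤ X k) (hY : ∀ k, -a' k - l (k + 1) ≤ 2 * Y k)
    (ha : ∀ k, a' k - C3 * Q k ≤ a k) (hb : ∀ k, g k - C1 * R k ≤ b k - l k) (K : ℕ) :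
    ∑ k ∈ Finset.range K, g k - C * ∑ k ∈ Finset.range K, (P k + Q k + R k) - l K + a K -
      2 * C2 * (P K - P 0) ≤ ∑ k ∈ Finset.range (K + 1), S k := by
  induction K with
  | zero => simp [S0, l0]
  | succ K ih =>
    rw [Finset.sum_range_succ, Finset.sum_range_succ, Finset.sum_range_succ _ (K + 1), Ss]
    have a1 := mul_le_mul_of_nonneg_right h2 (hP K)
    have a2 := mul_le_mul_of_nonneg_right h1 (hR K)
    have a3 := mul_le_mul_of_nonneg_right h3 (hQ K)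
    linarith [hX K, hY K, ha K, hb K]

theorem last {C1 C2 C4 g E l a P P0 Q R T S : ℝ} (h1 : 0 ≤ C1) (h2 : 0 ≤ C2) (h4 : 0 ≤ C4)
    (key : g - (C1 + 4 * C2 + C4) * E - l + a - 2 * C2 * (P - P0) ≤ S) (a1 : l ≤ C1 * T)
    (a2 : 0 ≤ a) (a3 : 0 ≤ T) (hP0 : 0 ≤ P0) (hP : 0 ≤ P) (hQ : 0 ≤ Q) (hR : 0 ≤ R) :
    g - (C1 + 4 * C2 + C4) * (E + (P + Q + R)) - (C1 + 4 * C2 + C4) * T ≤ S := by
  have a4 := mul_nonneg h2 hP0
  have a5 := mul_nonneg (add_nonneg (add_nonneg h1 h2) h4) hP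
  have a6 := mul_nonneg h2 hP
  have a7 := mul_nonneg (add_nonneg (add_nonneg h1 (mul_nonneg zero_le_four h2)) h4)
    (add_nonneg hQ hR)
  have a8 := mul_nonneg (add_nonneg (mul_nonneg zero_le_four h2) h4) a3
  linarith

theorem sq_add {J : Type} [Fintype J] {u v : J → En n → ℝ} (hu : ∀ j, Tst (u j))
    (hv : ∀ j, Tst (v j)) : ∑ j, ∫ x, (u j x + v j x) ^ 2 =
      (∑ j, ∫ x, u j x ^ 2) + (∑ j, ∫ x, v j x ^ 2) + 2 * ∑ j, ∫ x, u j x * v j x := by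
  rw [Finset.mul_sum, ← Finset.sum_add_distrib, ← Finset.sum_add_distrib]
  refine Finset.sum_congr rfl fun j _ => ?_
  have i1 : Integrable fun x => u j x ^ 2 := (hu j).sq.integrable
  have i2 : Integrable fun x => v j x ^ 2 := (hv j).sq.integrable
  have i3 : Integrable fun x => 2 * (u j x * v j x) :=
    (P136.Tst.mul_left (hu j).sm (hv j)).integrable.const_mul 2
  rw [← integral_const_mul, ← integral_add i1 i2, ← integral_add (P136.iadd i1 i2) i3]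
  refine integral_congr_ae (Filter.Eventually.of_forall fun x => ?_)
  ring

end Nzp

open Nzp in
theorem s_nzp (h1 : S_nzp1) (h2 : S_nzp2) (hDI : S_DI) (ha : S_sbAlg) : S_nzp := by
  intro n hn A hA
  obtain ⟨c, hc, h1⟩ := h1 n hn A hA
  refine ⟨c, hc, fun Cw hCw => ?_⟩
  obtain ⟨C1, om₀, hC1, hom₀, h1⟩ := h1 Cw hCw
  obtain ⟨C2, hC2, h2⟩ := h2 n hn A Cw hA hCw
  obtain ⟨C3, hC3, h3⟩ := diag (n := n) hDI ha hA
  have hn0 : (0 : ℝ) ≤ n := Nat.cast_nonneg n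
  have hC4 : 0 ≤ C3 * (Cw + n) := mul_nonneg hC3 (by linarith)
  refine ⟨C1 + 4 * C2 + C3 * (Cw + n), min om₀ 1, by linarith, lt_min hom₀ one_pos,
    fun F γ e ℓ Lf om S K f hF hom hch hf => ?_⟩
  have hom1 := hom.trans (min_le_right _ _)
  have hom2 := hom.trans (min_le_left _ _)
  obtain ⟨hγ, -, hn', he, -, hℓ, hL, hL1, -⟩ := id hch
  have hom0 : 0 ≤ om := by
    have := (abs_nonneg _).trans (hn' ⟨0, by omega⟩ ⟨0, by omega⟩ 0 [] (Nat.zero_le _))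
    simpa using this
  have hL0 : ∀ x, 0 < Lf x := fun x => one_pos.trans_le (hL1 x)
  have ht : ∀ k j, Tst (f k j) := fun k j => (hf k j).1
  have cE : Continuous fun x => Real.exp (2 * ℓ x) := (hℓ.cmul 2).exp.cont
  have iP : ∀ m k : ℕ, Integrable fun x =>
      Real.exp (ℓ x) * √((m : ℝ) + 1) * Lf x * nzD Cw Lf k (f k) x := fun m k =>
    int_nzD ((hℓ.exp.cont.mul continuous_const).mul hL) hL Cw k (ht k)
  have iQ : ∀ k : ℕ, Integrable fun x => ((k : ℝ) + 1) * Lf x ^ 2 * nzD Cw Lf k (f k) x := fun k =>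
    int_nzD (continuous_const.mul (hL.pow 2)) hL Cw k (ht k)
  have iR : ∀ k : ℕ, Integrable fun x =>
      om * Real.exp (2 * ℓ x) / Lf x * nzD Cw Lf k (f k) x := fun k =>
    int_nzD ((continuous_const.mul cE).div hL fun x => (hL0 x).ne') hL Cw k (ht k)
  have ig : ∀ k : ℕ, Integrable fun x =>
      c * Real.exp (2 * ℓ x) / (k + 1) * nzD Cw Lf k (f k) x := fun k =>
    int_nzD ((continuous_const.mul cE).div_const _) hL Cw k (ht k)
  have hP : ∀ k : ℕ, 0 ≤ ∫ x, Real.exp (ℓ x) * √((k : ℝ) + 1) * Lf x * nzD Cw Lf k (f k) x :=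
    fun k => integral_nonneg fun x => mul_nonneg (mul_nonneg (mul_nonneg (Real.exp_pos _).le
      (Real.sqrt_nonneg _)) (hL0 x).le) (nzD_nonneg _ _ _ _ _)
  have hQ : ∀ k : ℕ, 0 ≤ ∫ x, ((k : ℝ) + 1) * Lf x ^ 2 * nzD Cw Lf k (f k) x := fun k =>
    integral_nonneg fun x => mul_nonneg (by positivity) (nzD_nonneg _ _ _ _ _)
  have hR : ∀ k : ℕ, 0 ≤ ∫ x, om * Real.exp (2 * ℓ x) / Lf x * nzD Cw Lf k (f k) x := fun k =>
    integral_nonneg fun x => mul_nonneg (div_nonneg (mul_nonneg hom0 (Real.exp_pos _).le)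
      (hL0 x).le) (nzD_nonneg _ _ _ _ _)
  have key := comb (S := fun k => ∑ j, ∫ x, nzS F γ e ℓ Cw f k j x ^ 2)
    (a := fun k => ∑ j, ∫ x, Lm ee γ (psik ℓ Cw k) (f k j) x ^ 2)
    (a' := fun k => ∑ j, ∫ x, Lp' ee γ (psik ℓ Cw k) (f k j) x ^ 2)
    (b := fun k => ∑ j, ∫ x, nzB F e ℓ Cw k (f k) j x ^ 2)
    (l := fun k => nzL2 F e ℓ Cw k (f k))
    (X := fun k => ∑ j, ∫ x, Lm ee γ (psik ℓ Cw (k + 1)) (f (k + 1) j) x * nzB F e ℓ Cw k (f k) j x)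
    (Y := fun k => ∑ i, ∫ x, Lp' ee γ (psik ℓ Cw k) (f k i) x * nzL F e ℓ Cw k (f (k + 1)) i x)
    (g := fun k => ∫ x, c * Real.exp (2 * ℓ x) / (k + 1) * nzD Cw Lf k (f k) x)
    (C1 := C1) (C2 := C2) (C3 := C3 * (Cw + n)) (C := C1 + 4 * C2 + C3 * (Cw + n))
    (by linarith) (by linarith) (by linarith) hP hQ hR rfl
    (fun k => sq_add (fun j => tst_Lm hγ (sm_psi hℓ Cw _) (ht _ j)) (tst_B F he hℓ Cw k (ht k)))
    rfl (fun k => ?_) (fun k => ?_) (fun k => ?_) (fun k => ?_) K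
  · have e1 : ∀ k : ℕ, ∫ x, (Real.exp (ℓ x) * √((k : ℝ) + 1) * Lf x + (k + 1) * Lf x ^ 2 +
        om * Real.exp (2 * ℓ x) / Lf x) * nzD Cw Lf k (f k) x =
        (∫ x, Real.exp (ℓ x) * √((k : ℝ) + 1) * Lf x * nzD Cw Lf k (f k) x) +
        (∫ x, ((k : ℝ) + 1) * Lf x ^ 2 * nzD Cw Lf k (f k) x) +
        ∫ x, om * Real.exp (2 * ℓ x) / Lf x * nzD Cw Lf k (f k) x := fun k => by
      rw [← integral_add (iP k k) (iQ k), ← integral_add (P136.iadd (iP k k) (iQ k)) (iR k)]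
      simp only [add_mul]
    simp only [e1]
    rw [Finset.sum_range_succ]
    have a1 := (h1 F γ e ℓ Lf om S K (f K) hF hom2 hch (hf K)).2
    have a2 : 0 ≤ ∑ j, ∫ x, Lm ee γ (psik ℓ Cw K) (f K j) x ^ 2 :=
      Finset.sum_nonneg fun j _ => integral_nonneg fun x => sq_nonneg _
    have a3 : 0 ≤ ∫ x, Real.exp (2 * ℓ x) * (K + 1) * nzD Cw Lf K (f K) x :=
      integral_nonneg fun x => mul_nonneg (by positivity) (nzD_nonneg _ _ _ _ _)
    exact last hC1 hC2 hC4 key a1 a2 a3 (hP 0) (hP K) (hQ K) (hR K)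
  · have a1 := (abs_le.1 (h2 F γ e ℓ Lf om S k (f k) (f (k + 1)) hF hom1 hch (hf k)
      (hf (k + 1)))).1
    simp only [mul_add] at a1
    rw [integral_add (iP k k) (iP k (k + 1))] at a1
    have a2 := integral_mono (iP k (k + 1)) (iP (k + 1) (k + 1)) fun x =>
      mul_le_mul_of_nonneg_right (mul_le_mul_of_nonneg_right (mul_le_mul_of_nonneg_left
        (Real.sqrt_le_sqrt (by push_cast; linarith)) (Real.exp_pos _).le) (hL0 x).le)
        (nzD_nonneg _ _ _ _ _)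
    have a3 := mul_le_mul_of_nonneg_left a2 hC2
    linarith
  · have a1 := sq_add (fun j => tst_Lp hγ (sm_psi hℓ Cw k) (ht k j))
      (tst_L F he hℓ Cw k (ht (k + 1)))
    have a2 : 0 ≤ ∑ j, ∫ x, (Lp' ee γ (psik ℓ Cw k) (f k j) x +
        nzL F e ℓ Cw k (f (k + 1)) j x) ^ 2 :=
      Finset.sum_nonneg fun j _ => integral_nonneg fun x => sq_nonneg _
    have a3 : nzL2 F e ℓ Cw (k + 1) (f (k + 1)) =
      ∑ i, ∫ x, nzL F e ℓ Cw k (f (k + 1)) i x ^ 2 := rfl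
    linarith
  · have hk : (0 : ℝ) ≤ k := Nat.cast_nonneg k
    have b1 : 1 ≤ lamk n Cw k := by
      unfold lamk
      linarith
    have b2 : lamk n Cw k ≤ (Cw + n) * (k + 1) := by
      have := mul_nonneg hk (show 0 ≤ Cw + n - 1 by linarith)
      unfold lamk
      linarith
    have a1 := Finset.sum_le_sum fun j (_ : j ∈ Finset.univ) =>
      h3 γ e ℓ Lf om (lamk n Cw k) S (f k j) hom1 b1 hch (hf k j)
    rw [Finset.sum_sub_distrib, ← Finset.mul_sum, ← integral_finsetSum _ fun j _ =>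
      int_one (m := fun x => Lf x ^ 2) (hL.pow 2) hL (ht k j) _] at a1
    have a2 : ∫ x, ((k : ℝ) + 1) * Lf x ^ 2 * nzD Cw Lf k (f k) x = (k + 1) * ∫ x, ∑ j,
        Lf x ^ 2 * (∑ i, D (ee i) (f k j) x ^ 2 + (lamk n Cw k * Lf x) ^ 2 * f k j x ^ 2) := by
      rw [← integral_const_mul]
      simp only [nzD, mul_assoc, ← Finset.mul_sum]
    have a3 : 0 ≤ ∫ x, ∑ j,
        Lf x ^ 2 * (∑ i, D (ee i) (f k j) x ^ 2 + (lamk n Cw k * Lf x) ^ 2 * f k j x ^ 2) :=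
      integral_nonneg fun x => Finset.sum_nonneg fun j _ => mul_nonneg (sq_nonneg _)
        (add_nonneg (Finset.sum_nonneg fun _ _ => sq_nonneg _) (by positivity))
    have a4 := mul_le_mul_of_nonneg_left (mul_le_mul_of_nonneg_right b2 a3) hC3
    rw [a2]
    refine le_trans ?_ a1
    have a5 : ∑ j, ∫ x, Lp' ee γ (psik ℓ Cw k) (f k j) x ^ 2 =
      ∑ j, ∫ x, Lp' ee γ (fun y => lamk n Cw k * ℓ y) (f k j) x ^ 2 := rfl
    linarith
  · have a1 := (h1 F γ e ℓ Lf om S k (f k) hF hom2 hch (hf k)).1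
    rw [← integral_const_mul, ← integral_sub (ig k) ((iR k).const_mul C1)]
    refine le_trans (le_of_eq (integral_congr_ae (Filter.Eventually.of_forall fun x => ?_))) a1
    ring

end Vale.Agent.P088
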