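import Vale.Agent.P088.StA

/-!
# P088: positivity of the raising operator
-/

open MeasureTheory Set Metric
open scoped ContDiff Topology

noncomputable section
namespace Vale.Agent.P088
open Vale.Agent.P136

namespace Nzp1

section alg
variable {α H J : Type} [Fintype α] [Fintype H] [Fintype J]

/-- Contraction with the matrices `c`. -/
def Cc (c : α → H → J → ℝ) (b : α) (h : H) (v : J → ℝ) : ℝ := ∑ i, c b h i * v i

omit [Fintype α] in
lemma cc_bil (c : α → H → J → ℝ) (a b : α) (u v : J → ℝ) :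
    ∑ h, Cc c a h u * Cc c b h v = ∑ i, ∑ i', (∑ h, c a h i * c b h i') * (u i * v i') := by
  simp only [Cc, Finset.sum_mul_sum]
  rw [Finset.sum_comm]
  refine Finset.sum_congr rfl fun i _ => ?_
  rw [Finset.sum_comm]
  refine Finset.sum_congr rfl fun i' _ => ?_
  rw [Finset.sum_mul]
  exact Finset.sum_congr rfl fun h _ => by ring

variable [DecidableEq J] {c : α → H → J → ℝ} {κ : ℝ}

lemma cc_sq (hc : ∀ i i', ∑ a, ∑ h, c a h i * c a h i' = if i = i' then κ else 0) (v : J → ℝ) :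
    ∑ a, ∑ h, Cc c a h v ^ 2 = κ * ∑ i, v i ^ 2 := by
  simp only [sq, cc_bil]
  rw [Finset.sum_comm, Finset.mul_sum]
  refine Finset.sum_congr rfl fun i _ => ?_
  rw [Finset.sum_comm]
  simp [← Finset.sum_mul, hc]

lemma cc_one (hc : ∀ i i', ∑ a, ∑ h, c a h i * c a h i' = if i = i' then κ else 0) (a : α)
    (v : J → ℝ) : ∑ h, Cc c a h v ^ 2 ≤ κ * ∑ i, v i ^ 2 := by
  rw [← cc_sq hc]
  exact Finset.single_le_sum (f := fun a => ∑ h, Cc c a h v ^ 2)
    (fun a _ => Finset.sum_nonneg fun _ _ => sq_nonneg _) (Finset.mem_univ a)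

lemma cc_rho (hc : ∀ i i', ∑ a, ∑ h, c a h i * c a h i' = if i = i' then κ else 0) (hκ : 0 ≤ κ)
    {a b : α} {u v : J → ℝ} {W : ℝ} (hW : 0 ≤ W)
    (h : (∑ i, u i ^ 2) * ∑ i, v i ^ 2 ≤ W ^ 2) : |∑ h, Cc c a h u * Cc c b h v| ≤ κ * W := by
  refine abs_le_of_sq_le_sq' ?_ (mul_nonneg hκ hW) |> abs_le.2
  have h1 := Finset.sum_mul_sq_le_sq_mul_sq Finset.univ (fun h => Cc c a h u) fun h => Cc c b h v
  have h2 := mul_le_mul (cc_one hc a u) (cc_one hc b v)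
    (Finset.sum_nonneg fun _ _ => sq_nonneg _)
    (mul_nonneg hκ (Finset.sum_nonneg fun _ _ => sq_nonneg _))
  have h3 := mul_le_mul_of_nonneg_left h (mul_nonneg hκ hκ)
  nlinarith

omit [Fintype H] [Fintype J] [DecidableEq J] in
lemma psd_tr [DecidableEq α] {M : α → α → ℝ} (hM : ∀ v : α → ℝ, 0 ≤ ∑ a, ∑ b, M a b * v a * v b)
    (v : α → ℝ) : ∑ a, ∑ b, M a b * v a * v b ≤ ∑ a, ∑ b, M b b * v a * v a := by
  have key : ∀ a b, M a b * v a * v b + M b a * v b * v a ≤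
      M b b * v a * v a + M a a * v b * v b := fun a b => by
    have := hM (Pi.single a (v b) - Pi.single b (v a))
    simp [Pi.single_apply, mul_sub, sub_mul, Finset.sum_sub_distrib] at this
    nlinarith
  have h1 := Finset.sum_le_sum fun a (_ : a ∈ Finset.univ) =>
    Finset.sum_le_sum fun b (_ : b ∈ Finset.univ) => key a b
  simp only [Finset.sum_add_distrib] at h1
  rw [Finset.sum_comm (f := fun a b => M b a * v b * v a),
    Finset.sum_comm (f := fun a b => M a a * v b * v b)] at h1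
  linarith

/-- The density of the null term. -/
def Nn (c : α → H → J → ℝ) (t s : α → J → ℝ) (g : J → ℝ) (M : α → α → ℝ) (r : α → α → J → ℝ)
    (a b a' b' : α) : ℝ := ∑ i, ∑ i', (∑ h, c a' h i * c b' h i') *
      (t a i * t b i' - s b i * s a i' - (2 * M a b * g i + r b a i) * g i')

omit [Fintype α] [DecidableEq J] in
lemma Nn_eq (t s : α → J → ℝ) (g : J → ℝ) (M : α → α → ℝ) (r : α → α → J → ℝ) (a b a' b' : α) :
    Nn c t s g M r a b a' b' = ∑ h, Cc c a' h (t a) * Cc c b' h (t b) -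
      ∑ h, Cc c a' h (s b) * Cc c b' h (s a) - 2 * ∑ h, M a b * Cc c a' h g * Cc c b' h g -
      ∑ h, Cc c a' h (r b a) * Cc c b' h g := by
  simp only [mul_assoc (M a b), ← Finset.mul_sum, cc_bil, Nn]
  simp only [Finset.mul_sum, ← Finset.sum_sub_distrib]
  exact Finset.sum_congr rfl fun i _ => Finset.sum_congr rfl fun i' _ => by ring

lemma core [DecidableEq α]
    (hc : ∀ i i', ∑ a, ∑ h, c a h i * c a h i' = if i = i' then κ else 0) (hκ : 0 ≤ κ)
    (t s : α → J → ℝ) (g : J → ℝ) {M : α → α → ℝ} (r : α → α → J → ℝ) {W θ : ℝ} (hW : 0 ≤ W)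
    (hM : ∀ v : α → ℝ, 0 ≤ ∑ a, ∑ b, M a b * v a * v b)
    (hr : ∀ a b, (∑ i, r b a i ^ 2) * ∑ i, g i ^ 2 ≤ W ^ 2) (h0 : 0 ≤ θ) (h2 : θ ≤ 2) :
    -(θ * κ * ∑ a, ∑ i, t a i ^ 2) - 5 * ((Fintype.card α : ℝ) ^ 2 * (κ * W)) ≤
      ∑ a, ∑ b, ∑ h, Cc c b h (t a) * Cc c a h (t b) -
      θ * ∑ a, ∑ b, ∑ h, Cc c a h (t a) * Cc c b h (t b) - ∑ h, (∑ a, Cc c a h (s a)) ^ 2 -
      ∑ a, ∑ b, Nn c t s g M r a b b a +
      θ * (∑ a, ∑ b, Nn c t s g M r a b a b - ∑ a, ∑ b, Nn c t s g M r b b a a) := by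
  have hρ : ∀ (p q a' b' : α → α → α), |∑ a, ∑ b, ∑ h, Cc c (a' a b) h (r (p a b) (q a b)) *
      Cc c (b' a b) h g| ≤ (Fintype.card α : ℝ) ^ 2 * (κ * W) := fun p q a' b' => by
    refine (Finset.abs_sum_le_sum_abs _ _).trans ((Finset.sum_le_sum fun a _ =>
      (Finset.abs_sum_le_sum_abs _ _).trans (Finset.sum_le_sum fun b _ =>
        cc_rho hc hκ hW (hr _ _))).trans_eq ?_)
    simp [sq, mul_assoc]
  have r1 := abs_le.1 (hρ (fun _ b => b) (fun a _ => a) (fun _ b => b) fun a _ => a)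
  have r2 := abs_le.1 (hρ (fun _ b => b) (fun a _ => a) (fun a _ => a) fun _ b => b)
  have r3 := abs_le.1 (hρ (fun _ b => b) (fun _ b => b) (fun a _ => a) fun a _ => a)
  have sw : ∀ F : α → α → H → ℝ, ∑ a, ∑ b, ∑ h, F a b h = ∑ h, ∑ a, ∑ b, F a b h := fun F =>
    (Finset.sum_congr rfl fun a _ => Finset.sum_comm).trans Finset.sum_comm
  have e3 : ∑ h, (∑ a, Cc c a h (s a)) ^ 2 = ∑ a, ∑ b, ∑ h, Cc c b h (s b) * Cc c a h (s a) := by
    rw [sw]
    exact Finset.sum_congr rfl fun h _ => by rw [sq, Finset.sum_mul_sum, Finset.sum_comm]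
  have m1 : 0 ≤ ∑ a, ∑ b, ∑ h, M a b * Cc c b h g * Cc c a h g := by
    rw [sw]
    exact Finset.sum_nonneg fun h _ => (hM fun a => Cc c a h g).trans_eq
      (Finset.sum_congr rfl fun a _ => Finset.sum_congr rfl fun b _ => by ring)
  have m2 : ∑ a, ∑ b, ∑ h, M a b * Cc c a h g * Cc c b h g ≤
      ∑ a, ∑ b, ∑ h, M b b * Cc c a h g * Cc c a h g := by
    rw [sw, sw]
    exact Finset.sum_le_sum fun h _ => psd_tr hM _
  have m3 : ∑ a, ∑ b, ∑ h, Cc c a h (s b) * Cc c b h (s a) ≤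
      ∑ a, ∑ b, ∑ h, Cc c a h (s b) * Cc c a h (s b) := by
    have h1 := Finset.sum_le_sum fun a (_ : a ∈ Finset.univ) =>
      Finset.sum_le_sum fun b (_ : b ∈ Finset.univ) =>
        Finset.sum_le_sum fun h (_ : h ∈ Finset.univ) =>
          (show 2 * (Cc c a h (s b) * Cc c b h (s a)) ≤ Cc c a h (s b) * Cc c a h (s b) +
            Cc c b h (s a) * Cc c b h (s a) by nlinarith [sq_nonneg (Cc c a h (s b) - Cc c b h (s a))])
    simp only [Finset.sum_add_distrib, ← Finset.mul_sum] at h1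
    rw [Finset.sum_comm (f := fun a b => ∑ h, Cc c b h (s a) * Cc c b h (s a))] at h1
    linarith
  have m4 : ∑ a, ∑ b, ∑ h, Cc c a h (t b) * Cc c a h (t b) = κ * ∑ a, ∑ i, t a i ^ 2 := by
    rw [Finset.sum_comm, Finset.mul_sum]
    exact Finset.sum_congr rfl fun b _ => by simpa only [sq] using cc_sq hc (t b)
  simp only [Nn_eq, Finset.sum_sub_distrib, ← Finset.mul_sum]
  rw [e3, m4]
  have w0 : 0 ≤ (Fintype.card α : ℝ) ^ 2 * (κ * W) := by positivity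
  have k1 := mul_le_mul_of_nonneg_left m2 h0
  have k2 := mul_le_mul_of_nonneg_left m3 h0
  have k3 := mul_le_mul_of_nonneg_left r2.2 h0
  have k4 := mul_le_mul_of_nonneg_left r3.1 h0
  have k5 := mul_le_mul_of_nonneg_right h2 w0
  linarith [r1.1]

end alg

section ops
variable {n : ℕ} {φ u w : En n → ℝ} {e : MatF n}

def TT (φ : En n → ℝ) (e : MatF n) (a : Fin n) (u : En n → ℝ) : En n → ℝ := fun x =>
  ∑ i, Dm φ (ee i) (fun y => e a i y * u y) x

def SS (φ : En n → ℝ) (e : MatF n) (a : Fin n) (u : En n → ℝ) : En n → ℝ := fun x =>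
  ∑ i, e a i x * Dp φ (ee i) u x

def dv (e : MatF n) (a : Fin n) : En n → ℝ := fun x => ∑ i, D (ee i) (e a i) x

def MM (φ : En n → ℝ) (e : MatF n) (a b : Fin n) : En n → ℝ := fun x =>
  ∑ i, ∑ j, e a i x * e b j x * D (ee j) (D (ee i) φ) x

def RR (φ : En n → ℝ) (e : MatF n) (b a : Fin n) (u : En n → ℝ) : En n → ℝ := fun x =>
  ∑ i, ∑ j, e b j x * D (ee j) (e a i) x * Dm φ (ee i) u x +
    ∑ i, ∑ j, e a i x * D (ee i) (e b j) x * Dp φ (ee j) u x -
    (∑ j, e b j x * D (ee j) (dv e a) x) * u x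

/-- Integrable functions with vanishing integral. -/
def Z (F : En n → ℝ) : Prop := Integrable F ∧ ∫ x, F x = 0

lemma Z.add {F G : En n → ℝ} (h : Z F) (h' : Z G) : Z fun x => F x + G x :=
  ⟨h.1.add h'.1, by rw [integral_add h.1 h'.1, h.2, h'.2, add_zero]⟩

lemma Z.cmul {F : En n → ℝ} (h : Z F) (c : ℝ) : Z fun x => c * F x :=
  ⟨h.1.const_mul c, by rw [integral_const_mul, h.2, mul_zero]⟩

lemma Z.congr {F G : En n → ℝ} (h : Z F) (e : ∀ x, G x = F x) : Z G := by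
  rwa [show G = F from funext e]

lemma Z.sub {F G : En n → ℝ} (h : Z F) (h' : Z G) : Z fun x => F x - G x :=
  (h.add (h'.cmul (-1))).congr fun x => by ring

lemma Z.sum {α : Type} [Fintype α] {F : α → En n → ℝ} (h : ∀ a, Z (F a)) :
    Z fun x => ∑ a, F a x :=
  ⟨integrable_finsetSum _ fun a _ => (h a).1, by
    rw [integral_finsetSum _ fun a _ => (h a).1]
    exact Finset.sum_eq_zero fun a _ => (h a).2⟩

lemma Z_D (hu : Tst u) (v : En n) : Z (D v u) := ⟨(hu.D v).integrable, integral_D hu v⟩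

lemma sm_dv (he : SmM e) (a : Fin n) : Sm (dv e a) := Sm.sum fun i _ => (he a i).D _

lemma tst_TT (hφ : Sm φ) (he : SmM e) (hu : Tst u) (a : Fin n) : Tst (TT φ e a u) :=
  Tst.sum _ fun i _ => Tst.Dm hφ (hu.mul_left (he a i)) _

lemma tst_SS (hφ : Sm φ) (he : SmM e) (hu : Tst u) (a : Fin n) : Tst (SS φ e a u) :=
  Tst.sum _ fun i _ => (Tst.Dp hφ hu _).mul_left (he a i)

lemma TT_eq (he : SmM e) (hu : Sm u) (a : Fin n) :
    TT φ e a u = fun x => ∑ i, e a i x * Dm φ (ee i) u x - dv e a x * u x := by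
  funext x
  simp only [TT, Dm_mul (he a _) hu, dv, Finset.sum_sub_distrib, Finset.sum_mul]

lemma Z_adj (hφ : Sm φ) (he : SmM e) (hu : Tst u) (hw : Tst w) (b : Fin n) :
    Z fun x => SS φ e b u x * w x - u x * TT φ e b w x := by
  refine (Z.sum fun j => Z_D (hu.mul_right ((he b j).mul hw.sm)) (ee j)).congr fun x => ?_
  simp only [SS, TT, Finset.sum_mul, Finset.mul_sum, ← Finset.sum_sub_distrib]
  refine Finset.sum_congr rfl fun j _ => ?_
  rw [D_mul_at (hu.sm.dAt x) (((he b j).mul hw.sm).dAt x)]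
  simp only [Dp, Dm]
  ring

lemma comm (hφ : Sm φ) (he : SmM e) (hu : Sm u) (a b : Fin n) (x : En n) :
    SS φ e b (TT φ e a u) x - TT φ e a (SS φ e b u) x =
      2 * MM φ e a b x * u x + RR φ e b a u x := by
  have sS : Sm (SS φ e b u) := Sm.sum fun j _ => (he b j).mul (hφ.Dp hu _)
  have e1 : ∀ j, D (ee j) (TT φ e a u) x = ∑ i, (e a i x * D (ee j) (Dm φ (ee i) u) x +
      D (ee j) (e a i) x * Dm φ (ee i) u x) -
      (dv e a x * D (ee j) u x + D (ee j) (dv e a) x * u x) := fun j => by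
    rw [TT_eq he hu, D_sub_at ((Sm.sum fun i _ => (he a i).mul (hφ.Dm hu _)).dAt x)
      (((sm_dv he a).mul hu).dAt x), D_sum_at _ fun i _ => ((he a i).mul (hφ.Dm hu _)).dAt x,
      D_mul_at ((sm_dv he a).dAt x) (hu.dAt x)]
    congr 1
    exact Finset.sum_congr rfl fun i _ => D_mul_at ((he a i).dAt x) ((hφ.Dm hu _).dAt x) _
  have e2 : ∀ i, D (ee i) (SS φ e b u) x = ∑ j, (e b j x * D (ee i) (Dp φ (ee j) u) x +
      D (ee i) (e b j) x * Dp φ (ee j) u x) := fun i => by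
    unfold SS
    rw [D_sum_at _ fun j _ => ((he b j).mul (hφ.Dp hu _)).dAt x]
    exact Finset.sum_congr rfl fun j _ => D_mul_at ((he b j).dAt x) ((hφ.Dp hu _).dAt x) _
  have e3 : ∀ i j, D (ee j) (Dm φ (ee i) u) x = -D (ee i) (Dp φ (ee j) u) x +
      D (ee i) φ x * Dp φ (ee j) u x + 2 * D (ee j) (D (ee i) φ) x * u x -
      D (ee j) φ x * Dm φ (ee i) u x := fun i j => by
    have := congrFun (Dp_Dm hφ hu (ee j) (ee i)) x
    have a1 : Dp φ (ee j) (Dm φ (ee i) u) x =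
      D (ee j) (Dm φ (ee i) u) x + D (ee j) φ x * Dm φ (ee i) u x := rfl
    have a2 : Dm φ (ee i) (Dp φ (ee j) u) x =
      -D (ee i) (Dp φ (ee j) u) x + D (ee i) φ x * Dp φ (ee j) u x := rfl
    rw [a1, a2] at this
    linarith
  have l1 : SS φ e b (TT φ e a u) x = ∑ j, ∑ i, e b j x * (e a i x * D (ee j) (Dm φ (ee i) u) x +
      D (ee j) (e a i) x * Dm φ (ee i) u x + D (ee j) φ x * (e a i x * Dm φ (ee i) u x)) -
      ∑ j, e b j x * (dv e a x * Dp φ (ee j) u x + D (ee j) (dv e a) x * u x) := by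
    rw [← Finset.sum_sub_distrib]
    refine Finset.sum_congr rfl fun j _ => ?_
    have a1 : Dp φ (ee j) (TT φ e a u) x =
      D (ee j) (TT φ e a u) x + D (ee j) φ x * TT φ e a u x := rfl
    rw [a1, e1, TT_eq he hu]
    simp only [← Finset.mul_sum, Finset.sum_add_distrib, Dp]
    ring
  have l2 : TT φ e a (SS φ e b u) x = ∑ i, ∑ j, e a i x *
      (-(e b j x * D (ee i) (Dp φ (ee j) u) x + D (ee i) (e b j) x * Dp φ (ee j) u x) +
        D (ee i) φ x * (e b j x * Dp φ (ee j) u x)) -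
      ∑ j, dv e a x * (e b j x * Dp φ (ee j) u x) := by
    rw [TT_eq he sS]
    simp only [← Finset.mul_sum]
    congr 1
    refine Finset.sum_congr rfl fun i _ => ?_
    have a2 : Dm φ (ee i) (SS φ e b u) x =
      -D (ee i) (SS φ e b u) x + D (ee i) φ x * SS φ e b u x := rfl
    rw [a2, e2, Finset.sum_add_distrib (f := fun j => -_), Finset.sum_neg_distrib,
      ← Finset.mul_sum]
    rfl
  rw [l1, l2, Finset.sum_comm]
  simp only [MM, RR, e3, Finset.mul_sum, Finset.sum_mul]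
  rw [sub_sub_sub_comm, ← Finset.sum_sub_distrib, ← Finset.sum_sub_distrib, ← Finset.sum_add_distrib,
    ← add_sub_assoc, ← Finset.sum_add_distrib]
  congr 1
  · refine Finset.sum_congr rfl fun i _ => ?_
    rw [← Finset.sum_sub_distrib, ← Finset.sum_add_distrib, ← Finset.sum_add_distrib]
    exact Finset.sum_congr rfl fun j _ => by ring
  · exact Finset.sum_congr rfl fun j _ => by ring

lemma Z_null (hφ : Sm φ) (he : SmM e) (hu : Tst u) (hw : Tst w) (a b : Fin n) :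
    Z fun x => TT φ e a u x * TT φ e b w x - SS φ e b u x * SS φ e a w x -
      (2 * MM φ e a b x * u x + RR φ e b a u x) * w x :=
  (((Z_adj hφ he (tst_TT hφ he hu a) hw b).add
    (Z_adj hφ he hw (tst_SS hφ he hu b) a)).cmul (-1)).congr fun x => by
    rw [← comm hφ he hu.sm]; ring

lemma Z_sq (hφ : Sm φ) (hu : Tst u) (v : En n) : Z fun x => Dm φ v u x ^ 2 -
    (D v u x ^ 2 + D v φ x ^ 2 * u x ^ 2 + D v (D v φ) x * u x ^ 2) :=
  ((Z_D ((hu.mul_right hu.sm).mul_left (hφ.D v)) v).cmul (-1)).congr fun x => by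
    rw [D_mul_at ((hφ.D v).dAt x) ((hu.sm.mul hu.sm).dAt x),
      D_mul_at (hu.sm.dAt x) (hu.sm.dAt x)]
    simp only [Dm]
    ring

end ops

section bd
variable {n : ℕ}

lemma sq_B {α H J J' : Type} [Fintype α] [Fintype H] [Fintype J] [Fintype J'] [DecidableEq α]
    [DecidableEq J] {c : α → H → J → ℝ} {c' : α → J → J' → ℝ} {θ : ℝ}
    (hA : ∀ a b i i', ∑ j, c' a i j * c' b i' j = (if a = b ∧ i = i' then 2 else 0) +
      ∑ h, c b h i * c a h i' - θ * ∑ h, c a h i * c b h i') (t : α → J → ℝ) :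
    ∑ j, (∑ a, ∑ i, c' a i j * t a i) ^ 2 = 2 * ∑ a, ∑ i, t a i ^ 2 +
      ∑ a, ∑ b, ∑ h, Cc c b h (t a) * Cc c a h (t b) -
      θ * ∑ a, ∑ b, ∑ h, Cc c a h (t a) * Cc c b h (t b) := by
  have e1 : ∑ j, (∑ a, ∑ i, c' a i j * t a i) ^ 2 =
      ∑ a, ∑ b, ∑ j, Cc (fun a j i => c' a i j) a j (t a) * Cc (fun a j i => c' a i j) b j (t b) := by
    simp only [sq, Finset.sum_mul_sum (s := (Finset.univ : Finset α))]
    rw [Finset.sum_comm]
    exact Finset.sum_congr rfl fun a _ => Finset.sum_comm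
  have e2 : ∀ a b, ∑ i, ∑ i', (if a = b ∧ i = i' then (2 : ℝ) else 0) * (t a i * t b i') =
      if a = b then 2 * ∑ i, t a i ^ 2 else 0 := fun a b => by
    split_ifs with h
    · simp [h, sq, Finset.mul_sum]
    · simp [h]
  rw [e1]
  simp only [cc_bil, hA, add_mul, sub_mul, Finset.sum_add_distrib, Finset.sum_sub_distrib, e2,
    mul_assoc θ, ← Finset.mul_sum, Finset.sum_ite_eq, Finset.mem_univ, if_true]

lemma abs_sum_le {F : Fin n → ℝ} {B : ℝ} (h : ∀ i, |F i| ≤ B) : |∑ i, F i| ≤ n * B :=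
  (Finset.abs_sum_le_sum_abs _ _).trans ((Finset.sum_le_sum fun i _ => h i).trans_eq (by simp))

lemma abs_mul_le {x y a b : ℝ} (hx : |x| ≤ a) (hy : |y| ≤ b) : |x * y| ≤ a * b := by
  rw [abs_mul]
  exact mul_le_mul hx hy (abs_nonneg _) ((abs_nonneg _).trans hx)

variable {φ u : En n → ℝ} {e : MatF n} {om B : ℝ} {x : En n}

lemma e0 (h : Near 4 om e) (a i : Fin n) (x : En n) :
    |e a i x - if a = i then 1 else 0| ≤ om := by simpa [Ds] using h a i x [] (by simp)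

lemma e0' (h : Near 4 om e) (h1 : om ≤ 1) (a i : Fin n) (x : En n) : |e a i x| ≤ 2 := by
  have := abs_le.1 (e0 h a i x)
  rw [abs_le]
  split_ifs at this <;> constructor <;> linarith [this.1, this.2]

lemma eD (he : SmM e) (a i : Fin n) (v : En n) :
    D v (fun y => e a i y - if a = i then 1 else 0) = D v (e a i) := funext fun x => by
  rw [D_sub_at ((he a i).dAt x) (differentiableAt_const _), D_const, sub_zero]

lemma e1 (he : SmM e) (h : Near 4 om e) (a i j : Fin n) (x : En n) :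
    |D (ee j) (e a i) x| ≤ om := by simpa [Ds, eD he] using h a i x [j] (by simp)

lemma e2 (he : SmM e) (h : Near 4 om e) (a i j l : Fin n) (x : En n) :
    |D (ee l) (D (ee j) (e a i)) x| ≤ om := by simpa [Ds, eD he] using h a i x [l, j] (by simp)

lemma RR_le (he : SmM e) (h : Near 4 om e) (h1 : om ≤ 1) (hm : ∀ i, |Dm φ (ee i) u x| ≤ B)
    (hp : ∀ i, |Dp φ (ee i) u x| ≤ B) (h0 : |u x| ≤ B) (b a : Fin n) :
    |RR φ e b a u x| ≤ 6 * n ^ 2 * om * B := by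
  have d1 : ∀ j, |D (ee j) (dv e a) x| ≤ n * om := fun j => by
    unfold dv
    rw [D_sum_at _ fun i _ => ((he a i).D _).dAt x]
    exact abs_sum_le fun i => e2 he h a i i j x
  have k1 := abs_sum_le fun i => abs_sum_le fun j =>
    abs_mul_le (abs_mul_le (e0' h h1 b j x) (e1 he h a i j x)) (hm i)
  have k2 := abs_sum_le fun i => abs_sum_le fun j =>
    abs_mul_le (abs_mul_le (e0' h h1 a i x) (e1 he h b j i x)) (hp j)
  have k3 := abs_mul_le (abs_sum_le fun j => abs_mul_le (e0' h h1 b j x) (d1 j)) h0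
  refine ((abs_sub _ _).trans (add_le_add ((abs_add_le _ _).trans (add_le_add k1 k2)) k3)).trans_eq ?_
  ring

lemma SS_le (h : Near 4 om e) (h1 : om ≤ 1) (hp : ∀ i, |Dp φ (ee i) u x| ≤ B) (a : Fin n) :
    |SS φ e a u x| ≤ n * (2 * B) := abs_sum_le fun i => abs_mul_le (e0' h h1 a i x) (hp i)

lemma TT_ge (he : SmM e) (hu : Sm u) (h : Near 4 om e) (h1 : 4 * n * om ≤ 1) (h0 : 0 ≤ om) :
    1 / 4 * ∑ a, Dm φ (ee a) u x ^ 2 - 2 * n ^ 3 * om ^ 2 * u x ^ 2 ≤ ∑ a, TT φ e a u x ^ 2 := by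
  have key : ∀ a, 1 / 2 * Dm φ (ee a) u x ^ 2 - 2 * (n * om ^ 2 * ∑ i, Dm φ (ee i) u x ^ 2) -
      2 * ((n * om) ^ 2 * u x ^ 2) ≤ TT φ e a u x ^ 2 := fun a => by
    have e3 : ∑ i, e a i x * Dm φ (ee i) u x = Dm φ (ee a) u x +
        ∑ i, (e a i x - if a = i then 1 else 0) * Dm φ (ee i) u x := by
      simp [sub_mul, Finset.sum_sub_distrib]
    have k1 := Finset.sum_mul_sq_le_sq_mul_sq Finset.univ
      (fun i => e a i x - if a = i then 1 else 0) fun i => Dm φ (ee i) u x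
    have k2 : ∑ i, (e a i x - if a = i then 1 else 0) ^ 2 ≤ n * om ^ 2 :=
      (Finset.sum_le_sum fun i _ => sq_le_sq' (abs_le.1 (e0 h a i x)).1
        (abs_le.1 (e0 h a i x)).2).trans_eq (by simp)
    have k3 := k1.trans (mul_le_mul_of_nonneg_right k2 (Finset.sum_nonneg fun _ _ => sq_nonneg _))
    have k4 : |dv e a x| ≤ n * om := abs_sum_le fun i => e1 he h a i i x
    have k5 := mul_le_mul_of_nonneg_right (sq_le_sq' (abs_le.1 k4).1 (abs_le.1 k4).2)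
      (sq_nonneg (u x))
    rw [TT_eq he hu]
    simp only [e3]
    generalize ∑ i, (e a i x - if a = i then 1 else 0) * Dm φ (ee i) u x = y at k3 ⊢
    nlinarith [sq_nonneg (Dm φ (ee a) u x + 2 * (y - dv e a x * u x)),
      sq_nonneg (y + dv e a x * u x)]
  have h2 := Finset.sum_le_sum fun a (_ : a ∈ Finset.univ) => key a
  simp only [Finset.sum_sub_distrib, ← Finset.mul_sum, Finset.sum_const, Finset.card_univ,
    Fintype.card_fin, nsmul_eq_mul] at h2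
  have h3 : 0 ≤ ∑ a, Dm φ (ee a) u x ^ 2 := Finset.sum_nonneg fun _ _ => sq_nonneg _
  have h4 : 0 ≤ (n : ℝ) * om := by positivity
  have h5 : 8 * (n * om) ^ 2 ≤ 1 := by nlinarith
  nlinarith [mul_le_mul_of_nonneg_right h5 h3]

variable {ℓ f : En n → ℝ} {lam A L : ℝ}

lemma D_G (hl : Sm ℓ) (hf : Sm f) (v : En n) : D v (fun y => Real.exp (ℓ y) * f y) x =
    Real.exp (ℓ x) * (D v f x + D v ℓ x * f x) := by
  rw [D_mul_at (hl.exp.dAt x) (hf.dAt x), D_exp_at (hl.dAt x)]; ring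

lemma D_psi (hl : Sm ℓ) (μ : ℝ) (v : En n) : D v (fun y => μ * ℓ y) = fun x => μ * D v ℓ x :=
  funext fun x => D_const_mul_at (hl.dAt x) _ _

lemma lin_le {E p q y μ : ℝ} {F : Fin n → ℝ} (i : Fin n) (hA : 1 ≤ A) (hp : p ^ 2 = F i ^ 2)
    (hμ : |μ| ≤ 3 * lam) (hq : |q| ≤ A * L) :
    |E * (p + μ * q * y)| ≤ 5 * A * √(E ^ 2 * (∑ j, F j ^ 2 + (lam * L) ^ 2 * y ^ 2)) := by
  have h1 : F i ^ 2 ≤ ∑ j, F j ^ 2 :=
    Finset.single_le_sum (f := fun j => F j ^ 2) (fun _ _ => sq_nonneg _) (Finset.mem_univ i)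
  have h2 := abs_le.1 (abs_mul_le hμ hq)
  have h3 := mul_le_mul_of_nonneg_right (sq_le_sq' h2.1 h2.2) (sq_nonneg y)
  have h4 : 0 ≤ ∑ j, F j ^ 2 := Finset.sum_nonneg fun _ _ => sq_nonneg _
  have h5 : 1 ≤ A ^ 2 := by nlinarith
  have h6 : (p + μ * q * y) ^ 2 ≤ 25 * A ^ 2 * (∑ j, F j ^ 2 + (lam * L) ^ 2 * y ^ 2) := by
    nlinarith [sq_nonneg (p - μ * q * y), mul_le_mul_of_nonneg_right h5 h4,
      mul_nonneg (sq_nonneg A) (mul_nonneg (sq_nonneg (lam * L)) (sq_nonneg y))]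
  refine abs_le.2 (abs_le_of_sq_le_sq' ?_ (by positivity))
  rw [mul_pow, mul_pow, Real.sq_sqrt (by positivity)]
  nlinarith [mul_le_mul_of_nonneg_left h6 (sq_nonneg E)]

end bd

section main
variable {n : ℕ} {H J J' : Type} [Fintype H] [Fintype J] [Fintype J'] [DecidableEq J]
  {γ e : MatF n} {ℓ Lf : En n → ℝ} {A om Cw : ℝ} {S : Set (En n)} {k : ℕ} {f : J → En n → ℝ}

/-- The conjugated functions. -/
def GG (ℓ : En n → ℝ) (f : J → En n → ℝ) (i : J) : En n → ℝ := fun y => Real.exp (ℓ y) * f i y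

/-- The density for one component. -/
def qq (Cw : ℝ) (k : ℕ) (ℓ Lf : En n → ℝ) (u : En n → ℝ) (x : En n) : ℝ :=
  Real.exp (ℓ x) ^ 2 * (∑ j, D (ee j) u x ^ 2 + (lamk n Cw k * Lf x) ^ 2 * u x ^ 2)

omit [DecidableEq J] in
lemma sum_qq (x : En n) : ∑ i, qq Cw k ℓ Lf (f i) x = Real.exp (2 * ℓ x) * nzD Cw Lf k f x := by
  rw [two_mul, Real.exp_add, ← sq, nzD, Finset.mul_sum]; rfl

lemma lam_ge (hC : 1 ≤ Cw) : (k : ℝ) + 1 ≤ lamk n Cw k := by
  unfold lamk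
  have : (0 : ℝ) ≤ n / 2 := by positivity
  linarith

lemma psi_eq (ℓ : En n → ℝ) : psik ℓ Cw (k + 1) = fun y => (lamk n Cw k + 1) * ℓ y := by
  funext y
  simp only [psik, lamk]
  push_cast
  ring

omit [Fintype J] [DecidableEq J] in
lemma one_bd (hA : 1 ≤ A) (hC : 1 ≤ Cw) (h : ChainOk γ e ℓ A om Lf S) (hf : Tests S f) (i : J)
    (x : En n) : (∀ j, |Dm (psik ℓ Cw (k + 1)) (ee j) (GG ℓ f i) x| ≤ 5 * A * √(qq Cw k ℓ Lf (f i) x)) ∧
    (∀ j, |Dp (psik ℓ Cw (k + 1)) (ee j) (GG ℓ f i) x| ≤ 5 * A * √(qq Cw k ℓ Lf (f i) x)) ∧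
    |GG ℓ f i x| ≤ 5 * A * √(qq Cw k ℓ Lf (f i) x) ∧
    (lamk n Cw k * Lf x) ^ 2 * GG ℓ f i x ^ 2 ≤ qq Cw k ℓ Lf (f i) x ∧
    qq Cw k ℓ Lf (f i) x ≤ 2 * A * ∑ a, (D (ee a) (GG ℓ f i) x ^ 2 +
      D (ee a) (psik ℓ Cw (k + 1)) x ^ 2 * GG ℓ f i x ^ 2 +
      D (ee a) (D (ee a) (psik ℓ Cw (k + 1))) x * GG ℓ f i x ^ 2) := by
  obtain ⟨-, -, -, -, -, hl, -, hL, hS⟩ := h
  have sf := (hf i).1.1
  have hk : (0 : ℝ) ≤ k := Nat.cast_nonneg k
  have lam1 : 1 ≤ lamk n Cw k := by linarith [lam_ge (n := n) (k := k) hC]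
  have dG : ∀ v, D v (GG ℓ f i) x = _ := D_G (x := x) hl sf
  have F0 : 0 ≤ ∑ j, D (ee j) (f i) x ^ 2 := Finset.sum_nonneg fun _ _ => sq_nonneg _
  have g2 : (lamk n Cw k * Lf x) ^ 2 * GG ℓ f i x ^ 2 ≤ qq Cw k ℓ Lf (f i) x := by
    simp only [GG, qq]
    nlinarith [mul_nonneg (sq_nonneg (Real.exp (ℓ x))) F0]
  have g1 : |GG ℓ f i x| ≤ 5 * A * √(qq Cw k ℓ Lf (f i) x) := by
    have h1 : 1 ≤ lamk n Cw k * Lf x := by nlinarith [hL x]
    have h3 : 1 ≤ (lamk n Cw k * Lf x) ^ 2 := one_le_pow₀ h1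
    have h2 : GG ℓ f i x ^ 2 ≤ qq Cw k ℓ Lf (f i) x :=
      (le_mul_of_one_le_left (sq_nonneg _) h3).trans g2
    nlinarith [Real.abs_le_sqrt h2, Real.sqrt_nonneg (qq Cw k ℓ Lf (f i) x)]
  simp only [Dm, Dp, dG, psi_eq, D_psi hl, D_psi (hl.D _)]
  by_cases hx : x ∈ S
  · obtain ⟨h1, h2, h3⟩ := hS x hx
    have l1 : ∀ j, |D (ee j) ℓ x| ≤ A * Lf x := fun j => by
      simpa [Ds] using h1 [j] (by simp) (by simp)
    refine ⟨fun j => ?_, fun j => ?_, g1, g2, ?_⟩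
    · refine le_of_eq_of_le (congrArg _ ?_) (lin_le (p := -D (ee j) (f i) x) (μ := lamk n Cw k)
        (F := fun j => D (ee j) (f i) x) j hA (neg_sq _)
        (by rw [abs_of_nonneg] <;> linarith) (l1 j))
      simp only [GG]; ring
    · refine le_of_eq_of_le (congrArg _ ?_) (lin_le (p := D (ee j) (f i) x) (μ := lamk n Cw k + 2)
        (F := fun j => D (ee j) (f i) x) j hA rfl
        (by rw [abs_of_nonneg] <;> linarith) (l1 j))
      simp only [GG]; ring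
    · have t0 : 0 ≤ ∑ a, D (ee a) (D (ee a) ℓ) x := Finset.sum_nonneg fun a _ => by
        simpa [Pi.single_apply] using h3 (Pi.single a 1)
      have t1 : ∑ a, (Real.exp (ℓ x) ^ 2 * (1 / 2 * D (ee a) (f i) x ^ 2 +
          lamk n Cw k ^ 2 * f i x ^ 2 * D (ee a) ℓ x ^ 2) +
          (lamk n Cw k + 1) * GG ℓ f i x ^ 2 * D (ee a) (D (ee a) ℓ) x) ≤
          ∑ a, ((Real.exp (ℓ x) * (D (ee a) (f i) x + D (ee a) ℓ x * f i x)) ^ 2 +
            ((lamk n Cw k + 1) * D (ee a) ℓ x) ^ 2 * GG ℓ f i x ^ 2 +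
            (lamk n Cw k + 1) * D (ee a) (D (ee a) ℓ) x * GG ℓ f i x ^ 2) :=
        Finset.sum_le_sum fun a _ => by
          simp only [GG]
          nlinarith [mul_nonneg (sq_nonneg (Real.exp (ℓ x)))
            (sq_nonneg (D (ee a) (f i) x + 2 * (D (ee a) ℓ x * f i x))),
            mul_nonneg (mul_nonneg (sq_nonneg (Real.exp (ℓ x))) (sq_nonneg (D (ee a) ℓ x * f i x)))
              (zero_le_one.trans lam1)]
      refine le_trans ?_ (mul_le_mul_of_nonneg_left t1 (by linarith))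
      simp only [Finset.sum_add_distrib, ← Finset.mul_sum, qq]
      have t2 := mul_nonneg (mul_nonneg (by linarith : 0 ≤ lamk n Cw k + 1)
        (sq_nonneg (GG ℓ f i x))) t0
      have t3 : 0 ≤ ∑ a, D (ee a) ℓ x ^ 2 := Finset.sum_nonneg fun _ _ => sq_nonneg _
      have t4 := mul_nonneg (sq_nonneg (Real.exp (ℓ x)))
        (mul_nonneg (sq_nonneg (lamk n Cw k)) (sq_nonneg (f i x)))
      nlinarith [mul_le_mul_of_nonneg_left h2 t4, mul_nonneg t4 (mul_nonneg (zero_le_one.trans hA) t3),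
        mul_nonneg (mul_nonneg (sq_nonneg (Real.exp (ℓ x))) F0) (sub_nonneg.2 hA),
        mul_nonneg (zero_le_one.trans hA) t2]
  · have z : x ∉ tsupport (f i) := fun h => hx ((hf i).2 h)
    simp [GG, qq, D_eq_zero_of_notMem z, image_eq_zero_of_notMem_tsupport z]

lemma sq_le_of {y a q : ℝ} (hq : 0 ≤ q) (h : |y| ≤ a * √q) : y ^ 2 ≤ a ^ 2 * q := by
  have := sq_le_sq' (abs_le.1 h).1 (abs_le.1 h).2
  rwa [mul_pow, Real.sq_sqrt hq] at this

omit [Fintype J] [DecidableEq J] in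
lemma qq_nonneg (u : En n → ℝ) (x : En n) : 0 ≤ qq Cw k ℓ Lf u x :=
  mul_nonneg (sq_nonneg _) (add_nonneg (Finset.sum_nonneg fun _ _ => sq_nonneg _) (by positivity))

variable {c : Fin n → H → J → ℝ} {c' : Fin n → J → J' → ℝ}

lemma ptw2 (hA : 1 ≤ A) (hC : 1 ≤ Cw) (h : ChainOk γ e ℓ A om Lf S) (hf : Tests S f) (h1 : om ≤ 1)
    (hc : ∀ i i', ∑ a, ∑ h, c a h i * c a h i' = if i = i' then 2 * (k : ℝ) else 0) (x : En n) :
    ∑ h, (-2 * ∑ a, ∑ i, c a h i * SS (psik ℓ Cw (k + 1)) e a (GG ℓ f i) x) ^ 2 ≤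
      800 * n ^ 4 * A ^ 2 * (Real.exp (2 * ℓ x) * (k + 1) * nzD Cw Lf k f x) := by
  have k1 : ∀ a, ∑ i, SS (psik ℓ Cw (k + 1)) e a (GG ℓ f i) x ^ 2 ≤
      (n * (2 * (5 * A))) ^ 2 * ∑ i, qq Cw k ℓ Lf (f i) x := fun a => by
    rw [Finset.mul_sum]
    exact Finset.sum_le_sum fun i _ => sq_le_of (qq_nonneg _ _)
      ((SS_le h.2.2.2.2.1 h1 (one_bd hA hC h hf i x).2.1 a).trans_eq (by ring))
  have k2 : ∀ a, ∑ h, Cc c a h (fun i => SS (psik ℓ Cw (k + 1)) e a (GG ℓ f i) x) ^ 2 ≤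
      2 * k * ((n * (2 * (5 * A))) ^ 2 * ∑ i, qq Cw k ℓ Lf (f i) x) := fun a =>
    (cc_one hc a _).trans (mul_le_mul_of_nonneg_left (k1 a) (by positivity))
  have k3 : ∀ h, (-2 * ∑ a, ∑ i, c a h i * SS (psik ℓ Cw (k + 1)) e a (GG ℓ f i) x) ^ 2 ≤
      4 * n * ∑ a, Cc c a h (fun i => SS (psik ℓ Cw (k + 1)) e a (GG ℓ f i) x) ^ 2 := fun h => by
    have := sq_sum_le_card_mul_sum_sq (s := Finset.univ)
      (f := fun a => Cc c a h fun i => SS (psik ℓ Cw (k + 1)) e a (GG ℓ f i) x)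
    simp only [Finset.card_univ, Fintype.card_fin, Cc] at this ⊢
    nlinarith
  refine (Finset.sum_le_sum fun h _ => k3 h).trans ?_
  rw [← Finset.mul_sum, Finset.sum_comm]
  refine (mul_le_mul_of_nonneg_left (Finset.sum_le_sum fun a _ => k2 a) (by positivity)).trans ?_
  have q0 : 0 ≤ ∑ i, qq Cw k ℓ Lf (f i) x := Finset.sum_nonneg fun _ _ => qq_nonneg _ _
  rw [mul_right_comm (Real.exp _), ← sum_qq]
  simp only [Finset.sum_const, Finset.card_univ, Fintype.card_fin, nsmul_eq_mul]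
  have : 0 ≤ (n : ℝ) ^ 4 * A ^ 2 * ∑ i, qq Cw k ℓ Lf (f i) x := by positivity
  nlinarith

/-- The total null term. -/
def NT (φ : En n → ℝ) (e : MatF n) (c : Fin n → H → J → ℝ) (G : J → En n → ℝ) (θ κ : ℝ)
    (x : En n) : ℝ :=
  4 * (-∑ a, ∑ b, Nn c (fun a i => TT φ e a (G i) x) (fun a i => SS φ e a (G i) x)
      (fun i => G i x) (fun a b => MM φ e a b x) (fun b a i => RR φ e b a (G i) x) a b b a +
    θ * (∑ a, ∑ b, Nn c (fun a i => TT φ e a (G i) x) (fun a i => SS φ e a (G i) x)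
      (fun i => G i x) (fun a b => MM φ e a b x) (fun b a i => RR φ e b a (G i) x) a b a b -
    ∑ a, ∑ b, Nn c (fun a i => TT φ e a (G i) x) (fun a i => SS φ e a (G i) x)
      (fun i => G i x) (fun a b => MM φ e a b x) (fun b a i => RR φ e b a (G i) x) b b a a)) -
  κ * ∑ i, ∑ a, (Dm φ (ee a) (G i) x ^ 2 - (D (ee a) (G i) x ^ 2 +
    D (ee a) φ x ^ 2 * G i x ^ 2 + D (ee a) (D (ee a) φ) x * G i x ^ 2))

omit [DecidableEq J] in
lemma Z_NT {φ : En n → ℝ} {G : J → En n → ℝ} (hφ : Sm φ) (he : SmM e) (hG : ∀ i, Tst (G i))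
    (θ κ : ℝ) : Z (NT φ e c G θ κ) := by
  have N : ∀ a b a' b', Z fun x => Nn c (fun a i => TT φ e a (G i) x)
      (fun a i => SS φ e a (G i) x) (fun i => G i x) (fun a b => MM φ e a b x)
      (fun b a i => RR φ e b a (G i) x) a b a' b' := fun a b a' b' =>
    Z.sum fun i => Z.sum fun i' => (Z_null hφ he (hG i) (hG i') a b).cmul _
  exact ((((((Z.sum fun a => Z.sum fun b => N a b a b).sub
    (Z.sum fun a => Z.sum fun b => N b b a a)).cmul θ).sub
    (Z.sum fun a => Z.sum fun b => N a b b a)).cmul 4).sub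
    ((Z.sum fun i => Z.sum fun a => Z_sq hφ (hG i) (ee a)).cmul κ)).congr fun x => by
      simp only [NT]; ring

lemma fin_num {n k A om Q L lam g P P₁ P₂ X : ℝ} (n3 : 3 ≤ n) (hk : 0 ≤ k) (hA : 1 ≤ A)
    (h0 : 0 ≤ om) (o1 : om ≤ 1) (q0 : 0 ≤ Q) (L1 : 1 ≤ L) (lam1 : k + 1 ≤ lam) (g0 : 0 ≤ g)
    (g2 : (lam * L) ^ 2 * g ≤ Q) (P0 : 0 ≤ P)
    (c1 : -(2 / (2 * k + n - 2) * (2 * k) * P) -
      5 * (n ^ 2 * (2 * k * (30 * n ^ 2 * om * A * Q / (lam * L)))) ≤ X)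
    (c3 : 1 / 4 * P₁ - 2 * n ^ 3 * om ^ 2 * g ≤ P) (c4 : Q ≤ 2 * A * P₂) :
    1 / (k + 1) * (Q / (2 * A)) - (1200 * n ^ 4 * A + 8 * n ^ 3) * (om * Q / L) ≤
      8 * P + 4 * X - 1 / (k + 1) * (P₁ - P₂) := by
  have d0 : 0 < 2 * k + n - 2 := by linarith
  have k1 : 0 < k + 1 := by linarith
  have l0 : 0 < lam := by linarith
  have L0 : 0 < L := by linarith
  have n0 : 0 ≤ n := by linarith
  have f1 : 4 * (1 / (k + 1)) * P ≤ (8 - 4 * (2 / (2 * k + n - 2) * (2 * k))) * P := by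
    refine mul_le_mul_of_nonneg_right ?_ P0
    have : 8 - 4 * (2 / (2 * k + n - 2) * (2 * k)) = 8 * (n - 2) / (2 * k + n - 2) := by
      field_simp; ring
    rw [this, mul_one_div, div_le_div_iff₀ k1 d0]
    nlinarith
  have f2 : Q / (2 * A) ≤ P₂ := by rw [div_le_iff₀ (by linarith)]; linarith
  have f3 : 2 * k * (30 * n ^ 2 * om * A * Q / (lam * L)) ≤ 60 * n ^ 2 * A * (om * Q / L) := by
    have : 2 * k * (30 * n ^ 2 * om * A * Q / (lam * L)) =
        60 * n ^ 2 * A * (om * Q / L) * (k / lam) := by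
      field_simp; ring
    rw [this]
    exact mul_le_of_le_one_right (by positivity) ((div_le_one l0).2 (by linarith))
  have f4 : om ^ 2 * g ≤ om * Q / L := by
    rw [le_div_iff₀ L0]
    have h2 : L ≤ lam * L := le_mul_of_one_le_left L0.le (by linarith)
    have h3 : L ≤ (lam * L) ^ 2 := by nlinarith
    have h4 := (mul_le_mul_of_nonneg_right h3 g0).trans g2
    have h5 := mul_nonneg L0.le g0
    nlinarith [mul_le_mul_of_nonneg_left h4 h0, mul_le_mul_of_nonneg_right o1 (mul_nonneg h0 h5)]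
  have f5 : 1 / (k + 1) * (om ^ 2 * g) ≤ om * Q / L :=
    (mul_le_of_le_one_left (by positivity) ((div_le_one k1).2 (by linarith))).trans f4
  have i0 : 0 ≤ 1 / (k + 1) := by positivity
  have f6 := mul_le_mul_of_nonneg_left c3 i0
  have f7 := mul_le_mul_of_nonneg_left f2 i0
  have f8 := mul_le_mul_of_nonneg_left f3 (sq_nonneg n)
  have f9 := mul_le_mul_of_nonneg_left f5 (by positivity : 0 ≤ n ^ 3)
  linarith

lemma ptw1 (hn : 3 ≤ n) (hA : 1 ≤ A) (hC : 1 ≤ Cw) (h : ChainOk γ e ℓ A om Lf S) (hf : Tests S f)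
    (h0 : 0 ≤ om) (h1 : 4 * n * om ≤ 1)
    (hc : ∀ i i', ∑ a, ∑ h, c a h i * c a h i' = if i = i' then 2 * (k : ℝ) else 0)
    (hc' : ∀ a b i i', ∑ j, c' a i j * c' b i' j = (if a = b ∧ i = i' then 2 else 0) +
      ∑ h, c b h i * c a h i' - 2 / (2 * (k : ℝ) + n - 2) * ∑ h, c a h i * c b h i') (x : En n) :
    (1 / (2 * A) * Real.exp (2 * ℓ x) / (k + 1) -
      (1200 * n ^ 4 * A + 8 * n ^ 3) * om * Real.exp (2 * ℓ x) / Lf x) * nzD Cw Lf k f x ≤
    ∑ j, (-2 * ∑ a, ∑ i, c' a i j * TT (psik ℓ Cw (k + 1)) e a (GG ℓ f i) x) ^ 2 -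
      ∑ h, (-2 * ∑ a, ∑ i, c a h i * SS (psik ℓ Cw (k + 1)) e a (GG ℓ f i) x) ^ 2 +
      NT (psik ℓ Cw (k + 1)) e c (GG ℓ f) (2 / (2 * (k : ℝ) + n - 2)) (1 / (k + 1)) x := by
  have b := fun i => one_bd (k := k) hA hC h hf i x
  obtain ⟨-, -, -, he, hN, hl, -, hL, hS⟩ := h
  have n3 : (3 : ℝ) ≤ n := by exact_mod_cast hn
  have hk : (0 : ℝ) ≤ k := Nat.cast_nonneg k
  have o1 : om ≤ 1 := by nlinarith
  have sG : ∀ i, Sm (GG ℓ f i) := fun i => hl.exp.mul (hf i).1.1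
  by_cases hx : x ∈ S
  swap
  · have z : ∀ i, x ∉ tsupport (f i) := fun i h => hx ((hf i).2 h)
    have z' : ∀ i, x ∉ tsupport (GG ℓ f i) := fun i h => z i (tsupport_mul_subset_right h)
    simp [NT, Nn, nzD, TT_eq he (sG _), SS, RR, Dm, Dp, D_eq_zero_of_notMem (z _),
      image_eq_zero_of_notMem_tsupport (z _), D_eq_zero_of_notMem (z' _),
      image_eq_zero_of_notMem_tsupport (z' _)]
  set φ := psik ℓ Cw (k + 1) with hφ
  set Q := ∑ i, qq Cw k ℓ Lf (f i) x with hQ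
  have lam1 := lam_ge (n := n) (k := k) hC
  have L1 := hL x
  have q0 : 0 ≤ Q := Finset.sum_nonneg fun _ _ => qq_nonneg _ _
  have p0 : 0 < lamk n Cw k * Lf x := mul_pos (by linarith) (by linarith)
  have hM : ∀ v : Fin n → ℝ, 0 ≤ ∑ a, ∑ b, MM φ e a b x * v a * v b := fun v => by
    have m := mul_nonneg (by linarith : 0 ≤ lamk n Cw k + 1)
      ((hS x hx).2.2 fun i => ∑ a, v a * e a i x)
    refine m.trans_eq ?_
    simp only [MM, hφ, psi_eq, D_psi hl, D_psi (hl.D _), Finset.mul_sum, Finset.sum_mul]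
    calc _ = ∑ j, ∑ a, ∑ i, ∑ b, _ := Finset.sum_congr rfl fun j _ => Finset.sum_comm
      _ = ∑ a, ∑ j, ∑ i, ∑ b, _ := Finset.sum_comm
      _ = ∑ a, ∑ i, ∑ j, ∑ b, _ := Finset.sum_congr rfl fun a _ => Finset.sum_comm
      _ = ∑ a, ∑ i, ∑ b, ∑ j, _ :=
        Finset.sum_congr rfl fun a _ => Finset.sum_congr rfl fun i _ => Finset.sum_comm
      _ = ∑ a, ∑ b, ∑ i, ∑ j, _ := Finset.sum_congr rfl fun a _ => Finset.sum_comm
      _ = _ := Finset.sum_congr rfl fun a _ => Finset.sum_congr rfl fun b _ =>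
        Finset.sum_congr rfl fun i _ => Finset.sum_congr rfl fun j _ => by ring
  have g2 : (lamk n Cw k * Lf x) ^ 2 * ∑ i, GG ℓ f i x ^ 2 ≤ Q := by
    rw [Finset.mul_sum]; exact Finset.sum_le_sum fun i _ => (b i).2.2.2.1
  have g0 : 0 ≤ ∑ i, GG ℓ f i x ^ 2 := Finset.sum_nonneg fun _ _ => sq_nonneg _
  have hr : ∀ a b, (∑ i, RR φ e b a (GG ℓ f i) x ^ 2) * ∑ i, GG ℓ f i x ^ 2 ≤
      (30 * n ^ 2 * om * A * Q / (lamk n Cw k * Lf x)) ^ 2 := fun a' b' => by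
    have r1 : ∑ i, RR φ e b' a' (GG ℓ f i) x ^ 2 ≤ (30 * n ^ 2 * om * A) ^ 2 * Q := by
      rw [hQ, Finset.mul_sum]
      exact Finset.sum_le_sum fun i _ => sq_le_of (qq_nonneg _ _)
        ((RR_le he hN o1 (b i).1 (b i).2.1 (b i).2.2.1 b' a').trans_eq (by ring))
    rw [div_pow, le_div_iff₀ (by positivity), mul_assoc, mul_comm _ (_ ^ 2), mul_pow _ Q, sq Q,
      ← mul_assoc _ Q]
    exact mul_le_mul r1 g2 (by positivity) (by positivity)
  have d0 : 0 < 2 * (k : ℝ) + n - 2 := by linarith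
  have c1 := core hc (by positivity) (fun a i => TT φ e a (GG ℓ f i) x)
    (fun a i => SS φ e a (GG ℓ f i) x) (fun i => GG ℓ f i x)
    (fun b a i => RR φ e b a (GG ℓ f i) x) (θ := 2 / (2 * (k : ℝ) + n - 2)) (by positivity) hM hr
    (by positivity) (by rw [div_le_iff₀ d0]; linarith)
  have c2 := sq_B hc' fun a i => TT φ e a (GG ℓ f i) x
  have c3 := Finset.sum_le_sum fun i (_ : i ∈ Finset.univ) => TT_ge (φ := φ) (x := x) he (sG i) hN h1 h0
  have c4 := Finset.sum_le_sum fun i (_ : i ∈ Finset.univ) => (b i).2.2.2.2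
  rw [Finset.sum_comm (f := fun i a => TT φ e a (GG ℓ f i) x ^ 2)] at c3
  simp only [Finset.sum_sub_distrib, ← Finset.mul_sum] at c3 c4
  simp only [NT, mul_pow (-2 : ℝ), ← Finset.mul_sum, Finset.sum_sub_distrib]
  simp only [Fintype.card_fin, Cc] at c1 c2
  rw [c2]
  have eQ : Real.exp (2 * ℓ x) * nzD Cw Lf k f x = Q := sum_qq x |>.symm
  have e1 : (1 / (2 * A) * Real.exp (2 * ℓ x) / (k + 1) -
      (1200 * n ^ 4 * A + 8 * n ^ 3) * om * Real.exp (2 * ℓ x) / Lf x) * nzD Cw Lf k f x =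
      1 / (k + 1) * (Q / (2 * A)) - (1200 * n ^ 4 * A + 8 * n ^ 3) * (om * Q / Lf x) := by
    rw [← eQ]; ring
  rw [e1]
  have P0 : 0 ≤ ∑ a, ∑ i, TT φ e a (GG ℓ f i) x ^ 2 :=
    Finset.sum_nonneg fun _ _ => Finset.sum_nonneg fun _ _ => sq_nonneg _
  have := fin_num n3 hk hA h0 o1 q0 L1 lam1 g0 g2 P0 c1 c3 c4
  linarith

omit [DecidableEq J] in
lemma int_nzD (h : ChainOk γ e ℓ A om Lf S) (hf : Tests S f) {w : En n → ℝ} (hw : Continuous w) :
    Integrable fun x => w x * nzD Cw Lf k f x := by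
  have cL := h.2.2.2.2.2.2.1
  have e : (fun x => w x * nzD Cw Lf k f x) = fun x => ∑ j, (∑ i, w x * D (ee i) (f j) x ^ 2 +
      (w x * (lamk n Cw k * Lf x) ^ 2) * f j x ^ 2) := funext fun x => by
    simp only [nzD, Finset.mul_sum, mul_add, mul_assoc]
  rw [e]
  exact integrable_finsetSum _ fun j _ => (integrable_finsetSum _ fun i _ =>
    Tst.integrable_cmul hw ((hf j).1.D _).sq).add
    (Tst.integrable_cmul (by fun_prop) (hf j).1.sq)

lemma gen (hn : 3 ≤ n) (hA : 1 ≤ A) (hC : 1 ≤ Cw) (h : ChainOk γ e ℓ A om Lf S) (hf : Tests S f)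
    (h1 : om ≤ 1 / (4 * n))
    (hc : ∀ i i', ∑ a, ∑ h, c a h i * c a h i' = if i = i' then 2 * (k : ℝ) else 0)
    (hc' : ∀ a b i i', ∑ j, c' a i j * c' b i' j = (if a = b ∧ i = i' then 2 else 0) +
      ∑ h, c b h i * c a h i' - 2 / (2 * (k : ℝ) + n - 2) * ∑ h, c a h i * c b h i') :
    ∫ x, (1 / (2 * A) * Real.exp (2 * ℓ x) / (k + 1) -
      (1200 * n ^ 4 * A + 8 * n ^ 3 + 800 * n ^ 4 * A ^ 2) * om * Real.exp (2 * ℓ x) / Lf x) *
        nzD Cw Lf k f x ≤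
    (∑ j, ∫ x, (-2 * ∑ a, ∑ i, c' a i j * TT (psik ℓ Cw (k + 1)) e a (GG ℓ f i) x) ^ 2) -
      ∑ h, ∫ x, (-2 * ∑ a, ∑ i, c a h i * SS (psik ℓ Cw (k + 1)) e a (GG ℓ f i) x) ^ 2 ∧
    ∑ h, ∫ x, (-2 * ∑ a, ∑ i, c a h i * SS (psik ℓ Cw (k + 1)) e a (GG ℓ f i) x) ^ 2 ≤
      (1200 * n ^ 4 * A + 8 * n ^ 3 + 800 * n ^ 4 * A ^ 2) *
        ∫ x, Real.exp (2 * ℓ x) * (k + 1) * nzD Cw Lf k f x := by
  have n3 : (3 : ℝ) ≤ n := by exact_mod_cast hn
  have he := h.2.2.2.1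
  have hl := h.2.2.2.2.2.1
  have cL := h.2.2.2.2.2.2.1
  have hL := h.2.2.2.2.2.2.2.1
  have h0 : 0 ≤ om := (abs_nonneg _).trans (e0 h.2.2.2.2.1 ⟨0, by omega⟩ ⟨0, by omega⟩ 0)
  have h2 : 4 * n * om ≤ 1 := by rwa [le_div_iff₀ (by linarith), mul_comm] at h1
  have o1 : om ≤ 1 := by nlinarith
  have sφ : Sm (psik ℓ Cw (k + 1)) := hl.cmul _
  have tG : ∀ i, Tst (GG ℓ f i) := fun i => (hf i).1.mul_left hl.exp
  have i1 : ∀ j, Integrable fun x =>
      (-2 * ∑ a, ∑ i, c' a i j * TT (psik ℓ Cw (k + 1)) e a (GG ℓ f i) x) ^ 2 := fun j =>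
    ((Tst.sum _ fun a _ => Tst.sum _ fun i _ =>
      (tst_TT sφ he (tG i) a).const_mul _).const_mul _).sq.integrable
  have i2 : ∀ j, Integrable fun x =>
      (-2 * ∑ a, ∑ i, c a j i * SS (psik ℓ Cw (k + 1)) e a (GG ℓ f i) x) ^ 2 := fun j =>
    ((Tst.sum _ fun a _ => Tst.sum _ fun i _ =>
      (tst_SS sφ he (tG i) a).const_mul _).const_mul _).sq.integrable
  have cE : Continuous fun x => Real.exp (2 * ℓ x) := (hl.cmul 2).exp.cont
  have Q0 : ∀ x, 0 ≤ nzD Cw Lf k f x := fun x => Finset.sum_nonneg fun j _ =>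
    add_nonneg (Finset.sum_nonneg fun _ _ => sq_nonneg _) (by positivity)
  have z := Z_NT (c := c) sφ he tG (2 / (2 * (k : ℝ) + n - 2)) (1 / (k + 1))
  rw [← integral_finsetSum _ fun j _ => i1 j, ← integral_finsetSum _ fun j _ => i2 j]
  have j1 := integrable_finsetSum Finset.univ fun j _ => i1 j
  have j2 := integrable_finsetSum Finset.univ fun j _ => i2 j
  constructor
  · rw [← integral_sub j1 j2, ← add_zero (∫ x, _ - _), ← z.2, ← integral_add (isub j1 j2) z.1]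
    refine integral_mono (int_nzD h hf (((continuous_const.mul cE).div_const _).sub
      ((continuous_const.mul cE).div cL fun x => by linarith [hL x]))) (iadd (isub j1 j2) z.1)
      fun x => le_trans (mul_le_mul_of_nonneg_right ?_ (Q0 x)) (ptw1 hn hA hC h hf h0 h2 hc hc' x)
    refine sub_le_sub_left (div_le_div_of_nonneg_right (mul_le_mul_of_nonneg_right
      (mul_le_mul_of_nonneg_right (le_add_of_nonneg_right (by positivity)) h0)
      (Real.exp_pos _).le) (by linarith [hL x])) _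
  · rw [← integral_const_mul]
    refine integral_mono j2 ((int_nzD h hf (cE.mul continuous_const)).const_mul _)
      fun x => (ptw2 hA hC h hf o1 hc x).trans (mul_le_mul_of_nonneg_right ?_ ?_)
    · exact le_add_of_nonneg_left (by positivity)
    · have := Q0 x
      positivity

omit [Fintype J] [DecidableEq J] in
lemma exp_T (hl : Sm ℓ) (he : SmM e) (hf : Tests S f) (a : Fin n) (i : J) (x : En n) :
    Real.exp (ℓ x) * opT e ℓ Cw k a (f i) x = TT (psik ℓ Cw (k + 1)) e a (GG ℓ f i) x := by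
  simp only [opT, TT, Finset.mul_sum]
  refine Finset.sum_congr rfl fun j _ => ?_
  have e1 : (fun y => e a j y * GG ℓ f i y) = fun y => Real.exp (ℓ y) * (e a j y * f i y) :=
    funext fun y => mul_left_comm _ _ _
  have e2 : psik ℓ Cw k = fun y => lamk n Cw k * ℓ y := rfl
  simp only [Dm, e1, D_G hl ((he a j).mul (hf i).1.1), psi_eq, e2, D_psi hl]
  simp only [GG]
  ring

end main

end Nzp1

open Nzp1 in
theorem s_nzp1 : S_nzp1 := by
  intro n hn A hA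
  have n3 : (3 : ℝ) ≤ n := by exact_mod_cast hn
  refine ⟨1 / (2 * A), by positivity, fun Cw hC => ⟨1200 * n ^ 4 * A + 8 * n ^ 3 +
    800 * n ^ 4 * A ^ 2, 1 / (4 * n), by positivity, by positivity, ?_⟩⟩
  intro F γ e ℓ Lf om S k f hF h1 h hf
  have eB : ∀ j x, nzB F e ℓ Cw k f j x =
      -2 * ∑ a, ∑ i, F.c a k i j * TT (psik ℓ Cw (k + 1)) e a (GG ℓ f i) x := fun j x => by
    simp only [nzB, ← exp_T h.2.2.2.2.2.1 h.2.2.2.1 hf, mul_assoc, Finset.mul_sum]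
    exact Finset.sum_congr rfl fun a _ => Finset.sum_congr rfl fun i _ => by ring
  simp only [eB]
  cases k with
  | zero =>
    have := gen (k := 0) (H := Fin 0) (c := fun _ h _ => h.elim0) (c' := fun a => F.c a 0) hn hA hC h hf h1
      (fun i i' => by simp) fun a b i i' => by simpa [Fock.up] using hF.1 a b 0 i i'
    simpa only [nzL2, Finset.univ_eq_empty, Finset.sum_empty] using this
  | succ k =>
    exact gen (c := fun a => F.c a k) (c' := fun a => F.c a (k + 1)) hn hA hC h hf h1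
      (hF.2 (k + 1)) fun a b => hF.1 a b (k + 1)

end Vale.Agent.P088
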