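import Vale.Agent.P088.Nzp2a

/-!
# P088: the cross term of the chain inequality
-/

open MeasureTheory Set Metric
open scoped ContDiff Topology

noncomputable section
namespace Vale.Agent.P088
open Vale.Agent.P136 (D Dp Dm Sm Tst)

namespace Nzp2
open Vale.Agent.P136

section lin
variable {E : Type} [NormedAddCommGroup E] [NormedSpace ℝ E] {κ : Type} [Fintype κ]

lemma tst_Zm {v : κ → E} {γ : κ → κ → E → ℝ} {φ u : E → ℝ} (hγ : SmM γ) (hφ : Sm φ) (hu : Tst u)
    (i : κ) : Tst (Zm v γ φ u i) :=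
  Tst.sum _ fun j _ => Tst.mul_left (hγ i j) (Tst.Dm hφ hu _)

lemma tst_Lm {v : κ → E} {γ : κ → κ → E → ℝ} {φ u : E → ℝ} (hγ : SmM γ) (hφ : Sm φ) (hu : Tst u) :
    Tst (Lm v γ φ u) :=
  Tst.sum _ fun i _ => Tst.Dm hφ (tst_Zm hγ hφ hu i) _

lemma tst_Lp {v : κ → E} {γ : κ → κ → E → ℝ} {φ u : E → ℝ} (hγ : SmM γ) (hφ : Sm φ) (hu : Tst u) :
    Tst (Lp' v γ φ u) :=
  Tst.sum _ fun i _ => Tst.Dp hφ (Tst.sum _ fun j _ => Tst.mul_left (hγ i j) (Tst.Dp hφ hu _)) _

lemma Lm_exp {v : κ → E} {γ : κ → κ → E → ℝ} {φ u : E → ℝ} (hγ : SmM γ) (hφ : Sm φ) (hu : Sm u)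
    (x : E) : Lm v γ φ u x = ∑ i, ∑ j, Dm φ (v i) (fun y => γ i j y * Dm φ (v j) u y) x := by
  refine Finset.sum_congr rfl fun i _ => ?_
  exact congrFun (Dm_lin (fun j => (hγ i j).mul (Sm.Dm hφ hu _)) (v i)) x

lemma Lp_exp {v : κ → E} {γ : κ → κ → E → ℝ} {φ u : E → ℝ} (hγ : SmM γ) (hs : SymM γ) (hφ : Sm φ)
    (hu : Sm u) (x : E) :
    Lp' v γ φ u x = ∑ i, ∑ j, Dp φ (v j) (fun y => γ i j y * Dp φ (v i) u y) x := by
  rw [Finset.sum_comm]
  refine Finset.sum_congr rfl fun i _ => ?_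
  simp only [hs _ i]
  exact congrFun (Dp_lin (fun j => (hγ i j).mul (Sm.Dp hφ hu _)) (v i)) x

lemma Dm_comb {J : Type} [Fintype J] {φ : E → ℝ} {f : J → E → ℝ} (hf : ∀ j, Sm (f j)) (c : J → ℝ)
    (v : E) : Dm φ v (fun x => ∑ j, c j * f j x) = fun x => ∑ j, c j * Dm φ v (f j) x := by
  rw [Dm_lin fun j => (hf j).cmul (c j)]
  simp only [Dm_cmul (hf _)]

lemma Dp_comb {J : Type} [Fintype J] {φ : E → ℝ} {f : J → E → ℝ} (hf : ∀ j, Sm (f j)) (c : J → ℝ)
    (v : E) : Dp φ v (fun x => ∑ j, c j * f j x) = fun x => ∑ j, c j * Dp φ v (f j) x := by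
  rw [Dp_lin fun j => (hf j).cmul (c j)]
  simp only [Dp_cmul (hf _)]

lemma D_comb {J : Type} [Fintype J] {f : J → E → ℝ} (hf : ∀ j, Sm (f j)) (c : J → ℝ)
    (v x : E) : D v (fun x => ∑ j, c j * f j x) x = ∑ j, c j * D v (f j) x := by
  rw [D_sum_at _ fun j _ => ((hf j).cmul (c j)).dAt x]
  simp only [D_const_mul_at ((hf _).dAt x)]

lemma Lm_comb {J : Type} [Fintype J] {v : κ → E} {γ : κ → κ → E → ℝ} {φ : E → ℝ} {f : J → E → ℝ}
    (hγ : SmM γ) (hφ : Sm φ) (hf : ∀ j, Tst (f j)) (c : J → ℝ) (x : E) :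
    Lm v γ φ (fun x => ∑ j, c j * f j x) x = ∑ j, c j * Lm v γ φ (f j) x := by
  have e : ∀ i, Zm v γ φ (fun x => ∑ j, c j * f j x) i =
      fun x => ∑ j, c j * Zm v γ φ (f j) i x := by
    intro i; funext y
    simp only [Zm, Dm_comb (fun j => (hf j).sm), Finset.mul_sum]
    rw [Finset.sum_comm]
    exact Finset.sum_congr rfl fun _ _ => Finset.sum_congr rfl fun _ _ => by ring
  simp only [Lm, e, Dm_comb (fun j => (tst_Zm hγ hφ (hf j) _).sm), Finset.mul_sum]
  rw [Finset.sum_comm]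

omit [Fintype κ] in
lemma exp_Dm {φ ψ l e u : E → ℝ} (h : ∀ v x, D v φ x = D v ψ x + D v l x) (hl : Sm l) (he : Sm e)
    (hu : Sm u) (v x : E) : Real.exp (l x) * Dm ψ v (fun y => e y * u y) x =
      Dm φ v (fun y => e y * Real.exp (l y) * u y) x := by
  have e1 : (fun y => e y * Real.exp (l y) * u y) = fun y => Real.exp (l y) * (e y * u y) := by
    funext y; ring
  rw [e1, Dm_mul hl.exp (he.mul hu)]
  simp only [Dm, D_exp_at (hl.dAt x), h]
  ring

omit [Fintype κ] in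
lemma Dp_exp {χ φ l u : E → ℝ} (h : ∀ v x, D v χ x = D v φ x + D v l x) (hl : Sm l)
    (hu : Sm u) (v x : E) : Dp χ v (fun y => Real.exp (l y) * u y) x =
      Real.exp (l x) * (Dp φ v u x + 2 * D v l x * u x) := by
  rw [Dp_mul hl.exp hu]
  simp only [Dp, D_exp_at (hl.dAt x), h]
  ring

end lin

variable {n : ℕ}

lemma lamk_succ (Cw : ℝ) (k : ℕ) : lamk n Cw (k + 1) = lamk n Cw k + 1 := by
  simp only [lamk]; push_cast; ring

lemma one_le_lamk {Cw : ℝ} (h : 1 ≤ Cw) (k : ℕ) : 1 ≤ lamk n Cw k := by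
  have h1 : (0 : ℝ) ≤ k := Nat.cast_nonneg k
  have h2 : (0 : ℝ) ≤ n := Nat.cast_nonneg n
  simp only [lamk]; linarith

lemma sm_psik {l : En n → ℝ} (hl : Sm l) (Cw : ℝ) (k : ℕ) : Sm (psik l Cw k) := hl.cmul _

lemma D_psik {l : En n → ℝ} (hl : Sm l) (Cw : ℝ) (k : ℕ) (v x : En n) :
    D v (psik l Cw (k + 1)) x = D v (psik l Cw k) x + D v l x := by
  unfold psik
  rw [D_const_mul_at (hl.dAt x), D_const_mul_at (hl.dAt x), lamk_succ]
  ring

lemma near_bd {c : En n → ℝ} {d om : ℝ} {x : En n} (hc : Sm c) (hom : om ≤ 1) (hd : |d| ≤ 1)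
    (h : SB ee 4 om 1 (fun y => c y - d) x) :
    |c x| ≤ 2 ∧ (∀ s, |D (ee s) c x| ≤ 1) ∧ ∀ s t, |D (ee s) (D (ee t) c) x| ≤ 1 := by
  have e : ∀ t : Fin n, D (ee t) (fun y => c y - d) = D (ee t) c := by
    intro t; funext y
    rw [D_sub_at (hc.dAt y) ((Sm.const d).dAt y), D_const, sub_zero]
  refine ⟨?_, fun s => ?_, fun s t => ?_⟩
  · have h0 := h [] (by simp)
    simp only [Ds, List.foldr, List.length_nil, pow_zero, mul_one] at h0
    have := abs_add_le (c x - d) d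
    rw [sub_add_cancel] at this
    linarith
  · have h0 := h [s] (by simp)
    simp only [Ds, List.foldr, one_pow, mul_one, e] at h0
    linarith
  · have h0 := h [s, t] (by simp)
    simp only [Ds, List.foldr, one_pow, mul_one, e] at h0
    linarith

lemma fock_sq {F : Fock n} (hF : F.Alg) (k : ℕ) (t : Fin (F.d (k + 1)) → ℝ) :
    ∑ a, ∑ h, (∑ j, F.c a k h j * t j) ^ 2 = 2 * ((k : ℝ) + 1) * ∑ j, t j ^ 2 := by
  have e : ∑ a, ∑ h, (∑ j, F.c a k h j * t j) ^ 2 =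
      ∑ j, ∑ j', (∑ a, F.up (k + 1) a a j j') * (t j * t j') := by
    simp only [Fock.up, pow_two, Finset.sum_mul, Finset.mul_sum]
    symm
    rw [Finset.sum_comm]
    conv_lhs => enter [2, j]; rw [Finset.sum_comm]
    rw [Finset.sum_comm]
    refine Finset.sum_congr rfl fun a _ => ?_
    conv_lhs => enter [2, j]; rw [Finset.sum_comm]
    rw [Finset.sum_comm]
    exact Finset.sum_congr rfl fun _ _ => Finset.sum_congr rfl fun _ _ =>
      Finset.sum_congr rfl fun _ _ => by ring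
  rw [e]
  simp only [hF.2, ite_mul, zero_mul, Finset.sum_ite_eq, Finset.mem_univ, if_true, Finset.mul_sum]
  refine Finset.sum_congr rfl fun j _ => ?_
  push_cast; ring

lemma fock_NN {F : Fock n} (hF : F.Alg) (k : ℕ) {f : Fin (F.d (k + 1)) → En n → ℝ}
    (hf : ∀ j, Sm (f j)) (M : ℝ) (x : En n) :
    ∑ a, ∑ h, NN M (fun y => ∑ j, F.c a k h j * f j y) x =
      2 * ((k : ℝ) + 1) * ∑ j, NN M (f j) x := by
  simp only [NN, D_comb hf, Finset.sum_add_distrib, ← Finset.mul_sum]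
  rw [fock_sq hF k fun j => f j x]
  conv_lhs => enter [1, 2, a]; rw [Finset.sum_comm]
  rw [Finset.sum_comm]
  simp only [fock_sq hF k fun j => D (ee _) (f j) x, ← Finset.mul_sum]
  rw [Finset.sum_comm]
  ring

lemma int_nzD {J : Type} [Fintype J] {f : J → En n → ℝ} (hf : ∀ j, Tst (f j)) {Lf m : En n → ℝ}
    (hL : Continuous Lf) (hm : Continuous m) (Cw : ℝ) (k : ℕ) :
    Integrable (fun x => m x * nzD Cw Lf k f x) := by
  simp only [nzD, Finset.mul_sum, mul_add, ← mul_assoc]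
  refine integrable_finsetSum _ fun j _ => iadd (integrable_finsetSum _ fun i _ => ?_) ?_
  · exact Tst.integrable_cmul hm ((hf j).D _).sq
  · exact Tst.integrable_cmul (m := fun x => m x * (lamk n Cw k * Lf x) ^ 2) (by fun_prop) (hf j).sq

/-- The pointwise bound for the remainder. -/
lemma pt_bd (n : ℕ) {A : ℝ} (hA : 1 ≤ A) : ∃ C : ℝ, 0 ≤ C ∧ ∀ (γ e : MatF n) (l Lf : En n → ℝ)
    (om lam : ℝ) (S : Set (En n)) (u g : En n → ℝ) (a i j m : Fin n) (x : En n), om ≤ 1 → 1 ≤ lam →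
    ChainOk γ e l A om Lf S → IsTest S u → Sm g →
    |Rr (fun x => (lam + 1) * l x) (fun x => lam * l x) l (γ i j)
      (fun x => e a m x * Real.exp (l x)) u g (ee i) (ee j) (ee m) x| ≤
      C * (Real.exp (l x) * Lf x * (√(NN (lam * Lf x) u x) * √(NN (lam * Lf x) g x))) := by
  obtain ⟨C, hC, h⟩ := bd_Rr (n := n) (zero_le_one.trans hA)
  refine ⟨C, hC, fun γ e l Lf om lam S u g a i j m x hom hlam hc hu hg => ?_⟩
  obtain ⟨hγ, -, nγ, he, ne, hl, -, hL, hS⟩ := hc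
  have b1 := near_bd (hγ i j) hom (by split_ifs <;> simp) (nγ i j x)
  have b2 := near_bd (he a m) hom (by split_ifs <;> simp) (ne a m x)
  by_cases hx : x ∈ S
  · have h1 := (hS x hx).1
    exact h ⟨γ i j, e a m, l, u, g, lam, Lf x, x, i, j, m, hγ i j, he a m, hl, hu.1.sm, hg, hlam,
      hL x, b1.1, b1.2.1, b2.1, b2.2.1, b2.2.2,
      fun s => by simpa [Ds] using h1 [s] (by simp) (by simp),
      fun s t => by simpa [Ds] using h1 [s, t] (by simp) (by simp)⟩
  · have hx' : x ∉ tsupport u := fun h => hx (hu.2 h)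
    have s1 : 0 ≤ ∑ s, |D (ee s) l x| := by positivity
    have s2 : 0 ≤ ∑ s, ∑ t, |D (ee s) (D (ee t) l) x| := by positivity
    set L' := 1 + ∑ s, |D (ee s) l x| + ∑ s, ∑ t, |D (ee s) (D (ee t) l) x| with hL'
    have q0 : 1 ≤ L' := by linarith
    have q1 : ∀ s, |D (ee s) l x| ≤ A * L' := fun s => by
      have := Finset.single_le_sum (f := fun s => |D (ee s) l x|) (fun i _ => abs_nonneg _)
        (Finset.mem_univ s)
      nlinarith
    have q2 : ∀ s t, |D (ee s) (D (ee t) l) x| ≤ A * L' ^ 2 := fun s t => by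
      have r1 := Finset.single_le_sum (f := fun t => |D (ee s) (D (ee t) l) x|)
        (fun i _ => abs_nonneg _) (Finset.mem_univ t)
      have r2 := Finset.single_le_sum (f := fun s => ∑ t, |D (ee s) (D (ee t) l) x|)
        (fun i _ => by positivity) (Finset.mem_univ s)
      have r3 : L' ≤ L' ^ 2 := by nlinarith
      have r4 : L' ^ 2 ≤ A * L' ^ 2 := by nlinarith
      linarith
    have h2 := h ⟨γ i j, e a m, l, u, g, lam, L', x, i, j, m, hγ i j, he a m, hl, hu.1.sm, hg, hlam,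
      q0, b1.1, b1.2.1, b2.1, b2.2.1, b2.2.2, q1, q2⟩
    have z : ∀ M, NN M u x = 0 := fun M => by
      simp [NN, D_eq_zero_of_notMem hx', image_eq_zero_of_notMem_tsupport hx']
    simp only [z, Real.sqrt_zero, zero_mul, mul_zero] at h2 ⊢
    exact h2

lemma amgm {a b s : ℝ} (ha : 0 ≤ a) (hb : 0 ≤ b) (hs : 0 < s) : √a * √b ≤ s * a + b / s := by
  have h1 := Real.sq_sqrt ha
  have h2 := Real.sq_sqrt hb
  have h3 : 0 ≤ √a * √b := by positivity
  rw [← sub_nonneg]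
  have e : s * a + b / s - √a * √b = ((s * √a - √b) ^ 2 + s * (√a * √b)) / s := by
    field_simp
    nlinarith
  rw [e]
  positivity

end Nzp2

open Nzp2 Vale.Agent.P136 in
theorem s_nzp2 : S_nzp2 := by
  intro n hn A Cw hA hCw
  obtain ⟨C, hC, hR⟩ := pt_bd n hA
  refine ⟨2 * (C * n ^ 4), by positivity, fun F γ e l Lf om S k f f' hF hom hc hf hf' => ?_⟩
  have hc' := hc
  obtain ⟨hγ, hs, -, he, -, hl, hLc, hL, -⟩ := hc'
  have hφ := sm_psik hl Cw (k + 1)
  have hψ := sm_psik hl Cw k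
  have tf : ∀ i, Tst (f i) := fun i => (hf i).1
  have tf' : ∀ j, Tst (f' j) := fun j => (hf' j).1
  set g : Fin n → Fin (F.d k) → En n → ℝ := fun a h y => ∑ j, F.c a k h j * f' j y with hg
  have tg : ∀ a h, Tst (g a h) := fun a h => Tst.sum _ fun j _ => (tf' j).const_mul _
  set b : Fin n → Fin n → En n → ℝ := fun a m y => e a m y * Real.exp (l y) with hb
  have sb : ∀ a m, Sm (b a m) := fun a m => (he a m).mul hl.exp
  set X : Fin n × Fin (F.d k) × Fin n × Fin n × Fin n → En n → ℝ := fun t x =>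
    Dm (psik l Cw (k + 1)) (ee t.2.2.1)
      (fun y => γ t.2.2.1 t.2.2.2.1 y * Dm (psik l Cw (k + 1)) (ee t.2.2.2.1) (g t.1 t.2.1) y) x *
      Dm (psik l Cw (k + 1)) (ee t.2.2.2.2) (fun y => b t.1 t.2.2.2.2 y * f t.2.1 y) x with hX
  set Y : Fin n × Fin (F.d k) × Fin n × Fin n × Fin n → En n → ℝ := fun t x =>
    Dp (psik l Cw k) (ee t.2.2.2.1)
      (fun y => γ t.2.2.1 t.2.2.2.1 y * Dp (psik l Cw k) (ee t.2.2.1) (f t.2.1) y) x *
      (b t.1 t.2.2.2.2 x * (Dp (psik l Cw (k + 1)) (ee t.2.2.2.2) (g t.1 t.2.1) x +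
        2 * D (ee t.2.2.2.2) l x * g t.1 t.2.1 x)) with hY
  set R : Fin n × Fin (F.d k) × Fin n × Fin n × Fin n → En n → ℝ := fun t =>
    Rr (psik l Cw (k + 1)) (psik l Cw k) l (γ t.2.2.1 t.2.2.2.1) (b t.1 t.2.2.2.2) (f t.2.1)
      (g t.1 t.2.1) (ee t.2.2.1) (ee t.2.2.2.1) (ee t.2.2.2.2) with hRd
  have tX : ∀ t, Tst (X t) := fun t =>
    (Tst.Dm hφ (Tst.mul_left (hγ _ _) (Tst.Dm hφ (tg _ _) _)) _).mul_right
      (Sm.Dm hφ ((sb _ _).mul (tf _).sm) _)
  have tY : ∀ t, Tst (Y t) := fun t =>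
    (Tst.Dp hψ (Tst.mul_left (hγ _ _) (Tst.Dp hψ (tf _) _)) _).mul_right
      ((sb _ _).mul ((Sm.Dp hφ (tg _ _).sm _).add (((hl.D _).cmul 2).mul (tg _ _).sm)))
  have tR : ∀ t, Tst (R t) := fun t => tst_Rr hφ hψ hl (hγ _ _) (sb _ _) (tf _) (tg _ _) _ _ _
  have cXY : ∀ t, (∫ x, X t x) - ∫ x, Y t x = ∫ x, R t x := fun t =>
    core hφ hψ hl (hγ _ _) (sb _ _) (tf _) (tg _ _) (D_psik hl Cw k) _ _ _
  have sB : ∀ j, Sm (nzB F e l Cw k f j) := fun j =>
    (hl.exp.cmul (-2)).mul (Sm.sum fun a _ => Sm.sum fun i _ =>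
      (Sm.sum fun m _ => Sm.Dm hψ ((he a m).mul (tf i).sm) _).cmul _)
  have sL : ∀ i, Sm (nzL F e l Cw k f' i) := fun i =>
    (Sm.sum fun a _ => Sm.sum fun j _ => (Sm.sum fun m _ => (he a m).mul
      (Sm.Dp (sm_psik hl Cw (k + 2)) (hl.exp.mul (tf' j).sm) _)).cmul _).cmul (-2)
  have pX : ∀ x, ∑ j, Lm ee γ (psik l Cw (k + 1)) (f' j) x * nzB F e l Cw k f j x =
      -2 * ∑ t, X t x := by
    intro x
    have e1 : ∀ a h, Real.exp (l x) * opT e l Cw k a (f h) x =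
        ∑ m, Dm (psik l Cw (k + 1)) (ee m) (fun y => b a m y * f h y) x := by
      intro a h
      simp only [opT, Finset.mul_sum]
      exact Finset.sum_congr rfl fun m _ => exp_Dm (D_psik hl Cw k) hl (he a m) (tf h).sm _ _
    have e2 : ∑ t, X t x = ∑ a, ∑ h, Lm ee γ (psik l Cw (k + 1)) (g a h) x *
        (Real.exp (l x) * opT e l Cw k a (f h) x) := by
      simp only [Fintype.sum_prod_type, hX, e1, Lm_exp hγ hφ (tg _ _).sm, Finset.sum_mul]
      simp only [Finset.mul_sum]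
    rw [e2]
    simp only [hg, Lm_comb hγ hφ tf', nzB, Finset.sum_mul, Finset.mul_sum]
    rw [Finset.sum_comm]
    refine Finset.sum_congr rfl fun a _ => ?_
    rw [Finset.sum_comm]
    exact Finset.sum_congr rfl fun _ _ => Finset.sum_congr rfl fun _ _ => by ring
  have pY : ∀ x, ∑ i, Lp' ee γ (psik l Cw k) (f i) x * nzL F e l Cw k f' i x =
      -2 * ∑ t, Y t x := by
    intro x
    have e1 : ∀ a h, ∑ j, F.c a k h j * opS e l Cw (k + 2) a (fun y => Real.exp (l y) * f' j y) x =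
        ∑ m, b a m x * (Dp (psik l Cw (k + 1)) (ee m) (g a h) x + 2 * D (ee m) l x * g a h x) := by
      intro a h
      simp only [opS, hg, hb, Dp_comb fun j => (tf' j).sm,
        Dp_exp (D_psik hl Cw (k + 1)) hl (tf' _).sm, Finset.mul_sum, ← Finset.sum_add_distrib]
      rw [Finset.sum_comm]
      exact Finset.sum_congr rfl fun _ _ => Finset.sum_congr rfl fun _ _ => by ring
    have e2 : ∑ t, Y t x = ∑ a, ∑ h, Lp' ee γ (psik l Cw k) (f h) x *
        ∑ j, F.c a k h j * opS e l Cw (k + 2) a (fun y => Real.exp (l y) * f' j y) x := by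
      simp only [e1]
      simp only [Fintype.sum_prod_type, hY, Lp_exp hγ hs hψ (tf _).sm, Finset.sum_mul]
      simp only [Finset.mul_sum]
    rw [e2, Finset.sum_comm, Finset.mul_sum]
    refine Finset.sum_congr rfl fun h _ => ?_
    rw [← Finset.mul_sum, nzL]
    ring
  have iX : ∑ j, ∫ x, Lm ee γ (psik l Cw (k + 1)) (f' j) x * nzB F e l Cw k f j x =
      -2 * ∑ t, ∫ x, X t x := by
    rw [← integral_finsetSum _ fun j _ => ((tst_Lm hγ hφ (tf' j)).mul_right (sB j)).integrable,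
      ← integral_finsetSum _ fun t _ => (tX t).integrable, ← integral_const_mul]
    simp only [pX]
  have iY : ∑ i, ∫ x, Lp' ee γ (psik l Cw k) (f i) x * nzL F e l Cw k f' i x =
      -2 * ∑ t, ∫ x, Y t x := by
    rw [← integral_finsetSum _ fun i _ => ((tst_Lp hγ hψ (tf i)).mul_right (sL i)).integrable,
      ← integral_finsetSum _ fun t _ => (tY t).integrable, ← integral_const_mul]
    simp only [pY]
  have hlam := one_le_lamk (n := n) hCw k
  have hk : (0 : ℝ) < (k : ℝ) + 1 := by positivity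
  have hsq : 0 < √((k : ℝ) + 1) := Real.sqrt_pos.2 hk
  have hn1 : (3 : ℝ) ≤ n := by exact_mod_cast hn
  have pR : ∀ x, |∑ t, R t x| ≤ C * n ^ 4 * (Real.exp (l x) * √((k : ℝ) + 1) * Lf x *
      (nzD Cw Lf k f x + nzD Cw Lf (k + 1) f' x)) := by
    intro x
    have hLx := hL x
    have hE := Real.exp_pos (l x)
    set M := lamk n Cw k * Lf x with hM
    have r1 : ∀ t, |R t x| ≤ C * (Real.exp (l x) * Lf x) *
        (√((k : ℝ) + 1) * NN M (f t.2.1) x + NN M (g t.1 t.2.1) x / √((k : ℝ) + 1)) := by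
      intro t
      have h1 := hR γ e l Lf om (lamk n Cw k) S (f t.2.1) (g t.1 t.2.1) t.1 t.2.2.1 t.2.2.2.1
        t.2.2.2.2 x hom hlam hc (hf _) (tg _ _).sm
      rw [← lamk_succ] at h1
      refine h1.trans ?_
      rw [mul_assoc C]
      exact mul_le_mul_of_nonneg_left (mul_le_mul_of_nonneg_left
        (amgm (NN_nonneg _ _ _) (NN_nonneg _ _ _) hsq) (by positivity)) hC
    have r2 : ∑ h, NN M (f h) x = nzD Cw Lf k f x := rfl
    have r3 : ∑ j, NN M (f' j) x ≤ nzD Cw Lf (k + 1) f' x := by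
      refine Finset.sum_le_sum fun j _ => ?_
      have : M ^ 2 ≤ (lamk n Cw (k + 1) * Lf x) ^ 2 := by
        rw [lamk_succ]
        exact pow_le_pow_left₀ (by positivity) (by nlinarith) 2
      have := mul_le_mul_of_nonneg_right this (sq_nonneg (f' j x))
      unfold NN
      linarith
    have r4 := fock_NN hF k (fun j => (tf' j).sm) M x
    have r5 : ∑ t : Fin n × Fin (F.d k) × Fin n × Fin n × Fin n,
        (√((k : ℝ) + 1) * NN M (f t.2.1) x + NN M (g t.1 t.2.1) x / √((k : ℝ) + 1)) =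
        (n : ℝ) ^ 3 * √((k : ℝ) + 1) * (n * nzD Cw Lf k f x + 2 * ∑ j, NN M (f' j) x) := by
      simp only [Fintype.sum_prod_type, Finset.sum_const, Finset.card_univ, Fintype.card_prod,
        Fintype.card_fin, nsmul_eq_mul, mul_add, Finset.sum_add_distrib, ← Finset.mul_sum,
        ← Finset.sum_div, r2]
      have r6 : ∑ a, ∑ h, NN M (g a h) x = 2 * ((k : ℝ) + 1) * ∑ j, NN M (f' j) x := r4
      rw [r6]
      have r7 : (k : ℝ) + 1 = √((k : ℝ) + 1) * √((k : ℝ) + 1) := (Real.mul_self_sqrt hk.le).symm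
      generalize √((k : ℝ) + 1) = s at r7 hsq
      rw [r7]
      push_cast
      field_simp
    have z1 : 0 ≤ nzD Cw Lf k f x := r2 ▸ Finset.sum_nonneg fun _ _ => NN_nonneg _ _ _
    have z2 : 0 ≤ ∑ j, NN M (f' j) x := Finset.sum_nonneg fun _ _ => NN_nonneg _ _ _
    calc |∑ t, R t x| ≤ ∑ t, |R t x| := Finset.abs_sum_le_sum_abs _ _
      _ ≤ _ := Finset.sum_le_sum fun t _ => r1 t
      _ = C * (Real.exp (l x) * Lf x) * ((n : ℝ) ^ 3 * √((k : ℝ) + 1) *
          (n * nzD Cw Lf k f x + 2 * ∑ j, NN M (f' j) x)) := by rw [← Finset.mul_sum, r5]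
      _ ≤ C * (Real.exp (l x) * Lf x) * ((n : ℝ) ^ 3 * √((k : ℝ) + 1) *
          (n * nzD Cw Lf k f x + n * nzD Cw Lf (k + 1) f' x)) := by
        gcongr C * (Real.exp (l x) * Lf x) * ((n : ℝ) ^ 3 * √((k : ℝ) + 1) * (_ + ?_))
        nlinarith
      _ = _ := by ring
  have hm : Continuous fun x => Real.exp (l x) * √((k : ℝ) + 1) * Lf x := by
    have := hl.cont
    fun_prop
  have iB : Integrable fun x => C * n ^ 4 * (Real.exp (l x) * √((k : ℝ) + 1) * Lf x *
      (nzD Cw Lf k f x + nzD Cw Lf (k + 1) f' x)) := by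
    refine Integrable.const_mul ?_ _
    simp only [mul_add]
    exact iadd (int_nzD tf hLc hm Cw k) (int_nzD tf' hLc hm Cw (k + 1))
  have fin := norm_integral_le_of_norm_le (f := fun x => ∑ t, R t x) iB
    (Filter.Eventually.of_forall fun x => pR x)
  rw [integral_const_mul, integral_finsetSum _ fun t _ => (tR t).integrable,
    Real.norm_eq_abs] at fin
  rw [iX, iY, ← mul_sub, ← Finset.sum_sub_distrib, abs_mul]
  simp only [cXY]
  rw [abs_neg, abs_two, mul_assoc]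
  exact mul_le_mul_of_nonneg_left fin zero_le_two

end Vale.Agent.P088
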