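import Vale.Agent.P088.StA

/-!
# P088: the cross term, scalar identity and pointwise bound
-/

open MeasureTheory Set Metric
open scoped ContDiff Topology

noncomputable section
namespace Vale.Agent.P088
open Vale.Agent.P136 (D Dp Dm Sm Tst)

namespace Nzp2
open Vale.Agent.P136

section ident
variable {E : Type} [NormedAddCommGroup E] [NormedSpace ℝ E]

/-- The coefficient produced by the change of weight. -/
def bet (l b : E → ℝ) (v : E) : E → ℝ := fun x => b x * D v l x + D v b x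

lemma sm_bet {l b : E → ℝ} (hl : Sm l) (hb : Sm b) (v : E) : Sm (bet l b v) :=
  (hb.mul (hl.D v)).add (hb.D v)

lemma Dp_shift {φ ψ l b u : E → ℝ} (h : ∀ v x, D v φ x = D v ψ x + D v l x) (hb : Sm b)
    (hu : Sm u) (v : E) :
    Dp φ v (fun x => b x * u x) = fun x => b x * Dp ψ v u x + bet l b v x * u x := by
  rw [Dp_mul hb hu]
  funext x
  simp only [Dp, bet, h]
  ring

/-- The remainder density. -/
def Rr (φ ψ l a b u g : E → ℝ) (vi vj vm : E) : E → ℝ := fun x =>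
  Dp φ vm g x * (bet l b vj x * a x * Dp ψ vi u x) +
    Dp φ vm g x * Dp φ vj (fun y => a y * bet l b vi y * u y) x +
    2 * a x * (D vm (D vj φ) x * g x) * Dp φ vi (fun y => b y * u y) x +
    D vm a x * Dm φ vj g x * Dp φ vi (fun y => b y * u y) x +
    2 * a x * Dm φ vj g x * (D vi (D vm φ) x * (b x * u x)) -
    a x * Dp ψ vi u x * Dm ψ vj (fun y => 2 * (b y * D vm l y) * g y) x

lemma tst_Rr {φ ψ l a b u g : E → ℝ} (hφ : Sm φ) (hψ : Sm ψ) (hl : Sm l) (ha : Sm a) (hb : Sm b)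
    (hu : Tst u) (hg : Tst g) (vi vj vm : E) : Tst (Rr φ ψ l a b u g vi vj vm) := by
  have g1 := Tst.Dp hφ hg vm
  have g2 := Tst.Dm hφ hg vj
  have u1 := Tst.Dp hψ hu vi
  have w0 := Tst.mul_left hb hu
  have w1 := Tst.Dp hφ w0 vi
  unfold Rr
  refine Tst.sub (Tst.add (Tst.add (Tst.add (Tst.add ?_ ?_) ?_) ?_) ?_) ?_
  · exact g1.mul_right (((sm_bet hl hb vj).mul ha).mul u1.sm)
  · exact g1.mul_right (Sm.Dp hφ ((ha.mul (sm_bet hl hb vi)).mul hu.sm) vj)
  · exact Tst.mul_left ((ha.cmul 2).mul (((hφ.D vj).D vm).mul hg.sm)) w1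
  · exact Tst.mul_left ((ha.D vm).mul g2.sm) w1
  · exact Tst.mul_left ((ha.cmul 2).mul g2.sm) (Tst.mul_left ((hφ.D vm).D vi) w0)
  · exact Tst.mul_left (ha.mul u1.sm)
      (Tst.Dm hψ (Tst.mul_left ((hb.mul (hl.D vm)).cmul 2) hg) vj)

lemma Dm_lin {J : Type} [Fintype J] {φ : E → ℝ} {f : J → E → ℝ} (hf : ∀ j, Sm (f j)) (v : E) :
    Dm φ v (fun x => ∑ j, f j x) = fun x => ∑ j, Dm φ v (f j) x := by
  funext x
  simp only [Dm, D_sum_at _ (fun j _ => (hf j).dAt x), Finset.sum_add_distrib,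
    Finset.sum_neg_distrib, Finset.mul_sum]

lemma Dp_lin {J : Type} [Fintype J] {φ : E → ℝ} {f : J → E → ℝ} (hf : ∀ j, Sm (f j)) (v : E) :
    Dp φ v (fun x => ∑ j, f j x) = fun x => ∑ j, Dp φ v (f j) x := by
  funext x
  simp only [Dp, D_sum_at _ (fun j _ => (hf j).dAt x), Finset.sum_add_distrib, Finset.mul_sum]

lemma Dm_cmul {φ f : E → ℝ} (hf : Sm f) (c : ℝ) (v : E) :
    Dm φ v (fun x => c * f x) = fun x => c * Dm φ v f x := by
  funext x
  simp only [Dm, D_const_mul_at (hf.dAt x)]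
  ring

lemma Dp_cmul {φ f : E → ℝ} (hf : Sm f) (c : ℝ) (v : E) :
    Dp φ v (fun x => c * f x) = fun x => c * Dp φ v f x := by
  funext x
  simp only [Dp, D_const_mul_at (hf.dAt x)]
  ring

variable [FiniteDimensional ℝ E] [MeasurableSpace E] [BorelSpace E] {μ : Measure E}
  [μ.IsAddHaarMeasure]

lemma core1 {φ a w g : E → ℝ} (hφ : Sm φ) (ha : Sm a) (hw : Tst w) (hg : Tst g) (vi vj vm : E) :
    ∫ x, Dm φ vi (fun y => a y * Dm φ vj g y) x * Dm φ vm w x ∂μ =
      ∫ x, (Dp φ vm g x * Dp φ vj (fun y => a y * Dp φ vi w y) x +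
        (2 * a x * (D vm (D vj φ) x * g x) * Dp φ vi w x +
        D vm a x * Dm φ vj g x * Dp φ vi w x +
        2 * a x * Dm φ vj g x * (D vi (D vm φ) x * w x))) ∂μ := by
  have g1 := Tst.Dp hφ hg vm
  have g2 := Tst.Dm hφ hg vj
  have z := Tst.mul_left ha g2
  have w1 := Tst.Dp hφ hw vi
  have aw := Tst.mul_left ha w1
  have s1 := adj' (μ := μ) hφ z (Tst.Dm hφ hw vm) vi
  rw [Dp_Dm hφ hw.sm] at s1
  have s2 := adj (μ := μ) hφ z w1 vm
  rw [Dp_mul ha g2.sm, Dp_Dm hφ hg.sm] at s2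
  have s3 := adj' (μ := μ) hφ g1 aw vj
  have t1 : Tst fun x => 2 * a x * (D vm (D vj φ) x * g x) * Dp φ vi w x :=
    Tst.mul_left ((ha.cmul 2).mul (((hφ.D vj).D vm).mul hg.sm)) w1
  have t2 : Tst fun x => D vm a x * Dm φ vj g x * Dp φ vi w x :=
    Tst.mul_left ((ha.D vm).mul g2.sm) w1
  have t3 : Tst fun x => 2 * a x * Dm φ vj g x * (D vi (D vm φ) x * w x) :=
    Tst.mul_left ((ha.cmul 2).mul g2.sm) (Tst.mul_left ((hφ.D vm).D vi) hw)
  have e1 : ∫ x, a x * Dm φ vj g x * (Dm φ vm (Dp φ vi w) x + 2 * D vi (D vm φ) x * w x) ∂μ =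
      ∫ x, a x * Dm φ vj g x * Dm φ vm (Dp φ vi w) x ∂μ +
        ∫ x, 2 * a x * Dm φ vj g x * (D vi (D vm φ) x * w x) ∂μ := by
    rw [← integral_add (z.mul_right (Tst.Dm hφ w1 vm).sm).integrable t3.integrable]
    congr 1; funext x; ring
  have e2 : ∫ x, (a x * (Dm φ vj (Dp φ vm g) x + 2 * D vm (D vj φ) x * g x) +
        D vm a x * Dm φ vj g x) * Dp φ vi w x ∂μ =
      ∫ x, Dm φ vj (Dp φ vm g) x * (a x * Dp φ vi w x) ∂μ +
        (∫ x, 2 * a x * (D vm (D vj φ) x * g x) * Dp φ vi w x ∂μ +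
        ∫ x, D vm a x * Dm φ vj g x * Dp φ vi w x ∂μ) := by
    rw [← integral_add t1.integrable t2.integrable, ← integral_add
      ((Tst.Dm hφ g1 vj).mul_right aw.sm).integrable (t1.add t2).integrable]
    congr 1; funext x; ring
  rw [integral_add (g1.mul_right (Tst.Dp hφ aw vj).sm).integrable ((t1.add t2).add t3).integrable,
    integral_add (t1.add t2).integrable t3.integrable, integral_add t1.integrable t2.integrable]
  beta_reduce at s1 s2 s3
  linarith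

lemma core {φ ψ l a b u g : E → ℝ} (hφ : Sm φ) (hψ : Sm ψ) (hl : Sm l) (ha : Sm a) (hb : Sm b)
    (hu : Tst u) (hg : Tst g) (h : ∀ v x, D v φ x = D v ψ x + D v l x) (vi vj vm : E) :
    ∫ x, Dm φ vi (fun y => a y * Dm φ vj g y) x * Dm φ vm (fun y => b y * u y) x ∂μ -
      ∫ x, Dp ψ vj (fun y => a y * Dp ψ vi u y) x *
        (b x * (Dp φ vm g x + 2 * D vm l x * g x)) ∂μ =
      ∫ x, Rr φ ψ l a b u g vi vj vm x ∂μ := by
  have w0 := Tst.mul_left hb hu
  have u1 := Tst.Dp hψ hu vi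
  have au := Tst.mul_left ha u1
  have cg : Tst fun y => 2 * (b y * D vm l y) * g y :=
    Tst.mul_left ((hb.mul (hl.D vm)).cmul 2) hg
  have g1 := Tst.Dp hφ hg vm
  have s1 := core1 (μ := μ) hφ ha w0 hg vi vj vm
  have s2 := adj (μ := μ) hψ au cg vj
  have e : Dp φ vj (fun y => a y * Dp φ vi (fun y => b y * u y) y) = fun x =>
      b x * Dp ψ vj (fun y => a y * Dp ψ vi u y) x + bet l b vj x * (a x * Dp ψ vi u x) +
        Dp φ vj (fun y => a y * bet l b vi y * u y) x := by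
    have e1 : (fun y => a y * Dp φ vi (fun y => b y * u y) y) = fun y =>
        b y * (a y * Dp ψ vi u y) + a y * bet l b vi y * u y := by
      rw [Dp_shift h hb hu.sm]; funext y; ring
    rw [e1, Dp_add (hb.mul au.sm) ((ha.mul (sm_bet hl hb vi)).mul hu.sm), Dp_shift h hb au.sm]
  rw [e] at s1
  have tR := tst_Rr hφ hψ hl ha hb hu hg vi vj vm
  have tP := Tst.Dp hψ au vj
  have t1 : Tst fun x => Dp ψ vj (fun y => a y * Dp ψ vi u y) x * (b x * Dp φ vm g x) :=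
    tP.mul_right (hb.mul g1.sm)
  have t2 : Tst fun x => a x * Dp ψ vi u x * Dm ψ vj (fun y => 2 * (b y * D vm l y) * g y) x :=
    au.mul_right (Tst.Dm hψ cg vj).sm
  have e1 : ∫ x, Dp ψ vj (fun y => a y * Dp ψ vi u y) x *
        (b x * (Dp φ vm g x + 2 * D vm l x * g x)) ∂μ =
      ∫ x, Dp ψ vj (fun y => a y * Dp ψ vi u y) x * (b x * Dp φ vm g x) ∂μ +
        ∫ x, Dp ψ vj (fun y => a y * Dp ψ vi u y) x * (2 * (b x * D vm l x) * g x) ∂μ := by
    rw [← integral_add t1.integrable (tP.mul_right cg.sm).integrable]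
    congr 1; funext x; ring
  rw [s1, e1, s2, ← integral_add t1.integrable t2.integrable, sub_eq_iff_eq_add,
    ← integral_add tR.integrable (t1.add t2).integrable]
  congr 1; funext x
  simp only [Rr]; ring

end ident

/-- The data entering the pointwise bound. -/
structure Par (n : ℕ) (A : ℝ) where
  a : En n → ℝ
  e : En n → ℝ
  l : En n → ℝ
  u : En n → ℝ
  g : En n → ℝ
  lam : ℝ
  L : ℝ
  x : En n
  i : Fin n
  j : Fin n
  m : Fin n
  ha : Sm a
  he : Sm e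
  hl : Sm l
  hu : Sm u
  hg : Sm g
  hlam : 1 ≤ lam
  hL : 1 ≤ L
  a0 : |a x| ≤ 2
  a1 : ∀ s, |D (ee s) a x| ≤ 1
  e0 : |e x| ≤ 2
  e1 : ∀ s, |D (ee s) e x| ≤ 1
  e2 : ∀ s t, |D (ee s) (D (ee t) e) x| ≤ 1
  l1 : ∀ s, |D (ee s) l x| ≤ A * L
  l2 : ∀ s t, |D (ee s) (D (ee t) l) x| ≤ A * L ^ 2

section bd
variable {n : ℕ} {A : ℝ}

def Bd (w c : Par n A → ℝ) : Prop := ∃ C : ℝ, 0 ≤ C ∧ ∀ P, |c P| ≤ C * w P

lemma Bd.mul {w w' c c' : Par n A → ℝ} (h : Bd w c) (h' : Bd w' c') :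
    Bd (fun P => w P * w' P) (fun P => c P * c' P) := by
  obtain ⟨C, hC, h⟩ := h
  obtain ⟨C', hC', h'⟩ := h'
  refine ⟨C * C', mul_nonneg hC hC', fun P => ?_⟩
  rw [abs_mul]
  calc |c P| * |c' P| ≤ (C * w P) * (C' * w' P) :=
        mul_le_mul (h P) (h' P) (abs_nonneg _) ((abs_nonneg _).trans (h P))
    _ = _ := by ring

lemma Bd.add {w c c' : Par n A → ℝ} (h : Bd w c) (h' : Bd w c') :
    Bd w (fun P => c P + c' P) := by
  obtain ⟨C, hC, h⟩ := h
  obtain ⟨C', hC', h'⟩ := h'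
  refine ⟨C + C', add_nonneg hC hC', fun P => ?_⟩
  have := abs_add_le (c P) (c' P)
  have := h P
  have := h' P
  linarith

lemma Bd.of_le {w c c' : Par n A → ℝ} (h : Bd w c) (e : ∀ P, |c' P| ≤ |c P|) : Bd w c' := by
  obtain ⟨C, hC, h⟩ := h
  exact ⟨C, hC, fun P => (e P).trans (h P)⟩

lemma Bd.congr {w c c' : Par n A → ℝ} (h : Bd w c) (e : ∀ P, c' P = c P) : Bd w c' :=
  h.of_le fun P => by rw [e P]

lemma Bd.neg {w c : Par n A → ℝ} (h : Bd w c) : Bd w (fun P => -c P) :=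
  h.of_le fun P => by rw [abs_neg]

lemma Bd.sub {w c c' : Par n A → ℝ} (h : Bd w c) (h' : Bd w c') :
    Bd w (fun P => c P - c' P) := (h.add h'.neg).congr fun P => by ring

lemma Bd.mono {w w' c : Par n A → ℝ} (h : Bd w c) (e : ∀ P, w P ≤ w' P) : Bd w' c := by
  obtain ⟨C, hC, h⟩ := h
  exact ⟨C, hC, fun P => (h P).trans (mul_le_mul_of_nonneg_left (e P) hC)⟩

lemma Bd.two {w c : Par n A → ℝ} (h : Bd w c) : Bd w (fun P => 2 * c P) :=
  (h.add h).congr fun P => by ring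

/-- Symbols of weight `w` and scale `L`. -/
def Sy : ℕ → (Par n A → ℝ) → (Par n A → En n → ℝ) → Prop
  | 0, w, c => (∀ P, Sm (c P)) ∧ Bd w (fun P => c P P.x)
  | k + 1, w, c => ((∀ P, Sm (c P)) ∧ Bd w (fun P => c P P.x)) ∧
      ∀ s : Par n A → Fin n, Sy k (fun P => w P * P.L) (fun P => D (ee (s P)) (c P))

lemma Sy.zero {k : ℕ} {w : Par n A → ℝ} {c : Par n A → En n → ℝ} (h : Sy k w c) :
    (∀ P, Sm (c P)) ∧ Bd w (fun P => c P P.x) := by
  cases k with
  | zero => exact h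
  | succ k => exact h.1

lemma Sy.pred {k : ℕ} {w : Par n A → ℝ} {c : Par n A → En n → ℝ} (h : Sy (k + 1) w c) :
    Sy k w c := by
  induction k generalizing w c with
  | zero => exact h.1
  | succ k ih => exact ⟨h.1, fun s => ih (h.2 s)⟩

lemma Sy.mono {k : ℕ} {w w' : Par n A → ℝ} {c : Par n A → En n → ℝ} (h : Sy k w c)
    (e : ∀ P, w P ≤ w' P) : Sy k w' c := by
  induction k generalizing w w' c with
  | zero => exact ⟨h.1, h.2.mono e⟩
  | succ k ih =>
    exact ⟨⟨h.1.1, h.1.2.mono e⟩, fun s => ih (h.2 s) fun P =>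
      mul_le_mul_of_nonneg_right (e P) (zero_le_one.trans P.hL)⟩

lemma Sy.add {k : ℕ} {w : Par n A → ℝ} {c c' : Par n A → En n → ℝ} (h : Sy k w c)
    (h' : Sy k w c') : Sy k w (fun P x => c P x + c' P x) := by
  induction k generalizing w c c' with
  | zero => exact ⟨fun P => (h.1 P).add (h'.1 P), h.2.add h'.2⟩
  | succ k ih =>
    refine ⟨⟨fun P => (h.1.1 P).add (h'.1.1 P), h.1.2.add h'.1.2⟩, fun s => ?_⟩
    have e : (fun P => D (ee (s P)) (fun x => c P x + c' P x)) =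
        fun P x => D (ee (s P)) (c P) x + D (ee (s P)) (c' P) x := by
      funext P x
      exact D_add_at ((h.1.1 P).dAt x) ((h'.1.1 P).dAt x) _
    rw [e]
    exact ih (h.2 s) (h'.2 s)

lemma Sy.mul {k : ℕ} {w w' : Par n A → ℝ} {c c' : Par n A → En n → ℝ} (h : Sy k w c)
    (h' : Sy k w' c') : Sy k (fun P => w P * w' P) (fun P x => c P x * c' P x) := by
  induction k generalizing w w' c c' with
  | zero => exact ⟨fun P => (h.1 P).mul (h'.1 P), h.2.mul h'.2⟩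
  | succ k ih =>
    refine ⟨⟨fun P => (h.1.1 P).mul (h'.1.1 P), h.1.2.mul h'.1.2⟩, fun s => ?_⟩
    have e : (fun P => D (ee (s P)) (fun x => c P x * c' P x)) =
        fun P x => c P x * D (ee (s P)) (c' P) x + D (ee (s P)) (c P) x * c' P x := by
      funext P x
      exact D_mul_at ((h.1.1 P).dAt x) ((h'.1.1 P).dAt x) _
    rw [e]
    exact ((ih h.pred (h'.2 s)).mono fun P => le_of_eq (by ring)).add
      ((ih (h.2 s) h'.pred).mono fun P => le_of_eq (by ring))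

lemma Sy.two {k : ℕ} {w : Par n A → ℝ} {c : Par n A → En n → ℝ} (h : Sy k w c) :
    Sy k w (fun P x => 2 * c P x) := by
  have e : (fun P x => 2 * c P x) = fun P x => c P x + c P x := by funext P x; ring
  rw [e]; exact h.add h

/-- First-order control of a test function. -/
def Ty (w : Par n A → ℝ) (f : Par n A → En n → ℝ) : Prop :=
  (∀ P, Sm (f P)) ∧ Bd w (fun P => P.lam * P.L * f P P.x) ∧
    ∀ s : Par n A → Fin n, Bd w (fun P => D (ee (s P)) (f P) P.x)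

lemma Ty.cmul {w t c : Par n A → ℝ} {f : Par n A → En n → ℝ} (h : Ty w f)
    (hc : Bd (fun P => P.lam * P.L * t P) c) :
    Bd (fun P => t P * w P) (fun P => c P * f P P.x) := by
  have h1 : Bd t (fun P => c P / (P.lam * P.L)) := by
    obtain ⟨C, hC, h⟩ := hc
    refine ⟨C, hC, fun P => ?_⟩
    have hM : 0 < P.lam * P.L := mul_pos (zero_lt_one.trans_le P.hlam) (zero_lt_one.trans_le P.hL)
    rw [abs_div, abs_of_pos hM, div_le_iff₀ hM]
    exact (h P).trans (le_of_eq (by ring))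
  refine (h1.mul h.2.1).congr fun P => ?_
  have h2 : P.lam ≠ 0 := (zero_lt_one.trans_le P.hlam).ne'
  have h3 : P.L ≠ 0 := (zero_lt_one.trans_le P.hL).ne'
  field_simp

lemma Ty.smul {w t : Par n A → ℝ} {c f : Par n A → En n → ℝ} (ht : ∀ P, 0 ≤ t P) (hc : Sy 1 t c)
    (h : Ty w f) : Ty (fun P => t P * w P) (fun P x => c P x * f P x) := by
  refine ⟨fun P => (hc.1.1 P).mul (h.1 P), (hc.1.2.mul h.2.1).congr fun P => by ring, fun s => ?_⟩
  refine ((hc.1.2.mul (h.2.2 s)).add (h.cmul ((hc.2 s).2.mono fun P => ?_))).congr fun P =>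
    D_mul_at ((hc.1.1 P).dAt _) ((h.1 P).dAt _) _
  have := mul_nonneg (ht P) (zero_le_one.trans P.hL)
  have := P.hlam
  nlinarith

lemma Ty.dp {w : Par n A → ℝ} {φ f : Par n A → En n → ℝ} (h : Ty w f) (s : Par n A → Fin n)
    (hφ : Bd (fun P => P.lam * P.L * 1) (fun P => D (ee (s P)) (φ P) P.x)) :
    Bd w (fun P => Dp (φ P) (ee (s P)) (f P) P.x) :=
  (h.2.2 s).add ((h.cmul hφ).mono fun _ => le_of_eq (one_mul _))

lemma Ty.dm {w : Par n A → ℝ} {φ f : Par n A → En n → ℝ} (h : Ty w f) (s : Par n A → Fin n)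
    (hφ : Bd (fun P => P.lam * P.L * 1) (fun P => D (ee (s P)) (φ P) P.x)) :
    Bd w (fun P => Dm (φ P) (ee (s P)) (f P) P.x) :=
  (h.2.2 s).neg.add ((h.cmul hφ).mono fun _ => le_of_eq (one_mul _))

/-- The first-order size of `f` at `x`. -/
def NN (M : ℝ) (f : En n → ℝ) (x : En n) : ℝ := ∑ i, D (ee i) f x ^ 2 + M ^ 2 * f x ^ 2

lemma NN_nonneg (M : ℝ) (f : En n → ℝ) (x : En n) : 0 ≤ NN M f x := by
  unfold NN; positivity

lemma ty_NN {f : Par n A → En n → ℝ} (hf : ∀ P, Sm (f P)) :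
    Ty (fun P => √(NN (P.lam * P.L) (f P) P.x)) f := by
  refine ⟨hf, ⟨1, zero_le_one, fun P => ?_⟩, fun s => ⟨1, zero_le_one, fun P => ?_⟩⟩
  · rw [one_mul]
    apply Real.abs_le_sqrt
    have : 0 ≤ ∑ i, D (ee i) (f P) P.x ^ 2 := by positivity
    unfold NN
    nlinarith
  · rw [one_mul]
    apply Real.abs_le_sqrt
    have h1 : D (ee (s P)) (f P) P.x ^ 2 ≤ ∑ i, D (ee i) (f P) P.x ^ 2 :=
      Finset.single_le_sum (f := fun i => D (ee i) (f P) P.x ^ 2) (fun i _ => sq_nonneg _)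
        (Finset.mem_univ _)
    have : 0 ≤ (P.lam * P.L) ^ 2 * f P P.x ^ 2 := by positivity
    unfold NN
    linarith

lemma sy_a : Sy 1 (fun _ => 1) (fun P : Par n A => P.a) :=
  ⟨⟨fun P => P.ha, 2, zero_le_two, fun P => by simpa using P.a0⟩, fun s =>
    ⟨fun P => P.ha.D _, 1, zero_le_one, fun P => by
      have := P.a1 (s P); have := P.hL; linarith⟩⟩

lemma sy_e : Sy 2 (fun _ => 1) (fun P : Par n A => P.e) :=
  ⟨⟨fun P => P.he, 2, zero_le_two, fun P => by simpa using P.e0⟩, fun s =>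
    ⟨⟨fun P => P.he.D _, 1, zero_le_one, fun P => by
      have := P.e1 (s P); have := P.hL; linarith⟩, fun t =>
    ⟨fun P => (P.he.D _).D _, 1, zero_le_one, fun P => by
      have := P.e2 (t P) (s P); have := P.hL; nlinarith⟩⟩⟩

lemma sy_l (hA : 0 ≤ A) (s : Par n A → Fin n) :
    Sy 1 (fun P => P.L) (fun P : Par n A => D (ee (s P)) P.l) :=
  ⟨⟨fun P => P.hl.D _, A, hA, fun P => P.l1 _⟩, fun t =>
    ⟨fun P => (P.hl.D _).D _, A, hA, fun P => (P.l2 _ _).trans (le_of_eq (by ring))⟩⟩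

lemma sy_exp (hA : 0 ≤ A) :
    Sy 2 (fun P => Real.exp (P.l P.x)) (fun (P : Par n A) x => Real.exp (P.l x)) := by
  have h0 : Sy 0 (fun P => Real.exp (P.l P.x)) (fun (P : Par n A) x => Real.exp (P.l x)) :=
    ⟨fun P => P.hl.exp, 1, zero_le_one, fun P => by rw [one_mul, abs_of_pos (Real.exp_pos _)]⟩
  have e : ∀ s : Par n A → Fin n, (fun P => D (ee (s P)) (fun x => Real.exp (P.l x))) =
      fun P x => Real.exp (P.l x) * D (ee (s P)) P.l x := by
    intro s; funext P x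
    exact D_exp_at (P.hl.dAt x) _
  have h1 : Sy 1 (fun P => Real.exp (P.l P.x)) (fun (P : Par n A) x => Real.exp (P.l x)) :=
    ⟨h0, fun s => by rw [e]; exact h0.mul (sy_l hA s).pred⟩
  exact ⟨h0, fun s => by rw [e]; exact h1.mul (sy_l hA s)⟩

lemma bd_phi (hA : 0 ≤ A) (t : Par n A → ℝ) (ht : ∀ P, |t P| ≤ 2 * P.lam)
    (s : Par n A → Fin n) : Bd (fun P => P.lam * P.L * 1)
      (fun P : Par n A => D (ee (s P)) (fun x => t P * P.l x) P.x) := by
  have h1 : Bd (fun P => P.lam) t := ⟨2, zero_le_two, ht⟩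
  exact ((h1.mul (sy_l hA s).1.2).mono fun P => le_of_eq (by ring)).congr fun P =>
    D_const_mul_at (P.hl.dAt _) _ _

lemma bd_phi2 (hA : 0 ≤ A) (t : Par n A → ℝ) (ht : ∀ P, |t P| ≤ 2 * P.lam)
    (s s' : Par n A → Fin n) : Bd (fun P => P.lam * P.L * P.L)
      (fun P : Par n A => D (ee (s' P)) (D (ee (s P)) (fun x => t P * P.l x)) P.x) := by
  have h1 : Bd (fun P => P.lam) t := ⟨2, zero_le_two, ht⟩
  refine ((h1.mul ((sy_l hA s).2 s').2).mono fun P => le_of_eq (by ring)).congr fun P => ?_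
  have e : D (ee (s P)) (fun x => t P * P.l x) = fun x => t P * D (ee (s P)) P.l x := by
    funext x
    exact D_const_mul_at (P.hl.dAt _) _ _
  rw [e]
  exact D_const_mul_at ((P.hl.D _).dAt _) _ _

lemma bd_Rr (hA : 0 ≤ A) :
    Bd (fun P : Par n A => Real.exp (P.l P.x) * P.L *
        (√(NN (P.lam * P.L) P.u P.x) * √(NN (P.lam * P.L) P.g P.x)))
      (fun P => Rr (fun x => (P.lam + 1) * P.l x) (fun x => P.lam * P.l x) P.l P.a
        (fun x => P.e x * Real.exp (P.l x)) P.u P.g (ee P.i) (ee P.j) (ee P.m) P.x) := by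
  have t1 : ∀ P : Par n A, |P.lam + 1| ≤ 2 * P.lam := fun P => by
    have := P.hlam
    rw [abs_of_pos (by linarith)]; linarith
  have t0 : ∀ P : Par n A, |P.lam| ≤ 2 * P.lam := fun P => by
    have := P.hlam
    rw [abs_of_pos (by linarith)]; linarith
  have p1 := bd_phi hA _ t1
  have p0 := bd_phi hA _ t0
  have p2 := bd_phi2 hA _ t1
  have hu := ty_NN (fun P : Par n A => P.hu)
  have hg := ty_NN (fun P : Par n A => P.hg)
  have hb : Sy 2 (fun P => Real.exp (P.l P.x))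
      (fun (P : Par n A) x => P.e x * Real.exp (P.l x)) :=
    (sy_e.mul (sy_exp hA)).mono fun P => le_of_eq (one_mul _)
  have hbet : ∀ s : Par n A → Fin n, Sy 1 (fun P => Real.exp (P.l P.x) * P.L)
      (fun P : Par n A => bet P.l (fun x => P.e x * Real.exp (P.l x)) (ee (s P))) := fun s =>
    (hb.pred.mul (sy_l hA s)).add (hb.2 s)
  have nE : ∀ P : Par n A, 0 ≤ Real.exp (P.l P.x) := fun P => (Real.exp_pos _).le
  have nEL : ∀ P : Par n A, 0 ≤ Real.exp (P.l P.x) * P.L := fun P =>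
    mul_nonneg (nE P) (zero_le_one.trans P.hL)
  have bu := Ty.smul nE hb.pred hu
  have ab := Ty.smul (fun P => by rw [one_mul]; exact nEL P)
    (sy_a.mul (hbet fun P => P.i)) hu
  have cg := Ty.smul nEL (hb.pred.mul (sy_l hA fun P => P.m)).two hg
  have a0 := (sy_a (n := n) (A := A)).1.2
  unfold Rr
  refine Bd.sub (Bd.add (Bd.add (Bd.add (Bd.add ?_ ?_) ?_) ?_) ?_) ?_
  · exact ((hg.dp _ (p1 fun P => P.m)).mul (((hbet fun P => P.j).1.2.mul a0).mul
      (hu.dp _ (p0 fun P => P.i)))).mono fun P => le_of_eq (by ring)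
  · exact ((hg.dp _ (p1 fun P => P.m)).mul (ab.dp _ (p1 fun P => P.j))).mono
      fun P => le_of_eq (by ring)
  · exact ((a0.two.mul (hg.cmul (p2 (fun P => P.j) fun P => P.m))).mul
      (bu.dp _ (p1 fun P => P.i))).mono fun P => le_of_eq (by ring)
  · exact ((((sy_a.2 fun P => P.m).2).mul (hg.dm _ (p1 fun P => P.j))).mul
      (bu.dp _ (p1 fun P => P.i))).mono fun P => le_of_eq (by ring)
  · exact ((a0.two.mul (hg.dm _ (p1 fun P => P.j))).mul
      (bu.cmul (p2 (fun P => P.m) fun P => P.i))).mono fun P => le_of_eq (by ring)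
  · exact ((a0.mul (hu.dp _ (p0 fun P => P.i))).mul (cg.dm _ (p0 fun P => P.j))).mono
      fun P => le_of_eq (by ring)

end bd

end Nzp2
end Vale.Agent.P088
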