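import Vale.Agent.P088.PL1a

/-!
# P088: lower bound for the Hessian of the weight
-/

open MeasureTheory Set Metric
open scoped ContDiff Topology

noncomputable section
namespace Vale.Agent.P088
open Vale.Agent.P136 (D Dp Dm Sm Tst D_add_at D_const_mul_at D_exp_at D_congr D_const)
namespace PL1
open Wwh

variable {n : ℕ} {ι : Type} {f : Fx} {c : Cx n ι} {p : X2 n} {om L η C C₂ : ℝ}

lemma key_id (w0 : W0 f c) (p : X2 n) (ζ ζ' : Fin n → ℝ) :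
    QQ c p * vv f c p * bil (gm c p) (mv p) (ζ + ζ') + sig f c p * bil (gm c p) (zt c p) (ζ' - ζ) +
      dl f c p ζ ζ' = QQ c p * vv f c p * dZ c uu p ζ ζ' + sig f c p * dZ c (QQ c) p ζ ζ' / 2 := by
  obtain ⟨-, -, w3, -⟩ := w0
  obtain ⟨-, -, -, -, -, -, -, -, -, -, -, -, -, -, z2, -⟩ := w3 p
  rw [z2, dl]
  ring

lemma claim3 (hh : S_hess) (hf : f.Ok) (w0 : W0 f c) (p : X2 n) (ζ ζ' : Fin n → ℝ) :
    FF f c p / QQ c p * (QQ c p * vv f c p * bil (gm c p) (mv p) (ζ + ζ') +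
      sig f c p * bil (gm c p) (zt c p) (ζ' - ζ) + dl f c p ζ ζ') ^ 2 = dm2 f c p ζ ζ' := by
  have F0 : 0 < FF f c p := (w0.2.2.1 p).2.2.1
  rw [key_id w0, dm2, dZ_rep c (Psi f c), (hh n ι f c hf w0 p _ 0).1, ← dZ_rep, ← dZ_rep]
  simp only [my, Psi, al]
  rcases eq_or_ne (QQ c p) 0 with h | h
  · simp [h]
  · field_simp

lemma claim2 (hf : f.Ok) (w0 : W0 f c) (η0 : 0 ≤ η) (C0 : 0 ≤ C) (wh : WH f c C η p)
    (w2 : W2 f c C₂ η p) (ζ ζ' : Fin n → ℝ) :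
    |dl f c p ζ ζ'| ≤ sig f c p * √(QQ c p) * (((1 / f.lam + 1) * η * √(QQ c p) +
      (1 / f.lam + 1) * C / aX f c p.1 ^ 2) * √(n2 ζ + n2 ζ')) := by
  obtain ⟨z1, -, -, z3, z4, -⟩ := w0.2.2.1 p
  obtain ⟨-, -, h3, h4⟩ := wh ζ ζ'
  have l0 : 0 < f.lam := hf.1
  have b1 := w2.2.2.2.2.2.1
  have v0 : 0 ≤ vv f c p := by
    have := w2.2.2.1
    by_contra h
    push Not at h
    nlinarith
  have Q0 : 0 ≤ QQ c p := le_trans (by positivity) z1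
  obtain ⟨r, hr⟩ : ∃ r, √(QQ c p) = r := ⟨_, rfl⟩
  have r0 : 0 ≤ r := hr ▸ Real.sqrt_nonneg _
  have rr : QQ c p = r ^ 2 := by rw [← hr, Real.sq_sqrt Q0]
  have T0 := Real.sqrt_nonneg (n2 ζ + n2 ζ')
  have e0 : 0 ≤ C / aX f c p.1 ^ 2 := by positivity
  rw [dl, mul_div_assoc]
  rw [hr] at h3 h4 b1 ⊢
  rw [rr] at h4 ⊢
  generalize √(n2 ζ + n2 ζ') = T at *
  generalize C / aX f c p.1 ^ 2 = e at *
  have b2 : vv f c p * r ≤ 1 / f.lam * sig f c p := by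
    rw [one_div, ← div_eq_inv_mul, le_div_iff₀ l0]; linarith
  have a1 := ml (x := r ^ 2 * vv f c p) (s := r ^ 2 * vv f c p)
    (le_of_eq (abs_of_nonneg (by positivity))) h3
  have a2 : |sig f c p * (dZ c (QQ c) p ζ ζ' / 2 - zd p (ζ' - ζ))| ≤
      sig f c p * ((η * r ^ 2 + e * r) * T) := by
    refine ml (le_of_eq (abs_of_nonneg (by linarith))) ?_
    rw [abs_le] at h4 ⊢
    have : 0 ≤ (η * r ^ 2 + e * r) * T := by positivity
    constructor <;> linarith [h4.1, h4.2]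
  have a3 := mul_le_mul_of_nonneg_right b2 (show 0 ≤ r * ((η * r + e) * T) by positivity)
  refine (abs_add_le _ _).trans ?_
  linarith

lemma gam_le (hf : f.Ok) : 0 < f.gam0 ∧ f.gam0 ≤ 1 := by
  obtain ⟨h1, h2, h3, h4, h5, h6, h7, h8, -⟩ := hf
  refine ⟨h7, ?_⟩
  have : f.e1 * f.lam ^ 2 ≤ 1 * 1 := mul_le_mul (by linarith) (by nlinarith) (sq_nonneg _) zero_le_one
  linarith

lemma psi_part (hh : S_hess) (hf : f.Ok) (w0 : W0 f c) (ok : c.Ok f om L) (η0 : 0 ≤ η)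
    (η1 : η ≤ 1) (C1 : 1 ≤ C) (wh : WH f c C η p) (w2 : W2 f c C₂ η p) (q2 : QQ c p ≤ 2)
    (cv : ∀ U Q : ℝ, (0 < QQ c p ∨ Q = 0) → FF f c p / QQ c p *
      ((QQ c p * vv f c p * U + sig f c p * Q / 2) ^ 2 - (sig f c p + gg f c p) * Q ^ 2 / 4) ≤
        S2 f c p U Q U Q) (ζ ζ' : Fin n → ℝ) :
    N1 f c p ζ ζ' - 420 * C ^ 2 * (η * (my f c p * (n2 ζ + n2 ζ') +
      al f c p / vv f c p * n2 (ζ' - ζ)) + (n2 ζ + n2 ζ')) ≤ H2 c (Psi f c) p ζ ζ' := by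
  obtain ⟨-, L1, -, -, -, s1, y1, -, s2, y2, -⟩ := ok
  obtain ⟨z1, -, F0, z3, z4, -, -, -, -, -, -, -, -, -, z2, -, -, z5⟩ := w0.2.2.1 p
  obtain ⟨su, -, -, -, sQ, -, -, -, -, sP, -⟩ := w0.1
  obtain ⟨x0, x1, -⟩ := w0.2.1 p.1
  obtain ⟨h1, h2, -, h4⟩ := wh ζ ζ'
  obtain ⟨-, b1, -, -, b2, -, -, -, -, -, -, b3, -⟩ := w2
  have Q0 : 0 ≤ QQ c p := le_trans (by positivity) z1
  have e1 : H2 c (Psi f c) p ζ ζ' = S2 f c p (dZ c uu p ζ ζ') (dZ c (QQ c) p ζ ζ')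
      (dZ c uu p ζ ζ') (dZ c (QQ c) p ζ ζ') + my f c p * H2 c uu p ζ ζ' +
      al f c p / 2 * H2 c (QQ c) p ζ ζ' := by
    rw [H2_rep c s1 y1 s2 y2 sP, H2_rep c s1 y1 s2 y2 su, H2_rep c s1 y1 s2 y2 sQ,
      (hh n ι f c hf w0 p _ _).2.1, (hh n ι f c hf w0 p _ 0).1, dZ_rep, dZ_rep]
    ring
  have hs : zd p (ζ' - ζ) ^ 2 ≤ 2 * QQ c p * n2 (ζ' - ζ) := by
    have a1 := dot_sq (fun i => zz p i) (ζ' - ζ)
    have a2 : n2 (fun i => zz p i) = ‖zz p‖ ^ 2 := (EuclideanSpace.real_norm_sq_eq _).symm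
    rw [a2] at a1
    exact a1.trans (mul_le_mul_of_nonneg_right (by linarith) (n2_nonneg _))
  have hS := cv (dZ c uu p ζ ζ') (dZ c (QQ c) p ζ ζ') (by
    rcases Q0.eq_or_lt with h | h
    · right
      rw [← h] at hs h4
      have a1 : zd p (ζ' - ζ) = 0 := pow_eq_zero_iff (two_ne_zero) |>.1
        (le_antisymm (by simpa using hs) (sq_nonneg _))
      simpa [a1] using h4
    · exact .inl h)
  have g0 : 0 ≤ gg f c p ∧ gg f c p ≤ 2 * sig f c p := by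
    obtain ⟨a1, a2⟩ := gam_le hf
    unfold gg
    split_ifs
    · constructor <;> linarith
    · have a3 := mul_le_mul_of_nonneg_right a2 (zero_le_two.trans z4)
      have a4 := mul_nonneg a1.le (zero_le_two.trans z4)
      constructor <;> linarith
  have a1 : 1 ≤ aX f c p.1 := by
    have := one_le_pow₀ (L1.trans x1) (n := 20)
    linarith [mul_le_mul_of_nonneg_right η1 x0.le]
  have a2 : 1 ≤ aX f c p.1 ^ 2 := one_le_pow₀ a1
  have he : FF f c p * sig f c p * (C / aX f c p.1 ^ 2) ≤ C * (1 + η * my f c p) := by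
    rw [← mul_div_assoc, div_le_iff₀ (by linarith)]
    have := mul_le_mul_of_nonneg_left b3 (zero_le_one.trans C1)
    rw [al] at this
    linarith
  have T2 := add_nonneg (n2_nonneg ζ) (n2_nonneg ζ')
  have TT := Real.sq_sqrt T2
  have NN := Real.sq_sqrt (n2_nonneg (ζ' - ζ))
  have rr := Real.sq_sqrt Q0
  have NT : √(n2 (ζ' - ζ)) ≤ 2 * √(n2 ζ + n2 ζ') :=
    abs_le_of_sq_le_sq' (by rw [mul_pow, TT, NN]; linarith [n2_sub ζ ζ']) (by positivity) |>.2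
  have hs' : |zd p (ζ' - ζ)| ≤ 3 / 2 * √(QQ c p) * √(n2 (ζ' - ζ)) := by
    refine abs_le_of_sq_le_sq' ?_ (by positivity) |> abs_le.2
    rw [mul_pow, mul_pow, NN, rr]
    linarith [mul_nonneg Q0 (n2_nonneg (ζ' - ζ))]
  have B0 : 0 ≤ bil (gm c p) (ζ + ζ') (ζ + ζ') :=
    le_trans (by linarith [n2_nonneg (ζ + ζ')]) (z5 (ζ + ζ')).2.2.2.2.1
  have r2 : √(QQ c p) ≤ 3 / 2 := Real.sqrt_le_iff.2 ⟨by norm_num, by linarith⟩
  have k := psi_num (Y := QQ c p * vv f c p * dZ c uu p ζ ζ' + sig f c p * dZ c (QQ c) p ζ ζ' / 2)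
    (S := S2 f c p (dZ c uu p ζ ζ') (dZ c (QQ c) p ζ ζ') (dZ c uu p ζ ζ') (dZ c (QQ c) p ζ ζ'))
    (Real.sqrt_nonneg _) r2 F0 (L1.trans z3) z4 g0.1 g0.2 b2 (by positivity)
    (div_le_self (by linarith) a2) C1 (by rw [rr]; exact he) η0 η1 (Real.sqrt_nonneg _)
    (Real.sqrt_nonneg _) NT hs' B0 (by rw [rr, TT]; exact h1) (by rw [TT]; exact h2)
    (by rw [rr]; exact h4) (by rw [rr]; exact hS)
  rw [rr, TT, NN] at k
  rw [e1, N1, Nal1, key_id w0, z2]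
  exact k

lemma lu_part (hh : S_hess) (hf : f.Ok) (w0 : W0 f c) (ok : c.Ok f om L) {K K' η' : ℝ}
    (η1 : η ≤ 1) (wh : WH f c C η p) (wq : WQ c K' η' p) (w1 : W1 f c K p) (ζ ζ' : Fin n → ℝ) :
    -(K * vv f c p * (n2 ζ + n2 ζ')) ≤ H2 c (lu f c) p ζ ζ' := by
  obtain ⟨-, -, -, -, -, s1, y1, -, s2, y2, -⟩ := ok
  obtain ⟨-, -, -, -, -, -, -, -, -, -, -, -, -, -, -, -, -, z5⟩ := w0.2.2.1 p
  obtain ⟨su, -, -, -, -, -, -, -, -, -, -, -, sl, -⟩ := w0.1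
  obtain ⟨-, h2, -⟩ := wh ζ ζ'
  obtain ⟨-, -, -, -, -, -, -, -, -, -, -, a1, a2, a3, -⟩ := w1
  obtain ⟨l₂, l0, hl⟩ := (hh n ι f c hf w0 p 0 0).2.2
  have e2 : ∀ a b, D (vec a b) (lu f c) p =
      LU f.K c.L0 c.sg c.J (uu p) / 2 * D (vec a b) uu p := fun a b => by
    simp only [D_vec, dot, dx, dyy, a1, wq.1, mul_add, Finset.mul_sum]
    congr 1 <;> exact Finset.sum_congr rfl fun i _ => by ring
  have e1 : H2 c (lu f c) p ζ ζ' = l₂ * dZ c uu p ζ ζ' ^ 2 +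
      LU f.K c.L0 c.sg c.J (uu p) / 2 * H2 c uu p ζ ζ' := by
    rw [H2_rep c s1 y1 s2 y2 sl, H2_rep c s1 y1 s2 y2 su, hl, dZ_rep, Gv, e2]
    ring
  have B0 : 0 ≤ bil (gm c p) (ζ + ζ') (ζ + ζ') :=
    le_trans (by linarith [n2_nonneg (ζ + ζ')]) (z5 (ζ + ζ')).2.2.2.2.1
  have T2 := add_nonneg (n2_nonneg ζ) (n2_nonneg ζ')
  have b1 : -(n2 ζ + n2 ζ') ≤ H2 c uu p ζ ζ' := by
    linarith [(abs_le.1 h2).1, mul_le_mul_of_nonneg_right η1 T2]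
  have b2 := mul_le_mul_of_nonneg_left b1 a2
  have b3 := mul_le_mul_of_nonneg_right a3 T2
  have b4 := mul_nonneg a2 T2
  rw [e1]
  linarith [mul_nonneg l0 (sq_nonneg (dZ c uu p ζ ζ'))]

lemma g_le {γ : MatF n} (h : Near 8 om γ) (o0 : 0 ≤ om) (o1 : om ≤ 1) (x : En n) :
    ‖fun i j => γ i j x‖ ≤ 2 := by
  have := nadd (near0 h o0 x) (nId (n := n))
  rw [sub_add_cancel] at this
  linarith

lemma x_le (ok : c.Ok f om L) (hp : p ∈ Om2 c) : ‖p.1‖ ≤ 2 := by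
  have h1 := norm_add_le (p.1 - c.p0) c.p0
  rw [sub_add_cancel, ok.2.2.2.2.1] at h1
  linarith [hp.1]

lemma x_le' (h : ‖p.1‖ ≤ 2) : ‖fun i => p.1 i‖ ≤ 2 :=
  o1 zero_le_two fun i => (PiLp.norm_apply_le p.1 i).trans h

lemma ff_out {M : ℝ} (hM : (n : ℝ) ≤ M) (w0 : W0 f c) (ok : c.Ok f om L) (o0 : 0 ≤ om)
    (o1' : om ≤ 1) (hx : ‖p.1‖ ≤ 2) (wx : W1x f c C p.1) (hQ : f.t0 ^ 2 / 2 < QQ c p)
    (ζ ζ' : Fin n → ℝ) : fp f c p / 4 * n2 ζ + fp f c p * LX f c p.1 / 2 * xz c p ζ ^ 2 -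
      8 * M ^ 4 * om * (fp f c p * n2 ζ) ≤ H2 c (ff f c) p ζ ζ' := by
  obtain ⟨-, L1, -, -, -, s1, y1, N1, s2, y2, -⟩ := ok
  obtain ⟨-, -, -, -, -, -, -, -, -, -, -, -, -, -, -, -, -, z5⟩ := w0.2.2.1 p
  obtain ⟨-, -, -, -, -, -, -, -, -, -, -, -, -, -, -, sf, -, -, -, -, -, -, -, -, -, -, -, -, -,
    -, -, -, -, -, -, -, -, -, -, sl, -⟩ := w0.1
  obtain ⟨-, x1, -, -, x2⟩ := w0.2.1 p.1
  have h1 := (w0.2.2.2.2 p).2.2.1 hQ
  have sl' : Sm fun q : X2 n => lX f c q.1 := sl.comp contDiff_fst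
  have h2 : ff f c =ᶠ[𝓝 p] fun q => Real.exp (lX f c q.1) := by
    filter_upwards [h1] with q hq
    rw [ff, hq, Pi.one_apply, one_mul, fX]
  have h3 : fp f c p = Real.exp (lX f c p.1) * LX f c p.1 := by
    rw [fp, h1.eq_of_nhds, Pi.one_apply, one_mul, fX]
  have h4 : ∀ a b, D (vec a b) (fun q : X2 n => lX f c q.1) p =
      LX f c p.1 * dot a fun i => p.1 i := fun a b => by
    rw [D_fst sl, vec_fst, D_lc, dot, Finset.mul_sum]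
    exact Finset.sum_congr rfl fun i _ => by rw [x2]; ring
  have h5 : LX f c p.1 * n2 (up (g1 c p) ζ) ≤
      D (Wv c p ζ ζ') (D (Wv c p ζ ζ') fun q : X2 n => lX f c q.1) p := by
    rw [funext (D_fst sl (Wv c p ζ ζ')), D_fst (sl.D _), Wv, vec_fst, DD_lc _ _ _ _ sl]
    exact wx.2.2.2.2.1 _
  have L0 : 0 ≤ LX f c p.1 := by linarith
  have h6 := mul_le_mul_of_nonneg_left (n2_up (z5 ζ).1) L0
  have hζ := le_n2 ζ le_rfl
  have h7 := (abs_le.1 (dot_le hM (ct_le hM (Gam_le hM (g_le N1 o0 o1' p.1)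
    (o3 (d := fun j k l => D (ee j) (c.γ₁ k l) p.1) o0 fun j k l => near1 N1 j k l p.1)) hζ)
    (x_le' hx))).1
  rw [mul_assoc _ (√_), Real.mul_self_sqrt (n2_nonneg ζ)] at h7
  rw [H2_rep c s1 y1 s2 y2 sf, D_congr (SbAlg.D_ev h2 _), D_congr h2, DD_exp sl', D_exp_at (sl'.dAt p),
    Gv, h4, h3, Wv, h4, ← bil_dot]
  rw [Wv] at h5
  have E0 := Real.exp_pos (lX f c p.1)
  have h8 := mul_le_mul_of_nonneg_left (h6.trans h5) E0.le
  have h9 := mul_le_mul_of_nonneg_left h7 (mul_nonneg E0.le L0)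
  have h10 : 0 ≤ Real.exp (lX f c p.1) * (LX f c p.1 * xz c p ζ) ^ 2 := by positivity
  unfold xz g1 at *
  linarith

lemma ff_mid {M K : ℝ} (hM : (n : ℝ) ≤ M) (M1 : 1 ≤ M) (w0 : W0 f c) (ok : c.Ok f om L)
    (o0 : 0 ≤ om) (o1' : om ≤ 1) (hx : ‖p.1‖ ≤ 2) (C1 : 1 ≤ C) (wx : W1x f c C p.1)
    (w1 : W1 f c K p) (ζ ζ' : Fin n → ℝ) :
    fp f c p / 4 * n2 ζ + fp f c p * LX f c p.1 / 2 * xz c p ζ ^ 2 -
      120 * M ^ 4 * K * C * (fX f c p.1 * LX f c p.1 ^ 2) * (n2 ζ + n2 ζ') ≤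
      H2 c (ff f c) p ζ ζ' := by
  obtain ⟨-, L1, -, -, -, s1, y1, N1, s2, y2, N2, -⟩ := ok
  obtain ⟨-, -, -, -, -, -, -, -, -, -, -, -, -, -, sc, sf, -, -, -, -, -, -, -, -, -, -, -, -, -,
    -, -, -, -, -, -, -, -, -, -, -, sX, -⟩ := w0.1
  obtain ⟨-, x1, -⟩ := w0.2.1 p.1
  have LL : 1 ≤ LX f c p.1 := L1.trans x1
  obtain ⟨-, -, -, -, -, -, -, -, -, a1, -⟩ := w1
  have K0 := SbAlg.nonneg a1
  have f0 : 0 < fX f c p.1 := Real.exp_pos _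
  have a2 : SB exy 6 (C * fX f c p.1) (1 * LX f c p.1) (fun q : X2 n => fX f c (q.1 + 0)) p :=
    SbLin.lin0 (v := exy) (v' := ee) (ContinuousLinearMap.fst ℝ (En n) (En n)) 0
      (t := fun s j => Sum.elim (fun i => if i = j then 1 else 0) (fun _ => 0) s) (A := 1)
      (by linarith) (fun s => by rcases s with i | i <;> simp [exy, ex, ey])
      (fun s => by rcases s with i | i <;> simp [apply_ite abs]) sX.contDiffAt
      (by simpa using wx.2.1)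
  simp only [add_zero, one_mul] at a2
  have a3 : SB exy 2 (2 ^ 2 * K * (C * fX f c p.1)) (LX f c p.1) (ff f c) p :=
    SbAlg.mul (by linarith) sc.contDiffAt (sX.comp contDiff_fst).contDiffAt
      (SbAlg.mono zero_le_one a1 (by norm_num) le_rfl LL)
      (SbAlg.mono (by linarith) a2 (by norm_num) le_rfl le_rfl)
  obtain ⟨A, hA⟩ : ∃ A, K * C * (fX f c p.1 * LX f c p.1 ^ 2) = A := ⟨_, rfl⟩
  have A0 : 0 ≤ A := by rw [← hA]; positivity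
  have L2 : LX f c p.1 ≤ LX f c p.1 ^ 2 := le_self_pow₀ LL two_ne_zero
  have a4 : ∀ i j, |D (exy i) (D (exy j) (ff f c)) p| ≤ 4 * A := fun i j =>
    (a3 [i, j] le_rfl).trans (le_of_eq (by rw [← hA]; simp only [List.length]; ring))
  have a5 : ∀ i, |D (exy i) (ff f c) p| ≤ 4 * A := fun i => by
    refine (a3 [i] (by simp)).trans ?_
    have := mul_le_mul_of_nonneg_left L2 (show 0 ≤ 2 ^ 2 * K * (C * fX f c p.1) by positivity)
    rw [← hA]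
    simp only [List.length, zero_add, pow_one]
    linarith
  have a6 : fp f c p * LX f c p.1 ≤ A := by
    have b1 : chf f c p ≤ K * C :=
      ((le_abs_self _).trans (by simpa [Ds] using a1 [] (by simp))).trans
        (le_mul_of_one_le_right K0 C1)
    have := mul_le_mul_of_nonneg_right b1 (show 0 ≤ fX f c p.1 * LX f c p.1 ^ 2 by positivity)
    rw [fp]
    linarith
  have p0 : 0 ≤ fp f c p := (w0.2.2.1 p).2.2.2.2.2.2.2.2.2.2.2.1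
  have a7 : fp f c p ≤ A := (le_mul_of_one_le_right p0 LL).trans a6
  have T2 := add_nonneg (n2_nonneg ζ) (n2_nonneg ζ')
  have hζ := le_n2 ζ (le_add_of_nonneg_right (n2_nonneg ζ'))
  have hζ' := le_n2 ζ' (le_add_of_nonneg_left (n2_nonneg ζ))
  have TT := Real.sq_sqrt T2
  have g1' := g_le N1 o0 o1' p.1
  have g2' := g_le N2 o0 o1' p.2
  have b1 := (abs_le.1 (DD_vec_le hM sf (by linarith) a4 (up_le hM g1' hζ) (up_le hM g2' hζ'))).1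
  have b2 := (abs_le.1 (D_vec_le hM (by linarith) a5
    (ct_le hM (Gam_le hM g1' (o3 (d := fun j k l => D (ee j) (c.γ₁ k l) p.1) zero_le_one
      fun j k l => (near1 N1 j k l p.1).trans o1')) hζ)
    (ct_le hM (Gam_le hM g2' (o3 (d := fun j k l => D (ee j) (c.γ₂ k l) p.2) zero_le_one
      fun j k l => (near1 N2 j k l p.2).trans o1')) hζ'))).1
  have b3 : xz c p ζ ^ 2 ≤ (M * (M * (2 * 2 * √(n2 ζ + n2 ζ')))) ^ 2 :=
    sq_le_sq' (abs_le.1 (bil_le hM g1' (x_le' hx) hζ)).1 (abs_le.1 (bil_le hM g1' (x_le' hx) hζ)).2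
  have b4 := mul_le_mul a6 b3 (sq_nonneg _) A0
  have b5 : fp f c p * n2 ζ ≤ A * (n2 ζ + n2 ζ') :=
    mul_le_mul a7 (le_add_of_nonneg_right (n2_nonneg ζ')) (n2_nonneg ζ) A0
  have b6 : A * (n2 ζ + n2 ζ') ≤ M ^ 4 * (A * (n2 ζ + n2 ζ')) :=
    le_mul_of_one_le_left (mul_nonneg A0 T2) (one_le_pow₀ M1)
  have b7 := mul_nonneg A0 T2
  have e : 120 * M ^ 4 * K * C * (fX f c p.1 * LX f c p.1 ^ 2) * (n2 ζ + n2 ζ') =
      120 * (M ^ 4 * (A * (n2 ζ + n2 ζ'))) := by rw [← hA]; ring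
  rw [H2_rep c s1 y1 s2 y2 sf, e, Wv, Gv]
  generalize √(n2 ζ + n2 ζ') = T at *
  rw [← TT] at b5 b6 b7 ⊢
  unfold g1 g2
  linarith

lemma fX_le {κ : ℝ} (w0 : W0 f c) (L1 : 1 ≤ c.L0) (w2 : W2 f c C₂ η p) (C1 : 1 ≤ C₂)
    (κ0 : 0 ≤ κ) (hη : C₂ ^ 5 * η ≤ (κ * (f.t0 ^ 2 / 4)) ^ 2) (h1 : f.t0 ^ 2 / 4 ≤ QQ c p)
    (h2 : QQ c p ≤ f.t0 ^ 2 / 2) : fX f c p.1 * LX f c p.1 ^ 2 ≤ κ * my f c p := by
  obtain ⟨-, -, F0, z3, -⟩ := w0.2.2.1 p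
  obtain ⟨x0, x1, x2, -⟩ := w0.2.1 p.1
  obtain ⟨b1, -, -, -, -, -, -, -, -, -, b2, -⟩ := w2
  have t0 := sq_nonneg f.t0
  obtain ⟨b3, b4⟩ := b2 (.inl (by linarith))
  have v1 : 1 ≤ vv f c p := L1.trans z3
  have a1 : vv f c p ^ 2 ≤ η * FF f c p := (pow_le_pow_right₀ v1 (by norm_num)).trans b1
  have a2 : LX f c p.1 ^ 4 ≤ (C₂ * vv f c p) ^ 4 := pow_le_pow_left₀ (by linarith) b3 4
  have a3 := mul_le_mul b4 a2 (by positivity) (by positivity)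
  have a4 := mul_le_mul_of_nonneg_left a1
    (show 0 ≤ C₂ ^ 5 * FF f c p * vv f c p ^ 2 by positivity)
  have a5 := mul_le_mul_of_nonneg_right hη (show 0 ≤ (FF f c p * vv f c p) ^ 2 by positivity)
  have a6 : κ * (f.t0 ^ 2 / 4) * (FF f c p * vv f c p) ≤ κ * my f c p := by
    rw [my, Psi, mul_assoc, mul_assoc]
    exact mul_le_mul_of_nonneg_left (mul_le_mul_of_nonneg_right h1 (by positivity)) κ0
  refine le_trans (abs_le_of_sq_le_sq' ?_ (by positivity)).2 a6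
  rw [mul_pow, x2]
  linarith

end PL1
open PL1 Wwh

theorem s_PL1 (h0 : S_w0) (hq : S_wq) (hH : S_wh) (hh : S_hess) (hc : S_conv) (h1 : S_w1)
    (hx : S_w1x) (h2 : S_w2) : S_PL1 := by
  intro n ι f hf
  obtain ⟨Kq, -, hq⟩ := hq n
  obtain ⟨C₀, C0, hH⟩ := hH n
  obtain ⟨Cc, -, hc⟩ := hc n ι f hf
  obtain ⟨K, K1, h1⟩ := h1 n ι f hf
  obtain ⟨Cx', X1, hx⟩ := hx n ι f hf
  obtain ⟨C₂, C2, h2⟩ := h2 n ι f hf
  have l0 : 0 < f.lam := hf.1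
  have t0 : 0 < f.t0 := hf.2.2.2.2.2.2.2.2.1
  have w1 : 1 ≤ f.Cw := hf.2.2.2.2.2.2.2.2.2.2.2.1
  have n0 : (0 : ℝ) ≤ n := Nat.cast_nonneg n
  obtain ⟨M, hM⟩ : ∃ M : ℝ, M = n + 1 := ⟨_, rfl⟩
  have hn : (n : ℝ) ≤ M := by linarith
  have M1 : 1 ≤ M := by linarith
  have p1 : 0 ≤ 420 * C₀ ^ 2 := by positivity
  have p2 : 0 ≤ f.Cw * K := by positivity
  have p3 : 0 ≤ (1 / f.lam + 1) * C₀ := by positivity
  refine ⟨1 + 420 * C₀ ^ 2 + f.Cw * K + (1 / f.lam + 1) * C₀, by linarith, fun η hη => ?_⟩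
  obtain ⟨κ, κ0, hκ⟩ : ∃ κ : ℝ, 0 < κ ∧ 120 * M ^ 4 * K * Cx' * κ = η / 2 :=
    ⟨η / 2 / (120 * M ^ 4 * K * Cx'), by positivity, by field_simp⟩
  obtain ⟨ε, e0, e1, e2, e3, e4⟩ : ∃ ε : ℝ, 0 < ε ∧ ε ≤ 1 ∧ 420 * C₀ ^ 2 * ε ≤ η / 2 ∧
      (1 / f.lam + 1) * ε ≤ η ∧ C₂ ^ 5 * ε ≤ (κ * (f.t0 ^ 2 / 4)) ^ 2 := by
    refine ⟨min (min 1 (η / 2 / (420 * C₀ ^ 2))) (min (η / (1 / f.lam + 1))
      ((κ * (f.t0 ^ 2 / 4)) ^ 2 / C₂ ^ 5)), by positivity,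
      (min_le_left _ _).trans (min_le_left _ _), ?_, ?_, ?_⟩ <;>
      rw [← le_div_iff₀' (by positivity)]
    · exact (min_le_left _ _).trans (min_le_right _ _)
    · exact (min_le_right _ _).trans (min_le_left _ _)
    · exact (min_le_right _ _).trans (min_le_right _ _)
  obtain ⟨om, o0, o1', o2'⟩ : ∃ om : ℝ, 0 < om ∧ om ≤ 1 ∧ 8 * M ^ 4 * om ≤ η / 2 :=
    ⟨min 1 (η / 2 / (8 * M ^ 4)), by positivity, min_le_left _ _,
      by rw [← le_div_iff₀' (by positivity)]; exact min_le_right _ _⟩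
  refine ((((((((h0 n ι f hf).and (hq ι f hf 1 one_pos)).and (hH ι f hf ε e0)).and
    (hc 1 one_pos)).and h1).and hx).and (h2 ε e0)).and (Ev.ok f o0 0)).mono
    fun c ⟨⟨⟨⟨⟨⟨⟨w0, wq⟩, wh⟩, cv⟩, w1'⟩, wx⟩, w2⟩, ok⟩ p hp ζ ζ' => ⟨?_, ?_, claim3 hh hf w0 p ζ ζ'⟩
  · have a1 := psi_part hh hf w0 ok e0.le e1 C0 (wh p hp) (w2 p hp.1)
      (wq p hp.1).2.2.2.2.2.2.2.2.2.2.1 (fun U Q => (cv p hp.1 U Q).1) ζ ζ'
    have a2 := mul_le_mul_of_nonneg_left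
      (lu_part hh hf w0 ok e1 (wh p hp) (wq p hp.1) (w1' p hp.1) ζ ζ') (zero_le_one.trans w1)
    have x2 := x_le ok hp.1
    obtain ⟨z1, -, F0, z3, z4, -, -, -, -, -, -, p0, -⟩ := w0.2.2.1 p
    have L1 : 1 ≤ c.L0 := ok.2.1
    have v1 : 1 ≤ vv f c p := L1.trans z3
    have Q0 : 0 ≤ QQ c p := le_trans (by positivity) z1
    have m0 : 0 ≤ my f c p := by unfold my Psi; positivity
    have mm : mx f c p = my f c p + fp f c p := rfl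
    have u1 := n2_nonneg ζ
    have u2 := n2_nonneg ζ'
    have u3 : 0 ≤ al f c p / vv f c p * n2 (ζ' - ζ) :=
      mul_nonneg (by unfold al; positivity) (n2_nonneg _)
    have u4 := mul_nonneg m0 u1
    have u5 := mul_nonneg m0 u2
    have u6 := mul_nonneg p0 u1
    have u7 := mul_nonneg hη.le u4
    have u8 := mul_nonneg hη.le u5
    have u9 := mul_nonneg hη.le u6
    obtain ⟨-, -, -, -, -, s1, y1, -, s2, y2, -⟩ := id ok
    obtain ⟨-, -, -, -, -, -, -, -, -, sP, -, -, sl, s0, -, sf, -, sp, -⟩ := w0.1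
    have a3 : fp f c p / 4 * n2 ζ + fp f c p * LX f c p.1 / 2 * xz c p ζ ^ 2 -
        η / 2 * (mx f c p * n2 ζ + my f c p * n2 ζ') ≤ H2 c (ff f c) p ζ ζ' := by
      rw [mm]
      rcases lt_or_ge (QQ c p) (f.t0 ^ 2 / 4) with h | h
      · obtain ⟨b1, b2⟩ := (w0.2.2.2.2 p).1 h
        have b3 : ff f c =ᶠ[𝓝 p] fun _ => 0 := by
          filter_upwards [b1] with q hq
          rw [phi] at hq
          linarith
        rw [H2_rep c s1 y1 s2 y2 sf, D_congr (SbAlg.D_ev b3 _), D_congr b3, D_const,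
          funext (D_const (0 : ℝ) _), D_const, b2]
        linarith
      rcases le_or_gt (QQ c p) (f.t0 ^ 2 / 2) with h' | h'
      · have b1 := ff_mid hn M1 w0 ok o0.le o1' x2 X1 (wx p.1 x2) (w1' p hp.1) ζ ζ'
        have b2 := mul_le_mul_of_nonneg_right (mul_le_mul_of_nonneg_left
          (fX_le w0 L1 (w2 p hp.1) C2 κ0.le e4 h h')
          (show 0 ≤ 120 * M ^ 4 * K * Cx' by positivity)) (add_nonneg u1 u2)
        rw [← mul_assoc _ κ, hκ] at b2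
        linarith
      · have b1 := ff_out hn w0 ok o0.le o1' x2 (wx p.1 x2) h' ζ ζ'
        have b2 := mul_le_mul_of_nonneg_right o2' u6
        linarith
    have a4 : H2 c (phi f c) p ζ ζ' = H2 c (Psi f c) p ζ ζ' + f.Cw * H2 c (lu f c) p ζ ζ' +
        H2 c (ff f c) p ζ ζ' := by
      rw [H2_rep c s1 y1 s2 y2 sp, H2_rep c s1 y1 s2 y2 sP, H2_rep c s1 y1 s2 y2 sl,
        H2_rep c s1 y1 s2 y2 sf]
      have e1 : phi f c = fun q => ph0 f c q + ff f c q := rfl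
      have e2 : ph0 f c = fun q => Psi f c q + f.Cw * lu f c q := rfl
      rw [e1, DD_add s0 sf, D_add_at (s0.dAt p) (sf.dAt p), e2, DD_add sP (sl.cmul _),
        D_add_at (sP.dAt p) ((sl.cmul _).dAt p), DD_cmul sl, D_const_mul_at (sl.dAt p)]
      ring
    have T2 := add_nonneg u1 u2
    have c1 : n2 ζ + n2 ζ' ≤ vv f c p ^ 2 * (n2 ζ + n2 ζ') :=
      le_mul_of_one_le_left T2 (one_le_pow₀ v1)
    have c2 : vv f c p * (n2 ζ + n2 ζ') ≤ vv f c p ^ 2 * (n2 ζ + n2 ζ') :=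
      mul_le_mul_of_nonneg_right (le_self_pow₀ v1 two_ne_zero) T2
    have c3 := mul_le_mul_of_nonneg_left c1 p1
    have c4 := mul_le_mul_of_nonneg_left c2 p2
    have c5 := mul_nonneg (add_nonneg zero_le_one p3) (T2.trans c1)
    have c6 := mul_le_mul_of_nonneg_right e2
      (add_nonneg (mul_nonneg m0 T2) u3)
    have c8 := mul_nonneg hη.le u3
    rw [a4, er]
    rw [mm] at a3 ⊢
    linarith
  · refine (claim2 hf w0 e0.le (by linarith) (wh p hp) (w2 p hp.1) ζ ζ').trans ?_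
    have : 0 ≤ sig f c p := le_trans zero_le_two (w0.2.2.1 p).2.2.2.2.1
    gcongr
    linarith

end Vale.Agent.P088
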