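import Vale.Agent.P088.WwhA
import Vale.Agent.P088.SbLin

/-!
# P088: the covariant Hessians of `u` and `Q`
-/

open MeasureTheory Set Metric
open scoped ContDiff Topology

noncomputable section
namespace Vale.Agent.P088
open Vale.Agent.P136 (D Dp Dm Sm Tst D_mul_at D_sum_at D_add_at D_sub_at D_comm)
namespace Wwh

variable {n : ℕ}

lemma sum4 (f : Fin n → Fin n → Fin n → Fin n → ℝ) :
    ∑ i, ∑ k, ∑ j, ∑ l, f i k j l = ∑ j, ∑ l, ∑ i, ∑ k, f i k j l := by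
  rw [Finset.sum_congr rfl fun _ _ => Finset.sum_comm, Finset.sum_comm]
  refine Finset.sum_congr rfl fun j _ => ?_
  rw [Finset.sum_congr rfl fun _ _ => Finset.sum_comm, Finset.sum_comm]

lemma HC_eq (v : Fin n → X2 n) {γ : Fin n → Fin n → X2 n → ℝ} (hγ : SmM γ) (hs : SymM γ)
    {F : X2 n → ℝ} (hF : Sm F) (p : X2 n) (ζ : Fin n → ℝ) :
    HC v γ F p ζ = bil (fun j l => D (v j) (D (v l) F) p) (up (fun i j => γ i j p) ζ)
      (up (fun i j => γ i j p) ζ) + tr3 (Gam (fun i j => γ i j p) fun j k l => D (v j) (γ k l) p)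
        ζ ζ fun l => D (v l) F p := by
  have h1 : ∀ j k, D (v j) (XX v γ F k) p =
      ∑ l, (γ k l p * D (v j) (D (v l) F) p + D (v j) (γ k l) p * D (v l) F p) := fun j k => by
    unfold XX
    rw [D_sum_at _ fun l _ => ((hγ k l).mul (hF.D _)).dAt p]
    exact Finset.sum_congr rfl fun l _ => D_mul_at ((hγ k l).dAt p) ((hF.D _).dAt p) _
  have h2 : bil (fun j l => D (v j) (D (v l) F) p) (up (fun i j => γ i j p) ζ)
      (up (fun i j => γ i j p) ζ) =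
      ∑ i, ∑ k, ∑ j, ∑ l, γ i j p * (γ k l p * D (v j) (D (v l) F) p) * ζ i * ζ k := by
    rw [sum4]
    refine Finset.sum_congr rfl fun j _ => Finset.sum_congr rfl fun l _ => ?_
    simp only [up]
    rw [mul_assoc, Finset.sum_mul_sum, Finset.mul_sum]
    refine Finset.sum_congr rfl fun i _ => ?_
    rw [Finset.mul_sum]
    refine Finset.sum_congr rfl fun k _ => ?_
    rw [hs j i, hs l k]; ring
  rw [h2]
  simp only [HC, tr3, h1, Gam, dir, XX]
  rw [← Finset.sum_add_distrib]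
  refine Finset.sum_congr rfl fun i _ => ?_
  rw [← Finset.sum_add_distrib]
  refine Finset.sum_congr rfl fun k _ => ?_
  simp only [Finset.sum_mul, Finset.mul_sum]
  rw [Finset.sum_comm (f := fun l j => (γ i j p * D (v j) (γ k l) p -
    1 / 2 * (γ j l p * D (v j) (γ i k) p)) * ζ i * ζ k * D (v l) F p)]
  simp only [← Finset.sum_sub_distrib, ← Finset.sum_add_distrib, Finset.sum_mul]
  refine Finset.sum_congr rfl fun j _ => Finset.sum_congr rfl fun l _ => by ring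

lemma D_onX {g : En n → ℝ} (hg : Sm g) (j : Fin n) (p : X2 n) :
    D (ex j) (fun q : X2 n => g q.1) p = D (ee j) g p.1 :=
  congrArg (fun L : X2 n →L[ℝ] ℝ => L (ex j))
    ((hg.dAt p.1).hasFDerivAt.comp p hasFDerivAt_fst).fderiv

lemma D_onY {g : En n → ℝ} (hg : Sm g) (j : Fin n) (p : X2 n) :
    D (ey j) (fun q : X2 n => g q.2) p = D (ee j) g p.2 :=
  congrArg (fun L : X2 n →L[ℝ] ℝ => L (ey j))
    ((hg.dAt p.2).hasFDerivAt.comp p hasFDerivAt_snd).fderiv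

lemma D_addv (F : X2 n → ℝ) (a b p : X2 n) : D (a + b) F p = D a F p + D b F p := map_add _ a b

lemma D_subc (g : En n → ℝ) (c : ℝ) (a : En n) : D a (fun y => g y - c) = D a g :=
  funext fun x => by simp only [D, fderiv_sub_const]

variable {om : ℝ} {γ : MatF n}

lemma near0 (h : Near 8 om γ) (ho : 0 ≤ om) (x : En n) : ‖(fun i j => γ i j x) - Id n‖ ≤ om :=
  o2 ho fun i j => by simpa [Ds, Id] using h i j x [] (by simp)

lemma near1 (h : Near 8 om γ) (l i j : Fin n) (x : En n) : |D (ee l) (γ i j) x| ≤ om := by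
  simpa [Ds, D_subc] using h i j x [l] (by simp)

lemma near2 (h : Near 8 om γ) (hγ : SmM γ) (ho : 0 ≤ om) (l i j : Fin n) (x y : En n) :
    |D (ee l) (γ i j) y - D (ee l) (γ i j) x| ≤ om * (n * ‖y - x‖) := by
  have h1 := SbLin.taylor ee (D (ee l) (γ i j)) x (fun m => (y - x) m) 1 om
    (fun _ _ => ((hγ i j).D _).contDiffAt) (fun s _ L hL => by
      obtain ⟨a, rfl⟩ := List.length_eq_one_iff.1 hL
      simpa [Ds, D_subc] using h i j _ [a, l] (by simp))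
    (fun L h1 h2 => absurd (List.length_eq_zero_iff.1 (by omega)) h1) le_rfl
  have h2 : x + ∑ m, (y - x) m • ee m = y := by
    ext m; simp [ee, Pi.single_apply]
  rw [h2, pow_one] at h1
  refine h1.trans (mul_le_mul_of_nonneg_left ((le_abs_self _).trans
    (sum_le le_rfl (norm_nonneg _) fun m => ?_)) ho)
  rw [abs_abs]
  exact PiLp.norm_apply_le (y - x) m

lemma nId : ‖Id n‖ ≤ 1 := o2 zero_le_one fun i j => by unfold Id; split_ifs <;> simp

lemma le_n2 (a : Fin n → ℝ) {t : ℝ} (h : n2 a ≤ t) : ‖a‖ ≤ √t :=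
  o1 (Real.sqrt_nonneg _) fun i => Real.abs_le_sqrt
    ((Finset.single_le_sum (f := fun i => a i ^ 2) (fun _ _ => sq_nonneg _)
      (Finset.mem_univ i)).trans h)

lemma n2_nonneg (a : Fin n → ℝ) : 0 ≤ n2 a := Finset.sum_nonneg fun _ _ => sq_nonneg _

lemma H2_eq {ι : Type} (c : Cx n ι) (h1 : SmM c.γ₁) (h1' : SymM c.γ₁) (h2 : SmM c.γ₂)
    (h2' : SymM c.γ₂) {F : X2 n → ℝ} (hF : Sm F) (p : X2 n) (ζ ζ' : Fin n → ℝ) :
    H2 c F p ζ ζ' = bil (fun j l => D (ex j) (D (ex l) F) p) (up (g1 c p) ζ) (up (g1 c p) ζ) +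
      tr3 (Gam (g1 c p) fun j k l => D (ee j) (c.γ₁ k l) p.1) ζ ζ (dx F p) +
      (bil (fun j l => D (ey j) (D (ey l) F) p) (up (g2 c p) ζ') (up (g2 c p) ζ') +
      tr3 (Gam (g2 c p) fun j k l => D (ee j) (c.γ₂ k l) p.2) ζ' ζ' (dyy F p)) +
      2 * bil (fun j l => D (ey j) (D (ex l) F) p) (up (g2 c p) ζ') (up (g1 c p) ζ) := by
  unfold H2
  rw [HC_eq ex (γ := onX c.γ₁) (fun i j => (h1 i j).comp contDiff_fst)
    (fun i j => by unfold onX; rw [h1' i j]) hF,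
    HC_eq ey (γ := onY c.γ₂) (fun i j => (h2 i j).comp contDiff_snd)
    (fun i j => by unfold onY; rw [h2' i j]) hF]
  simp only [← D_onX (h1 _ _), ← D_onY (h2 _ _)]
  congr 2
  unfold mixd bil
  rw [Finset.sum_comm]
  congr; ext; congr; ext; ring

end Wwh
open Wwh

theorem s_wh (h0 : S_w0) (hq : S_wq) : S_wh := by
  intro n
  obtain ⟨K, hK, hq⟩ := hq n
  have n0 : (0 : ℝ) ≤ n := Nat.cast_nonneg n
  obtain ⟨M, hM⟩ : ∃ M : ℝ, M = K + n + 2 := ⟨_, rfl⟩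
  have hn : (n : ℝ) ≤ M := by linarith
  have M1 : 1 ≤ M := by linarith
  have M6 : 1 ≤ 200 * M ^ 6 := by linarith [one_le_pow₀ M1 (n := 6)]
  refine ⟨200 * M ^ 6, M6, fun ι f hf η hη => ?_⟩
  obtain ⟨ε, e0, e1, e2⟩ : ∃ ε : ℝ, 0 < ε ∧ ε ≤ 1 ∧ 200 * M ^ 6 * ε ≤ η :=
    ⟨min 1 (η / (200 * M ^ 6)), lt_min one_pos (by positivity), min_le_left _ _,
      by rw [← le_div_iff₀' (by positivity)]; exact min_le_right _ _⟩
  obtain ⟨om, o0, o1', o2'⟩ : ∃ om : ℝ, 0 < om ∧ om ≤ ε ∧ om * (2 * n) ≤ ε :=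
    ⟨ε / (2 * n + 1), by positivity, div_le_self e0.le (by linarith), by
      rw [div_mul_eq_mul_div, div_le_iff₀ (by positivity)]; nlinarith⟩
  refine (((h0 n ι f hf).and (hq ι f hf ε e0)).and (Ev.ok f o0 0)).mono
    fun c ⟨⟨w0, wq⟩, ok⟩ p hp ζ ζ' => ?_
  obtain ⟨-, -, -, -, -, s1, y1, N1, s2, y2, N2, -⟩ := ok
  obtain ⟨⟨su, -, -, -, sQ, -⟩, -, w3, -⟩ := w0
  obtain ⟨z1, -, -, -, -, -, -, -, -, -, -, -, -, -, z2, z3, z4, -⟩ := w3 p
  obtain ⟨q1, q2, q3, q4, q5, q6, q7, q8, -, -, q9, -⟩ := wq p hp.1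
  have Q0 : 0 ≤ QQ c p := le_trans (by positivity) z1
  obtain ⟨s, hs⟩ : ∃ s, √(QQ c p) = s := ⟨_, rfl⟩
  have s0 : 0 ≤ s := hs ▸ Real.sqrt_nonneg _
  have ss : QQ c p = s ^ 2 := by rw [← hs, Real.sq_sqrt Q0]
  rw [hs] at q3 q4 q5 q7 q8 ⊢
  have s2' : s ≤ 2 := by nlinarith
  have zs : ‖zz p‖ ≤ 2 * s := abs_le_of_sq_le_sq' (by nlinarith) (by linarith) |>.2
  obtain ⟨δ, hδ⟩ : ∃ δ, min (1 / aX f c p.1 ^ 2) 2 = δ := ⟨_, rfl⟩
  have d0 : 0 ≤ δ := hδ ▸ le_min (by positivity) zero_le_two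
  have d1 : δ ≤ 1 / aX f c p.1 ^ 2 := hδ ▸ min_le_left _ _
  have d2 : δ ≤ 2 := hδ ▸ min_le_right _ _
  have x1 : ‖g1 c p - Id n‖ ≤ ε := (near0 N1 o0.le p.1).trans o1'
  have x2 : ‖g2 c p - Id n‖ ≤ ε := (near0 N2 o0.le p.2).trans o1'
  have x3 : ‖gm c p - Id n‖ ≤ ε := (near0 N2 o0.le (mid p)).trans o1'
  have xM : ∀ {a : Fin n → Fin n → ℝ}, ‖a - Id n‖ ≤ ε → ‖a‖ ≤ M := fun {a} h => by
    have := nadd h (nId (n := n))
    rw [sub_add_cancel] at this
    linarith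
  have es : 0 ≤ ε * s := by positivity
  have es2 : 0 ≤ ε * s ^ 2 := by positivity
  have hG : ‖Gm c p‖ ≤ M := o2 (by linarith) fun i j =>
    le_trans (by simpa [Ds] using (q5 i j).2.1 [] (by simp)) (by linarith : K ≤ M)
  have hm : ‖mv p‖ ≤ M := o1 (by linarith) fun i =>
    le_trans (by simpa [Ds] using (q4 i).2.2.1 [] (by simp)) (by linarith : K ≤ M)
  have hxg : ‖g1 c p - gm c p‖ ≤ ε * s + δ := o2 (by linarith) fun i j => by
    have a1 : |c.γ₁ i j p.1 - c.γ₂ i j p.1| ≤ δ := by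
      rw [← hδ]
      refine le_min (by simpa [Ds] using hp.2 i j [] (by simp)) ?_
      have := Wwh.e2 (nsub (near0 N1 o0.le p.1) (near0 N2 o0.le p.1)) i j
      simp only [sub_sub_sub_cancel_right, Pi.sub_apply] at this
      linarith
    exact (abs_sub_le _ (c.γ₂ i j p.1) _).trans
      ((add_le_add a1 (q5 i j).2.2.2).trans (le_of_eq (add_comm _ _)))
  have hyg : ‖g2 c p - gm c p‖ ≤ ε * s + δ := o2 (by linarith) fun i j =>
    (q5 i j).2.2.1.trans (by linarith)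
  have hdx : ‖fun j k l => D (ee j) (c.γ₁ k l) p.1‖ ≤ ε :=
    o3 e0.le fun j k l => (near1 N1 j k l _).trans o1'
  have hdy : ‖fun j k l => D (ee j) (c.γ₂ k l) p.2‖ ≤ ε :=
    o3 e0.le fun j k l => (near1 N2 j k l _).trans o1'
  have hd : ‖(fun j k l => D (ee j) (c.γ₂ k l) p.2) - fun j k l => D (ee j) (c.γ₁ k l) p.1‖ ≤
      ε * s + δ := o3 (by linarith) fun j k l => by
    have a1 : |D (ee j) (c.γ₂ k l) p.1 - D (ee j) (c.γ₁ k l) p.1| ≤ δ := by
      rw [← hδ]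
      refine le_min ?_ ((abs_sub _ _).trans (by linarith [near1 N1 j k l p.1, near1 N2 j k l p.1]))
      rw [abs_sub_comm, ← D_sub_at ((s1 k l).dAt _) ((s2 k l).dAt _)]
      simpa [Ds] using hp.2 k l [j] (by simp)
    have a2 := (near2 N2 s2 o0.le j k l p.1 p.2).trans
      (mul_le_mul_of_nonneg_left (mul_le_mul_of_nonneg_left zs n0) o0.le)
    exact (abs_sub_le _ (D (ee j) (c.γ₂ k l) p.1) _).trans
      (by linarith [mul_le_mul_of_nonneg_right o2' s0])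
  have KM : K * s ≤ M * s := mul_le_mul_of_nonneg_right (by linarith) s0
  have hQx : ‖dx (QQ c) p‖ ≤ M * s := o1 (by positivity) fun i => (q3 (.inl i)).1.trans KM
  have hQy : ‖dyy (QQ c) p‖ ≤ M * s := o1 (by positivity) fun i => (q3 (.inr i)).1.trans KM
  have hζ := le_n2 ζ (le_add_of_nonneg_right (n2_nonneg ζ'))
  have hζ' := le_n2 ζ' (le_add_of_nonneg_left (n2_nonneg ζ))
  have ww := Real.sq_sqrt (add_nonneg (n2_nonneg ζ) (n2_nonneg ζ'))
  have w0 := Real.sqrt_nonneg (n2 ζ + n2 ζ')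
  have dC : 200 * M ^ 6 * δ ≤ 200 * M ^ 6 / aX f c p.1 ^ 2 := by
    rw [div_eq_mul_one_div]; exact mul_le_mul_of_nonneg_left d1 (by linarith)
  refine ⟨?_, ?_, ?_, ?_⟩
  · rw [H2_eq c s1 y1 s2 y2 sQ]
    refine (alg1 hn M1 e0.le e1 d0 d2 s0 s2' (xM x3) hG (xM x1) (xM x2)
      (fun i j => congrFun (y2 i j) _) z4 z3 hxg hyg hdx hdy hd hQy
      (o1 es2 fun i => ?_) (o2 es fun i j => (q7 i j).2.1) (o2 es fun i j => (q7 i j).2.2)
      (o2 es2 fun l i => ?_) hζ hζ').trans ?_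
    · have := (q8 i).1
      rwa [D_addv, ss] at this
    · have := ((q8 i).2 (.inl i)).2.1 l
      rw [funext (D_addv (QQ c) (ex i) (ey i)), D_addv, D_add_at ((sQ.D _).dAt _) ((sQ.D _).dAt _),
        D_add_at ((sQ.D _).dAt _) ((sQ.D _).dAt _), D_comm sQ (ex l) (ey i), ss] at this
      simp only [Pi.add_apply]
      refine le_trans (le_of_eq (congrArg _ (by ring))) this
    · rw [ww, ss, mul_add]
      have a1 := le_n2 (ζ' - ζ) le_rfl
      have a2 := add_nonneg (n2_nonneg ζ) (n2_nonneg ζ')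
      refine add_le_add ?_ ?_
      · rw [← mul_assoc, ← mul_assoc, ← mul_assoc]
        gcongr
      · rw [← mul_assoc, mul_add (200 * M ^ 6), ← mul_assoc]
        gcongr
  · rw [H2_eq c s1 y1 s2 y2 su]
    have a1 : dx uu p = mv p := funext fun i => (q1 i).1
    have a2 : dyy uu p = mv p := funext fun i => (q1 i).2
    have a3 : ∀ i j : Fin n, (if i = j then (1 / 2 : ℝ) else 0) = ((1 / 2 : ℝ) • Id n) i j :=
      fun i j => by simp [Wwh.Id]
    have b1 : (fun j l => D (ex j) (D (ex l) uu) p) = (1 / 2 : ℝ) • Id n := by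
      ext j l; exact (q2 (.inl j) (.inl l)).trans (a3 j l)
    have b2 : (fun j l => D (ey j) (D (ey l) uu) p) = (1 / 2 : ℝ) • Id n := by
      ext j l; exact (q2 (.inr j) (.inr l)).trans (a3 j l)
    have b3 : (fun j l => D (ey j) (D (ex l) uu) p) = (1 / 2 : ℝ) • Id n := by
      ext j l; exact (q2 (.inr j) (.inl l)).trans (a3 j l)
    rw [a1, a2, b1, b2, b3]
    refine (alg2 hn M1 e0.le e1 (xM x1) (xM x2) x1 x2 x3 hdx hdy hm hζ hζ').trans ?_
    rw [ww]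
    exact mul_le_mul_of_nonneg_right e2 (add_nonneg (n2_nonneg ζ) (n2_nonneg ζ'))
  · have a1 : dx uu p = mv p := funext fun i => (q1 i).1
    have a2 : dyy uu p = mv p := funext fun i => (q1 i).2
    rw [dZ, a1, a2]
    refine (alg3 hn M1 hxg hyg hm hζ hζ').trans ?_
    rw [mul_add, ← mul_assoc]
    gcongr
  · rw [dZ, ← z2]
    refine (alg4 hn M1 e0.le d0 s0 (xM x3) hxg hyg hQx hQy (o1 es2 fun i => ss ▸ (q6 i).1)
      (o1 es2 fun i => ss ▸ (q6 i).2) hζ hζ').trans ?_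
    rw [mul_add, ← mul_assoc, ← mul_assoc, ss]
    gcongr

end Vale.Agent.P088
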