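import Vale.Agent.P088.StP
import Vale.Agent.P088.Wwh

/-!
# P088: the covariant Hessian as a second directional derivative; numerical lemmas
-/

open MeasureTheory Set Metric
open scoped ContDiff Topology

noncomputable section
namespace Vale.Agent.P088
open Vale.Agent.P136 (D Dp Dm Sm Tst D_mul_at D_sum_at D_add_at D_const_mul_at D_comm D_exp_at)
namespace PL1
open Wwh

variable {n : ℕ}

section gen
variable {X : Type} [NormedAddCommGroup X] [NormedSpace ℝ X]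

lemma D_lc (v : Fin n → X) (a : Fin n → ℝ) (F : X → ℝ) (p : X) :
    D (∑ i, a i • v i) F p = ∑ i, a i * D (v i) F p := by
  simp only [D, map_sum, map_smul, smul_eq_mul]

lemma D_av (F : X → ℝ) (a b p : X) : D (a + b) F p = D a F p + D b F p := map_add _ a b

lemma DD_lc (v w : Fin n → X) (a b : Fin n → ℝ) {F : X → ℝ} (hF : Sm F) (p : X) :
    D (∑ i, a i • v i) (D (∑ i, b i • w i) F) p =
      bil (fun j l => D (v j) (D (w l) F) p) a b := by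
  rw [D_lc]
  refine Finset.sum_congr rfl fun j _ => ?_
  rw [funext (D_lc w b F), D_sum_at _ fun l _ => ((hF.D _).cmul _).dAt p, Finset.mul_sum]
  refine Finset.sum_congr rfl fun l _ => ?_
  rw [D_const_mul_at ((hF.D _).dAt p)]
  ring

lemma DD_add {F G : X → ℝ} (hF : Sm F) (hG : Sm G) (v w p : X) :
    D v (D w fun q => F q + G q) p = D v (D w F) p + D v (D w G) p := by
  rw [show (D w fun q => F q + G q) = fun q => D w F q + D w G q from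
    funext fun q => D_add_at (hF.dAt q) (hG.dAt q) w, D_add_at ((hF.D _).dAt p) ((hG.D _).dAt p)]

lemma DD_cmul {F : X → ℝ} (hF : Sm F) (a : ℝ) (v w p : X) :
    D v (D w fun q => a * F q) p = a * D v (D w F) p := by
  rw [show (D w fun q => a * F q) = fun q => a * D w F q from
    funext fun q => D_const_mul_at (hF.dAt q) a w, D_const_mul_at ((hF.D _).dAt p)]

lemma DD_exp {l : X → ℝ} (hl : Sm l) (w p : X) :
    D w (D w fun q => Real.exp (l q)) p = Real.exp (l p) * (D w l p ^ 2 + D w (D w l) p) := by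
  rw [show (D w fun q => Real.exp (l q)) = fun q => Real.exp (l q) * D w l q from
    funext fun q => D_exp_at (hl.dAt q) w, D_mul_at (hl.exp.dAt p) ((hl.D _).dAt p),
    D_exp_at (hl.dAt p)]
  ring

end gen

/-- The vector with components `a` in `x` and `b` in `y`. -/
def vec (a b : Fin n → ℝ) : X2 n := ∑ i, a i • ex i + ∑ i, b i • ey i

lemma D_vec (a b : Fin n → ℝ) (F : X2 n → ℝ) (p : X2 n) :
    D (vec a b) F p = dot a (dx F p) + dot b (dyy F p) := by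
  rw [vec, D_av, D_lc, D_lc]; rfl

lemma DD_vec (a b : Fin n → ℝ) {F : X2 n → ℝ} (hF : Sm F) (p : X2 n) :
    D (vec a b) (D (vec a b) F) p = bil (fun j l => D (ex j) (D (ex l) F) p) a a +
      bil (fun j l => D (ey j) (D (ey l) F) p) b b +
      2 * bil (fun j l => D (ey j) (D (ex l) F) p) b a := by
  have h : bil (fun j l => D (ex j) (D (ey l) F) p) a b =
      bil (fun j l => D (ey j) (D (ex l) F) p) b a := by
    rw [← bil_tr]
    exact congrArg (fun g => bil g b a) (funext fun j => funext fun l => by rw [D_comm hF])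
  rw [vec, funext (D_av F _ _), D_av, D_add_at ((hF.D _).dAt p) ((hF.D _).dAt p),
    D_add_at ((hF.D _).dAt p) ((hF.D _).dAt p), DD_lc _ _ _ _ hF, DD_lc _ _ _ _ hF,
    DD_lc _ _ _ _ hF, DD_lc _ _ _ _ hF, h]
  ring

lemma vec_fst (a b : Fin n → ℝ) : (vec a b).1 = ∑ i, a i • ee i := by
  simp [vec, Prod.fst_sum, ex, ey]

lemma D_fst {g : En n → ℝ} (hg : Sm g) (w p : X2 n) :
    D w (fun q : X2 n => g q.1) p = D w.1 g p.1 :=
  congrArg (fun L : X2 n →L[ℝ] ℝ => L w)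
    ((hg.dAt p.1).hasFDerivAt.comp p hasFDerivAt_fst).fderiv

/-- Contraction of a trilinear form. -/
def ct (d : Fin n → Fin n → Fin n → ℝ) (a : Fin n → ℝ) : Fin n → ℝ :=
  fun l => ∑ i, ∑ k, d i k l * a i * a k

lemma tr3_ct (d : Fin n → Fin n → Fin n → ℝ) (a b : Fin n → ℝ) : tr3 d a a b = dot (ct d a) b := by
  simp only [tr3, dot, ct, Finset.sum_mul]
  rw [Finset.sum_congr rfl fun _ _ => Finset.sum_comm, Finset.sum_comm]

lemma ct_le {M x y : ℝ} (hM : (n : ℝ) ≤ M) {d : Fin n → Fin n → Fin n → ℝ} {a : Fin n → ℝ}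
    (hd : ‖d‖ ≤ x) (ha : ‖a‖ ≤ y) : ‖ct d a‖ ≤ M * (M * (x * y * y)) := by
  have h0 := mul_nonneg (mul_nonneg ((norm_nonneg _).trans hd) ((norm_nonneg _).trans ha))
    ((norm_nonneg _).trans ha)
  have hM0 := (Nat.cast_nonneg n).trans hM
  exact o1 (by positivity) fun l => sum_le hM (by positivity) fun i => sum_le hM h0 fun k =>
    ml (ml (e3 hd i k l) (e1 ha i)) (e1 ha k)

lemma bil_dot (γ : Fin n → Fin n → ℝ) (a b : Fin n → ℝ) :
    bil γ a b = dot (up γ b) a := by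
  rw [bil_eq]
  exact Finset.sum_congr rfl fun i _ => mul_comm _ _

variable {ι : Type} (c : Cx n ι)

/-- The raised vector. -/
def Wv (p : X2 n) (ζ ζ' : Fin n → ℝ) : X2 n := vec (up (g1 c p) ζ) (up (g2 c p) ζ')

/-- The Christoffel vector. -/
def Gv (p : X2 n) (ζ ζ' : Fin n → ℝ) : X2 n :=
  vec (ct (Gam (g1 c p) fun j k l => D (ee j) (c.γ₁ k l) p.1) ζ)
    (ct (Gam (g2 c p) fun j k l => D (ee j) (c.γ₂ k l) p.2) ζ')

lemma H2_rep (h1 : SmM c.γ₁) (h1' : SymM c.γ₁) (h2 : SmM c.γ₂) (h2' : SymM c.γ₂)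
    {F : X2 n → ℝ} (hF : Sm F) (p : X2 n) (ζ ζ' : Fin n → ℝ) :
    H2 c F p ζ ζ' = D (Wv c p ζ ζ') (D (Wv c p ζ ζ') F) p + D (Gv c p ζ ζ') F p := by
  rw [H2_eq c h1 h1' h2 h2' hF, Wv, Gv, DD_vec _ _ hF, D_vec, tr3_ct, tr3_ct]
  ring

lemma dZ_rep (F : X2 n → ℝ) (p : X2 n) (ζ ζ' : Fin n → ℝ) :
    dZ c F p ζ ζ' = D (Wv c p ζ ζ') F p := by
  rw [dZ, Wv, D_vec, bil_dot, bil_dot]

lemma D_vec_le {M x y : ℝ} (hM : (n : ℝ) ≤ M) {a b : Fin n → ℝ} {F : X2 n → ℝ} {p : X2 n}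
    (hx : 0 ≤ x) (h : ∀ i, |D (exy i) F p| ≤ x) (ha : ‖a‖ ≤ y) (hb : ‖b‖ ≤ y) :
    |D (vec a b) F p| ≤ 2 * (M * (y * x)) := by
  rw [D_vec]
  have h1 := dot_le hM ha (o1 (a := dx F p) hx fun i => h (.inl i))
  have h2 := dot_le hM hb (o1 (a := dyy F p) hx fun i => h (.inr i))
  exact (abs_add_le _ _).trans (by linarith)

lemma DD_vec_le {M x y : ℝ} (hM : (n : ℝ) ≤ M) {a b : Fin n → ℝ} {F : X2 n → ℝ} (hF : Sm F)
    {p : X2 n} (hx : 0 ≤ x) (h : ∀ i j, |D (exy i) (D (exy j) F) p| ≤ x) (ha : ‖a‖ ≤ y)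
    (hb : ‖b‖ ≤ y) : |D (vec a b) (D (vec a b) F) p| ≤ 4 * (M * (M * (x * y * y))) := by
  rw [DD_vec _ _ hF]
  have h1 := abs_le.1 (bil_le hM (o2 (γ := fun j l => D (ex j) (D (ex l) F) p) hx
    fun i j => h (.inl i) (.inl j)) ha ha)
  have h2 := abs_le.1 (bil_le hM (o2 (γ := fun j l => D (ey j) (D (ey l) F) p) hx
    fun i j => h (.inr i) (.inr j)) hb hb)
  have h3 := abs_le.1 (bil_le hM (o2 (γ := fun j l => D (ey j) (D (ex l) F) p) hx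
    fun i j => h (.inr i) (.inl j)) hb ha)
  rw [abs_le]
  constructor <;> linarith [h1.1, h1.2, h2.1, h2.2, h3.1, h3.2]

lemma dot_sq (a b : Fin n → ℝ) : dot a b ^ 2 ≤ n2 a * n2 b :=
  Finset.sum_mul_sq_le_sq_mul_sq _ _ _

lemma n2_up {γ : Fin n → Fin n → ℝ} {ζ : Fin n → ℝ} (h : n2 ζ / 2 ≤ bil γ ζ ζ) :
    n2 ζ / 4 ≤ n2 (up γ ζ) := by
  rw [bil_eq] at h
  have h1 := dot_sq ζ (up γ ζ)
  have h2 := n2_nonneg ζ
  have h3 := n2_nonneg (up γ ζ)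
  rcases h2.eq_or_lt with h0 | h0
  · rw [← h0]; linarith
  · have h4 : (n2 ζ / 2) ^ 2 ≤ dot ζ (up γ ζ) ^ 2 := pow_le_pow_left₀ (by linarith) h 2
    by_contra hc
    push Not at hc
    nlinarith

lemma n2_sub (a b : Fin n → ℝ) : n2 (b - a) ≤ 2 * (n2 a + n2 b) := by
  simp only [n2, ← Finset.sum_add_distrib, Finset.mul_sum, Pi.sub_apply]
  exact Finset.sum_le_sum fun i _ => by nlinarith [sq_nonneg (a i + b i)]

/-! ### Numerical lemmas -/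

lemma cross {r F v σ T N : ℝ} (r0 : 0 ≤ r) (F0 : 0 < F) (v1 : 1 ≤ v) (σ0 : 0 ≤ σ)
    (σr : σ ≤ 3 + 8 * v * r) (T0 : 0 ≤ T) (N0 : 0 ≤ N) (NT : N ≤ 2 * T) :
    F * σ * r * T * N ≤ 64 * (r ^ 2 * F * v * T ^ 2 + F * σ / v * N ^ 2) := by
  have v0 : 0 < v := by linarith
  have p1 : 0 ≤ r ^ 2 * F * v * T ^ 2 := by positivity
  have p2 : 0 ≤ F * σ / v * N ^ 2 := by positivity
  rcases le_total σ 4 with h | h
  · have a1 : r * T * N ≤ v * r ^ 2 * T ^ 2 + N ^ 2 / v := by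
      have : v * (r * T * N) ≤ v * (v * r ^ 2 * T ^ 2 + N ^ 2 / v) := by
        rw [mul_add, mul_div_cancel₀ _ v0.ne']
        nlinarith [sq_nonneg (v * r * T - N), mul_nonneg (mul_nonneg (mul_nonneg v0.le r0) T0) N0]
      exact le_of_mul_le_mul_left this v0
    have a2 := mul_le_mul_of_nonneg_left a1 (mul_nonneg F0.le σ0)
    have a3 := mul_le_mul_of_nonneg_right h p1
    have a4 : F * σ * (v * r ^ 2 * T ^ 2 + N ^ 2 / v) =
        σ * (r ^ 2 * F * v * T ^ 2) + F * σ / v * N ^ 2 := by ring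
    nlinarith
  · have a1 : σ ≤ 32 * (v * r) := by nlinarith
    have a2 : σ * N ≤ 32 * (v * r) * (2 * T) := mul_le_mul a1 NT N0 (by positivity)
    have a3 := mul_le_mul_of_nonneg_left a2 (mul_nonneg (mul_nonneg F0.le r0) T0)
    nlinarith

lemma quad {r F σ g s Qd T N d : ℝ} (r0 : 0 ≤ r) (F0 : 0 < F) (σ0 : 0 ≤ σ) (g0 : 0 ≤ g)
    (g2 : g ≤ 2 * σ) (d0 : 0 ≤ d) (T0 : 0 ≤ T) (N0 : 0 ≤ N) (hs : |s| ≤ 3 / 2 * r * N)
    (hd : |Qd - 2 * s| ≤ r * d * T) :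
    F / r ^ 2 * ((σ + g) * (Qd ^ 2 / 4 - s ^ 2)) ≤ F * σ * (5 * d * T * N + d ^ 2 * T ^ 2) := by
  rcases r0.eq_or_lt with h | h
  · rw [← h]
    simp only [ne_eq, OfNat.ofNat_ne_zero, not_false_eq_true, zero_pow, div_zero, zero_mul]
    positivity
  have a0 : 0 ≤ d * T := by positivity
  have a1 : (Qd - 2 * s) ^ 2 ≤ (r * d * T) ^ 2 := sq_le_sq' (abs_le.1 hd).1 (abs_le.1 hd).2
  have a2 := (abs_le.1 (ml hd hs)).2
  have a3 : Qd ^ 2 / 4 - s ^ 2 ≤ r ^ 2 * (d ^ 2 * T ^ 2 / 4 + 3 / 2 * d * T * N) := by nlinarith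
  have a4 : (σ + g) * (Qd ^ 2 / 4 - s ^ 2) ≤
      3 * σ * (r ^ 2 * (d ^ 2 * T ^ 2 / 4 + 3 / 2 * d * T * N)) :=
    (mul_le_mul_of_nonneg_left a3 (by linarith)).trans
      (mul_le_mul_of_nonneg_right (by linarith) (by positivity))
  refine (mul_le_mul_of_nonneg_left a4 (by positivity)).trans ?_
  have a5 : F / r ^ 2 * (3 * σ * (r ^ 2 * (d ^ 2 * T ^ 2 / 4 + 3 / 2 * d * T * N))) =
      F * σ * (3 * (d ^ 2 * T ^ 2 / 4 + 3 / 2 * d * T * N)) := by field_simp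
  rw [a5]
  refine mul_le_mul_of_nonneg_left ?_ (by positivity)
  nlinarith [mul_nonneg a0 N0, sq_nonneg (d * T)]

lemma psi_num {r F v σ g s Qd Y Hu HQ gV B S T N e η C : ℝ} (r0 : 0 ≤ r) (r2 : r ≤ 3 / 2)
    (F0 : 0 < F) (v1 : 1 ≤ v) (σ2 : 2 ≤ σ) (g0 : 0 ≤ g) (g2 : g ≤ 2 * σ) (σr : σ ≤ 3 + 8 * v * r)
    (e0 : 0 ≤ e) (eC : e ≤ C) (C1 : 1 ≤ C) (he : F * σ * e ≤ C * (1 + η * (r ^ 2 * F * v)))
    (η0 : 0 ≤ η) (η1 : η ≤ 1) (T0 : 0 ≤ T) (N0 : 0 ≤ N) (NT : N ≤ 2 * T)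
    (hs : |s| ≤ 3 / 2 * r * N) (B0 : 0 ≤ B)
    (ha : |HQ - 2 * gV| ≤ η * r * N * T + (η * r ^ 2 + e) * T ^ 2) (hb : |Hu - 1 / 2 * B| ≤ η * T ^ 2)
    (hd : |Qd - 2 * s| ≤ (η * r ^ 2 + e * r) * T)
    (hS : F / r ^ 2 * (Y ^ 2 - (σ + g) * Qd ^ 2 / 4) ≤ S) :
    F / r ^ 2 * (Y ^ 2 - (σ + g) * s ^ 2) + F * σ * gV + r ^ 2 * F * v / 4 * B -
      420 * C ^ 2 * (η * (r ^ 2 * F * v * T ^ 2 + F * σ / v * N ^ 2) + T ^ 2) ≤
      S + r ^ 2 * F * v * Hu + F * σ / 2 * HQ := by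
  have σ0 : 0 ≤ σ := by linarith
  have q1 := quad (d := η * r + e) r0 F0 σ0 g0 g2 (by positivity) T0 N0 hs
    (hd.trans (le_of_eq (by ring)))
  have q2 := cross r0 F0 v1 σ0 σr T0 N0 NT
  obtain ⟨m, hm⟩ : ∃ m, r ^ 2 * F * v = m := ⟨_, rfl⟩
  obtain ⟨a, ha'⟩ : ∃ a, F * σ = a := ⟨_, rfl⟩
  have m0 : 0 ≤ m := by rw [← hm]; positivity
  have a0 : 0 ≤ a := by rw [← ha']; positivity
  have q3 : a * r ^ 2 ≤ 15 * m := by
    rw [← hm, ← ha']
    have : σ ≤ 15 * v := by nlinarith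
    nlinarith [mul_le_mul_of_nonneg_left this (mul_nonneg F0.le (sq_nonneg r))]
  rw [hm, ha'] at he q2 ⊢
  rw [ha'] at q1
  obtain ⟨X, hX⟩ : ∃ X, m * T ^ 2 + a / v * N ^ 2 = X := ⟨_, rfl⟩
  have X1 : m * T ^ 2 ≤ X := by
    rw [← hX]; exact le_add_of_nonneg_right (by positivity)
  have T2 : 0 ≤ T ^ 2 := sq_nonneg T
  have X0 : 0 ≤ X := le_trans (by positivity) X1
  rw [hX] at q2 ⊢
  obtain ⟨P, hP⟩ : ∃ P, η * X + T ^ 2 = P := ⟨_, rfl⟩
  have P0 : η * X ≤ P := by linarith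
  have P1 : 0 ≤ η * X := by positivity
  have C2 : C ≤ C ^ 2 := le_self_pow₀ C1 two_ne_zero
  have C3 : P ≤ C ^ 2 * P := le_mul_of_one_le_left (by linarith) (C1.trans C2)
  have u1 : η * (a * r * T * N) ≤ 64 * P := by
    linarith [mul_le_mul_of_nonneg_left q2 η0]
  have u0 : η * (m * T ^ 2) ≤ η * X := mul_le_mul_of_nonneg_left X1 η0
  have u2 : a * e * T ^ 2 ≤ C * P := by
    have b1 := mul_le_mul_of_nonneg_right he T2
    have b2 : T ^ 2 + η * (m * T ^ 2) ≤ P := by linarith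
    linarith [mul_le_mul_of_nonneg_left b2 (zero_le_one.trans C1)]
  have u2' : C * P ≤ C ^ 2 * P := mul_le_mul_of_nonneg_right C2 (by linarith)
  have u3 : a * e * (T * N) ≤ 2 * (a * e * T ^ 2) := by
    linarith [mul_le_mul_of_nonneg_left NT (mul_nonneg (mul_nonneg a0 e0) T0)]
  have u4 : η * (a * r ^ 2 * T ^ 2) ≤ 15 * P := by
    linarith [mul_le_mul_of_nonneg_left (mul_le_mul_of_nonneg_right q3 T2) η0]
  have u5 : η * (η * (a * r ^ 2 * T ^ 2)) ≤ η * (a * r ^ 2 * T ^ 2) :=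
    mul_le_of_le_one_left (by positivity) η1
  have u6 : e * (a * e * T ^ 2) ≤ C * (C * P) := mul_le_mul eC u2 (by positivity) (by linarith)
  have u7 : a * ((η * r + e) ^ 2 * T ^ 2) ≤
      2 * (η * (η * (a * r ^ 2 * T ^ 2))) + 2 * (e * (a * e * T ^ 2)) := by
    linarith [mul_nonneg (mul_nonneg a0 T2) (sq_nonneg (η * r - e))]
  have u8 := mul_le_mul_of_nonneg_left (abs_le.1 ha).1 a0
  have u9 := mul_le_mul_of_nonneg_left (abs_le.1 hb).1 m0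
  have u10 := mul_nonneg m0 B0
  rw [hP]
  linarith

end PL1
end Vale.Agent.P088
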