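import Vale.Agent.P088.StP
import Vale.Agent.P088.Ww5

/-!
# P088: the multiplier terms
-/

open MeasureTheory Set Metric Filter
open scoped ContDiff Topology

noncomputable section
namespace Vale.Agent.P088
open Vale.Agent.P136 Ww5

namespace PL2

section alg
variable {n : ℕ} {γ γ' : Fin n → Fin n → ℝ} {a b d ζ : Fin n → ℝ}

/-- A metric comparable with the Euclidean one. -/
structure Mt (γ : Fin n → Fin n → ℝ) : Prop where
  sy : ∀ i j, γ i j = γ j i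
  lo : ∀ ζ, n2 ζ / 2 ≤ bil γ ζ ζ
  hi : ∀ ζ, bil γ ζ ζ ≤ 2 * n2 ζ

lemma Mt.comm (h : Mt γ) (a b : Fin n → ℝ) : bil γ a b = bil γ b a := by
  unfold bil
  rw [Finset.sum_comm]
  exact Finset.sum_congr rfl fun i _ => Finset.sum_congr rfl fun j _ => by rw [h.sy]; ring

lemma Mt.nn (h : Mt γ) (a : Fin n → ℝ) : 0 ≤ bil γ a a := by linarith [h.lo a, n2_nonneg a]

lemma bil_l (γ : Fin n → Fin n → ℝ) (a b d e : Fin n → ℝ) (s t u : ℝ) :
    bil γ (fun i => s * a i + t * b i + u * d i) e =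
      s * bil γ a e + t * bil γ b e + u * bil γ d e := by
  simp only [bil, Finset.mul_sum, ← Finset.sum_add_distrib]
  exact Finset.sum_congr rfl fun i _ => Finset.sum_congr rfl fun j _ => by ring

lemma bil_r (γ : Fin n → Fin n → ℝ) (a b d e : Fin n → ℝ) (s t u : ℝ) :
    bil γ e (fun i => s * a i + t * b i + u * d i) =
      s * bil γ e a + t * bil γ e b + u * bil γ e d := by
  simp only [bil, Finset.mul_sum, ← Finset.sum_add_distrib]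
  exact Finset.sum_congr rfl fun i _ => Finset.sum_congr rfl fun j _ => by ring

lemma Mt.cs_sq (h : Mt γ) (a b : Fin n → ℝ) : bil γ a b ^ 2 ≤ bil γ a a * bil γ b b := by
  have := discrim_le_zero (a := bil γ a a) (b := 2 * bil γ a b) (c := bil γ b b) fun x => by
    have k := h.nn fun i => x * a i + 1 * b i + 0 * b i
    rw [bil_l, bil_r, bil_r, h.comm b a] at k
    linarith
  unfold discrim at this
  linarith

lemma Mt.cs (h : Mt γ) {A B : ℝ} (hA : 0 ≤ A) (hB : 0 ≤ B) (ha : bil γ a a ≤ A ^ 2)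
    (hb : bil γ b b ≤ B ^ 2) : |bil γ a b| ≤ A * B :=
  abs_le.2 (abs_le_of_sq_le_sq' ((h.cs_sq a b).trans
    ((mul_le_mul ha hb (h.nn b) (sq_nonneg A)).trans_eq (by ring))) (mul_nonneg hA hB))

lemma Mt.cs2 (h : Mt γ) {A B : ℝ} (hA : 0 ≤ A) (hB : 0 ≤ B) (ha : n2 a ≤ A ^ 2)
    (hb : n2 b ≤ B ^ 2) : |bil γ a b| ≤ 2 * (A * B) :=
  abs_le.2 (abs_le_of_sq_le_sq' ((h.cs_sq a b).trans
    ((mul_le_mul ((h.hi a).trans (mul_le_mul_of_nonneg_left ha zero_le_two))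
      ((h.hi b).trans (mul_le_mul_of_nonneg_left hb zero_le_two)) (h.nn b)
      (by positivity)).trans_eq (by ring))) (by positivity))

lemma Mt.qf_le (h : Mt γ) {A B : ℝ} (hA : 0 ≤ A) (hB : 0 ≤ B) (ha : n2 a ≤ A ^ 2)
    (hb : n2 b ≤ B ^ 2) (ζ : Fin n → ℝ) : |qf γ a b ζ| ≤ 12 * (A * B) * n2 ζ := by
  have z := Real.sq_sqrt (n2_nonneg ζ)
  have z0 := Real.sqrt_nonneg (n2 ζ)
  have k1 := abs_le.1 (abs_mul_le (h.cs2 hA hB ha hb) (h.cs2 z0 z0 z.ge z.ge))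
  have k2 := abs_le.1 (abs_mul_le (h.cs2 hA z0 ha z.ge) (h.cs2 hB z0 hb z.ge))
  rw [← z, qf, abs_le]
  constructor <;> linarith [k1.1, k1.2, k2.1, k2.2]

lemma bil_sub {μ A B : ℝ} (hd : ∀ i j, |γ i j - γ' i j| ≤ μ) (hA : 0 ≤ A) (hB : 0 ≤ B)
    (ha : n2 a ≤ A ^ 2) (hb : n2 b ≤ B ^ 2) :
    |bil γ a b - bil γ' a b| ≤ n ^ 2 * μ * (A * B) := by
  have e : bil γ a b - bil γ' a b = ∑ i, ∑ j, (γ i j - γ' i j) * a i * b j := by
    simp [bil, sub_mul, Finset.sum_sub_distrib]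
  rw [e]
  refine (Finset.abs_sum_le_sum_abs _ _).trans ((Finset.sum_le_sum fun i _ =>
    (Finset.abs_sum_le_sum_abs _ _).trans (Finset.sum_le_sum fun j _ =>
      abs_mul_le (abs_mul_le (hd i j) (abs_le_of_n2 hA ha i)) (abs_le_of_n2 hB hb j))).trans_eq ?_)
  simp only [Finset.sum_const, Finset.card_univ, Fintype.card_fin, nsmul_eq_mul]
  ring

lemma qf_sub (h : Mt γ) (h' : Mt γ') {μ A B : ℝ} (hd : ∀ i j, |γ i j - γ' i j| ≤ μ) (hA : 0 ≤ A)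
    (hB : 0 ≤ B) (ha : n2 a ≤ A ^ 2) (hb : n2 b ≤ B ^ 2) (ζ : Fin n → ℝ) :
    |qf γ a b ζ - qf γ' a b ζ| ≤ 12 * (n ^ 2 * μ) * (A * B) * n2 ζ := by
  have z := Real.sq_sqrt (n2_nonneg ζ)
  have z0 := Real.sqrt_nonneg (n2 ζ)
  have k1 := abs_le.1 (abs_mul_le (bil_sub hd hA hB ha hb) (h.cs2 z0 z0 z.ge z.ge))
  have k2 := abs_le.1 (abs_mul_le (h'.cs2 hA hB ha hb) (bil_sub hd z0 z0 z.ge z.ge))
  have k3 := abs_le.1 (abs_mul_le (bil_sub hd hA z0 ha z.ge) (h.cs2 hB z0 hb z.ge))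
  have k4 := abs_le.1 (abs_mul_le (h'.cs2 hA z0 ha z.ge) (bil_sub hd hB z0 hb z.ge))
  rw [← z, qf, qf, abs_le]
  constructor <;> linarith [k1.1, k1.2, k2.1, k2.2, k3.1, k3.2, k4.1, k4.2]

/-- A mixed Gram determinant. -/
def G3 (γ : Fin n → Fin n → ℝ) (a b d ζ : Fin n → ℝ) : ℝ :=
  bil γ a b * (bil γ d d * bil γ ζ ζ - bil γ d ζ ^ 2) -
    bil γ a d * (bil γ b d * bil γ ζ ζ - bil γ d ζ * bil γ b ζ) +
    bil γ a ζ * (bil γ b d * bil γ d ζ - bil γ d d * bil γ b ζ)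

lemma gram {aa ad az dd dz zz : ℝ} (h : ∀ x y w : ℝ, 0 ≤ x * (x * aa + y * ad + w * az) +
    y * (x * ad + y * dd + w * dz) + w * (x * az + y * dz + w * zz)) :
    0 ≤ aa * (dd * zz - dz ^ 2) - ad * (ad * zz - dz * az) + az * (ad * dz - dd * az) := by
  have : (!![aa, ad, az; ad, dd, dz; az, dz, zz] : Matrix (Fin 3) (Fin 3) ℝ).PosSemidef := by
    refine Matrix.PosSemidef.of_dotProduct_mulVec_nonneg ?_ fun x => ?_
    · ext i j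
      fin_cases i <;> fin_cases j <;> simp
    · have := h (x 0) (x 1) (x 2)
      simp [dotProduct, Matrix.mulVec, Fin.sum_univ_three]
      linarith
  have := this.det_nonneg
  rw [Matrix.det_fin_three] at this
  simp at this
  linarith

lemma Mt.G3_nn (h : Mt γ) (a d ζ : Fin n → ℝ) : 0 ≤ G3 γ a a d ζ :=
  gram fun x y w => by
    have k := h.nn fun i => x * a i + y * d i + w * ζ i
    rwa [bil_l, bil_r, bil_r, bil_r, h.comm d a, h.comm ζ a, h.comm ζ d] at k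

lemma Mt.G3_le (h : Mt γ) {A B : ℝ} (hA : 0 ≤ A) (hB : 0 ≤ B) (ha : bil γ a a ≤ A ^ 2)
    (hb : bil γ b b ≤ B ^ 2) (d ζ : Fin n → ℝ) :
    |G3 γ a b d ζ| ≤ 6 * (A * B) * bil γ d d * bil γ ζ ζ := by
  have z := Real.sq_sqrt (h.nn ζ)
  have z0 := Real.sqrt_nonneg (bil γ ζ ζ)
  have y := Real.sq_sqrt (h.nn d)
  have y0 := Real.sqrt_nonneg (bil γ d d)
  have ab := h.cs hA hB ha hb
  have ad := h.cs hA y0 ha y.ge
  have az := h.cs hA z0 ha z.ge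
  have bd := h.cs hB y0 hb y.ge
  have bz := h.cs hB z0 hb z.ge
  have dd := h.cs y0 y0 y.ge y.ge
  have dz := h.cs y0 z0 y.ge z.ge
  have zz := h.cs z0 z0 z.ge z.ge
  have k1 := abs_le.1 (abs_mul_le ab (abs_mul_le dd zz))
  have k2 := abs_le.1 (abs_mul_le ab (abs_mul_le dz dz))
  have k3 := abs_le.1 (abs_mul_le ad (abs_mul_le bd zz))
  have k4 := abs_le.1 (abs_mul_le ad (abs_mul_le dz bz))
  have k5 := abs_le.1 (abs_mul_le az (abs_mul_le bd dz))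
  have k6 := abs_le.1 (abs_mul_le az (abs_mul_le dd bz))
  have e : 6 * (A * B) * bil γ d d * bil γ ζ ζ =
    6 * (A * B) * √(bil γ d d) ^ 2 * √(bil γ ζ ζ) ^ 2 := by rw [y, z]
  rw [e, G3, abs_le]
  constructor <;> linarith [k1.1, k1.2, k2.1, k2.2, k3.1, k3.2, k4.1, k4.2, k5.1, k5.2, k6.1, k6.2]

/-- The singular part of the multiplier. -/
lemma Mt.sing (h : Mt γ) {m z φ ρ : Fin n → ℝ} {s l u E q : ℝ} (hs : s ^ 2 = 1) (hl : 0 ≤ l)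
    (hm : n2 m ≤ (3 / 2) ^ 2) (hq : 0 ≤ q) (hz : n2 z ≤ (3 / 2 * q) ^ 2) (hE : 0 ≤ E)
    (hρ : n2 ρ ≤ E ^ 2) (he : ∀ i, s * z i = l * m i + u * φ i + 1 * ρ i) {al : ℝ} (ha : 0 < al)
    (ζ : Fin n → ℝ) :
    s * qf γ (tri γ m z φ) φ ζ / (bil γ φ φ + al) ≤
      s * qf γ m z ζ + (27 * q * (al / (bil γ φ φ + al)) + 81 * E) * n2 ζ := by
  have r0 := h.nn φ
  have R0 : 0 < bil γ φ φ + al := by positivity
  have e1 : qf γ (tri γ m z φ) φ ζ = bil γ φ φ * qf γ m z ζ - 2 * G3 γ m z φ ζ := by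
    rw [show tri γ m z φ = fun i => bil γ z φ * m i + bil γ m φ * z i + -bil γ m z * φ i from
      funext fun i => by unfold tri; ring]
    simp only [qf, G3, bil_l]
    ring
  have e2 : s * G3 γ m z φ ζ = l * G3 γ m m φ ζ + G3 γ m ρ φ ζ := by
    have e : z = fun i => s * l * m i + s * u * φ i + s * ρ i := funext fun i => by
      linear_combination s * he i - z i * hs
    have e' : G3 γ m z φ ζ = s * (l * G3 γ m m φ ζ + G3 γ m ρ φ ζ) := by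
      simp only [G3]
      rw [e, bil_l, bil_l, bil_r]
      ring
    linear_combination s * e' + (l * G3 γ m m φ ζ + G3 γ m ρ φ ζ) * hs
  have k1 := (abs_le.1 (h.G3_le (a := m) (b := ρ) (A := 9 / 4) (B := 3 / 2 * E) (by norm_num)
    (by positivity) (by linarith [h.hi m]) (by linarith [h.hi ρ, sq_nonneg E]) φ ζ)).1
  have k2 := mul_le_mul_of_nonneg_left (h.hi ζ) (mul_nonneg hE r0)
  have k3 : |s| ≤ 1 := abs_le.2 (abs_le_of_sq_le_sq' (by linarith) zero_le_one)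
  have k4 := mul_le_mul_of_nonneg_left
    (abs_le.1 (abs_mul_le k3 (h.qf_le (by norm_num) (by positivity) hm hz ζ))).1 ha.le
  have k5 := mul_nonneg hl (h.G3_nn m φ ζ)
  have k6 := mul_nonneg (mul_nonneg hE ha.le) (n2_nonneg ζ)
  have e3 : (27 * q * (al / (bil γ φ φ + al)) + 81 * E) * n2 ζ * (bil γ φ φ + al) =
      (27 * q * al + 81 * E * (bil γ φ φ + al)) * n2 ζ := by field_simp
  rw [div_le_iff₀ R0, add_mul, e3, e1]
  linarith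

lemma qf_l (γ : Fin n → Fin n → ℝ) (a b d ζ : Fin n → ℝ) (s t : ℝ) :
    qf γ (fun i => s * a i + t * b i + 0 * b i) d ζ = s * qf γ a d ζ + t * qf γ b d ζ := by
  simp only [qf, bil_l]; ring

lemma qf_r (γ : Fin n → Fin n → ℝ) (a b d e ζ : Fin n → ℝ) (s t u : ℝ) :
    qf γ e (fun i => s * a i + t * b i + u * d i) ζ =
      s * qf γ e a ζ + t * qf γ e b ζ + u * qf γ e d ζ := by
  simp only [qf, bil_l, bil_r]; ring

lemma n2_le' {A : ℝ} (ha : ∀ i, |a i| ≤ A) : n2 a ≤ (n * A) ^ 2 := by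
  refine (n2_le ha).trans ?_
  rw [mul_pow]
  refine mul_le_mul_of_nonneg_right ?_ (sq_nonneg _)
  exact_mod_cast Nat.le_self_pow two_ne_zero n

lemma amgm {fp vp L ε a b V : ℝ} (hf : 0 ≤ fp) (e0 : 0 < ε) (hL : 1 ≤ ε * L)
    (hV : fp * vp ^ 2 ≤ fp * V) :
    2 * vp * fp * (a * b) ≤ fp * L / 4 * b ^ 2 + 4 * ε * V * fp * a ^ 2 := by
  have L0 : 0 < L := by
    by_contra hn
    nlinarith [mul_nonneg e0.le (neg_nonneg.2 (not_lt.1 hn))]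
  refine le_of_mul_le_mul_left ?_ L0
  have k1 := mul_nonneg hf (sq_nonneg (L / 2 * b - 2 * vp * a))
  have k2 := mul_le_mul_of_nonneg_left hL (by positivity : 0 ≤ fp * vp ^ 2 * a ^ 2)
  have k3 := mul_le_mul_of_nonneg_left hV (by positivity : 0 ≤ ε * L * a ^ 2)
  linarith

/-- The estimate in one group of variables. -/
lemma side (h : Mt γ) (h' : Mt γ') {μ : ℝ} (hd : ∀ i j, |γ i j - γ' i j| ≤ μ)
    {m x z φ ρ P : Fin n → ℝ} {s my al fp vp St q R E L ε V : ℝ} (hs : s ^ 2 = 1)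
    (hm : n2 m ≤ (3 / 2) ^ 2) (hq : 0 ≤ q) (hz : n2 z ≤ (3 / 2 * q) ^ 2) (hmx : 0 ≤ bil γ m x)
    (my0 : 0 ≤ my) (ha : 0 < al) (hf : 0 ≤ fp) (hv : 0 ≤ vp) (hS : 0 ≤ St) (hE : 0 ≤ E)
    (hR : 0 ≤ R) (e0 : 0 < ε) (hL : 1 ≤ ε * L) (V0 : 0 ≤ V) (hV : fp * vp ^ 2 ≤ fp * V)
    (hb : ∀ i, b i = my * m i - s * al * z i) (hφ : ∀ i, φ i = b i + fp * x i + ρ i)
    (hρ : ∀ i, |vp * ρ i| ≤ R)
    (hP : ∀ i, P i = vp * m i - s * (St * tri γ m z φ i / (bil γ φ φ + al)))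
    (hF : St = 0 ∨ ∃ (l u : ℝ) (ρ' : Fin n → ℝ), 0 ≤ l ∧ n2 ρ' ≤ E ^ 2 ∧
      ∀ i, s * z i = l * m i + u * φ i + 1 * ρ' i) (ζ : Fin n → ℝ) :
    vp * qf γ' m b ζ - s * St * qf γ' m z ζ - fp * L / 4 * bil γ x ζ ^ 2 -
      (27 * (n ^ 2 * μ) * (vp * my + vp * al * q + St * q) + 18 * n * R + 36 * ε * V * fp +
        81 * St * E + 27 * St * q * (al / (bil γ φ φ + al))) * n2 ζ ≤ qf γ P φ ζ := by
  have k0 : St * (s * qf γ (tri γ m z φ) φ ζ / (bil γ φ φ + al)) ≤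
      St * (s * qf γ m z ζ + (27 * q * (al / (bil γ φ φ + al)) + 81 * E) * n2 ζ) := by
    rcases hF with hF | ⟨l, u, ρ', hl, h1, h2⟩
    · rw [hF, zero_mul, zero_mul]
    · exact mul_le_mul_of_nonneg_left (h.sing hs hl hm hq hz hE h1 h2 ha ζ) hS
  have e1 : qf γ P φ ζ =
      vp * qf γ m φ ζ - St * (s * qf γ (tri γ m z φ) φ ζ / (bil γ φ φ + al)) := by
    rw [show P = fun i => vp * m i + -(s * St / (bil γ φ φ + al)) * tri γ m z φ i +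
      0 * tri γ m z φ i from funext fun i => by rw [hP]; ring, qf_l]
    ring
  have e2 : ∀ γ : Fin n → Fin n → ℝ, qf γ m b ζ = my * qf γ m m ζ - al * (s * qf γ m z ζ) :=
    fun γ => by
      rw [show b = fun i => my * m i + -(s * al) * z i + 0 * z i from
        funext fun i => by rw [hb]; ring, qf_r]
      ring
  have e3 : vp * qf γ m φ ζ =
      vp * qf γ m b ζ + vp * fp * qf γ m x ζ + qf γ m (fun i => vp * ρ i) ζ := by
    rw [show φ = fun i => 1 * b i + fp * x i + 1 * ρ i from funext fun i => by rw [hφ]; ring,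
      show (fun i => vp * ρ i) = fun i => vp * ρ i + 0 * ρ i + 0 * ρ i from
        funext fun i => by ring, qf_r, qf_r]
    ring
  have s1 : |s| ≤ 1 := abs_le.2 (abs_le_of_sq_le_sq' (by linarith) zero_le_one)
  have k1 := mul_le_mul_of_nonneg_left (abs_le.1
    (qf_sub h h' hd (by norm_num) (by norm_num) hm hm ζ)).1 (mul_nonneg hv my0)
  have k2 := mul_le_mul_of_nonneg_left (abs_le.1 (abs_mul_le s1
    (qf_sub h h' hd (by norm_num) (by positivity) hm hz ζ))).2 (by positivity : 0 ≤ vp * al + St)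
  have k3 := (abs_le.1 (h.qf_le (by norm_num) (by positivity) hm (n2_le' hρ) ζ)).1
  have k4 := amgm (a := bil γ m ζ) (b := bil γ x ζ) hf e0 hL hV
  have k5 : bil γ m ζ ^ 2 ≤ 9 * n2 ζ := (h.cs_sq m ζ).trans ((mul_le_mul
    ((h.hi m).trans (mul_le_mul_of_nonneg_left hm zero_le_two)) (h.hi ζ) (h.nn ζ)
      (by norm_num)).trans_eq (by ring))
  have k6 := mul_le_mul_of_nonneg_left k5 (by positivity : 0 ≤ ε * V * fp)
  have k7 := mul_nonneg (mul_nonneg hv hf) (mul_nonneg hmx (h.nn ζ))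
  have e4 : qf γ m x ζ = bil γ m x * bil γ ζ ζ - 2 * bil γ m ζ * bil γ x ζ := rfl
  rw [e1, e3, e2, e2, e4]
  linarith

lemma solve {m z φ ρ : Fin n → ℝ} {s M A ε : ℝ} (hM : 0 ≤ M) (hA : 0 < A)
    (hφ : ∀ i, φ i = M * m i - s * A * z i + ρ i) (hρ : ∀ i, |ρ i| ≤ 3 / 2 * ε * A) :
    ∃ (l u : ℝ) (ρ' : Fin n → ℝ), 0 ≤ l ∧ n2 ρ' ≤ (n * (3 / 2 * ε)) ^ 2 ∧
      ∀ i, s * z i = l * m i + u * φ i + 1 * ρ' i :=
  ⟨M / A, -1 / A, fun i => ρ i / A, by positivity, n2_le' fun i => by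
    rw [abs_div, abs_of_pos hA, div_le_iff₀ hA]; exact hρ i, fun i => by
    rw [hφ]; field_simp; ring⟩

end alg

section scal

lemma vpq {vp σ v q Λ : ℝ} (hσ : 2 ≤ σ) (hq : 0 ≤ q) (h1 : vp * σ ≤ 2 * v) (h2 : v * q ≤ Λ * σ) :
    vp * q ≤ 2 * Λ :=
  le_of_mul_le_mul_left (a := σ) (by linarith [mul_le_mul_of_nonneg_right h1 hq]) (by linarith)

/-- The sum of the errors. -/
lemma errs {N F v σ Q q vp cS T0 Λ T ε κ η w fp C₁ C τ d r : ℝ} (N0 : 0 ≤ N) (F0 : 0 < F)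
    (v1 : 1 ≤ v) (hσ : 2 ≤ σ) (hq : 0 ≤ q) (qq : q ^ 2 = Q) (h1 : vp * σ ≤ 2 * v)
    (h2 : v * q ≤ Λ * σ) (c0 : 0 ≤ cS) (c1 : cS ≤ T0) (T1 : T0 ≤ 1) (L0 : 0 ≤ Λ) (T0' : 0 ≤ T)
    (e0 : 0 ≤ ε) (ek : ε ≤ κ) (w0 : 0 ≤ w) (hw : F * σ * w ≤ 1 + ε * (Q * F * v)) (f0 : 0 ≤ fp)
    (hτ : T0 * Λ ≤ τ) (r0 : 0 ≤ r)
    (hF : (2 * F * v * cS = 0 ∧ d = 0) ∨ (1 ≤ T * Q ∧ d = (F * σ) ^ 2 / (r + F * σ)))
    (hκ : (27 * N ^ 2 * (4 + 2 * Λ) * (1 + Λ) + 36 * N + 243 * N * T + 36 * (16 * Λ ^ 2 * T)) * κ ≤ η)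
    (hC : 27 * N ^ 2 * (4 + 2 * Λ) * Λ + 18 * N * C₁ ≤ C) :
    27 * (N ^ 2 * (ε * q + w)) * (vp * (Q * F * v) + vp * (F * σ) * q + 2 * F * v * cS * q) +
      18 * N * (2 * κ * (Q * F * v) + C₁ * v ^ 2) + 36 * ε * (16 * Λ ^ 2 * T) * fp +
      81 * (2 * F * v * cS) * (N * (3 / 2 * ε)) +
      27 * (2 * F * v * cS) * q * (F * σ / (r + F * σ)) ≤
      η * (Q * F * v + fp) + C * v ^ 2 + 54 * τ * d := by
  have k0 : 0 ≤ κ := e0.trans ek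
  have v0 : 0 ≤ v := zero_le_one.trans v1
  have s0 : 0 ≤ σ := by linarith
  have Q0 : 0 ≤ Q := qq ▸ sq_nonneg q
  have my0 : 0 ≤ Q * F * v := by positivity
  have P0 : 0 ≤ F * v * q := by positivity
  have a1 : vp * (Q * F * v) + vp * (F * σ) * q + 2 * F * v * cS * q ≤
      (4 + 2 * Λ) * (F * v * q) := by
    rw [← qq]
    linarith [mul_le_mul_of_nonneg_left (vpq hσ hq h1 h2) P0,
      mul_le_mul_of_nonneg_left h1 (mul_nonneg F0.le hq), mul_le_mul_of_nonneg_left (c1.trans T1) P0]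
  have a2 : (ε * q + w) * (F * v * q) ≤ κ * (1 + Λ) * (Q * F * v) + Λ * v ^ 2 := by
    have b1 := mul_le_mul_of_nonneg_left h2 (mul_nonneg F0.le w0)
    have b2 := mul_le_mul_of_nonneg_left hw L0
    have b3 := mul_le_mul_of_nonneg_left ek (by positivity : 0 ≤ (1 + Λ) * (Q * F * v))
    have b4 := mul_le_mul_of_nonneg_left (one_le_pow₀ v1 : 1 ≤ v ^ 2) L0
    rw [← qq] at *
    linarith
  have a3 := mul_le_mul_of_nonneg_left a1 (by positivity : 0 ≤ N ^ 2 * (ε * q + w))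
  have a4 := mul_le_mul_of_nonneg_left a2 (by positivity : 0 ≤ N ^ 2 * (4 + 2 * Λ))
  have a5 := mul_le_mul_of_nonneg_left ek (by positivity : 0 ≤ Λ ^ 2 * T * fp)
  have a6 := mul_le_mul_of_nonneg_right hκ (add_nonneg my0 f0)
  have a7 := mul_le_mul_of_nonneg_right hC (sq_nonneg v)
  have a8 : 81 * (2 * F * v * cS) * (N * (3 / 2 * ε)) +
      27 * (2 * F * v * cS) * q * (F * σ / (r + F * σ)) ≤
      243 * N * T * κ * (Q * F * v) + 54 * τ * d := by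
    rcases hF with ⟨h3, h4⟩ | ⟨h3, h4⟩
    · rw [h3, h4]
      simp only [mul_zero, zero_mul, add_zero]
      positivity
    · have b0 : 0 ≤ F * σ / (r + F * σ) := by positivity
      have b1 := mul_le_mul (c1.trans T1) ek e0 zero_le_one
      have b2 := mul_le_mul_of_nonneg_left (b1.trans (mul_le_mul_of_nonneg_right h3 k0))
        (by positivity : 0 ≤ F * v * N)
      have b4 : cS * (v * q) ≤ τ * σ := by
        linarith [mul_le_mul c1 h2 (by positivity) (c0.trans c1), mul_le_mul_of_nonneg_right hτ s0]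
      have b3 := mul_le_mul_of_nonneg_right b4 (mul_nonneg F0.le b0)
      rw [h4, sq (F * σ), mul_div_assoc (F * σ)]
      generalize F * σ / (r + F * σ) = y at *
      linarith
  have a9 : 0 ≤ (27 * N ^ 2 * (4 + 2 * Λ) * (1 + Λ) + 36 * N + 243 * N * T) * κ * fp := by
    positivity
  have a10 : 0 ≤ Λ ^ 2 * T * κ * (Q * F * v) := by positivity
  linarith

lemma trans_bd {F v Q g C κ ε t vp : ℝ} (F0 : 0 < F) (v1 : 1 ≤ v) (hC : 0 ≤ C) (k0 : 0 ≤ κ)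
    (t0 : 0 ≤ t) (hQ : t ≤ Q) (hv : vp ≤ v) (g0 : 0 ≤ g) (hg : g ^ 2 ≤ C * F)
    (hF : v ^ 20 ≤ ε * F) (he : C ^ 3 * ε ≤ (κ * t) ^ 2) : vp * (g * C) ≤ κ * (Q * F * v) := by
  have a1 : g * C ≤ κ * t * F := by
    refine (abs_le_of_sq_le_sq' ?_ (by positivity)).2
    have b1 := mul_le_mul_of_nonneg_left hg (sq_nonneg C)
    have b2 := mul_le_mul_of_nonneg_left ((one_le_pow₀ v1).trans hF)
      (by positivity : 0 ≤ C ^ 3 * F)
    have b3 := mul_le_mul_of_nonneg_left he (sq_nonneg F)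
    linarith
  have a2 := mul_le_mul hv a1 (by positivity) (zero_le_one.trans v1)
  linarith [mul_le_mul_of_nonneg_left hQ (by positivity : 0 ≤ κ * F * v)]

lemma rho_bd {F v σ Q vp ε κ K e k m t : ℝ} (F0 : 0 < F) (v1 : 1 ≤ v) (hσ : 2 ≤ σ) (Q0 : 0 ≤ Q)
    (hv : 0 ≤ vp) (h1 : vp * σ ≤ 2 * v) (e0 : 0 ≤ ε) (ek : ε ≤ κ)
    (he : |e| ≤ F * σ / 2 * (ε * Q)) (k0 : 0 ≤ k) (hk : k ≤ K * v / 2) (hm : |m| ≤ 3 / 2)
    (ht : |vp * t| ≤ κ * (Q * F * v)) :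
    |vp * (e + k * m + t)| ≤ 2 * κ * (Q * F * v) + K * v ^ 2 := by
  have v0 : 0 ≤ v := zero_le_one.trans v1
  have a0 : vp ≤ v := by linarith [mul_le_mul_of_nonneg_left hσ hv]
  have a1 := abs_le.1 (abs_mul_le (abs_of_nonneg hv).le he)
  have a2 := abs_le.1 (abs_mul_le ((abs_of_nonneg hv).le.trans a0)
    (abs_mul_le ((abs_of_nonneg k0).le.trans hk) hm))
  have a3 := mul_le_mul_of_nonneg_left h1 (by positivity : 0 ≤ F * ε * Q)
  have a4 := mul_le_mul_of_nonneg_left ek (by positivity : 0 ≤ Q * F * v)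
  have a5 := mul_nonneg (k0.trans hk) v0
  rw [abs_le] at ht ⊢
  constructor <;> linarith [a1.1, a1.2, a2.1, a2.2, ht.1, ht.2]

lemma vsq {vp q Λ t : ℝ} (hv : 0 ≤ vp) (hq : 0 ≤ q) (ht : 0 < t) (h : vp * q ≤ 2 * Λ)
    (hQ : t / 4 ≤ q ^ 2) : vp ^ 2 ≤ 16 * Λ ^ 2 * t⁻¹ := by
  rw [← div_eq_mul_inv, le_div_iff₀ ht]
  linarith [pow_le_pow_left₀ (mul_nonneg hv hq) h 2, mul_le_mul_of_nonneg_left hQ (sq_nonneg vp)]

lemma rho_far {al fp ε Q q e y : ℝ} (ha : 0 ≤ al) (hf : 0 ≤ fp) (e0 : 0 ≤ ε) (hQ : Q ≤ 2)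
    (hq : q ≤ 3 / 2) (he : |e| ≤ al / 2 * (ε * Q)) (hy : |y| ≤ ε * q) :
    |e + fp / 2 * y| ≤ 3 / 2 * ε * (al + fp / 2) := by
  have a1 := abs_le.1 (abs_mul_le (abs_of_nonneg (by positivity : 0 ≤ fp / 2)).le hy)
  have a2 := mul_le_mul_of_nonneg_left hQ (mul_nonneg ha e0)
  have a3 := mul_le_mul_of_nonneg_left hq (mul_nonneg hf e0)
  have a4 := mul_nonneg ha e0
  rw [abs_le] at he ⊢
  constructor <;> linarith [a1.1, a1.2, he.1, he.2]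

end scal

section pt
variable {n : ℕ} {ι : Type} {f : Fx} {c : Cx n ι} {p : X2 n}

lemma grad (h : W0 f c) (p w : X2 n) : D w (phi f c) p = D w (Psi f c) p +
    f.Cw * D w (lu f c) p + (chf f c p * D w.1 (fX f c) p.1 + D w (chf f c) p * fX f c p.1) := by
  obtain ⟨⟨-, -, -, -, -, -, -, -, -, sP, -, -, sl, -, sc, -, -, -, -, -, -, -, -, -, -, -, -, -,
    -, -, -, -, -, -, -, -, -, -, -, -, sf, -⟩, -⟩ := h
  have sf' : Sm fun p : X2 n => fX f c p.1 := sf.comp contDiff_fst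
  rw [show phi f c = fun p => Psi f c p + f.Cw * lu f c p + chf f c p * fX f c p.1 from rfl,
    D_add_at ((sP.add (sl.cmul _)).dAt p) ((sc.mul sf').dAt p),
    D_add_at (sP.dAt p) ((sl.cmul _).dAt p), D_const_mul_at (sl.dAt p),
    D_mul_at (sc.dAt p) (sf'.dAt p), D_fst sf]

lemma D_fX (h : W0 f c) (x : En n) (i : Fin n) :
    D (ee i) (fX f c) x = fX f c x * (LX f c x * x i) := by
  have sl : Sm (lX f c) := by
    obtain ⟨⟨-, -, -, -, -, -, -, -, -, -, -, -, -, -, -, -, -, -, -, -, -, -, -, -, -, -, -, -,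
      -, -, -, -, -, -, -, -, -, -, -, sl, -⟩, -⟩ := h
    exact sl
  have := D_exp_at (sl.dAt x) (ee i)
  rw [(h.2.1 x).2.2.2.2 i] at this
  exact this

lemma D_chf (h : W0 f c) (ht : 0 < f.t0) (w : X2 n)
    (hQ : QQ c p < f.t0 ^ 2 / 4 ∨ f.t0 ^ 2 / 2 < QQ c p) : D w (chf f c) p = 0 := by
  rcases hQ with hQ | hQ
  · have e : chf f c =ᶠ[𝓝 p] fun _ => 0 :=
      (h.1.2.2.2.2.1.cont.continuousAt.eventually (gt_mem_nhds hQ)).mono fun q hq => by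
        have : cut (4 * QQ c q / f.t0 ^ 2) = 1 := Real.smoothTransition.one_of_one_le (by
          have : 4 * QQ c q / f.t0 ^ 2 ≤ 1 := (div_le_one (by positivity)).2 (by linarith)
          linarith)
        simp only [chf, this, sub_self]
    rw [D_congr e, D_const]
  · rw [D_congr ((h.2.2.2.2 p).2.2.1 hQ)]
    exact D_const 1 w p

/-- The facts that are used at the point `p`. -/
structure Hp (f : Fx) (c : Cx n ι) (K ε κ k : ℝ) (p : X2 n) : Prop where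
  w0 : W0 f c
  t0 : 0 < f.t0
  e0 : 0 < ε
  ek : ε ≤ κ
  K0 : 0 ≤ K
  v1 : 1 ≤ vv f c p
  Q0 : 0 ≤ QQ c p
  Q2 : QQ c p ≤ 2
  M1 : Mt (g1 c p)
  M2 : Mt (g2 c p)
  Mm : Mt (gm c p)
  d1 : ∀ i j, |g1 c p i j - gm c p i j| ≤ ε * √(QQ c p) + 1 / aX f c p.1 ^ 2
  d2 : ∀ i j, |g2 c p i j - gm c p i j| ≤ ε * √(QQ c p) + 1 / aX f c p.1 ^ 2
  hm : n2 (mv p) ≤ (3 / 2) ^ 2
  hmx : 0 ≤ bil (g1 c p) (mv p) fun i => p.1 i
  hL : 1 ≤ ε * LX f c p.1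
  hV : fp f c p * vp f c p ^ 2 ≤ fp f c p * (16 * f.lam⁻¹ ^ 2 * (f.t0 ^ 2)⁻¹)
  tb : ∀ i, |vp f c p * (D (exy i) (chf f c) p * fX f c p.1)| ≤ κ * my f c p
  k0 : 0 ≤ k
  k1 : k ≤ K * vv f c p / 2
  q3 : ∀ i, |zt c p i - zz p i| ≤ ε * √(QQ c p)
  q4 : ∀ i, |D (ex i) (QQ c) p + 2 * zt c p i| ≤ ε * QQ c p ∧
    |D (ey i) (QQ c) p - 2 * zt c p i| ≤ ε * QQ c p
  fx : ∀ i, dx (phi f c) p i = my f c p * mv p i - al f c p * zt c p i + fp f c p * p.1 i +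
    (al f c p / 2 * (D (ex i) (QQ c) p + 2 * zt c p i) + k * mv p i +
      D (ex i) (chf f c) p * fX f c p.1)
  fy : ∀ i, dyy (phi f c) p i = my f c p * mv p i + al f c p * zt c p i +
    (al f c p / 2 * (D (ey i) (QQ c) p - 2 * zt c p i) + k * mv p i +
      D (ey i) (chf f c) p * fX f c p.1)

lemma mkHp {Cq C₁ C₂ C ε κ om L₀ : ℝ} (hf : f.Ok) (w0 : W0 f c) (wq : WQ c Cq ε p)
    (w1 : W1 f c C₁ p) (w2 : W2 f c C₂ ε p)
    (hh : ∀ v, D v (Psi f c) p = my f c p * D v uu p + al f c p / 2 * D v (QQ c) p)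
    (hp : p ∈ Dom f c) (ok : c.Ok f om L₀) (o1 : n * (n * om) ≤ 1 / 1000) (C0 : 0 ≤ C)
    (c1 : C₁ ≤ C) (c2 : C₂ ≤ C) (e0 : 0 < ε) (e1 : ε ≤ 1) (ek : ε ≤ κ)
    (he : C ^ 3 * ε ≤ (κ * (f.t0 ^ 2 / 4)) ^ 2) :
    Hp f c (f.Cw * C) ε κ (f.Cw * (LU f.K c.L0 c.sg c.J (uu p) / 2)) p := by
  obtain ⟨l0, -, -, -, -, -, -, -, t0, -, -, cw, -⟩ := hf
  obtain ⟨-, -, g3', g4'⟩ := geom ok.2.2.2.2.1 hp.1
  obtain ⟨q1, -, -, q3, q8, q4, -, -, -, -, q6, q7⟩ := wq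
  obtain ⟨-, -, -, -, -, -, -, -, -, ch, -, u2, u3, u4, -⟩ := w1
  obtain ⟨b1, -, b2, b6, b3, b7, -, -, -, -, b5, -⟩ := w2
  obtain ⟨Q0', -, F0, -, s2, -, -, vp0, vp1, -, -, fp0, -, -, -, -, -, hb⟩ := w0.2.2.1 p
  obtain ⟨a0, -, fa, -⟩ := w0.2.1 p.1
  have v0 := (s15 e0 e1 b2 q6 b3).1
  have v1 : 1 ≤ vv f c p := b2.trans (mul_le_of_le_one_left v0 e1)
  have Q0 : 0 ≤ QQ c p := le_trans (by positivity) Q0'
  have k0 : 0 ≤ κ := e0.le.trans ek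
  have hm : n2 (mv p) ≤ (3 / 2) ^ 2 := g3'.trans_eq (by norm_num)
  have cw0 := zero_le_one.trans cw
  refine ⟨w0, t0, e0, ek, mul_nonneg cw0 C0, v1, Q0, q6,
    ⟨fun i j => congrFun (ok.2.2.2.2.2.2.1 i j) p.1, fun ζ => (hb ζ).1, fun ζ => (hb ζ).2.1⟩,
    ⟨fun i j => congrFun (ok.2.2.2.2.2.2.2.2.2.1 i j) p.2, fun ζ => (hb ζ).2.2.1,
      fun ζ => (hb ζ).2.2.2.1⟩,
    ⟨fun i j => congrFun (ok.2.2.2.2.2.2.2.2.2.1 i j) (mid p), fun ζ => (hb ζ).2.2.2.2.1,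
      fun ζ => (hb ζ).2.2.2.2.2⟩, fun i j => ?_,
    fun i j => (q8 i j).2.2.1.trans (le_add_of_nonneg_right (by positivity)), hm, ?_, b6, ?_,
    fun i => ?_, by positivity, ?_, fun i => (q3 i).2.2.2, q4, fun i => ?_, fun i => ?_⟩
  · have k1 : |c.γ₁ i j p.1 - c.γ₂ i j p.1| ≤ 1 / aX f c p.1 ^ 2 := by
      simpa [Ds] using hp.2 i j [] (by simp)
    exact (abs_sub_le _ (c.γ₂ i j p.1) _).trans ((add_le_add k1 (q8 i j).2.2.2).trans_eq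
      (add_comm _ _))
  · have k1 := (abs_le.1 (bil_near (γ := g1 c p) (om := om)
      (fun i j => by simpa [Ds, g1] using ok.2.2.2.2.2.2.2.1 i j p.1 [] (by simp))
      (abs_le_of_n2 (by norm_num) hm) (abs_le_of_n2 (a := fun i => p.1 i) (A := 3 / 2)
        (by norm_num) (g4'.trans_eq (by norm_num))))).1
    linarith [show 1 / 8 ≤ dot (mv p) fun i => p.1 i from q7]
  · by_cases hQ : QQ c p < f.t0 ^ 2 / 4
    · rw [((w0.2.2.2.2 p).1 hQ).2, zero_mul, zero_mul]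
    · refine mul_le_mul_of_nonneg_left (vsq vp0 (Real.sqrt_nonneg _) (pow_pos t0 2)
        (vpq s2 (Real.sqrt_nonneg (QQ c p)) vp1 ?_) ((not_lt.1 hQ).trans (Real.sq_sqrt Q0).ge)) fp0
      rw [le_inv_mul_iff₀ l0, ← mul_assoc]; exact b7
  · by_cases hQ : QQ c p < f.t0 ^ 2 / 4 ∨ f.t0 ^ 2 / 2 < QQ c p
    · rw [D_chf w0 t0 _ hQ, zero_mul, mul_zero, abs_zero]
      exact mul_nonneg k0 (mul_nonneg (mul_nonneg Q0 F0.le) v0)
    · push Not at hQ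
      have k1 : |D (exy i) (chf f c) p| ≤ C := by
        refine le_trans ?_ c1
        simpa [Ds] using ch [i] (by simp)
      have g0 : 0 ≤ fX f c p.1 := (Real.exp_pos _).le
      refine (abs_mul_le (abs_of_nonneg vp0).le (abs_mul_le k1 (abs_of_nonneg g0).le)).trans ?_
      rw [mul_comm C]
      exact trans_bd F0 v1 C0 k0 (by positivity) hQ.1
        (by linarith [mul_le_mul_of_nonneg_left s2 vp0]) g0
        (fa ▸ up_le (b5 (.inl (by linarith [sq_nonneg f.t0, hQ.2]))).2 c2 F0.le) b1 he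
  · linarith [mul_le_mul_of_nonneg_left (up_le u4 c1 v0) cw0]
  · simp only [dx]
    rw [grad w0, hh, (q1 i).1, (u2 i).1, show (ex i).1 = ee i from rfl, D_fX w0, fp]
    ring
  · simp only [dyy]
    rw [grad w0, hh, (q1 i).2, (u2 i).2, show (ey i).1 = 0 from rfl, D_zero]
    ring

/-- The size of the errors. -/
def EE (f : Fx) (c : Cx n ι) (K ε κ g r : ℝ) (p : X2 n) : ℝ :=
  27 * (n ^ 2 * (ε * √(QQ c p) + 1 / aX f c p.1 ^ 2)) *
      (vp f c p * my f c p + vp f c p * al f c p * √(QQ c p) + St f c p * √(QQ c p)) +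
    18 * n * (2 * κ * my f c p + K * vv f c p ^ 2) +
    36 * ε * (16 * f.lam⁻¹ ^ 2 * (f.t0 ^ 2)⁻¹) * g + 81 * St f c p * (n * (3 / 2 * ε)) +
    27 * St f c p * √(QQ c p) * (al f c p / (r + al f c p))

lemma Hp.far {K ε κ k : ℝ} (h : Hp f c K ε κ k p) : St f c p = 0 ∨ f.t0 ^ 2 ≤ QQ c p :=
  (lt_or_ge _ _).imp_left fun hQ => ((h.w0.2.2.2.2 p).2.1 hQ).1.eq_of_nhds

lemma Hp.XY {K ε κ k : ℝ} (h : Hp f c K ε κ k p) (ζ ζ' : Fin n → ℝ) :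
    N2 f c p ζ ζ' - fp f c p * LX f c p.1 / 4 * xz c p ζ ^ 2 -
      EE f c K ε κ (fp f c p) (rx f c p) p * n2 ζ - EE f c K ε κ 0 (ry f c p) p * n2 ζ' ≤
      qf (g1 c p) (pcx f c p) (dx (phi f c) p) ζ + qf (g2 c p) (pcy f c p) (dyy (phi f c) p) ζ' := by
  obtain ⟨-, -, F0, -, s2, -, -, vp0, vp1, cS0, -, fp0, -, zQ, -⟩ := h.w0.2.2.1 p
  have n0 : (0 : ℝ) ≤ n := Nat.cast_nonneg n
  have v0 := zero_le_one.trans h.v1
  have q0 := Real.sqrt_nonneg (QQ c p)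
  have sq : √(QQ c p) ≤ 3 / 2 := Real.sqrt_le_iff.2 ⟨by norm_num, by linarith [h.Q2]⟩
  have al0 : 0 < al f c p := mul_pos F0 (by linarith)
  have my0 : 0 ≤ my f c p := mul_nonneg (mul_nonneg h.Q0 F0.le) v0
  have St0 : 0 ≤ St f c p := by unfold St; positivity
  have e0 := h.e0
  have k0 := h.k0
  have K0 := h.K0
  have κ0 : 0 ≤ κ := e0.le.trans h.ek
  have am := abs_le_of_n2 (by norm_num) h.hm
  have hz : n2 (zt c p) ≤ (3 / 2 * √(QQ c p)) ^ 2 := by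
    linarith [h.Mm.lo (zt c p), Real.sq_sqrt h.Q0, h.Q0]
  have ab : |al f c p / 2| ≤ al f c p / 2 := (abs_of_pos (half_pos al0)).le
  have ex1 := fun i => abs_mul_le ab (h.q4 i).1
  have ey1 := fun i => abs_mul_le ab (h.q4 i).2
  have erx : rx f c p = bil (g1 c p) (dx (phi f c) p) (dx (phi f c) p) := rho_eq _ _ _ _
  have ery : ry f c p = bil (g2 c p) (dyy (phi f c) p) (dyy (phi f c) p) := rho_eq _ _ _ _
  have dc : f.t0 ^ 2 ≤ QQ c p → ∀ w, D w (chf f c) p = 0 := fun hQ w =>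
    D_chf h.w0 h.t0 w (.inr (by linarith [pow_pos h.t0 2]))
  have E0 : 0 ≤ n * (3 / 2 * ε) := by positivity
  have R0 : 0 ≤ 2 * κ * my f c p + K * vv f c p ^ 2 := by positivity
  have V0 : 0 ≤ 16 * f.lam⁻¹ ^ 2 * (f.t0 ^ 2)⁻¹ := by positivity
  have X := side h.M1 h.Mm h.d1 (s := 1) (P := pcx f c p) (φ := dx (phi f c) p)
    (b := fun i => my f c p * mv p i - al f c p * zt c p i)
    (by norm_num) h.hm q0 hz h.hmx my0 al0 fp0 vp0 St0 E0 R0 e0 h.hL V0 h.hV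
    (fun i => by rw [one_mul]) h.fx
    (fun i => rho_bd F0 h.v1 s2 h.Q0 vp0 vp1 e0.le h.ek (ex1 i) k0 h.k1 (am i) (h.tb (.inl i)))
    (fun i => by rw [← erx, one_mul]; rfl)
    (h.far.imp_right fun hQ => solve (M := my f c p + k + fp f c p)
      (A := al f c p + fp f c p / 2) (by positivity) (by positivity) (fun i => by
        have : p.1 i = mv p i - zz p i / 2 := by simp [mv, mid, zz]; ring
        rw [h.fx, dc hQ, this]
        ring) fun i => rho_far al0.le fp0 e0.le h.Q2 sq (ex1 i) (h.q3 i)) ζ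
  have Y := side h.M2 h.Mm h.d2 (s := -1) (P := pcy f c p) (φ := dyy (phi f c) p)
    (b := fun i => my f c p * mv p i + al f c p * zt c p i)
    (by norm_num) h.hm q0 hz (h.M2.nn _) my0 al0 le_rfl vp0 St0 E0 R0 e0 h.hL V0 (by simp)
    (fun i => by ring) (fun i => by rw [h.fy, zero_mul, add_zero]; rfl)
    (fun i => rho_bd F0 h.v1 s2 h.Q0 vp0 vp1 e0.le h.ek (ey1 i) k0 h.k1 (am i) (h.tb (.inr i)))
    (fun i => by rw [← ery]; simp only [pcy, sy]; ring)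
    (h.far.imp_right fun hQ => solve (M := my f c p + k) (A := al f c p + 0 / 2)
      (by positivity) (by positivity) (fun i => by
        rw [h.fy, dc hQ]
        ring) fun i => rho_far (y := 0) al0.le le_rfl e0.le h.Q2 sq (ey1 i)
          (by rw [abs_zero]; positivity)) ζ'
  rw [← erx] at X
  rw [← ery] at Y
  have e : N2 f c p ζ ζ' = vp f c p *
      (qf (gm c p) (mv p) (fun i => my f c p * mv p i - al f c p * zt c p i) ζ +
        qf (gm c p) (mv p) (fun i => my f c p * mv p i + al f c p * zt c p i) ζ') +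
      St f c p * (qf (gm c p) (mv p) (zt c p) ζ' - qf (gm c p) (mv p) (zt c p) ζ) := rfl
  rw [e, EE, EE, xz]
  linarith

lemma main {Cq C₁ C₂ C C' ε κ η om L₀ : ℝ} (hf : f.Ok) (w0 : W0 f c) (wq : WQ c Cq ε p)
    (w1 : W1 f c C₁ p) (w2 : W2 f c C₂ ε p)
    (hh : ∀ v, D v (Psi f c) p = my f c p * D v uu p + al f c p / 2 * D v (QQ c) p)
    (hp : p ∈ Dom f c) (ok : c.Ok f om L₀) (o1 : n * (n * om) ≤ 1 / 1000) (C0 : 0 ≤ C)
    (c1 : C₁ ≤ C) (c2 : C₂ ≤ C) (e0 : 0 < ε) (e1 : ε ≤ 1) (ek : ε ≤ κ)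
    (he : C ^ 3 * ε ≤ (κ * (f.t0 ^ 2 / 4)) ^ 2)
    (hκ : (27 * n ^ 2 * (4 + 2 * f.lam⁻¹) * (1 + f.lam⁻¹) + 36 * n + 243 * n * (f.t0 ^ 2)⁻¹ +
      36 * (16 * f.lam⁻¹ ^ 2 * (f.t0 ^ 2)⁻¹)) * κ ≤ η) (η0 : 0 ≤ η)
    (hC : 27 * n ^ 2 * (4 + 2 * f.lam⁻¹) * f.lam⁻¹ + 18 * n * (f.Cw * C) ≤ C')
    (ζ ζ' : Fin n → ℝ) :
    N2 f c p ζ ζ' - fp f c p * LX f c p.1 / 4 * xz c p ζ ^ 2 - er f c η C' p ζ ζ' -
      54 * f.tau * dfc f c p ζ ζ' ≤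
      qf (g1 c p) (pcx f c p) (dx (phi f c) p) ζ + qf (g2 c p) (pcy f c p) (dyy (phi f c) p) ζ' := by
  have h := mkHp hf w0 wq w1 w2 hh hp ok o1 C0 c1 c2 e0 e1 ek he
  refine le_trans ?_ (h.XY ζ ζ')
  obtain ⟨l0, l1, -, a1, T0, a2, -, -, t0, t1, -⟩ := hf
  obtain ⟨-, -, -, -, -, b7, -, -, -, -, -, b8, -⟩ := w2
  obtain ⟨-, -, F0, -, s2, rx0, ry0, -, vp1, cS0, cS1, fp0, -⟩ := w0.2.2.1 p
  have a0 := (w0.2.1 p.1).1
  have T1 : f.T0 ≤ 1 := by nlinarith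
  have hτ : f.T0 * f.lam⁻¹ ≤ f.tau := by
    rw [← div_eq_mul_inv]; unfold Fx.tau; linarith
  have hw : FF f c p * sig f c p * (1 / aX f c p.1 ^ 2) ≤
      1 + ε * (QQ c p * FF f c p * vv f c p) := by
    rw [mul_one_div, div_le_iff₀ (by positivity), mul_comm _ (aX f c p.1 ^ 2)]; exact b8
  have h2 : vv f c p * √(QQ c p) ≤ f.lam⁻¹ * sig f c p := by
    rw [le_inv_mul_iff₀ l0, ← mul_assoc]; exact b7
  have E : ∀ g r d : ℝ, 0 ≤ g → 0 ≤ r → (St f c p = 0 ∧ d = 0) ∨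
      (1 ≤ (f.t0 ^ 2)⁻¹ * QQ c p ∧ d = al f c p ^ 2 / (r + al f c p)) →
      EE f c (f.Cw * C) ε κ g r p ≤ η * (my f c p + g) + C' * vv f c p ^ 2 + 54 * f.tau * d :=
    fun g r d g0 r0 hF => errs (Nat.cast_nonneg n) F0 h.v1 s2 (Real.sqrt_nonneg _)
      (Real.sq_sqrt h.Q0) vp1 h2 cS0 cS1 T1 (by positivity) (by positivity) e0.le ek
      (by positivity) hw g0 hτ r0 hF hκ hC
  have V0 : 0 ≤ η * (al f c p / vv f c p * n2 (ζ' - ζ)) := mul_nonneg η0 (mul_nonneg (div_nonneg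
    (mul_nonneg F0.le (by linarith)) (zero_le_one.trans h.v1)) (n2_nonneg _))
  have e : mx f c p = my f c p + fp f c p := rfl
  by_cases hQ : p ∈ Far f c
  · have hT : 1 ≤ (f.t0 ^ 2)⁻¹ * QQ c p := by
      rw [le_inv_mul_iff₀ (pow_pos t0 2), mul_one]; exact hQ
    have E1 := mul_le_mul_of_nonneg_right (E _ _ (dX f c p) fp0 rx0 (.inr ⟨hT, rfl⟩)) (n2_nonneg ζ)
    have E2 := mul_le_mul_of_nonneg_right (E _ _ (dY f c p) le_rfl ry0 (.inr ⟨hT, rfl⟩))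
      (n2_nonneg ζ')
    rw [er, dfc, if_pos hQ, e]
    linarith
  · have hS : St f c p = 0 := h.far.resolve_right hQ
    have E1 := mul_le_mul_of_nonneg_right (E _ _ _ fp0 rx0 (.inl ⟨hS, rfl⟩)) (n2_nonneg ζ)
    have E2 := mul_le_mul_of_nonneg_right (E _ _ _ le_rfl ry0 (.inl ⟨hS, rfl⟩)) (n2_nonneg ζ')
    rw [er, dfc, if_neg hQ, e]
    linarith

end pt

end PL2

open PL2 in
theorem s_PL2 (h0 : S_w0) (hq : S_wq) (hh : S_hess) (h1 : S_w1) (h2 : S_w2) : S_PL2 := by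
  intro n
  refine ⟨54, by norm_num, fun ι f hf => ?_⟩
  obtain ⟨Cq, -, hq⟩ := hq n
  obtain ⟨C₁, c1, h1⟩ := h1 n ι f hf
  obtain ⟨C₂, c2, h2⟩ := h2 n ι f hf
  have l0 : 0 < f.lam := hf.1
  have t0 : 0 < f.t0 := hf.2.2.2.2.2.2.2.2.1
  have cw : 0 < f.Cw := one_pos.trans_le hf.2.2.2.2.2.2.2.2.2.2.2.1
  have n0 : (0 : ℝ) ≤ n := Nat.cast_nonneg n
  have C0 : 0 ≤ C₁ + C₂ := by linarith
  refine ⟨1 + (27 * n ^ 2 * (4 + 2 * f.lam⁻¹) * f.lam⁻¹ + 18 * n * (f.Cw * (C₁ + C₂))),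
    le_add_of_nonneg_right (by positivity), fun η hη => ?_⟩
  obtain ⟨δ, om, -, o0, -, -, o1⟩ := ex_del n n0
  obtain ⟨κ, k0, hκ⟩ := (Eventually.and (p := fun ε => 0 < ε) (f := 𝓝[>] (0 : ℝ))
    self_mem_nhdsWithin (ev_lt (27 * n ^ 2 * (4 + 2 * f.lam⁻¹) * (1 + f.lam⁻¹) + 36 * n +
      243 * n * (f.t0 ^ 2)⁻¹ + 36 * (16 * f.lam⁻¹ ^ 2 * (f.t0 ^ 2)⁻¹)) hη)).exists
  obtain ⟨ε, ⟨⟨e0, e1⟩, e2⟩, e3⟩ := (((Eventually.and (p := fun ε => 0 < ε) (f := 𝓝[>] (0 : ℝ))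
    self_mem_nhdsWithin (ev_lt 1 one_pos)).and (ev_lt 1 k0)).and
    (ev_lt ((C₁ + C₂) ^ 3) (by positivity : 0 < (κ * (f.t0 ^ 2 / 4)) ^ 2))).exists
  rw [one_mul] at e1 e2
  refine ((((h0 n ι f hf).and (hq ι f hf ε e0)).and h1).and (h2 ε e0)).and (Ev.ok f o0 0)
    |>.mono ?_
  rintro c ⟨⟨⟨⟨w0, wq⟩, w1⟩, w2⟩, ok⟩ p hp ζ ζ'
  exact main hf w0 (wq p hp.1) (w1 p hp.1) (w2 p hp.1) (fun v => (hh n ι f c hf w0 p v v).1) hp ok
    o1 C0 (by linarith) (by linarith) e0 e1.le e2.le e3.le hκ.le hη.le (by linarith) ζ ζ'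

end Vale.Agent.P088
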