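import Vale.Agent.P088.StP
import Vale.Agent.P088.SbAlg

/-!
# P088: derivatives of the multiplier
-/

open MeasureTheory Set Metric Filter
open scoped ContDiff Topology

noncomputable section
namespace Vale.Agent.P088
open Vale.Agent.P136 (D Dp Dm Sm Tst)

namespace PL3

variable {n : ℕ} {v : Fin n → X2 n} {p : X2 n}

theorem mk1 {X κ : Type} [NormedAddCommGroup X] [NormedSpace ℝ X] {v : κ → X} {p : X} {W : ℝ}
    {f : X → ℝ} (h0 : |f p| ≤ W) (h1 : ∀ i, |D (v i) f p| ≤ W) : SB v 1 W 1 f p := by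
  intro l hl
  rw [one_pow, mul_one]
  match l, hl with
  | [], _ => exact h0
  | [i], _ => exact h1 i

theorem g0 {k : ℕ} {w L : ℝ} {f : X2 n → ℝ} (h : SB v k w L f p) : |f p| ≤ w :=
  (h [] (by simp)).trans (by simp)

theorem g1 {k : ℕ} {w L : ℝ} {f : X2 n → ℝ} (h : SB v (k + 1) w L f p) (i : Fin n) :
    |D (v i) f p| ≤ w * L :=
  (h [i] (by simp)).trans (by simp)

theorem to1 {k : ℕ} {w L W : ℝ} {f : X2 n → ℝ} (h : SB v (k + 1) w L f p) (h0 : w ≤ W)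
    (h1 : w * L ≤ W) : SB v 1 W 1 f p :=
  mk1 ((g0 h).trans h0) fun i => (g1 h i).trans h1

theorem sub {k : ℕ} {w L : ℝ} {f : X2 n → ℝ} (h : SB exy k w L f p) (g : Fin n → Fin n ⊕ Fin n) :
    SB (fun i => exy (g i)) k w L f p := fun l hl => by
  simpa only [Ds, List.foldr_map, List.length_map] using h (l.map g) (by simpa using hl)

theorem met {γ : MatF n} (hs : SmM γ) (h : Near 8 1 γ) (T : X2 n →L[ℝ] En n)
    (hT : ∀ a, T (v a) = ee a) (i j : Fin n) : SB v 1 2 1 (fun q => γ i j (T q)) p := by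
  refine mk1 ?_ fun a => ?_
  · have := h i j (T p) [] (by simp)
    simp only [Ds, List.foldr_nil, List.length_nil, pow_zero, mul_one] at this
    rw [abs_le] at this ⊢
    split_ifs at this <;> constructor <;> linarith [this.1, this.2]
  · have := h i j (T p) [a] (by simp)
    simp only [Ds, List.foldr_cons, List.foldr_nil, one_pow, mul_one, D, fderiv_sub_const] at this
    rw [D, fderiv_fun_comp p ((hs i j).dAt _) T.differentiableAt, T.fderiv,
      ContinuousLinearMap.comp_apply, hT]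
    linarith

theorem dP_le {γ : Fin n → Fin n → X2 n → ℝ} {a : Fin n → X2 n → ℝ} {W : ℝ} (hγ : SmM γ)
    (ha : ∀ i, Sm (a i)) (h1 : ∀ i j, SB v 1 2 1 (γ i j) p) (h2 : ∀ i, SB v 1 W 1 (a i) p)
    (ζ : Fin n → ℝ) :
    |dP v γ (fun i q => ∑ j, γ i j q * a j q) p ζ| ≤ 128 * n ^ 3 * W * n2 ζ := by
  have hP : ∀ i, Sm fun q => ∑ j, γ i j q * a j q := fun i => Sm.sum fun j _ => (hγ i j).mul (ha j)
  have b1 : ∀ i, SB v 1 (n * (4 * W)) 1 (fun q => ∑ j, γ i j q * a j q) p := fun i => by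
    have := SbAlg.sum zero_le_one Finset.univ (fun j q => γ i j q * a j q) (fun _ => 2 ^ 1 * 2 * W)
      (fun j _ => ((hγ i j).mul (ha j)).contDiffAt) fun j _ =>
        SbAlg.mul zero_le_one (hγ i j).contDiffAt (ha j).contDiffAt (h1 i j) (h2 j)
    rwa [Finset.sum_const, Finset.card_univ, Fintype.card_fin, nsmul_eq_mul,
      show (2 : ℝ) ^ 1 * 2 = 4 by norm_num] at this
  obtain ⟨P, hP'⟩ : ∃ P : Fin n → X2 n → ℝ, P = fun i q => ∑ j, γ i j q * a j q := ⟨_, rfl⟩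
  replace hP : ∀ i, Sm (P i) := hP' ▸ hP
  replace b1 : ∀ i, SB v 1 (n * (4 * W)) 1 (P i) p := hP' ▸ b1
  rw [← hP', dP]
  have b2 : ∀ i k, |8 * (∑ j, γ i j p * D (v j) (P k) p) -
      4 * dvg v (fun l q => γ i k q * P l q) p| ≤ 128 * n ^ 2 * W := fun i k => by
    have c1 : |∑ j, γ i j p * D (v j) (P k) p| ≤ ∑ _j : Fin n, 2 * (n * (4 * W)) :=
      (Finset.abs_sum_le_sum_abs _ _).trans (Finset.sum_le_sum fun j _ => by
        rw [abs_mul]
        exact mul_le_mul (g0 (h1 i j)) ((g1 (b1 k) j).trans (mul_one _).le)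
          (abs_nonneg _) zero_le_two)
    have c2 : |dvg v (fun l q => γ i k q * P l q) p| ≤ ∑ _j : Fin n, 2 ^ 1 * 2 * (n * (4 * W)) :=
      (Finset.abs_sum_le_sum_abs _ _).trans (Finset.sum_le_sum fun j _ => (g1 (SbAlg.mul
        zero_le_one (hγ i k).contDiffAt (hP j).contDiffAt (h1 i k) (b1 j)) j).trans (mul_one _).le)
    rw [Finset.sum_const, Finset.card_univ, Fintype.card_fin, nsmul_eq_mul, abs_le] at c1 c2
    rw [abs_le]
    constructor <;> nlinarith [c1.1, c1.2, c2.1, c2.2]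
  refine (Finset.abs_sum_le_sum_abs _ _).trans ((Finset.sum_le_sum fun i _ =>
    (Finset.abs_sum_le_sum_abs _ _).trans (Finset.sum_le_sum
      (g := fun k => 128 * n ^ 2 * W * ((ζ i ^ 2 + ζ k ^ 2) / 2)) fun k _ => ?_)).trans (le_of_eq ?_))
  · rw [mul_assoc, abs_mul]
    refine mul_le_mul (b2 i k) (abs_le.2 ⟨?_, ?_⟩) (abs_nonneg _) ((abs_nonneg _).trans (b2 i k))
    · nlinarith [sq_nonneg (ζ i + ζ k)]
    · nlinarith [sq_nonneg (ζ i - ζ k)]
  · simp only [← Finset.mul_sum, ← Finset.sum_div, Finset.sum_add_distrib, Finset.sum_const,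
      Finset.card_univ, Fintype.card_fin, nsmul_eq_mul, n2]
    ring

/-- The singular part on the far region. -/
theorem far {s : X2 n → ℝ} {a r H S m η C B : ℝ} {Q : Prop} (ha : 0 < a) (hr : 0 ≤ r) (hH : 0 ≤ H)
    (hS : 1 ≤ S) (hC : 0 ≤ C) (hB : 0 ≤ B) (hm : 0 ≤ η * m)
    (h1 : SB v 3 (C * a / √(r + a)) (H / √(r + a) + S) s p)
    (h2 : Q → SB v 3 (B * a / √(r + a)) (a / √(r + a)) s p)
    (h3 : ¬Q → H ^ 2 ≤ η * m * r ∧ a ^ 2 / (r + a) ≤ η * m) (h4 : S ^ 8 ≤ η * m) :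
    SB v 1 (B + 2 * C * (η * m) + 2 * B * (a ^ 2 / (r + a))) 1 s p := by
  have hR : 0 < r + a := by linarith
  have e1 : (a / √(r + a)) ^ 2 = a ^ 2 / (r + a) := by rw [div_pow, Real.sq_sqrt hR.le]
  have e0 : 0 ≤ a / √(r + a) := by positivity
  rw [mul_div_assoc] at h1 h2
  rw [← e1] at h3 ⊢
  have e2 : ¬Q → (H / √(r + a)) ^ 2 ≤ η * m := fun hQ => by
    rw [div_pow, Real.sq_sqrt hR.le, div_le_iff₀ hR]
    nlinarith [(h3 hQ).1]
  have e3 : 0 ≤ H / √(r + a) := by positivity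
  have e4 : S ^ 2 ≤ η * m := (pow_le_pow_right₀ hS (by norm_num)).trans h4
  generalize a / √(r + a) = t at *
  generalize H / √(r + a) = u at *
  have e5 := mul_nonneg hC hm
  have e6 := mul_nonneg hB (sq_nonneg t)
  by_cases hQ : Q
  · exact to1 (h2 hQ) (by nlinarith [mul_nonneg hB (sq_nonneg (t - 1))]) (by nlinarith)
  · have e7 : t * (u + S) ≤ 2 * (η * m) := by
      nlinarith [(h3 hQ).2, e2 hQ, sq_nonneg (t - u), sq_nonneg (t - S)]
    have e8 : C * t * (u + S) ≤ B + 2 * C * (η * m) + 2 * B * t ^ 2 := by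
      nlinarith [mul_le_mul_of_nonneg_left e7 hC]
    exact to1 h1 ((le_mul_of_one_le_right (mul_nonneg hC e0) (by linarith)).trans e8) e8

end PL3

theorem s_PL3 (h0 : S_w0) (hq : S_wq) (h1 : S_w1) (h2 : S_w2) (h4 : S_w4) (h6 : S_w6) :
    S_PL3 := by
  intro n
  obtain ⟨Cq, hCq, hq⟩ := hq n
  obtain ⟨Cn, hCn, h6⟩ := h6 n
  obtain ⟨A, hA⟩ : ∃ A : ℝ, A = 128 * n ^ 3 := ⟨_, rfl⟩
  have hA0 : 0 ≤ A := by rw [hA]; positivity
  refine ⟨A * (2 * Cn) + 1, le_add_of_nonneg_left (by positivity), fun ι f hf => ?_⟩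
  obtain ⟨C1, hC1, h1⟩ := h1 n ι f hf
  obtain ⟨C2, -, h2⟩ := h2 n ι f hf
  obtain ⟨C4, -, h4⟩ := h4 n ι f hf
  obtain ⟨C6, hC6, h6⟩ := h6 ι f hf
  have ht0 : 0 < f.t0 := hf.2.2.2.2.2.2.2.2.1
  have hτ : 0 ≤ f.tau := add_nonneg (by linarith [hf.2.2.2.2.2.2.2.2.2.1])
    (div_nonneg hf.2.2.2.2.1.le hf.1.le)
  refine ⟨A * (2 * C1 * Cq + Cn * f.tau) + 1, le_add_of_nonneg_left (by positivity),
    fun η hη => ?_⟩
  obtain ⟨e, he⟩ : ∃ e, e = η / (2 * C6 * (A + 1)) := ⟨_, rfl⟩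
  have he0 : 0 < e := by rw [he]; positivity
  have he1 : A * (2 * C6 * e) ≤ η := by
    have : 2 * C6 * (A + 1) * e = η := by rw [he]; field_simp
    nlinarith [mul_pos (zero_lt_one.trans_le hC6) he0]
  refine (((h0 n ι f hf).and ((hq ι f hf 1 one_pos).and (h1.and ((h2 e he0).and
    ((h4 e he0).and h6))))).and (Ev.ok f one_pos 0)).mono ?_
  rintro c ⟨⟨w0, wq, w1, w2, w4, w6⟩, -, hL, -, -, -, s1, -, n1, s2, -, n2', -⟩ p hp ζ ζ'
  obtain ⟨⟨-, -, -, -, -, -, -, -, -, -, -, -, -, -, -, -, -, -, -, -, -, -, -, -, -, svp, -, -, -,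
    ss, -, -, -, -, -, -, -, -, -, -, -, sx1, -, sy2, -⟩, wx, wp, -, wl⟩ := w0
  obtain ⟨q0, -, pF, pv, ps, prx, pry, -, -, -, -, pfp, pR, -⟩ := wp p
  have pQ : 0 ≤ QQ c p := le_trans (by positivity) q0
  have pv1 : 1 ≤ vv f c p := hL.trans pv
  have pS : 1 ≤ SS f c p := pv1.trans (le_add_of_nonneg_right (by linarith [(wx p.1).2.1]))
  have pa : 0 < al f c p := mul_pos pF (by linarith)
  have pA : 0 ≤ AA f c p := mul_nonneg pF.le (sq_nonneg _)
  have pH : 0 ≤ HX f c p := add_nonneg pA (mul_nonneg pfp (by linarith))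
  have pmy : 0 ≤ my f c p := mul_nonneg (mul_nonneg pQ pF.le) (by linarith)
  have pmx : 0 ≤ mx f c p := add_nonneg pmy pfp
  have sm : ∀ i, Sm fun q : X2 n => mv q i := fun i => by
    unfold mv mid Sm
    fun_prop
  have b0 : ∀ (g : Fin n → Fin n ⊕ Fin n) i, SB (fun i => exy (g i)) 1
      (2 * C1 * Cq * vv f c p ^ 2) 1 (fun q => vp f c q * mv q i) p := fun g i => by
    have v0 : 0 ≤ vv f c p := by linarith
    have := SbAlg.mul (k := 1) v0 svp.contDiffAt (sm i).contDiffAt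
      (SbAlg.mono v0 (PL3.sub (w1 p hp).2.2.2.2.1 g) (by norm_num) le_rfl le_rfl)
      (SbAlg.mono zero_le_one (PL3.sub ((wq p hp).2.2.2.1 i).2.2.1 g) (by norm_num) le_rfl pv1)
    have k : 2 ^ 1 * (C1 * vv f c p) * Cq * vv f c p = 2 * C1 * Cq * vv f c p ^ 2 := by ring
    exact PL3.to1 this ((le_mul_of_one_le_right (by positivity) pv1).trans k.le) k.le
  obtain ⟨dx', dy', px, py, hd, b1⟩ : ∃ dx' dy' : ℝ, 0 ≤ dx' ∧ 0 ≤ dy' ∧
      dfc f c p ζ ζ' = dx' * n2 ζ + dy' * n2 ζ' ∧ ∀ i,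
      SB ex 1 (Cn * f.tau + 2 * C6 * (e * mx f c p) + 2 * (Cn * f.tau) * dx') 1
        (fun q => sx f c q i) p ∧
      SB ey 1 (Cn * f.tau + 2 * C6 * (e * my f c p) + 2 * (Cn * f.tau) * dy') 1
        (fun q => sy f c q i) p := by
    by_cases hF : p ∈ Far f c
    · have hN : p ∉ Nr f c 1 := fun h => by
        have h16 : p ∈ Nr f c 16 := le_trans (b := (1 : ℝ)) h (by norm_num)
        have := ((w2 p hp).2.2.2.2.2.2.2.2.2.2.2.2.1 h16).2.2.2.2.2.2.2.1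
        have h' : f.t0 ^ 2 ≤ QQ c p := hF
        nlinarith
      have k2 := (w2 p hp).2.2.2.2.2.2.2.2.2.2.2.2.2.1 hN
      obtain ⟨-, k3, k4, -⟩ := w4 p hp
      refine ⟨dX f c p, dY f c p, div_nonneg (sq_nonneg _) (by linarith),
        div_nonneg (sq_nonneg _) (by linarith), if_pos hF, fun i => ?_⟩
      obtain ⟨⟨-, -, -, -, k5, k6⟩, k7, k8⟩ := w6 p hp hF i
      exact ⟨PL3.far (Q := p ∈ sX f c 1) pa prx pH pS (by linarith) (by positivity) (by positivity)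
          k5 (fun h => (k7 ⟨h.1, h.2.trans (by linarith)⟩).1)
          (fun h => ⟨((k3 hN).1 h).1, ((k4 hF).1 h).2.1⟩) k2.1,
        PL3.far (Q := p ∈ sY f c 1) pa pry pA pv1 (by linarith) (by positivity) (by positivity)
          k6 (fun h => (k8 ⟨h.1, h.2.trans (by linarith)⟩).1)
          (fun h => ⟨((k3 hN).2.1 h).1, ((k4 hF).2 h).2⟩) k2.2⟩
    · have hz := ((wl p).2.1 (not_le.1 hF)).1
      refine ⟨0, 0, le_rfl, le_rfl, by rw [dfc, if_neg hF]; simp, fun i => ⟨?_, ?_⟩⟩ <;>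
      refine SbAlg.congr (f := fun _ => 0) (hz.mono fun q hq => ?_)
        (SbAlg.mono zero_le_one (SbAlg.const zero_le_one 0) le_rfl
          (by rw [abs_zero]; positivity) le_rfl)
      · simp [sx, hq]
      · simp [sy, hq]
  have c1 := PL3.dP_le (v := ex) (a := fun i q => pcx f c q i) sx1
    (fun i => (svp.mul (sm i)).sub (ss i).1)
    (PL3.met s1 n1 (ContinuousLinearMap.fst ℝ _ _) fun _ => rfl)
    (fun i => SbAlg.sub (svp.mul (sm i)).contDiffAt (ss i).1.contDiffAt (b0 Sum.inl i) (b1 i).1) ζ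
  have c2 := PL3.dP_le (v := ey) (a := fun i q => pcy f c q i) sy2
    (fun i => (svp.mul (sm i)).add (ss i).2.1)
    (PL3.met s2 n2' (ContinuousLinearMap.snd ℝ _ _) fun _ => rfl)
    (fun i => SbAlg.add (svp.mul (sm i)).contDiffAt (ss i).2.1.contDiffAt (b0 Sum.inr i) (b1 i).2)
    ζ'
  rw [← hA] at c1 c2
  refine (add_le_add c1 c2).trans ?_
  have pn : ∀ ξ : Fin n → ℝ, 0 ≤ n2 ξ := fun ξ => Finset.sum_nonneg fun _ _ => sq_nonneg _
  have key : ∀ m d : ℝ, 0 ≤ m → 0 ≤ d → A * (2 * C1 * Cq * vv f c p ^ 2 +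
      (Cn * f.tau + 2 * C6 * (e * m) + 2 * (Cn * f.tau) * d)) ≤ η * m +
      (A * (2 * C1 * Cq + Cn * f.tau) + 1) * vv f c p ^ 2 + (A * (2 * Cn) + 1) * f.tau * d := by
    intro m d hm hd
    have k1 := mul_le_mul_of_nonneg_right he1 hm
    have k2 : A * (Cn * f.tau) ≤ A * (Cn * f.tau) * vv f c p ^ 2 :=
      le_mul_of_one_le_right (by positivity) (one_le_pow₀ pv1)
    nlinarith [mul_nonneg hτ hd, sq_nonneg (vv f c p)]
  have k1 := mul_le_mul_of_nonneg_right (key _ _ pmx px) (pn ζ)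
  have k2 := mul_le_mul_of_nonneg_right (key _ _ pmy py) (pn ζ')
  have k3 : 0 ≤ η * (al f c p / vv f c p * n2 (ζ' - ζ)) :=
    mul_nonneg hη.le (mul_nonneg (by positivity) (pn _))
  rw [hd, er]
  linarith

end Vale.Agent.P088
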