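import Vale.Agent.P088.PLa2

/-!
# P088: positivity of the model form
-/

noncomputable section
namespace Vale.Agent.P088
namespace PLa

lemma n2_nonneg {n : ℕ} (ζ : Fin n → ℝ) : 0 ≤ n2 ζ := Finset.sum_nonneg fun _ _ => sq_nonneg _

lemma n2_par {n : ℕ} (ζ ζ' : Fin n → ℝ) : n2 (ζ + ζ') + n2 (ζ' - ζ) = 2 * (n2 ζ + n2 ζ') := by
  unfold n2
  rw [← Finset.sum_add_distrib, ← Finset.sum_add_distrib, Finset.mul_sum]
  exact Finset.sum_congr rfl fun i _ => by simp only [Pi.add_apply, Pi.sub_apply]; ring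

lemma zoneA {c₁ t v σ w ε g s E a X Y : ℝ} (hc1 : c₁ ≤ 1 / 60) (ht : 0 < t) (ht15 : t ≤ 3 / 2)
    (hv : 1 ≤ v) (hσ : 2 ≤ σ) (hw0 : 0 ≤ w) (hwσ : w * σ = t * v) (hε : ε ≤ 3 * w ^ 2)
    (hsσ : s * σ = 1) (h2 : g ≤ 2) (h3 : 6 * v ^ 2 * t ^ 2 * (σ + 2) ≤ σ ^ 2 * (σ - 2)) :
    c₁ * (t * w + 1 / v) * (E ^ 2 + a ^ 2) ≤
      nf σ (g / σ) (1 / 2 + s) (1 / 2 + s) ε E a X Y + 1 / (12 * v) * (X ^ 2 + Y ^ 2) := by
  have hσ0 : 0 < σ := by linarith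
  have hv0 : 0 < v := by linarith
  have hv2 : 0 < 1 / v := by positivity
  have hs0 : 0 < s := by
    by_contra h
    nlinarith
  have hs2 : s ≤ 1 / 2 := by nlinarith
  have hww : 6 * w ^ 2 * (σ + 2) ≤ σ - 2 := by
    have : σ ^ 2 * (6 * w ^ 2 * (σ + 2)) ≤ σ ^ 2 * (σ - 2) := by
      have : σ ^ 2 * (6 * w ^ 2 * (σ + 2)) = 6 * (w * σ) ^ 2 * (σ + 2) := by ring
      rw [this, hwσ]; linarith
    exact le_of_mul_le_mul_left this (by positivity)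
  have hεs : (1 / 2 + s) * ε ≤ (1 - 2 * s) / 4 := by
    have h4 : 2 * ε * (σ + 2) ≤ σ - 2 := by
      have := mul_le_mul_of_nonneg_right hε (by linarith : 0 ≤ σ + 2)
      linarith
    have := mul_le_mul_of_nonneg_left h4 hs0.le
    have e : s * (2 * ε * (σ + 2)) = 2 * ε * (s * σ) + 4 * (s * ε) := by ring
    have e' : s * (σ - 2) = s * σ - 2 * s := by ring
    rw [e, e', hsσ] at this
    linarith
  have hgs : g / σ ≤ 2 * s := by rw [div_le_iff₀ hσ0]; linarith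
  have z := z1 (γ := g / σ) (A := 1 / 2 + s) (ε := ε) (κ := 1 / (12 * v)) (u := 1 - 2 * s)
    (E := E) (a := a) (X := X) (Y := Y) hσ (by linarith) (by linarith) (by linarith)
    (by linarith) (by linarith) (by positivity)
    (by rw [div_le_div_iff₀ (by positivity) (by positivity)]; linarith)
  refine le_trans (mul_le_mul_of_nonneg_right ?_ (by positivity)) z
  have htw : t * w ≤ 1 / v + 3 * (1 - 2 * s) := by
    by_cases h : σ ≤ 3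
    · have e : t * w = σ * w ^ 2 * (1 / v) := by
        have : t = w * σ * (1 / v) := by rw [hwσ]; field_simp
        rw [this]; ring
      have : σ * w ^ 2 ≤ 1 := by nlinarith [sq_nonneg w]
      have := mul_le_mul_of_nonneg_right this hv2.le
      linarith
    · have hw2 : w ^ 2 ≤ (1 / 2) ^ 2 := by nlinarith [sq_nonneg w]
      have hw1 : w ≤ 1 / 2 := (abs_le_of_sq_le_sq' hw2 (by norm_num)).2
      have : t * w ≤ 3 / 2 * (1 / 2) := mul_le_mul ht15 hw1 hw0 (by norm_num)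
      have : s * 3 ≤ s * σ := mul_le_mul_of_nonneg_left (by linarith) hs0.le
      linarith
  have e : 1 / (12 * v) = 1 / 12 * (1 / v) := by field_simp
  rw [e]
  have := mul_le_mul hc1 (show t * w + 1 / v ≤ 2 * (1 / v) + 3 * (1 - 2 * s) by linarith)
    (by positivity) (by norm_num)
  linarith

lemma kapC {lam t0 t v σ : ℝ} (hl : 0 < lam) (ht : 0 < t) (hv : 1 ≤ v)
    (hσ : 100 ≤ σ) (h2 : t0 ^ 2 ≤ t ^ 2) (hlw : lam * v * t ≤ σ) (h4 : 1000 * v ≤ σ ^ 2) :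
    min 1 (lam * t0 / 24) ≤ min 1 (σ / (24 * v)) ∧ 40 ≤ min 1 (σ / (24 * v)) * σ := by
  have htt : t0 ≤ t := (abs_le_of_sq_le_sq' h2 ht.le).2
  have hv0 : 0 < v := by linarith
  constructor
  · apply min_le_min_left
    rw [div_le_div_iff₀ (by norm_num) (by positivity)]
    have := mul_le_mul_of_nonneg_left htt (mul_pos hl hv0).le
    linarith
  · rw [min_mul_of_nonneg _ _ (by linarith : 0 ≤ σ)]
    refine le_min (by linarith) ?_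
    rw [div_mul_eq_mul_div, le_div_iff₀ (by positivity)]; linarith

lemma cbd {lam c₁ c₂ t v w : ℝ} (hl : 0 < lam) (hl1 : lam ≤ 1 / 8) (hc20 : 0 < c₂)
    (hc1' : c₁ ≤ c₂ * lam / 3) (ht : 0 < t) (ht15 : t ≤ 3 / 2) (hv : 1 ≤ v) (hw0 : 0 ≤ w)
    (hlw1 : lam * w ≤ 1) : c₁ * (t * w + 1 / v) ≤ c₂ := by
  have hv0 : 0 < v := by linarith
  have hv1 : 1 / v ≤ 1 := by rw [div_le_one hv0]; exact hv
  have h1 : lam * (t * w + 1 / v) ≤ 3 := by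
    have := mul_le_mul ht15 hlw1 (by positivity) (by norm_num)
    have := mul_le_mul hl1 hv1 (by positivity) (by norm_num)
    linarith
  calc c₁ * (t * w + 1 / v) ≤ c₂ * lam / 3 * (t * w + 1 / v) :=
        mul_le_mul_of_nonneg_right hc1' (by positivity)
    _ = c₂ / 3 * (lam * (t * w + 1 / v)) := by ring
    _ ≤ c₂ / 3 * 3 := mul_le_mul_of_nonneg_left h1 (by positivity)
    _ = c₂ := by ring

/-- The three zones. -/
lemma zones {lam t0 T0 e1 A0 c₂ c₁ t v σ w ε g θ χ E a X Y : ℝ} (hl : 0 < lam) (hl1 : lam ≤ 1 / 8)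
    (he : e1 ≤ 1 / 100) (hT0 : 0 < T0) (hT1 : T0 ≤ 1 / 100) (hA : 0 < A0)
    (hT : T0 ^ 2 = e1 * A0) (hc2 : c₂ ≤ T0 / 4) (hc2' : c₂ ≤ min 1 (lam * t0 / 24) / 4)
    (hc20 : 0 < c₂) (hc1 : c₁ ≤ 1 / 60) (hc1' : c₁ ≤ c₂ * lam / 3)
    (ht : 0 < t) (ht15 : t ≤ 3 / 2) (hv : 1 ≤ v) (hσ : 2 ≤ σ) (hw0 : 0 ≤ w)
    (hwσ : w * σ = t * v) (hlw : lam * v * t ≤ σ) (hlw1 : lam * w ≤ 1) (hε0 : 0 ≤ ε)
    (hε : ε ≤ 3 * w ^ 2) (hAe : A0 * ε ≤ e1)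
    (hA1 : A0 * (1 + ε) ≤ T0 / 25) (hθ0 : 0 ≤ θ) (hθ1 : θ ≤ 1) (hχ0 : 0 ≤ χ) (hχ1 : χ ≤ 1)
    (hg : 0 ≤ g)
    (H : (θ = 1 ∧ g ≤ 2 ∧ 6 * v ^ 2 * t ^ 2 * (σ + 2) ≤ σ ^ 2 * (σ - 2)) ∨
      (χ = 1 ∧ t0 ^ 2 ≤ t ^ 2 ∧ 4 * v * t ≤ σ ∧ 16 ≤ T0 * σ ∧ g ≤ 2 + T0 * σ / 8) ∨
      (θ = 0 ∧ t0 ^ 2 ≤ t ^ 2 ∧ 16 ≤ T0 * σ ∧ 1000 * v ≤ σ ^ 2 ∧
        (g ≤ 2 ∨ (χ = 1 ∧ g ≤ 2 + T0 * σ / 8)))) :
    ∃ κ : ℝ, 0 ≤ κ ∧ κ ≤ 1 ∧ κ ≤ σ / (24 * v) ∧ c₁ * (t * w + 1 / v) * (E ^ 2 + a ^ 2) ≤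
      nf σ (g / σ) (θ * ((σ + 2) / (2 * σ)) + (1 - θ) * (χ ^ 2 * A0))
        (θ * ((σ + 2) / (2 * σ)) + (1 - θ) * (χ * T0)) ε E a X Y + κ * (X ^ 2 + Y ^ 2) := by
  have hσ0 : 0 < σ := by linarith
  have hv0 : 0 < v := by linarith
  have hcS : c₁ * (t * w + 1 / v) * (E ^ 2 + a ^ 2) ≤ c₂ * (E ^ 2 + a ^ 2) :=
    mul_le_mul_of_nonneg_right (cbd hl hl1 hc20 hc1' ht ht15 hv hw0 hlw1) (by positivity)
  have hγT : 16 ≤ T0 * σ → g ≤ 2 + T0 * σ / 8 → g / σ ≤ T0 / 4 := fun h1 h2 => by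
    rw [div_le_iff₀ hσ0]; linarith
  have hσT : 16 ≤ T0 * σ → 1600 ≤ σ := fun h => by
    have := mul_le_mul_of_nonneg_right hT1 hσ0.le
    linarith
  obtain ⟨s, hs⟩ : ∃ s, s = 1 / σ := ⟨_, rfl⟩
  have hs0 : 0 < s := by rw [hs]; positivity
  have hsσ : s * σ = 1 := by rw [hs]; field_simp
  have hA₁ : (σ + 2) / (2 * σ) = 1 / 2 + s := by rw [hs]; field_simp
  rw [hA₁]
  rcases H with ⟨h1, h2, h3⟩ | ⟨h1, h2, h3, h4, h5⟩ | ⟨h1, h2, h3, h4, h5⟩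
  · subst h1
    refine ⟨1 / (12 * v), by positivity, ?_, ?_, ?_⟩
    · rw [div_le_one (by positivity)]; linarith
    · rw [div_le_div_iff₀ (by positivity) (by positivity)]
      have := mul_le_mul_of_nonneg_right hσ hv0.le
      linarith
    · simp only [sub_self, zero_mul, add_zero, one_mul]
      exact zoneA hc1 ht ht15 hv hσ hw0 hwσ hε hsσ h2 h3
  · subst h1
    have hσ1 := hσT h4
    have hs3 : s ≤ 1 / 100 := by
      have := mul_le_mul_of_nonneg_left hσ1 hs0.le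
      linarith
    have hw4 : w ≤ 1 / 4 := by
      have : w * σ ≤ 1 / 4 * σ := by rw [hwσ]; linarith
      exact le_of_mul_le_mul_right this hσ0
    have hw5 : w ^ 2 ≤ (1 / 4) ^ 2 := pow_le_pow_left₀ hw0 hw4 2
    have a2 := z2 (γ := g / σ) (A := 1 / 2 + s) (ε := ε) (c := c₂) (E := E) (a := a) (X := X)
      (Y := Y) hσ (by linarith) (by linarith) (by linarith) (by linarith [hγT h4 h5])
      (by linarith)
    have a3 := z3 (γ := g / σ) (c := c₂) (E := E) (a := a) (X := X) (Y := Y) hσ hA hT hT0 hT1 he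
      hε0 hAe hA1 (hγT h4 h5) hc2
    refine ⟨0, le_rfl, zero_le_one, by positivity, ?_⟩
    have e : nf σ (g / σ) (θ * (1 / 2 + s) + (1 - θ) * (1 ^ 2 * A0))
        (θ * (1 / 2 + s) + (1 - θ) * (1 * T0)) ε E a X Y =
        θ * nf σ (g / σ) (1 / 2 + s) (1 / 2 + s) ε E a X Y +
          (1 - θ) * nf σ (g / σ) A0 T0 ε E a X Y := by unfold nf; ring
    rw [e]
    have := mul_le_mul_of_nonneg_left a2 hθ0
    have := mul_le_mul_of_nonneg_left a3 (sub_nonneg.2 hθ1)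
    linarith
  · subst h1
    simp only [zero_mul, sub_zero, one_mul, zero_add]
    have hσ1 := hσT h3
    rcases h5 with h5 | ⟨h5, h6⟩
    · obtain ⟨k1, k2⟩ := kapC hl ht hv (by linarith) h2 hlw h4
      refine ⟨min 1 (σ / (24 * v)), by positivity, min_le_left _ _, min_le_right _ _, ?_⟩
      refine hcS.trans (z4 (by linarith) hA hT hT0 hT1 he hε0 hAe hA1 hχ0 hχ1 ?_ (by positivity)
        (by positivity) (min_le_left _ _) k2 (by linarith))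
      rw [div_mul_cancel₀ _ hσ0.ne']; exact h5
    · subst h5
      refine ⟨0, le_rfl, zero_le_one, by positivity, ?_⟩
      have a3 := z3 (γ := g / σ) (c := c₂) (E := E) (a := a) (X := X) (Y := Y) hσ hA hT hT0 hT1 he
        hε0 hAe hA1 (hγT h3 h6) hc2
      simp only [one_pow, one_mul, zero_mul, add_zero]
      linarith

/-- The three estimates in normalized scalar form. -/
lemma fin3 {lam t0 T0 e1 c₂ c₁ t v σ w mm g θ χ E a X Y δ d p r WW nV nZ A S : ℝ} (hl : 0 < lam)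
    (hl1 : lam ≤ 1 / 8) (he0 : 0 < e1) (he : e1 ≤ 1 / 100) (hT0 : 0 < T0)
    (hT : 100 * T0 ≤ e1 * lam ^ 2) (hc2 : c₂ ≤ T0 / 4) (hc2' : c₂ ≤ min 1 (lam * t0 / 24) / 4)
    (hc20 : 0 < c₂) (hc1 : c₁ ≤ 1 / 60) (hc1' : c₁ ≤ c₂ * lam / 3) (hc10 : 0 ≤ c₁)
    (ht : 0 < t) (ht2 : t ^ 2 ≤ 2) (hv : 1 ≤ v) (hσ : 2 ≤ σ) (hw : w = t * v / σ)
    (hlw : lam * v * t ≤ σ) (hm0 : 0 ≤ mm) (hm : mm ≤ 3) (hθ0 : 0 ≤ θ) (hθ1 : θ ≤ 1)
    (hχ0 : 0 ≤ χ) (hχ1 : χ ≤ 1) (hg : 0 ≤ g) (hδ : |δ| ≤ d) (hE : |E| ≤ 2 * p)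
    (hX : |X| ≤ 4 * (w * r)) (hp : 0 ≤ p) (hr : 0 ≤ r) (hXY : X ^ 2 + Y ^ 2 = w ^ 2 * mm * WW)
    (hW0 : 0 ≤ WW) (hW : WW ≤ 4 * nZ) (hZ : nZ ≤ WW + (E ^ 2 + a ^ 2))
    (hV : nV ≤ 2 * (E ^ 2 + a ^ 2))
    (hA : A = θ * ((σ + 2) / (2 * σ)) + (1 - θ) * (χ ^ 2 * (T0 ^ 2 / e1)))
    (hS : S = (1 - θ) * (χ * T0 - χ ^ 2 * (T0 ^ 2 / e1))) :
    (0 ≤ A ∧ 0 ≤ A + S) ∧
    (((θ = 1 ∧ g ≤ 2 ∧ 6 * v ^ 2 * t ^ 2 * (σ + 2) ≤ σ ^ 2 * (σ - 2)) ∨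
      (χ = 1 ∧ t0 ^ 2 ≤ t ^ 2 ∧ 4 * v * t ≤ σ ∧ 16 ≤ T0 * σ ∧ g ≤ 2 + T0 * σ / 8) ∨
      (θ = 0 ∧ t0 ^ 2 ≤ t ^ 2 ∧ 16 ≤ T0 * σ ∧ 1000 * v ≤ σ ^ 2 ∧
        (g ≤ 2 ∨ (χ = 1 ∧ g ≤ 2 + T0 * σ / 8)))) →
      c₁ / 2 * (t * w * nZ + 1 / v * nV) - 300 * d * (p + w * r + d) ≤
        nd σ (g / σ) A (A + S) (w ^ 2 * mm) E a X Y δ + t * w / 4 * WW) ∧
    (∀ η : ℝ, 0 < η → η ≤ 1 → θ = 1 → g ≤ 2 → 10 * v ^ 2 * t ^ 2 ≤ η →
      (1 - η) * (E ^ 2 + a ^ 2) - 300 / η * (w ^ 2 * nZ) - 300 * d * (p + w * r + d) ≤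
        nd σ (g / σ) A (A + S) (w ^ 2 * mm) E a X Y δ + t * w / 4 * WW) ∧
    (θ = 0 → χ = 1 → 16 ≤ T0 * σ → g ≤ 2 + T0 * σ / 8 →
      (1 - 2 * e1) * a ^ 2 + σ * (E + X + δ) ^ 2 / 2 - 300 * d * (p + w * r + d) ≤
        nd σ (g / σ) A (A + S) (w ^ 2 * mm) E a X Y δ + t * w / 4 * WW) := by
  have hσ0 : 0 < σ := by linarith
  have hv0 : 0 < v := by linarith
  have hw0 : 0 ≤ w := by rw [hw]; positivity
  have hwσ : w * σ = t * v := by rw [hw]; field_simp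
  have ht15 : t ≤ 3 / 2 := (abs_le_of_sq_le_sq' (by linarith) (by norm_num)).2
  have hlw1 : lam * w ≤ 1 := by
    have : lam * w * σ ≤ 1 * σ := by rw [mul_assoc, hwσ]; linarith
    exact le_of_mul_le_mul_right this hσ0
  have hd : 0 ≤ d := (abs_nonneg _).trans hδ
  obtain ⟨A0, hA0⟩ : ∃ A0, A0 = T0 ^ 2 / e1 := ⟨_, rfl⟩
  rw [← hA0] at hA hS
  have hA00 : 0 < A0 := by rw [hA0]; positivity
  have hTA : T0 ^ 2 = e1 * A0 := by rw [hA0]; field_simp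
  have hl2 : lam ^ 2 ≤ (1 / 8) ^ 2 := pow_le_pow_left₀ hl.le hl1 2
  have hTe : 6400 * T0 ≤ e1 := by
    have := mul_le_mul_of_nonneg_left hl2 he0.le
    linarith
  have hA2 : A0 ≤ T0 * lam ^ 2 / 100 := by
    rw [hA0, div_le_iff₀ he0]
    have := mul_le_mul_of_nonneg_left hT hT0.le
    linarith
  have hε0 : 0 ≤ w ^ 2 * mm := by positivity
  have hε : w ^ 2 * mm ≤ 3 * w ^ 2 := by
    have := mul_le_mul_of_nonneg_left hm (sq_nonneg w)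
    linarith
  have hAε : A0 * (w ^ 2 * mm) ≤ 3 / 100 * T0 := by
    have h1 := mul_le_mul hA2 hε hε0 (by positivity)
    have h2 : (lam * w) ^ 2 ≤ 1 := pow_le_one₀ (by positivity) hlw1
    have := mul_le_mul_of_nonneg_left h2 hT0.le
    have e : T0 * lam ^ 2 / 100 * (3 * w ^ 2) = 3 / 100 * (T0 * (lam * w) ^ 2) := by ring
    linarith
  have hA3 : A0 ≤ T0 / 6400 := by
    have := mul_le_mul_of_nonneg_left hl2 hT0.le
    linarith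
  have hA1 : A0 * (1 + w ^ 2 * mm) ≤ T0 / 25 := by linarith
  have hq1 : (σ + 2) / (2 * σ) ≤ 1 := by rw [div_le_one (by positivity)]; linarith
  have hq0 : 0 ≤ (σ + 2) / (2 * σ) := by positivity
  have hθ2 : 0 ≤ 1 - θ := by linarith
  have hAS : A + S = θ * ((σ + 2) / (2 * σ)) + (1 - θ) * (χ * T0) := by rw [hA, hS]; ring
  have b1 := mul_le_mul_of_nonneg_left hq1 hθ0
  have b2 : χ ^ 2 * A0 ≤ 1 := mul_le_one₀ (pow_le_one₀ hχ0 hχ1) hA00.le (by linarith)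
  have b3 : χ * T0 ≤ 1 := mul_le_one₀ hχ1 hT0.le (by linarith)
  have hAn : 0 ≤ A := by rw [hA]; positivity
  have hASn : 0 ≤ A + S := by rw [hAS]; positivity
  have hAu : A ≤ 1 := by rw [hA]; linarith [mul_le_mul_of_nonneg_left b2 hθ2]
  have hASu : A + S ≤ 1 := by rw [hAS]; linarith [mul_le_mul_of_nonneg_left b3 hθ2]
  have d1 := mul_le_mul_of_nonneg_left hE hd
  have d2 := mul_le_mul_of_nonneg_left hX hd
  have d3 : 0 ≤ d * p := mul_nonneg hd hp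
  have d4 : 0 ≤ d * (w * r) := by positivity
  have d5 : 0 ≤ d * d := by positivity
  have d6 : 0 ≤ t * w * WW := by positivity
  refine ⟨⟨hAn, hASn⟩, fun H => ?_, fun η h1 h2 h3 h4 h5 => ?_, fun h1 h2 h3 h4 => ?_⟩
  · obtain ⟨κ, k0, k1, k2, k3⟩ := zones (E := E) (a := a) (X := X + δ) (Y := Y) hl hl1 he hT0
      (by linarith) hA00 hTA hc2 hc2' hc20 hc1 hc1' ht ht15 hv hσ hw0 hwσ hlw hlw1 hε0 hε
      (by linarith) hA1 hθ0 hθ1 hχ0 hχ1 hg H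
    rw [← hA, ← hAS] at k3
    have s := shift (σ := σ) (γ := g / σ) (ε := w ^ 2 * mm) (E := E) (a := a) (X := X) (Y := Y)
      hAn hAu hASn hASu k0 k1 hδ
    have k4 : κ * (X ^ 2 + Y ^ 2) ≤ t * w / 8 * WW := by
      rw [hXY]
      have := mul_le_mul k2 (mul_le_mul_of_nonneg_right hε hW0) (by positivity) (by positivity)
      have e : σ / (24 * v) * (3 * w ^ 2 * WW) = w * σ / v * w / 8 * WW := by field_simp; ring
      rw [e, hwσ, mul_div_cancel_right₀ _ hv0.ne'] at this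
      exact this
    have k5 := mul_le_mul_of_nonneg_left hZ (by positivity : 0 ≤ c₁ / 2 * (t * w))
    have k6 := mul_le_mul_of_nonneg_left hV (by positivity : 0 ≤ c₁ / 2 * (1 / v))
    have k7 := mul_le_mul_of_nonneg_right hc1 d6
    have k8 : 0 ≤ c₁ * (t * w) * (E ^ 2 + a ^ 2) := by positivity
    linarith
  · subst h3
    have e : A + S = A := by rw [hS]; ring
    have hw2 : w ^ 2 ≤ η / 40 := by
      have : (w * σ) ^ 2 ≤ η / 10 := by rw [hwσ, mul_pow]; linarith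
      have h4 : w ^ 2 * 2 ^ 2 ≤ w ^ 2 * σ ^ 2 :=
        mul_le_mul_of_nonneg_left (pow_le_pow_left₀ (by norm_num) hσ 2) (sq_nonneg w)
      rw [mul_pow] at this; linarith
    have s := near (σ := σ) (γ := g / σ) (ε := w ^ 2 * mm) (E := E) (a := a) (X := X) (Y := Y) hσ
      (by rw [div_le_one hσ0]; linarith) hAn hAu hε0 (by linarith) h1 h2 hδ
    rw [e]
    have k1 : X ^ 2 + Y ^ 2 ≤ 12 * (w ^ 2 * nZ) := by
      rw [hXY]
      have := mul_le_mul hε hW hW0 (by positivity)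
      linarith
    have k2 := mul_le_mul_of_nonneg_left k1 (by positivity : 0 ≤ 19 / η)
    have k3 : 0 ≤ 1 / η * (w ^ 2 * nZ) := mul_nonneg (by positivity) (mul_nonneg (sq_nonneg _) (by linarith))
    have e1 : 19 / η * (12 * (w ^ 2 * nZ)) = 228 * (1 / η * (w ^ 2 * nZ)) := by ring
    have e2 : 300 / η * (w ^ 2 * nZ) = 300 * (1 / η * (w ^ 2 * nZ)) := by ring
    linarith
  · subst h1 h2
    have e1' : A = A0 := by rw [hA]; ring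
    have e2 : A + S = T0 := by rw [hAS]; ring
    have s := core (σ := σ) (γ := g / σ) (ε := w ^ 2 * mm) (E := E) (a := a) (X := X) (Y := Y) hσ
      hA00 hTA hT0 (by linarith) hε0 (by linarith : A0 * (w ^ 2 * mm) ≤ e1) hA1
      (by rw [div_le_iff₀ hσ0]; linarith) hδ
    rw [e2, e1']
    linarith

end PLa

open PLa in
theorem s_PLa : S_PLa := by
  intro n lam t0 T0 e1 hl hl1 ht0 he0 he hT0 hT
  obtain ⟨c₂, hc₂⟩ : ∃ c₂, c₂ = min (T0 / 4) (min 1 (lam * t0 / 24) / 4) := ⟨_, rfl⟩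
  have hc20 : 0 < c₂ := by rw [hc₂]; positivity
  obtain ⟨c₁, hc₁⟩ : ∃ c₁, c₁ = min (1 / 60) (c₂ * lam / 3) := ⟨_, rfl⟩
  have hc10 : 0 < c₁ := by rw [hc₁]; positivity
  have hc1 : c₁ ≤ 1 / 60 := hc₁ ▸ min_le_left _ _
  refine ⟨c₁ / 2, 300, by positivity, by norm_num, ?_⟩
  intro γ m z ζ ζ' Q F v σ g θ χ δ d A S N Er hs hb hm1 hm hz hQ hF hv hσ hlw hθ0 hθ1 hχ0 hχ1 hg hd
    hδ hA hS hN hEr
  have hp : ∀ ξ, 0 ≤ bil γ ξ ξ := fun ξ => by linarith [(hb ξ).1, n2_nonneg ξ]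
  have hσ0 : 0 < σ := by linarith
  have hv0 : 0 < v := by linarith
  have hQ0 : 0 ≤ Q := hz ▸ hp z
  have hpar := n2_par ζ ζ'
  have hV := hb (ζ' - ζ)
  have hW := hb (ζ + ζ')
  have hV0 := n2_nonneg (ζ' - ζ)
  have hW0 := n2_nonneg (ζ + ζ')
  have hα : 0 < F * σ := by positivity
  rcases hQ0.eq_or_lt with h0 | h0
  · subst h0
    have z0 : ∀ ξ, bil γ z ξ = 0 := fun ξ => by
      have := cs hs hp z ξ
      rw [hz, zero_mul] at this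
      exact pow_eq_zero_iff (two_ne_zero) |>.1 (le_antisymm this (sq_nonneg _))
    have hN' : N = F * σ * bil γ (ζ' - ζ) (ζ' - ζ) := by
      rw [hN, nal2_eq hs, bil_comm hs m z]; unfold Nal1; simp [z0]
    have hE0 : 0 ≤ Er := by rw [hEr]; positivity
    have k := mul_nonneg hα.le (hp (ζ' - ζ))
    refine ⟨fun _ => ?_, fun η h1 _ _ _ _ _ => ?_, fun _ _ h => absurd h (lt_irrefl _)⟩
    · have h1 : F * σ / v ≤ F * σ := div_le_self hα.le hv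
      have h2 := mul_le_mul h1 (show n2 (ζ' - ζ) ≤ 2 * bil γ (ζ' - ζ) (ζ' - ζ) by linarith) hV0 hα.le
      have h3 := mul_le_mul hc1 h2 (by positivity) (by norm_num)
      rw [hN']; linarith
    · have := mul_nonneg h1.le k
      rw [hN']; linarith
  · obtain ⟨t, ht, rfl⟩ : ∃ t, 0 < t ∧ Q = t ^ 2 := ⟨√Q, Real.sqrt_pos.2 h0, (Real.sq_sqrt hQ0).symm⟩
    rw [Real.sqrt_sq ht.le] at hlw hδ hEr ⊢
    obtain ⟨w, hw⟩ : ∃ w, w = t * v / σ := ⟨_, rfl⟩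
    have hw0 : 0 ≤ w := by rw [hw]; positivity
    have hδ' : |δ / (σ * t)| ≤ d := by
      rw [abs_div, abs_of_pos (by positivity : 0 < σ * t), div_le_iff₀ (by positivity)]; linarith
    have F3 := fun (E a X Y : ℝ) h1 h2 h3 h4 h5 => fin3 (t0 := t0) (E := E) (a := a) (X := X)
      (Y := Y) (p := √(n2 (ζ' - ζ))) (r := √(n2 ζ + n2 ζ')) (WW := bil γ (ζ + ζ') (ζ + ζ'))
      (nV := n2 (ζ' - ζ)) (nZ := n2 ζ + n2 ζ') hl hl1 he0 he hT0 hT (hc₂ ▸ min_le_left _ _)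
      (hc₂ ▸ min_le_right _ _) hc20 hc1 (hc₁ ▸ min_le_right _ _) hc10.le ht hQ hv hσ hw hlw (hp m)
      hm hθ0 hθ1 hχ0 hχ1 hg hδ' h1 h2 (Real.sqrt_nonneg _) (Real.sqrt_nonneg _) h3 (hp _)
      (by linarith) h4 h5 hA hS
    have hAn : 0 ≤ A ∧ 0 ≤ A + S := by
      have hq0 : 0 ≤ (σ + 2) / (2 * σ) := by positivity
      have hθ2 : 0 ≤ 1 - θ := by linarith
      have hAS : A + S = θ * ((σ + 2) / (2 * σ)) + (1 - θ) * (χ * T0) := by rw [hA, hS]; ring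
      exact ⟨by rw [hA]; positivity, by rw [hAS]; positivity⟩
    obtain ⟨E, a, X, Y, r1, r2, r3, r4, r5⟩ :=
      red (g := g) (δ := δ) hs hp m z ζ ζ' ht hz hF hv0.le hσ0 hAn.1 hAn.2
    rw [← hw] at r3 r4 r5
    rw [← hN] at r5
    have hE : |E| ≤ 2 * √(n2 (ζ' - ζ)) := by
      apply abs_le_of_sq_le_sq' _ (by positivity) |> abs_le.2
      rw [mul_pow, Real.sq_sqrt hV0]; linarith [sq_nonneg a, hV.2]
    have hX : |X| ≤ 4 * (w * √(n2 ζ + n2 ζ')) := by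
      apply abs_le_of_sq_le_sq' _ (by positivity) |> abs_le.2
      rw [mul_pow, mul_pow, Real.sq_sqrt (by linarith)]
      have h1 := mul_le_mul hm (show bil γ (ζ + ζ') (ζ + ζ') ≤ 4 * (n2 ζ + n2 ζ') by linarith)
        (hp _) (by norm_num)
      have h2 := mul_le_mul_of_nonneg_left h1 (sq_nonneg w)
      have h3 : 0 ≤ w ^ 2 * (n2 ζ + n2 ζ') := mul_nonneg (sq_nonneg w) (by linarith)
      linarith [sq_nonneg Y]
    obtain ⟨-, f1, f2, f3⟩ := F3 E a X Y hE hX r4 (by linarith) (by linarith)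
    have hv' : v = w * σ / t := by rw [hw]; field_simp
    have hEr' : Er = F * σ * (300 * d * (√(n2 (ζ' - ζ)) + w * √(n2 ζ + n2 ζ') + d)) := by
      rw [hEr, hw]; ring
    refine ⟨fun H => ?_, fun η h1 h2 h3 h4 h5 _ => ?_, fun h1 h2 _ h3 h4 => ?_⟩
    · refine le_trans (le_of_eq ?_) ((mul_le_mul_of_nonneg_left (f1 H) hα.le).trans r5)
      rw [hEr', hw]; field_simp
    · refine le_trans ?_ ((mul_le_mul_of_nonneg_left (f2 η h1 h2 h3 h4 h5) hα.le).trans r5)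
      have k1 : F * σ * w ^ 2 ≤ t ^ 2 * F * v ^ 2 := by
        have e : t ^ 2 * F * v ^ 2 = F * σ * w ^ 2 * σ := by rw [hw]; field_simp
        rw [e]; exact le_mul_of_one_le_right (by positivity) (by linarith)
      have k2 := mul_le_mul_of_nonneg_left
        (mul_le_mul_of_nonneg_right k1 (show 0 ≤ n2 ζ + n2 ζ' by linarith))
        (by positivity : 0 ≤ 300 / η)
      rw [hEr', ← r1]; linarith
    · refine le_trans (le_of_eq ?_) ((mul_le_mul_of_nonneg_left (f3 h1 h2 h3 h4) hα.le).trans r5)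
      rw [hEr', ← r1, r2, r3, hw]; field_simp; ring



end Vale.Agent.P088
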