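import Vale.Agent.P088.StP

/-!
# P088: scalar inequalities for the model form
-/

noncomputable section
namespace Vale.Agent.P088.PLa

lemma quad {p r s x y : ℝ} (hs : 0 < s) (h : r ^ 2 ≤ p * s) :
    0 ≤ p * x ^ 2 + 2 * r * x * y + s * y ^ 2 := by
  have : 0 ≤ s * (p * x ^ 2 + 2 * r * x * y + s * y ^ 2) := by
    nlinarith [sq_nonneg (r * x + s * y), mul_nonneg (sub_nonneg.2 h) (sq_nonneg x)]
  exact (mul_nonneg_iff_of_pos_left hs).1 this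

/-- The normalized form. -/
def nf (σ γ A T ε E a X Y : ℝ) : ℝ :=
  σ * (E + X) ^ 2 - γ * E ^ 2 + a ^ 2 - 2 * T * X * E - 2 * T * Y * a + A * (Y ^ 2 - X ^ 2) -
    A * ε * (E ^ 2 + a ^ 2)

lemma z1 {σ γ A ε κ u E a X Y : ℝ} (hσ : 2 ≤ σ) (hA1 : 1 / 2 ≤ A) (hA2 : A ≤ 1)
    (hu : 0 ≤ u) (h1 : A + u / 4 ≤ 1 - A * ε) (h2 : γ + A * ε + u / 4 ≤ A) (hκ : 0 < κ)
    (hκ1 : κ ≤ 1 / 12) :
    (2 / 5 * κ + u / 20) * (E ^ 2 + a ^ 2) ≤ nf σ γ A A ε E a X Y + κ * (X ^ 2 + Y ^ 2) := by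
  have e1 : 0 ≤ (1 - A * ε - (2 / 5 * κ + u / 20)) * a ^ 2 + 2 * (-A) * a * Y + (A + κ) * Y ^ 2 := by
    apply quad (by linarith)
    have : A - 2 / 5 * κ ≤ 1 - A * ε - (2 / 5 * κ + u / 20) := by linarith
    nlinarith [mul_le_mul_of_nonneg_right this (by linarith : 0 ≤ A + κ)]
  have e2 : 0 ≤ (σ - γ - A * ε - (2 / 5 * κ + u / 20)) * E ^ 2 + 2 * (σ - A) * E * X +
      (σ - A + κ) * X ^ 2 := by
    apply quad (by linarith)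
    have : σ - A - 2 / 5 * κ ≤ σ - γ - A * ε - (2 / 5 * κ + u / 20) := by linarith
    nlinarith [mul_le_mul_of_nonneg_right this (by linarith : 0 ≤ σ - A + κ)]
  unfold nf; nlinarith

lemma z2 {σ γ A ε c E a X Y : ℝ} (hσ : 2 ≤ σ) (hA1 : 1 / 2 ≤ A) (hA2 : A ≤ 51 / 100)
    (hε : ε ≤ 3 / 16) (hγ : γ ≤ 1 / 10) (hc : c ≤ 1 / 10) :
    c * (E ^ 2 + a ^ 2) ≤ nf σ γ A A ε E a X Y := by
  have hAe : A * ε ≤ 1 / 10 := by nlinarith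
  have e1 : 0 ≤ (1 - A * ε - c) * a ^ 2 + 2 * (-A) * a * Y + A * Y ^ 2 := by
    apply quad (by linarith)
    nlinarith
  have e2 : 0 ≤ (σ - γ - A * ε - c) * E ^ 2 + 2 * (σ - A) * E * X + (σ - A) * X ^ 2 := by
    apply quad (by linarith)
    have : σ - A ≤ σ - γ - A * ε - c := by linarith
    nlinarith [mul_le_mul_of_nonneg_right this (by linarith : 0 ≤ σ - A)]
  unfold nf; nlinarith

lemma perp {A0 T0 e1 χ ε a Y : ℝ} (hA : 0 < A0) (hT : T0 ^ 2 = e1 * A0) (h0 : 0 ≤ χ) (h1 : χ ≤ 1)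
    (hε : 0 ≤ ε) (hAe : A0 * ε ≤ e1) :
    (1 - 2 * e1) * a ^ 2 ≤
      a ^ 2 - 2 * (χ * T0) * Y * a + χ ^ 2 * A0 * Y ^ 2 - χ ^ 2 * A0 * ε * a ^ 2 := by
  have e : 0 ≤ e1 * a ^ 2 + 2 * (-T0) * a * (χ * Y) + A0 * (χ * Y) ^ 2 :=
    quad hA (by nlinarith)
  have hχ : χ ^ 2 ≤ 1 := by nlinarith
  have : χ ^ 2 * (A0 * ε) ≤ e1 := by
    nlinarith [mul_le_mul_of_nonneg_right hχ (mul_nonneg hA.le hε)]
  nlinarith [mul_le_mul_of_nonneg_right this (sq_nonneg a)]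

lemma z3 {σ γ A0 T0 e1 ε c E a X Y : ℝ} (hσ : 2 ≤ σ) (hA : 0 < A0) (hT : T0 ^ 2 = e1 * A0)
    (hT0 : 0 < T0) (hT1 : T0 ≤ 1 / 100) (he : e1 ≤ 1 / 100) (hε : 0 ≤ ε) (hAe : A0 * ε ≤ e1)
    (hA1 : A0 * (1 + ε) ≤ T0 / 25) (hγ : γ ≤ T0 / 4) (hc : c ≤ T0 / 4) :
    c * (E ^ 2 + a ^ 2) ≤ nf σ γ A0 T0 ε E a X Y := by
  have p := perp (a := a) (Y := Y) hA hT zero_le_one le_rfl hε hAe
  have hAe0 : 0 ≤ A0 * ε := mul_nonneg hA.le hε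
  have e2 : 0 ≤ (σ - γ - A0 * ε - c) * E ^ 2 + 2 * (σ - T0) * E * X + (σ - A0) * X ^ 2 := by
    apply quad (by linarith)
    have h1 : σ - 3 / 5 * T0 ≤ σ - γ - A0 * ε - c := by linarith
    have h2 : σ - T0 / 25 ≤ σ - A0 := by linarith
    have := mul_le_mul h1 h2 (by linarith) (by linarith)
    nlinarith
  unfold nf; nlinarith [sq_nonneg a]

lemma det4 {σ γ τ κ : ℝ} (hσ : 100 ≤ σ) (hγ : γ * σ ≤ 2) (hγ0 : 0 ≤ γ) (hγ1 : γ ≤ 1 / 50)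
    (hκ : 0 < κ) (hκ1 : κ ≤ 1) (hκσ : 40 ≤ κ * σ) (hτ0 : 0 ≤ τ) (hτ1 : τ ≤ 1 / 100) :
    (σ - τ) ^ 2 ≤ (σ - γ - τ / 25 - κ / 4) * (σ - τ / 25 + κ) := by
  have a1 : γ * κ ≤ 1 := mul_le_one₀ (by linarith) hκ.le hκ1
  have a2 : τ * κ ≤ 1 := mul_le_one₀ (by linarith) hκ.le hκ1
  have a3 : κ * κ ≤ 1 := mul_le_one₀ hκ1 hκ.le hκ1
  have a4 : τ * τ ≤ τ * σ := mul_le_mul_of_nonneg_left (by linarith) hτ0
  have a5 : 0 ≤ γ * τ := mul_nonneg hγ0 hτ0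
  have a6 : 0 ≤ τ * κ := mul_nonneg hτ0 hκ.le
  have a7 : 0 ≤ τ * σ := mul_nonneg hτ0 (by linarith)
  have a8 : 0 ≤ τ * τ := mul_nonneg hτ0 hτ0
  have e : (σ - γ - τ / 25 - κ / 4) * (σ - τ / 25 + κ) - (σ - τ) ^ 2 =
      48 / 25 * (τ * σ) + 3 / 4 * (κ * σ) - γ * σ + γ * τ / 25 - γ * κ + τ * τ / 625 -
        3 / 100 * (τ * κ) - κ * κ / 4 - τ * τ := by ring
  linarith

lemma z4 {σ γ A0 T0 e1 χ ε κ c E a X Y : ℝ} (hσ : 100 ≤ σ) (hA : 0 < A0) (hT : T0 ^ 2 = e1 * A0)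
    (hT0 : 0 < T0) (hT1 : T0 ≤ 1 / 100) (he : e1 ≤ 1 / 100) (hε : 0 ≤ ε) (hAe : A0 * ε ≤ e1)
    (hA1 : A0 * (1 + ε) ≤ T0 / 25) (h0 : 0 ≤ χ) (h1 : χ ≤ 1) (hγ : γ * σ ≤ 2) (hγ0 : 0 ≤ γ)
    (hκ : 0 < κ) (hκ1 : κ ≤ 1) (hκσ : 40 ≤ κ * σ) (hc : c ≤ κ / 4) :
    c * (E ^ 2 + a ^ 2) ≤ nf σ γ (χ ^ 2 * A0) (χ * T0) ε E a X Y + κ * (X ^ 2 + Y ^ 2) := by
  have p := perp (a := a) (Y := Y) hA hT h0 h1 hε hAe
  have hχ : χ ^ 2 ≤ χ := by nlinarith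
  have hτ0 : 0 ≤ χ * T0 := mul_nonneg h0 hT0.le
  have hτ1 : χ * T0 ≤ 1 / 100 := (mul_le_of_le_one_left hT0.le h1).trans hT1
  have hb : χ ^ 2 * A0 + χ ^ 2 * A0 * ε ≤ χ * T0 / 25 := by
    have := mul_le_mul hχ hA1 (by positivity) h0
    linarith
  have hb1 : 0 ≤ χ ^ 2 * A0 := by positivity
  have hb2 : 0 ≤ χ ^ 2 * A0 * ε := by positivity
  have hγ1 : γ ≤ 1 / 50 := by
    have := mul_le_mul_of_nonneg_left hσ hγ0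
    linarith
  have e2 : 0 ≤ (σ - γ - χ ^ 2 * A0 * ε - c) * E ^ 2 + 2 * (σ - χ * T0) * E * X +
      (σ - χ ^ 2 * A0 + κ) * X ^ 2 := by
    apply quad (by linarith)
    have h1 : σ - γ - χ * T0 / 25 - κ / 4 ≤ σ - γ - χ ^ 2 * A0 * ε - c := by linarith
    have h2 : σ - χ * T0 / 25 + κ ≤ σ - χ ^ 2 * A0 + κ := by linarith
    exact (det4 hσ hγ hγ0 hγ1 hκ hκ1 hκσ hτ0 hτ1).trans
      (mul_le_mul h1 h2 (by linarith) (by linarith))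
  have b1 : c * a ^ 2 ≤ (1 - 2 * e1) * a ^ 2 :=
    mul_le_mul_of_nonneg_right (by linarith) (sq_nonneg _)
  have b2 : 0 ≤ κ * Y ^ 2 := by positivity
  unfold nf; linarith

/-- The form with the shift. -/
def nd (σ γ A T ε E a X Y δ : ℝ) : ℝ :=
  σ * (E + X + δ) ^ 2 - γ * E ^ 2 + a ^ 2 - 2 * T * X * E - 2 * T * Y * a + A * (Y ^ 2 - X ^ 2) -
    A * ε * (E ^ 2 + a ^ 2)

lemma mul_abs_le {x y p q : ℝ} (hx : |x| ≤ p) (hy : |y| ≤ q) : |x * y| ≤ p * q := by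
  rw [abs_mul]; exact mul_le_mul hx hy (abs_nonneg _) ((abs_nonneg _).trans hx)

lemma shift {σ γ A T ε κ E a X Y δ d : ℝ} (hA0 : 0 ≤ A) (hA : A ≤ 1) (hT0 : 0 ≤ T) (hT : T ≤ 1)
    (hκ0 : 0 ≤ κ) (hκ : κ ≤ 1) (hδ : |δ| ≤ d) :
    nf σ γ A T ε E a (X + δ) Y + κ * ((X + δ) ^ 2 + Y ^ 2) - d * (2 * |E| + 4 * |X| + d) ≤
      nd σ γ A T ε E a X Y δ + κ * (X ^ 2 + Y ^ 2) := by
  have h1 : |T * (δ * E)| ≤ 1 * (d * |E|) :=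
    mul_abs_le (by rw [abs_of_nonneg hT0]; exact hT) (mul_abs_le hδ le_rfl)
  have h2 : |A * (δ * X)| ≤ 1 * (d * |X|) :=
    mul_abs_le (by rw [abs_of_nonneg hA0]; exact hA) (mul_abs_le hδ le_rfl)
  have h3 : |κ * (δ * X)| ≤ 1 * (d * |X|) :=
    mul_abs_le (by rw [abs_of_nonneg hκ0]; exact hκ) (mul_abs_le hδ le_rfl)
  have h4 : |κ * (δ * δ)| ≤ 1 * (d * d) :=
    mul_abs_le (by rw [abs_of_nonneg hκ0]; exact hκ) (mul_abs_le hδ hδ)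
  have h5 : 0 ≤ A * δ ^ 2 := by positivity
  have := abs_le.1 h1; have := abs_le.1 h2; have := abs_le.1 h3; have := abs_le.1 h4
  unfold nf nd; nlinarith

lemma near {σ γ A ε η E a X Y δ d : ℝ} (hσ : 2 ≤ σ) (hγ : γ ≤ 1) (hA0 : 0 ≤ A) (hA : A ≤ 1)
    (hε0 : 0 ≤ ε) (hε : ε ≤ η / 2) (hη : 0 < η) (hη1 : η ≤ 1) (hδ : |δ| ≤ d) :
    (1 - η) * (E ^ 2 + a ^ 2) - 19 / η * (X ^ 2 + Y ^ 2) - d * (4 * |E|) ≤
      nd σ γ A A ε E a X Y δ := by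
  have h1 : |δ * E| ≤ d * |E| := mul_abs_le hδ le_rfl
  have := abs_le.1 h1
  have hi : 1 ≤ 1 / η := by rw [le_div_iff₀ hη]; linarith
  have q1 : 0 ≤ η / 2 * E ^ 2 + 2 * (2 - A) * E * X + 18 / η * X ^ 2 := by
    apply quad (by positivity)
    have : η / 2 * (18 / η) = 9 := by field_simp; ring
    nlinarith
  have q2 : 0 ≤ η / 2 * a ^ 2 + 2 * (-A) * a * Y + 18 / η * Y ^ 2 := by
    apply quad (by positivity)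
    have : η / 2 * (18 / η) = 9 := by field_simp; ring
    nlinarith
  have h2 : 2 * (E + X + δ) ^ 2 ≤ σ * (E + X + δ) ^ 2 := by nlinarith [sq_nonneg (E + X + δ)]
  have h3 : γ * E ^ 2 ≤ E ^ 2 := by nlinarith [sq_nonneg E]
  have h4 : A * ε * (E ^ 2 + a ^ 2) ≤ η / 2 * (E ^ 2 + a ^ 2) := by
    apply mul_le_mul_of_nonneg_right _ (by positivity); nlinarith
  have h5 : A * X ^ 2 ≤ 1 / η * X ^ 2 := mul_le_mul_of_nonneg_right (by linarith) (sq_nonneg _)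
  have h6 : 0 ≤ A * Y ^ 2 := by positivity
  have h7 : 0 ≤ 1 / η * Y ^ 2 := by positivity
  have e : 19 / η = 18 / η + 1 / η := by ring
  rw [e]; unfold nd; nlinarith [sq_nonneg (X + δ)]

lemma core {σ γ A0 T0 e1 ε E a X Y δ d : ℝ} (hσ : 2 ≤ σ) (hA : 0 < A0) (hT : T0 ^ 2 = e1 * A0)
    (hT0 : 0 < T0) (hT1 : T0 ≤ 1 / 100) (hε : 0 ≤ ε) (hAe : A0 * ε ≤ e1)
    (hA1 : A0 * (1 + ε) ≤ T0 / 25) (hγ : γ ≤ T0 / 4) (hδ : |δ| ≤ d) :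
    (1 - 2 * e1) * a ^ 2 + σ * (E + X + δ) ^ 2 / 2 - d * (2 * |E| + d) ≤
      nd σ γ A0 T0 ε E a X Y δ := by
  have p := perp (a := a) (Y := Y) hA hT zero_le_one le_rfl hε hAe
  have hAe0 : 0 ≤ A0 * ε := mul_nonneg hA.le hε
  have h1 : |T0 * (δ * E)| ≤ 1 * (d * |E|) :=
    mul_abs_le (by rw [abs_of_nonneg hT0.le]; linarith) (mul_abs_le hδ le_rfl)
  have := abs_le.1 h1
  have h4 : |δ * δ| ≤ d * d := mul_abs_le hδ hδ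
  have := abs_le.1 h4
  obtain ⟨Δ, hΔ⟩ : ∃ Δ, Δ = E + X + δ := ⟨_, rfl⟩
  have hX : X = Δ - E - δ := by linarith
  have h2 : A0 * X ^ 2 ≤ T0 / 25 * (3 * (Δ ^ 2 + E ^ 2 + δ ^ 2)) := by
    apply mul_le_mul (by linarith) _ (sq_nonneg _) (by linarith)
    rw [hX]; nlinarith [sq_nonneg (Δ + E), sq_nonneg (Δ + δ), sq_nonneg (E - δ)]
  have h3 : (γ + A0 * ε) * E ^ 2 ≤ 3 / 10 * T0 * E ^ 2 :=
    mul_le_mul_of_nonneg_right (by linarith) (sq_nonneg _)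
  have h5 : T0 * Δ ^ 2 ≤ 1 / 100 * Δ ^ 2 := mul_le_mul_of_nonneg_right hT1 (sq_nonneg _)
  have h6 : T0 * δ ^ 2 ≤ 1 / 100 * δ ^ 2 := mul_le_mul_of_nonneg_right hT1 (sq_nonneg _)
  have h7 : 2 * Δ ^ 2 ≤ σ * Δ ^ 2 := mul_le_mul_of_nonneg_right hσ (sq_nonneg _)
  have h8 : 0 ≤ T0 * (Δ - E) ^ 2 := by positivity
  have h9 : 0 ≤ T0 * E ^ 2 := by positivity
  have h10 : T0 * X * E = T0 * Δ * E - T0 * E ^ 2 - T0 * (δ * E) := by rw [hX]; ring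
  unfold nd; rw [← hΔ]; nlinarith [sq_nonneg δ, sq_nonneg Δ]

end Vale.Agent.P088.PLa
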