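import Vale.Agent.P088.PLa1

/-!
# P088: reduction of the model form to scalar variables
-/

noncomputable section
namespace Vale.Agent.P088.PLa

variable {n : ℕ} {γ : Fin n → Fin n → ℝ}

lemma bil_comm (hs : ∀ i j, γ i j = γ j i) (a b : Fin n → ℝ) : bil γ a b = bil γ b a := by
  unfold bil; rw [Finset.sum_comm]
  exact Finset.sum_congr rfl fun i _ => Finset.sum_congr rfl fun j _ => by rw [hs j i]; ring

lemma bil_lin (a b d : Fin n → ℝ) (x y : ℝ) :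
    bil γ a (fun i => x * b i + y * d i) = x * bil γ a b + y * bil γ a d := by
  unfold bil
  simp only [Finset.mul_sum, ← Finset.sum_add_distrib]
  exact Finset.sum_congr rfl fun i _ => Finset.sum_congr rfl fun j _ => by ring

lemma bil_lin' (a b d : Fin n → ℝ) (x y : ℝ) :
    bil γ (fun i => x * b i + y * d i) a = x * bil γ b a + y * bil γ d a := by
  unfold bil
  simp only [Finset.mul_sum, ← Finset.sum_add_distrib]
  exact Finset.sum_congr rfl fun i _ => Finset.sum_congr rfl fun j _ => by ring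

lemma bil_sq (hs : ∀ i j, γ i j = γ j i) (b d : Fin n → ℝ) (x y : ℝ) :
    bil γ (fun i => x * b i + y * d i) (fun i => x * b i + y * d i) =
      x ^ 2 * bil γ b b + 2 * x * y * bil γ b d + y ^ 2 * bil γ d d := by
  rw [bil_lin, bil_lin', bil_lin', bil_comm hs d b]; ring

lemma cs (hs : ∀ i j, γ i j = γ j i) (hp : ∀ ξ, 0 ≤ bil γ ξ ξ) (a b : Fin n → ℝ) :
    bil γ a b ^ 2 ≤ bil γ a a * bil γ b b := by
  have h : ∀ x : ℝ, 0 ≤ bil γ a a * (x * x) + 2 * bil γ a b * x + bil γ b b := fun x => by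
    have := hp (fun i => x * a i + 1 * b i)
    rw [bil_sq hs] at this; linarith
  have := discrim_le_zero h
  unfold discrim at this; nlinarith

lemma add_eq (a b : Fin n → ℝ) : a + b = fun i => 1 * a i + 1 * b i := by
  funext i; simp
lemma sub_eq (a b : Fin n → ℝ) : b - a = fun i => (-1) * a i + 1 * b i := by
  funext i; simp; ring

/-- Cauchy-Schwarz for two-vectors. -/
lemma wedge (hs : ∀ i j, γ i j = γ j i) (hp : ∀ ξ, 0 ≤ bil γ ξ ξ) (m z W V : Fin n → ℝ)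
    (hQ : 0 < bil γ z z) :
    (bil γ m z * bil γ W V - bil γ m V * bil γ z W) ^ 2 ≤
      (bil γ m m * bil γ W W - bil γ m W ^ 2) * (bil γ z z * bil γ V V - bil γ z V ^ 2) := by
  have c1 := cs hs hp (fun i => bil γ m z * W i + (-bil γ z W) * m i)
    (fun i => bil γ z z * V i + (-bil γ z V) * z i)
  have c2 := cs hs hp (fun i => bil γ z z * m i + (-bil γ m z) * z i)
    (fun i => bil γ z z * W i + (-bil γ z W) * z i)
  have c3 := cs hs hp z V
  rw [bil_sq hs, bil_sq hs, bil_lin, bil_lin', bil_lin'] at c1 c2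
  rw [bil_comm hs W m, bil_comm hs V z, bil_comm hs W z] at c1
  rw [bil_comm hs W z] at c2
  generalize bil γ z z = Q at *
  generalize bil γ m z = mz at *
  generalize bil γ W V = WV at *
  generalize bil γ m V = mV at *
  generalize bil γ z W = zW at *
  generalize bil γ m m = mm at *
  generalize bil γ W W = WW at *
  generalize bil γ m W = X at *
  generalize bil γ V V = VV at *
  generalize bil γ z V = zV at *
  have g3 : mz ^ 2 * WW - 2 * mz * zW * X + zW ^ 2 * mm ≤ Q * (mm * WW - X ^ 2) := by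
    have : 0 ≤ Q ^ 3 * (Q * (mm * WW - X ^ 2) - (mz ^ 2 * WW - 2 * mz * zW * X + zW ^ 2 * mm)) := by
      nlinarith
    have := (mul_nonneg_iff_of_pos_left (by positivity : 0 < Q ^ 3)).1 this
    linarith
  have h4 : 0 ≤ Q * (Q * VV - zV ^ 2) := mul_nonneg hQ.le (by linarith)
  have h5 := mul_le_mul_of_nonneg_right g3 h4
  have : Q ^ 2 * (mz * WV - mV * zW) ^ 2 ≤ Q ^ 2 * ((mm * WW - X ^ 2) * (Q * VV - zV ^ 2)) := by
    nlinarith
  exact le_of_mul_le_mul_left this (by positivity)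

lemma nal2_eq (hs : ∀ i j, γ i j = γ j i) (m z ζ ζ' : Fin n → ℝ) (Q F v σ A S : ℝ) :
    Nal2 γ m z ζ ζ' Q F v σ A S =
      2 * v * A / σ * (Q * F * v) *
          (bil γ m m * (bil γ (ζ + ζ') (ζ + ζ') + bil γ (ζ' - ζ) (ζ' - ζ)) / 2 -
            bil γ m (ζ + ζ') ^ 2 - bil γ m (ζ' - ζ) ^ 2) +
        (2 * v * A / σ * (F * σ) + 2 * F * v * S) *
          (bil γ m z * bil γ (ζ + ζ') (ζ' - ζ) - bil γ m (ζ' - ζ) * bil γ z (ζ + ζ') -
            bil γ m (ζ + ζ') * bil γ z (ζ' - ζ)) := by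
  have e : (fun i => Q * F * v * m i - F * σ * z i) =
      fun i => Q * F * v * m i + (-(F * σ)) * z i := by funext i; ring
  unfold Nal2 qf
  rw [e, add_eq, sub_eq]
  simp only [bil_lin, bil_lin', bil_comm hs ζ' ζ]
  ring

lemma red (hs : ∀ i j, γ i j = γ j i) (hp : ∀ ξ, 0 ≤ bil γ ξ ξ) (m z ζ ζ' : Fin n → ℝ)
    {t F v σ g δ A S : ℝ} (ht : 0 < t) (hz : bil γ z z = t ^ 2) (hF : 0 < F) (hv : 0 ≤ v)
    (hσ : 0 < σ) (hA : 0 ≤ A) (hT : 0 ≤ A + S) :
    ∃ E a X Y : ℝ, E ^ 2 + a ^ 2 = bil γ (ζ' - ζ) (ζ' - ζ) ∧ bil γ z (ζ' - ζ) = t * E ∧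
      X = t * v / σ * bil γ m (ζ + ζ') ∧
      X ^ 2 + Y ^ 2 = (t * v / σ) ^ 2 * bil γ m m * bil γ (ζ + ζ') (ζ + ζ') ∧
      F * σ * (nd σ (g / σ) A (A + S) ((t * v / σ) ^ 2 * bil γ m m) E a X Y (δ / (σ * t)) +
        t * (t * v / σ) / 4 * bil γ (ζ + ζ') (ζ + ζ')) ≤
      Nal1 γ m z ζ ζ' (t ^ 2) F v σ g δ + Nal2 γ m z ζ ζ' (t ^ 2) F v σ A S := by
  have w1 := wedge hs hp m z (ζ + ζ') (ζ' - ζ) (by rw [hz]; positivity)
  have c1 := cs hs hp z (ζ' - ζ)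
  have c2 := cs hs hp m (ζ + ζ')
  have c3 := cs hs hp m (ζ' - ζ)
  rw [nal2_eq hs]; unfold Nal1
  rw [hz] at w1 c1
  generalize bil γ m z = mz at *
  generalize bil γ (ζ + ζ') (ζ' - ζ) = WV at *
  generalize bil γ m (ζ' - ζ) = mV at *
  generalize bil γ z (ζ + ζ') = zW at *
  generalize bil γ m m = mm at *
  generalize bil γ (ζ + ζ') (ζ + ζ') = WW at *
  generalize bil γ m (ζ + ζ') = X0 at *
  generalize bil γ (ζ' - ζ) (ζ' - ζ) = VV at *
  generalize bil γ z (ζ' - ζ) = zV at *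
  obtain ⟨E, hE⟩ : ∃ E, zV = t * E := ⟨zV / t, by field_simp⟩
  subst hE
  have ha0 : 0 ≤ VV - E ^ 2 := by
    have : 0 ≤ t ^ 2 * (VV - E ^ 2) := by nlinarith
    exact (mul_nonneg_iff_of_pos_left (by positivity)).1 this
  obtain ⟨a, ha, ha2⟩ : ∃ a, 0 ≤ a ∧ a ^ 2 = VV - E ^ 2 := ⟨√_, Real.sqrt_nonneg _, Real.sq_sqrt ha0⟩
  obtain ⟨Y0, hY, hY2⟩ : ∃ Y0, 0 ≤ Y0 ∧ Y0 ^ 2 = mm * WW - X0 ^ 2 :=
    ⟨√_, Real.sqrt_nonneg _, Real.sq_sqrt (by linarith)⟩
  obtain ⟨K, hK⟩ : ∃ K, K = mz * WV - mV * zW := ⟨_, rfl⟩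
  have hK1 : -(Y0 * (t * a)) ≤ K := by
    have : K ^ 2 ≤ (Y0 * (t * a)) ^ 2 := by
      rw [hK, mul_pow, mul_pow, hY2, ha2]; nlinarith
    exact (abs_le.1 (abs_le_of_sq_le_sq' this (by positivity) |> abs_le.2)).1
  obtain ⟨w, hw⟩ : ∃ w, w = t * v / σ := ⟨_, rfl⟩
  have hw0 : 0 ≤ w := by rw [hw]; positivity
  have hv' : v = w * σ / t := by rw [hw]; field_simp
  obtain ⟨δ', hδ'⟩ : ∃ δ', δ = σ * t * δ' := ⟨δ / (σ * t), by field_simp⟩
  obtain ⟨γ', hγ'⟩ : ∃ γ', g = σ * γ' := ⟨g / σ, by field_simp⟩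
  have hVV : VV = E ^ 2 + a ^ 2 := by linarith
  refine ⟨E, a, w * X0, w * Y0, hVV.symm, rfl, by rw [hw], ?_, ?_⟩
  · rw [← hw, mul_pow, mul_pow, hY2]; ring
  · rw [← hw, ← hK]
    have e1 : δ / (σ * t) = δ' := by rw [hδ']; field_simp
    have e2 : g / σ = γ' := by rw [hγ']; field_simp
    rw [e1, e2]
    have k1 : 0 ≤ F * σ * (2 * A * w ^ 2 * (mm * VV - mV ^ 2)) :=
      mul_nonneg (by positivity) (mul_nonneg (by positivity) (by linarith))
    have k2 : 0 ≤ F * σ * (2 * (A + S) * w / t * (K + Y0 * (t * a))) :=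
      mul_nonneg (by positivity) (mul_nonneg (by positivity) (by linarith))
    have hmW : mm * WW = X0 ^ 2 + Y0 ^ 2 := by linarith
    have key : F / t ^ 2 * ((t ^ 2 * v * X0 + σ * (t * E) + δ) ^ 2 - (σ + g) * (t * E) ^ 2) +
          F * σ * VV + t ^ 2 * F * v / 4 * WW +
        (2 * v * A / σ * (t ^ 2 * F * v) * (mm * (WW + VV) / 2 - X0 ^ 2 - mV ^ 2) +
          (2 * v * A / σ * (F * σ) + 2 * F * v * S) * (K - X0 * (t * E))) =
        F * σ * (nd σ γ' A (A + S) (w ^ 2 * mm) E a (w * X0) (w * Y0) δ' + t * w / 4 * WW) +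
          F * σ * (2 * A * w ^ 2 * (mm * VV - mV ^ 2)) +
          F * σ * (2 * (A + S) * w / t * (K + Y0 * (t * a))) +
          F * σ * A * w ^ 2 * (mm * WW - (X0 ^ 2 + Y0 ^ 2)) := by
      rw [hv', hδ', hγ', hVV]; unfold nd; field_simp; ring
    rw [key, hmW]; linarith

end Vale.Agent.P088.PLa
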