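import Vale.Agent.P088.StP

/-!
# P088: assembly of the pointwise lower bound
-/

open MeasureTheory Set Metric
open scoped ContDiff Topology

noncomputable section
namespace Vale.Agent.P088
open Vale.Agent.P136 (D Dp Dm Sm Tst)

namespace PLm

section alg
variable {n : ℕ}

lemma bil_symm {γ : Fin n → Fin n → ℝ} (h : ∀ i j, γ i j = γ j i) (a b : Fin n → ℝ) :
    bil γ a b = bil γ b a := by
  unfold bil
  rw [Finset.sum_comm]
  refine Finset.sum_congr rfl fun i _ => Finset.sum_congr rfl fun j _ => ?_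
  rw [h j i]; ring

lemma n2_nonneg (ζ : Fin n → ℝ) : 0 ≤ n2 ζ := Finset.sum_nonneg fun _ _ => sq_nonneg _

lemma n2_sub (ζ ζ' : Fin n → ℝ) : n2 (ζ' - ζ) ≤ 2 * (n2 ζ + n2 ζ') := by
  unfold n2
  rw [← Finset.sum_add_distrib, Finset.mul_sum]
  refine Finset.sum_le_sum fun i _ => ?_
  rw [Pi.sub_apply]
  nlinarith [sq_nonneg (ζ' i + ζ i)]

lemma bil_exp (γ : Fin n → Fin n → ℝ) (a z : Fin n → ℝ) (t : ℝ) :
    bil γ (fun i => a i - t * z i) (fun i => a i - t * z i) =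
      bil γ a a - t * bil γ a z - t * bil γ z a + t ^ 2 * bil γ z z := by
  unfold bil
  simp only [Finset.mul_sum, ← Finset.sum_sub_distrib, ← Finset.sum_add_distrib]
  refine Finset.sum_congr rfl fun i _ => Finset.sum_congr rfl fun j _ => ?_
  ring

lemma cs {γ : Fin n → Fin n → ℝ} (h : ∀ i j, γ i j = γ j i) (hp : ∀ ξ, 0 ≤ bil γ ξ ξ)
    (a z : Fin n → ℝ) {Q : ℝ} (hQ : bil γ z z = Q) (h0 : 0 < Q) :
    0 ≤ bil γ a a - bil γ z a ^ 2 / Q := by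
  have h1 := hp fun i => a i - bil γ z a / Q * z i
  rw [bil_exp, bil_symm h a z, hQ] at h1
  have e : bil γ a a - bil γ z a / Q * bil γ z a - bil γ z a / Q * bil γ z a +
      (bil γ z a / Q) ^ 2 * Q = bil γ a a - bil γ z a ^ 2 / Q := by
    field_simp; ring
  rwa [e] at h1

lemma qco_eq (v : Fin n → X2 n) (γ : Fin n → Fin n → X2 n → ℝ) (φ : X2 n → ℝ)
    (P : Fin n → X2 n → ℝ) (p : X2 n) (a ζ : Fin n → ℝ) (h : ∀ i j, γ i j p = γ j i p)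
    (hP : ∀ i, P i p = up (fun i j => γ i j p) a i) :
    ∑ i, ∑ k, Qco v γ φ P i k p * ζ i * ζ k = 8 * HC v γ φ p ζ +
      8 * qf (fun i j => γ i j p) a (fun i => D (v i) φ p) ζ + dP v γ P p ζ := by
  have e1 : dir v P φ p = bil (fun i j => γ i j p) a fun i => D (v i) φ p := by
    rw [bil_symm h]
    unfold dir bil
    refine Finset.sum_congr rfl fun i _ => ?_
    rw [hP, up, Finset.sum_mul]
    exact Finset.sum_congr rfl fun j _ => by ring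
  have e2 : ∑ i, XX v γ φ i p * ζ i = bil (fun i j => γ i j p) (fun i => D (v i) φ p) ζ := by
    rw [bil_symm h]
    unfold XX bil
    refine Finset.sum_congr rfl fun i _ => ?_
    rw [Finset.sum_mul]
    exact Finset.sum_congr rfl fun j _ => by ring
  have e3 : ∑ i, P i p * ζ i = bil (fun i j => γ i j p) a ζ := by
    rw [bil_symm h]
    unfold bil
    refine Finset.sum_congr rfl fun i _ => ?_
    rw [hP, up, Finset.sum_mul]
    exact Finset.sum_congr rfl fun j _ => by ring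
  have e4 : bil (fun i j => γ i j p) a ζ * bil (fun i j => γ i j p) (fun i => D (v i) φ p) ζ =
      ∑ i, ∑ k, (XX v γ φ i p * ζ i) * (P k p * ζ k) := by
    rw [← e2, ← e3, mul_comm, Finset.sum_mul_sum]
  have e5 : qf (fun i j => γ i j p) a (fun i => D (v i) φ p) ζ =
      ∑ i, ∑ k, (dir v P φ p * (γ i k p * ζ i * ζ k) -
        2 * ((XX v γ φ i p * ζ i) * (P k p * ζ k))) := by
    unfold qf
    rw [mul_assoc, e4, ← e1]
    simp only [Finset.sum_sub_distrib, ← Finset.mul_sum]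
    rfl
  rw [e5]
  unfold HC dP
  simp only [Finset.mul_sum, ← Finset.sum_add_distrib]
  refine Finset.sum_congr rfl fun i _ => Finset.sum_congr rfl fun k _ => ?_
  simp only [← Finset.mul_sum]
  unfold Qco
  ring

end alg

lemma hq_eq {n : ℕ} {ι : Type} (f : Fx) (c : Cx n ι) (h1 : SymM c.γ₁) (h2 : SymM c.γ₂) (p : X2 n)
    (ζ ζ' : Fin n → ℝ) : HQ f c p ζ ζ' = 8 * H2 c (phi f c) p ζ ζ' +
      8 * (qf (g1 c p) (pcx f c p) (dx (phi f c) p) ζ +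
        qf (g2 c p) (pcy f c p) (dyy (phi f c) p) ζ') +
      (dP ex (onX c.γ₁) (Px f c) p ζ + dP ey (onY c.γ₂) (Py f c) p ζ') := by
  have a := qco_eq ex (onX c.γ₁) (phi f c) (Px f c) p (pcx f c p) ζ
    (fun i j => congrFun (h1 i j) p.1) fun _ => rfl
  have b := qco_eq ey (onY c.γ₂) (phi f c) (Py f c) p (pcy f c p) ζ'
    (fun i j => congrFun (h2 i j) p.2) fun _ => rfl
  unfold HQ H2
  rw [a, b]
  have e1 : (fun i j => onX c.γ₁ i j p) = g1 c p := rfl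
  have e2 : (fun i j => onY c.γ₂ i j p) = g2 c p := rfl
  have e3 : (fun i => D (ex i) (phi f c) p) = dx (phi f c) p := rfl
  have e4 : (fun i => D (ey i) (phi f c) p) = dyy (phi f c) p := rfl
  rw [e1, e2, e3, e4]
  ring

lemma cut_one {s : ℝ} (h : s ≤ 1) : cut s = 1 :=
  Real.smoothTransition.one_of_one_le (by linarith)

lemma cut_zero {s : ℝ} (h : 2 ≤ s) : cut s = 0 :=
  Real.smoothTransition.zero_of_nonpos (by linarith)

lemma cut_nonneg (s : ℝ) : 0 ≤ cut s := Real.smoothTransition.nonneg _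

lemma cut_le (s : ℝ) : cut s ≤ 1 := Real.smoothTransition.le_one _

lemma t1_bd {Q F v σ s w q : ℝ} (hq0 : 0 ≤ q) (hq : q ^ 2 = Q) (hF : 0 < F) (hv : 1 ≤ v)
    (hs : 2 ≤ σ) (h2 : σ ≤ 3 + 8 * v * q) (hs0 : 0 ≤ s) (hw0 : 0 ≤ w) (hw : w ≤ 2 * s) :
    F * σ * q * s * w ≤ 64 * (Q * F * v * s ^ 2 + F * σ / v * w ^ 2) := by
  have hv0 : 0 < v := by linarith
  have hQ : 0 ≤ Q := hq ▸ sq_nonneg q
  have hA : 0 ≤ Q * F * v * s ^ 2 := by positivity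
  have hB : 0 ≤ F * σ / v * w ^ 2 := by
    have : 0 ≤ σ := by linarith
    positivity
  rcases le_or_gt σ 4 with h | h
  · have hal : 0 ≤ F * σ / v := by
      have : 0 ≤ σ := by linarith
      positivity
    have e : F * σ / v * (w - v * q * s) ^ 2 =
        F * σ / v * w ^ 2 - 2 * (F * σ * q * s * w) + σ * (Q * F * v * s ^ 2) := by
      rw [← hq]; field_simp; ring
    have h3 : 0 ≤ F * σ / v * (w - v * q * s) ^ 2 := mul_nonneg hal (sq_nonneg _)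
    have h4 : σ * (Q * F * v * s ^ 2) ≤ 4 * (Q * F * v * s ^ 2) :=
      mul_le_mul_of_nonneg_right h hA
    linarith
  · have h3 : σ ≤ 32 * (v * q) := by nlinarith
    have h4 : F * σ * q * s * w ≤ F * (32 * (v * q)) * q * s * (2 * s) := by
      have : 0 ≤ σ := by linarith
      gcongr
    have e : F * (32 * (v * q)) * q * s * (2 * s) = 64 * (Q * F * v * s ^ 2) := by
      rw [← hq]; ring
    linarith

lemma t5_bd {ε Q F v σ s q R : ℝ} (he : 0 < ε) (he1 : ε ≤ 1) (hq0 : 0 ≤ q) (hq : q ^ 2 = Q)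
    (hQ : Q ≤ 2) (hF : 0 < F) (hv : 1 ≤ v) (hs : 2 ≤ σ) (h2 : σ ≤ 3 + 8 * v * q)
    (hA1 : ε * (Q * F * v * s ^ 2) ≤ R) : ε * (ε * (F * σ * Q * s ^ 2)) ≤ 15 * R := by
  have hQ0 : 0 ≤ Q := hq ▸ sq_nonneg q
  have hσ : 0 < σ := by linarith
  have hq2 : q ≤ 3 / 2 := by nlinarith
  have hσv : σ ≤ 15 * v := by nlinarith
  have h3 : F * σ * Q * s ^ 2 ≤ F * (15 * v) * Q * s ^ 2 := by gcongr
  have h5 : ε * (F * σ * Q * s ^ 2) ≤ 15 * R := by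
    have := mul_le_mul_of_nonneg_left h3 he.le
    linarith
  have h6 : 0 ≤ ε * (F * σ * Q * s ^ 2) := by positivity
  exact (mul_le_of_le_one_left h6 he1).trans h5

lemma t7_bd {ε F σ b s q : ℝ} (hF : 0 < F) (hs : 2 ≤ σ) :
    F * σ * (ε * q + b) ^ 2 * s ^ 2 ≤
      2 * (ε * (ε * (F * σ * q ^ 2 * s ^ 2))) + 2 * (b * (F * σ * b * s ^ 2)) := by
  have hσ : 0 < σ := by linarith
  have h3 : 0 ≤ F * σ * s ^ 2 * (ε * q - b) ^ 2 := by positivity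
  have e : 2 * (ε * (ε * (F * σ * q ^ 2 * s ^ 2))) + 2 * (b * (F * σ * b * s ^ 2)) =
    F * σ * (ε * q + b) ^ 2 * s ^ 2 + F * σ * s ^ 2 * (ε * q - b) ^ 2 := by ring
  linarith

lemma er_bd {C1 lam ε Q F v σ b s w q : ℝ} (hC : 1 ≤ C1) (hl : 0 < lam) (he : 0 < ε)
    (he1 : ε ≤ 1) (hq0 : 0 ≤ q) (hq : q ^ 2 = Q) (hQ : Q ≤ 2) (hF : 0 < F) (hv : 1 ≤ v)
    (hs : 2 ≤ σ) (h1 : lam * v * q ≤ σ) (h2 : σ ≤ 3 + 8 * v * q) (hb0 : 0 ≤ b) (hb1 : b ≤ C1)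
    (hb : F * σ * b ≤ C1 * (1 + ε * (Q * F * v))) (hs0 : 0 ≤ s) (hw0 : 0 ≤ w)
    (hw : w ≤ 2 * s) :
    F * σ * ((ε * q + b) * s) * (w + v * q / σ * s + (ε * q + b) * s) ≤
      (95 + (2 * C1 + C1 / lam + 2 * C1 ^ 2)) *
        (ε * (Q * F * v * s ^ 2 + F * σ / v * w ^ 2) + v ^ 2 * s ^ 2) := by
  have hv0 : 0 < v := by linarith
  have hσ : 0 < σ := by linarith
  have hQ0 : 0 ≤ Q := hq ▸ sq_nonneg q
  have hC0 : 0 < C1 := by linarith
  have hB0 : 0 ≤ ε * (F * σ / v * w ^ 2) := by positivity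
  have hvs : s ^ 2 ≤ v ^ 2 * s ^ 2 := le_mul_of_one_le_left (sq_nonneg _) (one_le_pow₀ hv)
  have hs2 : 0 ≤ s ^ 2 := sq_nonneg _
  have T1 := mul_le_mul_of_nonneg_left (t1_bd hq0 hq hF hv hs h2 hs0 hw0 hw) he.le
  have e : F * σ * ((ε * q + b) * s) * (w + v * q / σ * s + (ε * q + b) * s) =
      ε * (F * σ * q * s * w) + F * σ * b * s * w + ε * (Q * F * v * s ^ 2) +
        F * v * q * b * s ^ 2 + F * σ * (ε * q + b) ^ 2 * s ^ 2 := by
    rw [← hq]; field_simp; ring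
  rw [e]
  obtain ⟨R, hR⟩ : ∃ R, R = ε * (Q * F * v * s ^ 2 + F * σ / v * w ^ 2) + v ^ 2 * s ^ 2 := ⟨_, rfl⟩
  rw [← hR]
  have hU : (1 + ε * (Q * F * v)) * s ^ 2 ≤ R := by linarith
  have hA1 : ε * (Q * F * v * s ^ 2) ≤ R := by linarith
  have hbs : F * σ * b * s ^ 2 ≤ C1 * R := by
    calc F * σ * b * s ^ 2 ≤ C1 * (1 + ε * (Q * F * v)) * s ^ 2 :=
          mul_le_mul_of_nonneg_right hb hs2
      _ = C1 * ((1 + ε * (Q * F * v)) * s ^ 2) := by ring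
      _ ≤ C1 * R := mul_le_mul_of_nonneg_left hU hC0.le
  have T1' : ε * (F * σ * q * s * w) ≤ 64 * R := by linarith
  have T2 : F * σ * b * s * w ≤ 2 * (C1 * R) := by
    have : F * σ * b * s * w ≤ F * σ * b * s * (2 * s) := by gcongr
    linarith
  have T4 : F * v * q * b * s ^ 2 ≤ C1 / lam * R := by
    rw [div_mul_eq_mul_div, le_div_iff₀ hl]
    have : F * (lam * v * q) * b * s ^ 2 ≤ F * σ * b * s ^ 2 := by gcongr
    linarith
  have T5 := t5_bd he he1 hq0 hq hQ hF hv hs h2 hA1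
  have T6 : b * (F * σ * b * s ^ 2) ≤ C1 * (C1 * R) :=
    mul_le_mul hb1 hbs (by positivity) hC0.le
  have T7 := t7_bd (ε := ε) (b := b) (s := s) (q := q) hF hs
  rw [hq] at T7
  linarith

lemma comb_near {η c Ca N M r Ψ G V Er T : ℝ} (h0 : 0 < η) (h1 : η ≤ 1) (hc : 0 < c)
    (hCa : 0 ≤ Ca) (hM : 0 ≤ M) (hr0 : 0 ≤ r) (hr1 : r ≤ 1) (hΨ : r * Ψ ≤ N ^ 2) (hG : 0 ≤ G)
    (hV : 0 ≤ V) (hm : c * M - Er ≤ T)
    (hn : (1 - η / 2) * G - Ca / (η / 2) * (Ψ * V) - Er ≤ T) :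
    (1 - η) * (r * G) + η / 2 * (c * M) - 2 * Ca / η * N ^ 2 * V - Er ≤ T := by
  have hl0 : 0 ≤ (1 - η / 2) * r := mul_nonneg (by linarith) hr0
  have hl1 : (1 - η / 2) * r ≤ 1 - η / 2 := mul_le_of_le_one_right (by linarith) hr1
  have a1 := mul_le_mul_of_nonneg_left hn hl0
  have a2 := mul_le_mul_of_nonneg_left hm (show 0 ≤ 1 - (1 - η / 2) * r by linarith)
  have a3 : η / 2 * (c * M) ≤ (1 - (1 - η / 2) * r) * (c * M) :=
    mul_le_mul_of_nonneg_right (by linarith) (by positivity)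
  have a4 : 0 ≤ η ^ 2 / 4 * (r * G) := by positivity
  have a5 : (1 - η / 2) * r * Ψ ≤ N ^ 2 := by
    rcases le_total 0 (r * Ψ) with h | h
    · have := mul_le_of_le_one_left h (show 1 - η / 2 ≤ 1 by linarith)
      linarith
    · have := mul_nonpos_of_nonneg_of_nonpos (show 0 ≤ 1 - η / 2 by linarith) h
      have := sq_nonneg N
      linarith
  have a6 := mul_le_mul_of_nonneg_left a5 (show 0 ≤ 2 * Ca / η * V by positivity)
  have e : Ca / (η / 2) = 2 * Ca / η := by field_simp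
  rw [e] at a1
  linarith

lemma comb_sad {η c M X dm Er T : ℝ} (h0 : 0 < η) (h1 : η ≤ 1) (hX : 0 ≤ X) (hd : 0 ≤ dm)
    (hm : c * M - Er ≤ T) (hn : X + dm / 2 - Er ≤ T) :
    (1 - η) * X + dm / 4 + η / 2 * (c * M) - Er ≤ T := by
  have a1 := mul_le_mul_of_nonneg_left hn (show 0 ≤ 1 - η / 2 by linarith)
  have a2 := mul_le_mul_of_nonneg_left hm (show 0 ≤ η / 2 by linarith)
  have a3 : 0 ≤ η / 2 * X := by positivity
  have a4 : 0 ≤ (1 - η) * dm := mul_nonneg (by linarith) hd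
  linarith

lemma absorb {η ε N Q F v σ G w : ℝ} (h0 : 0 < η) (he : 0 < ε) (hN : 1 ≤ N) (hF : 0 < F)
    (hv : 1 ≤ v) (hs : 2 ≤ σ) (hQ : η < 20 * v ^ 2 * Q) (h20 : v ^ 20 ≤ ε * F) (hG : G ≤ 2 * w)
    (hw : 0 ≤ w) :
    N ^ 2 / (N ^ 2 + Q * F) * (F * σ) * G ≤ 40 * N ^ 2 / η * ε * (F * σ / v * w) := by
  have hv0 : 0 < v := by linarith
  have hσ : 0 < σ := by linarith
  have hN0 : 0 < N := by linarith
  have hQ0 : 0 < Q := by
    by_contra h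
    have : 20 * v ^ 2 * Q ≤ 0 := mul_nonpos_of_nonneg_of_nonpos (by positivity) (not_lt.1 h)
    linarith
  have h3 : v ^ 3 ≤ ε * F := (pow_le_pow_right₀ hv (by norm_num)).trans h20
  have h4 : η * v ≤ 20 * ε * (Q * F) := by
    have a := mul_le_mul_of_nonneg_left hQ.le hv0.le
    have b := mul_le_mul_of_nonneg_left h3 (show 0 ≤ 20 * Q by positivity)
    linarith
  have h5 : N ^ 2 / (N ^ 2 + Q * F) ≤ 20 * N ^ 2 / η * ε / v := by
    rw [div_le_div_iff₀ (by positivity) hv0]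
    have e : 20 * N ^ 2 / η * ε * (N ^ 2 + Q * F) =
      N ^ 2 / η * (20 * ε * N ^ 2 + 20 * ε * (Q * F)) := by ring
    have e2 : N ^ 2 * v = N ^ 2 / η * (η * v) := by field_simp
    rw [e, e2]
    have : 0 ≤ 20 * ε * N ^ 2 := by positivity
    exact mul_le_mul_of_nonneg_left (by linarith) (by positivity)
  calc N ^ 2 / (N ^ 2 + Q * F) * (F * σ) * G ≤ N ^ 2 / (N ^ 2 + Q * F) * (F * σ) * (2 * w) :=
        mul_le_mul_of_nonneg_left hG (by positivity)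
    _ ≤ 20 * N ^ 2 / η * ε / v * (F * σ) * (2 * w) := by gcongr
    _ = _ := by ring

section pt
variable {n : ℕ} {ι : Type} {f : Fx} {c : Cx n ι} {p : X2 n}

lemma gg_two (h : QQ c p ≤ f.t0 ^ 2 ∨ f.t1 ^ 2 ≤ QQ c p) : gg f c p = 2 := if_pos h

lemma gg_bd (hf : f.Ok) (hs : 2 ≤ sig f c p) :
    0 ≤ gg f c p ∧ gg f c p ≤ 2 + f.T0 * sig f c p / 8 := by
  obtain ⟨-, -, -, -, h5, -, h7, h8, -⟩ := hf
  have h : 0 ≤ sig f c p := by linarith
  have a1 := mul_nonneg h7.le h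
  have a2 := mul_le_mul_of_nonneg_right h8 h
  have a3 := mul_nonneg h5.le h
  unfold gg
  split_ifs <;> constructor <;> linarith

lemma thI_one (hf : f.Ok) (h : QQ c p ≤ f.t0 ^ 2) : thI f c p = 1 :=
  cut_one ((div_le_one (pow_pos hf.2.2.2.2.2.2.2.2.1 2)).2 h)

lemma thI_zero (hf : f.Ok) (h : 2 * f.t0 ^ 2 ≤ QQ c p) : thI f c p = 0 :=
  cut_zero ((le_div_iff₀ (pow_pos hf.2.2.2.2.2.2.2.2.1 2)).2 h)

lemma thO_one (hf : f.Ok) (h : QQ c p ≤ f.t1 ^ 2) : thO f c p = 1 := by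
  obtain ⟨-, -, -, -, -, -, -, -, h9, h10, -⟩ := hf
  exact cut_one ((div_le_one (pow_pos (by linarith) 2)).2 h)

lemma sig_big (hf : f.Ok) {C ε : ℝ} (he : 16 * ε ≤ f.T0) (hs : 2 ≤ sig f c p)
    (h : W2 f c C ε p) (hQ : f.t0 ^ 2 ≤ QQ c p) : 16 ≤ f.T0 * sig f c p := by
  have h0 := sq_nonneg f.t0
  have a := (h.2.2.2.2.2.2.2.2.2.1 (by linarith)).1
  have b := mul_le_mul_of_nonneg_right he (show 0 ≤ sig f c p by linarith)
  linarith

lemma tri_case (hf : f.Ok) {C ε : ℝ} (he : 16 * ε ≤ f.T0) (he2 : ε ≤ 1 / 1000)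
    (hs : 2 ≤ sig f c p) (h : W2 f c C ε p) :
    (thI f c p = 1 ∧ gg f c p ≤ 2 ∧
      6 * vv f c p ^ 2 * QQ c p * (sig f c p + 2) ≤ sig f c p ^ 2 * (sig f c p - 2)) ∨
    (thO f c p = 1 ∧ f.t0 ^ 2 ≤ QQ c p ∧ 4 * vv f c p * √(QQ c p) ≤ sig f c p ∧
      16 ≤ f.T0 * sig f c p ∧ gg f c p ≤ 2 + f.T0 * sig f c p / 8) ∨
    (thI f c p = 0 ∧ f.t0 ^ 2 ≤ QQ c p ∧ 16 ≤ f.T0 * sig f c p ∧
      1000 * vv f c p ≤ sig f c p ^ 2 ∧
      (gg f c p ≤ 2 ∨ (thO f c p = 1 ∧ gg f c p ≤ 2 + f.T0 * sig f c p / 8))) := by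
  have h0 := sq_nonneg f.t0
  have ht : 2 * f.t0 ^ 2 ≤ f.t1 ^ 2 := by
    obtain ⟨-, -, -, -, -, -, -, -, h9, h10, -⟩ := hf
    nlinarith
  rcases le_total (QQ c p) (f.t0 ^ 2) with h1 | h1
  · exact Or.inl ⟨thI_one hf h1, (gg_two (Or.inl h1)).le, h.2.2.2.2.2.2.1 h1⟩
  have hb := sig_big hf he hs h h1
  rcases le_total (QQ c p) (2 * f.t0 ^ 2) with h2 | h2
  · exact Or.inr (Or.inl ⟨thO_one hf (h2.trans ht), h1, h.2.2.2.2.2.2.2.1 h2, hb,
      (gg_bd hf hs).2⟩)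
  refine Or.inr (Or.inr ⟨thI_zero hf h2, h1, hb, ?_, ?_⟩)
  · have a := (h.2.2.2.2.2.2.2.2.2.1 (by linarith)).2
    have b := mul_le_mul_of_nonneg_right he2 (sq_nonneg (sig f c p))
    linarith
  · rcases le_total (QQ c p) (f.t1 ^ 2) with h3 | h3
    · exact Or.inr ⟨thO_one hf h3, (gg_bd hf hs).2⟩
    · exact Or.inl (gg_two (Or.inr h3)).le

lemma nlow (hf : f.Ok) {C C5 Cn ca Ca ε η N c₀ Er T : ℝ} {ζ ζ' : Fin n → ℝ} (h0 : 0 < η)
    (h1 : η ≤ 1) (hN : 1 ≤ N) (he0 : 0 < ε) (he : 16 * ε ≤ f.T0) (he3 : ε ≤ f.t0)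
    (hca : 0 < ca) (hCa : 1 ≤ Ca) (hc₀ : c₀ ≤ 1) (hQ : 0 ≤ QQ c p) (hF : 0 < FF f c p)
    (hv : 1 ≤ vv f c p) (hs : 2 ≤ sig f c p) (hsy : ∀ i j, gm c p i j = gm c p j i)
    (hγ : ∀ ξ, n2 ξ / 2 ≤ bil (gm c p) ξ ξ ∧ bil (gm c p) ξ ξ ≤ 2 * n2 ξ)
    (hz : bil (gm c p) (zt c p) (zt c p) = QQ c p)
    (hzd : ∀ ζ, bil (gm c p) (zt c p) ζ = zd p ζ) (h : W2 f c C ε p)
    (h5 : W5x f c Cn C5 ε p ∧ W5y f c Cn C5 ε p)
    (hm : ca * (QQ c p * FF f c p * vv f c p * (n2 ζ + n2 ζ') +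
      FF f c p * sig f c p / vv f c p * n2 (ζ' - ζ)) - Er ≤ T)
    (hn : ∀ η : ℝ, 0 < η → η ≤ 1 → thI f c p = 1 → gg f c p ≤ 2 →
      10 * vv f c p ^ 2 * QQ c p ≤ η → sig f c p ≤ 6 →
      (1 - η) * (FF f c p * sig f c p * bil (gm c p) (ζ' - ζ) (ζ' - ζ)) -
        Ca / η * (QQ c p * FF f c p * vv f c p ^ 2 * (n2 ζ + n2 ζ')) - Er ≤ T)
    (hc : thI f c p = 0 → thO f c p = 1 → 0 < QQ c p → 16 ≤ f.T0 * sig f c p →
      gg f c p ≤ 2 + f.T0 * sig f c p / 8 →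
      (1 - 2 * f.e1) * (FF f c p * sig f c p * (bil (gm c p) (ζ' - ζ) (ζ' - ζ) -
        bil (gm c p) (zt c p) (ζ' - ζ) ^ 2 / QQ c p)) + dm2 f c p ζ ζ' / 2 - Er ≤ T) :
    8 * (1 - η) * (rh f c N p * al f c p * gV c p ζ ζ') + gsd f c η c₀ p ζ ζ' +
      (4 * (η * ca) - 320 * N ^ 2 / η * ε) * (QQ c p * FF f c p * vv f c p * (n2 ζ + n2 ζ') +
        FF f c p * sig f c p / vv f c p * n2 (ζ' - ζ)) -
      16 * Ca / η * N ^ 2 * (vv f c p ^ 2 * (n2 ζ + n2 ζ')) - 8 * Er ≤ 8 * T := by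
  have hv0 : 0 < vv f c p := by linarith
  have hσ : 0 < sig f c p := by linarith
  have hN0 : 0 < N := by linarith
  have ht0 : 0 < f.t0 := hf.2.2.2.2.2.2.2.2.1
  have a1 := n2_nonneg ζ
  have a2 := n2_nonneg ζ'
  have a3 := n2_nonneg (ζ' - ζ)
  have hp : ∀ ξ, 0 ≤ bil (gm c p) ξ ξ := fun ξ => le_trans (by linarith [n2_nonneg ξ]) (hγ ξ).1
  have hA : 0 ≤ QQ c p * FF f c p * vv f c p * (n2 ζ + n2 ζ') := by positivity
  have hB : 0 ≤ FF f c p * sig f c p / vv f c p * n2 (ζ' - ζ) := by positivity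
  have hV : 0 ≤ vv f c p ^ 2 * (n2 ζ + n2 ζ') := by positivity
  have hG : 0 ≤ FF f c p * sig f c p * bil (gm c p) (ζ' - ζ) (ζ' - ζ) := by
    have := hp (ζ' - ζ)
    positivity
  have hr0 : 0 ≤ rh f c N p := by unfold rh Psi; positivity
  have hK : 0 ≤ 16 * Ca / η * N ^ 2 * (vv f c p ^ 2 * (n2 ζ + n2 ζ')) := by
    have : 0 < Ca := by linarith
    positivity
  have hab : 0 ≤ N ^ 2 / η * ε := by positivity
  rcases le_or_gt (20 * vv f c p ^ 2 * QQ c p) η with hc1 | hc1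
  · have b1 : 1 ≤ f.t0 * vv f c p :=
      h.2.2.1.trans (mul_le_mul_of_nonneg_right he3 hv0.le)
    have b2 : 20 * QQ c p ≤ f.t0 ^ 2 := by
      have b3 : 1 ≤ (f.t0 * vv f c p) ^ 2 := one_le_pow₀ b1
      have b4 := mul_le_mul_of_nonneg_left b3 hQ
      have b5 := mul_le_mul_of_nonneg_left (hc1.trans h1) (sq_nonneg f.t0)
      linarith
    have ht2 := pow_pos ht0 2
    have b6 : QQ c p ≤ f.t0 ^ 2 := by linarith
    have b7 : sig f c p ≤ 6 := by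
      have b8 : vv f c p * √(QQ c p) ≤ 1 / 4 := by
        refine le_of_sq_le_sq (by rw [mul_pow, Real.sq_sqrt hQ]; linarith) (by norm_num)
      have := h.2.2.2.2.1
      linarith
    have hns : gsd f c η c₀ p ζ ζ' = 0 := by
      refine if_neg ?_
      rintro (hh | hh) <;> linarith [hh.1]
    have hr1 : rh f c N p ≤ 1 := by
      unfold rh Psi
      rw [div_le_one (by positivity)]
      have := mul_nonneg hQ hF.le
      linarith
    have hr2 : rh f c N p * (QQ c p * FF f c p) ≤ N ^ 2 := by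
      unfold rh Psi
      rw [div_mul_eq_mul_div, div_le_iff₀ (by positivity)]
      exact mul_le_mul_of_nonneg_left (by linarith [sq_nonneg N]) (sq_nonneg N)
    have b9 := hn (η / 2) (by linarith) (by linarith) (thI_one hf b6) (gg_two (Or.inl b6)).le
      (by linarith) b7
    have b10 := comb_near h0 h1 hca (by linarith : 0 ≤ Ca) (add_nonneg hA hB) hr0 hr1 hr2 hG hV hm
      (by rw [← mul_assoc (QQ c p * FF f c p)]; exact b9)
    have b11 := mul_nonneg hab (add_nonneg hA hB)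
    rw [hns]
    unfold al gV
    linear_combination 8 * b10 + 320 * b11
  · have b1 := absorb h0 he0 hN hF hv hs hc1 h.1 (hγ (ζ' - ζ)).2 a3
    have b2 : (1 - η) * (rh f c N p * al f c p * gV c p ζ ζ') ≤
        40 * (N ^ 2 / η * ε) * (FF f c p * sig f c p / vv f c p * n2 (ζ' - ζ)) := by
      have b3 : 0 ≤ rh f c N p * al f c p * gV c p ζ ζ' := by
        rw [mul_assoc]; exact mul_nonneg hr0 hG
      have b4 := mul_le_of_le_one_left b3 (show 1 - η ≤ 1 by linarith)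
      refine b4.trans (b1.trans (le_of_eq ?_))
      ring
    have b5 := mul_nonneg hab hA
    by_cases hh : p ∈ sX f c 4 ∪ sY f c 4
    · have b6 : 2 * f.t0 ^ 2 < QQ c p ∧ QQ c p < f.t1 ^ 2 := by
        rcases hh with hh | hh
        · exact ⟨(h5.1 hh).1, (h5.1 hh).2.1⟩
        · exact ⟨(h5.2 hh).1, (h5.2 hh).2.1⟩
      have ht2 := pow_pos ht0 2
      have hQ0 : 0 < QQ c p := by linarith [b6.1]
      have b7 := hc (thI_zero hf b6.1.le) (thO_one hf b6.2.le) hQ0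
        (sig_big hf he hs h (by linarith [b6.1])) (gg_bd hf hs).2
      have hd : 0 ≤ dm2 f c p ζ ζ' := by unfold dm2 Psi; positivity
      have hX : 0 ≤ (1 - 2 * f.e1) * (FF f c p * sig f c p * (bil (gm c p) (ζ' - ζ) (ζ' - ζ) -
          bil (gm c p) (zt c p) (ζ' - ζ) ^ 2 / QQ c p)) := by
        have := cs hsy hp (ζ' - ζ) (zt c p) hz hQ0
        have : 0 ≤ 1 - 2 * f.e1 := by linarith [hf.2.2.2.1]
        positivity
      have b8 := comb_sad h0 h1 hX hd hm b7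
      have b9 : gsd f c η c₀ p ζ ζ' = 8 * (1 - η) * (1 - 2 * f.e1) *
          (al f c p * piZ c p (ζ' - ζ)) + c₀ * dm2 f c p ζ ζ' := if_pos hh
      have b10 := mul_le_mul_of_nonneg_right hc₀ hd
      rw [b9]
      unfold piZ
      rw [← hzd]
      rw [show al f c p * (bil (gm c p) (ζ' - ζ) (ζ' - ζ) -
        bil (gm c p) (zt c p) (ζ' - ζ) ^ 2 / QQ c p) = FF f c p * sig f c p *
          (bil (gm c p) (ζ' - ζ) (ζ' - ζ) - bil (gm c p) (zt c p) (ζ' - ζ) ^ 2 / QQ c p) from rfl]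
      linear_combination 8 * b8 + 8 * b2 + 320 * b5 + hK + b10 + hd
    · have b9 : gsd f c η c₀ p ζ ζ' = 0 := if_neg hh
      have b10 := mul_nonneg (show 0 ≤ 1 - η / 2 by linarith)
        (mul_nonneg hca.le (add_nonneg hA hB))
      rw [b9]
      linear_combination 8 * hm + 8 * b2 + 320 * b5 + hK + 8 * b10

end pt

lemma small {a b c d B : ℝ} (ha : 0 < a) (hb : 0 < b) (hc : 0 < c) (hd : 0 < d) (hB : 0 < B) :
    ∃ ε, 0 < ε ∧ ε ≤ a ∧ ε ≤ b ∧ 16 * ε ≤ c ∧ B * ε ≤ d := by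
  refine ⟨min (min a b) (min (c / 16) (d / B)), by positivity,
    (min_le_left _ _).trans (min_le_left _ _), (min_le_left _ _).trans (min_le_right _ _), ?_, ?_⟩
  · have : min (min a b) (min (c / 16) (d / B)) ≤ c / 16 :=
      (min_le_right _ _).trans (min_le_left _ _)
    linarith
  · have : min (min a b) (min (c / 16) (d / B)) ≤ d / B :=
      (min_le_right _ _).trans (min_le_right _ _)
    rwa [le_div_iff₀ hB, mul_comm] at this

lemma fin {M V fz xx ε c₀ K B k R Er H Q dd P1 P2 C1 C2 C3 D1 D2 E : ℝ} (hM : 0 ≤ M)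
    (hfz : 0 ≤ fz) (hxx : 0 ≤ xx) (he : ε ≤ 1 / 1000) (hc : c₀ ≤ 1) (hk : c₀ ≤ k)
    (hk0 : 0 ≤ k) (hB : (17 + 8 * K + B) * ε ≤ k) (hEr : Er ≤ K * (ε * M + V))
    (hT : R + (4 * k - B * ε) * M - E * V - 8 * Er ≤ 8 * (P1 + P2))
    (h1 : P1 + fz / 4 + xx / 2 - (ε * (M + fz) + C1 * V) ≤ H)
    (h2 : P2 - xx / 4 - (ε * (M + fz) + C2 * V) - D1 ≤ Q)
    (h3 : -dd ≤ ε * (M + fz) + C3 * V + D2) :
    c₀ * (M + fz) + R - (8 * C1 + 8 * C2 + C3 + E + 8 * K) * V - (8 * D1 + D2) ≤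
      8 * H + 8 * Q + dd := by
  have a1 := mul_le_mul_of_nonneg_right hB hM
  have a2 := mul_le_mul_of_nonneg_right hk hM
  have a3 := mul_le_mul_of_nonneg_right he hfz
  have a4 := mul_le_mul_of_nonneg_right hc hfz
  have a5 := mul_nonneg hk0 hM
  linarith

end PLm

open PLm in
theorem s_PL (h0 : S_w0) (hq : S_wq) (h2 : S_w2) (h5 : S_w5) (ha : S_PLa) (p1 : S_PL1)
    (p2 : S_PL2) (p3 : S_PL3) : S_PL := by
  intro n
  obtain ⟨Cn2, hCn2, p2⟩ := p2 n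
  obtain ⟨Cn3, hCn3, p3⟩ := p3 n
  obtain ⟨Cq, -, hq⟩ := hq n
  obtain ⟨Cn5, -, h5⟩ := h5 n
  refine ⟨8 * Cn2 + Cn3, by linarith, fun ι f hf η N hη hη1 hN => ?_⟩
  obtain ⟨C1, hC1, p1⟩ := p1 n ι f hf
  obtain ⟨C2, hC2, p2⟩ := p2 ι f hf
  obtain ⟨C3, hC3, p3⟩ := p3 ι f hf
  obtain ⟨Cw, -, h2⟩ := h2 n ι f hf
  obtain ⟨C5, -, h5⟩ := h5 ι f hf
  have hl : 0 < f.lam := hf.1
  have ht0 : 0 < f.t0 := hf.2.2.2.2.2.2.2.2.1
  have hT0 : 0 < f.T0 := hf.2.2.2.2.1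
  obtain ⟨ca, Ca, hca, hCa, ha⟩ := ha n f.lam f.t0 f.T0 f.e1 hl hf.2.1 ht0 hf.2.2.1 hf.2.2.2.1
    hT0 hf.2.2.2.2.2.1
  have hC10 : 0 < C1 := by linarith
  have hCa0 : 0 < Ca := by linarith
  have hN0 : 0 < N := by linarith
  obtain ⟨K, hK⟩ : ∃ K, K = Ca * (95 + (2 * C1 + C1 / f.lam + 2 * C1 ^ 2)) := ⟨_, rfl⟩
  have hK0 : 0 < K := by rw [hK]; positivity
  obtain ⟨ε, he, he1, he2, he3, he4⟩ := small (a := 1 / 1000) (by norm_num) ht0 hT0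
    (mul_pos hη hca) (show 0 < 17 + 8 * K + 320 * N ^ 2 / η by positivity)
  refine ⟨min 1 (η * ca), 8 * C1 + 8 * C2 + C3 + 16 * Ca / η * N ^ 2 + 8 * K, by positivity,
    by have : 0 ≤ 16 * Ca / η * N ^ 2 := by positivity
       linarith, ?_⟩
  refine ((((((((h0 n ι f hf).and (hq ι f hf ε he)).and (h2 ε he)).and (h5 ε he)).and
    (p1 ε he)).and (p2 ε he)).and (p3 ε he)).and (Ev.ok f one_pos 0)).mono ?_
  rintro c ⟨⟨⟨⟨⟨⟨⟨w0, wq⟩, w2⟩, w5⟩, q1⟩, q2⟩, q3⟩, hc⟩ p hp ζ ζ'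
  obtain ⟨-, hL, -, -, -, -, s1, -, -, s2, -⟩ := hc
  obtain ⟨-, wx, wp, -⟩ := w0
  obtain ⟨u1, -, hF, hv, hs, -, -, -, -, -, -, hfp, -, hz, hzd, -, -, hγ⟩ := wp p
  obtain ⟨hax, hLX, -⟩ := wx p.1
  obtain ⟨-, -, -, -, -, -, -, -, m1, m2, hQ2, -⟩ := wq p hp.1
  replace w2 := w2 p hp.1
  obtain ⟨q1, q1b, q1c⟩ := q1 p hp ζ ζ'
  replace q2 := q2 p hp ζ ζ'
  replace q3 := q3 p hp.1 ζ ζ'
  have hQ : 0 ≤ QQ c p := le_trans (by positivity) u1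
  have hv1 : 1 ≤ vv f c p := hL.trans hv
  have hLX1 : 1 ≤ LX f c p.1 := hL.trans hLX
  have hsy : ∀ i j, gm c p i j = gm c p j i := fun i j => congrFun (s2 i j) (mid p)
  have hγ' : ∀ ξ, n2 ξ / 2 ≤ bil (gm c p) ξ ξ ∧ bil (gm c p) ξ ξ ≤ 2 * n2 ξ :=
    fun ξ => (hγ ξ).2.2.2.2
  have a1 := n2_nonneg ζ
  have a2 := n2_nonneg ζ'
  have a3 := n2_nonneg (ζ' - ζ)
  have ha1 : 1 ≤ aX f c p.1 := by
    have b1 : 1 ≤ LX f c p.1 ^ 20 := one_le_pow₀ hLX1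
    have b2 := mul_le_of_le_one_left hax.le (show ε ≤ 1 by linarith)
    linarith [w2.2.1]
  have hb1 : C1 / aX f c p.1 ^ 2 ≤ C1 := div_le_self hC10.le (one_le_pow₀ ha1)
  have hb : FF f c p * sig f c p * (C1 / aX f c p.1 ^ 2) ≤
      C1 * (1 + ε * (QQ c p * FF f c p * vv f c p)) := by
    have b1 : FF f c p * sig f c p ≤ aX f c p.1 ^ 2 * (1 + ε * (QQ c p * FF f c p * vv f c p)) :=
      w2.2.2.2.2.2.2.2.2.2.2.2.1
    rw [← mul_div_assoc, div_le_iff₀ (by positivity)]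
    have := mul_le_mul_of_nonneg_left b1 hC10.le
    linarith
  have hw : √(n2 (ζ' - ζ)) ≤ 2 * √(n2 ζ + n2 ζ') := by
    refine le_of_sq_le_sq ?_ (by positivity)
    rw [mul_pow, Real.sq_sqrt a3, Real.sq_sqrt (add_nonneg a1 a2)]
    linarith [n2_sub ζ ζ']
  have hE := mul_le_mul_of_nonneg_left (er_bd hC1 hl he (by linarith) (Real.sqrt_nonneg _)
    (Real.sq_sqrt hQ) hQ2 hF hv1 hs w2.2.2.2.2.2.1 w2.2.2.2.2.1 (by positivity) hb1 hb
    (Real.sqrt_nonneg _) (Real.sqrt_nonneg _) hw) hCa0.le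
  rw [Real.sq_sqrt a3, Real.sq_sqrt (add_nonneg a1 a2), ← mul_assoc Ca (95 + _), ← hK] at hE
  obtain ⟨k1, k2, k3⟩ := ha (gm c p) (mv p) (zt c p) ζ ζ' (QQ c p) (FF f c p) (vv f c p)
    (sig f c p) (gg f c p) (thI f c p) (thO f c p) (dl f c p ζ ζ') _ (cA f c p) (cS f c p) _ _
    hsy hγ' m1 m2 hz hQ2 hF hv1 hs w2.2.2.2.2.2.1 (cut_nonneg _) (cut_le _) (cut_nonneg _)
    (cut_le _) (gg_bd hf hs).1 (by positivity) q1b rfl rfl rfl rfl
  rw [q1c] at k3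
  have k4 := nlow hf hη hη1 hN he he3 he2 hca hCa (min_le_left 1 (η * ca)) hQ hF hv1 hs hsy hγ'
    hz hzd w2 (w5 p hp.1) (k1 (tri_case hf he3 he1 hs w2)) k2 k3
  have hv0 : 0 < vv f c p := by linarith
  have hσ : 0 < sig f c p := by linarith
  have ee : ∀ a b : ℝ, er f c a b p ζ ζ' = a * (QQ c p * FF f c p * vv f c p * (n2 ζ + n2 ζ') +
      FF f c p * sig f c p / vv f c p * n2 (ζ' - ζ) + fp f c p * n2 ζ) +
      b * (vv f c p ^ 2 * (n2 ζ + n2 ζ')) := by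
    intro a b
    unfold er mx my Psi al
    ring
  rw [ee] at q1 q2 q3
  rw [ee, hq_eq f c s1 s2]
  have hdd := le_trans (show -(dP ex (onX c.γ₁) (Px f c) p ζ + dP ey (onY c.γ₂) (Py f c) p ζ') ≤
      |dP ex (onX c.γ₁) (Px f c) p ζ| + |dP ey (onY c.γ₂) (Py f c) p ζ'| by
    linarith [neg_abs_le (dP ex (onX c.γ₁) (Px f c) p ζ),
      neg_abs_le (dP ey (onY c.γ₂) (Py f c) p ζ')]) q3
  have hxx : 0 ≤ fp f c p * LX f c p.1 * xz c p ζ ^ 2 := by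
    have : 0 ≤ LX f c p.1 := by linarith
    positivity
  have := fin (P1 := N1 f c p ζ ζ') (P2 := N2 f c p ζ ζ') (B := 320 * N ^ 2 / η)
    (E := 16 * Ca / η * N ^ 2) (C1 := C1) (C2 := C2) (D1 := Cn2 * f.tau * dfc f c p ζ ζ')
    (H := H2 c (phi f c) p ζ ζ') (Q := qf (g1 c p) (pcx f c p) (dx (phi f c) p) ζ +
        qf (g2 c p) (pcy f c p) (dyy (phi f c) p) ζ')
    (R := 8 * (1 - η) * (rh f c N p * al f c p * gV c p ζ ζ') +
      gsd f c η (min 1 (η * ca)) p ζ ζ')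
    (by positivity) (mul_nonneg hfp a1) hxx he1 (min_le_left 1 (η * ca)) (min_le_right _ _)
    (by positivity) he4 (le_of_eq_of_le (by ring) hE) k4
    (by linarith) (by linarith) hdd
  linarith

end Vale.Agent.P088
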