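import Vale.Agent.P088.StN

/-!
# P088: integrals depending on a parameter
-/

open MeasureTheory Set Metric
open scoped ContDiff Topology Convolution

noncomputable section
namespace Vale.Agent.P088
open Vale.Agent.P136 (D Dp Dm Sm Tst)

namespace Par

variable {n : ℕ} {F : Type} [NormedAddCommGroup F] {K : X2 n → F}

theorem zero_snd (x y : En n) (hy : y ∉ Prod.snd '' tsupport K) : K (x, y) = 0 :=
  image_eq_zero_of_notMem_tsupport fun h => hy ⟨_, h, rfl⟩

theorem int_sec (hK : Continuous K) (hc : HasCompactSupport K) (x : En n) :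
    Integrable fun y => K (x, y) :=
  (hK.comp (Continuous.prodMk_right x)).integrable_of_hasCompactSupport
    (HasCompactSupport.intro (hc.isCompact.image continuous_snd) (zero_snd x))

theorem conv_eq (K : X2 n → ℝ) (x z : En n) :
    ((fun _ : En n => (1 : ℝ)) ⋆[ContinuousLinearMap.mul ℝ ℝ, volume] fun y => K (x, y)) z =
      ∫ y, K (x, y) := by
  rw [convolution_def, ← integral_sub_left_eq_self (fun y => K (x, y)) volume z]
  simp only [ContinuousLinearMap.mul_apply', one_mul]

theorem tsupp {K : X2 n → ℝ} (hc : HasCompactSupport K) :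
    tsupport (fun x => ∫ y, K (x, y)) ⊆ Prod.fst '' tsupport K := by
  refine closure_minimal (fun x hx => ?_) (hc.isCompact.image continuous_fst).isClosed
  by_contra h
  refine hx ?_
  have h1 : ∀ y, K (x, y) = 0 := fun y => image_eq_zero_of_notMem_tsupport fun h2 => h ⟨_, h2, rfl⟩
  simp only [h1, integral_zero]

theorem smooth {K : X2 n → ℝ} {m : ℕ∞} (hK : ContDiff ℝ m K) (hc : HasCompactSupport K) :
    ContDiff ℝ m fun x => ∫ y, K (x, y) := by
  have h1 := contDiffOn_convolution_right_with_param_comp (μ := volume)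
    (ContinuousLinearMap.mul ℝ ℝ) (contDiffOn_const (c := (0 : En n)))
    (g := fun x y => K (x, y)) isOpen_univ (hc.isCompact.image continuous_snd)
    (fun x y _ hy => zero_snd x y hy) (locallyIntegrable_const (1 : ℝ)) hK.contDiffOn
  simp only [conv_eq] at h1
  exact contDiffOn_univ.1 h1

theorem deriv {K : X2 n → ℝ} (hK : Tst K) (x : En n) (v : X2 n) :
    D v.1 (fun x => ∫ y, K (x, y)) x = ∫ y, D v K (x, y) := by
  have h1 := hasFDerivAt_convolution_right_with_param (μ := volume)
    (ContinuousLinearMap.mul ℝ ℝ) (g := fun x y => K (x, y)) isOpen_univ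
    (hK.2.isCompact.image continuous_snd) (fun x y _ hy => zero_snd x y hy)
    (locallyIntegrable_const (1 : ℝ)) (hK.1.of_le (by simp)).contDiffOn (x, 0) (mem_univ _)
  simp only [conv_eq] at h1
  have h2 := (HasFDerivAt.comp (f := Prod.fst) (x, (0 : En n))
    ((smooth hK.1 hK.2).differentiable (by simp) x).hasFDerivAt hasFDerivAt_fst).unique h1
  have h3 := int_sec (hK.1.continuous_fderiv (by simp)) (hK.2.fderiv ℝ) x
  have h4 : ∀ A : X2 n →L[ℝ] ℝ, (ContinuousLinearMap.mul ℝ ℝ).precompR (X2 n) 1 A = A :=
    fun A => by ext <;> simp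
  refine (congrArg (fun A => A v) h2).trans ?_
  simp only [convolution_def, h4]
  exact (congrArg (fun A => A v)
    (integral_sub_left_eq_self (fun y => fderiv ℝ K (x, y)) volume 0)).trans
      (ContinuousLinearMap.integral_apply h3 v)

end Par

theorem s_par : S_par := by
  intro n K
  have h1 : HasCompactSupport K → HasCompactSupport fun x => ∫ y, K (x, y) := fun hc =>
    (hc.isCompact.image continuous_fst).of_isClosed_subset (isClosed_tsupport _) (Par.tsupp hc)
  refine ⟨fun hK hc => ⟨?_, h1 hc, Par.tsupp hc, Par.int_sec hK hc, ?_⟩,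
    fun hK => ⟨⟨Par.smooth hK.1 hK.2, h1 hK.2⟩, fun i x => ⟨Par.deriv hK x (ex i), ?_⟩⟩⟩
  · exact contDiff_zero.1 (Par.smooth (m := 0) (contDiff_zero.2 hK) hc)
  · exact (integral_prod K (hK.integrable_of_hasCompactSupport hc)).symm
  · rw [← Par.deriv hK x (ey i)]
    exact map_zero _

end Vale.Agent.P088
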