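import Vale.Agent.P088.StA

/-!
# P088: the slowly concave profile
-/

open MeasureTheory Set Real
open scoped ContDiff Topology

noncomputable section
namespace Vale.Agent.P088

namespace Prof

theorem th_diff : Differentiable ℝ smoothTransition :=
  (smoothTransition.contDiff (n := 1)).differentiable (by simp)

theorem th_one {x : ℝ} (h : 1 ≤ x) : deriv smoothTransition x = 0 :=
  IsLocalMax.deriv_eq_zero (Filter.Eventually.of_forall fun y => by
    rw [smoothTransition.one_of_one_le h]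
    exact smoothTransition.le_one y)

theorem th_zero {x : ℝ} (h : x ≤ 0) : deriv smoothTransition x = 0 :=
  IsLocalMin.deriv_eq_zero (Filter.Eventually.of_forall fun y => by
    rw [smoothTransition.zero_of_nonpos h]
    exact smoothTransition.nonneg y)

theorem th_bound : ∃ B : ℝ, 0 < B ∧ (∀ x, deriv smoothTransition x ≤ B) ∧
    ∀ x, 0 ≤ x → smoothTransition x ≤ B * x := by
  obtain ⟨B, hB⟩ := (isCompact_Icc (a := (0 : ℝ)) (b := 1)).exists_bound_of_continuousOn
    ((smoothTransition.contDiff (n := 1)).continuous_deriv le_rfl).continuousOn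
  have h1 : ∀ x, ‖deriv smoothTransition x‖ ≤ |B| + 1 := fun x => by
    have := abs_nonneg B
    rcases le_total x 0 with h | h
    · rw [th_zero h, norm_zero]
      linarith
    rcases le_total 1 x with h' | h'
    · rw [th_one h', norm_zero]
      linarith
    · linarith [hB x ⟨h, h'⟩, le_abs_self B]
  refine ⟨|B| + 1, by positivity, fun x => (le_abs_self _).trans (h1 x), fun x hx => ?_⟩
  have h2 := convex_univ.norm_image_sub_le_of_norm_deriv_le (fun y _ => th_diff y)
    (fun y _ => h1 y) (mem_univ 0) (mem_univ x)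
  rw [smoothTransition.zero, sub_zero, sub_zero, Real.norm_of_nonneg hx] at h2
  exact (le_abs_self _).trans h2

/-- The slope. -/
def ww (a S t0 t : ℝ) : ℝ := 8 * exp (-(a * smoothTransition (log (t / t0) / S)))

/-- The profile in the radial variable. -/
def om (a S t0 t : ℝ) : ℝ := ∫ s in (0 : ℝ)..t, ww a S t0 s

variable {a S t0 : ℝ}

theorem ww_pos (t : ℝ) : 0 < ww a S t0 t := by
  unfold ww
  positivity

theorem ww_small (hS : 0 < S) (h0 : 0 < t0) {t : ℝ} (h : |t| ≤ t0) : ww a S t0 t = 8 := by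
  have h1 : log (t / t0) ≤ 0 := by
    rw [← log_abs, abs_div, abs_of_pos h0]
    exact log_nonpos (by positivity) ((div_le_one h0).2 h)
  rw [ww, smoothTransition.zero_of_nonpos (div_nonpos_of_nonpos_of_nonneg h1 hS.le)]
  simp

theorem ww_smooth (hS : 0 < S) (h0 : 0 < t0) : ContDiff ℝ ∞ (ww a S t0) := by
  refine contDiff_iff_contDiffAt.2 fun t => ?_
  rcases eq_or_ne t 0 with rfl | ht
  · refine (contDiffAt_const (c := 8)).congr_of_eventuallyEq ?_
    filter_upwards [Icc_mem_nhds (neg_lt_zero.2 h0) h0] with s hs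
    exact ww_small hS h0 (abs_le.2 hs)
  · have h1 : ContDiffAt ℝ ∞ (fun s : ℝ => log (s / t0)) t :=
      (contDiffAt_id.div_const t0).log (div_ne_zero ht h0.ne')
    unfold ww
    fun_prop

theorem ww_deriv (h0 : 0 < t0) {t : ℝ} (ht : 0 < t) : HasDerivAt (ww a S t0)
    (ww a S t0 t * (-(a * deriv smoothTransition (log (t / t0) / S) / S) / t)) t := by
  have h1 := (((hasDerivAt_id t).div_const t0).log (div_ne_zero ht.ne' h0.ne')).div_const S
  have h2 := (th_diff (log (t / t0) / S)).hasDerivAt.comp t h1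
  refine ((h2.const_mul a).neg.exp.const_mul 8).congr_deriv ?_
  simp only [ww, Pi.neg_apply, Function.comp_apply, id]
  field_simp

theorem ww_le (ha : 0 ≤ a) (t : ℝ) : ww a S t0 t ≤ 8 := by
  have h : exp (-(a * smoothTransition (log (t / t0) / S))) ≤ 1 :=
    exp_le_one_iff.2 (neg_nonpos.2 (mul_nonneg ha (smoothTransition.nonneg _)))
  unfold ww
  linarith

theorem ww_ge (ha : 0 ≤ a) (t : ℝ) : 8 * exp (-a) ≤ ww a S t0 t := by
  unfold ww
  gcongr
  exact mul_le_of_le_one_right ha (smoothTransition.le_one _)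

theorem ww_anti (ha : 0 ≤ a) (hS : 0 < S) (h0 : 0 < t0) {s t : ℝ} (hs : 0 ≤ s) (h : s ≤ t) :
    ww a S t0 t ≤ ww a S t0 s := by
  rcases hs.eq_or_lt with rfl | hs
  · rw [ww_small hS h0 (t := 0) (by simpa using h0.le)]
    exact ww_le ha t
  · unfold ww
    have := smoothTransition.monotone (show log (s / t0) / S ≤ log (t / t0) / S by gcongr)
    gcongr

theorem one_le_arg (hS : 0 < S) (h0 : 0 < t0) {t : ℝ} (h : t0 * exp S ≤ t) :
    1 ≤ log (t / t0) / S := by
  have h1 : exp S ≤ t / t0 := by rwa [le_div_iff₀' h0]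
  rw [one_le_div hS]
  exact (le_log_iff_exp_le ((exp_pos S).trans_le h1)).2 h1

theorem ww_big (hS : 0 < S) (h0 : 0 < t0) {t : ℝ} (h : t0 * exp S ≤ t) :
    ww a S t0 t = 8 * exp (-a) := by
  rw [ww, smoothTransition.one_of_one_le (one_le_arg hS h0 h), mul_one]

theorem om_deriv (hS : 0 < S) (h0 : 0 < t0) (t : ℝ) : HasDerivAt (om a S t0) (ww a S t0 t) t :=
  ((ww_smooth hS h0).continuous.integral_hasStrictDerivAt 0 t).hasDerivAt

theorem om_smooth (hS : 0 < S) (h0 : 0 < t0) : ContDiff ℝ ∞ (om a S t0) := by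
  refine contDiff_infty_iff_deriv.2 ⟨fun t => (om_deriv hS h0 t).differentiableAt, ?_⟩
  rw [show deriv (om a S t0) = ww a S t0 from funext fun t => (om_deriv hS h0 t).deriv]
  exact ww_smooth hS h0

theorem om_ge (hS : 0 < S) (h0 : 0 < t0) {t c : ℝ} (ht : 0 ≤ t)
    (h : ∀ s ∈ Icc 0 t, c ≤ ww a S t0 s) : t * c ≤ om a S t0 t := by
  have := intervalIntegral.integral_mono_on ht (continuous_const.intervalIntegrable (μ := volume) _ _)
    ((ww_smooth hS h0).continuous.intervalIntegrable _ _) h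
  simpa [om] using this

theorem om_sub_le (hS : 0 < S) (h0 : 0 < t0) {r t c : ℝ} (ht : r ≤ t)
    (h : ∀ s ∈ Icc r t, ww a S t0 s ≤ c) : om a S t0 t ≤ om a S t0 r + (t - r) * c := by
  have hc := (ww_smooth (a := a) hS h0).continuous
  have := intervalIntegral.integral_mono_on ht (hc.intervalIntegrable (μ := volume) _ _)
    (continuous_const.intervalIntegrable _ _) h
  rw [om, ← intervalIntegral.integral_add_adjacent_intervals (hc.intervalIntegrable 0 r)
    (hc.intervalIntegrable r t)]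
  simpa [om] using this

theorem om_le (ha : 0 ≤ a) (hS : 0 < S) (h0 : 0 < t0) {t : ℝ} (ht : 0 ≤ t) :
    om a S t0 t ≤ t * 8 := by
  simpa [om] using om_sub_le hS h0 ht fun s _ => ww_le (S := S) (t0 := t0) ha s

/-- The profile in the quadratic variable. -/
def Om (a S t0 q : ℝ) : ℝ := if q ≤ t0 ^ 2 then 64 * q else om a S t0 (√q) ^ 2

theorem Om_eq (ha : 0 ≤ a) (hS : 0 < S) (h0 : 0 < t0) {q : ℝ} (hq : 0 < q) :
    Om a S t0 q = om a S t0 (√q) ^ 2 := by
  unfold Om
  split_ifs with h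
  · have h1 : √q ≤ t0 := sqrt_le_iff.2 ⟨h0.le, h⟩
    have h2 : om a S t0 (√q) = √q * 8 := le_antisymm (om_le ha hS h0 (sqrt_nonneg q))
      (om_ge hS h0 (sqrt_nonneg q) fun s hs =>
        (ww_small hS h0 (by rw [abs_of_nonneg hs.1]; exact hs.2.trans h1)).ge)
    rw [h2, mul_pow, sq_sqrt hq.le]
    ring
  · rfl

theorem Om_ev (ha : 0 ≤ a) (hS : 0 < S) (h0 : 0 < t0) {q : ℝ} (hq : 0 < q) :
    Om a S t0 =ᶠ[𝓝 q] fun q => om a S t0 (√q) ^ 2 := by
  filter_upwards [lt_mem_nhds hq] with s hs using Om_eq ha hS h0 hs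

theorem Om_smooth (ha : 0 ≤ a) (hS : 0 < S) (h0 : 0 < t0) : ContDiff ℝ ∞ (Om a S t0) := by
  refine contDiff_iff_contDiffAt.2 fun q => ?_
  rcases le_or_gt q 0 with hq | hq
  · refine (contDiffAt_const.mul contDiffAt_id (f := fun _ => (64 : ℝ))).congr_of_eventuallyEq ?_
    filter_upwards [gt_mem_nhds (hq.trans_lt (pow_pos h0 2))] with s hs
    exact if_pos hs.le
  · exact (((om_smooth hS h0).contDiffAt.comp q (contDiffAt_sqrt hq.ne')).pow
      2).congr_of_eventuallyEq (Om_ev ha hS h0 hq)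

theorem Om_d1 (ha : 0 ≤ a) (hS : 0 < S) (h0 : 0 < t0) {q : ℝ} (hq : 0 < q) :
    deriv (Om a S t0) q = om a S t0 (√q) * ww a S t0 (√q) / √q := by
  rw [(Om_ev ha hS h0 hq).deriv_eq]
  refine (((om_deriv hS h0 (√q)).comp q (hasDerivAt_sqrt hq.ne')).pow 2).deriv.trans ?_
  simp only [Function.comp_apply]
  push_cast
  field_simp

theorem Om_d2 (ha : 0 ≤ a) (hS : 0 < S) (h0 : 0 < t0) {q : ℝ} (hq : 0 < q) {w' : ℝ}
    (hw : HasDerivAt (ww a S t0) w' (√q)) :
    deriv (deriv (Om a S t0)) q = ((ww a S t0 (√q) ^ 2 + om a S t0 (√q) * w') * √q -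
      om a S t0 (√q) * ww a S t0 (√q)) / (2 * √q ^ 3) := by
  have ev : deriv (Om a S t0) =ᶠ[𝓝 q] fun q => om a S t0 (√q) * ww a S t0 (√q) / √q := by
    filter_upwards [lt_mem_nhds hq] with s hs using Om_d1 ha hS h0 hs
  have hs := sqrt_pos.2 hq
  rw [ev.deriv_eq]
  refine ((((om_deriv hS h0 (√q)).mul hw).div (hasDerivAt_id (√q)) hs.ne').comp q
    (hasDerivAt_sqrt hq.ne')).deriv.trans ?_
  simp only [Pi.mul_apply, id]
  field_simp

end Prof

open Prof in
theorem s_prof : S_prof := by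
  intro lam gam0 t1 hl hl1 hg hg1 ht1
  obtain ⟨B, hB, hB1, hB2⟩ := th_bound
  set a := log (8 / lam) with ha'
  have ha : 0 ≤ a := log_nonneg ((one_le_div hl).2 (by linarith))
  have hla : 8 * exp (-a) = lam := by
    rw [exp_neg, ha', exp_log (by positivity)]
    field_simp
  set S := max 1 (a * B / gam0) with hS'
  have hS1 : 1 ≤ S := le_max_left _ _
  have hS : 0 < S := by linarith
  have hS2 : a * B / S ≤ gam0 := by
    rw [div_le_comm₀ hS hg]
    exact le_max_right _ _
  set t0 := t1 * exp (-S) with ht0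
  have h0 : 0 < t0 := by positivity
  have h01 : t0 * exp S = t1 := by rw [ht0, mul_assoc, ← exp_add, neg_add_cancel, exp_zero, mul_one]
  have h2 : 2 * t0 ≤ t1 := by
    have := add_one_le_exp S
    nlinarith
  refine ⟨t0, Om a S t0, h0, h2, Om_smooth ha hS h0, fun q hq => if_pos hq, fun q hq => ?_⟩
  have ht := sqrt_pos.2 hq
  rw [Om_d2 ha hS h0 hq (ww_deriv h0 ht), Om_d1 ha hS h0 hq, Om_eq ha hS h0 hq]
  have hq' : q = √q ^ 2 := (sq_sqrt hq.le).symm
  generalize √q = t at ht hq' ⊢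
  subst hq'
  have w0 := ww_pos (a := a) (S := S) (t0 := t0) t
  have w1 : ∀ s, lam ≤ ww a S t0 s := fun s => hla ▸ ww_ge ha s
  have o1 : t * lam ≤ om a S t0 t := om_ge hS h0 ht.le fun s _ => w1 s
  have o2 := om_le ha hS h0 ht.le
  have o3 : t * ww a S t0 t ≤ om a S t0 t :=
    om_ge hS h0 ht.le fun s hs => ww_anti ha hS h0 hs.1 hs.2
  have o0 : 0 < om a S t0 t := (mul_pos ht hl).trans_le o1
  have o4 : om a S t0 t ≤ 8 * t1 + lam * t := by
    have := mul_pos hl ht
    rcases le_total t t1 with h | h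
    · linarith
    · have h3 := om_sub_le (a := a) hS h0 h fun s hs =>
        ((ww_big hS h0 (h01.trans_le hs.1)).trans hla).le
      have h4 := om_le ha hS h0 ht1.le
      nlinarith [mul_pos hl ht1]
  have d0 : 0 ≤ deriv smoothTransition (log (t / t0) / S) := smoothTransition.monotone.deriv_nonneg
  have d1 := hB1 (log (t / t0) / S)
  have big : t1 ^ 2 ≤ t ^ 2 → t0 * exp S ≤ t := fun h =>
    h01.trans_le ((sq_le_sq₀ ht1.le ht.le).1 h)
  have w4 : t ^ 2 ≤ 2 * t0 ^ 2 → 4 ≤ ww a S t0 t := fun h => by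
    rcases le_total t t0 with h' | h'
    · rw [ww_small hS h0 (by rwa [abs_of_pos ht])]
      norm_num
    · have l0 : 0 ≤ log (t / t0) := log_nonneg ((one_le_div h0).2 h')
      have l1 : log (t / t0) ≤ log 2 :=
        log_le_log (by positivity) ((div_le_iff₀ h0).2 (by nlinarith))
      have l2 := mul_le_mul_of_nonneg_left (hB2 _ (div_nonneg l0 hS.le)) ha
      have l3 : a * (B * (log (t / t0) / S)) = a * B / S * log (t / t0) := by ring
      have l4 := mul_le_mul_of_nonneg_right (hS2.trans hg1) l0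
      have l5 : exp (-log 2) ≤ exp (-(a * smoothTransition (log (t / t0) / S))) :=
        exp_le_exp.2 (by linarith)
      rw [exp_neg, exp_log two_pos] at l5
      unfold ww
      linarith
  generalize hd : deriv smoothTransition (log (t / t0) / S) = d at d0 d1 ⊢
  generalize hw : ww a S t0 t = w at *
  generalize om a S t0 t = o at *
  have e1 : t ^ 2 * (o * w / t) ^ 2 = o ^ 2 * w ^ 2 := by field_simp
  have e2 : t ^ 2 * (o * w / t) = o * (t * w) := by field_simp
  have e3 : 1 + 2 * t ^ 2 * (((w ^ 2 + o * (w * (-(a * d / S) / t))) * t - o * w) / (2 * t ^ 3)) /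
      (o * w / t) - t ^ 2 * (o * w / t) / o ^ 2 = -(a * d / S) := by
    field_simp
    ring
  have w2 : lam ≤ w := hw ▸ w1 t
  have a1 : 0 ≤ a * d / S := by positivity
  have a2 : a * d / S ≤ a * B / S := by gcongr
  rw [e3, e1, e2, sqrt_sq o0.le]
  refine ⟨?_, ?_, o4, by positivity, by nlinarith, ?_, by linarith, by linarith, fun h => ?_,
    fun h => ⟨?_, ?_⟩⟩
  · rw [← mul_pow, mul_comm]
    exact pow_le_pow_left₀ (by positivity) o1 2
  · nlinarith
  · rw [mul_comm]
    gcongr
  · have := pow_le_pow_left₀ (by norm_num) (w4 h) 2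
    nlinarith [sq_nonneg o]
  · rw [← hw, ww_big hS h0 (big h), hla, mul_comm]
  · rw [← hd, th_one (one_le_arg hS h0 (big h))]
    simp

end Vale.Agent.P088
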