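import Vale.Agent.P088.StA

/-!
# P088: the change of variables `y = x + w / s(x)` in Lemma Q
-/

open MeasureTheory Set
open scoped ContDiff Topology

noncomputable section
namespace Vale.Agent.P088
open Vale.Agent.P136

namespace Qcv

variable {n : ℕ} {s : En n → ℝ}

lemma inv_sm (hs : Sm s) (h0 : ∀ x, 0 < s x) : Sm fun x => (s x)⁻¹ :=
  ContDiff.inv hs fun x => (h0 x).ne'

lemma inv_deriv (hs : Sm s) (h0 : ∀ x, 0 < s x) (x v : En n) :
    fderiv ℝ (fun x => (s x)⁻¹) x v = -(D v s x / s x ^ 2) := by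
  have h3 := (hasDerivAt_inv (h0 x).ne').comp_hasFDerivAt x (hs.dAt x).hasFDerivAt
  have h4 : fderiv ℝ (fun x => (s x)⁻¹) x = _ := h3.fderiv
  rw [h4]
  simp only [smul_apply, smul_eq_mul, D]
  ring

/-- The weight `s ^ (-n / 2)`. -/
def mm (s : En n → ℝ) (x : En n) : ℝ := Real.exp (-(n / 2) * Real.log (s x))

lemma mm_sm (hs : Sm s) (h0 : ∀ x, 0 < s x) : Sm (mm s) :=
  ContDiff.exp (contDiff_const.mul (ContDiff.log hs fun x => (h0 x).ne'))

lemma mm_sq (h0 : ∀ x, 0 < s x) (x : En n) : s x ^ n * mm s x ^ 2 = 1 := by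
  have h1 : s x ^ n = Real.exp (n * Real.log (s x)) := by
    rw [Real.exp_nat_mul, Real.exp_log (h0 x)]
  rw [h1, mm, ← Real.exp_nat_mul, ← Real.exp_add, ← Real.exp_zero]
  congr 1
  push_cast
  ring

lemma mm_deriv (hs : Sm s) (h0 : ∀ x, 0 < s x) (x v : En n) :
    fderiv ℝ (mm s) x v = -(n / 2 * (D v s x / s x) * mm s x) := by
  have h3 := (((hs.dAt x).hasFDerivAt.log (h0 x).ne').const_mul (-((n : ℝ) / 2))).exp
  have h4 : fderiv ℝ (mm s) x = _ := h3.fderiv
  rw [h4]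
  simp only [smul_apply, smul_eq_mul, D, mm]
  ring

/-- The substitution `(x, w) ↦ (x, x + w / s(x))`. -/
def Psi (s : En n → ℝ) (p : X2 n) : X2 n := (p.1, p.1 + (s p.1)⁻¹ • p.2)

lemma Psi_sm (hs : Sm s) (h0 : ∀ x, 0 < s x) : ContDiff ℝ ∞ (Psi s) :=
  contDiff_fst.prodMk (contDiff_fst.add (((inv_sm hs h0).comp contDiff_fst).smul contDiff_snd))

/-- The substitution as a homeomorphism. -/
def PsiH (hs : Sm s) (h0 : ∀ x, 0 < s x) : X2 n ≃ₜ X2 n where
  toFun := Psi s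
  invFun p := (p.1, s p.1 • (p.2 - p.1))
  left_inv p := by
    simp only [Psi, add_sub_cancel_left, smul_inv_smul₀ (h0 p.1).ne']
  right_inv p := by
    simp only [Psi, inv_smul_smul₀ (h0 p.1).ne', add_sub_cancel]
  continuous_toFun := (Psi_sm hs h0).continuous
  continuous_invFun := continuous_fst.prodMk
    ((hs.cont.comp continuous_fst).smul (continuous_snd.sub continuous_fst))

lemma tst_comp (hs : Sm s) (h0 : ∀ x, 0 < s x) {f : X2 n → ℝ} (hf : Tst f) :
    Tst fun p => f (Psi s p) :=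
  ⟨hf.1.comp (Psi_sm hs h0), hf.2.comp_homeomorph (PsiH hs h0)⟩

lemma integral_comp (hs : Sm s) (h0 : ∀ x, 0 < s x) {f : X2 n → ℝ} (hf : Tst f) :
    ∫ p, f (Psi s p) = ∫ p : X2 n, s p.1 ^ n * f p := by
  have h1 : Integrable (fun p => f (Psi s p)) ((volume : Measure (En n)).prod volume) :=
    (tst_comp hs h0 hf).integrable (μ := (volume : Measure (X2 n)))
  have h2 : Integrable (fun p : X2 n => s p.1 ^ n * f p)
      ((volume : Measure (En n)).prod volume) :=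
    hf.integrable_cmul (μ := (volume : Measure (X2 n))) ((hs.cont.comp continuous_fst).pow n)
  rw [Measure.volume_eq_prod, integral_prod _ h1, integral_prod _ h2]
  congr 1
  funext x
  have h3 := Measure.integral_comp_smul (volume : Measure (En n)) (fun t => f (x, x + t)) (s x)⁻¹
  have h4 := integral_add_left_eq_self (μ := (volume : Measure (En n))) (fun y => f (x, y)) x
  simp only [Psi]
  rw [h3, h4, integral_const_mul, finrank_euclideanSpace_fin, inv_pow, inv_inv,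
    abs_of_pos (pow_pos (h0 x) n), smul_eq_mul]

lemma integral_comp' (hs : Sm s) (h0 : ∀ x, 0 < s x) {f : X2 n → ℝ} (hf : Tst f) :
    ∫ p : X2 n, mm s p.1 ^ 2 * f (Psi s p) = ∫ p, f p := by
  have hm : Sm fun p : X2 n => mm s p.1 ^ 2 := Sm.pow ((mm_sm hs h0).comp contDiff_fst) 2
  refine (integral_comp hs h0 (hf.mul_left hm)).trans ?_
  congr 1
  funext p
  rw [← mul_assoc, mm_sq h0, one_mul]

lemma Psi_deriv (hs : Sm s) (h0 : ∀ x, 0 < s x) (p v : X2 n) : fderiv ℝ (Psi s) p v =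
    (v.1, v.1 + ((s p.1)⁻¹ • v.2 + fderiv ℝ (fun x => (s x)⁻¹) p.1 v.1 • p.2)) := by
  have h1 := ((inv_sm hs h0).dAt p.1).hasFDerivAt.comp p hasFDerivAt_fst
  have h2 := hasFDerivAt_fst.prodMk (hasFDerivAt_fst.add (h1.smul hasFDerivAt_snd))
  have h3 : fderiv ℝ (Psi s) p = _ := h2.fderiv
  rw [h3]
  simp

lemma D_comp (hs : Sm s) (h0 : ∀ x, 0 < s x) {f : X2 n → ℝ} (hf : Sm f) (p v : X2 n) :
    D v (fun p => f (Psi s p)) p = fderiv ℝ f (Psi s p) (fderiv ℝ (Psi s) p v) := by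
  have h1 := (hf.dAt (Psi s p)).hasFDerivAt.comp p
    (((Psi_sm hs h0).differentiable (by simp)) p).hasFDerivAt
  have h2 : fderiv ℝ (fun p => f (Psi s p)) p = _ := h1.fderiv
  unfold D
  rw [h2]
  rfl

lemma D_fst {k : En n → ℝ} (hk : Sm k) (p v : X2 n) :
    D v (fun p : X2 n => k p.1) p = fderiv ℝ k p.1 v.1 := by
  have h2 := (hk.dAt p.1).hasFDerivAt.comp p hasFDerivAt_fst
  have h3 : fderiv ℝ (fun p : X2 n => k p.1) p = _ := h2.fderiv
  unfold D
  rw [h3]
  rfl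

lemma D_ey (hs : Sm s) (h0 : ∀ x, 0 < s x) {r : X2 n → ℝ} (hr : Sm r) (p : X2 n) (i : Fin n) :
    D (ey i) (fun p => mm s p.1 * s p.1 * r (Psi s p)) p = mm s p.1 * D (ey i) r (Psi s p) := by
  have hk0 : Sm fun x => mm s x * s x := (mm_sm hs h0).mul hs
  have hk : Sm fun p : X2 n => mm s p.1 * s p.1 := hk0.comp contDiff_fst
  have hr' : Sm fun p => r (Psi s p) := hr.comp (Psi_sm hs h0)
  have h1 : D (ey i) (fun p : X2 n => mm s p.1 * s p.1) p = 0 := by
    rw [D_fst hk0]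
    simp [ey]
  have h4 : fderiv ℝ (Psi s) p (ey i) = (s p.1)⁻¹ • ey i := by
    rw [Psi_deriv hs h0]
    simp [ey]
  rw [D_mul_at (hk.dAt p) (hr'.dAt p), h1, D_comp hs h0 hr, h4, map_smul, smul_eq_mul, zero_mul,
    add_zero, mul_assoc, mul_inv_cancel_left₀ (h0 p.1).ne']
  rfl

lemma sum_ey (t : En n) : ((0, t) : X2 n) = ∑ k, t k • ey k := by
  refine Prod.ext ?_ ?_
  · simp [ey, Prod.fst_sum]
  · ext j
    simp [ey, ee, Prod.snd_sum, Pi.single_apply]

lemma D_ex (hs : Sm s) (h0 : ∀ x, 0 < s x) {g : X2 n → ℝ} (hg : Sm g) (p : X2 n) (i : Fin n) :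
    D (ex i) (fun p => mm s p.1 * g (Psi s p)) p =
      mm s p.1 * (D (ex i) g (Psi s p) + D (ey i) g (Psi s p) -
        D (ee i) s p.1 / s p.1 ^ 2 * ∑ k, p.2 k * D (ey k) g (Psi s p)) -
      n / 2 * (D (ee i) s p.1 / s p.1) * mm s p.1 * g (Psi s p) := by
  have hk : Sm fun p : X2 n => mm s p.1 := (mm_sm hs h0).comp contDiff_fst
  have hg' : Sm fun p => g (Psi s p) := hg.comp (Psi_sm hs h0)
  have h4 : fderiv ℝ (Psi s) p (ex i) =
      ex i + ey i - (D (ee i) s p.1 / s p.1 ^ 2) • ∑ k, p.2 k • ey k := by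
    rw [Psi_deriv hs h0, ← sum_ey]
    simp only [ex, inv_deriv hs h0]
    simp [ey, sub_eq_add_neg]
  rw [D_mul_at (hk.dAt p) (hg'.dAt p), D_comp hs h0 hg, h4, D_fst (mm_sm hs h0), mm_deriv hs h0]
  simp only [map_sub, map_add, map_smul, map_sum, smul_eq_mul, neg_mul, ← sub_eq_add_neg]
  rfl

end Qcv

open Qcv in
theorem s_Qcv (h : S_Q) : S_Qcv := by
  intro n s r g hs h0 hr hg
  have hk : Sm fun p : X2 n => s p.1 := hs.comp contDiff_fst
  have hm : Sm fun p : X2 n => mm s p.1 := (mm_sm hs h0).comp contDiff_fst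
  have hc1 : ∀ i, Sm fun p : X2 n => p.1 i := fun i =>
    (EuclideanSpace.proj i : En n →L[ℝ] ℝ).contDiff.comp contDiff_fst
  have hc2 : ∀ i, Sm fun p : X2 n => p.2 i := fun i =>
    (EuclideanSpace.proj i : En n →L[ℝ] ℝ).contDiff.comp contDiff_snd
  have H := h n _ _ (Tst.mul_left (hm.mul hk) (tst_comp hs h0 hr))
    (Tst.mul_left hm (tst_comp hs h0 hg))
  have e1 := integral_comp' hs h0 (Tst.mul_left (hk.pow 2) hr.sq)
  have e2 : ∀ i : Fin n, _ := fun i => integral_comp' hs h0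
    (((((hr.D (ey i)).neg.add
      (Tst.mul_left ((hk.pow 2).mul ((hc2 i).sub (hc1 i))) hr)).add (hg.D (ex i))).add
      (hg.D (ey i))).sub
      (Tst.mul_left (ContDiff.div ((hs.D (ee i)).comp contDiff_fst) hk fun p => (h0 p.1).ne')
        ((Tst.sum Finset.univ fun k _ =>
          Tst.mul_left ((hc2 k).sub (hc1 k)) (hg.D (ey k))).add (hg.const_mul (n / 2))))).sq
  refine le_of_eq_of_le ?_ (H.trans (le_of_eq ?_))
  · congr 1
    refine e1.symm.trans ?_
    congr 1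
    funext p
    have h3 : (Psi s p).1 = p.1 := rfl
    rw [h3]
    ring
  · refine Finset.sum_congr rfl fun i _ => Eq.trans ?_ (e2 i)
    congr 1
    funext p
    have h1 := (h0 p.1).ne'
    have h2 : ∀ k, (Psi s p).2 k - (Psi s p).1 k = (s p.1)⁻¹ * p.2 k := fun k => by
      simp [Psi]
    have h3 : (Psi s p).1 = p.1 := rfl
    rw [D_ey hs h0 hr.sm, D_ex hs h0 hg.sm]
    simp only [h2, mul_assoc, ← Finset.mul_sum, Pi.div_apply, Function.comp_apply]
    rw [h3, ← mul_pow]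
    congr 1
    field_simp
    ring

end Vale.Agent.P088
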