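import Vale.Agent.P088.R1a
import Vale.Agent.P088.IdTool

/-!
# P088: first-order multiplier estimates for `g + q`
-/

open MeasureTheory Set Metric Filter
open scoped ContDiff Topology

noncomputable section
namespace Vale.Agent.P088
open Vale.Agent.P136 (D Dp Dm Sm Tst D_add_at D_congr D_const iadd isub tsupport_Dp Dp_add)

namespace R1
open EBm (n2_nonneg sb_val)
open IdT

variable {n : ℕ} {ι : Type} {f : Fx} {c : Cx n ι} {p : X2 n}

theorem int5 {F k F1 F2 F3 F4 F5 : X2 n → ℝ} {S2 S4 S5 : Set (X2 n)} {a1 a2 a3 a4 a5 : ℝ}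
    (hk : Ex volume k) (h0 : Integrable F) (h1 : Integrable F1) (h2 : Integrable F2)
    (h3 : Integrable F3) (h4 : Integrable F4) (h5 : Integrable F5) (m2 : MeasurableSet S2)
    (m4 : MeasurableSet S4) (m5 : MeasurableSet S5)
    (h : ∀ p, F p ≤ k p + (a1 * F1 p + a2 * S2.indicator F2 p + a3 * F3 p +
      a4 * S4.indicator F4 p + a5 * S5.indicator F5 p)) :
    ∫ p, F p ≤ a1 * (∫ p, F1 p) + a2 * (∫ p in S2, F2 p) + a3 * (∫ p, F3 p) +
      a4 * (∫ p in S4, F4 p) + a5 * ∫ p in S5, F5 p := by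
  have j1 := h1.const_mul a1
  have j2 := (h2.indicator m2).const_mul a2
  have j3 := h3.const_mul a3
  have j4 := (h4.indicator m4).const_mul a4
  have j5 := (h5.indicator m5).const_mul a5
  have k2 := iadd j1 j2
  have k3 := iadd k2 j3
  have k4 := iadd k3 j4
  refine (integral_mono h0 (iadd hk.1 (iadd k4 j5)) h).trans_eq ?_
  rw [integral_add hk.1 (iadd k4 j5), integral_add k4 j5, integral_add k3 j4, integral_add k2 j3,
    integral_add j1 j2, hk.2, zero_add]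
  simp only [integral_const_mul, integral_indicator m2, integral_indicator m4,
    integral_indicator m5]

theorem core1 {m u a r g V T E Z d G s l K : ℝ} (m0 : 0 ≤ m) (m1 : m ≤ 1) (a0 : 0 ≤ a)
    (K1 : 1 ≤ K) (G0 : 0 ≤ G) (s0 : 0 ≤ s) (hZ : a ≤ 2 * u * Z) (hV : u ^ 2 * V ^ 2 ≤ 2 * G)
    (hE : u ^ 2 * E ^ 2 ≤ 2 * K * l) (hd : |d| ≤ K * s) :
    m * a ^ 2 * r ^ 2 ≤ 2 * (2 * r * (m * u * a * (T - V - 2 * E * g + Z * r)) + d * r ^ 2) +
      96 * K * (G + s * r ^ 2 + m * u ^ 2 * T ^ 2 + l * g ^ 2) := by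
  have h1 := mul_le_mul_of_nonneg_left hZ (by positivity : 0 ≤ m * a * r ^ 2)
  have h2 := mul_nonneg m0 (sq_nonneg (a * r - 2 * u * (V - T + 2 * E * g)))
  have h3 : 0 ≤ m * u ^ 2 * ((V + T) ^ 2 + (V - 2 * E * g) ^ 2 + (T + 2 * E * g) ^ 2) := by
    positivity
  have h4 := (mul_le_of_le_one_left (by positivity) m1).trans hV
  have h5 := mul_le_mul_of_nonneg_right ((mul_le_of_le_one_left (by positivity) m1).trans hE)
    (sq_nonneg g)
  have h6 := mul_le_mul_of_nonneg_right (abs_le.1 hd).1 (sq_nonneg r)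
  have h7 := le_mul_of_one_le_left G0 K1
  have h8 := le_mul_of_one_le_left (by positivity : 0 ≤ m * u ^ 2 * T ^ 2) K1
  have h9 : 0 ≤ K * (s * r ^ 2) := by positivity
  have h10 : 0 ≤ m * u ^ 2 * T ^ 2 := by positivity
  linarith

theorem core3 {m u a r g T V U E Γ Lq Lg ρ d e N G l K M : ℝ} (m0 : 0 ≤ m) (m1 : m ≤ 1)
    (u0 : 0 ≤ u) (K1 : 1 ≤ K) (KM : 15 * K ≤ M) (G0 : 0 ≤ G) (l0 : 0 ≤ l) (N1 : 1 ≤ N)
    (V0 : 0 ≤ V) (E0 : 0 ≤ E) (ρ0 : 0 ≤ ρ) (hT : T ≤ 3 * (V + U + 4 * E * g ^ 2))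
    (hU : U / 2 ≤ Γ) (hV : u * V ≤ 2 * G) (hR : u * (2 * ρ + |d|) ≤ K * a ^ 2)
    (he : |e| ≤ K * a ^ 2) (hE : u * E ≤ K * l) (hu : u * N ≤ a) :
    m * u * T ≤ 6 * (m * u * Γ + m * u * r * (Lg + Lq) -
      (2 * (m * u) * ρ + m * u * d + 1 / 2 * e) * r ^ 2) +
      (M * G + M * (a ^ 2 * r ^ 2) + M / N ^ 2 * Lq ^ 2 + 15 * K * (l * g ^ 2) + 3 * Lg ^ 2) := by
  obtain ⟨v, rfl⟩ : ∃ v, Lq = N * v := ⟨Lq / N, by field_simp⟩
  have e1 : M / N ^ 2 * (N * v) ^ 2 = M * v ^ 2 := by field_simp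
  have w0 := mul_nonneg m0 u0
  have h1 := mul_le_mul_of_nonneg_left hT w0
  have h2 := mul_le_mul_of_nonneg_left hU w0
  have h3 := (mul_le_of_le_one_left (mul_nonneg u0 V0) m1).trans hV
  have h4 := mul_le_mul_of_nonneg_right
    ((mul_le_of_le_one_left (by positivity) m1).trans hR) (sq_nonneg r)
  have h5 := mul_le_mul_of_nonneg_right (mul_le_mul_of_nonneg_left (le_abs_self d) w0) (sq_nonneg r)
  have h6 := mul_le_mul_of_nonneg_right (abs_le.1 he).2 (sq_nonneg r)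
  have h7 := mul_le_mul_of_nonneg_right
    ((mul_le_of_le_one_left (mul_nonneg u0 E0) m1).trans hE) (sq_nonneg g)
  have h8 := mul_le_mul_of_nonneg_right (pow_le_pow_left₀ (by positivity)
    ((mul_le_of_le_one_left (by positivity) m1).trans hu) 2) (sq_nonneg r)
  have h9 := le_mul_of_one_le_right (sq_nonneg (m * u * r)) (one_le_pow₀ (n := 2) N1)
  have h10 := mul_le_mul_of_nonneg_right (by linarith : 6 ≤ M) G0
  have h11 := mul_le_mul_of_nonneg_right (by linarith : 9 * K + 6 ≤ M) (sq_nonneg (a * r))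
  have h12 := mul_le_mul_of_nonneg_right (by linarith : 3 ≤ M) (sq_nonneg v)
  have h13 : 0 ≤ K * (l * g ^ 2) := by positivity
  rw [e1]
  linarith [sq_nonneg (m * u * r * N + v), sq_nonneg (m * u * r + Lg)]

theorem Lg_le [Fintype ι] {b x : Fin n → ι → ℝ} {M : ℝ} (hb : ∀ a s, |b a s| ≤ M) :
    (∑ a, ∑ s, b a s * x a s) ^ 2 ≤ n * Fintype.card ι * M ^ 2 * ∑ s, n2 fun a => x a s := by
  have h := Finset.sum_mul_sq_le_sq_mul_sq Finset.univ (fun y : Fin n × ι => b y.1 y.2)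
    fun y => x y.1 y.2
  simp only [Fintype.sum_prod_type] at h
  refine h.trans (mul_le_mul ?_ Finset.sum_comm.le (by positivity) (by positivity))
  exact (Finset.sum_le_sum fun a _ => Finset.sum_le_sum fun s _ =>
    sq_le_sq' (abs_le.1 (hb a s)).1 (abs_le.1 (hb a s)).2).trans (by simp [mul_assoc])

theorem n2_three {T V U E : Fin n → ℝ} {g : ℝ} (h : ∀ i, T i = V i - U i + 2 * E i * g) :
    n2 T ≤ 3 * (n2 V + n2 U + 4 * n2 E * g ^ 2) := by
  simp only [n2, Finset.mul_sum, Finset.sum_mul, ← Finset.sum_add_distrib]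
  refine Finset.sum_le_sum fun i _ => ?_
  rw [h]
  linarith [sq_nonneg (V i + U i), sq_nonneg (V i - 2 * E i * g), sq_nonneg (U i + 2 * E i * g)]

theorem T_eq {g q : X2 n → ℝ} (hg : Sm g) (hq : Sm q) (i : Fin n) :
    (px f c g p + py f c g p) i = (zy f c q p - zx f c g p) i -
      zy f c (fun p => g p + q p) p i + 2 * (dx (phi f c) p + dyy (phi f c) p) i * g p := by
  simp only [px, py, zx, zy, dx, dyy, Pi.add_apply, Pi.sub_apply, Dp, Dm,
    D_add_at (hg.dAt p) (hq.dAt p)]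
  ring

theorem dir_eq {g q w : X2 n → ℝ} (hg : Sm g) (hq : Sm q) :
    dir ey (fun i p => w p * zz p i) (fun p => g p + q p) p =
      w p * (zd p (px f c g p + py f c g p) - zd p (zy f c q p - zx f c g p) -
        2 * zd p (dx (phi f c) p + dyy (phi f c) p) * g p +
        zd p (dyy (phi f c) p) * (g p + q p)) := by
  simp only [dir, zd, Finset.mul_sum, Finset.sum_mul, ← Finset.sum_add_distrib,
    ← Finset.sum_sub_distrib]
  refine Finset.sum_congr rfl fun i _ => ?_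
  rw [T_eq hg hq]
  simp only [zy, Dm, dyy]
  ring

theorem Lp_add {γ : Fin n → Fin n → X2 n → ℝ} {φ g q : X2 n → ℝ} (hγ : SmM γ) (hφ : Sm φ)
    (hg : Tst g) (hq : Tst q) :
    Lp' ey γ φ (fun p => g p + q p) p = Lp' ey γ φ g p + Lp' ey γ φ q p := by
  simp only [Lp', Dp_add hg.sm hq.sm, mul_add, Finset.sum_add_distrib,
    fun i => Dp_add (φ := φ) (tst_Zp (v := ey) hγ hφ hg i).sm (tst_Zp (v := ey) hγ hφ hq i).sm]

theorem dvg_ev {Y : Fin n → X2 n → ℝ} (h : ∀ i, Y i =ᶠ[𝓝 p] fun _ => 0) : dvg ey Y p = 0 :=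
  Finset.sum_eq_zero fun i _ => (D_congr (h i) _).trans (D_const 0 _ _)

theorem dgd_ev {γ : Fin n → Fin n → X2 n → ℝ} {w : X2 n → ℝ} (h : w =ᶠ[𝓝 p] fun _ => 0) :
    dgd ey γ w p = 0 := dvg_ev fun i => by
  filter_upwards [h.eventuallyEq_nhds] with x hx
  simp only [XX, D_congr hx, D_const, mul_zero, Finset.sum_const_zero]

theorem zd_sq (w0 : W0 f c) (ζ : Fin n → ℝ) : zd p ζ ^ 2 ≤ 2 * QQ c p * n2 ζ := by
  refine (Finset.sum_mul_sq_le_sq_mul_sq _ _ _).trans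
    (mul_le_mul_of_nonneg_right ?_ (n2_nonneg ζ))
  rw [← EuclideanSpace.real_norm_sq_eq]
  linarith [(w0.2.2.1 p).1]

theorem gV_ge (w0 : W0 f c) (ζ ζ' : Fin n → ℝ) : n2 (ζ' - ζ) ≤ 2 * gV c p ζ ζ' := by
  have := ((w0.2.2.1 p).2.2.2.2.2.2.2.2.2.2.2.2.2.2.2.2.2 (ζ' - ζ)).2.2.2.2.1
  unfold gV
  linarith

theorem pos0 (w0 : W0 f c) (p : X2 n) : 0 ≤ QQ c p ∧ 0 ≤ Psi f c p ∧ 0 ≤ al f c p ∧
    0 ≤ nl f c p ∧ ∀ N ζ ζ', 0 ≤ rh f c N p * al f c p * gV c p ζ ζ' := by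
  obtain ⟨h1, -, h2, -, h3, -⟩ := w0.2.2.1 p
  have q0 : 0 ≤ QQ c p := le_trans (by positivity) h1
  have P0 : 0 ≤ Psi f c p := mul_nonneg q0 h2.le
  have a0 : 0 ≤ al f c p := mul_nonneg h2.le (by linarith)
  refine ⟨q0, P0, a0, mul_nonneg (mul_nonneg (w0.2.1 p.1).1.le (sq_nonneg _)) (by linarith),
    fun N ζ ζ' => mul_nonneg (mul_nonneg (by unfold rh; positivity) a0) ?_⟩
  linarith [gV_ge (p := p) w0 ζ ζ', n2_nonneg (ζ' - ζ)]

theorem inv_le {K M N : ℝ} (h : Pt f c p K) (M0 : 0 < M) (hM : M ≤ Psi f c p) (hN : 1 ≤ N) :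
    2 * (QQ c p)⁻¹ ≤ (1 / N ^ 2 + 1 / M) * (rh f c N p * al f c p) ∧
      2 * (QQ c p)⁻¹ ≤ al f c p / M := by
  have Q0 := h.Q0
  have P0 := M0.trans_le hM
  have a0 : 0 ≤ al f c p := pos_of_mul_pos_left (by linarith [h.a2]) Q0.le |>.le
  have h1 : 2 * (QQ c p)⁻¹ ≤ al f c p / Psi f c p := by
    rw [← div_eq_mul_inv, div_le_div_iff₀ Q0 P0]
    exact h.a2
  refine ⟨h1.trans ?_, h1.trans (div_le_div_of_nonneg_left a0 M0 hM)⟩
  have e : al f c p / Psi f c p = (1 / N ^ 2 + 1 / Psi f c p) * (rh f c N p * al f c p) := by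
    unfold rh
    field_simp
    ring
  rw [e]
  unfold rh
  gcongr

theorem meas_Nr (w0 : W0 f c) (r : ℝ) : MeasurableSet (Nr f c r) :=
  (isClosed_le ((w0.1.2.2.2.2.1.pow 2).mul w0.1.2.2.2.2.2.2.1).cont continuous_const).measurableSet

theorem int_A2 (w0 : W0 f c) {g q : X2 n → ℝ} (hg : Tst g) (hq : Tst q) {N : ℝ} (hN : 1 ≤ N) :
    Integrable fun p => rh f c N p * al f c p * gV c p (zx f c g p) (zy f c q p) := by
  obtain ⟨-, -, sg, -, -, -, -, -, -, sP, sa, -, -, -, -, -, -, sφ, -⟩ := w0.1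
  have hV : ∀ i, Tst fun p => (zy f c q p - zx f c g p) i := fun i =>
    (Tst.Dm sφ hq _).sub (Tst.Dm sφ hg _)
  exact (tst_quad (c := fun i j p => gm c p i j) sg (fun i => (hV i).sm) hV).integrable_cmul
    ((continuous_const.div (continuous_const.add sP.cont) fun p =>
      (add_pos_of_pos_of_nonneg (by positivity) (pos0 w0 p).2.1).ne').mul sa.cont)

theorem tst_n2 {ζ : X2 n → Fin n → ℝ} (h : ∀ i, Tst fun p => ζ p i) : Tst fun p => n2 (ζ p) :=
  Tst.sum _ fun i _ => (h i).sq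

theorem nr_mono {r r' : ℝ} (h : p ∈ Nr f c r) (hr : r ≤ r') : p ∈ Nr f c r' := le_trans h hr

theorem one {K N N' : ℝ} (K1 : 1 ≤ K) (w0 : W0 f c)
    (hP : ∀ p ∈ Om2 c, p ∈ Nr f c 16 → 1 ≤ Psi f c p → Pt f c p K) {g q : X2 n → ℝ} (hg : Tst g)
    (hq : Tst q) (sg : tsupport g ⊆ Dom f c) (sq : tsupport q ⊆ Dom f c) (hN : 2 ≤ N)
    (hN' : 1 ≤ N') :
    ∫ p, mu f c N 1 p ^ 2 * al f c p ^ 2 * (g p + q p) ^ 2 ≤
      96 * K * ((1 / N' ^ 2 + 1 / N) *
        (∫ p, rh f c N' p * al f c p * gV c p (zx f c g p) (zy f c q p)) +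
      (∫ p in Nr f c 2, al f c p ^ 2 * (g p + q p) ^ 2) / N +
      (∫ p, mu f c N 1 p ^ 2 / QQ c p ^ 2 * zd p (px f c g p + py f c g p) ^ 2) +
      ∫ p in Nr f c 16, nl f c p * g p ^ 2) := by
  obtain ⟨-, -, -, -, sQ, -, sF, -, -, sP, sa, -, -, -, -, -, -, sφ, -, -, -, -, sl, -⟩ := w0.1
  have N0 : 0 < N := by linarith
  have hr := hg.add hq
  have sw : Sm fun p => mu f c N 1 p ^ 2 / QQ c p := by
    simpa only [pow_one] using sm_w sP sQ sF N0 one_pos 1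
  have i4 : Integrable fun p => nl f c p * g p ^ 2 := hg.sq.integrable_cmul sl.cont
  refine (int5 (a1 := 96 * K * (1 / N' ^ 2 + 1 / N)) (a2 := 96 * K / N) (a3 := 96 * K)
    (a4 := 96 * K) (a5 := 0)
    ((exZ1 volume ey hr fun i => (sw.mul sa).mul (sm_zz i)).cmul 2)
    (hr.sq.integrable_cmul (((sm_mu sP sQ sF N 1).pow 2).mul (sa.pow 2)).cont)
    (int_A2 w0 hg hq hN') (hr.sq.integrable_cmul (sa.pow 2).cont)
    ((Tst.sum _ fun i _ => Tst.mul_left (sm_zz i)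
      ((Tst.Dp sφ hg (ex i)).add (Tst.Dp sφ hg (ey i)))).sq.integrable_cmul
        (sm_w sP sQ sF N0 one_pos 2).cont)
    i4 i4 (meas_Nr w0 2) (meas_Nr w0 16) (meas_Nr w0 16) fun p => ?_).trans_eq (by
      simp only [zd, px, py, Pi.add_apply]
      ring)
  obtain ⟨q0, -, a0, l0, G0⟩ := pos0 w0 p
  have G1 := G0 N' (zx f c g p) (zy f c q p)
  by_cases h : p ∈ Om2 c ∧ N ≤ Psi f c p ∧ p ∈ Nr f c (2 * 1)
  · have h16 := nr_mono h.2.2 (by norm_num : (2 : ℝ) * 1 ≤ 16)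
    have pt := hP p h.1 h16 (by linarith [h.2.1])
    have Q0 := pt.Q0
    obtain ⟨u1, u2⟩ := inv_le pt N0 h.2.1 hN'
    have e1 : (QQ c p)⁻¹ * QQ c p = 1 := inv_mul_cancel₀ Q0.ne'
    have u0 := (inv_pos.2 Q0).le
    have z1 : ∀ ζ, (QQ c p)⁻¹ ^ 2 * zd p ζ ^ 2 ≤ 2 * (QQ c p)⁻¹ * n2 ζ := fun ζ =>
      (mul_le_mul_of_nonneg_left (zd_sq w0 ζ) (sq_nonneg _)).trans_eq (by
        linear_combination 2 * (QQ c p)⁻¹ * n2 ζ * e1)
    have := core1 (m := mu f c N 1 p ^ 2) (r := g p + q p) (g := g p) (u := (QQ c p)⁻¹)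
      (V := zd p (zy f c q p - zx f c g p)) (T := zd p (px f c g p + py f c g p))
      (E := zd p (dx (phi f c) p + dyy (phi f c) p)) (Z := zd p (dyy (phi f c) p))
      (G := (1 / N' ^ 2 + 1 / N) * (rh f c N' p * al f c p * gV c p (zx f c g p) (zy f c q p)))
      (s := al f c p ^ 2 / N) (l := nl f c p) (sq_nonneg _)
      (pow_le_one₀ (mu_bd N 1).1 (mu_bd N 1).2) a0 K1 (by positivity) (by positivity)
      (by
        have := mul_le_mul_of_nonneg_left pt.Z u0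
        linear_combination 2 * this - al f c p * e1)
      ((z1 _).trans ((mul_le_mul u1 (gV_ge w0 _ _) (n2_nonneg _)
        ((mul_nonneg zero_le_two u0).trans u1)).trans_eq (by ring)))
      ((z1 _).trans ((mul_le_mul_of_nonneg_left pt.E (mul_nonneg zero_le_two u0)).trans_eq
        (by linear_combination 2 * K * nl f c p * e1)))
      ((pt.W N 1 (by linarith) le_rfl (by norm_num)).2.trans (mul_le_mul_of_nonneg_left (by
        have := mul_le_mul_of_nonneg_left ((le_mul_of_one_le_left u0 one_le_two).trans u2) a0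
        rw [div_eq_mul_inv]
        exact this.trans_eq (by ring)) (by linarith)))
    rw [indicator_of_mem (nr_mono h.2.2 (by norm_num)), indicator_of_mem h16, dir_eq hg.sm hq.sm]
    simp only [div_eq_mul_inv, ← inv_pow] at this ⊢
    simp only [zd, px, py, Pi.add_apply] at this ⊢
    linarith
  · have h1 : 0 ≤ (Nr f c 2).indicator (fun p => al f c p ^ 2 * (g p + q p) ^ 2) p :=
      indicator_nonneg (fun _ _ => by positivity) p
    have h2 : 0 ≤ (Nr f c 16).indicator (fun p => nl f c p * g p ^ 2) p :=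
      indicator_nonneg (fun x _ => mul_nonneg (pos0 w0 x).2.2.2.1 (sq_nonneg _)) p
    refine le_trans (le_of_eq ?_) (le_add_of_nonneg_right (by positivity))
    rcases not_and_or.1 h with h | h
    · simp [image_eq_zero_of_notMem_tsupport fun h' => h (sg h').1,
        image_eq_zero_of_notMem_tsupport fun h' => h (sq h').1]
    · have e := mu_ev sP sQ sF N0 one_pos h
      rw [dvg_ev fun i => by filter_upwards [e] with x hx; simp [hx]]
      simp [dir, e.eq_of_nhds]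

theorem three [Fintype ι] (hCI : S_CI) {K M N N' : ℝ} (K1 : 1 ≤ K) (KM : 15 * K ≤ M)
    (hc : c.Ok f 1 0) (w0 : W0 f c)
    (hP : ∀ p ∈ Om2 c, p ∈ Nr f c 16 → 1 ≤ Psi f c p → Pt f c p K) {g q : ι → X2 n → ℝ}
    (ht : TT f c g q) (hN : 2 ≤ N) (hN' : 1 ≤ N') (s : ι) :
    ∫ p, mu f c (N / 2) 2 p ^ 2 / QQ c p * n2 (px f c (g s) p + py f c (g s) p) ≤
      M * ((1 / N' ^ 2 + 1 / N) *
        (∫ p, rh f c N' p * al f c p * gV c p (zx f c (g s) p) (zy f c (q s) p)) +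
      (∫ p in Nr f c 4, al f c p ^ 2 * (g s p + q s p) ^ 2) +
      (∫ p, Lp' ey (onY c.γ₂) (phi f c) (q s) p ^ 2) / N ^ 2) +
      15 * K * (∫ p in Nr f c 16, nl f c p * g s p ^ 2) +
      3 * (n * Fintype.card ι * f.Mb ^ 2) * IPy f c g := by
  obtain ⟨-, -, -, -, sQ, -, sF, -, -, sP, sa, -, -, -, -, -, -, sφ, -, -, -, -, sl, -, -, -, -, -,
    -, -, -, -, -, -, -, -, -, -, sL, -, -, -, -, sγ, yγ⟩ := w0.1
  obtain ⟨hg, hq, sg, sq⟩ := ht.1 s
  have N0 : 0 < N / 2 := by linarith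
  have hr := hg.add hq
  have sw : Sm fun p => mu f c (N / 2) 2 p ^ 2 / QQ c p := by
    simpa only [pow_one] using sm_w sP sQ sF N0 two_pos 1
  have i1 := (tst_quad sγ (fun i => (Tst.Dm sφ hr (ey i)).sm)
    fun i => Tst.Dm sφ hr (ey i)).integrable_cmul (μ := volume) sw.cont
  have i2 := (tst_Lp (v := ey) sγ sφ hr).integrable_cmul (μ := volume) (sw.mul hr.sm).cont
  have i3 := hr.sq.integrable_cmul (μ := volume) ((((sw.cmul 2).mul (sm_rho (v := ey) sγ sφ)).add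
    (sw.mul (sm_dgd (v := ey) sγ sφ))).add ((sm_dgd (v := ey) sγ sw).cmul (1 / 2))).cont
  have i5 : ∀ s', Integrable fun p => LX f c p.1 ^ 2 * n2 (py f c (g s') p) := fun s' =>
    (tst_n2 fun i => Tst.Dp sφ (ht.1 s').1 (ey i)).integrable_cmul
      ((sL.cont.comp continuous_fst).pow 2)
  refine (int5 (a1 := M * (1 / N' ^ 2 + 1 / N)) (a2 := M) (a3 := M / N ^ 2)
    (a4 := 15 * K) (a5 := 3 * (n * Fintype.card ι * f.Mb ^ 2))
    (Ex.cmul ⟨isub (iadd i1 i2) i3, by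
      rw [integral_sub (iadd i1 i2) i3, integral_add i1 i2,
        (hCI _ volume _ ey _ _ _ _ sγ yγ sφ hr sw).1]
      ring⟩ 6)
    ((tst_n2 (ζ := fun p => px f c (g s) p + py f c (g s) p) fun i =>
      (Tst.Dp sφ hg (ex i)).add (Tst.Dp sφ hg (ey i))).integrable_cmul sw.cont)
    (int_A2 w0 hg hq hN') (hr.sq.integrable_cmul (sa.pow 2).cont)
    (tst_Lp (v := ey) sγ sφ hq).sq.integrable (hg.sq.integrable_cmul sl.cont)
    (integrable_finsetSum Finset.univ fun s' _ => i5 s')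
    (meas_Nr w0 4) (meas_Nr w0 16) (meas_Nr w0 8) fun p => ?_).trans_eq (by
      rw [integral_finsetSum _ fun s' _ => (i5 s').integrableOn, IPy]
      ring)
  obtain ⟨q0, -, a0, l0, G0⟩ := pos0 w0 p
  have G1 := G0 N' (zx f c (g s) p) (zy f c (q s) p)
  have hΓ := ((w0.2.2.1 p).2.2.2.2.2.2.2.2.2.2.2.2.2.2.2.2.2
    (zy f c (fun p => g s p + q s p) p)).2.2.1
  have M0 : 0 ≤ M := by linarith
  by_cases h : p ∈ Om2 c ∧ N / 2 ≤ Psi f c p ∧ p ∈ Nr f c (2 * 2)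
  · have h16 := nr_mono h.2.2 (by norm_num : (2 : ℝ) * 2 ≤ 16)
    have pt := hP p h.1 h16 (by linarith [h.2.1])
    have Q0 := pt.Q0
    obtain ⟨u1, u2⟩ := inv_le pt N0 h.2.1 hN'
    have e1 : (QQ c p)⁻¹ * QQ c p = 1 := inv_mul_cancel₀ Q0.ne'
    have u0 := (inv_pos.2 Q0).le
    have r0 : 0 ≤ rh f c N' p * al f c p / N' ^ 2 := by
      have := (pos0 w0 p).2.1
      unfold rh
      positivity
    have := core3 (m := mu f c (N / 2) 2 p ^ 2) (r := g s p + q s p) (u := (QQ c p)⁻¹)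
      (Lq := Lp' ey (onY c.γ₂) (phi f c) (q s) p) (Lg := Lp' ey (onY c.γ₂) (phi f c) (g s) p)
      (G := (1 / N' ^ 2 + 1 / N) *
        (rh f c N' p * al f c p * gV c p (zx f c (g s) p) (zy f c (q s) p)))
      (l := nl f c p) (N := N) (sq_nonneg _) (pow_le_one₀ (mu_bd _ 2).1 (mu_bd _ 2).2) u0 K1 KM
      (by positivity) l0 (by linarith) (n2_nonneg _) (n2_nonneg _) (w0.2.2.1 p).2.2.2.2.2.2.1
      (n2_three (T_eq hg.sm hq.sm)) hΓ
      ((mul_le_mul (by linear_combination u1 / 2 + r0 / 2 :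
          _ ≤ (1 / N' ^ 2 + 1 / N) * (rh f c N' p * al f c p)) (gV_ge w0 _ _) (n2_nonneg _)
        (by linear_combination u0 + u1 / 2 + r0 / 2)).trans_eq (by ring))
      ((mul_le_mul_of_nonneg_left pt.R u0).trans_eq
        (by linear_combination K * al f c p ^ 2 * e1))
      (pt.W (N / 2) 2 (by linarith) one_le_two (by norm_num)).1
      ((mul_le_mul_of_nonneg_left pt.E u0).trans_eq (by linear_combination K * nl f c p * e1))
      (by linarith [(le_div_iff₀ N0).1 u2])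
    have h1 : Lp' ey (onY c.γ₂) (phi f c) (g s) p ^ 2 ≤ n * Fintype.card ι * f.Mb ^ 2 *
        ∑ s', LX f c p.1 ^ 2 * n2 (py f c (g s') p) := by
      rw [eq_neg_of_add_eq_zero_left (ht.2 p (Or.inr pt.zs) s), neg_sq]
      refine (Lg_le fun a s' => ?_).trans (mul_le_mul_of_nonneg_left (Finset.sum_le_sum
        fun s' _ => le_mul_of_one_le_left (n2_nonneg _)
          (one_le_pow₀ (hc.2.1.trans (w0.2.1 p.1).2.1))) (by positivity))
      simpa [Ds] using hc.2.2.2.2.2.2.2.2.2.2.2.2 a s s' p.2 [] (by simp)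
    rw [indicator_of_mem (nr_mono h.2.2 (by norm_num)), indicator_of_mem h16,
      indicator_of_mem (nr_mono h.2.2 (by norm_num)), Lp_add sγ sφ hg hq]
    simp only [bil, g2, zy, ry, div_eq_mul_inv (mu f c (N / 2) 2 p ^ 2), onY] at this ⊢
    linarith
  · have h1 : 0 ≤ (Nr f c 4).indicator (fun p => al f c p ^ 2 * (g s p + q s p) ^ 2) p :=
      indicator_nonneg (fun _ _ => by positivity) p
    have h2 : 0 ≤ (Nr f c 16).indicator (fun p => nl f c p * g s p ^ 2) p :=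
      indicator_nonneg (fun x _ => mul_nonneg (pos0 w0 x).2.2.2.1 (sq_nonneg _)) p
    have h3 : 0 ≤ (Nr f c 8).indicator
        (fun p => ∑ s', LX f c p.1 ^ 2 * n2 (py f c (g s') p)) p :=
      indicator_nonneg (fun _ _ => Finset.sum_nonneg fun _ _ =>
        mul_nonneg (sq_nonneg _) (n2_nonneg _)) p
    refine le_trans ?_ (le_add_of_nonneg_right (by positivity))
    rcases not_and_or.1 h with h | h
    · have h4 : p ∉ tsupport (g s) := fun h' => h (sg h').1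
      have h5 := mul_nonneg (div_nonneg (sq_nonneg (mu f c (N / 2) 2 p)) q0)
        (le_trans (div_nonneg (n2_nonneg _) zero_le_two) hΓ)
      have h6 : ∀ v, Dp (phi f c) v (g s) p = 0 := fun v =>
        image_eq_zero_of_notMem_tsupport fun h' => h4 (tsupport_Dp _ _ _ h')
      simp only [bil, g2, zy] at h5
      simp only [n2, px, py, Pi.add_apply, h6, image_eq_zero_of_notMem_tsupport h4,
        image_eq_zero_of_notMem_tsupport fun h' => h (sq h').1, onY]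
      simp only [add_zero, zero_pow two_ne_zero, Finset.sum_const_zero, mul_zero, zero_mul]
      linarith
    · have e := mu_ev sP sQ sF N0 two_pos h
      rw [dgd_ev (w := fun p => mu f c (N / 2) 2 p ^ 2 / QQ c p)
        (by filter_upwards [e] with x hx; simp [hx])]
      simp [e.eq_of_nhds]

end R1

theorem s_R1 (h0 : S_w0) (hq : S_wq) (hh : S_hess) (h1 : S_w1) (h2 : S_w2) (h3 : S_w3)
    (h7 : S_w7) : S_R1 := by
  intro n ι _ f hf
  obtain ⟨K, K1, h⟩ := R1.ev_pt h0 hq hh h1 h2 h3 h7 n ι f hf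
  refine ⟨96 * K, by linarith, h.mono fun c ⟨_, w0, hP⟩ g q ht N N' hN hN' => ?_⟩
  refine (Finset.sum_le_sum fun s _ => ?_).trans ((Finset.sum_le_sum fun s _ =>
    R1.one K1 w0 hP (ht.1 s).1 (ht.1 s).2.1 (ht.1 s).2.2.1 (ht.1 s).2.2.2 hN hN').trans_eq ?_)
  · rw [Measure.restrict_univ]
    rfl
  · simp only [A2, Rr, TZ, NN, I0, rr, ← Finset.mul_sum, Finset.sum_add_distrib, Finset.sum_div]

theorem s_R3 (h0 : S_w0) (hq : S_wq) (hh : S_hess) (h1 : S_w1) (h2 : S_w2) (h3 : S_w3)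
    (h7 : S_w7) (hCI : S_CI) (hXY : S_XY) : S_R3 := by
  intro n ι _ f hf
  obtain ⟨K, K1, h⟩ := R1.ev_pt h0 hq hh h1 h2 h3 h7 n ι f hf
  obtain ⟨C, C1, hXY⟩ := hXY n ι f hf
  set B : ℝ := Fintype.card ι * (3 * (n * Fintype.card ι * f.Mb ^ 2)) with hB
  have B0 : 0 ≤ B := by positivity
  have B1 : 0 ≤ B * C := by positivity
  refine ⟨15 * K + B * C, by linarith,
    (h.and hXY).mono fun c ⟨⟨hc, w0, hP⟩, hX⟩ g q ht N N' hN hN' => ?_⟩
  have h4 := Finset.sum_le_sum fun s (_ : s ∈ Finset.univ) =>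
    R1.three hCI K1 (le_add_of_nonneg_right B1) hc w0 hP ht hN hN' s
  have h5 := mul_le_mul_of_nonneg_left (hX g q ht).1 B0
  simp only [← Finset.mul_sum, Finset.sum_add_distrib, ← Finset.sum_div, Finset.sum_const,
    Finset.card_univ, nsmul_eq_mul] at h4
  simp only [TT2, A2, Rr, qLY, NN, I0, rr, hB] at h5 ⊢
  linarith

end Vale.Agent.P088
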