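import Vale.Agent.P088.Ww0a
import Vale.Agent.P088.SbLin
import Vale.Agent.P088.SbComp

/-!
# P088: smoothness, positivity and symmetry of the weight
-/

open MeasureTheory Set Metric Filter
open scoped ContDiff Topology

noncomputable section
namespace Vale.Agent.P088
open Vale.Agent.P136 (D Dp Dm Sm Tst D_add_at D_mul_at D_const D_const_mul_at D_sum_at D_exp_at)

namespace Ww0

variable {n : ℕ} {ι : Type} {f : Fx} {c : Cx n ι}

/-- The quadratic form is comparable with the Euclidean one. -/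
def Ell (γ : MatF n) : Prop := ∀ x (ζ : Fin n → ℝ),
  n2 ζ / 2 ≤ bil (fun i j => γ i j x) ζ ζ ∧ bil (fun i j => γ i j x) ζ ζ ≤ 2 * n2 ζ

/-- The inverse matrix. -/
def iv (γ : MatF n) : MatF n := fun i j x => (Matrix.of fun a b => γ a b x)⁻¹ i j

/-- The facts on the variable data that are used. -/
structure Bas (c : Cx n ι) : Prop where
  L : 1 ≤ c.L0
  s1 : SmM c.γ₁
  y1 : SymM c.γ₁
  e1 : Ell c.γ₁
  s2 : SmM c.γ₂
  y2 : SymM c.γ₂
  e2 : Ell c.γ₂
  si : SmM (iv c.γ₂)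
  yi : SymM (iv c.γ₂)
  ei : Ell (iv c.γ₂)
  mi : ∀ x i j, ∑ l, c.γ₂ i l x * iv c.γ₂ l j x = if i = j then 1 else 0

theorem n2_nonneg (ζ : Fin n → ℝ) : 0 ≤ n2 ζ := Finset.sum_nonneg fun _ _ => sq_nonneg _

theorem ell_of {γ : MatF n} {a : ℝ} (ha : a ≤ 1 / 2) (h : ∀ x (ξ : Fin n → ℝ),
    |bil (fun i j => γ i j x) ξ ξ - ∑ i, ξ i ^ 2| ≤ a * ∑ i, ξ i ^ 2) : Ell γ := by
  intro x ζ
  have h1 := abs_le.1 (h x ζ)
  have h2 := n2_nonneg ζ
  have h3 := mul_le_mul_of_nonneg_right ha h2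
  unfold n2 at *
  constructor <;> linarith [h1.1, h1.2]

theorem ev_bas (f : Fx) : Ev f fun c : Cx n ι => Bas c := by
  obtain ⟨C, om₀, hC, h0, h⟩ := SbLin.inv n 8
  have hC0 : 0 < C := by linarith
  refine ⟨min (om₀ / C) (1 / (2 * C ^ 2)), 0, by positivity, fun c hc => ?_⟩
  set om := min (om₀ / C) (1 / (2 * C ^ 2)) with hom
  have ho : 0 < om := by positivity
  have a1 : C * om ≤ om₀ := by
    rw [mul_comm, ← le_div_iff₀ hC0]; exact min_le_left _ _
  have a2 : C * (C * om) ≤ 1 / 2 := by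
    have : om ≤ 1 / (2 * C ^ 2) := min_le_right _ _
    rw [le_div_iff₀ (by positivity)] at this
    linarith
  have a3 : om ≤ C * om := le_mul_of_one_le_left ho.le hC
  have a4 : C * om ≤ C * (C * om) := le_mul_of_one_le_left (by positivity) hC
  obtain ⟨-, hL, -, -, -, s1, y1, n1, s2, y2, n2, -⟩ := hc
  obtain ⟨-, -, -, -, b1⟩ := h _ om s1 y1 (a3.trans a1) n1
  obtain ⟨si, yi, ni, mi, b2⟩ := h _ om s2 y2 (a3.trans a1) n2
  obtain ⟨-, -, -, -, b3⟩ := h _ (C * om) si yi a1 ni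
  exact ⟨hL, s1, y1, ell_of (a4.trans a2) b1, s2, y2, ell_of (a4.trans a2) b2, si, yi,
    ell_of a2 b3, mi⟩

theorem cut_nonneg (s : ℝ) : 0 ≤ cut s := Real.smoothTransition.nonneg _
theorem cut_le (s : ℝ) : cut s ≤ 1 := Real.smoothTransition.le_one _
theorem cut_one {s : ℝ} (h : s ≤ 1) : cut s = 1 := Real.smoothTransition.one_of_one_le (by linarith)
theorem cut_zero {s : ℝ} (h : 2 ≤ s) : cut s = 0 :=
  Real.smoothTransition.zero_of_nonpos (by linarith)

theorem omj_ge (hb : Bas c) (j : ℕ) : c.L0 ≤ omj c.L0 j :=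
  le_mul_of_one_le_right (zero_le_one.trans hb.L) (one_le_pow₀ one_le_two)

theorem wj_pos (hb : Bas c) (K : ℕ) (j : ℕ) : 0 < wj K c.L0 c.sg j :=
  mul_pos (pow_pos (lt_of_lt_of_le one_pos (hb.L.trans (omj_ge hb j))) _) (Real.exp_pos _)

theorem avg (hb : Bas c) {E : ℕ → ℝ} (hE : ∀ j, 0 < E j) :
    0 < ∑ j ∈ Finset.range (c.J + 1), E j ∧ c.L0 ≤
      (∑ j ∈ Finset.range (c.J + 1), omj c.L0 j * E j) / ∑ j ∈ Finset.range (c.J + 1), E j := by
  have h := Finset.sum_pos (s := Finset.range (c.J + 1)) (fun j _ => hE j)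
    Finset.nonempty_range_add_one
  refine ⟨h, ?_⟩
  rw [le_div_iff₀ h, Finset.mul_sum]
  exact Finset.sum_le_sum fun j _ => mul_le_mul_of_nonneg_right (omj_ge hb j) (hE j).le

theorem aU_pos (hb : Bas c) (K : ℕ) (u : ℝ) : 0 < aU K c.L0 c.sg c.J u :=
  mul_pos two_pos (avg hb fun j => mul_pos (wj_pos hb K j) (Real.exp_pos _)).1

theorem LU_ge (hb : Bas c) (K : ℕ) (u : ℝ) : c.L0 ≤ LU K c.L0 c.sg c.J u := by
  rw [LU, aU, mul_div_mul_left _ _ two_ne_zero]
  exact (avg hb fun j => mul_pos (wj_pos hb K j) (Real.exp_pos _)).2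

theorem sm_aU (K : ℕ) : ContDiff ℝ ∞ (aU K c.L0 c.sg c.J) := by
  rw [funext aU_eq]; exact contDiff_const.mul (mo_smooth 0)

theorem sm_LU (hb : Bas c) (K : ℕ) : ContDiff ℝ ∞ (LU K c.L0 c.sg c.J) := by
  rw [funext LU_eq]
  refine (mo_smooth 1).div (mo_smooth 0) fun u e => ?_
  have := aU_pos hb K u
  rw [aU_eq, e] at this
  simp at this

theorem sm_ell (hb : Bas c) (K : ℕ) : ContDiff ℝ ∞ (ell K c.L0 c.sg c.J) :=
  ((sm_aU K).log fun u => (aU_pos hb K u).ne').div_const 2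

theorem QQ_eq (p : X2 n) :
    QQ c p = bil (fun i j => iv c.γ₂ i j (mid p)) (fun i => zz p i) fun i => zz p i := by
  unfold QQ zt bil
  refine Finset.sum_congr rfl fun i _ => ?_
  rw [Finset.sum_mul]
  exact Finset.sum_congr rfl fun j _ => mul_right_comm _ _ _

theorem QQ_bd (hb : Bas c) (p : X2 n) : ‖zz p‖ ^ 2 / 2 ≤ QQ c p ∧ QQ c p ≤ 2 * ‖zz p‖ ^ 2 := by
  rw [QQ_eq, EuclideanSpace.real_norm_sq_eq]
  exact hb.ei _ _

theorem QQ_nonneg (hb : Bas c) (p : X2 n) : 0 ≤ QQ c p :=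
  le_trans (by positivity) (QQ_bd hb p).1

theorem Ej_pos (hb : Bas c) (p : X2 n) (j : ℕ) : 0 < Ej f c j p :=
  mul_pos (wj_pos hb _ j) (Real.exp_pos _)

theorem FF_pos (hb : Bas c) (p : X2 n) : 0 < FF f c p := (avg hb (Ej_pos hb p)).1

theorem vv_ge (hb : Bas c) (p : X2 n) : c.L0 ≤ vv f c p := (avg hb (Ej_pos hb p)).2

theorem vv_pos (hb : Bas c) (p : X2 n) : 0 < vv f c p :=
  lt_of_lt_of_le one_pos (hb.L.trans (vv_ge hb p))

theorem sig_ge (hf : f.Ok) (hb : Bas c) (p : X2 n) : 2 ≤ sig f c p := by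
  refine le_add_of_nonneg_right (div_nonneg (mul_nonneg (Om_nonneg hf (QQ_nonneg hb p)).2
    (Finset.sum_nonneg fun j _ => ?_)) (FF_pos hb p).le)
  exact mul_nonneg (div_nonneg (sq_nonneg _) (bj_pos hf (QQ_nonneg hb p) j).le)
    (Ej_pos hb p j).le

theorem al_pos (hf : f.Ok) (hb : Bas c) (p : X2 n) : 0 < al f c p :=
  mul_pos (FF_pos hb p) (two_pos.trans_le (sig_ge hf hb p))

theorem rho_eq (v : Fin n → X2 n) (γ : Fin n → Fin n → X2 n → ℝ) (φ : X2 n → ℝ) (p : X2 n) :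
    rho v γ φ p = bil (fun i j => γ i j p) (fun i => D (v i) φ p) fun i => D (v i) φ p := by
  unfold rho dir XX bil
  refine Finset.sum_congr rfl fun i _ => ?_
  rw [Finset.sum_mul]
  exact Finset.sum_congr rfl fun j _ => mul_right_comm _ _ _

theorem rx_nonneg (hb : Bas c) (p : X2 n) : 0 ≤ rx f c p := by
  rw [rx, rho_eq]
  exact (div_nonneg (n2_nonneg _) zero_le_two).trans (hb.e1 p.1 _).1

theorem ry_nonneg (hb : Bas c) (p : X2 n) : 0 ≤ ry f c p := by
  rw [ry, rho_eq]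
  exact (div_nonneg (n2_nonneg _) zero_le_two).trans (hb.e2 p.2 _).1

theorem Rs_pos (hf : f.Ok) (hb : Bas c) (p : X2 n) : 0 < Rs f c p :=
  mul_pos (mul_pos (FF_pos hb p) (pow_pos hf.2.2.2.2.2.2.2.2.1 2)) (pow_pos (vv_pos hb p) 6)

theorem T0_le (hf : f.Ok) : 0 < f.T0 ∧ 0 < f.e1 ∧ f.T0 ≤ f.e1 ∧ f.T0 ≤ 1 := by
  obtain ⟨h1, h2, h3, h4, h5, h6, -⟩ := hf
  have : f.lam ^ 2 ≤ 1 := by nlinarith
  have := mul_le_of_le_one_right h3.le this
  exact ⟨h5, h3, by linarith, by linarith⟩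

theorem cA_bd (hf : f.Ok) (hb : Bas c) (p : X2 n) : 0 ≤ cA f c p ∧ cA f c p ≤ 1 := by
  obtain ⟨a, b, d, e⟩ := T0_le hf
  have h1 : 0 ≤ thI f c p := cut_nonneg _
  have h2 : 0 ≤ 1 - thI f c p := sub_nonneg.2 (cut_le _)
  have h3 := sig_ge hf hb p
  have h4 : 0 < sig f c p := by linarith
  have h5 : (sig f c p + 2) / (2 * sig f c p) ≤ 1 := (div_le_one (by positivity)).2 (by linarith)
  have h6 : thO f c p ^ 2 * (f.T0 ^ 2 / f.e1) ≤ 1 :=
    mul_le_one₀ (pow_le_one₀ (cut_nonneg _) (cut_le _)) (by positivity)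
      ((div_le_one b).2 (by nlinarith))
  refine ⟨by unfold cA; positivity, ?_⟩
  have h7 := mul_le_of_le_one_right h1 h5
  have h8 := mul_le_of_le_one_right h2 h6
  unfold cA
  linarith

theorem cS_bd (hf : f.Ok) (p : X2 n) : 0 ≤ cS f c p ∧ cS f c p ≤ f.T0 := by
  obtain ⟨a, b, d, -⟩ := T0_le hf
  have h1 : 1 - thI f c p ≤ 1 := sub_le_self _ (cut_nonneg _)
  have h2 : 0 ≤ 1 - thI f c p := sub_nonneg.2 (cut_le _)
  have h3 : 0 ≤ thO f c p := cut_nonneg _
  have h4 : thO f c p ≤ 1 := cut_le _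
  have h5 : thO f c p * (f.T0 / f.e1) ≤ 1 := mul_le_one₀ h4 (by positivity) ((div_le_one b).2 d)
  have h6 : 0 ≤ thO f c p * f.T0 - thO f c p ^ 2 * (f.T0 ^ 2 / f.e1) := by
    have := mul_le_of_le_one_right (mul_nonneg h3 a.le) h5
    have e : thO f c p ^ 2 * (f.T0 ^ 2 / f.e1) =
      thO f c p * f.T0 * (thO f c p * (f.T0 / f.e1)) := by ring
    linarith
  refine ⟨mul_nonneg h2 h6, (mul_le_of_le_one_left h6 h1).trans ?_⟩
  exact (sub_le_self _ (by positivity)).trans (mul_le_of_le_one_left a.le h4)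

theorem bil_zt (hb : Bas c) (p : X2 n) (ζ : Fin n → ℝ) : bil (gm c p) (zt c p) ζ = zd p ζ := by
  unfold bil zd
  rw [Finset.sum_comm]
  refine Finset.sum_congr rfl fun j _ => ?_
  rw [← Finset.sum_mul]
  congr 1
  have e : ∀ i, gm c p i j * zt c p i =
      ∑ l, c.γ₂ j i (mid p) * iv c.γ₂ i l (mid p) * zz p l := fun i => by
    unfold gm zt
    rw [Finset.mul_sum, hb.y2 i j]
    exact Finset.sum_congr rfl fun l _ => (mul_assoc _ _ _).symm
  simp only [e]
  rw [Finset.sum_comm]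
  simp only [← Finset.sum_mul, hb.mi]
  simp

theorem mid_swap (p : X2 n) : mid p.swap = mid p := by simp [mid, add_comm]

theorem QQ_swap (p : X2 n) : QQ c p.swap = QQ c p := by
  have e : ∀ i, zz p.swap i = -zz p i := fun i => by simp [zz]
  simp only [QQ, zt, Gm, mid_swap, e, mul_neg, Finset.sum_neg_distrib, neg_mul, neg_neg]

theorem sm_mid : ContDiff ℝ ∞ (mid : X2 n → En n) :=
  (contDiff_fst.add contDiff_snd).const_smul (1 / 2 : ℝ)

theorem sm_crd {X : Type} [NormedAddCommGroup X] [NormedSpace ℝ X] {g : X → En n}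
    (hg : ContDiff ℝ ∞ g) (i : Fin n) : Sm fun p => g p i :=
  (EuclideanSpace.proj i : En n →L[ℝ] ℝ).contDiff.comp hg

theorem sm_cut {g : X2 n → ℝ} (hg : Sm g) : Sm fun p => cut (g p) := SbComp.cut_smooth.comp hg

theorem sm_bil {γ : X2 n → Fin n → Fin n → ℝ} {a b : X2 n → Fin n → ℝ}
    (hγ : ∀ i j, Sm fun p => γ p i j) (ha : ∀ i, Sm fun p => a p i)
    (hb : ∀ i, Sm fun p => b p i) : Sm fun p => bil (γ p) (a p) (b p) :=
  Sm.sum fun i _ => Sm.sum fun j _ => ((hγ i j).mul (ha i)).mul (hb j)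

theorem sm_tri {γ : X2 n → Fin n → Fin n → ℝ} {a b d : X2 n → Fin n → ℝ}
    (hγ : ∀ i j, Sm fun p => γ p i j) (ha : ∀ i, Sm fun p => a p i)
    (hb : ∀ i, Sm fun p => b p i) (hd : ∀ i, Sm fun p => d p i) (i : Fin n) :
    Sm fun p => tri (γ p) (a p) (b p) (d p) i :=
  (((sm_bil hγ hb hd).mul (ha i)).add ((sm_bil hγ ha hd).mul (hb i))).sub
    ((sm_bil hγ ha hb).mul (hd i))

theorem sm_rho {v : Fin n → X2 n} {γ : Fin n → Fin n → X2 n → ℝ} {φ : X2 n → ℝ} (hγ : SmM γ)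
    (hφ : Sm φ) : Sm (rho v γ φ) :=
  Sm.sum (s := Finset.univ) fun i _ =>
    (Sm.sum (s := Finset.univ) fun j _ => (hγ i j).mul (hφ.D (v j))).mul (hφ.D (v i))

theorem D_lX (hb : Bas c) (x : En n) (i : Fin n) : D (ee i) (lX f c) x = LX f c x * x i := by
  have h := (hasStrictFDerivAt_norm_sq x).hasFDerivAt
  refine (D_comp (h := fun x : En n => ‖x‖ ^ 2) (ell_deriv (aU_pos hb f.K _))
    h.differentiableAt (ee i)).trans ?_
  unfold D
  rw [h.fderiv]
  simp [ee, LX, EuclideanSpace.inner_single_right]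
  ring

end Ww0

open Ww0 in
theorem s_w0 : S_w0 := by
  intro n ι f hf
  refine (ev_bas f).mono fun c hb => ?_
  have ht0 : 0 < f.t0 := hf.2.2.2.2.2.2.2.2.1
  have ht1 : 0 < f.t1 := by linarith [hf.2.2.2.2.2.2.2.2.2.1]
  have hq := QQ_nonneg hb
  have hF : ∀ p, FF f c p ≠ 0 := fun p => (FF_pos hb p).ne'
  have hs : ∀ p, sig f c p ≠ 0 := fun p => (two_pos.trans_le (sig_ge hf hb p)).ne'
  have hx : ∀ p, rx f c p + al f c p ≠ 0 := fun p =>
    (add_pos_of_nonneg_of_pos (rx_nonneg hb p) (al_pos hf hb p)).ne'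
  have hy : ∀ p, ry f c p + al f c p ≠ 0 := fun p =>
    (add_pos_of_nonneg_of_pos (ry_nonneg hb p) (al_pos hf hb p)).ne'
  have sn : Sm fun x : En n => ‖x‖ ^ 2 := contDiff_norm_sq ℝ
  have su : Sm (uu : X2 n → ℝ) := sn.comp sm_mid
  have sG : ∀ i j, Sm fun p => Gm c p i j := fun i j => (hb.si i j).comp sm_mid
  have sg : ∀ i j, Sm fun p => gm c p i j := fun i j => (hb.s2 i j).comp sm_mid
  have sz : ∀ i, Sm fun p : X2 n => zz p i := sm_crd (contDiff_snd.sub contDiff_fst)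
  have sm : ∀ i, Sm fun p : X2 n => mv p i := sm_crd sm_mid
  have szt : ∀ i, Sm fun p => zt c p i := fun i => Sm.sum fun j _ => (sG i j).mul (sz j)
  have sQ : Sm (QQ c) := Sm.sum fun i _ => (szt i).mul (sz i)
  have sb : ∀ j, Sm (bj f c j) := fun j => ContDiff.sqrt
    (contDiff_const.add (contDiff_const.mul ((Om_smooth hf).comp sQ)))
    fun p => (rad_pos hf (hq p) _).ne'
  have sE : ∀ j, Sm (Ej f c j) := fun j => ((su.cmul _).add (sb j)).exp.cmul _
  have sF : Sm (FF f c) := Sm.sum fun j _ => sE j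
  have sv : Sm (vv f c) := ContDiff.div (Sm.sum fun j _ => (sE j).cmul _) sF hF
  have ss : Sm (sig f c) := contDiff_const.add (ContDiff.div
    ((sQ.mul ((Om_smooth' hf).comp sQ)).mul (Sm.sum fun j _ => Sm.mul
      (contDiff_const.div (sb j) fun p => (bj_pos hf (hq p) j).ne') (sE j))) sF hF)
  have sP : Sm (Psi f c) := sQ.mul sF
  have sal : Sm (al f c) := sF.mul ss
  have sA : Sm (AA f c) := sF.mul (ss.pow 2)
  have slu : Sm (lu f c) := (sm_ell hb _).comp su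
  have sp0 : Sm (ph0 f c) := sP.add (slu.cmul _)
  have sch : Sm (chf f c) := contDiff_const.sub (sm_cut (ContDiff.div_const (sQ.cmul 4) _))
  have saX : Sm (aX f c) := (sm_aU _).comp sn
  have sLX : Sm (LX f c) := (sm_LU hb _).comp sn
  have slX : Sm (lX f c) := (sm_ell hb _).comp sn
  have sfX : Sm (fX f c) := slX.exp
  have sff : Sm (ff f c) := sch.mul (sfX.comp contDiff_fst)
  have sfp : Sm (fp f c) := sff.mul (sLX.comp contDiff_fst)
  have sph : Sm (phi f c) := sp0.add sff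
  have sI : Sm (thI f c) := sm_cut (ContDiff.div_const sQ _)
  have sO : Sm (thO f c) := sm_cut (ContDiff.div_const sQ _)
  have sI' : Sm fun p => 1 - thI f c p := contDiff_const.sub sI
  have scA : Sm (cA f c) := (sI.mul (ContDiff.div (ss.add contDiff_const) (ss.cmul 2)
    fun p => mul_ne_zero two_ne_zero (hs p))).add (sI'.mul ((sO.pow 2).mul contDiff_const))
  have scS : Sm (cS f c) := sI'.mul ((sO.mul contDiff_const).sub ((sO.pow 2).mul contDiff_const))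
  have snl : Sm (nl f c) := Sm.mul (Sm.mul (saX.comp contDiff_fst)
    (Sm.pow (sLX.comp contDiff_fst) 2)) (contDiff_const.add sP)
  have sS : Sm (SS f c) := sv.add (sLX.comp contDiff_fst)
  have sH : Sm (HX f c) := sA.add (sfp.mul sS)
  have svp : Sm (vp f c) := ContDiff.div ((sv.cmul 2).mul scA) ss hs
  have sSt : Sm (St f c) := ((sF.cmul 2).mul sv).mul scS
  have s1 : SmM (onX c.γ₁) := fun i j => (hb.s1 i j).comp contDiff_fst
  have s2 : SmM (onY c.γ₂) := fun i j => (hb.s2 i j).comp contDiff_snd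
  have srx : Sm (rx f c) := sm_rho s1 sph
  have sry : Sm (ry f c) := sm_rho s2 sph
  have ssx : ∀ i, Sm fun p => sx f c p i := fun i => ContDiff.div
    (sSt.mul (sm_tri (γ := g1 c) (d := dx (phi f c)) s1 sm szt (fun _ => sph.D _) i))
    (srx.add sal) hx
  have ssy : ∀ i, Sm fun p => sy f c p i := fun i => ContDiff.div
    (sSt.mul (sm_tri (γ := g2 c) (d := dyy (phi f c)) s2 sm szt (fun _ => sph.D _) i))
    (sry.add sal) hy
  have sPx : ∀ i, Sm (Px f c i) := fun i =>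
    Sm.sum (s := Finset.univ) fun j _ => (s1 i j).mul ((svp.mul (sm j)).sub (ssx j))
  have sPy : ∀ i, Sm (Py f c i) := fun i =>
    Sm.sum (s := Finset.univ) fun j _ => (s2 i j).mul ((svp.mul (sm j)).add (ssy j))
  have sR : Sm (Rs f c) := (sF.mul contDiff_const).mul (sv.pow 6)
  have hR : ∀ p, Rs f c p ≠ 0 := fun p => (Rs_pos hf hb p).ne'
  refine ⟨⟨su, sG, sg, szt, sQ, fun j => ⟨sb j, sE j⟩, sF, sv, ss, sP, sal, sA, slu, sp0, sch, sff,
    sfp, sph, sI, sO, scA, scS, snl, sS, sH, svp, sSt, srx, sry,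
    fun i => ⟨ssx i, ssy i, sPx i, sPy i⟩, (sP.mul sv).add sfp, sP.mul sv,
    ContDiff.div (sal.pow 2) (srx.add sal) hx, ContDiff.div (sal.pow 2) (sry.add sal) hy, sR,
    sI'.mul (sm_cut (ContDiff.div srx sR hR)), sI'.mul (sm_cut (ContDiff.div sry sR hR)),
    saX, sLX, slX, sfX, s1, fun i j => funext fun p => congrFun (hb.y1 i j) p.1, s2,
    fun i j => funext fun p => congrFun (hb.y2 i j) p.2⟩, fun x => ?_, fun p => ?_, fun p => ?_,
    fun p => ?_⟩
  · have e : Real.exp (2 * lX f c x) = aX f c x := by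
      rw [lX, ell, mul_div_cancel₀ _ two_ne_zero, Real.exp_log (aU_pos hb _ _), aX]
    refine ⟨aU_pos hb _ _, LU_ge hb _ _, ?_, e, D_lX hb x⟩
    rw [← e, fX, ← Real.exp_nat_mul, Nat.cast_ofNat]
  · have h1 := cA_bd hf hb p
    have h2 := (vv_pos (f := f) hb p).le
    have h3 := sig_ge hf hb p
    refine ⟨(QQ_bd hb p).1, (QQ_bd hb p).2, FF_pos hb p, vv_ge hb p, h3, rx_nonneg hb p,
      ry_nonneg hb p, div_nonneg (mul_nonneg (by positivity) h1.1) (by linarith), ?_,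
      (cS_bd hf p).1, (cS_bd hf p).2, ?_, Rs_pos hf hb p, ?_, bil_zt hb p, hb.mi _,
      fun i j => congrFun (hb.yi i j) _, fun ζ => ⟨(hb.e1 _ ζ).1, (hb.e1 _ ζ).2, (hb.e2 _ ζ).1,
        (hb.e2 _ ζ).2, (hb.e2 _ ζ).1, (hb.e2 _ ζ).2⟩⟩
    · rw [vp, div_mul_cancel₀ _ (hs p)]
      exact mul_le_of_le_one_right (by positivity) h1.2
    · exact mul_nonneg (mul_nonneg (sub_nonneg.2 (cut_le _)) (Real.exp_pos _).le)
        ((zero_le_one.trans hb.L).trans (LU_ge hb _ _))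
    · rw [bil_zt hb]
      exact Finset.sum_congr rfl fun i _ => mul_comm _ _
  · have e0 : uu p.swap = uu p := by rw [uu, mid_swap, uu]
    have e1 := QQ_swap (c := c) p
    have e2 : ∀ j, bj f c j p.swap = bj f c j p := fun j => by rw [bj, e1, bj]
    have e3 : ∀ j, Ej f c j p.swap = Ej f c j p := fun j => by rw [Ej, e0, e2, Ej]
    have e4 : FF f c p.swap = FF f c p := by simp only [FF, e3]
    have e5 : vv f c p.swap = vv f c p := by simp only [vv, e3, e4]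
    have e6 : sig f c p.swap = sig f c p := by simp only [sig, e1, e2, e3, e4]
    refine ⟨e1, e4, e5, e6, ?_, ?_⟩
    · simp only [ph0, Psi, lu, e0, e1, e4]
    · simp only [vp, cA, thI, thO, e1, e5, e6]
  · have lt : ∀ {a : ℝ}, QQ c p < a → ∀ᶠ q in 𝓝 p, QQ c q < a := fun h =>
      sQ.cont.continuousAt.eventually_lt_const h
    have gt : ∀ {a : ℝ}, a < QQ c p → ∀ᶠ q in 𝓝 p, a < QQ c q := fun h =>
      sQ.cont.continuousAt.eventually_const_lt h
    have c0 : ∀ q, QQ c q < f.t0 ^ 2 / 4 → chf f c q = 0 := fun q h => by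
      rw [chf, cut_one ((div_le_one (by positivity)).2 (by linarith)), sub_self]
    have c1 : ∀ q, QQ c q < f.t0 ^ 2 → thI f c q = 1 := fun q h =>
      cut_one ((div_le_one (by positivity)).2 h.le)
    refine ⟨fun h => ⟨(lt h).mono fun q hq => ?_, ?_⟩,
      fun h => ⟨(lt h).mono fun q hq => ?_, (lt h).mono c1⟩, fun h => (gt h).mono fun q hq => ?_,
      fun h => (gt h).mono fun q hq => cut_zero ((le_div_iff₀ (by positivity)).2 hq.le),
      fun h => (lt h).mono fun q hq => cut_one ((div_le_one (by positivity)).2 hq.le)⟩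
    · rw [phi, ff, c0 q hq, zero_mul, add_zero]
    · rw [fp, c0 p h, zero_mul, zero_mul]
    · rw [St, cS, c1 q hq, sub_self, zero_mul, mul_zero, Pi.zero_apply]
    · rw [chf, cut_zero ((le_div_iff₀ (by positivity)).2 (by linarith)), sub_zero, Pi.one_apply]

end Vale.Agent.P088
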