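import Vale.Agent.P088.StI
import Vale.Agent.P088.Ww0
import Vale.Agent.P088.EBm

/-!
# P088: pointwise facts in the zone `1 ≤ Ψ` near the diagonal
-/

open MeasureTheory Set Metric Filter
open scoped ContDiff Topology

noncomputable section
namespace Vale.Agent.P088
open Vale.Agent.P136 (D Dp Dm Sm Tst D_add_at D_mul_at D_const_mul_at D_sum_at D_congr)

namespace R1
open EBm (abs_sum_le abs_mul_le n2_nonneg sb_res sb_val sb_gam)

variable {n : ℕ} {ι : Type} {f : Fx} {c : Cx n ι} {p : X2 n}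

theorem sb1 {v : Fin n → X2 n} {w L : ℝ} {F : X2 n → ℝ} (h0 : |F p| ≤ w)
    (h1 : ∀ i, |D (v i) F p| ≤ w * L) : SB v 1 w L F p := by
  intro l hl
  match l, hl with
  | [], _ => simpa [Ds] using h0
  | [i], _ => simpa [Ds] using h1 i

theorem sb2 {v : Fin n → X2 n} {w L : ℝ} {F : X2 n → ℝ} (h1 : ∀ i, |D (v i) F p| ≤ w * L)
    (h2 : ∀ i j, |D (v i) (D (v j) F) p| ≤ w * L ^ 2) : SB1 v 2 w L F p := by
  intro l hl0 hl
  match l, hl0, hl with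
  | [i], _, _ => simpa [Ds] using h1 i
  | [i, j], _, _ => simpa [Ds] using h2 i j

theorem sb_D {κ : Type} {v : κ → X2 n} {k : ℕ} {w L : ℝ} {F : X2 n → ℝ}
    (h : SB v (k + 1) w L F p) (i : κ) : |D (v i) F p| ≤ w * L := sb_val (SbAlg.deriv i h)

theorem dgd_le {v : Fin n → X2 n} {γ : Fin n → Fin n → X2 n → ℝ} {F : X2 n → ℝ} {a b : ℝ}
    (sγ : SmM γ) (sF : Sm F) (hγ : ∀ i j, SB v 1 2 1 (γ i j) p) (h1 : ∀ j, |D (v j) F p| ≤ a)
    (h2 : ∀ i j, |D (v i) (D (v j) F) p| ≤ b) : |dgd v γ F p| ≤ n * (n * (2 * b + 2 * a)) := by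
  refine abs_sum_le fun i => ?_
  unfold XX
  rw [D_sum_at _ fun j _ => ((sγ i j).mul (sF.D _)).dAt p]
  refine abs_sum_le fun j => ?_
  rw [D_mul_at ((sγ i j).dAt p) ((sF.D _).dAt p)]
  exact (abs_add_le _ _).trans (add_le_add (abs_mul_le (sb_val (hγ i j)) (h2 i j))
    (abs_mul_le ((sb_D (hγ i j) i).trans_eq (mul_one 2)) (h1 j)))

theorem n2_le {ζ : Fin n → ℝ} {a : ℝ} (h : ∀ i, |ζ i| ≤ a) : n2 ζ ≤ n * a ^ 2 :=
  (Finset.sum_le_sum fun i _ => sq_le_sq' (abs_le.1 (h i)).1 (abs_le.1 (h i)).2).trans (by simp)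

theorem D_zz (i j : Fin n) : |D (ey j) (fun p : X2 n => zz p i) p| ≤ 1 := by
  have h := ((EuclideanSpace.proj i : En n →L[ℝ] ℝ).comp
    (ContinuousLinearMap.snd ℝ (En n) (En n) - ContinuousLinearMap.fst ℝ _ _)).fderiv (x := p)
  refine (congrArg (fun L : X2 n →L[ℝ] ℝ => |L (ey j)|) h).trans_le ?_
  simp only [ey, ee, ContinuousLinearMap.comp_apply, _root_.sub_apply, ContinuousLinearMap.coe_snd',
    ContinuousLinearMap.coe_fst', sub_zero, PiLp.proj_apply, PiLp.single_apply]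
  split_ifs <;> simp

theorem sm_zz (i : Fin n) : Sm fun p : X2 n => zz p i :=
  Ww0.sm_crd (contDiff_snd.sub contDiff_fst) i

theorem sm_mu (sP : Sm (Psi f c)) (sQ : Sm (QQ c)) (sF : Sm (FF f c)) (N r : ℝ) :
    Sm (mu f c N r) :=
  Sm.mul (contDiff_const.sub (Ww0.sm_cut (ContDiff.div_const sP N)))
    (Ww0.sm_cut (ContDiff.div_const ((sQ.pow 2).mul sF) r))

theorem mu_bd (N r : ℝ) : 0 ≤ mu f c N r p ∧ mu f c N r p ≤ 1 :=
  ⟨mul_nonneg (sub_nonneg.2 (Ww0.cut_le _)) (Ww0.cut_nonneg _),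
    mul_le_one₀ (sub_le_self _ (Ww0.cut_nonneg _)) (Ww0.cut_nonneg _) (Ww0.cut_le _)⟩

theorem mu_ev (sP : Sm (Psi f c)) (sQ : Sm (QQ c)) (sF : Sm (FF f c)) {N r : ℝ} (hN : 0 < N)
    (hr : 0 < r) (h : ¬(N ≤ Psi f c p ∧ p ∈ Nr f c (2 * r))) : mu f c N r =ᶠ[𝓝 p] 0 := by
  rcases not_and_or.1 h with h | h
  · filter_upwards [sP.cont.continuousAt.eventually_lt_const (not_le.1 h)] with x hx
    rw [mu, cq, Ww0.cut_one ((div_le_one hN).2 hx.le), sub_self, zero_mul, Pi.zero_apply]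
  · filter_upwards [((sQ.pow 2).mul sF).cont.continuousAt.eventually_const_lt (not_le.1 h)]
      with x hx
    rw [mu, cn, Ww0.cut_zero ((le_div_iff₀ hr).2 hx.le), mul_zero, Pi.zero_apply]

theorem sm_w (sP : Sm (Psi f c)) (sQ : Sm (QQ c)) (sF : Sm (FF f c)) {N r : ℝ} (hN : 0 < N)
    (hr : 0 < r) (k : ℕ) : Sm fun p => mu f c N r p ^ 2 / QQ c p ^ k := by
  refine contDiff_iff_contDiffAt.2 fun p => ?_
  by_cases h : QQ c p = 0
  · refine (contDiffAt_const (c := 0)).congr_of_eventuallyEq ?_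
    filter_upwards [mu_ev (p := p) sP sQ sF hN hr fun h' => by
      have := h'.1
      rw [Psi, h, zero_mul] at this
      linarith] with x hx
    simp [hx]
  · exact ((sm_mu sP sQ sF N r).pow 2).contDiffAt.div (sQ.pow k).contDiffAt (pow_ne_zero k h)

/-- The facts in the zone. -/
structure Pt (f : Fx) (c : Cx n ι) (p : X2 n) (K : ℝ) : Prop where
  Q0 : 0 < QQ c p
  zs : ‖zz p‖ ≤ 1 / 10
  a2 : 2 * Psi f c p ≤ al f c p * QQ c p
  E : n2 (dx (phi f c) p + dyy (phi f c) p) ≤ K * (nl f c p * QQ c p)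
  Z : al f c p * QQ c p / 2 ≤ zd p (dyy (phi f c) p)
  R : 2 * ry f c p + |dgd ey (onY c.γ₂) (phi f c) p| ≤ K * (al f c p ^ 2 * QQ c p)
  W : ∀ N r, 1 ≤ N → 1 ≤ r → r ≤ 8 →
    |dgd ey (onY c.γ₂) (fun p => mu f c N r p ^ 2 / QQ c p) p| ≤ K * al f c p ^ 2 ∧
    |dvg ey (fun i p => mu f c N r p ^ 2 / QQ c p * al f c p * zz p i) p| ≤
      K * (al f c p / QQ c p)

/-- Elementary sizes. -/
structure Sz (f : Fx) (c : Cx n ι) (p : X2 n) (ρ : ℝ) : Prop where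
  Q0 : 0 < QQ c p
  v1 : 1 ≤ vv f c p
  vs : vv f c p * √(QQ c p) ≤ ρ
  vF : vv f c p ^ 2 ≤ FF f c p
  Fa : 2 * FF f c p ≤ al f c p
  a2 : 2 * Psi f c p ≤ al f c p * QQ c p
  z : ∀ i, |zz p i| ≤ 2 * √(QQ c p)

theorem sz {C ρ : ℝ} (hL : 1 ≤ c.L0) (w0 : W0 f c) (w2 : W2 f c C (ρ ^ 2) p)
    (hN : p ∈ Nr f c 16) (hP : 1 ≤ Psi f c p) (ρ0 : 0 ≤ ρ) (ρ1 : ρ ≤ 1) : Sz f c p ρ := by
  obtain ⟨hQ, -, F0, hv, s2, -⟩ := w0.2.2.1 p
  have v1 := hL.trans hv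
  have Q0 : 0 < QQ c p := pos_of_mul_pos_left (one_pos.trans_le hP) F0.le
  have Fa : 2 * FF f c p ≤ al f c p :=
    (mul_comm _ _).trans_le (mul_le_mul_of_nonneg_left s2 F0.le)
  refine ⟨Q0, v1, le_of_sq_le_sq ?_ ρ0, ?_, Fa, ?_, fun i => ?_⟩
  · rw [mul_pow, Real.sq_sqrt Q0.le]
    exact (mul_le_mul_of_nonneg_right (pow_le_pow_right₀ v1 (by norm_num)) Q0.le).trans
      (w2.2.2.2.2.2.2.2.2.2.2.2.2.1 hN).2.1
  · exact ((pow_le_pow_right₀ v1 (by norm_num)).trans w2.1).trans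
      (mul_le_of_le_one_left F0.le (pow_le_one₀ ρ0 ρ1))
  · have := mul_le_mul_of_nonneg_right Fa Q0.le
    unfold Psi
    linarith
  · refine (PiLp.norm_apply_le (zz p) i).trans (le_of_sq_le_sq ?_ (by positivity))
    rw [mul_pow, Real.sq_sqrt Q0.le]
    linarith

theorem D_phi {C : ℝ} (w0 : W0 f c) (w1 : W1 f c C p) (hQ : QQ c p < f.t0 ^ 2 / 4) (i : Fin n) :
    D (ex i) (phi f c) p =
      D (ex i) (Psi f c) p + f.Cw * (LU f.K c.L0 c.sg c.J (uu p) / 2 * mv p i) ∧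
    D (ey i) (phi f c) p =
      D (ey i) (Psi f c) p + f.Cw * (LU f.K c.L0 c.sg c.J (uu p) / 2 * mv p i) := by
  obtain ⟨-, -, -, -, -, -, -, -, -, sP, -, -, sl, -⟩ := w0.1
  have e : ∀ v, D v (phi f c) p = D v (Psi f c) p + f.Cw * D v (lu f c) p := fun v => by
    rw [D_congr ((w0.2.2.2.2 p).1 hQ).1]
    unfold ph0
    rw [D_add_at (sP.dAt p) ((sl.cmul _).dAt p), D_const_mul_at (sl.dAt p)]
  obtain ⟨e1, e2⟩ := w1.2.2.2.2.2.2.2.2.2.2.2.1 i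
  exact ⟨by rw [e, e1], by rw [e, e2]⟩

theorem fE {Cq C₁ C₂ η η' ρ : ℝ} (hf : f.Ok) (w0 : W0 f c) (wq : WQ c Cq η' p) (w1 : W1 f c C₁ p)
    (w2 : W2 f c C₂ η p) (hN : p ∈ Nr f c 16) (hP : 1 ≤ Psi f c p) (s : Sz f c p ρ) (η1 : η ≤ 1)
    (cq : 1 ≤ Cq) (c1 : 1 ≤ C₁) : n2 (dx (phi f c) p + dyy (phi f c) p) ≤
      2 * n * (f.Cw * C₁ * Cq) ^ 2 * C₂ ^ 2 * (nl f c p * QQ c p) := by
  obtain ⟨-, -, -, u1, -, u2, -, u3, -⟩ := w2.2.2.2.2.2.2.2.2.2.2.2.2.1 hN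
  obtain ⟨l0, l1, l2⟩ := w1.2.2.2.2.2.2.2.2.2.2.2.2
  have cw : 1 ≤ f.Cw := hf.2.2.2.2.2.2.2.2.2.2.2.1
  have v0 := zero_le_one.trans s.v1
  have P0 := zero_le_one.trans hP
  have a0 := (w0.2.1 p.1).1
  have h1 : ∀ i, |(dx (phi f c) p + dyy (phi f c) p) i| ≤
      f.Cw * C₁ * Cq * (vv f c p * (1 + Psi f c p)) := fun i => by
    have e : D (ex i + ey i) (Psi f c) p = D (ex i) (Psi f c) p + D (ey i) (Psi f c) p :=
      map_add _ _ _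
    have b1 := abs_le.1 (e ▸ (l2 i).1)
    have b2 := abs_le.1 (abs_mul_le ((abs_of_nonneg (zero_le_one.trans cw)).le)
      (abs_mul_le ((abs_of_nonneg l0).trans_le l1) (sb_val (wq.2.2.2.1 i).2.2.1)))
    have b3 : C₁ * (Psi f c p * vv f c p) ≤ f.Cw * C₁ * Cq * (Psi f c p * vv f c p) :=
      mul_le_mul_of_nonneg_right ((le_mul_of_one_le_left (by linarith) cw).trans
        (le_mul_of_one_le_right (by positivity) cq)) (mul_nonneg P0 v0)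
    simp only [Pi.add_apply, dx, dyy, (D_phi w0 w1 u3 i).1, (D_phi w0 w1 u3 i).2]
    rw [abs_le]
    constructor <;> linarith [b1.1, b1.2, b2.1, b2.2]
  have h2 : 1 + Psi f c p ≤ 2 * aX f c p.1 * QQ c p := by
    have b1 := mul_le_of_le_one_left a0.le η1
    have b2 := mul_le_mul_of_nonneg_right
      (by linarith [(abs_le.1 u1).2] : 2 * FF f c p ≤ 2 * aX f c p.1) s.Q0.le
    unfold Psi at hP ⊢
    linarith
  have h3 : (vv f c p * (1 + Psi f c p)) ^ 2 ≤ (C₂ * LX f c p.1) ^ 2 * (1 + Psi f c p) *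
      (2 * aX f c p.1 * QQ c p) := by
    rw [mul_pow, sq (1 + Psi f c p), ← mul_assoc]
    gcongr
  refine (n2_le h1).trans ?_
  have h4 := mul_le_mul_of_nonneg_left h3 (by positivity : 0 ≤ n * (f.Cw * C₁ * Cq) ^ 2)
  unfold nl
  linarith

theorem fZ {Cq C₁ ρ : ℝ} (hh : S_hess) (hf : f.Ok) (w0 : W0 f c) (wq : WQ c Cq (ρ ^ 2) p)
    (w1 : W1 f c C₁ p) (hQ : QQ c p < f.t0 ^ 2 / 4) (hP : 1 ≤ Psi f c p) (s : Sz f c p ρ)
    (ρ1 : ρ ≤ 1) (cq : 1 ≤ Cq) (c1 : 1 ≤ C₁) (hρ : 6 * n * (f.Cw * C₁ * Cq) * ρ ≤ 1) :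
    al f c p * QQ c p / 2 ≤ zd p (dyy (phi f c) p) := by
  obtain ⟨Q0, v1, vs, vF, Fa, a2, hz⟩ := s
  obtain ⟨l0, l1, -⟩ := w1.2.2.2.2.2.2.2.2.2.2.2.2
  have cw : 1 ≤ f.Cw := hf.2.2.2.2.2.2.2.2.2.2.2.1
  have F0 : 0 ≤ FF f c p := (sq_nonneg _).trans vF
  have a0 : 0 ≤ al f c p := by linarith
  have s0 := Real.sqrt_nonneg (QQ c p)
  have sρ := (le_mul_of_one_le_left s0 v1).trans vs
  have ρ0 := s0.trans sρ
  have y0 : 0 ≤ my f c p := mul_nonneg (zero_le_one.trans hP) (zero_le_one.trans v1)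
  set M := f.Cw * C₁ * Cq with hM
  have M1 : Cq ≤ M := le_mul_of_one_le_left (by linarith) (one_le_mul_of_one_le_of_one_le cw c1)
  have aQ : 0 ≤ al f c p * QQ c p := by positivity
  have h1 : ∀ i, |zz p i * (dyy (phi f c) p i - al f c p * zt c p i)| ≤
      3 * (M * ρ * (al f c p * QQ c p)) := fun i => by
    have m1 := sb_val (wq.2.2.2.1 i).2.2.1
    have b1 := abs_le.1 (abs_mul_le (hz i) (abs_mul_le (abs_of_nonneg y0).le m1))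
    have b2 := abs_le.1 (abs_mul_le (hz i)
      (abs_mul_le (abs_of_nonneg a0).le (wq.2.2.2.2.2.1 i).2))
    have b3 := abs_le.1 (abs_mul_le (hz i) (abs_mul_le (abs_of_nonneg (zero_le_one.trans cw)).le
      (abs_mul_le ((abs_of_nonneg l0).trans_le l1) m1)))
    have d1 : Cq * (vv f c p * √(QQ c p)) * (2 * Psi f c p) ≤ M * ρ * (al f c p * QQ c p) := by
      have := cq.trans M1
      gcongr
    have d2 : √(QQ c p) * ρ ^ 2 * (al f c p * QQ c p) ≤ M * ρ * (al f c p * QQ c p) :=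
      mul_le_mul_of_nonneg_right (((mul_le_of_le_one_right s0 (pow_le_one₀ ρ0 ρ1)).trans sρ).trans
        (le_mul_of_one_le_left ρ0 (cq.trans M1))) aQ
    have d3 : M * (vv f c p * √(QQ c p)) * 1 ≤ M * ρ * (al f c p * QQ c p) := by
      have := cq.trans M1
      gcongr
      linarith
    simp only [dyy, (D_phi w0 w1 hQ i).2, (hh n ι f c hf w0 p (ey i) 0).1, (wq.1 i).2]
    unfold my at *
    rw [abs_le]
    constructor <;> linarith [b1.1, b1.2, b2.1, b2.2, b3.1, b3.2]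
  have h2 := (abs_le.1 (abs_sum_le h1)).1
  have h3 : ∑ i, zz p i * (dyy (phi f c) p i - al f c p * zt c p i) =
      zd p (dyy (phi f c) p) - al f c p * QQ c p := by
    rw [zd, QQ, Finset.mul_sum, ← Finset.sum_sub_distrib]
    exact Finset.sum_congr rfl fun i _ => by ring
  have h4 := mul_le_mul_of_nonneg_right hρ aQ
  linarith

theorem gam_y {L : ℝ} (hc : c.Ok f 1 L) (i j : Fin n) : SB ey 1 2 1 (onY c.γ₂ i j) p :=
  SbAlg.mono zero_le_one (sb_res Sum.inr (fun _ => rfl) (sb_gam hc.2.2.2.2.2.2.2.2.1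
    hc.2.2.2.2.2.2.2.2.2.2.1 (ContinuousLinearMap.snd ℝ _ _) (fun i => by
      rcases i with i | i <;> simp [exy, ex, ey, ee, apply_ite abs]) i j)) one_le_two le_rfl le_rfl

theorem fR {C ρ L : ℝ} (hc : c.Ok f 1 L) (w0 : W0 f c) (w3 : W3 f c C p) (hP : 1 ≤ Psi f c p)
    (s : Sz f c p ρ) (ρ1 : ρ ≤ 1) (c3 : 1 ≤ C) :
    2 * ry f c p + |dgd ey (onY c.γ₂) (phi f c) p| ≤
      (16 * n * C ^ 2 + 6 * n ^ 2 * C) * (al f c p ^ 2 * QQ c p) := by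
  obtain ⟨Q0, v1, vs, vF, Fa, a2, hz⟩ := s
  have F0 : 0 ≤ FF f c p := (sq_nonneg _).trans vF
  have a0 : 0 ≤ al f c p := by linarith
  have s1 := ((le_mul_of_one_le_left (Real.sqrt_nonneg _) v1).trans vs).trans ρ1
  have h1 : al f c p ≤ al f c p ^ 2 * QQ c p := by
    have := le_mul_of_one_le_right a0 (by linarith : 1 ≤ al f c p * QQ c p)
    linarith
  have h2 : vv f c p ^ 2 ≤ al f c p ^ 2 * QQ c p := by linarith
  have h3 : z0 f c p ≤ al f c p ^ 2 * QQ c p := (mul_le_of_le_one_right a0 s1).trans h1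
  have h4 : vv f c p ≤ al f c p ^ 2 * QQ c p := (le_self_pow₀ v1 two_ne_zero).trans h2
  have h5 : AA f c p ≤ al f c p ^ 2 * QQ c p := by
    have := le_mul_of_one_le_right (mul_nonneg F0 (sq_nonneg (sig f c p))) hP
    unfold Psi at this
    unfold AA al
    linarith
  have h6 : z0 f c p ^ 2 = al f c p ^ 2 * QQ c p := by rw [z0, mul_pow, Real.sq_sqrt Q0.le]
  have h7 : ry f c p ≤ 2 * (n * (C * (z0 f c p + vv f c p)) ^ 2) := by
    rw [ry, Ww0.rho_eq]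
    exact (((w0.2.2.1 p).2.2.2.2.2.2.2.2.2.2.2.2.2.2.2.2.2 _).2.2.2.1).trans
      (mul_le_mul_of_nonneg_left (n2_le fun i => (w3.2.2.1 i).2) zero_le_two)
  have h8 := dgd_le (γ := onY c.γ₂) (fun i j => (hc.2.2.2.2.2.2.2.2.1 i j).comp contDiff_snd)
    w0.1.2.2.2.2.2.2.2.2.2.2.2.2.2.2.2.2.2.1 (gam_y hc) (fun i => (w3.2.2.1 i).2)
    fun i j => sb_val (w3.2.1 i (Sum.inr j))
  have h9 := mul_le_mul_of_nonneg_left
    (by nlinarith [sq_nonneg (z0 f c p - vv f c p)] :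
      (z0 f c p + vv f c p) ^ 2 ≤ 4 * (al f c p ^ 2 * QQ c p))
    (by positivity : 0 ≤ n * C ^ 2)
  have h10 := mul_le_mul_of_nonneg_left
    (by linarith : AA f c p + z0 f c p + vv f c p ≤ 3 * (al f c p ^ 2 * QQ c p))
    (by positivity : 0 ≤ n ^ 2 * C)
  linarith

theorem fW (Cq C₁ C₇ : ℝ) (cq : 1 ≤ Cq) (c1 : 1 ≤ C₁) (c7 : 1 ≤ C₇) (n : ℕ) : ∃ K₀ : ℝ,
    ∀ (ι : Type) (f : Fx) (c : Cx n ι) (p : X2 n) (L η ρ N r K : ℝ), c.Ok f 1 L → W0 f c →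
    WQ c Cq η p → W1 f c C₁ p → CutB f c C₇ (mu f c N r) p → 1 ≤ Psi f c p → Sz f c p ρ → ρ ≤ 1 →
    0 < N → 0 < r → K₀ ≤ K →
    |dgd ey (onY c.γ₂) (fun p => mu f c N r p ^ 2 / QQ c p) p| ≤ K * al f c p ^ 2 ∧
    |dvg ey (fun i p => mu f c N r p ^ 2 / QQ c p * al f c p * zz p i) p| ≤
      K * (al f c p / QQ c p) := by
  obtain ⟨B, B1, hB⟩ := s_sbComp s_sbAlg 2
  set M := 16 * C₇ ^ 2 * (B * Cq ^ 2) with hM
  have M0 : 0 ≤ M := by positivity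
  refine ⟨4 * n ^ 2 * M + 8 * n * (M * C₁),
    fun ι f c p L' η ρ N r K hc w0 wq w1 w7 hP s ρ1 hN hr hK => ?_⟩
  obtain ⟨Q0, v1, vs, vF, Fa, a2, hz⟩ := s
  obtain ⟨-, -, -, -, sQ, -, sF, -, -, sP, sa, -⟩ := w0.1
  have a0 : 0 ≤ al f c p := by linarith [sq_nonneg (vv f c p)]
  have s0 := Real.sqrt_pos.2 Q0
  set L := (√(QQ c p))⁻¹ with hL
  have L0 : 0 ≤ L := by positivity
  have e1 : √(QQ c p) * L = 1 := mul_inv_cancel₀ s0.ne'
  have e2 : L ^ 2 = (QQ c p)⁻¹ := by rw [hL, inv_pow, Real.sq_sqrt Q0.le]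
  have vL : vv f c p ≤ L := by rw [hL, ← one_div, le_div_iff₀ s0]; linarith
  have sm := sm_mu sP sQ sF N r
  have h1 : SB ey 2 C₇ L (mu f c N r) p := SbComp.sb_of
    ((abs_of_nonneg (mu_bd N r).1).trans_le ((mu_bd N r).2.trans c7))
    (sb2 (fun i => (le_mul_inv_iff₀ s0).2 (w7.1 (Sum.inr i)).1) fun i j => by
      rw [e2]; exact (le_mul_inv_iff₀ Q0).2 ((w7.1 (Sum.inr i)).2 (Sum.inr j)))
  have h2 : SB1 ey 2 (Cq * QQ c p) L (QQ c) p := sb2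
    (fun i => (wq.2.2.1 (Sum.inr i)).1.trans_eq (by
      rw [mul_assoc, hL, ← div_eq_mul_inv, Real.div_sqrt]))
    fun i j => (sb_val ((wq.2.2.1 (Sum.inr i)).2 (Sum.inr j))).trans_eq (by
      rw [e2, mul_inv_cancel_right₀ Q0.ne'])
  have h3 := ((hB _ _ ey L _ p _ L0 sQ.contDiffAt h2).2.2.1 Cq cq Q0 le_rfl).1
  have h4 : SB ey 2 (M / QQ c p) L (fun p => mu f c N r p ^ 2 / QQ c p) p := by
    have := SbAlg.mul L0 (sm.mul sm).contDiffAt (sQ.contDiffAt.inv Q0.ne')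
      (SbAlg.mul L0 sm.contDiffAt sm.contDiffAt h1 h1) h3
    simp only [← sq] at this
    exact SbAlg.mono L0 this le_rfl (le_of_eq (by rw [hM]; ring)) le_rfl
  have sw : Sm fun p => mu f c N r p ^ 2 / QQ c p := by
    simpa only [pow_one] using sm_w sP sQ sF hN hr 1
  have q1 : (QQ c p)⁻¹ ≤ al f c p := by rw [← one_div, div_le_iff₀ Q0]; linarith
  constructor
  · refine (dgd_le (fun i j => (hc.2.2.2.2.2.2.2.2.1 i j).comp contDiff_snd) sw (gam_y hc)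
      (sb_D h4) fun i j => sb_D (SbAlg.deriv j h4) i).trans ?_
    have b1 : L ≤ L ^ 2 := le_self_pow₀ (v1.trans vL) two_ne_zero
    have b2 : (QQ c p)⁻¹ * L ^ 2 ≤ al f c p ^ 2 := by rw [e2, sq]; gcongr
    have b3 := mul_le_mul_of_nonneg_left b1 (inv_pos.2 Q0).le
    have b4 := mul_le_mul_of_nonneg_left
      (by linarith : (QQ c p)⁻¹ * L ^ 2 + (QQ c p)⁻¹ * L ≤ 2 * al f c p ^ 2)
      (by positivity : 0 ≤ 2 * n ^ 2 * M)
    have b5 := mul_le_mul_of_nonneg_right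
      (le_trans (le_add_of_nonneg_right (by positivity)) hK) (sq_nonneg (al f c p))
    rw [div_eq_mul_inv]
    linarith
  · have b1 := SbAlg.mul L0 sw.contDiffAt sa.contDiffAt (SbAlg.mono L0 h4 one_le_two le_rfl le_rfl)
      (SbAlg.mono (zero_le_one.trans v1) (sb_res Sum.inr (fun _ => rfl) w1.2.2.2.1)
        (by norm_num) le_rfl vL)
    refine (abs_sum_le fun i => sb_D (SbAlg.mul L0 (sw.mul sa).contDiffAt (sm_zz i).contDiffAt b1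
      (sb1 (hz i) fun j => (D_zz i j).trans (by rw [mul_assoc, e1]; norm_num))) i).trans ?_
    have b2 := mul_le_mul_of_nonneg_right
      (le_trans (le_add_of_nonneg_left (by positivity)) hK) (div_nonneg a0 Q0.le)
    refine le_trans (le_of_eq ?_) b2
    linear_combination (8 * n * (M * C₁) * (al f c p / QQ c p)) * e1

theorem ev_pt (h0 : S_w0) (hq : S_wq) (hh : S_hess) (h1 : S_w1) (h2 : S_w2) (h3 : S_w3)
    (h7 : S_w7) (n : ℕ) (ι : Type) (f : Fx) (hf : f.Ok) : ∃ K : ℝ, 1 ≤ K ∧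
    Ev f fun c : Cx n ι => c.Ok f 1 0 ∧ W0 f c ∧
      ∀ p ∈ Om2 c, p ∈ Nr f c 16 → 1 ≤ Psi f c p → Pt f c p K := by
  obtain ⟨Cq, cq, hq⟩ := hq n
  obtain ⟨C₁, c1, h1⟩ := h1 n ι f hf
  obtain ⟨C₂, -, h2⟩ := h2 n ι f hf
  obtain ⟨C₃, c3, h3⟩ := h3 n ι f hf
  obtain ⟨C₇, c7, h7⟩ := h7 n ι f hf
  obtain ⟨K₀, hW⟩ := fW Cq C₁ C₇ cq c1 c7 n
  obtain ⟨K, K1, K2, K3, K4⟩ : ∃ K, 1 ≤ K ∧ K₀ ≤ K ∧ 2 * n * (f.Cw * C₁ * Cq) ^ 2 * C₂ ^ 2 ≤ K ∧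
      16 * n * C₃ ^ 2 + 6 * n ^ 2 * C₃ ≤ K :=
    ⟨max (max 1 K₀) (max _ _), le_max_of_le_left (le_max_left _ _),
      le_max_of_le_left (le_max_right _ _), le_max_of_le_right (le_max_left _ _),
      le_max_of_le_right (le_max_right _ _)⟩
  have cw : 1 ≤ f.Cw := hf.2.2.2.2.2.2.2.2.2.2.2.1
  have m0 : 0 ≤ 6 * n * (f.Cw * C₁ * Cq) := by positivity
  obtain ⟨ρ, ρ0, ρ1, ρ2⟩ : ∃ ρ : ℝ, 0 < ρ ∧ ρ ≤ 1 / 20 ∧ 6 * n * (f.Cw * C₁ * Cq) * ρ ≤ 1 :=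
    ⟨1 / (6 * n * (f.Cw * C₁ * Cq) + 20), by positivity,
      one_div_le_one_div_of_le (by norm_num) (by linarith), by
        rw [mul_one_div, div_le_one (by positivity)]; linarith⟩
  have ρ3 : ρ ≤ 1 := by linarith
  refine ⟨K, K1, (((((((Ev.ok f one_pos 0).and (h0 n ι f hf)).and
    (hq ι f hf _ (pow_pos ρ0 2))).and h1).and (h2 _ (pow_pos ρ0 2))).and h3).and h7).mono ?_⟩
  rintro c ⟨⟨⟨⟨⟨⟨hc, w0⟩, wq⟩, w1⟩, w2⟩, w3⟩, w7⟩
  refine ⟨hc, w0, fun p hp hN hP => ?_⟩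
  have s := sz hc.2.1 w0 (w2 p hp) hN hP ρ0.le ρ3
  obtain ⟨-, -, -, -, -, -, u1, u2, -⟩ := (w2 p hp).2.2.2.2.2.2.2.2.2.2.2.2.1 hN
  have l0 : 0 ≤ nl f c p := mul_nonneg (mul_nonneg (w0.2.1 p.1).1.le (sq_nonneg _)) (by linarith)
  refine ⟨s.Q0, le_of_sq_le_sq ?_ (by norm_num), s.a2,
    (fE hf w0 (wq p hp) (w1 p hp) (w2 p hp) hN hP s (pow_le_one₀ ρ0.le ρ3) cq c1).trans
      (mul_le_mul_of_nonneg_right K3 (mul_nonneg l0 s.Q0.le)),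
    fZ hh hf w0 (wq p hp) (w1 p hp) u2 hP s ρ3 cq c1 ρ2,
    (fR hc w0 (w3 p hp) hP s ρ3 c3).trans
      (mul_le_mul_of_nonneg_right K4 (mul_nonneg (sq_nonneg _) s.Q0.le)),
    fun N r hN' hr hr' => hW ι f c p 0 _ ρ N r K hc w0 (wq p hp) (w1 p hp)
      (w7 p hp hN N r hN' hr hr').2.2.1 hP s ρ3 (by linarith) (by linarith) K2⟩
  nlinarith [(w0.2.2.1 p).1]

end R1

end Vale.Agent.P088
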