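import Vale.Agent.P088.R2b
import Vale.Agent.P088.SbLin
import Vale.Agent.P088.SbComp

/-!
# P088: pointwise facts for the Rellich multiplier
-/

open MeasureTheory Set Filter
open scoped ContDiff Topology

noncomputable section
namespace Vale.Agent.P088.R2
open Vale.Agent.P136

variable {n : ℕ} {ι : Type} {f : Fx} {c : Cx n ι} {p : X2 n} {C η N r : ℝ}

lemma cut_one {s : ℝ} (h : s ≤ 1) : cut s = 1 := Real.smoothTransition.one_of_one_le (by linarith)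

lemma cut_zero {s : ℝ} (h : 2 ≤ s) : cut s = 0 :=
  Real.smoothTransition.zero_of_nonpos (by linarith)

lemma mu_mem (N r : ℝ) (p : X2 n) : 0 ≤ mu f c N r p ∧ mu f c N r p ≤ 1 := by
  have h1 : 0 ≤ cq f c N p := Real.smoothTransition.nonneg _
  have h2 : cq f c N p ≤ 1 := Real.smoothTransition.le_one _
  have h3 : 0 ≤ cn f c r p := Real.smoothTransition.nonneg _
  have h4 : cn f c r p ≤ 1 := Real.smoothTransition.le_one _
  exact ⟨mul_nonneg (by linarith) h3, mul_le_one₀ (by linarith) h3 h4⟩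

lemma w0s (h : W0 f c) : Sm (QQ c) ∧ Sm (FF f c) ∧ Sm (Psi f c) ∧ Sm (lu f c) ∧ Sm (phi f c) ∧
    Sm (aX f c) ∧ Sm (LX f c) ∧ SmM (onX c.γ₁) ∧ SymM (onX c.γ₁) ∧ SmM (onY c.γ₂) ∧
    SymM (onY c.γ₂) := by
  obtain ⟨⟨-, -, -, -, h5, -, h7, -, -, h10, -, -, h13, -, -, -, -, h18, -, -, -, -, -, -, -, -, -,
    -, -, -, -, -, -, -, -, -, -, h38, h39, -, -, h42⟩, -⟩ := h
  exact ⟨h5, h7, h10, h13, h18, h38, h39, h42⟩

lemma sm_mu (h : W0 f c) (N r : ℝ) : Sm (mu f c N r) := by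
  obtain ⟨hQ, hF, hP, -⟩ := w0s h
  exact ((Sm.const 1).sub (SbComp.cut_smooth.comp (hP.div_const N))).mul
    (SbComp.cut_smooth.comp (((hQ.pow 2).mul hF).div_const r))

lemma mu_ev (h : W0 f c) (hN : 0 < N) (hr : 0 < r)
    (hp : Psi f c p < N ∨ 2 * r < QQ c p ^ 2 * FF f c p) : mu f c N r =ᶠ[𝓝 p] fun _ => 0 := by
  obtain ⟨hQ, hF, hP, -⟩ := w0s h
  rcases hp with hp | hp
  · filter_upwards [hP.cont.continuousAt.eventually (gt_mem_nhds hp)] with q hq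
    rw [mu, cq, cut_one ((div_le_one hN).2 hq.le), sub_self, zero_mul]
  · filter_upwards [((hQ.pow 2).mul hF).cont.continuousAt.eventually (lt_mem_nhds hp)] with q hq
    rw [mu, cn, cut_zero ((le_div_iff₀ hr).2 hq.le), mul_zero]

lemma sm_div (h : W0 f c) (hN : 0 < N) (hr : 0 < r) (k : ℕ) :
    Sm fun p => mu f c N r p ^ 2 / QQ c p ^ k := contDiff_iff_contDiffAt.2 fun p => by
  by_cases hQ : QQ c p = 0
  · refine (contDiffAt_const (c := (0 : ℝ))).congr_of_eventuallyEq ?_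
    filter_upwards [mu_ev (p := p) h hN hr (.inl (by rwa [Psi, hQ, zero_mul]))] with q hq
    simp [hq]
  · exact ((sm_mu h N r).pow 2).contDiffAt.div ((w0s h).1.pow k).contDiffAt (pow_ne_zero _ hQ)

/-- The scalar factor of the multiplier. -/
def om (f : Fx) (c : Cx n ι) (N : ℝ) (p : X2 n) : ℝ :=
  mu f c N 1 p ^ 2 / QQ c p ^ 2 / aX f c p.1

lemma sm_om (h : W0 f c) (hN : 0 < N) : Sm (om f c N) :=
  (sm_div h hN one_pos 2).div ((w0s h).2.2.2.2.2.1.comp contDiff_fst) fun p => (h.2.1 p.1).1.ne'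

lemma D_om (h : W0 f c) (hQ : QQ c p ≠ 0) (d : X2 n) : D d (om f c N) p =
    mu f c N 1 p * (1 / (aX f c p.1 * QQ c p) / QQ c p) * (2 * D d (mu f c N 1) p -
      mu f c N 1 p * (D d.1 (aX f c) p.1 / aX f c p.1 + 2 * (D d (QQ c) p / QQ c p))) := by
  obtain ⟨h1, -, -, -, -, h2, -⟩ := w0s h
  have ha := (h.2.1 p.1).1.ne'
  have h3 : Sm fun q : X2 n => aX f c q.1 := h2.comp contDiff_fst
  have := (((((sm_mu h N 1).dAt p).hasFDerivAt.pow 2).mul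
    ((hasFDerivAt_inv' (pow_ne_zero 2 hQ)).comp p ((h1.dAt p).hasFDerivAt.pow 2))).mul
    ((hasFDerivAt_inv' ha).comp p (h3.dAt p).hasFDerivAt)).fderiv
  rw [← D_fst h2]
  refine (congrArg (fun L : X2 n →L[ℝ] ℝ => L d) this).trans ?_
  simp [D]
  field_simp
  ring

/-- Sizes at a point of the support of the multiplier. -/
structure Sz (f : Fx) (c : Cx n ι) (C η N : ℝ) (p : X2 n) : Prop where
  Q0 : 0 < QQ c p
  v8 : (vv f c p * √(QQ c p)) ^ 2 ≤ η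
  Pa : Psi f c p ≤ aX f c p.1 * QQ c p
  al1 : 3 / 4 * aX f c p.1 ≤ al f c p
  al2 : al f c p * QQ c p ≤ 3 * Psi f c p
  vL : vv f c p ≤ C * LX f c p.1
  Lv : LX f c p.1 ≤ C * vv f c p
  t0 : QQ c p < f.t0 ^ 2 / 4
  v1 : 1 ≤ vv f c p
  L1 : 1 ≤ LX f c p.1
  ar : 1 / aX f c p.1 ^ 2 ≤ √(QQ c p)
  z1 : ‖zz p‖ ≤ 1 / 10
  zr : ∀ i, |zz p i| ≤ 2 * √(QQ c p)

lemma sizes (h : W0 f c) (hL : 1 ≤ c.L0) (h2 : W2 f c C η p) (hη : η ≤ 1 / 200) (hN : 2 ≤ N)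
    (hP : N ≤ Psi f c p) (hr : p ∈ Nr f c 16) : Sz f c C η N p := by
  obtain ⟨-, -, -, -, -, -, -, -, -, -, a1, -, a2, -⟩ := h2
  obtain ⟨-, b1, b2, b3, b4, b5, b6, b7, -⟩ := a2 hr
  obtain ⟨c1, -, c2, c3, c4, -⟩ := h.2.2.1 p
  obtain ⟨d1, d2, -⟩ := h.2.1 p.1
  have hv : 1 ≤ vv f c p := hL.trans c3
  have hQ0 : 0 ≤ QQ c p := le_trans (by positivity) c1
  have hQ : 0 < QQ c p := hQ0.lt_of_ne' fun e => by
    rw [Psi, e, zero_mul] at hP
    linarith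
  have hF : FF f c p ≤ aX f c p.1 := by
    have := mul_le_mul_of_nonneg_right hη d1.le
    linarith [(abs_le.1 b3).2]
  have hPa : Psi f c p ≤ aX f c p.1 * QQ c p := by
    rw [Psi, mul_comm]
    exact mul_le_mul_of_nonneg_right hF hQ0
  have hr1 : QQ c p ≤ √(QQ c p) := Real.le_sqrt_self_iff.2 (by linarith)
  have hz : ‖zz p‖ ≤ 2 * √(QQ c p) := by
    refine (sq_le_sq₀ (norm_nonneg _) (by positivity)).1 ?_
    rw [mul_pow, Real.sq_sqrt hQ0]
    linarith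
  refine ⟨hQ, ?_, hPa, ?_, ?_, b5, (a1 (.inl ?_)).1, b7, hv, hL.trans d2, ?_, ?_, fun i => ?_⟩
  · rw [mul_pow, Real.sq_sqrt hQ0]
    exact le_trans (mul_le_mul_of_nonneg_right (pow_le_pow_right₀ hv (by norm_num)) hQ0) b1
  · have := mul_le_mul_of_nonneg_right hη d1.le
    linarith [(abs_le.1 b2).1]
  · rw [al, Psi]
    have := mul_le_mul_of_nonneg_left (show sig f c p ≤ 3 by linarith) (mul_pos hQ c2).le
    linarith
  · linarith [sq_nonneg f.t0]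
  · have e1 : aX f c p.1 * QQ c p ≤ aX f c p.1 * 1 := mul_le_mul_of_nonneg_left (by linarith) d1.le
    have e2 : aX f c p.1 ≤ aX f c p.1 ^ 2 := by nlinarith
    rw [div_le_iff₀ (by positivity)]
    have e3 := mul_le_mul hr1 e2 d1.le (hQ0.trans hr1)
    linarith
  · refine (sq_le_sq₀ (norm_nonneg _) (by positivity)).1 ?_
    linarith
  · exact le_trans (PiLp.norm_apply_le (zz p) i) hz

lemma near0 {γ : MatF n} (h : Near 8 1 γ) (i j : Fin n) (x : En n) : |γ i j x| ≤ 2 := by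
  have := h i j x [] (by simp)
  simp only [SbAlg.Ds_nil, List.length_nil, pow_zero, mul_one] at this
  split_ifs at this <;> exact abs_le.2 ⟨by linarith [(abs_le.1 this).1], by linarith [(abs_le.1 this).2]⟩

lemma D_subc (F : En n → ℝ) (a : ℝ) (d : En n) : D d (fun y => F y - a) = D d F := by
  funext x
  simp only [D, fderiv_sub_const]

lemma near1 {γ : MatF n} (h : Near 8 1 γ) (i j k : Fin n) (x : En n) :
    |D (ee k) (γ i j) x| ≤ 1 := by
  simpa [Ds, D_subc] using h i j x [k] (by simp)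

lemma near2 {γ : MatF n} (hs : SmM γ) (h : Near 8 1 γ) (i j k : Fin n) (p : X2 n) :
    |D (ee k) (γ i j) p.2 - D (ee k) (γ i j) p.1| ≤ l1 (zz p) := by
  have e : p.1 + ∑ a, zz p a • ee a = p.2 := by
    ext a
    simp [ee, zz, Pi.single_apply]
  have := SbLin.taylor ee (D (ee k) (γ i j)) p.1 (zz p) 1 1 (fun _ _ => ((hs i j).D _).contDiffAt)
    (fun s _ l hl => by
      obtain ⟨a, rfl⟩ := List.length_eq_one_iff.1 hl
      simpa [Ds, D_subc] using h i j _ [a, k] (by simp))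
    (fun l h1 h2 => absurd (List.length_eq_zero_iff.1 (Nat.lt_one_iff.1 h2)) h1) le_rfl
  rwa [e, one_mul, pow_one] at this

lemma mats {Cq L : ℝ} (ho : c.Ok f 1 L) (hb : Bs f c p.1) (hq : WQ c Cq η p) (hη : η ≤ 1)
    (s : Sz f c C η N p) :
    (∀ i j, |g1 c p i j - g2 c p i j| ≤ 3 * √(QQ c p)) ∧
    (∀ i j, |g1 c p i j - gm c p i j| ≤ 2 * √(QQ c p)) ∧
    (∀ i j, |g2 c p i j - gm c p i j| ≤ √(QQ c p)) ∧
    (∀ i j, |∑ k, zz p k * D (ee k) (c.γ₁ i j) p.1| ≤ 2 * n * √(QQ c p)) ∧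
    ∀ i j, |∑ k, zz p k * D (ee k) (c.γ₁ i j) p.1 - ∑ k, zz p k * D (ee k) (c.γ₂ i j) p.2| ≤
      2 * n * (1 + 2 * n) * √(QQ c p) ^ 2 := by
  obtain ⟨-, -, -, -, -, s1, -, n1, s2, -, n2, -⟩ := ho
  obtain ⟨-, -, -, -, q5, -⟩ := hq
  have hr := mul_le_of_le_one_left (Real.sqrt_nonneg (QQ c p)) hη
  have a1 : ∀ i j, |g2 c p i j - gm c p i j| ≤ √(QQ c p) := fun i j => (q5 i j).2.2.1.trans hr
  have a2 : ∀ i j, |g1 c p i j - gm c p i j| ≤ 2 * √(QQ c p) := fun i j => by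
    have e1 : |c.γ₁ i j p.1 - c.γ₂ i j p.1| ≤ 1 / aX f c p.1 ^ 2 := by
      simpa [Ds] using hb i j [] (by simp)
    have := abs_sub_le (g1 c p i j) (c.γ₂ i j p.1) (gm c p i j)
    linarith [(q5 i j).2.2.2, s.ar, show |g1 c p i j - c.γ₂ i j p.1| ≤ _ from e1]
  have hz : l1 (zz p) ≤ n * (2 * √(QQ c p)) := l1_le s.zr
  refine ⟨fun i j => ?_, a2, a1, fun i j => ?_, fun i j => ?_⟩
  · have := abs_sub_le (g1 c p i j) (gm c p i j) (g2 c p i j)
    linarith [a1 i j, a2 i j, abs_sub_comm (gm c p i j) (g2 c p i j)]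
  · simp only [mul_comm (zz p _)]
    linarith [dot_abs (fun k => near1 n1 i j k p.1) (zz p)]
  · simp only [← Finset.sum_sub_distrib, ← sub_mul, mul_comm (zz p _)]
    refine (dot_abs (α := (1 + 2 * n) * √(QQ c p)) (fun k => ?_) (zz p)).trans ?_
    · have e1 : |D (ee k) (c.γ₁ i j) p.1 - D (ee k) (c.γ₂ i j) p.1| ≤ 1 / aX f c p.1 ^ 2 := by
        rw [← D_sub_at ((s1 i j).dAt _) ((s2 i j).dAt _)]
        simpa [Ds] using hb i j [k] (by simp)
      have := abs_sub_le (D (ee k) (c.γ₁ i j) p.1) (D (ee k) (c.γ₂ i j) p.1)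
        (D (ee k) (c.γ₂ i j) p.2)
      rw [abs_sub_comm (D (ee k) (c.γ₂ i j) p.1)] at this
      linarith [near2 s2 n2 i j k p, s.ar]
    · exact (mul_le_mul_of_nonneg_left hz (by positivity)).trans (le_of_eq (by ring))

lemma gphi {P v m a q Q t l w e C η : ℝ} (hP : 1 ≤ P) (hv : 1 ≤ v) (hC : 1 ≤ C) (hw : 1 ≤ w)
    (hm : |m| ≤ C) (ha : 0 ≤ a) (haQ : a * Q ≤ 3 * P) (hQ : 0 ≤ Q) (hη : η ≤ 1)
    (hq : |q + e * 2 * t| ≤ η * Q) (hl0 : 0 ≤ l) (hl : l ≤ C * v) :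
    |P * v * m + a / 2 * q + w * (l / 2 * m) + e * a * t| ≤ 4 * w * C ^ 2 * (v * P) := by
  have e1 : P * v * m + a / 2 * q + w * (l / 2 * m) + e * a * t =
      P * v * m + a / 2 * (q + e * 2 * t) + w * (l / 2 * m) := by ring
  have h1 := mul_ge (le_of_eq (abs_of_nonneg (show 0 ≤ P * v by positivity))) hm
  have h2 := mul_ge (le_of_eq (abs_of_nonneg (show 0 ≤ a / 2 by positivity)))
    (hq.trans (mul_le_of_le_one_left hQ hη))
  have h3 := mul_ge (show |w * (l / 2)| ≤ w * (C * v) by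
    rw [abs_of_nonneg (by positivity)]; gcongr; linarith) hm
  have c1 : 1 ≤ w * C := one_le_mul_of_one_le_of_one_le hw hC
  have c2 : P * v * C ≤ w * C ^ 2 * (v * P) :=
    (le_mul_of_one_le_left (by positivity) c1).trans (le_of_eq (by ring))
  have c3 : P ≤ P * v * C :=
    (le_mul_of_one_le_right (by positivity) (one_le_mul_of_one_le_of_one_le hv hC)).trans
      (le_of_eq (by ring))
  have c4 : w * (C * v) * C ≤ w * C ^ 2 * (v * P) :=
    (le_mul_of_one_le_right (by positivity) hP).trans (le_of_eq (by ring))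
  rw [e1, abs_le]
  constructor <;> linarith [h1.1, h1.2, h2.1, h2.2, h3.1, h3.2]

lemma grad_phi {Cq C1 : ℝ} (h : W0 f c) (hw : 1 ≤ f.Cw) (hC : 1 ≤ C) (hq : WQ c Cq η p)
    (h1 : W1 f c C1 p) (e1 : Cq ≤ C) (e2 : C1 ≤ C) (hη : η ≤ 1) {C2 : ℝ} (s : Sz f c C2 η N p)
    (hP : 1 ≤ Psi f c p)
    (hh : ∀ v, D v (Psi f c) p = my f c p * D v uu p + al f c p / 2 * D v (QQ c) p) (i : Fin n) :
    |dx (phi f c) p i + al f c p * zt c p i| ≤ 4 * f.Cw * C ^ 2 * (vv f c p * Psi f c p) ∧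
      |dyy (phi f c) p i - al f c p * zt c p i| ≤ 4 * f.Cw * C ^ 2 * (vv f c p * Psi f c p) := by
  obtain ⟨-, -, hPs, hlu, -⟩ := w0s h
  obtain ⟨q1, -, -, q4, -, q6, -⟩ := hq
  obtain ⟨-, -, -, -, -, -, -, -, -, -, -, w1, w2, w3, -⟩ := h1
  have e : ∀ d, D d (phi f c) p = Psi f c p * vv f c p * D d uu p + al f c p / 2 * D d (QQ c) p +
      f.Cw * D d (lu f c) p := fun d => by
    rw [D_congr ((h.2.2.2.2 p).1 s.t0).1, ← my, ← hh, ← D_const_mul_at (hlu.dAt p)]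
    exact D_add_at (hPs.dAt p) ((hlu.cmul _).dAt p) d
  have hm : |mv p i| ≤ C := le_trans (by simpa [Ds] using (q4 i).2.2.1 [] (by simp)) e1
  have ha : 0 ≤ al f c p := le_trans (mul_nonneg (by norm_num) (h.2.1 p.1).1.le) s.al1
  have hl := w3.trans (mul_le_mul_of_nonneg_right e2 (zero_le_one.trans s.v1))
  constructor
  · have := gphi (e := 1) (t := zt c p i) hP s.v1 hC hw hm ha s.al2 s.Q0.le hη
      (by simpa using (q6 i).1) w2 hl
    rwa [dx, e, (q1 i).1, (w1 i).1, ← one_mul (al f c p * _), ← mul_assoc 1]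
  · have := gphi (e := -1) (t := zt c p i) hP s.v1 hC hw hm ha s.al2 s.Q0.le hη
      (by simpa [sub_eq_add_neg] using (q6 i).2) w2 hl
    rwa [dyy, e, (q1 i).2, (w1 i).2, sub_eq_add_neg, ← neg_one_mul (al f c p * _), ← mul_assoc (-1)]

lemma gom {μ w d a q s C : ℝ} (h0 : 0 ≤ μ) (h1 : μ ≤ 1) (hw : 0 ≤ w) (hC : 1 ≤ C) (hs : 0 ≤ s)
    (hd : |d| ≤ C * s) (ha : |a| ≤ C ^ 2 * s) (hq : |q| ≤ C * s) :
    |μ * w * (2 * d - μ * (a + 2 * q))| ≤ 5 * C ^ 2 * (μ * w * s) := by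
  have e1 : C * s ≤ C ^ 2 * s := mul_le_mul_of_nonneg_right (by nlinarith) hs
  have e2 : |a + 2 * q| ≤ 3 * (C ^ 2 * s) :=
    abs_le.2 ⟨by linarith [(abs_le.1 ha).1, (abs_le.1 hq).1],
      by linarith [(abs_le.1 ha).2, (abs_le.1 hq).2]⟩
  have e3 := mul_ge (show |μ| ≤ 1 by rwa [abs_of_nonneg h0]) e2
  have e4 : |2 * d - μ * (a + 2 * q)| ≤ 5 * (C ^ 2 * s) :=
    abs_le.2 ⟨by linarith [(abs_le.1 hd).1, e3.1], by linarith [(abs_le.1 hd).2, e3.2]⟩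
  rw [abs_mul, abs_of_nonneg (mul_nonneg h0 hw)]
  exact (mul_le_mul_of_nonneg_left e4 (mul_nonneg h0 hw)).trans (le_of_eq (by ring))

lemma grad_om {Cq Cx' C2 C7 : ℝ} (h : W0 f c) (hC : 1 ≤ C) (hq : WQ c Cq η p)
    (hx : W1x f c Cx' p.1) (h7 : CutB f c C7 (mu f c N 1) p) (e1 : Cq ≤ C) (e2 : Cx' ≤ C)
    (e3 : C2 ≤ C) (e4 : C7 ≤ C) (hη : η ≤ 1) (s : Sz f c C2 η N p) :
    (∀ k, |D (exy k) (om f c N) p| ≤ 5 * C ^ 2 *
      (mu f c N 1 p * (1 / (aX f c p.1 * QQ c p) / QQ c p) / √(QQ c p))) ∧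
    ∀ i, |(dx (om f c N) p + dyy (om f c N) p) i| ≤ 5 * C ^ 2 *
      (mu f c N 1 p * (1 / (aX f c p.1 * QQ c p) / QQ c p) * vv f c p) := by
  obtain ⟨-, -, q3, -, -, -, -, q8, -⟩ := hq
  have hQ := s.Q0
  have hr : 0 < √(QQ c p) := Real.sqrt_pos.2 hQ
  have ha := (h.2.1 p.1).1
  have hv := zero_le_one.trans s.v1
  have hL := zero_le_one.trans s.L1
  have hw : 0 ≤ 1 / (aX f c p.1 * QQ c p) / QQ c p := by positivity
  have ha' : ∀ i, |D (ee i) (aX f c) p.1 / aX f c p.1| ≤ C ^ 2 * vv f c p := fun i => by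
    have b1 : |D (ee i) (aX f c) p.1| ≤ Cx' * aX f c p.1 * LX f c p.1 := by
      simpa [Ds] using hx.1 [i] (by simp)
    have b2 := s.Lv.trans (mul_le_mul_of_nonneg_right e3 hv)
    rw [abs_div, abs_of_pos ha, div_le_iff₀ ha]
    calc _ ≤ C * aX f c p.1 * (C * vv f c p) := b1.trans (by gcongr)
      _ = _ := by ring
  have hvr : vv f c p ≤ 1 / √(QQ c p) := by
    rw [le_div_iff₀ hr]
    exact (sq_le_one_iff₀ (by positivity)).1 (s.v8.trans hη)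
  refine ⟨fun k => ?_, fun i => ?_⟩
  · rw [D_om h hQ.ne', div_eq_mul_one_div _ (√(QQ c p))]
    refine gom (mu_mem N 1 p).1 (mu_mem N 1 p).2 hw hC (by positivity) ?_ ?_ ?_
    · rw [mul_one_div, le_div_iff₀ hr]
      exact (h7.1 k).1.trans e4
    · cases k with
      | inl i => exact (ha' i).trans (by gcongr)
      | inr i =>
        rw [show (exy (.inr i) : X2 n).1 = 0 from rfl, D_zero, zero_div, abs_zero]
        positivity
    · rw [abs_div, abs_of_pos hQ, div_le_iff₀ hQ]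
      refine (q3 k).1.trans ((mul_le_mul_of_nonneg_right e1 hr.le).trans (le_of_eq ?_))
      rw [mul_assoc, one_div, inv_mul_eq_div, Real.div_sqrt]
  · rw [Pi.add_apply, dx, dyy, ← D_dir, D_om h hQ.ne']
    refine gom (mu_mem N 1 p).1 (mu_mem N 1 p).2 hw hC hv ?_ ?_ ?_
    · exact (h7.2 i).trans (mul_le_mul_of_nonneg_right e4 hv)
    · rw [show (ex i + ey i : X2 n).1 = ee i from add_zero _]
      exact ha' i
    · rw [abs_div, abs_of_pos hQ, div_le_iff₀ hQ]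
      exact (q8 i).1.trans (mul_le_mul_of_nonneg_right
        (hη.trans (one_le_mul_of_one_le_of_one_le hC s.v1)) hQ.le)

end Vale.Agent.P088.R2
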