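import Vale.Agent.P088.R2c
import Vale.Agent.P088.R2d

/-!
# P088: the Rellich multiplier along the diagonal
-/

open MeasureTheory Set Filter
open scoped ContDiff Topology

noncomputable section
namespace Vale.Agent.P088
open Vale.Agent.P136

namespace R2

variable {n : ℕ} {ι : Type} {f : Fx} {c : Cx n ι} {p : X2 n} {C η N : ℝ}

lemma LR {o u : X2 n → ℝ} (ho : Sm o) (h : W0 f c) (s1 : SmM c.γ₁) (s2 : SmM c.γ₂) (p : X2 n)
    {x y : Fin n → ℝ} (hx : x = px f c u p) (hy : y = py f c u p) :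
    LH c.γ₁ c.γ₂ o (phi f c) u p - RH c.γ₁ c.γ₂ o (phi f c) u p =
    (Lp' ex (onX c.γ₁) (phi f c) u p - Lp' ey (onY c.γ₂) (phi f c) u p) * (o p * zd p (x + y)) -
      (2 * (bil (g1 c p) x (dx (phi f c) p) - bil (g2 c p) y (dyy (phi f c) p)) *
          (o p * zd p (x + y)) -
        ((bil (g1 c p) (dx o p) x - bil (g2 c p) (dyy o p) y) * zd p (x + y) -
          o p * (bil (g1 c p) (x + y) x + bil (g2 c p) (x + y) y)) +
        1 / 2 * ((∑ k, zz p k * (dx o p + dyy o p) k) * (bil (g1 c p) x x - bil (g2 c p) y y) +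
          o p * (bil (fun i j => ∑ k, zz p k * D (ee k) (c.γ₁ i j) p.1) x x -
            bil (fun i j => ∑ k, zz p k * D (ee k) (c.γ₂ i j) p.2) y y)) -
        o p * (∑ k, zz p k * (dx (phi f c) p + dyy (phi f c) p) k) *
          (bil (g1 c p) x x - bil (g2 c p) y y)) := by
  obtain ⟨-, -, -, -, -, -, -, h1, -, h2, -⟩ := w0s h
  subst hx hy
  simp only [LH, RH, Dp_exy]
  rw [e1, e2, e3 _ _ _ ho, e4 _ _ _ ho s1 s2 h1 h2, e5, e6, e7]
  rfl

lemma good {Cq C1 Cx' C2 C7 L K ε δ Bb : ℝ} {u : X2 n → ℝ} (h : W0 f c) (ho : c.Ok f 1 L)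
    (hw : 1 ≤ f.Cw) (hC : 1 ≤ C) (hb : Bs f c p.1) (hq : WQ c Cq η p) (h1 : W1 f c C1 p)
    (hx : W1x f c Cx' p.1) (h7 : CutB f c C7 (mu f c N 1) p) (s : Sz f c C2 η N p) (e1 : Cq ≤ C)
    (e2 : C1 ≤ C) (e3 : Cx' ≤ C) (e4 : C2 ≤ C) (e5 : C7 ≤ C) (hη : η ≤ ε ^ 2) (hε0 : 0 ≤ ε)
    (hε : ε ≤ 1) (hδ : 0 < δ) (hN : 2 ≤ N) (hP : N ≤ Psi f c p)
    (hh : ∀ v, D v (Psi f c) p = my f c p * D v uu p + al f c p / 2 * D v (QQ c) p)
    (hK : K = 12 * (n + 1) * (5 * f.Cw * (n + 1) ^ 2 * C ^ 2) ^ 2)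
    (hB : |Lp' ey (onY c.γ₂) (phi f c) u p| ≤ Bb) :
    mu f c N 1 p ^ 2 / QQ c p ^ 2 * zd p (px f c u p + py f c u p) ^ 2 ≤
      LH c.γ₁ c.γ₂ (om f c N) (phi f c) u p - RH c.γ₁ c.γ₂ (om f c N) (phi f c) u p +
      (5 * K ^ 2 / N + 13 * K ^ 2 * ε + δ) * (n * (n2 (px f c u p + py f c u p) / QQ c p)) +
      (27 * K ^ 2 + 3 * K ^ 4 / δ) * (n * (vv f c p ^ 2 * n2 (py f c u p))) +
      3 / N ^ 2 * Lp' ex (onX c.γ₁) (phi f c) u p ^ 2 + 3 * Bb ^ 2 := by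
  have hQ := s.Q0
  have hr : 0 < √(QQ c p) := Real.sqrt_pos.2 hQ
  have hr2 : √(QQ c p) ^ 2 = QQ c p := Real.sq_sqrt hQ.le
  have ha := (h.2.1 p.1).1
  have hη1 : η ≤ 1 := hη.trans (pow_le_one₀ hε0 hε)
  have hN0 : 0 < N := by linarith
  have hP1 : 1 ≤ Psi f c p := by linarith
  have hv := zero_le_one.trans s.v1
  obtain ⟨C', hC'⟩ : ∃ C', C' = 5 * f.Cw * (n + 1) ^ 2 * C ^ 2 := ⟨_, rfl⟩
  have n1 : (1 : ℝ) ≤ (n + 1) ^ 2 := one_le_pow₀ (by linarith [n.cast_nonneg (α := ℝ)])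
  have c1 : 1 ≤ C ^ 2 := one_le_pow₀ hC
  have c2 : 5 * f.Cw * C ^ 2 ≤ C' := by
    rw [hC', mul_right_comm (5 * f.Cw)]
    exact le_mul_of_one_le_right (by positivity) n1
  have c3 : C ^ 2 ≤ f.Cw * C ^ 2 := le_mul_of_one_le_left (by positivity) hw
  have c4 : 5 * ((n : ℝ) + 1) ^ 2 ≤ C' := by
    rw [hC', mul_right_comm 5, mul_assoc _ f.Cw]
    exact le_mul_of_one_le_right (by positivity) (c1.trans c3)
  have c5 : C ≤ C ^ 2 := le_self_pow₀ hC two_ne_zero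
  have c6 : 2 * (n : ℝ) ≤ C' ∧ 2 * n * (1 + 2 * (n : ℝ)) ≤ C' := by
    constructor <;> linarith [n.cast_nonneg (α := ℝ), sq_nonneg (n : ℝ)]
  obtain ⟨m1, m2, m3, m4, m5⟩ := mats ho hb hq hη1 s
  have g := grad_phi h hw hC hq h1 e1 e2 hη1 s hP1 hh
  obtain ⟨o1, o2⟩ := grad_om h hC hq hx h7 e1 e3 e4 e5 hη1 s
  have hμ := mu_mem (f := f) (c := c) N 1 p
  have hW : 1 / (aX f c p.1 * QQ c p) ≤ 1 / N := one_div_le_one_div_of_le hN0 (hP.trans s.Pa)
  have up : ∀ {a b t : ℝ}, a ≤ b * t → b ≤ C' → 0 ≤ t → a ≤ C' * t := fun h1 h2 h3 =>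
    h1.trans (mul_le_mul_of_nonneg_right h2 h3)
  have := vec (x := px f c u p) (y := py f c u p) (z := zz p) (zt := zt c p) (G := gm c p)
    (A := g1 c p) (B := g2 c p)
    (Z := zd p (px f c u p + py f c u p)) (ox := dx (om f c N) p) (oy := dyy (om f c N) p)
    (ℓ := Lp' ex (onX c.γ₁) (phi f c) u p) (W := 1 / (aX f c p.1 * QQ c p))
    (Lu := Lp' ex (onX c.γ₁) (phi f c) u p - Lp' ey (onY c.γ₂) (phi f c) u p)
    (show 1 ≤ C' by linarith) (hC' ▸ hK) (by positivity)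
    (hW.trans ((div_le_one hN0).2 (by linarith))) hr hμ.1 hμ.2 s.v1
    ((sq_le_sq₀ (by positivity) hε0).1 (s.v8.trans hη)) hε hδ hP1
    (by rw [one_div, inv_mul_le_one₀ (by positivity)]; exact s.Pa)
    (by
      rw [hr2, show al f c p * (1 / (aX f c p.1 * QQ c p)) * QQ c p = al f c p / aX f c p.1 by
        field_simp, le_div_iff₀ ha]
      exact s.al1)
    (le_trans (by positivity) s.al1) (by rw [hr2]; linarith [s.al2])
    ((abs_sub _ _).trans (by linarith)) ((abs_nonneg _).trans hB)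
    (fun i j => near0 ho.2.2.2.2.2.2.2.1 i j p.1) (fun i j => near0 ho.2.2.2.2.2.2.2.2.2.2.1 i j p.2)
    (fun i j => up (m1 i j) (by linarith) hr.le) (fun i j => up (m2 i j) (by linarith) hr.le)
    (fun i j => up ((m3 i j).trans (one_mul _).ge) (by linarith) hr.le)
    (fun i => up (s.zr i) (by linarith) hr.le)
    (fun i => up (hq.2.2.2.1 i).1 (by linarith) hr.le)
    (by
      rw [bil_symm (A := gm c p) (fun i j => congrFun (ho.2.2.2.2.2.2.2.2.2.1 i j) _)]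
      exact ((h.2.2.1 p).2.2.2.2.2.2.2.2.2.2.2.2.2.2.1 _).symm)
    (fun i => up (g i).1 (by linarith) (by positivity))
    (fun i => up (g i).2 (by linarith) (by positivity))
    (fun i => by rw [hr2]; exact up (o1 (.inl i)) (by linarith) (by have := hμ.1; positivity))
    (fun i => by rw [hr2]; exact up (o1 (.inr i)) (by linarith) (by have := hμ.1; positivity))
    (fun i => by rw [hr2]; exact up (o2 i) (by linarith) (by have := hμ.1; positivity))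
    (fun i j => up (m4 i j) c6.1 hr.le) (fun i j => up (m5 i j) c6.2 (sq_nonneg _))
  rw [hr2, show mu f c N 1 p ^ 2 * (1 / (aX f c p.1 * QQ c p) / QQ c p) = om f c N p by
    rw [om]; field_simp, ← LR (sm_om h hN0) h ho.2.2.2.2.2.1 ho.2.2.2.2.2.2.2.2.1 p rfl rfl] at this
  have t1 : 0 ≤ n * (n2 (px f c u p + py f c u p) / QQ c p) :=
    mul_nonneg n.cast_nonneg (div_nonneg (Finset.sum_nonneg fun _ _ => sq_nonneg _) hQ.le)
  have t2 := mul_le_mul_of_nonneg_right (mul_le_mul_of_nonneg_left hW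
    (show 0 ≤ 5 * K ^ 2 by positivity)) t1
  have t3 := mul_le_mul_of_nonneg_right (pow_le_pow_left₀ (by positivity) hW 2)
    (sq_nonneg (Lp' ex (onX c.γ₁) (phi f c) u p))
  rw [div_pow _ N, one_pow] at t3
  rw [div_eq_mul_one_div _ N, div_eq_mul_one_div 3]
  linarith only [this, t2, t3]

lemma n2_nonneg (a : Fin n → ℝ) : 0 ≤ n2 a := Finset.sum_nonneg fun _ _ => sq_nonneg _

variable [Fintype ι] {g q : ι → X2 n → ℝ}

/-- The density of the error term. -/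
def PY (f : Fx) (c : Cx n ι) (g : ι → X2 n → ℝ) (p : X2 n) : ℝ :=
  ∑ s, LX f c p.1 ^ 2 * n2 (py f c (g s) p)

lemma L2_bd {o L : ℝ} (ho : c.Ok f o L) {s : ι} (h0 : L2b c.γ₂ c.b (phi f c) g s p = 0) :
    |Lp' ey (onY c.γ₂) (phi f c) (g s) p| ≤ f.Mb * ∑ s', l1 (py f c (g s') p) := by
  rw [eq_neg_of_add_eq_zero_left h0, abs_neg, Finset.sum_comm, Finset.mul_sum]
  refine (Finset.abs_sum_le_sum_abs _ _).trans
    (Finset.sum_le_sum fun s' _ => dot_abs (fun a => ?_) _)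
  simpa [Ds] using ho.2.2.2.2.2.2.2.2.2.2.2.2 a s s' p.2 [] (by simp)

lemma Bsq (hL : 1 ≤ LX f c p.1) : (f.Mb * ∑ s', l1 (py f c (g s') p)) ^ 2 ≤
    f.Mb ^ 2 * Fintype.card ι * n * PY f c g p := by
  rw [mul_pow, mul_assoc, mul_assoc]
  refine mul_le_mul_of_nonneg_left (sq_sum_le_card_mul_sum_sq.trans ?_) (sq_nonneg _)
  rw [PY, Finset.mul_sum _ _ (n : ℝ)]
  refine mul_le_mul_of_nonneg_left (Finset.sum_le_sum fun s _ => (l1_sq _).trans ?_)
    (Nat.cast_nonneg _)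
  exact mul_le_mul_of_nonneg_left (le_mul_of_one_le_left (n2_nonneg _) (one_le_pow₀ hL))
    n.cast_nonneg

lemma pw {Cq C1 Cx' C2 C7 L K ε δ η' C₀ Cf : ℝ} (h : W0 f c) (ho : c.Ok f 1 L) (hf : f.Ok)
    (hC : 1 ≤ C) (hq : ∀ p ∈ Om2 c, WQ c Cq η' p) (h1 : ∀ p ∈ Om2 c, W1 f c C1 p)
    (hx : ∀ x, ‖x‖ ≤ 2 → W1x f c Cx' x) (h2 : ∀ p ∈ Om2 c, W2 f c C2 η' p)
    (h7 : ∀ p ∈ Om2 c, W7 f c C7 p) (hh : S_hess) (e1 : Cq ≤ C) (e2 : C1 ≤ C) (e3 : Cx' ≤ C)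
    (e4 : C2 ≤ C) (e5 : C7 ≤ C) (hη : η' ≤ ε ^ 2) (hη' : η' ≤ 1 / 200) (hε0 : 0 ≤ ε) (hε : ε ≤ 1)
    (hδ : 0 < δ) (hK : K = 12 * (n + 1) * (5 * f.Cw * (n + 1) ^ 2 * C ^ 2) ^ 2)
    (k1 : 5 * K ^ 2 * n + 3 ≤ C₀) (k3 : (13 * K ^ 2 * ε + δ) * n ≤ η)
    (k4 : (27 * K ^ 2 + 3 * K ^ 4 / δ) * n * C ^ 2 + 3 * (f.Mb ^ 2 * Fintype.card ι * n) ≤ Cf)
    (hT : TT f c g q) (hN : 2 ≤ N) (s : ι) (p : X2 n) :
    mu f c N 1 p ^ 2 / QQ c p ^ 2 * zd p (px f c (g s) p + py f c (g s) p) ^ 2 ≤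
      LH c.γ₁ c.γ₂ (om f c N) (phi f c) (g s) p - RH c.γ₁ c.γ₂ (om f c N) (phi f c) (g s) p +
      (C₀ / N + η) * (mu f c (N / 2) 2 p ^ 2 / QQ c p * n2 (px f c (g s) p + py f c (g s) p)) +
      C₀ / N ^ 2 * Lp' ex (onX c.γ₁) (phi f c) (g s) p ^ 2 +
      Cf * (Nr f c 8).indicator (PY f c g) p := by
  have hN0 : 0 < N := by linarith
  have hn : (0 : ℝ) ≤ n := n.cast_nonneg
  have a1 : 0 ≤ 5 * K ^ 2 * n := by positivity
  have a2 : 0 ≤ (27 * K ^ 2 + 3 * K ^ 4 / δ) * n := by positivity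
  have hPY : ∀ p s, 0 ≤ LX f c p.1 ^ 2 * n2 (py f c (g s) p) := fun p s =>
    mul_nonneg (sq_nonneg _) (n2_nonneg _)
  have triv : ∀ {a b : ℝ}, a = 0 → b = 0 → a ≤ b + (C₀ / N + η) * (mu f c (N / 2) 2 p ^ 2 /
      QQ c p * n2 (px f c (g s) p + py f c (g s) p)) +
      C₀ / N ^ 2 * Lp' ex (onX c.γ₁) (phi f c) (g s) p ^ 2 +
      Cf * (Nr f c 8).indicator (PY f c g) p := fun b1 b2 => by
    have b3 : 0 ≤ QQ c p := le_trans (by positivity) (h.2.2.1 p).1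
    have b4 := n2_nonneg (px f c (g s) p + py f c (g s) p)
    have b5 : 0 ≤ (Nr f c 8).indicator (PY f c g) p :=
      indicator_nonneg (fun p _ => Finset.sum_nonneg fun s _ => hPY p s) p
    have b6 : 0 ≤ C₀ := by linarith only [a1, k1]
    have b7 : 0 ≤ η := le_trans (by positivity) k3
    have b8 : 0 ≤ Cf := le_trans (by positivity) k4
    rw [b1, b2]
    positivity
  have lr := LR (u := g s) (sm_om h hN0) h ho.2.2.2.2.2.1 ho.2.2.2.2.2.2.2.2.1 p rfl rfl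
  by_cases hp : p ∈ tsupport (g s)
  swap
  · have b : ∀ d, Dp (phi f c) d (g s) p = 0 := fun d =>
      image_eq_zero_of_notMem_tsupport fun h => hp (tsupport_Dp _ _ _ h)
    have bx : px f c (g s) p = 0 := funext fun _ => b _
    have by' : py f c (g s) p = 0 := funext fun _ => b _
    refine triv ?_ (lr.trans ?_) <;> simp [bx, by', zd, bil]
  by_cases hz : Psi f c p < N ∨ 2 * 1 < QQ c p ^ 2 * FF f c p
  · have b := mu_ev h hN0 one_pos hz
    have b' : om f c N =ᶠ[𝓝 p] fun _ => 0 := by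
      filter_upwards [b] with q hq
      simp [om, hq]
    have bx : dx (om f c N) p = 0 := funext fun _ => (D_congr b' _).trans (D_const _ _ _)
    have by' : dyy (om f c N) p = 0 := funext fun _ => (D_congr b' _).trans (D_const _ _ _)
    refine triv ?_ (lr.trans ?_) <;> simp [bx, by', b.eq_of_nhds, b'.eq_of_nhds, bil]
  rw [not_or, not_lt, not_lt] at hz
  obtain ⟨hO, hb⟩ := (hT.1 s).2.2.1 hp
  have r16 : p ∈ Nr f c 16 := hz.2.trans (by norm_num)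
  have r8 : p ∈ Nr f c 8 := hz.2.trans (by norm_num)
  have sz := sizes h ho.2.1 (h2 p hO) hη' hN hz.1 r16
  have hx2 : ‖p.1‖ ≤ 2 := by linarith only [norm_sub_norm_le p.1 c.p0, hO.1, ho.2.2.2.2.1]
  have := good (u := g s) h ho hf.2.2.2.2.2.2.2.2.2.2.2.1 hC hb (hq p hO) (h1 p hO) (hx _ hx2)
    (h7 p hO r16 N 1 (by linarith only [hN]) le_rfl (by norm_num)).2.2.1 sz e1 e2 e3 e4 e5 hη hε0
    hε hδ hN hz.1 (fun v => (hh n ι f c hf h p v v).1) hK (L2_bd ho (hT.2 p (.inr sz.z1) s))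
  have m1 : mu f c (N / 2) 2 p = 1 := by
    rw [mu, cq, cn, cut_zero ((le_div_iff₀ (half_pos hN0)).2 (by linarith only [hz.1])),
      cut_one ((div_le_one two_pos).2 (by linarith only [hz.2])), sub_zero, mul_one]
  rw [m1, one_pow, one_div, inv_mul_eq_div, indicator_of_mem r8]
  have t0 := div_nonneg (n2_nonneg (px f c (g s) p + py f c (g s) p)) sz.Q0.le
  have t1 := mul_le_mul_of_nonneg_right (add_le_add (div_le_div_of_nonneg_right
    (show 5 * K ^ 2 * n ≤ C₀ by linarith only [k1]) hN0.le) k3) t0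
  have t2 := mul_le_mul_of_nonneg_right (div_le_div_of_nonneg_right
    (show 3 ≤ C₀ by linarith only [k1, a1]) (sq_nonneg N))
    (sq_nonneg (Lp' ex (onX c.γ₁) (phi f c) (g s) p))
  have t3 : vv f c p ^ 2 * n2 (py f c (g s) p) ≤ C ^ 2 * PY f c g p := by
    have u1 : vv f c p ≤ C * LX f c p.1 :=
      sz.vL.trans (mul_le_mul_of_nonneg_right e4 (zero_le_one.trans sz.L1))
    refine (mul_le_mul_of_nonneg_right (pow_le_pow_left₀ (zero_le_one.trans sz.v1) u1 2)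
      (n2_nonneg _)).trans ?_
    rw [mul_pow, mul_assoc]
    exact mul_le_mul_of_nonneg_left
      (Finset.single_le_sum (fun s _ => hPY p s) (Finset.mem_univ s)) (sq_nonneg _)
  have t4 := mul_le_mul_of_nonneg_left t3 a2
  have t5 := mul_le_mul_of_nonneg_right k4
    (show 0 ≤ PY f c g p from Finset.sum_nonneg fun s _ => hPY p s)
  have t6 := Bsq (g := g) sz.L1
  rw [mul_div_right_comm] at t1
  linarith only [this, t1, t2, t4, t5, t6]

lemma tst_n2 {a : X2 n → Fin n → ℝ} (h : ∀ i, Tst fun p => a p i) : Tst fun p => n2 (a p) :=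
  Tst.sum _ fun i _ => (h i).sq

lemma integ {A B Cf : ℝ} (h : W0 f c) (hRL : S_RL) (hT : ∀ s, Tst (g s)) (hN : 0 < N)
    (hp : ∀ s p, mu f c N 1 p ^ 2 / QQ c p ^ 2 * zd p (px f c (g s) p + py f c (g s) p) ^ 2 ≤
      LH c.γ₁ c.γ₂ (om f c N) (phi f c) (g s) p - RH c.γ₁ c.γ₂ (om f c N) (phi f c) (g s) p +
      A * (mu f c (N / 2) 2 p ^ 2 / QQ c p * n2 (px f c (g s) p + py f c (g s) p)) +
      B * Lp' ex (onX c.γ₁) (phi f c) (g s) p ^ 2 + Cf * (Nr f c 8).indicator (PY f c g) p) :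
    TZ f c g N ≤ A * TT2 f c g N + B * qLX f c g + Cf * (Fintype.card ι * IPy f c g) := by
  obtain ⟨hQ, hF, -, -, hφ, -, hL, h1, s1, h2, s2⟩ := w0s h
  have hm : MeasurableSet (Nr f c 8) :=
    (isClosed_le ((hQ.pow 2).mul hF).cont continuous_const).measurableSet
  have i0 : ∀ s, Integrable fun p : X2 n => LX f c p.1 ^ 2 * n2 (py f c (g s) p) := fun s =>
    (tst_n2 fun i => Tst.Dp hφ (hT s) _).integrable_cmul ((hL.cont.comp continuous_fst).pow 2)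
  have i4 : Integrable ((Nr f c 8).indicator (PY f c g)) :=
    (integrable_finsetSum _ fun s _ => i0 s).indicator hm
  have e4 : ∫ p, (Nr f c 8).indicator (PY f c g) p = IPy f c g := by
    rw [integral_indicator hm]
    exact integral_finsetSum _ fun s _ => (i0 s).integrableOn
  rw [TZ, TT2, qLX, ← e4, ← nsmul_eq_mul, ← Finset.card_univ, ← Finset.sum_const, Finset.mul_sum,
    Finset.mul_sum, Finset.mul_sum, ← Finset.sum_add_distrib, ← Finset.sum_add_distrib]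
  refine Finset.sum_le_sum fun s _ => ?_
  obtain ⟨i1, e1⟩ := rl hRL h1 h2 s1 s2 (sm_om h hN) hφ (hT s)
  have i2 : Integrable fun p => mu f c (N / 2) 2 p ^ 2 / QQ c p *
      n2 (px f c (g s) p + py f c (g s) p) :=
    (tst_n2 fun i => (Tst.Dp hφ (hT s) _).add (Tst.Dp hφ (hT s) _)).integrable_cmul
      (by simpa using (sm_div h (half_pos hN) two_pos 1).cont)
  have i3 : Integrable fun p => Lp' ex (onX c.γ₁) (phi f c) (g s) p ^ 2 :=
    (IdT.tst_Lp h1 hφ (hT s)).sq.integrable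
  refine (integral_mono_of_nonneg (Eventually.of_forall fun p => by positivity)
    (iadd (iadd (iadd i1 (i2.const_mul A)) (i3.const_mul B)) (i4.const_mul Cf))
    (Eventually.of_forall (hp s))).trans (le_of_eq ?_)
  rw [integral_add (iadd (iadd i1 (i2.const_mul A)) (i3.const_mul B)) (i4.const_mul Cf),
    integral_add (iadd i1 (i2.const_mul A)) (i3.const_mul B), integral_add i1 (i2.const_mul A), e1,
    zero_add, integral_const_mul, integral_const_mul, integral_const_mul]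

end R2

open R2 in
theorem s_R2 (h0 : S_w0) (hq : S_wq) (hh : S_hess) (h1 : S_w1) (hx : S_w1x) (h2 : S_w2)
    (h7 : S_w7) (hRL : S_RL) (hXY : S_XY) : S_R2 := by
  intro n ι _ f hf
  obtain ⟨Cq, q1, hq⟩ := hq n
  obtain ⟨C1, c1, h1⟩ := h1 n ι f hf
  obtain ⟨Cx', cx, hx⟩ := hx n ι f hf
  obtain ⟨C2, c2, h2⟩ := h2 n ι f hf
  obtain ⟨C7, c7, h7⟩ := h7 n ι f hf
  obtain ⟨CX, cX, hXY⟩ := hXY n ι f hf
  obtain ⟨C, hC⟩ : ∃ C, C = Cq + C1 + Cx' + C2 + C7 := ⟨_, rfl⟩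
  obtain ⟨K, hK⟩ : ∃ K, K = 12 * (n + 1) * (5 * f.Cw * (n + 1) ^ 2 * C ^ 2) ^ 2 := ⟨_, rfl⟩
  have hn : (0 : ℝ) ≤ n := n.cast_nonneg
  have a1 : 0 ≤ 5 * K ^ 2 * n := by positivity
  refine ⟨5 * K ^ 2 * n + 3, by linarith, fun η hη => ?_⟩
  obtain ⟨δ, hδ⟩ : ∃ δ, δ = η / ((13 * K ^ 2 + 1) * (n + 1)) := ⟨_, rfl⟩
  have d0 : 0 < δ := by rw [hδ]; positivity
  have m0 : 0 < min δ 1 := lt_min d0 one_pos
  have y0 : 0 < min (min δ 1 ^ 2) (1 / 200) := lt_min (by positivity) (by norm_num)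
  obtain ⟨Cf, hCf⟩ : ∃ Cf, Cf = (27 * K ^ 2 + 3 * K ^ 4 / δ) * n * C ^ 2 +
    3 * (f.Mb ^ 2 * Fintype.card ι * n) := ⟨_, rfl⟩
  have f0 : 0 ≤ Cf := by rw [hCf]; positivity
  have f1 : 0 ≤ Cf * (Fintype.card ι * CX) := by positivity
  refine ⟨Cf * (Fintype.card ι * CX) + 1, by linarith, ((h0 n ι f hf).and ((Ev.ok f one_pos 1).and
    ((hq ι f hf _ y0).and (h1.and (hx.and ((h2 _ y0).and (h7.and hXY))))))).mono ?_⟩
  rintro c ⟨w0, ok, wq, w1, wx, w2, w7, xy⟩ g q hT N hN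
  have k3 : (13 * K ^ 2 * min δ 1 + δ) * n ≤ η :=
    calc _ ≤ (13 * K ^ 2 * δ + δ) * (n + 1) := by
          gcongr
          exacts [min_le_left _ _, by linarith]
      _ = η := by rw [hδ]; field_simp
  have := integ w0 hRL (fun s => (hT.1 s).1) (by linarith) (pw w0 ok hf (show 1 ≤ C by linarith) wq
    w1 wx w2 w7 hh (by linarith) (by linarith) (by linarith) (by linarith) (by linarith)
    (min_le_left _ _) (min_le_right _ _) m0.le (min_le_right _ _) d0 hK le_rfl k3 hCf.ge hT hN)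
  have p0 : 0 ≤ IPy f c g := Finset.sum_nonneg fun s _ => integral_nonneg fun p =>
    mul_nonneg (sq_nonneg _) (n2_nonneg _)
  have p1 := (xy g q hT).1
  have p2 : 0 ≤ NN f c g := nonneg_of_mul_nonneg_right (p0.trans p1) (by linarith)
  have p3 := mul_le_mul_of_nonneg_left p1 (show 0 ≤ Cf * Fintype.card ι by positivity)
  linarith only [this, p2, p3]

end Vale.Agent.P088
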