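import Vale.Agent.P088.StI

/-!
# P088: algebra for the Rellich multiplier along the diagonal
-/

noncomputable section
namespace Vale.Agent.P088.R2

variable {n : ℕ} {A B G : Fin n → Fin n → ℝ} {a b x y : Fin n → ℝ} {α β : ℝ}

/-- The sum of the absolute values. -/
def l1 (a : Fin n → ℝ) : ℝ := ∑ i, |a i|

lemma l1_nonneg (a : Fin n → ℝ) : 0 ≤ l1 a := Finset.sum_nonneg fun _ _ => abs_nonneg _

lemma l1_le (h : ∀ i, |a i| ≤ α) : l1 a ≤ n * α :=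
  (Finset.sum_le_sum fun i _ => h i).trans (by simp)

lemma l1_sq (a : Fin n → ℝ) : l1 a ^ 2 ≤ n * n2 a := by
  simpa [l1, n2] using sq_sum_le_card_mul_sum_sq (s := Finset.univ) (f := fun i => |a i|)

lemma l1_left (x y : Fin n → ℝ) : l1 x ≤ l1 (x + y) + l1 y := by
  simp only [l1, ← Finset.sum_add_distrib]
  exact Finset.sum_le_sum fun i _ => by simpa using abs_sub (x i + y i) (y i)

lemma dot_abs (h : ∀ i, |a i| ≤ α) (b : Fin n → ℝ) : |∑ i, a i * b i| ≤ α * l1 b := by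
  rw [l1, Finset.mul_sum]
  refine (Finset.abs_sum_le_sum_abs _ _).trans (Finset.sum_le_sum fun i _ => ?_)
  rw [abs_mul]
  exact mul_le_mul_of_nonneg_right (h i) (abs_nonneg _)

lemma bil_abs (h : ∀ i j, |A i j| ≤ α) (a b : Fin n → ℝ) : |bil A a b| ≤ α * l1 a * l1 b := by
  rw [l1, l1, mul_assoc, Finset.sum_mul_sum]
  simp only [bil, mul_assoc, Finset.mul_sum]
  refine (Finset.abs_sum_le_sum_abs _ _).trans (Finset.sum_le_sum fun i _ =>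
    (Finset.abs_sum_le_sum_abs _ _).trans (Finset.sum_le_sum fun j _ => ?_))
  rw [abs_mul, abs_mul]
  exact mul_le_mul_of_nonneg_right (h i j) (by positivity)

lemma bil_symm (h : ∀ i j, A i j = A j i) (a b : Fin n → ℝ) : bil A a b = bil A b a := by
  rw [bil, Finset.sum_comm]
  exact Finset.sum_congr rfl fun i _ => Finset.sum_congr rfl fun j _ => by rw [h j i]; ring

lemma P4 (hA : ∀ i j, |A i j| ≤ α) (hB : ∀ i j, |A i j - B i j| ≤ β) (x y : Fin n → ℝ) :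
    |bil A x x - bil B y y| ≤ α * l1 (x + y) ^ 2 + 2 * α * l1 (x + y) * l1 y + β * l1 y ^ 2 := by
  have e : bil A x x - bil B y y = bil A (x + y) (x + y) - bil A (x + y) y - bil A y (x + y) +
      bil (fun i j => A i j - B i j) y y := by
    simp only [bil, ← Finset.sum_add_distrib, ← Finset.sum_sub_distrib, Pi.add_apply]
    exact Finset.sum_congr rfl fun i _ => Finset.sum_congr rfl fun j _ => by ring
  have h1 := abs_le.1 (bil_abs hA (x + y) (x + y))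
  have h2 := abs_le.1 (bil_abs hA (x + y) y)
  have h3 := abs_le.1 (bil_abs hA y (x + y))
  have h4 := abs_le.1 (bil_abs hB y y)
  rw [e, abs_le]
  constructor <;> linarith [h1.1, h1.2, h2.1, h2.2, h3.1, h3.2, h4.1, h4.2]

lemma P3 (hA : ∀ i j, |A i j| ≤ α) (hB : ∀ i j, |A i j - B i j| ≤ β) (x y : Fin n → ℝ) :
    |bil A (x + y) x + bil B (x + y) y| ≤ α * l1 (x + y) ^ 2 + β * l1 (x + y) * l1 y := by
  have e : bil A (x + y) x + bil B (x + y) y = bil A (x + y) (x + y) -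
      bil (fun i j => A i j - B i j) (x + y) y := by
    simp only [bil, ← Finset.sum_add_distrib, ← Finset.sum_sub_distrib, Pi.add_apply]
    exact Finset.sum_congr rfl fun i _ => Finset.sum_congr rfl fun j _ => by ring
  have h1 := abs_le.1 (bil_abs hA (x + y) (x + y))
  have h4 := abs_le.1 (bil_abs hB (x + y) y)
  rw [e, abs_le]
  constructor <;> linarith [h1.1, h1.2, h4.1, h4.2]

lemma P2 (hA : ∀ i j, |A i j| ≤ α) (hB : ∀ i j, |A i j - B i j| ≤ β) (a b x y : Fin n → ℝ) :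
    |bil A a x - bil B b y| ≤ α * l1 a * l1 (x + y) + α * l1 (a + b) * l1 y + β * l1 b * l1 y := by
  have e : bil A a x - bil B b y = bil A a (x + y) - bil A (a + b) y +
      bil (fun i j => A i j - B i j) b y := by
    simp only [bil, ← Finset.sum_add_distrib, ← Finset.sum_sub_distrib, Pi.add_apply]
    exact Finset.sum_congr rfl fun i _ => Finset.sum_congr rfl fun j _ => by ring
  have h1 := abs_le.1 (bil_abs hA a (x + y))
  have h2 := abs_le.1 (bil_abs hA (a + b) y)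
  have h4 := abs_le.1 (bil_abs hB b y)
  rw [e, abs_le]
  constructor <;> linarith [h1.1, h1.2, h2.1, h2.2, h4.1, h4.2]

lemma P1 {s : ℝ} (hs : 0 ≤ s) (hA : ∀ i j, |A i j| ≤ α) (hB : ∀ i j, |B i j| ≤ α)
    (hA' : ∀ i j, |A i j - G i j| ≤ β) (hB' : ∀ i j, |B i j - G i j| ≤ β) (a b z x y : Fin n → ℝ) :
    |bil A x a - bil B y b + s * bil G (x + y) z| ≤
      α * l1 x * l1 (fun i => a i + s * z i) + α * l1 y * l1 (fun i => b i - s * z i) +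
        s * (β * l1 x * l1 z + β * l1 y * l1 z) := by
  have e : bil A x a - bil B y b + s * bil G (x + y) z =
      bil A x (fun i => a i + s * z i) - bil B y (fun i => b i - s * z i) -
      s * (bil (fun i j => A i j - G i j) x z + bil (fun i j => B i j - G i j) y z) := by
    simp only [bil, Finset.mul_sum, ← Finset.sum_add_distrib, ← Finset.sum_sub_distrib,
      Pi.add_apply]
    exact Finset.sum_congr rfl fun i _ => Finset.sum_congr rfl fun j _ => by ring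
  have h1 := abs_le.1 (bil_abs hA x fun i => a i + s * z i)
  have h2 := abs_le.1 (bil_abs hB y fun i => b i - s * z i)
  have h3 := abs_le.1 ((abs_add_le _ _).trans (add_le_add (bil_abs hA' x z) (bil_abs hB' y z)))
  have h4 := mul_le_mul_of_nonneg_left h3.1 hs
  have h5 := mul_le_mul_of_nonneg_left h3.2 hs
  rw [e, abs_le]
  constructor <;> linarith [h1.1, h1.2, h2.1, h2.2]

lemma mul_ge {a b α β : ℝ} (ha : |a| ≤ α) (hb : |b| ≤ β) : a * b ≤ α * β ∧ -(α * β) ≤ a * b := by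
  have : |a * b| ≤ α * β := by
    rw [abs_mul]; exact mul_le_mul ha hb (abs_nonneg _) ((abs_nonneg _).trans ha)
  exact ⟨(abs_le.1 this).2, (abs_le.1 this).1⟩

lemma young (x m : ℝ) : x * m ≤ m ^ 2 / 10 + 5 / 2 * x ^ 2 := by nlinarith [sq_nonneg (m - 5 * x)]

lemma sq_le_self' {x : ℝ} (h0 : 0 ≤ x) (h1 : x ≤ 1) : x ^ 2 ≤ x := by nlinarith

lemma comb {K W ε δ τ Y m ℓ B T0 T1 T1' T2 T3 T4 T5 T6 : ℝ} (hK : 1 ≤ K) (hW : 0 ≤ W)
    (hW1 : W ≤ 1) (hε0 : 0 ≤ ε) (hε1 : ε ≤ 1) (hδ : 0 < δ) (hτ : 0 ≤ τ) (hY : 0 ≤ Y) (hm : 0 ≤ m)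
    (hB : 0 ≤ B) (b0 : -((|ℓ| + B) * (W * m)) ≤ T0) (b1 : T1 ≤ K * (ε * τ + Y) * m)
    (b1' : 3 / 4 * m ^ 2 ≤ T1') (b2 : -(K * (W * τ + Y) * m) ≤ T2)
    (b3 : T3 ≤ K * W * (τ ^ 2 + τ * Y)) (b4 : T4 ≤ K ^ 2 * (ε * τ ^ 2 + τ * Y + Y ^ 2))
    (b5 : T5 ≤ K ^ 2 * (ε * τ ^ 2 + τ * Y + Y ^ 2))
    (b6 : -(K ^ 2 * (ε * τ ^ 2 + τ * Y + Y ^ 2)) ≤ T6) :
    m ^ 2 ≤ T0 - (2 * (T1 - T1') - (T2 - T3) + 1 / 2 * (T4 + T5) - T6) +
      (5 * K ^ 2 * W + 13 * K ^ 2 * ε + δ) * τ ^ 2 + (27 * K ^ 2 + 3 * K ^ 4 / δ) * Y ^ 2 +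
      3 * W ^ 2 * ℓ ^ 2 + 3 * B ^ 2 := by
  have hK2 : K ≤ K ^ 2 := by nlinarith
  have c1 := young (2 * K * ε * τ) m
  have c1' := mul_le_mul_of_nonneg_left (sq_le_self' hε0 hε1) (sq_nonneg (K * τ))
  have c2 := young (3 * K * Y) m
  have c3 := young (K * W * τ) m
  have c3' := mul_le_mul_of_nonneg_left (sq_le_self' hW hW1) (sq_nonneg (K * τ))
  have c4 := young (|ℓ| * W) m
  rw [mul_pow, sq_abs] at c4
  have c5 := young B m
  have c5' := mul_le_mul_of_nonneg_left (mul_le_of_le_one_left hm hW1) hB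
  have c6 : K * W * (τ ^ 2 + τ * Y) ≤ K ^ 2 * W * (2 * τ ^ 2 + Y ^ 2) := by
    have h : τ ^ 2 + τ * Y ≤ 2 * τ ^ 2 + Y ^ 2 := by nlinarith [sq_nonneg (τ - Y)]
    gcongr
  have c6' := mul_le_of_le_one_left (show 0 ≤ K ^ 2 * Y ^ 2 by positivity) hW1
  have c7 : 2 * K ^ 2 * (τ * Y) ≤ δ * τ ^ 2 + 3 * K ^ 4 / δ * Y ^ 2 := by
    have e : δ * τ ^ 2 + 3 * K ^ 4 / δ * Y ^ 2 - 2 * K ^ 2 * (τ * Y) =
        ((δ * τ - K ^ 2 * Y) ^ 2 + 2 * (K ^ 2 * Y) ^ 2) / δ := by field_simp; ring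
    have : 0 ≤ ((δ * τ - K ^ 2 * Y) ^ 2 + 2 * (K ^ 2 * Y) ^ 2) / δ := by positivity
    linarith
  have c8 : 0 ≤ K ^ 2 * ε * τ ^ 2 := by positivity
  have c9 : 0 ≤ K ^ 2 * Y ^ 2 := by positivity
  have c10 : 0 ≤ K ^ 2 * W * τ ^ 2 := by positivity
  have c11 : 0 ≤ W ^ 2 * ℓ ^ 2 := by positivity
  have c12 := sq_nonneg B
  linarith

/-- The scalar inequality. -/
lemma scalar {K W r μ v ε δ τ y Ψ al Z ℓ B Lu X1 X2 X3 X4 X5 dv df : ℝ} (hK : 1 ≤ K) (hW : 0 ≤ W)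
    (hW1 : W ≤ 1) (hr : 0 < r) (hμ : 0 ≤ μ) (hμ1 : μ ≤ 1) (hv : 1 ≤ v) (hε : v * r ≤ ε)
    (hε1 : ε ≤ 1) (hδ : 0 < δ) (hτ : 0 ≤ τ) (hy : 0 ≤ y) (hΨ : W * Ψ ≤ 1)
    (hal : 3 / 4 ≤ al * W * r ^ 2) (hL : |Lu| ≤ |ℓ| + B) (hB : 0 ≤ B)
    (h1 : |X1 + al * Z| ≤ K * v * Ψ * (r * τ + y))
    (h2 : |X2| ≤ K * μ * (W / r ^ 2) * (τ + v * y))
    (h3 : |X3| ≤ K * r ^ 2 * (τ ^ 2 + τ * (v * y)))
    (h4 : |X4| ≤ K * r * (r * τ ^ 2 + τ * y + y ^ 2))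
    (h5 : |X5| ≤ K * r ^ 2 * (r * τ ^ 2 + τ * y + y ^ 2))
    (h6 : |dv| ≤ K * v * (W / r)) (h7 : |df| ≤ K * r * v * Ψ) :
    μ ^ 2 / (r ^ 2) ^ 2 * Z ^ 2 ≤ Lu * (μ ^ 2 * (W / r ^ 2) * Z) -
      (2 * X1 * (μ ^ 2 * (W / r ^ 2) * Z) - (X2 * Z - μ ^ 2 * (W / r ^ 2) * X3) +
        1 / 2 * (dv * X4 + μ ^ 2 * (W / r ^ 2) * X5) - μ ^ 2 * (W / r ^ 2) * df * X4) +
      (5 * K ^ 2 * W + 13 * K ^ 2 * ε + δ) * τ ^ 2 + (27 * K ^ 2 + 3 * K ^ 4 / δ) * (v * y) ^ 2 +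
      3 * W ^ 2 * ℓ ^ 2 + 3 * B ^ 2 := by
  obtain ⟨m, hm⟩ : ∃ m, m = μ * |Z| / r ^ 2 := ⟨_, rfl⟩
  obtain ⟨Y, hY⟩ : ∃ Y, Y = v * y := ⟨_, rfl⟩
  obtain ⟨S, hS⟩ : ∃ S, S = ε * τ ^ 2 + τ * Y + Y ^ 2 := ⟨_, rfl⟩
  have hm0 : 0 ≤ m := by rw [hm]; positivity
  have hY0 : 0 ≤ Y := by rw [hY]; positivity
  have hε0 : 0 ≤ ε := le_trans (by positivity) hε
  have hμ2 : μ ^ 2 ≤ 1 := (sq_le_self' hμ hμ1).trans hμ1
  have e0 : μ ^ 2 / (r ^ 2) ^ 2 * Z ^ 2 = m ^ 2 := by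
    rw [hm, div_pow, mul_pow, sq_abs]; ring
  have a0 : |μ ^ 2 * (W / r ^ 2) * Z| ≤ W * m := by
    rw [abs_mul, abs_of_nonneg (by positivity), hm]
    have e : W * (μ * |Z| / r ^ 2) = μ * (W / r ^ 2) * |Z| := by ring
    rw [e]
    gcongr
    exact sq_le_self' hμ hμ1
  have a1 : |μ ^ 2 * (W / r ^ 2)| ≤ W / r ^ 2 := by
    rw [abs_of_nonneg (by positivity)]
    exact mul_le_of_le_one_left (by positivity) hμ2
  have hS1 : v * (r * τ ^ 2 + τ * y + y ^ 2) ≤ S := by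
    have := mul_le_mul_of_nonneg_right hε (sq_nonneg τ)
    have h := mul_le_mul_of_nonneg_right hv (show 0 ≤ v * y ^ 2 by positivity)
    rw [hS, hY]; linarith
  have hq : 0 ≤ r * τ ^ 2 + τ * y + y ^ 2 := by positivity
  have hS2 : r * τ ^ 2 + τ * y + y ^ 2 ≤ S := le_trans (le_mul_of_one_le_left hq hv) hS1
  have hS0 : 0 ≤ S := hq.trans hS2
  have hK2 : K ≤ K ^ 2 := by
    rw [sq]; exact le_mul_of_one_le_left (by positivity) hK
  have b0 := (mul_ge hL a0).2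
  have b1 : (X1 + al * Z) * (μ ^ 2 * (W / r ^ 2) * Z) ≤ K * (ε * τ + Y) * m := by
    refine (mul_ge h1 a0).1.trans ?_
    have e : K * v * Ψ * (r * τ + y) * (W * m) = W * Ψ * (K * (v * r * τ + Y) * m) := by
      rw [hY]; ring
    rw [e]
    refine (mul_le_of_le_one_left (by positivity) hΨ).trans ?_
    gcongr
  have b1' : 3 / 4 * m ^ 2 ≤ al * Z * (μ ^ 2 * (W / r ^ 2) * Z) := by
    refine (mul_le_mul_of_nonneg_right hal (sq_nonneg m)).trans (le_of_eq ?_)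
    rw [← e0]; field_simp
  have b2 : -(K * (W * τ + Y) * m) ≤ X2 * Z := by
    refine le_trans (neg_le_neg ?_) (mul_ge h2 (le_refl |Z|)).2
    have e : K * μ * (W / r ^ 2) * (τ + v * y) * |Z| = K * (W * τ + W * Y) * m := by
      rw [hY, hm]; ring
    rw [e]
    gcongr
    exact mul_le_of_le_one_left hY0 hW1
  have b3 : μ ^ 2 * (W / r ^ 2) * X3 ≤ K * W * (τ ^ 2 + τ * Y) := by
    refine (mul_ge a1 h3).1.trans (le_of_eq ?_)
    rw [hY]; field_simp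
  have b4 : dv * X4 ≤ K ^ 2 * S := by
    refine (mul_ge h6 h4).1.trans ?_
    have e : K * v * (W / r) * (K * r * (r * τ ^ 2 + τ * y + y ^ 2)) =
        W * (K ^ 2 * (v * (r * τ ^ 2 + τ * y + y ^ 2))) := by field_simp
    rw [e]
    refine (mul_le_of_le_one_left (by positivity) hW1).trans ?_
    gcongr
  have b5 : μ ^ 2 * (W / r ^ 2) * X5 ≤ K ^ 2 * S := by
    refine (mul_ge a1 h5).1.trans ?_
    have e : W / r ^ 2 * (K * r ^ 2 * (r * τ ^ 2 + τ * y + y ^ 2)) =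
        W * (K * (r * τ ^ 2 + τ * y + y ^ 2)) := by field_simp
    rw [e]
    refine (mul_le_of_le_one_left (by positivity) hW1).trans ?_
    gcongr
  have b6 : -(K ^ 2 * S) ≤ μ ^ 2 * (W / r ^ 2) * df * X4 := by
    have a2 : |μ ^ 2 * (W / r ^ 2) * df| ≤ W / r ^ 2 * (K * r * v * Ψ) :=
      abs_le.2 ⟨(mul_ge a1 h7).2, (mul_ge a1 h7).1⟩
    refine le_trans (neg_le_neg ?_) (mul_ge a2 h4).2
    have e : W / r ^ 2 * (K * r * v * Ψ) * (K * r * (r * τ ^ 2 + τ * y + y ^ 2)) =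
        W * Ψ * (K ^ 2 * (v * (r * τ ^ 2 + τ * y + y ^ 2))) := by field_simp
    rw [e]
    refine (mul_le_of_le_one_left (by positivity) hΨ).trans ?_
    gcongr
  rw [hS] at b4 b5 b6
  have := comb hK hW hW1 hε0 hε1 hδ hτ hY0 hm0 hB b0 b1 b1' b2 b3 b4 b5 b6
  rw [e0, ← hY]
  linarith

end Vale.Agent.P088.R2
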