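import Vale.Agent.P088.R2a
import Vale.Agent.P088.IdTool

/-!
# P088: the Rellich identity on the product space
-/

open MeasureTheory Set
open scoped ContDiff Topology

noncomputable section
namespace Vale.Agent.P088.R2
open Vale.Agent.P136

variable {n : ℕ}

/-- The ultrahyperbolic matrix. -/
def Gam (γ₁ γ₂ : MatF n) : Fin n ⊕ Fin n → Fin n ⊕ Fin n → X2 n → ℝ
  | .inl i, .inl j => onX γ₁ i j
  | .inr i, .inr j => fun p => -onY γ₂ i j p
  | .inl _, .inr _ => fun _ => 0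
  | .inr _, .inl _ => fun _ => 0

/-- The multiplier field. -/
def YY (o : X2 n → ℝ) (k : Fin n ⊕ Fin n) (p : X2 n) : ℝ := o p * zz p (Sum.elim id id k)

lemma D_fst {F : En n → ℝ} (hF : Sm F) (d p : X2 n) :
    D d (fun p : X2 n => F p.1) p = D d.1 F p.1 := by
  have := ((hF.dAt p.1).hasFDerivAt.comp p hasFDerivAt_fst).fderiv
  exact congrArg (fun L : X2 n →L[ℝ] ℝ => L d) this

lemma D_snd {F : En n → ℝ} (hF : Sm F) (d p : X2 n) :
    D d (fun p : X2 n => F p.2) p = D d.2 F p.2 := by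
  have := ((hF.dAt p.2).hasFDerivAt.comp p hasFDerivAt_snd).fderiv
  exact congrArg (fun L : X2 n →L[ℝ] ℝ => L d) this

lemma D_zero (F : En n → ℝ) (x : En n) : D 0 F x = 0 := by simp [D]

lemma D_dir (F : X2 n → ℝ) (d e p : X2 n) : D (d + e) F p = D d F p + D e F p := by simp [D]

/-- The coordinates of `y - x` as linear maps. -/
def zL (k : Fin n) : X2 n →L[ℝ] ℝ :=
  (EuclideanSpace.proj k).comp (ContinuousLinearMap.snd ℝ _ _ - ContinuousLinearMap.fst ℝ _ _)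

lemma sm_z (k : Fin n) : Sm fun p : X2 n => zz p k := (zL k).contDiff

lemma D_z (k : Fin n) (d p : X2 n) : D d (fun p : X2 n => zz p k) p = d.2 k - d.1 k := by
  have : (fun p : X2 n => zz p k) = zL k := rfl
  rw [D, this, ContinuousLinearMap.fderiv]
  rfl

variable {γ₁ γ₂ : MatF n} {o φ u : X2 n → ℝ}

lemma sm_Gam (h1 : SmM (onX γ₁)) (h2 : SmM (onY γ₂)) : SmM (Gam γ₁ γ₂)
  | .inl i, .inl j => h1 i j
  | .inr i, .inr j => (h2 i j).neg
  | .inl _, .inr _ => Sm.const 0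
  | .inr _, .inl _ => Sm.const 0

lemma sym_Gam (h1 : SymM (onX γ₁)) (h2 : SymM (onY γ₂)) : SymM (Gam γ₁ γ₂)
  | .inl i, .inl j => h1 i j
  | .inr i, .inr j => by simp only [Gam, h2 i j]
  | .inl _, .inr _ => rfl
  | .inr _, .inl _ => rfl

lemma sm_YY (ho : Sm o) (k : Fin n ⊕ Fin n) : Sm (YY o k) := ho.mul (sm_z _)

lemma D_YY (ho : Sm o) (k : Fin n ⊕ Fin n) (d p : X2 n) : D d (YY o k) p =
    o p * (d.2 (Sum.elim id id k) - d.1 (Sum.elim id id k)) + D d o p * zz p (Sum.elim id id k) := by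
  rw [← D_z]
  exact D_mul_at (ho.dAt p) ((sm_z _).dAt p) d

section pt
variable (p : X2 n) (x y : Fin n → ℝ)

lemma e1 : ∑ k, YY o k p * Sum.elim x y k = o p * zd p (x + y) := by
  simp only [Fintype.sum_sum_type, YY, zd, Sum.elim_inl, Sum.elim_inr, id, Finset.mul_sum,
    ← Finset.sum_add_distrib, Pi.add_apply]
  exact Finset.sum_congr rfl fun i _ => by ring

lemma e2 : ∑ i, XX exy (Gam γ₁ γ₂) φ i p * Sum.elim x y i =
    bil (fun i j => γ₁ i j p.1) x (dx φ p) - bil (fun i j => γ₂ i j p.2) y (dyy φ p) := by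
  simp only [Fintype.sum_sum_type, XX, Gam, exy, Sum.elim_inl, Sum.elim_inr, zero_mul,
    Finset.sum_const_zero, add_zero, zero_add, bil, dx, dyy, onX, onY, Finset.sum_mul,
    ← Finset.sum_add_distrib, ← Finset.sum_sub_distrib]
  exact Finset.sum_congr rfl fun i _ => Finset.sum_congr rfl fun j _ => by ring

lemma e3 (ho : Sm o) : ∑ i, ∑ j, ∑ k, Gam γ₁ γ₂ i j p * D (exy i) (YY o k) p * Sum.elim x y j *
      Sum.elim x y k =
    (bil (fun i j => γ₁ i j p.1) (dx o p) x - bil (fun i j => γ₂ i j p.2) (dyy o p) y) *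
        zd p (x + y) -
      o p * (bil (fun i j => γ₁ i j p.1) (x + y) x + bil (fun i j => γ₂ i j p.2) (x + y) y) := by
  have h : ∀ d : X2 n, ∑ k, D d (YY o k) p * Sum.elim x y k =
      o p * (∑ k, (d.2 k - d.1 k) * (x + y) k) + D d o p * zd p (x + y) := fun d => by
    simp only [Fintype.sum_sum_type, D_YY ho, zd, Sum.elim_inl, Sum.elim_inr, id, Finset.mul_sum,
      ← Finset.sum_add_distrib, Pi.add_apply]
    exact Finset.sum_congr rfl fun i _ => by ring
  have h' : ∀ i j, ∑ k, Gam γ₁ γ₂ i j p * D (exy i) (YY o k) p * Sum.elim x y j *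
      Sum.elim x y k = Gam γ₁ γ₂ i j p * Sum.elim x y j *
        ∑ k, D (exy i) (YY o k) p * Sum.elim x y k := fun i j => by
    rw [Finset.mul_sum]
    exact Finset.sum_congr rfl fun i _ => by ring
  have hx : ∀ i, ∑ k, ((ex i : X2 n).2 k - (ex i : X2 n).1 k) * (x + y) k = -(x + y) i := fun i => by
    simp [ex, ee, Pi.single_apply]
  have hy : ∀ i, ∑ k, ((ey i : X2 n).2 k - (ey i : X2 n).1 k) * (x + y) k = (x + y) i := fun i => by
    simp [ey, ee, Pi.single_apply]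
  simp only [h', h]
  simp only [Fintype.sum_sum_type, Gam, exy, Sum.elim_inl, Sum.elim_inr, zero_mul,
    Finset.sum_const_zero, add_zero, zero_add, hx, hy]
  generalize zd p (x + y) = Z
  simp only [bil, dx, dyy, onX, onY, Finset.sum_mul,
    Finset.mul_sum, ← Finset.sum_add_distrib, ← Finset.sum_sub_distrib]
  exact Finset.sum_congr rfl fun i _ => Finset.sum_congr rfl fun j _ => by ring

lemma e6 : ∑ i, ∑ j, Gam γ₁ γ₂ i j p * Sum.elim x y i * Sum.elim x y j =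
    bil (fun i j => γ₁ i j p.1) x x - bil (fun i j => γ₂ i j p.2) y y := by
  simp only [Fintype.sum_sum_type, Gam, Sum.elim_inl, Sum.elim_inr, zero_mul,
    Finset.sum_const_zero, add_zero, zero_add, bil, onX, onY, ← Finset.sum_add_distrib,
    ← Finset.sum_sub_distrib]
  exact Finset.sum_congr rfl fun i _ => Finset.sum_congr rfl fun j _ => by ring

lemma e5 (F : X2 n → ℝ) : dir exy (YY o) F p = o p * ∑ k, zz p k * (dx F p + dyy F p) k := by
  simp only [dir, Fintype.sum_sum_type, YY, exy, Sum.elim_inl, Sum.elim_inr, id, Finset.mul_sum,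
    ← Finset.sum_add_distrib, Pi.add_apply, dx, dyy]
  exact Finset.sum_congr rfl fun i _ => by ring

lemma e4 (ho : Sm o) (h1 : SmM γ₁) (h2 : SmM γ₂) (h1' : SmM (onX γ₁)) (h2' : SmM (onY γ₂)) :
    ∑ i, ∑ j, dvg exy (fun l q => Gam γ₁ γ₂ i j q * YY o l q) p * Sum.elim x y i *
      Sum.elim x y j = (∑ k, zz p k * (dx o p + dyy o p) k) *
        (bil (fun i j => γ₁ i j p.1) x x - bil (fun i j => γ₂ i j p.2) y y) +
      o p * (bil (fun i j => ∑ k, zz p k * D (ee k) (γ₁ i j) p.1) x x -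
        bil (fun i j => ∑ k, zz p k * D (ee k) (γ₂ i j) p.2) y y) := by
  have hd : dvg exy (YY o) p = ∑ k, zz p k * (dx o p + dyy o p) k := by
    simp only [dvg, Fintype.sum_sum_type, D_YY ho, exy, Sum.elim_inl, Sum.elim_inr, id,
      ← Finset.sum_add_distrib, Pi.add_apply, dx, dyy]
    exact Finset.sum_congr rfl fun i _ => by simp [ex, ey, ee]; ring
  have hx : ∀ i j k, (dx (onX γ₁ i j) p + dyy (onX γ₁ i j) p) k = D (ee k) (γ₁ i j) p.1 :=
    fun i j k => (D_dir _ _ _ p).symm.trans ((D_fst (h1 i j) _ p).trans (by simp [ex, ey]))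
  have hy : ∀ i j k, (dx (fun p => -onY γ₂ i j p) p + dyy (fun p => -onY γ₂ i j p) p) k =
      -D (ee k) (γ₂ i j) p.2 := fun i j k => (D_dir _ _ _ p).symm.trans ((D_neg _ _ p).trans
        (congrArg _ ((D_snd (h2 i j) _ p).trans (by simp [ex, ey]))))
  have h0 : ∀ k, (dx (fun _ => 0) p + dyy (fun _ => 0) p) k = 0 := fun k => by
    simp [dx, dyy, D_const]
  simp only [IdT.dvg_mul (sm_Gam h1' h2' _ _) (sm_YY ho), hd, e5, add_mul, Finset.sum_add_distrib]
  congr 1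
  · rw [← e6]
    simp only [Finset.mul_sum _ _ (∑ k, _)]
    exact Finset.sum_congr rfl fun i _ => Finset.sum_congr rfl fun j _ => by ring
  · simp only [Fintype.sum_sum_type, Gam, Sum.elim_inl, Sum.elim_inr, hx, hy, h0, mul_zero,
      zero_mul, Finset.sum_const_zero, add_zero, zero_add, mul_neg, Finset.sum_neg_distrib]
    rw [mul_sub, bil, bil, Finset.mul_sum, Finset.mul_sum, sub_eq_add_neg,
      ← Finset.sum_neg_distrib]
    refine congrArg₂ _ (Finset.sum_congr rfl fun i _ => ?_) (Finset.sum_congr rfl fun i _ => ?_)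
    · rw [Finset.mul_sum]
      exact Finset.sum_congr rfl fun j _ => by ring
    · rw [Finset.mul_sum, ← Finset.sum_neg_distrib]
      exact Finset.sum_congr rfl fun j _ => by ring

lemma e7 : Lp' exy (Gam γ₁ γ₂) φ u p = Lp' ex (onX γ₁) φ u p - Lp' ey (onY γ₂) φ u p := by
  have hn : ∀ (F : X2 n → ℝ) (d : X2 n), Dp φ d (fun q => -F q) p = -Dp φ d F p := fun F d => by
    rw [Dp, Dp, D_neg]
    ring
  simp only [Lp', Fintype.sum_sum_type, Gam, exy, Sum.elim_inl, Sum.elim_inr, zero_mul,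
    Finset.sum_const_zero, add_zero, zero_add, neg_mul, Finset.sum_neg_distrib, hn]
  ring

end pt

/-- The left side of the identity. -/
def LH (γ₁ γ₂ : MatF n) (o φ u : X2 n → ℝ) (p : X2 n) : ℝ :=
  Lp' exy (Gam γ₁ γ₂) φ u p * ∑ k, YY o k p * Dp φ (exy k) u p

/-- The right side of the identity. -/
def RH (γ₁ γ₂ : MatF n) (o φ u : X2 n → ℝ) (p : X2 n) : ℝ :=
  2 * (∑ i, XX exy (Gam γ₁ γ₂) φ i p * Dp φ (exy i) u p) * (∑ k, YY o k p * Dp φ (exy k) u p) -
    (∑ i, ∑ j, ∑ k, Gam γ₁ γ₂ i j p * D (exy i) (YY o k) p * Dp φ (exy j) u p * Dp φ (exy k) u p) +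
    1 / 2 * (∑ i, ∑ j, dvg exy (fun l q => Gam γ₁ γ₂ i j q * YY o l q) p * Dp φ (exy i) u p *
      Dp φ (exy j) u p) -
    dir exy (YY o) φ p * ∑ i, ∑ j, Gam γ₁ γ₂ i j p * Dp φ (exy i) u p * Dp φ (exy j) u p

lemma rl (hRL : S_RL) (h1 : SmM (onX γ₁)) (h2 : SmM (onY γ₂)) (s1 : SymM (onX γ₁))
    (s2 : SymM (onY γ₂)) (ho : Sm o) (hφ : Sm φ) (hu : Tst u) :
    Integrable (fun p => LH γ₁ γ₂ o φ u p - RH γ₁ γ₂ o φ u p) ∧
      ∫ p, (LH γ₁ γ₂ o φ u p - RH γ₁ γ₂ o φ u p) = 0 := by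
  have hG := sm_Gam h1 h2
  have hY := sm_YY ho
  have hd := fun i => Tst.Dp hφ hu (exy i)
  have t1 : Tst fun p => ∑ k, YY o k p * Dp φ (exy k) u p :=
    Tst.sum _ fun k _ => Tst.mul_left (hY k) (hd k)
  have tL : Tst (LH γ₁ γ₂ o φ u) := Tst.mul_left (IdT.tst_Lp hG hφ hu).sm t1
  have tR : Tst (RH γ₁ γ₂ o φ u) :=
    (((Tst.mul_left (Sm.cmul 2 (Sm.sum fun i _ => (IdT.sm_XX hG hφ i).mul (hd i).sm)) t1).sub
      (Tst.sum _ fun i _ => Tst.sum _ fun j _ => Tst.sum _ fun k _ =>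
        Tst.mul_left (((hG i j).mul ((hY k).D _)).mul (hd j).sm) (hd k))).add
      (Tst.const_mul _ (IdT.tst_quad (fun i j => IdT.sm_dvg fun l => (hG i j).mul (hY l))
        (fun i => (hd i).sm) hd))).sub
      (Tst.mul_left (IdT.sm_dir hY hφ) (IdT.tst_quad hG (fun i => (hd i).sm) hd))
  refine ⟨(tL.sub tR).integrable, ?_⟩
  rw [integral_sub tL.integrable tR.integrable, sub_eq_zero]
  exact hRL _ volume _ exy _ φ u _ hG (sym_Gam s1 s2) hφ hu hY

lemma Dp_exy (φ u : X2 n → ℝ) (p : X2 n) (k : Fin n ⊕ Fin n) : Dp φ (exy k) u p =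
    Sum.elim (fun i => Dp φ (ex i) u p) (fun i => Dp φ (ey i) u p) k := by cases k <;> rfl

end Vale.Agent.P088.R2
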