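import Vale.Agent.P088.R2a

/-!
# P088: the pointwise inequality for the Rellich multiplier, in terms of components
-/

noncomputable section
namespace Vale.Agent.P088.R2

variable {n : ℕ} {A B G A' B' : Fin n → Fin n → ℝ} {z zt x y fx fy ox oy : Fin n → ℝ}
  {C K W r μ v ε δ Ψ al Z ℓ Bb Lu τ w : ℝ}

lemma kk (hC : 1 ≤ C) (hK : K = 12 * (n + 1) * C ^ 2) :
    12 * (n * C ^ 2) ≤ K ∧ 12 * C ≤ K ∧ n * C ≤ n * C ^ 2 ∧ 0 ≤ n * C := by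
  have hn : (0 : ℝ) ≤ n := n.cast_nonneg
  have hC2 : C ≤ C ^ 2 := by nlinarith
  have hnC : n * C ≤ n * C ^ 2 := by gcongr
  have hnC0 : 0 ≤ n * C := by positivity
  rw [hK]
  exact ⟨by nlinarith, by nlinarith, hnC, hnC0⟩

lemma v1 (hC : 1 ≤ C) (hK : K = 12 * (n + 1) * C ^ 2) (hr : 0 < r) (hv : 1 ≤ v) (hΨ1 : 1 ≤ Ψ)
    (hal0 : 0 ≤ al) (hal' : al * r ^ 2 ≤ 4 * Ψ) (hA : ∀ i j, |A i j| ≤ 2) (hB : ∀ i j, |B i j| ≤ 2)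
    (hAG : ∀ i j, |A i j - G i j| ≤ C * r) (hBG : ∀ i j, |B i j - G i j| ≤ C * r)
    (hzt : ∀ i, |zt i| ≤ C * r) (hfx : ∀ i, |fx i + al * zt i| ≤ C * (v * Ψ))
    (hfy : ∀ i, |fy i - al * zt i| ≤ C * (v * Ψ)) (hτ : 0 ≤ τ) (hT : l1 (x + y) = r * τ) :
    |bil A x fx - bil B y fy + al * bil G (x + y) zt| ≤ K * v * Ψ * (r * τ + l1 y) := by
  refine (P1 hal0 hA hB hAG hBG fx fy zt x y).trans ?_
  have a1 := l1_le hfx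
  have a2 := l1_le hfy
  have a3 := l1_le hzt
  have a4 : al * r ^ 2 ≤ 4 * (v * Ψ) := hal'.trans (by nlinarith)
  have hx := hT ▸ l1_left x y
  have hx0 := l1_nonneg x
  have hy0 := l1_nonneg y
  have hS : l1 x + l1 y ≤ 2 * (r * τ + l1 y) := by linarith [mul_nonneg hr.le hτ]
  obtain ⟨k1, -, k3, -⟩ := kk hC hK
  calc _ ≤ 2 * l1 x * (n * (C * (v * Ψ))) + 2 * l1 y * (n * (C * (v * Ψ))) +
        al * (C * r * l1 x * (n * (C * r)) + C * r * l1 y * (n * (C * r))) := by gcongr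
    _ = (2 * (n * C) * (v * Ψ) + n * C ^ 2 * (al * r ^ 2)) * (l1 x + l1 y) := by ring
    _ ≤ (2 * (n * C ^ 2) * (v * Ψ) + n * C ^ 2 * (4 * (v * Ψ))) * (2 * (r * τ + l1 y)) := by gcongr
    _ = 12 * (n * C ^ 2) * v * Ψ * (r * τ + l1 y) := by ring
    _ ≤ _ := by gcongr

lemma v2 (hC : 1 ≤ C) (hK : K = 12 * (n + 1) * C ^ 2) (hr : 0 < r) (hv : 1 ≤ v) (hw : 0 ≤ w)
    (hA : ∀ i j, |A i j| ≤ 2) (hAB : ∀ i j, |A i j - B i j| ≤ C * r)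
    (hox : ∀ i, |ox i| ≤ C * (w / r)) (hoy : ∀ i, |oy i| ≤ C * (w / r))
    (hoxy : ∀ i, |(ox + oy) i| ≤ C * (w * v)) (hτ : 0 ≤ τ) (hT : l1 (x + y) = r * τ) :
    |bil A ox x - bil B oy y| ≤ K * w * (τ + v * l1 y) := by
  refine (P2 hA hAB ox oy x y).trans ?_
  have a1 := l1_le hox
  have a2 := l1_le hoy
  have a3 := l1_le hoxy
  have hy0 := l1_nonneg y
  have hYv : l1 y ≤ v * l1 y := le_mul_of_one_le_left hy0 hv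
  obtain ⟨k1, -, k3, k4⟩ := kk hC hK
  rw [hT]
  calc _ ≤ 2 * (n * (C * (w / r))) * (r * τ) + 2 * (n * (C * (w * v))) * l1 y +
        C * r * (n * (C * (w / r))) * (v * l1 y) := by gcongr
    _ = w * (2 * (n * C) * τ + (2 * (n * C) + n * C ^ 2) * (v * l1 y)) := by field_simp; ring
    _ ≤ w * (K * τ + K * (v * l1 y)) := by gcongr <;> linarith
    _ = _ := by ring

lemma v3 (hC : 1 ≤ C) (hK : 12 * C ≤ K) (hr : 0 < r) (hv : 1 ≤ v)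
    (hA : ∀ i j, |A i j| ≤ 2) (hAB : ∀ i j, |A i j - B i j| ≤ C * r)
    (hτ : 0 ≤ τ) (hT : l1 (x + y) = r * τ) :
    |bil A (x + y) x + bil B (x + y) y| ≤ K * r ^ 2 * (τ ^ 2 + τ * (v * l1 y)) ∧
      |bil A x x - bil B y y| ≤ K * r * (r * τ ^ 2 + τ * l1 y + l1 y ^ 2) := by
  have hy0 := l1_nonneg y
  have hYv : l1 y ≤ v * l1 y := le_mul_of_one_le_left hy0 hv
  have hK0 : 0 ≤ K := by linarith
  refine ⟨(P3 hA hAB x y).trans ?_, (P4 hA hAB x y).trans ?_⟩ <;> rw [hT]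
  · calc _ ≤ K * (r * τ) ^ 2 + K * r * (r * τ) * (v * l1 y) := by gcongr <;> linarith
      _ = _ := by ring
  · calc _ ≤ K * (r * τ) ^ 2 + K * (r * τ) * l1 y + K * r * l1 y ^ 2 := by gcongr <;> linarith
      _ = _ := by ring

lemma v5 (hC : 1 ≤ C) (hK : 12 * C ≤ K) (hr : 0 < r) (hA' : ∀ i j, |A' i j| ≤ C * r)
    (hAB' : ∀ i j, |A' i j - B' i j| ≤ C * r ^ 2) (hτ : 0 ≤ τ) (hT : l1 (x + y) = r * τ) :
    |bil A' x x - bil B' y y| ≤ K * r ^ 2 * (r * τ ^ 2 + τ * l1 y + l1 y ^ 2) := by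
  have hy0 := l1_nonneg y
  refine (P4 hA' hAB' x y).trans ?_
  rw [hT, ← mul_assoc 2]
  calc _ ≤ K * r * (r * τ) ^ 2 + K * r * (r * τ) * l1 y + K * r ^ 2 * l1 y ^ 2 := by
        gcongr <;> linarith
    _ = _ := by ring

lemma v6 (hC : 1 ≤ C) (hK : K = 12 * (n + 1) * C ^ 2) (hr : 0 < r) (hv : 1 ≤ v) (hW : 0 ≤ W)
    (hμ1 : μ ≤ 1) (hz : ∀ i, |z i| ≤ C * r)
    (hoxy : ∀ i, |(ox + oy) i| ≤ C * (μ * (W / r ^ 2) * v)) :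
    |∑ k, z k * (ox + oy) k| ≤ K * v * (W / r) := by
  refine (dot_abs hz _).trans ?_
  have a3 := l1_le hoxy
  have a4 : μ * (W / r ^ 2) ≤ W / r ^ 2 := mul_le_of_le_one_left (by positivity) hμ1
  obtain ⟨k1, -, k3, k4⟩ := kk hC hK
  calc _ ≤ C * r * (n * (C * (W / r ^ 2 * v))) := by
        gcongr
        exact a3.trans (by gcongr)
    _ = n * C ^ 2 * v * (W / r) := by field_simp
    _ ≤ _ := by gcongr; linarith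

lemma v7 (hC : 1 ≤ C) (hK : K = 12 * (n + 1) * C ^ 2) (hr : 0 < r) (hv : 1 ≤ v) (hΨ1 : 1 ≤ Ψ)
    (hz : ∀ i, |z i| ≤ C * r) (hfx : ∀ i, |fx i + al * zt i| ≤ C * (v * Ψ))
    (hfy : ∀ i, |fy i - al * zt i| ≤ C * (v * Ψ)) : |∑ k, z k * (fx + fy) k| ≤ K * r * v * Ψ := by
  refine (dot_abs hz _).trans ?_
  have a3 : l1 (fx + fy) ≤ n * (2 * (C * (v * Ψ))) := l1_le fun i => by
    have := (abs_add_le _ _).trans (add_le_add (hfx i) (hfy i))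
    rw [show fx i + al * zt i + (fy i - al * zt i) = (fx + fy) i by simp] at this
    linarith
  obtain ⟨k1, -, k3, k4⟩ := kk hC hK
  calc _ ≤ C * r * (n * (2 * (C * (v * Ψ)))) := by gcongr
    _ = 2 * (n * C ^ 2) * r * v * Ψ := by ring
    _ ≤ _ := by gcongr; linarith

lemma vec (hC : 1 ≤ C) (hK : K = 12 * (n + 1) * C ^ 2) (hW : 0 ≤ W)
    (hW1 : W ≤ 1) (hr : 0 < r) (hμ : 0 ≤ μ) (hμ1 : μ ≤ 1) (hv : 1 ≤ v) (hε : v * r ≤ ε)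
    (hε1 : ε ≤ 1) (hδ : 0 < δ) (hΨ1 : 1 ≤ Ψ) (hΨ : W * Ψ ≤ 1) (hal : 3 / 4 ≤ al * W * r ^ 2)
    (hal0 : 0 ≤ al) (hal' : al * r ^ 2 ≤ 4 * Ψ) (hL : |Lu| ≤ |ℓ| + Bb) (hBb : 0 ≤ Bb)
    (hA : ∀ i j, |A i j| ≤ 2) (hB : ∀ i j, |B i j| ≤ 2) (hAB : ∀ i j, |A i j - B i j| ≤ C * r)
    (hAG : ∀ i j, |A i j - G i j| ≤ C * r) (hBG : ∀ i j, |B i j - G i j| ≤ C * r)
    (hz : ∀ i, |z i| ≤ C * r) (hzt : ∀ i, |zt i| ≤ C * r) (hZ : Z = bil G (x + y) zt)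
    (hfx : ∀ i, |fx i + al * zt i| ≤ C * (v * Ψ)) (hfy : ∀ i, |fy i - al * zt i| ≤ C * (v * Ψ))
    (hox : ∀ i, |ox i| ≤ C * (μ * (W / r ^ 2) / r)) (hoy : ∀ i, |oy i| ≤ C * (μ * (W / r ^ 2) / r))
    (hoxy : ∀ i, |(ox + oy) i| ≤ C * (μ * (W / r ^ 2) * v)) (hA' : ∀ i j, |A' i j| ≤ C * r)
    (hAB' : ∀ i j, |A' i j - B' i j| ≤ C * r ^ 2) :
    μ ^ 2 / (r ^ 2) ^ 2 * Z ^ 2 ≤ Lu * (μ ^ 2 * (W / r ^ 2) * Z) -
      (2 * (bil A x fx - bil B y fy) * (μ ^ 2 * (W / r ^ 2) * Z) -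
        ((bil A ox x - bil B oy y) * Z -
          μ ^ 2 * (W / r ^ 2) * (bil A (x + y) x + bil B (x + y) y)) +
        1 / 2 * ((∑ k, z k * (ox + oy) k) * (bil A x x - bil B y y) +
          μ ^ 2 * (W / r ^ 2) * (bil A' x x - bil B' y y)) -
        μ ^ 2 * (W / r ^ 2) * (∑ k, z k * (fx + fy) k) * (bil A x x - bil B y y)) +
      (5 * K ^ 2 * W + 13 * K ^ 2 * ε + δ) * (n * (n2 (x + y) / r ^ 2)) +
      (27 * K ^ 2 + 3 * K ^ 4 / δ) * (n * (v ^ 2 * n2 y)) + 3 * W ^ 2 * ℓ ^ 2 + 3 * Bb ^ 2 := by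
  obtain ⟨τ, hτ⟩ : ∃ τ, τ = l1 (x + y) / r := ⟨_, rfl⟩
  have hT : l1 (x + y) = r * τ := by rw [hτ]; field_simp
  have hτ0 : 0 ≤ τ := by rw [hτ]; exact div_nonneg (l1_nonneg _) hr.le
  have hε0 : 0 ≤ ε := le_trans (by positivity) hε
  have k2 := (kk hC hK).2.1
  have h1 := v1 hC hK hr hv hΨ1 hal0 hal' hA hB hAG hBG hzt hfx hfy hτ0 hT
  have h2 := v2 hC hK hr hv (by positivity) hA hAB hox hoy hoxy hτ0 hT
  have h3 := v3 hC k2 hr hv hA hAB hτ0 hT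
  rw [← hZ] at h1
  rw [← mul_assoc K] at h2
  have := scalar (hC.trans (by linarith only [k2, hC])) hW hW1 hr hμ hμ1 hv hε hε1 hδ hτ0
    (l1_nonneg y) hΨ hal hL hBb h1 h2 h3.1 h3.2 (v5 hC k2 hr hA' hAB' hτ0 hT)
    (v6 hC hK hr hv hW hμ1 hz hoxy) (v7 hC hK hr hv hΨ1 hz hfx hfy)
  have b1 : τ ^ 2 ≤ n * (n2 (x + y) / r ^ 2) := by
    rw [hτ, div_pow, ← mul_div_assoc]
    exact div_le_div_of_nonneg_right (l1_sq _) (sq_nonneg _)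
  have b2 : (v * l1 y) ^ 2 ≤ n * (v ^ 2 * n2 y) := by
    rw [mul_pow, mul_left_comm]
    exact mul_le_mul_of_nonneg_left (l1_sq _) (sq_nonneg _)
  have b3 := mul_le_mul_of_nonneg_left b1
    (show 0 ≤ 5 * K ^ 2 * W + 13 * K ^ 2 * ε + δ by positivity)
  have b4 := mul_le_mul_of_nonneg_left b2 (show 0 ≤ 27 * K ^ 2 + 3 * K ^ 4 / δ by positivity)
  linarith only [this, b3, b4]

end Vale.Agent.P088.R2
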