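import Vale.Agent.P088.StI

/-!
# P088: assembly of the estimate for `g + q`
-/

open MeasureTheory Set Metric
open scoped ContDiff Topology

noncomputable section
namespace Vale.Agent.P088
open Vale.Agent.P136 (D Dp Dm Sm Tst)

namespace RE

lemma int_cover {X : Type} [MeasurableSpace X] {μ : Measure X} {h h' k : X → ℝ} {S T : Set X}
    (hS : MeasurableSet S) (hT : MeasurableSet T) (hh : Integrable h μ) (hh' : Integrable h' μ)
    (hk : Integrable k μ) (h0 : ∀ p, 0 ≤ h' p) (k0 : ∀ p, 0 ≤ k p) (h1 : ∀ p ∈ T, h p ≤ h' p)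
    (hc : ∀ p ∈ S, p ∉ T → h p ≤ k p) :
    ∫ p in S, h p ∂μ ≤ ∫ p in T, h' p ∂μ + ∫ p, k p ∂μ := by
  rw [← integral_indicator hS, ← integral_indicator hT, ← integral_add (hh'.indicator hT) hk]
  refine integral_mono (hh.indicator hS) ((hh'.indicator hT).add hk) fun p => ?_
  have := h0 p
  have := k0 p
  by_cases hp : p ∈ S <;> by_cases hq : p ∈ T <;>
    simp only [indicator_of_mem, indicator_of_notMem, hp, hq, not_false_eq_true]
  · linarith [h1 p hq]
  · linarith [hc p hp hq]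
  · linarith
  · linarith

lemma alg {R A G X Y Z m e η s K : ℝ} (hA : 0 ≤ A) (hG : 0 ≤ G) (hX : 0 ≤ X) (hY : 0 ≤ Y)
    (hZ : 0 ≤ Z) (hK : 0 ≤ K) (hm : 2 ≤ m) (he : 0 < e) (he1 : e ≤ 1 / 4) (hη : 4 * e ≤ η)
    (hs : 0 ≤ s) (hs1 : s * (m + 2) ≤ e)
    (h : R ≤ (1 + e) ^ 2 / m * A + s * (A + R + G + X + Y) + K * Z) :
    R ≤ (1 + η) / m * A + η * (X + Y) + G + 2 * K * Z := by
  have m0 : 0 < m := by linarith
  have s1 : 4 * s ≤ e := by nlinarith
  have s2 : 0 < 1 - s := by linarith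
  have h1 : (1 + e) ^ 2 / m + s ≤ (1 - s) * ((1 + η) / m) := by
    rw [← mul_div_assoc, div_add' _ _ _ m0.ne', div_le_div_iff_of_pos_right m0]
    have : (1 - s) * (1 + 4 * e) ≤ (1 - s) * (1 + η) := by gcongr
    nlinarith
  have h2 : s ≤ (1 - s) * η := by nlinarith
  have h3 : s ≤ 1 - s := by linarith
  have h4 : K ≤ (1 - s) * (2 * K) := by nlinarith
  refine le_of_mul_le_mul_left ?_ s2
  nlinarith [mul_le_mul_of_nonneg_right h1 hA, mul_le_mul_of_nonneg_right h2 (add_nonneg hX hY),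
    mul_le_mul_of_nonneg_right h3 hG, mul_le_mul_of_nonneg_right h4 hZ]

lemma alg2 {I TZ T2 R R2 R4 A G X Y Z a b c d t u : ℝ} (hR : 0 ≤ R) (hA : 0 ≤ A) (hG : 0 ≤ G)
    (hX : 0 ≤ X) (hY : 0 ≤ Y) (hZ : 0 ≤ Z) (ha : 1 ≤ a) (hb : 1 ≤ b) (hc : 1 ≤ c)
    (ht : 0 ≤ t) (ht1 : t ≤ 1) (hu : u ≤ t) (h2 : R2 ≤ R + G) (h4 : R4 ≤ R + G)
    (r1 : I ≤ a * ((u + t) * A + R2 * t + TZ + Z))
    (r2 : TZ ≤ (b * t + t) * T2 + b * t ^ 2 * X + d * Z)
    (r3 : T2 ≤ c * ((u + t) * A + R4 + Y * t ^ 2 + Z)) :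
    I ≤ a * (2 + 4 * b * c) * t * (A + R + G + X + Y) + a * (1 + d + 2 * b * c) * Z := by
  have a0 : 0 ≤ a := by linarith
  have b0 : 0 ≤ b := by linarith
  have c0 : 0 ≤ c := by linarith
  have t2 : t ^ 2 ≤ t := by nlinarith
  have e1 : (u + t) * A ≤ 2 * t * A := mul_le_mul_of_nonneg_right (by linarith) hA
  have e2 : t * A ≤ A := mul_le_of_le_one_left hA ht1
  have e3 : Y * t ^ 2 ≤ Y := mul_le_of_le_one_right hY (t2.trans ht1)
  have s3 : T2 ≤ c * (2 * (A + R + G + Y) + Z) :=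
    r3.trans (mul_le_mul_of_nonneg_left (by linarith) c0)
  have e4 : (b * t + t) * T2 ≤ 2 * b * t * (c * (2 * (A + R + G + Y) + Z)) :=
    (mul_le_mul_of_nonneg_left s3 (by positivity)).trans
      (mul_le_mul_of_nonneg_right (by nlinarith) (by positivity))
  have e5 : b * t ^ 2 * X ≤ 4 * b * c * t * X := by
    refine mul_le_mul_of_nonneg_right ?_ hX
    have := mul_le_mul_of_nonneg_left t2 b0
    have := mul_le_mul_of_nonneg_left hc (mul_nonneg b0 ht)
    have := mul_nonneg b0 ht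
    nlinarith
  have e6 : 2 * b * c * t * Z ≤ 2 * b * c * Z :=
    mul_le_mul_of_nonneg_right (mul_le_of_le_one_right (by positivity) ht1) hZ
  have e7 : R2 * t ≤ (R + G) * t := mul_le_mul_of_nonneg_right h2 ht
  have e8 : (u + t) * A + R2 * t + TZ + Z ≤
      (2 + 4 * b * c) * t * (A + R + G + X + Y) + (1 + d + 2 * b * c) * Z := by
    nlinarith [mul_nonneg ht hR, mul_nonneg ht hG, mul_nonneg ht hX, mul_nonneg ht hY]
  refine (r1.trans (mul_le_mul_of_nonneg_left e8 a0)).trans_eq ?_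
  ring

variable {n : ℕ} {ι : Type} [Fintype ι] {f : Fx} {c : Cx n ι} {g q : ι → X2 n → ℝ}

lemma cover (h : W0 f c) (hT : TT f c g q) {M : ℝ} (hM : 0 < M) :
    Rr f c g q 1 ≤ I0 (fun p => al f c p ^ 2) (PN f c (2 * M)) (rr g q) +
      I0 (fun p => mu f c M 1 p ^ 2 * al f c p ^ 2) univ (rr g q) := by
  obtain ⟨⟨-, -, -, -, sQ, -, sF, -, -, sP, sa, -⟩, -⟩ := h
  simp only [Rr, I0, ← Finset.sum_add_distrib, Measure.restrict_univ]
  refine Finset.sum_le_sum fun s _ => ?_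
  have t1 : Tst fun p => rr g q s p ^ 2 := ((hT.1 s).1.add (hT.1 s).2.1).sq
  have c1 : Continuous cut :=
    Real.smoothTransition.continuous.comp (continuous_const.sub continuous_id)
  have c2 : Continuous (mu f c M 1) :=
    (continuous_const.sub (c1.comp (sP.cont.div_const M))).mul
      (c1.comp (((sQ.cont.pow 2).mul sF.cont).div_const 1))
  refine int_cover (isClosed_le ((sQ.cont.pow 2).mul sF.cont) continuous_const).measurableSet
    (isClosed_le sP.cont continuous_const).measurableSet (t1.integrable_cmul (sa.cont.pow 2))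
    (t1.integrable_cmul (sa.cont.pow 2)) (t1.integrable_cmul ((c2.pow 2).mul (sa.cont.pow 2)))
    (fun p => by positivity) (fun p => by positivity) (fun _ _ => le_rfl) fun p h1 h2 => ?_
  have e1 : cq f c M p = 0 := Real.smoothTransition.zero_of_nonpos (by
    have : 2 ≤ Psi f c p / M := (le_div_iff₀ hM).2 (not_le.1 h2).le
    linarith)
  have e2 : cn f c 1 p = 1 := Real.smoothTransition.one_of_one_le (by
    have : QQ c p ^ 2 * FF f c p ≤ 1 := h1
    rw [div_one]; linarith)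
  simp [mu, e1, e2]

lemma inner (h : W0 f c) (hT : TT f c g q) {P N e : ℝ} (hN : 0 < N) (he : 0 ≤ e)
    (hP : P ≤ e * N ^ 2) :
    ∑ s, ∫ p in PN f c P, al f c p * gV c p (zx f c (g s) p) (zy f c (q s) p) ≤
      (1 + e) * A2 f c g q N := by
  obtain ⟨⟨-, -, sg, -, -, -, -, -, -, sP, sa, -, -, -, -, -, -, sφ, -⟩, -, h3, -⟩ := h
  rw [A2, Finset.mul_sum]
  refine Finset.sum_le_sum fun s _ => ?_
  have t0 : ∀ i, Tst fun p => (zy f c (q s) p - zx f c (g s) p) i := fun i =>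
    (Tst.Dm sφ (hT.1 s).2.1 _).sub (Tst.Dm sφ (hT.1 s).1 _)
  have t1 : Tst fun p => gV c p (zx f c (g s) p) (zy f c (q s) p) :=
    Tst.sum Finset.univ fun i _ => Tst.sum Finset.univ fun j _ =>
      Tst.mul_left ((sg i j).mul (t0 i).sm) (t0 j)
  have P0 : ∀ p, 0 < N ^ 2 + Psi f c p := fun p => by
    have h1 : 0 ≤ QQ c p := le_trans (by positivity) (h3 p).1
    have := mul_nonneg h1 (h3 p).2.2.1.le
    rw [Psi]; positivity
  have a0 : ∀ p, 0 ≤ al f c p * gV c p (zx f c (g s) p) (zy f c (q s) p) := fun p => by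
    obtain ⟨-, -, h1, -, h2, -, -, -, -, -, -, -, -, -, -, -, -, h4⟩ := h3 p
    refine mul_nonneg (mul_nonneg h1.le (by linarith)) (le_trans ?_ (h4 _).2.2.2.2.1)
    exact div_nonneg (Finset.sum_nonneg fun _ _ => sq_nonneg _) zero_le_two
  have cr : Continuous (rh f c N) :=
    continuous_const.div (continuous_const.add sP.cont) fun p => (P0 p).ne'
  have h5 := int_cover (μ := volume) (T := ∅) (h' := fun _ => 0)
    (isClosed_le sP.cont (continuous_const (y := P))).measurableSet MeasurableSet.empty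
    (t1.integrable_cmul sa.cont) (integrable_zero _ _ _)
    ((t1.integrable_cmul (cr.mul sa.cont)).const_mul (1 + e)) (fun _ => le_rfl)
    (fun p => by
      simp only [Pi.mul_apply, mul_assoc]
      exact mul_nonneg (by linarith) (mul_nonneg (div_nonneg (sq_nonneg _) (P0 p).le) (a0 p)))
    (fun _ h => h.elim) fun p hp _ => by
      have h6 : 1 ≤ (1 + e) * rh f c N p := by
        rw [rh, ← mul_div_assoc, le_div_iff₀ (P0 p)]
        have : Psi f c p ≤ P := hp
        linarith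
      have := mul_le_mul_of_nonneg_right h6 (a0 p)
      simp only [Pi.mul_apply]
      linarith
  rw [integral_zero, zero_add, integral_const_mul] at h5
  exact h5

end RE

open RE

theorem s_RE (h0 : S_w0) (hO : S_OUT) (hL : S_LQ) (r1 : S_R1) (r2 : S_R2) (r3 : S_R3) : S_RE := by
  intro n hn ι _ f hf η hη
  obtain ⟨e, he, he1, he2⟩ : ∃ e : ℝ, 0 < e ∧ e ≤ 1 / 4 ∧ 4 * e ≤ η :=
    ⟨min (1 / 4) (η / 4), lt_min (by norm_num) (by positivity), min_le_left _ _, by
      linarith [min_le_right (1 / 4) (η / 4)]⟩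
  have hm : (2 : ℝ) ≤ 2 * ((n : ℝ) - 1) := by
    have : (2 : ℝ) ≤ n := by exact_mod_cast hn
    linarith
  generalize hmm : 2 * ((n : ℝ) - 1) = m at hm
  obtain ⟨CO, -, hO⟩ := hO n ι f hf
  obtain ⟨C₀, hC₀, hL⟩ := hL n ι f hf e he
  rw [hmm] at hL
  obtain ⟨a, ha, r1⟩ := r1 n ι f hf
  obtain ⟨b, hb, r2⟩ := r2 n ι f hf
  obtain ⟨c, hc, r3⟩ := r3 n ι f hf
  obtain ⟨K, hK, hK0⟩ : ∃ K, K = a * (2 + 4 * b * c) + (C₀ + 1) ∧ 0 < K := ⟨_, rfl, by positivity⟩
  obtain ⟨M, hM, hM1⟩ : ∃ M : ℝ, 2 ≤ M ∧ K * (m + 2) / e ≤ M :=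
    ⟨_, le_max_left _ _, le_max_right _ _⟩
  have M0 : 0 < M := by linarith
  have t0 : 0 < 1 / M := by positivity
  obtain ⟨C₁, hC₁, hL⟩ := hL (2 * M) (by linarith)
  obtain ⟨d, hd, r2⟩ := r2 (1 / M) t0
  have hN : 16 * M ≤ 4 * M / e := by
    rw [le_div_iff₀ he]; nlinarith
  have hN1 : 2 * (2 * M) ≤ e * (4 * M / e) ^ 2 := by
    have : e * (4 * M / e) ^ 2 = 4 * M * (4 * M / e) := by field_simp
    rw [this]; nlinarith
  generalize 4 * M / e = N at hN hN1
  have K1 : 1 ≤ a * (1 + d + 2 * b * c) + C₁ := by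
    have : 0 ≤ a * (1 + d + 2 * b * c) := by positivity
    linarith
  refine ⟨N, 2 * (a * (1 + d + 2 * b * c) + C₁), by linarith, by linarith, fun η₂ h₂ => ?_⟩
  refine ((((((h0 n ι f hf).and (hO η₂ h₂)).and (hL (1 / M) t0)).and r1).and r2).and r3).mono ?_
  rintro x ⟨⟨⟨⟨⟨w0, o⟩, l⟩, r1⟩, r2⟩, r3⟩ g q hT
  obtain ⟨-, o1, -, -, -, -, pA, -, -, pG, pR, pZ, -, -, -, -, -, pX, pY, -⟩ := o g q hT
  have hu : 1 / N ^ 2 ≤ 1 / M := one_div_le_one_div_of_le M0 (by nlinarith)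
  have q1 := alg2 (d := d) (pR 1) (pA N) (mul_nonneg h₂.le pG) pX pY pZ ha hb hc t0.le
    ((div_le_one M0).2 (by linarith)) hu (o1 2 (by norm_num)) (o1 4 (by norm_num))
    ((r1 g q hT M N hM (by linarith)).trans_eq (by ring))
    ((r2 g q hT M hM).trans_eq (by ring)) ((r3 g q hT M N hM (by linarith)).trans_eq (by ring))
  have q2 := cover w0 hT M0
  have q3 := inner w0 hT (show 0 < N by linarith) he.le hN1
  have q4 := l g q hT
  refine alg (pA N) (mul_nonneg h₂.le pG) pX pY pZ (by linarith) hm he he1 he2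
    (s := K * (1 / M)) (by positivity) ?_ ?_
  · rw [div_le_iff₀ he] at hM1
    rw [mul_one_div, div_mul_eq_mul_div, div_le_iff₀ M0]
    linarith
  · have m0 : 0 < m := by linarith
    have q5 := mul_le_mul_of_nonneg_left q3 (show 0 ≤ 1 + e by linarith)
    have q6 : 0 ≤ (C₀ + 1) * (1 / M) * Rr f x g q 1 + C₁ * NN f x g := by
      have := pR 1
      positivity
    have q7 : I0 (fun p => al f x p ^ 2) (PN f x (2 * M)) (rr g q) ≤ (1 + e) ^ 2 / m * A2 f x g q N +
        ((C₀ + 1) * (1 / M) * Rr f x g q 1 + C₁ * NN f x g) := by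
      refine le_of_mul_le_mul_left ?_ m0
      have e1 : m * ((1 + e) ^ 2 / m * A2 f x g q N) = (1 + e) * ((1 + e) * A2 f x g q N) := by
        field_simp
      have e2 : (C₀ / (2 * M) + 1 / M) * Rr f x g q 1 ≤ (C₀ + 1) * (1 / M) * Rr f x g q 1 := by
        refine mul_le_mul_of_nonneg_right ?_ (pR 1)
        have : C₀ / (2 * M) = C₀ * (1 / M) / 2 := by ring
        have := mul_pos (show 0 < C₀ by linarith) t0
        linarith
      have e3 := mul_le_mul_of_nonneg_right (show 1 ≤ m by linarith) q6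
      rw [mul_add, e1]
      linarith
    have q8 : 0 ≤ (C₀ + 1) * (1 / M) * (A2 f x g q N + η₂ * Gn f x g q + qLX f x g + qLY f x q) := by
      have := pA N
      positivity
    rw [hK]
    linarith

end Vale.Agent.P088
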