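import Vale.Agent.P088.Top

/-!
# P088: the complex theorem from the real one
-/

open MeasureTheory Set Metric Filter
open scoped ContDiff Topology Manifold Matrix

noncomputable section
namespace Vale.Agent.P088
namespace Red

section alg
variable {N : ℕ}

/-- Realification of matrices. -/
def rho : Matrix (Fin N) (Fin N) ℂ →ₗ[ℝ] Matrix (Fin N ⊕ Fin N) (Fin N ⊕ Fin N) ℝ where
  toFun B := Matrix.fromBlocks (B.map Complex.re) (-B.map Complex.im) (B.map Complex.im)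
    (B.map Complex.re)
  map_add' B C := by
    ext (i | i) (j | j) <;> simp [add_comm]
  map_smul' c B := by
    ext (i | i) (j | j) <;> simp

@[simp] theorem rho_ll (B : Matrix (Fin N) (Fin N) ℂ) (i j : Fin N) :
    rho B (Sum.inl i) (Sum.inl j) = (B i j).re := rfl
@[simp] theorem rho_lr (B : Matrix (Fin N) (Fin N) ℂ) (i j : Fin N) :
    rho B (Sum.inl i) (Sum.inr j) = -(B i j).im := rfl
@[simp] theorem rho_rl (B : Matrix (Fin N) (Fin N) ℂ) (i j : Fin N) :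
    rho B (Sum.inr i) (Sum.inl j) = (B i j).im := rfl
@[simp] theorem rho_rr (B : Matrix (Fin N) (Fin N) ℂ) (i j : Fin N) :
    rho B (Sum.inr i) (Sum.inr j) = (B i j).re := rfl

theorem rho_mul (B C : Matrix (Fin N) (Fin N) ℂ) : rho (B * C) = rho B * rho C := by
  ext (i | i) (j | j) <;>
    simp [Matrix.mul_apply, Fintype.sum_sum_type, Finset.sum_add_distrib,
      sub_eq_add_neg, add_comm]

theorem rho_one : rho (1 : Matrix (Fin N) (Fin N) ℂ) = 1 := by
  ext (i | i) (j | j) <;> by_cases h : i = j <;> simp [Matrix.one_apply, h]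

theorem rho_star (B : Matrix (Fin N) (Fin N) ℂ) : rho Bᴴ = (rho B)ᵀ := by
  ext (i | i) (j | j) <;> simp

theorem rho_inj : Function.Injective (rho (N := N)) := by
  intro B C h
  ext i j
  exact Complex.ext (congrFun (congrFun h (Sum.inl i)) (Sum.inl j))
    (congrFun (congrFun h (Sum.inr i)) (Sum.inl j))

/-- The complex structure. -/
def JJ (N : ℕ) : Matrix (Fin N ⊕ Fin N) (Fin N ⊕ Fin N) ℝ := rho (Complex.I • 1)

theorem JJ_comm (B : Matrix (Fin N) (Fin N) ℂ) : JJ N * rho B = rho B * JJ N := by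
  rw [JJ, ← rho_mul, ← rho_mul, smul_mul_assoc, mul_smul_comm, one_mul, mul_one]

theorem JJ_t : (JJ N)ᵀ = -JJ N := by
  rw [JJ, ← rho_star, ← map_neg]
  simp

/-- The complex matrix with a given realification. -/
def cm (U : Matrix (Fin N ⊕ Fin N) (Fin N ⊕ Fin N) ℝ) : Matrix (Fin N) (Fin N) ℂ :=
  Matrix.of fun a b => (U (Sum.inl a) (Sum.inl b) : ℂ) + (U (Sum.inr a) (Sum.inl b) : ℂ) * Complex.I

theorem rho_cm {U : Matrix (Fin N ⊕ Fin N) (Fin N ⊕ Fin N) ℝ} (h : JJ N * U = U * JJ N) :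
    rho (cm U) = U := by
  ext (i | i) (j | j)
  · simp [cm]
  · have := congrFun (congrFun h (Sum.inl i)) (Sum.inl j)
    simp [JJ, Matrix.mul_apply, Fintype.sum_sum_type, Matrix.one_apply, apply_ite Complex.re,
      apply_ite Complex.im] at this
    simp [cm, this]
  · simp [cm]
  · have := congrFun (congrFun h (Sum.inr i)) (Sum.inl j)
    simp [JJ, Matrix.mul_apply, Fintype.sum_sum_type, Matrix.one_apply, apply_ite Complex.re,
      apply_ite Complex.im] at this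
    simp [cm, this]

/-- Realification of vectors. -/
def rv (u : Fin N → ℂ) : Fin N ⊕ Fin N → ℝ := Sum.elim (fun a => (u a).re) fun a => (u a).im

/-- Complexification of vectors. -/
def cv (u : Fin N ⊕ Fin N → ℝ) : Fin N → ℂ :=
  fun a => (u (Sum.inl a) : ℂ) + (u (Sum.inr a) : ℂ) * Complex.I

theorem rv_cv (u : Fin N ⊕ Fin N → ℝ) : rv (cv u) = u := by
  ext (i | i) <;> simp [rv, cv]

theorem rv_add (u w : Fin N → ℂ) : rv (u + w) = rv u + rv w := by
  ext (i | i) <;> simp [rv]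

theorem rv_mulVec (B : Matrix (Fin N) (Fin N) ℂ) (u : Fin N → ℂ) :
    rv (B *ᵥ u) = rho B *ᵥ rv u := by
  ext (i | i) <;>
    simp [rv, Matrix.mulVec, dotProduct, Fintype.sum_sum_type, Finset.sum_add_distrib,
      sub_eq_add_neg, add_comm]

theorem rv_dot (u w : Fin N → ℂ) : (star u ⬝ᵥ w).re = rv u ⬝ᵥ rv w := by
  simp [rv, dotProduct, Fintype.sum_sum_type, Finset.sum_add_distrib]

theorem comm_of_trace {ι : Type} [Fintype ι] [DecidableEq ι] {J U : Matrix ι ι ℝ} (hJ : Jᵀ = -J)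
    (hU : Uᵀ * U = 1) (h : (Uᵀ * J * U * J).trace = (J * J).trace) : J * U = U * J := by
  have hU' : U * Uᵀ = 1 := mul_eq_one_comm.1 hU
  have h1 : ((J * U - U * J)ᵀ * (J * U - U * J)).trace = 0 := by
    have e : (J * U - U * J)ᵀ * (J * U - U * J) =
        -(Uᵀ * (J * J * U)) + Uᵀ * J * U * J + J * (Uᵀ * J * U) - J * (Uᵀ * U) * J := by
      rw [Matrix.transpose_sub, Matrix.transpose_mul, Matrix.transpose_mul, hJ]
      noncomm_ring
    rw [e, Matrix.trace_sub, Matrix.trace_add, Matrix.trace_add, Matrix.trace_neg,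
      Matrix.trace_mul_comm Uᵀ, Matrix.trace_mul_comm J (Uᵀ * J * U), h, hU, mul_assoc _ U, hU',
      mul_one, mul_one]
    ring
  have h2 := Matrix.trace_conjTranspose_mul_self_eq_zero_iff (A := J * U - U * J)
  rw [Matrix.conjTranspose_eq_transpose_of_trivial] at h2
  exact sub_eq_zero.1 (h2.1 h1)

theorem trace_deriv {ι : Type} [Fintype ι] [DecidableEq ι] {J U A B V : Matrix ι ι ℝ}
    (hU : Uᵀ * U = 1) (hA : Aᵀ = -A) (hB : Bᵀ = -B) (hJA : J * A = A * J) (hJB : J * B = B * J)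
    (h : B = Uᵀ * A * U + Uᵀ * V) : ((Vᵀ * J * U + Uᵀ * J * V) * J).trace = 0 := by
  have hU' : U * Uᵀ = 1 := mul_eq_one_comm.1 hU
  have hV : V = U * B - A * U := by
    rw [h, mul_add, ← mul_assoc, ← mul_assoc, ← mul_assoc, hU', one_mul, one_mul,
      add_sub_cancel_left]
  have e : (Vᵀ * J * U + Uᵀ * J * V) * J =
      Uᵀ * J * U * (B * J) - B * (Uᵀ * J * U * J) + Uᵀ * (A * J - J * A) * U * J := by
    rw [hV, Matrix.transpose_sub, Matrix.transpose_mul, Matrix.transpose_mul, hA, hB]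
    noncomm_ring
  rw [e, hJA, sub_self, mul_zero, zero_mul, zero_mul, add_zero, Matrix.trace_sub,
    Matrix.trace_mul_comm B, mul_assoc _ J B, hJB, sub_self]

end alg

section man
variable {n : ℕ} [NeZero n] {M : Type} [TopologicalSpace M]
  [ChartedSpace (EuclideanHalfSpace n) M] {N : ℕ}

theorem rd_clm (L : ℂ →L[ℝ] ℝ) {f : M → ℂ} {x : M} (hf : MDifferentiableAt (𝓡∂ n) 𝓘(ℝ, ℂ) f x)
    (v : TangentSpace (𝓡∂ n) x) : rd (fun z => L (f z)) x v = L (dFun f x v) := by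
  have h := (L.hasMFDerivAt (x := f x)).comp x hf.hasMFDerivAt
  exact congrArg (fun T => T v) h.mfderiv

theorem rd_mul {f g : M → ℝ} {x : M} (hf : MDifferentiableAt (𝓡∂ n) 𝓘(ℝ, ℝ) f x)
    (hg : MDifferentiableAt (𝓡∂ n) 𝓘(ℝ, ℝ) g x) (v : TangentSpace (𝓡∂ n) x) :
    rd (fun z => f z * g z) x v = f x * rd g x v + g x * rd f x v :=
  congrArg (fun T => T v) (hf.hasMFDerivAt.mul hg.hasMFDerivAt).mfderiv

theorem rd_const (c : ℝ) (x : M) (v : TangentSpace (𝓡∂ n) x) : rd (fun _ : M => c) x v = 0 :=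
  congrArg (fun T => T v) (hasMFDerivAt_const (I := 𝓡∂ n) (I' := 𝓘(ℝ, ℝ)) c x).mfderiv

theorem rd_sum {ι : Type} (s : Finset ι) {f : ι → M → ℝ} {x : M}
    (hf : ∀ i, MDifferentiableAt (𝓡∂ n) 𝓘(ℝ, ℝ) (f i) x) :
    MDifferentiableAt (𝓡∂ n) 𝓘(ℝ, ℝ) (fun z => ∑ i ∈ s, f i z) x ∧
    ∀ v : TangentSpace (𝓡∂ n) x, rd (fun z => ∑ i ∈ s, f i z) x v = ∑ i ∈ s, rd (f i) x v := by
  classical
  induction s using Finset.induction_on with
  | empty =>
    simp only [Finset.sum_empty]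
    exact ⟨mdifferentiableAt_const, fun v => rd_const 0 x v⟩
  | insert a s ha ih =>
    simp only [Finset.sum_insert ha]
    refine ⟨(hf a).add ih.1, fun v => ?_⟩
    rw [← ih.2 v]
    exact congrArg (fun T => T v) ((hf a).hasMFDerivAt.add ih.1.hasMFDerivAt).mfderiv

variable {ι : Type} [Fintype ι]

/-- Differentiable entries. -/
def Dif (n : ℕ) [NeZero n] [ChartedSpace (EuclideanHalfSpace n) M] (P : M → Matrix ι ι ℝ) (x : M) :
    Prop := ∀ a b, MDifferentiableAt (𝓡∂ n) 𝓘(ℝ, ℝ) (fun z => P z a b) x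

theorem dif_mul {P Q : M → Matrix ι ι ℝ} {x : M} (hP : Dif n P x) (hQ : Dif n Q x) :
    Dif n (fun z => P z * Q z) x ∧ ∀ v : TangentSpace (𝓡∂ n) x,
      rdMat (fun z => P z * Q z) x v = rdMat P x v * Q x + P x * rdMat Q x v := by
  have h := fun a b => rd_sum (n := n) Finset.univ (f := fun c z => P z a c * Q z c b) (x := x)
    fun c => (hP a c).mul (hQ c b)
  refine ⟨fun a b => (h a b).1, fun v => ?_⟩
  ext a b
  have h1 : rdMat (fun z => P z * Q z) x v a b = ∑ c, rd (fun z => P z a c * Q z c b) x v :=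
    (h a b).2 v
  rw [h1, Matrix.add_apply, Matrix.mul_apply, Matrix.mul_apply, ← Finset.sum_add_distrib]
  refine Finset.sum_congr rfl fun c _ => ?_
  rw [rd_mul (hP a c) (hQ c b)]
  simp only [rdMat, Matrix.of_apply]
  ring

omit [Fintype ι] in
theorem dif_const (C : Matrix ι ι ℝ) (x : M) :
    Dif n (fun _ => C) x ∧ ∀ v : TangentSpace (𝓡∂ n) x, rdMat (fun _ : M => C) x v = 0 :=
  ⟨fun _ _ => mdifferentiableAt_const, fun v => by
    ext a b
    exact rd_const _ x v⟩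

theorem rd_trace {U : M → Matrix ι ι ℝ} (J : Matrix ι ι ℝ) {x : M} (hU : Dif n U x) :
    MDifferentiableAt (𝓡∂ n) 𝓘(ℝ, ℝ) (fun z => ((U z)ᵀ * J * U z * J).trace) x ∧
    ∀ v : TangentSpace (𝓡∂ n) x, rd (fun z => ((U z)ᵀ * J * U z * J).trace) x v =
      (((rdMat U x v)ᵀ * J * U x + (U x)ᵀ * J * rdMat U x v) * J).trace := by
  have hT : Dif n (fun z => (U z)ᵀ) x := fun a b => hU b a
  have h0 := dif_const (n := n) J x
  have h1 := dif_mul hT h0.1
  have h2 := dif_mul h1.1 hU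
  have h3 := dif_mul h2.1 h0.1
  have h4 := rd_sum (n := n) Finset.univ (f := fun a z => ((U z)ᵀ * J * U z * J) a a) (x := x)
    fun a => h3.1 a a
  refine ⟨h4.1, fun v => ?_⟩
  have h5 : rd (fun z => ((U z)ᵀ * J * U z * J).trace) x v =
      (rdMat (fun z => (U z)ᵀ * J * U z * J) x v).trace := h4.2 v
  rw [h5, h3.2, h2.2, h1.2, h0.2, mul_zero, add_zero, mul_zero, add_zero]
  rfl

theorem const_of_rd [IsManifold (𝓡∂ n) ∞ M] [ConnectedSpace M] {f : M → ℝ}
    (hf : ∀ x, MDifferentiableAt (𝓡∂ n) 𝓘(ℝ, ℝ) f x)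
    (h0 : ∀ x (v : TangentSpace (𝓡∂ n) x), rd f x v = 0) (x y : M) : f x = f y := by
  refine IsLocallyConstant.apply_eq_of_preconnectedSpace ?_ x y
  rw [IsLocallyConstant.iff_eventually_eq]
  intro p
  obtain ⟨ε, hε, hs⟩ := Metric.mem_nhdsWithin_iff.1
    (extChartAt_target_mem_nhdsWithin (I := 𝓡∂ n) p)
  have hc : Convex ℝ (ball (extChartAt (𝓡∂ n) p p) ε ∩ range (𝓡∂ n)) :=
    (convex_ball _ _).inter (𝓡∂ n).convex_range
  have hd : ∀ y ∈ ball (extChartAt (𝓡∂ n) p p) ε ∩ range (𝓡∂ n),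
      HasFDerivWithinAt (f ∘ (extChartAt (𝓡∂ n) p).symm) (0 : En n →L[ℝ] ℝ)
        (ball (extChartAt (𝓡∂ n) p p) ε ∩ range (𝓡∂ n)) y := by
    intro y hy
    have h1 := (mdifferentiableWithinAt_extChartAt_symm (hs hy)).hasMFDerivWithinAt
    have h2 := (hf ((extChartAt (𝓡∂ n) p).symm y)).hasMFDerivAt
    have h3 : mfderiv (𝓡∂ n) 𝓘(ℝ, ℝ) f ((extChartAt (𝓡∂ n) p).symm y) = 0 :=
      ContinuousLinearMap.ext (h0 _)
    rw [h3] at h2
    have h4 := h2.comp_hasMFDerivWithinAt y h1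
    rw [ContinuousLinearMap.zero_comp] at h4
    exact (hasMFDerivWithinAt_iff_hasFDerivWithinAt.1 h4).mono inter_subset_right
  filter_upwards [extChartAt_source_mem_nhds (I := 𝓡∂ n) p,
    (continuousAt_extChartAt (I := 𝓡∂ n) p).preimage_mem_nhds (ball_mem_nhds _ hε)] with z hz hz'
  have h1 := hc.norm_image_sub_le_of_norm_hasFDerivWithin_le (C := 0) hd (fun _ _ => by simp)
    ⟨mem_ball_self hε, extChartAt_target_subset_range p (mem_extChartAt_target p)⟩
    ⟨hz', extChartAt_target_subset_range p ((extChartAt (𝓡∂ n) p).map_source hz)⟩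
  rw [zero_mul, norm_le_zero_iff, sub_eq_zero, Function.comp_apply, Function.comp_apply,
    (extChartAt (𝓡∂ n) p).left_inv hz, extChartAt_to_inv] at h1
  exact h1

/-- Realification of connections. -/
def rA (A : Form1 n M N) : RForm n M (Fin N ⊕ Fin N) := fun x => rho ∘ₗ A x

theorem rA_skew {A : Form1 n M N} (h : IsUnitaryConn A) : IsSkewConn (rA A) := by
  refine ⟨fun x v => ?_, fun p i a b => ?_⟩
  · change (rho (A x v))ᵀ = -rho (A x v)
    rw [← rho_star, h.1, map_neg]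
  · rcases a with a | a <;> rcases b with b | b
    · exact Complex.reCLM.contDiff.comp_contDiffOn (h.2 p i a b)
    · exact (Complex.imCLM.contDiff.comp_contDiffOn (h.2 p i a b)).neg
    · exact Complex.imCLM.contDiff.comp_contDiffOn (h.2 p i a b)
    · exact Complex.reCLM.contDiff.comp_contDiffOn (h.2 p i a b)

theorem sm_c {f g : M → ℝ} (hf : ContMDiff (𝓡∂ n) 𝓘(ℝ, ℝ) ∞ f) (hg : ContMDiff (𝓡∂ n) 𝓘(ℝ, ℝ) ∞ g) :
    ContMDiff (𝓡∂ n) 𝓘(ℝ, ℂ) ∞ fun x => (f x : ℂ) + (g x : ℂ) * Complex.I := by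
  have h : ContDiff ℝ ∞ fun t : ℝ => (t : ℂ) * Complex.I :=
    Complex.ofRealCLM.contDiff.mul contDiff_const
  exact (Complex.ofRealCLM.contDiff.comp_contMDiff hf).add (h.comp_contMDiff hg)

theorem sec_rv {F : M → Fin N → ℂ} (h : IsSec n F) : RSec n fun x => rv (F x) := by
  rintro (a | a)
  · exact Complex.reCLM.contDiff.comp_contMDiff (h a)
  · exact Complex.imCLM.contDiff.comp_contMDiff (h a)

theorem sec_cv {F : M → Fin N ⊕ Fin N → ℝ} (h : RSec n F) : IsSec n fun x => cv (F x) :=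
  fun _ => sm_c (h _) (h _)

theorem rdA_rv (A : Form1 n M N) {F : M → Fin N → ℂ} (h : IsSec n F) (x : M)
    (v : TangentSpace (𝓡∂ n) x) : rdA (rA A) (fun x => rv (F x)) x v = rv (dA A F x v) := by
  unfold rdA dA
  rw [rv_add, rv_mulVec]
  congr 1
  ext (a | a)
  · exact rd_clm Complex.reCLM ((h a).mdifferentiableAt (by simp)) v
  · exact rd_clm Complex.imCLM ((h a).mdifferentiableAt (by simp)) v

theorem energy_rv [MeasurableSpace M] (g : Bil n M) (A : Form1 n M N) {F : M → Fin N → ℂ}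
    (h : IsSec n F) : renergy g (rA A) (fun x => rv (F x)) = energy g A F := by
  unfold renergy energy rdens dens
  congr 1
  funext x
  refine Finset.sum_congr rfl fun i _ => Finset.sum_congr rfl fun j _ => ?_
  congr 1
  exact (congrArg₂ dotProduct (rdA_rv A h x (ee i)) (rdA_rv A h x (ee j))).trans (rv_dot _ _).symm

theorem rdn_eq [MeasurableSpace M] (g : Bil n M) (A : Form1 n M N) (F₀ : M → Fin N ⊕ Fin N → ℝ) :
    rdn g (rA A) F₀ = dnForm g A fun x => cv (F₀ x) := by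
  unfold rdn dnForm
  congr 1
  ext e
  constructor
  · rintro ⟨F, ⟨h1, h2⟩, rfl⟩
    refine ⟨fun x => cv (F x), ⟨sec_cv h1, fun x hx => congrArg cv (h2 x hx)⟩, ?_⟩
    rw [← energy_rv g A (sec_cv h1)]
    simp only [rv_cv]
  · rintro ⟨F, ⟨h1, h2⟩, rfl⟩
    exact ⟨fun x => rv (F x), ⟨sec_rv h1, fun x hx => (congrArg rv (h2 x hx)).trans (rv_cv _)⟩,
      energy_rv g A h1⟩

theorem same [MeasurableSpace M] {Γ : Set M} {g₁ g₂ : Bil n M} {A₁ A₂ : Form1 n M N}
    (h : SameData Γ g₁ A₁ g₂ A₂) : RSame Γ g₁ (rA A₁) g₂ (rA A₂) := by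
  rintro F₀ hF ⟨K, h1, h2, h3⟩
  rw [rdn_eq, rdn_eq]
  refine h _ (sec_cv hF) ⟨K, h1, h2, fun x hx => ?_⟩
  rw [h3 x hx]
  ext a
  simp [cv]

theorem rho_dMat {U : M → Matrix (Fin N) (Fin N) ℂ}
    (h : ∀ a b, ContMDiff (𝓡∂ n) 𝓘(ℝ, ℂ) ∞ fun x => U x a b) (x : M)
    (v : TangentSpace (𝓡∂ n) x) : rdMat (fun z => rho (U z)) x v = rho (dMat U x v) := by
  ext (a | a) (b | b)
  · exact rd_clm Complex.reCLM ((h a b).mdifferentiableAt (by simp)) v
  · exact rd_clm (-Complex.imCLM) ((h a b).mdifferentiableAt (by simp)) v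
  · exact rd_clm Complex.imCLM ((h a b).mdifferentiableAt (by simp)) v
  · exact rd_clm Complex.reCLM ((h a b).mdifferentiableAt (by simp)) v

end man

end Red

open Red in
theorem s_main (h : S_real) : S_main := by
  intro n N _ hn hN M _ _ _ _ _ _ _ _ Γ hΓ hO g₁ g₂ A₁ A₂ hg₁ hg₂ hA₁ hA₂ hS
  have : Nonempty (Fin N ⊕ Fin N) := ⟨Sum.inl ⟨0, hN⟩⟩
  obtain ⟨Φ, U, hU1, hU2, hU3, hU4, hU5⟩ := h n hn (Fin N ⊕ Fin N) M Γ hΓ hO g₁ g₂ (rA A₁) (rA A₂)
    hg₁ hg₂ (rA_skew hA₁) (rA_skew hA₂) (same hS)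
  have hD : ∀ x, Dif n U x := fun x a b => (hU1 a b).mdifferentiableAt (by simp)
  obtain ⟨x₀, hx₀⟩ := hΓ
  have hc : ∀ x, rho (cm (U x)) = U x := by
    intro x
    refine rho_cm (comm_of_trace JJ_t (hU2 x) ?_)
    have := const_of_rd (fun x => (rd_trace (JJ N) (hD x)).1) (fun x v => by
      rw [(rd_trace (JJ N) (hD x)).2]
      exact trace_deriv (hU2 x) ((rA_skew hA₁).1 _ _) ((rA_skew hA₂).1 _ _) (JJ_comm _)
        (JJ_comm _) (hU5 x v)) x x₀
    rw [this, (hU3 x₀ hx₀).2, Matrix.transpose_one, one_mul, mul_one]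
  have hsm : ∀ a b, ContMDiff (𝓡∂ n) 𝓘(ℝ, ℂ) ∞ fun x => cm (U x) a b :=
    fun a b => sm_c (hU1 _ _) (hU1 _ _)
  have hu : ∀ x, (cm (U x))ᴴ * cm (U x) = 1 := fun x =>
    rho_inj (by rw [rho_mul, rho_star, hc, hU2, rho_one])
  refine ⟨Φ, fun x => cm (U x), hsm, fun x => Matrix.mem_unitaryGroup_iff'.2 (hu x),
    fun x hx => ⟨(hU3 x hx).1, rho_inj (by rw [hc, (hU3 x hx).2, rho_one])⟩, hU4, fun x v => ?_⟩
  refine rho_inj ?_
  rw [Matrix.inv_eq_left_inv (hu x), map_add, rho_mul, rho_mul, rho_mul, rho_star,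
    ← rho_dMat hsm, hc]
  simp only [hc]
  exact hU5 x v

end Vale.Agent.P088
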