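import Vale.Agent.P088.SLS

/-!
# P088: the lateral gain at the critical points
-/

open MeasureTheory Set Metric Filter
open scoped ContDiff Topology

noncomputable section
namespace Vale.Agent.P088
open Vale.Agent.P136

namespace SL1
open SLT

variable {n : ℕ} {ι : Type}

section defs
variable (f : Fx) (c : Cx n ι) (r : X2 n → ℝ)

def iq (p : X2 n) : ℝ := (1 - thI f c p) / QQ c p
def Pm (i j : Fin n) (p : X2 n) : ℝ := gm c p i j - iq f c p * (zz p i * zz p j)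
def bm (i j : Fin n) (p : X2 n) : ℝ := al f c p * Pm f c i j p
def am (i j : Fin n) (p : X2 n) : ℝ := chR f c r p ^ 2 * bm f c i j p

end defs

variable {f : Fx} {c : Cx n ι} {p : X2 n} {r m : X2 n → ℝ}
  {v : Fin n → X2 n} {γ : Fin n → Fin n → X2 n → ℝ} {A B C C₂ Cq δ δ' η : ℝ}

/-- The coordinate of `z` as a linear map. -/
def zL (i : Fin n) : X2 n →L[ℝ] ℝ :=
  (EuclideanSpace.proj i).comp (ContinuousLinearMap.snd ℝ _ _ - ContinuousLinearMap.fst ℝ _ _)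

theorem zL_eq (i : Fin n) : (fun p : X2 n => zz p i) = zL i := rfl

theorem sm_z (i : Fin n) : Sm fun p : X2 n => zz p i := zL_eq i ▸ (zL i).contDiff

theorem zsq (b : B0 f c) (p : X2 n) (i : Fin n) : zz p i ^ 2 ≤ 2 * QQ c p := by
  have h1 := b.zQ p
  have h2 := pow_le_pow_left₀ (norm_nonneg _) (PiLp.norm_apply_le (zz p) i) 2
  rw [Real.norm_eq_abs, sq_abs] at h2
  linarith

theorem sb_z (b : B0 f c) (hQ : QQ c p ≤ 1) (i : Fin n) : SB exy 1 2 1 (fun p => zz p i) p := by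
  refine sb_one (abs_le_of_sq_le_sq' (by linarith [zsq b p i]) (by norm_num) |> abs_le.2)
    fun j => ?_
  rw [zL_eq, D, (zL i).fderiv]
  rcases j with j | j <;> simp [zL, exy, ex, ey, ee] <;> split_ifs <;> norm_num

theorem sm_iq (b : B0 f c) (hf : f.Ok) : Sm (iq f c) :=
  sm_quot (c := c) (t0_pos hf) ((Sm.const 1).sub b.sI) b.sQ (fun p h => by
    filter_upwards [b.I1 p h] with q hq
    simp [hq]) fun _ h => h.ne'

theorem sm_P (b : B0 f c) (hf : f.Ok) : SmM (Pm f c) := fun i j =>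
  (b.sgm i j).sub ((sm_iq b hf).mul ((sm_z i).mul (sm_z j)))

theorem sm_b (b : B0 f c) (hf : f.Ok) : SmM (bm f c) := fun i j => b.sa.mul (sm_P b hf i j)

theorem sm_a (b : B0 f c) (hf : f.Ok) (hr : Sm r) : SmM (am f c r) := fun i j =>
  ((sm_ch b hr).pow 2).mul (sm_b b hf i j)

theorem sy_a (b : B0 f c) : SymM (am f c r) := fun i j => funext fun p => by
  simp only [am, bm, Pm, b.ygm p i j, mul_comm (zz p i)]

theorem quad (p : X2 n) (ζ : Fin n → ℝ) : bil (fun i j => am f c r i j p) ζ ζ =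
    chR f c r p ^ 2 * al f c p * (bil (gm c p) ζ ζ - iq f c p * zd p ζ ^ 2) := by
  rw [zd, sq (∑ i, zz p i * ζ i), Finset.sum_mul_sum]
  simp only [bil, am, bm, Pm, Finset.mul_sum, ← Finset.sum_sub_distrib]
  exact Finset.sum_congr rfl fun i _ => Finset.sum_congr rfl fun j _ => by ring

theorem psd (b : B0 f c) (p : X2 n) (ζ : Fin n → ℝ) : 0 ≤ bil (fun i j => am f c r i j p) ζ ζ := by
  rw [quad]
  refine mul_nonneg (mul_nonneg (sq_nonneg _) (b.a0 p).le) (sub_nonneg.2 ?_)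
  have h1 := cs (b.ygm p) (b.em p) (zt c p) ζ
  rw [b.zt1, b.zt2] at h1
  rcases (b.Q0 p).eq_or_lt with h | h
  · simp [iq, ← h, b.em p ζ]
  · rw [iq, div_mul_eq_mul_div, div_le_iff₀ h]
    have := mul_nonneg (cut0 (QQ c p / f.t0 ^ 2)) (sq_nonneg (zd p ζ))
    unfold thI
    linarith

theorem trace (b : B0 f c) (hQ : QQ c p ≠ 0) :
    ∑ i, ∑ j, (gm c p i j - (QQ c p)⁻¹ * (zz p i * zz p j)) *
      (Gm c p i j - zt c p i * zt c p j / QQ c p) = n - 1 := by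
  have t1 : ∑ i, ∑ j, gm c p i j * Gm c p i j = n := by
    have : ∀ i, ∑ j, gm c p i j * Gm c p i j = 1 := fun i => by
      rw [← (b.inv p i i).trans (if_pos rfl)]
      exact Finset.sum_congr rfl fun j _ => by rw [b.yG p i j]
    simp [this]
  have t2 := b.zt1 p
  have t3 : ∑ i, ∑ j, Gm c p i j * zz p j * zz p i = QQ c p := by
    simp only [QQ, zt, Finset.sum_mul]
  have t4 : ∑ i, ∑ j, zt c p i * zz p i * (zt c p j * zz p j) = QQ c p * QQ c p := by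
    rw [← Finset.sum_mul_sum, QQ]
  have e : ∑ i, ∑ j, (gm c p i j - (QQ c p)⁻¹ * (zz p i * zz p j)) *
      (Gm c p i j - zt c p i * zt c p j / QQ c p) = (∑ i, ∑ j, gm c p i j * Gm c p i j) -
      (QQ c p)⁻¹ * bil (gm c p) (zt c p) (zt c p) -
      (QQ c p)⁻¹ * (∑ i, ∑ j, Gm c p i j * zz p j * zz p i) +
      (QQ c p)⁻¹ ^ 2 * ∑ i, ∑ j, zt c p i * zz p i * (zt c p j * zz p j) := by
    simp only [bil, Finset.mul_sum, ← Finset.sum_sub_distrib, ← Finset.sum_add_distrib]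
    exact Finset.sum_congr rfl fun i _ => Finset.sum_congr rfl fun j _ => by ring
  rw [e, t1, t2, t3, t4]
  field_simp
  ring

/-- The constant in the bound for the derivative of the matrix. -/
def Kb (t C Cq : ℝ) : ℝ := 2 * C * (Cq + 16 * (Cc 1 * (1 + Cq / t ^ 2) / t ^ 2))

theorem sb_b (b : B0 f c) (hf : f.Ok) (w1 : W1 f c C p) (wq : WQ c Cq δ' p) (hq : 1 ≤ Cq)
    (h1 : 2 * f.t0 ^ 2 < QQ c p) (h2 : QQ c p < f.t1 ^ 2) (i j : Fin n) :
    SB exy 1 (Kb f.t0 C Cq * al f c p) (vv f c p) (bm f c i j) p ∧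
      Pm f c i j p = gm c p i j - (QQ c p)⁻¹ * (zz p i * zz p j) ∧ |Pm f c i j p| ≤ Cq + 2 := by
  have t0 := pow_pos (t0_pos hf) 2
  have Q1 : QQ c p ≤ 1 := h2.le.trans (t1_le hf)
  have Q0 : 0 < QQ c p := by linarith
  have v1 := b.v1 p
  have c1 := Cc1 1
  have e : (fun q => (QQ c q)⁻¹) =ᶠ[𝓝 p] iq f c := by
    filter_upwards [b.I0 p h1] with q hq
    simp [iq, hq]
  have e1 : Cq ≤ Cq / f.t0 ^ 2 * QQ c p := by
    rw [div_mul_eq_mul_div, le_div_iff₀ t0]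
    nlinarith
  have hQ : SB exy 1 ((1 + Cq / f.t0 ^ 2) * QQ c p) 1 (QQ c) p := sb_one (by
    rw [abs_of_pos Q0]; linarith) fun l => ((wq.2.2.1 l).1.trans (mul_le_of_le_one_right
      (by linarith) (Real.sqrt_le_one.2 Q1))).trans (by linarith)
  have hi := SbAlg.congr e (sb_inv zero_le_one b.sQ hQ (le_add_of_nonneg_right (by positivity)) Q0)
  have hz := SbAlg.mul zero_le_one (sm_z i).contDiffAt (sm_z j).contDiffAt (sb_z b Q1 i)
    (sb_z b Q1 j)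
  have hg := SbAlg.mono zero_le_one (wq.2.2.2.2.1 i j).1 (by norm_num : 1 ≤ 6) le_rfl le_rfl
  have hP : SB exy 1 (Cq + 16 * (Cc 1 * (1 + Cq / f.t0 ^ 2) / f.t0 ^ 2)) (vv f c p)
      (Pm f c i j) p := SbAlg.mono zero_le_one (SbAlg.sub (b.sgm i j).contDiffAt
        ((sm_iq b hf).mul ((sm_z i).mul (sm_z j))).contDiffAt hg (SbAlg.mul zero_le_one
          (sm_iq b hf).contDiffAt ((sm_z i).mul (sm_z j)).contDiffAt hi hz)) le_rfl (by
      have : Cc 1 * (1 + Cq / f.t0 ^ 2) ^ 1 / QQ c p ≤ Cc 1 * (1 + Cq / f.t0 ^ 2) / f.t0 ^ 2 := by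
        rw [pow_one]
        exact div_le_div_of_nonneg_left (by positivity) t0 (by linarith)
      linarith) v1
  have eP : Pm f c i j p = gm c p i j - (QQ c p)⁻¹ * (zz p i * zz p j) := by
    rw [Pm, ← e.eq_of_nhds]
  refine ⟨SbAlg.mono (by linarith) (SbAlg.mul (by linarith) b.sa.contDiffAt
    (sm_P b hf i j).contDiffAt (SbAlg.mono (by linarith) w1.2.2.2.1 (by norm_num) le_rfl le_rfl)
    hP) le_rfl (le_of_eq (by rw [Kb]; ring)) le_rfl, eP, ?_⟩
  have u1 : |zz p i * zz p j| ≤ 2 * QQ c p := by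
    rw [abs_le]
    constructor <;> nlinarith [zsq b p i, zsq b p j, sq_nonneg (zz p i + zz p j),
      sq_nonneg (zz p i - zz p j)]
  have u2 := abs_mul_le (abs_of_pos (inv_pos.2 Q0)).le u1
  rw [show (QQ c p)⁻¹ * (2 * QQ c p) = 2 by field_simp] at u2
  have u3 := sb_val hg
  rw [eP]
  exact (abs_sub _ _).trans (add_le_add u3 u2)

theorem pt (b : B0 f c) (hf : f.Ok) (s : Side f c v γ r m) (k : Crit f c v γ r m A B δ p)
    (w1 : W1 f c C p) (w2 : W2 f c C₂ δ p) (wq : WQ c Cq δ' p) (hC : 1 ≤ C) (hB : 1 ≤ B)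
    (hq : 1 ≤ Cq) (hδ : C ^ 2 * δ ≤ 1) (hη : 0 ≤ η)
    (d1 : 4 * n ^ 2 * (Cq + 2) * δ ≤ η) (d2 : (4 * n ^ 2 * Kb f.t0 C Cq * B) ^ 2 * δ ≤ η ^ 2)
    (d3 : 4 * n ^ 2 * (Cq + 2) * B * K1 n f.t0 B C * δ ≤ η) :
    (2 * ((n : ℝ) - 1) - 2 * n ^ 2 * (Cq + 2) * A * f.tau - η) * (chR f c r p ^ 2 * al f c p ^ 2) +
      -η * (m p * r p) ≤ 2 * dgd v (am f c r) (phi f c) p := by
  have sc := sm_ch b (s.sr b)
  have mr : 0 ≤ m p * r p := mul_nonneg k.m0 (s.r0 p)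
  rcases ch_cases b (s.sr b) p with h | hp
  · rw [dgd_zero' (sm_a b hf (s.sr b)) b.sφ fun i j => by
      filter_upwards [h] with q hq
      simp [am, hq], h.eq_of_nhds]
    simp only [Pi.zero_apply]
    nlinarith
  obtain ⟨R0, Λ1, e1, -, -, hc, -⟩ := base b hf s k w1 w2 hC hδ hp rfl rfl
  obtain ⟨q1, q1', q2, q3, q5, q4⟩ := k.cr (sR_mono b (by norm_num) hp)
  obtain ⟨e, he⟩ := s.ex
  generalize hR : r p + al f c p = R at *
  generalize hΛ : al f c p / √R = Λ at *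
  have a0 := b.a0 p
  have v1 := b.v1 p
  have S0 : 0 < √R := Real.sqrt_pos.2 R0
  have hb := sb_b b hf w1 wq hq q1 q1'
  have e2 : dgd v (am f c r) (phi f c) p = chR f c r p ^ 2 * dgd v (bm f c) (phi f c) p +
      dir v (XX v (bm f c) (phi f c)) (fun q => chR f c r q ^ 2) p := by
    rw [dgd, dgd, ← IdT.dvg_mul (sc.pow 2) (IdT.sm_XX (sm_b b hf) b.sφ)]
    congr 1
    funext i q
    simp only [XX, am, Finset.mul_sum, mul_assoc]
  have u1 : |∑ i, ∑ j, D (v i) (bm f c i j) p * D (v j) (phi f c) p| ≤ η / 4 * al f c p ^ 2 := by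
    refine (abs_sum_le fun i => abs_sum_le fun j => abs_mul_le
      (sb_d1 (sb_res e he (hb i j).1) i) (sb_val (q4 j))).trans ?_
    have t1 : vv f c p ^ 2 * R ≤ vv f c p ^ 8 * R :=
      mul_le_mul_of_nonneg_right (pow_le_pow_right₀ v1 (by norm_num)) R0.le
    have t2 := mul_le_mul_of_nonneg_left (t1.trans q5) (sq_nonneg (4 * n ^ 2 * Kb f.t0 C Cq * B))
    have t3 := mul_le_mul_of_nonneg_right d2 (sq_nonneg (al f c p))
    have t4 : 4 * n ^ 2 * Kb f.t0 C Cq * B * (vv f c p * √R) ≤ η * al f c p := by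
      refine le_of_sq_le_sq ?_ (by positivity)
      rw [mul_pow _ (_ * √R), mul_pow _ (√R), Real.sq_sqrt R0.le]
      linarith
    have t5 := mul_le_mul_of_nonneg_right t4 a0.le
    linarith
  have u2 : |∑ i, ∑ j, Pm f c i j p * (D (v i) (D (v j) (phi f c)) p -
      al f c p * (Gm c p i j - zt c p i * zt c p j / QQ c p))| ≤
      n * (n * ((Cq + 2) * ((δ + A * f.tau) * al f c p))) :=
    abs_sum_le fun i => abs_sum_le fun j => abs_mul_le (hb i j).2.2 (q3 i j)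
  have e3 : dgd v (bm f c) (phi f c) p = al f c p ^ 2 * (n - 1) +
      al f c p * (∑ i, ∑ j, Pm f c i j p * (D (v i) (D (v j) (phi f c)) p -
        al f c p * (Gm c p i j - zt c p i * zt c p j / QQ c p))) +
      ∑ i, ∑ j, D (v i) (bm f c i j) p * D (v j) (phi f c) p := by
    rw [dgd_eq (sm_b b hf) b.sφ, ← trace b (by nlinarith [sq_nonneg f.t0] : 0 < QQ c p).ne']
    simp only [← fun i j => (hb i j).2.1, Finset.mul_sum, ← Finset.sum_add_distrib]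
    exact Finset.sum_congr rfl fun i _ => Finset.sum_congr rfl fun j _ => by rw [bm]; ring
  have u3 : -(η / 2 * (m p * r p)) ≤
      dir v (XX v (bm f c) (phi f c)) (fun q => chR f c r q ^ 2) p := by
    by_cases h : p ∈ sR f c r 1
    · have h1 : IsLocalMax (chR f c r) p := Eventually.of_forall fun q => by
        rw [ch_one b h q1]; exact ch1
      have h2 : ∀ i, D (v i) (chR f c r) p = 0 := fun i => by rw [D, h1.fderiv_eq_zero]; rfl
      simp only [dir, IdT.D_sq sc, h2, mul_zero, Finset.sum_const_zero]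
      nlinarith
    · have h1 : |dir v (XX v (bm f c) (phi f c)) (fun q => chR f c r q ^ 2) p| ≤
          n * (n * (al f c p * (Cq + 2) * (B * √R)) * (2 * 1 * (K1 n f.t0 B C * Λ))) :=
        abs_sum_le fun i => abs_mul_le (abs_sum_le fun j => abs_mul_le
          (abs_mul_le (abs_of_pos a0).le (hb i j).2.2) (sb_val (q4 j))) (by
            rw [IdT.D_sq sc]
            exact abs_mul_le (abs_mul_le (abs_of_pos two_pos).le
              ((abs_of_nonneg ch0).le.trans ch1)) (sb_d1 hc i))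
      have k1 := K1_one n f.t0 B hC
      have t2 := mul_le_mul_of_nonneg_left (k.off (nr q2) h)
        (by positivity : 0 ≤ 4 * n ^ 2 * (Cq + 2) * B * K1 n f.t0 B C)
      have t3 := mul_le_mul_of_nonneg_right d3 mr
      have t4 := neg_le_of_abs_le h1
      rw [show (n : ℝ) * (n * (al f c p * (Cq + 2) * (B * √R)) * (2 * 1 * (K1 n f.t0 B C * Λ))) =
        2 * n ^ 2 * (Cq + 2) * B * K1 n f.t0 B C * al f c p * (√R * Λ) by ring, e1] at t4
      linarith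
  have u4 := mul_le_mul_of_nonneg_left (neg_le_of_abs_le u2) a0.le
  have u5 := mul_le_mul_of_nonneg_right d1 (sq_nonneg (al f c p))
  have u6 : (n - 1 - n ^ 2 * (Cq + 2) * A * f.tau - η / 2) * al f c p ^ 2 ≤
      dgd v (bm f c) (phi f c) p := by
    rw [e3]
    linarith [neg_le_of_abs_le u1]
  have u7 := mul_le_mul_of_nonneg_left u6 (sq_nonneg (chR f c r p))
  rw [e2]
  linarith

theorem one (hCI : S_CI) (b : B0 f c) (hf : f.Ok) (s : Side f c v γ r m)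
    (k : ∀ p ∈ Om2 c, Crit f c v γ r m A B δ p ∧ W1 f c C p ∧ W2 f c C₂ δ p ∧ WQ c Cq δ' p)
    (hC : 1 ≤ C) (hB : 1 ≤ B) (hq : 1 ≤ Cq) (hδ : C ^ 2 * δ ≤ 1) (hη : 0 ≤ η)
    (d1 : 4 * n ^ 2 * (Cq + 2) * δ ≤ η) (d2 : (4 * n ^ 2 * Kb f.t0 C Cq * B) ^ 2 * δ ≤ η ^ 2)
    (d3 : 4 * n ^ 2 * (Cq + 2) * B * K1 n f.t0 B C * δ ≤ η) {u : X2 n → ℝ} (hu : Tst u)
    (hS : tsupport u ⊆ Om2 c) :
    (2 * ((n : ℝ) - 1) - 2 * n ^ 2 * (Cq + 2) * A * f.tau - η) *
        (∫ p, chR f c r p ^ 2 * al f c p ^ 2 * u p ^ 2) ≤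
      (∫ p, chR f c r p ^ 2 * al f c p * piZ c p fun i => Dm (phi f c) (v i) u p) +
        η * ∫ p, m p * r p * u p ^ 2 := by
  have sc := ((sm_ch b (s.sr b)).pow 2).mul (b.sa.pow 2)
  have sm := s.sm.mul (s.sr b)
  have h1 := ci4 hCI (sm_a b hf (s.sr b)) (sy_a b) b.sφ hu ((sc.cmul _).add (sm.cmul (-η))).cont hS
    (psd b) fun p hp => pt b hf s (k p hp).1 (k p hp).2.1 (k p hp).2.2.1 (k p hp).2.2.2 hC hB hq
      hδ hη d1 d2 d3
  rw [int_lin hu sc.cont sm.cont] at h1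
  have h2 : ∫ p, ∑ i, ∑ j, am f c r i j p * Dm (phi f c) (v i) u p * Dm (phi f c) (v j) u p =
      ∫ p, chR f c r p ^ 2 * al f c p * piZ c p fun i => Dm (phi f c) (v i) u p := by
    refine integral_congr_ae (Eventually.of_forall fun p => ?_)
    by_cases hp : p ∈ Om2 c
    · refine (quad p fun i => Dm (phi f c) (v i) u p).trans ?_
      rcases ch_cases b (s.sr b) p with h | h
      · simp [h.eq_of_nhds]
      · have := (b.I0 p ((k p hp).1.cr (sR_mono b (by norm_num) h)).1).eq_of_nhds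
        simp only [piZ, iq, this, Pi.zero_apply]
        ring
    · simp [piZ, bil, zd, Dm_off hS hp]
  linarith

end SL1

open SLT SL1 in
theorem s_SL1 (h0 : S_w0) (hq : S_wq) (h1 : S_w1) (h2 : S_w2) (h4 : S_w4) (h5 : S_w5) (h6 : S_w6)
    (hCI : S_CI) : S_SL1 := by
  intro n
  obtain ⟨Cq, cq, hq⟩ := hq n
  obtain ⟨A, hA, h5⟩ := h5 n
  obtain ⟨B, hB, h6⟩ := h6 n
  refine ⟨1 + 2 * n ^ 2 * (Cq + 2) * A, le_add_of_nonneg_right (by positivity),
    fun ι _ f hf η η0 => ?_⟩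
  obtain ⟨C, hC, h1⟩ := h1 n ι f hf
  obtain ⟨C₂, -, h2⟩ := h2 n ι f hf
  obtain ⟨C₄, -, h4⟩ := h4 n ι f hf
  obtain ⟨C₅, -, h5⟩ := h5 ι f hf
  obtain ⟨C₆, -, h6⟩ := h6 ι f hf
  have k1 := K1_one n f.t0 B hC
  obtain ⟨δ₁, p1, d1⟩ := small (sq_nonneg C) one_pos
  obtain ⟨δ₂, p2, d2⟩ := small (K := 4 * n ^ 2 * (Cq + 2)) (by positivity) η0
  obtain ⟨δ₃, p3, d3⟩ := small (sq_nonneg (4 * n ^ 2 * Kb f.t0 C Cq * B)) (pow_pos η0 2)
  obtain ⟨δ₄, p4, d4⟩ := small (K := 4 * n ^ 2 * (Cq + 2) * B * K1 n f.t0 B C) (by positivity) η0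
  obtain ⟨δ, δ0, e1, e2, e3, e4⟩ : ∃ δ : ℝ, 0 < δ ∧ δ ≤ δ₁ ∧ δ ≤ δ₂ ∧ δ ≤ δ₃ ∧ δ ≤ δ₄ :=
    ⟨min (min δ₁ δ₂) (min δ₃ δ₄), by positivity, (min_le_left _ _).trans (min_le_left _ _),
      (min_le_left _ _).trans (min_le_right _ _), (min_le_right _ _).trans (min_le_left _ _),
      (min_le_right _ _).trans (min_le_right _ _)⟩
  refine ((((((((Ev.ok f one_pos 0).and (h0 n ι f hf)).and h1).and (h2 δ δ0)).and (h4 δ δ0)).and
    (h5 δ δ0)).and h6).and (hq ι f hf 1 one_pos)).mono ?_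
  rintro c ⟨⟨⟨⟨⟨⟨⟨hc, w0⟩, w1⟩, w2⟩, w4⟩, w5⟩, w6⟩, wq⟩ g q hT
  have b := b0 hc w0
  obtain ⟨-, a2, -, -, a5, a6, a7, a8, a9, a10, -⟩ := quant b g q
  have x := Finset.sum_le_sum fun s (_ : s ∈ Finset.univ) => one hCI b hf (sideX b)
    (fun p hp => ⟨critX b hf (w4 p hp) (w5 p hp).1 (w6 p hp), w1 p hp, w2 p hp, wq p hp⟩) hC hB cq
    (d1 δ e1) η0.le (d2 δ e2) (d3 δ e3) (d4 δ e4) (supp hT s).1 (supp hT s).2.2.1
  have y := Finset.sum_le_sum fun s (_ : s ∈ Finset.univ) => one hCI b hf (sideY b)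
    (fun p hp => ⟨critY b hf (w4 p hp) (w5 p hp).2 (w6 p hp), w1 p hp, w2 p hp, wq p hp⟩) hC hB cq
    (d1 δ e1) η0.le (d2 δ e2) (d3 δ e3) (d4 δ e4) (supp hT s).2.1 (supp hT s).2.2.2
  simp only [Finset.sum_add_distrib, ← Finset.mul_sum] at x y
  rw [a7] at x
  rw [a8] at y
  have τ0 : 0 ≤ f.tau := by
    obtain ⟨l0, -, -, -, T0, -, -, -, t0, t1, -⟩ := hf
    have : 0 ≤ f.T0 / f.lam := by positivity
    unfold Fx.tau
    linarith
  have b1 := mul_nonneg τ0 a9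
  have b2 := mul_nonneg τ0 a10
  have b5 := mul_nonneg η0.le a5
  have b6 := mul_nonneg η0.le a6
  rw [← a2]
  constructor
  · change _ ≤ SLx f c g + _ at x
    linarith
  · change _ ≤ SLy f c q + _ at y
    linarith

end Vale.Agent.P088
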