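import Vale.Agent.P088.SL2a

/-!
# P088: the other variable is small at the critical points
-/

open MeasureTheory Set Metric Filter
open scoped ContDiff Topology

noncomputable section
namespace Vale.Agent.P088
open Vale.Agent.P136

namespace SL2
open SLT

variable {n : ℕ} {ι : Type}

def wq (f : Fx) (c : Cx n ι) (r' : X2 n → ℝ) (p : X2 n) : ℝ := chR f c r' p ^ 2 / Psi f c p

def am (f : Fx) (c : Cx n ι) (v : Fin n → X2 n) (γ : Fin n → Fin n → X2 n → ℝ) (r' : X2 n → ℝ)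
    (i j : Fin n) (p : X2 n) : ℝ :=
  wq f c r' p * (XX v γ (Psi f c) i p * XX v γ (Psi f c) j p)

variable {f : Fx} {c : Cx n ι} {p : X2 n} {r r' m m' H : X2 n → ℝ} {v v' : Fin n → X2 n}
  {γ γ' : Fin n → Fin n → X2 n → ℝ} {A C C₁ C₂ C₃ C₄ C₅ δ ε η : ℝ}

theorem sm_wq (b : B0 f c) (hf : f.Ok) (hr : Sm r') : Sm (wq f c r') :=
  sm_quot (c := c) (t0_pos hf) ((sm_ch b hr).pow 2) b.sP (fun p h => by
    filter_upwards [ch_small (r := r') b h] with q hq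
    simp [hq]) fun p h => (mul_pos h (b.F0 p)).ne'

theorem sm_a (b : B0 f c) (hf : f.Ok) (hr : Sm r') (hγ : SmM γ) : SmM (am f c v γ r') :=
  fun i j => (sm_wq b hf hr).mul ((IdT.sm_XX hγ b.sP i).mul (IdT.sm_XX hγ b.sP j))

theorem sy_a : SymM (am f c v γ r') := fun i j => funext fun p => by
  simp only [am, mul_comm (XX v γ _ i p)]

theorem quad (hs : SymM γ) (p : X2 n) (ζ : Fin n → ℝ) :
    bil (fun i j => am f c v γ r' i j p) ζ ζ =
      wq f c r' p * bil (fun i j => γ i j p) (fun i => D (v i) (Psi f c) p) ζ ^ 2 := by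
  have e : bil (fun i j => γ i j p) (fun i => D (v i) (Psi f c) p) ζ =
      ∑ i, XX v γ (Psi f c) i p * ζ i := by
    rw [bil, IdT.quad_eq, IdT.swap2 (IdT.sym_at hs p)]
    rfl
  rw [e, sq (∑ i, _), Finset.sum_mul_sum]
  simp only [bil, am, Finset.mul_sum]
  exact Finset.sum_congr rfl fun i _ => Finset.sum_congr rfl fun j _ => by ring

theorem wq0 (b : B0 f c) (p : X2 n) : 0 ≤ wq f c r' p :=
  div_nonneg (sq_nonneg _) (mul_nonneg (b.Q0 p) (b.F0 p).le)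

def K4 (n : ℕ) (C C₁ : ℝ) : ℝ := 512 * K2 n C C₁ ^ 2 * Cc 1 * n ^ 2 * C ^ 5

def K6 (n : ℕ) (C C₁ : ℝ) : ℝ := n ^ 2 * K4 n C C₁ * (C ^ 2 + 2 * C * (C ^ 2 + C))

theorem K6_nonneg (n : ℕ) (hC : 1 ≤ C) (C₁ : ℝ) : 0 ≤ K4 n C C₁ ∧ 0 ≤ K6 n C C₁ := by
  have := Cc1 1
  unfold K6 K4
  constructor <;> positivity

theorem pt1 (b : B0 f c) (hf : f.Ok) (s : Side f c v γ r m) (s' : Side f c v' γ' r' m')
    (o : p ∈ sR f c r' 4 → Oth f c v v' γ r m H C δ p) (w1 : W1 f c C₁ p) (w2 : W2 f c C₂ δ p)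
    (hC : 1 ≤ C) (c1 : 1 ≤ C₁) (δ1 : δ ≤ 1) (δ2 : δ ≤ f.t0 ^ 2) (m0 : 0 ≤ m p) :
    1 / C * (chR f c r' p ^ 2 * (vv f c p * my f c p * r p)) + -K6 n C C₁ * (m p * r p) ≤
      rho v (am f c v γ r') (phi f c) p + dgd v (am f c v γ r') (phi f c) p := by
  have sc := sm_ch b (s'.sr b)
  have sa := sm_a (v := v) b hf (s'.sr b) s.s
  have r0 := s.r0 p
  obtain ⟨k4, k6⟩ := K6_nonneg n hC C₁
  rw [rho_eq, quad s.y]
  rcases ch_cases b (s'.sr b) p with h | hp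
  · rw [dgd_zero' sa b.sφ fun i j => by
      filter_upwards [h] with q hq
      simp [am, wq, hq], wq, h.eq_of_nhds]
    simpa using mul_nonneg k6 (mul_nonneg m0 r0)
  replace o := o (sR_mono b (by norm_num) hp)
  obtain ⟨Λ, l1, l2, -, l4, l5, l6⟩ := base2 b hf s s' o w1 w2 hC c1 δ1 δ2 hp
  obtain ⟨e, he⟩ := s.ex
  have v1 := b.v1 p
  have y0 := b.y0 p
  have Λ0 : 0 ≤ Λ := by linarith
  have P0 : 0 < Psi f c p := mul_pos (by linarith [o.q1, sq_nonneg f.t0]) (b.F0 p)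
  have ey : my f c p = Psi f c p * vv f c p := rfl
  have h1 : SB v 1 (C * Psi f c p) Λ (Psi f c) p := sb_one
    ((abs_of_pos P0).le.trans (le_mul_of_one_le_left P0.le hC)) fun i => (o.p1 i).trans (by
      rw [ey, ← mul_assoc]
      exact mul_le_mul_of_nonneg_left l1 (by positivity))
  have h2 := SbAlg.mul Λ0 (sc.pow 2).contDiffAt (b.sP.contDiffAt.inv P0.ne')
    (sb_pow Λ0 sc (SbAlg.mono Λ0 l2 one_le_two le_rfl le_rfl) 2) (sb_inv Λ0 b.sP h1 hC P0)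
  have h3 := SbAlg.congr (g := wq f c r')
    (Eventually.of_forall fun q => (div_eq_mul_inv _ _).symm) h2
  have h4 : ∀ j, SB v 1 (C ^ 2 * my f c p) Λ (D (v j) (Psi f c)) p := fun j => sb_one
    ((o.p1 j).trans (mul_le_mul_of_nonneg_right (le_self_pow₀ hC two_ne_zero) y0)) fun i => by
      have t1 := mul_le_mul_of_nonneg_left o.a2 (by linarith : 0 ≤ C)
      have t2 := mul_le_mul_of_nonneg_left l1 (by positivity : 0 ≤ C ^ 2 * my f c p)
      linarith [o.p2 i j]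
  have h5 := sb_XX Λ0 s.s b.sP (s.bv e he one_le_two (v1.trans l1) p) h4
  have h6 : ∀ i j, SB v 1 (K4 n C C₁ * (vv f c p * my f c p)) Λ (am f c v γ r' i j) p :=
    fun i j => SbAlg.mono Λ0 (SbAlg.mul Λ0 (sm_wq b hf (s'.sr b)).contDiffAt
      ((IdT.sm_XX s.s b.sP i).mul (IdT.sm_XX s.s b.sP j)).contDiffAt h3
      (SbAlg.mul Λ0 (IdT.sm_XX s.s b.sP i).contDiffAt (IdT.sm_XX s.s b.sP j).contDiffAt (h5 i)
        (h5 j))) le_rfl (le_of_eq (by
          rw [K4, ey]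
          field_simp
          ring)) le_rfl
  have u1 := neg_le_of_abs_le (dgd_bd sa b.sφ h6 l5 o.f2)
  have u2 := mul_le_mul_of_nonneg_left l6 (by positivity : 0 ≤ n ^ 2 * K4 n C C₁ * C)
  have u3 := mul_le_mul_of_nonneg_left l4 (by positivity : 0 ≤ n ^ 2 * K4 n C C₁ * (2 * C * m p))
  have u4 := mul_le_mul_of_nonneg_left o.l (by positivity : 0 ≤ chR f c r' p ^ 2 / (C * Psi f c p))
  have e1 : chR f c r' p ^ 2 / (C * Psi f c p) * (my f c p ^ 2 * r p) =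
      1 / C * (chR f c r' p ^ 2 * (vv f c p * my f c p * r p)) := by
    rw [ey]
    field_simp
  have e2 : ∀ x, chR f c r' p ^ 2 / (C * Psi f c p) * (C * x) = wq f c r' p * x := fun x => by
    rw [wq]
    field_simp
  rw [e1, e2] at u4
  rw [K6]
  linarith

theorem pt0 (b : B0 f c) (s : Side f c v γ r m) (s' : Side f c v' γ' r' m')
    (o : p ∈ sR f c r' 4 → Oth f c v v' γ r m H C δ p) (hC : 1 ≤ C) (δ0 : 0 ≤ δ)
    (hm : my f c p ≤ m' p) {S : Set (X2 n)} (hS : sR f c r' 4 ⊆ S) {T : X2 n → ℝ}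
    (ζ ζ' : Fin n → ℝ) (hT : T p = (bil (fun i j => γ i j p) (fun i => D (v i) (Psi f c) p) ζ +
      bil (fun i j => γ' i j p) (fun i => D (v' i) (Psi f c) p) ζ') ^ 2 / Psi f c p) :
    bil (fun i j => am f c v γ r' i j p) ζ ζ ≤
      2 * S.indicator T p + 8 * C * δ * (m' p * n2 ζ') := by
  have y0 := b.y0 p
  have z0 := n2_nonneg ζ'
  have m0 := y0.trans hm
  have T0 : 0 ≤ T p := hT ▸ div_nonneg (sq_nonneg _) (mul_nonneg (b.Q0 p) (b.F0 p).le)
  rw [quad s.y]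
  rcases ch_cases b (s'.sr b) p with h | hp
  · have : 0 ≤ S.indicator T p := by
      unfold indicator
      split_ifs <;> simp [T0]
    rw [wq, h.eq_of_nhds]
    simp only [Pi.zero_apply, ne_eq, OfNat.ofNat_ne_zero, not_false_eq_true, zero_pow, zero_div,
      zero_mul]
    positivity
  replace hp := sR_mono b (by norm_num : (2 : ℝ) ≤ 4) hp
  replace o := o hp
  have P0 : 0 < Psi f c p := mul_pos (by linarith [o.q1, sq_nonneg f.t0]) (b.F0 p)
  have v1 := b.v1 p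
  have R0 := b.R0 p
  have h1 := cs (IdT.sym_at s'.y p) (fun ζ => le_trans (by linarith [n2_nonneg ζ]) (s'.e p ζ).1)
    (fun i => D (v' i) (Psi f c) p) ζ'
  have h2 := h1.trans (mul_le_mul ((s'.e p _).2.trans (mul_le_mul_of_nonneg_left o.p3 two_pos.le))
    (s'.e p ζ').2 (le_trans (by linarith) (s'.e p ζ').1) (by positivity))
  have h3 : Rs f c p ≤ δ * m' p * Psi f c p := by
    refine le_of_mul_le_mul_right ?_ (by linarith : 0 < vv f c p)
    have t1 := mul_le_mul_of_nonneg_left (le_self_pow₀ v1 (by norm_num : 4 ≠ 0)) R0.le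
    have t2 := mul_le_mul_of_nonneg_left hm (mul_nonneg δ0 y0)
    have t3 : my f c p = Psi f c p * vv f c p := rfl
    have t4 := o.R1
    rw [mul_assoc, ← t3]
    linarith
  have h4 := mul_le_mul_of_nonneg_left h3 (by positivity : 0 ≤ 8 * C * n2 ζ')
  rw [indicator_of_mem (hS hp), hT, wq, div_mul_eq_mul_div, div_le_iff₀ P0, add_mul, mul_assoc 2,
    div_mul_cancel₀ _ P0.ne']
  generalize bil (fun i j => γ i j p) (fun i => D (v i) (Psi f c) p) ζ = x at *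
  generalize bil (fun i j => γ' i j p) (fun i => D (v' i) (Psi f c) p) ζ' = y at *
  have h5 := mul_le_of_le_one_left (sq_nonneg x) (pow_le_one₀ (n := 2) (ch0 (f := f) (c := c)
    (r := r') (p := p)) ch1)
  linarith [sq_nonneg (x + 2 * y)]

theorem one (hCI : S_CI) (b : B0 f c) (hf : f.Ok) (s : Side f c v γ r m)
    (s' : Side f c v' γ' r' m') (k : ∀ p ∈ Om2 c, (p ∈ sR f c r' 4 → Oth f c v v' γ r m H C δ p) ∧
      W1 f c C₁ p ∧ W2 f c C₂ δ p) (hm : ∀ p, my f c p ≤ m p ∧ my f c p ≤ m' p) (hC : 1 ≤ C)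
    (c1 : 1 ≤ C₁) (δ0 : 0 ≤ δ) (δ1 : δ ≤ 1) (δ2 : δ ≤ f.t0 ^ 2) (η0 : 0 < η)
    (d1 : 32 * C ^ 2 * δ ≤ η) (d2 : (4 * C * K6 n C C₁ + 2 * K5 n f.t0 C C₁ (η / 2)) * δ ≤ η)
    {S : Set (X2 n)} (hS : sR f c r' 4 ⊆ S) (hS1 : IsClosed S)
    (hS2 : ∀ p ∈ S, f.t0 ^ 2 / 4 ≤ QQ c p) {u u' T : X2 n → ℝ} (hu : Tst u)
    (hs : tsupport u ⊆ Om2 c) (hu' : Tst u')
    (hT : ∀ p, T p = (bil (fun i j => γ i j p) (fun i => D (v i) (Psi f c) p)
      (fun i => Dm (phi f c) (v i) u p) + bil (fun i j => γ' i j p)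
        (fun i => D (v' i) (Psi f c) p) fun i => Dm (phi f c) (v' i) u' p) ^ 2 / Psi f c p) :
    ∫ p, chR f c r' p ^ 2 * al f c p * n2 (fun i => Dm (phi f c) (v i) u p) ≤
      η * (∫ p, Lp' v γ (phi f c) u p ^ 2) + η * (∫ p in S, T p) +
        η * (∫ p, m' p * n2 fun i => Dm (phi f c) (v' i) u' p) + η * ∫ p, m p * r p * u p ^ 2 := by
  have sc := (sm_ch b (s'.sr b)).pow 2
  have s1 := sc.mul ((b.sv.mul b.smy).mul (s.sr b))
  have s2 := s.sm.mul (s.sr b)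
  have sa := sm_a (v := v) b hf (s'.sr b) s.s
  have m0 : ∀ p, 0 ≤ m p := fun p => (b.y0 p).trans (hm p).1
  have m0' : ∀ p, 0 ≤ m' p := fun p => (b.y0 p).trans (hm p).2
  have T0 : ∀ p, 0 ≤ T p := fun p =>
    hT p ▸ div_nonneg (sq_nonneg _) (mul_nonneg (b.Q0 p) (b.F0 p).le)
  have h1 := ci1 hCI s.s s.y b.sφ hu (sc.mul b.sa) ((s1.cmul _).add (s2.cmul _)).cont hs
    (half_pos η0) fun p hp => pt2 b hf s s' (k p hp).1 (k p hp).2.1 (k p hp).2.2 hC c1 δ0 δ1 δ2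
      (half_pos η0) (m0 p) rfl
  have h2 := ci3 hCI sa sy_a b.sφ hu ((s1.cmul _).add (s2.cmul _)).cont hs
    (fun p ζ => by rw [quad s.y]; exact mul_nonneg (wq0 b p) (sq_nonneg _))
    fun p hp => pt1 b hf s s' (k p hp).1 (k p hp).2.1 (k p hp).2.2 hC c1 δ1 δ2 (m0 p)
  rw [int_lin hu s1.cont s2.cont] at h1 h2
  have i0 := ((Tst.mul_left (sc.mul b.sa) (tst_q (v := v) s.s b.sφ hu)).const_mul 2).integrable
    (μ := volume)
  have h3 := integral_mono (Tst.mul_left (sc.mul b.sa) (tst_n2 (v := v) b.sφ hu)).integrable i0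
    fun p => by
      have e1 := mul_le_mul_of_nonneg_left (s.e p fun i => Dm (phi f c) (v i) u p).1
        (mul_nonneg (sq_nonneg (chR f c r' p)) (b.a0 p).le)
      unfold bil at e1
      simp only
      linarith
  rw [integral_const_mul] at h3
  have t0 := t0_pos hf
  have i1 : IntegrableOn T S := by
    have t1 := ((IdT.tst_quad s.s (fun i => b.sP.D (v i)) fun i => Tst.Dm b.sφ hu (v i)).add
      (IdT.tst_quad s'.s (fun i => b.sP.D (v' i)) fun i => Tst.Dm b.sφ hu' (v' i))).sq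
    have t2 : Continuous fun p => (max (QQ c p) (f.t0 ^ 2 / 4) * FF f c p)⁻¹ :=
      ((b.sQ.cont.max continuous_const).mul b.sF.cont).inv₀ fun p =>
        (mul_pos (lt_max_of_lt_right (by positivity)) (b.F0 p)).ne'
    refine (t1.integrable_cmul t2).integrableOn.congr_fun (fun p hp => ?_) hS1.measurableSet
    simp only
    rw [hT, max_eq_left (hS2 p hp), div_eq_inv_mul]
    rfl
  have i2 := ((integrable_indicator_iff hS1.measurableSet).2 i1).const_mul 2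
  have i3 := ((Tst.mul_left s'.sm (tst_n2 (v := v') b.sφ hu')).const_mul (8 * C * δ)).integrable
    (μ := volume)
  have h4 := integral_mono (tst_q (v := v) sa b.sφ hu).integrable (i2.add i3) fun p => by
    by_cases hp : p ∈ Om2 c
    · exact pt0 b s s' (k p hp).1 hC δ0 (hm p).2 hS _ _ (hT p)
    · have e1 := indicator_nonneg (s := S) (fun p _ => T0 p) p
      have e2 := mul_nonneg (m0' p) (n2_nonneg fun i => Dm (phi f c) (v' i) u' p)
      simp only [Dm_off hs hp, mul_zero, Finset.sum_const_zero, Pi.add_apply]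
      positivity
  simp only [Pi.add_apply] at h4
  rw [integral_add i2 i3, integral_const_mul, integral_const_mul,
    integral_indicator hS1.measurableSet] at h4
  have z1 : 0 ≤ ∫ p in S, T p := integral_nonneg T0
  have z2 : 0 ≤ ∫ p, m' p * n2 fun i => Dm (phi f c) (v' i) u' p :=
    integral_nonneg fun p => mul_nonneg (m0' p) (n2_nonneg _)
  have z3 : 0 ≤ ∫ p, m p * r p * u p ^ 2 :=
    integral_nonneg fun p => mul_nonneg (mul_nonneg (m0 p) (s.r0 p)) (sq_nonneg _)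
  have h5 := mul_le_mul_of_nonneg_left (h2.trans h4) (by positivity : 0 ≤ 4 * C * δ)
  have e1 : ∀ x y : ℝ, 4 * C * δ * (1 / C * x + y) = 4 * δ * x + 4 * C * δ * y := fun x y => by
    field_simp
  rw [e1] at h5
  have u1 := mul_le_mul_of_nonneg_right
    (le_trans (mul_le_mul_of_nonneg_right (by nlinarith : 8 * C ≤ 32 * C ^ 2) δ0) d1) z1
  have u2 := mul_le_mul_of_nonneg_right ((mul_le_of_le_one_right (by positivity) δ1).trans d1) z2
  have u3 := mul_le_mul_of_nonneg_right d2 z3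
  linarith

end SL2

open SLT SL2 in
theorem s_SL2 (h0 : S_w0) (h1 : S_w1) (h2 : S_w2) (h3 : S_w3) (h4 : S_w4) (h5 : S_w5)
    (hCI : S_CI) : S_SL2 := by
  intro n ι _ f hf η η0
  obtain ⟨A, -, h5⟩ := h5 n
  obtain ⟨C₁, c1, h1⟩ := h1 n ι f hf
  obtain ⟨C₂, -, h2⟩ := h2 n ι f hf
  obtain ⟨C₃, c3, h3⟩ := h3 n ι f hf
  obtain ⟨C₄, -, h4⟩ := h4 n ι f hf
  obtain ⟨C₅, c5, h5⟩ := h5 ι f hf
  obtain ⟨C, hC⟩ : ∃ C, C = C₁ + C₃ ^ 2 + C₅ := ⟨_, rfl⟩
  have c0 : 1 ≤ C := by linarith [sq_nonneg C₃]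
  have k6 := (K6_nonneg n c0 C₁).2
  have t0 := t0_pos hf
  obtain ⟨δ₁, p1, d1⟩ := small (K := 32 * C ^ 2) (by positivity) η0
  obtain ⟨δ₂, p2, d2⟩ := small (K := 4 * C * K6 n C C₁ + 2 * K5 n f.t0 C C₁ (η / 2))
    (by unfold K5; positivity) η0
  obtain ⟨δ, δ0, e1, e2, e3, e4⟩ : ∃ δ : ℝ, 0 < δ ∧ δ ≤ δ₁ ∧ δ ≤ δ₂ ∧ δ ≤ 1 ∧ δ ≤ f.t0 ^ 2 :=
    ⟨min (min δ₁ δ₂) (min 1 (f.t0 ^ 2)), by positivity, (min_le_left _ _).trans (min_le_left _ _),
      (min_le_left _ _).trans (min_le_right _ _), (min_le_right _ _).trans (min_le_left _ _),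
      (min_le_right _ _).trans (min_le_right _ _)⟩
  refine (((((((Ev.ok f one_pos 0).and (h0 n ι f hf)).and h1).and (h2 δ δ0)).and h3).and
    (h4 δ δ0)).and (h5 δ δ0)).mono ?_
  rintro c ⟨⟨⟨⟨⟨⟨hc, w0⟩, w1⟩, w2⟩, w3⟩, w4⟩, w5⟩ g q hT
  have b := b0 hc w0
  obtain ⟨a1, a2, a3, a4, a5, a6, -⟩ := quant b g q
  have hS : IsClosed (sX f c 4 ∪ sY f c 4) :=
    (closed_sR b ((sideX b).sr b) 4).union (closed_sR b ((sideY b).sr b) 4)
  have hS' : ∀ p ∈ sX f c 4 ∪ sY f c 4, f.t0 ^ 2 / 4 ≤ QQ c p := fun p h => h.elim And.left And.left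
  have x := Finset.sum_le_sum fun s (_ : s ∈ Finset.univ) => one hCI b hf (sideX b) (sideY b)
    (fun p hp => ⟨othX b (w1 p hp) (w2 p hp) (w3 p hp) (w4 p hp) (w5 p hp).1 (w5 p hp).2 c1 c3 c5
      hC, w1 p hp, w2 p hp⟩) (fun p => ⟨b.yx p, le_rfl⟩) c0 c1 δ0.le e3 e4 η0 (d1 δ e1) (d2 δ e2)
    subset_union_right hS hS' (supp hT s).1 (supp hT s).2.2.1 (supp hT s).2.1
    (T := fun p => dm2 f c p (zx f c (g s) p) (zy f c (q s) p)) fun p => rfl
  have y := Finset.sum_le_sum fun s (_ : s ∈ Finset.univ) => one hCI b hf (sideY b) (sideX b)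
    (fun p hp => ⟨othY b (w1 p hp) (w2 p hp) (w3 p hp) (w4 p hp) (w5 p hp).1 c1 c3 c5 e3 hC,
      w1 p hp, w2 p hp⟩) (fun p => ⟨le_rfl, b.yx p⟩) c0 c1 δ0.le e3 e4 η0 (d1 δ e1) (d2 δ e2)
    subset_union_left hS hS' (supp hT s).2.1 (supp hT s).2.2.2 (supp hT s).1
    (T := fun p => dm2 f c p (zx f c (g s) p) (zy f c (q s) p)) fun p => by rw [add_comm]; rfl
  simp only [Finset.sum_add_distrib, ← Finset.mul_sum] at x y
  have b3 := mul_nonneg η0.le a3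
  have b4 := mul_nonneg η0.le a4
  have b5 := mul_nonneg η0.le a5
  have b6 := mul_nonneg η0.le a6
  rw [← a1, ← a2]
  simp only [SMx, SMy, IX, IY, Measure.restrict_univ]
  constructor
  · refine le_trans (le_of_eq rfl) (y.trans ?_)
    change η * qLY f c q + η * A5 f c g q + η * (∑ s, ∫ p, mx f c p * n2 (zx f c (g s) p)) + _ ≤ _
    linarith
  · refine le_trans (le_of_eq rfl) (x.trans ?_)
    change η * qLX f c g + η * A5 f c g q + η * (∑ s, ∫ p, my f c p * n2 (zy f c (q s) p)) + _ ≤ _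
    linarith

end Vale.Agent.P088
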