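import Vale.Agent.P088.SLS

/-!
# P088: the other variable at the critical points, pointwise bounds
-/

open MeasureTheory Set Metric Filter
open scoped ContDiff Topology

noncomputable section
namespace Vale.Agent.P088
open Vale.Agent.P136

namespace SL2
open SLT

variable {n : ℕ} {ι : Type}

/-- The facts about the variable in which the gradient is large. -/
structure Oth (f : Fx) (c : Cx n ι) (v v' : Fin n → X2 n) (γ : Fin n → Fin n → X2 n → ℝ)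
    (r m H : X2 n → ℝ) (C δ : ℝ) (p : X2 n) : Prop where
  q1 : 2 * f.t0 ^ 2 < QQ c p
  q2 : QQ c p < f.t1 ^ 2
  v8 : vv f c p ^ 8 ≤ δ * my f c p
  a1 : al f c p ≤ δ * my f c p * vv f c p
  a2 : AA f c p ≤ C * my f c p * vv f c p
  h1 : H p ^ 2 ≤ δ * m p * r p
  h2 : AA f c p ≤ H p
  m1 : my f c p ≤ m p
  m2 : m p ^ 2 ≤ C * r p
  m3 : r p ≤ C * m p ^ 2
  m4 : m p ≤ C * H p
  a3 : al f c p * vv f c p ^ 2 ≤ δ * r p
  f2 : ∀ i j, |D (v i) (D (v j) (phi f c)) p| ≤ C * H p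
  p1 : ∀ i, |D (v i) (Psi f c) p| ≤ C * my f c p
  p2 : ∀ i j, |D (v i) (D (v j) (Psi f c)) p| ≤ C * AA f c p
  p3 : n2 (fun i => D (v' i) (Psi f c) p) ≤ C * Rs f c p
  R1 : Rs f c p * vv f c p ^ 4 ≤ δ * my f c p ^ 2
  l : my f c p ^ 2 * r p ≤ C * bil (fun i j => γ i j p) (fun i => D (v i) (Psi f c) p)
    (fun i => D (v i) (phi f c) p) ^ 2
  mix : ∀ a i, SB v 1 (C * AA f c p) (vv f c p) (D (v a) (D (v' i) (phi f c))) p

variable {f : Fx} {c : Cx n ι} {p : X2 n} {r r' m m' H : X2 n → ℝ} {v v' : Fin n → X2 n}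
  {γ γ' : Fin n → Fin n → X2 n → ℝ} {A C C₁ C₂ C₃ C₄ C₅ δ ε : ℝ}

theorem othY (b : B0 f c) (w1 : W1 f c C₁ p) (w2 : W2 f c C₂ δ p) (w3 : W3 f c C₃ p)
    (w4 : W4 f c C₄ δ p) (w5 : W5x f c A C₅ δ p) (c1 : 1 ≤ C₁) (c3 : 1 ≤ C₃) (c5 : 1 ≤ C₅)
    (δ1 : δ ≤ 1) (hC : C = C₁ + C₃ ^ 2 + C₅) (hp : p ∈ sR f c (rx f c) 4) :
    Oth f c ey ex (onY c.γ₂) (ry f c) (my f c) (AA f c) C δ p := by
  obtain ⟨e1, e2, e3, e4, -, -, -, -, e5, -, e6, e7, e8, e9, e10, e11⟩ := w5 hp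
  obtain ⟨u1, u2⟩ := (w4.2.1 (nr e4)).2.1 fun h => e3 (sR_mono b (by norm_num) h)
  have v1 := b.v1 p
  have v0 : 0 ≤ vv f c p := by linarith
  have y0 := b.y0 p
  have A0 := (b.a0 p).le.trans (b.aA p)
  have r0 := (sideY b).r0 p
  have k3 : C₃ ≤ C₃ ^ 2 := le_self_pow₀ c3 two_ne_zero
  have g1 : ∀ {x y : ℝ}, x ≤ C₁ * y → 0 ≤ y → x ≤ C * y := fun h h0 =>
    h.trans (mul_le_mul_of_nonneg_right (by linarith) h0)
  have g3 : ∀ {x y : ℝ}, x ≤ C₃ * y → 0 ≤ y → x ≤ C * y := fun h h0 =>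
    h.trans (mul_le_mul_of_nonneg_right (by linarith) h0)
  have g5 : ∀ {x y : ℝ}, x ≤ C₅ * y → 0 ≤ y → x ≤ C * y := fun h h0 =>
    h.trans (mul_le_mul_of_nonneg_right (by linarith) h0)
  refine ⟨e1, e2, (w2.2.2.2.2.2.2.2.2.2.2.2.2.2.1 (nr e4)).2, e5, ?_, u1, le_rfl, le_rfl, g5 e9 r0,
    g5 e10 (sq_nonneg _), ?_, le_trans (mul_le_mul_of_nonneg_left
      (pow_le_pow_right₀ v1 (by norm_num)) (b.a0 p).le) u2,
    fun i j => g3 (sb_val (w3.2.1 i (Sum.inr j))) A0, fun i => ?_,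
    fun i j => g1 (sb_val ((w1.2.2.2.2.2.2.2.2.2.2.1 (Sum.inr i)).2 (Sum.inr j))) A0,
    g5 e7 (b.R0 p).le, e8, g5 e11 (sq_nonneg _), fun a i => SbAlg.mono v0
      (sb_res Sum.inr (fun _ => rfl) (w3.2.1 a (Sum.inl i))) (by norm_num) (g3 le_rfl A0) le_rfl⟩
  · rw [mul_assoc] at e6 ⊢
    exact g5 ((b.AH p).trans e6) (mul_nonneg y0 v0)
  · have h1 := mul_le_mul_of_nonneg_right w3.2.2.2.2.1 v0
    have h2 := mul_le_mul_of_nonneg_left w3.2.2.2.2.2.1 (by linarith : 0 ≤ C₃)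
    have h3 := le_mul_of_one_le_right y0 v1
    have h4 := mul_le_mul_of_nonneg_right (by linarith : C₃ ^ 2 ≤ C) A0
    linarith
  · have h1 := (w1.2.2.2.2.2.2.2.2.2.2.2.2.2.2 i).1
    have h2 : D (ey i) (Psi f c) p = D (ex i + ey i) (Psi f c) p - D (ex i) (Psi f c) p := by
      simp only [D, map_add]
      ring
    have h3 : |D (ex i) (Psi f c) p| ≤ C₅ * my f c p := by
      refine abs_le.2 (abs_le_of_sq_le_sq' ?_ (by positivity))
      have t1 := (sq_le_n2 (dx (Psi f c) p) i).trans e7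
      have t2 := le_mul_of_one_le_right (b.R0 p).le (one_le_pow₀ (n := 4) v1)
      have t3 := mul_le_of_le_one_left (sq_nonneg (my f c p)) δ1
      have t4 := mul_le_mul_of_nonneg_left ((t2.trans e8).trans t3) (by linarith : 0 ≤ C₅)
      have t5 := mul_le_mul_of_nonneg_right (le_self_pow₀ c5 two_ne_zero) (sq_nonneg (my f c p))
      unfold dx at t1
      rw [mul_pow]
      linarith
    rw [mul_assoc] at h1
    have h4 := mul_nonneg (sq_nonneg C₃) y0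
    rw [h2, hC]
    refine (abs_sub _ _).trans ?_
    change _ ≤ C₁ * my f c p at h1
    linarith

theorem othX (b : B0 f c) (w1 : W1 f c C₁ p) (w2 : W2 f c C₂ δ p) (w3 : W3 f c C₃ p)
    (w4 : W4 f c C₄ δ p) (wx : W5x f c A C₅ δ p) (w5 : W5y f c A C₅ δ p) (c1 : 1 ≤ C₁)
    (c3 : 1 ≤ C₃) (c5 : 1 ≤ C₅) (hC : C = C₁ + C₃ ^ 2 + C₅) (hp : p ∈ sR f c (ry f c) 4) :
    Oth f c ex ey (onX c.γ₁) (rx f c) (mx f c) (HX f c) C δ p := by
  obtain ⟨e1, e2, e4, -, -, e5, -, e6, e7, e8, e9, e10, e12, e11⟩ := w5 hp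
  obtain ⟨u1, u2⟩ := (w4.2.1 (nr e4)).1 fun h => (wx (sR_mono b (by norm_num) h)).2.2.1 hp
  have v1 := b.v1 p
  have v0 : 0 ≤ vv f c p := by linarith
  have y0 := b.y0 p
  have A0 := (b.a0 p).le.trans (b.aA p)
  have H0 := A0.trans (b.AH p)
  have r0 := (sideX b).r0 p
  have k3 : C₃ ≤ C₃ ^ 2 := le_self_pow₀ c3 two_ne_zero
  have g1 : ∀ {x y : ℝ}, x ≤ C₁ * y → 0 ≤ y → x ≤ C * y := fun h h0 =>
    h.trans (mul_le_mul_of_nonneg_right (by linarith) h0)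
  have g3 : ∀ {x y : ℝ}, x ≤ C₃ * y → 0 ≤ y → x ≤ C * y := fun h h0 =>
    h.trans (mul_le_mul_of_nonneg_right (by linarith) h0)
  have g5 : ∀ {x y : ℝ}, x ≤ C₅ * y → 0 ≤ y → x ≤ C * y := fun h h0 =>
    h.trans (mul_le_mul_of_nonneg_right (by linarith) h0)
  refine ⟨e1, e2, (w2.2.2.2.2.2.2.2.2.2.2.2.2.2.1 (nr e4)).2, e5, ?_, u1, b.AH p, b.yx p, g5 e9 r0,
    g5 e10 (sq_nonneg _), g3 w3.2.2.2.2.2.2.1 H0, le_trans (mul_le_mul_of_nonneg_left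
      ((pow_le_pow_right₀ v1 (by norm_num)).trans (pow_le_pow_left₀ v0 (b.vS p) 4)) (b.a0 p).le) u2,
    fun i j => g3 (sb_val (w3.1 i j)) H0, fun i => g5 ?_ y0,
    fun i j => g1 (sb_val ((w1.2.2.2.2.2.2.2.2.2.2.1 (Sum.inl i)).2 (Sum.inl j))) A0,
    g5 e7 (b.R0 p).le, e8, g5 e11 (sq_nonneg _), fun a i => ?_⟩
  · rw [mul_assoc] at e6 ⊢
    exact g5 e6 (mul_nonneg y0 v0)
  · refine abs_le.2 (abs_le_of_sq_le_sq' ?_ (by positivity))
    have t1 := (sq_le_n2 (dx (Psi f c) p) i).trans e12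
    have t5 := mul_le_mul_of_nonneg_right (le_self_pow₀ c5 two_ne_zero) (sq_nonneg (my f c p))
    unfold dx at t1
    rw [mul_pow]
    linarith
  · rw [D_comm b.sφ]
    exact SbAlg.mono v0 (sb_res Sum.inl (fun _ => rfl) (w3.2.1 i (Sum.inl a))) (by norm_num)
      (g3 le_rfl A0) le_rfl

def K2 (n : ℕ) (C C₁ : ℝ) : ℝ := Kc (1 + 32 * n ^ 2 * (C + 2) ^ 2) C₁

theorem K2_one (n : ℕ) (C : ℝ) (h : 1 ≤ C₁) : 1 ≤ K2 n C C₁ :=
  (Kc1 (le_add_of_nonneg_right (by positivity)) h).2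

theorem base2 (b : B0 f c) (hf : f.Ok) (s : Side f c v γ r m) (s' : Side f c v' γ' r' m')
    (o : Oth f c v v' γ r m H C δ p) (w1 : W1 f c C₁ p) (w2 : W2 f c C₂ δ p) (hC : 1 ≤ C)
    (c1 : 1 ≤ C₁) (δ1 : δ ≤ 1) (δ2 : δ ≤ f.t0 ^ 2) (hp : p ∈ sR f c r' 2) :
    ∃ Λ : ℝ, vv f c p ≤ Λ ∧ SB v 2 (K2 n C C₁) Λ (chR f c r') p ∧
      al f c p * Λ ^ 2 ≤ (22 / f.t0 ^ 2 + 2) * (δ * m p * r p) ∧
      vv f c p * my f c p * Λ ≤ (C ^ 2 + C) * r p ∧ (∀ j, |D (v j) (phi f c) p| ≤ 2 * C * m p) ∧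
      vv f c p * my f c p * H p ≤ C * (m p * r p) := by
  obtain ⟨e, he⟩ := s.ex
  have v1 := b.v1 p
  have y0 := b.y0 p
  have a0 := b.a0 p
  have A0 := a0.le.trans (b.aA p)
  have R0 := b.R0 p
  have S0 : 0 < √(Rs f c p) := Real.sqrt_pos.2 R0
  have eS := Real.sq_sqrt R0.le
  have r0 := s.r0 p
  have t0 := t0_pos hf
  have y1 : vv f c p ^ 2 ≤ my f c p := (pow_le_pow_right₀ v1 (by norm_num)).trans
    (o.v8.trans (mul_le_of_le_one_left y0 δ1))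
  have m1 : 1 ≤ m p := ((one_le_pow₀ v1).trans y1).trans o.m1
  have δ0 : 0 ≤ δ := by
    by_contra h
    nlinarith [o.v8, one_le_pow₀ (n := 8) v1]
  have y2 : my f c p ^ 2 ≤ C * r p := (pow_le_pow_left₀ y0 o.m1 2).trans o.m2
  have hv : vv f c p ^ 2 ≤ √(Rs f c p) := by
    refine Real.le_sqrt_of_sq_le ?_
    have h1 := ((one_le_pow₀ v1).trans w2.1).trans (mul_le_mul_of_nonneg_right δ2 (b.F0 p).le)
    have h2 : (vv f c p ^ 2) ^ 2 ≤ vv f c p ^ 6 := by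
      rw [← pow_mul]
      exact pow_le_pow_right₀ v1 (by norm_num)
    have h3 := mul_le_mul_of_nonneg_right h1 (by positivity : 0 ≤ vv f c p ^ 6)
    unfold Rs
    linarith
  obtain ⟨x, hx⟩ : ∃ x, x = AA f c p / √(Rs f c p) := ⟨_, rfl⟩
  have x0 : 0 ≤ x := hx ▸ div_nonneg A0 S0.le
  have ex : √(Rs f c p) * x = AA f c p := by rw [hx]; field_simp
  have Λ0 : 0 ≤ x + vv f c p := by linarith
  refine ⟨x + vv f c p, by linarith, ?_, ?_, ?_, fun j => ?_, ?_⟩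
  · have h1 : ∀ i, SB v 2 ((C + 2) * √(Rs f c p)) (x + vv f c p) (D (v' i) (phi f c)) p :=
      fun i => sb_succ (abs_le.2 (abs_le_of_sq_le_sq' (by
        have t1 := d_le (u := v') (φ := phi f c) (fun ζ => (s'.e p ζ).1) i
        rw [← s'.hr] at t1
        have t2 := mul_le_mul_of_nonneg_right (by nlinarith : 4 ≤ (C + 2) ^ 2) R0.le
        rw [mul_pow, eS]
        linarith [hp.2]) (by positivity))) fun a => SbAlg.mono (by linarith) (o.mix a i) le_rfl (by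
          have : 0 ≤ (C + 2) * √(Rs f c p) * vv f c p := by positivity
          rw [mul_add, mul_assoc, ex]
          linarith) (by linarith)
    have h2 := sb_rho Λ0 s'.s b.sφ (s'.bv e he le_rfl (by linarith) p) h1
    rw [mul_pow, eS, ← s'.hr] at h2
    exact (sb_ch b w1 (le_add_of_nonneg_right (by positivity)) c1 e he (by linarith) (s'.sr b)
      (SbAlg.mono Λ0 h2 le_rfl (by linarith) le_rfl) o.q1).1
  · have h1 := mul_le_mul_of_nonneg_right (al_le b hf w2.2.2.2.2.1 o.q2) (sq_nonneg x)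
    have h2 : Rs f c p * x ^ 2 = AA f c p ^ 2 := by rw [← ex, mul_pow, eS]
    have h3 := mul_le_mul_of_nonneg_left ((pow_le_pow_left₀ A0 o.h2 2).trans o.h1)
      (by positivity : 0 ≤ 11 / f.t0 ^ 2)
    have h4 := le_mul_of_one_le_left (mul_nonneg δ0 r0) m1
    have h5 := mul_nonneg a0.le (sq_nonneg (x - vv f c p))
    rw [mul_assoc, h2] at h1
    have := o.a3
    rw [show 22 / f.t0 ^ 2 = 2 * (11 / f.t0 ^ 2) by ring]
    linarith
  · have h1 : x * vv f c p ≤ C * my f c p := by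
      refine le_of_mul_le_mul_left ?_ S0
      have t1 := mul_le_mul_of_nonneg_right o.a2 (by linarith : 0 ≤ vv f c p)
      have t2 := mul_le_mul_of_nonneg_left hv (by positivity : 0 ≤ C * my f c p)
      rw [← mul_assoc, ex]
      linarith
    have h2 := mul_le_mul_of_nonneg_right h1 y0
    have h3 := mul_le_mul_of_nonneg_right y1 y0
    have h4 := mul_le_mul_of_nonneg_left y2 (by linarith : 0 ≤ C)
    linarith
  · refine abs_le.2 (abs_le_of_sq_le_sq' ?_ (by positivity))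
    have t1 := d_le (u := v) (φ := phi f c) (fun ζ => (s.e p ζ).1) j
    rw [← s.hr] at t1
    have t2 := mul_le_mul_of_nonneg_right (by nlinarith : 2 * C ≤ (2 * C) ^ 2) (sq_nonneg (m p))
    rw [mul_pow]
    linarith [o.m3]
  · refine le_of_sq_le_sq ?_ (by positivity)
    have t1 := o.h1.trans (by
      rw [mul_assoc]; exact mul_le_of_le_one_left (by positivity) δ1 : _ ≤ m p * r p)
    have t2 := mul_le_mul (mul_le_mul (y1.trans o.m1) y2 (sq_nonneg _) (by linarith)) t1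
      (sq_nonneg _) (by positivity)
    have t3 := mul_le_mul_of_nonneg_right (le_self_pow₀ hC two_ne_zero) (sq_nonneg (m p * r p))
    rw [mul_pow, mul_pow, mul_pow C]
    linarith

def K5 (n : ℕ) (t C C₁ ε : ℝ) : ℝ :=
  1 / (4 * ε) + 6 * n ^ 2 * C ^ 2 + 128 * n ^ 2 * K2 n C C₁ ^ 2 * C₁ * (22 / t ^ 2 + 2)

theorem pt2 (b : B0 f c) (hf : f.Ok) (s : Side f c v γ r m) (s' : Side f c v' γ' r' m')
    (o : p ∈ sR f c r' 4 → Oth f c v v' γ r m H C δ p) (w1 : W1 f c C₁ p) (w2 : W2 f c C₂ δ p)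
    (hC : 1 ≤ C) (c1 : 1 ≤ C₁) (δ0 : 0 ≤ δ) (δ1 : δ ≤ 1) (δ2 : δ ≤ f.t0 ^ 2) (ε0 : 0 < ε)
    (m0 : 0 ≤ m p) {w : X2 n → ℝ} (hw : w = fun p => chR f c r' p ^ 2 * al f c p) :
    w p ^ 2 / (4 * ε) + (2 * w p * rho v γ (phi f c) p + w p * dgd v γ (phi f c) p +
      1 / 2 * dgd v γ w p) ≤ 2 * δ * (chR f c r' p ^ 2 * (vv f c p * my f c p * r p)) +
        K5 n f.t0 C C₁ ε * δ * (m p * r p) := by
  have sc := sm_ch b (s'.sr b)
  have sw : Sm w := hw ▸ (sc.pow 2).mul b.sa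
  have r0 := s.r0 p
  rcases ch_cases b (s'.sr b) p with h | hp
  · have h1 : w =ᶠ[𝓝 p] 0 := by
      filter_upwards [h] with q hq
      simp [hw, hq]
    have : 0 ≤ K5 n f.t0 C C₁ ε * δ * (m p * r p) := by unfold K5; positivity
    rw [dgd_zero s.s sw h1, h1.eq_of_nhds, h.eq_of_nhds]
    simpa using this
  replace o := o (sR_mono b (by norm_num) hp)
  obtain ⟨Λ, l1, l2, l3, -, l5, -⟩ := base2 b hf s s' o w1 w2 hC c1 δ1 δ2 hp
  obtain ⟨e, he⟩ := s.ex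
  have v1 := b.v1 p
  have a0 := b.a0 p
  have aH := (b.aA p).trans o.h2
  have Λ0 : 0 ≤ Λ := by linarith
  have ew : w p = chR f c r' p ^ 2 * al f c p := by rw [hw]
  have w0 : 0 ≤ w p := by rw [ew]; positivity
  have u1 : w p ≤ H p := (ew ▸ mul_le_of_le_one_left a0.le (pow_le_one₀ ch0 ch1)).trans aH
  have u2 : w p ^ 2 / (4 * ε) ≤ 1 / (4 * ε) * (δ * m p * r p) := by
    rw [one_div_mul_eq_div]
    exact div_le_div_of_nonneg_right ((pow_le_pow_left₀ w0 u1 2).trans o.h1) (by positivity)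
  have u3 := mul_le_mul_of_nonneg_left (mul_le_mul_of_nonneg_right o.a1 r0)
    (sq_nonneg (chR f c r' p))
  have u4 : |dgd v γ (phi f c) p| ≤ 6 * n ^ 2 * C ^ 2 * H p := by
    refine (dgd_bd s.s b.sφ (s.bv e he one_le_two le_rfl p) l5 o.f2).trans ?_
    have t1 := mul_le_mul_of_nonneg_left o.m4 (by positivity : 0 ≤ (n : ℝ) ^ 2 * C)
    have t2 := mul_le_mul_of_nonneg_right (le_self_pow₀ hC two_ne_zero)
      (mul_nonneg (sq_nonneg (n : ℝ)) (a0.le.trans aH))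
    linarith
  have u5 := (mul_le_mul_of_nonneg_left (le_of_abs_le u4) w0).trans
    (mul_le_mul_of_nonneg_right u1 ((abs_nonneg _).trans u4))
  have u6 := mul_le_mul_of_nonneg_left o.h1 (by positivity : 0 ≤ 6 * (n : ℝ) ^ 2 * C ^ 2)
  have u7 := SbAlg.mul Λ0 (sc.pow 2).contDiffAt b.sa.contDiffAt (sb_pow Λ0 sc l2 2)
    (SbAlg.mono (by linarith) (sb_res e he w1.2.2.2.1) (by norm_num) le_rfl l1)
  rw [← hw] at u7
  have u8 := le_of_abs_le (dgd_sb s.s sw (s.bv e he one_le_two le_rfl p) (v1.trans l1) u7)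
  have u9 := mul_le_mul_of_nonneg_left l3
    (by positivity : 0 ≤ 128 * (n : ℝ) ^ 2 * K2 n C C₁ ^ 2 * C₁)
  rw [← s.hr, K5]
  rw [← mul_assoc, ← ew] at u3
  linarith

end SL2

end Vale.Agent.P088
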