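import Vale.Agent.P088.SLS

/-!
# P088: the loss from the singular multiplier
-/

open MeasureTheory Set Metric Filter
open scoped ContDiff Topology

noncomputable section
namespace Vale.Agent.P088
open Vale.Agent.P136

namespace SL3
open SLT

variable {n : ℕ} {ι : Type} {f : Fx} {c : Cx n ι} {p : X2 n} {r m : X2 n → ℝ}
  {v : Fin n → X2 n} {γ : Fin n → Fin n → X2 n → ℝ} {A B C C₂ δ η : ℝ}

def Kd (n : ℕ) (B : ℝ) : ℝ := 8192 * n ^ 2 * (Cc 2 * (32 * n ^ 2 * B ^ 2 + 1) ^ 2)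

def K3 (n : ℕ) (B : ℝ) : ℝ := 3 + 4 * n ^ 2 * B + Kd n B

theorem Kd0 (n : ℕ) (B : ℝ) : 0 ≤ Kd n B := by
  have := Cc1 2
  unfold Kd
  positivity

theorem sm_d (b : B0 f c) (s : Side f c v γ r m) : Sm (dR f c r) :=
  ContDiff.div (b.sa.pow 2) ((s.sr b).add b.sa) fun p =>
    (add_pos_of_nonneg_of_pos (s.r0 p) (b.a0 p)).ne'

theorem sm_w (b : B0 f c) (s : Side f c v γ r m) : Sm fun p => chR f c r p ^ 2 * dR f c r p :=
  ((sm_ch b (s.sr b)).pow 2).mul (sm_d b s)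

theorem d0 (b : B0 f c) (s : Side f c v γ r m) (p : X2 n) : 0 ≤ dR f c r p :=
  div_nonneg (sq_nonneg _) (add_nonneg (s.r0 p) (b.a0 p).le)

theorem pt (b : B0 f c) (hf : f.Ok) (s : Side f c v γ r m) (k : Crit f c v γ r m A B δ p)
    (w1 : W1 f c C p) (w2 : W2 f c C₂ δ p) (hC : 1 ≤ C) (hB : 1 ≤ B) (hδ : C ^ 2 * δ ≤ 1)
    (hη : 0 ≤ η) (hK : K1 n f.t0 B C ^ 2 * Kd n B * δ ≤ η) {w : X2 n → ℝ}
    (hw : w = fun p => chR f c r p ^ 2 * dR f c r p) :
    w p ^ 2 / (4 * (1 / 2)) + (2 * w p * rho v γ (phi f c) p + w p * dgd v γ (phi f c) p +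
      1 / 2 * dgd v γ w p) ≤ K3 n B * (chR f c r p ^ 2 * al f c p ^ 2) + η * (m p * r p) := by
  have sw : Sm w := hw ▸ sm_w b s
  have mr : 0 ≤ m p * r p := mul_nonneg k.m0 (s.r0 p)
  have k0 := Kd0 n B
  have k3 : 0 ≤ K3 n B := by unfold K3; positivity
  rcases ch_cases b (s.sr b) p with h | hp
  · have h1 : w =ᶠ[𝓝 p] 0 := by
      filter_upwards [h] with q hq
      simp [hw, hq]
    rw [dgd_zero s.s sw h1, h1.eq_of_nhds]
    simp only [Pi.zero_apply]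
    have : 0 ≤ K3 n B * (chR f c r p ^ 2 * al f c p ^ 2) + η * (m p * r p) := by positivity
    linarith
  obtain ⟨R0, Λ1, e1, ha, hr, hc, hc1⟩ := base b hf s k w1 w2 hC hδ hp rfl rfl
  obtain ⟨q1, -, q2, -, -, q4⟩ := k.cr (sR_mono b (by norm_num) hp)
  obtain ⟨e, he⟩ := s.ex
  have ed : dR f c r p = al f c p ^ 2 / (r p + al f c p) := rfl
  generalize hR : r p + al f c p = R at *
  generalize hΛ : al f c p / √R = Λ at *
  have Λ0 : 0 ≤ Λ := by linarith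
  have a0 := b.a0 p
  have r0 := s.r0 p
  have S0 : 0 < √R := Real.sqrt_pos.2 R0
  have e2 : dR f c r p = Λ ^ 2 := by rw [ed, ← hΛ, div_pow, Real.sq_sqrt R0.le]
  have e3 : dR f c r p * R = al f c p ^ 2 := by rw [ed]; field_simp
  have d1 : dR f c r p ≤ al f c p := by rw [ed, div_le_iff₀ R0]; nlinarith
  have d2 : dR f c r p * r p ≤ al f c p ^ 2 := by nlinarith [d0 b s p]
  have d3 : dR f c r p * Λ ^ 2 ≤ al f c p ^ 2 := by rw [← e2]; nlinarith [d0 b s p]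
  have sR' : Sm fun q => r q + al f c q := (s.sr b).add b.sa
  have h1 : SB v 2 ((32 * n ^ 2 * B ^ 2 + 1) * (r p + al f c p)) Λ (fun q => r q + al f c q) p :=
    SbAlg.mono Λ0 (SbAlg.add (s.sr b).contDiffAt b.sa.contDiffAt hr ha) le_rfl
      (by rw [hR]; linarith) le_rfl
  have h2 := sb_inv Λ0 sR' h1 (le_add_of_nonneg_left (by positivity)) (hR ▸ R0)
  have h3 := SbAlg.mul Λ0 (b.sa.pow 2).contDiffAt (sR'.contDiffAt.inv (hR ▸ R0).ne')
    (sb_pow Λ0 b.sa ha 2) h2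
  have h4 : SB v 2 (64 * (Cc 2 * (32 * n ^ 2 * B ^ 2 + 1) ^ 2) * dR f c r p) Λ (dR f c r) p :=
    SbAlg.mono Λ0 (SbAlg.congr (Eventually.of_forall fun q => (div_eq_mul_inv _ _).symm) h3)
      le_rfl (le_of_eq (by rw [ed, hR]; ring)) le_rfl
  have h5 : ∀ K, SB v 2 K Λ (chR f c r) p →
      |dgd v γ w p| ≤ 2 * (K ^ 2 * Kd n B * al f c p ^ 2) := by
    intro K hK
    have h6 := SbAlg.mul Λ0 ((sm_ch b (s.sr b)).pow 2).contDiffAt (sm_d b s).contDiffAt
      (sb_pow Λ0 (sm_ch b (s.sr b)) hK 2) h4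
    rw [← hw] at h6
    refine (dgd_sb s.s sw (s.bv e he one_le_two le_rfl p) Λ1 h6).trans ?_
    have := mul_le_mul_of_nonneg_left d3 (by positivity : 0 ≤ 2 * (K ^ 2 * Kd n B))
    unfold Kd at this ⊢
    linarith
  have h6 : |dgd v γ (phi f c) p| ≤ 4 * n ^ 2 * B * al f c p := by
    refine (dgd_bd s.s b.sφ (s.bv e he one_le_two le_rfl p) (fun j => sb_val (q4 j))
      fun i j => sb_d1 (q4 j) i).trans ?_
    have u1 : √R ≤ al f c p := e1 ▸ le_mul_of_one_le_right S0.le Λ1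
    have u2 := mul_le_mul_of_nonneg_left u1 (by positivity : 0 ≤ (n : ℝ) ^ 2 * B)
    rw [mul_assoc B, e1]
    linarith
  have ew : w p = chR f c r p ^ 2 * dR f c r p := by rw [hw]
  have c0 : 0 ≤ chR f c r p ^ 2 := sq_nonneg _
  have c1 : chR f c r p ^ 2 ≤ 1 := pow_le_one₀ ch0 ch1
  have w0 : 0 ≤ w p := ew ▸ mul_nonneg c0 (d0 b s p)
  have u1 : w p ≤ chR f c r p ^ 2 * al f c p := ew ▸ mul_le_mul_of_nonneg_left d1 c0
  have u2 : w p ≤ al f c p := u1.trans (mul_le_of_le_one_left a0.le c1)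
  have u3 := mul_le_mul u1 u2 w0 (by positivity)
  have u4 := mul_le_mul_of_nonneg_left d2 c0
  have u5 := mul_le_mul_of_nonneg_left (le_of_abs_le h6) w0
  have u6 := mul_le_mul_of_nonneg_right u1 (by positivity : 0 ≤ 4 * (n : ℝ) ^ 2 * B * al f c p)
  have u7 : 1 / 2 * dgd v γ w p ≤ Kd n B * (chR f c r p ^ 2 * al f c p ^ 2) + η * (m p * r p) := by
    by_cases h : p ∈ sR f c r 1
    · have := le_of_abs_le (h5 1 (hc1 h))
      rw [ch_one b h q1]
      nlinarith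
    · have t1 := le_of_abs_le (h5 _ hc)
      have t2 := mul_le_mul_of_nonneg_left (k.off (nr q2) h)
        (by positivity : 0 ≤ K1 n f.t0 B C ^ 2 * Kd n B)
      have t3 := mul_le_mul_of_nonneg_right hK mr
      have t4 : 0 ≤ Kd n B * (chR f c r p ^ 2 * al f c p ^ 2) := by positivity
      linarith
  have u8 : 0 ≤ chR f c r p ^ 2 * al f c p ^ 2 := by positivity
  rw [← s.hr, K3]
  rw [← mul_assoc, ← ew] at u4
  linarith

theorem one (hCI : S_CI) (b : B0 f c) (hf : f.Ok) (s : Side f c v γ r m)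
    (k : ∀ p ∈ Om2 c, Crit f c v γ r m A B δ p ∧ W1 f c C p ∧ W2 f c C₂ δ p) (hC : 1 ≤ C)
    (hB : 1 ≤ B) (hδ : C ^ 2 * δ ≤ 1) (hη : δ ≤ η) (hη0 : 0 ≤ η)
    (hK : K1 n f.t0 B C ^ 2 * Kd n B * δ ≤ η / 2) {u : X2 n → ℝ} (hu : Tst u)
    (hS : tsupport u ⊆ Om2 c) :
    ∫ p in Far f c, dR f c r p * n2 (fun i => Dm (phi f c) (v i) u p) ≤
      (∫ p, Lp' v γ (phi f c) u p ^ 2) +
        2 * K3 n B * (∫ p, chR f c r p ^ 2 * al f c p ^ 2 * u p ^ 2) +
        η * (∫ p, m p * n2 fun i => Dm (phi f c) (v i) u p) + η * ∫ p, m p * r p * u p ^ 2 := by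
  have sc := ((sm_ch b (s.sr b)).pow 2).mul (b.sa.pow 2)
  have sm := s.sm.mul (s.sr b)
  have h1 := ci1 hCI s.s s.y b.sφ hu (sm_w b s) ((sc.cmul (K3 n B)).add (sm.cmul (η / 2))).cont hS
    one_half_pos fun p hp => pt b hf s (k p hp).1 (k p hp).2.1 (k p hp).2.2 hC hB hδ
      (by positivity) hK rfl
  rw [int_lin hu sc.cont sm.cont] at h1
  have hF : MeasurableSet (Far f c) := (isClosed_le continuous_const b.sQ.cont).measurableSet
  have t1 := tst_n2 (v := v) b.sφ hu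
  have t2 := Tst.mul_left (sm_w b s) (tst_q (v := v) s.s b.sφ hu)
  have i1 := ((Tst.mul_left s.sm t1).const_mul η).integrable (μ := volume)
  have i2 := (t2.const_mul 2).integrable (μ := volume)
  have h2 := integral_mono ((Tst.mul_left (sm_d b s) t1).integrable.indicator hF) (i1.add i2)
    fun p => by
      by_cases hp : p ∈ Om2 c
      · have e0 := n2_nonneg fun i => Dm (phi f c) (v i) u p
        have e1 := (s.e p fun i => Dm (phi f c) (v i) u p).1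
        have e2 := mul_nonneg (mul_nonneg hη0 (k p hp).1.m0) e0
        have e3 := mul_le_mul_of_nonneg_left e1 (d0 b s p)
        have e4 := mul_nonneg (mul_nonneg (sq_nonneg (chR f c r p)) (d0 b s p))
          (le_trans (by linarith) e1)
        unfold bil at e1 e3 e4
        simp only [Pi.add_apply]
        by_cases hp' : p ∈ Far f c
        · rw [indicator_of_mem hp']
          by_cases h : p ∈ sR f c r 1
          · rw [ch_one b h ((k p hp).1.cr (sR_mono b (by norm_num) h)).1]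
            linarith
          · have := mul_le_mul_of_nonneg_right (((k p hp).1.far hp' h).trans
              (mul_le_mul_of_nonneg_right hη (k p hp).1.m0)) e0
            linarith
        · rw [indicator_of_notMem hp']
          linarith
      · simp [indicator, n2, Dm_off hS hp]
  rw [integral_indicator hF] at h2
  simp only [Pi.add_apply] at h2
  rw [integral_add i1 i2, integral_const_mul, integral_const_mul] at h2
  linarith

end SL3

open SLT SL3 in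
theorem s_SL3 (h0 : S_w0) (h1 : S_w1) (h2 : S_w2) (h4 : S_w4) (h5 : S_w5) (h6 : S_w6)
    (hCI : S_CI) : S_SL3 := by
  intro n
  obtain ⟨A, -, h5⟩ := h5 n
  obtain ⟨B, hB, h6⟩ := h6 n
  have k0 := Kd0 n B
  have k3 : 1 ≤ 2 * K3 n B := by
    have : 0 ≤ 4 * (n : ℝ) ^ 2 * B := by positivity
    unfold K3
    linarith
  refine ⟨2 * K3 n B, k3, fun ι _ f hf η η0 => ?_⟩
  obtain ⟨C, hC, h1⟩ := h1 n ι f hf
  obtain ⟨C₂, -, h2⟩ := h2 n ι f hf
  obtain ⟨C₄, -, h4⟩ := h4 n ι f hf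
  obtain ⟨C₅, -, h5⟩ := h5 ι f hf
  obtain ⟨C₆, -, h6⟩ := h6 ι f hf
  obtain ⟨δ₁, p1, d1⟩ := small (sq_nonneg C) one_pos
  obtain ⟨δ₂, p2, d2⟩ := small (K := K1 n f.t0 B C ^ 2 * Kd n B) (by positivity) (half_pos η0)
  obtain ⟨δ, δ0, e1, e2, e3⟩ : ∃ δ : ℝ, 0 < δ ∧ δ ≤ δ₁ ∧ δ ≤ δ₂ ∧ δ ≤ η :=
    ⟨min δ₁ (min δ₂ η), by positivity, min_le_left _ _, (min_le_right _ _).trans (min_le_left _ _),
      (min_le_right _ _).trans (min_le_right _ _)⟩
  refine (((((((Ev.ok f one_pos 0).and (h0 n ι f hf)).and h1).and (h2 δ δ0)).and (h4 δ δ0)).and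
    (h5 δ δ0)).and h6).mono ?_
  rintro c ⟨⟨⟨⟨⟨⟨hc, w0⟩, w1⟩, w2⟩, w4⟩, w5⟩, w6⟩ g q hT
  have b := b0 hc w0
  obtain ⟨a1, a2, a3, a4, a5, a6, a7, a8, a9, a10, a11, a12⟩ := quant b g q
  have x := Finset.sum_le_sum fun s (_ : s ∈ Finset.univ) => one hCI b hf (sideX b)
    (fun p hp => ⟨critX b hf (w4 p hp) (w5 p hp).1 (w6 p hp), w1 p hp, w2 p hp⟩) hC hB (d1 δ e1)
    e3 η0.le (d2 δ e2) (supp hT s).1 (supp hT s).2.2.1
  have y := Finset.sum_le_sum fun s (_ : s ∈ Finset.univ) => one hCI b hf (sideY b)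
    (fun p hp => ⟨critY b hf (w4 p hp) (w5 p hp).2 (w6 p hp), w1 p hp, w2 p hp⟩) hC hB (d1 δ e1)
    e3 η0.le (d2 δ e2) (supp hT s).2.1 (supp hT s).2.2.2
  simp only [Finset.sum_add_distrib, ← Finset.mul_sum] at x y
  rw [a7] at x
  rw [a8] at y
  have b1 := mul_le_mul_of_nonneg_right k3 a11
  have b2 := mul_le_mul_of_nonneg_right k3 a12
  have b3 := mul_nonneg η0.le a3
  have b4 := mul_nonneg η0.le a4
  have b5 := mul_nonneg η0.le a5
  have b6 := mul_nonneg η0.le a6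
  rw [← a1, ← a2]
  constructor
  · refine le_trans (le_of_eq rfl) (x.trans ?_)
    change qLX f c g + _ + η * (∑ s, ∫ p, mx f c p * n2 (zx f c (g s) p)) + _ ≤ _
    linarith
  · refine le_trans (le_of_eq rfl) (y.trans ?_)
    change qLY f c q + _ + η * (∑ s, ∫ p, my f c p * n2 (zy f c (q s) p)) + _ ≤ _
    linarith

end Vale.Agent.P088
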