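import Vale.Agent.P088.SLT

/-!
# P088: the cutoff functions at the critical points
-/

open MeasureTheory Set Metric Filter
open scoped ContDiff Topology

noncomputable section
namespace Vale.Agent.P088
open Vale.Agent.P136

namespace SLT

variable {n : ℕ} {ι : Type}

section defs
variable (f : Fx) (c : Cx n ι) (r : X2 n → ℝ)

def chR (p : X2 n) : ℝ := (1 - thI f c p) * cut (r p / Rs f c p)
def sR (ρ : ℝ) : Set (X2 n) := {p | f.t0 ^ 2 / 4 ≤ QQ c p ∧ r p ≤ ρ * Rs f c p}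
def dR (p : X2 n) : ℝ := al f c p ^ 2 / (r p + al f c p)

/-- The global facts, with names. -/
structure B0 : Prop where
  sQ : Sm (QQ c)
  sF : Sm (FF f c)
  sv : Sm (vv f c)
  sP : Sm (Psi f c)
  sa : Sm (al f c)
  sφ : Sm (phi f c)
  sI : Sm (thI f c)
  sR : Sm (Rs f c)
  smx : Sm (mx f c)
  smy : Sm (my f c)
  sgm : ∀ i j, Sm fun p => gm c p i j
  s1 : SmM (onX c.γ₁)
  y1 : SymM (onX c.γ₁)
  s2 : SmM (onY c.γ₂)
  y2 : SymM (onY c.γ₂)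
  ygm : ∀ p i j, gm c p i j = gm c p j i
  b1 : ∀ p i j, SB exy 2 2 1 (onX c.γ₁ i j) p
  b2 : ∀ p i j, SB exy 2 2 1 (onY c.γ₂ i j) p
  zQ : ∀ p, ‖zz p‖ ^ 2 / 2 ≤ QQ c p
  Q0 : ∀ p, 0 ≤ QQ c p
  F0 : ∀ p, 0 < FF f c p
  v1 : ∀ p, 1 ≤ vv f c p
  σ2 : ∀ p, 2 ≤ sig f c p
  a0 : ∀ p, 0 < al f c p
  aA : ∀ p, al f c p ≤ AA f c p
  AH : ∀ p, AA f c p ≤ HX f c p
  vS : ∀ p, vv f c p ≤ SS f c p
  R0 : ∀ p, 0 < Rs f c p
  y0 : ∀ p, 0 ≤ my f c p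
  yx : ∀ p, my f c p ≤ mx f c p
  zt1 : ∀ p, bil (gm c p) (zt c p) (zt c p) = QQ c p
  zt2 : ∀ p ζ, bil (gm c p) (zt c p) ζ = zd p ζ
  inv : ∀ p i j, ∑ l, gm c p i l * Gm c p l j = if i = j then 1 else 0
  yG : ∀ p i j, Gm c p i j = Gm c p j i
  e1 : ∀ p ζ, n2 ζ / 2 ≤ bil (g1 c p) ζ ζ ∧ bil (g1 c p) ζ ζ ≤ 2 * n2 ζ
  e2 : ∀ p ζ, n2 ζ / 2 ≤ bil (g2 c p) ζ ζ ∧ bil (g2 c p) ζ ζ ≤ 2 * n2 ζ
  em : ∀ p ζ, 0 ≤ bil (gm c p) ζ ζ
  I1 : ∀ p, QQ c p < f.t0 ^ 2 → thI f c =ᶠ[𝓝 p] 1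
  I0 : ∀ p, 2 * f.t0 ^ 2 < QQ c p → thI f c =ᶠ[𝓝 p] 0

end defs

variable {f : Fx} {c : Cx n ι} {p : X2 n} {r : X2 n → ℝ}

theorem b0 {L : ℝ} (hc : c.Ok f 1 L) (w : W0 f c) : B0 f c := by
  obtain ⟨⟨-, -, a3, -, a5, -, a7, a8, -, a10, a11, -, -, -, -, -, -, a18, a19, -, -, -, -, -, -,
    -, -, -, -, -, a31, a32, -, -, a35, -, -, -, -, -, -, a42, a43, a44, a45⟩, wx, wp, -, wl⟩ := w
  have Q0 : ∀ p, 0 ≤ QQ c p := fun p => le_trans (by positivity) (wp p).1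
  have F0 : ∀ p, 0 < FF f c p := fun p => (wp p).2.2.1
  have v1 : ∀ p, 1 ≤ vv f c p := fun p => hc.2.1.trans (wp p).2.2.2.1
  have s2 : ∀ p, 2 ≤ sig f c p := fun p => (wp p).2.2.2.2.1
  have f0 : ∀ p, 0 ≤ fp f c p := fun p => (wp p).2.2.2.2.2.2.2.2.2.2.2.1
  have L0 : ∀ x, 0 ≤ LX f c x := fun x => (zero_le_one.trans hc.2.1).trans (wx x).2.1
  have e := fun p => (wp p).2.2.2.2.2.2.2.2.2.2.2.2
  refine ⟨a5, a7, a8, a10, a11, a18, a19, a35, a31, a32, a3, a42, a43, a44, a45,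
    fun p i j => congrFun (hc.2.2.2.2.2.2.2.2.2.1 i j) _, sb_g1 hc, sb_g2 hc, fun p => (wp p).1,
    Q0, F0, v1, s2, fun p => mul_pos (F0 p) (by linarith [s2 p]), fun p => ?_, fun p => ?_,
    fun p => le_add_of_nonneg_right (L0 _), fun p => (e p).1, fun p => ?_,
    fun p => le_add_of_nonneg_right (f0 p), fun p => (e p).2.1, fun p => (e p).2.2.1,
    fun p => (e p).2.2.2.1, fun p => (e p).2.2.2.2.1,
    fun p ζ => ⟨((e p).2.2.2.2.2 ζ).1, ((e p).2.2.2.2.2 ζ).2.1⟩,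
    fun p ζ => ⟨((e p).2.2.2.2.2 ζ).2.2.1, ((e p).2.2.2.2.2 ζ).2.2.2.1⟩,
    fun p ζ => le_trans (by linarith [n2_nonneg ζ]) ((e p).2.2.2.2.2 ζ).2.2.2.2.1,
    fun p h => ((wl p).2.1 h).2, fun p h => (wl p).2.2.2.1 h⟩
  · exact mul_le_mul_of_nonneg_left (by nlinarith [s2 p]) (F0 p).le
  · exact le_add_of_nonneg_right (mul_nonneg (f0 p) (add_nonneg (by linarith [v1 p]) (L0 _)))
  · exact mul_nonneg (mul_nonneg (Q0 p) (F0 p).le) (by linarith [v1 p])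

theorem ch0 : 0 ≤ chR f c r p := mul_nonneg (sub_nonneg.2 (cut1 _)) (cut0 _)

theorem ch1 : chR f c r p ≤ 1 :=
  mul_le_one₀ (sub_le_self _ (cut0 _)) (cut0 _) (cut1 _)

theorem sm_div (b : B0 f c) (hr : Sm r) : Sm fun p => r p / Rs f c p :=
  ContDiff.div hr b.sR fun p => (b.R0 p).ne'

theorem sm_ch (b : B0 f c) (hr : Sm r) : Sm (chR f c r) :=
  ((Sm.const 1).sub b.sI).mul (SbComp.cut_smooth.comp (sm_div b hr))

theorem sR_mono (b : B0 f c) {ρ ρ' : ℝ} (h : ρ ≤ ρ') (hp : p ∈ sR f c r ρ) : p ∈ sR f c r ρ' :=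
  ⟨hp.1, hp.2.trans (mul_le_mul_of_nonneg_right h (b.R0 p).le)⟩

theorem closed_sR (b : B0 f c) (hr : Sm r) (ρ : ℝ) : IsClosed (sR f c r ρ) :=
  (isClosed_le continuous_const b.sQ.cont).inter (isClosed_le hr.cont (b.sR.cmul ρ).cont)

theorem ch_one (b : B0 f c) (hp : p ∈ sR f c r 1) (hQ : 2 * f.t0 ^ 2 < QQ c p) :
    chR f c r p = 1 := by
  rw [chR, (b.I0 p hQ).eq_of_nhds, cut_one ((div_le_iff₀ (b.R0 p)).2 hp.2)]
  simp

theorem ch_small (b : B0 f c) (hQ : QQ c p < f.t0 ^ 2) : chR f c r =ᶠ[𝓝 p] 0 := by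
  filter_upwards [b.I1 p hQ] with q hq
  simp [chR, hq]

theorem ch_cases (b : B0 f c) (hr : Sm r) (p : X2 n) : chR f c r =ᶠ[𝓝 p] 0 ∨ p ∈ sR f c r 2 := by
  by_cases hQ : QQ c p < f.t0 ^ 2
  · exact Or.inl (ch_small b hQ)
  by_cases h2 : 2 < r p / Rs f c p
  · left
    filter_upwards [(sm_div b hr).cont.continuousAt.eventually (lt_mem_nhds h2)] with q hq
    simp [chR, cut_zero hq.le]
  · exact Or.inr ⟨by nlinarith [sq_nonneg f.t0], (div_le_iff₀ (b.R0 p)).1 (not_lt.1 h2)⟩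

theorem ch_loc (b : B0 f c) (hQ : 2 * f.t0 ^ 2 < QQ c p) :
    (fun q => cut (r q / Rs f c q)) =ᶠ[𝓝 p] chR f c r := by
  filter_upwards [b.I0 p hQ] with q hq
  simp [chR, hq]

/-- Dividing the cutoff by a function that vanishes only on the diagonal. -/
theorem sm_quot (ht : 0 < f.t0) {g h : X2 n → ℝ} (hg : Sm g) (hh : Sm h)
    (h0 : ∀ p, QQ c p < f.t0 ^ 2 → g =ᶠ[𝓝 p] 0) (h1 : ∀ p, 0 < QQ c p → h p ≠ 0) :
    Sm fun p => g p / h p := by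
  refine contDiff_iff_contDiffAt.2 fun p => ?_
  by_cases hQ : QQ c p < f.t0 ^ 2
  · refine (contDiffAt_const (c := (0 : ℝ))).congr_of_eventuallyEq ?_
    filter_upwards [h0 p hQ] with q hq
    simp [hq]
  · exact hg.contDiffAt.div hh.contDiffAt (h1 p (lt_of_lt_of_le (by positivity) (not_lt.1 hQ)))

theorem t1_le (hf : f.Ok) : f.t1 ^ 2 ≤ 1 := by
  obtain ⟨-, h1, -, -, -, -, -, -, h2, h3, h4, -⟩ := hf
  nlinarith

theorem t0_pos (hf : f.Ok) : 0 < f.t0 := hf.2.2.2.2.2.2.2.2.1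

theorem al_le (b : B0 f c) (hf : f.Ok) (hσ : sig f c p ≤ 3 + 8 * vv f c p * √(QQ c p))
    (hQ : QQ c p < f.t1 ^ 2) : al f c p ≤ 11 / f.t0 ^ 2 * Rs f c p := by
  have t0 := t0_pos hf
  have h1 : √(QQ c p) ≤ 1 := Real.sqrt_le_one.2 (hQ.le.trans (t1_le hf))
  have v1 := b.v1 p
  have h2 : vv f c p ≤ vv f c p ^ 6 := le_self_pow₀ v1 (by norm_num)
  have h3 : sig f c p ≤ 11 * vv f c p ^ 6 := by nlinarith
  have h4 := mul_le_mul_of_nonneg_left h3 (b.F0 p).le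
  rw [al, Rs, show 11 / f.t0 ^ 2 * (FF f c p * f.t0 ^ 2 * vv f c p ^ 6) =
    FF f c p * (11 * vv f c p ^ 6) by field_simp]
  exact h4

theorem sb_Rs {C : ℝ} (b : B0 f c) (w : W1 f c C p) :
    SB exy 2 ((4 * C) ^ 7 * Rs f c p) (vv f c p) (Rs f c) p := by
  have v0 : 0 ≤ vv f c p := zero_le_one.trans (b.v1 p)
  have h1 := SbAlg.cmul b.sF.contDiffAt (SbAlg.mono v0 w.1 (by norm_num : 2 ≤ 6) le_rfl le_rfl)
    (f.t0 ^ 2)
  have h2 := sb_pow v0 b.sv (SbAlg.mono v0 w.2.1 (by norm_num : 2 ≤ 6) le_rfl le_rfl) 6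
  have h3 := SbAlg.mul v0 (b.sF.cmul _).contDiffAt (b.sv.pow 6).contDiffAt h1 h2
  refine SbAlg.mono v0 (SbAlg.congr (Eventually.of_forall fun q => ?_) h3) le_rfl (le_of_eq ?_)
    le_rfl
  · simp only [Rs]
    ring
  · rw [abs_of_nonneg (sq_nonneg _), Rs]
    ring

/-- The constant in the bound for the cutoff. -/
def Kc (B C : ℝ) : ℝ := Cc 2 * (4 * B * (Cc 2 * ((4 * C) ^ 7) ^ 2)) ^ 2

theorem Kc1 {B C : ℝ} (hB : 1 ≤ B) (hC : 1 ≤ C) :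
    1 ≤ 4 * B * (Cc 2 * ((4 * C) ^ 7) ^ 2) ∧ 1 ≤ Kc B C := by
  have h : 1 ≤ 4 * B * (Cc 2 * ((4 * C) ^ 7) ^ 2) :=
    one_le_mul_of_one_le_of_one_le (by linarith) (one_le_mul_of_one_le_of_one_le (Cc1 2)
      (one_le_pow₀ (one_le_pow₀ (by linarith))))
  exact ⟨h, one_le_mul_of_one_le_of_one_le (Cc1 2) (one_le_pow₀ h)⟩

theorem sb_ch {B C L : ℝ} {u : Fin n → X2 n} (b : B0 f c) (w : W1 f c C p) (hB : 1 ≤ B)
    (hC : 1 ≤ C) (e : Fin n → Fin n ⊕ Fin n) (he : ∀ i, u i = exy (e i)) (hL : vv f c p ≤ L)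
    (hr : Sm r) (h : SB u 2 (B * Rs f c p) L r p) (hQ : 2 * f.t0 ^ 2 < QQ c p) :
    SB u 2 (Kc B C) L (chR f c r) p ∧ (p ∈ sR f c r 1 → SB u 2 1 L (chR f c r) p) := by
  have v0 : 0 ≤ vv f c p := zero_le_one.trans (b.v1 p)
  have L0 := v0.trans hL
  have R0 := b.R0 p
  have h1 := sb_inv L0 b.sR (SbAlg.mono v0 (sb_res e he (sb_Rs b w)) le_rfl le_rfl hL)
    (one_le_pow₀ (by linarith)) R0
  have h2 := SbAlg.mul L0 hr.contDiffAt (b.sR.contDiffAt.inv R0.ne') h h1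
  have h3 : SB u 2 (4 * B * (Cc 2 * ((4 * C) ^ 7) ^ 2)) L (fun q => r q / Rs f c q) p :=
    SbAlg.mono L0 (SbAlg.congr (Eventually.of_forall fun q => (div_eq_mul_inv _ _).symm) h2)
      le_rfl (le_of_eq (by
        field_simp
        ring)) le_rfl
  exact ⟨SbAlg.congr (ch_loc b hQ) (sb_cut L0 (sm_div b hr).contDiffAt h3 (Kc1 hB hC).1),
    fun hp => SbAlg.congr (ch_loc b hQ) (sb_cut1 L0 (sm_div b hr).contDiffAt h3
      ((div_le_iff₀ R0).2 hp.2))⟩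

theorem nr (h : p ∉ Nr f c 16) : p ∉ Nr f c 1 := fun h' =>
  h (le_trans (show QQ c p ^ 2 * FF f c p ≤ 1 from h') (by norm_num))

/-- The facts about the variable in which the gradient may be small. -/
structure Crit (f : Fx) (c : Cx n ι) (v : Fin n → X2 n) (γ : Fin n → Fin n → X2 n → ℝ)
    (r m : X2 n → ℝ) (A B δ : ℝ) (p : X2 n) : Prop where
  m0 : 0 ≤ m p
  cr : p ∈ sR f c r 4 → 2 * f.t0 ^ 2 < QQ c p ∧ QQ c p < f.t1 ^ 2 ∧ p ∉ Nr f c 16 ∧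
    (∀ i j, |D (v i) (D (v j) (phi f c)) p -
      al f c p * (Gm c p i j - zt c p i * zt c p j / QQ c p)| ≤ (δ + A * f.tau) * al f c p) ∧
    vv f c p ^ 8 * (r p + al f c p) ≤ δ * al f c p ^ 2 ∧
    ∀ i, SB v 4 (B * √(r p + al f c p)) (al f c p / √(r p + al f c p)) (D (v i) (phi f c)) p
  off : p ∉ Nr f c 1 → p ∉ sR f c r 1 → al f c p ^ 2 ≤ δ * m p * r p
  far : p ∈ Far f c → p ∉ sR f c r 1 → dR f c r p ≤ δ * m p

/-- The global facts about one of the two variables. -/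
structure Side (f : Fx) (c : Cx n ι) (v : Fin n → X2 n) (γ : Fin n → Fin n → X2 n → ℝ)
    (r m : X2 n → ℝ) : Prop where
  ex : ∃ e : Fin n → Fin n ⊕ Fin n, (∀ i, v i = exy (e i))
  s : SmM γ
  y : SymM γ
  b : ∀ p i j, SB exy 2 2 1 (γ i j) p
  hr : r = rho v γ (phi f c)
  sm : Sm m
  e : ∀ p ζ, n2 ζ / 2 ≤ bil (fun i j => γ i j p) ζ ζ ∧ bil (fun i j => γ i j p) ζ ζ ≤ 2 * n2 ζ

theorem sideX (b : B0 f c) : Side f c ex (onX c.γ₁) (rx f c) (mx f c) :=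
  ⟨⟨Sum.inl, fun _ => rfl⟩, b.s1, b.y1, b.b1, rfl, b.smx, b.e1⟩

theorem sideY (b : B0 f c) : Side f c ey (onY c.γ₂) (ry f c) (my f c) :=
  ⟨⟨Sum.inr, fun _ => rfl⟩, b.s2, b.y2, b.b2, rfl, b.smy, b.e2⟩

variable {v : Fin n → X2 n} {γ : Fin n → Fin n → X2 n → ℝ} {m : X2 n → ℝ}

theorem Side.sr (s : Side f c v γ r m) (b : B0 f c) : Sm r := s.hr ▸ IdT.sm_rho s.s b.sφ

theorem Side.r0 (s : Side f c v γ r m) (p : X2 n) : 0 ≤ r p := by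
  rw [s.hr, rho_eq]
  exact le_trans (by linarith [n2_nonneg fun i => D (v i) (phi f c) p]) (s.e p _).1

theorem Side.bv (s : Side f c v γ r m) {u : Fin n → X2 n} (e : Fin n → Fin n ⊕ Fin n)
    (he : ∀ i, u i = exy (e i)) {k : ℕ} (hk : k ≤ 2) {L : ℝ} (hL : 1 ≤ L) (p : X2 n)
    (i j : Fin n) : SB u k 2 L (γ i j) p :=
  SbAlg.mono zero_le_one (sb_res e he (s.b p i j)) hk le_rfl hL

theorem critX {A B C₄ C₅ C₆ δ : ℝ} (b : B0 f c) (hf : f.Ok) (w4 : W4 f c C₄ δ p)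
    (w5 : W5x f c A C₅ δ p) (w6 : W6 f c B C₆ p) :
    Crit f c ex (onX c.γ₁) (rx f c) (mx f c) A B δ p := by
  have t0 := t0_pos hf
  refine ⟨(b.y0 p).trans (b.yx p), fun h => ?_, fun h1 h2 => ?_,
    fun h1 h2 => ((w4.2.2.1 h1).1 h2).2.1⟩
  · obtain ⟨e1, e2, -, e3, -, -, e4, -, -, e5, -⟩ := w5 h
    exact ⟨e1, e2, e3, e4, e5, fun i => ((w6 (show f.t0 ^ 2 ≤ QQ c p by nlinarith) i).2.1 h).2⟩
  · exact (pow_le_pow_left₀ (b.a0 p).le ((b.aA p).trans (b.AH p)) 2).trans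
      ((w4.2.1 h1).1 h2).1

theorem critY {A B C₄ C₅ C₆ δ : ℝ} (b : B0 f c) (hf : f.Ok) (w4 : W4 f c C₄ δ p)
    (w5 : W5y f c A C₅ δ p) (w6 : W6 f c B C₆ p) :
    Crit f c ey (onY c.γ₂) (ry f c) (my f c) A B δ p := by
  have t0 := t0_pos hf
  refine ⟨b.y0 p, fun h => ?_, fun h1 h2 => ?_, fun h1 h2 => ((w4.2.2.1 h1).2 h2).2⟩
  · obtain ⟨e1, e2, e3, e4, -, -, e5, -⟩ := w5 h
    exact ⟨e1, e2, e3, e4, e5, fun i => ((w6 (show f.t0 ^ 2 ≤ QQ c p by nlinarith) i).2.2 h).2⟩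
  · exact (pow_le_pow_left₀ (b.a0 p).le (b.aA p) 2).trans ((w4.2.1 h1).2.1 h2).1

/-- The constant for the cutoff in its own variable. -/
def K1 (n : ℕ) (t B C : ℝ) : ℝ := Kc (1 + 32 * n ^ 2 * B ^ 2 * (2 + 11 / t ^ 2)) C

theorem K1_one (n : ℕ) (t B : ℝ) {C : ℝ} (hC : 1 ≤ C) : 1 ≤ K1 n t B C :=
  (Kc1 (le_add_of_nonneg_right (by positivity)) hC).2

/-- The symbol bounds on the support of the cutoff. -/
theorem base {A B C C₂ δ : ℝ} (b : B0 f c) (hf : f.Ok) (s : Side f c v γ r m)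
    (k : Crit f c v γ r m A B δ p) (w1 : W1 f c C p) (w2 : W2 f c C₂ δ p) (hC : 1 ≤ C)
    (hδ : C ^ 2 * δ ≤ 1) (hp : p ∈ sR f c r 2) {R Λ : ℝ} (hR : R = r p + al f c p)
    (hΛ : Λ = al f c p / √R) :
    0 < R ∧ 1 ≤ Λ ∧ √R * Λ = al f c p ∧ SB v 2 (al f c p) Λ (al f c) p ∧
      SB v 2 (32 * n ^ 2 * B ^ 2 * R) Λ r p ∧ SB v 2 (K1 n f.t0 B C) Λ (chR f c r) p ∧
      (p ∈ sR f c r 1 → SB v 2 1 Λ (chR f c r) p) := by
  obtain ⟨e, he⟩ := s.ex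
  obtain ⟨q1, q2, -, -, q3, q4⟩ := k.cr (sR_mono b (by norm_num) hp)
  rw [← hR] at q3 q4
  rw [← hΛ] at q4
  have a0 := b.a0 p
  have v1 := b.v1 p
  have R0 : 0 < R := hR ▸ add_pos_of_nonneg_of_pos (s.r0 p) a0
  have S0 : 0 < √R := Real.sqrt_pos.2 R0
  have e1 : √R * Λ = al f c p := by rw [hΛ]; field_simp
  have hv : C * vv f c p ≤ Λ := by
    rw [hΛ, le_div_iff₀ S0]
    refine le_of_sq_le_sq ?_ a0.le
    have h1 : vv f c p ^ 2 * R ≤ vv f c p ^ 8 * R :=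
      mul_le_mul_of_nonneg_right (pow_le_pow_right₀ v1 (by norm_num)) R0.le
    have h2 := mul_le_mul_of_nonneg_left (h1.trans q3) (sq_nonneg C)
    have h3 := mul_le_mul_of_nonneg_right hδ (sq_nonneg (al f c p))
    rw [mul_pow, mul_pow, Real.sq_sqrt R0.le]
    linarith
  have vΛ : vv f c p ≤ Λ := (le_mul_of_one_le_left (by linarith) hC).trans hv
  have Λ1 := v1.trans vΛ
  have Λ0 : 0 ≤ Λ := by linarith
  have hr : SB v 2 (32 * n ^ 2 * B ^ 2 * R) Λ r p := by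
    have := sb_rho Λ0 s.s b.sφ (s.bv e he le_rfl Λ1 p)
      fun i => SbAlg.mono Λ0 (q4 i) (by norm_num : 2 ≤ 4) le_rfl le_rfl
    rw [mul_pow, Real.sq_sqrt R0.le, ← mul_assoc, ← s.hr] at this
    exact this
  have hRs : R ≤ (2 + 11 / f.t0 ^ 2) * Rs f c p := by
    have := al_le b hf w2.2.2.2.2.1 q2
    linarith [hp.2]
  have hc := sb_ch (B := 1 + 32 * n ^ 2 * B ^ 2 * (2 + 11 / f.t0 ^ 2)) b w1
    (le_add_of_nonneg_right (by positivity)) hC e he vΛ (s.sr b) (SbAlg.mono Λ0 hr le_rfl (by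
      have := mul_le_mul_of_nonneg_left hRs (by positivity : 0 ≤ 32 * (n : ℝ) ^ 2 * B ^ 2)
      linarith [b.R0 p]) le_rfl) q1
  exact ⟨R0, Λ1, e1, sb_resc (SbAlg.mono (by linarith) (sb_res e he w1.2.2.2.1) (by norm_num)
    le_rfl le_rfl) (abs_of_pos a0).le hC (by linarith) hv, hr, hc.1, hc.2⟩

theorem small {K η : ℝ} (hK : 0 ≤ K) (hη : 0 < η) : ∃ δ : ℝ, 0 < δ ∧ ∀ δ', δ' ≤ δ → K * δ' ≤ η :=
  ⟨η / (K + 1), by positivity, fun δ' h => (mul_le_mul_of_nonneg_left h hK).trans (by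
    rw [← mul_div_assoc, div_le_iff₀ (by positivity)]
    nlinarith)⟩

/-- The integrated quantities as sums of integrals over the whole space. -/
theorem quant [Fintype ι] (b : B0 f c) (g q : ι → X2 n → ℝ) :
    (∑ s, ∫ p, mx f c p * n2 (zx f c (g s) p)) + (∑ s, ∫ p, my f c p * n2 (zy f c (q s) p)) =
      A1 f c g q ∧
    (∑ s, ∫ p, mx f c p * rx f c p * g s p ^ 2) + (∑ s, ∫ p, my f c p * ry f c p * q s p ^ 2) =
      Gn f c g q ∧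
    (0 ≤ ∑ s, ∫ p, mx f c p * n2 (zx f c (g s) p)) ∧
    (0 ≤ ∑ s, ∫ p, my f c p * n2 (zy f c (q s) p)) ∧
    (0 ≤ ∑ s, ∫ p, mx f c p * rx f c p * g s p ^ 2) ∧
    (0 ≤ ∑ s, ∫ p, my f c p * ry f c p * q s p ^ 2) ∧
    (∑ s, ∫ p, chR f c (rx f c) p ^ 2 * al f c p ^ 2 * g s p ^ 2) = Sx f c g ∧
    (∑ s, ∫ p, chR f c (ry f c) p ^ 2 * al f c p ^ 2 * q s p ^ 2) = Sy f c q ∧
    0 ≤ Sx f c g ∧ 0 ≤ Sy f c q ∧ 0 ≤ qLX f c g ∧ 0 ≤ qLY f c q := by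
  have x0 : ∀ p, 0 ≤ mx f c p := fun p => (b.y0 p).trans (b.yx p)
  refine ⟨?_, ?_, ?_, ?_, ?_, ?_, ?_, ?_, ?_, ?_, ?_, ?_⟩
  · simp only [A1, IX, IY, Measure.restrict_univ]
  · simp only [Gn, I0, Measure.restrict_univ]
  · exact Finset.sum_nonneg fun s _ => integral_nonneg fun p => mul_nonneg (x0 p) (n2_nonneg _)
  · exact Finset.sum_nonneg fun s _ => integral_nonneg fun p => mul_nonneg (b.y0 p) (n2_nonneg _)
  · exact Finset.sum_nonneg fun s _ => integral_nonneg fun p =>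
      mul_nonneg (mul_nonneg (x0 p) ((sideX b).r0 p)) (sq_nonneg _)
  · exact Finset.sum_nonneg fun s _ => integral_nonneg fun p =>
      mul_nonneg (mul_nonneg (b.y0 p) ((sideY b).r0 p)) (sq_nonneg _)
  · simp only [Sx, I0, Measure.restrict_univ]
    rfl
  · simp only [Sy, I0, Measure.restrict_univ]
    rfl
  · exact Finset.sum_nonneg fun s _ => integral_nonneg fun p => by positivity
  · exact Finset.sum_nonneg fun s _ => integral_nonneg fun p => by positivity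
  · exact Finset.sum_nonneg fun s _ => integral_nonneg fun p => by positivity
  · exact Finset.sum_nonneg fun s _ => integral_nonneg fun p => by positivity

theorem supp [Fintype ι] {g q : ι → X2 n → ℝ} (h : TT f c g q) (s : ι) :
    Tst (g s) ∧ Tst (q s) ∧ tsupport (g s) ⊆ Om2 c ∧ tsupport (q s) ⊆ Om2 c :=
  ⟨(h.1 s).1, (h.1 s).2.1, fun _ hp => ((h.1 s).2.2.1 hp).1, fun _ hp => ((h.1 s).2.2.2 hp).1⟩

end SLT

end Vale.Agent.P088
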