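import Vale.Agent.P088.StI
import Vale.Agent.P088.SbLin
import Vale.Agent.P088.SbComp
import Vale.Agent.P088.IdTool

/-!
# P088: tools for the estimates at the critical points
-/

open MeasureTheory Set Metric Filter
open scoped ContDiff Topology

noncomputable section
namespace Vale.Agent.P088
open Vale.Agent.P136

namespace SLT

theorem abs_sum_le {m : ℕ} {a : Fin m → ℝ} {A : ℝ} (ha : ∀ i, |a i| ≤ A) :
    |∑ i, a i| ≤ m * A :=
  (Finset.abs_sum_le_sum_abs _ _).trans ((Finset.sum_le_sum fun i _ => ha i).trans (by simp))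

theorem abs_mul_le {a b A B : ℝ} (ha : |a| ≤ A) (hb : |b| ≤ B) : |a * b| ≤ A * B := by
  rw [abs_mul]
  exact mul_le_mul ha hb (abs_nonneg _) ((abs_nonneg _).trans ha)

theorem n2_nonneg {n : ℕ} (ζ : Fin n → ℝ) : 0 ≤ n2 ζ := Finset.sum_nonneg fun _ _ => sq_nonneg _

theorem sq_le_n2 {n : ℕ} (ζ : Fin n → ℝ) (i : Fin n) : ζ i ^ 2 ≤ n2 ζ :=
  Finset.single_le_sum (f := fun i => ζ i ^ 2) (fun _ _ => sq_nonneg _) (Finset.mem_univ i)

/-- The Cauchy-Schwarz inequality for a nonnegative symmetric matrix. -/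
theorem cs {n : ℕ} {g : Fin n → Fin n → ℝ} (hs : ∀ i j, g i j = g j i)
    (h0 : ∀ ζ, 0 ≤ bil g ζ ζ) (a b : Fin n → ℝ) : bil g a b ^ 2 ≤ bil g a a * bil g b b := by
  have e : ∑ k, (∑ i, (g i k + g k i) * b i) * a k = 2 * bil g a b := by
    simp only [bil, Finset.mul_sum, Finset.sum_mul]
    exact Finset.sum_congr rfl fun k _ => Finset.sum_congr rfl fun i _ => by
      rw [hs i k]; ring
  have h := discrim_le_zero (a := bil g a a) (b := 2 * bil g a b) (c := bil g b b) fun s => by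
    have h1 := h0 fun i => s * a i + b i * 1
    unfold bil at h1
    rw [IdT.quad_expand, e] at h1
    unfold bil at h1 ⊢
    linarith
  unfold discrim at h
  linarith

section sb
variable {X : Type} [NormedAddCommGroup X] [NormedSpace ℝ X] {κ : Type} {v : κ → X} {p : X}
  {k : ℕ} {w L : ℝ} {F : X → ℝ}

theorem sb_res {κ' : Type} {v' : κ' → X} (e : κ' → κ) (he : ∀ i, v' i = v (e i))
    (h : SB v k w L F p) : SB v' k w L F p := by
  intro l hl
  have e1 : Ds v' l F = Ds v (l.map e) F := by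
    unfold Ds
    rw [List.foldr_map]
    simp only [he]
  rw [e1, ← List.length_map e]
  exact h _ (by rwa [List.length_map])

theorem sb_val (h : SB v k w L F p) : |F p| ≤ w := (h [] (Nat.zero_le k)).trans_eq (by simp)

theorem sb_d1 (h : SB v (k + 1) w L F p) (i : κ) : |D (v i) F p| ≤ w * L :=
  sb_val (SbAlg.deriv i h)

theorem sb_d2 (h : SB v (k + 2) w L F p) (i j : κ) : |D (v i) (D (v j) F) p| ≤ w * L * L :=
  sb_d1 (SbAlg.deriv j h) i

theorem sb_succ (h0 : |F p| ≤ w) (h : ∀ i, SB v k (w * L) L (D (v i) F) p) :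
    SB v (k + 1) w L F p := SbComp.sb_of h0 (SbComp.sb1_succ h)

theorem sb_zero (h0 : |F p| ≤ w) : SB v 0 w L F p :=
  SbComp.sb_of h0 fun _ h1 h2 => absurd (List.length_eq_zero_iff.1 (Nat.le_zero.1 h2)) h1

theorem sb_one (h0 : |F p| ≤ w) (h : ∀ i, |D (v i) F p| ≤ w * L) : SB v 1 w L F p :=
  sb_succ h0 fun i => sb_zero (h i)

theorem sb_sb1 (h : SB v k w L F p) : SB1 v k w L F p := fun l _ hl => h l hl

theorem sb_resc {C L' : ℝ} (h : SB v k (C * w) L F p) (h0 : |F p| ≤ w) (hC : 1 ≤ C) (hL : 0 ≤ L)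
    (hL' : C * L ≤ L') : SB v k w L' F p := by
  refine SbComp.sb_of h0 fun l h1 h2 => (h l h2).trans ?_
  have w0 := (abs_nonneg _).trans h0
  obtain ⟨m, hm⟩ : ∃ m, l.length = m + 1 := Nat.exists_eq_succ_of_ne_zero (by simpa using h1)
  have e1 : C * L ^ (m + 1) ≤ (C * L) ^ (m + 1) := by
    rw [mul_pow]
    exact mul_le_mul_of_nonneg_right (le_self_pow₀ hC (by simp)) (by positivity)
  have e2 : (C * L) ^ (m + 1) ≤ L' ^ (m + 1) := pow_le_pow_left₀ (by positivity) hL' _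
  rw [hm]
  nlinarith

theorem sb_pow (hL : 0 ≤ L) (hF : Sm F) (h : SB v k w L F p) (m : ℕ) :
    SB v k ((2 ^ k * w) ^ m) L (fun q => F q ^ m) p := by
  induction m with
  | zero => simpa using SbAlg.const (v := v) (k := k) (p := p) hL 1
  | succ m ih =>
    have := SbAlg.mul hL (hF.pow m).contDiffAt hF.contDiffAt ih h
    simp only [← pow_succ] at this
    exact SbAlg.mono hL this le_rfl (by ring_nf; rfl) le_rfl

/-- The constant of the composition rule. -/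
def Cc (k : ℕ) : ℝ := (s_sbComp s_sbAlg k).choose

theorem Cc1 (k : ℕ) : 1 ≤ Cc k := (s_sbComp s_sbAlg k).choose_spec.1

theorem sb_inv {B : ℝ} (hL : 0 ≤ L) (hF : Sm F) (h : SB v k (B * F p) L F p) (hB : 1 ≤ B)
    (h0 : 0 < F p) : SB v k (Cc k * B ^ k / F p) L (fun q => (F q)⁻¹) p :=
  (((s_sbComp s_sbAlg k).choose_spec.2 X κ v L _ p F hL hF.contDiffAt (sb_sb1 h)).2.2.1 B hB h0
    le_rfl).1

theorem sb_cut {B : ℝ} (hL : 0 ≤ L) (hF : ContDiffAt ℝ ∞ F p) (h : SB v k B L F p) (hB : 1 ≤ B) :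
    SB v k (Cc k * B ^ k) L (fun q => cut (F q)) p :=
  ((s_sbComp s_sbAlg k).choose_spec.2 X κ v L _ p F hL hF (sb_sb1 h)).2.2.2 B hB le_rfl

theorem cut0 (s : ℝ) : 0 ≤ cut s := Real.smoothTransition.nonneg _

theorem cut1 (s : ℝ) : cut s ≤ 1 := Real.smoothTransition.le_one _

theorem cut_one {s : ℝ} (h : s ≤ 1) : cut s = 1 :=
  Real.smoothTransition.one_of_one_le (by linarith)

theorem cut_zero {s : ℝ} (h : 2 ≤ s) : cut s = 0 :=
  Real.smoothTransition.zero_of_nonpos (by linarith)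

theorem cut_flat (j : ℕ) {y : ℝ} (hy : y ≤ 1) : iteratedDeriv (j + 1) cut y = 0 := by
  have hc : IsClosed {y | iteratedDeriv (j + 1) cut y = 0} :=
    isClosed_eq (SbComp.cut_smooth.continuous_iteratedDeriv _ (by exact_mod_cast le_top))
      continuous_const
  have hs : Iio (1 : ℝ) ⊆ {y | iteratedDeriv (j + 1) cut y = 0} := fun y hy => by
    have : cut =ᶠ[𝓝 y] fun _ => 1 := by
      filter_upwards [Iio_mem_nhds hy] with z hz using cut_one (le_of_lt hz)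
    change iteratedDeriv (j + 1) cut y = 0
    rw [this.iteratedDeriv_eq, iteratedDeriv_const]
    simp
  have := closure_minimal hs hc
  rw [closure_Iio] at this
  exact this hy

theorem sb_cut1 (hL : 0 ≤ L) (hF : ContDiffAt ℝ ∞ F p) (h : SB v k w L F p) (h1 : F p ≤ 1) :
    SB v k 1 L (fun q => cut (F q)) p := by
  obtain ⟨C, -, hC⟩ := SbComp.main s_sbAlg k
  refine SbComp.sb_of (by rw [abs_of_nonneg (cut0 _)]; exact cut1 _) (SbComp.sb1_mono
    (hC X κ v L w p F hL hF (sb_sb1 h) cut 0 SbComp.cut_smooth.contDiffAt le_rfl fun j _ => ?_)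
    hL le_rfl (by simp))
  simp [cut_flat j h1]

variable {n : ℕ} {u : Fin n → X} {a : Fin n → Fin n → X → ℝ} {φ : X → ℝ}

theorem dgd_eq (ha : SmM a) (hφ : Sm φ) (p : X) : dgd u a φ p =
    ∑ i, ∑ j, (a i j p * D (u i) (D (u j) φ) p + D (u i) (a i j) p * D (u j) φ p) := by
  unfold dgd dvg XX
  refine Finset.sum_congr rfl fun i _ => ?_
  rw [D_sum_at _ fun j _ => ((ha i j).mul (hφ.D _)).dAt p]
  exact Finset.sum_congr rfl fun j _ => D_mul_at ((ha i j).dAt p) ((hφ.D _).dAt p) _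

theorem dgd_bd {A h : ℝ} (ha : SmM a) (hφ : Sm φ) (hb : ∀ i j, SB u 1 A L (a i j) p)
    (h1 : ∀ j, |D (u j) φ p| ≤ w) (h2 : ∀ i j, |D (u i) (D (u j) φ) p| ≤ h) :
    |dgd u a φ p| ≤ n ^ 2 * (A * h + A * L * w) := by
  rw [dgd_eq ha hφ, sq, mul_assoc]
  exact abs_sum_le fun i => abs_sum_le fun j => (abs_add_le _ _).trans
    (add_le_add (abs_mul_le (sb_val (hb i j)) (h2 i j)) (abs_mul_le (sb_d1 (hb i j) i) (h1 j)))

theorem dgd_sb (ha : SmM a) (hφ : Sm φ) (hb : ∀ i j, SB u 1 2 1 (a i j) p) (hL : 1 ≤ L)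
    (h : SB u 2 w L φ p) : |dgd u a φ p| ≤ 4 * n ^ 2 * (w * L ^ 2) := by
  refine (dgd_bd ha hφ hb (sb_d1 h) (sb_d2 h)).trans ?_
  have w0 := SbAlg.nonneg h
  have : w * L ≤ w * L * L := le_mul_of_one_le_right (by positivity) hL
  have := mul_le_mul_of_nonneg_left this (sq_nonneg (n : ℝ))
  nlinarith

theorem dgd_zero (ha : SmM a) (hφ : Sm φ) (h : φ =ᶠ[𝓝 p] 0) : dgd u a φ p = 0 := by
  have h0 : SB u 2 0 0 φ p := SbAlg.congr h.symm (by
    have := SbAlg.const (v := u) (k := 2) (p := p) le_rfl (0 : ℝ)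
    rwa [abs_zero] at this)
  rw [dgd_eq ha hφ]
  refine Finset.sum_eq_zero fun i _ => Finset.sum_eq_zero fun j _ => ?_
  have e1 := sb_d1 h0 j
  have e2 := sb_d2 h0 i j
  simp only [mul_zero, abs_nonpos_iff] at e1 e2
  simp [e1, e2]

theorem dgd_zero' (ha : SmM a) (hφ : Sm φ) (h : ∀ i j, a i j =ᶠ[𝓝 p] 0) : dgd u a φ p = 0 := by
  rw [dgd_eq ha hφ]
  refine Finset.sum_eq_zero fun i _ => Finset.sum_eq_zero fun j _ => ?_
  rw [D_congr (h i j), (h i j).eq_of_nhds]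
  simp [D]

theorem sb_XX (hL : 0 ≤ L) (ha : SmM a) (hφ : Sm φ) (hb : ∀ i j, SB v k 2 L (a i j) p)
    (h : ∀ i, SB v k w L (D (u i) φ) p) (i : Fin n) :
    SB v k (n * (2 ^ k * 2 * w)) L (XX u a φ i) p := by
  have := SbAlg.sum hL Finset.univ (fun j q => a i j q * D (u j) φ q) (fun _ => 2 ^ k * 2 * w)
    (fun j _ => ((ha i j).mul (hφ.D _)).contDiffAt)
    fun j _ => SbAlg.mul hL (ha i j).contDiffAt (hφ.D _).contDiffAt (hb i j) (h j)
  exact SbAlg.mono hL this le_rfl (by simp) le_rfl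

theorem sb_rho (hL : 0 ≤ L) (ha : SmM a) (hφ : Sm φ) (hb : ∀ i j, SB v 2 2 L (a i j) p)
    (h : ∀ i, SB v 2 w L (D (u i) φ) p) : SB v 2 (32 * n ^ 2 * w ^ 2) L (rho u a φ) p := by
  have := SbAlg.sum hL Finset.univ (fun i q => XX u a φ i q * D (u i) φ q)
    (fun _ => 2 ^ 2 * (n * (2 ^ 2 * 2 * w)) * w)
    (fun j _ => ((IdT.sm_XX ha hφ j).mul (hφ.D _)).contDiffAt)
    fun j _ => SbAlg.mul hL (IdT.sm_XX ha hφ j).contDiffAt (hφ.D _).contDiffAt
      (sb_XX hL ha hφ hb h j) (h j)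
  refine SbAlg.mono hL this le_rfl (le_of_eq ?_) le_rfl
  simp
  ring

theorem rho_eq (p : X) :
    rho u a φ p = bil (fun i j => a i j p) (fun i => D (u i) φ p) fun i => D (u i) φ p :=
  (IdT.quad_D p).symm

theorem d_le (h : ∀ ζ, n2 ζ / 2 ≤ bil (fun i j => a i j p) ζ ζ) (i : Fin n) :
    D (u i) φ p ^ 2 ≤ 2 * rho u a φ p := by
  have h1 := h fun i => D (u i) φ p
  have h2 := sq_le_n2 (fun i => D (u i) φ p) i
  rw [rho_eq]
  linarith

end sb

variable {n : ℕ} {ι : Type} {f : Fx} {c : Cx n ι} {p : X2 n}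

theorem sb_gam {γ : MatF n} (hs : SmM γ) (hn : Near 8 1 γ) (T : X2 n →L[ℝ] En n)
    (hT : ∀ i, ∑ j, |T (exy i) j| ≤ 1) (i j : Fin n) :
    SB exy 2 2 1 (fun q => γ i j (T q)) p := by
  have h0 : ContDiffAt ℝ ∞ (fun y => γ i j y - if i = j then 1 else 0) (T p + 0) :=
    ((hs i j).sub contDiff_const).contDiffAt
  have h1 := SbAlg.add h0 contDiffAt_const (hn i j _)
    (SbAlg.const zero_le_one (if i = j then 1 else 0))
  have h2 := SbLin.lin0 (v := exy) (v' := ee) T 0 (t := fun a b => T (exy a) b) (A := 1)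
    zero_le_one (fun a => by ext b; simp [ee, Pi.single_apply]) hT (h0.add contDiffAt_const) h1
  simp only [sub_add_cancel, add_zero, mul_one] at h2
  exact SbAlg.mono zero_le_one h2 (by norm_num) (by split_ifs <;> norm_num) le_rfl

theorem sb_g1 {L : ℝ} (hc : c.Ok f 1 L) (p : X2 n) (i j : Fin n) :
    SB exy 2 2 1 (onX c.γ₁ i j) p :=
  sb_gam hc.2.2.2.2.2.1 hc.2.2.2.2.2.2.2.1 (ContinuousLinearMap.fst ℝ _ _) (fun i => by
    rcases i with i | i <;> simp [exy, ex, ey, ee, apply_ite abs]) i j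

theorem sb_g2 {L : ℝ} (hc : c.Ok f 1 L) (p : X2 n) (i j : Fin n) :
    SB exy 2 2 1 (onY c.γ₂ i j) p :=
  sb_gam hc.2.2.2.2.2.2.2.2.1 hc.2.2.2.2.2.2.2.2.2.2.1 (ContinuousLinearMap.snd ℝ _ _) (fun i => by
    rcases i with i | i <;> simp [exy, ex, ey, ee, apply_ite abs]) i j

/-! ## The integrated inequalities -/

section int
variable {v : Fin n → X2 n} {γ : Fin n → Fin n → X2 n → ℝ} {φ u w M M' : X2 n → ℝ}
  {S : Set (X2 n)}

theorem int_sq (hu : Tst u) (hM : Continuous M) : Integrable fun p => M p * u p ^ 2 :=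
  hu.sq.integrable_cmul hM

theorem int_lin (hu : Tst u) (hM : Continuous M) (hM' : Continuous M') (s t : ℝ) :
    ∫ p, (s * M p + t * M' p) * u p ^ 2 = s * (∫ p, M p * u p ^ 2) + t * ∫ p, M' p * u p ^ 2 := by
  rw [← integral_const_mul, ← integral_const_mul,
    ← integral_add ((int_sq hu hM).const_mul s) ((int_sq hu hM').const_mul t)]
  exact integral_congr_ae (Eventually.of_forall fun p => by ring)

theorem tst_n2 (hφ : Sm φ) (hu : Tst u) : Tst fun p => n2 fun i => Dm φ (v i) u p :=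
  Tst.sum _ fun _ _ => (Tst.Dm hφ hu _).sq

theorem tst_q (hγ : SmM γ) (hφ : Sm φ) (hu : Tst u) :
    Tst fun p => ∑ i, ∑ j, γ i j p * Dm φ (v i) u p * Dm φ (v j) u p :=
  IdT.tst_quad hγ (fun _ => (Tst.Dm hφ hu _).sm) fun _ => Tst.Dm hφ hu _

theorem Dm_off (hS : tsupport u ⊆ S) (hp : p ∉ S) (a : X2 n) : Dm φ a u p = 0 :=
  image_eq_zero_of_notMem_tsupport fun h => hp (hS (tsupport_Dm φ u a h))

theorem int_mono (hu : Tst u) (hM : Continuous M) (hM' : Continuous M') (hS : tsupport u ⊆ S)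
    (h : ∀ p ∈ S, M p ≤ M' p) : ∫ p, M p * u p ^ 2 ≤ ∫ p, M' p * u p ^ 2 := by
  refine integral_mono (int_sq hu hM) (int_sq hu hM') fun p => ?_
  by_cases hp : p ∈ S
  · exact mul_le_mul_of_nonneg_right (h p hp) (sq_nonneg _)
  · simp [image_eq_zero_of_notMem_tsupport fun h => hp (hS h)]

theorem ci1 (hCI : S_CI) (hγ : SmM γ) (hs : SymM γ) (hφ : Sm φ) (hu : Tst u) (hw : Sm w)
    (hM : Continuous M) (hS : tsupport u ⊆ S) {ε : ℝ} (hε : 0 < ε)
    (h : ∀ p ∈ S, w p ^ 2 / (4 * ε) +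
      (2 * w p * rho v γ φ p + w p * dgd v γ φ p + 1 / 2 * dgd v γ w p) ≤ M p) :
    ∫ p, w p * ∑ i, ∑ j, γ i j p * Dm φ (v i) u p * Dm φ (v j) u p ≤
      ε * (∫ p, Lp' v γ φ u p ^ 2) + ∫ p, M p * u p ^ 2 := by
  have hL := IdT.tst_Lp (v := v) hγ hφ hu
  have s1 : Sm fun p => 2 * w p * rho v γ φ p + w p * dgd v γ φ p + 1 / 2 * dgd v γ w p :=
    (((hw.cmul 2).mul (IdT.sm_rho hγ hφ)).add (hw.mul (IdT.sm_dgd hγ hφ))).add
      ((IdT.sm_dgd hγ hw).cmul _)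
  have s2 : Continuous fun p => w p ^ 2 / (4 * ε) := (hw.pow 2).cont.div_const _
  have h1 := int_mono hu (s2.add s1.cont) hM hS h
  have h2 : -∫ p, w p * u p * Lp' v γ φ u p ≤
      ε * (∫ p, Lp' v γ φ u p ^ 2) + ∫ p, w p ^ 2 / (4 * ε) * u p ^ 2 := by
    have i1 : Integrable fun p => ε * Lp' v γ φ u p ^ 2 := (hL.sq.const_mul ε).integrable
    rw [← integral_neg, ← integral_const_mul, ← integral_add i1 (int_sq hu s2)]
    refine integral_mono (Tst.mul_left (hw.mul hu.sm) hL).neg.integrable (i1.add (int_sq hu s2))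
      fun p => ?_
    have e : ε * Lp' v γ φ u p ^ 2 + w p ^ 2 / (4 * ε) * u p ^ 2 + w p * u p * Lp' v γ φ u p =
        (2 * ε * Lp' v γ φ u p + w p * u p) ^ 2 / (4 * ε) := by
      field_simp
      ring
    have : 0 ≤ (2 * ε * Lp' v γ φ u p + w p * u p) ^ 2 / (4 * ε) := by positivity
    simp only
    linarith
  have h3 := int_lin hu s2 s1.cont 1 1
  simp only [one_mul] at h3
  rw [(hCI (X2 n) volume (Fin n) v γ φ u w hγ hs hφ hu hw).1]
  linarith [h3.symm.trans_le h1]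

theorem ci3 (hCI : S_CI) (hγ : SmM γ) (hs : SymM γ) (hφ : Sm φ) (hu : Tst u)
    (hM : Continuous M) (hS : tsupport u ⊆ S) (h0 : ∀ p ζ, 0 ≤ bil (fun i j => γ i j p) ζ ζ)
    (h : ∀ p ∈ S, M p ≤ rho v γ φ p + dgd v γ φ p) :
    ∫ p, M p * u p ^ 2 ≤ ∫ p, ∑ i, ∑ j, γ i j p * Dm φ (v i) u p * Dm φ (v j) u p := by
  have h1 := int_mono hu hM ((IdT.sm_rho hγ hφ).add (IdT.sm_dgd hγ hφ)).cont hS h
  have h2 := (hCI (X2 n) volume (Fin n) v γ φ u (fun _ => 1) hγ hs hφ hu (Sm.const 1)).2.2.1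
  simp only [one_mul] at h2
  have h3 : 0 ≤ ∫ p, ∑ i, ∑ j, γ i j p * D (v i) u p * D (v j) u p :=
    integral_nonneg fun p => h0 p fun i => D (v i) u p
  rw [h2]
  exact le_add_of_nonneg_of_le h3 h1

theorem ci4 (hCI : S_CI) (hγ : SmM γ) (hs : SymM γ) (hφ : Sm φ) (hu : Tst u)
    (hM : Continuous M) (hS : tsupport u ⊆ S) (h0 : ∀ p ζ, 0 ≤ bil (fun i j => γ i j p) ζ ζ)
    (h : ∀ p ∈ S, M p ≤ 2 * dgd v γ φ p) :
    ∫ p, M p * u p ^ 2 ≤ ∫ p, ∑ i, ∑ j, γ i j p * Dm φ (v i) u p * Dm φ (v j) u p := by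
  have h1 := int_mono hu hM ((IdT.sm_dgd hγ hφ).cmul 2).cont hS h
  have h2 := (hCI (X2 n) volume (Fin n) v γ φ u (fun _ => 1) hγ hs hφ hu (Sm.const 1)).2.2.2
  have h3 : 0 ≤ ∫ p, ∑ i, ∑ j, γ i j p * Dp φ (v i) u p * Dp φ (v j) u p :=
    integral_nonneg fun p => h0 p fun i => Dp φ (v i) u p
  simp only [mul_assoc (2 : ℝ), integral_const_mul] at h1
  rw [h2]
  exact le_add_of_nonneg_of_le h3 h1

end int

end SLT

end Vale.Agent.P088
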