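import Vale.Agent.P088.St1Tool

/-!
# P088, first stage: continuation of the adjoint solution
-/

open MeasureTheory Set Metric Filter
open scoped ContDiff Topology InnerProductSpace

noncomputable section
namespace Vale.Agent.P088
open Vale.Agent.P136 (D Dp Dm Sm Tst)
open St1

namespace St1Adj
variable {n : ℕ}

theorem isOpen_N (p : En n) (lam δ : ℝ) (x : En n) : IsOpen (NV p lam δ x) := by
  refine isOpen_ball.inter (isOpen_lt continuous_const ?_)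
  unfold fV
  fun_prop

theorem geo {κ δ : ℝ} (hκ : 0 < κ) (hκ1 : κ ≤ 1 / 2) (hδ : 0 < δ) {p x y : En n}
    (hp : x ∈ ball p (1 / 5)) (hx : ‖x‖ ^ 2 ≤ 1 - δ) (hy : y ∈ NV p (κ / 64) δ x) :
    δ / 64 ≤ ‖y - x‖ / 16 ∧ ‖y - x‖ / 16 ≤ 1 ∧ 1 - κ * (‖y - x‖ / 16) / 2 < ‖y‖ ∧
      ball y (5 * (‖y - x‖ / 16)) ⊆ U0 p ∧
      ball y (3 * (‖y - x‖ / 16)) ⊆ U0 p \ closedBall x (δ / 8) := by
  obtain ⟨h1, h2, -, h3⟩ := NN_facts (by positivity) (by linarith) hδ hp hx hy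
  have h4 : dist y p < 23 / 50 := hy.1
  have h5 : ball y (5 * (‖y - x‖ / 16)) ⊆ U0 p := by
    intro z hz
    have a1 : dist z y < 5 * (‖y - x‖ / 16) := hz
    have a2 := dist_triangle z y p
    show dist z p < 3 / 4
    linarith
  refine ⟨by linarith, by linarith, by linarith, h5, fun z hz => ⟨h5 (ball_subset_ball (by
    linarith [norm_nonneg (y - x)]) hz), fun hc => ?_⟩⟩
  have a1 : dist z y < 3 * (‖y - x‖ / 16) := hz
  have a2 : dist z x ≤ δ / 8 := hc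
  have a3 := dist_triangle_left y x z
  rw [dist_eq_norm y x] at a3
  linarith

end St1Adj

open St1Adj in
theorem s1_adj (hw : S_weyl) (hg : S_green) : S1_adj := by
  intro n ι _ k om κ hκ hκ1 hG M δ hδ _
  obtain ⟨M', hM⟩ := pair_T hg n ι M
  obtain ⟨C, hC, H⟩ := hG M' (δ / 64) (by positivity)
  refine ⟨C * M' 0 ^ 2, by positivity, ?_⟩
  intro L₁ L₂ p G₁ G₂ x h _ hP hxp hx hh
  have hT := hM k om L₁ L₂ _ G₁ G₂ hP
  have hV : IsOpen (U0 p \ closedBall x (δ / 8)) := hP.1.sdiff isClosed_closedBall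
  obtain ⟨v₁, s1, s2, s3⟩ := green_sol hw hg hT.2.2.1.1 hT.2.2.2.2.1 hP.1 hV sdiff_subset hh
    (Set.disjoint_left.2 fun z hz hz' => hz'.2 (ball_subset_closedBall hz))
  have hn : nrm (U0 p \ closedBall x (δ / 8)) v₁ ≤ M' 0 ^ 2 * ‖h‖ ^ 2 := by
    rw [nrm_congr s3, ← mul_pow]
    refine (nrm_cp_le sdiff_subset _).trans (pow_le_pow_left₀ (norm_nonneg _) ?_ 2)
    exact (ContinuousLinearMap.le_opNorm _ _).trans
      (mul_le_mul_of_nonneg_right hT.2.2.2.2.2.2.1 (norm_nonneg _))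
  obtain ⟨v, t1, t2⟩ := H L₂.T L₁.T _ _ _ _ (NV p (κ / 64) δ x) (fun y => ‖y - x‖ / 16) v₁ hT
    (isOpen_N _ _ _ _) (by fun_prop) s1 s2 (fun y hy => geo hκ hκ1 hδ hxp hx hy)
  refine ⟨v, t1, fun y hy => (t2 y hy).1.trans ?_, fun a => ?_⟩
  · rw [mul_assoc]
    exact mul_le_mul_of_nonneg_left hn hC
  · have a1 := (ae_restrict_iff' hV.measurableSet).1 (s3 a)
    filter_upwards [ae_restrict_of_ae a1] with y hy hyN hy1
    obtain ⟨g1, -, -, -, g2⟩ := geo hκ hκ1 hδ hxp hx hyN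
    have hρ : 0 < ‖y - x‖ / 16 := by linarith
    obtain ⟨Wx, w1, w2⟩ := (t2 y hyN).2
    have b1 : y ∈ ball (yy (‖y - x‖ / 16) y) (‖y - x‖ / 16) := by
      have := dist_yy_lt (x := y) hρ le_rfl zero_le_one (by linarith)
      rwa [add_zero] at this
    rw [(w2 a).eq_of_nhds, w1.2 a b1]
    exact hy (g2 (mem_ball_self (by linarith)))

end Vale.Agent.P088
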