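import Vale.Agent.P088.St1Defs

/-!
# P088, first stage: propagation of smallness in an annulus
-/

open MeasureTheory Set Metric Filter
open scoped ContDiff Topology InnerProductSpace

noncomputable section
namespace Vale.Agent.P088
namespace St1Ann
variable {n : ℕ}

/-- The rescaled set `y + s P`. -/
def sc (y : En n) (s : ℝ) (P : Set (En n)) : Set (En n) := (fun z => s⁻¹ • (z - y)) ⁻¹' P

theorem dist_sc {s : ℝ} (hs : 0 < s) (y x z : En n) :
    dist z (y + s • x) = s * dist (s⁻¹ • (z - y)) x := by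
  rw [dist_eq_norm, dist_eq_norm, ← Real.norm_of_nonneg hs.le, ← norm_smul, Real.norm_of_nonneg hs.le,
    smul_sub, smul_inv_smul₀ hs.ne', sub_sub]

theorem sc_ball {s : ℝ} (hs : 0 < s) (y x : En n) (r : ℝ) :
    sc y s (ball x r) = ball (y + s • x) (s * r) := by
  ext z
  rw [mem_ball, dist_sc hs, mul_lt_mul_iff_right₀ hs]
  rfl

theorem sc_cball {s : ℝ} (hs : 0 < s) (y x : En n) (r : ℝ) :
    sc y s (closedBall x r) = closedBall (y + s • x) (s * r) := by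
  ext z
  rw [mem_closedBall, dist_sc hs, mul_le_mul_iff_right₀ hs]
  rfl

/-- The open annulus. -/
def AA (n : ℕ) : Set (En n) := ball 0 3 \ closedBall 0 1

theorem AA_conn (hn : 3 ≤ n) : IsPreconnected (AA n) := by
  have h : 1 < Module.rank ℝ (En n) := by
    rw [← Module.finrank_eq_rank, finrank_euclideanSpace_fin]
    exact_mod_cast (by omega : 1 < n)
  have e : AA n = (fun p : En n × ℝ => p.2 • p.1) '' (sphere 0 1 ×ˢ Ioo 1 3) := by
    ext x
    simp only [AA, Set.mem_sdiff, mem_ball_zero_iff, mem_closedBall_zero_iff, not_le, mem_image,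
      mem_prod, mem_sphere_zero_iff_norm, mem_Ioo]
    constructor
    · rintro ⟨h1, h2⟩
      have h0 : ‖x‖ ≠ 0 := by linarith
      exact ⟨(‖x‖⁻¹ • x, ‖x‖), ⟨by rw [norm_smul, norm_inv, norm_norm, inv_mul_cancel₀ h0], h2, h1⟩,
        smul_inv_smul₀ h0 x⟩
    · rintro ⟨p, ⟨h1, h2, h3⟩, rfl⟩
      rw [norm_smul, h1, mul_one, Real.norm_of_nonneg (by linarith)]
      exact ⟨h3, h2⟩
  rw [e]
  exact ((isPreconnected_sphere h 0 1).prod isPreconnected_Ioo).image _ (by fun_prop)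

theorem AA_open : IsOpen (AA n) := isOpen_ball.sdiff isClosed_closedBall

theorem ball_sub {x : En n} (hx : ‖x‖ = 5 / 2) : ball x (1 / 4) ⊆ AA n := fun z hz => by
  have h1 := abs_le.1 (abs_norm_sub_norm_le z x)
  rw [mem_ball_iff_norm] at hz
  simp only [AA, Set.mem_sdiff, mem_ball_zero_iff, mem_closedBall_zero_iff, not_le]
  constructor <;> linarith [h1.1, h1.2]

variable (ι : Type) [Fintype ι] (k : ℕ) (om : ℝ)

/-- The estimate with given constants. -/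
def Bnd (ν : ℝ) (M : ℕ → ℝ) (C : ℝ) (P Q : Set (En n)) : Prop :=
  ∀ (L : Op n ι) (y : En n) (s ε : ℝ) (W : ι → En n → ℝ), L.Bd k om M → 0 < s → s ≤ 1 → 0 < ε →
    ε ≤ 1 → Sol L (sc y s (AA n)) W 0 → L2On (sc y s (AA n)) W →
    nrm (sc y s P) W ≤ C * (ε * nrm (sc y s (AA n)) W + ε ^ (-ν) * nrm (sc y s Q) W)

/-- `Q` controls `P`. -/
def Ctl (P Q : Set (En n)) : Prop :=
  ∃ ν : ℝ, 0 < ν ∧ ∀ M, ∃ C : ℝ, 0 ≤ C ∧ Bnd ι k om ν M C P Q

variable {ι k om} {P Q R : Set (En n)}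

theorem Bnd.mono {ν ν' C C' : ℝ} {M : ℕ → ℝ} (h : Bnd ι k om ν M C P Q) (hν : ν ≤ ν') (h0 : 0 ≤ C)
    (hC : C ≤ C') : Bnd ι k om ν' M C' P Q := fun L y s ε W h1 h2 h3 h4 h5 h6 h7 => by
  have := St1.nrm_nonneg (sc y s (AA n)) W
  have := St1.nrm_nonneg (sc y s Q) W
  have := Real.rpow_le_rpow_of_exponent_ge h4 h5 (neg_le_neg hν)
  have := h0.trans hC
  refine (h L y s ε W h1 h2 h3 h4 h5 h6 h7).trans ?_
  gcongr

theorem ctl_sub (h : P ⊆ Q) (h' : Q ⊆ AA n) : Ctl ι k om P Q :=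
  ⟨1, one_pos, fun M => ⟨1, zero_le_one, fun L y s ε W h1 h2 h3 h4 h5 h6 h7 => by
    have a1 := St1.nrm_nonneg (sc y s (AA n)) W
    have a2 := St1.nrm_nonneg (sc y s Q) W
    have a3 := Real.one_le_rpow_of_pos_of_le_one_of_nonpos h4 h5 (z := -1) (by norm_num)
    have a4 : nrm (sc y s P) W ≤ nrm (sc y s Q) W :=
      St1.nrm_mono (St1.l2_mono h7 (preimage_mono h')) (preimage_mono h)
    nlinarith [mul_nonneg h4.le a1]⟩⟩

theorem Ctl.trans (h : Ctl ι k om P Q) (h' : Ctl ι k om Q R) : Ctl ι k om P R := by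
  obtain ⟨ν, hν, h⟩ := h
  obtain ⟨ν', hν', h'⟩ := h'
  refine ⟨ν + ν' * (1 + ν), by positivity, fun M => ?_⟩
  obtain ⟨C, hC, h⟩ := h M
  obtain ⟨C', hC', h'⟩ := h' M
  refine ⟨C * (1 + C'), by positivity, fun L y s ε W h1 h2 h3 h4 h5 h6 h7 => ?_⟩
  have a1 := h' L y s (ε ^ (1 + ν)) W h1 h2 h3 (by positivity)
    (Real.rpow_le_one h4.le h5 (by positivity)) h6 h7
  have e1 : ε ^ (-ν) * ε ^ (1 + ν) = ε := by
    rw [← Real.rpow_add h4, neg_add_cancel_comm_assoc, Real.rpow_one]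
  have e2 : ε ^ (-ν) * (ε ^ (1 + ν)) ^ (-ν') = ε ^ (-(ν + ν' * (1 + ν))) := by
    rw [← Real.rpow_mul h4.le, ← Real.rpow_add h4]
    congr 1
    ring
  have a2 := mul_le_mul_of_nonneg_left a1 (Real.rpow_nonneg h4.le (-ν))
  have a3 := mul_nonneg (Real.rpow_nonneg h4.le (-(ν + ν' * (1 + ν))))
    (St1.nrm_nonneg (sc y s R) W)
  refine (h L y s ε W h1 h2 h3 h4 h5 h6 h7).trans ?_
  rw [mul_assoc]
  refine mul_le_mul_of_nonneg_left ?_ hC
  rw [mul_left_comm, mul_add, ← mul_assoc, ← mul_assoc, e1, e2] at a2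
  linarith

theorem Ctl.union (h : Ctl ι k om P R) (h' : Ctl ι k om Q R) (hP : P ⊆ AA n) (hQ : Q ⊆ AA n) :
    Ctl ι k om (P ∪ Q) R := by
  obtain ⟨ν, hν, h⟩ := h
  obtain ⟨ν', hν', h'⟩ := h'
  refine ⟨ν + ν', by positivity, fun M => ?_⟩
  obtain ⟨C, hC, h⟩ := h M
  obtain ⟨C', hC', h'⟩ := h' M
  refine ⟨C + C', by positivity, fun L y s ε W h1 h2 h3 h4 h5 h6 h7 => ?_⟩
  have a1 := h.mono (ν' := ν + ν') (by linarith) hC le_rfl L y s ε W h1 h2 h3 h4 h5 h6 h7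
  have a2 := h'.mono (ν' := ν + ν') (by linarith) hC' le_rfl L y s ε W h1 h2 h3 h4 h5 h6 h7
  have a3 := St1.nrm_cover (V := sc y s (P ∪ Q)) (W := W) Finset.univ
    (fun b : Bool => sc y s (cond b P Q))
    (fun b _ => St1.l2_mono h7 (preimage_mono (by cases b <;> assumption))) (fun z hz => by
      rcases hz with hz | hz
      · exact mem_biUnion (Finset.mem_coe.2 (Finset.mem_univ true)) hz
      · exact mem_biUnion (Finset.mem_coe.2 (Finset.mem_univ false)) hz)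
  rw [Fintype.sum_bool, cond_true, cond_false] at a3
  linarith

theorem unif {t : Set (En n)} (ht : t.Finite) (Q : En n → Set (En n))
    (h : ∀ x ∈ t, Ctl ι k om P (Q x)) :
    ∃ ν : ℝ, 0 < ν ∧ ∀ M, ∃ C : ℝ, 0 ≤ C ∧ ∀ x ∈ t, Bnd ι k om ν M C P (Q x) := by
  induction t, ht using Set.Finite.induction_on with
  | empty => exact ⟨1, one_pos, fun _ => ⟨0, le_rfl, fun _ h => h.elim⟩⟩
  | insert _ _ ih =>
    obtain ⟨ν, hν, h1⟩ := h _ (mem_insert _ _)
    obtain ⟨ν', hν', h2⟩ := ih fun x hx => h x (mem_insert_of_mem _ hx)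
    refine ⟨ν + ν', by positivity, fun M => ?_⟩
    obtain ⟨C, hC, h1⟩ := h1 M
    obtain ⟨C', hC', h2⟩ := h2 M
    refine ⟨C + C', by positivity, forall_mem_insert.2 ⟨h1.mono ?_ hC ?_,
      fun x hx => (h2 x hx).mono ?_ hC' ?_⟩⟩ <;> linarith

section
variable {κ : ℝ} (hκ : 0 < κ) (hκ' : κ ≤ 1 / 2)
  (hs : ∀ (x : En n) (r : ℝ), 0 < r → r ≤ 1 → ball x (2 * r) ⊆ AA n →
    Ctl ι k om (ball x ((1 + κ) * r)) (ball x r))
include hκ hκ' hs

theorem grow {z : En n} {d r : ℝ} (d0 : 0 < d) (d1 : d ≤ 1) (r0 : 0 < r)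
    (hd : ball z (2 * d) ⊆ AA n) (hr : ball z r ⊆ AA n) : Ctl ι k om (ball z d) (ball z r) := by
  have key : ∀ m : ℕ, Ctl ι k om (ball z (min d ((1 + κ) ^ m * r))) (ball z r) := fun m => by
    induction m with
    | zero => exact ctl_sub (ball_subset_ball (by simp)) hr
    | succ m ih =>
      have h1 := min_le_left d ((1 + κ) ^ m * r)
      have h2 : 0 < min d ((1 + κ) ^ m * r) := lt_min d0 (by positivity)
      refine ((ctl_sub (ball_subset_ball ?_) ((ball_subset_ball (by nlinarith)).trans hd)).trans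
        (hs z _ h2 (h1.trans d1) ((ball_subset_ball (by linarith)).trans hd))).trans ih
      rw [mul_min_of_nonneg _ _ (by positivity), pow_succ', mul_assoc]
      exact min_le_min_right _ (by nlinarith)
  obtain ⟨m, hm⟩ := pow_unbounded_of_one_lt (d / r) (show 1 < 1 + κ by linarith)
  have := key m
  rwa [min_eq_left ((div_lt_iff₀ r0).1 hm).le] at this

theorem ctl_all (hn : 3 ≤ n) {x₀ : En n} {r₀ : ℝ} (h0 : 0 < r₀) (hQ : ball x₀ r₀ ⊆ AA n)
    {K : Set (En n)} (hK : IsCompact K) (hKA : K ⊆ AA n) : Ctl ι k om K (ball x₀ r₀) := by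
  have key : AA n ⊆ {x | ∃ r, 0 < r ∧ ball x r ⊆ AA n ∧ Ctl ι k om (ball x r) (ball x₀ r₀)} := by
    refine (AA_conn hn).subset_of_closure_inter_subset (isOpen_iff.2 ?_)
      ⟨x₀, hQ (mem_ball_self h0), r₀, h0, hQ, ctl_sub le_rfl hQ⟩ ?_
    · rintro x ⟨r, r0, h1, h2⟩
      refine ⟨r, r0, fun z hz => ?_⟩
      obtain ⟨r', r0', h3⟩ := isOpen_iff.1 isOpen_ball z hz
      exact ⟨r', r0', h3.trans h1, (ctl_sub h3 h1).trans h2⟩
    · rintro x ⟨h1, h2⟩
      obtain ⟨D, D0, hD⟩ := isOpen_iff.1 AA_open x h2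
      obtain ⟨d, d0, d1, d2⟩ : ∃ d : ℝ, 0 < d ∧ d ≤ 1 ∧ d ≤ D / 4 :=
        ⟨min 1 (D / 4), by positivity, min_le_left _ _, min_le_right _ _⟩
      obtain ⟨z, ⟨r, r0, h3, h4⟩, h5⟩ := Metric.mem_closure_iff.1 h1 (d / 2) (by positivity)
      have h6 : ball z (2 * d) ⊆ AA n :=
        (ball_subset_ball' (by rw [dist_comm]; linarith)).trans hD
      have h7 : ball z d ⊆ AA n := (ball_subset_ball (by linarith)).trans h6
      have h8 : ball x (d / 2) ⊆ ball z d := ball_subset_ball' (by linarith)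
      exact ⟨d / 2, by positivity, h8.trans h7,
        ((ctl_sub h8 h7).trans (grow hκ hκ' hs d0 d1 r0 h6 h3)).trans h4⟩
  refine (hK.induction_on (p := fun s => s ⊆ AA n ∧ Ctl ι k om s (ball x₀ r₀))
    ⟨empty_subset _, ctl_sub (empty_subset _) hQ⟩
    (fun s t h ht => ⟨h.trans ht.1, (ctl_sub h ht.1).trans ht.2⟩)
    (fun s t h ht => ⟨union_subset h.1 ht.1, h.2.union ht.2 h.1 ht.1⟩) fun x hx => ?_).2
  obtain ⟨r, r0, h⟩ := key (hKA hx)
  exact ⟨_, mem_nhdsWithin_of_mem_nhds (ball_mem_nhds x r0), h⟩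

end

end St1Ann

open St1Ann in
theorem s1_ann (htb : S_tb) : S1_ann := by
  intro n hn ι _
  obtain ⟨k, κ, om, hκ, hκ', hom, h⟩ := htb n ι 1 one_pos
  have hs : ∀ (x : En n) (r : ℝ), 0 < r → r ≤ 1 → ball x (2 * r) ⊆ AA n →
      Ctl ι k om (ball x ((1 + κ) * r)) (ball x r) := fun x r r0 r1 hr =>
    ⟨1, one_pos, fun M => by
      obtain ⟨C, hC, h⟩ := h M
      refine ⟨C, hC, fun L y s ε W h1 h2 h3 h4 h5 h6 h7 => ?_⟩
      have a1 : ball (y + s • x) (2 * (s * r)) ⊆ sc y s (AA n) := by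
        rw [mul_left_comm, ← sc_ball h2]
        exact preimage_mono hr
      have a2 := h L (y + s • x) (s * r) ε W h1 (by positivity) (mul_le_one₀ h3 r0.le r1) h4 h5
        (St1.sol_mono h6 a1) (St1.l2_mono h7 a1)
      have a3 := St1.nrm_mono h7 a1
      rw [sc_ball h2, sc_ball h2, mul_left_comm]
      refine a2.trans ?_
      gcongr⟩
  obtain ⟨t, ht1, ht2, ht3⟩ := finite_cover_balls_of_compact
    (isCompact_sphere (0 : En n) (5 / 2)) (e := 1 / 8) (by norm_num)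
  obtain ⟨ν, hν, hu⟩ := unif (ι := ι) (k := k) (om := om)
    (P := closedBall 0 (5 / 2) \ ball 0 (6 / 5)) ht2 (fun x => ball x (1 / 8)) fun x hx =>
    ctl_all hκ hκ' hs hn (by norm_num) ((ball_subset_ball (by norm_num)).trans
      (ball_sub (mem_sphere_zero_iff_norm.1 (ht1 hx))))
      ((isCompact_closedBall _ _).diff isOpen_ball)
      (sdiff_subset_sdiff (closedBall_subset_ball (by norm_num))
        (closedBall_subset_ball (by norm_num)))
  refine ⟨k, om, ν, hom, hν, fun M => ?_⟩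
  obtain ⟨C, hC, hu⟩ := hu M
  refine ⟨C, hC, fun L y e ρ ε W h1 h2 h3 he h4 h5 h6 h7 => ?_⟩
  have e1 : sc y ρ (AA n) = ball y (3 * ρ) \ closedBall y ρ := by
    have := sc_ball h2 y 0 3
    have h' := sc_cball h2 y 0 1
    rw [smul_zero, add_zero, mul_comm] at this h'
    rw [← this, ← one_mul ρ, ← h', one_mul]
    rfl
  have e2 : sc y ρ (closedBall 0 (5 / 2) \ ball 0 (6 / 5)) =
      closedBall y (5 / 2 * ρ) \ ball y (6 / 5 * ρ) := by
    have := sc_ball h2 y 0 (6 / 5)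
    have h' := sc_cball h2 y 0 (5 / 2)
    rw [smul_zero, add_zero, mul_comm] at this h'
    rw [← this, ← h']
    rfl
  have e3 : sc y ρ (ball ((5 / 2 : ℝ) • e) (1 / 4)) = ball (y + (5 / 2 * ρ) • e) (ρ / 4) := by
    rw [sc_ball h2, smul_smul, mul_comm ρ, mul_one_div]
  have he' : ‖(5 / 2 : ℝ) • e‖ = 5 / 2 := by rw [norm_smul, he]; norm_num
  obtain ⟨x, hx, hx'⟩ := mem_iUnion₂.1 (ht3 (mem_sphere_zero_iff_norm.2 he'))
  rw [← e1] at h6 h7
  have a1 : nrm (sc y ρ (ball x (1 / 8))) W ≤ nrm (sc y ρ (ball ((5 / 2 : ℝ) • e) (1 / 4))) W :=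
    St1.nrm_mono (St1.l2_mono h7 (preimage_mono (ball_sub he')))
      (preimage_mono (ball_subset_ball' (by rw [dist_comm]; linarith [mem_ball.1 hx'])))
  rw [← e1, ← e2, ← e3]
  refine (hu x hx L y ρ ε W h1 h2 h3 h4 h5 h6 h7).trans ?_
  gcongr

end Vale.Agent.P088
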