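import Vale.Agent.P088.St1Tool

/-!
# P088, first stage: assembly
-/

open MeasureTheory Set Metric Filter
open scoped ContDiff Topology InnerProductSpace

noncomputable section
namespace Vale.Agent.P088
namespace St1Asm
open St1
variable {n : ℕ} {ι : Type} [Fintype ι]

theorem vgp_mono {k k' : ℕ} {om om' : ℝ} (h : VGP n ι k om) (hk : k ≤ k') (ho : om' ≤ om) :
    VGP n ι k' om' := fun M r h0 h1 => by
  obtain ⟨C, hC, H⟩ := h M r h0 h1
  exact ⟨C, hC, fun L x W hL => H L x W (bd_mono hL hk ho)⟩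

theorem ann_mono {k k' : ℕ} {om om' ν : ℝ} (h : ANN n ι k om ν) (hk : k ≤ k') (ho : om' ≤ om) :
    ANN n ι k' om' ν := fun M => by
  obtain ⟨C, hC, H⟩ := h M
  exact ⟨C, hC, fun L y e ρ ε W hL => H L y e ρ ε W (bd_mono hL hk ho)⟩

theorem clp_mono {k k' : ℕ} {om om' κ : ℝ} (h : CLP n ι k om κ) (hk : k ≤ k') (ho : om' ≤ om) :
    CLP n ι k' om' κ := fun M r h0 => by
  obtain ⟨C, hC, H⟩ := h M r h0
  exact ⟨C, hC, fun L₁ L₂ U G₁ G₂ y ρ W hL => H L₁ L₂ U G₁ G₂ y ρ W (pair_mono hL hk ho)⟩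

theorem isOpen_O0 (p : En n) : IsOpen (O0 p) := isOpen_ball.sdiff isClosed_closedBall

theorem mem_O0 {p x : En n} (hp : ‖p‖ = 1) (hx : x ∈ U0 p) (h : 1 < ‖x‖) : x ∈ O0 p := by
  refine ⟨hx, fun h1 => ?_⟩
  have h2 := norm_le_of_mem_closedBall h1
  rw [norm_smul, hp, Real.norm_of_nonneg (by norm_num)] at h2
  linarith

theorem pair_of [DecidableEq ι] {k : ℕ} {om : ℝ} {M : ℕ → ℝ} {L₁ L₂ : Op n ι} {p : En n}
    {G₁ G₂ : HL n ι (U0 p) →L[ℝ] HL n ι (U0 p)} (h : Set0 k om M L₁ L₂ p G₁ G₂) :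
    Pair k om M L₁ L₂ (U0 p) G₁ G₂ := by
  obtain ⟨hp, h1, h2, h3, h4, h5, h6, h7, -⟩ := h
  exact ⟨isOpen_ball, h1, h2, h3, h4, h5, h6, fun F G hF hG =>
    h7 F G (supp_mono hF (fun x => mem_O0 hp) measurableSet_ball)
      (supp_mono hG (fun x => mem_O0 hp) measurableSet_ball)⟩

/-- Rays leave the small ball. -/
theorem ray_out {p x : En n} (hp : ‖p‖ = 1) (hx : x ∉ closedBall ((1 / 3 : ℝ) • p) (2 / 3)) {t : ℝ}
    (ht : 1 ≤ t) : t • x ∉ closedBall ((1 / 3 : ℝ) • p) (2 / 3) := fun h => by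
  have h0 : (0 : En n) ∈ closedBall ((1 / 3 : ℝ) • p) (2 / 3) := by
    rw [mem_closedBall, dist_zero_left, norm_smul, hp, Real.norm_of_nonneg (by norm_num)]
    norm_num
  have ht0 : 0 < t := by linarith
  have := (convex_closedBall _ _).smul_mem_of_zero_mem h0 h
    (t := t⁻¹) ⟨by positivity, inv_le_one_of_one_le₀ ht⟩
  rw [smul_smul, inv_mul_cancel₀ ht0.ne', one_smul] at this
  exact hx this

theorem depth {x : En n} {d : ℝ} (hd : 0 ≤ d) (h : 1 - d < ‖x‖ ^ 2) : 1 - d < ‖x‖ := by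
  by_contra hn
  push Not at hn
  nlinarith [norm_nonneg x]

/-- The continuation agrees with `W` on the known region. -/
theorem known (hu : S_ucp) {L₁ L₂ : Op n ι} {p x : En n} {κ : ℝ} {W Wx : ι → En n → ℝ}
    (hp : ‖p‖ = 1) (hL : L₁.Good) (hE : L₁.EqOn L₂ (O0 p)) (hκ : 0 < κ) (hκ1 : κ ≤ 1 / 2)
    (hW : Sol L₂ (Y0 p) W 0) (hx : x ∈ ball p (1 / 4)) (hd : 1 - κ * (1 / 16) / 2 < ‖x‖)
    (hO : x ∈ O0 p) (h : Loc L₁ (yy (1 / 16) x) (1 / 16) κ W Wx) (a : ι) : Wx a x = W a x := by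
  have hdist := dist_yy_lt (ρ := 1 / 16) (by norm_num) (by positivity) (by linarith) hd
  have hx0 : 0 < ‖x‖ := by linarith
  set y := yy (1 / 16) x with hy
  set B := ball y ((1 + κ) * (1 / 16)) with hB
  have hBY : B ⊆ Y0 p := ball_subset_ball' (by
    have := dist_triangle_left y p x
    rw [mem_ball] at hx
    linarith)
  have hV : IsOpen (B ∩ O0 p) := isOpen_ball.inter (isOpen_O0 p)
  have hseg : segment ℝ x y ⊆ B ∩ O0 p := fun z hz => by
    have h1 : z ∈ B := (convex_ball _ _).segment_subset (mem_ball.2 (by linarith))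
      (mem_ball_self (by positivity)) hz
    refine ⟨h1, ball_subset_ball (by norm_num) (hBY h1), ?_⟩
    obtain ⟨s, t, hs, ht, hst, rfl⟩ := hz
    have h2 : 1 ≤ max (1 + 1 / 16) ‖x‖ / ‖x‖ := (one_le_div hx0).2 (le_max_right _ _)
    rw [hy, yy, smul_smul, ← add_smul]
    exact ray_out hp hO.2 (by nlinarith)
  have hc := (convex_segment x y).isPreconnected.subset_connectedComponentIn
    (left_mem_segment ℝ x y) hseg
  have hsub := connectedComponentIn_subset (B ∩ O0 p) x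
  have h1 : Sol L₁ (B ∩ O0 p) W 0 := ⟨fun b => (hW.1 b).mono (inter_subset_left.trans hBY),
    fun z hz b => by rw [app_congr_op (isOpen_O0 p) hE hz.2, hW.2 z (hBY hz.1)]⟩
  exact ucp_eq hu hL hV.connectedComponentIn isPreconnected_connectedComponentIn
    (sol_mono h.1 (hsub.trans inter_subset_left)) (sol_mono h1 hsub) (hc (right_mem_segment ℝ x y))
    (fun b => eventually_of_mem (ball_mem_nhds y (by norm_num)) (h.2 b)) a
    (hc (left_mem_segment ℝ x y))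

end St1Asm

open St1 St1Asm in
theorem s1_asm (hu : S_ucp) (hann : S1_ann) (hvg : S1_vg) (hrun : S1_run) (hcl : S1_cl)
    (hglob : S1_glob) (hadj : S1_adj) (hdec : S1_dec) (hvis : S1_vis) : S_st1 := by
  intro n hn ι _ _ M
  obtain ⟨k1, om1, ν, h1, hν, A1⟩ := hann n hn ι
  obtain ⟨k2, om2, h2, A2⟩ := hvg n ι
  obtain ⟨k3, om3, κ, h3, hκ, hκ1, A3⟩ := hcl n ι (max k1 k2) (min om1 om2) ν (lt_min h1 h2) hν
    (hrun n ι _ _ ν hν (ann_mono A1 (le_max_left _ _) (min_le_left _ _))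
      (vgp_mono A2 (le_max_right _ _) (min_le_right _ _)))
  have B2 := vgp_mono A2 (le_max_left k2 k3) (min_le_left om2 om3)
  have B3 := clp_mono A3 (le_max_right k2 k3) (min_le_right om2 om3)
  have B4 := hglob n ι _ _ κ hκ hκ1 B3 B2
  have B5 := hvis n ι _ _ κ hκ hκ1 B3 B2 (hdec n ι _ _ κ hκ hκ1 B2 (hadj n ι _ _ κ hκ hκ1 B4))
  refine ⟨max k2 k3, min om2 om3, κ / 64, κ / 100, lt_min h2 h3, by positivity, by positivity,
    fun δ hδ hδ1 => ?_⟩
  obtain ⟨C1, hC1, H1⟩ := B4 M (1 / 16) (by norm_num)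
  obtain ⟨C2, hC2, H2⟩ := B5 M δ hδ hδ1
  refine ⟨C1 + C2, by positivity, fun L₁ L₂ p G₁ G₂ hS W hW hW2 => ?_⟩
  have hP := pair_of hS
  have hd : ∀ x ∈ X0 p δ, 1 - κ * (1 / 16) / 2 < ‖x‖ := fun x hx => by
    have := depth (by positivity) hx.2
    linarith
  obtain ⟨W', hW', H⟩ := H1 L₁ L₂ _ G₁ G₂ (Y0 p) (X0 p δ) (fun _ => 1 / 16) W hP
    (isOpen_ball.inter (isOpen_lt continuous_const (by fun_prop))) continuousOn_const hW hW2
    fun x hx => ⟨le_rfl, by norm_num, hd x hx,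
      ball_subset_ball' (by have := mem_ball.1 hx.1; linarith),
      ball_subset_ball' (by have := mem_ball.1 hx.1; linarith)⟩
  refine ⟨W', ⟨hW', fun a x hx => ?_⟩, fun x hx hx1 => ?_⟩
  · obtain ⟨-, Wx, h4, h5⟩ := H x hx.1
    rw [(h5 a).eq_of_nhds]
    exact known hu hS.1 hP.2.1.1 hS.2.2.2.2.2.2.2.2 hκ hκ1 hW hx.1.1 (hd x hx.1) hx.2 h4 a
  · obtain ⟨h6, Wx, h4, h5⟩ := H x ⟨ball_subset_ball (by norm_num) hx, by
      show 1 - 3 * δ < ‖x‖ ^ 2
      linarith⟩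
    refine ⟨h6.trans (mul_le_mul_of_nonneg_right (by linarith) (nrm_nonneg _ _)), fun hx2 => ?_⟩
    rw [vg_congr h5]
    exact (H2 L₁ L₂ p G₁ G₂ x W Wx hS.1 hP hx hx1 hx2 hW hW2 h4).trans
      (mul_le_mul_of_nonneg_right (by linarith) (nrm_nonneg _ _))

end Vale.Agent.P088
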