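import Vale.Agent.P088.St1Tool

/-!
# P088, first stage: local continuation
-/

open MeasureTheory Set Metric Filter
open scoped ContDiff Topology InnerProductSpace

noncomputable section
namespace Vale.Agent.P088
open St1
namespace St1Cl
variable {n : ℕ} {ι : Type} [Fintype ι] {U V : Set (En n)} {W : ι → En n → ℝ}

theorem ae_zero (h : L2On V W) (h0 : nrm V W ≤ 0) (a : ι) :
    ∀ᵐ x ∂(volume.restrict V), W a x = 0 := by
  have h1 := (Finset.sum_eq_zero_iff_of_nonneg fun a _ =>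
    integral_nonneg fun _ => sq_nonneg (W a _)).1 (le_antisymm h0 (nrm_nonneg V W)) a
      (Finset.mem_univ a)
  filter_upwards [(integral_eq_zero_iff_of_nonneg (fun _ => sq_nonneg _) (l2_sq h a)).1 h1]
    with x hx
  exact pow_eq_zero_iff two_ne_zero |>.1 hx

theorem geo {y : En n} {ρ : ℝ} (h0 : 0 < ρ) (hy : 1 + ρ ≤ ‖y‖) :
    ∃ e : En n, ‖e‖ = 1 ∧ ball (y + (5 / 2 * ρ) • e) (ρ / 4) ⊆ {x | 1 < ‖x‖} ∧
      Disjoint (ball (y + (5 / 2 * ρ) • e) (ρ / 4)) (ball y (2 * ρ)) ∧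
      ball y ρ ⊆ {x | 1 < ‖x‖} := by
  have h1 : 0 < ‖y‖ := by linarith
  have h2 : ‖‖y‖⁻¹ • y‖ = 1 := norm_smul_inv_norm (norm_pos_iff.1 h1)
  refine ⟨‖y‖⁻¹ • y, h2, fun z hz => ?_, ball_disjoint_ball ?_, fun z hz => ?_⟩
  · have h3 : y + (5 / 2 * ρ) • ‖y‖⁻¹ • y = (‖y‖ + 5 / 2 * ρ) • ‖y‖⁻¹ • y := by
      rw [add_smul, smul_inv_smul₀ h1.ne']
    have h4 := norm_sub_norm_le (y + (5 / 2 * ρ) • ‖y‖⁻¹ • y) z
    rw [← dist_eq_norm, dist_comm] at h4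
    have h5 : ‖y + (5 / 2 * ρ) • ‖y‖⁻¹ • y‖ = ‖y‖ + 5 / 2 * ρ := by
      rw [h3, norm_smul, h2, mul_one, Real.norm_of_nonneg (by positivity)]
    show 1 < ‖z‖
    linarith [mem_ball.1 hz]
  · rw [dist_self_add_left, norm_smul, h2, mul_one, Real.norm_of_nonneg (by positivity)]
    linarith
  · have h4 := norm_sub_norm_le y z
    rw [← dist_eq_norm, dist_comm] at h4
    show 1 < ‖z‖
    linarith [mem_ball.1 hz]

theorem nrm_diff (hVU : V ⊆ U) (hW : L2On V W) (A B : HL n ι U) :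
    nrm V (cp (A - B)) ≤ 2 * nrm V (linF (cp A) (-1) W) + 2 * nrm V (linF (cp B) (-1) W) := by
  have h := nrm_lin_le (l2_lin (l2_mono (l2_cp A) hVU) hW (-1))
    (l2_lin (l2_mono (l2_cp B) hVU) hW (-1)) (-1)
  rw [neg_one_sq, mul_one] at h
  refine le_trans (le_of_eq (nrm_congr fun a => ?_)) h
  filter_upwards [ae_restrict_of_ae_restrict_of_subset hVU (cp_sub A B a)] with x hx
  simp only [hx, linF]
  ring

theorem nrm_tri (hVU : V ⊆ U) (hW : L2On V W) (A B : HL n ι U) :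
    nrm V (linF (cp A) (-1) W) ≤ 2 * nrm V (linF (cp B) (-1) W) + 2 * ‖A - B‖ ^ 2 := by
  have h := nrm_lin_le (l2_lin (l2_mono (l2_cp B) hVU) hW (-1))
    (l2_mono (l2_cp (A - B)) hVU) 1
  rw [one_pow, mul_one] at h
  refine le_trans (le_of_eq (nrm_congr fun a => ?_)) (h.trans (by linarith [nrm_cp_le hVU (A - B)]))
  filter_upwards [ae_restrict_of_ae_restrict_of_subset hVU (cp_sub A B a)] with x hx
  simp only [hx, linF]
  ring

theorem pow_facts {s ν : ℝ} (hs : 0 < s) (hs1 : s ≤ 1) (hν : 0 < ν) :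
    0 < (s ^ 2) ^ (ν + 1) ∧ (s ^ 2) ^ (ν + 1) ≤ 1 ∧ (s ^ 2) ^ (ν + 1) * (s ^ 2) ^ (-ν) = s ^ 2 ∧
      ((s ^ 2) ^ (ν + 1)) ^ (-(1 / (2 * (ν + 1)))) = s⁻¹ := by
  have h : 0 < s ^ 2 := by positivity
  refine ⟨by positivity, Real.rpow_le_one h.le (pow_le_one₀ hs.le hs1) (by positivity), ?_, ?_⟩
  · rw [← Real.rpow_add h, add_assoc, add_comm, add_assoc, neg_add_cancel, add_zero, Real.rpow_one]
  · rw [← Real.rpow_mul h.le, ← Real.rpow_natCast, ← Real.rpow_mul hs.le, ← Real.rpow_neg_one]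
    congr 1
    push_cast
    field_simp

/-- The limit of the approximations. -/
theorem limit (hw : S_weyl) (hg : S_green) {L : Op n ι} {G : HL n ι U →L[ℝ] HL n ι U}
    (hL : L.Good) (hG : IsGreen L U G) (hU : IsOpen U) (hV : IsOpen V) (hVU : V ⊆ U)
    {S : Set (En n)} (hd : Disjoint S V) {F : ℕ → HL n ι U} (hF : ∀ j, SuppIn S (F j)) {A : ℝ}
    (hA : 0 ≤ A) (h : ∀ j, nrm V (cp (G (F (j + 1) - F j))) ≤ A * ((1 / 2) ^ j) ^ 2) :
    ∃ (x : HL n ι U) (W' : ι → En n → ℝ), Sol L V W' 0 ∧ L2On V W' ∧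
      (∀ a, W' a =ᵐ[volume.restrict V] cp x a) ∧ ‖x‖ ^ 2 ≤ 2 * ‖G (F 0)‖ ^ 2 + 8 * A ∧
      Tendsto (fun j => ind U hV.measurableSet (G (F j))) atTop (𝓝 x) := by
  have h1 : ∀ j, dist (ind U hV.measurableSet (G (F j))) (ind U hV.measurableSet (G (F (j + 1))))
      ≤ √A * (1 / 2) ^ j := fun j => by
    rw [dist_comm, dist_eq_norm, ← map_sub, ← map_sub]
    refine (sq_le_sq₀ (norm_nonneg _) (by positivity)).1 ?_
    rw [norm_ind _ hVU, mul_pow, Real.sq_sqrt hA]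
    exact h j
  obtain ⟨x, hx⟩ := cauchySeq_tendsto_of_complete (cauchySeq_of_le_geometric _ _ (by norm_num) h1)
  have h2 := dist_le_of_le_geometric_of_tendsto₀ _ _ (by norm_num) h1 hx
  obtain ⟨W', w1, w2, w3⟩ := weak_sol hw hg hL hV hVU x fun ψ hψ => by
    have t1 := tests_app (good_T hg hL).1 hψ
    refine tendsto_nhds_unique (hx.inner tendsto_const_nhds) (tendsto_const_nhds.congr fun j => ?_)
    rw [ind_symm, ind_self _ (supp_tl hU.measurableSet (tests_l2 t1 U) fun z _ hz a =>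
      tests_zero t1 hz a), hG.1 _ _ (tests_mono hψ hVU)]
    exact (inner_disjoint (hF j) (supp_tl hU.measurableSet (tests_l2 hψ U) fun z _ hz a =>
      tests_zero hψ hz a) hd).symm
  refine ⟨x, W', w1, w2, w3, ?_, hx⟩
  have h3 := norm_sub_norm_le x (ind U hV.measurableSet (G (F 0)))
  rw [← dist_eq_norm, dist_comm] at h3
  have h4 : ‖x‖ ≤ ‖G (F 0)‖ + 2 * √A := by
    linarith [norm_ind_le hV.measurableSet (G (F 0)), show √A / (1 - 1 / 2) = 2 * √A by ring]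
  nlinarith [Real.sq_sqrt hA, sq_nonneg (‖G (F 0)‖ - 2 * √A), pow_le_pow_left₀ (norm_nonneg x) h4 2]

theorem norm_G {G : HL n ι U →L[ℝ] HL n ι U} {m : ℝ} (h : ‖G‖ ≤ m) (F : HL n ι U) :
    ‖G F‖ ^ 2 ≤ m ^ 2 * ‖F‖ ^ 2 := by
  rw [← mul_pow]
  exact pow_le_pow_left₀ (norm_nonneg _) (G.le_of_opNorm_le h F) 2

theorem num {C C₂ m N s a b c d e f ε ε' p p' : ℝ} (hC : 0 ≤ C) (hC₂ : 0 ≤ C₂) (hN : 0 ≤ N)
    (hs : 0 < s) (hs1 : s ≤ 1) (hε : 0 < ε) (h1 : a ≤ C₂ * (ε * b + (s / 4)⁻¹ * c))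
    (h2 : b ≤ m ^ 2 * (2 * d + 2 * e)) (h3 : d ≤ C * p' * N) (h4 : e ≤ C * p * N) (h5 : p ≤ p')
    (h6 : ε * p' = (s / 4) ^ 2) (h7 : c ≤ 2 * f + 2 * ε') (h8 : f ≤ C * (s / 4) ^ 2 * N)
    (h9 : ε' ≤ C * s ^ 2 * N) : a ≤ C₂ * (4 * m ^ 2 * C + 16 * C) * N * s := by
  have hCN : 0 ≤ C * N := mul_nonneg hC hN
  have k1 : b ≤ m ^ 2 * (4 * (C * N) * p') := h2.trans (mul_le_mul_of_nonneg_left
    (by nlinarith [mul_le_mul_of_nonneg_left h5 hCN]) (sq_nonneg m))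
  have k2 : ε * b ≤ 4 * m ^ 2 * (C * N) * s := by
    refine (mul_le_mul_of_nonneg_left k1 hε.le).trans ?_
    have : ε * (m ^ 2 * (4 * (C * N) * p')) = 4 * m ^ 2 * (C * N) * (s / 4) ^ 2 := by
      rw [← h6]; ring
    rw [this]
    exact mul_le_mul_of_nonneg_left (by nlinarith) (by positivity)
  have k3 : (s / 4)⁻¹ * c ≤ 16 * (C * N) * s := by
    rw [inv_mul_le_iff₀ (by positivity)]
    nlinarith [mul_nonneg hCN (sq_nonneg s)]
  refine h1.trans ?_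
  have := mul_le_mul_of_nonneg_left (add_le_add k2 k3) hC₂
  linarith

end St1Cl

open St1Cl

theorem s1_cl (htb : S_tb) (hw : S_weyl) (hg : S_green) : S1_cl := by
  intro n ι _ k om ν hom hν hR
  obtain ⟨k₂, κ, om₂, κ0, κ1, hom₂, ht⟩ := htb n ι (1 / (2 * (ν + 1))) (by positivity)
  refine ⟨max k k₂, min om om₂, κ, lt_min hom hom₂, κ0, κ1, fun M ρ₀ hρ₀ => ?_⟩
  obtain ⟨C, hC, hR⟩ := hR M ρ₀ hρ₀
  obtain ⟨C₂, hC₂, ht⟩ := ht M
  refine ⟨2 * (M 0 ^ 2 * C) + 8 * (C₂ * (4 * M 0 ^ 2 * C + 16 * C)), by positivity, ?_⟩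
  intro L₁ L₂ U G₁ G₂ y ρ W ⟨hU, b1, b2, g1, g2, n1, n2, hA⟩ r0 r1 hy hB hW hW2
  have hρ : 0 < ρ := hρ₀.trans_le r0
  obtain ⟨e, e1, e2, e3, e4⟩ := geo hρ hy
  have hs : ∀ j : ℕ, (0 : ℝ) < (1 / 4) ^ j ∧ (1 / 4 : ℝ) ^ j ≤ 1 := fun j =>
    ⟨by positivity, pow_le_one₀ (by norm_num) (by norm_num)⟩
  choose F F1 F2 F3 using fun j : ℕ => hR L₂ U G₂ y e ρ (((1 / 4) ^ j) ^ 2) W hU
    (bd_mono b2 (le_max_left _ _) (min_le_left _ _)) g2 n2 r0 r1 e1 hB (by positivity)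
    (pow_le_one₀ (hs j).1.le (hs j).2) hW hW2
  set N := nrm (ball y (3 / 2 * ρ)) W
  have hN : 0 ≤ N := nrm_nonneg _ _
  have s1 : ball y ρ ⊆ ball y ((1 + κ) * ρ) := ball_subset_ball (by nlinarith)
  have s2 : ball y ((1 + κ) * ρ) ⊆ ball y (2 * ρ) := ball_subset_ball (by nlinarith)
  have s3 : ball y (2 * ρ) ⊆ U := (ball_subset_ball (by linarith)).trans hB
  have s4 : ball y ρ ⊆ ball y (3 / 2 * ρ) := ball_subset_ball (by linarith)
  have s5 := (s1.trans s2).trans s3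
  have ag : ∀ {F : HL n ι U}, SuppIn (ball (y + (5 / 2 * ρ) • e) (ρ / 4)) F → ∀ a,
      cp (G₁ F) a =ᵐ[volume.restrict (ball y ρ)] cp (G₂ F) a := fun hF =>
    agree_ae hA (supp_mono hF (fun _ _ hx => e2 hx) hU.measurableSet) measurableSet_ball s5 e4
  obtain ⟨x, W', w1, w2, w3, w4, w5⟩ := limit hw hg b1.1 g1 hU isOpen_ball (s2.trans s3)
    (e3.mono_right s2) F1 (A := C₂ * (4 * M 0 ^ 2 * C + 16 * C) * N) (by positivity) fun j => by
      have d1 := supp_sub (F1 (j + 1)) (F1 j)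
      obtain ⟨u, u1, u2, u3⟩ := green_sol hw hg b1.1 g1 hU isOpen_ball s3 d1 e3
      obtain ⟨p1, p2, p3, p4⟩ := pow_facts (hs (j + 1)).1 (hs (j + 1)).2 hν
      have h1 := ht L₁ y ρ _ u (bd_mono b1 (le_max_right _ _) (min_le_right _ _)) hρ r1 p1 p2 u1 u2
      rw [p4, nrm_congr u3, nrm_congr fun a => ae_restrict_of_ae_restrict_of_subset s2 (u3 a),
        nrm_congr fun a => EventuallyEq.trans
          (ae_restrict_of_ae_restrict_of_subset (s1.trans s2) (u3 a)) (ag d1 a), map_sub G₂] at h1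
      have q : (1 / 4 : ℝ) ^ (j + 1) = (1 / 4) ^ j / 4 := by ring
      have q' : ((1 / 2 : ℝ) ^ j) ^ 2 = (1 / 4) ^ j := by rw [← pow_mul, mul_comm, pow_mul]; norm_num
      have h2 := F2 (j + 1)
      have h3 := F3 (j + 1)
      rw [q] at h1 h2 h3 p1 p3
      rw [q']
      refine num hC hC₂ hN (hs j).1 (hs j).2 p1 h1 (((nrm_cp_le s3 _).trans (norm_G n1 _)).trans
        (mul_le_mul_of_nonneg_left ?_ (sq_nonneg _))) h2 (F2 j) ?_ p3
        (nrm_diff s5 (l2_mono hW2 s4) _ _) h3 (F3 j)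
      · nlinarith [pow_le_pow_left₀ (norm_nonneg _) (norm_sub_le (F (j + 1)) (F j)) 2,
          sq_nonneg (‖F (j + 1)‖ - ‖F j‖)]
      · exact Real.rpow_le_rpow_of_nonpos (by positivity) (by nlinarith [sq_nonneg ((1 / 4 : ℝ) ^ j)])
          (by linarith)
  refine ⟨W', ⟨w1, eqOn_of_ae isOpen_ball (sol_mono w1 s1).1 (sol_mono hW s4).1 fun a => ?_⟩, w2, ?_⟩
  · have h1 : nrm (ball y ρ) (linF (cp x) (-1) W) ≤ 0 := by
      have t1 : Tendsto (fun j : ℕ => 2 * (C * ((1 / 4 : ℝ) ^ j) ^ 2 * N) +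
          2 * ‖x - ind U isOpen_ball.measurableSet (G₁ (F j))‖ ^ 2) atTop
          (𝓝 (2 * (C * 0 ^ 2 * N) + 2 * ‖x - x‖ ^ 2)) :=
        (((((tendsto_pow_atTop_nhds_zero_of_lt_one (by norm_num) (by norm_num)).pow 2).const_mul
          C).mul_const N).const_mul 2).add (((w5.const_sub x).norm.pow 2).const_mul 2)
      simp only [sub_self, norm_zero, zero_pow two_ne_zero, mul_zero, zero_mul, add_zero] at t1
      refine ge_of_tendsto' t1 fun j => (nrm_tri s5 (l2_mono hW2 s4) x _).trans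
        (add_le_add (mul_le_mul_of_nonneg_left (le_trans (le_of_eq (nrm_congr fun a => ?_)) (F3 j))
          zero_le_two) le_rfl)
      filter_upwards [ae_restrict_of_ae_restrict_of_subset s1
        (cp_ind_on isOpen_ball.measurableSet (s2.trans s3) (G₁ (F j)) a), ag (F1 j) a] with z z1 z2
      simp only [linF, z1, z2]
    filter_upwards [ae_restrict_of_ae_restrict_of_subset s1 (w3 a),
      ae_zero (l2_lin (l2_mono (l2_cp x) s5) (l2_mono hW2 s4) (-1)) h1 a] with z z1 z2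
    simp only [linF] at z2
    linarith
  · have h1 := F2 0
    simp only [pow_zero, one_pow, Real.one_rpow, mul_one] at h1
    rw [nrm_congr w3]
    refine ((nrm_cp_le (s2.trans s3) x).trans w4).trans ?_
    nlinarith [norm_G n1 (F 0), mul_le_mul_of_nonneg_left h1 (sq_nonneg (M 0))]

end Vale.Agent.P088
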