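import Vale.Agent.P088.St1Defs

/-! # P088, first stage: cutoff functions with uniform bounds -/

open MeasureTheory Set Metric Filter
open scoped ContDiff Topology InnerProductSpace Convolution

noncomputable section
namespace Vale.Agent.P088
open Vale.Agent.P136 (D Dp Dm Sm Tst)

namespace St1Cut
variable {n : ℕ}

lemma D_conv {χ f : En n → ℝ} (hχ : LocallyIntegrable χ) (hf : Tst f) (v : En n) :
    D v (χ ⋆[ContinuousLinearMap.mul ℝ ℝ] f) = χ ⋆[ContinuousLinearMap.mul ℝ ℝ] D v f := by
  funext x
  unfold D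
  rw [(hf.2.hasFDerivAt_convolution_right _ hχ (hf.1.of_le (by simp)) x).fderiv,
    convolution_precompR_apply _ hχ (hf.2.fderiv ℝ) (hf.1.continuous_fderiv (by simp))]

lemma Ds_conv {χ f : En n → ℝ} (hχ : LocallyIntegrable χ) (hf : Tst f) (l : List (Fin n)) :
    Tst (Ds ee l f) ∧ Ds ee l (χ ⋆[ContinuousLinearMap.mul ℝ ℝ] f) =
      χ ⋆[ContinuousLinearMap.mul ℝ ℝ] Ds ee l f := by
  induction l with
  | nil => exact ⟨hf, rfl⟩
  | cons i l ih =>
    refine ⟨ih.1.D _, ?_⟩
    change D (ee i) (Ds ee l _) = _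
    rw [ih.2, D_conv hχ ih.1]
    rfl

lemma conv_le {χ f : En n → ℝ} (hχ : ∀ x, |χ x| ≤ 1) (hf : Tst f) (x : En n) :
    |(χ ⋆[ContinuousLinearMap.mul ℝ ℝ] f) x| ≤ ∫ y, |f y| := by
  have hi : Integrable fun y => |f y| := (hf.integrable (μ := volume)).abs
  rw [convolution_def, ← integral_sub_left_eq_self (fun y => |f y|) volume x, ← Real.norm_eq_abs]
  refine norm_integral_le_of_norm_le (hi.comp_sub_left x) (Eventually.of_forall fun t => ?_)
  rw [ContinuousLinearMap.mul_apply', Real.norm_eq_abs, abs_mul]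
  exact mul_le_of_le_one_left (abs_nonneg _) (hχ t)

end St1Cut
open St1Cut

theorem s1_cut : S1_cut := by
  intro n r hr
  let b : ContDiffBump (0 : En n) := ⟨r / 4, r / 2, by linarith, by linarith⟩
  have hφ : Tst (b.normed volume) := ⟨b.contDiff_normed, b.hasCompactSupport_normed⟩
  have h0 : ∀ y, r / 2 ≤ ‖y‖ → b.normed volume y = 0 := fun y hy => by
    by_contra hc
    have : y ∈ Function.support (b.normed volume) := hc
    rw [b.support_normed_eq, mem_ball_zero_iff] at this
    exact absurd this (not_lt.2 hy)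
  have hfin := List.finite_length_le (Fin n) 2
  refine ⟨∑ l ∈ hfin.toFinset, ∫ y, |Ds ee l (b.normed volume) y|,
    Finset.sum_nonneg fun l _ => integral_nonneg fun y => abs_nonneg _, fun K => ?_⟩
  set χ : En n → ℝ := (thickening (3 * r / 2) K).indicator fun _ => 1 with hχ
  have hL : LocallyIntegrable χ :=
    (locallyIntegrable_const 1).indicator isOpen_thickening.measurableSet
  have hχ1 : ∀ x, |χ x| ≤ 1 := fun x => by
    by_cases hx : x ∈ thickening (3 * r / 2) K
    · simp [hχ, hx]
    · simp [hχ, hx]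
  refine ⟨χ ⋆[ContinuousLinearMap.mul ℝ ℝ] b.normed volume,
    hφ.2.contDiff_convolution_right _ hL hφ.1, fun y hy => ?_, fun y hy => ?_, fun y l hl => ?_⟩
  · rw [convolution_def, ← b.integral_normed (μ := volume),
      ← integral_sub_left_eq_self (b.normed volume) volume y]
    refine integral_congr_ae (Eventually.of_forall fun t => ?_)
    simp only [ContinuousLinearMap.mul_apply']
    by_cases ht : r / 2 ≤ ‖y - t‖
    · rw [h0 _ ht, mul_zero]
    · obtain ⟨z, hz, hd⟩ := mem_thickening_iff.1 hy
      have : t ∈ thickening (3 * r / 2) K := mem_thickening_iff.2 ⟨z, hz, by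
        have := dist_triangle_left t z y
        rw [dist_eq_norm y t] at this
        linarith [not_le.1 ht]⟩
      rw [hχ, indicator_of_mem this, one_mul]
  · rw [convolution_def]
    refine integral_eq_zero_of_ae (Eventually.of_forall fun t => ?_)
    simp only [ContinuousLinearMap.mul_apply', Pi.zero_apply]
    by_cases ht : r / 2 ≤ ‖y - t‖
    · rw [h0 _ ht, mul_zero]
    · have : t ∉ thickening (3 * r / 2) K := fun hc => by
        obtain ⟨z, hz, hd⟩ := mem_thickening_iff.1 hc
        refine hy (mem_thickening_iff.2 ⟨z, hz, ?_⟩)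
        have := dist_triangle y t z
        rw [dist_eq_norm y t] at this
        linarith [not_le.1 ht]
      rw [hχ, indicator_of_notMem this, zero_mul]
  · obtain ⟨h1, h2⟩ := Ds_conv hL hφ l
    rw [h2, one_pow, mul_one]
    exact (conv_le hχ1 h1 y).trans (Finset.single_le_sum
      (f := fun l => ∫ y, |Ds ee l (b.normed volume) y|)
      (fun l _ => integral_nonneg fun y => abs_nonneg _) (hfin.mem_toFinset.2 hl))

end Vale.Agent.P088
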