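import Vale.Agent.P088.St1Tool

/-!
# P088, first stage: splitting of the source
-/

open MeasureTheory Set Metric Filter
open scoped ContDiff Topology InnerProductSpace

noncomputable section
namespace Vale.Agent.P088
open Vale.Agent.P136 (D Dp Dm Sm Tst)
open St1

namespace St1Dec
variable {n : ℕ} {ι : Type} [Fintype ι]

theorem chi (hcut : S1_cut) (n : ℕ) : ∃ B : ℝ, 0 ≤ B ∧ ∀ p : En n, ∃ χ : En n → ℝ, Sm χ ∧
    (∀ y ∈ ball p (21 / 50), χ y = 1) ∧ (∀ y, y ∉ ball p (22 / 50) → χ y = 0) ∧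
    ∀ y, SB ee 2 B 1 χ y := by
  obtain ⟨B, hB, h⟩ := hcut n (1 / 50) (by norm_num)
  refine ⟨B, hB, fun p => ?_⟩
  obtain ⟨χ, h1, h2, h3, h4⟩ := h (closedBall p (2 / 5))
  rw [thickening_closedBall (by norm_num) (by norm_num)] at h2 h3
  refine ⟨χ, h1, fun y hy => h2 y ?_, fun y hy => h3 y ?_, h4⟩
  · norm_num
    exact hy
  · norm_num at hy ⊢
    exact hy

theorem norm_le_two {p y : En n} (hp : ‖p‖ = 1) (hy : dist y p ≤ 1) : ‖y‖ ≤ 2 := by
  have := norm_sub_norm_le y p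
  rw [← dist_eq_norm] at this
  linarith

theorem theta (hcut : S1_cut) (n : ℕ) {δ : ℝ} (h0 : 0 < δ) (h1 : δ ≤ 1 / 200) :
    ∃ B : ℝ, 0 ≤ B ∧ ∀ (p x : En n) (lam : ℝ), ‖p‖ = 1 → ‖x‖ ≤ 1 → 0 ≤ lam → lam ≤ 1 / 2 →
      ∃ (θ : En n → ℝ) (K : Set (En n)), Sm θ ∧ IsCompact K ∧ K ⊆ NV p lam δ x ∧
        (∀ y, y ∉ K → θ y = 0) ∧ (∀ y ∈ closedBall p (22 / 50),
          (∀ᶠ z in 𝓝 y, θ z = 1) ∨ ball y (δ / 100) ⊆ Vis p lam δ x) ∧ ∀ y, SB ee 2 B 1 θ y := by
  obtain ⟨B, hB, h⟩ := hcut n (δ / 100) (by positivity)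
  refine ⟨B, hB, fun p x lam hp hx l0 l1 => ?_⟩
  obtain ⟨K, hK⟩ : ∃ K, K = closedBall p (22 / 50) ∩ {y | 1 - δ / 4 ≤ fV lam x y} := ⟨_, rfl⟩
  have hc : IsCompact K := by
    rw [hK]
    exact (isCompact_closedBall _ _).inter_right
      (isClosed_le continuous_const (by unfold fV; fun_prop))
  obtain ⟨θ, k1, k2, k3, k4⟩ := h K
  refine ⟨θ, cthickening (2 * (δ / 100)) K, k1, hc.cthickening, fun y hy => ?_,
    fun y hy => k3 y fun k => hy (thickening_subset_cthickening _ _ k), fun y hy => ?_, k4⟩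
  · obtain ⟨z, hz, hd⟩ := mem_thickening_iff.1
      (cthickening_subset_thickening' (δ₂ := 3 * (δ / 100)) (by positivity) (by linarith) K hy)
    rw [hK] at hz
    have a1 : dist z p ≤ 22 / 50 := hz.1
    have a2 : 1 - δ / 4 ≤ fV lam x z := hz.2
    have a3 := dist_triangle y z p
    have a4 := abs_le.1 (ff_lip l0 l1 hx (norm_le_two hp (y := y) (by linarith))
      (norm_le_two hp (y := z) (by linarith)))
    exact ⟨mem_ball.2 (by linarith), show 1 - δ / 2 < fV lam x y by linarith [a4.1]⟩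
  · by_cases hyK : y ∈ K
    · exact Or.inl (eventually_of_mem
        (isOpen_thickening.mem_nhds (self_subset_thickening (by positivity) K hyK)) k2)
    · refine Or.inr fun z hz => ?_
      have a1 : dist y p ≤ 22 / 50 := hy
      have a2 : fV lam x y < 1 - δ / 4 := by
        by_contra k
        exact hyK (by rw [hK]; exact ⟨hy, not_lt.1 k⟩)
      have a3 := dist_triangle z y p
      have a5 : dist z y < δ / 100 := hz
      have a4 := abs_le.1 (ff_lip l0 l1 hx (norm_le_two hp (y := z) (by linarith))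
        (norm_le_two hp (y := y) (by linarith)))
      exact mem_Vis.2 ⟨mem_ball.2 (by linarith), by linarith [a4.2]⟩

theorem nrm_U0 {p : En n} {W : ι → En n → ℝ} {B : ℝ} (h : L2On (U0 p) W)
    (hB : ∀ y, ∑ a, W a y ^ 2 ≤ B) :
    nrm (U0 p) W ≤ B * (volume (ball (0 : En n) (3 / 4))).toReal := by
  rw [← Measure.addHaar_ball_center volume p]
  exact nrm_le_of_bound measurableSet_ball measure_ball_lt_top.ne h fun y _ => hB y

theorem sq_mul {θ : En n → ℝ} {W : ι → En n → ℝ} {y : En n} {B C : ℝ} (h1 : |θ y| ≤ B)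
    (h2 : ∑ a, W a y ^ 2 ≤ C) : ∑ a, mulF θ W a y ^ 2 ≤ B ^ 2 * C := by
  simp only [mulF, mul_pow, ← Finset.mul_sum]
  exact mul_le_mul (sq_le_sq' (abs_le.1 h1).1 (abs_le.1 h1).2) h2 (by positivity) (by positivity)

theorem sb_abs {θ : En n → ℝ} {y : En n} {B : ℝ} (h : SB ee 2 B 1 θ y) : |θ y| ≤ B := by
  simpa [Ds] using h [] (by simp)

theorem absorb {N A c : ℝ} (hN : 0 ≤ N) (hA : 0 ≤ A) (hc : 0 ≤ c) (h : N ≤ √A * √(c * N)) :
    N ≤ c * A := by
  rw [← Real.sqrt_mul hA] at h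
  have h1 := (Real.le_sqrt hN (by positivity)).1 h
  rcases hN.eq_or_lt with rfl | h2
  · positivity
  · nlinarith

theorem y0_sub (p : En n) : Y0 p ⊆ U0 p := ball_subset_ball (by norm_num)

/-- The pairing with the invisible part. -/
theorem pairing (hg : S_green) {L : Op n ι} (hL : L.Good) {p : En n}
    (G : HL n ι (U0 p) →L[ℝ] HL n ι (U0 p)) {V N : Set (En n)} (hV : MeasurableSet V)
    (hN : N ⊆ U0 p) {θ : En n → ℝ} {ψ v : ι → En n → ℝ} (hθ : Sm θ) (hψ : Tests (U0 p) ψ)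
    (hv : Tests N (mulF θ v)) {h : HL n ι (U0 p)}
    (hh : h = ind (U0 p) hV (G (tl (U0 p) (mulF θ (L.app ψ)))))
    (h1 : ∀ a, ∀ᵐ y ∂(volume.restrict (U0 p)), θ y * L.app ψ a y ≠ 0 →
      v a y = cp (ContinuousLinearMap.adjoint G h) a y) :
    ‖h‖ ^ 2 = ∑ a, ∫ y in U0 p, ψ a y * L.T.app (mulF θ v) a y := by
  have k1 : ind (U0 p) hV h = h := ind_self hV (hh ▸ supp_ind hV _)
  have k2 : ‖h‖ ^ 2 = ⟪tl (U0 p) (mulF θ (L.app ψ)), ContinuousLinearMap.adjoint G h⟫_ℝ := by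
    rw [ContinuousLinearMap.adjoint_inner_right, ← k1, ← ind_symm, ← hh, k1,
      real_inner_self_eq_norm_sq]
  rw [k2, inner_eq, (hg n ι L (U0 p) ψ _ hL isOpen_ball (fun a => (hψ a).1.1.contDiffOn)
    (tests_mono hv hN)).2.2]
  refine Finset.sum_congr rfl fun a _ => integral_congr_ae ?_
  filter_upwards [cp_tl (tests_l2 (tests_mul (tests_app hL hψ) hθ) (U0 p)) a, h1 a] with y e1 e2
  rw [e1]
  simp only [mulF]
  by_cases h0 : θ y * L.app ψ a y = 0
  · rw [h0, ← mul_assoc, mul_comm _ (θ y), h0, zero_mul, zero_mul]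
  · rw [← e2 h0]
    ring

/-- The pairing only sees the visible part. -/
theorem visible {p : En n} {V : Set (En n)} (hV : V ⊆ U0 p) {χ : En n → ℝ} {W g : ι → En n → ℝ}
    (hχ : Sm χ) (hW : L2On V W) (hg : Tests (U0 p) g) {B C : ℝ} (h1 : ∀ y, |χ y| ≤ B)
    (h2 : ∀ y, ∑ a, g a y ^ 2 ≤ C) (h3 : ∀ y a, y ∉ V → χ y * g a y = 0) :
    ∑ a, ∫ y in U0 p, mulF χ W a y * g a y ≤
      √(nrm V W) * √(B ^ 2 * C * (volume (ball (0 : En n) (3 / 4))).toReal) := by
  have k1 : ∀ a, ∫ y in U0 p, mulF χ W a y * g a y = ∫ y in V, W a y * mulF χ g a y := fun a => by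
    refine Eq.trans ?_ (setIntegral_eq_of_subset_of_forall_sdiff_eq_zero measurableSet_ball hV
      fun y hy => mul_eq_zero_of_right (W a y) (h3 y a hy.2))
    exact integral_congr_ae (Eventually.of_forall fun y => by simp only [mulF]; ring)
  have k2 := tests_l2 (tests_mul hg hχ)
  rw [Finset.sum_congr rfl fun a _ => k1 a]
  refine ((le_abs_self _).trans (cs hW (k2 V))).trans (mul_le_mul_of_nonneg_left
    (Real.sqrt_le_sqrt ((nrm_mono (k2 _) hV).trans ?_)) (Real.sqrt_nonneg _))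
  exact nrm_U0 (k2 _) fun y => sq_mul (h1 y) (h2 y)

end St1Dec

open St1Dec in
theorem s1_dec (hg : S_green) (hcut : S1_cut) (hcom : S1_com) : S1_dec := by
  intro n ι _ k om κ hκ hκ1 hvg hadj M δ hδ hδ1
  obtain ⟨B₁, hB₁, hχ⟩ := chi hcut n
  obtain ⟨B₂, hB₂, hθ⟩ := theta hcut n hδ (by linarith)
  obtain ⟨M', -, hM'⟩ := bd_T hg n ι M
  obtain ⟨C₁, hC₁, com₁⟩ := hcom n ι M B₁
  obtain ⟨C₂, hC₂, com₂⟩ := hcom n ι M' B₂
  obtain ⟨C₃, hC₃, hvg⟩ := hvg M (δ / 100) (by positivity) (by linarith)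
  obtain ⟨C₄, hC₄, hadj⟩ := hadj M δ hδ hδ1
  obtain ⟨vol, hvol⟩ : ∃ vol, vol = (volume (ball (0 : En n) (3 / 4))).toReal := ⟨_, rfl⟩
  have hvol0 : 0 ≤ vol := hvol ▸ ENNReal.toReal_nonneg
  have c1 : 0 ≤ (1 + B₂) ^ 2 * (C₁ * C₃) * vol := by positivity
  have c2 : 0 ≤ B₁ ^ 2 * (C₂ * C₄) * vol := by positivity
  refine ⟨(1 + B₂) ^ 2 * (C₁ * C₃) * vol + B₁ ^ 2 * (C₂ * C₄) * vol, by positivity,
    fun L₁ L₂ p G₁ G₂ x W hp hP hx hx1 hW hW2 => ?_⟩
  obtain ⟨χ, x1, x2, x3, x4⟩ := hχ p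
  obtain ⟨θ, K, t1, t2, t3, t4, t5, t6⟩ := hθ p x (κ / 64) hp
    (by nlinarith [norm_nonneg x]) (by positivity) (by linarith)
  have hL := hP.2.2.1
  have hψ : Tests (U0 p) (mulF χ W) := tests_mono (tests_mulF isOpen_ball hW.1 x1
    (isCompact_closedBall p (22 / 50)) (closedBall_subset_ball (by norm_num))
    fun y hy => x3 y fun h => hy (ball_subset_closedBall h)) (y0_sub p)
  obtain ⟨F, hF⟩ : ∃ F, F = L₂.app (mulF χ W) := ⟨_, rfl⟩
  have hFt : Tests (U0 p) F := hF ▸ tests_app hL.1 hψ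
  have f1 : ∀ y ∈ ball p (21 / 50), ∀ a, F a y = 0 := fun y hy a => by
    rw [hF]
    exact app_mulF_one hW (ball_subset_ball (by norm_num) hy)
      (eventually_of_mem (isOpen_ball.mem_nhds hy) x2) a
  have f2 : ∀ y, y ∉ closedBall p (22 / 50) → ∀ a, F a y = 0 := fun y hy a => by
    rw [hF]
    exact app_mulF_zero _ _ (eventually_of_mem (isClosed_closedBall.isOpen_compl.mem_nhds hy)
      fun z hz => x3 z fun h => hz (ball_subset_closedBall h)) a
  have f3 : ∀ y a, θ y * F a y ≠ 0 → y ∈ NV p (κ / 64) δ x ∧ 1 < ‖y‖ := fun y a h => by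
    have a1 : y ∈ NV p (κ / 64) δ x := t3 (by
      by_contra k
      exact h (by rw [t4 y k, zero_mul]))
    have a2 : 21 / 50 ≤ dist y p := by
      by_contra k
      exact h (by rw [f1 y (not_le.1 k), mul_zero])
    have a3 := (NN_facts (by positivity) (by linarith) hδ hx hx1 a1).2.2.1
    have a4 := dist_triangle y x p
    have a5 : dist x p < 1 / 5 := hx
    rw [dist_eq_norm y x] at a4
    refine ⟨a1, lt_of_pow_lt_pow_left₀ 2 (norm_nonneg _) ?_⟩
    nlinarith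
  have hVU : Vis p (κ / 64) δ x ⊆ U0 p := inter_subset_left.trans (y0_sub p)
  have hWV : L2On (Vis p (κ / 64) δ x) W := l2_mono hW2 inter_subset_left
  have hA := nrm_nonneg (Vis p (κ / 64) δ x) W
  have l1 := tests_l2 (tests_mul hFt t1) (U0 p)
  have l2 := tests_l2 (tests_mul hFt (θ := fun y => 1 - θ y) (contDiff_const.sub t1)) (U0 p)
  refine ⟨tl _ (mulF θ F), tl _ (mulF (fun y => 1 - θ y) F),
    supp_tl measurableSet_ball l1 fun y _ hy a => ?_,
    supp_tl measurableSet_ball l1 fun y _ hy a => mul_eq_zero_of_right _ (f1 y (not_not.1 hy) a),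
    supp_tl measurableSet_ball l2 fun y _ hy a => mul_eq_zero_of_right _ (f1 y (not_not.1 hy) a),
    fun a => ?_, ?_, ?_⟩
  · by_contra h
    exact hy (f3 y a h).2
  · have e : tl (U0 p) (mulF θ F) + tl _ (mulF (fun y => 1 - θ y) F) = tl _ F := by
      refine hl_ext fun a => ?_
      filter_upwards [cp_add (tl (U0 p) (mulF θ F)) (tl _ (mulF (fun y => 1 - θ y) F)) a,
        cp_tl l1 a, cp_tl l2 a, cp_tl (tests_l2 hFt (U0 p)) a] with y e1 e2 e3 e4
      rw [e1, e2, e3, e4]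
      simp only [mulF]
      ring
    rw [e, hF, hP.2.2.2.2.1.2 _ hψ]
    filter_upwards [ae_restrict_of_ae_restrict_of_subset (ball_subset_ball (by norm_num))
      (cp_tl (tests_l2 hψ (U0 p)) a), ae_restrict_mem measurableSet_ball] with y e1 e2
    rw [e1, mulF, x2 y e2, one_mul]
  · rw [norm_tl l2]
    refine (nrm_U0 l2 (B := (1 + B₂) ^ 2 * (C₁ * (C₃ * nrm (Vis p (κ / 64) δ x) W)))
      fun y => ?_).trans (by rw [← hvol]; nlinarith)
    by_cases hy : y ∈ closedBall p (22 / 50)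
    · rcases t5 y hy with h | h
      · simp only [mulF, h.self_of_nhds, sub_self, zero_mul]
        rw [zero_pow two_ne_zero, Finset.sum_const_zero]
        positivity
      · refine sq_mul ((abs_sub _ _).trans (by rw [abs_one]; linarith [sb_abs (t6 y)])) ?_
        rw [hF]
        refine (com₁ k om L₂ _ χ W y hL isOpen_ball (closedBall_subset_ball (by norm_num) hy) hW x1
          (x4 y)).trans (mul_le_mul_of_nonneg_left ((hvg L₂ y W hL
            (sol_mono hW (h.trans inter_subset_left)) (l2_mono hWV h)).trans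
              (mul_le_mul_of_nonneg_left (nrm_mono hWV h) hC₃)) hC₁)
    · simp only [mulF, f2 y hy, mul_zero]
      rw [zero_pow two_ne_zero, Finset.sum_const_zero]
      positivity
  · have hb : MeasurableSet (ball x (δ / 8)) := measurableSet_ball
    obtain ⟨h, hh⟩ : ∃ h, h = ind (U0 p) hb (G₁ (tl _ (mulF θ F))) := ⟨_, rfl⟩
    have hbU : ball x (δ / 8) ⊆ U0 p := ball_subset_ball' (by linarith [mem_ball.1 hx])
    rw [← norm_ind hb hbU, ← hh]
    obtain ⟨v, v1, v2, v3⟩ := hadj L₁ L₂ p G₁ G₂ x h hp hP hx hx1 (hh ▸ supp_ind hb _)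
    have hNU : NV p (κ / 64) δ x ⊆ U0 p := inter_subset_left.trans (ball_subset_ball (by norm_num))
    have hv := tests_mulF (isOpen_NN _ _ _ _) v1.1 t1 t2 t3 t4
    have g0 : ∀ y, y ∉ K → ∀ a, L₂.T.app (mulF θ v) a y = 0 := fun y hy a =>
      app_mulF_zero _ _ (eventually_of_mem (t2.isClosed.isOpen_compl.mem_nhds hy) t4) a
    have k1 := pairing hg hL.1 G₁ hb hNU t1 hψ hv (hF ▸ hh) fun a => (v3 a).mono fun y e h0 =>
      e (f3 y a (hF ▸ h0)).1 (f3 y a (hF ▸ h0)).2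
    have k2 := visible hVU x1 hWV (tests_app (good_T hg hL.1).1 (tests_mono hv hNU))
      (fun y => sb_abs (x4 y)) (C := C₂ * (C₄ * ‖h‖ ^ 2)) (fun y => by
        by_cases hy : y ∈ K
        · exact (com₂ k om _ _ θ v y (hM' k om L₂ hL) (isOpen_NN _ _ _ _) (t3 hy) v1 t1
            (t6 y)).trans (mul_le_mul_of_nonneg_left (v2 y (t3 hy)) hC₂)
        · simp only [g0 y hy]
          rw [zero_pow two_ne_zero, Finset.sum_const_zero]
          positivity) fun y a hy => by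
        by_cases h1 : y ∈ ball p (22 / 50)
        · by_cases h2 : y ∈ K
          · rcases t5 y (ball_subset_closedBall h1) with h3 | h3
            · rw [app_mulF_one v1 (t3 h2) h3, mul_zero]
            · exact (hy (h3 (mem_ball_self (by positivity)))).elim
          · rw [g0 y h2, mul_zero]
        · rw [x3 y h1, zero_mul]
    rw [← k1, ← hvol, show B₁ ^ 2 * (C₂ * (C₄ * ‖h‖ ^ 2)) * vol =
      B₁ ^ 2 * (C₂ * C₄) * vol * ‖h‖ ^ 2 by ring] at k2
    refine (absorb (by positivity) hA c2 k2).trans ?_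
    nlinarith

end Vale.Agent.P088
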