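import Vale.Agent.P088.Top

/-!
# P088, first stage: definitions, statements of the steps, elementary facts on `nrm`
-/

open MeasureTheory Set Metric Filter
open scoped ContDiff Topology InnerProductSpace

noncomputable section
namespace Vale.Agent.P088
open Vale.Agent.P136 (D Dp Dm Sm Tst)

section defs
variable {n : ℕ} {ι : Type} [Fintype ι]

/-- Product with a scalar function. -/
def mulF (θ : En n → ℝ) (W : ι → En n → ℝ) : ι → En n → ℝ := fun a x => θ x * W a x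

/-- The combination `W + c W'`. -/
def linF (W : ι → En n → ℝ) (c : ℝ) (W' : ι → En n → ℝ) : ι → En n → ℝ :=
  fun a x => W a x + c * W' a x

/-- Two Green operators that agree outside the closed unit ball. -/
def Pair (k : ℕ) (om : ℝ) (M : ℕ → ℝ) (L₁ L₂ : Op n ι) (U : Set (En n))
    (G₁ G₂ : HL n ι U →L[ℝ] HL n ι U) : Prop :=
  IsOpen U ∧ L₁.Bd k om M ∧ L₂.Bd k om M ∧ IsGreen L₁ U G₁ ∧ IsGreen L₂ U G₂ ∧ ‖G₁‖ ≤ M 0 ∧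
    ‖G₂‖ ≤ M 0 ∧ Agree {x | 1 < ‖x‖} G₁ G₂

/-- `W'` continues `W` from the ball of radius `ρ` to the ball of radius `(1 + κ) ρ`. -/
def Loc (L : Op n ι) (y : En n) (ρ κ : ℝ) (W W' : ι → En n → ℝ) : Prop :=
  Sol L (ball y ((1 + κ) * ρ)) W' 0 ∧ ∀ a, EqOn (W' a) (W a) (ball y ρ)

/-- The centre of the exterior ball of radius `ρ` above `x`. -/
def yy (ρ : ℝ) (x : En n) : En n := (max (1 + ρ) ‖x‖ / ‖x‖) • x

/-- The function that defines the visible set. -/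
def fV (lam : ℝ) (x y : En n) : ℝ := ‖(1 / 2 : ℝ) • (x + y)‖ ^ 2 + lam * ‖y - x‖

/-- A neighbourhood of the invisible set. -/
def NV (p : En n) (lam δ : ℝ) (x : En n) : Set (En n) :=
  ball p (23 / 50) ∩ {y | 1 - δ / 2 < fV lam x y}

end defs

/-! ## Properties of the parameters -/

/-- Propagation of smallness in an annulus. -/
def ANN (n : ℕ) (ι : Type) [Fintype ι] (k : ℕ) (om ν : ℝ) : Prop :=
  ∀ M : ℕ → ℝ, ∃ C : ℝ, 0 ≤ C ∧ ∀ (L : Op n ι) (y e : En n) (ρ ε : ℝ) (W : ι → En n → ℝ),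
    L.Bd k om M → 0 < ρ → ρ ≤ 1 → ‖e‖ = 1 → 0 < ε → ε ≤ 1 →
    Sol L (ball y (3 * ρ) \ closedBall y ρ) W 0 → L2On (ball y (3 * ρ) \ closedBall y ρ) W →
    nrm (closedBall y (5 / 2 * ρ) \ ball y (6 / 5 * ρ)) W ≤
      C * (ε * nrm (ball y (3 * ρ) \ closedBall y ρ) W +
        ε ^ (-ν) * nrm (ball (y + (5 / 2 * ρ) • e) (ρ / 4)) W)

/-- Pointwise bound for value and gradient. -/
def VGP (n : ℕ) (ι : Type) [Fintype ι] (k : ℕ) (om : ℝ) : Prop :=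
  ∀ (M : ℕ → ℝ) (r : ℝ), 0 < r → r ≤ 1 → ∃ C : ℝ, 0 ≤ C ∧
    ∀ (L : Op n ι) (x : En n) (W : ι → En n → ℝ), L.Bd k om M → Sol L (ball x r) W 0 →
      L2On (ball x r) W → vg W x ≤ C * nrm (ball x r) W

/-- Quantitative Runge approximation. -/
def RUN (n : ℕ) (ι : Type) [Fintype ι] (k : ℕ) (om ν : ℝ) : Prop :=
  ∀ (M : ℕ → ℝ) (ρ₀ : ℝ), 0 < ρ₀ → ∃ C : ℝ, 0 ≤ C ∧
    ∀ (L : Op n ι) (U : Set (En n)) (G : HL n ι U →L[ℝ] HL n ι U) (y e : En n) (ρ ε : ℝ)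
      (W : ι → En n → ℝ), IsOpen U → L.Bd k om M → IsGreen L U G → ‖G‖ ≤ M 0 → ρ₀ ≤ ρ → ρ ≤ 1 →
      ‖e‖ = 1 → ball y (3 * ρ) ⊆ U → 0 < ε → ε ≤ 1 → Sol L (ball y (3 / 2 * ρ)) W 0 →
      L2On (ball y (3 / 2 * ρ)) W →
      ∃ F : HL n ι U, SuppIn (ball (y + (5 / 2 * ρ) • e) (ρ / 4)) F ∧
        ‖F‖ ^ 2 ≤ C * ε ^ (-ν) * nrm (ball y (3 / 2 * ρ)) W ∧
        nrm (ball y ρ) (linF (cp (G F)) (-1) W) ≤ C * ε * nrm (ball y (3 / 2 * ρ)) W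

/-- Local continuation. -/
def CLP (n : ℕ) (ι : Type) [Fintype ι] (k : ℕ) (om κ : ℝ) : Prop :=
  ∀ (M : ℕ → ℝ) (ρ₀ : ℝ), 0 < ρ₀ → ∃ C : ℝ, 0 ≤ C ∧
    ∀ (L₁ L₂ : Op n ι) (U : Set (En n)) (G₁ G₂ : HL n ι U →L[ℝ] HL n ι U) (y : En n) (ρ : ℝ)
      (W : ι → En n → ℝ), Pair k om M L₁ L₂ U G₁ G₂ → ρ₀ ≤ ρ → ρ ≤ 1 → 1 + ρ ≤ ‖y‖ →
      ball y (3 * ρ) ⊆ U → Sol L₂ (ball y (3 / 2 * ρ)) W 0 → L2On (ball y (3 / 2 * ρ)) W →
      ∃ W', Loc L₁ y ρ κ W W' ∧ L2On (ball y ((1 + κ) * ρ)) W' ∧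
        nrm (ball y ((1 + κ) * ρ)) W' ≤ C * nrm (ball y (3 / 2 * ρ)) W

/-- Global continuation. -/
def GLP (n : ℕ) (ι : Type) [Fintype ι] (k : ℕ) (om κ : ℝ) : Prop :=
  ∀ (M : ℕ → ℝ) (ρ₀ : ℝ), 0 < ρ₀ → ∃ C : ℝ, 0 ≤ C ∧
    ∀ (L₁ L₂ : Op n ι) (U : Set (En n)) (G₁ G₂ : HL n ι U →L[ℝ] HL n ι U) (V X : Set (En n))
      (ρ : En n → ℝ) (W : ι → En n → ℝ), Pair k om M L₁ L₂ U G₁ G₂ → IsOpen X →
      ContinuousOn ρ X → Sol L₂ V W 0 → L2On V W →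
      (∀ x ∈ X, ρ₀ ≤ ρ x ∧ ρ x ≤ 1 ∧ 1 - κ * ρ x / 2 < ‖x‖ ∧ ball x (5 * ρ x) ⊆ U ∧
        ball x (3 * ρ x) ⊆ V) →
      ∃ W', Sol L₁ X W' 0 ∧ ∀ x ∈ X, vg W' x ≤ C * nrm V W ∧
        ∃ Wx, Loc L₁ (yy (ρ x) x) (ρ x) κ W Wx ∧ ∀ a, W' a =ᶠ[𝓝 x] Wx a

/-- Continuation of the adjoint solution to a neighbourhood of the invisible set. -/
def ADJ (n : ℕ) (ι : Type) [Fintype ι] (k : ℕ) (om κ : ℝ) : Prop :=
  ∀ (M : ℕ → ℝ) (δ : ℝ), 0 < δ → δ ≤ κ / 100 → ∃ C : ℝ, 0 ≤ C ∧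
    ∀ (L₁ L₂ : Op n ι) (p : En n) (G₁ G₂ : HL n ι (U0 p) →L[ℝ] HL n ι (U0 p)) (x : En n)
      (h : HL n ι (U0 p)), ‖p‖ = 1 → Pair k om M L₁ L₂ (U0 p) G₁ G₂ → x ∈ ball p (1 / 5) →
      ‖x‖ ^ 2 ≤ 1 - δ → SuppIn (ball x (δ / 8)) h →
      ∃ v, Sol L₂.T (NV p (κ / 64) δ x) v 0 ∧ (∀ y ∈ NV p (κ / 64) δ x, vg v y ≤ C * ‖h‖ ^ 2) ∧
        ∀ a, ∀ᵐ y ∂(volume.restrict (U0 p)), y ∈ NV p (κ / 64) δ x → 1 < ‖y‖ →
          v a y = cp (ContinuousLinearMap.adjoint G₁ h) a y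

/-- Splitting of the source into an invisible and a visible part. -/
def DEC (n : ℕ) (ι : Type) [Fintype ι] (k : ℕ) (om κ : ℝ) : Prop :=
  ∀ (M : ℕ → ℝ) (δ : ℝ), 0 < δ → δ ≤ κ / 100 → ∃ C : ℝ, 0 ≤ C ∧
    ∀ (L₁ L₂ : Op n ι) (p : En n) (G₁ G₂ : HL n ι (U0 p) →L[ℝ] HL n ι (U0 p)) (x : En n)
      (W : ι → En n → ℝ), ‖p‖ = 1 → Pair k om M L₁ L₂ (U0 p) G₁ G₂ → x ∈ ball p (1 / 5) →
      ‖x‖ ^ 2 ≤ 1 - δ → Sol L₂ (Y0 p) W 0 → L2On (Y0 p) W →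
      ∃ F₁ F₂ : HL n ι (U0 p), SuppIn {y | 1 < ‖y‖} F₁ ∧ SuppIn (ball p (21 / 50))ᶜ F₁ ∧
        SuppIn (ball p (21 / 50))ᶜ F₂ ∧
        (∀ a, cp (G₂ (F₁ + F₂)) a =ᵐ[volume.restrict (ball p (21 / 50))] W a) ∧
        ‖F₂‖ ^ 2 ≤ C * nrm (Vis p (κ / 64) δ x) W ∧
        nrm (ball x (δ / 8)) (cp (G₁ F₁)) ≤ C * nrm (Vis p (κ / 64) δ x) W

/-- The bound by the visible part. -/
def VIS (n : ℕ) (ι : Type) [Fintype ι] (k : ℕ) (om κ : ℝ) : Prop :=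
  ∀ (M : ℕ → ℝ) (δ : ℝ), 0 < δ → δ ≤ κ / 100 → ∃ C : ℝ, 0 ≤ C ∧
    ∀ (L₁ L₂ : Op n ι) (p : En n) (G₁ G₂ : HL n ι (U0 p) →L[ℝ] HL n ι (U0 p)) (x : En n)
      (W Wx : ι → En n → ℝ), ‖p‖ = 1 → Pair k om M L₁ L₂ (U0 p) G₁ G₂ → x ∈ ball p (1 / 5) →
      1 - 2 * δ ≤ ‖x‖ ^ 2 → ‖x‖ ^ 2 ≤ 1 - δ → Sol L₂ (Y0 p) W 0 → L2On (Y0 p) W →
      Loc L₁ (yy (1 / 16) x) (1 / 16) κ W Wx → vg Wx x ≤ C * nrm (Vis p (κ / 64) δ x) W

/-! ## The steps -/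

def S1_ann : Prop := ∀ (n : ℕ), 3 ≤ n → ∀ (ι : Type) [Fintype ι],
  ∃ (k : ℕ) (om ν : ℝ), 0 < om ∧ 0 < ν ∧ ANN n ι k om ν

/-- Cutoff functions with bounds that do not depend on the set. -/
def S1_cut : Prop := ∀ (n : ℕ) (r : ℝ), 0 < r → ∃ B : ℝ, 0 ≤ B ∧ ∀ K : Set (En n),
  ∃ θ : En n → ℝ, Sm θ ∧ (∀ y ∈ thickening r K, θ y = 1) ∧
    (∀ y, y ∉ thickening (2 * r) K → θ y = 0) ∧ ∀ y, SB ee 2 B 1 θ y

def S1_vg : Prop := ∀ (n : ℕ) (ι : Type) [Fintype ι], ∃ (k : ℕ) (om : ℝ), 0 < om ∧ VGP n ι k om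

/-- The commutator with a cutoff function. -/
def S1_com : Prop := ∀ (n : ℕ) (ι : Type) [Fintype ι] (M : ℕ → ℝ) (B : ℝ), ∃ C : ℝ, 0 ≤ C ∧
  ∀ (k : ℕ) (om : ℝ) (L : Op n ι) (V : Set (En n)) (θ : En n → ℝ) (W : ι → En n → ℝ) (x : En n),
    L.Bd k om M → IsOpen V → x ∈ V → Sol L V W 0 → Sm θ → SB ee 2 B 1 θ x →
    ∑ a, L.app (mulF θ W) a x ^ 2 ≤ C * vg W x

/-- The abstract duality lemma. -/
def S1_dual : Prop := ∀ (H : Type) [NormedAddCommGroup H] [InnerProductSpace ℝ H] [CompleteSpace H]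
  (A : H →L[ℝ] H) (w : H) (N a b : ℝ), 0 ≤ N → 0 < a → 0 ≤ b →
  (∀ h, ⟪w, h⟫_ℝ ≤ N * (a * ‖h‖ + b * ‖A h‖)) →
  ∃ F : H, ‖F‖ ≤ 2 * N * b ∧ ‖ContinuousLinearMap.adjoint A F - w‖ ≤ 2 * N * a

def S1_run : Prop := ∀ (n : ℕ) (ι : Type) [Fintype ι] (k : ℕ) (om ν : ℝ), 0 < ν →
  ANN n ι k om ν → VGP n ι k om → RUN n ι k om ν

def S1_cl : Prop := ∀ (n : ℕ) (ι : Type) [Fintype ι] (k : ℕ) (om ν : ℝ), 0 < om → 0 < ν →
  RUN n ι k om ν → ∃ (k' : ℕ) (om' κ : ℝ), 0 < om' ∧ 0 < κ ∧ κ ≤ 1 / 2 ∧ CLP n ι k' om' κ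

def S1_glob : Prop := ∀ (n : ℕ) (ι : Type) [Fintype ι] (k : ℕ) (om κ : ℝ), 0 < κ → κ ≤ 1 / 2 →
  CLP n ι k om κ → VGP n ι k om → GLP n ι k om κ

def S1_adj : Prop := ∀ (n : ℕ) (ι : Type) [Fintype ι] (k : ℕ) (om κ : ℝ), 0 < κ → κ ≤ 1 / 2 →
  GLP n ι k om κ → ADJ n ι k om κ

def S1_dec : Prop := ∀ (n : ℕ) (ι : Type) [Fintype ι] (k : ℕ) (om κ : ℝ), 0 < κ → κ ≤ 1 / 2 →
  VGP n ι k om → ADJ n ι k om κ → DEC n ι k om κ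

def S1_vis : Prop := ∀ (n : ℕ) (ι : Type) [Fintype ι] (k : ℕ) (om κ : ℝ), 0 < κ → κ ≤ 1 / 2 →
  CLP n ι k om κ → VGP n ι k om → DEC n ι k om κ → VIS n ι k om κ

/-! ## Elementary facts -/

namespace St1
variable {n : ℕ} {ι : Type} [Fintype ι] {U V : Set (En n)} {W W' F : ι → En n → ℝ} {L : Op n ι}

omit [Fintype ι] in
theorem bd_mono {k k' : ℕ} {om om' : ℝ} {M : ℕ → ℝ} (h : L.Bd k' om' M) (hk : k ≤ k')
    (ho : om' ≤ om) : L.Bd k om M :=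
  ⟨h.1, fun i j x l hl => (h.2.1 i j x l (hl.trans hk)).trans
    (mul_le_mul_of_nonneg_right ho (by positivity)), h.2.2⟩

theorem pair_mono {k k' : ℕ} {om om' : ℝ} {M : ℕ → ℝ} {L₁ L₂ : Op n ι}
    {G₁ G₂ : HL n ι U →L[ℝ] HL n ι U} (h : Pair k' om' M L₁ L₂ U G₁ G₂) (hk : k ≤ k')
    (ho : om' ≤ om) : Pair k om M L₁ L₂ U G₁ G₂ :=
  ⟨h.1, bd_mono h.2.1 hk ho, bd_mono h.2.2.1 hk ho, h.2.2.2⟩

theorem sol_mono (h : Sol L U W F) (hV : V ⊆ U) : Sol L V W F :=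
  ⟨fun a => (h.1 a).mono hV, fun x hx => h.2 x (hV hx)⟩

omit [Fintype ι] in
theorem l2_mono (h : L2On U W) (hV : V ⊆ U) : L2On V W := fun a =>
  (h a).mono_measure (Measure.restrict_mono hV le_rfl)

omit [Fintype ι] in
theorem l2_congr (h : L2On U W) (e : ∀ a, W a =ᵐ[volume.restrict U] W' a) : L2On U W' :=
  fun a => (h a).ae_eq (e a)

omit [Fintype ι] in
theorem l2_lin (h : L2On U W) (h' : L2On U W') (c : ℝ) : L2On U (linF W c W') := fun a =>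
  (h a).add ((h' a).const_mul c)

omit [Fintype ι] in
theorem l2_sq (h : L2On U W) (a : ι) : IntegrableOn (fun y => W a y ^ 2) U :=
  (h a).integrable_sq

omit [Fintype ι] in
theorem l2_mul (h : L2On U W) (h' : L2On U W') (a : ι) :
    IntegrableOn (fun y => W a y * W' a y) U := (h a).integrable_mul (h' a)

theorem nrm_nonneg (U : Set (En n)) (W : ι → En n → ℝ) : 0 ≤ nrm U W :=
  Finset.sum_nonneg fun _ _ => integral_nonneg fun _ => sq_nonneg _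

theorem nrm_mono (h : L2On U W) (hV : V ⊆ U) : nrm V W ≤ nrm U W :=
  Finset.sum_le_sum fun a _ => setIntegral_mono_set (l2_sq h a)
    (Eventually.of_forall fun _ => sq_nonneg _) hV.eventuallyLE

theorem nrm_congr (e : ∀ a, W a =ᵐ[volume.restrict U] W' a) : nrm U W = nrm U W' :=
  Finset.sum_congr rfl fun a _ => integral_congr_ae ((e a).mono fun x hx => by simp only [hx])

theorem nrm_lin_le (h : L2On U W) (h' : L2On U W') (c : ℝ) :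
    nrm U (linF W c W') ≤ 2 * nrm U W + 2 * c ^ 2 * nrm U W' := by
  unfold nrm
  rw [Finset.mul_sum, Finset.mul_sum, ← Finset.sum_add_distrib]
  refine Finset.sum_le_sum fun a _ => ?_
  rw [← integral_const_mul, ← integral_const_mul,
    ← integral_add ((l2_sq h a).const_mul _) ((l2_sq h' a).const_mul _)]
  refine integral_mono (l2_sq (l2_lin h h' c) a)
    (((l2_sq h a).const_mul _).add ((l2_sq h' a).const_mul _)) fun x => ?_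
  simp only [linF]
  nlinarith [sq_nonneg (W a x - c * W' a x)]

/-- A finite cover. -/
theorem nrm_cover {κ : Type} (s : Finset κ) (B : κ → Set (En n)) (h : ∀ i ∈ s, L2On (B i) W)
    (hV : V ⊆ ⋃ i ∈ s, B i) : nrm V W ≤ ∑ i ∈ s, nrm (B i) W := by
  classical
  have h1 : ∀ a, IntegrableOn (fun y => W a y ^ 2) (⋃ i ∈ s, B i) := fun a =>
    (integrableOn_finset_iUnion).2 fun i hi => l2_sq (h i hi) a
  unfold nrm
  rw [Finset.sum_comm]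
  refine Finset.sum_le_sum fun a _ => (setIntegral_mono_set (h1 a)
    (Eventually.of_forall fun _ => sq_nonneg _) hV.eventuallyLE).trans ?_
  rw [← integral_finsetSum_measure fun i hi => l2_sq (h i hi) a]
  refine integral_mono_measure ?_ (Eventually.of_forall fun _ => sq_nonneg _)
    (integrable_finsetSum_measure.2 fun i hi => l2_sq (h i hi) a)
  have := Measure.restrict_biUnion_le (μ := (volume : Measure (En n))) (s := B) s.countable_toSet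
  rw [← Measure.sum_coe_finset]
  exact this

theorem nrm_le_of_bound {B : ℝ} (hU : MeasurableSet U) (hv : volume U ≠ ⊤) (h : L2On U W)
    (hB : ∀ x ∈ U, ∑ a, W a x ^ 2 ≤ B) : nrm U W ≤ B * (volume U).toReal := by
  unfold nrm
  rw [← integral_finsetSum _ fun a _ => l2_sq h a]
  have : IsFiniteMeasure (volume.restrict U) := isFiniteMeasure_restrict.2 hv
  refine (setIntegral_mono_on (integrable_finsetSum _ fun a _ => l2_sq h a)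
    (integrable_const B) hU hB).trans (le_of_eq ?_)
  rw [setIntegral_const, smul_eq_mul, mul_comm]
  rfl

end St1
end Vale.Agent.P088
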