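import Vale.Agent.P088.St1Defs

/-! The abstract duality lemma. -/

open scoped InnerProductSpace

noncomputable section
namespace Vale.Agent.P088

theorem s1_dual : S1_dual := by
  intro H _ _ _ A w N a b hN ha hb hw
  let T : H →L[ℝ] H := a ^ 2 • ContinuousLinearMap.id ℝ H +
    b ^ 2 • (ContinuousLinearMap.adjoint A).comp A
  have hT : ∀ h, T h = a ^ 2 • h + b ^ 2 • ContinuousLinearMap.adjoint A (A h) := fun _ => rfl
  have hq : ∀ h, ⟪T h, h⟫_ℝ = (a * ‖h‖) ^ 2 + (b * ‖A h‖) ^ 2 := fun h => by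
    rw [hT, inner_add_left, real_inner_smul_left, real_inner_smul_left,
      ContinuousLinearMap.adjoint_inner_left, real_inner_self_eq_norm_sq,
      real_inner_self_eq_norm_sq]
    ring
  let B : H →L[ℝ] H →L[ℝ] ℝ := (innerSL ℝ).comp T
  have hB : ∀ h g, B h g = ⟪T h, g⟫_ℝ := fun _ _ => rfl
  have hc : IsCoercive B := ⟨a ^ 2, by positivity, fun h => by
    rw [hB, hq]
    nlinarith [sq_nonneg (b * ‖A h‖)]⟩
  obtain ⟨h, hh⟩ := hc.continuousLinearEquivOfBilin.surjective w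
  have e : T h = w := ext_inner_right ℝ fun g => by
    rw [← hh, hc.continuousLinearEquivOfBilin_apply, hB]
  have h1 := hw h
  rw [← e, hq] at h1
  have hs : 0 ≤ a * ‖h‖ := by positivity
  have ht : 0 ≤ b * ‖A h‖ := by positivity
  have h2 : a * ‖h‖ + b * ‖A h‖ ≤ 2 * N := by
    by_contra h3
    rw [not_le] at h3
    nlinarith [sq_nonneg (a * ‖h‖ - b * ‖A h‖)]
  refine ⟨b ^ 2 • A h, ?_, ?_⟩
  · rw [norm_smul, Real.norm_of_nonneg (sq_nonneg b)]
    nlinarith [mul_le_mul_of_nonneg_left (show b * ‖A h‖ ≤ 2 * N by linarith) hb]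
  · rw [← e, hT, map_smul, sub_add_cancel_right, norm_neg, norm_smul,
      Real.norm_of_nonneg (sq_nonneg a)]
    nlinarith [mul_le_mul_of_nonneg_left (show a * ‖h‖ ≤ 2 * N by linarith) ha.le]

end Vale.Agent.P088
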