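import Vale.Agent.P088.St1Tool

/-!
# P088, first stage: global continuation from local continuation
-/

open MeasureTheory Set Metric Filter
open scoped ContDiff Topology InnerProductSpace

noncomputable section
namespace Vale.Agent.P088
open St1

namespace St1Glob
variable {n : ℕ} {ι : Type} [Fintype ι]

theorem geo {κ ρ : ℝ} {x : En n} (hκ : 0 < κ) (hκ' : κ ≤ 1 / 2) (h0 : 0 < ρ) (h1 : ρ ≤ 1)
    (hx : 1 - κ * ρ / 2 < ‖x‖) : x ≠ 0 ∧ dist x (yy ρ x) < ρ + κ * ρ / 2 ∧ κ * ρ ≤ ρ / 2 := by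
  have h2 : κ * ρ ≤ ρ / 2 := by nlinarith
  refine ⟨fun e => ?_, dist_yy_lt h0 (by positivity) (by linarith) hx, h2⟩
  rw [e, norm_zero] at hx
  linarith

/-- The local continuations are compatible. -/
theorem compat (hu : S_ucp) {L : Op n ι} (hL : L.Good) {κ ρ ρ' : ℝ} (hκ : 0 < κ) (h0 : 0 < ρ)
    (h0' : 0 < ρ') {y y' x : En n} {W A B : ι → En n → ℝ} (hA : Loc L y ρ κ W A)
    (hB : Loc L y' ρ' κ W B) (h1 : y ∈ ball y' ρ') (h2 : x ∈ ball y ((1 + κ) * ρ))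
    (h3 : x ∈ ball y' ((1 + κ) * ρ')) (a : ι) : A a x = B a x := by
  refine ucp_eq hu hL (isOpen_ball.inter isOpen_ball)
    ((convex_ball _ _).inter (convex_ball _ _)).isPreconnected (sol_mono hA.1 inter_subset_left)
    (sol_mono hB.1 inter_subset_right) (x := y)
    ⟨mem_ball_self (by positivity), ball_subset_ball (by nlinarith) h1⟩ (fun b => ?_) a ⟨h2, h3⟩
  filter_upwards [ball_mem_nhds y h0, isOpen_ball.mem_nhds h1] with z k1 k2
  rw [hA.2 b k1, hB.2 b k2]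

end St1Glob

theorem s1_glob (hu : S_ucp) : S1_glob := by
  intro n ι _ k om κ hκ hκ' hcl hvg M ρ₀ hρ₀
  obtain ⟨C₁, hC₁, h1⟩ := hcl M ρ₀ hρ₀
  obtain ⟨C₂, hC₂, h2⟩ := hvg M (min 1 (κ * ρ₀ / 2)) (by positivity) (min_le_left _ _)
  refine ⟨C₂ * C₁, by positivity, ?_⟩
  intro L₁ L₂ U G₁ G₂ V X ρ W hP hX hρ hW hW2 hx
  have pos : ∀ x ∈ X, 0 < ρ x := fun x h => hρ₀.trans_le (hx x h).1
  have geo := fun x h => St1Glob.geo hκ hκ' (pos x h) (hx x h).2.1 (hx x h).2.2.1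
  have sub : ∀ x ∈ X, ball (yy (ρ x) x) (3 / 2 * ρ x) ⊆ V := fun x h =>
    (ball_subset_ball' (by
      rw [dist_comm]; linarith [(geo x h).2.1, (geo x h).2.2, pos x h])).trans (hx x h).2.2.2.2
  have ex : ∀ x ∈ X, ∃ W', Loc L₁ (yy (ρ x) x) (ρ x) κ W W' ∧
      L2On (ball (yy (ρ x) x) ((1 + κ) * ρ x)) W' ∧
      nrm (ball (yy (ρ x) x) ((1 + κ) * ρ x)) W' ≤ C₁ * nrm (ball (yy (ρ x) x) (3 / 2 * ρ x)) W :=
    fun x h => h1 L₁ L₂ U G₁ G₂ _ _ W hP (hx x h).1 (hx x h).2.1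
      (by rw [norm_yy (pos x h).le (geo x h).1]; exact le_max_left _ _)
      ((ball_subset_ball' (by
        rw [dist_comm]; linarith [(geo x h).2.1, (geo x h).2.2, pos x h])).trans (hx x h).2.2.2.1)
      (sol_mono hW (sub x h)) (l2_mono hW2 (sub x h))
  choose! Wx hL hl2 hn using ex
  have mem : ∀ x ∈ X, x ∈ ball (yy (ρ x) x) ((1 + κ) * ρ x) := fun x h => by
    have := mul_pos hκ (pos x h)
    rw [mem_ball]; linarith [(geo x h).2.1]
  have key : ∀ x₀ ∈ X, ∀ a, (fun x => Wx x a x) =ᶠ[𝓝 x₀] Wx x₀ a := by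
    intro x₀ h₀ a
    have c0 : ContinuousAt ρ x₀ := hρ.continuousAt (hX.mem_nhds h₀)
    have c1 : ContinuousAt (fun x => yy (ρ x) x) x₀ :=
      (((continuousAt_const.add c0).max continuous_norm.continuousAt).div
        continuous_norm.continuousAt (norm_ne_zero_iff.2 (geo x₀ h₀).1)).smul continuousAt_id
    filter_upwards [hX.mem_nhds h₀, isOpen_ball.mem_nhds (mem x₀ h₀),
      c1.eventually (ball_mem_nhds _ (pos x₀ h₀))] with x k1 k2 k3
    exact St1Glob.compat hu hP.2.1.1 hκ (pos x k1) (pos x₀ h₀) (hL x k1) (hL x₀ h₀) k3 (mem x k1)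
      k2 a
  refine ⟨fun a x => Wx x a x, ⟨fun a x h => ?_, fun x h a => ?_⟩, fun x h => ⟨?_, Wx x, hL x h,
    key x h⟩⟩
  · exact ((((hL x h).1.1 a).contDiffAt (isOpen_ball.mem_nhds (mem x h))).congr_of_eventuallyEq
      (key x h a)).contDiffWithinAt
  · rw [app_congr L₁ (key x h) a]
    exact (hL x h).1.2 x (mem x h) a
  · have s1 : ball x (min 1 (κ * ρ₀ / 2)) ⊆ ball (yy (ρ x) x) ((1 + κ) * ρ x) :=
      ball_subset_ball' (by
        have := mul_le_mul_of_nonneg_left (hx x h).1 hκ.le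
        linarith [(geo x h).2.1, min_le_right 1 (κ * ρ₀ / 2)])
    rw [vg_congr (key x h), mul_assoc]
    refine (h2 L₁ x (Wx x) hP.2.1 (sol_mono (hL x h).1 s1) (l2_mono (hl2 x h) s1)).trans
      (mul_le_mul_of_nonneg_left (((nrm_mono (hl2 x h) s1).trans (hn x h)).trans ?_) hC₂)
    exact mul_le_mul_of_nonneg_left (nrm_mono hW2 (sub x h)) hC₁

end Vale.Agent.P088
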