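import Vale.Agent.P088.St1Tool

/-!
# P088, first stage: quantitative Runge approximation
-/

open MeasureTheory Set Metric Filter
open scoped ContDiff Topology InnerProductSpace

noncomputable section
namespace Vale.Agent.P088
open Vale.Agent.P136 (D Dp Dm Sm Tst)
open St1

namespace St1Run
variable {n : ℕ} {ι : Type} [Fintype ι]

/-- The closed shell. -/
def Sh (y : En n) (ρ : ℝ) : Set (En n) := closedBall y (5 / 2 * ρ) \ ball y (6 / 5 * ρ)

/-- The open annulus. -/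
def An (y : En n) (ρ : ℝ) : Set (En n) := ball y (3 * ρ) \ closedBall y ρ

/-- The source ball. -/
def So (y e : En n) (ρ : ℝ) : Set (En n) := ball (y + (5 / 2 * ρ) • e) (ρ / 4)

theorem meas_Sh (y : En n) (ρ : ℝ) : MeasurableSet (Sh y ρ) :=
  measurableSet_closedBall.diff measurableSet_ball

theorem meas_So (y e : En n) (ρ : ℝ) : MeasurableSet (So y e ρ) := measurableSet_ball

theorem isOpen_An (y : En n) (ρ : ℝ) : IsOpen (An y ρ) := isOpen_ball.sdiff isClosed_closedBall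

theorem Sh_sub {y : En n} {ρ : ℝ} (hρ : 0 < ρ) : Sh y ρ ⊆ An y ρ := by
  intro x hx
  have h1 := mem_closedBall.1 hx.1
  have h2 := not_lt.1 (mt mem_ball.2 hx.2)
  exact ⟨mem_ball.2 (by linarith), fun h => by have := mem_closedBall.1 h; linarith⟩

theorem So_sub {y e : En n} {ρ : ℝ} (hρ : 0 < ρ) (he : ‖e‖ = 1) : So y e ρ ⊆ An y ρ := by
  intro x hx
  have h1 := mem_ball.1 hx
  have h2 : dist (y + (5 / 2 * ρ) • e) y = 5 / 2 * ρ := by
    rw [dist_eq_norm, add_sub_cancel_left, norm_smul, he, mul_one, Real.norm_of_nonneg]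
    positivity
  have h3 := dist_triangle x (y + (5 / 2 * ρ) • e) y
  have h4 := dist_triangle_left (y + (5 / 2 * ρ) • e) y x
  exact ⟨mem_ball.2 (by linarith), fun h => by have := mem_closedBall.1 h; linarith⟩

theorem vol_Sh {y : En n} {ρ : ℝ} (hρ : ρ ≤ 1) :
    volume (Sh y ρ) ≤ volume (ball (0 : En n) 3) := by
  rw [← Measure.addHaar_ball_center volume y]
  exact measure_mono fun x hx => mem_ball.2 (by have := mem_closedBall.1 hx.1; linarith)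

theorem nrm_sub {U V : Set (En n)} {W W' : ι → En n → ℝ} (hV : V ⊆ U)
    (e : ∀ a, W a =ᵐ[volume.restrict U] W' a) : nrm V W = nrm V W' :=
  nrm_congr fun a => ae_restrict_of_ae_restrict_of_subset hV (e a)

/-- The cut-off solution and its source. -/
theorem source (hcut : S1_cut) (hcom : S1_com) {k : ℕ} {om : ℝ} (hV : VGP n ι k om) (M : ℕ → ℝ)
    {ρ₀ : ℝ} (h0 : 0 < ρ₀) (h1 : ρ₀ ≤ 1) : ∃ C : ℝ, 0 ≤ C ∧
    ∀ (L : Op n ι) (U : Set (En n)) (y : En n) (ρ : ℝ) (W : ι → En n → ℝ), IsOpen U →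
      L.Bd k om M → ρ₀ ≤ ρ → ρ ≤ 1 → ball y (3 * ρ) ⊆ U → Sol L (ball y (3 / 2 * ρ)) W 0 →
      L2On (ball y (3 / 2 * ρ)) W → ∃ ψ, Tests U ψ ∧ (∀ x ∈ ball y ρ, ∀ a, ψ a x = W a x) ∧
        SuppIn (Sh y ρ) (tl U (L.app ψ)) ∧
        ‖tl U (L.app ψ)‖ ^ 2 ≤ C * nrm (ball y (3 / 2 * ρ)) W := by
  obtain ⟨C₂, hC₂, hvg⟩ := hV M (ρ₀ / 10) (by positivity) (by linarith)
  obtain ⟨B, -, hθ⟩ := hcut n (ρ₀ / 20) (by positivity)
  obtain ⟨C₃, hC₃, hc⟩ := hcom n ι M B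
  refine ⟨C₃ * C₂ * (volume (ball (0 : En n) 3)).toReal, by positivity, ?_⟩
  intro L U y ρ W hU hL hρ hρ1 hyU hW hW2
  have hρ0 : 0 < ρ := h0.trans_le hρ
  obtain ⟨θ, hs, ho, hz, hb⟩ := hθ (closedBall y (6 / 5 * ρ))
  rw [thickening_closedBall (by positivity) (by positivity)] at ho hz
  have hz' : ∀ x, x ∉ closedBall y (13 / 10 * ρ) → θ x = 0 := fun x hx =>
    hz x fun h => hx (mem_closedBall.2 (by have := mem_ball.1 h; linarith))
  have hT : Tests U (mulF θ W) :=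
    tests_mono (tests_mulF isOpen_ball hW.1 hs (isCompact_closedBall y _)
      (closedBall_subset_ball (by linarith)) hz')
      ((ball_subset_ball (by linarith)).trans hyU)
  have hout : ∀ x, x ∉ closedBall y (13 / 10 * ρ) → ∀ a, L.app (mulF θ W) a x = 0 := fun x hx a =>
    app_mulF_zero L W (Eventually.mono (isClosed_closedBall.isOpen_compl.mem_nhds hx) hz') a
  have hin : ∀ x ∈ ball y (6 / 5 * ρ), ∀ a, L.app (mulF θ W) a x = 0 := fun x hx a =>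
    app_mulF_one hW (ball_subset_ball (by linarith) hx)
      (Eventually.mono (isOpen_ball.mem_nhds hx) fun z hz =>
        ho z (ball_subset_ball (by linarith) hz)) a
  have hl2 : ∀ V, L2On V (L.app (mulF θ W)) := tests_l2 (tests_app hL.1 hT)
  have hsup : SuppIn (Sh y ρ) (tl U (L.app (mulF θ W))) := by
    refine supp_tl hU.measurableSet (hl2 U) fun x _ hx a => ?_
    by_cases h2 : x ∈ ball y (6 / 5 * ρ)
    · exact hin x h2 a
    · exact hout x (fun h => hx ⟨closedBall_subset_closedBall (by linarith) h, h2⟩) a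
  have hShU : Sh y ρ ⊆ U := (Sh_sub hρ0).trans (sdiff_subset.trans hyU)
  have hN := nrm_nonneg (ball y (3 / 2 * ρ)) W
  have hpt : ∀ x ∈ Sh y ρ, ∑ a, L.app (mulF θ W) a x ^ 2 ≤
      C₃ * C₂ * nrm (ball y (3 / 2 * ρ)) W := by
    intro x _
    by_cases h2 : x ∈ closedBall y (13 / 10 * ρ)
    · have h3 : ball x (ρ₀ / 10) ⊆ ball y (3 / 2 * ρ) :=
        ball_subset_ball' (by have := mem_closedBall.1 h2; linarith)
      have h4 := hc k om L _ θ W x hL isOpen_ball (closedBall_subset_ball (by linarith) h2) hW hs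
        (hb x)
      have h5 := (hvg L x W hL (sol_mono hW h3) (l2_mono hW2 h3)).trans
        (mul_le_mul_of_nonneg_left (nrm_mono hW2 h3) hC₂)
      rw [mul_assoc]
      exact h4.trans (mul_le_mul_of_nonneg_left h5 hC₃)
    · simp only [hout x h2]
      simp only [ne_eq, OfNat.ofNat_ne_zero, not_false_eq_true, zero_pow, Finset.sum_const_zero]
      positivity
  refine ⟨mulF θ W, hT, fun x hx a => ?_, hsup, ?_⟩
  · rw [mulF, ho x (ball_subset_ball (by linarith) hx), one_mul]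
  · have hfin : volume (ball (0 : En n) 3) ≠ ⊤ := measure_ball_lt_top.ne
    rw [← ind_self (meas_Sh y ρ) hsup, norm_ind _ hShU, nrm_sub hShU (cp_tl (hl2 U))]
    refine (nrm_le_of_bound (meas_Sh y ρ) (ne_top_of_le_ne_top hfin (vol_Sh hρ1)) (hl2 _)
      hpt).trans ?_
    rw [mul_right_comm (C₃ * C₂) _ (nrm _ W)]
    exact mul_le_mul_of_nonneg_left (ENNReal.toReal_mono hfin (vol_Sh hρ1)) (by positivity)

theorem sqrt_le {C ε δ s u v : ℝ} (hC : 0 ≤ C) (hε : 0 ≤ ε) (hδ : 0 ≤ δ) (hu : 0 ≤ u)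
    (hv : 0 ≤ v) (h : s ≤ C * (ε * u ^ 2 + δ * v ^ 2)) : √s ≤ √C * (√ε * u + √δ * v) := by
  refine Real.sqrt_le_iff.2 ⟨by positivity, h.trans ?_⟩
  rw [mul_pow, Real.sq_sqrt hC, add_sq, mul_pow, mul_pow, Real.sq_sqrt hε, Real.sq_sqrt hδ]
  refine mul_le_mul_of_nonneg_left ?_ hC
  have : 0 ≤ 2 * (√ε * u) * (√δ * v) := by positivity
  linarith

/-- The adjoint solution on the shell. -/
theorem shell (hw : S_weyl) (hg : S_green) {k : ℕ} {om ν : ℝ} (hA : ANN n ι k om ν) (M : ℕ → ℝ) :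
    ∃ C : ℝ, 0 ≤ C ∧ ∀ (L : Op n ι) (U : Set (En n)) (G : HL n ι U →L[ℝ] HL n ι U) (y e : En n)
      (ρ ε : ℝ) (h : HL n ι U), IsOpen U → L.Bd k om M → IsGreen L U G → ‖G‖ ≤ M 0 → 0 < ρ →
      ρ ≤ 1 → ‖e‖ = 1 → ball y (3 * ρ) ⊆ U → 0 < ε → ε ≤ 1 → SuppIn (ball y ρ) h →
      nrm (Sh y ρ) (cp (ContinuousLinearMap.adjoint G h)) ≤ C * (ε * ((M 0 + 1) * ‖h‖) ^ 2 +
        ε ^ (-ν) * ‖ind U (meas_So y e ρ) (ContinuousLinearMap.adjoint G h)‖ ^ 2) := by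
  obtain ⟨M', -, hT⟩ := bd_T hg n ι M
  obtain ⟨C, hC, hA⟩ := hA M'
  refine ⟨C, hC, ?_⟩
  intro L U G y e ρ ε h hU hL hG hM hρ hρ1 he hyU hε hε1 hh
  have hAU : An y ρ ⊆ U := sdiff_subset.trans hyU
  obtain ⟨v, hv, hv2, hve⟩ := green_sol hw hg (good_T hg hL.1).1 (green_adj hg hL.1 hG) hU
    (isOpen_An y ρ) hAU hh
    (disjoint_left.2 fun x hx hx' => hx'.2 (ball_subset_closedBall hx))
  have h1 : nrm (Sh y ρ) v ≤ C * (ε * nrm (An y ρ) v + ε ^ (-ν) * nrm (So y e ρ) v) :=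
    hA L.T y e ρ ε v (hT k om L hL) hρ hρ1 he hε hε1 hv hv2
  rw [nrm_sub (Sh_sub hρ) hve, nrm_sub (So_sub hρ he) hve, nrm_congr hve,
    ← norm_ind (meas_So y e ρ) ((So_sub hρ he).trans hAU)] at h1
  refine h1.trans (mul_le_mul_of_nonneg_left (add_le_add_left
    (mul_le_mul_of_nonneg_left ((nrm_cp_le hAU _).trans ?_) hε.le) _) hC)
  refine pow_le_pow_left₀ (norm_nonneg _) (((ContinuousLinearMap.adjoint G).le_opNorm h).trans
    (mul_le_mul_of_nonneg_right ?_ (norm_nonneg _))) 2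
  rw [LinearIsometryEquiv.norm_map]
  linarith

theorem nrm_diff {U : Set (En n)} {y : En n} {ρ : ℝ} (hU : ball y ρ ⊆ U) {ψ W : ι → En n → ℝ}
    (hψ : L2On U ψ) (he : ∀ x ∈ ball y ρ, ∀ a, ψ a x = W a x) (F : HL n ι U) :
    nrm (ball y ρ) (linF (cp F) (-1) W) = ‖ind U (measurableSet_ball (x := y) (ε := ρ)) F -
      ind U (measurableSet_ball (x := y) (ε := ρ)) (tl U ψ)‖ ^ 2 := by
  rw [← map_sub, norm_ind _ hU]
  refine nrm_congr fun a => ?_
  filter_upwards [ae_restrict_of_ae_restrict_of_subset hU (cp_sub F (tl U ψ) a),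
    ae_restrict_of_ae_restrict_of_subset hU (cp_tl hψ a), ae_restrict_mem measurableSet_ball]
    with x h1 h2 h3
  rw [h1, h2, linF, he x h3]
  ring

end St1Run

open St1Run in
theorem s1_run (hw : S_weyl) (hg : S_green) (hcut : S1_cut) (hcom : S1_com) (hd : S1_dual) :
    S1_run := by
  intro n ι _ k om ν _ hA hV M ρ₀ h0
  rcases lt_or_ge 1 ρ₀ with h1 | h1
  · exact ⟨0, le_rfl, fun _ _ _ _ _ _ _ _ _ _ _ _ h2 h3 => absurd (h2.trans h3) (not_le.2 h1)⟩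
  obtain ⟨C₁, hC₁, hsh⟩ := shell hw hg hA M
  obtain ⟨C₂, hC₂, hso⟩ := source hcut hcom hV M h0 h1
  refine ⟨4 * C₁ * C₂ * (M 0 + 1) ^ 2, by positivity, ?_⟩
  intro L U G y e ρ ε W hU hL hG hM hρ hρ1 he hyU hε hε1 hW hW2
  have hρ0 : 0 < ρ := h0.trans_le hρ
  have hM0 : 0 ≤ M 0 := (norm_nonneg _).trans hM
  have hδ : 0 ≤ ε ^ (-ν) := Real.rpow_nonneg hε.le _
  obtain ⟨ψ, hψ, hψW, hsup, hN⟩ := hso L U y ρ W hU hL hρ hρ1 hyU hW hW2
  have hShU : Sh y ρ ⊆ U := (Sh_sub hρ0).trans (sdiff_subset.trans hyU)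
  set P : HL n ι U →L[ℝ] HL n ι U := ind U (measurableSet_ball (x := y) (ε := ρ)) with hP
  set Q : HL n ι U →L[ℝ] HL n ι U := ind U (meas_So y e ρ) with hQ
  have key : ∀ h, ⟪P (tl U ψ), h⟫_ℝ ≤ ‖tl U (L.app ψ)‖ * √C₁ * (√ε * (M 0 + 1) * ‖h‖ +
      √(ε ^ (-ν)) * ‖(Q ∘L ContinuousLinearMap.adjoint G ∘L P) h‖) := by
    intro h
    have h2 := hsh L U G y e ρ ε (P h) hU hL hG hM hρ0 hρ1 he hyU hε hε1 (supp_ind _ h)
    have h3 : ((M 0 + 1) * ‖P h‖) ^ 2 ≤ ((M 0 + 1) * ‖h‖) ^ 2 :=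
      pow_le_pow_left₀ (by positivity)
        (mul_le_mul_of_nonneg_left (norm_ind_le _ h) (by positivity)) 2
    have h4 := sqrt_le hC₁ hε.le hδ (by positivity) (norm_nonneg _)
      (h2.trans (mul_le_mul_of_nonneg_left (add_le_add_left
        (mul_le_mul_of_nonneg_left h3 hε.le) _) hC₁))
    rw [hP, ind_symm, ← hG.2 ψ hψ, ← ContinuousLinearMap.adjoint_inner_right, ← hP, mul_assoc,
      mul_assoc]
    exact (inner_le_supp (meas_Sh y ρ) hShU hsup _).trans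
      (mul_le_mul_of_nonneg_left h4 (norm_nonneg _))
  obtain ⟨F, hF1, hF2⟩ := hd (HL n ι U) (Q ∘L ContinuousLinearMap.adjoint G ∘L P) (P (tl U ψ))
    (‖tl U (L.app ψ)‖ * √C₁) (√ε * (M 0 + 1)) (√(ε ^ (-ν))) (by positivity) (by positivity)
    (by positivity) key
  have hadj : ContinuousLinearMap.adjoint (Q ∘L ContinuousLinearMap.adjoint G ∘L P) F =
      P (G (Q F)) := by
    rw [ContinuousLinearMap.adjoint_comp, ContinuousLinearMap.adjoint_comp,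
      ContinuousLinearMap.adjoint_adjoint, hP, hQ, ind_adj, ind_adj]
    rfl
  rw [hadj] at hF2
  have hNn := nrm_nonneg (ball y (3 / 2 * ρ)) W
  refine ⟨Q F, supp_ind _ F, ?_, ?_⟩
  · have h2 := pow_le_pow_left₀ (norm_nonneg _) ((norm_ind_le (meas_So y e ρ) F).trans hF1) 2
    rw [mul_pow, mul_pow, mul_pow, Real.sq_sqrt hC₁, Real.sq_sqrt hδ] at h2
    have h3 : 1 ≤ (M 0 + 1) ^ 2 := one_le_pow₀ (by linarith)
    calc _ ≤ _ := h2
      _ ≤ 2 ^ 2 * (C₂ * nrm (ball y (3 / 2 * ρ)) W * C₁) * ε ^ (-ν) := by gcongr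
      _ = 4 * C₁ * C₂ * 1 * ε ^ (-ν) * nrm (ball y (3 / 2 * ρ)) W := by ring
      _ ≤ _ := by gcongr
  · rw [nrm_diff ((ball_subset_ball (by linarith)).trans hyU) (tests_l2 hψ U) hψW]
    have h2 := pow_le_pow_left₀ (norm_nonneg _) hF2 2
    rw [mul_pow, mul_pow, mul_pow, mul_pow, Real.sq_sqrt hC₁, Real.sq_sqrt hε.le] at h2
    calc _ ≤ _ := h2
      _ ≤ 2 ^ 2 * (C₂ * nrm (ball y (3 / 2 * ρ)) W * C₁) * (ε * (M 0 + 1) ^ 2) := by gcongr
      _ = _ := by ring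

end Vale.Agent.P088
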