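import Vale.Agent.P088.St1Tool

/-!
# P088, first stage: the bound by the visible part
-/

open MeasureTheory Set Metric Filter
open scoped ContDiff Topology InnerProductSpace

noncomputable section
namespace Vale.Agent.P088
open Vale.Agent.P136 (D Dp Dm Sm Tst)
open St1
namespace St1Vis
variable {n : ℕ}

theorem geo {κ δ : ℝ} {p x : En n} (hκ : κ ≤ 1 / 2) (hδ : 0 < δ) (hδκ : δ ≤ κ / 100)
    (hx : x ∈ ball p (1 / 5)) (h1 : 1 - 2 * δ ≤ ‖x‖ ^ 2) (h2 : ‖x‖ ^ 2 ≤ 1 - δ) :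
    1 + 1 / 16 ≤ ‖yy (1 / 16) x‖ ∧ ball (yy (1 / 16) x) (3 * (1 / 16)) ⊆ U0 p ∧
      ball (yy (1 / 16) x) (3 / 2 * (1 / 16)) ⊆ ball p (21 / 50) ∧
      ball x (δ / 8) ⊆ ball (yy (1 / 16) x) ((1 + κ) * (1 / 16)) ∧
      ball (yy (1 / 16) x) (1 / 16) ⊆ {y | 1 < ‖y‖} := by
  have h0 := norm_nonneg x
  have h3 : ‖x‖ ≤ 1 := by nlinarith
  have h4 : 1 - 3 * δ < ‖x‖ := by nlinarith
  have hx0 : x ≠ 0 := by
    rw [← norm_pos_iff]
    linarith
  have h5 : dist x (yy (1 / 16) x) < 1 / 16 + 3 * δ :=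
    dist_yy_lt (by norm_num) (by linarith) (by linarith) h4
  have h6 : 1 + 1 / 16 ≤ ‖yy (1 / 16) x‖ := by
    rw [norm_yy (by norm_num) hx0]
    exact le_max_left _ _
  have h7 : dist (yy (1 / 16) x) p ≤ 1 / 16 + 3 * δ + 1 / 5 := by
    have := dist_triangle_left (yy (1 / 16) x) p x
    have := mem_ball.1 hx
    linarith
  refine ⟨h6, ball_subset_ball' (by linarith), ball_subset_ball' (by linarith),
    ball_subset_ball' (by linarith), fun y hy => ?_⟩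
  have h8 := mem_ball.1 hy
  have h9 := norm_le_norm_add_norm_sub' (yy (1 / 16) x) y
  rw [dist_comm, dist_eq_norm] at h8
  change 1 < ‖y‖
  linarith

end St1Vis

theorem s1_vis (hu : S_ucp) (hw : S_weyl) (hg : S_green) : S1_vis := by
  intro n ι _ k om κ hκ0 hκ hcl hvg hdec M δ hδ hδκ
  obtain ⟨C₁, hC₁, H₁⟩ := hcl M (1 / 16) (by norm_num)
  obtain ⟨C₂, hC₂, H₂⟩ := hvg M (δ / 8) (by positivity) (by linarith)
  obtain ⟨C₃, hC₃, H₃⟩ := hdec M δ hδ hδκ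
  refine ⟨C₂ * (2 * C₃ + 2 * (C₁ * (M 0 ^ 2 * C₃))), by positivity, ?_⟩
  intro L₁ L₂ p G₁ G₂ x W Wx hp hP hx h1 h2 hW hW2 hL
  obtain ⟨F₁, F₂, a1, a2, a3, a4, a5, a6⟩ := H₃ L₁ L₂ p G₁ G₂ x W hp hP hx h2 hW hW2
  obtain ⟨g1, g2, g3, g4, g5⟩ := St1Vis.geo hκ hδ hδκ hx h1 h2
  set y := yy (1 / 16) x
  have hVU : ball p (21 / 50) ⊆ U0 p := ball_subset_ball (by norm_num)
  obtain ⟨u, u1, u2, u3⟩ := green_sol hw hg hP.2.1.1 hP.2.2.2.1 hP.1 isOpen_ball hVU a2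
    disjoint_compl_left
  obtain ⟨Z, z1, z2, z3⟩ := green_sol hw hg hP.2.2.1.1 hP.2.2.2.2.1 hP.1 isOpen_ball hVU a3
    disjoint_compl_left
  obtain ⟨Z', ⟨b1, b2⟩, b3, b4⟩ := H₁ L₁ L₂ (U0 p) G₁ G₂ y (1 / 16) Z hP le_rfl (by norm_num) g1 g2
    (sol_mono z1 g3) (l2_mono z2 g3)
  have hBV : ball y ((1 + κ) * (1 / 16)) ⊆ ball p (21 / 50) :=
    (ball_subset_ball (by linarith)).trans g3
  have hSB : ball y (1 / 16) ⊆ ball y ((1 + κ) * (1 / 16)) := ball_subset_ball (by linarith)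
  have hSV := hSB.trans hBV
  have hs : Sol L₁ (ball y ((1 + κ) * (1 / 16))) (linF u 1 Z') 0 :=
    sol_lin hP.2.1.1 isOpen_ball (sol_mono u1 hBV) b1 1
  have e1 : ∀ a, Wx a =ᵐ[volume.restrict (ball y (1 / 16))] linF u 1 Z' a := fun a => by
    have c1 := agree_ae hP.2.2.2.2.2.2.2 a1 measurableSet_ball (hSV.trans hVU) g5 a
    have c2 := ae_restrict_of_ae_restrict_of_subset hSV (u3 a)
    have c3 := ae_restrict_of_ae_restrict_of_subset hSV (z3 a)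
    have c4 := ae_restrict_of_ae_restrict_of_subset hSV (a4 a)
    have c5 := ae_restrict_of_ae_restrict_of_subset (hSV.trans hVU) (cp_add (G₂ F₁) (G₂ F₂) a)
    filter_upwards [c1, c2, c3, c4, c5, ae_restrict_mem measurableSet_ball]
      with z d1 d2 d3 d4 d5 hz
    rw [hL.2 a hz, linF, b2 a hz, d2, d3, d1, ← d4, map_add, d5, one_mul]
  have e2 := eqOn_of_ae isOpen_ball (sol_mono hL.1 hSB).1 (sol_mono hs hSB).1 e1
  have e3 := ucp_eq hu hP.2.1.1 isOpen_ball (convex_ball _ _).isPreconnected hL.1 hs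
    (mem_ball_self (by positivity)) fun a =>
      Filter.eventually_of_mem (ball_mem_nhds y (by norm_num)) (e2 a)
  have e4 : ∀ a, linF u 1 Z' a =ᵐ[volume.restrict (ball x (δ / 8))] Wx a := fun a => by
    filter_upwards [ae_restrict_mem measurableSet_ball] with z hz using (e3 a (g4 hz)).symm
  have l1 := l2_mono u2 (g4.trans hBV)
  have l2 := l2_mono b3 g4
  have f1 := H₂ L₁ x Wx hP.2.1 (sol_mono hL.1 g4) (l2_congr (l2_lin l1 l2 1) e4)
  have f2 := nrm_lin_le l1 l2 1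
  rw [nrm_congr e4] at f2
  have f3 : nrm (ball x (δ / 8)) u = nrm (ball x (δ / 8)) (cp (G₁ F₁)) :=
    nrm_congr fun a => ae_restrict_of_ae_restrict_of_subset (g4.trans hBV) (u3 a)
  have f4 := nrm_mono b3 g4
  have f5 := nrm_mono z2 g3
  have f6 := nrm_cp_le hVU (G₂ F₂)
  rw [← nrm_congr z3] at f6
  have f7 : ‖G₂ F₂‖ ^ 2 ≤ M 0 ^ 2 * ‖F₂‖ ^ 2 := by
    rw [← mul_pow]
    exact pow_le_pow_left₀ (norm_nonneg _) (G₂.le_of_opNorm_le hP.2.2.2.2.2.2.1 F₂) 2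
  have f8 := f7.trans (mul_le_mul_of_nonneg_left a5 (sq_nonneg _))
  have f9 := f4.trans (b4.trans (mul_le_mul_of_nonneg_left (f5.trans (f6.trans f8)) hC₁))
  refine f1.trans ?_
  rw [mul_assoc]
  refine mul_le_mul_of_nonneg_left ?_ hC₂
  rw [← f3] at a6
  nlinarith

end Vale.Agent.P088
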