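import Vale.Agent.P088.St1Asm
import Vale.Agent.P088.St1Ann
import Vale.Agent.P088.St1Cut
import Vale.Agent.P088.St1Vg
import Vale.Agent.P088.St1Dual
import Vale.Agent.P088.St1Run
import Vale.Agent.P088.St1Cl
import Vale.Agent.P088.St1Glob
import Vale.Agent.P088.St1Adj
import Vale.Agent.P088.St1Dec
import Vale.Agent.P088.St1Vis

namespace Vale.Agent.P088

theorem s_st1 (htb : S_tb) (hw : S_weyl) (hu : S_ucp) (hie : S_ie) (hg : S_green) : S_st1 :=
  s1_asm hu (s1_ann htb) (s1_vg hie) (s1_run hw hg s1_cut s1_com s1_dual) (s1_cl htb hw hg)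
    (s1_glob hu) (s1_adj hw hg) (s1_dec hg s1_cut s1_com) (s1_vis hu hw hg)

end Vale.Agent.P088
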