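import Vale.Agent.P088.Top

/-!
# P088: general statements (symbol calculus, integral identities, harmonic polynomials)
-/

open MeasureTheory Set Metric
open scoped ContDiff Topology

noncomputable section
namespace Vale.Agent.P088
open Vale.Agent.P136 (D Dp Dm Sm Tst)

/-- The bilinear form with matrix `γ`. -/
def bil {κ : Type} [Fintype κ] (γ : κ → κ → ℝ) (a b : κ → ℝ) : ℝ := ∑ i, ∑ j, γ i j * a i * b j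

/-- `γ(φ', φ')`. -/
def rho {X : Type} [NormedAddCommGroup X] [NormedSpace ℝ X] {κ : Type} [Fintype κ] (v : κ → X)
    (γ : κ → κ → X → ℝ) (φ : X → ℝ) : X → ℝ := dir v (XX v γ φ) φ

/-! ## Symbol calculus -/

def S_sbAlg : Prop := ∀ (X : Type) [NormedAddCommGroup X] [NormedSpace ℝ X] (κ : Type)
  (v : κ → X) (k : ℕ) (L : ℝ) (p : X), 0 ≤ L →
  (∀ (f g : X → ℝ) (w : ℝ), f =ᶠ[𝓝 p] g → SB v k w L f p → SB v k w L g p) ∧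
  (∀ (f : X → ℝ) (k' : ℕ) (w w' L' : ℝ), SB v k w L f p → k' ≤ k → w ≤ w' → L ≤ L' →
    SB v k' w' L' f p) ∧
  (∀ c : ℝ, SB v k |c| L (fun _ => c) p) ∧
  (∀ (f : X → ℝ) (w : ℝ) (i : κ), SB v (k + 1) w L f p → SB v k (w * L) L (D (v i) f) p) ∧
  (∀ (f : X → ℝ) (w : ℝ) (i : κ), SB1 v (k + 1) w L f p → SB v k (w * L) L (D (v i) f) p) ∧
  (∀ (f : X → ℝ) (w c : ℝ), ContDiffAt ℝ ∞ f p → SB v k w L f p →
    SB v k (|c| * w) L (fun x => c * f x) p) ∧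
  (∀ (f g : X → ℝ) (w w' : ℝ), ContDiffAt ℝ ∞ f p → ContDiffAt ℝ ∞ g p → SB v k w L f p →
    SB v k w' L g p → SB v k (w + w') L (fun x => f x + g x) p ∧
      SB v k (w + w') L (fun x => f x - g x) p ∧
      SB v k (2 ^ k * w * w') L (fun x => f x * g x) p) ∧
  (∀ (J : Type) (s : Finset J) (f : J → X → ℝ) (w : J → ℝ), (∀ j ∈ s, ContDiffAt ℝ ∞ (f j) p) →
    (∀ j ∈ s, SB v k (w j) L (f j) p) →
    SB v k (∑ j ∈ s, w j) L (fun x => ∑ j ∈ s, f j x) p) ∧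
  (∀ (f g f' g' : X → ℝ) (w w' ε : ℝ), ContDiffAt ℝ ∞ f p → ContDiffAt ℝ ∞ g p →
    ContDiffAt ℝ ∞ f' p → ContDiffAt ℝ ∞ g' p → SD v k w L ε f g p → SD v k w' L ε f' g' p →
    0 ≤ ε → SD v k (w + w') L ε (fun x => f x + f' x) (fun x => g x + g' x) p ∧
      SD v k (2 ^ (k + 1) * w * w') L ε (fun x => f x * f' x) (fun x => g x * g' x) p)

/-- Composition with a function of one variable, and the standard special cases. -/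
def S_sbComp : Prop := ∀ k : ℕ, ∃ C : ℝ, 1 ≤ C ∧ ∀ (X : Type) [NormedAddCommGroup X]
  [NormedSpace ℝ X] (κ : Type) (v : κ → X) (L w : ℝ) (p : X) (f : X → ℝ), 0 ≤ L →
  ContDiffAt ℝ ∞ f p → SB1 v k w L f p →
  (∀ (F : ℝ → ℝ) (A : ℝ), ContDiffAt ℝ ∞ F (f p) →
    (∀ j ≤ k, |iteratedDeriv j F (f p)| * w ^ j ≤ A) → SB v k (C * A) L (fun x => F (f x)) p) ∧
  (w ≤ 1 → SB v k (C * Real.exp (f p)) L (fun x => Real.exp (f x)) p) ∧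
  (∀ B : ℝ, 1 ≤ B → 0 < f p → w ≤ B * f p →
    SB v k (C * B ^ k / f p) L (fun x => (f x)⁻¹) p ∧
    SB v k (C * B ^ k * √(f p)) L (fun x => √(f x)) p ∧
    SB1 v k (C * B ^ k) L (fun x => Real.log (f x)) p) ∧
  (∀ B : ℝ, 1 ≤ B → w ≤ B → SB v k (C * B ^ k) L (fun x => cut (f x)) p)

/-- Linear changes of variables, the inverse matrix, and Taylor bounds. -/
def S_sbLin : Prop :=
  (∀ (X Y : Type) [NormedAddCommGroup X] [NormedSpace ℝ X] [NormedAddCommGroup Y]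
    [NormedSpace ℝ Y] (κ κ' : Type) [Fintype κ'] (v : κ → X) (v' : κ' → Y) (T : X →L[ℝ] Y)
    (c : Y) (t : κ → κ' → ℝ) (A w L : ℝ) (k : ℕ) (f : Y → ℝ) (p : X), 0 ≤ L →
    (∀ i, T (v i) = ∑ j, t i j • v' j) → (∀ i, ∑ j, |t i j| ≤ A) → ContDiffAt ℝ ∞ f (T p + c) →
    (SB v' k w L f (T p + c) → SB v k w (A * L) (fun x => f (T x + c)) p) ∧
    (0 ≤ w → SB1 v' k w L f (T p + c) → SB1 v k w (A * L) (fun x => f (T x + c)) p)) ∧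
  (∀ (n k : ℕ), ∃ C om₀ : ℝ, 1 ≤ C ∧ 0 < om₀ ∧ ∀ (γ : MatF n) (om : ℝ), SmM γ → SymM γ →
    om ≤ om₀ → Near k om γ →
    SmM (fun i j x => (Matrix.of fun a b => γ a b x)⁻¹ i j) ∧
    SymM (fun i j x => (Matrix.of fun a b => γ a b x)⁻¹ i j) ∧
    Near k (C * om) (fun i j x => (Matrix.of fun a b => γ a b x)⁻¹ i j) ∧
    (∀ x i j, ∑ l, γ i l x * (Matrix.of fun a b => γ a b x)⁻¹ l j = if i = j then 1 else 0) ∧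
    ∀ x (ξ : Fin n → ℝ), |bil (fun i j => γ i j x) ξ ξ - ∑ i, ξ i ^ 2| ≤ C * om * ∑ i, ξ i ^ 2) ∧
  (∀ (X : Type) [NormedAddCommGroup X] [NormedSpace ℝ X] (κ : Type) [Fintype κ] (v : κ → X)
    (f : X → ℝ) (p : X) (h : κ → ℝ) (k : ℕ) (A : ℝ),
    (∀ s ∈ Icc (0 : ℝ) 1, ContDiffAt ℝ ∞ f (p + s • ∑ i, h i • v i)) →
    (∀ s ∈ Icc (0 : ℝ) 1, ∀ l : List κ, l.length = k → |Ds v l f (p + s • ∑ i, h i • v i)| ≤ A) →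
    (∀ l : List κ, l ≠ [] → l.length < k → Ds v l f p = 0) → 1 ≤ k →
    |f (p + ∑ i, h i • v i) - f p| ≤ A * (∑ i, |h i|) ^ k)

/-! ## Integral identities -/

/-- The diagonal identity. -/
def S_DI : Prop := ∀ (X : Type) [NormedAddCommGroup X] [NormedSpace ℝ X] [FiniteDimensional ℝ X]
  [MeasurableSpace X] [BorelSpace X] (μ : Measure X) [μ.IsAddHaarMeasure] (κ : Type) [Fintype κ]
  (v : κ → X) (γ : κ → κ → X → ℝ) (φ u : X → ℝ) (P : κ → X → ℝ), SmM γ → SymM γ → Sm φ → Tst u →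
  (∀ i, Sm (P i)) →
  ∫ p, Lm v γ φ u p ^ 2 ∂μ = ∫ p, (Lp' v γ φ u p + Nop v φ P u p) ^ 2 ∂μ -
    ∫ p, Nop v φ P u p ^ 2 ∂μ +
    ∫ p, ∑ i, ∑ k, Qco v γ φ P i k p * Dm φ (v i) u p * Dm φ (v k) u p ∂μ -
    ∫ p, cco v γ φ P p * u p ^ 2 ∂μ

/-- The Rellich identity. -/
def S_RL : Prop := ∀ (X : Type) [NormedAddCommGroup X] [NormedSpace ℝ X] [FiniteDimensional ℝ X]
  [MeasurableSpace X] [BorelSpace X] (μ : Measure X) [μ.IsAddHaarMeasure] (κ : Type) [Fintype κ]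
  (v : κ → X) (γ : κ → κ → X → ℝ) (φ u : X → ℝ) (Y : κ → X → ℝ), SmM γ → SymM γ → Sm φ → Tst u →
  (∀ i, Sm (Y i)) →
  ∫ p, Lp' v γ φ u p * ∑ k, Y k p * Dp φ (v k) u p ∂μ =
    ∫ p, (2 * (∑ i, XX v γ φ i p * Dp φ (v i) u p) * (∑ k, Y k p * Dp φ (v k) u p) -
      (∑ i, ∑ j, ∑ k, γ i j p * D (v i) (Y k) p * Dp φ (v j) u p * Dp φ (v k) u p) +
      1 / 2 * (∑ i, ∑ j, dvg v (fun l q => γ i j q * Y l q) p * Dp φ (v i) u p * Dp φ (v j) u p) -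
      dir v Y φ p * ∑ i, ∑ j, γ i j p * Dp φ (v i) u p * Dp φ (v j) u p) ∂μ

/-- Caccioppoli-type identities (`γ` need not be definite). -/
def S_CI : Prop := ∀ (X : Type) [NormedAddCommGroup X] [NormedSpace ℝ X] [FiniteDimensional ℝ X]
  [MeasurableSpace X] [BorelSpace X] (μ : Measure X) [μ.IsAddHaarMeasure] (κ : Type) [Fintype κ]
  (v : κ → X) (γ : κ → κ → X → ℝ) (φ u w : X → ℝ), SmM γ → SymM γ → Sm φ → Tst u → Sm w →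
  (∫ p, w p * ∑ i, ∑ j, γ i j p * Dm φ (v i) u p * Dm φ (v j) u p ∂μ =
    -∫ p, w p * u p * Lp' v γ φ u p ∂μ +
      ∫ p, (2 * w p * rho v γ φ p + w p * dgd v γ φ p + 1 / 2 * dgd v γ w p) * u p ^ 2 ∂μ) ∧
  (∫ p, w p * ∑ i, ∑ j, γ i j p * Dp φ (v i) u p * Dp φ (v j) u p ∂μ =
    -∫ p, w p * u p * Lp' v γ φ u p ∂μ +
      ∫ p, (2 * w p * rho v γ φ p - w p * dgd v γ φ p - 2 * dir v (XX v γ φ) w p +
        1 / 2 * dgd v γ w p) * u p ^ 2 ∂μ) ∧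
  (∫ p, w p * ∑ i, ∑ j, γ i j p * Dm φ (v i) u p * Dm φ (v j) u p ∂μ =
    ∫ p, w p * ∑ i, ∑ j, γ i j p * D (v i) u p * D (v j) u p ∂μ +
      ∫ p, (w p * rho v γ φ p + dvg v (fun i q => w q * XX v γ φ i q) p) * u p ^ 2 ∂μ) ∧
  (∫ p, ∑ i, ∑ j, γ i j p * Dm φ (v i) u p * Dm φ (v j) u p ∂μ =
    ∫ p, ∑ i, ∑ j, γ i j p * Dp φ (v i) u p * Dp φ (v j) u p ∂μ +
      2 * ∫ p, dgd v γ φ p * u p ^ 2 ∂μ)

/-- The mixed identities: `γ₁` is constant along `w`, while `γ₂` and `b` are constant along `v`. -/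
def S_MI : Prop := ∀ (X : Type) [NormedAddCommGroup X] [NormedSpace ℝ X] [FiniteDimensional ℝ X]
  [MeasurableSpace X] [BorelSpace X] (μ : Measure X) [μ.IsAddHaarMeasure] (κ : Type) [Fintype κ]
  (v w : κ → X) (γ₁ γ₂ : κ → κ → X → ℝ) (φ g q : X → ℝ), SmM γ₁ → SymM γ₁ → SmM γ₂ → SymM γ₂ →
  Sm φ → Tst g → Tst q → (∀ i j a p, D (w a) (γ₁ i j) p = 0) →
  (∀ a b i p, D (v i) (γ₂ a b) p = 0) →
  (∫ p, Lm v γ₁ φ g p * Lm w γ₂ φ q p ∂μ = ∫ p, Lp' w γ₂ φ g p * Lp' v γ₁ φ q p ∂μ +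
    ∫ p, (8 * (∑ i, ∑ a, D (w a) (D (v i) φ) p * Zm v γ₁ φ g i p * Zm w γ₂ φ q a p) -
      4 * g p * (∑ a, tht v w γ₁ φ a p * Zm w γ₂ φ q a p) -
      4 * q p * (∑ i, tht w v γ₂ φ i p * Zm v γ₁ φ g i p) -
      cmx v w γ₁ γ₂ φ p * g p * q p) ∂μ) ∧
  ∀ (b : X → ℝ) (a : κ), Sm b → (∀ i p, D (v i) b p = 0) →
    ∫ p, Lm v γ₁ φ g p * Dm φ (w a) (fun p => b p * q p) p ∂μ =
      ∫ p, b p * Dp φ (w a) g p * Lp' v γ₁ φ q p ∂μ +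
      ∫ p, (4 * (∑ i, D (w a) (D (v i) φ) p * Zm v γ₁ φ g i p) - 2 * tht v w γ₁ φ a p * g p) *
        b p * q p ∂μ

/-- The identity for the first-order term. -/
def S_MB : Prop := ∀ (X : Type) [NormedAddCommGroup X] [NormedSpace ℝ X] [FiniteDimensional ℝ X]
  [MeasurableSpace X] [BorelSpace X] (μ : Measure X) [μ.IsAddHaarMeasure] (κ : Type) [Fintype κ]
  (v : κ → X) (γ : κ → κ → X → ℝ) (φ q q' b : X → ℝ) (a : κ), SmM γ → SymM γ → Sm φ → Tst q →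
  Tst q' → Sm b →
  ∫ p, Lm v γ φ q p * Dm φ (v a) (fun p => b p * q' p) p ∂μ =
    ∫ p, (Dp φ (v a) q p * (b p * Lp' v γ φ q' p +
        2 * (∑ i, XX v γ b i p * Dp φ (v i) q' p) + dgd v γ b p * q' p) +
      (4 * (∑ i, D (v a) (D (v i) φ) p * Zm v γ φ q i p) - 2 * tht v v γ φ a p * q p) *
        b p * q' p +
      ∑ i, ∑ j, D (v a) (γ i j) p * Dm φ (v j) q p *
        (b p * Dp φ (v i) q' p + D (v i) b p * q' p)) ∂μ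

/-! ## Lemma Q -/

def S_Q : Prop := ∀ (n : ℕ) (r g : X2 n → ℝ), Tst r → Tst g →
  2 * ((n : ℝ) - 1) * ∫ p, r p ^ 2 ≤ ∑ i, ∫ p,
    (-D (ey i) r p + p.2 i * r p + D (ex i) g p) ^ 2

def S_Qcv : Prop := ∀ (n : ℕ) (s : En n → ℝ) (r g : X2 n → ℝ), Sm s → (∀ x, 0 < s x) → Tst r →
  Tst g → 2 * ((n : ℝ) - 1) * ∫ p, s p.1 ^ 2 * r p ^ 2 ≤ ∑ i, ∫ p,
    (-D (ey i) r p + s p.1 ^ 2 * (p.2 i - p.1 i) * r p + D (ex i) g p + D (ey i) g p -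
      D (ee i) s p.1 / s p.1 * ((∑ k, (p.2 k - p.1 k) * D (ey k) g p) + n / 2 * g p)) ^ 2

/-! ## Harmonic polynomials in the Gaussian space -/

/-- Bases of the spaces of homogeneous harmonic polynomials and the matrices of `∂_a`. -/
structure Fock (n : ℕ) where
  d : ℕ → ℕ
  H : (k : ℕ) → Fin (d k) → En n → ℝ
  c : Fin n → (k : ℕ) → Fin (d k) → Fin (d (k + 1)) → ℝ

/-- The Gaussian `exp (-|w|²/2)`. -/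
def gs {n : ℕ} (w : En n) : ℝ := Real.exp (-(‖w‖ ^ 2 / 2))

/-- The defining properties. -/
def Fock.Ok {n : ℕ} (F : Fock n) : Prop :=
  (∀ k j, Sm (F.H k j)) ∧ (∀ k j (s : ℝ) w, F.H k j (s • w) = s ^ k * F.H k j w) ∧
  (∀ k j w, ∑ a, D (ee a) (D (ee a) (F.H k j)) w = 0) ∧
  (∀ k j k' j', ∫ w, F.H k j w * F.H k' j' w * gs w ^ 2 =
    if (⟨k, j⟩ : Σ k, Fin (F.d k)) = ⟨k', j'⟩ then 1 else 0) ∧
  (∀ (k : ℕ) (P : MvPolynomial (Fin n) ℝ), P.IsHomogeneous k →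
    (∑ a, MvPolynomial.pderiv a (MvPolynomial.pderiv a P) = 0) →
    ∃ t : Fin (F.d k) → ℝ, ∀ w : En n, MvPolynomial.eval (fun i => w i) P = ∑ j, t j * F.H k j w) ∧
  (∀ k j, ∃ P : MvPolynomial (Fin n) ℝ, P.IsHomogeneous k ∧
    ∀ w : En n, F.H k j w = MvPolynomial.eval (fun i => w i) P) ∧
  (∀ a j w, D (ee a) (F.H 0 j) w = 0) ∧
  ∀ a k j w, D (ee a) (F.H (k + 1) j) w = ∑ i, F.c a k i j * F.H k i w

/-- The matrix of `c_a† c_b` in degree `k`. -/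
def Fock.up {n : ℕ} (F : Fock n) : (k : ℕ) → Fin n → Fin n → Fin (F.d k) → Fin (F.d k) → ℝ
  | 0, _, _, _, _ => 0
  | k + 1, a, b, i, i' => ∑ h, F.c a k h i * F.c b k h i'

/-- The commutation relations. -/
def Fock.Alg {n : ℕ} (F : Fock n) : Prop :=
  (∀ a b k i i', ∑ j, F.c a k i j * F.c b k i' j =
    (if a = b ∧ i = i' then 2 else 0) + F.up k b a i i' -
      2 / (2 * (k : ℝ) + n - 2) * F.up k a b i i') ∧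
  ∀ k i i', ∑ a, F.up k a a i i' = if i = i' then 2 * (k : ℝ) else 0

def S_fock : Prop := ∀ n : ℕ, ∃ F : Fock n, F.Ok

def S_fockAlg : Prop := ∀ n : ℕ, 3 ≤ n → ∀ F : Fock n, F.Ok → F.Alg

/-- Bessel inequalities for derivatives of the basis, and the tail bound. -/
def S_bes : Prop := ∀ n : ℕ, ∃ C : ℝ, 1 ≤ C ∧ ∀ F : Fock n, F.Ok → ∀ (u : En n → ℝ), Continuous u →
  HasCompactSupport u → ∀ l : List (Fin n), l.length ≤ 2 →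
  (∀ K, ∑ k ∈ Finset.range K, ∑ j, (∫ w, u w * Ds ee l (F.H k j) w * gs w) ^ 2 ≤
    C * ∫ w, (1 + ‖w‖ ^ 2) ^ l.length * u w ^ 2) ∧
  ∀ (k : ℕ) (R : ℝ), (∀ w, u w ≠ 0 → ‖w‖ ^ 2 ≤ R) →
    ∑ j, (∫ w, u w * Ds ee l (F.H k j) w * gs w) ^ 2 ≤
      C * ((k : ℝ) + 1) ^ l.length * Real.exp R / 2 ^ k * ∫ w, u w ^ 2

/-- Polynomials are dense in the Gaussian space. -/
def S_dense : Prop := ∀ (n : ℕ) (f : En n → ℝ), MemLp (fun w => f w * gs w) 2 volume →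
  (∀ P : MvPolynomial (Fin n) ℝ, ∫ w, f w * MvPolynomial.eval (fun i => w i) P * gs w ^ 2 = 0) →
  f =ᵐ[volume] 0

/-- The conjugated Laplacian. -/
def ccG {n : ℕ} (u : En n → ℝ) : En n → ℝ := fun w =>
  ∑ a, Dp (fun w : En n => ‖w‖ ^ 2 / 2) (ee a) (Dp (fun w : En n => ‖w‖ ^ 2 / 2) (ee a) u) w

def S_n1 : Prop := ∀ n : ℕ, ∃ C : ℝ, 1 ≤ C ∧ ∀ F : Fock n, F.Ok → ∀ (u : En n → ℝ) (A : ℝ), Tst u →
  (∀ K, ∑ k ∈ Finset.range K, ((k : ℝ) + 1) * ∑ j, (∫ w, u w * F.H k j w * gs w) ^ 2 ≤ A) →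
  ∫ w, (1 + ‖w‖ ^ 2) * u w ^ 2 ≤ C * (A + ∫ w, ccG u w ^ 2)

/-- A smooth orthonormal frame. -/
def S_frame : Prop := ∀ n k : ℕ, ∃ C om₀ : ℝ, 1 ≤ C ∧ 0 < om₀ ∧ ∀ (γ : MatF n) (om : ℝ), SmM γ →
  SymM γ → om ≤ om₀ → Near k om γ → ∃ E : MatF n, SmM E ∧ Near k (C * om) E ∧
    ∀ x a b, ∑ i, ∑ j, E a i x * γ i j x * E b j x = if a = b then 1 else 0

/-! ## The chain of equations for the moments -/

section chain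
variable {n : ℕ} (F : Fock n) (γ e : MatF n) (ℓ : En n → ℝ) (Cw : ℝ)

def lamk (n : ℕ) (Cw : ℝ) (k : ℕ) : ℝ := k + Cw + n / 2

def psik (k : ℕ) : En n → ℝ := fun x => lamk n Cw k * ℓ x

def opT (k : ℕ) (a : Fin n) (u : En n → ℝ) : En n → ℝ := fun x =>
  ∑ i, Dm (psik ℓ Cw k) (ee i) (fun y => e a i y * u y) x

def opS (k : ℕ) (a : Fin n) (u : En n → ℝ) : En n → ℝ := fun x =>
  ∑ i, e a i x * Dp (psik ℓ Cw k) (ee i) u x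

/-- The raising operator, from degree `k` to degree `k + 1`. -/
def nzB (k : ℕ) (f : Fin (F.d k) → En n → ℝ) (j : Fin (F.d (k + 1))) : En n → ℝ := fun x =>
  -2 * Real.exp (ℓ x) * ∑ a, ∑ i, F.c a k i j * opT e ℓ Cw k a (f i) x

/-- The lowering operator, from degree `k + 1` to degree `k`. -/
def nzL (k : ℕ) (f : Fin (F.d (k + 1)) → En n → ℝ) (i : Fin (F.d k)) : En n → ℝ := fun x =>
  -2 * ∑ a, ∑ j, F.c a k i j * opS e ℓ Cw (k + 2) a (fun y => Real.exp (ℓ y) * f j y) x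

def nzL2 : (k : ℕ) → (Fin (F.d k) → En n → ℝ) → ℝ
  | 0, _ => 0
  | k + 1, f => ∑ i, ∫ x, nzL F e ℓ Cw k f i x ^ 2

def nzS (f : (k : ℕ) → Fin (F.d k) → En n → ℝ) : (k : ℕ) → Fin (F.d k) → En n → ℝ
  | 0, j => Lm ee γ (psik ℓ Cw 0) (f 0 j)
  | k + 1, j => fun x => Lm ee γ (psik ℓ Cw (k + 1)) (f (k + 1) j) x + nzB F e ℓ Cw k (f k) j x

def nzD (Lf : En n → ℝ) (k : ℕ) {J : Type} [Fintype J] (f : J → En n → ℝ) : En n → ℝ := fun x =>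
  ∑ j, (∑ i, D (ee i) (f j) x ^ 2 + (lamk n Cw k * Lf x) ^ 2 * f j x ^ 2)

/-- The hypotheses on the coefficients at the points of `S`. -/
def ChainOk (A om : ℝ) (Lf : En n → ℝ) (S : Set (En n)) : Prop :=
  SmM γ ∧ SymM γ ∧ Near 4 om γ ∧ SmM e ∧ Near 4 om e ∧ Sm ℓ ∧ Continuous Lf ∧ (∀ x, 1 ≤ Lf x) ∧
    ∀ x ∈ S, SB1 ee 4 A (Lf x) ℓ x ∧ Lf x ^ 2 ≤ A * ∑ i, D (ee i) ℓ x ^ 2 ∧
      ∀ ξ : Fin n → ℝ, 0 ≤ ∑ i, ∑ j, D (ee i) (D (ee j) ℓ) x * ξ i * ξ j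

end chain

def S_nzp1 : Prop := ∀ n : ℕ, 3 ≤ n → ∀ A : ℝ, 1 ≤ A → ∃ c : ℝ, 0 < c ∧ ∀ Cw : ℝ, 1 ≤ Cw →
  ∃ C om₀ : ℝ, 0 ≤ C ∧ 0 < om₀ ∧ ∀ (F : Fock n) (γ e : MatF n) (ℓ Lf : En n → ℝ) (om : ℝ)
    (S : Set (En n)) (k : ℕ) (f : Fin (F.d k) → En n → ℝ), F.Alg → om ≤ om₀ →
    ChainOk γ e ℓ A om Lf S → Tests S f →
    ∫ x, (c * Real.exp (2 * ℓ x) / (k + 1) - C * om * Real.exp (2 * ℓ x) / Lf x) *
        nzD Cw Lf k f x ≤ (∑ j, ∫ x, nzB F e ℓ Cw k f j x ^ 2) - nzL2 F e ℓ Cw k f ∧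
    nzL2 F e ℓ Cw k f ≤ C * ∫ x, Real.exp (2 * ℓ x) * (k + 1) * nzD Cw Lf k f x

def S_nzp2 : Prop := ∀ (n : ℕ), 3 ≤ n → ∀ A Cw : ℝ, 1 ≤ A → 1 ≤ Cw →
  ∃ C : ℝ, 0 ≤ C ∧ ∀ (F : Fock n) (γ e : MatF n) (ℓ Lf : En n → ℝ) (om : ℝ)
    (S : Set (En n)) (k : ℕ) (f : Fin (F.d k) → En n → ℝ) (f' : Fin (F.d (k + 1)) → En n → ℝ),
    F.Alg → om ≤ 1 → ChainOk γ e ℓ A om Lf S → Tests S f → Tests S f' →
    |(∑ j, ∫ x, Lm ee γ (psik ℓ Cw (k + 1)) (f' j) x * nzB F e ℓ Cw k f j x) -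
      ∑ i, ∫ x, Lp' ee γ (psik ℓ Cw k) (f i) x * nzL F e ℓ Cw k f' i x| ≤
      C * ∫ x, Real.exp (ℓ x) * √((k : ℝ) + 1) * Lf x * (nzD Cw Lf k f x + nzD Cw Lf (k + 1) f' x)

def S_nzp : Prop := ∀ n : ℕ, 3 ≤ n → ∀ A : ℝ, 1 ≤ A → ∃ c : ℝ, 0 < c ∧ ∀ Cw : ℝ, 1 ≤ Cw →
  ∃ C om₀ : ℝ, 0 ≤ C ∧ 0 < om₀ ∧ ∀ (F : Fock n) (γ e : MatF n) (ℓ Lf : En n → ℝ) (om : ℝ)
    (S : Set (En n)) (K : ℕ) (f : (k : ℕ) → Fin (F.d k) → En n → ℝ), F.Alg → om ≤ om₀ →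
    ChainOk γ e ℓ A om Lf S → (∀ k, Tests S (f k)) →
    (∑ k ∈ Finset.range K, ∫ x, (c * Real.exp (2 * ℓ x) / (k + 1)) * nzD Cw Lf k (f k) x) -
      C * (∑ k ∈ Finset.range (K + 1), ∫ x, (Real.exp (ℓ x) * √((k : ℝ) + 1) * Lf x +
        (k + 1) * Lf x ^ 2 + om * Real.exp (2 * ℓ x) / Lf x) * nzD Cw Lf k (f k) x) -
      C * ∫ x, Real.exp (2 * ℓ x) * (K + 1) * nzD Cw Lf K (f K) x ≤
    ∑ k ∈ Finset.range (K + 1), ∑ j, ∫ x, nzS F γ e ℓ Cw f k j x ^ 2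

/-! ## The profile and the dyadic sums -/

/-- `Om (t²) = ω(t)²`, where the slope of `ω` decreases slowly from `8` to `lam`. -/
def ProfOk (lam gam0 t0 t1 : ℝ) (Om : ℝ → ℝ) : Prop :=
  ContDiff ℝ ∞ Om ∧ (∀ q ≤ t0 ^ 2, Om q = 64 * q) ∧ ∀ q, 0 < q →
    lam ^ 2 * q ≤ Om q ∧ Om q ≤ 64 * q ∧ √(Om q) ≤ 8 * t1 + lam * √q ∧ 0 < deriv Om q ∧
    q * deriv Om q ≤ Om q ∧ lam ^ 2 * Om q ≤ q * deriv Om q ^ 2 ∧
    -gam0 ≤ 1 + 2 * q * deriv (deriv Om) q / deriv Om q - q * deriv Om q / Om q ∧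
    1 + 2 * q * deriv (deriv Om) q / deriv Om q - q * deriv Om q / Om q ≤ 0 ∧
    (q ≤ 2 * t0 ^ 2 → 16 * Om q ≤ q * deriv Om q ^ 2) ∧
    (t1 ^ 2 ≤ q → q * deriv Om q ^ 2 = lam ^ 2 * Om q ∧
      1 + 2 * q * deriv (deriv Om) q / deriv Om q - q * deriv Om q / Om q = 0)

def S_prof : Prop := ∀ lam gam0 t1 : ℝ, 0 < lam → lam ≤ 1 → 0 < gam0 → gam0 ≤ 1 → 0 < t1 →
  ∃ (t0 : ℝ) (Om : ℝ → ℝ), 0 < t0 ∧ 2 * t0 ≤ t1 ∧ ProfOk lam gam0 t0 t1 Om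

/-- `1 / y` clamped to `[L0, L0 2^J]`. -/
def cl (L0 : ℝ) (J : ℕ) (y : ℝ) : ℝ := max L0 (1 / max y (1 / (L0 * 2 ^ J)))

def dy (K : ℕ) (L0 : ℝ) (J i : ℕ) (y : ℝ) : ℝ :=
  ∑ j ∈ Finset.range (J + 1), (L0 * 2 ^ j) ^ (2 * K + i) * Real.exp (-(L0 * 2 ^ j * y))

def S_mom : Prop := ∀ K I : ℕ, 1 ≤ K → ∃ C : ℝ, 1 ≤ C ∧ ∀ (L0 : ℝ) (J : ℕ) (y : ℝ), 1 ≤ L0 →
  (∀ i ≤ I, dy K L0 J i y ≤ C * cl L0 J y ^ i * dy K L0 J 0 y) ∧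
  cl L0 J y * dy K L0 J 0 y ≤ C * dy K L0 J 1 y ∧
  cl L0 J y ^ (2 * K) * Real.exp (-(L0 * max y 0)) ≤ C * dy K L0 J 0 y ∧
  dy K L0 J 0 y ≤ C * cl L0 J y ^ (2 * K) * Real.exp (cl L0 J y * max (-y) 0) ∧
  (0 < y → dy K L0 J 0 y ≤ C / y ^ (2 * K)) ∧
  L0 ≤ cl L0 J y ∧ cl L0 J y ≤ L0 * 2 ^ J ∧ (∀ y', y ≤ y' → cl L0 J y' ≤ cl L0 J y) ∧
  ∀ y', |y' - y| * cl L0 J y ≤ 1 / 2 → cl L0 J y' ≤ 2 * cl L0 J y

end Vale.Agent.P088
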