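import Vale.Agent.P088.StW

/-!
# P088: the main estimate and the gain
-/

open MeasureTheory Set Metric
open scoped ContDiff Topology

noncomputable section
namespace Vale.Agent.P088
open Vale.Agent.P136 (D Dp Dm Sm Tst)

/-- The main estimate. -/
def S_ME : Prop := ∀ n : ℕ, 3 ≤ n → ∀ (ι : Type) [Fintype ι], ∃ τ₀ : ℝ, 0 < τ₀ ∧ ∀ f : Fx, f.Ok →
  f.tau ≤ τ₀ → f.e1 ≤ τ₀ → ∃ C : ℝ, 0 ≤ C ∧ Ev f fun c : Cx n ι => ∀ g q, TT f c g q →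
    I0 (fun p => aX f c p.1 * LX f c p.1 ^ 2) univ g + IX f c g (fun p => LX f c p.1 ^ 2) univ ≤
      C * GG f c g q

def X1 {n : ℕ} (p : En n) (δ : ℝ) : Set (En n) := ball p (1 / 5) ∩ {x | 1 - δ ≤ ‖x‖ ^ 2}

/-- The gain for solutions that vanish to second order. -/
def S_gain : Prop := ∀ n : ℕ, 3 ≤ n → ∀ (ι : Type) [Fintype ι] [DecidableEq ι] (M : ℕ → ℝ),
  ∃ δ₀ : ℝ, 0 < δ₀ ∧ ∀ δ : ℝ, 0 < δ → δ ≤ δ₀ → ∀ K C₀ : ℕ, 20 ≤ K → n + 4 ≤ C₀ → ∀ C₁ : ℝ,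
  ∃ (k : ℕ) (om L₀ σ₀ : ℝ), 0 < om ∧ 0 < σ₀ ∧ ∀ L0 : ℝ, L₀ ≤ L0 → ∃ C : ℝ, 0 ≤ C ∧
  ∀ (sg : ℝ) (J : ℕ) (L₁ L₂ : Op n ι) (p : En n) (G₁ G₂ : HL n ι (U0 p) →L[ℝ] HL n ι (U0 p)),
    0 ≤ sg → sg ≤ σ₀ → Set0 k om M L₁ L₂ p G₁ G₂ →
    (∀ x ∈ U0 p, ∀ a a', L₁.c a a' x = 0 ∧ L₂.c a a' x = 0) →
    (∀ x ∈ X0 p δ, (∀ i j, SB ee 6 (C₁ / aU K L0 sg J (‖x‖ ^ 2) ^ C₀) 1
        (fun y => L₁.γ i j y - L₂.γ i j y) x) ∧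
      ∀ i a a', |L₁.b i a a' x - L₂.b i a a' x| ≤ C₁ / aU K L0 sg J (‖x‖ ^ 2) ^ C₀) →
    ∃ n₀ : En n → ℝ, Continuous n₀ ∧ (∀ x, 0 ≤ n₀ x) ∧
      ∫ x in X1 p δ, aU K L0 sg J (‖x‖ ^ 2) * n₀ x ≤ C ∧
      ∀ W W' : ι → En n → ℝ, Sol L₂ (Y0 p) W 0 → Cont L₁ p δ W W' → ∀ x ∈ X1 p δ,
        (∀ y ∈ Y0 p, ∀ a, |W a y| ≤ ‖y - x‖ ^ 2) →
        ∀ a, W' a x ^ 2 ≤ n₀ x / aU K L0 sg J (‖x‖ ^ 2) ^ (2 * C₀)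

end Vale.Agent.P088
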