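import Vale.Agent.P088.StP

/-!
# P088: integrated estimates
-/

open MeasureTheory Set Metric
open scoped ContDiff Topology

noncomputable section
namespace Vale.Agent.P088
open Vale.Agent.P136 (D Dp Dm Sm Tst)

section cutoffs
variable {n : ℕ} {ι : Type} (f : Fx) (c : Cx n ι)

def cq (N : ℝ) (p : X2 n) : ℝ := cut (Psi f c p / N)
def cn (r : ℝ) (p : X2 n) : ℝ := cut (QQ c p ^ 2 * FF f c p / r)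
def mu (N r : ℝ) (p : X2 n) : ℝ := (1 - cq f c N p) * cn f c r p
def PN (N : ℝ) : Set (X2 n) := {p | Psi f c p ≤ N}

/-- Scale-invariant bounds for a cutoff function. -/
def CutB (C : ℝ) (F : X2 n → ℝ) (p : X2 n) : Prop :=
  (∀ i, |D (exy i) F p| * √(QQ c p) ≤ C ∧ ∀ j, |D (exy i) (D (exy j) F) p| * QQ c p ≤ C) ∧
    ∀ i, |D (ex i + ey i) F p| ≤ C * vv f c p

def W7 (C : ℝ) (p : X2 n) : Prop := p ∈ Nr f c 16 → ∀ N r : ℝ, 1 ≤ N → 1 ≤ r → r ≤ 8 →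
  CutB f c C (cq f c N) p ∧ CutB f c C (cn f c r) p ∧ CutB f c C (mu f c N r) p ∧
  ∀ i, D (exy i) (cq f c N) p ^ 2 * N ≤ C * aX f c p.1 ∧
    D (exy i) (cn f c r) p ^ 4 ≤ C * aX f c p.1 ∧
    ∀ j, |D (exy i) (D (exy j) (cq f c N)) p| * N ≤ C * aX f c p.1 ∧
      D (exy i) (D (exy j) (cn f c r)) p ^ 2 ≤ C * aX f c p.1

variable [Fintype ι] (g q : ι → X2 n → ℝ)

def IPy : ℝ := ∑ s, ∫ p in Nr f c 8, LX f c p.1 ^ 2 * n2 (py f c (g s) p)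
def IP2 : ℝ := ∑ s, ∫ p in Nr f c 4, LX f c p.1 ^ 2 / (aX f c p.1 * fX f c p.1) *
  ∑ i, ∑ j, Dp (phi f c) (ey i) (Dp (phi f c) (ey j) (g s)) p ^ 2
def TT2 (N : ℝ) : ℝ :=
  ∑ s, ∫ p, mu f c (N / 2) 2 p ^ 2 / QQ c p * n2 (px f c (g s) p + py f c (g s) p)
def TZ (N : ℝ) : ℝ :=
  ∑ s, ∫ p, mu f c N 1 p ^ 2 / QQ c p ^ 2 * zd p (px f c (g s) p + py f c (g s) p) ^ 2
def SLx : ℝ := ∑ s, ∫ p, chX f c p ^ 2 * al f c p * piZ c p (zx f c (g s) p)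
def SLy : ℝ := ∑ s, ∫ p, chY f c p ^ 2 * al f c p * piZ c p (zy f c (q s) p)
def SMx : ℝ := IX f c g (fun p => chY f c p ^ 2 * al f c p) univ
def SMy : ℝ := IY f c q (fun p => chX f c p ^ 2 * al f c p) univ

end cutoffs

def S_w7 : Prop := ∀ (n : ℕ) (ι : Type) (f : Fx), f.Ok → ∃ C : ℝ, 1 ≤ C ∧
  Ev f fun c : Cx n ι => ∀ p ∈ Om2 c, W7 f c C p

/-- The global identity with the lower-order terms still in pointwise form. -/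
def S_GI0 : Prop := ∀ (n : ℕ) (ι : Type) [Fintype ι] (f : Fx), f.Ok → ∃ C : ℝ, 1 ≤ C ∧
  Ev f fun c : Cx n ι => ∀ g q, TT f c g q →
    (qLX f c g + qLY f c q) / 4 +
      (∑ s, ∫ p, HQ f c p (zx f c (g s) p) (zy f c (q s) p)) -
      (∑ s, ∫ p, ZO f c p (g s p) (q s p) (zx f c (g s) p) (zy f c (q s) p)) -
      C * (∑ s, ∑ s', ∑ a, ∫ p,
        |BO f c p a (g s p) (q s p) (zx f c (g s) p) (zy f c (q s) p)| * |q s' p|) -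
      C * (IY f c q (fun _ => 1) univ + I0 (fun p => ry f c p + 1) univ q) ≤ GG f c g q

def S_GI : Prop := ∀ n : ℕ, ∃ Cn : ℝ, 1 ≤ Cn ∧ ∀ (ι : Type) [Fintype ι] (f : Fx), f.Ok →
  ∀ η N : ℝ, 0 < η → η ≤ 1 → 1 ≤ N → ∃ c₀ C : ℝ, 0 < c₀ ∧ 1 ≤ C ∧ ∀ η₂ : ℝ, 0 < η₂ →
  Ev f fun c : Cx n ι => ∀ g q, TT f c g q →
    (qLX f c g + qLY f c q) / 4 + c₀ * (A1 f c g q + A3 f c g q + A5 f c g q) +
      8 * (1 - η) * A2 f c g q N +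
      8 * (1 - η) * (1 - 2 * f.e1) * (A4 f c g q (sX f c 4) + A4 f c g q (sY f c 4)) -
      C * (V2 f c g q + NN f c g) - Cn * f.tau * (Dx f c g + Dy f c q) -
      8 * n * (1 + η) * Rr f c g q 1 - η₂ * (A1 f c g q + Gn f c g q) -
      (8 * ((n : ℝ) - 1) + η + Cn * f.tau) * (Sx f c g + Sy f c q) ≤ GG f c g q

def S_GC : Prop := ∀ (n : ℕ) (ι : Type) [Fintype ι] (f : Fx), f.Ok → ∃ C : ℝ, 1 ≤ C ∧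
  Ev f fun c : Cx n ι => ∀ g q, TT f c g q →
    Gn f c g q ≤ C * (A1 f c g q + NN f c g + Sx f c g + Sy f c q) + Rr f c g q 1

def S_V2 : Prop := ∀ (n : ℕ) (ι : Type) [Fintype ι] (f : Fx), f.Ok → ∀ η N : ℝ, 0 < η → 1 ≤ N →
  ∃ C : ℝ, 1 ≤ C ∧ Ev f fun c : Cx n ι => ∀ g q, TT f c g q →
    V2 f c g q ≤ η * (A1 f c g q + A2 f c g q N + qLX f c g) + C * NN f c g

def S_OUT : Prop := ∀ (n : ℕ) (ι : Type) [Fintype ι] (f : Fx), f.Ok → ∃ C : ℝ, 1 ≤ C ∧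
  ∀ η : ℝ, 0 < η → Ev f fun c : Cx n ι => ∀ g q, TT f c g q →
    (∀ k : ℝ, 1 ≤ k → NN f c g ≤ I0 (nl f c) (Nk f c k) g + C / k * Gn f c g q) ∧
    (∀ r : ℝ, r ≤ 16 → Rr f c g q r ≤ Rr f c g q 1 + η * Gn f c g q) ∧
    I0 (fun p => aX f c p.1 * LX f c p.1 ^ 2) univ g + IX f c g (fun p => LX f c p.1 ^ 2) univ ≤
      C * (NN f c g + Gn f c g q + Sx f c g + V2 f c g q + A1 f c g q) ∧
    3 / 4 * SLx f c g - 6 * SMy f c q ≤ A4 f c g q (sX f c 4) ∧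
    3 / 4 * SLy f c q - 6 * SMx f c g ≤ A4 f c g q (sY f c 4) ∧
    (0 ≤ A1 f c g q ∧ (∀ N, 0 ≤ A2 f c g q N) ∧ 0 ≤ A3 f c g q ∧ 0 ≤ A5 f c g q ∧
      0 ≤ Gn f c g q ∧ (∀ r, 0 ≤ Rr f c g q r) ∧ 0 ≤ NN f c g ∧ 0 ≤ V2 f c g q ∧ 0 ≤ Sx f c g ∧
      0 ≤ Sy f c q ∧ 0 ≤ Dx f c g ∧ 0 ≤ Dy f c q ∧ 0 ≤ qLX f c g ∧ 0 ≤ qLY f c q ∧
      0 ≤ GG f c g q ∧ (∀ N, 0 ≤ TT2 f c g N ∧ 0 ≤ TZ f c g N))

/-! ## The critical points -/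

def S_SL1 : Prop := ∀ n : ℕ, ∃ Cn : ℝ, 1 ≤ Cn ∧ ∀ (ι : Type) [Fintype ι] (f : Fx), f.Ok →
  ∀ η : ℝ, 0 < η → Ev f fun c : Cx n ι => ∀ g q, TT f c g q →
    (2 * ((n : ℝ) - 1) - Cn * f.tau - η) * Sx f c g ≤ SLx f c g + η * Gn f c g q ∧
    (2 * ((n : ℝ) - 1) - Cn * f.tau - η) * Sy f c q ≤ SLy f c q + η * Gn f c g q

def S_SL2 : Prop := ∀ (n : ℕ) (ι : Type) [Fintype ι] (f : Fx), f.Ok →
  ∀ η : ℝ, 0 < η → Ev f fun c : Cx n ι => ∀ g q, TT f c g q →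
    SMy f c q ≤ η * (qLY f c q + A5 f c g q + A1 f c g q + Gn f c g q) ∧
    SMx f c g ≤ η * (qLX f c g + A5 f c g q + A1 f c g q + Gn f c g q)

def S_SL3 : Prop := ∀ n : ℕ, ∃ Cn : ℝ, 1 ≤ Cn ∧ ∀ (ι : Type) [Fintype ι] (f : Fx), f.Ok →
  ∀ η : ℝ, 0 < η → Ev f fun c : Cx n ι => ∀ g q, TT f c g q →
    Dx f c g ≤ Cn * (qLX f c g + Sx f c g) + η * (A1 f c g q + Gn f c g q) ∧
    Dy f c q ≤ Cn * (qLY f c q + Sy f c q) + η * (A1 f c g q + Gn f c g q)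

/-! ## The estimate for `g + q` -/

def S_XY : Prop := ∀ (n : ℕ) (ι : Type) [Fintype ι] (f : Fx), f.Ok → ∃ C : ℝ, 1 ≤ C ∧
  Ev f fun c : Cx n ι => ∀ g q, TT f c g q → IPy f c g ≤ C * NN f c g ∧ IP2 f c g ≤ C * NN f c g

def S_LQ : Prop := ∀ (n : ℕ) (ι : Type) [Fintype ι] (f : Fx), f.Ok → ∀ η : ℝ, 0 < η →
  ∃ C₀ : ℝ, 1 ≤ C₀ ∧ ∀ N : ℝ, 1 ≤ N → ∃ C : ℝ, 1 ≤ C ∧ ∀ η₂ : ℝ, 0 < η₂ →
  Ev f fun c : Cx n ι => ∀ g q, TT f c g q →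
    2 * ((n : ℝ) - 1) * I0 (fun p => al f c p ^ 2) (PN f c N) (rr g q) ≤
      (1 + η) * (∑ s, ∫ p in PN f c (2 * N), al f c p * gV c p (zx f c (g s) p) (zy f c (q s) p)) +
        (C₀ / N + η₂) * Rr f c g q 1 + C * NN f c g

def S_R1 : Prop := ∀ (n : ℕ) (ι : Type) [Fintype ι] (f : Fx), f.Ok → ∃ C₀ : ℝ, 1 ≤ C₀ ∧
  Ev f fun c : Cx n ι => ∀ g q, TT f c g q → ∀ N N' : ℝ, 2 ≤ N → 1 ≤ N' →
    I0 (fun p => mu f c N 1 p ^ 2 * al f c p ^ 2) univ (rr g q) ≤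
      C₀ * ((1 / N' ^ 2 + 1 / N) * A2 f c g q N' + Rr f c g q 2 / N + TZ f c g N + NN f c g)

def S_R2 : Prop := ∀ (n : ℕ) (ι : Type) [Fintype ι] (f : Fx), f.Ok → ∃ C₀ : ℝ, 1 ≤ C₀ ∧
  ∀ η : ℝ, 0 < η → ∃ C : ℝ, 1 ≤ C ∧ Ev f fun c : Cx n ι => ∀ g q, TT f c g q → ∀ N : ℝ, 2 ≤ N →
    TZ f c g N ≤ (C₀ / N + η) * TT2 f c g N + C₀ / N ^ 2 * qLX f c g + C * NN f c g

def S_R3 : Prop := ∀ (n : ℕ) (ι : Type) [Fintype ι] (f : Fx), f.Ok → ∃ C₀ : ℝ, 1 ≤ C₀ ∧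
  Ev f fun c : Cx n ι => ∀ g q, TT f c g q → ∀ N N' : ℝ, 2 ≤ N → 1 ≤ N' →
    TT2 f c g N ≤ C₀ * ((1 / N' ^ 2 + 1 / N) * A2 f c g q N' + Rr f c g q 4 +
      qLY f c q / N ^ 2 + NN f c g)

def S_RE : Prop := ∀ n : ℕ, 2 ≤ n → ∀ (ι : Type) [Fintype ι] (f : Fx), f.Ok → ∀ η : ℝ, 0 < η →
  ∃ N C : ℝ, 1 ≤ N ∧ 1 ≤ C ∧ ∀ η₂ : ℝ, 0 < η₂ → Ev f fun c : Cx n ι => ∀ g q, TT f c g q →
    Rr f c g q 1 ≤ (1 + η) / (2 * ((n : ℝ) - 1)) * A2 f c g q N +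
      η * (qLX f c g + qLY f c q) + η₂ * Gn f c g q + C * NN f c g

/-- The estimate in the innermost zone. -/
def S_NZ : Prop := ∀ n : ℕ, 3 ≤ n → ∀ (ι : Type) [Fintype ι] (f : Fx), f.Ok → ∃ C : ℝ, 1 ≤ C ∧
  ∀ k η : ℝ, 1 ≤ k → 0 < η → Ev f fun c : Cx n ι => ∀ g q, TT f c g q →
    I0 (nl f c) (Nk f c k) g ≤ C * GG f c g q + C / k * (A1 f c g q + A3 f c g q + Gn f c g q) +
      η * (Rr f c g q 1 + NN f c g + V2 f c g q)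

end Vale.Agent.P088
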