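import Vale.Agent.P088.StI

/-!
# P088: the innermost zone (moments against harmonic polynomials)
-/

open MeasureTheory Set Metric
open scoped ContDiff Topology

noncomputable section
namespace Vale.Agent.P088
open Vale.Agent.P136 (D Dp Dm Sm Tst)

section near
variable {n : ℕ} {ι : Type} (f : Fx) (c : Cx n ι)

/-- `E` is an orthonormal frame for `γ₂`. -/
def FrOk (E : MatF n) (ε : ℝ) : Prop :=
  SmM E ∧ Near 6 ε E ∧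
    ∀ x a b, ∑ i, ∑ j, E a i x * c.γ₂ i j x * E b j x = if a = b then 1 else 0

/-- The rescaled variable. -/
def wv (E : MatF n) (p : X2 n) : En n :=
  WithLp.toLp 2 fun a => fX f c p.1 * ∑ i, E a i p.1 * zz p i

def thw (E : MatF n) (p : X2 n) : ℝ := phi f c p - f.Cw * lX f c p.1 - ‖wv f c E p‖ ^ 2 / 2

def chk (k : ℝ) (p : X2 n) : ℝ := cut (Psi f c p / (k * vv f c p))

def ck (k : ℝ) (u : X2 n → ℝ) (p : X2 n) : ℝ := chk f c k p * u p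

def eE (E : MatF n) : MatF n := fun a i x => ∑ j, c.γ₁ i j x * E a j x

/-- The normalized moment of `R` against `h`. -/
def momt (E : MatF n) (R : X2 n → ℝ) (h : En n → ℝ) (x : En n) : ℝ :=
  Real.exp ((f.Cw + n / 2) * lX f c x) *
    ∫ y, Real.exp (-phi f c (x, y)) * R (x, y) * h (wv f c E (x, y))

def fm (F : Fock n) (E : MatF n) (u : X2 n → ℝ) (m : ℕ) (j : Fin (F.d m)) : En n → ℝ :=
  momt f c E u (F.H m j)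

/-- The scalar part of the equation. -/
def Gt (g q : X2 n → ℝ) (p : X2 n) : ℝ :=
  Lm ex (onX c.γ₁) (phi f c) g p + Lm ey (onY c.γ₂) (phi f c) q p

def Uc (E : MatF n) (a i : Fin n) (p : X2 n) : ℝ := ∑ l, D (ee i) (E a l) p.1 * zz p l

def RR1 (E : MatF n) (g q : X2 n → ℝ) (a : Fin n) (p : X2 n) : ℝ := fX f c p.1 *
  (-(q p * ∑ i, ∑ j, D (ee i) (c.γ₂ i j) p.2 * E a j p.1) -
    g p * (∑ j, D (ex j) (fun p' => ∑ i, c.γ₁ i j p'.1 * (Uc E a i p' - E a i p'.1)) p) -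
    2 * (∑ i, ∑ j, c.γ₁ i j p.1 * Uc E a i p * zx f c g p j) +
    2 * g p * ∑ j, D (ex j) (fun p' => ∑ i, c.γ₁ i j p'.1 * Uc E a i p') p)

def RR2 (E : MatF n) (g q : X2 n → ℝ) (a b : Fin n) (p : X2 n) : ℝ := aX f c p.1 *
  (-(q p * ((∑ i, ∑ j, c.γ₂ i j p.2 * E a i p.1 * E b j p.1) - if a = b then 1 else 0)) -
    g p * ((∑ i, ∑ j, c.γ₁ i j p.1 * (Uc E a i p - E a i p.1) * (Uc E b j p - E b j p.1)) -
      if a = b then 1 else 0) +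
    2 * g p * ∑ i, ∑ j, c.γ₁ i j p.1 * Uc E a i p * (Uc E b j p - E b j p.1))

def W8 (C k : ℝ) (p : X2 n) : Prop := p ∈ Nk f c (2 * k) →
  p ∈ Nr f c 1 ∧
  (∀ i, D (exy i) (chk f c k) p ^ 2 * (k * vv f c p) ≤ C * aX f c p.1 ∧
    ∀ j, |D (exy i) (D (exy j) (chk f c k)) p| * (k * vv f c p) ≤ C * aX f c p.1) ∧
  (∀ i, |D (ex i + ey i) (chk f c k) p| ≤ C * vv f c p ∧
    ∀ j, D (exy j) (D (ex i + ey i) (chk f c k)) p ^ 2 * k ≤ C * aX f c p.1 * vv f c p) ∧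
  ∀ E, FrOk c E 1 → |thw f c E p| ≤ 1 ∧ ‖wv f c E p‖ ^ 2 ≤ 4 * Psi f c p ∧
    Psi f c p ≤ ‖wv f c E p‖ ^ 2 ∧ ∀ i, |D (ey i) (thw f c E) p| ≤ C * k * vv f c p ^ 2 ∧
      ∀ j, |D (ey i) (D (ey j) (thw f c E)) p| ≤ C * k * vv f c p ^ 2 * fX f c p.1

variable [Fintype ι] (g q : ι → X2 n → ℝ)

def GGt (k : ℝ) : ℝ := ∑ s, ∫ p, Gt f c (ck f c k (g s)) (ck f c k (q s)) p ^ 2

/-- The sum of the squares of the right-hand sides of the chain. -/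
def SqS (F : Fock n) (E : MatF n) (k : ℝ) (K : ℕ) : ℝ :=
  ∑ s, ∑ m ∈ Finset.range (K + 1), ∑ j, ∫ x,
    nzS F c.γ₁ (eE c E) (lX f c) f.Cw (fm f c F E (ck f c k (g s))) m j x ^ 2

/-- The weighted sum of the squares of the moments. -/
def SqF (F : Fock n) (E : MatF n) (k : ℝ) (K : ℕ) : ℝ :=
  ∑ s, ∑ m ∈ Finset.range K, ∫ x, aX f c x * LX f c x ^ 2 * ((m : ℝ) + 1) *
    ∑ j, fm f c F E (ck f c k (g s)) m j x ^ 2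

end near

/-- Integrals depending on a parameter. -/
def S_par : Prop := ∀ (n : ℕ) (K : X2 n → ℝ), (Continuous K → HasCompactSupport K →
    Continuous (fun x => ∫ y, K (x, y)) ∧ HasCompactSupport (fun x => ∫ y, K (x, y)) ∧
    tsupport (fun x => ∫ y, K (x, y)) ⊆ Prod.fst '' tsupport K ∧
    (∀ x, Integrable fun y => K (x, y)) ∧ ∫ x, ∫ y, K (x, y) = ∫ p, K p) ∧
  (Tst K → Tst (fun x => ∫ y, K (x, y)) ∧ ∀ i x,
    D (ee i) (fun x => ∫ y, K (x, y)) x = ∫ y, D (ex i) K (x, y) ∧ ∫ y, D (ey i) K (x, y) = 0)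

def S_w8 : Prop := ∀ (n : ℕ) (ι : Type) (f : Fx), f.Ok → ∃ C : ℝ, 1 ≤ C ∧ ∀ k : ℝ, 1 ≤ k →
  Ev f fun c : Cx n ι => Sm (chk f c k) ∧ (∀ p, p ∉ Nk f c (2 * k) → chk f c k =ᶠ[𝓝 p] 0) ∧
    (∀ E, SmM E → ContDiff ℝ ∞ (wv f c E) ∧ Sm (thw f c E)) ∧ ∀ p ∈ Om2 c, W8 f c C k p

/-- Bessel and tail bounds for the moments. -/
def S_mbes : Prop := ∀ (n : ℕ) (ι : Type) (f : Fx), f.Ok → ∃ C : ℝ, 1 ≤ C ∧ ∀ k : ℝ, 1 ≤ k →
  Ev f fun c : Cx n ι => ∀ (F : Fock n) (E : MatF n) (R : X2 n → ℝ), F.Ok → FrOk c E 1 →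
    Continuous R → (∀ p, R p ≠ 0 → p ∈ Om2 c ∧ p ∈ Nk f c (2 * k)) →
    ∀ l : List (Fin n), l.length ≤ 2 → ∀ x,
    (∀ K, ∑ m ∈ Finset.range K, ∑ j, momt f c E R (Ds ee l (F.H m j)) x ^ 2 ≤
      C * ∫ y, (1 + Psi f c (x, y)) ^ l.length * R (x, y) ^ 2) ∧
    ∀ m : ℕ, ∑ j, momt f c E R (Ds ee l (F.H m j)) x ^ 2 ≤
      C * ((m : ℝ) + 1) ^ l.length * Real.exp (C * k * LX f c x) / 2 ^ m * ∫ y, R (x, y) ^ 2

/-- The chain of equations satisfied by the moments. -/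
def S_NZI : Prop := ∀ (n : ℕ) (ι : Type) (f : Fx) (c : Cx n ι) (F : Fock n) (E : MatF n)
  (g q : X2 n → ℝ), W0 f c → SmM c.γ₁ → SmM c.γ₂ → F.Ok → SmM E → Tst g → Tst q →
  (∀ m j, Tst (fm f c F E g m j) ∧ tsupport (fm f c F E g m j) ⊆ Prod.fst '' tsupport g) ∧
  ∀ m j x, nzS F c.γ₁ (eE c E) (lX f c) f.Cw (fm f c F E g) m j x =
    momt f c E (Gt f c g q) (F.H m j) x +
      (∑ a, momt f c E (RR1 f c E g q a) (Ds ee [a] (F.H m j)) x) +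
      ∑ a, ∑ b, momt f c E (RR2 f c E g q a b) (Ds ee [a, b] (F.H m j)) x

def S_NZB : Prop := ∀ (n : ℕ) (ι : Type) [Fintype ι] (f : Fx), f.Ok → ∃ C : ℝ, 1 ≤ C ∧
  ∀ k η : ℝ, 1 ≤ k → 0 < η → Ev f fun c : Cx n ι => ∀ g q, TT f c g q →
    GGt f c g q k ≤ 4 * GG f c g q + C / k * (A1 f c g q + A3 f c g q + Gn f c g q) +
      η * (Rr f c g q 1 + NN f c g + V2 f c g q)

def S_NZM : Prop := ∀ (n : ℕ) (ι : Type) [Fintype ι] (f : Fx), f.Ok → ∃ C : ℝ, 1 ≤ C ∧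
  ∀ k η : ℝ, 1 ≤ k → 0 < η → ∃ ε : ℝ, 0 < ε ∧ Ev f fun c : Cx n ι =>
    ∀ (F : Fock n) (E : MatF n) g q, F.Ok → FrOk c E ε → TT f c g q → ∀ K,
    SqS f c g F E k K ≤ C * GGt f c g q k + η * (Rr f c g q 1 + NN f c g + V2 f c g q)

def S_NZT : Prop := ∀ (n : ℕ) (ι : Type) (f : Fx), f.Ok → ∃ C : ℝ, 1 ≤ C ∧
  ∀ k : ℝ, 1 ≤ k → Ev f fun c : Cx n ι => ∀ (F : Fock n) (E : MatF n) (u : X2 n → ℝ), F.Ok →
    FrOk c E 1 → Tst u → tsupport u ⊆ Om2 c → ∀ (m : ℕ) x,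
    nzD f.Cw (LX f c) m (fm f c F E (ck f c k u) m) x ≤
      C * ((m : ℝ) + 1) ^ 2 * Real.exp (C * k * LX f c x) / 2 ^ m *
        ∫ y, (Nk f c (2 * k)).indicator
          (fun p => n2 (zx f c u p) + aX f c p.1 * u p ^ 2) (x, y)

def S_NZ1 : Prop := ∀ n : ℕ, 3 ≤ n → ∀ (ι : Type) [Fintype ι] (f : Fx), f.Ok → ∃ C : ℝ, 1 ≤ C ∧
  ∀ k η : ℝ, 1 ≤ k → 0 < η → ∃ ε : ℝ, 0 < ε ∧ Ev f fun c : Cx n ι =>
    ∀ (F : Fock n) (E : MatF n) g q, F.Ok → FrOk c E ε → TT f c g q → ∃ K₀, ∀ K, K₀ ≤ K →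
    SqF f c g F E k K ≤ C * SqS f c g F E k K + η * (NN f c g + V2 f c g q)

def S_NZN : Prop := ∀ (n : ℕ) (ι : Type) [Fintype ι] (f : Fx), f.Ok → ∃ C : ℝ, 1 ≤ C ∧
  ∀ k η : ℝ, 1 ≤ k → 0 < η → Ev f fun c : Cx n ι =>
    ∀ (F : Fock n) (E : MatF n) g q, F.Ok → FrOk c E 1 → TT f c g q → ∃ K₀, ∀ K, K₀ ≤ K →
    I0 (nl f c) (Nk f c k) g ≤ C * SqF f c g F E k K + η * NN f c g

end Vale.Agent.P088
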