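import Vale.Agent.P088.StG

/-!
# P088: pointwise estimates for the quadratic forms
-/

open MeasureTheory Set Metric
open scoped ContDiff Topology

noncomputable section
namespace Vale.Agent.P088
open Vale.Agent.P136 (D Dp Dm Sm Tst)

/-! ## The model form -/

section alg
variable {n : ℕ} (γ : Fin n → Fin n → ℝ) (m z ζ ζ' : Fin n → ℝ)

/-- The Hessian part of the model form. -/
def Nal1 (Q F v σ g δ : ℝ) : ℝ :=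
  F / Q * ((Q * v * bil γ m (ζ + ζ') + σ * bil γ z (ζ' - ζ) + δ) ^ 2 -
      (σ + g) * bil γ z (ζ' - ζ) ^ 2) +
    F * σ * bil γ (ζ' - ζ) (ζ' - ζ) + Q * F * v / 4 * bil γ (ζ + ζ') (ζ + ζ')

/-- The multiplier part of the model form. -/
def Nal2 (Q F v σ A S : ℝ) : ℝ :=
  2 * v * A / σ * (qf γ m (fun i => Q * F * v * m i - F * σ * z i) ζ +
      qf γ m (fun i => Q * F * v * m i + F * σ * z i) ζ') +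
    2 * F * v * S * (qf γ m z ζ' - qf γ m z ζ)

end alg

def S_PLa : Prop := ∀ (n : ℕ) (lam t0 T0 e1 : ℝ), 0 < lam → lam ≤ 1 / 8 → 0 < t0 → 0 < e1 →
  e1 ≤ 1 / 100 → 0 < T0 → 100 * T0 ≤ e1 * lam ^ 2 → ∃ c C : ℝ, 0 < c ∧ 1 ≤ C ∧
  ∀ (γ : Fin n → Fin n → ℝ) (m z ζ ζ' : Fin n → ℝ) (Q F v σ g θ χ δ d A S N Er : ℝ),
    (∀ i j, γ i j = γ j i) → (∀ ξ, n2 ξ / 2 ≤ bil γ ξ ξ ∧ bil γ ξ ξ ≤ 2 * n2 ξ) →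
    1 / 5 ≤ bil γ m m → bil γ m m ≤ 3 → bil γ z z = Q → Q ≤ 2 → 0 < F → 1 ≤ v → 2 ≤ σ →
    lam * v * √Q ≤ σ → 0 ≤ θ → θ ≤ 1 → 0 ≤ χ → χ ≤ 1 → 0 ≤ g → 0 ≤ d → |δ| ≤ σ * √Q * d →
    A = θ * ((σ + 2) / (2 * σ)) + (1 - θ) * (χ ^ 2 * (T0 ^ 2 / e1)) →
    S = (1 - θ) * (χ * T0 - χ ^ 2 * (T0 ^ 2 / e1)) →
    N = Nal1 γ m z ζ ζ' Q F v σ g δ + Nal2 γ m z ζ ζ' Q F v σ A S →
    Er = C * F * σ * d * (√(n2 (ζ' - ζ)) + v * √Q / σ * √(n2 ζ + n2 ζ') + d) →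
    (((θ = 1 ∧ g ≤ 2 ∧ 6 * v ^ 2 * Q * (σ + 2) ≤ σ ^ 2 * (σ - 2)) ∨
      (χ = 1 ∧ t0 ^ 2 ≤ Q ∧ 4 * v * √Q ≤ σ ∧ 16 ≤ T0 * σ ∧ g ≤ 2 + T0 * σ / 8) ∨
      (θ = 0 ∧ t0 ^ 2 ≤ Q ∧ 16 ≤ T0 * σ ∧ 1000 * v ≤ σ ^ 2 ∧
        (g ≤ 2 ∨ (χ = 1 ∧ g ≤ 2 + T0 * σ / 8)))) →
      c * (Q * F * v * (n2 ζ + n2 ζ') + F * σ / v * n2 (ζ' - ζ)) - Er ≤ N) ∧
    (∀ η : ℝ, 0 < η → η ≤ 1 → θ = 1 → g ≤ 2 → 10 * v ^ 2 * Q ≤ η → σ ≤ 6 →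
      (1 - η) * (F * σ * bil γ (ζ' - ζ) (ζ' - ζ)) - C / η * (Q * F * v ^ 2 * (n2 ζ + n2 ζ')) -
        Er ≤ N) ∧
    (θ = 0 → χ = 1 → 0 < Q → 16 ≤ T0 * σ → g ≤ 2 + T0 * σ / 8 →
      (1 - 2 * e1) * (F * σ * (bil γ (ζ' - ζ) (ζ' - ζ) - bil γ z (ζ' - ζ) ^ 2 / Q)) +
        F / Q * (Q * v * bil γ m (ζ + ζ') + σ * bil γ z (ζ' - ζ) + δ) ^ 2 / 2 - Er ≤ N)

section forms
variable {n : ℕ} {ι : Type} (f : Fx) (c : Cx n ι)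

def dl (p : X2 n) (ζ ζ' : Fin n → ℝ) : ℝ :=
  QQ c p * vv f c p * (dZ c uu p ζ ζ' - bil (gm c p) (mv p) (ζ + ζ')) +
    sig f c p * (dZ c (QQ c) p ζ ζ' / 2 - zd p (ζ' - ζ))

def N1 (p : X2 n) (ζ ζ' : Fin n → ℝ) : ℝ :=
  Nal1 (gm c p) (mv p) (zt c p) ζ ζ' (QQ c p) (FF f c p) (vv f c p) (sig f c p) (gg f c p)
    (dl f c p ζ ζ')

def N2 (p : X2 n) (ζ ζ' : Fin n → ℝ) : ℝ :=
  Nal2 (gm c p) (mv p) (zt c p) ζ ζ' (QQ c p) (FF f c p) (vv f c p) (sig f c p) (cA f c p)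
    (cS f c p)

open Classical in
/-- The loss caused by the singular part of the multiplier. -/
def dfc (p : X2 n) (ζ ζ' : Fin n → ℝ) : ℝ :=
  if p ∈ Far f c then dX f c p * n2 ζ + dY f c p * n2 ζ' else 0

def xz (p : X2 n) (ζ : Fin n → ℝ) : ℝ := bil (g1 c p) (fun i => p.1 i) ζ

open Classical in
/-- The gain near the critical points. -/
def gsd (η c₀ : ℝ) (p : X2 n) (ζ ζ' : Fin n → ℝ) : ℝ :=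
  if p ∈ sX f c 4 ∪ sY f c 4 then
    8 * (1 - η) * (1 - 2 * f.e1) * (al f c p * piZ c p (ζ' - ζ)) + c₀ * dm2 f c p ζ ζ' else 0

/-- The part of the lower-order terms that involves only `x`. -/
def ZX (p : X2 n) (g : ℝ) (ζ : Fin n → ℝ) : ℝ :=
  cX f c p * g ^ 2 + 256 * ((∑ i, Px f c i p * ζ i) ^ 2 + dir ex (Px f c) (phi f c) p ^ 2 * g ^ 2)

def ZY (p : X2 n) (q : ℝ) (ζ' : Fin n → ℝ) : ℝ :=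
  cY f c p * q ^ 2 + 256 * ((∑ i, Py f c i p * ζ' i) ^ 2 + dir ey (Py f c) (phi f c) p ^ 2 * q ^ 2)

def ZM (p : X2 n) (g q : ℝ) (ζ ζ' : Fin n → ℝ) : ℝ :=
  2 * cM f c p * g * q + 8 * g * (∑ a, thx f c a p * up (g2 c p) ζ' a) +
    8 * q * (∑ i, thy f c i p * up (g1 c p) ζ i)

end forms

def S_PL1 : Prop := ∀ (n : ℕ) (ι : Type) (f : Fx), f.Ok → ∃ C : ℝ, 1 ≤ C ∧ ∀ η : ℝ, 0 < η →
  Ev f fun c : Cx n ι => ∀ p ∈ Dom f c, ∀ ζ ζ' : Fin n → ℝ,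
    N1 f c p ζ ζ' + fp f c p / 4 * n2 ζ + fp f c p * LX f c p.1 / 2 * xz c p ζ ^ 2 -
      er f c η C p ζ ζ' ≤ H2 c (phi f c) p ζ ζ' ∧
    |dl f c p ζ ζ'| ≤ sig f c p * √(QQ c p) *
      ((η * √(QQ c p) + C / aX f c p.1 ^ 2) * √(n2 ζ + n2 ζ')) ∧
    FF f c p / QQ c p * (QQ c p * vv f c p * bil (gm c p) (mv p) (ζ + ζ') +
      sig f c p * bil (gm c p) (zt c p) (ζ' - ζ) + dl f c p ζ ζ') ^ 2 = dm2 f c p ζ ζ'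

def S_PL2 : Prop := ∀ n : ℕ, ∃ Cn : ℝ, 1 ≤ Cn ∧ ∀ (ι : Type) (f : Fx), f.Ok → ∃ C : ℝ, 1 ≤ C ∧
  ∀ η : ℝ, 0 < η → Ev f fun c : Cx n ι => ∀ p ∈ Dom f c, ∀ ζ ζ' : Fin n → ℝ,
    N2 f c p ζ ζ' - fp f c p * LX f c p.1 / 4 * xz c p ζ ^ 2 - er f c η C p ζ ζ' -
      Cn * f.tau * dfc f c p ζ ζ' ≤
      qf (g1 c p) (pcx f c p) (dx (phi f c) p) ζ + qf (g2 c p) (pcy f c p) (dyy (phi f c) p) ζ'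

def S_PL3 : Prop := ∀ n : ℕ, ∃ Cn : ℝ, 1 ≤ Cn ∧ ∀ (ι : Type) (f : Fx), f.Ok → ∃ C : ℝ, 1 ≤ C ∧
  ∀ η : ℝ, 0 < η → Ev f fun c : Cx n ι => ∀ p ∈ Om2 c, ∀ ζ ζ' : Fin n → ℝ,
    |dP ex (onX c.γ₁) (Px f c) p ζ| + |dP ey (onY c.γ₂) (Py f c) p ζ'| ≤
      er f c η C p ζ ζ' + Cn * f.tau * dfc f c p ζ ζ'

/-- The pointwise lower bound. -/
def S_PL : Prop := ∀ n : ℕ, ∃ Cn : ℝ, 1 ≤ Cn ∧ ∀ (ι : Type) (f : Fx), f.Ok → ∀ η N : ℝ, 0 < η →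
  η ≤ 1 → 1 ≤ N → ∃ c₀ C : ℝ, 0 < c₀ ∧ 1 ≤ C ∧
  Ev f fun c : Cx n ι => ∀ p ∈ Dom f c, ∀ ζ ζ' : Fin n → ℝ,
    er f c c₀ 0 p ζ ζ' + 8 * (1 - η) * (rh f c N p * al f c p * gV c p ζ ζ') +
      gsd f c η c₀ p ζ ζ' - C * vv f c p ^ 2 * (n2 ζ + n2 ζ') - Cn * f.tau * dfc f c p ζ ζ' ≤
      HQ f c p ζ ζ'

/-! ## The lower-order terms -/

/-- Graded bounds for the zero-order coefficients. -/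
def S_ccoB : Prop := ∀ (m : ℕ) (B : ℝ), 1 ≤ B → ∃ C : ℝ, 1 ≤ C ∧ ∀ (X : Type)
  [NormedAddCommGroup X] [NormedSpace ℝ X] (v w : Fin m → X) (γ γ' : Fin m → Fin m → X → ℝ)
  (φ : X → ℝ) (P : Fin m → X → ℝ) (p : X) (w₀ h S w₂ Λ : ℝ), SmM γ → SymM γ → SmM γ' →
  SymM γ' → Sm φ → (∀ i, Sm (P i)) → 1 ≤ S → S ≤ Λ → 0 ≤ w₀ → 0 ≤ h → 0 ≤ w₂ →
  ((∀ i j, SB v 3 B 1 (γ i j) p) → (∀ i, |D (v i) φ p| ≤ w₀) →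
    (∀ i j, SB v 2 h S (D (v i) (D (v j) φ)) p) →
    |cco v γ φ 0 p - 8 * ∑ i, ∑ j, ∑ k, ∑ l,
        γ i j p * γ k l p * D (v i) (D (v k) φ) p * D (v j) (D (v l) φ) p| ≤
      C * (w₀ * h * S + w₀ ^ 2 + h * S ^ 2 + w₀) ∧
    |dgd v γ φ p| ≤ C * (h + w₀) ∧
    ((∀ i, SB v 2 w₂ Λ (P i) p) → |cco v γ φ P p - cco v γ φ 0 p| ≤
      C * w₂ * (Λ * w₀ ^ 2 + w₀ * h + Λ ^ 2 * w₀ + Λ * h))) ∧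
  ((∀ i j, SB (Sum.elim v w) 2 B 1 (γ i j) p) → (∀ i j, SB (Sum.elim v w) 2 B 1 (γ' i j) p) →
    (∀ a i, SB (Sum.elim v w) 2 h S (D (w a) (D (v i) φ)) p) →
    (∀ a, |tht v w γ φ a p| ≤ C * h * S) ∧
    |cmx v w γ γ' φ p - 8 * ∑ i, ∑ j, ∑ a, ∑ b,
        γ i j p * γ' a b p * D (w a) (D (v i) φ) p * D (w b) (D (v j) φ) p| ≤ C * h * S ^ 2)

/-- The zero-order coefficients near the diagonal. -/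
def S_ebc : Prop := ∀ (n : ℕ) (ι : Type) (f : Fx), f.Ok → ∃ C : ℝ, 1 ≤ C ∧ ∀ η : ℝ, 0 < η →
  Ev f fun c : Cx n ι => ∀ p ∈ Dom f c, p ∈ Nr f c 16 →
    |cX f c p - 2 * cM f c p + cY f c p| ≤ C * nl f c p ∧
    (cM f c p - cY f c p) ^ 2 ≤ C * al f c p ^ 2 * nl f c p ∧
    cY f c p ≤ 8 * n * (1 + η) * al f c p ^ 2 ∧
    ∀ a, |thx f c a p| ≤ C * al f c p * vv f c p ∧ |thy f c a p| ≤ C * al f c p * vv f c p ∧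
      (thx f c a p - thy f c a p) ^ 2 ≤ C * vv f c p ^ 2 * nl f c p

def S_EBn : Prop := ∀ (n : ℕ) (ι : Type) (f : Fx), f.Ok → ∀ η N : ℝ, 0 < η → 1 ≤ N →
  ∃ C : ℝ, 1 ≤ C ∧ Ev f fun c : Cx n ι => ∀ p ∈ Dom f c, p ∈ Nr f c 16 →
    ∀ (g q q' : ℝ) (ζ ζ' : Fin n → ℝ),
    ZO f c p g q ζ ζ' ≤ 8 * n * (1 + η) * (al f c p ^ 2 * (g + q) ^ 2) +
      η * (rh f c N p * al f c p * gV c p ζ ζ') +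
      C * (nl f c p * g ^ 2 + vv f c p ^ 2 * (n2 ζ + n2 ζ')) ∧
    (∀ a, |BO f c p a g q ζ ζ'| * |q'| ≤ η * (rh f c N p * al f c p * gV c p ζ ζ') +
      C * (nl f c p * (g ^ 2 + q ^ 2 + q' ^ 2) + vv f c p ^ 2 * (n2 ζ + n2 ζ'))) ∧
    ry f c p + 1 ≤ C * nl f c p ∧ rx f c p + 1 ≤ C * nl f c p

open Classical in
def S_EBx : Prop := ∀ n : ℕ, ∃ Cn : ℝ, 1 ≤ Cn ∧ ∀ (ι : Type) (f : Fx), f.Ok → ∀ η : ℝ, 0 < η →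
  Ev f fun c : Cx n ι => ∀ p ∈ Om2 c, p ∉ Nr f c 1 → ∀ (g : ℝ) (ζ : Fin n → ℝ),
    ZX f c p g ζ ≤ η * (mx f c p * n2 ζ + GX f c p * g ^ 2) +
      if p ∈ sX f c 1 then (8 * ((n : ℝ) - 1) + Cn * f.tau) * (al f c p ^ 2 * g ^ 2) +
        Cn * f.tau * (dX f c p * n2 ζ) else 0

open Classical in
def S_EBy : Prop := ∀ n : ℕ, ∃ Cn : ℝ, 1 ≤ Cn ∧ ∀ (ι : Type) (f : Fx), f.Ok → ∀ η : ℝ, 0 < η →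
  Ev f fun c : Cx n ι => ∀ p ∈ Om2 c, p ∉ Nr f c 1 → ∀ (q : ℝ) (ζ' : Fin n → ℝ),
    ZY f c p q ζ' ≤ η * (my f c p * n2 ζ' + GY f c p * q ^ 2) +
      if p ∈ sY f c 1 then (8 * ((n : ℝ) - 1) + Cn * f.tau) * (al f c p ^ 2 * q ^ 2) +
        Cn * f.tau * (dY f c p * n2 ζ') else 0

def S_EBm : Prop := ∀ (n : ℕ) (ι : Type) (f : Fx), f.Ok → ∀ η : ℝ, 0 < η →
  Ev f fun c : Cx n ι => ∀ p ∈ Om2 c, p ∉ Nr f c 1 → ∀ (g q q' : ℝ) (ζ ζ' : Fin n → ℝ),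
    ZM f c p g q ζ ζ' ≤ η * (mx f c p * n2 ζ + my f c p * n2 ζ' + GX f c p * g ^ 2 +
      GY f c p * q ^ 2) ∧
    (∀ a, |BO f c p a g q ζ ζ'| * |q'| ≤ η * (mx f c p * n2 ζ + my f c p * n2 ζ' +
      GX f c p * g ^ 2 + GY f c p * (q ^ 2 + q' ^ 2))) ∧
    ry f c p + 1 ≤ η * GY f c p

end Vale.Agent.P088
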