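import Vale.Agent.P088.Wt

/-!
# P088: pointwise facts about the weight
-/

open MeasureTheory Set Metric
open scoped ContDiff Topology

noncomputable section
namespace Vale.Agent.P088
open Vale.Agent.P136 (D Dp Dm Sm Tst)

section facts
variable {n : ℕ} {ι : Type} (f : Fx) (c : Cx n ι)

/-- Smoothness, positivity and symmetry. -/
def W0 : Prop :=
  (Sm (uu : X2 n → ℝ) ∧ (∀ i j, Sm fun p => Gm c p i j) ∧ (∀ i j, Sm fun p => gm c p i j) ∧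
    (∀ i, Sm fun p => zt c p i) ∧ Sm (QQ c) ∧ (∀ j, Sm (bj f c j) ∧ Sm (Ej f c j)) ∧
    Sm (FF f c) ∧ Sm (vv f c) ∧ Sm (sig f c) ∧ Sm (Psi f c) ∧ Sm (al f c) ∧ Sm (AA f c) ∧
    Sm (lu f c) ∧ Sm (ph0 f c) ∧ Sm (chf f c) ∧ Sm (ff f c) ∧ Sm (fp f c) ∧ Sm (phi f c) ∧
    Sm (thI f c) ∧ Sm (thO f c) ∧ Sm (cA f c) ∧ Sm (cS f c) ∧ Sm (nl f c) ∧ Sm (SS f c) ∧
    Sm (HX f c) ∧ Sm (vp f c) ∧ Sm (St f c) ∧ Sm (rx f c) ∧ Sm (ry f c) ∧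
    (∀ i, Sm (fun p => sx f c p i) ∧ Sm (fun p => sy f c p i) ∧ Sm (Px f c i) ∧ Sm (Py f c i)) ∧
    Sm (mx f c) ∧ Sm (my f c) ∧ Sm (dX f c) ∧ Sm (dY f c) ∧ Sm (Rs f c) ∧ Sm (chX f c) ∧
    Sm (chY f c) ∧ Sm (aX f c) ∧ Sm (LX f c) ∧ Sm (lX f c) ∧ Sm (fX f c) ∧
    SmM (onX c.γ₁) ∧ SymM (onX c.γ₁) ∧ SmM (onY c.γ₂) ∧ SymM (onY c.γ₂)) ∧
  (∀ x, 0 < aX f c x ∧ c.L0 ≤ LX f c x ∧ fX f c x ^ 2 = aX f c x ∧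
    Real.exp (2 * lX f c x) = aX f c x ∧ ∀ i, D (ee i) (lX f c) x = LX f c x * x i) ∧
  (∀ p, ‖zz p‖ ^ 2 / 2 ≤ QQ c p ∧ QQ c p ≤ 2 * ‖zz p‖ ^ 2 ∧ 0 < FF f c p ∧ c.L0 ≤ vv f c p ∧
    2 ≤ sig f c p ∧ 0 ≤ rx f c p ∧ 0 ≤ ry f c p ∧ 0 ≤ vp f c p ∧
    vp f c p * sig f c p ≤ 2 * vv f c p ∧ 0 ≤ cS f c p ∧ cS f c p ≤ f.T0 ∧ 0 ≤ fp f c p ∧
    0 < Rs f c p ∧ bil (gm c p) (zt c p) (zt c p) = QQ c p ∧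
    (∀ ζ, bil (gm c p) (zt c p) ζ = zd p ζ) ∧
    (∀ i j, ∑ l, gm c p i l * Gm c p l j = if i = j then 1 else 0) ∧
    (∀ i j, Gm c p i j = Gm c p j i) ∧
    ∀ ζ, n2 ζ / 2 ≤ bil (g1 c p) ζ ζ ∧ bil (g1 c p) ζ ζ ≤ 2 * n2 ζ ∧
      n2 ζ / 2 ≤ bil (g2 c p) ζ ζ ∧ bil (g2 c p) ζ ζ ≤ 2 * n2 ζ ∧
      n2 ζ / 2 ≤ bil (gm c p) ζ ζ ∧ bil (gm c p) ζ ζ ≤ 2 * n2 ζ) ∧
  (∀ p : X2 n, QQ c p.swap = QQ c p ∧ FF f c p.swap = FF f c p ∧ vv f c p.swap = vv f c p ∧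
    sig f c p.swap = sig f c p ∧ ph0 f c p.swap = ph0 f c p ∧ vp f c p.swap = vp f c p) ∧
  ∀ p, (QQ c p < f.t0 ^ 2 / 4 → phi f c =ᶠ[𝓝 p] ph0 f c ∧ fp f c p = 0) ∧
    (QQ c p < f.t0 ^ 2 → St f c =ᶠ[𝓝 p] 0 ∧ thI f c =ᶠ[𝓝 p] 1) ∧
    (f.t0 ^ 2 / 2 < QQ c p → chf f c =ᶠ[𝓝 p] 1) ∧
    (2 * f.t0 ^ 2 < QQ c p → thI f c =ᶠ[𝓝 p] 0) ∧ (QQ c p < f.t1 ^ 2 → thO f c =ᶠ[𝓝 p] 1)

/-- Derivatives of `u` and `Q`. -/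
def WQ (C η : ℝ) (p : X2 n) : Prop :=
  (∀ i, D (ex i) uu p = mv p i ∧ D (ey i) uu p = mv p i) ∧
  (∀ i j : Fin n ⊕ Fin n, D (exy i) (D (exy j) uu) p =
    if Sum.elim id id i = Sum.elim id id j then 1 / 2 else 0) ∧
  (∀ i, |D (exy i) (QQ c) p| ≤ C * √(QQ c p) ∧
    ∀ j, SB exy 5 C 1 (D (exy i) (D (exy j) (QQ c))) p) ∧
  (∀ i, |zt c p i| ≤ C * √(QQ c p) ∧ SB1 exy 6 C 1 (fun p => zt c p i) p ∧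
    SB exy 6 C 1 (fun p => mv p i) p ∧ |zt c p i - zz p i| ≤ η * √(QQ c p)) ∧
  (∀ i j, SB exy 6 C 1 (fun p => gm c p i j) p ∧ SB exy 6 C 1 (fun p => Gm c p i j) p ∧
    |g2 c p i j - gm c p i j| ≤ η * √(QQ c p) ∧ |c.γ₂ i j p.1 - gm c p i j| ≤ η * √(QQ c p)) ∧
  (∀ i, |D (ex i) (QQ c) p + 2 * zt c p i| ≤ η * QQ c p ∧
    |D (ey i) (QQ c) p - 2 * zt c p i| ≤ η * QQ c p) ∧
  (∀ i j, |D (ex i) (D (ex j) (QQ c)) p - 2 * Gm c p i j| ≤ η * √(QQ c p) ∧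
    |D (ey i) (D (ex j) (QQ c)) p + 2 * Gm c p i j| ≤ η * √(QQ c p) ∧
    |D (ey i) (D (ey j) (QQ c)) p - 2 * Gm c p i j| ≤ η * √(QQ c p)) ∧
  (∀ i, |D (ex i + ey i) (QQ c) p| ≤ η * QQ c p ∧ ∀ j,
    |D (exy j) (D (ex i + ey i) (QQ c)) p| ≤ η * √(QQ c p) ∧
    (∀ l, |D (ex l + ey l) (D (ex i + ey i) (QQ c)) p| ≤ η * QQ c p) ∧
    ∀ l, SB exy 3 η 1 (D (exy l) (D (exy j) (D (ex i + ey i) (QQ c)))) p) ∧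
  1 / 5 ≤ bil (gm c p) (mv p) (mv p) ∧ bil (gm c p) (mv p) (mv p) ≤ 3 ∧ QQ c p ≤ 2 ∧
  1 / 8 ≤ ∑ i, mv p i * p.1 i

/-- The covariant Hessians of `u` and `Q`. -/
def WH (C η : ℝ) (p : X2 n) : Prop := ∀ ζ ζ' : Fin n → ℝ,
  |H2 c (QQ c) p ζ ζ' - 2 * gV c p ζ ζ'| ≤
    η * √(QQ c p) * √(n2 (ζ' - ζ)) * √(n2 ζ + n2 ζ') +
      (η * QQ c p + C / aX f c p.1 ^ 2) * (n2 ζ + n2 ζ') ∧
  |H2 c uu p ζ ζ' - 1 / 2 * bil (gm c p) (ζ + ζ') (ζ + ζ')| ≤ η * (n2 ζ + n2 ζ') ∧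
  |dZ c uu p ζ ζ' - bil (gm c p) (mv p) (ζ + ζ')| ≤
    (η * √(QQ c p) + C / aX f c p.1 ^ 2) * √(n2 ζ + n2 ζ') ∧
  |dZ c (QQ c) p ζ ζ' - 2 * zd p (ζ' - ζ)| ≤
    (η * QQ c p + C / aX f c p.1 ^ 2 * √(QQ c p)) * √(n2 ζ + n2 ζ')

/-- Symbol bounds for the ingredients of the weight. -/
def W1 (C : ℝ) (p : X2 n) : Prop :=
  SB exy 6 (C * FF f c p) (vv f c p) (FF f c) p ∧ SB exy 6 (C * vv f c p) (vv f c p) (vv f c) p ∧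
  SB exy 6 (C * sig f c p) (vv f c p) (sig f c) p ∧
  SB exy 6 (C * al f c p) (vv f c p) (al f c) p ∧
  SB exy 6 (C * vv f c p) (vv f c p) (vp f c) p ∧
  SB exy 6 (C * FF f c p * vv f c p) (vv f c p) (St f c) p ∧
  SB1 exy 6 C (vv f c p) (lu f c) p ∧ SB exy 6 C 1 (thI f c) p ∧ SB exy 6 C 1 (thO f c) p ∧
  SB exy 6 C 1 (chf f c) p ∧
  (∀ i, |D (exy i) (Psi f c) p| ≤ C * z0 f c p ∧
    ∀ j, SB exy 4 (C * AA f c p) (vv f c p) (D (exy i) (D (exy j) (Psi f c))) p) ∧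
  (∀ i, D (ex i) (lu f c) p = LU f.K c.L0 c.sg c.J (uu p) / 2 * mv p i ∧
    D (ey i) (lu f c) p = LU f.K c.L0 c.sg c.J (uu p) / 2 * mv p i) ∧
  0 ≤ LU f.K c.L0 c.sg c.J (uu p) ∧ LU f.K c.L0 c.sg c.J (uu p) ≤ C * vv f c p ∧
  (∀ i, |D (ex i + ey i) (Psi f c) p| ≤ C * Psi f c p * vv f c p ∧ ∀ j,
    |D (exy j) (D (ex i + ey i) (Psi f c)) p| ≤ C * z0 f c p * vv f c p ∧
    (∀ l, |D (ex l + ey l) (D (ex i + ey i) (Psi f c)) p| ≤ C * Psi f c p * vv f c p ^ 2) ∧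
    ∀ l, |D (exy l) (D (exy j) (D (ex i + ey i) (Psi f c))) p| ≤ C * AA f c p * vv f c p)

/-- Symbol bounds for the functions of `x` alone. -/
def W1x (C : ℝ) (x : En n) : Prop :=
  SB ee 6 (C * aX f c x) (LX f c x) (aX f c) x ∧ SB ee 6 (C * fX f c x) (LX f c x) (fX f c) x ∧
  SB ee 6 (C * LX f c x) (LX f c x) (LX f c) x ∧ SB1 ee 6 C (LX f c x) (lX f c) x ∧
  (∀ ξ : Fin n → ℝ, LX f c x * n2 ξ ≤ ∑ i, ∑ j, D (ee i) (D (ee j) (lX f c)) x * ξ i * ξ j) ∧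
  Real.log (aX f c x) ≤ C * LX f c x

/-- Sizes. -/
def W2 (C η : ℝ) (p : X2 n) : Prop :=
  vv f c p ^ 20 ≤ η * FF f c p ∧ LX f c p.1 ^ 20 ≤ η * aX f c p.1 ∧ 1 ≤ η * vv f c p ∧
  1 ≤ η * LX f c p.1 ∧ sig f c p ≤ 3 + 8 * vv f c p * √(QQ c p) ∧
  f.lam * vv f c p * √(QQ c p) ≤ sig f c p ∧
  (QQ c p ≤ f.t0 ^ 2 →
    6 * vv f c p ^ 2 * QQ c p * (sig f c p + 2) ≤ sig f c p ^ 2 * (sig f c p - 2)) ∧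
  (QQ c p ≤ 2 * f.t0 ^ 2 → 4 * vv f c p * √(QQ c p) ≤ sig f c p) ∧
  (f.t1 ^ 2 ≤ QQ c p → sig f c p ≤ 3 + f.lam * vv f c p * √(QQ c p)) ∧
  (f.t0 ^ 2 / 4 ≤ QQ c p → 1 ≤ η * sig f c p ∧ vv f c p ≤ η * sig f c p ^ 2) ∧
  ((QQ c p ≤ 2 * f.t0 ^ 2 ∨ (QQ c p ≤ 2 * f.t1 ^ 2 ∧ 0 ≤ zd p (mv p))) →
    LX f c p.1 ≤ C * vv f c p ∧ aX f c p.1 ≤ C * FF f c p) ∧
  al f c p ≤ aX f c p.1 ^ 2 * (1 + η * my f c p) ∧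
  (p ∈ Nr f c 16 → vv f c p ^ 2 * QQ c p * (1 + Psi f c p) ≤ η * √(1 + Psi f c p) ∧
    vv f c p ^ 8 * QQ c p ≤ η ∧ |al f c p - aX f c p.1| ≤ η * aX f c p.1 ∧
    |2 * FF f c p - aX f c p.1| ≤ η * aX f c p.1 ∧ sig f c p ≤ 2 + η ∧
    vv f c p ≤ C * LX f c p.1 ∧ QQ c p ≤ η ∧ QQ c p < f.t0 ^ 2 / 4 ∧
    nl f c p ≤ η * al f c p ^ 2 ∧ (1 + Psi f c p) ^ 2 ≤ C * aX f c p.1 ∧
    |2 * FF f c p - aX f c p.1| ≤ C * aX f c p.1 * LX f c p.1 * √(QQ c p) ∧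
    |lu f c p - lX f c p.1| ≤ C * LX f c p.1 * √(QQ c p)) ∧
  (p ∉ Nr f c 1 → SS f c p ^ 8 ≤ η * mx f c p ∧ vv f c p ^ 8 ≤ η * my f c p) ∧
  ∀ N, 1 ≤ N → N ≤ 1 / η * vv f c p ^ 2 → Psi f c p ≤ N → p ∈ Nr f c 1

/-- Symbol bounds for the full weight. -/
def W3 (C : ℝ) (p : X2 n) : Prop :=
  (∀ i j, SB ex 4 (C * HX f c p) (SS f c p) (D (ex i) (D (ex j) (phi f c))) p) ∧
  (∀ a i, SB exy 4 (C * AA f c p) (vv f c p) (D (ey a) (D (exy i) (phi f c))) p) ∧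
  (∀ i, |D (ex i) (phi f c) p| ≤ C * (z0 f c p + vv f c p + fp f c p) ∧
    |D (ey i) (phi f c) p| ≤ C * (z0 f c p + vv f c p)) ∧
  (∀ i j, |D (ex i) (D (ex j) (mx f c)) p| ≤ C * HX f c p * SS f c p ∧
    |D (ey i) (D (ey j) (my f c)) p| ≤ C * AA f c p * vv f c p) ∧
  my f c p ≤ C * z0 f c p ∧ z0 f c p * vv f c p ≤ C * AA f c p ∧ mx f c p ≤ C * HX f c p ∧
  ∀ i, |D (ex i) (mx f c) p| ≤ C * (z0 f c p * vv f c p + fp f c p * SS f c p) ∧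
    |D (ey i) (my f c) p| ≤ C * (z0 f c p * vv f c p)

/-- Lower bounds for the gradient. -/
def W4 (C η : ℝ) (p : X2 n) : Prop :=
  (QQ c p ≤ 2 * f.t0 ^ 2 → z0 f c p ^ 2 ≤ C * (rx f c p + vv f c p ^ 2) ∧
    z0 f c p ^ 2 ≤ C * (ry f c p + vv f c p ^ 2)) ∧
  (p ∉ Nr f c 1 → (p ∉ sX f c 1 → HX f c p ^ 2 ≤ η * mx f c p * rx f c p ∧
      al f c p * SS f c p ^ 4 ≤ η * rx f c p) ∧
    (p ∉ sY f c 1 → AA f c p ^ 2 ≤ η * my f c p * ry f c p ∧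
      al f c p * vv f c p ^ 4 ≤ η * ry f c p) ∧
    AA f c p ^ 2 * vv f c p ^ 2 ≤ η * my f c p * GX f c p ∧
    AA f c p ^ 2 * vv f c p ^ 2 ≤ η * my f c p * GY f c p) ∧
  (p ∈ Far f c → (p ∉ sX f c 1 → al f c p * SS f c p ^ 2 ≤ η * rx f c p ∧
      dX f c p ≤ η * mx f c p ∧ al f c p * HX f c p ≤ η * mx f c p * rx f c p) ∧
    (p ∉ sY f c 1 → al f c p * vv f c p ^ 2 ≤ η * ry f c p ∧ dY f c p ≤ η * my f c p)) ∧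
  (∀ k, 1 ≤ k → p ∈ Nr f c 16 → p ∉ Nk f c k → k * nl f c p ≤ C * mx f c p * rx f c p ∧
    k * nl f c p ≤ C * my f c p * ry f c p) ∧
  (p ∉ Nr f c 1 → aX f c p.1 * LX f c p.1 ^ 2 ≤ C * GX f c p) ∧
  LX f c p.1 ^ 2 ≤ C * (vv f c p ^ 2 + mx f c p)

/-- The structure near the critical points in `x`. -/
def W5x (Cn C η : ℝ) (p : X2 n) : Prop := p ∈ sX f c 4 →
  2 * f.t0 ^ 2 < QQ c p ∧ QQ c p < f.t1 ^ 2 ∧ p ∉ sY f c 4 ∧ p ∉ Nr f c 16 ∧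
  SS f c p ≤ C * vv f c p ∧ fp f c p ^ 2 ≤ η * Rs f c p ∧
  (∀ i j, |D (ex i) (D (ex j) (phi f c)) p -
    al f c p * (Gm c p i j - zt c p i * zt c p j / QQ c p)| ≤ (η + Cn * f.tau) * al f c p) ∧
  mx f c p ≤ Cn * f.tau * al f c p ∧ al f c p ≤ η * my f c p * vv f c p ∧
  vv f c p ^ 8 * (rx f c p + al f c p) ≤ η * al f c p ^ 2 ∧ HX f c p ≤ C * my f c p * vv f c p ∧
  n2 (dx (Psi f c) p) ≤ C * Rs f c p ∧ Rs f c p * vv f c p ^ 4 ≤ η * my f c p ^ 2 ∧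
  my f c p ^ 2 ≤ C * ry f c p ∧ ry f c p ≤ C * my f c p ^ 2 ∧
  my f c p ^ 2 * ry f c p ≤ C * bil (g2 c p) (dyy (Psi f c) p) (dyy (phi f c) p) ^ 2

/-- The structure near the critical points in `y`. -/
def W5y (Cn C η : ℝ) (p : X2 n) : Prop := p ∈ sY f c 4 →
  2 * f.t0 ^ 2 < QQ c p ∧ QQ c p < f.t1 ^ 2 ∧ p ∉ Nr f c 16 ∧
  (∀ i j, |D (ey i) (D (ey j) (phi f c)) p -
    al f c p * (Gm c p i j - zt c p i * zt c p j / QQ c p)| ≤ (η + Cn * f.tau) * al f c p) ∧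
  my f c p ≤ Cn * f.tau * al f c p ∧ al f c p ≤ η * my f c p * vv f c p ∧
  vv f c p ^ 8 * (ry f c p + al f c p) ≤ η * al f c p ^ 2 ∧ AA f c p ≤ C * my f c p * vv f c p ∧
  n2 (dyy (Psi f c) p) ≤ C * Rs f c p ∧ Rs f c p * vv f c p ^ 4 ≤ η * my f c p ^ 2 ∧
  mx f c p ^ 2 ≤ C * rx f c p ∧ rx f c p ≤ C * mx f c p ^ 2 ∧
  n2 (dx (Psi f c) p) ≤ C * my f c p ^ 2 ∧
  my f c p ^ 2 * rx f c p ≤ C * bil (g1 c p) (dx (Psi f c) p) (dx (phi f c) p) ^ 2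

/-- Symbol bounds for the singular part of the multiplier. -/
def W6 (Cn C : ℝ) (p : X2 n) : Prop := p ∈ Far f c → ∀ i,
  (|sx f c p i| ≤ Cn * f.tau * al f c p / √(rx f c p + al f c p) ∧
    |sy f c p i| ≤ Cn * f.tau * al f c p / √(ry f c p + al f c p) ∧
    vp f c p ≤ C ∧ SB exy 3 C (vv f c p) (vp f c) p ∧
    SB ex 3 (C * al f c p / √(rx f c p + al f c p))
      (HX f c p / √(rx f c p + al f c p) + SS f c p) (fun p => sx f c p i) p ∧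
    SB ey 3 (C * al f c p / √(ry f c p + al f c p))
      (AA f c p / √(ry f c p + al f c p) + vv f c p) (fun p => sy f c p i) p) ∧
  (p ∈ sX f c 4 → SB ex 3 (Cn * f.tau * al f c p / √(rx f c p + al f c p))
      (al f c p / √(rx f c p + al f c p)) (fun p => sx f c p i) p ∧
    SB ex 4 (Cn * √(rx f c p + al f c p)) (al f c p / √(rx f c p + al f c p))
      (D (ex i) (phi f c)) p) ∧
  (p ∈ sY f c 4 → SB ey 3 (Cn * f.tau * al f c p / √(ry f c p + al f c p))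
      (al f c p / √(ry f c p + al f c p)) (fun p => sy f c p i) p ∧
    SB ey 4 (Cn * √(ry f c p + al f c p)) (al f c p / √(ry f c p + al f c p))
      (D (ey i) (phi f c)) p)

end facts

def S_w0 : Prop := ∀ (n : ℕ) (ι : Type) (f : Fx), f.Ok → Ev f fun c : Cx n ι => W0 f c

def S_wq : Prop := ∀ n : ℕ, ∃ C : ℝ, 1 ≤ C ∧ ∀ (ι : Type) (f : Fx), f.Ok → ∀ η : ℝ, 0 < η →
  Ev f fun c : Cx n ι => ∀ p ∈ Om2 c, WQ c C η p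

def S_wh : Prop := ∀ n : ℕ, ∃ C : ℝ, 1 ≤ C ∧ ∀ (ι : Type) (f : Fx), f.Ok → ∀ η : ℝ, 0 < η →
  Ev f fun c : Cx n ι => ∀ p ∈ Dom f c, WH f c C η p

/-- Comparison with the dyadic sums. -/
def S_wm : Prop := ∀ (n : ℕ) (ι : Type) (f : Fx), f.Ok → ∃ C : ℝ, 1 ≤ C ∧
  Ev f fun c : Cx n ι => (∀ p : X2 n,
    cl c.L0 c.J (1 - c.sg - uu p - √(f.Om (QQ c p))) ≤ C * vv f c p ∧
    vv f c p ≤ C * cl c.L0 c.J (1 - c.sg - uu p - √(f.Om (QQ c p))) ∧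
    (∀ i ≤ 12, ∑ j ∈ Finset.range (c.J + 1), omj c.L0 j ^ i * Ej f c j p ≤
      C * vv f c p ^ i * FF f c p) ∧
    Real.exp (2 * c.L0) * dy f.K c.L0 c.J 0 (1 - c.sg - uu p - √(f.Om (QQ c p))) ≤ FF f c p ∧
    FF f c p ≤
      Real.exp (2 * c.L0 + 1) * dy f.K c.L0 c.J 0 (1 - c.sg - uu p - √(f.Om (QQ c p))) ∧
    ∀ j, SB1 exy 6 C (omj c.L0 j) (bj f c j) p ∨ p ∉ Om2 c) ∧
    ∀ u : ℝ, cl c.L0 c.J (1 - c.sg - u) ≤ C * LU f.K c.L0 c.sg c.J u ∧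
      LU f.K c.L0 c.sg c.J u ≤ C * cl c.L0 c.J (1 - c.sg - u) ∧
      aU f.K c.L0 c.sg c.J u = 2 * Real.exp (2 * c.L0 + 1) * dy f.K c.L0 c.J 0 (1 - c.sg - u)

def S_w1 : Prop := ∀ (n : ℕ) (ι : Type) (f : Fx), f.Ok → ∃ C : ℝ, 1 ≤ C ∧
  Ev f fun c : Cx n ι => ∀ p ∈ Om2 c, W1 f c C p

def S_w1x : Prop := ∀ (n : ℕ) (ι : Type) (f : Fx), f.Ok → ∃ C : ℝ, 1 ≤ C ∧
  Ev f fun c : Cx n ι => ∀ x, ‖x‖ ≤ 2 → W1x f c C x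

def S_w2 : Prop := ∀ (n : ℕ) (ι : Type) (f : Fx), f.Ok → ∃ C : ℝ, 1 ≤ C ∧ ∀ η : ℝ, 0 < η →
  Ev f fun c : Cx n ι => ∀ p ∈ Om2 c, W2 f c C η p

def S_w3 : Prop := ∀ (n : ℕ) (ι : Type) (f : Fx), f.Ok → ∃ C : ℝ, 1 ≤ C ∧
  Ev f fun c : Cx n ι => ∀ p ∈ Om2 c, W3 f c C p

def S_w4 : Prop := ∀ (n : ℕ) (ι : Type) (f : Fx), f.Ok → ∃ C : ℝ, 1 ≤ C ∧ ∀ η : ℝ, 0 < η →
  Ev f fun c : Cx n ι => ∀ p ∈ Om2 c, W4 f c C η p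

def S_w5 : Prop := ∀ n : ℕ, ∃ Cn : ℝ, 1 ≤ Cn ∧ ∀ (ι : Type) (f : Fx), f.Ok → ∃ C : ℝ, 1 ≤ C ∧
  ∀ η : ℝ, 0 < η → Ev f fun c : Cx n ι => ∀ p ∈ Om2 c, W5x f c Cn C η p ∧ W5y f c Cn C η p

def S_w6 : Prop := ∀ n : ℕ, ∃ Cn : ℝ, 1 ≤ Cn ∧ ∀ (ι : Type) (f : Fx), f.Ok → ∃ C : ℝ, 1 ≤ C ∧
  Ev f fun c : Cx n ι => ∀ p ∈ Om2 c, W6 f c Cn C p

/-- The chain rule for `Ψ`. -/
def S_hess : Prop := ∀ (n : ℕ) (ι : Type) (f : Fx) (c : Cx n ι), f.Ok → W0 f c →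
  ∀ (p v w : X2 n), D v (Psi f c) p = my f c p * D v uu p + al f c p / 2 * D v (QQ c) p ∧
    D v (D w (Psi f c)) p =
      S2 f c p (D v uu p) (D v (QQ c) p) (D w uu p) (D w (QQ c) p) +
        my f c p * D v (D w uu) p + al f c p / 2 * D v (D w (QQ c)) p ∧
    ∃ l₂ : ℝ, 0 ≤ l₂ ∧ ∀ v w : X2 n, D v (D w (lu f c)) p = l₂ * (D v uu p * D w uu p) +
      LU f.K c.L0 c.sg c.J (uu p) / 2 * D v (D w uu) p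

/-- Convexity in the variables `(u, log t)`. -/
def S_conv : Prop := ∀ (n : ℕ) (ι : Type) (f : Fx), f.Ok → ∃ C : ℝ, 1 ≤ C ∧ ∀ η : ℝ, 0 < η →
  Ev f fun c : Cx n ι => ∀ p ∈ Om2 c, ∀ U Q : ℝ,
    ((0 < QQ c p ∨ Q = 0) → FF f c p / QQ c p * ((QQ c p * vv f c p * U + sig f c p * Q / 2) ^ 2 -
      (sig f c p + gg f c p) * Q ^ 2 / 4) ≤ S2 f c p U Q U Q) ∧
    (f.t0 ^ 2 / 4 ≤ QQ c p → |S2 f c p U Q U Q + al f c p * Q ^ 2 / (4 * QQ c p)| ≤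
      (η + f.gam0) * al f c p * Q ^ 2 / QQ c p +
        C * (my f c p * U + al f c p * Q / 2) ^ 2 / Psi f c p)

end Vale.Agent.P088
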