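import Mathlib

/-!
# P088: statement-level definitions (metric, unitary connection, local boundary data)

The definitions are written for a model with corners `I` on a normed space `E`, a basis `e` of `E`
and a measure `μ` on `E`; the theorem uses the half-space model on `ℝⁿ`, the standard basis and
Lebesgue measure.
-/

open MeasureTheory Set
open scoped Manifold ContDiff Matrix

noncomputable section
namespace Vale.Agent.P088.S

/-- The standard basis of `ℝⁿ`. -/
def ee (n : ℕ) (i : Fin n) : EuclideanSpace ℝ (Fin n) := EuclideanSpace.single i 1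

variable {E H : Type} [NormedAddCommGroup E] [NormedSpace ℝ E] [TopologicalSpace H]
  (I : ModelWithCorners ℝ E H) {M : Type} [TopologicalSpace M] [ChartedSpace H M] {n N : ℕ}
  (e : Fin n → E)

/-- The `i`-th coordinate vector field of the chart at `p`, at the point with coordinates `y`. -/
def coordVec (p : M) (y : E) (i : Fin n) : TangentSpace I ((extChartAt I p).symm y) :=
  mfderivWithin 𝓘(ℝ, E) I (extChartAt I p).symm (range I) y (e i)

/-- Fields of bilinear forms on the tangent spaces. -/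
abbrev Bil (M : Type) [TopologicalSpace M] [ChartedSpace H M] : Type :=
  (x : M) → TangentSpace I x →ₗ[ℝ] TangentSpace I x →ₗ[ℝ] ℝ

/-- One-forms with values in complex `N × N` matrices. -/
abbrev Form1 (M : Type) [TopologicalSpace M] [ChartedSpace H M] (N : ℕ) : Type :=
  (x : M) → TangentSpace I x →ₗ[ℝ] Matrix (Fin N) (Fin N) ℂ

/-- The coefficients `g_{ij}` of `g` in the chart at `p`. -/
def gc (g : Bil I M) (p : M) (y : E) : Matrix (Fin n) (Fin n) ℝ :=
  Matrix.of fun i j => g _ (coordVec I e p y i) (coordVec I e p y j)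

/-- A Riemannian metric, smooth up to the boundary. -/
def IsMetric (g : Bil I M) : Prop :=
  (∀ x v w, g x v w = g x w v) ∧ (∀ x v, v ≠ 0 → 0 < g x v v) ∧
    ∀ (p : M) i j, ContDiffOn ℝ ∞ (fun y => gc I e g p y i j) (extChartAt I p).target

/-- A smooth one-form with values in `𝔲(N)`, smooth up to the boundary. -/
def IsUnitaryConn (A : Form1 I M N) : Prop :=
  (∀ x v, (A x v)ᴴ = -A x v) ∧
    ∀ (p : M) i a b,
      ContDiffOn ℝ ∞ (fun y => A _ (coordVec I e p y i) a b) (extChartAt I p).target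

/-- The Riemannian volume measure: in every chart it has density `√ det g_{ij}`. -/
def vol [MeasurableSpace E] (μ : Measure E) [MeasurableSpace M] (g : Bil I M) : Measure M :=
  ⨆ p : M, Measure.map (extChartAt I p).symm
    ((μ.restrict (extChartAt I p).target).withDensity
      fun y => ENNReal.ofReal √((gc I e g p y).det))

/-- Smooth sections of the trivial bundle `M × ℂ^N`. -/
def IsSec (F : M → Fin N → ℂ) : Prop :=
  ∀ a, ContMDiff I 𝓘(ℝ, ℂ) ∞ fun x => F x a

/-- The differential of a complex function in the direction `v`. -/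
def dFun (f : M → ℂ) (x : M) (v : TangentSpace I x) : ℂ :=
  mfderiv I 𝓘(ℝ, ℂ) f x v

/-- The covariant derivative `d_A F = dF + A F` in the direction `v`. -/
def dA (A : Form1 I M N) (F : M → Fin N → ℂ) (x : M) (v : TangentSpace I x) : Fin N → ℂ :=
  (fun a => dFun I (fun z => F z a) x v) + A x v *ᵥ F x

/-- The pointwise squared norm `|d_A F|_g² = g^{ij} ⟨(d_A F)(e_i), (d_A F)(e_j)⟩`. -/
def dens (g : Bil I M) (A : Form1 I M N) (F : M → Fin N → ℂ) (x : M) : ℝ :=
  ∑ i, ∑ j, (Matrix.of fun k l : Fin n => g x (e k) (e l))⁻¹ i j *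
    (star (dA I A F x (e i)) ⬝ᵥ dA I A F x (e j)).re

/-- The Dirichlet energy `∫_M |d_A F|_g² dV_g`. -/
def energy [MeasurableSpace E] (μ : Measure E) [MeasurableSpace M] (g : Bil I M)
    (A : Form1 I M N) (F : M → Fin N → ℂ) : ℝ :=
  ∫ x, dens I e g A F x ∂(vol I e μ g)

/-- The quadratic form `⟨Λ f, f⟩` for the boundary values `f` of `F₀`, by Dirichlet's principle:
the least energy among smooth sections with boundary values `f`. -/
def dnForm [MeasurableSpace E] (μ : Measure E) [MeasurableSpace M] (g : Bil I M)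
    (A : Form1 I M N) (F₀ : M → Fin N → ℂ) : ℝ :=
  sInf (energy I e μ g A '' {F | IsSec I F ∧ ∀ x ∈ I.boundary M, F x = F₀ x})

/-- Equality of the data on `Γ`. -/
def SameData [MeasurableSpace E] (μ : Measure E) [MeasurableSpace M] (Γ : Set M) (g₁ : Bil I M)
    (A₁ : Form1 I M N) (g₂ : Bil I M) (A₂ : Form1 I M N) : Prop :=
  ∀ F₀ : M → Fin N → ℂ, IsSec I F₀ →
    (∃ K, IsCompact K ∧ K ⊆ Γ ∧ ∀ x ∈ I.boundary M \ K, F₀ x = 0) →
    dnForm I e μ g₁ A₁ F₀ = dnForm I e μ g₂ A₂ F₀

/-- The differential of a matrix-valued function. -/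
def dMat (U : M → Matrix (Fin N) (Fin N) ℂ) (x : M) (v : TangentSpace I x) :
    Matrix (Fin N) (Fin N) ℂ :=
  Matrix.of fun a b => dFun I (fun z => U z a b) x v

/-- The two pairs are related by a diffeomorphism and a unitary gauge that are trivial on `Γ`. -/
def Related (Γ : Set M) (g₁ : Bil I M) (A₁ : Form1 I M N) (g₂ : Bil I M) (A₂ : Form1 I M N) :
    Prop :=
  ∃ (Φ : Diffeomorph I I M M ∞) (U : M → Matrix (Fin N) (Fin N) ℂ),
    (∀ a b, ContMDiff I 𝓘(ℝ, ℂ) ∞ fun x => U x a b) ∧
    (∀ x, U x ∈ Matrix.unitaryGroup (Fin N) ℂ) ∧ (∀ x ∈ Γ, Φ x = x ∧ U x = 1) ∧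
    (∀ x v w, g₂ x v w = g₁ (Φ x) (mfderiv I I Φ x v) (mfderiv I I Φ x w)) ∧
    ∀ x v, A₂ x v = (U x)⁻¹ * A₁ (Φ x) (mfderiv I I Φ x v) * U x + (U x)⁻¹ * dMat I U x v

end Vale.Agent.P088.S
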