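import Vale.Agent.P088.TcD0

/-!
# P088, the sliding argument: the principal parts are close
-/

open MeasureTheory Set Metric Filter
open scoped ContDiff Topology

noncomputable section
namespace Vale.Agent.P088
open Vale.Agent.P136

open TcD0 in
theorem s_tcA1 (h : S_tcK1) : S_tcA1 := by
  intro n ι _ _ hι M Mt
  obtain ⟨a₀⟩ := hι
  obtain ⟨η', hη', hη1⟩ : ∃ η' : ℝ, 0 < η' ∧ Fintype.card (Fin n × Fin n) * 2 ^ 6 * η' ≤ 1 / 2 :=
    ⟨1 / (2 * (Fintype.card (Fin n × Fin n) * 2 ^ 6) + 2), by positivity, by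
      rw [mul_one_div, div_le_iff₀ (by positivity)]; linarith⟩
  obtain ⟨η, hη, hη2, hη3⟩ : ∃ η : ℝ, 0 < η ∧ η ≤ 1 ∧ n * (Fintype.card ι * (6 * η)) ≤ η' :=
    ⟨min 1 (η' / (n * (Fintype.card ι * 6) + 1)), by positivity, min_le_left _ _, by
      have h1 := (le_div_iff₀ (by positivity)).1
        (min_le_right 1 (η' / (n * (Fintype.card ι * 6) + 1)))
      have h2 : 0 ≤ min 1 (η' / (n * (Fintype.card ι * 6) + 1)) := by positivity
      nlinarith⟩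
  obtain ⟨CA, hCA⟩ : ∃ CA : ℝ, CA = 4 + n * (Fintype.card ι * (2 ^ 6 * M 7 * Mt 7)) := ⟨_, rfl⟩
  obtain ⟨c, hc⟩ : ∃ c : ℝ, c = Tc.cApp n (Fintype.card ι) 6 (M (6 + 1)) := ⟨_, rfl⟩
  obtain ⟨CR, hCR⟩ : ∃ CR : ℝ, CR = n * (Fintype.card ι * (2 ^ 6 * c * Mt 6)) + c := ⟨_, rfl⟩
  obtain ⟨L, hL1, hL2⟩ : ∃ L : ℝ, 1 ≤ L ∧ |CA| ≤ η' * L :=
    ⟨max 1 (|CA| / η'), le_max_left _ _, by
      rw [← div_le_iff₀' hη']; exact le_max_right _ _⟩
  refine ⟨η, |CR| * L ^ 6 + 1, hη, le_add_of_nonneg_left (by positivity), ?_⟩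
  intro om r L₁ L₂ p W₁ W₂ T hb hT hr x hx w hw i j
  have hU := Tc.ball_U0 hr hx
  have hw0 : 0 ≤ w := (hw (.inl i) a₀ a₀).nonneg
  have c1 : ∀ s col, ContDiffAt ℝ ∞ (L₁.app (EE W₁ W₂ s col) a₀) x := fun s col =>
    Tc.cd_app hb.gd₁ (hb.cdE hU s col) a₀
  have b1 : ∀ s col, SB ee 6 (c * w) 1 (L₁.app (EE W₁ W₂ s col) a₀) x := fun s col =>
    hc ▸ hb.sb_app hU (hb.cdE hU s col) (hw s col) a₀
  have c2 : ∀ ab c e, ContDiffAt ℝ ∞
      (fun y => L₁.app (EE W₁ W₂ (.inl c) e) a₀ y * T ab c e a₀ y) x := fun ab c e =>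
    (c1 _ _).mul (hT.cd hx _ _ _ _)
  have c3 : ∀ ab, ContDiffAt ℝ ∞
      (fun y => ∑ c, ∑ e, L₁.app (EE W₁ W₂ (.inl c) e) a₀ y * T ab c e a₀ y) x := fun ab =>
    ContDiffAt.sum fun c _ => ContDiffAt.sum fun e _ => c2 ab c e
  have c4 : ∀ ab i j c e, ContDiffAt ℝ ∞
      (fun y => D (ee j) (W₂ (.inl c) e a₀) y * D (ee i) (T ab c e a₀) y) x := fun ab i j c e =>
    (contDiffAt_D (hb.cd₂ hU _ _ _) _).mul (contDiffAt_D (hT.cd hx _ _ _ _) _)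
  have c5 : ∀ ab i j, ContDiffAt ℝ ∞ (Th T W₂ ab i j a₀ a₀) x := fun ab i j =>
    ContDiffAt.sum (f := fun c y => ∑ e, D (ee j) (W₂ (.inl c) e a₀) y * D (ee i) (T ab c e a₀) y)
      fun c _ => ContDiffAt.sum fun e _ => c4 ab i j c e
  have key := Tc.fix (k := 6) (w := |CR| / 2 * w) (η := η')
    (u := fun ab : Fin n × Fin n => BB L₁ L₂ ab.1 ab.2)
    (R := fun ab y => 1 / 2 * (∑ c, ∑ e, L₁.app (EE W₁ W₂ (.inl c) e) a₀ y * T ab c e a₀ y -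
      L₁.app (EE W₁ W₂ (.inr ab) a₀) a₀ y))
    (A := fun ab ij y => 1 / 2 * (tq ab ij.2 ij.1 - Th T W₂ ab ij.1 ij.2 a₀ a₀ y)) hL1
    (fun ab => (hb.smB _ _).contDiffAt) (fun ab => contDiffAt_const.mul ((c3 ab).sub (c1 _ _)))
    (fun ab ij => contDiffAt_const.mul (contDiffAt_const.sub (c5 _ _ _))) (fun ab => ?_)
    (fun ab => ?_) (fun ab ij => ?_) hη1 (i, j)
  · refine (Tc.sb_unscale key hL1).mono le_rfl ?_
    nlinarith
  · filter_upwards [isOpen_ball.mem_nhds hx] with y hy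
    have h1 := h n ι om η r M Mt L₁ L₂ p W₁ W₂ T hb hT hr y hy ab a₀ a₀
    have h2 := sum_tqB (B := fun i j => BB L₁ L₂ i j y) (fun i j => by rw [hb.symB])
      (hb.tr y (Tc.ball_U0 hr hy)) ab.1 ab.2
    rw [← h1, Fintype.sum_prod_type]
    have e : ∀ i j, 1 / 2 * (tq ab j i - Th T W₂ ab i j a₀ a₀ y) * BB L₁ L₂ i j y =
        1 / 2 * (BB L₁ L₂ i j y * tq ab j i) -
          1 / 2 * (BB L₁ L₂ i j y * Th T W₂ ab i j a₀ a₀ y) := fun i j => by ring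
    simp only [e, Finset.sum_sub_distrib, ← Finset.mul_sum]
    rw [h2]
    ring
  · have h1 := Tc.sum_card zero_le_one (fun c => ContDiffAt.sum fun e _ => c2 ab c e) fun c =>
      Tc.sum_card zero_le_one (c2 ab c) fun e => SbAlg.mul zero_le_one (c1 _ _) (hT.cd hx _ _ _ _)
        (b1 (.inl c) e) (hT.bd x hx 6 ab c e a₀)
    refine SbAlg.mono zero_le_one ((SbAlg.sub (c3 ab) (c1 _ _) h1 (b1 (.inr ab) a₀)).cmul (1 / 2))
      le_rfl ?_ hL1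
    have h2 := mul_le_mul_of_nonneg_right (le_abs_self CR) hw0
    rw [Fintype.card_fin, abs_of_pos (by norm_num : (0 : ℝ) < 1 / 2)]
    have h3 : n * (Fintype.card ι * (2 ^ 6 * (c * w) * Mt 6)) + c * w = CR * w := by
      rw [hCR]
      ring
    linarith
  · have h1 := Tc.sum_card zero_le_one (fun c => ContDiffAt.sum fun e _ => c4 ab ij.1 ij.2 c e)
      fun c => Tc.sum_card zero_le_one (c4 ab ij.1 ij.2 c) fun e => SbAlg.mul zero_le_one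
        (contDiffAt_D (hb.cd₂ hU _ _ _) _) (contDiffAt_D (hT.cd hx _ _ _ _) _)
        ((hb.w₂ x hU 7 (.inl c) e a₀).D ij.2) ((hT.bd x hx 7 ab c e a₀).D ij.1)
    have h2 := (SbAlg.sub contDiffAt_const (c5 ab ij.1 ij.2)
      ((SB.const (tq ab ij.2 ij.1) 6 x).mono le_rfl (tq_abs _ _ _)) h1).cmul (1 / 2)
    refine Tc.sb_scale h2 ?_ hL1 (le_trans ?_ hL2)
    · have h3 := th_close (ab := ab) (i := ij.1) (j := ij.2) hη2
        (fun c e => hT.dT x hx ab c e a₀ ij.1) fun c e => hT.dW x hx c e a₀ ij.2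
      rw [if_pos rfl, abs_sub_comm] at h3
      rw [abs_mul, abs_of_pos (by norm_num : (0 : ℝ) < 1 / 2)]
      change 1 / 2 * |tq ab ij.2 ij.1 - ∑ c, ∑ e, _| ≤ _
      linarith
    · rw [Fintype.card_fin, ← hCA, abs_of_pos (by norm_num : (0 : ℝ) < 1 / 2)]
      linarith [le_abs_self CA, abs_nonneg CA]

end Vale.Agent.P088
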