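import Vale.Agent.P088.TcTool

/-!
# P088, the sliding argument: the first-order coefficients
-/

open MeasureTheory Set Metric Filter
open scoped ContDiff Topology

noncomputable section
namespace Vale.Agent.P088
open Vale.Agent.P136

namespace TcA2

lemma sum2 {A B : Type} [Fintype A] [Fintype B] {F G : A → B → ℝ} {u v : ℝ}
    (hF : ∀ i j, |F i j| ≤ u) (hG : ∀ i j, |G i j| ≤ v) :
    |∑ i, ∑ j, F i j * G i j| ≤ Fintype.card A * (Fintype.card B * (u * v)) := by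
  refine (Finset.abs_sum_le_sum_abs _ _).trans ?_
  rw [← nsmul_eq_mul, ← Finset.card_univ]
  refine Finset.sum_le_card_nsmul _ _ _ fun i _ => (Finset.abs_sum_le_sum_abs _ _).trans ?_
  rw [← nsmul_eq_mul, ← Finset.card_univ]
  refine Finset.sum_le_card_nsmul _ _ _ fun j _ => ?_
  rw [abs_mul]
  exact mul_le_mul (hF i j) (hG i j) (abs_nonneg _) ((abs_nonneg _).trans (hF i j))

lemma pick {A B : Type} [Fintype A] [Fintype B] [DecidableEq A] [DecidableEq B] (F : A → B → ℝ)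
    (c : A) (e : B) : ∑ i, ∑ j, F i j * (if i = c ∧ e = j then 1 else 0) = F c e := by
  rw [Finset.sum_eq_single c, Finset.sum_eq_single e]
  · simp
  · intro b _ hb; simp [hb.symm]
  · simp
  · intro b _ hb; simp [hb]
  · simp

end TcA2

open TcA2 in
theorem s_tcA2 (h : S_tcK0) : S_tcA2 := by
  intro n ι _ _ M
  have hp : (0 : ℝ) < 2 * (n * Fintype.card ι) + 2 := by positivity
  refine ⟨1 / (2 * (n * Fintype.card ι) + 2),
    1 + 2 * |Tc.cApp n (Fintype.card ι) 0 (M 1) + 2 * (n * (n * M 2))|, by positivity,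
    le_add_of_nonneg_right (by positivity), ?_⟩
  intro om L₁ L₂ p W₁ W₂ hB x hx hd w hE hBB i₀ a₀ a₁
  obtain ⟨⟨c, a, e⟩, -, hm⟩ := Finset.exists_max_image (Finset.univ : Finset (Fin n × ι × ι))
    (fun t => |L₁.b t.1 t.2.1 t.2.2 x - L₂.b t.1 t.2.1 t.2.2 x|) ⟨(i₀, a₀, a₁), Finset.mem_univ _⟩
  refine (hm (i₀, a₀, a₁) (Finset.mem_univ _)).trans ?_
  have hw : 0 ≤ w := (hE (.inl c) e a).nonneg
  have k0 := h n ι om M L₁ L₂ p W₁ W₂ hB x hx (.inl c) e a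
  have k1 := (hB.sb_app (k := 0) hx (fun a => hB.cdE hx (.inl c) e a)
    (fun a => hE (.inl c) e a) a).abs_le
  have k2 := sum2 (F := fun i j => BB L₁ L₂ i j x)
    (G := fun i j => D (ee i) (D (ee j) (W₂ (.inl c) e a)) x) (fun i j => (hBB i j).abs_le)
    (fun i j => (((hB.w₂ x hx 2 (.inl c) e a).D j).D i).abs_le)
  have k3 := sum2 (F := fun i j => D (ee i) (BB L₁ L₂ i j) x)
    (G := fun _ j => D (ee j) (W₂ (.inl c) e a) x) (fun i j => ((hBB i j).D i).abs_le)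
    (fun _ j => ((hB.w₂ x hx 2 (.inl c) e a).D j).abs_le)
  have k4 := sum2 (F := fun i a' => L₁.b i a a' x - L₂.b i a a' x)
    (G := fun i a' => D (ee i) (W₂ (.inl c) e a') x - if i = c ∧ e = a' then 1 else 0)
    (fun i a' => hm (i, a, a') (Finset.mem_univ _)) (fun i a' => hd c e a' i)
  have k5 := pick (fun i a' => L₁.b i a a' x - L₂.b i a a' x) c e
  simp only [mul_sub _ (D _ _ _), Finset.sum_sub_distrib, Fintype.card_fin] at k2 k3 k4
  rw [k5] at k4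
  dsimp only at hm ⊢
  obtain ⟨m, hm'⟩ : ∃ m, m = |L₁.b c a e x - L₂.b c a e x| := ⟨_, rfl⟩
  have hm0 : 0 ≤ m := hm' ▸ abs_nonneg _
  have k6 : n * (Fintype.card ι * (m * (1 / (2 * (n * Fintype.card ι) + 2)))) ≤ m / 2 := by
    rw [mul_one_div, ← mul_div_assoc, ← mul_div_assoc, div_le_div_iff₀ hp two_pos]
    nlinarith
  rw [← hm'] at k4 ⊢
  have k7 := mul_le_mul_of_nonneg_right
    (le_abs_self (Tc.cApp n (Fintype.card ι) 0 (M 1) + 2 * (n * (n * M 2)))) hw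
  have k8 : m ≤ m / 2 + (Tc.cApp n (Fintype.card ι) 0 (M 1) * w + 2 * (n * (n * (w * M 2)))) := by
    rw [abs_le] at k1 k2 k3 k4
    refine hm'.le.trans (abs_le.2 ⟨?_, ?_⟩) <;> linarith [k1.1, k1.2, k2.1, k2.2, k3.1, k3.2,
      k4.1, k4.2]
  linarith

theorem s_tcA (hT : S_tcT) (h1 : S_tcA1) (h2 : S_tcA2) : S_tcA := by
  intro n ι _ _ _ M
  obtain ⟨Mt, hT⟩ := hT n ι M
  obtain ⟨η₁, C₁, he₁, hC₁, h1⟩ := h1 n ι M Mt
  obtain ⟨η₂, C₂, he₂, hC₂, h2⟩ := h2 n ι M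
  obtain ⟨r, hr, hr1, hT⟩ := hT (min η₁ η₂) (lt_min he₁ he₂)
  refine ⟨r, C₂ * C₁, hr, hr1, by positivity, ?_⟩
  intro om L₁ L₂ p W₁ W₂ hB x hx w hE
  obtain ⟨T, hT⟩ := hT om L₁ L₂ p W₁ W₂ hB
  have hr4 : r ≤ 1 / 4 := by linarith
  have k1 := h1 om r L₁ L₂ p W₁ W₂ T hB (hT.mono (min_le_left _ _) le_rfl) hr4 x hx w hE
  refine ⟨fun i j => ?_, fun i a a' => ?_⟩
  · have h0 := (k1 i j).nonneg
    refine (k1 i j).mono le_rfl ?_
    rw [mul_assoc]
    exact le_mul_of_one_le_left h0 hC₂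
  · have hw : 0 ≤ w := (hE (.inl i) a a).nonneg
    rw [mul_assoc]
    exact h2 om L₁ L₂ p W₁ W₂ hB x (Tc.ball_U0 hr4 hx)
      ((hT.mono (min_le_right _ _) le_rfl).dW x hx) (C₁ * w)
      (fun s col a => (hE s col a).mono (by norm_num) (le_mul_of_one_le_left hw hC₁))
      (fun i j => (k1 i j).mono (by norm_num) le_rfl) i a a'

end Vale.Agent.P088
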