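import Vale.Agent.P088.TcTool

/-!
# P088, the sliding argument: the combinations with vanishing first jet
-/

open MeasureTheory Set Metric Filter
open scoped ContDiff Topology

noncomputable section
namespace Vale.Agent.P088
open Vale.Agent.P136

namespace TcB

variable {n : ℕ} {ι : Type} [Fintype ι] {L : Op n ι} {U V : Set (En n)} {W W' : ι → En n → ℝ}

theorem dgd_add {γ : MatF n} {f g : En n → ℝ} {x : En n} (hU : IsOpen U) (hγ : SmM γ)
    (hf : ContDiffOn ℝ ∞ f U) (hg : ContDiffOn ℝ ∞ g U) (hx : x ∈ U) :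
    dgd ee γ (fun y => f y + g y) x = dgd ee γ f x + dgd ee γ g x := by
  simp only [dgd, dvg, ← Finset.sum_add_distrib]
  refine Finset.sum_congr rfl fun i _ => ?_
  rw [← D_add_at (dAt_of_on hU (on_XX hU hγ hf i) hx) (dAt_of_on hU (on_XX hU hγ hg i) hx)]
  refine D_congr (ev_of_eqOn hU (fun y hy => ?_) hx) _
  simp only [XX, ← Finset.sum_add_distrib]
  refine Finset.sum_congr rfl fun j _ => ?_
  rw [D_add_at (dAt_of_on hU hf hy) (dAt_of_on hU hg hy), mul_add]

theorem dgd_cmul (γ : MatF n) (c : ℝ) (f : En n → ℝ) (x : En n) :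
    dgd ee γ (fun y => c * f y) x = c * dgd ee γ f x := by
  have e : ∀ i, XX ee γ (fun y => c * f y) i = fun y => c * XX ee γ f i y := fun i => by
    funext y
    simp only [XX, D_cmul, Finset.mul_sum]
    exact Finset.sum_congr rfl fun j _ => by ring
  simp only [dgd, dvg, e, D_cmul, Finset.mul_sum]

theorem dgd_const (γ : MatF n) (c : ℝ) (x : En n) : dgd ee γ (fun _ => c) x = 0 := by
  have e : ∀ i, XX ee γ (fun _ => c) i = fun _ => 0 := fun i => by
    funext y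
    simp only [XX, D_const, mul_zero, Finset.sum_const_zero]
  simp only [dgd, dvg, e, D_const, Finset.sum_const_zero]

theorem sol_mono (h : Sol L U W 0) (hV : V ⊆ U) : Sol L V W 0 :=
  ⟨fun a => (h.1 a).mono hV, fun x hx => h.2 x (hV hx)⟩

theorem sol_add (hL : L.Good) (hU : IsOpen U) (h : Sol L U W 0) (h' : Sol L U W' 0) :
    Sol L U (fun a y => W a y + W' a y) 0 := by
  refine ⟨fun a => (h.1 a).add (h'.1 a), fun x hx a => ?_⟩
  have h1 := h.2 x hx a
  have h2 := h'.2 x hx a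
  have e : ∀ i a', D (ee i) (fun y => W a' y + W' a' y) x =
      D (ee i) (W a') x + D (ee i) (W' a') x := fun i a' =>
    D_add_at (dAt_of_on hU (h.1 a') hx) (dAt_of_on hU (h'.1 a') hx) _
  simp only [Op.app, Pi.zero_apply] at h1 h2 ⊢
  simp only [dgd_add hU hL.1 (h.1 a) (h'.1 a) hx, e, mul_add, Finset.sum_add_distrib]
  linarith

theorem sol_cmul (c : ℝ) (h : Sol L U W 0) : Sol L U (fun a y => c * W a y) 0 := by
  refine ⟨fun a => contDiffOn_const.mul (h.1 a), fun x hx a => ?_⟩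
  have h1 := congrArg (fun t => c * t) (h.2 x hx a)
  simp only [Op.app, Pi.zero_apply, mul_zero, mul_add, Finset.mul_sum] at h1 ⊢
  simp only [dgd_cmul, D_cmul, mul_left_comm _ c]
  exact h1

theorem sol_const (hc : ∀ x ∈ U, ∀ a a', L.c a a' x = 0) (k : ι → ℝ) :
    Sol L U (fun a _ => k a) 0 := by
  refine ⟨fun a => contDiffOn_const, fun x hx a => ?_⟩
  simp only [Op.app, Pi.zero_apply, dgd_const, D_const, hc x hx, mul_zero, zero_mul,
    Finset.sum_const_zero, add_zero]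

theorem sol_sum (hL : L.Good) (hU : IsOpen U) {J : Type} (s : Finset J) {F : J → ι → En n → ℝ}
    (h : ∀ j, Sol L U (F j) 0) : Sol L U (fun a y => ∑ j ∈ s, F j a y) 0 := by
  classical
  induction s using Finset.induction_on with
  | empty =>
    refine ⟨fun a => by simpa using contDiffOn_const, fun x _ a => ?_⟩
    simp only [Op.app, Finset.sum_empty, Pi.zero_apply, dgd_const, D_const, mul_zero,
      Finset.sum_const_zero, add_zero]
  | insert j s hj ih =>
    simp only [Finset.sum_insert hj]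
    exact sol_add hL hU (h j) ih

/-- a linear combination with constant coefficients -/
def lc (Z : WF n ι) (t : Fin n → ι → ℝ) (ab : Fin n × Fin n) (col a : ι) : En n → ℝ := fun y =>
  Z (.inr ab) col a y + ∑ c, ∑ e, t c e * Z (.inl c) e a y

theorem sol_lc (hL : L.Good) (hU : IsOpen U) (hc : ∀ x ∈ U, ∀ a a', L.c a a' x = 0) {Z : WF n ι}
    (h : ∀ s col, Sol L U (Z s col) 0) (t : Fin n → ι → ℝ) (ab : Fin n × Fin n) (col : ι)
    (k : ι → ℝ) (s : ℝ) : Sol L U (fun a y => s * (lc Z t ab col a y + k a)) 0 :=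
  sol_cmul s (sol_add hL hU (sol_add hL hU (h _ _)
    (sol_sum hL hU _ fun c => sol_sum hL hU _ fun e => sol_cmul (t c e) (h _ _))) (sol_const hc k))

theorem sb_lc {Z : WF n ι} {t : Fin n → ι → ℝ} {x : En n} {k : ℕ} {w m : ℝ}
    (hZ : ∀ s col a, ContDiffAt ℝ ∞ (Z s col a) x) (bZ : ∀ s col a, SB ee k w 1 (Z s col a) x)
    (ht : ∀ c e, |t c e| ≤ m) (ab : Fin n × Fin n) (col a : ι) :
    SB ee k (w + n * (Fintype.card ι * (m * w))) 1 (lc Z t ab col a) x := by
  have c1 : ∀ c e, ContDiffAt ℝ ∞ (fun y => t c e * Z (.inl c) e a y) x := fun c e =>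
    contDiffAt_const.mul (hZ _ _ _)
  have c2 : ∀ c, ContDiffAt ℝ ∞ (fun y => ∑ e, t c e * Z (.inl c) e a y) x := fun c =>
    ContDiffAt.sum fun e _ => c1 c e
  have h1 := Tc.sum_card zero_le_one c2 fun c => Tc.sum_card zero_le_one (c1 c) fun e =>
    ((bZ (.inl c) e a).cmul (t c e)).mono le_rfl
      (mul_le_mul_of_nonneg_right (ht c e) (bZ (.inl c) e a).nonneg)
  rw [Fintype.card_fin] at h1
  exact SbAlg.add (hZ _ _ _) (ContDiffAt.sum fun c _ => c2 c) (bZ _ _ _) h1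

theorem D_lc {Z : WF n ι} (t : Fin n → ι → ℝ) {x : En n}
    (hZ : ∀ s col a, ContDiffAt ℝ ∞ (Z s col a) x) (ab : Fin n × Fin n) (col a : ι) (v : En n) :
    D v (lc Z t ab col a) x =
      D v (Z (.inr ab) col a) x + ∑ c, ∑ e, t c e * D v (Z (.inl c) e a) x := by
  have d0 : ∀ s col a, DifferentiableAt ℝ (Z s col a) x := fun s col a =>
    (hZ s col a).differentiableAt (by simp)
  have d1 : ∀ c e, DifferentiableAt ℝ (fun y => t c e * Z (.inl c) e a y) x := fun c e =>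
    (d0 _ _ _).const_mul _
  have d2 : ∀ c, DifferentiableAt ℝ (fun y => ∑ e, t c e * Z (.inl c) e a y) x := fun c =>
    DifferentiableAt.fun_sum fun e _ => d1 c e
  unfold lc
  rw [D_add_at (d0 _ _ _) (DifferentiableAt.fun_sum fun c _ => d2 c), D_sum_at _ fun c _ => d2 c]
  refine congrArg _ (Finset.sum_congr rfl fun c _ => ?_)
  rw [D_sum_at _ fun e _ => d1 c e]
  exact Finset.sum_congr rfl fun e _ => D_const_mul_at (d0 _ _ _) _ _

end TcB

open TcB in
theorem s_tcB : S_tcB := by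
  intro n ι _ _ M Mt
  obtain ⟨A, hA⟩ : ∃ A, A = M 2 + n * (Fintype.card ι * (Mt 0 * M 2)) := ⟨_, rfl⟩
  obtain ⟨C, hC1, hC2⟩ : ∃ C : ℝ, 1 ≤ C ∧ A * n ^ 2 ≤ C :=
    ⟨max 1 _, le_max_left _ _, le_max_right _ _⟩
  have hC0 : 0 < C := zero_lt_one.trans_le hC1
  refine ⟨C ^ 2, sq_nonneg _, ?_⟩
  intro om η r δ G L₁ L₂ p W₁ W₂ T hB hT hr x hx H ab col a
  have hxU : x ∈ U0 p := Tc.ball_U0 hr hx
  have hxY : x ∈ Y0 p := ball_subset_ball (by linarith) hx
  obtain ⟨t, ht⟩ : ∃ t : Fin n → ι → ℝ, ∀ c e, t c e = -T ab c e col x := ⟨_, fun _ _ => rfl⟩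
  have htb : ∀ c e, |t c e| ≤ Mt 0 := fun c e => by
    rw [ht, abs_neg]; exact (hT.bd x hx 0 ab c e col).abs_le
  have hsb : ∀ z ∈ U0 p, ∀ a, SB ee 2 A 1 (lc W₂ t ab col a) z := fun z hz a =>
    hA ▸ sb_lc (hB.cd₂ hz) (hB.w₂ z hz 2) htb ab col a
  have s₂ := sol_lc hB.gd₂ (Tc.isOpen_U0 p) hB.c₂ hB.s₂ t ab col (fun a => -lc W₂ t ab col a x) C⁻¹
  have s₁ := sol_lc hB.gd₁ (Tc.isOpen_U0 p) hB.c₁ hB.s₁ t ab col (fun a => -lc W₂ t ab col a x) C⁻¹
  have key := H _ _ (sol_mono s₂ Tc.Y0_U0) ⟨sol_mono s₁ Tc.X0_U0, fun a y hy => by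
    simp only [lc, hB.eqW _ _ _ hy.2]⟩ (fun y hy a => by
      have hon : ContDiffOn ℝ ∞ (lc W₂ t ab col a) (Y0 p) :=
        ((hB.on₂ _ _ _).add (ContDiffOn.sum fun c _ => ContDiffOn.sum fun e _ =>
          contDiffOn_const.mul (hB.on₂ _ _ _))).mono Tc.Y0_U0
      have h1 := Tc.taylor isOpen_ball (convex_ball _ _) hon hxY hy (k := 2) one_le_two
        (hsb x hxU a).nonneg (fun z hz l hl => (hsb z (Tc.Y0_U0 hz) a).le hl.le) fun l h0 hl => by
          obtain ⟨i, rfl⟩ : ∃ i, l = [i] := List.length_eq_one_iff.1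
            (by have := List.length_pos_iff.2 h0; omega)
          rw [Ds_cons, Ds_nil, D_lc t (hB.cd₂ hxU), hT.eqn x hx, ← Finset.sum_add_distrib]
          refine Finset.sum_eq_zero fun c _ => ?_
          rw [← Finset.sum_add_distrib]
          exact Finset.sum_eq_zero fun e _ => by rw [ht]; ring
      rw [abs_mul, abs_of_pos (inv_pos.2 hC0), inv_mul_le_iff₀ hC0, ← sub_eq_add_neg]
      linarith [mul_le_mul_of_nonneg_right hC2 (sq_nonneg ‖y - x‖)]) a
  have e : cT T (EE W₁ W₂) ab col a x = C * (C⁻¹ * (lc W₁ t ab col a x + -lc W₂ t ab col a x)) := by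
    rw [mul_inv_cancel_left₀ hC0.ne']
    simp only [cT, EE, lc, ht, sub_mul, neg_mul, Finset.sum_sub_distrib, Finset.sum_neg_distrib,
      mul_comm (T ab _ _ col x)]
    ring
  rw [e, mul_pow]
  exact mul_le_mul_of_nonneg_left key (sq_nonneg _)

end Vale.Agent.P088
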