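import Vale.Agent.P088.TcTool

/-!
# P088, the sliding argument: the gain for `E`
-/

open MeasureTheory Set Metric Filter
open scoped ContDiff Topology

noncomputable section
namespace Vale.Agent.P088
open Vale.Agent.P136

namespace TcCore
variable {n : ℕ}

theorem scale {A P ε m : ℝ} {p x : En n} {ψ : En n → ℝ} (h : WOk A P p ψ) (hx : x ∈ ball p (1 / 4))
    (hm : 1 ≤ m) (hA : A ≤ ε * m) :
    (∀ i l, |D (ee i) (D (ee l) fun y => m * ψ y) x| ≤
      ε * ∑ j, D (ee j) (fun y => m * ψ y) x ^ 2) ∧ P ≤ ∑ j, D (ee j) (fun y => m * ψ y) x ^ 2 := by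
  obtain ⟨-, -, h1, h2⟩ := h.2 x hx
  have h0 : 0 ≤ ∑ j, D (ee j) ψ x ^ 2 := Finset.sum_nonneg fun _ _ => sq_nonneg _
  simp only [D_cmul, mul_pow, ← Finset.mul_sum]
  refine ⟨fun i l => ?_, h2.trans (le_mul_of_one_le_left h0 (one_le_pow₀ hm))⟩
  rw [abs_mul, abs_of_nonneg (by linarith)]
  refine (mul_le_mul_of_nonneg_left ((h1 i l).trans (mul_le_mul_of_nonneg_right hA h0))
    (by linarith)).trans (le_of_eq (by ring))

end TcCore

open TcCore in
theorem s_tcCore (hD : S_tcD) (hE : S_tcE) (hL : S_tcLoc) : S_tcCore := by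
  intro n hn ι _ _ _ M Mt A hA
  obtain ⟨c, hc, hD⟩ := hD n ι M Mt
  obtain ⟨ηE, ε, hηE, hε, hE⟩ := hE n hn (ι × ι)
  obtain ⟨P, hE⟩ := hE c (by linarith)
  obtain ⟨η, hη, hη1, hη2⟩ : ∃ η, 0 < η ∧ c * η ≤ 1 ∧ c * η ≤ ηE :=
    ⟨min 1 ηE / c, by positivity, by rw [mul_div_cancel₀ _ (by positivity)]; exact min_le_left _ _,
      by rw [mul_div_cancel₀ _ (by positivity)]; exact min_le_right _ _⟩
  refine ⟨η, P, ⌈A / ε⌉₊, hη, fun N r C₁ A₁ hN hr hr4 => ?_⟩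
  obtain ⟨N', hN'⟩ : ∃ N', N' = N + (8 + n) := ⟨_, rfl⟩
  have m1 : (1 : ℝ) ≤ N' := by exact_mod_cast (by omega : 1 ≤ N')
  have m2 : (N : ℝ) ≤ N' := by exact_mod_cast (by omega : N ≤ N')
  have m3 : A ≤ ε * N' := by
    rw [← div_le_iff₀' hε]
    exact (Nat.le_ceil _).trans ((Nat.cast_le.2 hN).trans m2)
  obtain ⟨CF, hCF, hF⟩ := hL n 8 N' A r ((M (8 + N') + M (8 + N')) + n * (Fintype.card ι *
    (2 ^ (8 + N') * (M (8 + N') + M (8 + N')) * Mt (8 + N')))) C₁ hr (by linarith) hA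
  obtain ⟨C₄, h41, h42⟩ : ∃ C₄, c * CF ≤ C₄ ∧ |A₁| ^ N' * |M 0 + M 0| ≤ C₄ :=
    ⟨max _ _, le_max_left _ _, le_max_right _ _⟩
  have h4 : 0 ≤ C₄ := le_trans (by positivity) h42
  obtain ⟨C₆, hE⟩ := hE (r / 2) C₄ (by positivity) h4
  obtain ⟨C₇, hC₇, hL⟩ := hL n 8 N A (r / 2 / 2) (M (8 + N) + M (8 + N)) C₆ (by positivity)
    (by linarith) hA
  refine ⟨C₇ + CF + n * (Fintype.card ι * (2 ^ 8 * C₇ * |Mt 8|)), by positivity, ?_⟩
  intro L₁ L₂ p W₁ W₂ T ψ g hb hT hw gi gC gF hO x hx s col a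
  have sub : ∀ {ρ : ℝ}, ρ ≤ r → ∀ y ∈ ball p ρ, y ∈ ball p r := fun h y hy =>
    ball_subset_ball h hy
  have hU : ∀ y ∈ ball p r, y ∈ U0 p := fun y hy => Tc.ball_U0 hr4 hy
  have hw' : ∀ y ∈ ball p r, 0 ≤ ψ y ∧ ∀ i, |D (ee i) ψ y| ≤ A * Real.exp (ψ y) := fun y hy =>
    ⟨(hw.2 y (ball_subset_ball hr4 hy)).1, (hw.2 y (ball_subset_ball hr4 hy)).2.1⟩
  have F1 : ∀ y ∈ ball p (r / 2), ∀ ab col a,
      SB ee 8 (CF * Real.exp (-(N' * ψ y))) 1 (cT T (EE W₁ W₂) ab col a) y := fun y hy ab col a =>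
    hF p ψ _ g hw.1 hw' (fun z hz => (Tc.cd_cT (hb.cdE (hU z hz)) (hT.cd hz) ab col
      a).contDiffWithinAt) (fun z hz => Tc.sb_cT (hb.cdE (hU z hz)) (hT.cd hz)
      (hb.bdE (hU z hz) _) (hT.bd z hz _) ab col a) gi gC
      (fun z hz => by rw [show N' + (8 + n) = N + 2 * (8 + n) by omega]; exact gF z hz ab col a)
      y hy
  obtain ⟨g', gi', gC', gF'⟩ := hE p (fun y => N' * ψ y)
    (fun s j => EE W₁ W₂ (.inl j) s.1 s.2) (hw.1.cmul _)
    (fun s j => (hb.onE _ _ _).mono (Tc.ball_U0 (by linarith))) fun y hy => by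
      have hy' := sub (by linarith) y hy
      have h1 := scale hw (ball_subset_ball hr4 hy') m1 m3
      refine ⟨h1.1, h1.2, fun e₀ e₁ h0 h1 s i j => ?_, fun h s j => ?_⟩
      · refine (hD η r L₁ L₂ p W₁ W₂ T hη1 hb hT hr4 y hy' _ e₀ e₁
          (fun ab col a => (F1 y hy ab col a).mono (by norm_num) le_rfl)
          (fun c col a => h0 (col, a) c) (fun c col a i => h1 (col, a) c i) s.1 s.2 i j).trans ?_
        have h2 : 0 ≤ e₁ := (abs_nonneg _).trans (h1 s i j)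
        rw [← mul_assoc]
        gcongr
      · rcases hO y hy' (by linarith) with h2 | h2
        · rw [(hb.E_ev h2 _ _ _).eq_of_nhds, abs_zero, mul_zero]
          exact h4
        · refine le_trans ?_ h42
          rw [Real.exp_nat_mul]
          exact mul_le_mul (pow_le_pow_left₀ (Real.exp_pos _).le (h2.trans (le_abs_self _)) _)
            ((hb.bdE (hU y hy') 0 _ _ _).abs_le.trans (le_abs_self _)) (abs_nonneg _)
            (by positivity)
  have hx' := sub (by linarith) x hx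
  have E1 : ∀ c col a, SB ee 8 (C₇ * Real.exp (-(N * ψ x))) 1 (EE W₁ W₂ (.inl c) col a) x :=
    fun c col a => hL p ψ _ g' hw.1 (fun z hz => hw' z (sub (by linarith) z hz))
      ((hb.onE _ _ _).mono (Tc.ball_U0 (by linarith)))
      (fun z hz => hb.bdE (hU z (sub (by linarith) z hz)) _ _ _ _) gi' gC'
      (fun z hz => hN' ▸ gF' z hz (col, a) c) x (by rwa [show r / 2 / 2 / 2 = r / 8 by ring])
  have e0 := Real.exp_pos (-(N * ψ x))
  rcases s with c | ab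
  · refine (E1 c col a).mono le_rfl (mul_le_mul_of_nonneg_right ?_ e0.le)
    rw [add_assoc]
    exact le_add_of_nonneg_right (by positivity)
  · refine (Tc.sb_inr (hb.cdE (hU x hx')) (hT.cd hx') E1
      (fun ab c e col => (hT.bd x hx' 8 ab c e col).mono le_rfl (le_abs_self _)) ab col a
      (F1 x (ball_subset_ball (by linarith) hx) ab col a)).mono le_rfl ?_
    have e1 : Real.exp (-(N' * ψ x)) ≤ Real.exp (-(N * ψ x)) :=
      Real.exp_le_exp.2 (neg_le_neg (mul_le_mul_of_nonneg_right m2 (hw' x hx').1))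
    nlinarith [mul_le_mul_of_nonneg_left e1 hCF, mul_nonneg hC₇ e0.le]

end Vale.Agent.P088
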