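import Vale.Agent.P088.TcD0

/-!
# P088, the sliding argument: the pointwise conformal Killing inequality
-/

open MeasureTheory Set Metric Filter
open scoped ContDiff Topology

noncomputable section
namespace Vale.Agent.P088
open Vale.Agent.P136

open TcD0 in
theorem s_tcD (h1 : S_tcK1) (h2 : S_tcK2) (h0 : S_tcD0) : S_tcD := by
  intro n ι _ _ _ M Mt
  obtain ⟨c₀, hc₀, h0⟩ := h0 n ι
  obtain ⟨C₁, hC₁⟩ : ∃ C₁, C₁ = |Tc.cApp n (Fintype.card ι) 0 (M (0 + 1))| := ⟨_, rfl⟩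
  obtain ⟨C₃, hC₃⟩ : ∃ C₃ : ℝ, C₃ = |n * (n * (2 ^ (0 + 1) * M (0 + 1) * Mt (0 + 2)))| := ⟨_, rfl⟩
  obtain ⟨C₂, hC₂⟩ : ∃ C₂ : ℝ, C₂ = n * (Fintype.card ι *
    (C₃ + n * (Fintype.card ι * (|M 0| * |Mt 1|)))) := ⟨_, rfl⟩
  have p1 : 0 ≤ C₁ := hC₁ ▸ abs_nonneg _
  have p3 : 0 ≤ C₃ := hC₃ ▸ abs_nonneg _
  have p2 : 0 ≤ C₂ := hC₂ ▸ by positivity
  have p4 : c₀ ≤ c₀ * (1 + C₁ + C₂) := le_mul_of_one_le_right (by linarith) (by linarith)
  refine ⟨c₀ * (1 + C₁ + C₂), hc₀.trans p4, ?_⟩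
  intro η r L₁ L₂ p W₁ W₂ T hc hb hT hr x hx w e₀ e₁ hw he₀ he₁ col a i j
  have hU := Tc.ball_U0 hr hx
  have q1 : 0 ≤ η := (abs_nonneg _).trans (hb.near i j x)
  have q2 : 0 ≤ w := (hw (i, j) a a).nonneg
  have q3 : 0 ≤ e₀ := (abs_nonneg _).trans (he₀ i a a)
  have q4 : 0 ≤ e₁ := (abs_nonneg _).trans (he₁ i a a i)
  have key := h0 η (C₁ * w + C₂ * e₀) e₁ (fun i j => L₁.γ i j x) (fun i j => BB L₁ L₂ i j x)
    (fun c e a i => D (ee i) (EE W₁ W₂ (.inl c) e a) x)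
    (fun c e a i => D (ee i) (W₂ (.inl c) e a) x) (fun ab c e col j => D (ee j) (T ab c e col) x)
    ((mul_le_mul_of_nonneg_right p4 q1).trans hc) (fun i j => hb.near i j x) (hT.dT x hx)
    (hT.dW x hx) (fun i j => by rw [hb.symB]) (hb.tr x hU) (fun c i => ?_) he₁
    (fun ab col a => ?_) col a i j
  · refine key.trans ?_
    have h3 := mul_le_mul_of_nonneg_right (mul_le_mul_of_nonneg_right p4 q1) q4
    have h4 : 0 ≤ c₀ * ((1 + C₂) * w + (1 + C₁) * e₀) := by positivity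
    linarith
  · rw [← D_sum_at _ fun a _ => (hb.cdE hU _ _ _).differentiableAt (by simp),
      D_congr_on (Tc.isOpen_U0 p) (g := fun _ => 0) (fun y hy => hb.gauge y hy c) _ hU, D_const]
  · have k1 := h1 n ι η η r M Mt L₁ L₂ p W₁ W₂ T hb hT hr x hx ab col a
    have k2 := h2 n ι L₁ _ (EE W₁ W₂) T hb.gd₁ isOpen_ball
      (fun s col a => (hb.onE s col a).mono (Tc.ball_U0 hr)) hT.sm x hx ab col a
    have b1 := (hb.sb_app (k := 0) hU (Tc.cd_cT (hb.cdE hU) (hT.cd hx) ab col) (hw ab col) a).abs_le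
    have b2 := abs_sum fun c => abs_sum
      (f := fun e => EE W₁ W₂ (.inl c) e a x * dgd ee L₁.γ (T ab c e col) x +
        ∑ i, ∑ a', L₁.b i a a' x * EE W₁ W₂ (.inl c) e a' x * D (ee i) (T ab c e col) x)
      (b := (C₃ + n * (Fintype.card ι * (|M 0| * |Mt 1|))) * e₀) fun e => by
        have b3 := (Tc.sb_dgd (k := 0) hb.gd₁.1 (hT.cd hx ab c e col) (fun i j => hb.γ₁ _ i j x)
          (hT.bd x hx _ ab c e col)).abs_le.trans (le_abs_self _)
        have b4 := abs_sum fun i => abs_sum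
          (f := fun a' => L₁.b i a a' x * EE W₁ W₂ (.inl c) e a' x * D (ee i) (T ab c e col) x)
          (b := |M 0| * e₀ * |Mt 1|) fun a' => by
            rw [abs_mul, abs_mul]
            exact mul_le_mul (mul_le_mul ((hb.b₁ 0 i a a' x).abs_le.trans (le_abs_self _))
              (he₀ c e a') (abs_nonneg _) (abs_nonneg _))
              (((hT.bd x hx 1 ab c e col).D i).abs_le.trans (le_abs_self _)) (abs_nonneg _)
              (by positivity)
        refine (abs_add_le _ _).trans ?_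
        rw [abs_mul]
        rw [Fintype.card_fin] at b4
        nlinarith [mul_le_mul (he₀ c e a) (hC₃ ▸ b3) (abs_nonneg _) q3]
    replace b1 := b1.trans (mul_le_mul_of_nonneg_right (le_abs_self _) q2)
    replace b2 := b2.trans (le_of_eq (show _ = C₂ * e₀ by rw [hC₂, Fintype.card_fin]; ring))
    simp only [Th] at k1
    rw [← hC₁, abs_le] at b1
    rw [abs_le] at b2 ⊢
    constructor <;> linarith [b1.1, b1.2, b2.1, b2.2]

end Vale.Agent.P088
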