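import Vale.Agent.P088.TcTool

/-!
# P088, the sliding argument: algebra of the conformal Killing inequality
-/

open MeasureTheory Set Metric Filter
open scoped ContDiff Topology

noncomputable section
namespace Vale.Agent.P088
open Vale.Agent.P136

namespace TcD0
variable {n : ℕ} {ι : Type} [Fintype ι] [DecidableEq ι]

theorem tq_abs (ab : Fin n × Fin n) (c j : Fin n) : |tq ab c j| ≤ 4 := by
  have h1 : (1 : ℝ) ≤ n := by exact_mod_cast c.pos
  have h2 : 2 / (n : ℝ) ≤ 2 := div_le_self zero_le_two h1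
  have h3 : 0 ≤ 2 / (n : ℝ) := by positivity
  unfold tq
  rw [abs_le]
  constructor <;> split_ifs <;> linarith

theorem sum_tq (d : Fin n → Fin n → ℝ) (a b : Fin n) :
    ∑ c, ∑ j, d c j * tq (a, b) c j = CK d a b := by
  simp only [tq, CK, mul_sub, mul_add, Finset.sum_sub_distrib, Finset.sum_add_distrib, ite_and,
    mul_ite, mul_one, mul_zero, Finset.sum_ite_irrel, Finset.sum_const_zero, Finset.sum_ite_eq,
    Finset.sum_ite_eq', Finset.mem_univ, if_true, Finset.sum_mul, mul_comm (2 / (n : ℝ))]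

theorem CK_swap (d : Fin n → Fin n → ℝ) (a b : Fin n) : CK (fun i j => d j i) a b = CK d a b := by
  simp only [CK, add_comm]

theorem sum_tqB {B : Fin n → Fin n → ℝ} (hs : ∀ i j, B i j = B j i) (ht : ∑ i, B i i = 0)
    (a b : Fin n) : ∑ i, ∑ j, B i j * tq (a, b) j i = 2 * B a b := by
  rw [Finset.sum_comm, sum_tq (fun j i => B i j), CK, ht, hs b a]
  simp [two_mul]

theorem prod_close {x y x₀ y₀ η : ℝ} (hx : |x - x₀| ≤ η) (hy : |y - y₀| ≤ η) (h1 : |x₀| ≤ 1)
    (h4 : |y₀| ≤ 4) (hη : η ≤ 1) : |x * y - x₀ * y₀| ≤ 6 * η := by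
  have h0 := (abs_nonneg _).trans hx
  have e : x * y - x₀ * y₀ = (x - x₀) * (y - y₀) + (x - x₀) * y₀ + x₀ * (y - y₀) := by ring
  rw [e]
  refine (abs_add_three _ _ _).trans ?_
  rw [abs_mul, abs_mul, abs_mul]
  nlinarith [mul_le_mul hx hy (abs_nonneg _) h0, mul_le_mul hx h4 (abs_nonneg _) h0,
    mul_le_mul h1 hy (abs_nonneg _) zero_le_one]

theorem abs_sum {I : Type} [Fintype I] {f : I → ℝ} {b : ℝ} (h : ∀ i, |f i| ≤ b) :
    |∑ i, f i| ≤ Fintype.card I * b :=
  (Finset.abs_sum_le_sum_abs _ _).trans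
    ((Finset.sum_le_card_nsmul _ _ b fun i _ => h i).trans (by simp))

theorem abs_ite1 (P : Prop) [Decidable P] : |(if P then 1 else 0 : ℝ)| ≤ 1 := by
  split_ifs <;> simp

theorem abs_ite4 (P : Prop) [Decidable P] (ab : Fin n × Fin n) (c j : Fin n) :
    |if P then tq ab c j else 0| ≤ 4 := by
  split_ifs
  exacts [tq_abs _ _ _, by simp]

theorem th_close {η : ℝ} {dW dT : Fin n → ι → ℝ} {ab : Fin n × Fin n} {i j : Fin n} {col a : ι}
    (hη : η ≤ 1) (hT : ∀ c e, |dT c e - if e = col then tq ab c i else 0| ≤ η)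
    (hW : ∀ c e, |dW c e - if j = c ∧ e = a then 1 else 0| ≤ η) :
    |∑ c, ∑ e, dW c e * dT c e - if a = col then tq ab j i else 0| ≤
      n * (Fintype.card ι * (6 * η)) := by
  have e : (if a = col then tq ab j i else 0) = ∑ c, ∑ e,
      (if j = c ∧ e = a then 1 else 0) * if e = col then tq ab c i else 0 := by
    simp only [ite_and, ite_mul, one_mul, zero_mul, Finset.sum_ite_irrel, Finset.sum_const_zero,
      Finset.sum_ite_eq, Finset.sum_ite_eq', Finset.mem_univ, if_true]
  rw [e, ← Finset.sum_sub_distrib]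
  simp only [← Finset.sum_sub_distrib]
  exact (abs_sum fun c => abs_sum fun e =>
    prod_close (hW c e) (hT c e) (abs_ite1 _) (abs_ite4 _ _ _ _) hη).trans (by simp)

theorem ck_close {η e₁ : ℝ} {γ : Fin n → Fin n → ℝ} {d dT : Fin n → ι → Fin n → ℝ}
    {a b : Fin n} {col : ι} (hη : η ≤ 1) (hγ : ∀ i j, |γ i j - if i = j then 1 else 0| ≤ η)
    (hT : ∀ c e j, |dT c e j - if e = col then tq (a, b) c j else 0| ≤ η)
    (hd : ∀ c e i, |d c e i| ≤ e₁) :
    |∑ c, ∑ e, ∑ i, ∑ j, γ i j * d c e i * dT c e j - CK (fun i j => d j col i) a b| ≤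
      n * (Fintype.card ι * (n * (n * (e₁ * (6 * η))))) := by
  have e : CK (fun i j => d j col i) a b = ∑ c, ∑ e, ∑ i, ∑ j,
      d c e i * ((if i = j then 1 else 0) * if e = col then tq (a, b) c j else 0) := by
    rw [CK_swap (fun i j => d i col j), ← sum_tq]
    simp only [ite_mul, one_mul, zero_mul, mul_ite, mul_zero, Finset.sum_ite_irrel,
      Finset.sum_const_zero, Finset.sum_ite_eq, Finset.sum_ite_eq', Finset.mem_univ, if_true]
  rw [e, ← Finset.sum_sub_distrib]
  simp only [← Finset.sum_sub_distrib]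
  refine (abs_sum (b := _) fun c => abs_sum fun e => abs_sum fun i => abs_sum
    (b := e₁ * (6 * η)) fun j => ?_).trans (by simp)
  rw [mul_comm (γ i j), mul_assoc, ← mul_sub, abs_mul]
  exact mul_le_mul (hd c e i) (prod_close (hγ i j) (hT c e j) (abs_ite1 _) (abs_ite4 _ _ _ _) hη)
    (abs_nonneg _) ((abs_nonneg _).trans (hd c e i))

end TcD0

open TcD0 in
theorem s_tcD0 : S_tcD0 := by
  intro n ι _ _ _
  obtain ⟨κ, hκ⟩ : ∃ κ : ℝ, κ = n * (Fintype.card ι * (n * (n * 6))) := ⟨_, rfl⟩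
  have hκ0 : 0 ≤ κ := hκ ▸ by positivity
  refine ⟨4 * κ + 2, by linarith, ?_⟩
  intro η ρ e₁ γ B d dW dT hc hγ hT hW hs ht hg hd hρ col a i j
  have hη0 : 0 ≤ η := (abs_nonneg _).trans (hγ i j)
  have he : 0 ≤ e₁ := (abs_nonneg _).trans (hd i a a i)
  have hρ0 : 0 ≤ ρ := (abs_nonneg _).trans (hρ (i, j) a a)
  have hη1 : η ≤ 1 := by nlinarith
  obtain ⟨ab, -, hab⟩ := Finset.exists_max_image Finset.univ
    (fun ab : Fin n × Fin n => |B ab.1 ab.2|) ⟨(i, j), Finset.mem_univ _⟩
  obtain ⟨β, hβ⟩ : ∃ β, β = |B ab.1 ab.2| := ⟨_, rfl⟩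
  have hB : ∀ i j, |B i j| ≤ β := fun i j => hβ ▸ hab (i, j) (Finset.mem_univ _)
  have hβ0 : 0 ≤ β := hβ ▸ abs_nonneg _
  have key : ∀ (a' b' : Fin n) col a, |2 * CK (fun i j => d j col a i) a' b' +
      (if a = col then 2 * B a' b' else 0)| ≤ ρ + 2 * (κ * η * e₁) + κ * η * β := by
    intro a' b' col a
    have h1 := ck_close (d := fun c e i => d c e a i) hη1 hγ (fun c e j => hT (a', b') c e col j)
      fun c e i => hd c e a i
    have h2 : |∑ i, ∑ j, B i j * ∑ c, ∑ e, dW c e a j * dT (a', b') c e col i -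
        if a = col then 2 * B a' b' else 0| ≤ κ * η * β := by
      have e : (if a = col then 2 * B a' b' else 0) =
          ∑ i, ∑ j, B i j * if a = col then tq (a', b') j i else 0 := by
        split_ifs
        exacts [(sum_tqB hs ht a' b').symm, by simp]
      rw [e, ← Finset.sum_sub_distrib]
      simp only [← Finset.sum_sub_distrib, ← mul_sub]
      refine (abs_sum (b := _) fun i => abs_sum
        (b := β * (n * (Fintype.card ι * (6 * η)))) fun j => ?_).trans (le_of_eq ?_)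
      · rw [abs_mul]
        exact mul_le_mul (hB i j) (th_close hη1 (fun c e => hT (a', b') c e col i)
          fun c e => hW c e a j) (abs_nonneg _) hβ0
      · rw [hκ, Fintype.card_fin]
        ring
    have h3 := hρ (a', b') col a
    replace h1 := h1.trans (le_of_eq (show _ = κ * η * e₁ by rw [hκ]; ring))
    rw [abs_le] at h1 h2 h3 ⊢
    constructor <;> linarith [h1.1, h1.2, h2.1, h2.2, h3.1, h3.2]
  have h4 : 2 * β ≤ ρ + 2 * (κ * η * e₁) + κ * η * β := by
    have h5 := abs_sum fun a => key ab.1 ab.2 a a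
    have e : ∑ a, CK (fun i j => d j a a i) ab.1 ab.2 = 0 := by
      simp only [CK, Finset.sum_sub_distrib, Finset.sum_add_distrib, hg, Finset.sum_ite_irrel,
        ← Finset.mul_sum, Finset.sum_const_zero]
      rw [Finset.sum_comm]
      simp [hg]
    simp only [if_true, Finset.sum_add_distrib, ← Finset.mul_sum, e, mul_zero, zero_add,
      Finset.sum_const, Finset.card_univ, nsmul_eq_mul, abs_mul, Nat.abs_cast, abs_two, ← hβ] at h5
    have h6 : (0 : ℝ) < Fintype.card ι := by exact_mod_cast Fintype.card_pos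
    exact le_of_mul_le_mul_left (by linarith) h6
  have h5 : κ * η * β ≤ β := mul_le_of_le_one_left hβ0 (by nlinarith)
  have h6 := key i j col a
  have h7 : |if a = col then 2 * B i j else 0| ≤ 2 * β := by
    split_ifs
    · rw [abs_mul, abs_two]
      linarith [hB i j]
    · rw [abs_zero]
      linarith
  have h8 := mul_nonneg hη0 he
  have h9 := mul_nonneg hκ0 hρ0
  rw [abs_le] at h6 h7 ⊢
  constructor <;> nlinarith [h6.1, h6.2, h7.1, h7.2]

end Vale.Agent.P088
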