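import Vale.Agent.P088.TcTool

/-!
# P088, the sliding argument: the weighted bound from the Korn inequality
-/

open MeasureTheory Set Metric Filter
open scoped ContDiff Topology

noncomputable section
namespace Vale.Agent.P088
open Vale.Agent.P136

namespace TcE

variable {n : ℕ}

theorem CK_lin (t : ℝ) (d q : Fin n → Fin n → ℝ) (i j : Fin n) :
    CK (fun i j => -(t * d i j) - q i j) i j = -(t * CK d i j) - CK q i j := by
  unfold CK
  split_ifs
  · simp only [Finset.sum_sub_distrib, Finset.sum_neg_distrib, ← Finset.mul_sum]; ring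
  · ring

theorem CK_le (hn : 0 < n) {q : Fin n → Fin n → ℝ} {b : ℝ} (h : ∀ i j, |q i j| ≤ b) (i j : Fin n) :
    |CK q i j| ≤ 4 * b := by
  have hn' : (0 : ℝ) < n := by exact_mod_cast hn
  have h1 : |∑ l, q l l| ≤ n * b := (Finset.abs_sum_le_sum_abs _ _).trans
    ((Finset.sum_le_sum fun l _ => h l l).trans (by simp))
  have h2 : |2 / (n : ℝ) * ∑ l, q l l| ≤ 2 * b := by
    rw [abs_mul, abs_of_pos (by positivity : 0 < 2 / (n : ℝ))]
    calc _ ≤ 2 / (n : ℝ) * (n * b) := mul_le_mul_of_nonneg_left h1 (by positivity)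
      _ = _ := by field_simp
  have b0 : 0 ≤ b := (abs_nonneg _).trans (h i j)
  have := abs_le.1 (h i j)
  have := abs_le.1 (h j i)
  have := abs_le.1 h2
  unfold CK
  split_ifs <;> rw [abs_le] <;> constructor <;> linarith

theorem pw {I : Type} [Fintype I] (hn : 0 < n) {t b c η C E : ℝ} (ht : 0 ≤ t) (hc : 0 ≤ c)
    (hη : 0 ≤ η) (hC : 0 ≤ C) (hE : t * E ≤ C) {V : I → Fin n → ℝ} {d q : I → Fin n → Fin n → ℝ}
    (hq : ∀ s i j, |q s i j| ≤ b)
    (h : ∀ e₀ e₁ : ℝ, (∀ s j, |V s j| ≤ e₀) → (∀ s j i, |d s i j| ≤ e₁) → ∀ s i j,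
      |CK (d s) i j| ≤ E + c * e₀ + η * e₁) (s : I) (i j : Fin n) :
    CK (fun i j => -(t * d s i j) - q s i j) i j ^ 2 ≤ 3 * (C + (4 + η) * b) ^ 2 +
      3 * c ^ 2 * ∑ s, ∑ j, (t * V s j) ^ 2 +
      3 * η ^ 2 * ∑ s, ∑ i, ∑ j, (-(t * d s i j) - q s i j) ^ 2 := by
  set S0 := ∑ s, ∑ j, (t * V s j) ^ 2 with hS0
  set S1 := ∑ s, ∑ i, ∑ j, (-(t * d s i j) - q s i j) ^ 2 with hS1
  have n0 : 0 ≤ S0 := Finset.sum_nonneg fun _ _ => Finset.sum_nonneg fun _ _ => sq_nonneg _
  have n1 : 0 ≤ S1 := Finset.sum_nonneg fun _ _ => Finset.sum_nonneg fun _ _ =>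
    Finset.sum_nonneg fun _ _ => sq_nonneg _
  have b0 : 0 ≤ b := (abs_nonneg _).trans (hq s i j)
  have k0 : ∀ s j, |t * V s j| ≤ √S0 := fun s j => Real.abs_le_sqrt
    ((Finset.single_le_sum (f := fun j => (t * V s j) ^ 2) (fun _ _ => sq_nonneg _)
      (Finset.mem_univ j)).trans (Finset.single_le_sum (f := fun s => ∑ j, (t * V s j) ^ 2)
        (fun _ _ => Finset.sum_nonneg fun _ _ => sq_nonneg _) (Finset.mem_univ s)))
  have k1 : ∀ s i j, |-(t * d s i j) - q s i j| ≤ √S1 := fun s i j => Real.abs_le_sqrt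
    (((Finset.single_le_sum (f := fun j => (-(t * d s i j) - q s i j) ^ 2)
      (fun _ _ => sq_nonneg _) (Finset.mem_univ j)).trans
      (Finset.single_le_sum (f := fun i => ∑ j, (-(t * d s i j) - q s i j) ^ 2)
        (fun _ _ => Finset.sum_nonneg fun _ _ => sq_nonneg _) (Finset.mem_univ i))).trans
      (Finset.single_le_sum (f := fun s => ∑ i, ∑ j, (-(t * d s i j) - q s i j) ^ 2)
        (fun _ _ => Finset.sum_nonneg fun _ _ => Finset.sum_nonneg fun _ _ => sq_nonneg _)
        (Finset.mem_univ s)))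
  have r0 := Real.sqrt_nonneg S0
  have r1 := Real.sqrt_nonneg S1
  have k2 : |t * CK (d s) i j| ≤ C + c * √S0 + η * (√S1 + b) := by
    rcases ht.eq_or_lt with h0 | h0
    · rw [← h0]; simp; positivity
    · have h1 := h (√S0 / t) ((√S1 + b) / t) (fun s j => by
        rw [le_div_iff₀ h0, mul_comm, ← abs_of_pos h0, ← abs_mul]; exact k0 s j) (fun s j i => by
        rw [le_div_iff₀ h0, mul_comm, ← abs_of_pos h0, ← abs_mul]
        have := abs_le.1 (k1 s i j)
        have := abs_le.1 (hq s i j)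
        rw [abs_le]; constructor <;> linarith) s i j
      rw [abs_mul, abs_of_pos h0]
      calc _ ≤ t * (E + c * (√S0 / t) + η * ((√S1 + b) / t)) :=
            mul_le_mul_of_nonneg_left h1 ht
        _ = t * E + c * √S0 + η * (√S1 + b) := by field_simp
        _ ≤ _ := by linarith
  have k3 := abs_le.1 (CK_le hn (hq s) i j)
  have k4 := abs_le.1 k2
  have k5 : |CK (fun i j => -(t * d s i j) - q s i j) i j| ≤
      (C + (4 + η) * b) + c * √S0 + η * √S1 := by
    rw [CK_lin, abs_le]; constructor <;> linarith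
  have k6 := pow_le_pow_left₀ (abs_nonneg _) k5 2
  rw [sq_abs] at k6
  have e0 : (c * √S0) ^ 2 = c ^ 2 * S0 := by rw [mul_pow, Real.sq_sqrt n0]
  have e1 : (η * √S1) ^ 2 = η ^ 2 * S1 := by rw [mul_pow, Real.sq_sqrt n1]
  nlinarith [sq_nonneg (C + (4 + η) * b - c * √S0), sq_nonneg (C + (4 + η) * b - η * √S1),
    sq_nonneg (c * √S0 - η * √S1)]

theorem Dm_cut {θ φ f : En n → ℝ} {x : En n} (hθ : Sm θ) (hφ : Sm φ)
    (hf : DifferentiableAt ℝ f x) (v : En n) :
    Dm φ v (fun y => θ y * (Real.exp (φ y) * f y)) x =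
      -(θ x * Real.exp (φ x) * D v f x) - D v θ x * (Real.exp (φ x) * f x) := by
  simp only [Dm]
  rw [D_mul_at (hθ.dAt x) ((hφ.exp.dAt x).fun_mul hf), D_mul_at (hφ.exp.dAt x) hf,
    D_exp_at (hφ.dAt x)]
  ring

theorem tst_CK {a : Fin n → Fin n → En n → ℝ} (h : ∀ i j, Tst (a i j)) (i j : Fin n) :
    Tst (fun x => CK (fun i j => a i j x) i j) := by
  unfold CK
  split_ifs
  · exact ((h i j).add (h j i)).sub ((Tst.sum _ fun l _ => h l l).const_mul _)
  · exact ((h i j).add (h j i)).sub Tst.zero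

end TcE

open TcE in
theorem s_tcE (h : S_tcKorn) : S_tcE := by
  intro n hn I _
  obtain ⟨ε, ε0, hK⟩ := h n hn
  set N : ℝ := Fintype.card I * (n * n) with hN
  have N0 : 0 ≤ N := by positivity
  set η : ℝ := 1 / (27 * N + 1) with hη
  have η0 : 0 < η := by positivity
  have η1 : 27 * N * η ^ 2 ≤ 1 := by
    rw [hη, div_pow, one_pow, ← mul_div_assoc, mul_one, div_le_one (by positivity)]
    nlinarith
  refine ⟨η, ε, η0, ε0, fun c hc => ⟨27 * N * c ^ 2 + 1, fun r C₄ hr hC₄ => ?_⟩⟩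
  obtain ⟨K, K0, hcut⟩ := exists_cut n 1 (r := r / 2) (R := 3 * r / 4) (by positivity) (by linarith)
  set B : ℝ := 3 * (C₄ + (4 + η) * (K * C₄)) ^ 2 with hB
  refine ⟨9 * (N * B * volume.real (ball (0 : En n) r)), fun p φ V hφ hV H => ?_⟩
  obtain ⟨θ, tθ, sθ, θ01, θ1, θK⟩ := hcut p
  have sθ' : tsupport θ ⊆ ball p r := sθ.trans (closedBall_subset_ball (by linarith))
  set U : I → Fin n → En n → ℝ := fun s j y => θ y * (Real.exp (φ y) * V s j y) with hU
  have tU : ∀ s j, Tst (U s j) := fun s j =>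
    Tst.mul_on isOpen_ball tθ sθ' (hφ.exp.contDiffOn.mul (hV s j))
  have sU : ∀ s j, tsupport (U s j) ⊆ ball p r := fun s j =>
    (tsupport_mul_subset_left (f := θ)).trans sθ'
  have U0 : ∀ s j x, x ∉ ball p r → U s j x = 0 := fun s j x hx =>
    image_eq_zero_of_notMem_tsupport fun h => hx (sU s j h)
  have tS0 : Tst (fun x => ∑ s, ∑ j, U s j x ^ 2) :=
    Tst.sum _ fun s _ => Tst.sum _ fun j _ => (tU s j).sq
  have tS1 : Tst (fun x => ∑ s, ∑ i, ∑ j, Dm φ (ee i) (U s j) x ^ 2) :=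
    Tst.sum _ fun s _ => Tst.sum _ fun i _ => Tst.sum _ fun j _ => ((tU s j).Dm hφ _).sq
  have n0 : ∀ x, 0 ≤ ∑ s, ∑ j, U s j x ^ 2 := fun x =>
    Finset.sum_nonneg fun _ _ => Finset.sum_nonneg fun _ _ => sq_nonneg _
  have n1 : ∀ x, 0 ≤ ∑ s, ∑ i, ∑ j, Dm φ (ee i) (U s j) x ^ 2 := fun x =>
    Finset.sum_nonneg fun _ _ => Finset.sum_nonneg fun _ _ =>
      Finset.sum_nonneg fun _ _ => sq_nonneg _
  have tL : ∀ s, Tst (fun x => ∑ i, ∑ j, Dm φ (ee i) (U s j) x ^ 2 +
      (∑ m, D (ee m) φ x ^ 2) * ∑ j, U s j x ^ 2) := fun s =>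
    (Tst.sum _ fun i _ => Tst.sum _ fun j _ => ((tU s j).Dm hφ (ee i)).sq).add
      (Tst.mul_left (Sm.sum fun m _ => (hφ.D _).pow 2) (Tst.sum _ fun j _ => (tU s j).sq))
  have tR : ∀ s, Tst (fun x => ∑ i, ∑ j, CK (fun i j => Dm φ (ee i) (U s j) x) i j ^ 2) := fun s =>
    Tst.sum _ fun i _ => Tst.sum _ fun j _ => (tst_CK (fun i j => (tU s j).Dm hφ (ee i)) i j).sq
  have k1 := Finset.sum_le_sum fun s (_ : s ∈ Finset.univ) => hK φ (U s) hφ (tU s)
    fun x j hx => (H x (by by_contra h; exact hx (U0 s j x h))).1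
  rw [← Finset.mul_sum, ← integral_finsetSum _ fun s _ => (tL s).integrable,
    ← integral_finsetSum _ fun s _ => (tR s).integrable] at k1
  have iB : Integrable ((ball p r).indicator fun _ => N * B) :=
    (integrableOn_const measure_ball_lt_top.ne).integrable_indicator measurableSet_ball
  have k2 : ∫ x, ∑ s, ∑ i, ∑ j, CK (fun i j => Dm φ (ee i) (U s j) x) i j ^ 2 ≤
      ∫ x, ((ball p r).indicator (fun _ => N * B) x + 3 * N * c ^ 2 * ∑ s, ∑ j, U s j x ^ 2 +
        3 * N * η ^ 2 * ∑ s, ∑ i, ∑ j, Dm φ (ee i) (U s j) x ^ 2) := by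
    refine integral_mono (Tst.sum _ fun s _ => tR s).integrable
      ((iB.add (tS0.const_mul _).integrable).add (tS1.const_mul _).integrable) fun x => ?_
    by_cases hx : x ∈ ball p r
    · obtain ⟨_, _, H3, H4⟩ := H x hx
      have e1 : ∀ s i j, Dm φ (ee i) (U s j) x = -(θ x * Real.exp (φ x) * D (ee i) (V s j) x) -
          D (ee i) θ x * (Real.exp (φ x) * V s j x) := fun s i j =>
        Dm_cut tθ.sm hφ (dAt_of_on isOpen_ball (hV s j) hx) _
      have e2 : ∀ s j, U s j x = θ x * Real.exp (φ x) * V s j x := fun s j => by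
        simp only [hU]; ring
      have hq : ∀ s i j, |D (ee i) θ x * (Real.exp (φ x) * V s j x)| ≤ K * C₄ := by
        intro s i j
        by_cases h2 : r / 2 ≤ ‖x - p‖
        · rw [abs_mul, abs_mul, abs_of_pos (Real.exp_pos _)]
          exact mul_le_mul ((θK x).D i).abs_le (H4 h2 s j) (by positivity) K0
        · have : θ =ᶠ[𝓝 x] fun _ => 1 := by
            filter_upwards [isOpen_ball.mem_nhds (mem_ball_iff_norm.2 (not_le.1 h2))] with y hy
              using θ1 y (ball_subset_closedBall hy)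
          rw [D_congr this, D_const]; simp; positivity
      have hE : θ x * Real.exp (φ x) * (C₄ * Real.exp (-φ x)) ≤ C₄ := by
        rw [Real.exp_neg]
        have := Real.exp_pos (φ x)
        calc _ = θ x * C₄ := by field_simp
          _ ≤ _ := mul_le_of_le_one_left hC₄ (θ01 x).2
      have k := pw (by omega) (mul_nonneg (θ01 x).1 (Real.exp_pos _).le) hc η0.le hC₄ hE
        (V := fun s j => V s j x) (d := fun s i j => D (ee i) (V s j) x) hq H3
      simp only [indicator_of_mem hx, e1, e2]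
      refine (Finset.sum_le_sum fun s _ => Finset.sum_le_sum fun i _ =>
        Finset.sum_le_sum fun j _ => k s i j).trans (le_of_eq ?_)
      simp only [Finset.sum_const, Finset.card_univ, Fintype.card_fin, nsmul_eq_mul]
      rw [hN, hB]; ring
    · have e1 : ∀ s i j, Dm φ (ee i) (U s j) x = 0 := fun s i j =>
        image_eq_zero_of_notMem_tsupport fun h => hx (sU s j (tsupport_Dm φ _ _ h))
      simp [indicator_of_notMem hx, e1, U0 _ _ x hx, CK]
  have k3 : ∫ x, (∑ s, ∑ i, ∑ j, Dm φ (ee i) (U s j) x ^ 2 +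
      (27 * N * c ^ 2 + 1) * ∑ s, ∑ j, U s j x ^ 2) ≤ ∫ x, ∑ s, (∑ i, ∑ j,
        Dm φ (ee i) (U s j) x ^ 2 + (∑ m, D (ee m) φ x ^ 2) * ∑ j, U s j x ^ 2) := by
    refine integral_mono (tS1.add (tS0.const_mul _)).integrable
      (Tst.sum _ fun s _ => tL s).integrable fun x => ?_
    simp only [Finset.sum_add_distrib, ← Finset.mul_sum]
    by_cases hx : x ∈ ball p r
    · exact add_le_add le_rfl (mul_le_mul_of_nonneg_right (H x hx).2.1 (n0 x))
    · simp [U0 _ _ x hx]
  rw [integral_add tS1.integrable (tS0.const_mul _).integrable, integral_const_mul] at k3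
  rw [integral_add (iadd iB (tS0.const_mul _).integrable) (tS1.const_mul _).integrable,
    integral_add iB (tS0.const_mul _).integrable, integral_const_mul, integral_const_mul,
    integral_indicator_const _ measurableSet_ball, smul_eq_mul] at k2
  have k4 : volume.real (ball p r) = volume.real (ball (0 : En n) r) := by
    simp only [Measure.real]; rw [Measure.addHaar_ball_center]
  have k5 : 0 ≤ ∫ x, ∑ s, ∑ i, ∑ j, Dm φ (ee i) (U s j) x ^ 2 := integral_nonneg n1
  refine ⟨fun x => ∑ s, ∑ j, U s j x ^ 2, tS0.integrable.integrableOn,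
    (setIntegral_le_integral tS0.integrable (Eventually.of_forall n0)).trans ?_, fun x hx s j => ?_⟩
  · rw [k4] at k2
    have := mul_le_mul_of_nonneg_right η1 k5
    nlinarith
  · have e : U s j x = Real.exp (φ x) * V s j x := by
      simp only [hU, θ1 x (ball_subset_closedBall hx), one_mul]
    rw [← e]
    exact (Finset.single_le_sum (f := fun j => U s j x ^ 2) (fun _ _ => sq_nonneg _)
      (Finset.mem_univ j)).trans (Finset.single_le_sum (f := fun s => ∑ j, U s j x ^ 2)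
        (fun _ _ => Finset.sum_nonneg fun _ _ => sq_nonneg _) (Finset.mem_univ s))

end Vale.Agent.P088
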