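import Vale.Agent.P088.TcTool

/-!
# P088, the sliding argument: finite differences
-/

open MeasureTheory Set Metric Filter
open scoped ContDiff Topology

noncomputable section
namespace Vale.Agent.P088
open Vale.Agent.P136

namespace TcFd

theorem oneD (k : ℕ) : ∀ (G : ℕ → ℝ → ℝ) (B : ℝ),
    (∀ j, ∀ t ∈ Icc (0 : ℝ) k, HasDerivAt (G j) (G (j + 1) t) t) →
    (∀ t ∈ Icc (0 : ℝ) k, |G k t| ≤ B) →
    |∑ j ∈ Finset.range (k + 1), (-1) ^ j * (k.choose j : ℝ) * G 0 j| ≤ B := by
  induction k with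
  | zero =>
    intro G B _ h
    simpa using h 0 (by simp)
  | succ k ih =>
    intro G B hd hb
    have m0 : ∀ t ∈ Icc (0 : ℝ) k, t ∈ Icc (0 : ℝ) (k + 1 : ℕ) := fun t ht =>
      ⟨ht.1, by push_cast; linarith [ht.2]⟩
    have m1 : ∀ t ∈ Icc (0 : ℝ) k, t + 1 ∈ Icc (0 : ℝ) (k + 1 : ℕ) := fun t ht =>
      ⟨by linarith [ht.1], by push_cast; linarith [ht.2]⟩
    have h1 := ih (fun j t => G j t - G j (t + 1)) B
      (fun j t ht => (hd j t (m0 t ht)).fun_sub ((hd j (t + 1) (m1 t ht)).comp_add_const t 1))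
      (fun t ht => by
        have h2 := Convex.norm_image_sub_le_of_norm_hasDerivWithin_le (f := G k)
          (f' := G (k + 1)) (s := Icc 0 (k + 1 : ℕ)) (C := B)
          (fun x hx => (hd k x hx).hasDerivWithinAt) hb (convex_Icc _ _) (m1 t ht) (m0 t ht)
        simpa using h2)
    refine le_trans (le_of_eq ?_) h1
    have h3 := Finset.sum_choose_succ_mul (fun i _ => (-1 : ℝ) ^ i * G 0 i) k
    congr 1
    rw [Finset.sum_congr rfl fun j _ => show (-1 : ℝ) ^ j * ((k + 1).choose j : ℝ) * G 0 j =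
      ((k + 1).choose j : ℝ) * ((-1) ^ j * G 0 j) by ring, h3, ← Finset.sum_add_distrib]
    refine Finset.sum_congr rfl fun j _ => ?_
    push_cast
    ring

end TcFd

theorem s_tcFd : S_tcFd := by
  intro n k f x y r A hf hk hb
  have hm : ∀ t ∈ Icc (0 : ℝ) k, x + t • y ∈ ball x r := fun t ht => by
    rw [mem_ball_iff_norm, add_sub_cancel_left, norm_smul, Real.norm_of_nonneg ht.1]
    exact lt_of_le_of_lt (mul_le_mul_of_nonneg_right ht.2 (norm_nonneg _)) hk
  have hc : ∀ t ∈ Icc (0 : ℝ) k, ContDiffAt ℝ ∞ f (x + t • y) := fun t ht =>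
    hf.contDiffAt (isOpen_ball.mem_nhds (hm t ht))
  have h1 := TcFd.oneD k
    (fun j s => Ds (fun _ : Unit => y) (List.replicate j ()) f (x + s • y))
    (max A 0 * (n * ‖y‖) ^ k) (fun j s hs => by
      have h1 : HasDerivAt (fun s : ℝ => x + s • y) y s := by
        simpa using ((hasDerivAt_id s).smul_const y).const_add x
      have h2 := ((SbAlg.Ds_cd (v := fun _ : Unit => y) (hc s hs)
        (List.replicate j ())).differentiableAt (by simp)).hasFDerivAt
      exact h2.comp_hasDerivAt s h1) (fun s hs => by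
      have := SbLin.lin (v := fun _ : Unit => y) (v' := ee) (ContinuousLinearMap.id ℝ (En n)) 0
        (t := fun _ i => y i) (A := n * ‖y‖) (p := x + s • y) (fun _ => (Tc.sum_ee y).symm)
        (fun _ => Tc.sum_abs_le y) (List.replicate k ()) f (max A 0) (le_max_right _ _)
        (by simpa using hc s hs) (fun l hl => by
          rw [ContinuousLinearMap.id_apply, add_zero]
          exact (hb _ (hm s hs) l (by simpa using hl)).trans (le_max_left _ _))
      simpa using this)
  refine le_trans h1 ?_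
  rcases le_or_gt 0 A with hA | hA
  · rw [max_eq_left hA]
  · have h0 : x + (0 : ℝ) • y ∈ ball x r := hm 0 ⟨le_rfl, Nat.cast_nonneg k⟩
    have h2 : ∀ l : List (Fin n), l.length ≠ k := fun l hl =>
      absurd ((abs_nonneg _).trans (hb _ h0 l hl)) (not_le.2 hA)
    have h3 : k ≠ 0 := fun h => h2 [] h.symm
    have h4 : n = 0 := by
      by_contra h
      exact h2 (List.replicate k ⟨0, Nat.pos_of_ne_zero h⟩) (by simp)
    have h5 : ((n : ℝ) * ‖y‖) ^ k = 0 := by
      rw [show (n : ℝ) = 0 by exact_mod_cast h4, zero_mul, zero_pow h3]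
    rw [h5, mul_zero, mul_zero]

end Vale.Agent.P088
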