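import Vale.Agent.P088.TcTool

/-!
# P088, the sliding argument: vanishing to infinite order at the touching point
-/

open MeasureTheory Set Metric Filter
open scoped ContDiff Topology

noncomputable section
namespace Vale.Agent.P088
open Vale.Agent.P136

namespace TcInit

variable {n : ℕ} {p : En n}

theorem ray_mem (hp : ‖p‖ = 1) {t : ℝ} (h0 : 0 < t) (h1 : t < 3 / 4) : (1 + t) • p ∈ O0 p := by
  refine ⟨?_, fun h => ?_⟩
  · rw [mem_ball, dist_eq_norm, add_smul, one_smul, add_sub_cancel_left, norm_smul, hp,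
      Real.norm_of_nonneg h0.le]
    linarith
  · rw [mem_closedBall, dist_eq_norm, ← sub_smul, norm_smul, hp,
      Real.norm_of_nonneg (by linarith)] at h
    linarith

theorem zero_at (hp : ‖p‖ = 1) {f : En n → ℝ} (hf : ContinuousAt f p) (h : ∀ x ∈ O0 p, f x = 0) :
    f p = 0 := by
  have h1 : Tendsto (fun t : ℝ => (1 + t) • p) (𝓝[>] 0) (𝓝 p) := by
    have h2 : Continuous fun t : ℝ => (1 + t) • p := by fun_prop
    have h3 := h2.tendsto 0
    rw [add_zero, one_smul] at h3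
    exact h3.mono_left nhdsWithin_le_nhds
  refine tendsto_nhds_unique (hf.tendsto.comp h1) (tendsto_const_nhds.congr' ?_)
  filter_upwards [Ioo_mem_nhdsGT (show (0 : ℝ) < 3 / 4 by norm_num)] with t ht
  exact (h _ (ray_mem hp ht.1 ht.2)).symm

end TcInit

theorem s_tcInit : S_tcInit := by
  intro n ι _ _ M N
  set k := 2 * (N + 1) with hk
  set A := |M (k + 8) + M (k + 8)| with hA
  have hA0 : 0 ≤ A := abs_nonneg _
  refine ⟨A * (2 * (n : ℝ) ^ 2) ^ (N + 1) + 1, by positivity,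
    fun om L₁ L₂ p W₁ W₂ h x hx hx' s col a l hl => ?_⟩
  have hz : ∀ l : List (Fin n), Ds ee l (EE W₁ W₂ s col a) p = 0 := fun l =>
    TcInit.zero_at h.hp (contDiffAt_Ds (h.cdE (Tc.p_U0 p) s col a) l).continuousAt fun y hy => by
      rw [(Ds_congr (h.E_ev hy s col a) l).eq_of_nhds, Ds_zero]
  have h1 := Tc.taylor (Tc.isOpen_U0 p) (convex_ball p _)
    (contDiffOn_Ds (v := ee) (Tc.isOpen_U0 p) (h.onE s col a) l) (Tc.p_U0 p) hx (k := k) (by omega) hA0
    (fun z hz l' hl' => by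
      rw [← Ds_append]
      have h2 := h.bdE hz (k + 8) s col a (l' ++ l) (by rw [List.length_append]; omega)
      rw [one_pow, mul_one] at h2
      exact h2.trans (le_abs_self _))
    (fun l' _ _ => by rw [← Ds_append, hz])
  rw [hz, sub_zero] at h1
  have h2 := Tc.notO0 h.hp hx hx'
  have h3 : 0 ≤ 1 - ‖x‖ ^ 2 := by nlinarith [sq_nonneg ‖x - p‖]
  have h4 : 1 - ‖x‖ ^ 2 ≤ 1 := by nlinarith [sq_nonneg ‖x‖]
  have h5 : ((n : ℝ) * ‖x - p‖) ^ k ≤ (2 * (n : ℝ) ^ 2) ^ (N + 1) * (1 - ‖x‖ ^ 2) ^ N := by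
    rw [hk, pow_mul]
    refine (pow_le_pow_left₀ (sq_nonneg _) (b := 2 * (n : ℝ) ^ 2 * (1 - ‖x‖ ^ 2)) ?_ _).trans ?_
    · rw [mul_pow]
      nlinarith [mul_le_mul_of_nonneg_left h2 (sq_nonneg (n : ℝ))]
    · rw [mul_pow]
      exact mul_le_mul_of_nonneg_left (pow_le_pow_of_le_one h3 h4 (Nat.le_succ N)) (by positivity)
  rw [one_pow, mul_one]
  refine h1.trans ((mul_le_mul_of_nonneg_left h5 hA0).trans ?_)
  rw [← mul_assoc]
  exact mul_le_mul_of_nonneg_right (by linarith) (pow_nonneg h3 _)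

end Vale.Agent.P088
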