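import Vale.Agent.P088.TcTool

/-!
# P088, the sliding argument: the interpolation inequality
-/

open MeasureTheory Set Metric Filter
open scoped ContDiff Topology

noncomputable section
namespace Vale.Agent.P088
open Vale.Agent.P136

namespace TcInt

variable {n : ℕ}

theorem test (n m : ℕ) : ∃ (ψ : En n → ℝ) (K : ℝ), IsTest (ball 0 1) ψ ∧ (∀ y, 0 ≤ ψ y) ∧
    ∫ y in ball 0 1, ψ y = 1 ∧ 0 ≤ K ∧ ∀ y, SB ee m K 1 ψ y := by
  let θ : ContDiffBump (0 : En n) := ⟨1 / 4, 1 / 2, by norm_num, by norm_num⟩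
  have h0 : Tst (θ.normed volume) := ⟨θ.contDiff_normed, θ.hasCompactSupport_normed⟩
  have h1 : IsTest (ball 0 1) (θ.normed volume) := ⟨h0, by
    rw [θ.tsupport_normed_eq]
    exact closedBall_subset_ball (by norm_num [θ])⟩
  obtain ⟨K, hK, hb⟩ := exists_SB_tst ee h0 m
  exact ⟨_, K, h1, θ.nonneg_normed, by rw [h1.setIntegral, θ.integral_normed], hK, hb⟩

theorem ibp {U : Set (En n)} {f ψ : En n → ℝ} (hU : IsOpen U) (hf : ContDiffOn ℝ ∞ f U)
    (hψ : IsTest U ψ) (l : List (Fin n)) :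
    |∫ x in U, Ds ee l f x * ψ x| = |∫ x in U, f x * Ds ee l.reverse ψ x| := by
  induction l generalizing ψ with
  | nil => rfl
  | cons i l ih =>
    rw [List.reverse_cons, Ds_snoc, ← ih (hψ.D _), weak_ibp hU (contDiffOn_Ds hU hf l) hψ, abs_neg,
      Ds_cons]

theorem term {m : ℕ} {f ψ : En n → ℝ} {x : En n} {K e t c : ℝ} (hψ : IsTest (ball 0 1) ψ)
    (hK : ∀ y, SB ee m K 1 ψ y) (hf : ContDiffOn ℝ ∞ f (ball x e))
    (hi : IntegrableOn f (ball x e)) (hc : 0 < c) (hc1 : c ≤ 1) (hct : c ≤ t) (hte : t ≤ e)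
    {l : List (Fin n)} (hl : l.length ≤ m) :
    |∫ y in ball 0 1, sc x t (Ds ee l f) y * ψ y| ≤
      K * (∫ y in ball x e, |f y|) / c ^ (m + n) := by
  have ht : 0 < t := hc.trans_le hct
  have hK0 : 0 ≤ K := (hK 0).nonneg
  have hs : ball x (t * 1) ⊆ ball x e := ball_subset_ball (by linarith)
  have hF : ContDiffOn ℝ ∞ (sc x t f) (ball 0 1) :=
    on_sc hf fun z hz => hs ((mem_ball_sc ht).2 hz)
  have h1 := ibp isOpen_ball hF hψ l
  simp only [Ds_sc, mul_assoc] at h1
  rw [integral_const_mul, abs_mul, abs_of_pos (pow_pos ht _)] at h1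
  have hia : IntegrableOn (fun y => |f y|) (ball x e) := hi.abs
  have h2 : |∫ y in ball 0 1, sc x t f y * Ds ee l.reverse ψ y| ≤
      ∫ y in ball 0 1, K * sc x t (fun y => |f y|) y := by
    refine abs_integral_le_integral_abs.trans (setIntegral_mono_on
      (iOn isOpen_ball hF (hψ.Ds _)).abs
      ((integrableOn_sc ht (hia.mono_set hs)).const_mul K) measurableSet_ball fun y _ => ?_)
    rw [abs_mul, mul_comm]
    exact mul_le_mul_of_nonneg_right ((hK y).le (by simpa using hl)) (abs_nonneg _)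
  rw [integral_const_mul, integral_sc ht] at h2
  have h3 : ∫ y in ball x (t * 1), |f y| ≤ ∫ y in ball x e, |f y| :=
    setIntegral_mono_set hia (.of_forall fun y => abs_nonneg _) hs.eventuallyLE
  have h4 : c ^ (m + n) ≤ t ^ l.length * t ^ n := by
    rw [← pow_add]
    exact (pow_le_pow_of_le_one hc.le hc1 (by omega)).trans (pow_le_pow_left₀ hc.le hct _)
  rw [le_div_iff₀ (pow_pos hc _)]
  refine (mul_le_mul_of_nonneg_left h4 (abs_nonneg _)).trans ?_
  rw [← mul_assoc, mul_comm _ (t ^ l.length), h1]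
  refine (mul_le_mul_of_nonneg_right h2 (pow_pos ht _).le).trans ?_
  rw [mul_assoc, mul_comm _ (t ^ n), ← mul_assoc (t ^ n), mul_inv_cancel₀ (pow_pos ht _).ne',
    one_mul]
  exact mul_le_mul_of_nonneg_left h3 hK0

end TcInt

theorem s_tcInt (h : S_tcFd) : S_tcInt := by
  intro n m k
  obtain ⟨ψ, K, hψ, h0, h1, hK0, hK⟩ := TcInt.test n m
  set S : ℝ := ∑ j ∈ Finset.range k, (k.choose (j + 1) : ℝ) with hS
  have hS0 : 0 ≤ S := Finset.sum_nonneg fun _ _ => Nat.cast_nonneg _
  refine ⟨S * K * (k + 1) ^ (m + n) + n ^ k, by positivity, fun f x e A he he1 hf hb => ?_⟩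
  refine SB_one.2 fun l hl => ?_
  have hA : 0 ≤ A := (hb x (mem_ball_self he)).nonneg
  have hi : IntegrableOn f (ball x e) :=
    ⟨hf.continuousOn.aestronglyMeasurable measurableSet_ball,
      .restrict_of_bounded (C := A) measure_ball_lt_top
        ((ae_restrict_iff' measurableSet_ball).2 (.of_forall fun y hy => (hb y hy).abs_le))⟩
  set I : ℝ := ∫ y in ball x e, |f y| with hI
  have hI0 : 0 ≤ I := integral_nonneg fun _ => abs_nonneg _
  have hk : (0 : ℝ) < k + 1 := by positivity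
  set c : ℝ := e / (k + 1) with hc
  have hc0 : 0 < c := by positivity
  have hce : c * (k + 1) = e := div_mul_cancel₀ _ hk.ne'
  have hk0 : (0 : ℝ) ≤ k := Nat.cast_nonneg _
  have hcl : c ≤ e := by nlinarith
  have hg := contDiffOn_Ds (v := ee) isOpen_ball hf l
  have hj : ∀ j ∈ Finset.range (k + 1), (j : ℝ) * c < e := fun j hj => by
    have : (j : ℝ) ≤ k := by exact_mod_cast Nat.lt_succ_iff.1 (Finset.mem_range.1 hj)
    nlinarith
  have hF : ∀ j ∈ Finset.range (k + 1),
      ContDiffOn ℝ ∞ (sc x (j * c) (Ds ee l f)) (ball 0 1) := fun j hj' =>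
    on_sc hg fun z hz => by
      rw [mem_ball_iff_norm, add_sub_cancel_left, norm_smul, Real.norm_of_nonneg (by positivity)]
      exact (mul_le_of_le_one_right (by positivity) (mem_ball_zero_iff.1 hz).le).trans_lt (hj j hj')
  have h2 : |∑ j ∈ Finset.range (k + 1), (-1) ^ j * (k.choose j : ℝ) *
      ∫ y in ball 0 1, sc x (j * c) (Ds ee l f) y * ψ y| ≤ A * (n * e) ^ k := by
    simp only [← integral_const_mul]
    rw [← integral_finsetSum _ fun j hj' => (iOn isOpen_ball (hF j hj') hψ).const_mul _]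
    refine abs_integral_le_integral_abs.trans ((setIntegral_mono_on
      (integrable_finsetSum _ fun j hj' => (iOn isOpen_ball (hF j hj') hψ).const_mul _).abs
      (hψ.1.integrable.integrableOn.const_mul (A * (n * e) ^ k)) measurableSet_ball
      fun y hy => ?_).trans (le_of_eq ?_))
    · have hy' : ‖c • y‖ ≤ c := by
        rw [norm_smul, Real.norm_of_nonneg hc0.le]
        exact mul_le_of_le_one_right hc0.le (mem_ball_zero_iff.1 hy).le
      have h3 := h n k (Ds ee l f) x (c • y) e A hg (by nlinarith) fun z hz l' hl' => by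
        rw [← Ds_append]
        exact (hb z hz).le (by rw [List.length_append]; omega)
      simp only [← mul_assoc, ← Finset.sum_mul, abs_mul, abs_of_nonneg (h0 y), sc, mul_smul]
      refine mul_le_mul_of_nonneg_right (h3.trans ?_) (h0 y)
      have := hy'.trans hcl
      gcongr
    · rw [integral_const_mul, h1, mul_one]
  rw [Finset.sum_range_succ'] at h2
  have h3 : ∫ y in ball 0 1, sc x (((0 : ℕ) : ℝ) * c) (Ds ee l f) y * ψ y = Ds ee l f x := by
    simp only [sc, Nat.cast_zero, zero_mul, zero_smul, add_zero]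
    rw [integral_const_mul, h1, mul_one]
  rw [h3] at h2
  have h4 : |∑ j ∈ Finset.range k, (-1) ^ (j + 1) * (k.choose (j + 1) : ℝ) *
      ∫ y in ball 0 1, sc x (((j + 1 : ℕ) : ℝ) * c) (Ds ee l f) y * ψ y| ≤
      S * (K * I / c ^ (m + n)) := by
    rw [hS, Finset.sum_mul]
    refine (Finset.abs_sum_le_sum_abs _ _).trans (Finset.sum_le_sum fun j hj' => ?_)
    rw [abs_mul, abs_mul, abs_pow, abs_neg, abs_one, one_pow, one_mul, Nat.abs_cast]
    refine mul_le_mul_of_nonneg_left (TcInt.term hψ hK hf hi hc0 (hcl.trans he1) ?_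
      (hj _ (Finset.mem_range.2 (Nat.succ_lt_succ (Finset.mem_range.1 hj')))).le hl)
      (Nat.cast_nonneg _)
    exact le_mul_of_one_le_left hc0.le (by exact_mod_cast Nat.succ_pos j)
  have h5 : S * (K * I / c ^ (m + n)) = S * K * (k + 1) ^ (m + n) * (I / e ^ (m + n)) := by
    rw [hc, div_pow]
    field_simp
  simp only [pow_zero, Nat.choose_zero_right, Nat.cast_one, one_mul] at h2
  have h6 : 0 ≤ S * K * (k + 1) ^ (m + n) * (e ^ k * A) := by positivity
  have h7 : 0 ≤ (n : ℝ) ^ k * (I / e ^ (m + n)) := by positivity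
  rw [mul_pow] at h2
  rw [abs_le] at h2 h4 ⊢
  constructor <;> nlinarith [h2.1, h2.2, h4.1, h4.2]

end Vale.Agent.P088
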