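import Vale.Agent.P088.TcTool

open MeasureTheory Set Metric Filter
open scoped ContDiff Topology

noncomputable section
namespace Vale.Agent.P088
open Vale.Agent.P136

namespace TcInv

variable {n : ℕ} {I : Type} [Fintype I] [DecidableEq I]

theorem cd_det {M : En n → Matrix I I ℝ} {x : En n}
    (h : ∀ i j, ContDiffAt ℝ ∞ (fun x => M x i j) x) : ContDiffAt ℝ ∞ (fun x => (M x).det) x := by
  simp only [Matrix.det_apply']
  exact ContDiffAt.sum fun σ _ => contDiffAt_const.mul (contDiffAt_prod fun i _ => h _ _)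

theorem cd_inv {M : En n → Matrix I I ℝ} {x : En n}
    (h : ∀ i j, ContDiffAt ℝ ∞ (fun x => M x i j) x) (hd : (M x).det ≠ 0) (i j : I) :
    ContDiffAt ℝ ∞ (fun x => (M x)⁻¹ i j) x := by
  simp only [Matrix.inv_def, Ring.inverse_eq_inv', Matrix.smul_apply, smul_eq_mul,
    Matrix.adjugate_apply]
  refine ((cd_det h).inv hd).mul (cd_det (M := fun x => (M x).updateRow j (Pi.single i 1))
    fun a b => ?_)
  simp only [Matrix.updateRow_apply]
  split_ifs
  · exact contDiffAt_const
  · exact h a b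

theorem det_ne {A : Matrix I I ℝ}
    (h : ∀ i j, |A i j - if i = j then 1 else 0| * (2 * Fintype.card I) ≤ 1) : A.det ≠ 0 := by
  refine det_ne_zero_of_sum_row_lt_diag fun a => ?_
  have hN : (1 : ℝ) ≤ Fintype.card I := by
    exact_mod_cast Fintype.card_pos_iff.2 ⟨a⟩
  have h0 : ∀ j, |A a j - if a = j then 1 else 0| ≤ 1 / (2 * Fintype.card I) := fun j => by
    rw [le_div_iff₀ (by positivity)]
    exact h a j
  have h1 : ∑ j ∈ Finset.univ.erase a, ‖A a j‖ ≤
      (Fintype.card I - 1) * (1 / (2 * Fintype.card I)) := by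
    refine (Finset.sum_le_card_nsmul _ _ (1 / (2 * Fintype.card I) : ℝ) fun j hj => ?_).trans ?_
    · have := h0 j
      rw [if_neg (Finset.ne_of_mem_erase hj).symm, sub_zero] at this
      exact this
    · rw [nsmul_eq_mul, Finset.cast_card_erase_of_mem (Finset.mem_univ a), Finset.card_univ]
  have h2 := h0 a
  rw [if_pos rfl] at h2
  have h3 : 1 - 1 / (2 * Fintype.card I) ≤ ‖A a a‖ := by
    have := le_abs_self (A a a)
    have := (abs_le.1 h2).1
    show _ ≤ |A a a|
    linarith
  have h4 : (Fintype.card I : ℝ) * (1 / (2 * Fintype.card I)) = 1 / 2 := by field_simp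
  linarith

end TcInv

open TcInv in
theorem s_tcInv : S_tcInv := by
  intro n I _ _ M
  set N : ℝ := (Fintype.card I : ℝ) with hN
  have hN0 : 0 ≤ N := Nat.cast_nonneg _
  refine ⟨fun k => 2 * 2 * max 1 (N * (2 * (M k + M k)) * (2 * (N + 1) * 2 ^ k)) ^ k, ?_⟩
  intro U J hU hJ hb
  let A : En n → Matrix I I ℝ := fun x => Matrix.of fun a b => J a b x
  have hd : ∀ x ∈ U, IsUnit (A x).det := fun x hx =>
    isUnit_iff_ne_zero.2 (det_ne fun i j => (hb x hx i j).1)
  have hJ' : ∀ x ∈ U, ∀ i j, ContDiffAt ℝ ∞ (J i j) x := fun x hx i j =>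
    (hJ i j).contDiffAt (hU.mem_nhds hx)
  have hG : ∀ x ∈ U, ∀ i j, ContDiffAt ℝ ∞ (fun y => (A y)⁻¹ i j) x := fun x hx =>
    cd_inv (hJ' x hx) (hd x hx).ne_zero
  refine ⟨fun i j x => (A x)⁻¹ i j, fun i j x hx => (hG x hx i j).contDiffWithinAt,
    fun x hx i j => ⟨?_, fun k => ?_⟩⟩
  · have := congrFun (congrFun (Matrix.mul_nonsing_inv _ (hd x hx)) i) j
    rwa [Matrix.mul_apply, Matrix.one_apply] at this
  have hN1 : (1 : ℝ) ≤ N := by
    rw [hN]
    exact_mod_cast Fintype.card_pos_iff.2 ⟨i⟩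
  have h2 : ∀ a b, |(A x)⁻¹ a b| ≤ 2 := by
    intro a b
    have h := Tc.fix (x := x) (k := 0) (w := 1) (L := 1) (η := 1 / (2 * N))
      (u := fun a y => (A y)⁻¹ a b) (R := fun a _ => (1 : Matrix I I ℝ) a b)
      (A := fun a l y => (1 - A y) a l) le_rfl (fun a => hG x hx a b)
      (fun _ => contDiffAt_const) (fun a l => contDiffAt_const.sub (hJ' x hx a l))
      (fun a => ?_) (fun a => SB.zero ?_) (fun a l => SB.zero ?_) ?_ a
    · simpa using h.abs_le
    · filter_upwards [hU.mem_nhds hx] with y hy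
      rw [← Matrix.mul_apply, sub_mul, one_mul, Matrix.mul_nonsing_inv _ (hd y hy)]
      simp
    · rw [Matrix.one_apply]
      split_ifs <;> simp
    · rw [le_div_iff₀ (by positivity), Matrix.sub_apply, abs_sub_comm, Matrix.one_apply]
      exact (hb x hx a l).1
    · rw [← hN]
      exact le_of_eq (by field_simp)
  set L : ℝ := max 1 (N * (2 * (M k + M k)) * (2 * (N + 1) * 2 ^ k)) with hL
  have hL1 : 1 ≤ L := le_max_left _ _
  have hc : ∀ l b, ContDiffAt ℝ ∞ (fun y => J l b x - J l b y) x := fun l b =>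
    contDiffAt_const.sub (hJ' x hx l b)
  have h := Tc.fix (x := x) (k := k) (w := 2) (L := L) (η := 1 / (2 * (N + 1) * 2 ^ k))
    (u := fun a y => (A y)⁻¹ a j) (R := fun a _ => (A x)⁻¹ a j)
    (A := fun a b y => ∑ l, (A x)⁻¹ a l * (J l b x - J l b y)) hL1 (fun a => hG x hx a j)
    (fun _ => contDiffAt_const)
    (fun a b => ContDiffAt.sum fun l _ => contDiffAt_const.mul (hc l b))
    (fun a => ?_) (fun a => ?_) (fun a b => ?_) ?_ i
  · exact Tc.sb_unscale h hL1
  · filter_upwards [hU.mem_nhds hx] with y hy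
    have e : (A y)⁻¹ = (A x)⁻¹ + (A x)⁻¹ * (A x - A y) * (A y)⁻¹ := by
      rw [mul_sub, Matrix.nonsing_inv_mul _ (hd x hx), sub_mul, one_mul, mul_assoc,
        Matrix.mul_nonsing_inv _ (hd y hy), mul_one]
      abel
    have := congrFun (congrFun e a) j
    rw [this, Matrix.add_apply, Matrix.mul_apply]
    rfl
  · exact SbAlg.mono (by linarith) (SbAlg.const (by linarith) _) le_rfl (h2 a j) le_rfl
  · have h3 : ∀ l, SB ee k (2 * (M k + M k)) 1
        (fun y => (A x)⁻¹ a l * (J l b x - J l b y)) x := by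
      intro l
      have h4 := (hb x hx l b).2 k
      have h5 := SbAlg.sub contDiffAt_const (hJ' x hx l b)
        ((SB.const (J l b x) k x).mono le_rfl h4.abs_le) h4
      exact (h5.cmul _).mono le_rfl (mul_le_mul_of_nonneg_right (h2 a l) h5.nonneg)
    refine Tc.sb_scale (Tc.sum_card zero_le_one (fun l => contDiffAt_const.mul (hc l b)) h3) ?_
      hL1 ?_
    · simp only [sub_self, mul_zero, Finset.sum_const_zero, abs_zero]
      positivity
    · rw [← hN, one_div_mul_eq_div, le_div_iff₀ (by positivity)]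
      exact le_max_right _ _
  · rw [← hN, mul_one_div, div_le_iff₀ (by positivity)]
    have : (0 : ℝ) < 2 ^ k := by positivity
    nlinarith

end Vale.Agent.P088
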