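import Vale.Agent.P088.TcK2

/-!
# P088, the sliding argument: the equations for the differences
-/

open MeasureTheory Set Metric Filter
open scoped ContDiff Topology

noncomputable section
namespace Vale.Agent.P088
open Vale.Agent.P136

namespace TcK0
variable {n : ℕ} {U : Set (En n)} {x : En n}

theorem dgd_eq {γ : MatF n} {f : En n → ℝ} (hU : IsOpen U) (hγ : SmM γ)
    (hf : ContDiffOn ℝ ∞ f U) (hx : x ∈ U) : dgd ee γ f x =
      ∑ i, ∑ j, γ i j x * D (ee i) (D (ee j) f) x + ∑ i, ∑ j, D (ee i) (γ i j) x * D (ee j) f x := by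
  simp only [← Finset.sum_add_distrib, dgd, dvg]
  exact Finset.sum_congr rfl fun i _ => (TcK2.D_sum_on hU
    (fun j => (hγ i j).contDiffOn.mul (contDiffOn_D hU hf (ee j))) _ hx).trans
    (Finset.sum_congr rfl fun j _ => D_mul_on hU (hγ i j).contDiffOn (contDiffOn_D hU hf _) _ hx)

theorem swap {I J K L : Type} [Fintype I] [Fintype J] [Fintype K] [Fintype L] (u : I → J → ℝ)
    (v : I → J → K → L → ℝ) (t : K → L → ℝ) :
    ∑ i, ∑ j, u i j * ∑ c, ∑ e, v i j c e * t c e = ∑ c, ∑ e, (∑ i, ∑ j, u i j * v i j c e) * t c e := by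
  have h := Finset.sum_comm (s := Finset.univ) (t := Finset.univ)
    (f := fun (x : I × J) (y : K × L) => u x.1 x.2 * (v x.1 x.2 y.1 y.2 * t y.1 y.2))
  simp only [Fintype.sum_prod_type] at h
  simp only [Finset.mul_sum, Finset.sum_mul, mul_assoc]
  exact h

end TcK0

open TcK0 in
theorem s_tcK0 : S_tcK0 := by
  intro n ι _ _ om M L₁ L₂ p W₁ W₂ hb x hx s col a
  have hU := Tc.isOpen_U0 p
  have h1 := TcK2.app_sub hb.gd₁ hU (hb.on₁ s col) (hb.on₂ s col) hx a
  have h2 : L₁.app (W₁ s col) a x = 0 := (hb.s₁ s col).2 x hx a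
  have h3 : L₂.app (W₂ s col) a x = 0 := (hb.s₂ s col).2 x hx a
  have h4 : ∀ i j, D (ee i) (BB L₁ L₂ i j) x = D (ee i) (L₁.γ i j) x - D (ee i) (L₂.γ i j) x :=
    fun i j => D_sub_at ((hb.gd₁.1 i j).dAt x) ((hb.gd₂.1 i j).dAt x) _
  refine h1.trans ?_
  rw [h2]
  simp only [Op.app, dgd_eq hU hb.gd₁.1 (hb.on₂ s col a) hx, dgd_eq hU hb.gd₂.1 (hb.on₂ s col a) hx,
    hb.c₁ x hx, hb.c₂ x hx, zero_mul, Finset.sum_const_zero, add_zero, h4] at h3 ⊢
  simp only [BB, sub_mul, Finset.sum_sub_distrib]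
  linarith

open TcK0 in
theorem s_tcK1 (h : S_tcK0) : S_tcK1 := by
  intro n ι _ _ om η r M Mt L₁ L₂ p W₁ W₂ T hb hT hr x hx ab col a
  have hU := Tc.ball_U0 hr hx
  have on : ∀ s col a, ContDiffOn ℝ ∞ (W₂ s col a) (ball p r) := fun s col a =>
    (hb.on₂ s col a).mono (Tc.ball_U0 hr)
  have c1 : ∀ j c e, ContDiffOn ℝ ∞ (fun y => D (ee j) (W₂ (.inl c) e a) y * T ab c e col y)
      (ball p r) := fun j c e => (contDiffOn_D isOpen_ball (on _ _ _) _).mul (hT.sm _ _ _ _)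
  have e : ∀ i j, D (ee i) (D (ee j) (W₂ (.inr ab) col a)) x = Th T W₂ ab i j col a x +
      ∑ c, ∑ e, D (ee i) (D (ee j) (W₂ (.inl c) e a)) x * T ab c e col x := fun i j => by
    rw [D_congr_on isOpen_ball (fun y hy => hT.eqn y hy ab col a j) _ hx,
      TcK2.D_sum_on isOpen_ball (fun c => ContDiffOn.sum fun e _ => c1 j c e) _ hx]
    simp only [Th, ← Finset.sum_add_distrib]
    exact Finset.sum_congr rfl fun c _ => (TcK2.D_sum_on isOpen_ball (c1 j c) _ hx).trans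
      (Finset.sum_congr rfl fun e _ =>
        D_mul_on isOpen_ball (contDiffOn_D isOpen_ball (on _ _ _) _) (hT.sm _ _ _ _) _ hx)
  simp only [h n ι om M L₁ L₂ p W₁ W₂ hb x hU, e, hT.eqn x hx ab col, mul_add,
    Finset.sum_add_distrib, neg_mul, add_mul, Finset.sum_neg_distrib]
  rw [swap, swap, swap]
  ring

end Vale.Agent.P088
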