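import Vale.Agent.P088.TcTool

/-!
# P088, the sliding argument: the product rule
-/

open MeasureTheory Set Metric Filter
open scoped ContDiff Topology

noncomputable section
namespace Vale.Agent.P088
open Vale.Agent.P136

namespace TcK2
variable {n : ℕ} {ι : Type} [Fintype ι] {L : Op n ι} {U : Set (En n)} {x : En n}

theorem D_sum_on {J : Type} [Fintype J] (hU : IsOpen U) {f : J → En n → ℝ}
    (hf : ∀ j, ContDiffOn ℝ ∞ (f j) U) (v : En n) :
    EqOn (D v fun y => ∑ j, f j y) (fun y => ∑ j, D v (f j) y) U := fun _ hy =>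
  D_sum_at _ (fun j _ => dAt_of_on hU (hf j) hy) v

theorem dgd_sum {J : Type} [Fintype J] {γ : MatF n} (hU : IsOpen U) (hγ : SmM γ)
    {f : J → En n → ℝ} (hf : ∀ j, ContDiffOn ℝ ∞ (f j) U) (hx : x ∈ U) :
    dgd ee γ (fun y => ∑ j, f j y) x = ∑ j, dgd ee γ (f j) x := by
  have e : ∀ i, EqOn (XX ee γ (fun y => ∑ j, f j y) i) (fun y => ∑ j, XX ee γ (f j) i y) U :=
    fun i y hy => by
      simp only [XX, D_sum_on hU hf _ hy, Finset.mul_sum]
      exact Finset.sum_comm
  have e2 : ∀ i, D (ee i) (XX ee γ (fun y => ∑ j, f j y) i) x =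
      ∑ j, D (ee i) (XX ee γ (f j) i) x := fun i => (D_congr_on hU (e i) (ee i) hx).trans
    (D_sum_on hU (fun j => on_XX hU hγ (hf j) i) (ee i) hx)
  simp only [dgd, dvg, e2]
  rw [Finset.sum_comm]

theorem app_sum {J : Type} [Fintype J] (hL : L.Good) (hU : IsOpen U) {V : J → ι → En n → ℝ}
    (hV : ∀ j a, ContDiffOn ℝ ∞ (V j a) U) (hx : x ∈ U) (a : ι) :
    L.app (fun a y => ∑ j, V j a y) a x = ∑ j, L.app (V j) a x := by
  simp only [Op.app, dgd_sum hU hL.1 (fun j => hV j a) hx, Finset.sum_add_distrib,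
    fun a' v => D_sum_on hU (fun j => hV j a') v hx, Finset.mul_sum]
  refine congrArg₂ _ (congrArg₂ _ rfl ?_) Finset.sum_comm
  rw [Finset.sum_comm (s := (Finset.univ : Finset J))]
  exact Finset.sum_congr rfl fun i _ => Finset.sum_comm

theorem app_mul (hL : L.Good) (hU : IsOpen U) {V : ι → En n → ℝ} {t : En n → ℝ}
    (hV : ∀ a, ContDiffOn ℝ ∞ (V a) U) (ht : ContDiffOn ℝ ∞ t U) (hx : x ∈ U) (a : ι) :
    L.app (fun a y => V a y * t y) a x = L.app V a x * t x +
      2 * ∑ i, ∑ j, L.γ i j x * D (ee i) (V a) x * D (ee j) t x +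
      (V a x * dgd ee L.γ t x + ∑ i, ∑ a', L.b i a a' x * V a' x * D (ee i) t x) := by
  have e : ∑ i, XX ee L.γ (V a) i x * D (ee i) t x =
      ∑ i, ∑ j, L.γ i j x * D (ee i) (V a) x * D (ee j) t x := by
    simp only [XX, Finset.sum_mul]
    rw [Finset.sum_comm]
    exact Finset.sum_congr rfl fun i _ => Finset.sum_congr rfl fun j _ => by rw [hL.2.1 j i]
  simp only [Op.app, dgd_mul hU hL.1 hL.2.1 (hV a) ht hx, e, fun a' v => D_mul_on hU (hV a') ht v hx,
    mul_add, add_mul, Finset.sum_add_distrib, Finset.sum_mul, ← mul_assoc]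
  ring

theorem app_sub (hL : L.Good) (hU : IsOpen U) {V V' : ι → En n → ℝ}
    (hV : ∀ a, ContDiffOn ℝ ∞ (V a) U) (hV' : ∀ a, ContDiffOn ℝ ∞ (V' a) U) (hx : x ∈ U) (a : ι) :
    L.app (fun a y => V a y - V' a y) a x = L.app V a x - L.app V' a x := by
  have h1 := app_sum (V := fun j : Bool => fun a y => bif j then V a y else V' a y * (-1)) hL hU
    (fun j a => by
      cases j
      exacts [(hV' a).mul contDiffOn_const, hV a]) hx a
  have h2 := app_mul (t := fun _ => -1) hL hU hV' contDiffOn_const hx a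
  have h3 : XX ee L.γ (fun _ => -1) = fun _ _ => 0 := by
    funext i y
    simp [XX, D_const]
  simp only [D_const, dgd, dvg, h3, mul_zero, Finset.sum_const_zero, add_zero] at h2
  simp only [Fintype.sum_bool, cond_true, cond_false, h2] at h1
  simpa only [mul_neg, mul_one, sub_eq_add_neg] using h1

end TcK2

open TcK2 in
theorem s_tcK2 : S_tcK2 := by
  intro n ι _ L U V T hL hU hV hT x hx ab col a
  have c1 : ∀ c e a, ContDiffOn ℝ ∞ (fun y => V (.inl c) e a y * T ab c e col y) U :=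
    fun c e a => (hV _ _ _).mul (hT _ _ _ _)
  have h1 := app_sub hL hU (hV (.inr ab) col)
    (fun a => ContDiffOn.sum fun c (_ : c ∈ Finset.univ) =>
      ContDiffOn.sum fun e (_ : e ∈ Finset.univ) => c1 c e a) hx a
  rw [app_sum hL hU (fun c a => ContDiffOn.sum fun e _ => c1 c e a) hx] at h1
  simp only [fun c => app_sum hL hU (c1 c) hx a, fun c e => app_mul hL hU (hV (.inl c) e)
    (hT ab c e col) hx a] at h1
  refine h1.trans ?_
  simp only [Finset.sum_add_distrib, Finset.mul_sum]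
  ring

end Vale.Agent.P088
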