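import Vale.Agent.P088.TcTool

/-!
# P088, the sliding argument: the weighted conformal Korn inequality
-/

open MeasureTheory Set Metric Filter
open scoped ContDiff Topology

noncomputable section
namespace Vale.Agent.P088
open Vale.Agent.P136

namespace TcKorn

variable {n : ℕ}

theorem sum_CK (hn : 0 < n) (a : Fin n → Fin n → ℝ) :
    ∑ i, ∑ j, CK a i j ^ 2 = 2 * ∑ i, ∑ j, a i j ^ 2 + 2 * ∑ i, ∑ j, a i j * a j i -
      4 / n * ∑ i, ∑ j, a i i * a j j := by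
  have hn' : (n : ℝ) ≠ 0 := by positivity
  set t := ∑ l, a l l with ht
  have h1 : ∀ i j, CK a i j ^ 2 = a i j ^ 2 + a j i ^ 2 + 2 * (a i j * a j i) +
      if i = j then (2 / n * t) ^ 2 - 8 / n * t * a i i else 0 := by
    intro i j
    unfold CK
    split_ifs with h
    · subst h; rw [← ht]; ring
    · ring
  have h2 : ∑ i, ∑ j, a j i ^ 2 = ∑ i, ∑ j, a i j ^ 2 := Finset.sum_comm
  have h3 : ∑ i, ∑ j, a i i * a j j = t * t := by rw [ht, Finset.sum_mul_sum]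
  rw [h3]
  simp only [h1, Finset.sum_add_distrib, Finset.sum_ite_eq, Finset.mem_univ, if_true,
    ← Finset.mul_sum, Finset.sum_sub_distrib, Finset.sum_const, Finset.card_univ,
    Fintype.card_fin, nsmul_eq_mul]
  rw [h2, ← ht]
  field_simp
  ring

theorem cross_le (b : Fin n → Fin n → ℝ) : ∑ i, ∑ j, b j i * b i j ≤ ∑ i, ∑ j, b i j ^ 2 := by
  have h2 : ∑ i, ∑ j, b j i ^ 2 = ∑ i, ∑ j, b i j ^ 2 := Finset.sum_comm
  have h1 : 2 * ∑ i, ∑ j, b j i * b i j ≤ ∑ i, ∑ j, b j i ^ 2 + ∑ i, ∑ j, b i j ^ 2 := by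
    simp only [Finset.mul_sum, ← Finset.sum_add_distrib]
    exact Finset.sum_le_sum fun i _ => Finset.sum_le_sum fun j _ => by
      nlinarith [sq_nonneg (b j i - b i j)]
  linarith

theorem h1_le {h : Fin n → Fin n → ℝ} {V : Fin n → ℝ} {e : ℝ} (he : 0 ≤ e)
    (hh : ∀ j, V j ≠ 0 → ∀ i l, |h i l| ≤ e) :
    |∑ i, ∑ j, h i j * V i * V j| ≤ n * e * ∑ j, V j ^ 2 := by
  have h1 : ∀ i j, |h i j * V i * V j| ≤ e / 2 * V i ^ 2 + e / 2 * V j ^ 2 := by
    intro i j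
    by_cases h0 : V j = 0
    · rw [h0]; simp; positivity
    · rw [abs_mul, abs_mul, ← sq_abs (V i), ← sq_abs (V j), mul_assoc]
      have := mul_le_mul_of_nonneg_right (hh j h0 i j) (mul_nonneg (abs_nonneg (V i)) (abs_nonneg (V j)))
      nlinarith [mul_nonneg he (sq_nonneg (|V i| - |V j|))]
  calc _ ≤ ∑ i, ∑ j, (e / 2 * V i ^ 2 + e / 2 * V j ^ 2) :=
        (Finset.abs_sum_le_sum_abs _ _).trans (Finset.sum_le_sum fun i _ =>
          (Finset.abs_sum_le_sum_abs _ _).trans (Finset.sum_le_sum fun j _ => h1 i j))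
    _ = _ := by
        simp only [Finset.sum_add_distrib, Finset.sum_const, Finset.card_univ, Fintype.card_fin,
          nsmul_eq_mul, ← Finset.mul_sum]
        ring

theorem h2_le {h : Fin n → Fin n → ℝ} {V : Fin n → ℝ} {e : ℝ}
    (hh : ∀ j, V j ≠ 0 → ∀ i l, |h i l| ≤ e) :
    |∑ i, ∑ j, h i i * V j ^ 2| ≤ n * e * ∑ j, V j ^ 2 := by
  have h1 : ∀ i j, |h i i * V j ^ 2| ≤ e * V j ^ 2 := by
    intro i j
    by_cases h0 : V j = 0
    · rw [h0]; simp
    · rw [abs_mul, abs_of_nonneg (sq_nonneg (V j))]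
      exact mul_le_mul_of_nonneg_right (hh j h0 i i) (sq_nonneg _)
  calc _ ≤ ∑ _i : Fin n, ∑ j, e * V j ^ 2 :=
        (Finset.abs_sum_le_sum_abs _ _).trans (Finset.sum_le_sum fun i _ =>
          (Finset.abs_sum_le_sum_abs _ _).trans (Finset.sum_le_sum fun j _ => h1 i j))
    _ = _ := by
        simp only [Finset.sum_const, Finset.card_univ, Fintype.card_fin, nsmul_eq_mul,
          ← Finset.mul_sum]
        ring

theorem pw (hn : 3 ≤ n) {a b h d : Fin n → Fin n → ℝ} {V p : Fin n → ℝ}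
    (ha : ∀ i j, a i j = -d i j + p i * V j) (hb : ∀ i j, b i j = d i j + p i * V j)
    (hh : ∀ j, V j ≠ 0 → ∀ i l, |h i l| ≤ 1 / (100 * n) * ∑ m, p m ^ 2) :
    ∑ i, ∑ j, a i j ^ 2 + (∑ m, p m ^ 2) * ∑ j, V j ^ 2 ≤ 9 * ∑ i, ∑ j, CK a i j ^ 2 -
      (18 * ∑ i, ∑ j, (a i j * a j i - (b j j * b i i + 2 * (h i j * V j * V i))) -
        9 * (4 / n) * ∑ i, ∑ j, (a i i * a j j - (b j i * b i j + 2 * (h i j * V i * V j))) +
        (9 * (4 / n) + 5 / 2) * ∑ i, ∑ j, (a i j ^ 2 - (b i j ^ 2 + 2 * (h i i * V j ^ 2)))) := by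
  have hn3 : (3 : ℝ) ≤ n := by exact_mod_cast hn
  have P0 : 0 ≤ ∑ m, p m ^ 2 := Finset.sum_nonneg fun _ _ => sq_nonneg _
  have V0 : 0 ≤ ∑ m, V m ^ 2 := Finset.sum_nonneg fun _ _ => sq_nonneg _
  have e1 := h1_le (by positivity) hh
  have e2 := h2_le hh
  have e3 : (n : ℝ) * (1 / (100 * n) * ∑ m, p m ^ 2) * ∑ j, V j ^ 2 =
      1 / 100 * ((∑ m, p m ^ 2) * ∑ j, V j ^ 2) := by field_simp
  rw [e3] at e1 e2
  have e4 : ∑ i, ∑ j, h i j * V j * V i = ∑ i, ∑ j, h i j * V i * V j :=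
    Finset.sum_congr rfl fun i _ => Finset.sum_congr rfl fun j _ => by ring
  have e5 : 0 ≤ ∑ i, ∑ j, b j j * b i i := by
    have : ∑ i, ∑ j, b j j * b i i = (∑ i, b i i) * ∑ i, b i i := by
      rw [Finset.sum_mul_sum, Finset.sum_comm]
    rw [this]; exact mul_self_nonneg _
  have e6 := cross_le b
  have e7 : 2 * ((∑ m, p m ^ 2) * ∑ j, V j ^ 2) ≤ ∑ i, ∑ j, a i j ^ 2 + ∑ i, ∑ j, b i j ^ 2 := by
    rw [Finset.sum_mul_sum]
    simp only [Finset.mul_sum, ← Finset.sum_add_distrib]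
    exact Finset.sum_le_sum fun i _ => Finset.sum_le_sum fun j _ => by
      rw [ha, hb]; nlinarith [sq_nonneg (d i j)]
  have A0 : 0 ≤ ∑ i, ∑ j, a i j ^ 2 :=
    Finset.sum_nonneg fun _ _ => Finset.sum_nonneg fun _ _ => sq_nonneg _
  rw [sum_CK (by omega)]
  simp only [Finset.sum_sub_distrib, Finset.sum_add_distrib]
  have e8 : ∀ F : Fin n → Fin n → ℝ, ∑ i, ∑ j, 2 * F i j = 2 * ∑ i, ∑ j, F i j := fun F => by
    simp only [Finset.mul_sum]
  rw [e8, e8, e8, e4]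
  set c : ℝ := 4 / n with hc
  have c0 : 0 ≤ c := by positivity
  have c1 : c ≤ 4 / 3 := div_le_div_of_nonneg_left (by norm_num) (by norm_num) hn3
  set y := (∑ m, p m ^ 2) * ∑ j, V j ^ 2
  have y0 : 0 ≤ y := mul_nonneg P0 V0
  set H1 := ∑ i, ∑ j, h i j * V i * V j
  set H2 := ∑ i, ∑ j, h i i * V j ^ 2
  set A := ∑ i, ∑ j, a i j ^ 2
  set B := ∑ i, ∑ j, b i j ^ 2
  set Q := ∑ i, ∑ j, b j i * b i j
  obtain ⟨f1, f2⟩ := abs_le.1 e1
  obtain ⟨f3, f4⟩ := abs_le.1 e2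
  have g1 := mul_le_mul_of_nonneg_left e6 c0
  have g2 := mul_le_mul_of_nonneg_left f2 c0
  have g3 := mul_le_mul_of_nonneg_left f3 c0
  have g4 := mul_le_mul_of_nonneg_right c1 A0
  have g5 := mul_le_mul_of_nonneg_right c1 y0
  nlinarith

theorem key {φ f g : En n → ℝ} (hφ : Sm φ) (hf : Tst f) (hg : Tst g) (v w : En n) :
    Tst (fun x => Dm φ v f x * Dm φ w g x -
      (Dp φ w f x * Dp φ v g x + 2 * (D v (D w φ) x * f x * g x))) ∧
    ∫ x, (Dm φ v f x * Dm φ w g x -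
      (Dp φ w f x * Dp φ v g x + 2 * (D v (D w φ) x * f x * g x))) = 0 := by
  have t1 : Tst (fun x => Dm φ v f x * Dm φ w g x) := (hf.Dm hφ v).mul_right (hg.Dm hφ w).sm
  have t2 : Tst (fun x => Dp φ w f x * Dp φ v g x) := (hf.Dp hφ w).mul_right (hg.Dp hφ v).sm
  have t3 : Tst (fun x => 2 * (D v (D w φ) x * f x * g x)) :=
    ((Tst.mul_left ((hφ.D w).D v) hf).mul_right hg.sm).const_mul 2
  have t4 : Tst (fun x => f x * Dm φ w (Dp φ v g) x) :=
    hf.mul_right ((hg.Dp hφ v).Dm hφ w).sm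
  refine ⟨t1.sub (t2.add t3), ?_⟩
  rw [integral_sub t1.integrable (t2.add t3).integrable, integral_add t2.integrable t3.integrable,
    adj' hφ hf (hg.Dm hφ w) v, adj hφ hf (hg.Dp hφ v) w, Dp_Dm hφ hg.sm,
    ← integral_add t4.integrable t3.integrable, sub_eq_zero]
  exact integral_congr_ae (Eventually.of_forall fun x => by simp only; ring)

theorem dsum {F : Fin n → Fin n → En n → ℝ} (h : ∀ i j, Tst (F i j) ∧ ∫ x, F i j x = 0) :
    Tst (fun x => ∑ i, ∑ j, F i j x) ∧ ∫ x, ∑ i, ∑ j, F i j x = 0 := by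
  refine ⟨Tst.sum _ fun i _ => Tst.sum _ fun j _ => (h i j).1, ?_⟩
  rw [integral_finsetSum _ fun i _ => (Tst.sum _ fun j _ => (h i j).1).integrable]
  refine Finset.sum_eq_zero fun i _ => ?_
  rw [integral_finsetSum _ fun j _ => (h i j).1.integrable]
  exact Finset.sum_eq_zero fun j _ => (h i j).2

theorem tst_CK {a : Fin n → Fin n → En n → ℝ} (h : ∀ i j, Tst (a i j)) (i j : Fin n) :
    Tst (fun x => CK (fun i j => a i j x) i j) := by
  unfold CK
  split_ifs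
  · exact ((h i j).add (h j i)).sub ((Tst.sum _ fun l _ => h l l).const_mul _)
  · exact ((h i j).add (h j i)).sub Tst.zero

end TcKorn

open TcKorn in
theorem s_tcKorn : S_tcKorn := by
  intro n hn
  have hn0 : (0 : ℝ) < n := by exact_mod_cast (by omega : 0 < n)
  refine ⟨1 / (100 * n), by positivity, fun φ V hφ hV hh => ?_⟩
  obtain ⟨t1, i1⟩ := dsum fun i j => key hφ (hV j) (hV i) (ee i) (ee j)
  obtain ⟨t2, i2⟩ := dsum fun i j => key hφ (hV i) (hV j) (ee i) (ee j)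
  obtain ⟨t3, i3⟩ := dsum (F := fun i j x => Dm φ (ee i) (V j) x ^ 2 -
      (Dp φ (ee i) (V j) x ^ 2 + 2 * (D (ee i) (D (ee i) φ) x * V j x ^ 2))) fun i j => by
    have := key hφ (hV j) (hV j) (ee i) (ee i)
    simpa only [pow_two, mul_assoc] using this
  have t4 : Tst (fun x => ∑ i, ∑ j, CK (fun i j => Dm φ (ee i) (V j) x) i j ^ 2) :=
    Tst.sum _ fun i _ => Tst.sum _ fun j _ => (tst_CK (fun i j => (hV j).Dm hφ (ee i)) i j).sq
  have t5 : Tst (fun x => ∑ i, ∑ j, Dm φ (ee i) (V j) x ^ 2 +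
      (∑ m, D (ee m) φ x ^ 2) * ∑ j, V j x ^ 2) :=
    (Tst.sum _ fun i _ => Tst.sum _ fun j _ => ((hV j).Dm hφ (ee i)).sq).add
      (Tst.mul_left (Sm.sum fun m _ => (hφ.D _).pow 2) (Tst.sum _ fun j _ => (hV j).sq))
  have u1 := t1.const_mul 18
  have u2 := t2.const_mul (9 * (4 / n))
  have u3 := t3.const_mul (9 * (4 / n) + 5 / 2)
  refine (integral_mono t5.integrable ((t4.const_mul 9).sub ((u1.sub u2).add u3)).integrable
    fun x => pw hn (a := fun i j => Dm φ (ee i) (V j) x) (b := fun i j => Dp φ (ee i) (V j) x)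
      (h := fun i j => D (ee i) (D (ee j) φ) x) (V := fun j => V j x)
      (p := fun i => D (ee i) φ x) (d := fun i j => D (ee i) (V j) x) (fun _ _ => rfl)
      (fun _ _ => rfl) (hh x)).trans (le_of_eq ?_)
  rw [integral_sub (t4.const_mul 9).integrable ((u1.sub u2).add u3).integrable,
    integral_add (u1.sub u2).integrable u3.integrable, integral_sub u1.integrable u2.integrable]
  simp only [integral_const_mul]
  rw [i1, i2, i3]
  ring

end Vale.Agent.P088
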