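import Vale.Agent.P088.TcTool

/-!
# P088, the sliding argument: from weighted integral bounds to pointwise bounds
-/

open MeasureTheory Set Metric Filter
open scoped ContDiff Topology

noncomputable section
namespace Vale.Agent.P088
open Vale.Agent.P136

namespace TcLoc

theorem pt {Q : ℕ} {s f g l : ℝ} (h : (Real.exp (Q * s) * f) ^ 2 ≤ g) (hl : Real.exp (-s) ≤ l) :
    |f| ≤ l ^ Q / 2 * (g + 1) := by
  have e : f = Real.exp (-s) ^ Q * (Real.exp (Q * s) * f) := by
    rw [← Real.exp_nat_mul, ← mul_assoc, ← Real.exp_add]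
    simp
  have h0 := (Real.exp_pos (-s)).le
  have h1 : |Real.exp (Q * s) * f| ≤ (g + 1) / 2 := by
    rw [← sq_abs] at h
    nlinarith [sq_nonneg (|Real.exp (Q * s) * f| - 1)]
  rw [e, abs_mul, abs_of_nonneg (pow_nonneg h0 Q)]
  refine (mul_le_mul (pow_le_pow_left₀ h0 hl Q) h1 (abs_nonneg _)
    (pow_nonneg (h0.trans hl) Q)).trans (le_of_eq ?_)
  ring

end TcLoc

theorem s_tcLoc (h : S_tcInt) : S_tcLoc := by
  intro n m N A r M' C₁ hr hr1 hA
  obtain ⟨C, hC, H⟩ := h n m N
  obtain ⟨θ, hθ, t1, t2⟩ : ∃ θ : ℝ, 0 < θ ∧ θ ≤ r / 2 ∧ A * (n * θ) ≤ 1 := by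
    have : 0 < n * A + 1 := by positivity
    refine ⟨min (r / 2) (1 / (n * A + 1)), by positivity, min_le_left _ _, ?_⟩
    calc _ ≤ A * (n * (1 / (n * A + 1))) := by gcongr; exact min_le_right _ _
      _ = n * A / (n * A + 1) := by ring
      _ ≤ 1 := (div_le_one this).2 (by linarith)
  have hV : 0 ≤ volume.real (ball (0 : En n) 1) := measureReal_nonneg
  refine ⟨C * (2 ^ (N + (m + n)) / 2 * (|C₁| + volume.real (ball (0 : En n) 1)) / θ ^ (m + n) +
    |M'|), by positivity, fun p ψ f g hψ hd hf hb hg hg1 hfg x hx => ?_⟩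
  have hx' : x ∈ ball p r := ball_subset_ball (by linarith) hx
  have l0 : 0 < Real.exp (-ψ x) := Real.exp_pos _
  have l1 : Real.exp (-ψ x) ≤ 1 := Real.exp_le_one_iff.2 (by linarith [(hd x hx').1])
  have e0 : 0 < θ * Real.exp (-ψ x) := by positivity
  have e1 : θ * Real.exp (-ψ x) ≤ θ := mul_le_of_le_one_right hθ.le l1
  have hsub : ball x (θ * Real.exp (-ψ x)) ⊆ ball p r :=
    ball_subset_ball' (by linarith [mem_ball.1 hx])
  have hl : ∀ y ∈ ball x (θ * Real.exp (-ψ x)), Real.exp (-ψ y) ≤ 2 * Real.exp (-ψ x) := by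
    intro y hy
    have k := Tc.mvt isOpen_ball (convex_ball p r) (f := fun z => Real.exp (-ψ z))
      hψ.neg.exp.contDiffOn hx' (hsub hy) hA fun z hz i => by
        rw [D_exp_at (hψ.neg.dAt z), D_neg, abs_mul, abs_neg, abs_of_pos (Real.exp_pos _)]
        refine (mul_le_mul_of_nonneg_left ((hd z hz).2 i) (Real.exp_pos _).le).trans (le_of_eq ?_)
        rw [mul_left_comm, ← Real.exp_add]
        simp
    have k1 : ‖y - x‖ ≤ θ * Real.exp (-ψ x) := (mem_ball_iff_norm.1 hy).le
    have k2 : A * (n * ‖y - x‖) ≤ Real.exp (-ψ x) := by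
      calc _ ≤ A * (n * (θ * Real.exp (-ψ x))) := by gcongr
        _ = A * (n * θ) * Real.exp (-ψ x) := by ring
        _ ≤ _ := mul_le_of_le_one_left l0.le t2
    linarith [(abs_le.1 k).2]
  have hgi : IntegrableOn g (ball x (θ * Real.exp (-ψ x))) := hg.mono_set hsub
  have h1i : IntegrableOn (fun _ => (1 : ℝ)) (ball x (θ * Real.exp (-ψ x))) :=
    integrableOn_const measure_ball_lt_top.ne
  have i1 : ∫ y in ball x (θ * Real.exp (-ψ x)), |f y| ≤
      (2 * Real.exp (-ψ x)) ^ (N + (m + n)) / 2 * (|C₁| + volume.real (ball (0 : En n) 1)) := by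
    refine (integral_mono_of_nonneg (ae_of_all _ fun y => abs_nonneg _)
      ((hgi.add h1i).const_mul ((2 * Real.exp (-ψ x)) ^ (N + (m + n)) / 2))
      ((ae_restrict_mem measurableSet_ball).mono fun y hy =>
        TcLoc.pt (hfg y (hsub hy)) (hl y hy))).trans ?_
    rw [integral_const_mul]
    refine mul_le_mul_of_nonneg_left ?_ (by positivity)
    simp only [Pi.add_apply]
    rw [integral_add hgi h1i]
    refine add_le_add ((setIntegral_mono_set hg ((ae_restrict_mem measurableSet_ball).mono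
      fun y hy => (sq_nonneg _).trans (hfg y hy)) hsub.eventuallyLE).trans
        (hg1.trans (le_abs_self _))) ?_
    rw [setIntegral_const, smul_eq_mul, mul_one, measureReal_def, measureReal_def,
      Measure.addHaar_ball_center]
    exact ENNReal.toReal_mono measure_ball_lt_top.ne
      (measure_mono (ball_subset_ball (by linarith)))
  refine (H f x _ M' e0 (by linarith) (hf.mono hsub) fun y hy => hb y (hsub hy)).mono le_rfl ?_
  have e2 : Real.exp (-(N * ψ x)) = Real.exp (-ψ x) ^ N := by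
    rw [← Real.exp_nat_mul, mul_neg]
  rw [e2, mul_assoc, add_mul]
  refine mul_le_mul_of_nonneg_left (add_le_add ?_ ?_) hC
  · refine (div_le_div_of_nonneg_right i1 (by positivity)).trans (le_of_eq ?_)
    rw [mul_pow, mul_pow, pow_add (Real.exp (-ψ x))]
    field_simp
  · rw [mul_comm]
    refine mul_le_mul (le_abs_self _) (pow_le_pow_left₀ e0.le ?_ N) (by positivity) (abs_nonneg _)
    exact mul_le_of_le_one_left l0.le (by linarith)

end Vale.Agent.P088
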