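import Vale.Agent.P088.TcTool

/-!
# P088, the sliding argument: existence of the coefficients `T`
-/

open MeasureTheory Set Metric Filter
open scoped ContDiff Topology

noncomputable section
namespace Vale.Agent.P088
open Vale.Agent.P136

namespace TcT

variable {n : ℕ}

theorem hasD_co (p : En n) (c : Fin n) (x : En n) :
    HasFDerivAt (fun y : En n => y c - p c) (EuclideanSpace.proj c : En n →L[ℝ] ℝ) x :=
  (EuclideanSpace.proj c : En n →L[ℝ] ℝ).hasFDerivAt.sub_const (p c)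

theorem dAt_co (p : En n) (c : Fin n) (x : En n) :
    DifferentiableAt ℝ (fun y : En n => y c - p c) x := (hasD_co p c x).differentiableAt

theorem D_co (p : En n) (i c : Fin n) (x : En n) :
    D (ee i) (fun y : En n => y c - p c) x = if i = c then 1 else 0 := by
  simp only [D]
  rw [(hasD_co p c x).fderiv]
  simp [ee, eq_comm]

theorem nsq (p x : En n) : ‖x - p‖ ^ 2 = ∑ l, (x l - p l) * (x l - p l) := by
  rw [EuclideanSpace.real_norm_sq_eq]
  exact Finset.sum_congr rfl fun l _ => by rw [PiLp.sub_apply, sq]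

theorem D_qq (p : En n) (ab : Fin n × Fin n) (i : Fin n) :
    D (ee i) (qq p (.inr ab)) = fun x => (if i = ab.2 then 1 else 0) * (x ab.1 - p ab.1) +
      (if i = ab.1 then 1 else 0) * (x ab.2 - p ab.2) -
        (if ab.1 = ab.2 then 2 / (n : ℝ) else 0) * (x i - p i) := by
  funext x
  have e : qq p (.inr ab) = fun x => (x ab.1 - p ab.1) * (x ab.2 - p ab.2) -
      (if ab.1 = ab.2 then 1 / (n : ℝ) else 0) * ∑ l, (x l - p l) * (x l - p l) := by
    funext y
    simp only [qq, nsq]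
    split_ifs <;> ring
  have d1 : ∀ a b : Fin n, DifferentiableAt ℝ (fun y : En n => (y a - p a) * (y b - p b)) x :=
    fun a b => (dAt_co p a x).mul (dAt_co p b x)
  have d2 : DifferentiableAt ℝ (fun y : En n => ∑ l, (y l - p l) * (y l - p l)) x :=
    DifferentiableAt.fun_sum fun l _ => d1 l l
  rw [e, D_sub_at (d1 _ _) (d2.const_mul _), D_const_mul_at d2, D_sum_at _ fun l _ => d1 l l]
  simp only [D_mul_at (dAt_co p _ x) (dAt_co p _ x), D_co, Finset.sum_add_distrib, mul_ite,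
    ite_mul, mul_one, one_mul, mul_zero, zero_mul, Finset.sum_ite_eq, Finset.mem_univ, if_true]
  split_ifs <;> ring

theorem DD_qq (p : En n) (ab : Fin n × Fin n) (i j : Fin n) (x : En n) :
    D (ee j) (D (ee i) (qq p (.inr ab))) x = tq ab i j := by
  rw [D_qq, D_sub_at (((dAt_co p _ x).const_mul _).fun_add ((dAt_co p _ x).const_mul _))
    ((dAt_co p _ x).const_mul _), D_add_at ((dAt_co p _ x).const_mul _)
    ((dAt_co p _ x).const_mul _), D_const_mul_at (dAt_co p _ x), D_const_mul_at (dAt_co p _ x),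
    D_const_mul_at (dAt_co p _ x), D_co, D_co, D_co, tq]
  simp only [ite_and, eq_comm (a := j) (b := i)]
  split_ifs <;> ring

section jets
variable {ι : Type} [Fintype ι] [DecidableEq ι] {om : ℝ} {M : ℕ → ℝ} {L₁ L₂ : Op n ι} {p : En n}
  {W₁ W₂ : WF n ι}

theorem jet1 (h : Bas om M L₁ L₂ p W₁ W₂) (c : Fin n) (e a : ι) (i : Fin n) :
    D (ee i) (W₂ (.inl c) e a) p = if i = c ∧ e = a then 1 else 0 := by
  have h1 : D (ee i) (W₂ (.inl c) e a) p =
      if e = a then D (ee i) (fun y : En n => y c - p c) p else 0 := h.jet (.inl c) e a [i] le_rfl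
  rw [h1, D_co, ite_and]
  split_ifs <;> rfl

theorem jet2 (h : Bas om M L₁ L₂ p W₁ W₂) (ab : Fin n × Fin n) (col a : ι) (i : Fin n) :
    D (ee i) (W₂ (.inr ab) col a) p = 0 := by
  have h1 : D (ee i) (W₂ (.inr ab) col a) p =
      if col = a then D (ee i) (qq p (.inr ab)) p else 0 :=
    h.jet (.inr ab) col a [i] (Nat.le_succ 1)
  rw [h1, D_qq]
  simp

theorem jet3 (h : Bas om M L₁ L₂ p W₁ W₂) (ab : Fin n × Fin n) (col a : ι) (i j : Fin n) :
    D (ee j) (D (ee i) (W₂ (.inr ab) col a)) p = if col = a then tq ab i j else 0 := by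
  have h1 : D (ee j) (D (ee i) (W₂ (.inr ab) col a)) p =
      if col = a then D (ee j) (D (ee i) (qq p (.inr ab))) p else 0 :=
    h.jet (.inr ab) col a [j, i] le_rfl
  rw [h1, DD_qq]

theorem dW (h : Bas om M L₁ L₂ p W₁ W₂) {x : En n} (hx : x ∈ U0 p) (c : Fin n) (e a : ι)
    (i : Fin n) : |D (ee i) (W₂ (.inl c) e a) x - if i = c ∧ e = a then 1 else 0| ≤
      |M 2| * (n * ‖x - p‖) := by
  rw [← jet1 h]
  exact Tc.mvt (Tc.isOpen_U0 p) (convex_ball p _) (contDiffOn_D (Tc.isOpen_U0 p) (h.on₂ _ _ _) _)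
    (Tc.p_U0 p) hx (abs_nonneg _) fun z hz j =>
      ((h.w₂ z hz 2 (.inl c) e a).le (l := [j, i]) le_rfl).trans (le_abs_self _)

end jets

theorem small {A B η r t : ℝ} (hA : 0 ≤ A) (hAB : A ≤ B) (ht : 0 ≤ t) (htr : t ≤ r)
    (hr : r ≤ η / (B + 1)) : A * t ≤ η := by
  have hB : 0 < B + 1 := by linarith
  have h1 : r * (B + 1) ≤ η := (le_div_iff₀ hB).1 hr
  nlinarith

end TcT

open TcT in
theorem s_tcT (h : S_tcInv) : S_tcT := by
  intro n ι _ _ M
  obtain ⟨M', hM'⟩ := h n (Fin n × ι) fun k => M (k + 1)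
  set Mt : ℕ → ℝ := fun k => Fintype.card (Fin n × ι) * (2 ^ k * M' k * M (k + 1)) with hMt
  refine ⟨Mt, fun η hη => ?_⟩
  set r₁ : ℝ := min (1 / 10) (1 / (|M 2| * n * (2 * Fintype.card (Fin n × ι)) + 1)) with hr₁
  have r₁0 : 0 < r₁ := lt_min (by norm_num) (by positivity)
  have r₁1 : r₁ ≤ 1 / 10 := min_le_left _ _
  refine ⟨min r₁ (η / ((|Mt 2| + |M 2|) * n + 1)), lt_min r₁0 (by positivity),
    (min_le_left _ _).trans r₁1, fun om L₁ L₂ p W₁ W₂ hB => ?_⟩
  have hs : ball p r₁ ⊆ U0 p := Tc.ball_U0 (by linarith)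
  have hp : p ∈ ball p r₁ := mem_ball_self r₁0
  have eI : ∀ (i c : Fin n) (a e : ι), ((i, a) = (c, e)) = (i = c ∧ e = a) := fun i c a e => by
    rw [Prod.mk.injEq, eq_comm (a := a)]
  obtain ⟨G, G1, G2⟩ := hM' (ball p r₁) (fun s t => D (ee s.1) (W₂ (.inl t.1) t.2 s.2)) isOpen_ball
    (fun s t => (contDiffOn_D (Tc.isOpen_U0 p) (hB.on₂ _ _ _) _).mono hs) fun x hx s t => by
      obtain ⟨i, a⟩ := s
      obtain ⟨c, e⟩ := t
      refine ⟨?_, fun k => (hB.w₂ x (hs hx) (k + 1) _ _ _).D _⟩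
      simp only [eI]
      refine (mul_le_mul_of_nonneg_right (dW hB (hs hx) c e a i) (by positivity)).trans ?_
      have h1 := small (A := |M 2| * n * (2 * Fintype.card (Fin n × ι))) (by positivity) le_rfl
        (norm_nonneg (x - p)) (mem_ball_iff_norm.1 hx).le (min_le_right _ _)
      linarith
  set T : TF n ι := fun ab c e col y =>
    ∑ s : Fin n × ι, G (c, e) s y * D (ee s.1) (W₂ (.inr ab) col s.2) y with hT
  have cG : ∀ x ∈ ball p r₁, ∀ s t, ContDiffAt ℝ ∞ (G s t) x := fun x hx s t =>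
    (G1 s t).contDiffAt (isOpen_ball.mem_nhds hx)
  have cW : ∀ x ∈ ball p r₁, ∀ s col a i, ContDiffAt ℝ ∞ (D (ee i) (W₂ s col a)) x :=
    fun x hx s col a i => contDiffAt_D (hB.cd₂ (hs hx) s col a) _
  have sT : ∀ ab c e col, ContDiffOn ℝ ∞ (T ab c e col) (ball p r₁) := fun ab c e col x hx =>
    (ContDiffAt.sum fun s _ => (cG x hx _ _).mul (cW x hx _ _ _ _)).contDiffWithinAt
  have bT : ∀ x ∈ ball p r₁, ∀ k ab c e col, SB ee k (Mt k) 1 (T ab c e col) x :=
    fun x hx k ab c e col => Tc.sum_card zero_le_one (fun s => (cG x hx _ _).mul (cW x hx _ _ _ _))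
      fun s => SbAlg.mul zero_le_one (cG x hx _ _) (cW x hx _ _ _ _) ((G2 x hx _ _).2 k)
        ((hB.w₂ x (hs hx) (k + 1) _ _ _).D _)
  have Gp : ∀ s t, G s t p = if s = t then 1 else 0 := fun s t => by
    rw [← (G2 p hp s t).1, Finset.sum_eq_single s]
    · simp only [jet1 hB, and_self, if_true, one_mul]
    · rintro ⟨c, e⟩ - hne
      obtain ⟨i, a⟩ := s
      rw [jet1 hB, if_neg, zero_mul]
      rw [← eI]
      exact hne.symm
    · exact fun h => (h (Finset.mem_univ _)).elim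
  have dTp : ∀ ab c e col j, D (ee j) (T ab c e col) p = if e = col then tq ab c j else 0 :=
    fun ab c e col j => by
    have d1 : ∀ s t, DifferentiableAt ℝ (G s t) p := fun s t =>
      (cG p hp s t).differentiableAt (by simp)
    have d2 : ∀ s col a i, DifferentiableAt ℝ (D (ee i) (W₂ s col a)) p := fun s col a i =>
      (cW p hp s col a i).differentiableAt (by simp)
    refine (D_sum_at _ (fun s _ => (d1 (c, e) s).fun_mul (d2 (.inr ab) col s.2 s.1)) _).trans ?_
    simp only [D_mul_at (d1 _ _) (d2 _ _ _ _), jet2 hB, jet3 hB, Gp, mul_zero, add_zero, ite_mul,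
      one_mul, zero_mul, Finset.sum_ite_eq, Finset.mem_univ, if_true, eq_comm (a := col)]
  have hs' : ball p (min r₁ (η / ((|Mt 2| + |M 2|) * n + 1))) ⊆ ball p r₁ :=
    ball_subset_ball (min_le_left _ _)
  have sm : ∀ x ∈ ball p (min r₁ (η / ((|Mt 2| + |M 2|) * n + 1))), ∀ A : ℝ, 0 ≤ A →
      A ≤ |Mt 2| + |M 2| → A * (n * ‖x - p‖) ≤ η := fun x hx A h0 h1 => by
    rw [← mul_assoc]
    exact small (by positivity) (mul_le_mul_of_nonneg_right h1 n.cast_nonneg) (norm_nonneg _)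
      (mem_ball_iff_norm.1 hx).le (min_le_right _ _)
  refine ⟨T, fun ab c e col => (sT ab c e col).mono hs', fun x hx => bT x (hs' hx),
    fun x hx ab col a i => ?_, fun x hx ab c e col j => ?_, fun x hx c e a i =>
      (dW hB (hs (hs' hx)) c e a i).trans (sm x hx _ (abs_nonneg _)
        (le_add_of_nonneg_left (abs_nonneg _)))⟩
  · have h1 := fun t => (G2 x (hs' hx) (i, a) t).1
    rw [← Finset.sum_product', Finset.univ_product_univ]
    simp only [hT, Finset.mul_sum, ← mul_assoc]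
    rw [Finset.sum_comm]
    simp only [← Finset.sum_mul, Prod.mk.eta, h1, ite_mul, one_mul, zero_mul, Finset.sum_ite_eq,
      Finset.mem_univ, if_true]
  · rw [← dTp]
    refine (Tc.mvt isOpen_ball (convex_ball p r₁) (contDiffOn_D isOpen_ball (sT ab c e col) _) hp
      (hs' hx) (abs_nonneg (Mt 2)) fun z hz i =>
        ((bT z hz 2 ab c e col).le (l := [i, j]) le_rfl).trans (le_abs_self _)).trans ?_
    exact sm x hx _ (abs_nonneg _) (le_add_of_nonneg_right (abs_nonneg _))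

end Vale.Agent.P088
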