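import Vale.Agent.P088.TcTool

/-!
# P088, the sliding argument: the logarithmic weight
-/

open MeasureTheory Set Metric Filter
open scoped ContDiff Topology

noncomputable section
namespace Vale.Agent.P088
open Vale.Agent.P136

namespace TcWt

variable {n K J : ℕ} {L0 sg : ℝ}

/-- The moments as functions of `u`. -/
def mq (K : ℕ) (L0 sg : ℝ) (J i : ℕ) (u : ℝ) : ℝ := dy K L0 J i (1 - sg - u)

theorem mq_pos (hL : 0 < L0) (i : ℕ) (u : ℝ) : 0 < mq K L0 sg J i u := by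
  unfold mq dy
  exact Finset.sum_pos (fun _ _ => by positivity) ⟨0, by simp⟩

theorem mq_der (i : ℕ) (u : ℝ) : HasDerivAt (mq K L0 sg J i) (mq K L0 sg J (i + 1) u) u := by
  unfold mq dy
  refine HasDerivAt.fun_sum fun j _ => ?_
  have h := ((((hasDerivAt_id u).const_sub (1 - sg)).const_mul (L0 * 2 ^ j)).neg.exp).const_mul
    ((L0 * 2 ^ j) ^ (2 * K + i))
  refine h.congr_deriv ?_
  simp only [Pi.neg_apply, id]
  ring

theorem mq_sm (i : ℕ) : ContDiff ℝ ∞ (mq K L0 sg J i) := by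
  unfold mq dy
  exact ContDiff.sum fun j _ => contDiff_const.mul (by fun_prop)

theorem aU_eq (u : ℝ) : aU K L0 sg J u = 2 * Real.exp (2 * L0 + 1) * mq K L0 sg J 0 u := by
  unfold aU mq dy wj omj
  rw [mul_assoc, Finset.mul_sum (a := Real.exp (2 * L0 + 1))]
  congr 1
  refine Finset.sum_congr rfl fun j _ => ?_
  rw [mul_assoc, ← Real.exp_add, mul_left_comm, ← Real.exp_add, add_zero]
  congr 2
  ring

/-- The logarithmic derivative. -/
def Lu (K : ℕ) (L0 sg : ℝ) (J : ℕ) (u : ℝ) : ℝ := mq K L0 sg J 1 u / mq K L0 sg J 0 u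

theorem Lu_der (hL : 0 < L0) (u : ℝ) : HasDerivAt (Lu K L0 sg J)
    (mq K L0 sg J 2 u / mq K L0 sg J 0 u - Lu K L0 sg J u ^ 2) u := by
  have h0 := (mq_pos (K := K) (J := J) (sg := sg) hL 0 u).ne'
  refine ((mq_der 1 u).div (mq_der 0 u) h0).congr_deriv ?_
  unfold Lu
  field_simp

theorem ell_der (hL : 0 < L0) (u : ℝ) :
    HasDerivAt (fun u => ell K L0 sg J u / K) (Lu K L0 sg J u / 2 / K) u := by
  have h0 := (mq_pos (K := K) (J := J) (sg := sg) hL 0 u).ne'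
  have h1 : (2 * Real.exp (2 * L0 + 1) * mq K L0 sg J 0 u) ≠ 0 := by positivity
  have h := ((((mq_der (K := K) (J := J) (L0 := L0) (sg := sg) 0 u).const_mul
    (2 * Real.exp (2 * L0 + 1))).log h1).div_const 2).div_const (K : ℝ)
  simp only [ell, aU_eq]
  refine h.congr_deriv ?_
  unfold Lu
  field_simp

theorem has_nsq (x : En n) {φ : ℝ → ℝ} {φ' : ℝ} (h : HasDerivAt φ φ' (‖x‖ ^ 2)) :
    DifferentiableAt ℝ (fun x : En n => φ (‖x‖ ^ 2)) x ∧
      ∀ i, D (ee i) (fun x : En n => φ (‖x‖ ^ 2)) x = φ' * (2 * x i) := by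
  have h1 := h.comp_hasFDerivAt x (hasStrictFDerivAt_norm_sq x).hasFDerivAt
  refine ⟨h1.differentiableAt, fun i => ?_⟩
  have h2 : D (ee i) (fun x : En n => φ (‖x‖ ^ 2)) x =
      fderiv ℝ (φ ∘ fun x : En n => ‖x‖ ^ 2) x (ee i) := rfl
  rw [h2, h1.fderiv]
  simp [ee, EuclideanSpace.inner_single_right]

theorem D_coord (x : En n) (i j : Fin n) :
    DifferentiableAt ℝ (fun x : En n => x j) x ∧
      D (ee i) (fun x : En n => x j) x = if j = i then 1 else 0 := by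
  have h1 := (EuclideanSpace.proj j : En n →L[ℝ] ℝ).hasFDerivAt (x := x)
  refine ⟨h1.differentiableAt, ?_⟩
  have h2 : D (ee i) (fun x : En n => x j) x =
      fderiv ℝ (EuclideanSpace.proj j : En n →L[ℝ] ℝ) x (ee i) := rfl
  rw [h2, h1.fderiv]
  simp [ee]

theorem D1 (hL : 0 < L0) (j : Fin n) : D (ee j) (psi K L0 sg J) =
    fun x : En n => (K : ℝ)⁻¹ * (Lu K L0 sg J (‖x‖ ^ 2) * x j) := by
  funext x
  refine ((has_nsq x (ell_der hL _)).2 j).trans ?_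
  ring

theorem D2 (hL : 0 < L0) (i j : Fin n) (x : En n) : D (ee i) (D (ee j) (psi K L0 sg J)) x =
    (K : ℝ)⁻¹ * (Lu K L0 sg J (‖x‖ ^ 2) * (if j = i then 1 else 0) +
      (mq K L0 sg J 2 (‖x‖ ^ 2) / mq K L0 sg J 0 (‖x‖ ^ 2) - Lu K L0 sg J (‖x‖ ^ 2) ^ 2) *
        (2 * x i) * x j) := by
  have h1 := has_nsq x (Lu_der (K := K) (J := J) (sg := sg) hL _)
  have h2 := D_coord x i j
  rw [D1 hL, D_const_mul_at (h1.1.fun_mul h2.1), D_mul_at h1.1 h2.1, h1.2, h2.2]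

theorem sm (hL : 0 < L0) : Sm (psi K L0 sg J : En n → ℝ) := by
  have h : ContDiff ℝ ∞ fun u => ell K L0 sg J u / K := by
    simp only [ell, aU_eq]
    exact (((contDiff_const.mul (mq_sm 0)).log fun u =>
      (mul_pos (by positivity) (mq_pos hL 0 u)).ne').div_const 2).div_const _
  exact h.comp (contDiff_norm_sq ℝ)

theorem num2 {C c l e δ a b k : ℝ} (hC : 1 ≤ C) (hc : 1 ≤ c) (hl : c ≤ C * l) (he0 : 0 ≤ e)
    (he : e ≤ C * c ^ 2) (hδ : |δ| ≤ 1) (ha : |a| ≤ 5 / 4) (hb : |b| ≤ 5 / 4) (hk : 0 ≤ k) :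
    |k * (l * δ + (e - l ^ 2) * (2 * a) * b)| ≤ k * ((C + 4 * (C ^ 3 + 1)) * l ^ 2) := by
  have hl0 : 0 < l := (mul_pos_iff_of_pos_left (by linarith : 0 < C)).1 (by linarith)
  have h1 : l ≤ C * l ^ 2 := by nlinarith
  have h2 : e ≤ C ^ 3 * l ^ 2 := by
    have : c ^ 2 ≤ (C * l) ^ 2 := pow_le_pow_left₀ (by linarith) hl 2
    nlinarith
  have h3 : |e - l ^ 2| ≤ (C ^ 3 + 1) * l ^ 2 := by
    have : 0 ≤ C ^ 3 * l ^ 2 := by positivity
    rw [abs_le]; constructor <;> nlinarith [sq_nonneg l]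
  have h4 : |2 * a| * |b| ≤ 4 := by
    rw [abs_mul, abs_two]
    nlinarith [abs_nonneg a, abs_nonneg b]
  rw [abs_mul, abs_of_nonneg hk]
  refine mul_le_mul_of_nonneg_left ((abs_add_le _ _).trans ?_) hk
  rw [abs_mul, abs_of_pos hl0, mul_assoc, abs_mul, abs_mul (2 * a)]
  have h5 := mul_le_mul h3 h4 (by positivity) (by positivity)
  have h6 := mul_le_of_le_one_right hl0.le hδ
  linarith

end TcWt

open TcWt in
theorem s_tcWt (hm : S_mom) : S_tcWt := by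
  intro n K hK
  obtain ⟨C, hC, hm⟩ := hm K 2 hK
  have hK' : (1 : ℝ) ≤ K := by exact_mod_cast hK
  refine ⟨2 * C + 2 * K * (C + 4 * (C ^ 3 + 1)), by positivity, fun P =>
    ⟨max C (2 * K ^ 2 * C ^ 2 * |P|), fun L0 hL hL1 sg J p hsg hp => ?_⟩⟩
  have hL0 : 0 < L0 := by linarith
  refine ⟨sm hL0, fun x hx => ?_⟩
  have hx1 : 3 / 4 ≤ ‖x‖ ∧ ‖x‖ ≤ 5 / 4 := by
    rw [mem_ball, dist_eq_norm] at hx
    have := abs_le.1 ((abs_norm_sub_norm_le x p).trans hx.le)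
    rw [hp] at this
    constructor <;> linarith [this.1, this.2]
  have hxi : ∀ i, |x i| ≤ 5 / 4 := fun i => (PiLp.norm_apply_le x i).trans hx1.2
  obtain ⟨m1, m2, m3, -, -, m4, -⟩ := hm L0 J (1 - sg - ‖x‖ ^ 2) hL1
  set c := cl L0 J (1 - sg - ‖x‖ ^ 2)
  have hc : 1 ≤ c := hL1.trans m4
  have g0 : 0 < mq K L0 sg J 0 (‖x‖ ^ 2) := mq_pos hL0 0 _
  have l0 : 0 < Lu K L0 sg J (‖x‖ ^ 2) := div_pos (mq_pos hL0 1 _) g0
  have l1 : Lu K L0 sg J (‖x‖ ^ 2) ≤ C * c := by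
    rw [Lu, div_le_iff₀ g0]
    simpa only [pow_one, mq] using m1 1 one_le_two
  have l2 : c ≤ C * Lu K L0 sg J (‖x‖ ^ 2) := by
    rw [Lu, ← mul_div_assoc, le_div_iff₀ g0]
    exact m2
  have l3 : mq K L0 sg J 2 (‖x‖ ^ 2) / mq K L0 sg J 0 (‖x‖ ^ 2) ≤ C * c ^ 2 := by
    rw [div_le_iff₀ g0]
    exact m1 2 le_rfl
  have ha : c ^ (2 * K) ≤ aU K L0 sg J (‖x‖ ^ 2) := by
    have e1 : Real.exp (-L0) ≤ Real.exp (-(L0 * max (1 - sg - ‖x‖ ^ 2) 0)) := by
      refine Real.exp_le_exp.2 (neg_le_neg (mul_le_of_le_one_right hL0.le (max_le ?_ zero_le_one)))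
      linarith [sq_nonneg ‖x‖]
    have e2 : c ^ (2 * K) * Real.exp (-L0) ≤ C * mq K L0 sg J 0 (‖x‖ ^ 2) :=
      (mul_le_mul_of_nonneg_left e1 (by positivity)).trans m3
    have e3 : C ≤ Real.exp L0 := by
      have := (le_max_left _ _).trans hL
      linarith [Real.add_one_le_exp L0]
    have e4 : Real.exp L0 * Real.exp L0 ≤ Real.exp (2 * L0 + 1) := by
      rw [← Real.exp_add]; exact Real.exp_le_exp.2 (by linarith)
    rw [Real.exp_neg, ← div_eq_mul_inv, div_le_iff₀ (Real.exp_pos _)] at e2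
    rw [aU_eq]
    refine e2.trans ?_
    have e5 : C * Real.exp L0 ≤ 2 * Real.exp (2 * L0 + 1) := by
      nlinarith [Real.exp_pos L0, Real.exp_pos (2 * L0 + 1)]
    calc _ = C * Real.exp L0 * mq K L0 sg J 0 (‖x‖ ^ 2) := by ring
      _ ≤ _ := mul_le_mul_of_nonneg_right e5 g0.le
  have hψ : Real.log c ≤ psi K L0 sg J x := by
    have := Real.log_le_log (by positivity) ha
    rw [Real.log_pow] at this
    rw [psi, ell, le_div_iff₀ (by positivity), le_div_iff₀ two_pos]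
    push_cast at this
    linarith
  have hexp : c ≤ Real.exp (psi K L0 sg J x) := (Real.log_le_iff_le_exp (by linarith)).1 hψ
  have hk : (K : ℝ)⁻¹ ≤ 1 := inv_le_one_of_one_le₀ hK'
  have hsum : (K : ℝ)⁻¹ ^ 2 * Lu K L0 sg J (‖x‖ ^ 2) ^ 2 / 2 ≤
      ∑ l, D (ee l) (psi K L0 sg J) x ^ 2 := by
    simp only [D1 hL0, mul_pow, ← Finset.mul_sum]
    rw [← EuclideanSpace.real_norm_sq_eq, mul_div_assoc]
    refine mul_le_mul_of_nonneg_left ?_ (by positivity)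
    have : 1 / 2 ≤ ‖x‖ ^ 2 := by nlinarith [hx1.1]
    nlinarith [sq_nonneg (Lu K L0 sg J (‖x‖ ^ 2))]
  have hB : 0 ≤ 2 * K * (C + 4 * (C ^ 3 + 1)) := by positivity
  refine ⟨(Real.log_nonneg hc).trans hψ, fun i => ?_, fun i j => ?_, le_trans ?_ hsum⟩
  · simp only [D1 hL0]
    rw [abs_mul, abs_mul, abs_of_pos l0, abs_of_nonneg (by positivity : 0 ≤ (K : ℝ)⁻¹)]
    have e1 : Lu K L0 sg J (‖x‖ ^ 2) * |x i| ≤ C * c * 2 :=
      mul_le_mul l1 (by linarith [hxi i]) (abs_nonneg _) (by positivity)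
    have e2 := mul_le_of_le_one_left (by positivity : 0 ≤ Lu K L0 sg J (‖x‖ ^ 2) * |x i|) hk
    have e3 : 2 * C * c ≤ (2 * C + 2 * K * (C + 4 * (C ^ 3 + 1))) * Real.exp (psi K L0 sg J x) :=
      mul_le_mul (by linarith) hexp (by linarith) (by positivity)
    linarith
  · rw [D2 hL0]
    refine (num2 hC hc l2 (div_pos (mq_pos hL0 2 _) g0).le l3 (by split_ifs <;> simp) (hxi i)
      (hxi j) (by positivity)).trans ?_
    refine le_trans (le_of_eq ?_) (mul_le_mul (le_add_of_nonneg_left (by positivity)) hsum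
      (by positivity) (by positivity))
    field_simp
  · have e1 : 2 * K ^ 2 * C ^ 2 * |P| ≤ L0 := (le_max_right _ _).trans hL
    have e2 : L0 ^ 2 ≤ (C * Lu K L0 sg J (‖x‖ ^ 2)) ^ 2 := pow_le_pow_left₀ hL0.le (m4.trans l2) 2
    have e3 : C ^ 2 * (2 * K ^ 2 * |P|) ≤ C ^ 2 * Lu K L0 sg J (‖x‖ ^ 2) ^ 2 := by nlinarith
    have e4 := le_of_mul_le_mul_left e3 (by positivity)
    refine (le_abs_self P).trans ?_
    rw [inv_pow, ← div_eq_inv_mul, div_div, le_div_iff₀ (by positivity)]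
    linarith

end Vale.Agent.P088
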