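import Vale.Agent.P088.TcSlide
import Vale.Agent.P088.TcCore
import Vale.Agent.P088.TcA1
import Vale.Agent.P088.TcA2
import Vale.Agent.P088.TcB
import Vale.Agent.P088.TcD
import Vale.Agent.P088.TcE
import Vale.Agent.P088.TcFd
import Vale.Agent.P088.TcInit
import Vale.Agent.P088.TcInt
import Vale.Agent.P088.TcInv
import Vale.Agent.P088.TcK0
import Vale.Agent.P088.TcKorn
import Vale.Agent.P088.TcLoc
import Vale.Agent.P088.TcT
import Vale.Agent.P088.TcWt
import Vale.Agent.P088.TcWt2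

/-!
# P088: the normalized local theorem from the gain
-/

namespace Vale.Agent.P088

theorem s_LT0 (hgain : S_gain) (hm : S_mom) : S_LT0 :=
  have hT := s_tcT s_tcInv
  have h1 := s_tcK1 s_tcK0
  have hA := s_tcA hT (s_tcA1 h1) (s_tcA2 s_tcK0)
  s_tcSlide hA (s_tcWt2 hm) s_tcInit (s_tcStep hgain hT hA s_tcB (s_tcWt hm) (s_tcWt2 hm)
    (s_tcCore (s_tcD h1 s_tcK2 s_tcD0) (s_tcE s_tcKorn) (s_tcLoc (s_tcInt s_tcFd))))

end Vale.Agent.P088
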