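import Vale.Agent.P088.StG
import Vale.Agent.P088.LocBasic
import Vale.Agent.P088.SbLin

/-!
# P088, the sliding argument: definitions and interface statements
-/

open MeasureTheory Set Metric Filter
open scoped ContDiff Topology

noncomputable section
namespace Vale.Agent.P088
open Vale.Agent.P136 (D Dp Dm Sm Tst)

section defs
variable {n : ℕ} {ι : Type} [Fintype ι] [DecidableEq ι]

/-- Families of matrix valued functions: `W s col a`. -/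
abbrev WF (n : ℕ) (ι : Type) : Type := Sp n → ι → ι → En n → ℝ

/-- Coefficients `T ab c e col`. -/
abbrev TF (n : ℕ) (ι : Type) : Type := Fin n × Fin n → Fin n → ι → ι → En n → ℝ

/-- The difference of the special solutions. -/
def EE (W₁ W₂ : WF n ι) : WF n ι := fun s col a y => W₁ s col a y - W₂ s col a y

/-- The difference of the principal parts. -/
def BB (L₁ L₂ : Op n ι) : MatF n := fun i j y => L₁.γ i j y - L₂.γ i j y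

/-- The second derivative `∂_c ∂_j` of the model polynomial `qq p (.inr ab)`. -/
def tq (ab : Fin n × Fin n) (c j : Fin n) : ℝ :=
  (if c = ab.1 ∧ j = ab.2 then 1 else 0) + (if c = ab.2 ∧ j = ab.1 then 1 else 0) -
    if ab.1 = ab.2 ∧ c = j then 2 / (n : ℝ) else 0

/-- `V_{ab} - V_c T^c_{ab}`. -/
def cT (T : TF n ι) (V : WF n ι) (ab : Fin n × Fin n) (col a : ι) : En n → ℝ := fun y =>
  V (.inr ab) col a y - ∑ c, ∑ e, V (.inl c) e a y * T ab c e col y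

/-- `∂_j W_c ∂_i T^c_{ab}`. -/
def Th (T : TF n ι) (W : WF n ι) (ab : Fin n × Fin n) (i j : Fin n) (col a : ι) : En n → ℝ :=
  fun y => ∑ c, ∑ e, D (ee j) (W (.inl c) e a) y * D (ee i) (T ab c e col) y

/-- `T` solves `∂_i W_{ab} = ∂_i W_c T^c_{ab}` on `ball p r` and is close to the model. -/
structure TOk (η : ℝ) (Mt : ℕ → ℝ) (p : En n) (r : ℝ) (W : WF n ι) (T : TF n ι) : Prop where
  sm : ∀ ab c e col, ContDiffOn ℝ ∞ (T ab c e col) (ball p r)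
  bd : ∀ x ∈ ball p r, ∀ k ab c e col, SB ee k (Mt k) 1 (T ab c e col) x
  eqn : ∀ x ∈ ball p r, ∀ ab col a i, D (ee i) (W (.inr ab) col a) x =
    ∑ c, ∑ e, D (ee i) (W (.inl c) e a) x * T ab c e col x
  dT : ∀ x ∈ ball p r, ∀ ab c e col j,
    |D (ee j) (T ab c e col) x - if e = col then tq ab c j else 0| ≤ η
  dW : ∀ x ∈ ball p r, ∀ c e a i,
    |D (ee i) (W (.inl c) e a) x - if i = c ∧ e = a then 1 else 0| ≤ η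

/-- The unpacked hypotheses on the operators and the special solutions. -/
structure Bas (om : ℝ) (M : ℕ → ℝ) (L₁ L₂ : Op n ι) (p : En n) (W₁ W₂ : WF n ι) : Prop where
  hp : ‖p‖ = 1
  gd₁ : L₁.Good
  gd₂ : L₂.Good
  near : ∀ i j x, |L₁.γ i j x - if i = j then 1 else 0| ≤ om
  γ₁ : ∀ k i j x, SB ee k (M k) 1 (L₁.γ i j) x
  γ₂ : ∀ k i j x, SB ee k (M k) 1 (L₂.γ i j) x
  b₁ : ∀ k i a a' x, SB ee k (M k) 1 (L₁.b i a a') x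
  b₂ : ∀ k i a a' x, SB ee k (M k) 1 (L₂.b i a a') x
  c₁ : ∀ x ∈ U0 p, ∀ a a', L₁.c a a' x = 0
  c₂ : ∀ x ∈ U0 p, ∀ a a', L₂.c a a' x = 0
  tr : ∀ x ∈ U0 p, ∑ i, BB L₁ L₂ i i x = 0
  eqL : L₁.EqOn L₂ (O0 p)
  s₁ : ∀ s col, Sol L₁ (U0 p) (W₁ s col) 0
  s₂ : ∀ s col, Sol L₂ (U0 p) (W₂ s col) 0
  eqW : ∀ s col a, EqOn (W₁ s col a) (W₂ s col a) (O0 p)
  w₁ : ∀ x ∈ U0 p, ∀ k s col a, SB ee k (M k) 1 (W₁ s col a) x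
  w₂ : ∀ x ∈ U0 p, ∀ k s col a, SB ee k (M k) 1 (W₂ s col a) x
  jet : ∀ s col a (l : List (Fin n)), l.length ≤ qo s →
    Ds ee l (W₂ s col a) p = if col = a then Ds ee l (qq p s) p else 0
  gauge : ∀ x ∈ U0 p, ∀ c, ∑ a, EE W₁ W₂ (.inl c) a a x = 0

/-- The conformal Killing expression of the matrix `d i j = ∂_i V_j`. -/
def CK (d : Fin n → Fin n → ℝ) (i j : Fin n) : ℝ :=
  d i j + d j i - if i = j then 2 / (n : ℝ) * ∑ l, d l l else 0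

/-- `exp (psi x) ^ (2 K) = aU K L0 sg J (‖x‖ ^ 2)`. -/
def psi (K : ℕ) (L0 sg : ℝ) (J : ℕ) : En n → ℝ := fun x => ell K L0 sg J (‖x‖ ^ 2) / K

/-- The properties of the logarithmic weight. -/
def WOk (A P : ℝ) (p : En n) (ψ : En n → ℝ) : Prop :=
  Sm ψ ∧ ∀ x ∈ ball p (1 / 4), 0 ≤ ψ x ∧ (∀ i, |D (ee i) ψ x| ≤ A * Real.exp (ψ x)) ∧
    (∀ i j, |D (ee i) (D (ee j) ψ) x| ≤ A * ∑ l, D (ee l) ψ x ^ 2) ∧ P ≤ ∑ l, D (ee l) ψ x ^ 2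

/-- The induction hypothesis (with the factor `t`). -/
def HH (K C₀ : ℕ) (L0 sg : ℝ) (J : ℕ) (δ t : ℝ) (p : En n) (E : WF n ι) : Prop :=
  ∀ x ∈ X0 p δ, ∀ s col a, SB ee 8 (t / aU K L0 sg J (‖x‖ ^ 2) ^ C₀) 1 (E s col a) x

end defs

/-- The inverse of a matrix function that is close to the identity. -/
def S_tcInv : Prop := ∀ (n : ℕ) (I : Type) [Fintype I] [DecidableEq I] (M : ℕ → ℝ),
  ∃ M' : ℕ → ℝ, ∀ (U : Set (En n)) (J : I → I → En n → ℝ), IsOpen U →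
    (∀ i j, ContDiffOn ℝ ∞ (J i j) U) →
    (∀ x ∈ U, ∀ i j, |J i j x - if i = j then 1 else 0| * (2 * Fintype.card I) ≤ 1 ∧
      ∀ k, SB ee k (M k) 1 (J i j) x) →
    ∃ G : I → I → En n → ℝ, (∀ i j, ContDiffOn ℝ ∞ (G i j) U) ∧ ∀ x ∈ U, ∀ i j,
      (∑ l, J i l x * G l j x = if i = j then 1 else 0) ∧ ∀ k, SB ee k (M' k) 1 (G i j) x

/-- Existence of the coefficients `T`. -/
def S_tcT : Prop := ∀ (n : ℕ) (ι : Type) [Fintype ι] [DecidableEq ι] (M : ℕ → ℝ),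
  ∃ Mt : ℕ → ℝ, ∀ η : ℝ, 0 < η → ∃ r : ℝ, 0 < r ∧ r ≤ 1 / 10 ∧ ∀ (om : ℝ) (L₁ L₂ : Op n ι)
    (p : En n) (W₁ W₂ : WF n ι), Bas om M L₁ L₂ p W₁ W₂ → ∃ T, TOk η Mt p r W₂ T

/-- `L₁ E = -(L₁ - L₂) W₂`. -/
def S_tcK0 : Prop := ∀ (n : ℕ) (ι : Type) [Fintype ι] [DecidableEq ι] (om : ℝ) (M : ℕ → ℝ)
  (L₁ L₂ : Op n ι) (p : En n) (W₁ W₂ : WF n ι), Bas om M L₁ L₂ p W₁ W₂ →
  ∀ x ∈ U0 p, ∀ s col a, L₁.app (EE W₁ W₂ s col) a x =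
    -(∑ i, ∑ j, BB L₁ L₂ i j x * D (ee i) (D (ee j) (W₂ s col a)) x +
      ∑ i, ∑ j, D (ee i) (BB L₁ L₂ i j) x * D (ee j) (W₂ s col a) x +
      ∑ i, ∑ a', (L₁.b i a a' x - L₂.b i a a' x) * D (ee i) (W₂ s col a') x)

/-- Elimination of the first-order coefficients. -/
def S_tcK1 : Prop := ∀ (n : ℕ) (ι : Type) [Fintype ι] [DecidableEq ι] (om η r : ℝ) (M Mt : ℕ → ℝ)
  (L₁ L₂ : Op n ι) (p : En n) (W₁ W₂ : WF n ι) (T : TF n ι), Bas om M L₁ L₂ p W₁ W₂ →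
  TOk η Mt p r W₂ T → r ≤ 1 / 4 → ∀ x ∈ ball p r, ∀ ab col a,
    ∑ i, ∑ j, BB L₁ L₂ i j x * Th T W₂ ab i j col a x =
      ∑ c, ∑ e, L₁.app (EE W₁ W₂ (.inl c) e) a x * T ab c e col x -
        L₁.app (EE W₁ W₂ (.inr ab) col) a x

/-- The product rule. -/
def S_tcK2 : Prop := ∀ (n : ℕ) (ι : Type) [Fintype ι] (L : Op n ι) (U : Set (En n)) (V : WF n ι)
  (T : TF n ι), L.Good → IsOpen U → (∀ s col a, ContDiffOn ℝ ∞ (V s col a) U) →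
  (∀ ab c e col, ContDiffOn ℝ ∞ (T ab c e col) U) → ∀ x ∈ U, ∀ ab col a,
    L.app (cT T V ab col) a x = L.app (V (.inr ab) col) a x -
      ∑ c, ∑ e, L.app (V (.inl c) e) a x * T ab c e col x -
      2 * ∑ c, ∑ e, ∑ i, ∑ j, L.γ i j x * D (ee i) (V (.inl c) e a) x * D (ee j) (T ab c e col) x -
      ∑ c, ∑ e, (V (.inl c) e a x * dgd ee L.γ (T ab c e col) x +
        ∑ i, ∑ a', L.b i a a' x * V (.inl c) e a' x * D (ee i) (T ab c e col) x)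

/-- The principal parts differ by `O(|E|_{C^8})`. -/
def S_tcA1 : Prop := ∀ (n : ℕ) (ι : Type) [Fintype ι] [DecidableEq ι] [Nonempty ι] (M Mt : ℕ → ℝ),
  ∃ η C : ℝ, 0 < η ∧ 1 ≤ C ∧ ∀ (om r : ℝ) (L₁ L₂ : Op n ι) (p : En n) (W₁ W₂ : WF n ι)
    (T : TF n ι), Bas om M L₁ L₂ p W₁ W₂ → TOk η Mt p r W₂ T → r ≤ 1 / 4 → ∀ x ∈ ball p r,
    ∀ w : ℝ, (∀ s col a, SB ee 8 w 1 (EE W₁ W₂ s col a) x) →
    ∀ i j, SB ee 6 (C * w) 1 (BB L₁ L₂ i j) x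

/-- The first-order parts differ by `O(|E|_{C^2} + |B|_{C^1})`. -/
def S_tcA2 : Prop := ∀ (n : ℕ) (ι : Type) [Fintype ι] [DecidableEq ι] (M : ℕ → ℝ),
  ∃ η C : ℝ, 0 < η ∧ 1 ≤ C ∧ ∀ (om : ℝ) (L₁ L₂ : Op n ι) (p : En n) (W₁ W₂ : WF n ι),
    Bas om M L₁ L₂ p W₁ W₂ → ∀ x ∈ U0 p,
    (∀ c e a i, |D (ee i) (W₂ (.inl c) e a) x - if i = c ∧ e = a then 1 else 0| ≤ η) →
    ∀ w : ℝ, (∀ s col a, SB ee 2 w 1 (EE W₁ W₂ s col a) x) →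
    (∀ i j, SB ee 1 w 1 (BB L₁ L₂ i j) x) → ∀ i a a', |L₁.b i a a' x - L₂.b i a a' x| ≤ C * w

/-- The coefficients differ by `O(|E|_{C^8})` near `p`. -/
def S_tcA : Prop := ∀ (n : ℕ) (ι : Type) [Fintype ι] [DecidableEq ι] [Nonempty ι] (M : ℕ → ℝ),
  ∃ r C : ℝ, 0 < r ∧ r ≤ 1 / 10 ∧ 0 ≤ C ∧ ∀ (om : ℝ) (L₁ L₂ : Op n ι) (p : En n)
    (W₁ W₂ : WF n ι), Bas om M L₁ L₂ p W₁ W₂ → ∀ x ∈ ball p r,
    ∀ w : ℝ, (∀ s col a, SB ee 8 w 1 (EE W₁ W₂ s col a) x) →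
    (∀ i j, SB ee 6 (C * w) 1 (BB L₁ L₂ i j) x) ∧
      ∀ i a a', |L₁.b i a a' x - L₂.b i a a' x| ≤ C * w

/-- The algebra behind the conformal Killing inequality. -/
def S_tcD0 : Prop := ∀ (n : ℕ) (ι : Type) [Fintype ι] [DecidableEq ι] [Nonempty ι], ∃ c : ℝ, 1 ≤ c ∧
  ∀ (η ρ e₁ : ℝ) (γ B : Fin n → Fin n → ℝ) (d dW : Fin n → ι → ι → Fin n → ℝ)
    (dT : Fin n × Fin n → Fin n → ι → ι → Fin n → ℝ), c * η ≤ 1 →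
    (∀ i j, |γ i j - if i = j then 1 else 0| ≤ η) →
    (∀ ab c e col j, |dT ab c e col j - if e = col then tq ab c j else 0| ≤ η) →
    (∀ c e a i, |dW c e a i - if i = c ∧ e = a then 1 else 0| ≤ η) →
    (∀ i j, B i j = B j i) → ∑ i, B i i = 0 → (∀ c i, ∑ a, d c a a i = 0) →
    (∀ c e a i, |d c e a i| ≤ e₁) →
    (∀ ab col a, |2 * ∑ c, ∑ e, ∑ i, ∑ j, γ i j * d c e a i * dT ab c e col j +
      ∑ i, ∑ j, B i j * ∑ c, ∑ e, dW c e a j * dT ab c e col i| ≤ ρ) →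
    ∀ col a i j, |CK (fun i j => d j col a i) i j| ≤ c * ρ + c * η * e₁

/-- The pointwise conformal Killing inequality. -/
def S_tcD : Prop := ∀ (n : ℕ) (ι : Type) [Fintype ι] [DecidableEq ι] [Nonempty ι] (M Mt : ℕ → ℝ),
  ∃ c : ℝ, 1 ≤ c ∧ ∀ (η r : ℝ) (L₁ L₂ : Op n ι) (p : En n) (W₁ W₂ : WF n ι) (T : TF n ι),
    c * η ≤ 1 → Bas η M L₁ L₂ p W₁ W₂ → TOk η Mt p r W₂ T → r ≤ 1 / 4 → ∀ x ∈ ball p r,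
    ∀ w e₀ e₁ : ℝ, (∀ ab col a, SB ee 2 w 1 (cT T (EE W₁ W₂) ab col a) x) →
    (∀ c col a, |EE W₁ W₂ (.inl c) col a x| ≤ e₀) →
    (∀ c col a i, |D (ee i) (EE W₁ W₂ (.inl c) col a) x| ≤ e₁) → ∀ col a i j,
    |CK (fun i j => D (ee i) (EE W₁ W₂ (.inl j) col a) x) i j| ≤ c * w + c * e₀ + c * η * e₁

/-- The combinations with vanishing first jet. -/
def S_tcB : Prop := ∀ (n : ℕ) (ι : Type) [Fintype ι] [DecidableEq ι] (M Mt : ℕ → ℝ),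
  ∃ C : ℝ, 0 ≤ C ∧ ∀ (om η r δ G : ℝ) (L₁ L₂ : Op n ι) (p : En n) (W₁ W₂ : WF n ι) (T : TF n ι),
    Bas om M L₁ L₂ p W₁ W₂ → TOk η Mt p r W₂ T → r ≤ 1 / 4 → ∀ x ∈ ball p r,
    (∀ W W' : ι → En n → ℝ, Sol L₂ (Y0 p) W 0 → Cont L₁ p δ W W' →
      (∀ y ∈ Y0 p, ∀ a, |W a y| ≤ ‖y - x‖ ^ 2) → ∀ a, W' a x ^ 2 ≤ G) →
    ∀ ab col a, cT T (EE W₁ W₂) ab col a x ^ 2 ≤ C * G

/-- The weighted conformal Korn inequality. -/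
def S_tcKorn : Prop := ∀ n : ℕ, 3 ≤ n → ∃ ε : ℝ, 0 < ε ∧ ∀ (φ : En n → ℝ) (V : Fin n → En n → ℝ),
  Sm φ → (∀ j, Tst (V j)) →
  (∀ x j, V j x ≠ 0 → ∀ i l, |D (ee i) (D (ee l) φ) x| ≤ ε * ∑ m, D (ee m) φ x ^ 2) →
  ∫ x, (∑ i, ∑ j, Dm φ (ee i) (V j) x ^ 2 + (∑ m, D (ee m) φ x ^ 2) * ∑ j, V j x ^ 2) ≤
    9 * ∫ x, ∑ i, ∑ j, CK (fun i j => Dm φ (ee i) (V j) x) i j ^ 2

/-- The weighted `L²` bound that follows from the Korn inequality. -/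
def S_tcE : Prop := ∀ n : ℕ, 3 ≤ n → ∀ (I : Type) [Fintype I], ∃ η ε : ℝ, 0 < η ∧ 0 < ε ∧
  ∀ c : ℝ, 0 ≤ c → ∃ P : ℝ, ∀ r C₄ : ℝ, 0 < r → 0 ≤ C₄ → ∃ C : ℝ, ∀ (p : En n) (φ : En n → ℝ)
    (V : I → Fin n → En n → ℝ), Sm φ → (∀ s j, ContDiffOn ℝ ∞ (V s j) (ball p r)) →
    (∀ x ∈ ball p r, (∀ i l, |D (ee i) (D (ee l) φ) x| ≤ ε * ∑ m, D (ee m) φ x ^ 2) ∧
      P ≤ ∑ m, D (ee m) φ x ^ 2 ∧
      (∀ e₀ e₁ : ℝ, (∀ s j, |V s j x| ≤ e₀) → (∀ s j i, |D (ee i) (V s j) x| ≤ e₁) → ∀ s i j,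
        |CK (fun i j => D (ee i) (V s j) x) i j| ≤ C₄ * Real.exp (-φ x) + c * e₀ + η * e₁) ∧
      (r / 2 ≤ ‖x - p‖ → ∀ s j, Real.exp (φ x) * |V s j x| ≤ C₄)) →
    ∃ g : En n → ℝ, IntegrableOn g (ball p (r / 2)) ∧ ∫ x in ball p (r / 2), g x ≤ C ∧
      ∀ x ∈ ball p (r / 2), ∀ s j, (Real.exp (φ x) * V s j x) ^ 2 ≤ g x

/-- Finite differences. -/
def S_tcFd : Prop := ∀ (n k : ℕ) (f : En n → ℝ) (x y : En n) (r A : ℝ),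
  ContDiffOn ℝ ∞ f (ball x r) → k * ‖y‖ < r →
  (∀ z ∈ ball x r, ∀ l : List (Fin n), l.length = k → |Ds ee l f z| ≤ A) →
  |∑ j ∈ Finset.range (k + 1), (-1) ^ j * (k.choose j : ℝ) * f (x + (j : ℝ) • y)| ≤
    A * (n * ‖y‖) ^ k

/-- The interpolation inequality. -/
def S_tcInt : Prop := ∀ n m k : ℕ, ∃ C : ℝ, 0 ≤ C ∧ ∀ (f : En n → ℝ) (x : En n) (e A : ℝ), 0 < e →
  e ≤ 1 → ContDiffOn ℝ ∞ f (ball x e) → (∀ y ∈ ball x e, SB ee (m + k) A 1 f y) →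
  SB ee m (C * ((∫ y in ball x e, |f y|) / e ^ (m + n) + e ^ k * A)) 1 f x

/-- From weighted `L²` bounds to pointwise bounds. -/
def S_tcLoc : Prop := ∀ (n m N : ℕ) (A r M' C₁ : ℝ), 0 < r → r ≤ 1 → 0 ≤ A → ∃ C : ℝ, 0 ≤ C ∧
  ∀ (p : En n) (ψ f g : En n → ℝ), Sm ψ →
    (∀ x ∈ ball p r, 0 ≤ ψ x ∧ ∀ i, |D (ee i) ψ x| ≤ A * Real.exp (ψ x)) →
    ContDiffOn ℝ ∞ f (ball p r) → (∀ x ∈ ball p r, SB ee (m + N) M' 1 f x) →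
    IntegrableOn g (ball p r) → ∫ x in ball p r, g x ≤ C₁ →
    (∀ x ∈ ball p r, (Real.exp ((N + (m + n) : ℕ) * ψ x) * f x) ^ 2 ≤ g x) →
    ∀ x ∈ ball p (r / 2), SB ee m (C * Real.exp (-(N * ψ x))) 1 f x

/-- The logarithmic weight. -/
def S_tcWt : Prop := ∀ n K : ℕ, 1 ≤ K → ∃ A : ℝ, 0 ≤ A ∧ ∀ P : ℝ, ∃ L₁ : ℝ, ∀ L0 : ℝ, L₁ ≤ L0 →
  1 ≤ L0 → ∀ (sg : ℝ) (J : ℕ) (p : En n), 0 ≤ sg → ‖p‖ = 1 → WOk A P p (psi K L0 sg J)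

/-- Elementary properties of the weight. -/
def S_tcWt2 : Prop := ∀ K : ℕ, 1 ≤ K → ∃ C : ℝ, 1 ≤ C ∧ ∀ (L0 sg : ℝ) (J : ℕ) (u : ℝ), 1 ≤ L0 →
  0 < aU K L0 sg J u ∧ Real.exp (ell K L0 sg J u / K) ^ (2 * K) = aU K L0 sg J u ∧
  (∀ y, 0 < y → y ≤ 1 - sg - u → aU K L0 sg J u ≤ C * Real.exp (2 * L0) / y ^ (2 * K)) ∧
  (∀ h, 0 ≤ h → aU K L0 (sg + h) J u ≤ Real.exp (L0 * 2 ^ J * h) * aU K L0 sg J u) ∧
  (1 - sg ≤ u → 2 ^ J ≤ aU K L0 sg J u)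

/-- `E` vanishes to infinite order at `p`. -/
def S_tcInit : Prop := ∀ (n : ℕ) (ι : Type) [Fintype ι] [DecidableEq ι] (M : ℕ → ℝ) (N : ℕ),
  ∃ C : ℝ, 0 < C ∧ ∀ (om : ℝ) (L₁ L₂ : Op n ι) (p : En n) (W₁ W₂ : WF n ι),
    Bas om M L₁ L₂ p W₁ W₂ → ∀ x ∈ U0 p, x ∉ O0 p → ∀ s col a,
    SB ee 8 (C * (1 - ‖x‖ ^ 2) ^ N) 1 (EE W₁ W₂ s col a) x

/-- The gain for `E` from the gain for `F`. -/
def S_tcCore : Prop := ∀ n : ℕ, 3 ≤ n → ∀ (ι : Type) [Fintype ι] [DecidableEq ι] [Nonempty ι]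
  (M Mt : ℕ → ℝ) (A : ℝ), 0 ≤ A → ∃ (η P : ℝ) (N₁ : ℕ), 0 < η ∧ ∀ (N : ℕ) (r C₁ A₁ : ℝ), N₁ ≤ N →
  0 < r → r ≤ 1 / 4 → ∃ C : ℝ, 0 ≤ C ∧ ∀ (L₁ L₂ : Op n ι) (p : En n) (W₁ W₂ : WF n ι) (T : TF n ι)
    (ψ g : En n → ℝ), Bas η M L₁ L₂ p W₁ W₂ → TOk η Mt p r W₂ T → WOk A P p ψ →
    IntegrableOn g (ball p r) → ∫ x in ball p r, g x ≤ C₁ →
    (∀ x ∈ ball p r, ∀ ab col a,
      (Real.exp ((N + 2 * (8 + n) : ℕ) * ψ x) * cT T (EE W₁ W₂) ab col a x) ^ 2 ≤ g x) →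
    (∀ x ∈ ball p r, r / 8 ≤ ‖x - p‖ → x ∈ O0 p ∨ Real.exp (ψ x) ≤ A₁) →
    ∀ x ∈ ball p (r / 8), ∀ s col a,
      SB ee 8 (C * Real.exp (-(N * ψ x))) 1 (EE W₁ W₂ s col a) x

/-- The improvement step. -/
def S_tcStep : Prop := ∀ n : ℕ, 3 ≤ n → ∀ (ι : Type) [Fintype ι] [DecidableEq ι] [Nonempty ι]
  (M : ℕ → ℝ), ∃ (K C₀ k : ℕ) (om L0 σ δ a₁ : ℝ), 1 ≤ K ∧ 1 ≤ C₀ ∧ 0 < om ∧ 1 ≤ L0 ∧ 0 < σ ∧
    0 < δ ∧ ∀ (sg : ℝ) (J : ℕ) (L₁ L₂ : Op n ι) (p : En n)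
    (G₁ G₂ : HL n ι (U0 p) →L[ℝ] HL n ι (U0 p)) (W₁ W₂ : WF n ι), 0 ≤ sg → sg ≤ σ →
    Set0 k om M L₁ L₂ p G₁ G₂ → Bas om M L₁ L₂ p W₁ W₂ → HH K C₀ L0 sg J δ 1 p (EE W₁ W₂) →
    ∀ x ∈ X0 p δ, a₁ ≤ aU K L0 sg J (‖x‖ ^ 2) → ∀ s col a,
      SB ee 8 (1 / 2 / aU K L0 sg J (‖x‖ ^ 2) ^ C₀) 1 (EE W₁ W₂ s col a) x

end Vale.Agent.P088
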