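import Vale.Agent.P088.TcStep

/-!
# P088, the sliding argument
-/

open MeasureTheory Set Metric Filter
open scoped ContDiff Topology

noncomputable section
namespace Vale.Agent.P088
open Vale.Agent.P136

namespace TcSlide

theorem slide {Q : ℝ → Prop} {σ B : ℝ} (hσ : 0 < σ) (hB : 0 ≤ B) (h0 : Q 0)
    (hs : ∀ s h, 0 ≤ s → s ≤ σ → 0 ≤ h → B * h ≤ 1 / 2 → Q s → Q (s + h)) : Q σ := by
  obtain ⟨m, hm⟩ := exists_nat_gt (2 * B * σ)
  have hm0 : (0 : ℝ) < m := lt_of_le_of_lt (by positivity) hm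
  have h1 : B * (σ / m) ≤ 1 / 2 := by
    rw [← mul_div_assoc, div_le_iff₀ hm0]
    linarith
  have key : ∀ i : ℕ, i ≤ m → Q (i * (σ / m)) := fun i => by
    induction i with
    | zero => simpa using h0
    | succ i ih =>
      intro hi
      have h2 : (i : ℝ) ≤ m := by exact_mod_cast (Nat.le_succ i).trans hi
      rw [Nat.cast_succ, add_mul, one_mul]
      refine hs _ _ (by positivity) ?_ (by positivity) h1 (ih ((Nat.le_succ i).trans hi))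
      rw [← mul_div_assoc, div_le_iff₀ hm0]
      nlinarith
  have h3 := key m le_rfl
  rwa [mul_div_cancel₀ _ hm0.ne'] at h3

theorem exp_le {x : ℝ} (h : x ≤ 1 / 2) : Real.exp x ≤ 2 := by
  have h1 := Real.exp_le_exp.2 h
  have h2 : Real.exp (1 / 2) ^ 2 = Real.exp 1 := by rw [← Real.exp_nat_mul]; norm_num
  nlinarith [Real.exp_one_lt_d9, Real.exp_pos (1 / 2)]

theorem eq_zero {t C : ℝ} (h : ∀ J : ℕ, |t| ≤ C * (1 / 2 ^ J)) : t = 0 := by
  have h1 : Tendsto (fun J : ℕ => C * (1 / 2 : ℝ) ^ J) atTop (𝓝 (C * 0)) :=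
    (tendsto_pow_atTop_nhds_zero_of_lt_one (by norm_num) (by norm_num)).const_mul C
  rw [mul_zero] at h1
  exact abs_nonpos_iff.1 (ge_of_tendsto' h1 fun J => by rw [one_div_pow]; exact h J)

theorem init {K C₀ : ℕ} {a y D CI : ℝ} (ha : 0 < a) (hy : 0 < y) (hD : 0 < D) (hC : 0 < CI)
    (h1 : a ≤ D / y ^ (2 * K)) (h2 : y ≤ 1 / (CI * D ^ C₀)) :
    CI * y ^ (2 * K * C₀ + 1) ≤ 1 / a ^ C₀ := by
  rw [le_div_iff₀ (by positivity)] at h1 h2 ⊢
  have h3 := pow_le_pow_left₀ (by positivity) h1 C₀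
  calc _ = (y * CI) * (a * y ^ (2 * K)) ^ C₀ := by ring
    _ ≤ (y * CI) * D ^ C₀ := mul_le_mul_of_nonneg_left h3 (by positivity)
    _ ≤ 1 := by rwa [mul_assoc]

end TcSlide

open TcSlide in
theorem s_tcSlide (hA : S_tcA) (hW : S_tcWt2) (hI : S_tcInit) (hS : S_tcStep) : S_LT0 := by
  intro n hn ι _ _ _ M
  obtain ⟨K, C₀, k, om, L0, σ, δ, a₁, hK, hC₀, hom, hL0, hσ, hδ, hS⟩ := hS n hn ι M
  obtain ⟨Cw, hCw, hW⟩ := hW K hK
  obtain ⟨CI, hCI, hI⟩ := hI n ι M (2 * K * C₀ + 1)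
  obtain ⟨rA, C₁, hrA, hrA', -, hA⟩ := hA n ι M
  obtain ⟨Dd, hDd⟩ : ∃ Dd, Dd = Cw * Real.exp (2 * L0) := ⟨_, rfl⟩
  have hD : 0 < Dd := hDd ▸ by positivity
  obtain ⟨y₀, hy₀⟩ : ∃ y₀, y₀ = 1 / (CI * Dd ^ C₀) := ⟨_, rfl⟩
  have hy : 0 < y₀ := hy₀ ▸ by positivity
  obtain ⟨a₂, h21, h22⟩ : ∃ a₂, a₁ ≤ a₂ ∧ Dd / y₀ ^ (2 * K) ≤ a₂ :=
    ⟨max _ _, le_max_left _ _, le_max_right _ _⟩
  have h2 : 0 < a₂ := lt_of_lt_of_le (by positivity) h22
  refine ⟨max k 8, om, 1 / 2 / a₂ ^ C₀, hom, by positivity, ?_⟩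
  intro L₁ L₂ p G₁ G₂ W₁ W₂ h0 hsp
  have hb := Bas.of h0 hsp
  have a0 : ∀ sg J u, 0 < aU K L0 sg J u := fun sg J u => (hW L0 sg J u hL0).1
  have small : ∀ sg J, ∀ x ∈ X0 p δ, aU K L0 sg J (‖x‖ ^ 2) ≤ a₂ → ∀ s col a,
      SB ee 8 (1 / 2 / aU K L0 sg J (‖x‖ ^ 2) ^ C₀) 1 (EE W₁ W₂ s col a) x :=
    fun sg J x hx h s col a => (hsp.2.2.2.2.1 s col a x (Tc.X0_U0 hx)).2.mono (le_max_right _ _)
      (div_le_div_of_nonneg_left (by norm_num) (pow_pos (a0 _ _ _) _)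
        (pow_le_pow_left₀ (a0 _ _ _).le h _))
  have H : ∀ J, HH K C₀ L0 σ J δ 1 p (EE W₁ W₂) := fun J => by
    refine slide (Q := fun sg => HH K C₀ L0 sg J δ 1 p (EE W₁ W₂)) (B := C₀ * (L0 * 2 ^ J)) hσ
      (by positivity) (fun x hx s col a => ?_) fun sg h h1 h2 h3 h4 hH x hx s col a => ?_
    · have hp : 0 < aU K L0 0 J (‖x‖ ^ 2) ^ C₀ := pow_pos (a0 _ _ _) _
      by_cases hO : x ∈ O0 p
      · exact Tc.sb_zero (hb.E_ev hO s col a) (by positivity)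
      have h3 := hI _ L₁ L₂ p W₁ W₂ hb x (Tc.X0_U0 hx) hO s col a
      have h4 := Tc.notO0 hb.hp (Tc.X0_U0 hx) hO
      rcases (by nlinarith [sq_nonneg ‖x - p‖] : 0 ≤ 1 - ‖x‖ ^ 2).eq_or_lt with h5 | h5
      · refine h3.mono le_rfl ?_
        rw [← h5, zero_pow (by omega), mul_zero]
        positivity
      rcases le_total (1 - ‖x‖ ^ 2) y₀ with h6 | h6
      · exact h3.mono le_rfl (init (a0 _ _ _) h5 hD hCI
          (hDd ▸ (hW L0 0 J _ hL0).2.2.1 _ h5 (by linarith)) (hy₀ ▸ h6))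
      · exact (small 0 J x hx (le_trans (hDd ▸ (hW L0 0 J _ hL0).2.2.1 _ hy (by linarith)) h22)
          s col a).mono le_rfl (div_le_div_of_nonneg_right (by norm_num) hp.le)
    · have h5 : SB ee 8 (1 / 2 / aU K L0 sg J (‖x‖ ^ 2) ^ C₀) 1 (EE W₁ W₂ s col a) x := by
        rcases le_total (aU K L0 sg J (‖x‖ ^ 2)) a₂ with h6 | h6
        · exact small sg J x hx h6 s col a
        · exact hS sg J L₁ L₂ p G₁ G₂ W₁ W₂ h1 h2 (TcStep.set0_mono h0 (le_max_left _ _) le_rfl)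
            hb hH x hx (h21.trans h6) s col a
      refine h5.mono le_rfl ?_
      have h6 := pow_le_pow_left₀ (a0 _ _ _).le
        ((hW L0 sg J (‖x‖ ^ 2) hL0).2.2.2.1 h h3) C₀
      rw [mul_pow, ← Real.exp_nat_mul] at h6
      have h7 := exp_le (x := C₀ * (L0 * 2 ^ J * h)) (by linarith)
      have h8 := pow_pos (a0 sg J (‖x‖ ^ 2)) C₀
      rw [div_div, one_div_le_one_div (by positivity) (pow_pos (a0 _ _ _) _)]
      exact h6.trans (mul_le_mul_of_nonneg_right h7 h8.le)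
  refine ⟨min rA (min (σ / 2) δ), lt_min hrA (lt_min (by positivity) hδ), fun x hx => ?_⟩
  have hxA : x ∈ ball p rA := ball_subset_ball (min_le_left _ _) hx
  have h3 := Tc.norm_ge hb.hp hx ((min_le_left _ _).trans (by linarith))
  have h4 : min rA (min (σ / 2) δ) ≤ σ / 2 := (min_le_right _ _).trans (min_le_left _ _)
  have h5 : min rA (min (σ / 2) δ) ≤ δ := (min_le_right _ _).trans (min_le_right _ _)
  have hx0 : x ∈ X0 p δ := ⟨ball_subset_ball (by linarith) hxA, by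
    change 1 - 3 * δ < _
    linarith⟩
  have key := fun J : ℕ => hA _ L₁ L₂ p W₁ W₂ hb x hxA (1 / 2 ^ J) fun s col a =>
    (H J x hx0 s col a).mono le_rfl (one_div_le_one_div_of_le (by positivity) (by
      have h6 := (hW L0 σ J (‖x‖ ^ 2) hL0).2.2.2.2 (by linarith)
      exact h6.trans (le_self_pow₀ ((one_le_pow₀ one_le_two).trans h6) (by omega))))
  have hU : x ∈ U0 p := Tc.X0_U0 hx0
  exact ⟨fun i j => sub_eq_zero.1 (eq_zero fun J => ((key J).1 i j).abs_le),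
    fun i a a' => sub_eq_zero.1 (eq_zero fun J => (key J).2 i a a'),
    fun a a' => (hb.c₁ x hU a a').trans (hb.c₂ x hU a a').symm⟩

end Vale.Agent.P088
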