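import Vale.Agent.P088.TcTool

/-!
# P088, the sliding argument: the improvement step
-/

open MeasureTheory Set Metric Filter
open scoped ContDiff Topology

noncomputable section
namespace Vale.Agent.P088
open Vale.Agent.P136

namespace TcStep
variable {n : ℕ} {ι : Type} [Fintype ι] [DecidableEq ι]

theorem set0_mono {k k' : ℕ} {om om' : ℝ} {M : ℕ → ℝ} {L₁ L₂ : Op n ι} {p : En n}
    {G₁ G₂ : HL n ι (U0 p) →L[ℝ] HL n ι (U0 p)} (h : Set0 k om M L₁ L₂ p G₁ G₂) (hk : k' ≤ k)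
    (ho : om ≤ om') : Set0 k' om' M L₁ L₂ p G₁ G₂ := by
  obtain ⟨hp, ⟨g1, n1, m1⟩, ⟨g2, n2, m2⟩, h⟩ := h
  exact ⟨hp, ⟨g1, (n1.mono ho).mono_k hk, m1⟩, ⟨g2, (n2.mono ho).mono_k hk, m2⟩, h⟩

theorem far {p y : En n} {r sg : ℝ} (hp : ‖p‖ = 1) (hy : y ∈ U0 p) (h : y ∉ O0 p) (hr : 0 < r)
    (h1 : r / 8 ≤ ‖y - p‖) (h2 : sg ≤ r ^ 2 / 256) : r ^ 2 / 256 ≤ 1 - sg - ‖y‖ ^ 2 := by
  have h3 := Tc.notO0 hp hy h
  have h4 := pow_le_pow_left₀ (by positivity) h1 2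
  nlinarith

theorem near {p y : En n} {r δ : ℝ} (hp : ‖p‖ = 1) (hy : y ∈ X0 p δ) (h : y ∉ O0 p) (hr : 0 < r)
    (hδ : δ ≤ r ^ 2 / 6) : y ∈ ball p r := by
  have h3 := Tc.notO0 hp (Tc.X0_U0 hy) h
  have h4 : 1 - 3 * δ < ‖y‖ ^ 2 := hy.2
  rw [mem_ball, dist_eq_norm]
  exact lt_of_pow_lt_pow_left₀ 2 hr.le (by linarith)

theorem ball_X1 {p : En n} {r δ : ℝ} (hp : ‖p‖ = 1) (h1 : r ≤ 1 / 10) (h2 : r ≤ δ / 2) :
    ball p r ⊆ X1 p δ := fun y hy =>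
  ⟨ball_subset_ball (by linarith) hy, by
    have := Tc.norm_ge hp hy (by linarith)
    change 1 - δ ≤ _
    linarith⟩

theorem int_le {p : En n} {r δ C : ℝ} {G : En n → ℝ} (hG : Continuous G) (h0 : ∀ y, 0 ≤ G y)
    (hs : ball p r ⊆ X1 p δ) (h : ∫ y in X1 p δ, G y ≤ C) :
    IntegrableOn G (ball p r) ∧ ∫ y in ball p r, G y ≤ C := by
  have h1 : IntegrableOn G (X1 p δ) :=
    (hG.continuousOn.integrableOn_compact (isCompact_closedBall p (1 / 5))).mono_set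
      (inter_subset_left.trans ball_subset_closedBall)
  exact ⟨h1.mono_set hs, (setIntegral_mono_set h1 (ae_of_all _ h0) hs.eventuallyLE).trans h⟩

theorem pw1 {K C₀ N : ℕ} {s a F C G : ℝ} (hN : N = 2 * K * C₀ + K) (ha : Real.exp s ^ (2 * K) = a)
    (h : F ^ 2 ≤ C * (G / a ^ (2 * C₀))) : (Real.exp (N * s) * F) ^ 2 ≤ C * (a * G) := by
  have h0 : 0 < a := ha ▸ by positivity
  have e : Real.exp (N * s) ^ 2 = a ^ (2 * C₀) * a := by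
    rw [Real.exp_nat_mul, ← ha, hN]
    ring
  rw [mul_pow, e]
  refine (mul_le_mul_of_nonneg_left h (by positivity)).trans (le_of_eq ?_)
  field_simp

theorem pw2 {K C₀ : ℕ} {s a C : ℝ} (hK : 1 ≤ K) (ha : Real.exp s ^ (2 * K) = a) (hC : 0 ≤ C)
    (h : (2 * C + 1) ^ (2 * K) ≤ a) :
    C * Real.exp (-((2 * K * C₀ + 4 : ℕ) * s)) ≤ 1 / 2 / a ^ C₀ := by
  have h0 : 0 < a := ha ▸ by positivity
  have h1 : 2 * C + 1 ≤ Real.exp s :=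
    le_of_pow_le_pow_left₀ (by omega) (Real.exp_pos s).le (h.trans ha.ge)
  have h2 : Real.exp s ≤ Real.exp s ^ 4 := le_self_pow₀ (by linarith) (by norm_num)
  have e : Real.exp ((2 * K * C₀ + 4 : ℕ) * s) = a ^ C₀ * Real.exp s ^ 4 := by
    rw [Real.exp_nat_mul, ← ha]
    ring
  rw [Real.exp_neg, e, ← div_eq_mul_inv, div_le_div_iff₀ (by positivity) (by positivity)]
  nlinarith [mul_le_mul_of_nonneg_left (by linarith : 2 * C ≤ Real.exp s ^ 4) (pow_pos h0 C₀).le]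

end TcStep

open TcStep in
theorem s_tcStep (hg : S_gain) (hT : S_tcT) (hA : S_tcA) (hB : S_tcB) (hW : S_tcWt)
    (hW2 : S_tcWt2) (hC : S_tcCore) : S_tcStep := by
  intro n hn ι _ _ _ M
  obtain ⟨K, hK⟩ : ∃ K, K = 2 * n + 20 := ⟨_, rfl⟩
  have hK1 : 1 ≤ K := by omega
  obtain ⟨A, hA0, hW⟩ := hW n K hK1
  obtain ⟨Mt, hT⟩ := hT n ι M
  obtain ⟨η, P, N₁, hη, hC⟩ := hC n hn ι M Mt A hA0
  obtain ⟨rT, hrT, hrT', hT⟩ := hT η hη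
  obtain ⟨rA, C₁, hrA, -, hC₁, hA⟩ := hA n ι M
  obtain ⟨C₂, hC₂, hB⟩ := hB n ι M Mt
  obtain ⟨Cw, -, hW2⟩ := hW2 K hK1
  obtain ⟨L', hW⟩ := hW P
  obtain ⟨δ₀, hδ₀, hg⟩ := hg n hn ι M
  obtain ⟨δ, hδ, hδ1, hδ2⟩ : ∃ δ, 0 < δ ∧ δ ≤ δ₀ ∧ δ ≤ rA ^ 2 / 6 :=
    ⟨min δ₀ (rA ^ 2 / 6), lt_min hδ₀ (by positivity), min_le_left _ _, min_le_right _ _⟩
  obtain ⟨C₀, hC₀⟩ : ∃ C₀, C₀ = n + 4 + N₁ := ⟨_, rfl⟩
  obtain ⟨k, om, L₀, σ₀, hom, hσ₀, hg⟩ := hg δ hδ hδ1 K C₀ (by omega) (by omega) C₁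
  obtain ⟨L0, hL1, hL2, hL3⟩ : ∃ L0, L₀ ≤ L0 ∧ L' ≤ L0 ∧ 1 ≤ L0 :=
    ⟨max (max L₀ L') 1, (le_max_left _ _).trans (le_max_left _ _),
      (le_max_right _ _).trans (le_max_left _ _), le_max_right _ _⟩
  obtain ⟨C, -, hg⟩ := hg L0 hL1
  obtain ⟨r, hr, hr1, hr2⟩ : ∃ r, 0 < r ∧ r ≤ rT ∧ r ≤ δ / 2 :=
    ⟨min rT (δ / 2), lt_min hrT (by positivity), min_le_left _ _, min_le_right _ _⟩
  have hr4 : r ≤ 1 / 4 := by linarith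
  obtain ⟨A₂, hA₂⟩ : ∃ A₂, A₂ = Cw * Real.exp (2 * L0) / (r ^ 2 / 256) ^ (2 * K) := ⟨_, rfl⟩
  obtain ⟨C₅, hC₅, hC⟩ := hC (2 * K * C₀ + 4) r (C₂ * C) A₂ (by nlinarith) hr hr4
  refine ⟨K, C₀, k, min om η, L0, min σ₀ (r ^ 2 / 256), δ, max (A₂ + 1) ((2 * C₅ + 1) ^ (2 * K)),
    hK1, by omega, lt_min hom hη, hL3, lt_min hσ₀ (by positivity), hδ, ?_⟩
  intro sg J L₁ L₂ p G₁ G₂ W₁ W₂ hsg hsg' hS hb hH x hx ha s col a
  have a0 : ∀ y : En n, 0 < aU K L0 sg J (‖y‖ ^ 2) := fun y => (hW2 L0 sg J _ hL3).1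
  have a1 : ∀ y : En n, Real.exp (psi K L0 sg J y) ^ (2 * K) = aU K L0 sg J (‖y‖ ^ 2) :=
    fun y => (hW2 L0 sg J _ hL3).2.1
  have a2 : ∀ y ∈ U0 p, y ∉ O0 p → r / 8 ≤ ‖y - p‖ → aU K L0 sg J (‖y‖ ^ 2) ≤ A₂ :=
    fun y hy h h' => hA₂ ▸ (hW2 L0 sg J _ hL3).2.2.1 _ (by positivity)
      (far hb.hp hy h hr h' (hsg'.trans (min_le_right _ _)))
  by_cases hO : x ∈ O0 p
  · exact Tc.sb_zero (hb.E_ev hO s col a) (by have := a0 x; positivity)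
  have hxr : x ∈ ball p (r / 8) := by
    rw [mem_ball, dist_eq_norm, ← not_le]
    intro h
    have := a2 x (Tc.X0_U0 hx) hO h
    linarith [le_max_left (A₂ + 1) ((2 * C₅ + 1) ^ (2 * K))]
  obtain ⟨n₀, c0, p0, i0, hg⟩ := hg sg J L₁ L₂ p G₁ G₂ hsg (hsg'.trans (min_le_left _ _))
    (set0_mono hS le_rfl (min_le_left _ _)) (fun y hy a a' => ⟨hb.c₁ y hy a a', hb.c₂ y hy a a'⟩)
    fun y hy => by
      have h0 : 0 ≤ C₁ / aU K L0 sg J (‖y‖ ^ 2) ^ C₀ := by have := a0 y; positivity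
      by_cases hO : y ∈ O0 p
      · refine ⟨fun i j => Tc.sb_zero (hb.B_ev hO i j) h0, fun i a a' => ?_⟩
        rwa [(hb.eqL y hO).2.1 i a a', sub_self, abs_zero]
      · have h1 := hA _ L₁ L₂ p W₁ W₂ hb y (near hb.hp hy hO hrA hδ2) _ (hH y hy)
        rwa [mul_one_div] at h1
  obtain ⟨T, hT⟩ := hT _ L₁ L₂ p W₁ W₂ hb
  replace hT := hT.mono le_rfl hr1
  have hw := hW L0 hL2 hL3 sg J p hsg hb.hp
  have hs := ball_X1 hb.hp (hr1.trans hrT') hr2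
  have ca : Continuous fun y : En n => aU K L0 sg J (‖y‖ ^ 2) := by
    simp only [← a1]
    exact (Real.continuous_exp.comp hw.1.cont).pow _
  obtain ⟨i1, i2⟩ := int_le (ca.mul c0) (fun y => mul_nonneg (a0 y).le (p0 y)) hs i0
  refine (hC L₁ L₂ p W₁ W₂ T _ (fun y => C₂ * (aU K L0 sg J (‖y‖ ^ 2) * n₀ y))
    (hb.mono (min_le_right _ _)) hT hw (i1.const_mul C₂) ?_ (fun y hy ab col a => ?_)
    (fun y hy h => ?_) x hxr s col a).mono le_rfl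
    (pw2 hK1 (a1 x) hC₅ ((le_max_right _ _).trans ha))
  · rw [integral_const_mul]
    exact mul_le_mul_of_nonneg_left i2 hC₂
  · exact pw1 (by omega) (a1 y) (hB _ η r δ _ L₁ L₂ p W₁ W₂ T hb hT hr4 y hy
      (fun W W' h1 h2 => hg W W' h1 h2 y (hs hy)) ab col a)
  · refine or_iff_not_imp_left.2 fun hO => le_trans ?_ (a2 y (Tc.ball_U0 hr4 hy) hO h)
    rw [← a1]
    exact le_self_pow₀ (Real.one_le_exp (hw.2 y (ball_subset_ball hr4 hy)).1) (by omega)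

end Vale.Agent.P088
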