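import Vale.Agent.P088.TcS

/-!
# P088, the sliding argument: common tools
-/

open MeasureTheory Set Metric Filter
open scoped ContDiff Topology

noncomputable section
namespace Vale.Agent.P088
open Vale.Agent.P136

namespace Tc

section geo
variable {n : ℕ} {p x : En n} {r δ : ℝ}

theorem isOpen_U0 (p : En n) : IsOpen (U0 p) := isOpen_ball

theorem isOpen_O0 (p : En n) : IsOpen (O0 p) := isOpen_ball.sdiff isClosed_closedBall

theorem isOpen_X0 (p : En n) (δ : ℝ) : IsOpen (X0 p δ) :=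
  isOpen_ball.inter (isOpen_lt continuous_const (by fun_prop))

theorem ball_U0 (hr : r ≤ 1 / 4) : ball p r ⊆ U0 p := ball_subset_ball (by linarith)

theorem X0_U0 : X0 p δ ⊆ U0 p := inter_subset_left.trans (ball_U0 le_rfl)

theorem O0_U0 : O0 p ⊆ U0 p := diff_subset

theorem Y0_U0 : Y0 p ⊆ U0 p := ball_subset_ball (by norm_num)

theorem p_U0 (p : En n) : p ∈ U0 p := mem_ball_self (by norm_num)

/-- The unknown region is tangent to the unit sphere at `p`. -/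
theorem notO0 (hp : ‖p‖ = 1) (hx : x ∈ U0 p) (h : x ∉ O0 p) :
    ‖x - p‖ ^ 2 ≤ 2 * (1 - ‖x‖ ^ 2) := by
  have h1 : x ∈ closedBall ((1 / 3 : ℝ) • p) (2 / 3) := by
    by_contra h2
    exact h ⟨hx, h2⟩
  rw [mem_closedBall, dist_eq_norm] at h1
  have h2 := pow_le_pow_left₀ (norm_nonneg _) h1 2
  rw [norm_sub_sq_real, inner_smul_right, norm_smul, hp] at h2
  rw [norm_sub_sq_real, hp]
  norm_num at h2
  linarith

theorem norm_ge (hp : ‖p‖ = 1) (hx : x ∈ ball p r) (hr : r ≤ 1) : 1 - 2 * r ≤ ‖x‖ ^ 2 := by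
  rw [mem_ball, dist_eq_norm] at hx
  have h1 := norm_sub_norm_le p x
  rw [norm_sub_rev, hp] at h1
  nlinarith [mul_self_nonneg r, pow_le_pow_left₀ (by linarith : 0 ≤ 1 - r)
    (by linarith : 1 - r ≤ ‖x‖) 2]

theorem sum_ee (h : En n) : ∑ i, h i • ee i = h := by
  ext j
  simp [ee, Finset.sum_apply, Pi.single_apply]

theorem sum_abs_le (h : En n) : ∑ i, |h i| ≤ n * ‖h‖ := by
  refine (Finset.sum_le_card_nsmul _ _ ‖h‖ fun i _ => ?_).trans (by simp)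
  exact PiLp.norm_apply_le h i

/-- Taylor bound on a convex open set. -/
theorem taylor {U : Set (En n)} (hU : IsOpen U) (hc : Convex ℝ U) {f : En n → ℝ}
    (hf : ContDiffOn ℝ ∞ f U) {x y : En n} (hx : x ∈ U) (hy : y ∈ U) {k : ℕ} (hk : 1 ≤ k) {A : ℝ}
    (hA : 0 ≤ A) (hb : ∀ z ∈ U, ∀ l : List (Fin n), l.length = k → |Ds ee l f z| ≤ A)
    (h0 : ∀ l : List (Fin n), l ≠ [] → l.length < k → Ds ee l f x = 0) :
    |f y - f x| ≤ A * (n * ‖y - x‖) ^ k := by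
  have hm : ∀ s ∈ Icc (0 : ℝ) 1, x + s • ∑ i, (y - x) i • ee i ∈ U := fun s hs => by
    rw [sum_ee]
    exact hc.add_smul_sub_mem hx hy hs
  have h1 := SbLin.taylor ee f x (fun i => (y - x) i) k A
    (fun s hs => hf.contDiffAt (hU.mem_nhds (hm s hs))) (fun s hs => hb _ (hm s hs)) h0 hk
  rw [sum_ee, add_sub_cancel] at h1
  exact h1.trans (mul_le_mul_of_nonneg_left (pow_le_pow_left₀
    (Finset.sum_nonneg fun _ _ => abs_nonneg _) (sum_abs_le _) _) hA)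

/-- The mean value inequality on a convex open set. -/
theorem mvt {U : Set (En n)} (hU : IsOpen U) (hc : Convex ℝ U) {f : En n → ℝ}
    (hf : ContDiffOn ℝ ∞ f U) {x y : En n} (hx : x ∈ U) (hy : y ∈ U) {A : ℝ} (hA : 0 ≤ A)
    (hb : ∀ z ∈ U, ∀ i, |D (ee i) f z| ≤ A) : |f y - f x| ≤ A * (n * ‖y - x‖) := by
  have h := taylor hU hc hf hx hy le_rfl hA (fun z hz l hl => by
    obtain ⟨i, rfl⟩ := List.length_eq_one_iff.1 hl
    exact hb z hz i) fun l hl h => (hl (List.eq_nil_of_length_eq_zero (by omega))).elim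
  rwa [pow_one] at h

end geo

section sb
variable {n : ℕ} {x : En n} {k : ℕ} {w w' L : ℝ} {f g : En n → ℝ}

/-- A sum of terms with a common bound. -/
theorem sum_card (hL : 0 ≤ L) {J : Type} [Fintype J] {F : J → En n → ℝ}
    (hF : ∀ j, ContDiffAt ℝ ∞ (F j) x) (h : ∀ j, SB ee k w L (F j) x) :
    SB ee k (Fintype.card J * w) L (fun y => ∑ j, F j y) x := by
  have h1 := SbAlg.sum hL Finset.univ F (fun _ => w) (fun j _ => hF j) fun j _ => h j
  rwa [Finset.sum_const, Finset.card_univ, nsmul_eq_mul] at h1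

theorem sb_zero (h : f =ᶠ[𝓝 x] fun _ => 0) (hw : 0 ≤ w) : SB ee k w 1 f x :=
  ((SB.const 0 k x).congr h.symm).mono le_rfl (by simpa using hw)

/-- Smallness of the value can be traded for a larger scale. -/
theorem sb_scale {η : ℝ} (h : SB ee k w 1 f x) (h0 : |f x| ≤ η) (hL : 1 ≤ L) (hw : w ≤ η * L) :
    SB ee k η L f x := fun l hl => by
  rcases l with _ | ⟨i, l⟩
  · simpa [Ds_nil] using h0
  · refine (h.le hl).trans (hw.trans (mul_le_mul_of_nonneg_left ?_ ((abs_nonneg _).trans h0)))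
    exact le_self_pow₀ hL (by simp)

theorem sb_unscale (h : SB ee k w L f x) (hL : 1 ≤ L) : SB ee k (w * L ^ k) 1 f x :=
  SB_one.2 fun l hl => (h l hl).trans
    (mul_le_mul_of_nonneg_left (pow_le_pow_right₀ hL hl) (SbAlg.nonneg h))

/-- The fixed point lemma for `u = R + A u` with a small matrix `A`. -/
theorem fix {I : Type} [Fintype I] {η : ℝ} {u R : I → En n → ℝ} {A : I → I → En n → ℝ}
    (hL : 1 ≤ L) (hu : ∀ i, ContDiffAt ℝ ∞ (u i) x) (hR : ∀ i, ContDiffAt ℝ ∞ (R i) x)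
    (hA : ∀ i j, ContDiffAt ℝ ∞ (A i j) x)
    (e : ∀ i, u i =ᶠ[𝓝 x] fun y => R i y + ∑ j, A i j y * u j y)
    (bR : ∀ i, SB ee k w L (R i) x) (bA : ∀ i j, SB ee k η L (A i j) x)
    (hη : Fintype.card I * 2 ^ k * η ≤ 1 / 2) (i : I) : SB ee k (2 * w) L (u i) x := by
  have hL0 : 0 ≤ L := zero_le_one.trans hL
  set S : Set ℝ := {w | ∀ i, SB ee k w L (u i) x} with hS
  have hne : S.Nonempty := by
    have h1 : (univ ×ˢ {l : List (Fin n) | l.length ≤ k} : Set (I × List (Fin n))).Finite :=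
      finite_univ.prod (List.finite_length_le _ k)
    obtain ⟨b, hb⟩ := (h1.image fun r => |Ds ee r.2 (u r.1) x|).bddAbove
    refine ⟨b, fun i l hl => ?_⟩
    have h2 : |Ds ee l (u i) x| ≤ b := hb ⟨(i, l), ⟨mem_univ _, hl⟩, rfl⟩
    exact h2.trans (le_mul_of_one_le_right ((abs_nonneg _).trans h2) (one_le_pow₀ hL))
  have hbd : BddBelow S := ⟨0, fun w hw => SbAlg.nonneg (hw i)⟩
  have hin : sInf S ∈ S := fun a l hl => by
    have hp : 0 < L ^ l.length := by positivity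
    rw [← div_le_iff₀ hp]
    exact le_csInf hne fun w hw => (div_le_iff₀ hp).2 (hw a l hl)
  have h0 := SbAlg.nonneg (hin i)
  have hstep : w + sInf S / 2 ∈ S := fun a => by
    have h2 := sum_card hL0 (fun l => (hA a l).mul (hu l))
      fun l => SbAlg.mul hL0 (hA a l) (hu l) (bA a l) (hin l)
    have h3 := SbAlg.add (hR a) (ContDiffAt.sum fun l _ => (hA a l).mul (hu l)) (bR a) h2
    refine SbAlg.mono hL0 (SbAlg.congr (e a).symm h3) le_rfl ?_ le_rfl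
    nlinarith [mul_le_mul_of_nonneg_right hη h0]
  have h4 := csInf_le hbd hstep
  exact SbAlg.mono hL0 (hin i) le_rfl (by linarith) le_rfl

theorem sb_dgd {γ : MatF n} (hγ : SmM γ) (hf : ContDiffAt ℝ ∞ f x)
    (h : ∀ i j, SB ee (k + 1) w 1 (γ i j) x) (h' : SB ee (k + 2) w' 1 f x) :
    SB ee k (n * (n * (2 ^ (k + 1) * w * w'))) 1 (dgd ee γ f) x := by
  have h1 : ∀ i, ContDiffAt ℝ ∞ (XX ee γ f i) x := fun i =>
    ContDiffAt.sum fun j _ => (hγ i j).contDiffAt.mul (contDiffAt_D hf _)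
  have h2 : ∀ i, SB ee (k + 1) (Fintype.card (Fin n) * (2 ^ (k + 1) * w * w')) 1
      (XX ee γ f i) x := fun i =>
    sum_card zero_le_one (fun j => (hγ i j).contDiffAt.mul (contDiffAt_D hf _)) fun j =>
      SbAlg.mul zero_le_one (hγ i j).contDiffAt (contDiffAt_D hf _) (h i j) (h'.D j)
  have h3 := sum_card zero_le_one (fun i => contDiffAt_D (h1 i) (ee i)) fun i => (h2 i).D i
  rw [Fintype.card_fin] at h3
  exact h3

end sb

section app
variable {n : ℕ} {ι : Type} [Fintype ι] {L : Op n ι} {V : ι → En n → ℝ} {x : En n}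

theorem cd_dgd {γ : MatF n} {f : En n → ℝ} (hγ : SmM γ) (hf : ContDiffAt ℝ ∞ f x) :
    ContDiffAt ℝ ∞ (dgd ee γ f) x :=
  have h1 : ∀ i, ContDiffAt ℝ ∞ (XX ee γ f i) x := fun i =>
    ContDiffAt.sum fun j _ => (hγ i j).contDiffAt.mul (contDiffAt_D hf _)
  ContDiffAt.sum (s := Finset.univ) (f := fun i => D (ee i) (XX ee γ f i))
    fun i _ => contDiffAt_D (h1 i) (ee i)

theorem cd_app (hL : L.Good) (hV : ∀ a, ContDiffAt ℝ ∞ (V a) x) (a : ι) :
    ContDiffAt ℝ ∞ (L.app V a) x :=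
  ((cd_dgd hL.1 (hV a)).add (ContDiffAt.sum fun i _ => ContDiffAt.sum fun a' _ =>
    (hL.2.2.1 i a a').contDiffAt.mul (contDiffAt_D (hV a') _))).add
    (ContDiffAt.sum fun a' _ => (hL.2.2.2.1 a a').contDiffAt.mul (hV a'))

/-- The constant in the bound for `L.app`. -/
def cApp (n N k : ℕ) (M : ℝ) : ℝ := n * (n * (2 ^ (k + 1) * M)) + n * (N * (2 ^ k * M))

/-- Symbol bound for `L V` at a point near which `c = 0`. -/
theorem sb_app {k : ℕ} {M w : ℝ} (hL : L.Good) (hV : ∀ a, ContDiffAt ℝ ∞ (V a) x)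
    (hc : ∀ᶠ y in 𝓝 x, ∀ a a', L.c a a' y = 0) (hγ : ∀ i j, SB ee (k + 1) M 1 (L.γ i j) x)
    (hb : ∀ i a a', SB ee (k + 1) M 1 (L.b i a a') x) (h : ∀ a, SB ee (k + 2) w 1 (V a) x)
    (a : ι) : SB ee k (cApp n (Fintype.card ι) k M * w) 1 (L.app V a) x := by
  have c1 : ∀ i a', ContDiffAt ℝ ∞ (fun y => L.b i a a' y * D (ee i) (V a') y) x := fun i a' =>
    (hL.2.2.1 i a a').contDiffAt.mul (contDiffAt_D (hV a') _)
  have h2 := sum_card zero_le_one (fun i => ContDiffAt.sum fun a' _ => c1 i a') fun i =>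
    sum_card zero_le_one (c1 i) fun a' => SbAlg.mul zero_le_one (hL.2.2.1 i a a').contDiffAt
      (contDiffAt_D (hV a') _) ((hb i a a').mono k.le_succ le_rfl)
      (((h a').D i).mono k.le_succ le_rfl)
  have h3 := SbAlg.add (cd_dgd hL.1 (hV a))
    (ContDiffAt.sum fun i _ => ContDiffAt.sum fun a' _ => c1 i a') (sb_dgd hL.1 (hV a) hγ (h a)) h2
  refine (h3.congr ?_).mono le_rfl (le_of_eq ?_)
  · filter_upwards [hc] with y hy
    simp only [Op.app, hy, zero_mul, Finset.sum_const_zero, add_zero]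
  · rw [Fintype.card_fin, cApp]
    ring

end app

section cT
variable {n : ℕ} {ι : Type} [Fintype ι] {V : WF n ι} {T : TF n ι} {x : En n} {k : ℕ}
  {w w' Mt : ℝ}

theorem cd_VT (hV : ∀ s col a, ContDiffAt ℝ ∞ (V s col a) x)
    (hT : ∀ ab c e col, ContDiffAt ℝ ∞ (T ab c e col) x) (ab : Fin n × Fin n) (col a : ι) :
    ContDiffAt ℝ ∞ (fun y => ∑ c, ∑ e, V (.inl c) e a y * T ab c e col y) x :=
  ContDiffAt.sum fun _ _ => ContDiffAt.sum fun _ _ => (hV _ _ _).mul (hT _ _ _ _)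

theorem cd_cT (hV : ∀ s col a, ContDiffAt ℝ ∞ (V s col a) x)
    (hT : ∀ ab c e col, ContDiffAt ℝ ∞ (T ab c e col) x) (ab : Fin n × Fin n) (col a : ι) :
    ContDiffAt ℝ ∞ (cT T V ab col a) x := (hV _ _ _).sub (cd_VT hV hT ab col a)

theorem sb_VT (hV : ∀ s col a, ContDiffAt ℝ ∞ (V s col a) x)
    (hT : ∀ ab c e col, ContDiffAt ℝ ∞ (T ab c e col) x)
    (bV : ∀ c col a, SB ee k w 1 (V (.inl c) col a) x)
    (bT : ∀ ab c e col, SB ee k Mt 1 (T ab c e col) x) (ab : Fin n × Fin n) (col a : ι) :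
    SB ee k (n * (Fintype.card ι * (2 ^ k * w * Mt))) 1
      (fun y => ∑ c, ∑ e, V (.inl c) e a y * T ab c e col y) x := by
  have h := sum_card zero_le_one (J := Fin n)
    (fun c => ContDiffAt.sum fun e _ => (hV (.inl c) e a).mul (hT ab c e col)) fun c =>
    sum_card zero_le_one (fun e => (hV (.inl c) e a).mul (hT ab c e col)) fun e =>
      SbAlg.mul zero_le_one (hV _ _ _) (hT _ _ _ _) (bV c e a) (bT ab c e col)
  rw [Fintype.card_fin] at h
  exact h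

theorem sb_cT (hV : ∀ s col a, ContDiffAt ℝ ∞ (V s col a) x)
    (hT : ∀ ab c e col, ContDiffAt ℝ ∞ (T ab c e col) x)
    (bV : ∀ s col a, SB ee k w 1 (V s col a) x)
    (bT : ∀ ab c e col, SB ee k Mt 1 (T ab c e col) x) (ab : Fin n × Fin n) (col a : ι) :
    SB ee k (w + n * (Fintype.card ι * (2 ^ k * w * Mt))) 1 (cT T V ab col a) x :=
  SbAlg.sub (hV _ _ _) (cd_VT hV hT ab col a) (bV _ _ _)
    (sb_VT hV hT (fun _ => bV _) bT ab col a)

theorem sb_inr (hV : ∀ s col a, ContDiffAt ℝ ∞ (V s col a) x)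
    (hT : ∀ ab c e col, ContDiffAt ℝ ∞ (T ab c e col) x)
    (bV : ∀ c col a, SB ee k w 1 (V (.inl c) col a) x)
    (bT : ∀ ab c e col, SB ee k Mt 1 (T ab c e col) x) (ab : Fin n × Fin n) (col a : ι)
    (bF : SB ee k w' 1 (cT T V ab col a) x) :
    SB ee k (w' + n * (Fintype.card ι * (2 ^ k * w * Mt))) 1 (V (.inr ab) col a) x :=
  (SbAlg.add (cd_cT hV hT ab col a) (cd_VT hV hT ab col a) bF (sb_VT hV hT bV bT ab col a)).congr
    (Eventually.of_forall fun _ => sub_add_cancel _ _)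

end cT
end Tc

section bas
variable {n : ℕ} {ι : Type} [Fintype ι] [DecidableEq ι] {om om' ε η η' r r' : ℝ} {M Mt : ℕ → ℝ}
  {L₁ L₂ : Op n ι} {p x : En n} {W W₁ W₂ : WF n ι} {T : TF n ι} {k k' : ℕ}

theorem Bas.of {G₁ G₂ : HL n ι (U0 p) →L[ℝ] HL n ι (U0 p)} (h : Set0 k om M L₁ L₂ p G₁ G₂)
    (h' : Spec k' ε M L₁ L₂ p W₁ W₂) : Bas om M L₁ L₂ p W₁ W₂ := by
  obtain ⟨hp, ⟨g1, n1, m1⟩, ⟨g2, -, m2⟩, -, -, -, -, -, he⟩ := h
  obtain ⟨a1, -, a3, a4, a5, a6, a7⟩ := h'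
  refine ⟨hp, g1, g2, fun i j x => (n1 i j x).abs_le, fun k i j x => (m1 k x).1 i j,
    fun k i j x => (m2 k x).1 i j, fun k i a a' x => (m1 k x).2.1 i a a',
    fun k i a a' x => (m2 k x).2.1 i a a', fun x hx a a' => ((a1 x hx).1 a a').1,
    fun x hx a a' => ((a1 x hx).1 a a').2, fun x hx => ?_, he, fun s col => (a3 s col).1,
    fun s col => (a3 s col).2, a4, fun x hx k s col a => ((a5 s col a x hx).1 k).1,
    fun x hx k s col a => ((a5 s col a x hx).1 k).2, a6, fun x hx c => ?_⟩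
  · simp only [BB, Finset.sum_sub_distrib, (a1 x hx).2.1, (a1 x hx).2.2, sub_self]
  · simp only [EE, Finset.sum_sub_distrib, a7 c x hx, sub_self]

theorem Bas.mono (h : Bas om M L₁ L₂ p W₁ W₂) (ho : om ≤ om') : Bas om' M L₁ L₂ p W₁ W₂ :=
  { h with near := fun i j x => (h.near i j x).trans ho }

theorem TOk.mono (h : TOk η Mt p r W T) (hη : η ≤ η') (hr : r' ≤ r) : TOk η' Mt p r' W T :=
  have hs := ball_subset_ball (x := p) hr
  ⟨fun ab c e col => (h.sm ab c e col).mono hs, fun x hx => h.bd x (hs hx),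
    fun x hx => h.eqn x (hs hx), fun x hx ab c e col j => (h.dT x (hs hx) ab c e col j).trans hη,
    fun x hx c e a i => (h.dW x (hs hx) c e a i).trans hη⟩

theorem TOk.cd (h : TOk η Mt p r W T) (hx : x ∈ ball p r) (ab : Fin n × Fin n) (c : Fin n)
    (e col : ι) : ContDiffAt ℝ ∞ (T ab c e col) x :=
  (h.sm ab c e col).contDiffAt (isOpen_ball.mem_nhds hx)

theorem Bas.on₁ (h : Bas om M L₁ L₂ p W₁ W₂) (s : Sp n) (col a : ι) :
    ContDiffOn ℝ ∞ (W₁ s col a) (U0 p) := (h.s₁ s col).1 a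

theorem Bas.on₂ (h : Bas om M L₁ L₂ p W₁ W₂) (s : Sp n) (col a : ι) :
    ContDiffOn ℝ ∞ (W₂ s col a) (U0 p) := (h.s₂ s col).1 a

theorem Bas.onE (h : Bas om M L₁ L₂ p W₁ W₂) (s : Sp n) (col a : ι) :
    ContDiffOn ℝ ∞ (EE W₁ W₂ s col a) (U0 p) := (h.on₁ s col a).sub (h.on₂ s col a)

theorem Bas.cd₁ (h : Bas om M L₁ L₂ p W₁ W₂) (hx : x ∈ U0 p) (s : Sp n) (col a : ι) :
    ContDiffAt ℝ ∞ (W₁ s col a) x := (h.on₁ s col a).contDiffAt (isOpen_ball.mem_nhds hx)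

theorem Bas.cd₂ (h : Bas om M L₁ L₂ p W₁ W₂) (hx : x ∈ U0 p) (s : Sp n) (col a : ι) :
    ContDiffAt ℝ ∞ (W₂ s col a) x := (h.on₂ s col a).contDiffAt (isOpen_ball.mem_nhds hx)

theorem Bas.cdE (h : Bas om M L₁ L₂ p W₁ W₂) (hx : x ∈ U0 p) (s : Sp n) (col a : ι) :
    ContDiffAt ℝ ∞ (EE W₁ W₂ s col a) x := (h.onE s col a).contDiffAt (isOpen_ball.mem_nhds hx)

theorem Bas.bdE (h : Bas om M L₁ L₂ p W₁ W₂) (hx : x ∈ U0 p) (k : ℕ) (s : Sp n) (col a : ι) :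
    SB ee k (M k + M k) 1 (EE W₁ W₂ s col a) x :=
  SbAlg.sub (h.cd₁ hx s col a) (h.cd₂ hx s col a) (h.w₁ x hx k s col a) (h.w₂ x hx k s col a)

theorem Bas.smB (h : Bas om M L₁ L₂ p W₁ W₂) (i j : Fin n) : Sm (BB L₁ L₂ i j) :=
  (h.gd₁.1 i j).sub (h.gd₂.1 i j)

theorem Bas.symB (h : Bas om M L₁ L₂ p W₁ W₂) (i j : Fin n) : BB L₁ L₂ i j = BB L₁ L₂ j i := by
  unfold BB
  rw [h.gd₁.2.1 i j, h.gd₂.2.1 i j]

theorem Bas.E_ev (h : Bas om M L₁ L₂ p W₁ W₂) (hx : x ∈ O0 p) (s : Sp n) (col a : ι) :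
    EE W₁ W₂ s col a =ᶠ[𝓝 x] fun _ => 0 := by
  filter_upwards [(Tc.isOpen_O0 p).mem_nhds hx] with y hy using sub_eq_zero.2 (h.eqW s col a hy)

theorem Bas.B_ev (h : Bas om M L₁ L₂ p W₁ W₂) (hx : x ∈ O0 p) (i j : Fin n) :
    BB L₁ L₂ i j =ᶠ[𝓝 x] fun _ => 0 := by
  filter_upwards [(Tc.isOpen_O0 p).mem_nhds hx] with y hy using sub_eq_zero.2 ((h.eqL y hy).1 i j)

theorem Bas.c_ev (h : Bas om M L₁ L₂ p W₁ W₂) (hx : x ∈ U0 p) :
    ∀ᶠ y in 𝓝 x, ∀ a a', L₁.c a a' y = 0 :=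
  mem_of_superset (isOpen_ball.mem_nhds hx) h.c₁

/-- Symbol bound for `L₁ V`. -/
theorem Bas.sb_app (h : Bas om M L₁ L₂ p W₁ W₂) (hx : x ∈ U0 p) {V : ι → En n → ℝ} {w : ℝ}
    (hV : ∀ a, ContDiffAt ℝ ∞ (V a) x) (hb : ∀ a, SB ee (k + 2) w 1 (V a) x) (a : ι) :
    SB ee k (Tc.cApp n (Fintype.card ι) k (M (k + 1)) * w) 1 (L₁.app V a) x :=
  Tc.sb_app h.gd₁ hV (h.c_ev hx) (fun i j => h.γ₁ _ i j x) (fun i a a' => h.b₁ _ i a a' x) hb a

end bas

end Vale.Agent.P088
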