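import Vale.Agent.P088.TcTool

/-!
# P088, the sliding argument: elementary properties of the weight
-/

open MeasureTheory Set Metric Filter
open scoped ContDiff Topology

noncomputable section
namespace Vale.Agent.P088
open Vale.Agent.P136

namespace TcWt2

theorem aU_eq (K : ℕ) (L0 sg : ℝ) (J : ℕ) (u : ℝ) :
    aU K L0 sg J u = 2 * Real.exp (2 * L0 + 1) * dy K L0 J 0 (1 - sg - u) := by
  simp only [aU, dy, wj, omj, Finset.mul_sum, add_zero]
  refine Finset.sum_congr rfl fun j _ => ?_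
  rw [mul_assoc, ← Real.exp_add, mul_assoc 2, mul_left_comm (Real.exp _), ← Real.exp_add]
  congr 3
  ring

end TcWt2

open TcWt2 in
theorem s_tcWt2 (hm : S_mom) : S_tcWt2 := by
  intro K hK
  obtain ⟨C, hC, hm⟩ := hm K 0 hK
  have he := Real.add_one_le_exp 1
  refine ⟨2 * Real.exp 1 * C, by nlinarith, fun L0 sg J u hL => ?_⟩
  have h0 : 0 < aU K L0 sg J u := by
    rw [aU_eq]
    refine mul_pos (by positivity) (Finset.sum_pos (fun j _ => by positivity) ⟨0, by simp⟩)
  refine ⟨h0, ?_, fun y hy h => ?_, fun h hh => ?_, fun h => ?_⟩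
  · have hK' : (K : ℝ) ≠ 0 := by positivity
    rw [← Real.exp_nat_mul, ell, ← Real.exp_log h0, Real.log_exp]
    congr 1
    push_cast
    field_simp
  · have h1 := ((hm L0 J (1 - sg - u) hL).2.2.2.2.1 (hy.trans_le h)).trans
      (div_le_div_of_nonneg_left (by linarith) (pow_pos hy _) (pow_le_pow_left₀ hy.le h _))
    rw [aU_eq, Real.exp_add]
    refine (mul_le_mul_of_nonneg_left h1 (by positivity)).trans (le_of_eq (by ring))
  · rw [aU_eq, aU_eq, mul_left_comm]
    refine mul_le_mul_of_nonneg_left ?_ (by positivity)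
    simp only [dy, Finset.mul_sum]
    refine Finset.sum_le_sum fun j hj => ?_
    rw [mul_left_comm, ← Real.exp_add]
    refine mul_le_mul_of_nonneg_left (Real.exp_le_exp.2 ?_) (by positivity)
    have h1 : L0 * 2 ^ j * h ≤ L0 * 2 ^ J * h := by
      gcongr
      exacts [one_le_two, Nat.lt_succ_iff.1 (Finset.mem_range.1 hj)]
    linarith
  · rw [aU_eq]
    have h1 : (L0 * 2 ^ J) ^ (2 * K + 0) * Real.exp (-(L0 * 2 ^ J * (1 - sg - u))) ≤
        dy K L0 J 0 (1 - sg - u) :=
      Finset.single_le_sum (f := fun j => (L0 * 2 ^ j) ^ (2 * K + 0) *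
        Real.exp (-(L0 * 2 ^ j * (1 - sg - u)))) (fun j _ => by positivity)
        (Finset.self_mem_range_succ J)
    have h2 : (1 : ℝ) ≤ 2 ^ J := one_le_pow₀ one_le_two
    have h3 : 2 ^ J ≤ L0 * 2 ^ J := le_mul_of_one_le_left (by positivity) hL
    have h4 : L0 * 2 ^ J ≤ (L0 * 2 ^ J) ^ (2 * K + 0) := le_self_pow₀ (h2.trans h3) (by omega)
    have h5 : 1 ≤ Real.exp (-(L0 * 2 ^ J * (1 - sg - u))) := Real.one_le_exp (by nlinarith)
    have h6 : 1 ≤ 2 * Real.exp (2 * L0 + 1) := by
      linarith [Real.one_le_exp (by linarith : 0 ≤ 2 * L0 + 1)]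
    exact ((h3.trans h4).trans ((le_mul_of_one_le_right (by positivity) h5).trans h1)).trans
      (le_mul_of_one_le_left (le_trans (by positivity) h1) h6)

end Vale.Agent.P088
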