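import Vale.Agent.P088.Defs
import Vale.Agent.P136.IBP

/-!
# P088: general definitions (symbol bounds, conjugated operators, elliptic systems, Green pairs)
-/

open MeasureTheory Set Metric
open scoped ContDiff Topology InnerProductSpace

noncomputable section
namespace Vale.Agent.P088
open Vale.Agent.P136 (D Dp Dm Sm Tst)

section gen
variable {X : Type} [NormedAddCommGroup X] [NormedSpace ℝ X] {κ : Type}

/-- Iterated directional derivative along the list `l` of directions. -/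
def Ds (v : κ → X) (l : List κ) (f : X → ℝ) : X → ℝ := l.foldr (fun i g => D (v i) g) f

/-- Symbol bound at the point `p`: weight `w`, scale `L`, up to order `k`. -/
def SB (v : κ → X) (k : ℕ) (w L : ℝ) (f : X → ℝ) (p : X) : Prop :=
  ∀ l : List κ, l.length ≤ k → |Ds v l f p| ≤ w * L ^ l.length

/-- Symbol bound for derivatives of order at least one. -/
def SB1 (v : κ → X) (k : ℕ) (w L : ℝ) (f : X → ℝ) (p : X) : Prop :=
  ∀ l : List κ, l ≠ [] → l.length ≤ k → |Ds v l f p| ≤ w * L ^ l.length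

/-- Two symbols of the same class whose difference is smaller by the factor `ε`. -/
def SD (v : κ → X) (k : ℕ) (w L ε : ℝ) (f g : X → ℝ) (p : X) : Prop :=
  SB v k w L f p ∧ SB v k w L g p ∧ SB v k (ε * w) L (fun x => f x - g x) p

def IsTest (U : Set X) (ψ : X → ℝ) : Prop := Tst ψ ∧ tsupport ψ ⊆ U

def SmM (γ : κ → κ → X → ℝ) : Prop := ∀ i j, Sm (γ i j)

def SymM (γ : κ → κ → X → ℝ) : Prop := ∀ i j, γ i j = γ j i

variable [Fintype κ]

/-- Divergence along the directions `v`. -/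
def dvg (v : κ → X) (Y : κ → X → ℝ) : X → ℝ := fun p => ∑ i, D (v i) (Y i) p

/-- `γ ∇ f`. -/
def XX (v : κ → X) (γ : κ → κ → X → ℝ) (f : X → ℝ) (i : κ) : X → ℝ :=
  fun p => ∑ j, γ i j p * D (v j) f p

/-- `∂_i (γ^{ij} ∂_j f)`. -/
def dgd (v : κ → X) (γ : κ → κ → X → ℝ) (f : X → ℝ) : X → ℝ := dvg v (XX v γ f)

/-- `Y · ∇ f`. -/
def dir (v : κ → X) (Y : κ → X → ℝ) (f : X → ℝ) : X → ℝ := fun p => ∑ i, Y i p * D (v i) f p

/-- `γ D⁻ f`. -/
def Zm (v : κ → X) (γ : κ → κ → X → ℝ) (φ f : X → ℝ) (i : κ) : X → ℝ :=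
  fun p => ∑ j, γ i j p * Dm φ (v j) f p

/-- `L = D⁺ γ D⁺`. -/
def Lp' (v : κ → X) (γ : κ → κ → X → ℝ) (φ f : X → ℝ) : X → ℝ :=
  fun p => ∑ i, Dp φ (v i) (fun p => ∑ j, γ i j p * Dp φ (v j) f p) p

/-- `δ = D⁻ γ D⁻`. -/
def Lm (v : κ → X) (γ : κ → κ → X → ℝ) (φ f : X → ℝ) : X → ℝ :=
  fun p => ∑ i, Dm φ (v i) (Zm v γ φ f i) p

/-- The multiplier `N = 4 P · D⁺`. -/
def Nop (v : κ → X) (φ : X → ℝ) (P : κ → X → ℝ) (f : X → ℝ) : X → ℝ :=
  fun p => 4 * ∑ i, P i p * Dp φ (v i) f p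

/-- The first-order coefficients of the diagonal identity. -/
def Qco (v : κ → X) (γ : κ → κ → X → ℝ) (φ : X → ℝ) (P : κ → X → ℝ) (i k : κ) : X → ℝ :=
  fun p => 8 * (∑ j, γ i j p * D (v j) (XX v γ φ k) p) - 4 * dir v (XX v γ φ) (γ i k) p +
    8 * dir v P φ p * γ i k p - 16 * XX v γ φ i p * P k p +
    8 * (∑ j, γ i j p * D (v j) (P k) p) - 4 * dvg v (fun l q => γ i k q * P l q) p

/-- The zero-order coefficient of the diagonal identity (after the main cancellations). -/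
def cco (v : κ → X) (γ : κ → κ → X → ℝ) (φ : X → ℝ) (P : κ → X → ℝ) : X → ℝ := fun p =>
  1 / 2 * dvg v (fun k q => ∑ i, (Qco v γ φ P i k q + Qco v γ φ P k i q) * D (v i) φ q) p +
    8 * (∑ k, dir v (XX v γ φ) (P k) p * D (v k) φ p) -
    8 * dvg v P p * dir v (XX v γ φ) φ p -
    4 * (∑ i, ∑ k, dir v P (γ i k) p * D (v i) φ p * D (v k) φ p) -
    4 * dir v P (dir v (XX v γ φ) φ) p - 8 * dir v (XX v γ φ) (dir v P φ) p +
    2 * dgd v γ (dgd v γ φ) p - 4 * dvg v (fun l q => dgd v γ φ q * P l q) p +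
    4 * dgd v γ (dir v P φ) p

/-- `θ_a = ∂_i (γ^{ij} φ_{aj})`, with `i, j` in the family `v` and `a` in the family `w`. -/
def tht (v w : κ → X) (γ : κ → κ → X → ℝ) (φ : X → ℝ) (a : κ) : X → ℝ :=
  dgd v γ (D (w a) φ)

/-- The zero-order coefficient of the mixed identity. -/
def cmx (v w : κ → X) (γ₁ γ₂ : κ → κ → X → ℝ) (φ : X → ℝ) : X → ℝ := fun p =>
  8 * (∑ i, ∑ j, ∑ a, ∑ b, γ₁ i j p * γ₂ a b p * D (w a) (D (v i) φ) p * D (w b) (D (v j) φ) p) -
    2 * dvg w (fun b q => ∑ a, γ₂ a b q * tht v w γ₁ φ a q) p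

end gen

/-- A fixed smooth cutoff: `1` on `(-∞, 1]`, `0` on `[2, ∞)`. -/
def cut (s : ℝ) : ℝ := Real.smoothTransition (2 - s)

/-! ## Elliptic systems on `En n` -/

/-- Coefficients of the system `∂_i (γ^{ij} ∂_j W) + b^i ∂_i W + c W`. -/
structure Op (n : ℕ) (ι : Type) where
  γ : Fin n → Fin n → En n → ℝ
  b : Fin n → ι → ι → En n → ℝ
  c : ι → ι → En n → ℝ

variable {n : ℕ} {ι : Type} [Fintype ι]

def Op.app (L : Op n ι) (W : ι → En n → ℝ) (a : ι) : En n → ℝ := fun x =>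
  dgd ee L.γ (W a) x + ∑ i, ∑ a', L.b i a a' x * D (ee i) (W a') x + ∑ a', L.c a a' x * W a' x

/-- The formal transpose. -/
def Op.T (L : Op n ι) : Op n ι :=
  ⟨L.γ, fun i a a' x => -L.b i a' a x, fun a a' x => L.c a' a x - ∑ i, D (ee i) (L.b i a' a) x⟩

/-- Smooth coefficients, symmetric and everywhere elliptic principal part. -/
def Op.Good (L : Op n ι) : Prop :=
  SmM L.γ ∧ SymM L.γ ∧ (∀ i a a', Sm (L.b i a a')) ∧ (∀ a a', Sm (L.c a a')) ∧
    ∀ x (ξ : Fin n → ℝ), ξ ≠ 0 → 0 < ∑ i, ∑ j, L.γ i j x * ξ i * ξ j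

def SmOn (U : Set (En n)) (W : ι → En n → ℝ) : Prop := ∀ a, ContDiffOn ℝ ∞ (W a) U

def Tests (U : Set (En n)) (ψ : ι → En n → ℝ) : Prop := ∀ a, IsTest U (ψ a)

def nrm (U : Set (En n)) (W : ι → En n → ℝ) : ℝ := ∑ a, ∫ y in U, W a y ^ 2

def L2On (U : Set (En n)) (W : ι → En n → ℝ) : Prop := ∀ a, MemLp (W a) 2 (volume.restrict U)

/-- Smooth solution of `L W = F` on `U`. -/
def Sol (L : Op n ι) (U : Set (En n)) (W F : ι → En n → ℝ) : Prop :=
  SmOn U W ∧ ∀ x ∈ U, ∀ a, L.app W a x = F a x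

/-- Weak solution of `L W = F` on `U`. -/
def Weak (L : Op n ι) (U : Set (En n)) (W F : ι → En n → ℝ) : Prop :=
  ∀ ψ, Tests U ψ → ∑ a, ∫ y in U, W a y * L.T.app ψ a y = ∑ a, ∫ y in U, F a y * ψ a y

/-- The matrix `γ` is `om`-close to the identity in `C^k`, everywhere. -/
def Near (k : ℕ) (om : ℝ) (γ : Fin n → Fin n → En n → ℝ) : Prop :=
  ∀ i j x, SB ee k om 1 (fun y => γ i j y - if i = j then 1 else 0) x

/-- `L²(U; ℝ^ι)`. -/
abbrev HL (n : ℕ) (ι : Type) [Fintype ι] (U : Set (En n)) : Type :=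
  Lp (EuclideanSpace ℝ ι) 2 (volume.restrict U)

open Classical in
/-- The class in `L²(U)` of a function (zero if it is not square integrable). -/
def tl (U : Set (En n)) (W : ι → En n → ℝ) : HL n ι U :=
  if h : MemLp (fun x => (WithLp.toLp 2 fun a => W a x : EuclideanSpace ℝ ι)) 2
    (volume.restrict U) then h.toLp _ else 0

/-- The components of an element of `L²(U)`. -/
def cp {U : Set (En n)} (F : HL n ι U) : ι → En n → ℝ := fun a x => F x a

/-- `F` vanishes almost everywhere outside `O`. -/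
def SuppIn {U : Set (En n)} (O : Set (En n)) (F : HL n ι U) : Prop :=
  ∀ᵐ x ∂(volume.restrict U), x ∉ O → F x = 0

/-- `G` is a bounded two-sided inverse of `L` on `U` in the weak sense. -/
def IsGreen (L : Op n ι) (U : Set (En n)) (G : HL n ι U →L[ℝ] HL n ι U) : Prop :=
  (∀ F ψ, Tests U ψ → ⟪G F, tl U (L.T.app ψ)⟫_ℝ = ⟪F, tl U ψ⟫_ℝ) ∧
    ∀ ψ, Tests U ψ → G (tl U (L.app ψ)) = tl U ψ

/-- The two Green operators agree on `O`. -/
def Agree {U : Set (En n)} (O : Set (En n)) (G₁ G₂ : HL n ι U →L[ℝ] HL n ι U) : Prop :=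
  ∀ F h, SuppIn O F → SuppIn O h → ⟪G₁ F, h⟫_ℝ = ⟪G₂ F, h⟫_ℝ

/-! ## The product space -/

abbrev X2 (n : ℕ) : Type := En n × En n

instance haarX2 : (volume : Measure (X2 n)).IsAddHaarMeasure :=
  Measure.prod.instIsAddHaarMeasure (volume : Measure (En n)) (volume : Measure (En n))

def ex (j : Fin n) : X2 n := (ee j, 0)

def ey (i : Fin n) : X2 n := (0, ee i)

/-- All coordinate directions of the product. -/
def exy : Fin n ⊕ Fin n → X2 n := Sum.elim ex ey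

/-- A matrix function of `x`, as a function on the product. -/
def onX (γ : Fin n → Fin n → En n → ℝ) : Fin n → Fin n → X2 n → ℝ := fun i j p => γ i j p.1

/-- A matrix function of `y`, as a function on the product. -/
def onY (γ : Fin n → Fin n → En n → ℝ) : Fin n → Fin n → X2 n → ℝ := fun i j p => γ i j p.2

def mid (p : X2 n) : En n := (1 / 2 : ℝ) • (p.1 + p.2)

def zz (p : X2 n) : En n := p.2 - p.1

end Vale.Agent.P088
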