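import Vale.Agent.P088.Tool

/-!
# P088: the interface statements between the parts of the proof
-/

open MeasureTheory Set Metric
open scoped ContDiff Topology InnerProductSpace Manifold Matrix

noncomputable section
namespace Vale.Agent.P088
open Vale.Agent.P136 (D Dp Dm Sm Tst)

/-! ## The real version of the theorem -/

section real
variable {n : ℕ} [NeZero n] {M : Type} [TopologicalSpace M]
  [ChartedSpace (EuclideanHalfSpace n) M] {ι : Type} [Fintype ι] [DecidableEq ι]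

abbrev RForm (n : ℕ) [NeZero n] (M : Type) [TopologicalSpace M]
    [ChartedSpace (EuclideanHalfSpace n) M] (ι : Type) : Type :=
  (x : M) → TangentSpace (𝓡∂ n) x →ₗ[ℝ] Matrix ι ι ℝ

def IsSkewConn (A : RForm n M ι) : Prop :=
  (∀ x v, (A x v)ᵀ = -A x v) ∧
    ∀ (p : M) i a b,
      ContDiffOn ℝ ∞ (fun y => A _ (coordVec p y i) a b) (extChartAt (𝓡∂ n) p).target

def RSec (n : ℕ) [NeZero n] [ChartedSpace (EuclideanHalfSpace n) M] (F : M → ι → ℝ) : Prop :=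
  ∀ a, ContMDiff (𝓡∂ n) 𝓘(ℝ, ℝ) ∞ fun x => F x a

def rd (f : M → ℝ) (x : M) (v : TangentSpace (𝓡∂ n) x) : ℝ := mfderiv (𝓡∂ n) 𝓘(ℝ, ℝ) f x v

def rdA (A : RForm n M ι) (F : M → ι → ℝ) (x : M) (v : TangentSpace (𝓡∂ n) x) : ι → ℝ :=
  (fun a => rd (fun z => F z a) x v) + A x v *ᵥ F x

def rdens (g : Bil n M) (A : RForm n M ι) (F : M → ι → ℝ) (x : M) : ℝ :=
  ∑ i, ∑ j, (Matrix.of fun k l : Fin n => g x (ee k) (ee l))⁻¹ i j *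
    (rdA A F x (ee i) ⬝ᵥ rdA A F x (ee j))

def renergy [MeasurableSpace M] (g : Bil n M) (A : RForm n M ι) (F : M → ι → ℝ) : ℝ :=
  ∫ x, rdens g A F x ∂(vol g)

def rdn [MeasurableSpace M] (g : Bil n M) (A : RForm n M ι) (F₀ : M → ι → ℝ) : ℝ :=
  sInf (renergy g A '' {F | RSec n F ∧ ∀ x ∈ (𝓡∂ n).boundary M, F x = F₀ x})

def RSame [MeasurableSpace M] (Γ : Set M) (g₁ : Bil n M) (A₁ : RForm n M ι) (g₂ : Bil n M)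
    (A₂ : RForm n M ι) : Prop :=
  ∀ F₀ : M → ι → ℝ, RSec n F₀ →
    (∃ K, IsCompact K ∧ K ⊆ Γ ∧ ∀ x ∈ (𝓡∂ n).boundary M \ K, F₀ x = 0) →
    rdn g₁ A₁ F₀ = rdn g₂ A₂ F₀

def rdMat (U : M → Matrix ι ι ℝ) (x : M) (v : TangentSpace (𝓡∂ n) x) : Matrix ι ι ℝ :=
  Matrix.of fun a b => rd (fun z => U z a b) x v

def RRel (Γ : Set M) (g₁ : Bil n M) (A₁ : RForm n M ι) (g₂ : Bil n M) (A₂ : RForm n M ι) :
    Prop :=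
  ∃ (Φ : Diffeomorph (𝓡∂ n) (𝓡∂ n) M M ∞) (U : M → Matrix ι ι ℝ),
    (∀ a b, ContMDiff (𝓡∂ n) 𝓘(ℝ, ℝ) ∞ fun x => U x a b) ∧
    (∀ x, (U x)ᵀ * U x = 1) ∧ (∀ x ∈ Γ, Φ x = x ∧ U x = 1) ∧
    (∀ x v w, g₂ x v w =
      g₁ (Φ x) (mfderiv (𝓡∂ n) (𝓡∂ n) Φ x v) (mfderiv (𝓡∂ n) (𝓡∂ n) Φ x w)) ∧
    ∀ x v, A₂ x v =
      (U x)ᵀ * A₁ (Φ x) (mfderiv (𝓡∂ n) (𝓡∂ n) Φ x v) * U x + (U x)ᵀ * rdMat U x v

end real

/-- The main theorem. -/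
def S_main : Prop := ∀ (n N : ℕ) [NeZero n], 3 ≤ n → 1 ≤ N → ∀ (M : Type) [TopologicalSpace M]
  [T2Space M] [CompactSpace M] [ConnectedSpace M] [ChartedSpace (EuclideanHalfSpace n) M]
  [IsManifold (𝓡∂ n) ∞ M] [MeasurableSpace M] [BorelSpace M] (Γ : Set M), Γ.Nonempty →
  (∃ O, IsOpen O ∧ Γ = O ∩ (𝓡∂ n).boundary M) →
  ∀ (g₁ g₂ : Bil n M) (A₁ A₂ : Form1 n M N), IsMetric g₁ → IsMetric g₂ → IsUnitaryConn A₁ →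
  IsUnitaryConn A₂ → SameData Γ g₁ A₁ g₂ A₂ → Related Γ g₁ A₁ g₂ A₂

/-- The real version of the main theorem. -/
def S_real : Prop := ∀ (n : ℕ) [NeZero n], 3 ≤ n → ∀ (ι : Type) [Fintype ι] [DecidableEq ι]
  [Nonempty ι] (M : Type) [TopologicalSpace M]
  [T2Space M] [CompactSpace M] [ConnectedSpace M] [ChartedSpace (EuclideanHalfSpace n) M]
  [IsManifold (𝓡∂ n) ∞ M] [MeasurableSpace M] [BorelSpace M] (Γ : Set M), Γ.Nonempty →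
  (∃ O, IsOpen O ∧ Γ = O ∩ (𝓡∂ n).boundary M) →
  ∀ (g₁ g₂ : Bil n M) (A₁ A₂ : RForm n M ι), IsMetric g₁ → IsMetric g₂ → IsSkewConn A₁ →
  IsSkewConn A₂ → RSame Γ g₁ A₁ g₂ A₂ → RRel Γ g₁ A₁ g₂ A₂

/-! ## Metrics and connections in coordinates -/

section coord
variable {n : ℕ} {ι : Type} [Fintype ι] [DecidableEq ι]

abbrev MatF (n : ℕ) : Type := Fin n → Fin n → En n → ℝ

abbrev ConF (n : ℕ) (ι : Type) : Type := Fin n → ι → ι → En n → ℝ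

/-- `√(det g) g^{ij}`. -/
def gam (g : MatF n) : MatF n := fun i j x =>
  √((Matrix.of fun k l => g k l x).det) * (Matrix.of fun k l => g k l x)⁻¹ i j

/-- The connection Laplacian `(∂_i + A_i) (γ^{ij} (∂_j + A_j) W)`. -/
def cop (g : MatF n) (A : ConF n ι) : Op n ι where
  γ := gam g
  b := fun i a a' x => 2 * ∑ j, gam g i j x * A j a a' x
  c := fun a a' x => ∑ i, D (ee i) (fun y => ∑ j, gam g i j y * A j a a' y) x +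
    ∑ i, ∑ j, ∑ e, gam g i j x * A i a e x * A j e a' x

/-- A smooth metric and a smooth skew connection on the whole space. -/
def GA (g : MatF n) (A : ConF n ι) : Prop :=
  SmM g ∧ SymM g ∧ (∀ x (ξ : Fin n → ℝ), ξ ≠ 0 → 0 < ∑ i, ∑ j, g i j x * ξ i * ξ j) ∧
    (∀ i a a', Sm (A i a a')) ∧ ∀ i a a' x, A i a a' x = -A i a' a x

/-- `Φ` is an isometry from `g₂` to `g₁` on `V` and `W ↦ S (W ∘ Φ)` intertwines the connections. -/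
def Iso (g₁ : MatF n) (A₁ : ConF n ι) (g₂ : MatF n) (A₂ : ConF n ι) (V : Set (En n))
    (Φ : En n → En n) (S : ι → ι → En n → ℝ) : Prop :=
  ContDiffOn ℝ ∞ Φ V ∧ (∀ a a', ContDiffOn ℝ ∞ (S a a') V) ∧ ∀ y ∈ V,
    (∀ a a', ∑ e, S e a y * S e a' y = if a = a' then 1 else 0) ∧
    (∀ i j, g₂ i j y = ∑ k, ∑ l, g₁ k l (Φ y) * D (ee i) (fun z => Φ z k) y *
      D (ee j) (fun z => Φ z l) y) ∧
    ∀ i a a', D (ee i) (S a a') y + ∑ e, A₂ i a e y * S e a' y =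
      ∑ k, ∑ e, S a e y * A₁ k e a' (Φ y) * D (ee i) (fun z => Φ z k) y

/-- `W ↦ S (W ∘ Φ)` intertwines `L₁` and `L₂` on `V`, up to the positive factor `μ`. -/
def Inter (L₁ L₂ : Op n ι) (V : Set (En n)) (Φ : En n → En n) (S : ι → ι → En n → ℝ)
    (μ : En n → ℝ) : Prop :=
  ContDiffOn ℝ ∞ Φ V ∧ (∀ a a', ContDiffOn ℝ ∞ (S a a') V) ∧ ContDiffOn ℝ ∞ μ V ∧
    (∀ y ∈ V, 0 < μ y ∧ (Matrix.of fun a a' => S a a' y).det ≠ 0 ∧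
      Function.Injective (fderiv ℝ Φ y)) ∧
    ∀ W : ι → En n → ℝ, (∀ a, Sm (W a)) → ∀ y ∈ V, ∀ a,
      L₂.app (fun a z => ∑ a', S a a' z * W a' (Φ z)) a y =
        μ y * ∑ a', S a a' y * L₁.app W a' (Φ y)

/-- The covariant derivative. -/
def cov (A : ConF n ι) (i : Fin n) (v : ι → En n → ℝ) (a : ι) : En n → ℝ := fun x =>
  D (ee i) (v a) x + ∑ a', A i a a' x * v a' x

/-- The energy on the set `U`. -/
def enU (U : Set (En n)) (g : MatF n) (A : ConF n ι) (v : ι → En n → ℝ) : ℝ :=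
  ∫ x in U, ∑ i, ∑ j, gam g i j x * ∑ a, cov A i v a x * cov A j v a x

/-- Coefficients agree on a set. -/
def Op.EqOn (L₁ L₂ : Op n ι) (V : Set (En n)) : Prop :=
  ∀ x ∈ V, (∀ i j, L₁.γ i j x = L₂.γ i j x) ∧ (∀ i a a', L₁.b i a a' x = L₂.b i a a' x) ∧
    ∀ a a', L₁.c a a' x = L₂.c a a' x

/-- Ellipticity and coefficient bounds on a set. -/
def Op.BdOn (L : Op n ι) (S : Set (En n)) (k : ℕ) (c M : ℝ) : Prop :=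
  ∀ x ∈ S, (∀ ξ : Fin n → ℝ, c * ∑ i, ξ i ^ 2 ≤ ∑ i, ∑ j, L.γ i j x * ξ i * ξ j) ∧
    (∀ i j, SB ee k M 1 (L.γ i j) x) ∧ (∀ i a a', SB ee k M 1 (L.b i a a') x) ∧
    ∀ a a', SB ee k M 1 (L.c a a') x

/-- The class of nearly flat operators with the global bounds `M j` in `C^j`. -/
def Op.Bd (L : Op n ι) (k : ℕ) (om : ℝ) (M : ℕ → ℝ) : Prop :=
  L.Good ∧ Near k om L.γ ∧ ∀ j x, (∀ i l, SB ee j (M j) 1 (L.γ i l) x) ∧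
    (∀ i a a', SB ee j (M j) 1 (L.b i a a') x) ∧ ∀ a a', SB ee j (M j) 1 (L.c a a') x

/-- The Green operator has norm `O(r²)` on the ball of radius `r` about the origin. -/
def GScale {U : Set (En n)} (G : HL n ι U →L[ℝ] HL n ι U) : Prop :=
  ∃ C : ℝ, ∀ r : ℝ, 0 < r → ∀ F h, SuppIn (ball 0 r) F → SuppIn (ball 0 r) h →
    |⟪G F, h⟫_ℝ| ≤ C * r ^ 2 * ‖F‖ * ‖h‖

end coord

/-! ## Local elliptic theory -/

def S_weyl : Prop := ∀ (n : ℕ) (ι : Type) [Fintype ι] (L : Op n ι) (U : Set (En n))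
  (W F : ι → En n → ℝ), L.Good → IsOpen U → L2On U W → SmOn U F → Weak L U W F →
  ∃ W', Sol L U W' F ∧ ∀ a, W a =ᵐ[volume.restrict U] W' a

/-- Green's formula. -/
def S_green : Prop := ∀ (n : ℕ) (ι : Type) [Fintype ι] (L : Op n ι) (U : Set (En n))
  (W ψ : ι → En n → ℝ), L.Good → IsOpen U → SmOn U W → Tests U ψ →
  L.T.Good ∧ L.T.T = L ∧
    ∑ a, ∫ y in U, W a y * L.T.app ψ a y = ∑ a, ∫ y in U, L.app W a y * ψ a y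

/-- Interior estimates at scale `r`. -/
def S_ie : Prop := ∀ (n : ℕ) (ι : Type) [Fintype ι] (m : ℕ), ∃ k : ℕ, ∀ c M : ℝ, 0 < c →
  ∃ C : ℝ, 0 ≤ C ∧ ∀ (L : Op n ι) (x : En n) (r N : ℝ) (W F : ι → En n → ℝ), L.Good → 0 < r →
    r ≤ 1 → L.BdOn (ball x r) k c M → Sol L (ball x r) W F → SmOn (ball x r) F →
    L2On (ball x r) W → nrm (ball x r) W ≤ N →
    (∀ l : List (Fin n), l.length ≤ k → L2On (ball x r) (fun a => Ds ee l (F a)) ∧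
      r ^ (4 + 2 * l.length) * nrm (ball x r) (fun a => Ds ee l (F a)) ≤ N) →
    ∀ l : List (Fin n), l.length ≤ m → ∀ a, ∀ y ∈ ball x (r / 2),
      Ds ee l (W a) y ^ 2 * r ^ (2 * l.length + n) ≤ C * N

def S_ucp : Prop := ∀ (n : ℕ) (ι : Type) [Fintype ι] (L : Op n ι) (U : Set (En n))
  (W : ι → En n → ℝ) (x₀ : En n), L.Good → IsOpen U → IsPreconnected U → Sol L U W 0 → x₀ ∈ U →
  (∀ a, W a =ᶠ[𝓝 x₀] 0) → ∀ x ∈ U, ∀ a, W a x = 0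

/-- The three-ball inequality with an exponent as small as one likes. -/
def S_tb : Prop := ∀ (n : ℕ) (ι : Type) [Fintype ι] (ν : ℝ), 0 < ν →
  ∃ (k : ℕ) (κ om : ℝ), 0 < κ ∧ κ ≤ 1 / 2 ∧ 0 < om ∧ ∀ M : ℕ → ℝ, ∃ C : ℝ, 0 ≤ C ∧
  ∀ (L : Op n ι) (x : En n) (ρ ε : ℝ) (W : ι → En n → ℝ), L.Bd k om M → 0 < ρ → ρ ≤ 1 →
    0 < ε → ε ≤ 1 → Sol L (ball x (2 * ρ)) W 0 → L2On (ball x (2 * ρ)) W →
    nrm (ball x ((1 + κ) * ρ)) W ≤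
      C * (ε * nrm (ball x (2 * ρ)) W + ε ^ (-ν) * nrm (ball x ρ) W)

/-- Extension of a function that is smooth up to a flat boundary. -/
def S_ext : Prop := ∀ (n : ℕ) [NeZero n] (f : En n → ℝ) (x₀ : En n) (r r' : ℝ), r' < r →
  ContDiffOn ℝ ∞ f (ball x₀ r ∩ {x | 0 ≤ x 0}) →
  ∃ g : En n → ℝ, Sm g ∧ EqOn g f (ball x₀ r' ∩ {x | 0 ≤ x 0})

/-- Gluing along a hyperplane on which all derivatives agree. -/
def S_glue : Prop := ∀ (n : ℕ) [NeZero n] (f g : En n → ℝ) (V : Set (En n)), IsOpen V →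
  ContDiffOn ℝ ∞ f V → ContDiffOn ℝ ∞ g V →
  (∀ y ∈ V, y 0 = 0 → ∀ l : List (Fin n), Ds ee l (fun z => f z - g z) y = 0) →
  ContDiffOn ℝ ∞ (fun y => if 0 ≤ y 0 then f y else g y) V

/-! ## Isometries -/

def S_cop : Prop := ∀ (n : ℕ) (ι : Type) [Fintype ι] [DecidableEq ι] (g : MatF n)
  (A : ConF n ι), GA g A → (cop g A).Good ∧ (cop g A).T = cop g A

def S_isoInter : Prop := ∀ (n : ℕ) (ι : Type) [Fintype ι] [DecidableEq ι] (g₁ g₂ : MatF n)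
  (A₁ A₂ : ConF n ι) (V : Set (En n)) (Φ : En n → En n) (S : ι → ι → En n → ℝ), GA g₁ A₁ →
  GA g₂ A₂ → IsOpen V → Iso g₁ A₁ g₂ A₂ V Φ S →
  Inter (cop g₁ A₁) (cop g₂ A₂) V Φ S fun y => |(fderiv ℝ Φ y).det|

def S_end : Prop := ∀ (n : ℕ), 3 ≤ n → ∀ (ι : Type) [Fintype ι] [DecidableEq ι] [Nonempty ι]
  (g₁ g₂ : MatF n) (A₁ A₂ : ConF n ι) (V V' : Set (En n)) (Φ : En n → En n)
  (S : ι → ι → En n → ℝ) (μ : En n → ℝ), GA g₁ A₁ → GA g₂ A₂ → IsOpen V → IsPreconnected V →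
  IsOpen V' → V'.Nonempty → V' ⊆ V → Inter (cop g₁ A₁) (cop g₂ A₂) V Φ S μ →
  Iso g₁ A₁ g₂ A₂ V' Φ S → Iso g₁ A₁ g₂ A₂ V Φ S

def S_rig : Prop := ∀ (n : ℕ) (ι : Type) [Fintype ι] [DecidableEq ι] (g₁ g₂ : MatF n)
  (A₁ A₂ : ConF n ι) (V : Set (En n)) (Φ Φ' : En n → En n) (S S' : ι → ι → En n → ℝ)
  (y₀ : En n), GA g₁ A₁ → GA g₂ A₂ → IsOpen V → IsPreconnected V → Iso g₁ A₁ g₂ A₂ V Φ S →
  Iso g₁ A₁ g₂ A₂ V Φ' S' → y₀ ∈ V → Φ =ᶠ[𝓝 y₀] Φ' → (∀ a a', S a a' =ᶠ[𝓝 y₀] S' a a') →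
  EqOn Φ Φ' V ∧ ∀ a a', EqOn (S a a') (S' a a') V

/-! ## Boundary determination in a half ball -/

/-- Comparison of energies for fields with the same boundary values. -/
def Cmp {n : ℕ} [NeZero n] {ι : Type} [Fintype ι] [DecidableEq ι] (g₁ : MatF n) (A₁ : ConF n ι)
    (g₂ : MatF n) (A₂ : ConF n ι) (r : ℝ) : Prop :=
  ∃ C : ℝ, ∀ v₁ v₂ : ι → En n → ℝ, Tests (ball 0 r) v₁ → Tests (ball 0 r) v₂ →
    (∀ x : En n, x 0 = 0 → ∀ a, v₁ a x = v₂ a x) →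
    enU {x | 0 < x 0} g₁ A₁ v₁ ≤ enU {x | 0 < x 0} g₂ A₂ v₂ +
      C * ∑ a, ∫ x in {x : En n | 0 < x 0}, (x 0 * (cop g₁ A₁).app v₁ a x) ^ 2

def S_jets : Prop := ∀ (n : ℕ) [NeZero n], 3 ≤ n → ∀ (ι : Type) [Fintype ι] [DecidableEq ι]
  [Nonempty ι] (g₁ g₂ : MatF n) (A₁ A₂ : ConF n ι) (r : ℝ), GA g₁ A₁ → GA g₂ A₂ → 0 < r →
  Cmp g₁ A₁ g₂ A₂ r → Cmp g₂ A₂ g₁ A₁ r →
  ∃ (r' : ℝ) (Φ : En n → En n) (S : ι → ι → En n → ℝ) (g : MatF n) (A : ConF n ι),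
    0 < r' ∧ GA g A ∧ Iso g₁ A₁ g A (ball 0 r') Φ S ∧ InjOn Φ (ball 0 r') ∧
    ∀ y ∈ ball (0 : En n) r', (0 < Φ y 0 ↔ 0 < y 0) ∧ (y 0 = 0 → Φ y = y ∧
      (∀ a a', S a a' y = if a = a' then 1 else 0) ∧ ∀ l : List (Fin n),
        (∀ i j, Ds ee l (fun z => g i j z - g₂ i j z) y = 0) ∧
        ∀ i a a', Ds ee l (fun z => A i a a' z - A₂ i a a' z) y = 0)

/-! ## The local continuation theorem -/

/-- Continuation of an intertwining map across the point `0` of the sphere `∂ B(q, ρ)`. -/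
def S_LT : Prop := ∀ (n : ℕ), 3 ≤ n → ∀ (ι : Type) [Fintype ι] [DecidableEq ι] [Nonempty ι]
  (L₁ L₂ : Op n ι) (r ρ C : ℝ) (q : En n)
  (G₁ G₂ : HL n ι (ball 0 r) →L[ℝ] HL n ι (ball 0 r)) (Φ : En n → En n)
  (S : ι → ι → En n → ℝ) (μ : En n → ℝ), L₁.Good → L₂.Good → 0 < ρ → ‖q‖ = ρ → 2 * ρ < r →
  IsGreen L₁ _ G₁ → IsGreen L₂ _ G₂ → GScale G₁ → GScale G₂ →
  Inter L₁ L₂ (ball q ρ) Φ S μ → InjOn Φ (ball q ρ) → MapsTo Φ (ball q ρ) (ball 0 r) →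
  Filter.Tendsto Φ (𝓝[ball q ρ] 0) (𝓝 0) →
  (∀ y ∈ ball q ρ, ‖fderiv ℝ Φ y‖ ≤ C ∧ (∀ v, ‖v‖ ≤ C * ‖fderiv ℝ Φ y v‖) ∧
    (∀ a a', |S a a' y| ≤ C) ∧ 1 ≤ C * |(Matrix.of fun a a' => S a a' y).det|) →
  (∀ F₁ F₂ : HL n ι (ball 0 r), SuppIn (Φ '' ball q ρ) F₁ → SuppIn (ball q ρ) F₂ →
    (∀ᵐ y ∂(volume.restrict (ball q ρ)), ∀ a,
      cp F₂ a y = μ y * ∑ a', S a a' y * cp F₁ a' (Φ y)) →
    ∀ᵐ y ∂(volume.restrict (ball q ρ)), ∀ a,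
      cp (G₂ F₂) a y = ∑ a', S a a' y * cp (G₁ F₁) a' (Φ y)) →
  ∃ (r' : ℝ) (Φ' : En n → En n) (S' : ι → ι → En n → ℝ) (μ' : En n → ℝ), 0 < r' ∧
    Inter L₁ L₂ (ball 0 r') Φ' S' μ' ∧ EqOn Φ' Φ (ball 0 r' ∩ ball q ρ) ∧
    ∀ a a', EqOn (S' a a') (S a a') (ball 0 r' ∩ ball q ρ)

section norm
variable {n : ℕ} {ι : Type} [Fintype ι] [DecidableEq ι]

def U0 (p : En n) : Set (En n) := ball p (3 / 4)

/-- The known region. -/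
def O0 (p : En n) : Set (En n) := ball p (3 / 4) \ closedBall ((1 / 3 : ℝ) • p) (2 / 3)

def Y0 (p : En n) : Set (En n) := ball p (1 / 2)

def X0 (p : En n) (δ : ℝ) : Set (En n) := ball p (1 / 4) ∩ {x | 1 - 3 * δ < ‖x‖ ^ 2}

/-- The part of `Y0` that is visible from `x`. -/
def Vis (p : En n) (lam δ : ℝ) (x : En n) : Set (En n) :=
  Y0 p ∩ {y | ‖(1 / 2 : ℝ) • (x + y)‖ ^ 2 + lam * ‖y - x‖ < 1 - δ / 8}

/-- The normalized setting. -/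
def Set0 (k : ℕ) (om : ℝ) (M : ℕ → ℝ) (L₁ L₂ : Op n ι) (p : En n)
    (G₁ G₂ : HL n ι (U0 p) →L[ℝ] HL n ι (U0 p)) : Prop :=
  ‖p‖ = 1 ∧ L₁.Bd k om M ∧ L₂.Bd k om M ∧ IsGreen L₁ _ G₁ ∧ IsGreen L₂ _ G₂ ∧ ‖G₁‖ ≤ M 0 ∧
    ‖G₂‖ ≤ M 0 ∧ Agree (O0 p) G₁ G₂ ∧ L₁.EqOn L₂ (O0 p)

/-- Index set of the special solutions. -/
abbrev Sp (n : ℕ) : Type := Fin n ⊕ Fin n × Fin n

/-- The model polynomials. -/
def qq (p : En n) : Sp n → En n → ℝ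
  | .inl c => fun x => x c - p c
  | .inr ab => fun x => (x ab.1 - p ab.1) * (x ab.2 - p ab.2) -
      if ab.1 = ab.2 then ‖x - p‖ ^ 2 / n else 0

/-- The order up to which the jets at `p` are prescribed. -/
def qo : Sp n → ℕ
  | .inl _ => 1
  | .inr _ => 2

/-- Normalization of the operators and special pairs of solutions (`W s col` is a column). -/
def Spec (k : ℕ) (ε : ℝ) (M : ℕ → ℝ) (L₁ L₂ : Op n ι) (p : En n)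
    (W₁ W₂ : Sp n → ι → ι → En n → ℝ) : Prop :=
  (∀ x ∈ U0 p, (∀ a a', L₁.c a a' x = 0 ∧ L₂.c a a' x = 0) ∧
    ∑ i, L₁.γ i i x = n ∧ ∑ i, L₂.γ i i x = n) ∧
  (∀ i j, L₂.γ i j p = if i = j then 1 else 0) ∧
  (∀ s col, Sol L₁ (U0 p) (W₁ s col) 0 ∧ Sol L₂ (U0 p) (W₂ s col) 0) ∧
  (∀ s col a, EqOn (W₁ s col a) (W₂ s col a) (O0 p)) ∧
  (∀ s col a, ∀ x ∈ U0 p, (∀ j, SB ee j (M j) 1 (W₁ s col a) x ∧ SB ee j (M j) 1 (W₂ s col a) x) ∧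
    SB ee k ε 1 (fun y => W₁ s col a y - W₂ s col a y) x) ∧
  (∀ s col a (l : List (Fin n)), l.length ≤ qo s →
    Ds ee l (W₂ s col a) p = if col = a then Ds ee l (qq p s) p else 0) ∧
  ∀ c, ∀ x ∈ U0 p, ∑ a, W₁ (.inl c) a a x = ∑ a, W₂ (.inl c) a a x

/-- `W'` continues `W` from the known region as a solution of the first system. -/
def Cont (L₁ : Op n ι) (p : En n) (δ : ℝ) (W W' : ι → En n → ℝ) : Prop :=
  Sol L₁ (X0 p δ) W' 0 ∧ ∀ a, EqOn (W' a) (W a) (X0 p δ ∩ O0 p)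

/-- Square of the value and gradient. -/
def vg (W : ι → En n → ℝ) (x : En n) : ℝ := ∑ a, (W a x ^ 2 + ∑ j, D (ee j) (W a) x ^ 2)

/-- The output of the first stage. -/
def St1 (L₁ L₂ : Op n ι) (p : En n) (lam δ C : ℝ) : Prop :=
  ∀ W, Sol L₂ (Y0 p) W 0 → L2On (Y0 p) W → ∃ W', Cont L₁ p δ W W' ∧
    ∀ x ∈ ball p (1 / 5), 1 - 2 * δ ≤ ‖x‖ ^ 2 → vg W' x ≤ C * nrm (Y0 p) W ∧
      (‖x‖ ^ 2 ≤ 1 - δ → vg W' x ≤ C * nrm (Vis p lam δ x) W)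

end norm

def S_st1 : Prop := ∀ (n : ℕ), 3 ≤ n → ∀ (ι : Type) [Fintype ι] [DecidableEq ι] (M : ℕ → ℝ),
  ∃ (k : ℕ) (om lam δ₀ : ℝ), 0 < om ∧ 0 < lam ∧ 0 < δ₀ ∧ ∀ δ : ℝ, 0 < δ → δ ≤ δ₀ → ∃ C : ℝ,
    0 ≤ C ∧ ∀ (L₁ L₂ : Op n ι) (p : En n) (G₁ G₂ : HL n ι (U0 p) →L[ℝ] HL n ι (U0 p)),
      Set0 k om M L₁ L₂ p G₁ G₂ → St1 L₁ L₂ p lam δ C

def S_LT0 : Prop := ∀ (n : ℕ), 3 ≤ n → ∀ (ι : Type) [Fintype ι] [DecidableEq ι] [Nonempty ι]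
  (M : ℕ → ℝ), ∃ (k : ℕ) (om ε : ℝ), 0 < om ∧ 0 < ε ∧ ∀ (L₁ L₂ : Op n ι) (p : En n)
    (G₁ G₂ : HL n ι (U0 p) →L[ℝ] HL n ι (U0 p)) (W₁ W₂ : Sp n → ι → ι → En n → ℝ),
    Set0 k om M L₁ L₂ p G₁ G₂ → Spec k ε M L₁ L₂ p W₁ W₂ →
    ∃ r : ℝ, 0 < r ∧ L₁.EqOn L₂ (ball p r)

end Vale.Agent.P088
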