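import Vale.Agent.P088.V2a

/-!
# P088: the gradient terms of weight `v ^ 2`
-/

open MeasureTheory Set Metric Filter
open scoped ContDiff Topology

noncomputable section
namespace Vale.Agent.P088
open Vale.Agent.P136 (D Dp Dm Sm Tst tsupport_Dm iadd)

namespace V2

variable {n : ℕ} {ι : Type} {f : Fx} {c : Cx n ι} {u q : X2 n → ℝ}

theorem tst_n2 {ζ : X2 n → Fin n → ℝ} (h : ∀ i, Tst fun p => ζ p i) : Tst fun p => n2 (ζ p) :=
  Tst.sum _ fun i _ => (h i).sq

theorem tst_zx (h : SmF f c) (hu : Tst u) (i : Fin n) : Tst fun p => zx f c u p i :=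
  hu.Dm h.phi _

theorem tst_zy (h : SmF f c) (hq : Tst q) (i : Fin n) : Tst fun p => zy f c q p i :=
  hq.Dm h.phi _

theorem tst_gV (h : SmF f c) (hu : Tst u) (hq : Tst q) :
    Tst fun p => gV c p (zx f c u p) (zy f c q p) :=
  IdT.tst_quad (a := fun i p => zy f c q p i - zx f c u p i)
    (b := fun i p => zy f c q p i - zx f c u p i) h.gm
    (fun i => ((tst_zy h hq i).sub (tst_zx h hu i)).sm) fun i => (tst_zy h hq i).sub (tst_zx h hu i)

theorem tst_g1 (h : SmF f c) (hu : Tst u) :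
    Tst fun p => bil (g1 c p) (zx f c u p) (zx f c u p) :=
  IdT.tst_quad (a := fun i p => zx f c u p i) (b := fun i p => zx f c u p i) h.g1
    (fun i => (tst_zx h hu i).sm) fun i => tst_zx h hu i

theorem cont_rh (h0 : W0 f c) {N : ℝ} (hN : 1 ≤ N) : Continuous (rh f c N) :=
  continuous_const.div (continuous_const.add (smF h0).Psi.cont) fun p => by
    have := Psi_nonneg h0 p
    positivity

theorem int1 {C η N : ℝ} (h0 : W0 f c) (hL : 1 ≤ c.L0)
    (h2 : ∀ p ∈ Om2 c, W2 f c C (η ^ 2 / 4) p) (hη : 0 < η) (hη1 : η ≤ 1) (hN : 1 ≤ N)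
    (hu : Tst u) (hq : Tst q) (su : tsupport u ⊆ Om2 c) (sq : tsupport q ⊆ Om2 c) :
    (∫ p, vv f c p ^ 2 * n2 (zx f c u p)) + ∫ p, vv f c p ^ 2 * n2 (zy f c q p) ≤
      η * ((∫ p, mx f c p * n2 (zx f c u p)) + (∫ p, my f c p * n2 (zy f c q p)) +
        ∫ p, rh f c N p * al f c p * gV c p (zx f c u p) (zy f c q p)) +
      6 * C ^ 2 * ∫ p, ww f c p * bil (g1 c p) (zx f c u p) (zx f c u p) := by
  have h := smF h0
  have t1 := tst_n2 (tst_zx h hu)
  have t2 := tst_n2 (tst_zy h hq)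
  have i1 : Integrable fun p => vv f c p ^ 2 * n2 (zx f c u p) :=
    t1.integrable_cmul (h.vv.pow 2).cont
  have i2 : Integrable fun p => vv f c p ^ 2 * n2 (zy f c q p) :=
    t2.integrable_cmul (h.vv.pow 2).cont
  have i3 : Integrable fun p => mx f c p * n2 (zx f c u p) := t1.integrable_cmul h.mx.cont
  have i4 : Integrable fun p => my f c p * n2 (zy f c q p) := t2.integrable_cmul h.my.cont
  have i5 : Integrable fun p => rh f c N p * al f c p * gV c p (zx f c u p) (zy f c q p) :=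
    (tst_gV h hu hq).integrable_cmul ((cont_rh h0 hN).mul h.al.cont)
  have i6 : Integrable fun p => ww f c p * bil (g1 c p) (zx f c u p) (zx f c u p) :=
    (tst_g1 h hu).integrable_cmul (sm_ww h).cont
  have j1 := (iadd (iadd i3 i4) i5).const_mul η
  have j2 := i6.const_mul (6 * C ^ 2)
  rw [← integral_add i1 i2, ← integral_add i3 i4, ← integral_add (iadd i3 i4) i5,
    ← integral_const_mul, ← integral_const_mul, ← integral_add j1 j2]
  refine integral_mono (iadd i1 i2) (iadd j1 j2) fun p => ?_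
  by_cases hp : p ∈ Om2 c
  · exact pwA h0 hL (h2 p hp) hη hη1 hN _ _
  · have e1 : zx f c u p = 0 := funext fun i =>
      image_eq_zero_of_notMem_tsupport (f := Dm (phi f c) (ex i) u)
        fun h' => hp (su (tsupport_Dm _ _ _ h'))
    have e2 : zy f c q p = 0 := funext fun i =>
      image_eq_zero_of_notMem_tsupport (f := Dm (phi f c) (ey i) q)
        fun h' => hp (sq (tsupport_Dm _ _ _ h'))
    simp [e1, e2, n2, gV, bil]

theorem int2 (hCI : S_CI) {A K η : ℝ} (h0 : W0 f c) (hs : SmM c.γ₁) (hn : Near 8 1 c.γ₁)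
    (hA : 0 ≤ A) (hη : 0 < η)
    (hb : ∀ p ∈ Om2 c, p ∈ Nr f c 16 → ww f c p ^ 2 ≤ nl f c p ∧
      2 * ww f c p * rx f c p + ww f c p * dgd ex (onX c.γ₁) (phi f c) p +
        1 / 2 * dgd ex (onX c.γ₁) (ww f c) p ≤ K * nl f c p)
    (hu : Tst u) (su : tsupport u ⊆ Om2 c) :
    A * ∫ p, ww f c p * bil (g1 c p) (zx f c u p) (zx f c u p) ≤
      η * (∫ p, Lp' ex (onX c.γ₁) (phi f c) u p ^ 2) +
        (A ^ 2 / η + A * K) * ∫ p in Nr f c 16, nl f c p * u p ^ 2 := by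
  have h := smF h0
  have key : ∫ p, ww f c p * bil (g1 c p) (zx f c u p) (zx f c u p) =
      -(∫ p, ww f c p * u p * Lp' ex (onX c.γ₁) (phi f c) u p) +
        ∫ p, (2 * ww f c p * rx f c p + ww f c p * dgd ex (onX c.γ₁) (phi f c) p +
          1 / 2 * dgd ex (onX c.γ₁) (ww f c) p) * u p ^ 2 :=
    (hCI (X2 n) volume (Fin n) ex (onX c.γ₁) (phi f c) u (ww f c) h.g1 h.g1' h.phi hu
      (sm_ww h)).1
  have tL := IdT.tst_Lp (v := ex) h.g1 h.phi hu
  have hm := (closed_Nr h 16).measurableSet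
  have i1 : Integrable fun p => ww f c p * u p * Lp' ex (onX c.γ₁) (phi f c) u p :=
    tL.integrable_cmul ((sm_ww h).mul hu.sm).cont
  have i2 : Integrable fun p => (2 * ww f c p * rx f c p +
      ww f c p * dgd ex (onX c.γ₁) (phi f c) p + 1 / 2 * dgd ex (onX c.γ₁) (ww f c) p) * u p ^ 2 :=
    hu.sq.integrable_cmul (((((sm_ww h).cmul 2).mul (IdT.sm_rho h.g1 h.phi)).add
      ((sm_ww h).mul (IdT.sm_dgd h.g1 h.phi))).add ((IdT.sm_dgd h.g1 (sm_ww h)).cmul _)).cont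
  have i3 : Integrable fun p => Lp' ex (onX c.γ₁) (phi f c) u p ^ 2 := tL.sq.integrable
  have i4 : Integrable ((Nr f c 16).indicator fun p => nl f c p * u p ^ 2) :=
    (hu.sq.integrable_cmul h.nl.cont).indicator hm
  have j0 : Integrable fun p => -(ww f c p * u p * Lp' ex (onX c.γ₁) (phi f c) u p) := i1.neg
  have j1 := i3.const_mul η
  have j2 := i4.const_mul (A ^ 2 / η + A * K)
  rw [key, ← integral_neg, ← integral_add j0 i2, ← integral_indicator hm, ← integral_const_mul,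
    ← integral_const_mul, ← integral_const_mul, ← integral_add j1 j2]
  refine integral_mono ((iadd j0 i2).const_mul A) (iadd j1 j2) fun p => ?_
  have z := mul_nonneg hη.le (sq_nonneg (Lp' ex (onX c.γ₁) (phi f c) u p))
  by_cases hN : p ∈ Nr f c 16
  · simp only [indicator_of_mem hN]
    by_cases hp : p ∈ Om2 c
    · obtain ⟨b1, b2⟩ := hb p hp hN
      have e1 := mul_le_mul_of_nonneg_left (mul_le_mul_of_nonneg_right b2 (sq_nonneg (u p))) hA
      have e2 := mul_le_mul_of_nonneg_left (mul_le_mul_of_nonneg_right b1 (sq_nonneg (u p)))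
        (div_nonneg (sq_nonneg A) hη.le)
      have e3 : -(A * (ww f c p * u p * Lp' ex (onX c.γ₁) (phi f c) u p)) ≤
          η * Lp' ex (onX c.γ₁) (phi f c) u p ^ 2 + A ^ 2 / η * (ww f c p ^ 2 * u p ^ 2) := by
        generalize Lp' ex (onX c.γ₁) (phi f c) u p = y
        have e4 : η * (A ^ 2 / η * (ww f c p ^ 2 * u p ^ 2)) = (A * ww f c p * u p) ^ 2 := by
          field_simp
        refine le_of_mul_le_mul_left ?_ hη
        rw [mul_add, e4]
        nlinarith [sq_nonneg (η * y + A * ww f c p * u p), sq_nonneg (η * y),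
          sq_nonneg (A * ww f c p * u p)]
      linarith
    · have e : u p = 0 := image_eq_zero_of_notMem_tsupport fun h' => hp (su h')
      simpa [e] using z
  · obtain ⟨b1, b2⟩ := pwOut h hs hn hN
    simpa [b1, b2, indicator_of_notMem hN] using z

end V2

open V2 in
theorem s_V2 (h0 : S_w0) (hx : S_w1x) (h2 : S_w2) (h3 : S_w3) (h7 : S_w7) (hCI : S_CI) : S_V2 := by
  intro n ι _ f hf η N hη hN
  obtain ⟨C1, -, e1⟩ := hx n ι f hf
  obtain ⟨C2, -, e2⟩ := h2 n ι f hf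
  obtain ⟨C3, hC3, e3⟩ := h3 n ι f hf
  obtain ⟨C7, hC7, e7⟩ := h7 n ι f hf
  obtain ⟨ε, hε⟩ : ∃ ε : ℝ, ε = min η 1 := ⟨_, rfl⟩
  have ε0 : 0 < ε := hε ▸ lt_min hη one_pos
  have ε1 : ε ≤ 1 := hε ▸ min_le_right _ _
  have ε2 : ε ≤ η := hε ▸ min_le_left _ _
  obtain ⟨K, hK⟩ : ∃ K : ℝ, K = 72 * n * C3 ^ 2 + 76 * n ^ 2 * C3 + 32 * n ^ 2 * C1 ^ 2 * C7 :=
    ⟨_, rfl⟩
  obtain ⟨B, hB⟩ : ∃ B : ℝ, B = (6 * C2 ^ 2) ^ 2 / η + 6 * C2 ^ 2 * K := ⟨_, rfl⟩
  refine ⟨max 1 B, le_max_left _ _, ?_⟩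
  refine (((((Ev.ok f one_pos 1).and (h0 n ι f hf)).and e1).and
    (e2 (ε ^ 2 / 4) (by positivity))).and (e3.and e7)).mono ?_
  rintro c ⟨⟨⟨⟨ok, w0⟩, w1⟩, w2⟩, w3, w7⟩ g q hT
  obtain ⟨hL, -, -, -, hp0, hs, -, hn, -⟩ := ok
  have h := smF w0
  have su : ∀ s, tsupport (g s) ⊆ Om2 c := fun s p hp => ((hT.1 s).2.2.1 hp).1
  have sq : ∀ s, tsupport (q s) ⊆ Om2 c := fun s p hp => ((hT.1 s).2.2.2 hp).1
  have hb : ∀ p ∈ Om2 c, p ∈ Nr f c 16 → ww f c p ^ 2 ≤ nl f c p ∧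
      2 * ww f c p * rx f c p + ww f c p * dgd ex (onX c.γ₁) (phi f c) p +
        1 / 2 * dgd ex (onX c.γ₁) (ww f c) p ≤ K * nl f c p := by
    intro p hp hN
    have hx2 : ‖p.1‖ ≤ 2 := by
      have := norm_le_insert' p.1 c.p0
      linarith [hp.1]
    rw [hK]
    exact pwIn w0 hL hs hn hC3 hC7 (by nlinarith) (w1 _ hx2) (w2 p hp) (w3 p hp) (w7 p hp) hN
  simp only [Vale.Agent.P088.V2, A1, A2, qLX, NN, IX, IY, I0, Measure.restrict_univ]
  rw [← Finset.sum_add_distrib, ← Finset.sum_add_distrib, ← Finset.sum_add_distrib,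
    ← Finset.sum_add_distrib, Finset.mul_sum, Finset.mul_sum, ← Finset.sum_add_distrib]
  refine Finset.sum_le_sum fun s _ => ?_
  have a1 := int1 w0 hL w2 ε0 ε1 hN (hT.1 s).1 (hT.1 s).2.1 (su s) (sq s)
  have a2 := int2 hCI (A := 6 * C2 ^ 2) w0 hs hn (by positivity) hη hb (hT.1 s).1 (su s)
  rw [← hB] at a2
  have nv : ∀ p, 0 ≤ my f c p := fun p =>
    mul_nonneg (Psi_nonneg w0 p) (zero_le_one.trans (hL.trans (w0.2.2.1 p).2.2.2.1))
  have n1 : 0 ≤ ∫ p, mx f c p * n2 (zx f c (g s) p) := integral_nonneg fun p =>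
    mul_nonneg (add_nonneg (nv p) (w0.2.2.1 p).2.2.2.2.2.2.2.2.2.2.2.1) (n2_nonneg _)
  have n2' : 0 ≤ ∫ p, my f c p * n2 (zy f c (q s) p) := integral_nonneg fun p =>
    mul_nonneg (nv p) (n2_nonneg _)
  have n3 : 0 ≤ ∫ p, rh f c N p * al f c p * gV c p (zx f c (g s) p) (zy f c (q s) p) :=
    integral_nonneg fun p => by
      obtain ⟨-, -, a3, -, a5, -, -, -, -, -, -, -, -, -, -, -, -, a18⟩ := w0.2.2.1 p
      have := Psi_nonneg w0 p
      refine mul_nonneg (mul_nonneg (div_nonneg (sq_nonneg _) (by positivity))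
        (mul_nonneg a3.le (by linarith))) ?_
      exact le_trans (div_nonneg (n2_nonneg _) zero_le_two) (a18 _).2.2.2.2.1
  have n4 : 0 ≤ ∫ p in Nr f c 16, nl f c p * g s p ^ 2 := integral_nonneg fun p => by
    have := Psi_nonneg w0 p
    have := (w0.2.1 p.1).1
    unfold nl
    positivity
  have m1 := mul_le_mul_of_nonneg_right ε2 (add_nonneg (add_nonneg n1 n2') n3)
  have m2 := mul_le_mul_of_nonneg_right (le_max_right 1 B) n4
  linarith

end Vale.Agent.P088
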