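import Vale.Agent.P088.StI
import Vale.Agent.P088.IdTool
import Vale.Agent.P088.SbAlg
import Vale.Agent.P088.SbComp

/-!
# P088: the gradient terms of weight `v ^ 2`, pointwise estimates
-/

open MeasureTheory Set Metric Filter
open scoped ContDiff Topology

noncomputable section
namespace Vale.Agent.P088
open Vale.Agent.P136 (D Dp Dm Sm Tst D_add_at D_sub_at D_mul_at D_const D_sum_at D_congr)

namespace V2

section gen
variable {X : Type} [NormedAddCommGroup X] [NormedSpace ℝ X] {κ : Type} {v : κ → X} {p : X}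
  {f g : X → ℝ}

theorem D_mul_le (hf : Sm f) (hg : Sm g) (a : X) {a0 a1 b0 b1 : ℝ} (h0 : |f p| ≤ a0)
    (h1 : |D a f p| ≤ a1) (k0 : |g p| ≤ b0) (k1 : |D a g p| ≤ b1) :
    |D a (fun x => f x * g x) p| ≤ a0 * b1 + a1 * b0 := by
  rw [D_mul_at (hf.dAt p) (hg.dAt p)]
  refine (abs_add_le _ _).trans (add_le_add ?_ ?_) <;> rw [abs_mul]
  · exact mul_le_mul h0 k1 (abs_nonneg _) ((abs_nonneg _).trans h0)
  · exact mul_le_mul h1 k0 (abs_nonneg _) ((abs_nonneg _).trans h1)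

theorem dgd_le [Fintype κ] {γ : κ → κ → X → ℝ} (hγ : SmM γ) (hf : Sm f) {B a : ℝ}
    (h0 : ∀ i j, |γ i j p| ≤ B) (h1 : ∀ i j, |D (v i) (γ i j) p| ≤ B)
    (k1 : ∀ j, |D (v j) f p| ≤ a) (k2 : ∀ i j, |D (v i) (D (v j) f) p| ≤ a) :
    |dgd v γ f p| ≤ (Fintype.card κ : ℝ) ^ 2 * (2 * B * a) := by
  have e : dgd v γ f p = ∑ i, ∑ j, D (v i) (fun q => γ i j q * D (v j) f q) p :=
    Finset.sum_congr rfl fun i _ =>
      D_sum_at Finset.univ (fun j _ => ((hγ i j).mul (hf.D _)).dAt p) (v i)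
  rw [e]
  calc _ ≤ ∑ i : κ, ∑ j : κ, (B * a + B * a) :=
        (Finset.abs_sum_le_sum_abs _ _).trans (Finset.sum_le_sum fun i _ =>
          (Finset.abs_sum_le_sum_abs _ _).trans (Finset.sum_le_sum fun j _ =>
            D_mul_le (hγ i j) (hf.D _) _ (h0 i j) (h1 i j) (k1 j) (k2 i j)))
    _ = _ := by
        simp only [Finset.sum_const, Finset.card_univ, nsmul_eq_mul]
        ring

theorem sb2 {w L : ℝ} (h0 : |f p| ≤ w) (h1 : ∀ i, |D (v i) f p| ≤ w * L)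
    (h2 : ∀ i j, |D (v i) (D (v j) f) p| ≤ w * L ^ 2) : SB v 2 w L f p := by
  intro l hl
  match l, hl with
  | [], _ => simpa [SbAlg.Ds_nil] using h0
  | [i], _ => simpa [SbAlg.Ds_cons, SbAlg.Ds_nil] using h1 i
  | [i, j], _ => simpa [SbAlg.Ds_cons, SbAlg.Ds_nil] using h2 i j

theorem sb_one {k : ℕ} {w L : ℝ} (h : SB v (k + 1) w L f p) (i : κ) : |D (v i) f p| ≤ w * L := by
  simpa [SbAlg.Ds_cons, SbAlg.Ds_nil] using h [i] (by simp)

theorem sb_two {k : ℕ} {w L : ℝ} (h : SB v (k + 2) w L f p) (i j : κ) :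
    |D (v i) (D (v j) f) p| ≤ w * L ^ 2 := by
  simpa [SbAlg.Ds_cons, SbAlg.Ds_nil] using h [i, j] (by simp)

theorem sb_zero {k : ℕ} {w L : ℝ} (h : SB v k w L f p) : |f p| ≤ w := by
  simpa [SbAlg.Ds_nil] using h [] (Nat.zero_le _)

end gen

variable {n : ℕ} {ι : Type}

theorem sm_fst {g : En n → ℝ} (hg : Sm g) : Sm fun q : X2 n => g q.1 := hg.comp contDiff_fst

theorem D_fst {g : En n → ℝ} (hg : Sm g) (i : Fin n) :
    D (ex i) (fun q : X2 n => g q.1) = fun q => D (ee i) g q.1 := by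
  funext q
  exact congrArg (fun T : X2 n →L[ℝ] ℝ => T (ex i))
    ((hg.dAt q.1).hasFDerivAt.comp q (hasFDerivAt_fst (𝕜 := ℝ))).fderiv

theorem met {γ : MatF n} (hs : SmM γ) (h : Near 8 1 γ) (p : X2 n) (i j : Fin n) :
    |onX γ i j p| ≤ 2 ∧ |D (ex i) (onX γ i j) p| ≤ 2 := by
  have h0 := sb_zero (h i j p.1)
  have h1 := sb_one (h i j p.1) i
  rw [D_sub_at ((hs i j).dAt _) (differentiableAt_const _), D_const, sub_zero] at h1
  refine ⟨?_, ?_⟩
  · rw [abs_le] at h0 ⊢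
    unfold onX
    split_ifs at h0 <;> constructor <;> linarith [h0.1, h0.2]
  · have e : D (ex i) (onX γ i j) p = D (ee i) (γ i j) p.1 := congrFun (D_fst (hs i j) i) p
    rw [e]
    linarith

theorem n2_nonneg (ζ : Fin n → ℝ) : 0 ≤ n2 ζ := Finset.sum_nonneg fun _ _ => sq_nonneg _

theorem n2_le (ζ ζ' : Fin n → ℝ) : n2 ζ' ≤ 2 * n2 ζ + 2 * n2 (ζ' - ζ) := by
  unfold n2
  rw [Finset.mul_sum, Finset.mul_sum, ← Finset.sum_add_distrib]
  refine Finset.sum_le_sum fun i _ => ?_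
  rw [Pi.sub_apply]
  nlinarith [sq_nonneg (ζ' i - 2 * ζ i)]

/-- The weight of the Caccioppoli identity. -/
def ww (f : Fx) (c : Cx n ι) (p : X2 n) : ℝ := LX f c p.1 * LX f c p.1 * cn f c 1 p

variable {f : Fx} {c : Cx n ι} {p : X2 n}

theorem cn_nonneg : 0 ≤ cn f c 1 p := Real.smoothTransition.nonneg _

theorem cn_le : cn f c 1 p ≤ 1 := Real.smoothTransition.le_one _

theorem ww_nonneg : 0 ≤ ww f c p := mul_nonneg (mul_self_nonneg _) cn_nonneg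

theorem numA {v F σ P N η : ℝ} (hv : 1 ≤ v) (hF : v ^ 20 ≤ η ^ 2 / 4 * F) (hσ : 2 ≤ σ)
    (hP0 : 0 ≤ P) (hP : P ≤ v / η) (hN : 1 ≤ N) (hη : 0 < η) (hη1 : η ≤ 1) :
    4 * v ^ 2 ≤ η * (N ^ 2 / (N ^ 2 + P) * (F * σ)) := by
  have hN2 : 1 ≤ N ^ 2 := one_le_pow₀ hN
  have h1 : η * P ≤ v := by rwa [le_div_iff₀' hη] at hP
  have h2 : v ^ 3 ≤ v ^ 20 := pow_le_pow_right₀ hv (by norm_num)
  have h3 : 0 < v ^ 20 := by positivity
  have hF0 : 0 < F := by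
    by_contra h
    have := mul_nonpos_of_nonneg_of_nonpos (show 0 ≤ η ^ 2 / 4 by positivity) (not_lt.1 h)
    linarith
  have h4 : η * (N ^ 2 + P) ≤ N ^ 2 * (2 * v) := by nlinarith
  have h5 : 8 * v ^ 3 ≤ η ^ 2 * (F * σ) := by
    have := mul_le_mul_of_nonneg_left hσ (show 0 ≤ η ^ 2 * F by positivity)
    linarith
  rw [div_mul_eq_mul_div, ← mul_div_assoc, le_div_iff₀ (by positivity)]
  refine le_of_mul_le_mul_left ?_ hη
  calc η * (4 * v ^ 2 * (N ^ 2 + P)) = 4 * v ^ 2 * (η * (N ^ 2 + P)) := by ring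
    _ ≤ 4 * v ^ 2 * (N ^ 2 * (2 * v)) := by gcongr
    _ = N ^ 2 * (8 * v ^ 3) := by ring
    _ ≤ N ^ 2 * (η ^ 2 * (F * σ)) := by gcongr
    _ = _ := by ring

theorem Psi_nonneg (h0 : W0 f c) (p : X2 n) : 0 ≤ Psi f c p := by
  obtain ⟨a1, -, a3, -⟩ := h0.2.2.1 p
  exact mul_nonneg (le_trans (by positivity) a1) a3.le

theorem pwA {C η N : ℝ} (h0 : W0 f c) (hL : 1 ≤ c.L0) (h2 : W2 f c C (η ^ 2 / 4) p) (hη : 0 < η)
    (hη1 : η ≤ 1) (hN : 1 ≤ N) (ζ ζ' : Fin n → ℝ) :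
    vv f c p ^ 2 * n2 ζ + vv f c p ^ 2 * n2 ζ' ≤
      η * (mx f c p * n2 ζ + my f c p * n2 ζ' + rh f c N p * al f c p * gV c p ζ ζ') +
        6 * C ^ 2 * (ww f c p * bil (g1 c p) ζ ζ) := by
  have hP := Psi_nonneg h0 p
  obtain ⟨-, -, a3, a4, a5, -, -, -, -, -, -, a12, -, -, -, -, -, a18⟩ := h0.2.2.1 p
  have hv : 1 ≤ vv f c p := hL.trans a4
  have b1 := (a18 ζ).1
  have b2 : n2 (ζ' - ζ) / 2 ≤ gV c p ζ ζ' := (a18 (ζ' - ζ)).2.2.2.2.1
  have z1 := n2_nonneg ζ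
  have z2 := n2_nonneg ζ'
  have z3 := n2_nonneg (ζ' - ζ)
  have hr : 0 ≤ rh f c N p * al f c p := by
    unfold rh al
    have : 0 ≤ sig f c p := by linarith
    positivity
  have hg : 0 ≤ rh f c N p * al f c p * gV c p ζ ζ' := mul_nonneg hr (by linarith)
  have hw : 0 ≤ 6 * C ^ 2 * (ww f c p * bil (g1 c p) ζ ζ) :=
    mul_nonneg (by positivity) (mul_nonneg ww_nonneg (by linarith))
  have hmy : 0 ≤ my f c p := mul_nonneg hP (by linarith)
  have hmx : my f c p ≤ mx f c p := le_add_of_nonneg_right a12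
  rcases le_total (vv f c p / η) (Psi f c p) with h | h
  · rw [div_le_iff₀' hη] at h
    have h3 : vv f c p ^ 2 ≤ η * my f c p := by
      unfold my
      nlinarith
    have h4 := mul_le_mul_of_nonneg_right (h3.trans (mul_le_mul_of_nonneg_left hmx hη.le)) z1
    have h5 := mul_le_mul_of_nonneg_right h3 z2
    have h6 := mul_nonneg hη.le hg
    linarith
  · obtain ⟨c1, -, -, -, -, -, -, -, -, -, -, -, c13, -, c15⟩ := h2
    have hN1 : p ∈ Nr f c 1 := by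
      refine c15 _ ((le_div_iff₀ hη).2 (by linarith)) ?_ h
      rw [one_div_mul_eq_div, div_le_div_iff₀ hη (by positivity)]
      exact mul_le_mul (by nlinarith) (by nlinarith) (by positivity) (by positivity)
    have hN16 : p ∈ Nr f c 16 := le_trans (show _ ≤ (1 : ℝ) from hN1) (by norm_num)
    have hvl : vv f c p ≤ C * LX f c p.1 := (c13 hN16).2.2.2.2.2.1
    have hcn : cn f c 1 p = 1 := Real.smoothTransition.one_of_one_le (by
      have : QQ c p ^ 2 * FF f c p ≤ 1 := hN1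
      linarith)
    have h3 : vv f c p ^ 2 ≤ C ^ 2 * ww f c p := by
      unfold ww
      rw [hcn]
      nlinarith
    have h4 : 4 * vv f c p ^ 2 ≤ η * (rh f c N p * al f c p) := numA hv c1 a5 hP h hN hη hη1
    have h5 := mul_le_mul_of_nonneg_left (n2_le ζ ζ') (sq_nonneg (vv f c p))
    have h6 := mul_le_mul h3 b1 (by linarith) (mul_nonneg (sq_nonneg _) ww_nonneg)
    have h7 := mul_le_mul h4 b2 (by linarith) (mul_nonneg hη.le hr)
    have h8 := mul_nonneg hη.le (add_nonneg (mul_nonneg (hmy.trans hmx) z1) (mul_nonneg hmy z2))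
    linarith

/-- The smoothness facts that are used. -/
structure SmF (f : Fx) (c : Cx n ι) : Prop where
  gm : ∀ i j, Sm fun p => gm c p i j
  QQ : Sm (QQ c)
  FF : Sm (FF f c)
  vv : Sm (vv f c)
  Psi : Sm (Psi f c)
  al : Sm (al f c)
  phi : Sm (phi f c)
  nl : Sm (nl f c)
  mx : Sm (mx f c)
  my : Sm (my f c)
  LX : Sm (LX f c)
  g1 : SmM (onX c.γ₁)
  g1' : SymM (onX c.γ₁)

theorem smF (h0 : W0 f c) : SmF f c := by
  obtain ⟨-, -, s3, -, s5, -, s7, s8, -, s10, s11, -, -, -, -, -, -, s18, -, -, -, -, s23, -, -,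
    -, -, -, -, -, s31, s32, -, -, -, -, -, -, s39, -, -, s42, s43, -⟩ := h0.1
  exact ⟨s3, s5, s7, s8, s10, s11, s18, s23, s31, s32, s39, s42, s43⟩

theorem sm_cn (h : SmF f c) : Sm (cn f c 1) :=
  SbComp.cut_smooth.comp (((h.QQ.pow 2).mul h.FF).div_const 1)

theorem sm_ww (h : SmF f c) : Sm (ww f c) := ((sm_fst h.LX).mul (sm_fst h.LX)).mul (sm_cn h)

theorem closed_Nr (h : SmF f c) (r : ℝ) : IsClosed (Nr f c r) :=
  isClosed_le ((h.QQ.pow 2).mul h.FF).cont continuous_const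

theorem pwOut (h : SmF f c) (hs : SmM c.γ₁) (hn : Near 8 1 c.γ₁) (hp : p ∉ Nr f c 16) :
    ww f c p = 0 ∧ dgd ex (onX c.γ₁) (ww f c) p = 0 := by
  have e : ww f c =ᶠ[𝓝 p] fun _ => 0 := by
    filter_upwards [(closed_Nr h 16).isOpen_compl.mem_nhds hp] with q hq
    have h1 : 16 < QQ c q ^ 2 * FF f c q := not_le.1 hq
    have h2 : cn f c 1 q = 0 := Real.smoothTransition.zero_of_nonpos (by linarith)
    rw [ww, h2, mul_zero]
  have e1 : ∀ j, D (ex j) (ww f c) =ᶠ[𝓝 p] fun _ => 0 := fun j =>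
    (SbAlg.D_ev e _).trans (Eventually.of_forall fun q => D_const _ _ _)
  refine ⟨e.eq_of_nhds, ?_⟩
  have := dgd_le (v := ex) (p := p) (a := 0) h.g1 (sm_ww h) (fun i j => (met hs hn p i j).1)
    (fun i j => (met hs hn p i j).2) (fun j => by rw [(e1 j).eq_of_nhds, abs_zero])
    (fun i j => by rw [D_congr (e1 j), D_const, abs_zero])
  rwa [mul_zero, mul_zero, abs_nonpos_iff] at this

theorem dgd_ww {C1 C7 : ℝ} (h : SmF f c) (hs : SmM c.γ₁) (hn : Near 8 1 c.γ₁) (hC7 : 1 ≤ C7)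
    (hL : 1 ≤ LX f c p.1) (ha : LX f c p.1 ^ 20 ≤ aX f c p.1) (hx : W1x f c C1 p.1)
    (h7 : W7 f c C7 p) (hp : p ∈ Nr f c 16) :
    |dgd ex (onX c.γ₁) (ww f c) p| ≤
      (n : ℝ) ^ 2 * (64 * C1 ^ 2 * C7) * (aX f c p.1 * LX f c p.1 ^ 2) := by
  have k := (h7 hp 1 1 le_rfl le_rfl (by norm_num)).2.2.2
  have ha4 : LX f c p.1 ^ 4 ≤ C7 * aX f c p.1 := by
    have h1 : LX f c p.1 ^ 4 ≤ LX f c p.1 ^ 20 := pow_le_pow_right₀ hL (by norm_num)
    have h2 : 0 ≤ aX f c p.1 := le_trans (by positivity) ha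
    nlinarith
  obtain ⟨Λ, hΛ⟩ : ∃ Λ : ℝ, Λ = √(√(C7 * aX f c p.1)) := ⟨_, rfl⟩
  have hΛ0 : 0 ≤ Λ := hΛ ▸ Real.sqrt_nonneg _
  have hΛ4 : Λ ^ 4 = C7 * aX f c p.1 := by
    rw [show Λ ^ 4 = (Λ ^ 2) ^ 2 by ring, hΛ, Real.sq_sqrt (Real.sqrt_nonneg _),
      Real.sq_sqrt (le_trans (by positivity) ha4)]
  have hLΛ : LX f c p.1 ≤ Λ :=
    (pow_le_pow_iff_left₀ (by linarith) hΛ0 (by norm_num : 4 ≠ 0)).1 (hΛ4 ▸ ha4)
  have hΛ1 : 1 ≤ Λ := hL.trans hLΛ
  have s1 : SB ex 2 (C1 * LX f c p.1) Λ (fun q : X2 n => LX f c q.1) p := by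
    refine SbAlg.mono (by linarith) (sb2 (L := LX f c p.1) (sb_zero hx.2.2.1) (fun i => ?_)
      fun i j => ?_) le_rfl le_rfl hLΛ
    · rw [D_fst h.LX]
      exact sb_one hx.2.2.1 i
    · rw [D_fst h.LX, D_fst (h.LX.D _)]
      exact sb_two hx.2.2.1 i j
  have s2 : SB ex 2 1 Λ (cn f c 1) p := by
    refine sb2 (by rw [abs_of_nonneg cn_nonneg]; exact cn_le) (fun i => ?_) fun i j => ?_
    · rw [one_mul]
      refine (pow_le_pow_iff_left₀ (abs_nonneg _) hΛ0 (by norm_num : 4 ≠ 0)).1 ?_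
      rw [hΛ4, Even.pow_abs (by norm_num)]
      exact (k (Sum.inl i)).2.1
    · rw [one_mul]
      refine abs_le_of_sq_le_sq' ?_ (by positivity) |> abs_le.2
      rw [← pow_mul, hΛ4]
      exact ((k (Sum.inl i)).2.2 (Sum.inl j)).2
  have l1 := (sm_fst h.LX).contDiffAt (x := p)
  have s3 : SB ex 2 (2 ^ 2 * (2 ^ 2 * (C1 * LX f c p.1) * (C1 * LX f c p.1)) * 1) Λ (ww f c) p :=
    SbAlg.mul hΛ0 (l1.mul l1) (sm_cn h).contDiffAt (SbAlg.mul hΛ0 l1 l1 s1 s1) s2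
  have w0 := SbAlg.nonneg s3
  have m1 : Λ ≤ Λ ^ 4 := le_self_pow₀ hΛ1 (by norm_num)
  have m2 : Λ ^ 2 ≤ Λ ^ 4 := pow_le_pow_right₀ hΛ1 (by norm_num)
  have := dgd_le (v := ex) (p := p) h.g1 (sm_ww h) (fun i j => (met hs hn p i j).1)
    (fun i j => (met hs hn p i j).2)
    (fun j => (sb_one s3 j).trans (mul_le_mul_of_nonneg_left m1 w0))
    (fun i j => (sb_two s3 i j).trans (mul_le_mul_of_nonneg_left m2 w0))
  rw [Fintype.card_fin, hΛ4] at this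
  exact this.trans (le_of_eq (by ring))

theorem rx_eq (p : X2 n) : rx f c p = bil (g1 c p) (dx (phi f c) p) (dx (phi f c) p) :=
  (IdT.quad_D (v := ex) (γ := onX c.γ₁) (f := phi f c) (g := phi f c) p).symm

theorem pwIn {C1 C2 C3 C7 η : ℝ} (h0 : W0 f c) (hL0 : 1 ≤ c.L0) (hs : SmM c.γ₁)
    (hn : Near 8 1 c.γ₁) (hC3 : 1 ≤ C3) (hC7 : 1 ≤ C7) (hη : η ≤ 1) (hx : W1x f c C1 p.1)
    (h2 : W2 f c C2 η p) (h3 : W3 f c C3 p) (h7 : W7 f c C7 p) (hp : p ∈ Nr f c 16) :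
    ww f c p ^ 2 ≤ nl f c p ∧
      2 * ww f c p * rx f c p + ww f c p * dgd ex (onX c.γ₁) (phi f c) p +
        1 / 2 * dgd ex (onX c.γ₁) (ww f c) p ≤
      (72 * n * C3 ^ 2 + 76 * n ^ 2 * C3 + 32 * n ^ 2 * C1 ^ 2 * C7) * nl f c p := by
  have h := smF h0
  have hP := Psi_nonneg h0 p
  obtain ⟨x1, x2, -⟩ := h0.2.1 p.1
  obtain ⟨a1, -, a3, a4, a5, -, -, -, -, -, -, -, -, -, -, -, -, a18⟩ := h0.2.2.1 p
  obtain ⟨c1, c2, -, -, -, -, -, -, -, -, -, -, c13, -⟩ := h2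
  obtain ⟨-, -, -, d4, d5, -, -, d8, -⟩ := c13 hp
  have hfp : fp f c p = 0 := ((h0.2.2.2.2 p).1 d8).2
  have hL : 1 ≤ LX f c p.1 := hL0.trans x2
  have hv : 1 ≤ vv f c p := hL0.trans a4
  have ha : LX f c p.1 ^ 20 ≤ aX f c p.1 := c2.trans (mul_le_of_le_one_left x1.le hη)
  have ha1 : 1 ≤ aX f c p.1 := (one_le_pow₀ hL).trans ha
  have hF : FF f c p ≤ aX f c p.1 := by
    have := (abs_le.1 d4).2
    have := mul_le_of_le_one_left x1.le hη
    linarith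
  have hv2 : vv f c p ^ 2 ≤ aX f c p.1 :=
    (pow_le_pow_right₀ hv (by norm_num)).trans
      (c1.trans ((mul_le_of_le_one_left a3.le hη).trans hF))
  have hA : AA f c p ≤ 9 * aX f c p.1 := by
    unfold AA
    have : sig f c p ^ 2 ≤ 9 := by nlinarith
    nlinarith
  have hQ : 0 ≤ QQ c p := le_trans (by positivity) a1
  have hz : z0 f c p ^ 2 = AA f c p * Psi f c p := by
    unfold z0 al AA Psi
    rw [mul_pow, Real.sq_sqrt hQ]
    ring
  obtain ⟨T, hT⟩ : ∃ T : ℝ, T = aX f c p.1 * (1 + Psi f c p) := ⟨_, rfl⟩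
  have hT1 : aX f c p.1 ≤ T := by rw [hT]; nlinarith
  have hnl : nl f c p = LX f c p.1 ^ 2 * T := by rw [hT, nl]; ring
  have hzv : (z0 f c p + vv f c p) ^ 2 ≤ 18 * T := by
    have := mul_le_mul_of_nonneg_right hA hP
    rw [hT]
    nlinarith [sq_nonneg (z0 f c p - vv f c p)]
  have hzv' : z0 f c p + vv f c p ≤ 19 * T := by
    nlinarith [sq_nonneg (z0 f c p + vv f c p - 1)]
  have hd : ∀ i, |D (ex i) (phi f c) p| ≤ C3 * (z0 f c p + vv f c p) := fun i => by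
    simpa only [hfp, add_zero] using (h3.2.2.1 i).1
  have hw : ww f c p ≤ LX f c p.1 ^ 2 := by
    unfold ww
    rw [sq]
    exact mul_le_of_le_one_right (mul_self_nonneg _) cn_le
  have hw0 : 0 ≤ ww f c p := ww_nonneg
  have hrx : rx f c p ≤ 36 * n * C3 ^ 2 * T := by
    have h4 : n2 (dx (phi f c) p) ≤ ∑ _i : Fin n, C3 ^ 2 * (18 * T) :=
      Finset.sum_le_sum fun i _ => by
        have h5 := sq_le_sq' (abs_le.1 (hd i)).1 (abs_le.1 (hd i)).2
        rw [mul_pow] at h5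
        exact h5.trans (mul_le_mul_of_nonneg_left hzv (sq_nonneg _))
    rw [Finset.sum_const, Finset.card_univ, Fintype.card_fin, nsmul_eq_mul] at h4
    have h6 := (a18 (dx (phi f c) p)).2.1
    rw [rx_eq]
    linarith
  have hdg : |dgd ex (onX c.γ₁) (phi f c) p| ≤ 76 * n ^ 2 * C3 * T := by
    have := dgd_le (v := ex) (p := p) (a := C3 * (19 * T)) h.g1 h.phi
      (fun i j => (met hs hn p i j).1) (fun i j => (met hs hn p i j).2)
      (fun j => (hd j).trans (mul_le_mul_of_nonneg_left hzv' (by linarith)))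
      (fun i j => (sb_zero (h3.1 i j)).trans (mul_le_mul_of_nonneg_left (by
        rw [HX, hfp, zero_mul, add_zero]
        linarith) (by linarith)))
    rw [Fintype.card_fin] at this
    exact this.trans (le_of_eq (by ring))
  have hdw := dgd_ww h hs hn hC7 hL ha hx h7 hp
  have hT0 : 0 ≤ T := by linarith
  refine ⟨?_, ?_⟩
  · have h4 : LX f c p.1 ^ 2 ≤ T :=
      (pow_le_pow_right₀ hL (by norm_num)).trans (ha.trans hT1)
    rw [hnl, sq]
    exact mul_le_mul hw (hw.trans h4) hw0 (sq_nonneg _)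
  · have e1 := mul_le_mul hw hrx (h0.2.2.1 p).2.2.2.2.2.1 (sq_nonneg _)
    have e2 := (mul_le_mul_of_nonneg_left (abs_le.1 hdg).2 hw0).trans
      (mul_le_mul_of_nonneg_right hw (by positivity))
    have e3 : aX f c p.1 * LX f c p.1 ^ 2 ≤ LX f c p.1 ^ 2 * T := by
      rw [mul_comm]
      exact mul_le_mul_of_nonneg_left hT1 (sq_nonneg _)
    have e4 := (abs_le.1 hdw).2.trans (mul_le_mul_of_nonneg_left e3 (by positivity))
    rw [hnl]
    linarith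

end V2

end Vale.Agent.P088
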