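import Vale.Agent.P088.StW

/-!
# P088: convexity of the weight in the variables `(u, log t)`
-/

open MeasureTheory Set Metric
open scoped ContDiff Topology

noncomputable section
namespace Vale.Agent.P088
namespace Wconv

lemma term {q w O O1 O2 g b : ℝ} (hq : 0 < q) (hO : 0 < O) (h1 : 0 < O1) (h2 : q * O1 ≤ O)
    (hb : 1 ≤ b) (eb : b ^ 2 = 1 + w ^ 2 * O)
    (hk : -g ≤ 1 + 2 * q * O2 / O1 - q * O1 / O) (hk' : 1 + 2 * q * O2 / O1 - q * O1 / O ≤ 0) :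
    -g * (2 * q * (w ^ 2 * O1 / (2 * b))) ≤ 2 * q * (w ^ 2 * O1 / (2 * b)) +
      4 * q ^ 2 * (w ^ 2 * O2 / (2 * b) - w ^ 4 * O1 ^ 2 / (4 * b ^ 3)) ∧
    2 * q * (w ^ 2 * O1 / (2 * b)) +
      4 * q ^ 2 * (w ^ 2 * O2 / (2 * b) - w ^ 4 * O1 ^ 2 / (4 * b ^ 3)) ≤ 1 := by
  have b0 : 0 < b := by linarith
  obtain ⟨β, hβ⟩ : ∃ β, β = 2 * q * (w ^ 2 * O1 / (2 * b)) := ⟨_, rfl⟩
  have β0 : 0 ≤ β := by rw [hβ]; positivity
  have e : β + 4 * q ^ 2 * (w ^ 2 * O2 / (2 * b) - w ^ 4 * O1 ^ 2 / (4 * b ^ 3)) =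
      β * (1 + 2 * q * O2 / O1 - q * O1 / O) + β / b ^ 2 * (q * O1 / O) * (b ^ 2 - w ^ 2 * O) := by
    rw [hβ]; field_simp; ring
  rw [← hβ, e, show b ^ 2 - w ^ 2 * O = 1 by linarith, mul_one]
  have k1 : q * O1 / O ≤ 1 := (div_le_one hO).2 h2
  have k2 : β ≤ b ^ 2 := by
    have : β * b = w ^ 2 * (q * O1) := by rw [hβ]; field_simp
    nlinarith [mul_le_mul_of_nonneg_left h2 (sq_nonneg w)]
  have k3 : β / b ^ 2 ≤ 1 := (div_le_one (by positivity)).2 k2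
  have k4 : 0 ≤ β / b ^ 2 * (q * O1 / O) := by positivity
  have k5 : β / b ^ 2 * (q * O1 / O) ≤ 1 := mul_le_one₀ k3 (by positivity) k1
  constructor
  · linarith [mul_le_mul_of_nonneg_left hk β0]
  · linarith [mul_le_mul_of_nonneg_left hk' β0]

lemma lin {q w O O1 b : ℝ} (hq : 0 < q) (hO : 0 < O) (h1 : 0 < O1) (h2 : q * O1 ≤ O)
    (hw : 0 ≤ w) (hb : 1 ≤ b) (eb : b ^ 2 = 1 + w ^ 2 * O) :
    |1 + q * (w ^ 2 * O1 / (2 * b)) - w * (q * O1 / (2 * √O))| ≤ 1 := by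
  have b0 : 0 < b := by linarith
  obtain ⟨s, hs, es⟩ : ∃ s, 0 < s ∧ s ^ 2 = O ∧ √O = s :=
    ⟨_, Real.sqrt_pos.2 hO, Real.sq_sqrt hO.le, rfl⟩
  obtain ⟨es, es'⟩ := es
  rw [es']
  have ws : 0 ≤ w * s := by positivity
  have l1 : w * s ≤ b := (abs_le_of_sq_le_sq' (by rw [eb, ← es]; linarith) b0.le).2
  have l2 : b ≤ 1 + w * s := (abs_le_of_sq_le_sq' (by rw [eb, ← es]; nlinarith) (by linarith)).2
  have e : w * (q * O1 / (2 * s)) - q * (w ^ 2 * O1 / (2 * b)) =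
      q * O1 / O * (w * s / b) * (b - w * s) / 2 := by
    rw [← es]; field_simp
  have k1 : q * O1 / O ≤ 1 := (div_le_one hO).2 h2
  have k2 : w * s / b ≤ 1 := (div_le_one b0).2 l1
  have k3 : q * O1 / O * (w * s / b) * (b - w * s) ≤ 1 :=
    mul_le_one₀ (mul_le_one₀ k1 (by positivity) k2) (by linarith) (by linarith)
  have k4 : 0 ≤ q * O1 / O * (w * s / b) * (b - w * s) :=
    mul_nonneg (by positivity) (by linarith)
  exact abs_le.2 ⟨by linarith, by linarith⟩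

lemma jensen {s : Finset ℕ} {E X : ℕ → ℝ} {F m : ℝ} (hE : ∀ j, 0 ≤ E j) (hF : F = ∑ j ∈ s, E j)
    (hm : m * F = ∑ j ∈ s, X j * E j) : m ^ 2 * F ≤ ∑ j ∈ s, X j ^ 2 * E j := by
  have h : 0 ≤ ∑ j ∈ s, (X j - m) ^ 2 * E j :=
    Finset.sum_nonneg fun j _ => mul_nonneg (sq_nonneg _) (hE j)
  have e : ∑ j ∈ s, (X j - m) ^ 2 * E j = (∑ j ∈ s, X j ^ 2 * E j) -
      2 * m * (∑ j ∈ s, X j * E j) + m ^ 2 * ∑ j ∈ s, E j := by
    simp only [Finset.mul_sum, ← Finset.sum_sub_distrib, ← Finset.sum_add_distrib]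
    exact Finset.sum_congr rfl fun j _ => by ring
  rw [e, ← hF, ← hm] at h
  linarith

lemma var {s : Finset ℕ} {E X w : ℕ → ℝ} {F m v C k q U Q : ℝ} {r : ℕ → ℝ} (hE : ∀ j, 0 ≤ E j)
    (hF : F = ∑ j ∈ s, E j) (F0 : 0 < F) (hC : 0 ≤ C) (hm : m * F = ∑ j ∈ s, X j * E j)
    (hv : v * F = ∑ j ∈ s, w j * E j) (h2 : ∑ j ∈ s, w j ^ 2 * E j ≤ C * v ^ 2 * F)
    (hX : ∀ j, X j = q * w j * U + r j * Q) (hr : ∀ j, |r j - w j * k| ≤ 1) :
    ∑ j ∈ s, X j ^ 2 * E j ≤ (4 * C * m ^ 2 + (4 * C + 2) * Q ^ 2) * F := by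
  obtain ⟨Y, hY⟩ : ∃ Y, Y = q * U + k * Q := ⟨_, rfl⟩
  have eX : ∀ j, X j - w j * Y = (r j - w j * k) * Q := fun j => by rw [hX, hY]; ring
  have aX : ∀ j, |X j - w j * Y| ≤ |Q| := fun j => by
    rw [eX, abs_mul]; exact mul_le_of_le_one_left (abs_nonneg _) (hr j)
  have a1 : |m - v * Y| ≤ |Q| := by
    refine le_of_mul_le_mul_right ?_ F0
    have : (m - v * Y) * F = ∑ j ∈ s, (X j - w j * Y) * E j := by
      rw [sub_mul, mul_right_comm, hm, hv, Finset.sum_mul, ← Finset.sum_sub_distrib]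
      exact Finset.sum_congr rfl fun j _ => by ring
    rw [← abs_of_pos F0, ← abs_mul, this, abs_of_pos F0, hF, Finset.mul_sum]
    refine (Finset.abs_sum_le_sum_abs _ _).trans (Finset.sum_le_sum fun j _ => ?_)
    rw [abs_mul, abs_of_nonneg (hE j)]
    exact mul_le_mul_of_nonneg_right (aX j) (hE j)
  have a2 : (v * Y) ^ 2 ≤ 2 * m ^ 2 + 2 * Q ^ 2 := by
    have := sq_le_sq.2 a1
    nlinarith [sq_nonneg (2 * m - v * Y)]
  have a3 : ∑ j ∈ s, X j ^ 2 * E j ≤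
      2 * Y ^ 2 * (∑ j ∈ s, w j ^ 2 * E j) + 2 * Q ^ 2 * ∑ j ∈ s, E j := by
    simp only [Finset.mul_sum, ← Finset.sum_add_distrib]
    refine Finset.sum_le_sum fun j _ => ?_
    have h1 := sq_le_sq.2 (aX j)
    have h3 : X j ^ 2 ≤ 2 * Y ^ 2 * w j ^ 2 + 2 * Q ^ 2 := by
      nlinarith [sq_nonneg (X j - 2 * (w j * Y))]
    linarith [mul_le_mul_of_nonneg_right h3 (hE j)]
  rw [← hF] at a3
  have a4 := mul_le_mul_of_nonneg_left h2 (show 0 ≤ 2 * Y ^ 2 by positivity)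
  have a5 := mul_le_mul_of_nonneg_left a2 (show 0 ≤ 2 * C * F by positivity)
  linarith

lemma flat {Om : ℝ → ℝ} {a k l : ℝ} (h : Differentiable ℝ Om) (e : ∀ q ≤ a, Om q = k * q + l) :
    ∀ q ≤ a, deriv Om q = k := fun q hq => by
  have h1 : HasDerivWithinAt Om k (Iic a) q :=
    ((((hasDerivAt_id q).const_mul k).add_const l).hasDerivWithinAt.congr e (e q hq)).congr_deriv
      (mul_one k)
  exact (uniqueDiffOn_Iic a q hq).eq_deriv _ (h q).hasDerivAt.hasDerivWithinAt h1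

lemma kappa {lam g t0 t1 q : ℝ} {Om : ℝ → ℝ} (h : ProfOk lam g t0 t1 Om) (hq : 0 < q)
    (hh : q ≤ t0 ^ 2 ∨ t1 ^ 2 ≤ q) :
    1 + 2 * q * deriv (deriv Om) q / deriv Om q - q * deriv Om q / Om q = 0 := by
  rcases hh with hh | hh
  · have d1 := flat (l := 0) (h.1.differentiable (by simp)) fun q hq => by rw [h.2.1 q hq, add_zero]
    have d2 := flat (k := 0) (l := 64) ((contDiff_infty_iff_deriv.1 h.1).2.differentiable (by simp))
      fun q hq => by rw [d1 q hq, zero_mul, zero_add]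
    rw [d2 q hh, d1 q hh, h.2.1 q hh]
    field_simp
    ring
  · exact ((h.2.2 q hq).2.2.2.2.2.2.2.2.2 hh).2

variable {n : ℕ} {ι : Type} {f : Fx} {c : Cx n ι} {p : X2 n}

lemma Ej_nonneg (hL : 0 ≤ c.L0) (j : ℕ) (p : X2 n) : 0 ≤ Ej f c j p := by
  unfold Ej wj omj; positivity

lemma bj_sq (hO : 0 ≤ f.Om (QQ c p)) (j : ℕ) :
    1 ≤ bj f c j p ∧ bj f c j p ^ 2 = 1 + omj c.L0 j ^ 2 * f.Om (QQ c p) :=
  ⟨Real.one_le_sqrt.2 (le_add_of_nonneg_right (by positivity)), Real.sq_sqrt (by positivity)⟩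

lemma sum_b1 (F0 : 0 < FF f c p) :
    ∑ j ∈ Finset.range (c.J + 1), 2 * QQ c p * b1 f c j p * Ej f c j p =
      (sig f c p - 2) * FF f c p := by
  rw [sig, add_sub_cancel_left, div_mul_cancel₀ _ F0.ne', Finset.mul_sum]
  exact Finset.sum_congr rfl fun j _ => by rw [b1]; ring

/-- The linear forms. -/
def XX (f : Fx) (c : Cx n ι) (p : X2 n) (U Q : ℝ) (j : ℕ) : ℝ :=
  QQ c p * omj c.L0 j * U + (1 + QQ c p * b1 f c j p) * Q

/-- The defects. -/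
def TT (f : Fx) (c : Cx n ι) (p : X2 n) : ℝ := ∑ j ∈ Finset.range (c.J + 1),
  (2 * QQ c p * b1 f c j p + 4 * QQ c p ^ 2 * b2 f c j p) * Ej f c j p

lemma sum_v (F0 : 0 < FF f c p) :
    vv f c p * FF f c p = ∑ j ∈ Finset.range (c.J + 1), omj c.L0 j * Ej f c j p :=
  div_mul_cancel₀ _ F0.ne'

lemma sum_X (F0 : 0 < FF f c p) (U Q : ℝ) :
    (QQ c p * vv f c p * U + sig f c p * Q / 2) * FF f c p =
      ∑ j ∈ Finset.range (c.J + 1), XX f c p U Q j * Ej f c j p := by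
  have e : (QQ c p * vv f c p * U + sig f c p * Q / 2) * FF f c p =
      QQ c p * U * (vv f c p * FF f c p) + Q / 2 * ((sig f c p - 2) * FF f c p) +
        Q * FF f c p := by ring
  rw [e, ← sum_b1 F0, sum_v F0, FF]
  simp only [Finset.mul_sum, ← Finset.sum_add_distrib]
  exact Finset.sum_congr rfl fun j _ => by rw [XX]; ring

lemma S2_eq (F0 : 0 < FF f c p) (U Q : ℝ) :
    QQ c p * S2 f c p U Q U Q =
      (∑ j ∈ Finset.range (c.J + 1), XX f c p U Q j ^ 2 * Ej f c j p) +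
        (TT f c p - (sig f c p - 2) * FF f c p - 4 * FF f c p) * Q ^ 2 / 4 := by
  rw [← sum_b1 F0, S2, TT, FF]
  simp only [Finset.mul_sum, Finset.sum_mul, Finset.sum_div, mul_add, ← Finset.sum_add_distrib,
    ← Finset.sum_sub_distrib]
  exact Finset.sum_congr rfl fun j _ => by rw [XX]; ring

lemma TT_bd (hf : f.Ok) (hL : 0 ≤ c.L0) (F0 : 0 < FF f c p) (hq : 0 < QQ c p) {g : ℝ}
    (hg : -g ≤ 1 + 2 * QQ c p * deriv (deriv f.Om) (QQ c p) / deriv f.Om (QQ c p) -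
      QQ c p * deriv f.Om (QQ c p) / f.Om (QQ c p)) :
    -g * ((sig f c p - 2) * FF f c p) ≤ TT f c p ∧ TT f c p ≤ FF f c p := by
  obtain ⟨l0, -, -, -, -, -, -, -, -, -, -, -, -, -, -, -, hP⟩ := hf
  obtain ⟨o1, -, -, o2, o3, -, -, o4, -⟩ := hP _ hq
  have hO : 0 < f.Om (QQ c p) := lt_of_lt_of_le (by positivity) o1
  have k := fun j => term hq hO o2 o3 (bj_sq hO.le j).1 (bj_sq hO.le j).2 hg o4
  constructor
  · rw [← sum_b1 F0, Finset.mul_sum]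
    refine Finset.sum_le_sum fun j _ => ?_
    rw [← mul_assoc]
    exact mul_le_mul_of_nonneg_right (k j).1 (Ej_nonneg hL j p)
  · exact Finset.sum_le_sum fun j _ => mul_le_of_le_one_left (Ej_nonneg hL j p) (k j).2

lemma low (hf : f.Ok) (hL : 0 ≤ c.L0) (F0 : 0 < FF f c p) (hq : 0 < QQ c p) (U Q : ℝ) :
    FF f c p / QQ c p * ((QQ c p * vv f c p * U + sig f c p * Q / 2) ^ 2 -
      (sig f c p + gg f c p) * Q ^ 2 / 4) ≤ S2 f c p U Q U Q := by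
  have hT : (2 - gg f c p) * FF f c p ≤ TT f c p := by
    have hP := hf.2.2.2.2.2.2.2.2.2.2.2.2.2.2
    unfold gg
    split_ifs with h
    · have := (TT_bd hf hL F0 hq (g := 0) (by rw [kappa hP hq h, neg_zero])).1
      linarith
    · have := (TT_bd hf hL F0 hq (hP.2.2 _ hq).2.2.2.2.2.2.1).1
      linarith [mul_pos hf.2.2.2.2.2.2.1 F0]
  have hJ := jensen (F := FF f c p) (fun j => Ej_nonneg hL j p) rfl (sum_X F0 U Q)
  rw [div_mul_eq_mul_div, div_le_iff₀ hq, mul_comm (S2 f c p U Q U Q), S2_eq F0]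
  linarith [mul_le_mul_of_nonneg_right hT (sq_nonneg Q)]

lemma upp (hf : f.Ok) (hL : 0 ≤ c.L0) (F0 : 0 < FF f c p) (hq : 0 < QQ c p) (hs : 2 ≤ sig f c p)
    {C η : ℝ} (hC : 0 ≤ C) (hη : 4 * C + 3 ≤ η * sig f c p)
    (h2 : ∑ j ∈ Finset.range (c.J + 1), omj c.L0 j ^ 2 * Ej f c j p ≤
      C * vv f c p ^ 2 * FF f c p) (U Q : ℝ) :
    |S2 f c p U Q U Q + al f c p * Q ^ 2 / (4 * QQ c p)| ≤
      (η + f.gam0) * al f c p * Q ^ 2 / QQ c p +
        4 * C * (my f c p * U + al f c p * Q / 2) ^ 2 / Psi f c p := by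
  have hP := hf.2.2.2.2.2.2.2.2.2.2.2.2.2.2
  have g0 := hf.2.2.2.2.2.2.1
  have l0 := hf.1
  obtain ⟨o1, -, -, o2, o3, -, o4, -⟩ := hP.2.2 _ hq
  have hO : 0 < f.Om (QQ c p) := lt_of_lt_of_le (by positivity) o1
  obtain ⟨T1, T2⟩ := TT_bd hf hL F0 hq o4
  have hV := var (F := FF f c p) (fun j => Ej_nonneg hL j p) rfl F0 hC (sum_X F0 U Q) (sum_v F0) h2
    (r := fun j => 1 + QQ c p * b1 f c j p) (fun j => rfl) fun j =>
      lin hq hO o2 o3 (by unfold omj; positivity) (bj_sq hO.le j).1 (bj_sq hO.le j).2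
  have hN : 0 ≤ ∑ j ∈ Finset.range (c.J + 1), XX f c p U Q j ^ 2 * Ej f c j p :=
    Finset.sum_nonneg fun j _ => mul_nonneg (sq_nonneg _) (Ej_nonneg hL j p)
  have e1 : S2 f c p U Q U Q + al f c p * Q ^ 2 / (4 * QQ c p) =
      (QQ c p * S2 f c p U Q U Q + FF f c p * sig f c p * Q ^ 2 / 4) / QQ c p := by
    rw [al]; field_simp
  have e2 : (η + f.gam0) * al f c p * Q ^ 2 / QQ c p +
      4 * C * (my f c p * U + al f c p * Q / 2) ^ 2 / Psi f c p =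
      ((η + f.gam0) * sig f c p * FF f c p * Q ^ 2 +
        4 * C * (QQ c p * vv f c p * U + sig f c p * Q / 2) ^ 2 * FF f c p) / QQ c p := by
    rw [al, my, Psi]; field_simp
  rw [e1, e2, abs_div, abs_of_pos hq, S2_eq F0]
  refine div_le_div_of_nonneg_right ?_ hq.le
  have FQ : 0 ≤ FF f c p * Q ^ 2 := by positivity
  have k1 := mul_le_mul_of_nonneg_right T1 (sq_nonneg Q)
  have k2 := mul_le_mul_of_nonneg_right T2 (sq_nonneg Q)
  have k3 := mul_le_mul_of_nonneg_right hη FQ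
  have k4 := mul_nonneg g0.le FQ
  have k5 := mul_le_mul_of_nonneg_right hs k4
  have k6 := mul_nonneg hC FQ
  have k7 : 0 ≤ C * (QQ c p * vv f c p * U + sig f c p * Q / 2) ^ 2 * FF f c p := by positivity
  exact abs_le.2 ⟨by linarith, by linarith⟩

end Wconv

theorem s_conv (h0 : S_w0) (h2 : S_w2) (hm : S_wm) : S_conv := by
  intro n ι f hf
  obtain ⟨C, hC, hm⟩ := hm n ι f hf
  obtain ⟨C2, -, h2⟩ := h2 n ι f hf
  refine ⟨4 * C, by linarith, fun η hη => ?_⟩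
  have hC3 : 0 < 4 * C + 3 := by linarith
  refine (((h0 n ι f hf).and hm).and ((h2 (η / (4 * C + 3)) (by positivity)).and
    (Ev.ok f one_pos 0))).mono ?_
  rintro c ⟨⟨w0, wm⟩, w2, ok⟩ p hp U Q
  obtain ⟨q0, -, F0, -, s2, -⟩ := w0.2.2.1 p
  have t0 := hf.2.2.2.2.2.2.2.2.1
  refine ⟨fun h => ?_, fun h => ?_⟩
  · rcases (le_trans (by positivity) q0 : 0 ≤ QQ c p).eq_or_lt with hq | hq
    · rcases h with h | h
      · exact Wconv.low hf ok.1 F0 h U Q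
      · simp [S2, ← hq, h]
    · exact Wconv.low hf ok.1 F0 hq U Q
  · have k := ((w2 p hp).2.2.2.2.2.2.2.2.2.1 h).1
    rw [div_mul_eq_mul_div, le_div_iff₀ hC3, one_mul] at k
    exact Wconv.upp hf ok.1 F0 (lt_of_lt_of_le (by positivity) h) s2 (by linarith) k
      ((wm.1 p).2.2.1 2 (by norm_num)) U Q

end Vale.Agent.P088
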