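import Vale.Agent.P088.StA

/-!
# P088: the weight, the multipliers and the integrated quantities
-/

open MeasureTheory Set Metric
open scoped ContDiff Topology

noncomputable section
namespace Vale.Agent.P088
open Vale.Agent.P136 (D Dp Dm Sm Tst)

/-- The fixed data. -/
structure Fx where
  lam : ℝ
  gam0 : ℝ
  t0 : ℝ
  t1 : ℝ
  T0 : ℝ
  e1 : ℝ
  Cw : ℝ
  Mb : ℝ
  K : ℕ
  Om : ℝ → ℝ

def Fx.Ok (f : Fx) : Prop :=
  0 < f.lam ∧ f.lam ≤ 1 / 8 ∧ 0 < f.e1 ∧ f.e1 ≤ 1 / 100 ∧ 0 < f.T0 ∧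
    100 * f.T0 ≤ f.e1 * f.lam ^ 2 ∧ 0 < f.gam0 ∧ 8 * f.gam0 ≤ f.T0 ∧ 0 < f.t0 ∧
    2 * f.t0 ≤ f.t1 ∧ 10 * f.t1 ≤ f.lam ∧ 1 ≤ f.Cw ∧ 0 ≤ f.Mb ∧ 20 ≤ f.K ∧
    ProfOk f.lam f.gam0 f.t0 f.t1 f.Om

/-- The small structural parameter. -/
def Fx.tau (f : Fx) : ℝ := f.t1 + f.T0 / f.lam

/-- The variable data. -/
structure Cx (n : ℕ) (ι : Type) where
  L0 : ℝ
  sg : ℝ
  J : ℕ
  p0 : En n
  γ₁ : MatF n
  γ₂ : MatF n
  b : ConF n ι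

variable {n : ℕ} {ι : Type}

def Cx.Ok (c : Cx n ι) (f : Fx) (om L₀ : ℝ) : Prop :=
  L₀ ≤ c.L0 ∧ 1 ≤ c.L0 ∧ 0 ≤ c.sg ∧ c.sg ≤ 1 / 4 ∧ ‖c.p0‖ = 1 ∧ SmM c.γ₁ ∧ SymM c.γ₁ ∧
    Near 8 om c.γ₁ ∧ SmM c.γ₂ ∧ SymM c.γ₂ ∧ Near 8 om c.γ₂ ∧ (∀ i a a', Sm (c.b i a a')) ∧
    ∀ i a a' x, SB ee 4 f.Mb 1 (c.b i a a') x

/-- A property holds for all nearly flat metrics and all large `L0`. -/
def Ev (f : Fx) (P : Cx n ι → Prop) : Prop :=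
  ∃ om L₀ : ℝ, 0 < om ∧ ∀ c : Cx n ι, c.Ok f om L₀ → P c

lemma Near.mono {k : ℕ} {om om' : ℝ} {γ : MatF n} (h : Near k om γ) (ho : om ≤ om') :
    Near k om' γ := fun i j x l hl => (h i j x l hl).trans (by simpa using ho)

lemma Near.mono_k {k k' : ℕ} {om : ℝ} {γ : MatF n} (h : Near k om γ) (hk : k' ≤ k) :
    Near k' om γ := fun i j x l hl => h i j x l (hl.trans hk)

lemma Cx.Ok.mono {c : Cx n ι} {f : Fx} {om om' L L' : ℝ} (h : c.Ok f om L) (ho : om ≤ om')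
    (hL : L' ≤ L) : c.Ok f om' L' := by
  obtain ⟨h1, h2, h3, h4, h5, h6, h7, h8, h9, h10, h11, h12⟩ := h
  exact ⟨hL.trans h1, h2, h3, h4, h5, h6, h7, h8.mono ho, h9, h10, h11.mono ho, h12⟩

lemma Ev.mono {f : Fx} {P Q : Cx n ι → Prop} (h : Ev f P) (hPQ : ∀ c, P c → Q c) : Ev f Q := by
  obtain ⟨om, L, ho, h⟩ := h
  exact ⟨om, L, ho, fun c hc => hPQ c (h c hc)⟩

lemma Ev.and {f : Fx} {P Q : Cx n ι → Prop} (h : Ev f P) (h' : Ev f Q) :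
    Ev f fun c => P c ∧ Q c := by
  obtain ⟨om, L, ho, h⟩ := h
  obtain ⟨om', L', ho', h'⟩ := h'
  exact ⟨min om om', max L L', lt_min ho ho', fun c hc =>
    ⟨h c (hc.mono (min_le_left _ _) (le_max_left _ _)),
      h' c (hc.mono (min_le_right _ _) (le_max_right _ _))⟩⟩

lemma Ev.ok (f : Fx) {om : ℝ} (ho : 0 < om) (L : ℝ) : Ev f fun c : Cx n ι => c.Ok f om L :=
  ⟨om, L, ho, fun _ hc => hc⟩

/-! ## The scalar weight -/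

def omj (L0 : ℝ) (j : ℕ) : ℝ := L0 * 2 ^ j

def wj (K : ℕ) (L0 sg : ℝ) (j : ℕ) : ℝ :=
  omj L0 j ^ (2 * K) * Real.exp (2 * L0 - omj L0 j * (1 - sg))

def aU (K : ℕ) (L0 sg : ℝ) (J : ℕ) (u : ℝ) : ℝ :=
  2 * ∑ j ∈ Finset.range (J + 1), wj K L0 sg j * Real.exp (omj L0 j * u + 1)

def LU (K : ℕ) (L0 sg : ℝ) (J : ℕ) (u : ℝ) : ℝ :=
  2 * (∑ j ∈ Finset.range (J + 1), omj L0 j * (wj K L0 sg j * Real.exp (omj L0 j * u + 1))) /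
    aU K L0 sg J u

def ell (K : ℕ) (L0 sg : ℝ) (J : ℕ) (u : ℝ) : ℝ := Real.log (aU K L0 sg J u) / 2

section weight
variable (f : Fx) (c : Cx n ι)

def aX (x : En n) : ℝ := aU f.K c.L0 c.sg c.J (‖x‖ ^ 2)
def LX (x : En n) : ℝ := LU f.K c.L0 c.sg c.J (‖x‖ ^ 2)
def lX (x : En n) : ℝ := ell f.K c.L0 c.sg c.J (‖x‖ ^ 2)
def fX (x : En n) : ℝ := Real.exp (lX f c x)

def uu (p : X2 n) : ℝ := ‖mid p‖ ^ 2
/-- The midpoint as a covector. -/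
def mv (p : X2 n) : Fin n → ℝ := fun i => mid p i
def gm (p : X2 n) : Fin n → Fin n → ℝ := fun i j => c.γ₂ i j (mid p)
def Gm (p : X2 n) : Fin n → Fin n → ℝ := fun i j =>
  (Matrix.of fun a b => c.γ₂ a b (mid p))⁻¹ i j
def zt (p : X2 n) : Fin n → ℝ := fun i => ∑ j, Gm c p i j * zz p j
def QQ (p : X2 n) : ℝ := ∑ i, zt c p i * zz p i
def bj (j : ℕ) (p : X2 n) : ℝ := √(1 + omj c.L0 j ^ 2 * f.Om (QQ c p))
def Ej (j : ℕ) (p : X2 n) : ℝ :=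
  wj f.K c.L0 c.sg j * Real.exp (omj c.L0 j * uu p + bj f c j p)
def FF (p : X2 n) : ℝ := ∑ j ∈ Finset.range (c.J + 1), Ej f c j p
def vv (p : X2 n) : ℝ := (∑ j ∈ Finset.range (c.J + 1), omj c.L0 j * Ej f c j p) / FF f c p
def sig (p : X2 n) : ℝ := 2 + QQ c p * deriv f.Om (QQ c p) *
  (∑ j ∈ Finset.range (c.J + 1), omj c.L0 j ^ 2 / bj f c j p * Ej f c j p) / FF f c p
def Psi (p : X2 n) : ℝ := QQ c p * FF f c p
def al (p : X2 n) : ℝ := FF f c p * sig f c p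
def AA (p : X2 n) : ℝ := FF f c p * sig f c p ^ 2
def z0 (p : X2 n) : ℝ := al f c p * √(QQ c p)
def b1 (j : ℕ) (p : X2 n) : ℝ := omj c.L0 j ^ 2 * deriv f.Om (QQ c p) / (2 * bj f c j p)
def b2 (j : ℕ) (p : X2 n) : ℝ :=
  omj c.L0 j ^ 2 * deriv (deriv f.Om) (QQ c p) / (2 * bj f c j p) -
    omj c.L0 j ^ 4 * deriv f.Om (QQ c p) ^ 2 / (4 * bj f c j p ^ 3)
/-- The Hessian of `Ψ` as a function of `(u, Q)`. -/
def S2 (p : X2 n) (U Q U' Q' : ℝ) : ℝ :=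
  QQ c p * (∑ j ∈ Finset.range (c.J + 1), omj c.L0 j ^ 2 * Ej f c j p) * (U * U') +
    (∑ j ∈ Finset.range (c.J + 1), omj c.L0 j * (1 + QQ c p * b1 f c j p) * Ej f c j p) *
      (U * Q' + Q * U') +
    (∑ j ∈ Finset.range (c.J + 1),
      (2 * b1 f c j p + QQ c p * (b2 f c j p + b1 f c j p ^ 2)) * Ej f c j p) * (Q * Q')
open Classical in
def gg (p : X2 n) : ℝ :=
  if QQ c p ≤ f.t0 ^ 2 ∨ f.t1 ^ 2 ≤ QQ c p then 2 else 2 + f.gam0 * sig f c p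
def chf (p : X2 n) : ℝ := 1 - cut (4 * QQ c p / f.t0 ^ 2)
def ff (p : X2 n) : ℝ := chf f c p * fX f c p.1
def fp (p : X2 n) : ℝ := chf f c p * fX f c p.1 * LX f c p.1
def lu (p : X2 n) : ℝ := ell f.K c.L0 c.sg c.J (uu p)
def ph0 (p : X2 n) : ℝ := Psi f c p + f.Cw * lu f c p
/-- The weight. -/
def phi (p : X2 n) : ℝ := ph0 f c p + ff f c p
def thI (p : X2 n) : ℝ := cut (QQ c p / f.t0 ^ 2)
def thO (p : X2 n) : ℝ := cut (QQ c p / f.t1 ^ 2)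
def cA (p : X2 n) : ℝ := thI f c p * ((sig f c p + 2) / (2 * sig f c p)) +
  (1 - thI f c p) * (thO f c p ^ 2 * (f.T0 ^ 2 / f.e1))
def cS (p : X2 n) : ℝ :=
  (1 - thI f c p) * (thO f c p * f.T0 - thO f c p ^ 2 * (f.T0 ^ 2 / f.e1))
def vp (p : X2 n) : ℝ := 2 * vv f c p * cA f c p / sig f c p
def St (p : X2 n) : ℝ := 2 * FF f c p * vv f c p * cS f c p
def g1 (p : X2 n) : Fin n → Fin n → ℝ := fun i j => c.γ₁ i j p.1
def g2 (p : X2 n) : Fin n → Fin n → ℝ := fun i j => c.γ₂ i j p.2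
def dx (F : X2 n → ℝ) (p : X2 n) : Fin n → ℝ := fun i => D (ex i) F p
def dyy (F : X2 n → ℝ) (p : X2 n) : Fin n → ℝ := fun i => D (ey i) F p
def rx : X2 n → ℝ := rho ex (onX c.γ₁) (phi f c)
def ry : X2 n → ℝ := rho ey (onY c.γ₂) (phi f c)

end weight

/-- The trilinear product `(b·d) a + (a·d) b - (a·b) d`. -/
def tri (γ : Fin n → Fin n → ℝ) (a b d : Fin n → ℝ) : Fin n → ℝ := fun i =>
  bil γ b d * a i + bil γ a d * b i - bil γ a b * d i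

/-- The quadratic form `(a·b)|ζ|² - 2 (a·ζ)(b·ζ)`. -/
def qf (γ : Fin n → Fin n → ℝ) (a b ζ : Fin n → ℝ) : ℝ :=
  bil γ a b * bil γ ζ ζ - 2 * bil γ a ζ * bil γ b ζ

def n2 (ζ : Fin n → ℝ) : ℝ := ∑ i, ζ i ^ 2

/-- Raising an index. -/
def up (γ : Fin n → Fin n → ℝ) (ζ : Fin n → ℝ) : Fin n → ℝ := fun i => ∑ j, γ i j * ζ j

section weight2
variable (f : Fx) (c : Cx n ι)

def sx (p : X2 n) : Fin n → ℝ := fun i =>
  St f c p * tri (g1 c p) (mv p) (zt c p) (dx (phi f c) p) i / (rx f c p + al f c p)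
def sy (p : X2 n) : Fin n → ℝ := fun i =>
  St f c p * tri (g2 c p) (mv p) (zt c p) (dyy (phi f c) p) i / (ry f c p + al f c p)
def pcx (p : X2 n) : Fin n → ℝ := fun i => vp f c p * mv p i - sx f c p i
def pcy (p : X2 n) : Fin n → ℝ := fun i => vp f c p * mv p i + sy f c p i
/-- The multiplier field in `x`. -/
def Px (i : Fin n) (p : X2 n) : ℝ := up (g1 c p) (pcx f c p) i
/-- The multiplier field in `y`. -/
def Py (i : Fin n) (p : X2 n) : ℝ := up (g2 c p) (pcy f c p) i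
def mx (p : X2 n) : ℝ := Psi f c p * vv f c p + fp f c p
def my (p : X2 n) : ℝ := Psi f c p * vv f c p
def SS (p : X2 n) : ℝ := vv f c p + LX f c p.1
def HX (p : X2 n) : ℝ := AA f c p + fp f c p * SS f c p
def dX (p : X2 n) : ℝ := al f c p ^ 2 / (rx f c p + al f c p)
def dY (p : X2 n) : ℝ := al f c p ^ 2 / (ry f c p + al f c p)
def Rs (p : X2 n) : ℝ := FF f c p * f.t0 ^ 2 * vv f c p ^ 6
def rh (N : ℝ) (p : X2 n) : ℝ := N ^ 2 / (N ^ 2 + Psi f c p)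
def chX (p : X2 n) : ℝ := (1 - thI f c p) * cut (rx f c p / Rs f c p)
def chY (p : X2 n) : ℝ := (1 - thI f c p) * cut (ry f c p / Rs f c p)
/-- The level of the errors near the diagonal. -/
def nl (p : X2 n) : ℝ := aX f c p.1 * LX f c p.1 ^ 2 * (1 + Psi f c p)

def Om2 : Set (X2 n) := {p | ‖p.1 - c.p0‖ ≤ 1 / 2 ∧ ‖p.2 - c.p0‖ ≤ 1 / 2}
/-- The two principal parts are very close at `x`. -/
def Bs (x : En n) : Prop :=
  ∀ i j, SB ee 6 (1 / aX f c x ^ 2) 1 (fun y => c.γ₁ i j y - c.γ₂ i j y) x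
def Dom : Set (X2 n) := {p | p ∈ Om2 c ∧ Bs f c p.1}
def Nr (r : ℝ) : Set (X2 n) := {p | QQ c p ^ 2 * FF f c p ≤ r}
def Far : Set (X2 n) := {p | f.t0 ^ 2 ≤ QQ c p}
def sX (r : ℝ) : Set (X2 n) := {p | f.t0 ^ 2 / 4 ≤ QQ c p ∧ rx f c p ≤ r * Rs f c p}
def sY (r : ℝ) : Set (X2 n) := {p | f.t0 ^ 2 / 4 ≤ QQ c p ∧ ry f c p ≤ r * Rs f c p}
def Nk (k : ℝ) : Set (X2 n) := {p | Psi f c p ≤ k * vv f c p}

open Classical in
def GX (p : X2 n) : ℝ := if p ∈ sX f c 1 then al f c p ^ 2 else mx f c p * rx f c p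
open Classical in
def GY (p : X2 n) : ℝ := if p ∈ sY f c 1 then al f c p ^ 2 else my f c p * ry f c p

/-! ### Pointwise forms -/

def gV (p : X2 n) (ζ ζ' : Fin n → ℝ) : ℝ := bil (gm c p) (ζ' - ζ) (ζ' - ζ)
def zd (p : X2 n) (ζ : Fin n → ℝ) : ℝ := ∑ i, zz p i * ζ i
/-- The part of `|ζ|²` transversal to `z`. -/
def piZ (p : X2 n) (ζ : Fin n → ℝ) : ℝ := bil (gm c p) ζ ζ - zd p ζ ^ 2 / QQ c p
/-- The derivative of `F` along the raised vector. -/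
def dZ (F : X2 n → ℝ) (p : X2 n) (ζ ζ' : Fin n → ℝ) : ℝ :=
  bil (g1 c p) (dx F p) ζ + bil (g2 c p) (dyy F p) ζ'
def dm2 (p : X2 n) (ζ ζ' : Fin n → ℝ) : ℝ := dZ c (Psi f c) p ζ ζ' ^ 2 / Psi f c p
def er (η C : ℝ) (p : X2 n) (ζ ζ' : Fin n → ℝ) : ℝ :=
  η * (mx f c p * n2 ζ + my f c p * n2 ζ' + al f c p / vv f c p * n2 (ζ' - ζ)) +
    C * vv f c p ^ 2 * (n2 ζ + n2 ζ')

end weight2

/-- The covariant Hessian form. -/
def HC (v : Fin n → X2 n) (γ : Fin n → Fin n → X2 n → ℝ) (F : X2 n → ℝ) (p : X2 n)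
    (ζ : Fin n → ℝ) : ℝ :=
  ∑ i, ∑ k, ((∑ j, γ i j p * D (v j) (XX v γ F k) p) - 1 / 2 * dir v (XX v γ F) (γ i k) p) *
    ζ i * ζ k

/-- The terms with a derivative of the multiplier. -/
def dP (v : Fin n → X2 n) (γ : Fin n → Fin n → X2 n → ℝ) (P : Fin n → X2 n → ℝ) (p : X2 n)
    (ζ : Fin n → ℝ) : ℝ :=
  ∑ i, ∑ k, (8 * (∑ j, γ i j p * D (v j) (P k) p) - 4 * dvg v (fun l q => γ i k q * P l q) p) *
    ζ i * ζ k

section weight3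
variable (f : Fx) (c : Cx n ι)

def mixd (F : X2 n → ℝ) (p : X2 n) (ζ ζ' : Fin n → ℝ) : ℝ :=
  ∑ i, ∑ a, D (ey a) (D (ex i) F) p * up (g1 c p) ζ i * up (g2 c p) ζ' a
def H2 (F : X2 n → ℝ) (p : X2 n) (ζ ζ' : Fin n → ℝ) : ℝ :=
  HC ex (onX c.γ₁) F p ζ + HC ey (onY c.γ₂) F p ζ' + 2 * mixd c F p ζ ζ'
/-- The full first-order form. -/
def HQ (p : X2 n) (ζ ζ' : Fin n → ℝ) : ℝ :=
  (∑ i, ∑ k, Qco ex (onX c.γ₁) (phi f c) (Px f c) i k p * ζ i * ζ k) +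
    (∑ i, ∑ k, Qco ey (onY c.γ₂) (phi f c) (Py f c) i k p * ζ' i * ζ' k) +
    16 * mixd c (phi f c) p ζ ζ'
def cX : X2 n → ℝ := cco ex (onX c.γ₁) (phi f c) (Px f c)
def cY : X2 n → ℝ := cco ey (onY c.γ₂) (phi f c) (Py f c)
def cM : X2 n → ℝ := cmx ex ey (onX c.γ₁) (onY c.γ₂) (phi f c)
def thx (a : Fin n) : X2 n → ℝ := tht ex ey (onX c.γ₁) (phi f c) a
def thy (i : Fin n) : X2 n → ℝ := tht ey ex (onY c.γ₂) (phi f c) i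
/-- The lower-order terms. -/
def ZO (p : X2 n) (g q : ℝ) (ζ ζ' : Fin n → ℝ) : ℝ :=
  cX f c p * g ^ 2 + cY f c p * q ^ 2 + 2 * cM f c p * g * q +
    8 * g * (∑ a, thx f c a p * up (g2 c p) ζ' a) + 8 * q * (∑ i, thy f c i p * up (g1 c p) ζ i) +
    256 * ((∑ i, Px f c i p * ζ i) ^ 2 + dir ex (Px f c) (phi f c) p ^ 2 * g ^ 2 +
      (∑ i, Py f c i p * ζ' i) ^ 2 + dir ey (Py f c) (phi f c) p ^ 2 * q ^ 2)
/-- The main terms produced by the first-order coefficient. -/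
def BO (p : X2 n) (a : Fin n) (g q : ℝ) (ζ ζ' : Fin n → ℝ) : ℝ :=
  8 * (∑ i, D (ey a) (D (ex i) (phi f c)) p * up (g1 c p) ζ i) +
    8 * (∑ i, D (ey a) (D (ey i) (phi f c)) p * up (g2 c p) ζ' i) - 4 * thx f c a p * g -
    4 * tht ey ey (onY c.γ₂) (phi f c) a p * q

end weight3

/-! ## Operators and integrated quantities -/

section ops
variable [Fintype ι]

def L2b (γ : MatF n) (b : ConF n ι) (φ : X2 n → ℝ) (g : ι → X2 n → ℝ) (s : ι) : X2 n → ℝ :=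
  fun p => Lp' ey (onY γ) φ (g s) p + ∑ a, ∑ s', b a s s' p.2 * Dp φ (ey a) (g s') p

def d2b (γ : MatF n) (b : ConF n ι) (φ : X2 n → ℝ) (q : ι → X2 n → ℝ) (s : ι) : X2 n → ℝ :=
  fun p => Lm ey (onY γ) φ (q s) p + ∑ a, ∑ s', Dm φ (ey a) (fun p' => b a s' s p'.2 * q s' p') p

variable (f : Fx) (c : Cx n ι) (g q : ι → X2 n → ℝ)

/-- Admissible pairs of test functions. -/
def TT : Prop :=
  (∀ s, Tst (g s) ∧ Tst (q s) ∧ tsupport (g s) ⊆ Dom f c ∧ tsupport (q s) ⊆ Dom f c) ∧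
    ∀ p, ((∃ s, p ∈ tsupport (q s)) ∨ ‖zz p‖ ≤ 1 / 10) → ∀ s, L2b c.γ₂ c.b (phi f c) g s p = 0

def zx (u : X2 n → ℝ) (p : X2 n) : Fin n → ℝ := fun i => Dm (phi f c) (ex i) u p
def zy (u : X2 n → ℝ) (p : X2 n) : Fin n → ℝ := fun i => Dm (phi f c) (ey i) u p
def px (u : X2 n → ℝ) (p : X2 n) : Fin n → ℝ := fun i => Dp (phi f c) (ex i) u p
def py (u : X2 n → ℝ) (p : X2 n) : Fin n → ℝ := fun i => Dp (phi f c) (ey i) u p
def Gf (s : ι) : X2 n → ℝ := fun p =>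
  Lm ex (onX c.γ₁) (phi f c) (g s) p + d2b c.γ₂ c.b (phi f c) q s p
def GG : ℝ := ∑ s, ∫ p, Gf f c g q s p ^ 2
/-- Weighted square of a function. -/
def I0 (w : X2 n → ℝ) (S : Set (X2 n)) (u : ι → X2 n → ℝ) : ℝ := ∑ s, ∫ p in S, w p * u s p ^ 2
def IX (w : X2 n → ℝ) (S : Set (X2 n)) : ℝ := ∑ s, ∫ p in S, w p * n2 (zx f c (g s) p)
def IY (w : X2 n → ℝ) (S : Set (X2 n)) : ℝ := ∑ s, ∫ p in S, w p * n2 (zy f c (q s) p)
def IV (w : X2 n → ℝ) (S : Set (X2 n)) : ℝ :=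
  ∑ s, ∫ p in S, w p * n2 (zy f c (q s) p - zx f c (g s) p)
def rr : ι → X2 n → ℝ := fun s p => g s p + q s p
def qLX : ℝ := ∑ s, ∫ p, Lp' ex (onX c.γ₁) (phi f c) (g s) p ^ 2
def qLY : ℝ := ∑ s, ∫ p, Lp' ey (onY c.γ₂) (phi f c) (q s) p ^ 2
def A1 : ℝ := IX f c g (mx f c) univ + IY f c q (my f c) univ
def A2 (N : ℝ) : ℝ :=
  ∑ s, ∫ p, rh f c N p * al f c p * gV c p (zx f c (g s) p) (zy f c (q s) p)
def A3 : ℝ := IV f c g q (fun p => al f c p / vv f c p) univ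
def A4 (S : Set (X2 n)) : ℝ :=
  ∑ s, ∫ p in S, al f c p * piZ c p (zy f c (q s) p - zx f c (g s) p)
def A5 : ℝ := ∑ s, ∫ p in sX f c 4 ∪ sY f c 4, dm2 f c p (zx f c (g s) p) (zy f c (q s) p)
def Gn : ℝ := I0 (fun p => mx f c p * rx f c p) univ g + I0 (fun p => my f c p * ry f c p) univ q
def Rr (r : ℝ) : ℝ := I0 (fun p => al f c p ^ 2) (Nr f c r) (rr g q)
def NN : ℝ := I0 (nl f c) (Nr f c 16) g
def V2 : ℝ := IX f c g (fun p => vv f c p ^ 2) univ + IY f c q (fun p => vv f c p ^ 2) univ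
def Sx : ℝ := I0 (fun p => chX f c p ^ 2 * al f c p ^ 2) univ g
def Sy : ℝ := I0 (fun p => chY f c p ^ 2 * al f c p ^ 2) univ q
def Dx : ℝ := IX f c g (dX f c) (Far f c)
def Dy : ℝ := IY f c q (dY f c) (Far f c)

end ops

end Vale.Agent.P088
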