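import Vale.Agent.P088.StW

/-!
# P088: the scalar weight and the chain rule for `Ψ`
-/

open MeasureTheory Set Metric Filter
open scoped ContDiff Topology

noncomputable section
namespace Vale.Agent.P088
open Vale.Agent.P136 (D Dp Dm Sm Tst D_add_at D_mul_at D_const D_const_mul_at D_sum_at D_exp_at)

namespace Ww0

theorem D_comp {X : Type} [NormedAddCommGroup X] [NormedSpace ℝ X] {g : ℝ → ℝ} {g' : ℝ}
    {h : X → ℝ} {p : X} (hg : HasDerivAt g g' (h p)) (hh : DifferentiableAt ℝ h p) (v : X) :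
    D v (fun x => g (h x)) p = g' * D v h p := by
  have := (hg.comp_hasFDerivAt p hh.hasFDerivAt).fderiv
  unfold D
  rw [show (fun x => g (h x)) = g ∘ h from rfl, this]
  simp

theorem wj_nonneg (K : ℕ) (L0 sg : ℝ) (j : ℕ) : 0 ≤ wj K L0 sg j :=
  mul_nonneg (Even.pow_nonneg (even_two_mul K) _) (Real.exp_pos _).le

/-- The moments of the scalar weight. -/
def mo (K : ℕ) (L0 sg : ℝ) (J k : ℕ) (u : ℝ) : ℝ :=
  ∑ j ∈ Finset.range (J + 1), omj L0 j ^ k * (wj K L0 sg j * Real.exp (omj L0 j * u + 1))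

variable {K : ℕ} {L0 sg : ℝ} {J : ℕ}

theorem aU_eq (u : ℝ) : aU K L0 sg J u = 2 * mo K L0 sg J 0 u := by simp [aU, mo]

theorem LU_eq (u : ℝ) : LU K L0 sg J u = mo K L0 sg J 1 u / mo K L0 sg J 0 u := by
  rw [LU, aU_eq, mul_div_mul_left _ _ two_ne_zero]
  simp [mo]

theorem mo_deriv (k : ℕ) (u : ℝ) :
    HasDerivAt (mo K L0 sg J k) (mo K L0 sg J (k + 1) u) u := by
  unfold mo
  refine HasDerivAt.fun_sum fun j _ => ?_
  have h : HasDerivAt (fun u => omj L0 j * u + 1) (omj L0 j) u := by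
    simpa using ((hasDerivAt_id u).const_mul (omj L0 j)).add_const 1
  exact ((h.exp.const_mul _).const_mul _).congr_deriv (by ring)

theorem mo_smooth (k : ℕ) : ContDiff ℝ ∞ (mo K L0 sg J k) := by
  unfold mo
  fun_prop

theorem mo_cs (u : ℝ) : mo K L0 sg J 1 u ^ 2 ≤ mo K L0 sg J 0 u * mo K L0 sg J 2 u := by
  have h : ∀ j, 0 ≤ wj K L0 sg j * Real.exp (omj L0 j * u + 1) := fun j =>
    mul_nonneg (wj_nonneg _ _ _ _) (Real.exp_pos _).le
  exact Finset.sum_sq_le_sum_mul_sum_of_sq_le_mul _ (fun j _ => mul_nonneg (by simp) (h j))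
    (fun j _ => mul_nonneg (sq_nonneg _) (h j)) fun j _ => le_of_eq (by ring)

theorem ell_deriv {u : ℝ} (h : 0 < aU K L0 sg J u) :
    HasDerivAt (ell K L0 sg J) (LU K L0 sg J u / 2) u := by
  have e : ell K L0 sg J = fun u => Real.log (2 * mo K L0 sg J 0 u) / 2 := by
    funext u; rw [ell, aU_eq]
  rw [aU_eq] at h
  rw [e, LU_eq]
  refine ((((mo_deriv 0 u).const_mul 2).log h.ne').div_const 2).congr_deriv ?_
  rw [mul_div_mul_left _ _ two_ne_zero]

theorem LU_deriv {u : ℝ} (h : 0 < aU K L0 sg J u) :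
    ∃ l, 0 ≤ l ∧ HasDerivAt (fun u => LU K L0 sg J u / 2) l u := by
  rw [aU_eq] at h
  have h0 : mo K L0 sg J 0 u ≠ 0 := fun e => by simp [e] at h
  simp only [LU_eq]
  refine ⟨_, ?_, ((mo_deriv 1 u).div (mo_deriv 0 u) h0).div_const 2⟩
  have := mo_cs (K := K) (L0 := L0) (sg := sg) (J := J) u
  refine div_nonneg (div_nonneg ?_ (sq_nonneg _)) zero_le_two
  norm_num
  nlinarith

theorem Om_nonneg {f : Fx} (hf : f.Ok) {q : ℝ} (hq : 0 ≤ q) :
    0 ≤ f.Om q ∧ 0 ≤ q * deriv f.Om q := by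
  obtain ⟨-, -, -, -, -, -, -, -, -, -, -, -, -, -, -, h1, h2⟩ := hf
  rcases hq.eq_or_lt with rfl | hq
  · rw [h1 0 (sq_nonneg _)]; simp
  · obtain ⟨a, -, -, b, -⟩ := h2 q hq
    exact ⟨le_trans (by positivity) a, by positivity⟩

theorem Om_smooth {f : Fx} (hf : f.Ok) : ContDiff ℝ ∞ f.Om := hf.2.2.2.2.2.2.2.2.2.2.2.2.2.2.1

theorem Om_smooth' {f : Fx} (hf : f.Ok) : ContDiff ℝ ∞ (deriv f.Om) :=
  (contDiff_infty_iff_deriv.1 (Om_smooth hf)).2

variable {n : ℕ} {ι : Type} {f : Fx} {c : Cx n ι}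

theorem rad_pos (hf : f.Ok) {q : ℝ} (hq : 0 ≤ q) (o : ℝ) : 0 < 1 + o ^ 2 * f.Om q := by
  have := (Om_nonneg hf hq).1
  positivity

theorem bj_pos (hf : f.Ok) {p : X2 n} (hq : 0 ≤ QQ c p) (j : ℕ) : 0 < bj f c j p :=
  Real.sqrt_pos.2 (rad_pos hf hq _)

theorem rad_deriv (hf : f.Ok) {q : ℝ} (hq : 0 ≤ q) (o : ℝ) :
    HasDerivAt (fun q => √(1 + o ^ 2 * f.Om q))
      (o ^ 2 * deriv f.Om q / (2 * √(1 + o ^ 2 * f.Om q))) q :=
  ((((Om_smooth hf).differentiable (by simp) q).hasDerivAt.const_mul (o ^ 2)).const_add 1).sqrt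
    (rad_pos hf hq o).ne'

theorem D_bj (hf : f.Ok) (sQ : Sm (QQ c)) {p : X2 n} (hq : 0 ≤ QQ c p) (j : ℕ) (v : X2 n) :
    D v (bj f c j) p = b1 f c j p * D v (QQ c) p :=
  D_comp (rad_deriv hf hq (omj c.L0 j)) (sQ.dAt p) v

theorem D_b1 (hf : f.Ok) (sQ : Sm (QQ c)) {p : X2 n} (hq : 0 ≤ QQ c p) (j : ℕ) (v : X2 n) :
    D v (b1 f c j) p = b2 f c j p * D v (QQ c) p := by
  have hb := (bj_pos hf hq j).ne'
  have h := ((((Om_smooth' hf).differentiable (by simp) (QQ c p)).hasDerivAt.const_mul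
    (omj c.L0 j ^ 2)).div ((rad_deriv hf hq (omj c.L0 j)).const_mul 2)
    (mul_ne_zero two_ne_zero hb))
  refine (D_comp h (sQ.dAt p) v).trans ?_
  congr 1
  unfold b2
  unfold bj at hb ⊢
  field_simp
  ring

theorem sm_b1 (hf : f.Ok) (sQ : Sm (QQ c)) (hq : ∀ p, 0 ≤ QQ c p) {j : ℕ} (sb : Sm (bj f c j)) :
    Sm (b1 f c j) :=
  ContDiff.div (contDiff_const.mul ((Om_smooth' hf).comp sQ)) (contDiff_const.mul sb)
    fun p => mul_ne_zero two_ne_zero (bj_pos hf (hq p) j).ne'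

theorem D_Ej (hf : f.Ok) (su : Sm (uu : X2 n → ℝ)) (sQ : Sm (QQ c)) {p : X2 n}
    (hq : 0 ≤ QQ c p) {j : ℕ} (sb : Sm (bj f c j)) (v : X2 n) :
    D v (Ej f c j) p = Ej f c j p * (omj c.L0 j * D v uu p + b1 f c j p * D v (QQ c) p) := by
  have h := (su.cmul (omj c.L0 j)).add sb
  unfold Ej
  rw [D_const_mul_at (h.exp.dAt p), D_exp_at (h.dAt p),
    D_add_at ((su.cmul (omj c.L0 j)).dAt p) (sb.dAt p), D_const_mul_at (su.dAt p),
    D_bj hf sQ hq, mul_assoc]

end Ww0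

open Ww0 in
theorem s_hess : S_hess := by
  intro n ι f c hf hW
  obtain ⟨⟨su, -, -, -, sQ, sj, sF, -⟩, hX, hP, -⟩ := hW
  have hq : ∀ p, 0 ≤ QQ c p := fun p => le_trans (by positivity) (hP p).1
  have hF : ∀ p, FF f c p ≠ 0 := fun p => (hP p).2.2.1.ne'
  have ha : ∀ p : X2 n, 0 < aU f.K c.L0 c.sg c.J (uu p) := fun p => (hX (mid p)).1
  have s1 : ∀ j, Sm (b1 f c j) := fun j => sm_b1 hf sQ hq (sj j).1
  have dE := fun j p v => D_Ej hf su sQ (hq p) (sj j).1 v
  have sA : Sm fun p => ∑ j ∈ Finset.range (c.J + 1), omj c.L0 j * Ej f c j p :=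
    Sm.sum fun j _ => (sj j).2.cmul _
  have sB : Sm fun p => ∑ j ∈ Finset.range (c.J + 1), b1 f c j p * Ej f c j p :=
    Sm.sum fun j _ => (s1 j).mul (sj j).2
  have eA : my f c = fun p =>
      QQ c p * ∑ j ∈ Finset.range (c.J + 1), omj c.L0 j * Ej f c j p := by
    funext p
    have := hF p
    unfold my Psi vv
    field_simp
  have eB : (fun p => al f c p / 2) = fun p =>
      FF f c p + QQ c p * ∑ j ∈ Finset.range (c.J + 1), b1 f c j p * Ej f c j p := by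
    funext p
    have := hF p
    have e : ∑ j ∈ Finset.range (c.J + 1), b1 f c j p * Ej f c j p = deriv f.Om (QQ c p) *
        (∑ j ∈ Finset.range (c.J + 1), omj c.L0 j ^ 2 / bj f c j p * Ej f c j p) / 2 := by
      rw [Finset.mul_sum, Finset.sum_div]
      exact Finset.sum_congr rfl fun j _ => by unfold b1; ring
    rw [e]
    unfold al sig
    field_simp
  have dF : ∀ p v, D v (FF f c) p =
      (∑ j ∈ Finset.range (c.J + 1), omj c.L0 j * Ej f c j p) * D v uu p +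
        (∑ j ∈ Finset.range (c.J + 1), b1 f c j p * Ej f c j p) * D v (QQ c) p := by
    intro p v
    unfold FF
    rw [D_sum_at _ fun j _ => (sj j).2.dAt p, Finset.sum_mul, Finset.sum_mul,
      ← Finset.sum_add_distrib]
    exact Finset.sum_congr rfl fun j _ => by rw [dE]; ring
  have d1 : ∀ p v, D v (Psi f c) p = my f c p * D v uu p + al f c p / 2 * D v (QQ c) p := by
    intro p v
    unfold Psi
    rw [D_mul_at (sQ.dAt p) (sF.dAt p), dF, eA, congrFun eB p]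
    ring
  have dl : ∀ p v, D v (lu f c) p = LU f.K c.L0 c.sg c.J (uu p) / 2 * D v uu p := fun p v =>
    D_comp (ell_deriv (ha p)) (su.dAt p) v
  intro p v w
  refine ⟨d1 p v, ?_, ?_⟩
  · have sm : Sm (my f c) := eA ▸ sQ.mul sA
    have sa : Sm fun p => al f c p / 2 := eB ▸ sF.add (sQ.mul sB)
    have dA : D v (fun p => ∑ j ∈ Finset.range (c.J + 1), omj c.L0 j * Ej f c j p) p =
        (∑ j ∈ Finset.range (c.J + 1), omj c.L0 j ^ 2 * Ej f c j p) * D v uu p +
        (∑ j ∈ Finset.range (c.J + 1), omj c.L0 j * b1 f c j p * Ej f c j p) * D v (QQ c) p := by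
      rw [D_sum_at _ fun j _ => ((sj j).2.cmul _).dAt p, Finset.sum_mul, Finset.sum_mul,
        ← Finset.sum_add_distrib]
      exact Finset.sum_congr rfl fun j _ => by rw [D_const_mul_at ((sj j).2.dAt p), dE]; ring
    have dB : D v (fun p => ∑ j ∈ Finset.range (c.J + 1), b1 f c j p * Ej f c j p) p =
        (∑ j ∈ Finset.range (c.J + 1), omj c.L0 j * b1 f c j p * Ej f c j p) * D v uu p +
        (∑ j ∈ Finset.range (c.J + 1), (b2 f c j p + b1 f c j p ^ 2) * Ej f c j p) *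
          D v (QQ c) p := by
      rw [D_sum_at _ fun j _ => ((s1 j).mul (sj j).2).dAt p, Finset.sum_mul, Finset.sum_mul,
        ← Finset.sum_add_distrib]
      exact Finset.sum_congr rfl fun j _ => by
        rw [D_mul_at ((s1 j).dAt p) ((sj j).2.dAt p), dE, D_b1 hf sQ (hq p)]; ring
    have e1 : ∑ j ∈ Finset.range (c.J + 1), omj c.L0 j * (1 + QQ c p * b1 f c j p) * Ej f c j p =
        (∑ j ∈ Finset.range (c.J + 1), omj c.L0 j * Ej f c j p) + QQ c p *
          ∑ j ∈ Finset.range (c.J + 1), omj c.L0 j * b1 f c j p * Ej f c j p := by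
      rw [Finset.mul_sum, ← Finset.sum_add_distrib]
      exact Finset.sum_congr rfl fun j _ => by ring
    have e2 : ∑ j ∈ Finset.range (c.J + 1),
        (2 * b1 f c j p + QQ c p * (b2 f c j p + b1 f c j p ^ 2)) * Ej f c j p =
        2 * (∑ j ∈ Finset.range (c.J + 1), b1 f c j p * Ej f c j p) + QQ c p *
          ∑ j ∈ Finset.range (c.J + 1), (b2 f c j p + b1 f c j p ^ 2) * Ej f c j p := by
      rw [Finset.mul_sum, Finset.mul_sum, ← Finset.sum_add_distrib]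
      exact Finset.sum_congr rfl fun j _ => by ring
    rw [show D w (Psi f c) = fun p => my f c p * D w uu p + al f c p / 2 * D w (QQ c) p from
        funext fun p => d1 p w,
      D_add_at ((sm.mul (su.D w)).dAt p) ((sa.mul (sQ.D w)).dAt p),
      D_mul_at (sm.dAt p) ((su.D w).dAt p), D_mul_at (sa.dAt p) ((sQ.D w).dAt p)]
    have dm := (congrArg (fun g => D v g p) eA).trans (D_mul_at (sQ.dAt p) (sA.dAt p) v)
    have da := (congrArg (fun g => D v g p) eB).trans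
      (D_add_at (sF.dAt p) ((sQ.mul sB).dAt p) v)
    rw [dA] at dm
    rw [D_mul_at (sQ.dAt p) (sB.dAt p), dB, dF] at da
    rw [dm, da, S2, e1, e2]
    ring
  · obtain ⟨l, hl, hd⟩ := LU_deriv (ha p)
    refine ⟨l, hl, fun v w => ?_⟩
    have hd' : DifferentiableAt ℝ (fun p : X2 n => LU f.K c.L0 c.sg c.J (uu p) / 2) p :=
      hd.differentiableAt.comp p (su.dAt p)
    rw [show D w (lu f c) = fun p => LU f.K c.L0 c.sg c.J (uu p) / 2 * D w uu p from
        funext fun p => dl p w, D_mul_at hd' ((su.D w).dAt p), D_comp hd (su.dAt p)]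
    ring

end Vale.Agent.P088
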