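import Vale.Agent.P088.Ww1b

/-!
# P088: symbol bounds for the ingredients of the weight
-/

open MeasureTheory Set Metric Filter
open scoped ContDiff Topology

noncomputable section
namespace Vale.Agent.P088
open Vale.Agent.P136 (D Dp Dm Sm Tst contDiffAt_D D_add_at D_mul_at)

namespace Ww1
variable {n : ℕ} {ι : Type} {f : Fx} {Cq Cm : ℝ}

abbrev Fv (t : Ix n ι f Cq Cm) : ℝ := FF f t.1.1 t.1.2
abbrev Sg (t : Ix n ι f Cq Cm) : ℝ := sig f t.1.1 t.1.2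
abbrev Qv (t : Ix n ι f Cq Cm) : ℝ := QQ t.1.1 t.1.2

theorem one0 {T : Type} : ∀ _ : T, (0 : ℝ) ≤ 1 := fun _ => zero_le_one

theorem gQ {g : ℝ → ℝ} (hg : ContDiff ℝ ∞ g) :
    US exy (pp : Ix n ι f Cq Cm → X2 n) 6 (fun _ => 1) (fun _ => 1) fun t x => g (QQ t.1.1 x) := by
  have h : U1 exy (pp : Ix n ι f Cq Cm → X2 n) 6 (fun _ => 1) (fun _ => 1) fun t => QQ t.1.1 :=
    lemQ (fun t : Ix n ι f Cq Cm => t) (fun _ => le_rfl) one0
      (Le.of_le (fun _ => by norm_num) 2 fun t => Real.sqrt_le_iff.2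
        ⟨by norm_num, by linarith [t.2.Q2]⟩) (Le.of_eq fun _ => by norm_num)
  exact h.compQ0 hg fun t => ⟨t.2.Q0, t.2.Q2⟩

theorem sm_cut (a : ℝ) : ContDiff ℝ ∞ fun q => cut (q / a) :=
  SbComp.cut_smooth.comp (contDiff_id.div_const a)

theorem thIU : US exy (pp : Ix n ι f Cq Cm → X2 n) 6 (fun _ => 1) (fun _ => 1)
    fun t => thI f t.1.1 := gQ (sm_cut _)

theorem thOU : US exy (pp : Ix n ι f Cq Cm → X2 n) 6 (fun _ => 1) (fun _ => 1)
    fun t => thO f t.1.1 := gQ (sm_cut _)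

theorem chfU : US exy (pp : Ix n ι f Cq Cm → X2 n) 6 (fun _ => 1) (fun _ => 1)
    fun t => chf f t.1.1 :=
  gQ (g := fun q => 1 - cut (4 * q / f.t0 ^ 2)) (contDiff_const.sub
    (SbComp.cut_smooth.comp ((contDiff_const.mul contDiff_id).div_const _)))

theorem cSU : US exy (pp : Ix n ι f Cq Cm → X2 n) 6 (fun _ => 1) V fun t => cS f t.1.1 :=
  (gQ (g := fun q => (1 - cut (q / f.t0 ^ 2)) *
    (cut (q / f.t1 ^ 2) * f.T0 - cut (q / f.t1 ^ 2) ^ 2 * (f.T0 ^ 2 / f.e1)))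
    ((contDiff_const.sub (sm_cut _)).mul (((sm_cut _).mul contDiff_const).sub
      (((sm_cut _).pow 2).mul contDiff_const)))).monoL le1V V0

theorem siU (hf : f.Ok) : US exy (pp : Ix n ι f Cq Cm → X2 n) 6 (fun t => (Sg t)⁻¹) V
    fun t x => (sig f t.1.1 x)⁻¹ := (sU hf).to1.inv fun t => t.2.s0

theorem cAU (hf : f.Ok) :
    US exy (pp : Ix n ι f Cq Cm → X2 n) 6 (fun _ => 1) V fun t => cA f t.1.1 := by
  have s0 : ∀ t : Ix n ι f Cq Cm, 0 ≤ Sg t := fun t => t.2.s0.le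
  have h2 : Le (fun _ : Ix n ι f Cq Cm => 2) Sg := Le.of_eq fun t => t.2.s2
  have h1 : Le (fun t : Ix n ι f Cq Cm => 1 * (Sg t * (Sg t)⁻¹)) fun _ => 1 :=
    Le.of_eq fun t => by rw [mul_inv_cancel₀ t.2.s0.ne', mul_one]
  have h3 := ((thIU.monoL le1V V0).mul ((((sU hf).add
    ((US.const V0 (fun _ => 2) fun _ => zero_le_two).mono h2 s0)).mul (siU hf)).kmul 2⁻¹)).mono
    h1 one0
  have h4 := (gQ (n := n) (ι := ι) (f := f) (Cq := Cq) (Cm := Cm)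
    (g := fun q => (1 - cut (q / f.t0 ^ 2)) * (cut (q / f.t1 ^ 2) ^ 2 * (f.T0 ^ 2 / f.e1)))
    ((contDiff_const.sub (sm_cut _)).mul (((sm_cut _).pow 2).mul contDiff_const))).monoL le1V V0
  refine (h3.add h4).congr fun t x => ?_
  rw [cA, thI, thO, div_eq_mul_inv (_ + _), mul_inv]
  ring

theorem alU (hf : f.Ok) : US exy (pp : Ix n ι f Cq Cm → X2 n) 6 (fun t => al f t.1.1 t.1.2) V
    fun t => al f t.1.1 := FU.mul (sU hf)

theorem vpU (hf : f.Ok) : US exy (pp : Ix n ι f Cq Cm → X2 n) 6 V V fun t => vp f t.1.1 := by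
  have h1 : Le (fun t : Ix n ι f Cq Cm => V t * 1 * (Sg t)⁻¹) V := Le.of_eq fun t => by
    rw [mul_one]
    exact mul_le_of_le_one_right (V0 t) (inv_le_one_of_one_le₀ (one_le_two.trans t.2.s2))
  refine ((((vU.mul (cAU hf)).mul (siU hf)).mono h1 V0).kmul 2).congr fun t x => ?_
  rw [vp, div_eq_mul_inv]
  ring

theorem StU : US exy (pp : Ix n ι f Cq Cm → X2 n) 6 (fun t => Fv t * V t) V
    fun t => St f t.1.1 := by
  have h1 : Le (fun t : Ix n ι f Cq Cm => Fv t * V t * 1) fun t => Fv t * V t :=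
    Le.of_eq fun t => (mul_one _).le
  refine ((((FU.mul vU).mul cSU).mono h1 fun t => mul_nonneg t.2.F0.le (V0 t)).kmul 2).congr
    fun t x => ?_
  rw [St]
  ring

/-! ## The function `Ψ` -/

theorem QA : US exy (pp : Ix n ι f Cq Cm → X2 n) 6 (fun t => Sg t ^ 2 / V t ^ 2) V
    fun t => QQ t.1.1 := by
  have w0 : ∀ t : Ix n ι f Cq Cm, 0 ≤ Sg t ^ 2 / V t ^ 2 := fun t => by positivity
  refine (lemQ (fun t : Ix n ι f Cq Cm => t) (fun t => t.2.v1) w0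
    (Le.of_le (fun t => mul_nonneg (w0 t) (V0 t)) f.lam⁻¹ fun t => ?_)
    (Le.of_eq fun t => ?_)).of0 (Le.of_le w0 (f.lam⁻¹ ^ 2) fun t => ?_)
  · have a0 := t.2.v0
    have a1 := t.2.qv
    have a2 : Sg t ≤ Sg t ^ 2 := le_self_pow₀ (one_le_two.trans t.2.s2) two_ne_zero
    have a3 := mul_le_mul_of_nonneg_left a2 (inv_pos.2 t.2.l0).le
    have e : Sg t ^ 2 / V t ^ 2 * V t = Sg t ^ 2 / V t := by field_simp
    rw [e, ← mul_div_assoc, le_div_iff₀ a0]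
    exact a1.trans a3
  · rw [div_mul_cancel₀ _ (pow_pos t.2.v0 2).ne']
    exact one_le_pow₀ (one_le_two.trans t.2.s2)
  · have a1 := pow_le_pow_left₀ (mul_nonneg (Real.sqrt_nonneg _) (V0 t)) t.2.qv 2
    rw [mul_pow, mul_pow, Real.sq_sqrt t.2.Q0] at a1
    rw [abs_of_nonneg t.2.Q0, ← mul_div_assoc, le_div_iff₀ (pow_pos t.2.v0 2)]
    exact a1

theorem sb_one {X κ : Type} [NormedAddCommGroup X] [NormedSpace ℝ X] {v : κ → X} {w L : ℝ}
    {F : X → ℝ} {p : X} (h0 : |F p| ≤ w) (h1 : ∀ i, |D (v i) F p| ≤ w * L) : SB v 1 w L F p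
  | [], _ => by simpa [Ds] using h0
  | [i], _ => by simpa [Ds] using h1 i

theorem sb_two {X κ : Type} [NormedAddCommGroup X] [NormedSpace ℝ X] {v : κ → X} {w L : ℝ}
    {F : X → ℝ} {p : X} (h0 : |F p| ≤ w) (h1 : ∀ i, |D (v i) F p| ≤ w * L)
    (h2 : ∀ i j, |D (v i) (D (v j) F) p| ≤ w * L ^ 2) : SB v 2 w L F p
  | [], _ => by simpa [Ds] using h0
  | [i], _ => by simpa [Ds] using h1 i
  | [i, j], _ => by simpa [Ds] using h2 i j

theorem QB : US exy (pp : Ix n ι f Cq Cm → X2 n) 1 (fun t => √(Qv t) * Sg t / V t) V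
    fun t => QQ t.1.1 := by
  refine US.of (fun t => t.2.smQ.contDiffAt) V0
    (fun t => div_nonneg (mul_nonneg (Real.sqrt_nonneg _) t.2.s0.le) (V0 t)) (f.lam⁻¹ + Cq)
    fun t => ?_
  have a0 := Real.sqrt_nonneg (Qv t)
  have a1 := mul_le_mul_of_nonneg_left t.2.qv a0
  have a2 := Real.mul_self_sqrt t.2.Q0
  have a3 : 0 ≤ Cq * (√(Qv t) * Sg t) :=
    mul_nonneg (zero_le_one.trans t.2.hq) (mul_nonneg a0 t.2.s0.le)
  refine sb_one ?_ fun i => ((t.2.wq.2.2.1 i).1.trans ?_)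
  · rw [abs_of_nonneg t.2.Q0, ← mul_div_assoc, le_div_iff₀ t.2.v0]
    rw [← mul_assoc, a2] at a1
    linarith
  · have a4 : 0 ≤ f.lam⁻¹ * (√(Qv t) * Sg t) :=
      mul_nonneg (inv_pos.2 t.2.l0).le (mul_nonneg a0 t.2.s0.le)
    have a5 := mul_le_mul_of_nonneg_left (one_le_two.trans t.2.s2)
      (mul_nonneg (zero_le_one.trans t.2.hq) a0)
    rw [mul_assoc, div_mul_cancel₀ _ t.2.v0.ne']
    linarith

theorem QC : US exy (fun s : Ix n ι f Cq Cm × Fin n => pp s.1) 1 (fun s => √(Qv s.1) * Sg s.1)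
    (fun s => V s.1) fun s => D (ex s.2 + ey s.2) (QQ s.1.1.1) := by
  refine US.of (fun s => (s.1.2.smQ.D _).contDiffAt) (fun s => V0 _)
    (fun s => mul_nonneg (Real.sqrt_nonneg _) s.1.2.s0.le) 1 fun ⟨t, i⟩ => ?_
  have a0 := Real.sqrt_nonneg (Qv t)
  have a2 := Real.mul_self_sqrt t.2.Q0
  have a3 : √(Qv t) ≤ 2 := Real.sqrt_le_iff.2 ⟨by norm_num, by linarith [t.2.Q2]⟩
  have h := t.2.wq.2.2.2.2.2.2.2.1 i
  refine sb_one (h.1.trans ?_) fun j => ((h.2 j).1.trans ?_)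
  · have := mul_le_mul_of_nonneg_left (a3.trans t.2.s2) a0
    linarith
  · have := mul_le_mul_of_nonneg_left
      (one_le_mul_of_one_le_of_one_le (one_le_two.trans t.2.s2) t.2.v1) a0
    linarith

theorem QD : US tau (pp : Ix n ι f Cq Cm → X2 n) 2 Qv V fun t => QQ t.1.1 := by
  refine US.of (fun t => t.2.smQ.contDiffAt) V0 (fun t => t.2.Q0) 1 fun t => ?_
  have h := t.2.wq.2.2.2.2.2.2.2.1
  refine sb_two ?_ (fun i => (h i).1.trans ?_) fun i j => (((h j).2 (Sum.inl i)).2.1 i).trans ?_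
  · rw [abs_of_nonneg t.2.Q0, one_mul]
  · exact le_mul_of_one_le_right (mul_nonneg zero_le_one t.2.Q0) t.2.v1
  · exact le_mul_of_one_le_right (mul_nonneg zero_le_one t.2.Q0) (one_le_pow₀ t.2.v1)

theorem PA : US exy (pp : Ix n ι f Cq Cm → X2 n) 6 (fun t => Sg t ^ 2 / V t ^ 2 * Fv t) V
    fun t => Psi f t.1.1 := QA.mul FU

theorem PB : US exy (pp : Ix n ι f Cq Cm → X2 n) 1 (fun t => √(Qv t) * Sg t / V t * Fv t) V
    fun t => Psi f t.1.1 := QB.mul (FU.monoK (by norm_num))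

theorem PD : US tau (pp : Ix n ι f Cq Cm → X2 n) 2 (fun t => Psi f t.1.1 t.1.2) V
    fun t => Psi f t.1.1 := QD.mul (FU.tr.monoK (by norm_num))

theorem PE : US exy (fun s : Ix n ι f Cq Cm × Fin n => pp s.1) 5
    (fun s => Sg s.1 ^ 2 / V s.1 ^ 2 * Fv s.1 * V s.1) (fun s => V s.1)
    fun s => D (ex s.2 + ey s.2) (Psi f s.1.1.1) := (PA.comap Prod.fst).Dt Prod.snd

theorem PC : US exy (fun s : Ix n ι f Cq Cm × Fin n => pp s.1) 1
    (fun s => z0 f s.1.1.1 s.1.1.2) (fun s => V s.1)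
    fun s => D (ex s.2 + ey s.2) (Psi f s.1.1.1) := by
  have w0 : ∀ s : Ix n ι f Cq Cm × Fin n, 0 ≤ z0 f s.1.1.1 s.1.1.2 :=
    fun s => mul_nonneg (mul_nonneg s.1.2.F0.le s.1.2.s0.le) (Real.sqrt_nonneg _)
  have h1 : Le (fun s : Ix n ι f Cq Cm × Fin n => √(Qv s.1) * Sg s.1 * Fv s.1)
      fun s => z0 f s.1.1.1 s.1.1.2 := Le.of_eq fun s => le_of_eq (by rw [z0, al]; ring)
  have h2 : Le (fun s : Ix n ι f Cq Cm × Fin n =>
      √(Qv s.1) * Sg s.1 / V s.1 * (Fv s.1 * V s.1)) fun s => z0 f s.1.1.1 s.1.1.2 :=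
    Le.of_eq fun s => le_of_eq (by
      have := s.1.2.v0.ne'
      rw [z0, al]
      field_simp)
  have h3 := (QC.mul ((FU.comap Prod.fst).monoK (by norm_num))).mono h1 w0
  have h4 := ((QB.comap Prod.fst).mul (((FU.comap Prod.fst).Dt Prod.snd).monoK
    (by norm_num))).mono h2 w0
  refine (h4.add h3).congr fun s x => ?_
  exact (D_mul_at (s.1.2.smQ.dAt x) (s.1.2.w0.1.2.2.2.2.2.2.1.dAt x) _).symm

theorem LUle : Le (fun t : Ix n ι f Cq Cm => LU f.K t.1.1.L0 t.1.1.sg t.1.1.J (uu t.1.2)) V :=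
  Le.of_le V0 (Cm * Cm) fun t => t.2.hlu.trans (by
    rw [mul_assoc]
    exact mul_le_mul_of_nonneg_left t.2.clv.2 (zero_le_one.trans t.2.hm))

theorem fin (hf : f.Ok) : ∃ C : ℝ, 1 ≤ C ∧ ∀ t : Ix n ι f Cq Cm, W1 f t.1.1 C t.1.2 := by
  refine Eventually.exists (f := atTop) ?_
  filter_upwards [eventually_ge_atTop 1, FU.ev, vU.ev, (sU hf).ev, (alU hf).ev, (vpU hf).ev,
    StU.ev, (luU hf).ev, thIU.ev, thOU.ev, chfU.ev, PA.ev, PB.ev, PC.ev, PD.ev, PE.ev,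
    LUle.ev V0] with C hC h1 h2 h3 h4 h5 h6 h7 h8 h9 h10 hA hB hC' hD hE hL
  refine ⟨hC, fun t => ?_⟩
  have v0 := t.2.v0.ne'
  refine ⟨h1 t, h2 t, h3 t, h4 t, h5 t, by simpa only [mul_assoc] using h6 t,
    by simpa only [mul_one] using h7 t, by simpa only [mul_one] using h8 t,
    by simpa only [mul_one] using h9 t, by simpa only [mul_one] using h10 t,
    fun i => ⟨(hB t [i] le_rfl).trans (le_of_eq ?_), fun j => ?_⟩, fun i => ⟨?_, ?_⟩,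
    LU_nonneg (one_pos.trans_le t.2.L0), hL t,
    fun i => ⟨(hD t [i] one_le_two).trans (le_of_eq ?_), fun j =>
      ⟨(hC' (t, i) [j] le_rfl).trans (le_of_eq ?_),
        fun l => (hD t [l, i] le_rfl).trans (le_of_eq ?_),
        fun l => (hE (t, i) [l, j] (by simp)).trans (le_of_eq ?_)⟩⟩⟩
  · rw [List.length_singleton, z0, al]
    field_simp
  · refine SbAlg.mono (V0 t) (SbAlg.deriv i (SbAlg.deriv j (hA t))) le_rfl (le_of_eq ?_) le_rfl
    rw [AA]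
    field_simp
  · rw [t.2.Dlu, (t.2.wq.1 i).1]
  · rw [t.2.Dlu, (t.2.wq.1 i).2]
  · rw [List.length_singleton, pow_one]
  · rw [List.length_singleton, pow_one]
  · rfl
  · change C * (Sg t ^ 2 / V t ^ 2 * Fv t * V t) * V t ^ 2 = _
    rw [AA]
    field_simp

end Ww1

theorem s_w1 (h0 : S_w0) (hq : S_wq) (hm : S_wm) (_hh : S_hess) (h2 : S_w2) : S_w1 := by
  intro n ι f hf
  obtain ⟨Cq, hCq, hq⟩ := hq n
  obtain ⟨Cm, hCm, hm⟩ := hm n ι f hf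
  obtain ⟨C2, -, h2⟩ := h2 n ι f hf
  obtain ⟨C, hC, h⟩ := Ww1.fin (n := n) (ι := ι) (Cq := Cq) (Cm := Cm) hf
  refine ⟨C, hC, ((((Ev.ok f one_pos 1).and (h0 n ι f hf)).and (hq ι f hf 1 one_pos)).and
    (hm.and (h2 1 one_pos))).mono fun c ⟨⟨⟨a1, a2⟩, a3⟩, a4, a5⟩ p hp => ?_⟩
  exact h ⟨(c, p), hf, hCq, hCm, a1.1, a2, a3 p hp, (a4.1 p).1, (a4.1 p).2.2.1,
    fun j => ((a4.1 p).2.2.2.2.2 j).resolve_right (not_not.2 hp), (a4.2 _).2.1,
    (a5 p hp).2.2.2.2.2.1⟩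

end Vale.Agent.P088
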