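import Vale.Agent.P088.StW
import Vale.Agent.P088.SbComp
import Vale.Agent.P088.SbLin

/-!
# P088: symbol bounds with uniform constants
-/

open MeasureTheory Set Metric Filter
open scoped ContDiff Topology

noncomputable section
namespace Vale.Agent.P088
open Vale.Agent.P136 (D Dp Dm Sm Tst contDiffAt_D)

namespace Ww1

variable {T : Type}

/-- Uniform comparison of two families of numbers. -/
def Le (a b : T → ℝ) : Prop := ∃ C : ℝ, 1 ≤ C ∧ ∀ t, a t ≤ C * b t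

theorem Le.of_le {a b : T → ℝ} (hb : ∀ t, 0 ≤ b t) (K : ℝ) (h : ∀ t, a t ≤ K * b t) : Le a b :=
  ⟨max K 1, le_max_right _ _, fun t =>
    (h t).trans (mul_le_mul_of_nonneg_right (le_max_left _ _) (hb t))⟩

theorem Le.of_eq {a b : T → ℝ} (h : ∀ t, a t ≤ b t) : Le a b :=
  ⟨1, le_rfl, fun t => by simpa using h t⟩

theorem Le.trans {a b c : T → ℝ} (h : Le a b) (h' : Le b c) : Le a c := by
  obtain ⟨C, hC, h⟩ := h
  obtain ⟨C', hC', h'⟩ := h'
  refine ⟨C * C', one_le_mul_of_one_le_of_one_le hC hC', fun t => (h t).trans ?_⟩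
  rw [mul_assoc]
  exact mul_le_mul_of_nonneg_left (h' t) (by linarith)

theorem Le.ev {a b : T → ℝ} (h : Le a b) (hb : ∀ t, 0 ≤ b t) :
    ∀ᶠ C : ℝ in atTop, ∀ t, a t ≤ C * b t := by
  obtain ⟨C, -, h⟩ := h
  filter_upwards [eventually_ge_atTop C] with C' hC' t
  exact (h t).trans (mul_le_mul_of_nonneg_right hC' (hb t))

theorem unif {k : ℕ} {a b : ℕ → T → ℝ} (h : ∀ j ≤ k, Le (a j) (b j)) (hb : ∀ j t, 0 ≤ b j t) :
    ∃ C : ℝ, 1 ≤ C ∧ ∀ j ≤ k, ∀ t, a j t ≤ C * b j t := by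
  have h1 : ∀ᶠ C : ℝ in atTop, ∀ j ∈ Finset.range (k + 1), ∀ t, a j t ≤ C * b j t :=
    (eventually_all_finset _).2 fun j hj =>
      (h j (Nat.lt_succ_iff.1 (Finset.mem_range.1 hj))).ev (hb j)
  obtain ⟨C, h1, h2⟩ := (h1.and (eventually_ge_atTop 1)).exists
  exact ⟨C, h2, fun j hj => h1 j (Finset.mem_range.2 (Nat.lt_succ_of_le hj))⟩

variable {X : Type} [NormedAddCommGroup X] [NormedSpace ℝ X] {κ : Type}

/-- Uniform symbol bounds. -/
structure US (v : κ → X) (pt : T → X) (k : ℕ) (w L : T → ℝ) (F : T → X → ℝ) : Prop where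
  sm : ∀ t, ContDiffAt ℝ ∞ (F t) (pt t)
  hL : ∀ t, 0 ≤ L t
  hw : ∀ t, 0 ≤ w t
  bd : ∃ C : ℝ, 1 ≤ C ∧ ∀ t, SB v k (C * w t) (L t) (F t) (pt t)

/-- Uniform symbol bounds for derivatives of order at least one. -/
structure U1 (v : κ → X) (pt : T → X) (k : ℕ) (w L : T → ℝ) (F : T → X → ℝ) : Prop where
  sm : ∀ t, ContDiffAt ℝ ∞ (F t) (pt t)
  hL : ∀ t, 0 ≤ L t
  hw : ∀ t, 0 ≤ w t
  bd : ∃ C : ℝ, 1 ≤ C ∧ ∀ t, SB1 v k (C * w t) (L t) (F t) (pt t)

variable {v : κ → X} {pt : T → X} {k : ℕ} {w w' L L' : T → ℝ} {F G : T → X → ℝ}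

theorem US.ev (h : US v pt k w L F) :
    ∀ᶠ C : ℝ in atTop, ∀ t, SB v k (C * w t) (L t) (F t) (pt t) := by
  obtain ⟨C, -, h1⟩ := h.bd
  filter_upwards [eventually_ge_atTop C] with C' hC' t
  exact SbAlg.mono (h.hL t) (h1 t) le_rfl (mul_le_mul_of_nonneg_right hC' (h.hw t)) le_rfl

theorem U1.ev (h : U1 v pt k w L F) :
    ∀ᶠ C : ℝ in atTop, ∀ t, SB1 v k (C * w t) (L t) (F t) (pt t) := by
  obtain ⟨C, -, h1⟩ := h.bd
  filter_upwards [eventually_ge_atTop C] with C' hC' t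
  exact SbComp.sb1_mono (h1 t) (h.hL t) le_rfl (mul_le_mul_of_nonneg_right hC' (h.hw t))

theorem US.comap {T' : Type} (g : T' → T) (h : US v pt k w L F) :
    US v (fun s => pt (g s)) k (fun s => w (g s)) (fun s => L (g s)) fun s => F (g s) :=
  ⟨fun _ => h.sm _, fun _ => h.hL _, fun _ => h.hw _, h.bd.imp fun _ h => ⟨h.1, fun _ => h.2 _⟩⟩

theorem U1.comap {T' : Type} (g : T' → T) (h : U1 v pt k w L F) :
    U1 v (fun s => pt (g s)) k (fun s => w (g s)) (fun s => L (g s)) fun s => F (g s) :=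
  ⟨fun _ => h.sm _, fun _ => h.hL _, fun _ => h.hw _, h.bd.imp fun _ h => ⟨h.1, fun _ => h.2 _⟩⟩

theorem US.to1 (h : US v pt k w L F) : U1 v pt k w L F :=
  ⟨h.sm, h.hL, h.hw, h.bd.imp fun _ h => ⟨h.1, fun t l _ hl => h.2 t l hl⟩⟩

theorem U1.of0 (h : U1 v pt k w L F) (h0 : Le (fun t => |F t (pt t)|) w) : US v pt k w L F := by
  obtain ⟨C, h1, h2, h3⟩ := (h.ev.and ((h0.ev h.hw).and (eventually_ge_atTop 1))).exists
  exact ⟨h.sm, h.hL, h.hw, C, h3, fun t => SbComp.sb_of (h2 t) (h1 t)⟩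

theorem US.val (h : US v pt k w L F) : Le (fun t => |F t (pt t)|) w := by
  obtain ⟨C, hC, h1⟩ := h.bd
  exact ⟨C, hC, fun t => by simpa [Ds] using h1 t [] (Nat.zero_le _)⟩

theorem U1.mono (h : U1 v pt k w L F) (hw : Le w w') (h0 : ∀ t, 0 ≤ w' t) : U1 v pt k w' L F := by
  obtain ⟨C, hC, h1⟩ := h.bd
  obtain ⟨C', hC', h2⟩ := hw
  refine ⟨h.sm, h.hL, h0, C * C', one_le_mul_of_one_le_of_one_le hC hC', fun t =>
    SbComp.sb1_mono (h1 t) (h.hL t) le_rfl ?_⟩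
  rw [mul_assoc]
  exact mul_le_mul_of_nonneg_left (h2 t) (by linarith)

theorem US.mono (h : US v pt k w L F) (hw : Le w w') (h0 : ∀ t, 0 ≤ w' t) : US v pt k w' L F :=
  (h.to1.mono hw h0).of0 (h.val.trans hw)

theorem US.monoK {k' : ℕ} (h : US v pt k w L F) (hk : k' ≤ k) : US v pt k' w L F :=
  ⟨h.sm, h.hL, h.hw, h.bd.imp fun _ h => ⟨h.1, fun t l hl => h.2 t l (hl.trans hk)⟩⟩

theorem US.monoL (h : US v pt k w L F) (hL : Le L L') (h0 : ∀ t, 0 ≤ L' t) :
    US v pt k w L' F := by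
  obtain ⟨C, hC, h1⟩ := h.bd
  obtain ⟨C', hC', h2⟩ := hL
  refine ⟨h.sm, h0, h.hw, C * C' ^ k, one_le_mul_of_one_le_of_one_le hC (one_le_pow₀ hC'),
    fun t l hl => (h1 t l hl).trans ?_⟩
  have a1 : L t ^ l.length ≤ C' ^ k * L' t ^ l.length := by
    refine (pow_le_pow_left₀ (h.hL t) (h2 t) _).trans ?_
    rw [mul_pow]
    exact mul_le_mul_of_nonneg_right (pow_le_pow_right₀ hC' hl) (pow_nonneg (h0 t) _)
  have a2 : 0 ≤ C * w t := mul_nonneg (by linarith) (h.hw t)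
  calc _ ≤ C * w t * (C' ^ k * L' t ^ l.length) := mul_le_mul_of_nonneg_left a1 a2
    _ = _ := by ring

theorem US.congr (h : US v pt k w L F) (e : ∀ t x, F t x = G t x) : US v pt k w L G := by
  rwa [show F = G from funext fun t => funext (e t)] at h

theorem U1.congr (h : U1 v pt k w L F) (e : ∀ t x, F t x = G t x) : U1 v pt k w L G := by
  rwa [show F = G from funext fun t => funext (e t)] at h

theorem US.const (hL : ∀ t, 0 ≤ L t) (c : T → ℝ) (hc : ∀ t, 0 ≤ c t) :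
    US v pt k c L fun t _ => c t :=
  ⟨fun _ => contDiffAt_const, hL, hc, 1, le_rfl, fun t => by
    simpa [abs_of_nonneg (hc t)] using SbAlg.const (v := v) (k := k) (p := pt t) (hL t) (c t)⟩

theorem US.add (h : US v pt k w L F) (h' : US v pt k w L G) :
    US v pt k w L fun t x => F t x + G t x := by
  obtain ⟨C, hC, h1⟩ := h.bd
  obtain ⟨C', hC', h2⟩ := h'.bd
  refine ⟨fun t => (h.sm t).add (h'.sm t), h.hL, h.hw, C + C', by linarith, fun t => ?_⟩
  rw [add_mul]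
  exact SbAlg.add (h.sm t) (h'.sm t) (h1 t) (h2 t)

theorem U1.add (h : U1 v pt k w L F) (h' : U1 v pt k w L G) :
    U1 v pt k w L fun t x => F t x + G t x := by
  obtain ⟨C, hC, h1⟩ := h.bd
  obtain ⟨C', hC', h2⟩ := h'.bd
  refine ⟨fun t => (h.sm t).add (h'.sm t), h.hL, h.hw, C + C', by linarith, fun t l h3 h4 => ?_⟩
  rw [(SbAlg.Ds_add (v := v) (h.sm t) (h'.sm t) l).eq_of_nhds, add_mul, add_mul]
  exact (abs_add_le _ _).trans (add_le_add (h1 t l h3 h4) (h2 t l h3 h4))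

theorem US.mul (h : US v pt k w L F) (h' : US v pt k w' L G) :
    US v pt k (fun t => w t * w' t) L fun t x => F t x * G t x := by
  obtain ⟨C, hC, h1⟩ := h.bd
  obtain ⟨C', hC', h2⟩ := h'.bd
  have h3 : (1 : ℝ) ≤ 2 ^ k := one_le_pow₀ one_le_two
  refine ⟨fun t => (h.sm t).mul (h'.sm t), h.hL, fun t => mul_nonneg (h.hw t) (h'.hw t),
    2 ^ k * C * C', one_le_mul_of_one_le_of_one_le (one_le_mul_of_one_le_of_one_le h3 hC) hC',
    fun t => SbAlg.mono (h.hL t) (SbAlg.mul (h.hL t) (h.sm t) (h'.sm t) (h1 t) (h2 t)) le_rfl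
      (le_of_eq (by ring)) le_rfl⟩

theorem US.cmul (h : US v pt k w L F) (c : T → ℝ) (hc : ∀ t, 0 ≤ c t) :
    US v pt k (fun t => c t * w t) L fun t x => c t * F t x :=
  (US.const h.hL c hc).mul h

theorem U1.kmul (h : U1 v pt k w L F) (c : ℝ) : U1 v pt k w L fun t x => c * F t x := by
  obtain ⟨C, hC, h1⟩ := h.bd
  refine ⟨fun t => contDiffAt_const.mul (h.sm t), h.hL, h.hw, max |c| 1 * C,
    one_le_mul_of_one_le_of_one_le (le_max_right _ _) hC, fun t l h3 h4 => ?_⟩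
  rw [(SbAlg.Ds_cmul (v := v) (h.sm t) c l).eq_of_nhds, abs_mul, mul_assoc, mul_assoc,
    ← mul_assoc C]
  exact mul_le_mul (le_max_left _ _) (h1 t l h3 h4) (abs_nonneg _)
    (zero_le_one.trans (le_max_right _ _))

theorem US.kmul (h : US v pt k w L F) (c : ℝ) : US v pt k w L fun t x => c * F t x := by
  refine (h.to1.kmul c).of0 (Le.trans ⟨max |c| 1, le_max_right _ _, fun t => ?_⟩ h.val)
  refine (abs_mul _ _).le.trans ?_
  exact mul_le_mul_of_nonneg_right (le_max_left _ _) (abs_nonneg _)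

theorem US.fsum {J : Type} (s : Finset J) {f : J → T → X → ℝ} (hL : ∀ t, 0 ≤ L t)
    (hw : ∀ t, 0 ≤ w t) (h : ∀ j, US v pt k w L (f j)) :
    US v pt k w L fun t x => ∑ j ∈ s, f j t x := by
  classical
  induction s using Finset.induction_on with
  | empty =>
    refine ((US.const hL (fun _ => 0) fun _ => le_rfl).mono (Le.of_eq hw) hw).congr ?_
    simp
  | insert a s ha ih =>
    refine ((h a).add ih).congr fun t x => ?_
    rw [Finset.sum_insert ha]

/-- A weight at scale one can be moved into the scale. -/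
theorem US.lift (h : US v pt k w (fun _ => 1) F) (hw : ∀ t, 1 ≤ w t) :
    U1 v pt k (fun _ => 1) w F := by
  obtain ⟨C, hC, h1⟩ := h.bd
  refine ⟨h.sm, h.hw, fun _ => zero_le_one, C, hC, fun t l h3 h4 => (h1 t l h4).trans ?_⟩
  rw [one_pow, mul_one, mul_one]
  refine mul_le_mul_of_nonneg_left (le_self_pow₀ (hw t) ?_) (by linarith)
  simpa using h3

theorem US.D (h : US v pt (k + 1) w L F) (i : T → κ) :
    US v pt k (fun t => w t * L t) L fun t => D (v (i t)) (F t) := by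
  obtain ⟨C, hC, h1⟩ := h.bd
  refine ⟨fun t => contDiffAt_D (h.sm t) _, h.hL, fun t => mul_nonneg (h.hw t) (h.hL t), C, hC,
    fun t => ?_⟩
  rw [← mul_assoc]
  exact SbAlg.deriv _ (h1 t)

theorem U1.comp (h : U1 v pt k w L F) (g : T → ℝ → ℝ) {A : T → ℝ}
    (hg : ∀ t, ContDiffAt ℝ ∞ (g t) (F t (pt t))) (hA : ∀ t, 0 ≤ A t)
    (hb : ∀ j ≤ k, Le (fun t => |iteratedDeriv (j + 1) (g t) (F t (pt t))| * w t ^ (j + 1)) A) :
    U1 v pt k A L fun t x => g t (F t x) := by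
  obtain ⟨C, hC, h1⟩ := h.bd
  obtain ⟨C', hC', h2⟩ := unif (b := fun _ => A) hb fun _ => hA
  obtain ⟨K, hK, h3⟩ := SbComp.main s_sbAlg k
  have hC2 : 1 ≤ C ^ k * C' := one_le_mul_of_one_le_of_one_le (one_le_pow₀ hC) hC'
  refine ⟨fun t => (hg t).comp (pt t) (h.sm t), h.hL, hA, K * (C ^ k * C'),
    one_le_mul_of_one_le_of_one_le hK hC2, fun t => ?_⟩
  rw [mul_assoc]
  refine h3 X κ v _ _ _ _ (h.hL t) (h.sm t) (h1 t) (g t) _ (hg t)
    (mul_nonneg (by linarith) (hA t)) fun j hj => ?_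
  have a1 := h2 j hj.le t
  have a2 : C ^ (j + 1) ≤ C ^ k := pow_le_pow_right₀ hC hj
  have a3 : 0 ≤ C' * A t := mul_nonneg (by linarith) (hA t)
  calc _ = C ^ (j + 1) * (|iteratedDeriv (j + 1) (g t) (F t (pt t))| * w t ^ (j + 1)) := by
        rw [mul_pow]; ring
    _ ≤ C ^ k * (C' * A t) := mul_le_mul a2 a1
        (mul_nonneg (abs_nonneg _) (pow_nonneg (h.hw t) _)) (by positivity)
    _ = _ := by ring

theorem U1.exp (h : U1 v pt k (fun _ => 1) L F) :
    US v pt k (fun t => Real.exp (F t (pt t))) L fun t x => Real.exp (F t x) := by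
  refine (h.comp (fun _ => Real.exp) (fun _ => Real.contDiff_exp.contDiffAt)
    (fun t => (Real.exp_pos _).le) fun j _ => Le.of_eq fun t => ?_).of0
    (Le.of_eq fun t => (abs_of_pos (Real.exp_pos _)).le)
  rw [iteratedDeriv_eq_iterate, Real.iter_deriv_exp, one_pow, mul_one,
    abs_of_pos (Real.exp_pos _)]

theorem bdd {g : ℝ → ℝ} (hg : ContDiff ℝ ∞ g) (j : ℕ) :
    ∃ M : ℝ, 0 ≤ M ∧ ∀ q ∈ Icc (0 : ℝ) 2, |iteratedDeriv j g q| ≤ M := by
  have hc : Continuous (iteratedDeriv j g) := hg.continuous_iteratedDeriv j (by exact_mod_cast le_top)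
  obtain ⟨M, hM⟩ := isCompact_Icc.exists_bound_of_continuousOn (hc.continuousOn (s := Icc 0 2))
  exact ⟨max M 0, le_max_right _ _, fun q hq => (hM q hq).trans (le_max_left _ _)⟩

/-- Composition with a fixed smooth function, values in a fixed interval. -/
theorem U1.compQ (h : U1 v pt k w L F) {g : ℝ → ℝ} (hg : ContDiff ℝ ∞ g)
    (hF : ∀ t, F t (pt t) ∈ Icc (0 : ℝ) 2) (hw : Le w fun _ => 1) :
    U1 v pt k w L fun t x => g (F t x) := by
  refine h.comp (fun _ => g) (fun _ => hg.contDiffAt) h.hw fun j _ => ?_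
  obtain ⟨M, hM, h1⟩ := bdd hg (j + 1)
  obtain ⟨K, hK, h2⟩ := hw
  refine Le.of_le h.hw (M * K ^ j) fun t => ?_
  have a1 : w t ^ j ≤ K ^ j := pow_le_pow_left₀ (h.hw t) (by simpa using h2 t) _
  rw [pow_succ, ← mul_assoc]
  exact mul_le_mul_of_nonneg_right
    (mul_le_mul (h1 _ (hF t)) a1 (pow_nonneg (h.hw t) _) hM) (h.hw t)

theorem U1.compQ0 (h : U1 v pt k (fun _ => 1) L F) {g : ℝ → ℝ} (hg : ContDiff ℝ ∞ g)
    (hF : ∀ t, F t (pt t) ∈ Icc (0 : ℝ) 2) :
    US v pt k (fun _ => 1) L fun t x => g (F t x) := by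
  refine (h.compQ hg hF (Le.of_eq fun _ => le_rfl)).of0 ?_
  obtain ⟨M, -, h1⟩ := bdd hg 0
  exact Le.of_le (fun _ => zero_le_one) M fun t => by simpa using h1 _ (hF t)

theorem U1.inv (h : U1 v pt k (fun t => F t (pt t)) L F) (h0 : ∀ t, 0 < F t (pt t)) :
    US v pt k (fun t => (F t (pt t))⁻¹) L fun t x => (F t x)⁻¹ := by
  obtain ⟨C, hC, h1⟩ := h.bd
  obtain ⟨K, hK, h3⟩ := s_sbComp s_sbAlg k
  refine ⟨fun t => (h.sm t).inv (h0 t).ne', h.hL, fun t => (inv_pos.2 (h0 t)).le, K * C ^ k,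
    one_le_mul_of_one_le_of_one_le hK (one_le_pow₀ hC), fun t => ?_⟩
  rw [← div_eq_mul_inv]
  exact ((h3 X κ v _ _ _ _ (h.hL t) (h.sm t) (h1 t)).2.2.1 C hC (h0 t) le_rfl).1

theorem U1.log (h : U1 v pt k (fun t => F t (pt t)) L F) (h0 : ∀ t, 0 < F t (pt t)) :
    U1 v pt k (fun _ => 1) L fun t x => Real.log (F t x) := by
  obtain ⟨C, hC, h1⟩ := h.bd
  obtain ⟨K, hK, h3⟩ := s_sbComp s_sbAlg k
  refine ⟨fun t => (h.sm t).log (h0 t).ne', h.hL, fun t => zero_le_one, K * C ^ k,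
    one_le_mul_of_one_le_of_one_le hK (one_le_pow₀ hC), fun t => ?_⟩
  rw [mul_one]
  exact ((h3 X κ v _ _ _ _ (h.hL t) (h.sm t) (h1 t)).2.2.1 C hC (h0 t) le_rfl).2.2

/-- Sums of terms with different scales. -/
theorem US.sum {a om : T × ℕ → ℝ} {f : T × ℕ → X → ℝ} (J : T → ℕ)
    (h : US v (fun s => pt s.1) k a om f) (hL : ∀ t, 0 ≤ L t) (hw : ∀ t, 0 ≤ w t)
    (hm : ∀ m ≤ k, Le (fun t => ∑ j ∈ Finset.range (J t), a (t, j) * om (t, j) ^ m)
      fun t => w t * L t ^ m) :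
    US v pt k w L fun t x => ∑ j ∈ Finset.range (J t), f (t, j) x := by
  obtain ⟨C, hC, h1⟩ := h.bd
  obtain ⟨C', hC', h2⟩ := unif hm fun j t => mul_nonneg (hw t) (pow_nonneg (hL t) _)
  refine ⟨fun t => ContDiffAt.sum fun j _ => h.sm (t, j), hL, hw, C * C',
    one_le_mul_of_one_le_of_one_le hC hC', fun t l hl => ?_⟩
  have e := (SbLin.Ds_sum (v := v) (p := pt t) (Finset.range (J t)) (f := fun j => f (t, j))
    (fun _ => 1) (fun j => h.sm (t, j)) l).eq_of_nhds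
  simp only [one_mul] at e
  rw [e]
  calc _ ≤ ∑ j ∈ Finset.range (J t), C * (a (t, j) * om (t, j) ^ l.length) := by
        refine (Finset.abs_sum_le_sum_abs _ _).trans (Finset.sum_le_sum fun j _ => ?_)
        rw [← mul_assoc]
        exact h1 (t, j) l hl
    _ ≤ C * (C' * (w t * L t ^ l.length)) := by
        rw [← Finset.mul_sum]
        exact mul_le_mul_of_nonneg_left (h2 _ hl t) (by linarith)
    _ = _ := by ring

/-- The translation directions. -/
def tau {n : ℕ} (i : Fin n) : X2 n := ex i + ey i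

theorem US.tr {n : ℕ} {pt : T → X2 n} {F : T → X2 n → ℝ} (h : US exy pt k w L F) :
    US tau pt k w L F := by
  obtain ⟨C, hC, h1⟩ := h.bd
  have h2 : US tau pt k w (fun t => 2 * L t) F := by
    refine ⟨h.sm, fun t => mul_nonneg zero_le_two (h.hL t), h.hw, C, hC, fun t => ?_⟩
    have := SbLin.lin0 (v := tau) (v' := exy) (ContinuousLinearMap.id ℝ (X2 n)) 0
      (t := fun i => Sum.elim (fun j => if j = i then 1 else 0) fun j => if j = i then 1 else 0)
      (A := 2) (w := C * w t) (L := L t)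
      (k := k) (f := F t) (p := pt t) (h.hL t) (fun i => ?_) (fun i => ?_)
      (by simpa using h.sm t) (by simpa using h1 t)
    · simpa using this
    · simp [Fintype.sum_sum_type, exy, tau]
    · simp only [Fintype.sum_sum_type, Sum.elim_inl, Sum.elim_inr, apply_ite abs, abs_one,
        abs_zero, Finset.sum_ite_eq', Finset.mem_univ, if_true]
      norm_num
  exact h2.monoL ⟨2, one_le_two, fun _ => le_rfl⟩ h.hL

theorem D_tau {n : ℕ} (i : Fin n) (f : X2 n → ℝ) (x : X2 n) :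
    D (exy (Sum.inl i)) f x + D (exy (Sum.inr i)) f x = D (ex i + ey i) f x := by
  simp [P136.D, exy]

/-- A derivative in a translation direction. -/
theorem US.Dt {n : ℕ} {pt : T → X2 n} {F : T → X2 n → ℝ} (h : US exy pt (k + 1) w L F)
    (i : T → Fin n) :
    US exy pt k (fun t => w t * L t) L fun t => P136.D (ex (i t) + ey (i t)) (F t) :=
  ((h.D fun t => Sum.inl (i t)).add (h.D fun t => Sum.inr (i t))).congr fun _ _ => D_tau _ _ _

end Ww1
end Vale.Agent.P088
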