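import Vale.Agent.P088.Ww1a
import Vale.Agent.P088.Mom

/-!
# P088: symbol bounds for the sums over scales
-/

open MeasureTheory Set Metric Filter
open scoped ContDiff Topology

noncomputable section
namespace Vale.Agent.P088
open Vale.Agent.P136 (D Dp Dm Sm Tst contDiffAt_D)

namespace Ww1

section gen
variable {T X : Type} [NormedAddCommGroup X] [NormedSpace ℝ X] {κ : Type} {v : κ → X}
  {pt : T → X} {k : ℕ} {w L : T → ℝ} {F : T → X → ℝ}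

theorem U1.of (sm : ∀ t, ContDiffAt ℝ ∞ (F t) (pt t)) (hL : ∀ t, 0 ≤ L t) (hw : ∀ t, 0 ≤ w t)
    (K : ℝ) (h : ∀ t, SB1 v k (K * w t) (L t) (F t) (pt t)) : U1 v pt k w L F :=
  ⟨sm, hL, hw, max K 1, le_max_right _ _, fun t => SbComp.sb1_mono (h t) (hL t) le_rfl
    (mul_le_mul_of_nonneg_right (le_max_left _ _) (hw t))⟩

theorem US.of (sm : ∀ t, ContDiffAt ℝ ∞ (F t) (pt t)) (hL : ∀ t, 0 ≤ L t) (hw : ∀ t, 0 ≤ w t)
    (K : ℝ) (h : ∀ t, SB v k (K * w t) (L t) (F t) (pt t)) : US v pt k w L F :=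
  ⟨sm, hL, hw, max K 1, le_max_right _ _, fun t => SbAlg.mono (hL t) (h t) le_rfl
    (mul_le_mul_of_nonneg_right (le_max_left _ _) (hw t)) le_rfl⟩

end gen

variable {n : ℕ} {ι : Type}

/-- The facts used at a point. -/
structure Hyp (f : Fx) (Cq Cm : ℝ) (c : Cx n ι) (p : X2 n) : Prop where
  ok : f.Ok
  hq : 1 ≤ Cq
  hm : 1 ≤ Cm
  L0 : 1 ≤ c.L0
  w0 : W0 f c
  wq : WQ c Cq 1 p
  hcl : cl c.L0 c.J (1 - c.sg - uu p - √(f.Om (QQ c p))) ≤ Cm * vv f c p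
  mom : ∀ i ≤ 12, ∑ j ∈ Finset.range (c.J + 1), omj c.L0 j ^ i * Ej f c j p ≤
    Cm * vv f c p ^ i * FF f c p
  hb : ∀ j, SB1 exy 6 Cm (omj c.L0 j) (bj f c j) p
  hlu : LU f.K c.L0 c.sg c.J (uu p) ≤ Cm * cl c.L0 c.J (1 - c.sg - uu p)
  lam : f.lam * vv f c p * √(QQ c p) ≤ sig f c p

variable {f : Fx} {Cq Cm : ℝ}

namespace Hyp
variable {c : Cx n ι} {p : X2 n} (h : Hyp f Cq Cm c p)
include h

theorem Q0 : 0 ≤ QQ c p := le_trans (by positivity) (h.w0.2.2.1 p).1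
theorem Q2 : QQ c p ≤ 2 := h.wq.2.2.2.2.2.2.2.2.2.2.1
theorem F0 : 0 < FF f c p := (h.w0.2.2.1 p).2.2.1
theorem v1 : 1 ≤ vv f c p := h.L0.trans (h.w0.2.2.1 p).2.2.2.1
theorem v0 : 0 < vv f c p := one_pos.trans_le h.v1
theorem s2 : 2 ≤ sig f c p := (h.w0.2.2.1 p).2.2.2.2.1
theorem s0 : 0 < sig f c p := two_pos.trans_le h.s2
theorem l0 : 0 < f.lam := h.ok.1
theorem smQ : Sm (QQ c) := h.w0.1.2.2.2.2.1
theorem smU : Sm (uu : X2 n → ℝ) := h.w0.1.1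
theorem smb (j : ℕ) : Sm (bj f c j) := (h.w0.1.2.2.2.2.2.1 j).1
theorem om1 (j : ℕ) : 1 ≤ omj c.L0 j :=
  one_le_mul_of_one_le_of_one_le h.L0 (one_le_pow₀ one_le_two)
theorem om0 (j : ℕ) : 0 < omj c.L0 j := one_pos.trans_le (h.om1 j)
theorem w0' (j : ℕ) : 0 < wj f.K c.L0 c.sg j := mul_pos (pow_pos (h.om0 j) _) (Real.exp_pos _)
theorem E0 (j : ℕ) : 0 < Ej f c j p := mul_pos (h.w0' j) (Real.exp_pos _)

theorem qv : √(QQ c p) * vv f c p ≤ f.lam⁻¹ * sig f c p := by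
  rw [le_inv_mul_iff₀ h.l0]
  linarith [h.lam]

theorem Om : f.lam ^ 2 * QQ c p ≤ f.Om (QQ c p) ∧ f.Om (QQ c p) ≤ 64 * QQ c p ∧
    |QQ c p * deriv f.Om (QQ c p)| ≤ f.Om (QQ c p) := by
  have hP := h.ok.2.2.2.2.2.2.2.2.2.2.2.2.2.2
  rcases h.Q0.eq_or_lt with e | e
  · rw [← e, hP.2.1 0 (sq_nonneg _)]
    simp
  · obtain ⟨a1, a2, -, a3, a4, -⟩ := hP.2.2 _ e
    exact ⟨a1, a2, by rwa [abs_of_pos (mul_pos e a3)]⟩

theorem Om0 : 0 ≤ f.Om (QQ c p) := le_trans (mul_nonneg (sq_nonneg _) h.Q0) h.Om.1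

theorem bsq (j : ℕ) : bj f c j p ^ 2 = 1 + omj c.L0 j ^ 2 * f.Om (QQ c p) :=
  Real.sq_sqrt (add_nonneg zero_le_one (mul_nonneg (sq_nonneg _) h.Om0))

theorem b1 (j : ℕ) : 1 ≤ bj f c j p :=
  Real.one_le_sqrt.2 (le_add_of_nonneg_right (mul_nonneg (sq_nonneg _) h.Om0))

theorem bup (j : ℕ) : bj f c j p ≤ 1 + 8 * √(QQ c p) * omj c.L0 j := by
  have a1 := Real.sq_sqrt h.Q0
  have a2 : 0 ≤ √(QQ c p) * omj c.L0 j := mul_nonneg (Real.sqrt_nonneg _) (h.om0 j).le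
  refine Real.sqrt_le_iff.2 ⟨by linarith, ?_⟩
  have a3 := mul_le_mul_of_nonneg_left h.Om.2.1 (sq_nonneg (omj c.L0 j))
  have a4 : (1 + 8 * √(QQ c p) * omj c.L0 j) ^ 2 =
      1 + 16 * (√(QQ c p) * omj c.L0 j) + omj c.L0 j ^ 2 * (64 * √(QQ c p) ^ 2) := by ring
  rw [a4, a1]
  linarith

theorem blo (j : ℕ) : f.lam * √(QQ c p) * omj c.L0 j ≤ bj f c j p := by
  refine Real.le_sqrt_of_sq_le ?_
  have a3 := mul_le_mul_of_nonneg_left h.Om.1 (sq_nonneg (omj c.L0 j))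
  rw [mul_pow, mul_pow, Real.sq_sqrt h.Q0]
  linarith

end Hyp

/-- The index type. -/
abbrev Ix (n : ℕ) (ι : Type) (f : Fx) (Cq Cm : ℝ) : Type :=
  {s : Cx n ι × X2 n // Hyp f Cq Cm s.1 s.2}

abbrev pp (t : Ix n ι f Cq Cm) : X2 n := t.1.2
abbrev V (t : Ix n ι f Cq Cm) : ℝ := vv f t.1.1 t.1.2
abbrev om (s : Ix n ι f Cq Cm × ℕ) : ℝ := omj s.1.1.1.L0 s.2

theorem V0 (t : Ix n ι f Cq Cm) : 0 ≤ V t := t.2.v0.le
theorem om0 (s : Ix n ι f Cq Cm × ℕ) : 0 ≤ om s := (s.1.2.om0 _).le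
theorem le1V : Le (fun _ => 1) (V : Ix n ι f Cq Cm → ℝ) := Le.of_eq fun t => t.2.v1

theorem sm_mv (i : Fin n) : Sm fun p : X2 n => mv p i := by
  have h : ContDiff ℝ ∞ (mid : X2 n → En n) := (contDiff_fst.add contDiff_snd).const_smul _
  exact contDiff_euclidean.1 h i

theorem uuU : US exy (pp : Ix n ι f Cq Cm → X2 n) 6 (fun _ => 1) (fun _ => 1) fun _ => uu := by
  have h : ∀ i, US exy (pp : Ix n ι f Cq Cm → X2 n) 6 (fun _ => 1) (fun _ => 1)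
      fun _ x => mv x i := fun i =>
    US.of (fun _ => (sm_mv i).contDiffAt) (fun _ => zero_le_one) (fun _ => zero_le_one) Cq
      fun t => by simpa using (t.2.wq.2.2.2.1 i).2.2.1
  refine (US.fsum Finset.univ (fun _ => zero_le_one) (fun _ => zero_le_one) fun i =>
    ((h i).mul (h i)).mono (Le.of_eq fun _ => (one_mul _).le) fun _ => zero_le_one).congr
    fun _ x => ?_
  rw [uu, EuclideanSpace.real_norm_sq_eq]
  simp only [mv, sq]

theorem lemQ {T : Type} (g : T → Ix n ι f Cq Cm) {w L : T → ℝ} (hL : ∀ s, 1 ≤ L s)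
    (hw : ∀ s, 0 ≤ w s) (h1 : Le (fun s => √(QQ (g s).1.1 (g s).1.2)) fun s => w s * L s)
    (h2 : Le (fun _ => 1) fun s => w s * L s ^ 2) :
    U1 exy (fun s => pp (g s)) 6 w L fun s => QQ (g s).1.1 := by
  have hL0 : ∀ s, 0 ≤ L s := fun s => zero_le_one.trans (hL s)
  obtain ⟨C, h3, h4⟩ := ((h1.ev fun s => mul_nonneg (hw s) (hL0 s)).and
    (h2.ev fun s => mul_nonneg (hw s) (sq_nonneg _))).exists
  refine U1.of (fun s => (g s).2.smQ.contDiffAt) hL0 hw (Cq * C) fun s l hl h6 => ?_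
  have hq : 0 ≤ Cq := zero_le_one.trans (g s).2.hq
  obtain ⟨l', j, rfl⟩ := (List.eq_nil_or_concat' l).resolve_left hl
  rcases List.eq_nil_or_concat' l' with rfl | ⟨l'', i, rfl⟩
  · refine (((g s).2.wq.2.2.1 j).1.trans (mul_le_mul_of_nonneg_left (h3 s) hq)).trans (le_of_eq ?_)
    simp only [List.nil_append, List.length_singleton]
    ring
  · rw [SbAlg.Ds_concat, SbAlg.Ds_concat]
    simp only [List.length_append, List.length_singleton] at h6 ⊢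
    refine (((g s).2.wq.2.2.1 i).2 j l'' (by omega)).trans ?_
    have a1 : 1 ≤ L s ^ l''.length := one_le_pow₀ (hL s)
    have a2 : 1 * 1 ≤ C * (w s * L s ^ 2) * L s ^ l''.length :=
      mul_le_mul (h4 s) a1 zero_le_one (zero_le_one.trans (h4 s))
    calc _ = Cq * (1 * 1) := by rw [one_pow, mul_one, mul_one, mul_one]
      _ ≤ Cq * (C * (w s * L s ^ 2) * L s ^ l''.length) := mul_le_mul_of_nonneg_left a2 hq
      _ = _ := by ring

theorem bU : U1 exy (fun s : Ix n ι f Cq Cm × ℕ => pp s.1) 6 (fun _ => 1) om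
    fun s => bj f s.1.1.1 s.2 :=
  U1.of (fun s => (s.1.2.smb _).contDiffAt) om0 (fun _ => zero_le_one) Cm
    fun s => by simpa using s.1.2.hb s.2

theorem ouU : U1 exy (fun s : Ix n ι f Cq Cm × ℕ => pp s.1) 6 (fun _ => 1) om
    fun s x => om s * uu x :=
  (((uuU.comap Prod.fst).cmul om om0).mono (Le.of_eq fun _ => (mul_one _).le) om0).lift
    fun s => s.1.2.om1 _

theorem EU : US exy (fun s : Ix n ι f Cq Cm × ℕ => pp s.1) 6
    (fun s => Ej f s.1.1.1 s.2 s.1.1.2) om fun s => Ej f s.1.1.1 s.2 :=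
  (ouU.add bU).exp.cmul (fun s => wj f.K s.1.1.1.L0 s.1.1.1.sg s.2) fun s => (s.1.2.w0' _).le

theorem FU : US exy (pp : Ix n ι f Cq Cm → X2 n) 6 (fun t => FF f t.1.1 t.1.2) V
    fun t => FF f t.1.1 := by
  refine EU.sum (fun t => t.1.1.J + 1) V0 (fun t => t.2.F0.le) fun m hm =>
    Le.of_le (fun t => mul_nonneg t.2.F0.le (pow_nonneg (V0 t) _)) Cm fun t => ?_
  refine le_trans (le_of_eq (Finset.sum_congr rfl fun j _ => mul_comm _ _))
    ((t.2.mom m (by omega)).trans (le_of_eq ?_))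
  ring

theorem FiU : US exy (pp : Ix n ι f Cq Cm → X2 n) 6 (fun t => (FF f t.1.1 t.1.2)⁻¹) V
    fun t x => (FF f t.1.1 x)⁻¹ := FU.to1.inv fun t => t.2.F0

theorem vU : US exy (pp : Ix n ι f Cq Cm → X2 n) 6 V V fun t => vv f t.1.1 := by
  have h : US exy (pp : Ix n ι f Cq Cm → X2 n) 6 (fun t => V t * FF f t.1.1 t.1.2) V
      fun t x => ∑ j ∈ Finset.range (t.1.1.J + 1), om (t, j) * Ej f t.1.1 j x := by
    refine (EU.cmul om om0).sum (fun t => t.1.1.J + 1) V0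
      (fun t => mul_nonneg (V0 t) t.2.F0.le) fun m hm =>
      Le.of_le (fun t => mul_nonneg (mul_nonneg (V0 t) t.2.F0.le) (pow_nonneg (V0 t) _)) Cm
        fun t => ?_
    refine le_trans (le_of_eq (Finset.sum_congr rfl fun j _ => ?_))
      ((t.2.mom (m + 1) (by omega)).trans (le_of_eq ?_))
    · ring
    · ring
  refine ((h.mul FiU).mono (Le.of_eq fun t => ?_) V0).congr fun t x => (div_eq_mul_inv _ _).symm
  rw [mul_assoc, mul_inv_cancel₀ t.2.F0.ne', mul_one]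

theorem sm_G (hf : f.Ok) : ContDiff ℝ ∞ fun q => q * deriv f.Om q :=
  contDiff_id.mul (hf.2.2.2.2.2.2.2.2.2.2.2.2.2.2.1.iterate_deriv 1)

theorem aU' (hf : f.Ok) : US exy (fun s : Ix n ι f Cq Cm × ℕ => pp s.1) 6
    (fun s => bj f s.1.1.1 s.2 s.1.1.2) om fun s x =>
      om s ^ 2 * (QQ s.1.1.1 x * deriv f.Om (QQ s.1.1.1 x)) * (bj f s.1.1.1 s.2 x)⁻¹ := by
  have b0 : ∀ s : Ix n ι f Cq Cm × ℕ, 0 < bj f s.1.1.1 s.2 s.1.1.2 :=
    fun s => one_pos.trans_le (s.1.2.b1 _)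
  have w0 : ∀ s : Ix n ι f Cq Cm × ℕ, 0 ≤ bj f s.1.1.1 s.2 s.1.1.2 ^ 2 / om s ^ 2 :=
    fun s => by positivity
  have e : ∀ s : Ix n ι f Cq Cm × ℕ, bj f s.1.1.1 s.2 s.1.1.2 ^ 2 / om s ^ 2 =
      (om s ^ 2)⁻¹ + f.Om (QQ s.1.1.1 s.1.1.2) := fun s => by
    have := (s.1.2.om0 s.2).ne'
    rw [s.1.2.bsq]
    field_simp
  have h1 := lemQ (Prod.fst : Ix n ι f Cq Cm × ℕ → _) (L := om) (fun s => s.1.2.om1 _) w0
    (Le.of_le (fun s => mul_nonneg (w0 s) (om0 s)) f.lam⁻¹ fun s => ?_)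
    (Le.of_eq fun s => ?_)
  rotate_left
  · have a0 := s.1.2.om0 s.2
    have a1 := s.1.2.blo s.2
    have a2 := s.1.2.b1 s.2
    rw [le_inv_mul_iff₀ s.1.2.l0, div_mul_eq_mul_div, le_div_iff₀ (pow_pos a0 2)]
    have a3 : bj f s.1.1.1 s.2 s.1.1.2 ≤ bj f s.1.1.1 s.2 s.1.1.2 ^ 2 := by nlinarith
    have a4 := mul_le_mul_of_nonneg_right (a1.trans a3) a0.le
    linarith
  · rw [div_mul_cancel₀ _ (pow_pos (s.1.2.om0 s.2) 2).ne']
    exact one_le_pow₀ (s.1.2.b1 _)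
  have h2 := (h1.compQ (sm_G hf) (fun s => ⟨s.1.2.Q0, s.1.2.Q2⟩)
    (Le.of_le (fun _ => zero_le_one) 129 fun s => ?_)).of0 (Le.of_eq fun s => ?_)
  rotate_left
  · have a1 : (om s ^ 2)⁻¹ ≤ 1 := inv_le_one_of_one_le₀ (one_le_pow₀ (s.1.2.om1 _))
    rw [e]
    linarith [s.1.2.Om.2.1, s.1.2.Q2]
  · have a1 : 0 ≤ (om s ^ 2)⁻¹ := by positivity
    rw [e]
    linarith [s.1.2.Om.2.2]
  have h3 := (bU.mono (Le.of_eq fun s => s.1.2.b1 s.2) fun s => (b0 s).le).inv b0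
  refine ((h2.cmul (fun s => om s ^ 2) fun s => sq_nonneg _).mul h3).mono
    (Le.of_eq fun s => le_of_eq ?_) fun s => (b0 s).le
  have := (s.1.2.om0 s.2).ne'
  have := (b0 s).ne'
  field_simp

theorem sU (hf : f.Ok) : US exy (pp : Ix n ι f Cq Cm → X2 n) 6 (fun t => sig f t.1.1 t.1.2) V
    fun t => sig f t.1.1 := by
  have w0 : ∀ t : Ix n ι f Cq Cm, 0 ≤ sig f t.1.1 t.1.2 * FF f t.1.1 t.1.2 :=
    fun t => mul_nonneg t.2.s0.le t.2.F0.le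
  have s0 : ∀ t : Ix n ι f Cq Cm, 0 ≤ sig f t.1.1 t.1.2 := fun t => t.2.s0.le
  have h := ((aU' hf).mul EU).sum (fun t : Ix n ι f Cq Cm => t.1.1.J + 1) V0 w0 fun m hm =>
    Le.of_le (fun t => mul_nonneg (w0 t) (pow_nonneg (V0 t) _)) (Cm * (1 + 8 * f.lam⁻¹))
      fun t => ?_
  · have h1 : Le (fun t : Ix n ι f Cq Cm => sig f t.1.1 t.1.2 * FF f t.1.1 t.1.2 *
        (FF f t.1.1 t.1.2)⁻¹) fun t => sig f t.1.1 t.1.2 :=
      Le.of_eq fun t => (mul_inv_cancel_right₀ t.2.F0.ne' _).le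
    have h2 : Le (fun _ : Ix n ι f Cq Cm => 2) fun t => sig f t.1.1 t.1.2 :=
      Le.of_eq fun t => t.2.s2
    refine (((US.const V0 (fun _ => 2) fun _ => zero_le_two).mono h2 s0).add
      ((h.mul FiU).mono h1 s0)).congr fun t x => ?_
    rw [sig, div_eq_mul_inv, Finset.mul_sum]
    refine congrArg (fun y => 2 + y * _) (Finset.sum_congr rfl fun j _ => ?_)
    rw [div_eq_mul_inv]
    ring
  · have hs := Real.sqrt_nonneg (QQ t.1.1 t.1.2)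
    have a1 := t.2.mom m (by omega)
    have a2 := mul_le_mul_of_nonneg_left (t.2.mom (m + 1) (by omega))
      (mul_nonneg (by norm_num : (0 : ℝ) ≤ 8) hs)
    have a3 : ∑ j ∈ Finset.range (t.1.1.J + 1),
        bj f t.1.1 j t.1.2 * Ej f t.1.1 j t.1.2 * omj t.1.1.L0 j ^ m ≤
        ∑ j ∈ Finset.range (t.1.1.J + 1), omj t.1.1.L0 j ^ m * Ej f t.1.1 j t.1.2 +
        8 * √(QQ t.1.1 t.1.2) *
          ∑ j ∈ Finset.range (t.1.1.J + 1), omj t.1.1.L0 j ^ (m + 1) * Ej f t.1.1 j t.1.2 := by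
      rw [Finset.mul_sum, ← Finset.sum_add_distrib]
      refine Finset.sum_le_sum fun j _ => ?_
      have := mul_le_mul_of_nonneg_right (t.2.bup j)
        (mul_nonneg (t.2.E0 j).le (pow_nonneg (t.2.om0 j).le m))
      rw [pow_succ]
      linarith
    have a4 : 0 ≤ Cm * V t ^ m * FF f t.1.1 t.1.2 :=
      mul_nonneg (mul_nonneg (zero_le_one.trans t.2.hm) (pow_nonneg (V0 t) _)) t.2.F0.le
    have a5 : 1 + 8 * (√(QQ t.1.1 t.1.2) * V t) ≤ (1 + 8 * f.lam⁻¹) * sig f t.1.1 t.1.2 := by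
      linarith [t.2.qv, t.2.s2]
    have a6 := mul_le_mul_of_nonneg_left a5 a4
    rw [pow_succ (vv _ _ _)] at a2
    refine a3.trans ?_
    linarith

/-! ## The logarithmic part -/

theorem dyE (K : ℕ) (L0 sg u : ℝ) (J m : ℕ) :
    ∑ j ∈ Finset.range (J + 1), wj K L0 sg j * Real.exp (omj L0 j * u + 1) * omj L0 j ^ m =
      Real.exp (2 * L0 + 1) * dy K L0 J m (1 - sg - u) := by
  rw [dy, Finset.mul_sum]
  refine Finset.sum_congr rfl fun j _ => ?_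
  have e : Real.exp (2 * L0 - omj L0 j * (1 - sg)) * Real.exp (omj L0 j * u + 1) =
      Real.exp (2 * L0 + 1) * Real.exp (-(omj L0 j * (1 - sg - u))) := by
    rw [← Real.exp_add, ← Real.exp_add]
    exact congrArg Real.exp (by ring)
  change _ = _ * (omj L0 j ^ (2 * K + m) * Real.exp (-(omj L0 j * (1 - sg - u))))
  rw [wj, pow_add, mul_assoc (omj L0 j ^ (2 * K)), e]
  ring

theorem Hyp.clv {c : Cx n ι} {p : X2 n} (h : Hyp f Cq Cm c p) :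
    0 ≤ cl c.L0 c.J (1 - c.sg - uu p) ∧ cl c.L0 c.J (1 - c.sg - uu p) ≤ Cm * vv f c p := by
  obtain ⟨C, -, h1⟩ := s_mom 1 0 le_rfl
  exact ⟨(zero_le_one.trans h.L0).trans (le_max_left _ _),
    ((h1 _ _ _ h.L0).2.2.2.2.2.2.2.1 _ (sub_le_self _ (Real.sqrt_nonneg _))).trans h.hcl⟩

theorem aU_pos {K J : ℕ} {L0 sg u : ℝ} (h : 0 < L0) : 0 < aU K L0 sg J u :=
  mul_pos two_pos (Finset.sum_pos (fun j _ => by unfold wj omj; positivity)
    ⟨0, Finset.mem_range.2 J.succ_pos⟩)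

theorem LU_nonneg {K J : ℕ} {L0 sg u : ℝ} (h : 0 < L0) : 0 ≤ LU K L0 sg J u :=
  div_nonneg (mul_nonneg zero_le_two
    (Finset.sum_nonneg fun j _ => by unfold wj omj; positivity)) (aU_pos h).le

theorem ell_deriv {K J : ℕ} {L0 sg u : ℝ} (h : 0 < L0) :
    HasDerivAt (ell K L0 sg J) (LU K L0 sg J u / 2) u := by
  have h1 : HasDerivAt (aU K L0 sg J) (2 * ∑ j ∈ Finset.range (J + 1),
      omj L0 j * (wj K L0 sg j * Real.exp (omj L0 j * u + 1))) u := by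
    refine HasDerivAt.const_mul 2 (HasDerivAt.fun_sum fun j _ => ?_)
    refine (((((hasDerivAt_id' u).const_mul (omj L0 j)).add_const 1).exp).const_mul
      (wj K L0 sg j)).congr_deriv ?_
    ring
  exact (h1.log (aU_pos h).ne').div_const 2

theorem Hyp.Dlu {c : Cx n ι} {p : X2 n} (h : Hyp f Cq Cm c p) (w : X2 n) :
    D w (lu f c) p = LU f.K c.L0 c.sg c.J (uu p) / 2 * D w uu p := by
  have := ((ell_deriv (K := f.K) (J := c.J) (sg := c.sg) (u := uu p)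
    (one_pos.trans_le h.L0)).comp_hasFDerivAt p (h.smU.dAt p).hasFDerivAt).fderiv
  unfold D
  rw [show lu f c = ell f.K c.L0 c.sg c.J ∘ uu from rfl, this]
  rfl

theorem luU (hf : f.Ok) : U1 exy (pp : Ix n ι f Cq Cm → X2 n) 6 (fun _ => 1) V
    fun t => lu f t.1.1 := by
  obtain ⟨C, hC, h1⟩ := s_mom f.K 6 (le_trans (by norm_num) hf.2.2.2.2.2.2.2.2.2.2.2.2.2.1)
  have w0 : ∀ t : Ix n ι f Cq Cm, 0 < aU f.K t.1.1.L0 t.1.1.sg t.1.1.J (uu t.1.2) :=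
    fun t => aU_pos (one_pos.trans_le t.2.L0)
  have h := ((ouU.add (US.const om0 (fun _ => 1) fun _ => zero_le_one).to1).exp.cmul
    (fun s => wj f.K s.1.1.1.L0 s.1.1.1.sg s.2) fun s => (s.1.2.w0' _).le).sum
    (fun t : Ix n ι f Cq Cm => t.1.1.J + 1) V0 (fun t => (w0 t).le) fun m hm =>
    Le.of_le (fun t => mul_nonneg (w0 t).le (pow_nonneg (V0 t) _)) (C * Cm ^ m) fun t => ?_
  · have h2 : US exy (pp : Ix n ι f Cq Cm → X2 n) 6 _ V
        fun t x => aU f.K t.1.1.L0 t.1.1.sg t.1.1.J (uu x) := h.kmul 2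
    refine ((U1.log (F := fun t x => aU f.K t.1.1.L0 t.1.1.sg t.1.1.J (uu x)) h2.to1 w0).kmul
      2⁻¹).congr fun t x => ?_
    rw [lu, ell, div_eq_inv_mul]
  · have a1 := (h1 t.1.1.L0 t.1.1.J (1 - t.1.1.sg - uu t.1.2) t.2.L0).1 m hm
    have a2 := dyE f.K t.1.1.L0 t.1.1.sg (uu t.1.2) t.1.1.J 0
    simp only [pow_zero, mul_one] at a2
    have a3 : aU f.K t.1.1.L0 t.1.1.sg t.1.1.J (uu t.1.2) = 2 * (Real.exp (2 * t.1.1.L0 + 1) *
        dy f.K t.1.1.L0 t.1.1.J 0 (1 - t.1.1.sg - uu t.1.2)) := by rw [aU, a2]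
    have a4 := pow_le_pow_left₀ t.2.clv.1 t.2.clv.2 m
    have a5 := w0 t
    have a6 : 0 ≤ Cm ^ m * V t ^ m :=
      mul_nonneg (pow_nonneg (zero_le_one.trans t.2.hm) _) (pow_nonneg (V0 t) _)
    rw [mul_pow] at a4
    refine (dyE f.K t.1.1.L0 t.1.1.sg (uu t.1.2) t.1.1.J m).le.trans
      ((mul_le_mul_of_nonneg_left a1 (Real.exp_pos _).le).trans ?_)
    rw [a3] at a5 ⊢
    have a7 := mul_le_mul_of_nonneg_left a4 (mul_pos (one_pos.trans_le hC) a5).le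
    have a8 := mul_nonneg (mul_pos (one_pos.trans_le hC) a5).le a6
    have a9 := mul_nonneg (mul_pos (one_pos.trans_le hC) a5).le (pow_nonneg t.2.clv.1 m)
    linarith

end Ww1
end Vale.Agent.P088
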