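import Vale.Agent.P088.StW
import Vale.Agent.P088.Mom

/-!
# P088: sizes of the ingredients of the weight
-/

open MeasureTheory Set Metric
open scoped ContDiff Topology

noncomputable section
namespace Vale.Agent.P088
open Vale.Agent.P136 (D Dp Dm Sm Tst)

namespace Ww2

variable {n : ℕ} {ι : Type} {f : Fx} {c : Cx n ι}

lemma om_pos {L : ℝ} (hL : 0 < L) (j : ℕ) : 0 < omj L j := by unfold omj; positivity

lemma wj_pos {L : ℝ} (hL : 0 < L) (K : ℕ) (sg : ℝ) (j : ℕ) : 0 < wj K L sg j := by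
  have := om_pos hL j
  unfold wj; positivity

lemma Ej_pos (hL : 0 < c.L0) (j : ℕ) (p : X2 n) : 0 < Ej f c j p := by
  have := wj_pos hL f.K c.sg j
  unfold Ej; positivity

lemma FF_pos (hL : 0 < c.L0) (p : X2 n) : 0 < FF f c p :=
  Finset.sum_pos (fun j _ => Ej_pos hL j p) ⟨0, by simp⟩

lemma vF (hL : 0 < c.L0) (p : X2 n) :
    vv f c p * FF f c p = ∑ j ∈ Finset.range (c.J + 1), omj c.L0 j * Ej f c j p := by
  unfold vv; exact div_mul_cancel₀ _ (FF_pos hL p).ne'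

lemma sF (hL : 0 < c.L0) (p : X2 n) :
    (sig f c p - 2) * FF f c p = QQ c p * deriv f.Om (QQ c p) *
      ∑ j ∈ Finset.range (c.J + 1), omj c.L0 j ^ 2 / bj f c j p * Ej f c j p := by
  unfold sig; rw [add_sub_cancel_left]; exact div_mul_cancel₀ _ (FF_pos hL p).ne'

/-- Elementary facts on `b = sqrt (1 + w² O)`. -/
lemma bfacts {w O : ℝ} (hw : 0 < w) (hO : 0 ≤ O) :
    1 ≤ √(1 + w ^ 2 * O) ∧ w * √O ≤ √(1 + w ^ 2 * O) ∧ √(1 + w ^ 2 * O) ≤ 1 + w * √O ∧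
      √(1 + w ^ 2 * O) ^ 2 = 1 + w ^ 2 * O := by
  have h1 : √O ^ 2 = O := Real.sq_sqrt hO
  have h0 : 0 ≤ w * √O := by positivity
  refine ⟨Real.one_le_sqrt.2 (by nlinarith [mul_nonneg (sq_nonneg w) hO]),
    Real.le_sqrt_of_sq_le (by rw [mul_pow, h1]; linarith),
    Real.sqrt_le_iff.2 ⟨by linarith, by nlinarith⟩, Real.sq_sqrt (by positivity)⟩

lemma sig_le (hL : 0 < c.L0) (p : X2 n) (hO : 0 ≤ f.Om (QQ c p)) {k : ℝ} (hk : 0 ≤ k)
    (h : QQ c p * deriv f.Om (QQ c p) ≤ k * √(f.Om (QQ c p))) :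
    sig f c p ≤ 2 + k * vv f c p := by
  have hF := FF_pos (f := f) hL p
  have key : (sig f c p - 2) * FF f c p ≤ k * vv f c p * FF f c p := by
    rw [sF hL, mul_assoc k, vF hL, Finset.mul_sum, Finset.mul_sum]
    refine Finset.sum_le_sum fun j _ => ?_
    obtain ⟨b1, b2, -, -⟩ := bfacts (om_pos hL j) hO
    have hE := Ej_pos (f := f) hL j p
    have hw := om_pos hL j
    have hb : (0 : ℝ) < bj f c j p := one_pos.trans_le b1
    calc _ ≤ k * √(f.Om (QQ c p)) * (omj c.L0 j ^ 2 / bj f c j p * Ej f c j p) :=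
          mul_le_mul_of_nonneg_right h (by positivity)
      _ = k * (omj c.L0 j * Ej f c j p) * (omj c.L0 j * √(f.Om (QQ c p)) / bj f c j p) := by ring
      _ ≤ _ := mul_le_of_le_one_right (by positivity) (div_le_one_of_le₀ b2 hb.le)
  have := le_of_mul_le_mul_right key hF
  linarith

lemma le_sig (hL : 0 < c.L0) (p : X2 n) (hO : 0 ≤ f.Om (QQ c p)) {k : ℝ} (hk : 0 ≤ k)
    (h : k * √(f.Om (QQ c p)) ≤ QQ c p * deriv f.Om (QQ c p)) (h' : k ≤ √(f.Om (QQ c p))) :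
    k * vv f c p ≤ sig f c p := by
  have hF := FF_pos (f := f) hL p
  have key : k * vv f c p * FF f c p ≤ (sig f c p - 2) * FF f c p + FF f c p := by
    rw [sF hL, mul_assoc k, vF hL, Finset.mul_sum, Finset.mul_sum]
    unfold FF
    rw [← Finset.sum_add_distrib]
    refine Finset.sum_le_sum fun j _ => ?_
    obtain ⟨b1, b2, b3, -⟩ := bfacts (om_pos hL j) hO
    have hE := Ej_pos (f := f) hL j p
    have hw := om_pos hL j
    have hb : (0 : ℝ) < bj f c j p := one_pos.trans_le b1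
    change 1 ≤ bj f c j p at b1
    change _ ≤ bj f c j p at b2
    change bj f c j p ≤ _ at b3
    have a1 : k * omj c.L0 j ≤ bj f c j p := by nlinarith [mul_le_mul_of_nonneg_left h' hw.le]
    have a2 : k * omj c.L0 j ≤
        k * √(f.Om (QQ c p)) * (omj c.L0 j ^ 2 / bj f c j p) + 1 := by
      have e : k * √(f.Om (QQ c p)) * (omj c.L0 j ^ 2 / bj f c j p) + 1 =
          (k * omj c.L0 j * (omj c.L0 j * √(f.Om (QQ c p))) + bj f c j p) / bj f c j p := by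
        field_simp
      rw [e, le_div_iff₀ hb]
      nlinarith [mul_le_mul_of_nonneg_left b3 (mul_nonneg hk hw.le)]
    calc _ = k * omj c.L0 j * Ej f c j p := by ring
      _ ≤ (k * √(f.Om (QQ c p)) * (omj c.L0 j ^ 2 / bj f c j p) + 1) * Ej f c j p :=
          mul_le_mul_of_nonneg_right a2 hE.le
      _ = k * √(f.Om (QQ c p)) * (omj c.L0 j ^ 2 / bj f c j p * Ej f c j p) + Ej f c j p := by ring
      _ ≤ _ := by gcongr
  have : k * vv f c p * FF f c p ≤ sig f c p * FF f c p := by nlinarith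
  exact le_of_mul_le_mul_right this hF

lemma sig_jen (hL : 0 < c.L0) (p : X2 n) (hO : 0 ≤ f.Om (QQ c p)) (hv : 0 < vv f c p)
    (h : QQ c p * deriv f.Om (QQ c p) = f.Om (QQ c p)) :
    1 + √(1 + vv f c p ^ 2 * f.Om (QQ c p)) ≤ sig f c p := by
  have hF := FF_pos (f := f) hL p
  obtain ⟨w1, -, -, w4⟩ := bfacts hv hO
  set w := √(1 + vv f c p ^ 2 * f.Om (QQ c p)) with hw
  have w0 : 0 < w := one_pos.trans_le w1
  have key : (w - 1) * FF f c p ≤ (sig f c p - 2) * FF f c p := by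
    have e : (w - 1) * FF f c p = (1 / w - 1) * FF f c p +
        vv f c p * f.Om (QQ c p) / w * (vv f c p * FF f c p) := by
      have : w = (1 + vv f c p ^ 2 * f.Om (QQ c p)) / w := by rw [← w4]; field_simp
      nth_rewrite 1 [this]
      ring
    rw [e, sF hL, vF hL, h]
    unfold FF
    rw [Finset.mul_sum, Finset.mul_sum, Finset.mul_sum, ← Finset.sum_add_distrib]
    refine Finset.sum_le_sum fun j _ => ?_
    obtain ⟨b1, -, -, b4⟩ := bfacts (om_pos hL j) hO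
    have hE := Ej_pos (f := f) hL j p
    have hw := om_pos hL j
    have hb : (0 : ℝ) < bj f c j p := one_pos.trans_le b1
    change 1 ≤ bj f c j p at b1
    change bj f c j p ^ 2 = _ at b4
    have a1 : 1 + vv f c p * omj c.L0 j * f.Om (QQ c p) ≤ bj f c j p * w := by
      refine le_of_sq_le_sq ?_ (by positivity)
      rw [mul_pow, b4, w4]
      nlinarith [mul_nonneg hO (sq_nonneg (vv f c p - omj c.L0 j))]
    have a2 : bj f c j p - 1 ≤ f.Om (QQ c p) * (omj c.L0 j ^ 2 / bj f c j p) := by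
      rw [← mul_div_assoc, le_div_iff₀ hb]
      nlinarith
    have a3 : (1 + vv f c p * omj c.L0 j * f.Om (QQ c p)) / w ≤ bj f c j p := by
      rwa [div_le_iff₀ w0]
    calc _ = ((1 + vv f c p * omj c.L0 j * f.Om (QQ c p)) / w - 1) * Ej f c j p := by ring
      _ ≤ f.Om (QQ c p) * (omj c.L0 j ^ 2 / bj f c j p) * Ej f c j p :=
          mul_le_mul_of_nonneg_right (by linarith) hE.le
      _ = _ := by ring
  have := le_of_mul_le_mul_right key hF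
  linarith

lemma aU_pos {L : ℝ} (hL : 0 < L) (K : ℕ) (sg : ℝ) (J : ℕ) (u : ℝ) : 0 < aU K L sg J u := by
  refine mul_pos two_pos (Finset.sum_pos (fun j _ => ?_) ⟨0, by simp⟩)
  have := wj_pos hL K sg j
  positivity

lemma LA {L : ℝ} (hL : 0 < L) (K : ℕ) (sg : ℝ) (J : ℕ) (u : ℝ) :
    LU K L sg J u * aU K L sg J u =
      2 * ∑ j ∈ Finset.range (J + 1), omj L j * (wj K L sg j * Real.exp (omj L j * u + 1)) := by
  unfold LU; exact div_mul_cancel₀ _ (aU_pos hL K sg J u).ne'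

/-- Comparison of `FF` and `aX`. -/
lemma cmp (hL : 0 < c.L0) (p : X2 n) (hO : 0 ≤ f.Om (QQ c p)) {h : ℝ}
    (hh : |uu p - ‖p.1‖ ^ 2| + √(f.Om (QQ c p)) ≤ h) :
    2 * FF f c p - aX f c p.1 ≤ 2 * h * (vv f c p * FF f c p) ∧
      aX f c p.1 - 2 * FF f c p ≤ h * (LX f c p.1 * aX f c p.1) := by
  have key : ∀ j, Ej f c j p - wj f.K c.L0 c.sg j * Real.exp (omj c.L0 j * ‖p.1‖ ^ 2 + 1) ≤
        h * (omj c.L0 j * Ej f c j p) ∧
      wj f.K c.L0 c.sg j * Real.exp (omj c.L0 j * ‖p.1‖ ^ 2 + 1) - Ej f c j p ≤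
        h * (omj c.L0 j * (wj f.K c.L0 c.sg j * Real.exp (omj c.L0 j * ‖p.1‖ ^ 2 + 1))) := by
    intro j
    obtain ⟨b1, -, b3, -⟩ := bfacts (om_pos hL j) hO
    have hw := om_pos hL j
    have hW := wj_pos hL f.K c.sg j
    change 1 ≤ bj f c j p at b1
    change bj f c j p ≤ _ at b3
    have g : ∀ s t d : ℝ, s - t ≤ d → Real.exp s - Real.exp t ≤ d * Real.exp s := by
      intro s t d hd
      have e : Real.exp t = Real.exp (t - s) * Real.exp s := by rw [← Real.exp_add]; ring_nf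
      rw [e]
      nlinarith [Real.add_one_le_exp (t - s), Real.exp_pos s]
    have r0 := Real.sqrt_nonneg (f.Om (QQ c p))
    have m1 := mul_le_mul_of_nonneg_left (le_abs_self (uu p - ‖p.1‖ ^ 2)) hw.le
    have m2 := mul_le_mul_of_nonneg_left (neg_le_abs (uu p - ‖p.1‖ ^ 2)) hw.le
    have m3 := mul_le_mul_of_nonneg_left hh hw.le
    have g1 := g (omj c.L0 j * uu p + bj f c j p) (omj c.L0 j * ‖p.1‖ ^ 2 + 1) (omj c.L0 j * h)
      (by nlinarith)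
    have g2 := g (omj c.L0 j * ‖p.1‖ ^ 2 + 1) (omj c.L0 j * uu p + bj f c j p) (omj c.L0 j * h)
      (by nlinarith [mul_nonneg hw.le r0])
    unfold Ej
    exact ⟨by nlinarith [mul_le_mul_of_nonneg_left g1 hW.le],
      by nlinarith [mul_le_mul_of_nonneg_left g2 hW.le]⟩
  have k1 := Finset.sum_le_sum fun j (_ : j ∈ Finset.range (c.J + 1)) => (key j).1
  have k2 := Finset.sum_le_sum fun j (_ : j ∈ Finset.range (c.J + 1)) => (key j).2
  rw [Finset.sum_sub_distrib, ← Finset.mul_sum] at k1 k2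
  rw [vF hL]
  unfold aX LX
  rw [LA hL]
  unfold aU FF
  exact ⟨by linarith, by linarith⟩

/-- Convexity of `ell`. -/
lemma ell_sub {L : ℝ} (hL : 0 < L) (K : ℕ) (sg : ℝ) (J : ℕ) (u u' : ℝ) :
    ell K L sg J u - ell K L sg J u' ≤ LU K L sg J u * (u - u') / 2 := by
  have hA := aU_pos hL K sg J u
  have hA' := aU_pos hL K sg J u'
  set m := LU K L sg J u * (u' - u) with hm
  have key : Real.exp m * aU K L sg J u ≤ aU K L sg J u' := by
    have e : Real.exp m * aU K L sg J u = Real.exp m * (1 - m) * aU K L sg J u +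
        Real.exp m * (u' - u) * (LU K L sg J u * aU K L sg J u) := by rw [hm]; ring
    rw [e, LA hL]
    unfold aU
    simp only [Finset.mul_sum]
    rw [← Finset.sum_add_distrib]
    refine Finset.sum_le_sum fun j _ => ?_
    have hW := wj_pos hL K sg j
    have e2 : Real.exp (omj L j * u' + 1) =
        Real.exp m * Real.exp (omj L j * (u' - u) - m) * Real.exp (omj L j * u + 1) := by
      rw [← Real.exp_add, ← Real.exp_add]; ring_nf
    rw [e2]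
    have := mul_le_mul_of_nonneg_left (Real.add_one_le_exp (omj L j * (u' - u) - m))
      (show 0 ≤ 2 * Real.exp m * (wj K L sg j * Real.exp (omj L j * u + 1)) by positivity)
    nlinarith
  have := Real.log_le_log (by positivity) key
  rw [Real.log_mul (Real.exp_pos m).ne' hA.ne', Real.log_exp] at this
  unfold ell
  rw [hm] at this
  linarith

lemma geo (p : X2 n) (h0 : ‖c.p0‖ = 1) (hp : p ∈ Om2 c) :
    ‖zz p‖ ≤ 1 ∧ |uu p - ‖p.1‖ ^ 2| ≤ 2 * ‖zz p‖ ∧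
      (0 ≤ zd p (mv p) → ‖p.1‖ ^ 2 - uu p ≤ ‖zz p‖ ^ 2 / 4) := by
  obtain ⟨h1, h2⟩ := hp
  have z1 : ‖zz p‖ ≤ 1 := by
    have : zz p = (p.2 - c.p0) - (p.1 - c.p0) := by unfold zz; abel
    rw [this]
    exact (norm_sub_le _ _).trans (by linarith)
  have m1 : ‖mid p‖ ≤ 3 / 2 := by
    have : mid p = (1 / 2 : ℝ) • (p.1 - c.p0) + (1 / 2 : ℝ) • (p.2 - c.p0) + c.p0 := by
      unfold mid; module
    rw [this]
    refine norm_add₃_le.trans ?_
    rw [norm_smul, norm_smul, h0]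
    norm_num
    linarith
  have e : ‖p.1‖ ^ 2 = uu p - inner ℝ (mid p) (zz p) + ‖zz p‖ ^ 2 / 4 := by
    have : p.1 = mid p - (1 / 2 : ℝ) • zz p := by unfold mid zz; module
    conv_lhs => rw [this]
    rw [norm_sub_sq_real, inner_smul_right, norm_smul]
    unfold uu
    norm_num
    ring
  have e2 : zd p (mv p) = inner ℝ (mid p) (zz p) := by
    simp [zd, mv, PiLp.inner_apply]
  have i1 := abs_real_inner_le_norm (mid p) (zz p)
  have z0 := norm_nonneg (zz p)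
  have i2 := abs_le.1 (i1.trans (mul_le_mul_of_nonneg_right m1 z0))
  refine ⟨z1, abs_le.2 ⟨by nlinarith, by nlinarith⟩, fun h => by rw [e2] at h; linarith⟩

lemma pw {v : ℝ} (hv : 1 ≤ v) {i j : ℕ} (h : i ≤ j) : v ^ i ≤ v ^ j := pow_le_pow_right₀ hv h

lemma i1 {v F η : ℝ} (hv : 1 ≤ v) (hη : 1 ≤ η * v) (hF : v ^ 40 ≤ F) : v ^ 20 ≤ η * F := by
  have h0 : 0 < η := by nlinarith
  calc v ^ 20 ≤ η * v * v ^ 20 := le_mul_of_one_le_left (by positivity) hη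
    _ = η * v ^ 21 := by ring
    _ ≤ _ := mul_le_mul_of_nonneg_left ((pw hv (by norm_num)).trans hF) h0.le

lemma i7 {v Q σ w : ℝ} (w1 : 1 ≤ w) (w2 : w ^ 2 = 1 + v ^ 2 * (64 * Q)) (h : 1 + w ≤ σ) :
    6 * v ^ 2 * Q * (σ + 2) ≤ σ ^ 2 * (σ - 2) := by
  have a1 : (w + 1) * (w - 1) ≤ σ * (σ - 2) :=
    mul_le_mul (by linarith) (by linarith) (by linarith) (by linarith)
  have a0 : 0 ≤ v ^ 2 * Q := by nlinarith
  have a2 : 64 * (v ^ 2 * Q) ≤ σ * (σ - 2) := by nlinarith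
  have a3 := mul_le_mul_of_nonneg_left a2 (show 0 ≤ σ by linarith)
  nlinarith [mul_nonneg a0 (show 0 ≤ σ - 2 by linarith)]

lemma i12 {Q s F v σ a L η C cX cY : ℝ} (hC : 1 ≤ C) (s0 : 0 ≤ s) (sQ : s ^ 2 = Q)
    (F0 : 0 < F) (v1 : 1 ≤ v) (hL : 176 * C ^ 4 ≤ L) (hη : 1 ≤ η * L) (ha : L ^ 40 ≤ a)
    (hσ : σ ≤ 2 + 8 * s * v) (c1 : 2 * F - a ≤ 22 * s * (v * F))
    (dbl : 11 * s * cX ≤ 1 / 2 → cY ≤ 2 * cX) (hv : v ≤ C * cY) (hX : cX ≤ C * L) :
    F * σ ≤ a ^ 2 * (1 + η * (Q * F * v)) := by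
  have C2 : 1 ≤ C ^ 2 := one_le_pow₀ hC
  have C4 : C ^ 2 ≤ C ^ 4 := pw hC (by norm_num)
  have C1 : C ≤ C ^ 2 := by nlinarith
  have L1 : 1 ≤ L := by linarith
  have h0 : 0 < η := by nlinarith
  have a1 : L ^ 2 ≤ a := (pw L1 (by norm_num)).trans ha
  have a2 : 176 ≤ a := by nlinarith
  have a3 : 176 ≤ η * a := by nlinarith [mul_le_mul_of_nonneg_left a1 h0.le]
  rcases le_total 1 (Q * a) with h | h
  · have s1 : 1 ≤ s * a := by
      refine le_of_sq_le_sq ?_ (by positivity)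
      rw [mul_pow, sQ]
      nlinarith [mul_le_mul_of_nonneg_right h (show 0 ≤ a by linarith)]
    have b1 : 2 ≤ η * a * (Q * a) * v / 2 := by
      have : η * a * 1 * 1 ≤ η * a * (Q * a) * v := by gcongr
      linarith
    have b2 : 8 * s * v ≤ η * a * (s * a) * (s * v) / 2 := by
      have : 176 * 1 * (s * v) ≤ η * a * (s * a) * (s * v) := by gcongr
      nlinarith [mul_nonneg s0 (zero_le_one.trans v1)]
    have b3 : σ ≤ a ^ 2 * (η * (Q * v)) := by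
      have : η * a * (s * a) * (s * v) = η * a * (Q * a) * v := by rw [← sQ]; ring
      nlinarith
    nlinarith [mul_le_mul_of_nonneg_left b3 F0.le]
  · have s1 : s * L * L ≤ 1 := by
      refine le_of_sq_le_sq ?_ zero_le_one
      have : L ^ 4 ≤ a := (pw L1 (by norm_num)).trans ha
      nlinarith [mul_le_mul_of_nonneg_left this (sq_nonneg s)]
    have s2 : s * L * (176 * C ^ 4) ≤ 1 :=
      (mul_le_mul_of_nonneg_left hL (by positivity)).trans s1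
    have sL : 0 ≤ s * L := by positivity
    have b1 := dbl (by nlinarith [mul_le_mul_of_nonneg_left hX s0,
      mul_le_mul_of_nonneg_left (C1.trans C4) sL])
    have b2 : v ≤ 2 * C ^ 2 * L := by nlinarith
    have b3 : s * v ≤ 1 / 88 := by
      nlinarith [mul_le_mul_of_nonneg_left b2 s0, mul_le_mul_of_nonneg_left C4 sL]
    have b4 : F ≤ a := by nlinarith [mul_le_mul_of_nonneg_right b3 F0.le]
    have b5 : F * σ ≤ a * 3 := by nlinarith
    have b6 : 0 ≤ a ^ 2 * (η * (Q * F * v)) := by rw [← sQ]; positivity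
    nlinarith

lemma n1 {Q s F v η B : ℝ} (hB : 1 ≤ B) (s0 : 0 ≤ s) (sQ : s ^ 2 = Q) (Q2 : Q ≤ 2)
    (hvC : 176 * B ≤ v) (hηv : 1 ≤ η * v) (hF : v ^ 40 ≤ F) (h : Q ^ 2 * F ≤ 16) :
    s * v * (88 * B) ≤ 1 ∧ s * v * (88 * B) ≤ η ∧ v ^ 8 * Q ≤ η ∧ Q * v ≤ 4 ∧
      v ^ 2 * Q * (1 + Q * F) ≤ η * √(1 + Q * F) := by
  have v1 : 1 ≤ v := by linarith
  have v0 : 0 < v := by linarith
  have h0 : 0 < η := by nlinarith
  have Q0 : 0 ≤ Q := by rw [← sQ]; positivity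
  have F0 : 0 < F := lt_of_lt_of_le (by positivity) hF
  have q1 : Q * v ^ 20 ≤ 4 := by
    refine le_of_sq_le_sq ?_ (by norm_num)
    calc (Q * v ^ 20) ^ 2 = Q ^ 2 * v ^ 40 := by ring
      _ ≤ Q ^ 2 * F := by gcongr
      _ ≤ _ := by linarith
  have q2 : ∀ i ≤ 20, Q * v ^ i ≤ 4 := fun i hi =>
    (mul_le_mul_of_nonneg_left (pw v1 hi) Q0).trans q1
  have t0 : 0 ≤ s * v := by positivity
  have t1 : s * v * v ^ 2 ≤ 2 := by
    refine le_of_sq_le_sq ?_ (by norm_num)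
    have := q2 6 (by norm_num)
    rw [← sQ] at this
    linarith
  have t2 : s * v * (88 * B) * v ^ 2 ≤ v :=
    (mul_right_comm _ _ _).trans_le
      ((mul_le_mul_of_nonneg_right t1 (by linarith)).trans (by linarith))
  have u1 : v ≤ η * v ^ 2 := by linarith [mul_le_mul_of_nonneg_right hηv v0.le]
  have u2 : v ≤ 1 * v ^ 2 := by linarith [mul_le_mul_of_nonneg_right v1 v0.le]
  have v2 : 0 < v ^ 2 := by positivity
  refine ⟨le_of_mul_le_mul_right (t2.trans u2) v2, le_of_mul_le_mul_right (t2.trans u1) v2,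
    le_of_mul_le_mul_right ?_ v2, by simpa using q2 1 (by norm_num), ?_⟩
  · have := q2 10 (by norm_num)
    linarith
  · have ψ0 : 0 ≤ Q * F := by positivity
    have e1 : √(1 + Q * F) ^ 2 = 1 + Q * F := Real.sq_sqrt (by linarith)
    have e0 := Real.sqrt_nonneg (1 + Q * F)
    have e2 : v ^ 2 * Q * √(1 + Q * F) ≤ η := by
      refine le_of_sq_le_sq ?_ h0.le
      rw [mul_pow, e1]
      have e3 : Q ^ 2 * (1 + Q * F) ≤ 18 * Q := by
        linarith [mul_le_mul_of_nonneg_left h Q0, mul_le_mul_of_nonneg_left Q2 Q0]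
      have e4 : v ^ 4 * (18 * Q) ≤ η ^ 2 := by
        refine le_of_mul_le_mul_right ?_ (pow_pos v0 3)
        have := q2 7 (by norm_num)
        have e5 : 1 ≤ (η * v) ^ 2 := one_le_pow₀ hηv
        linarith [mul_le_mul_of_nonneg_right e5 v0.le]
      calc _ = v ^ 4 * (Q ^ 2 * (1 + Q * F)) := by ring
        _ ≤ v ^ 4 * (18 * Q) := by gcongr
        _ ≤ _ := e4
    nth_rewrite 1 [← e1]
    linarith [mul_le_mul_of_nonneg_right e2 e0]

lemma n2' {a L fx η ψ A : ℝ} (hL : 24 ≤ L) (hη : 1 ≤ η * L) (ha : L ^ 40 ≤ a) (fx0 : 0 < fx)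
    (hfx : fx ^ 2 = a) (h : ψ ^ 2 ≤ 34 * a) (hA : a / 2 ≤ A) :
    a * L ^ 2 * ψ ≤ η * A ^ 2 := by
  have L1 : 1 ≤ L := by linarith
  have h0 : 0 < η := by nlinarith
  have a0 : 0 ≤ a := by rw [← hfx]; positivity
  have e1 : ψ ≤ 6 * fx := le_of_sq_le_sq (by linarith) (by linarith)
  have e2 : L ^ 20 ≤ fx := le_of_sq_le_sq (by rw [← pow_mul, hfx]; exact ha) fx0.le
  have e3 : 24 * L ^ 2 ≤ η * fx := by
    have := mul_le_mul_of_nonneg_left ((pw L1 (show 4 ≤ 20 by norm_num)).trans e2) h0.le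
    have e5 : 24 * 1 * L ^ 2 ≤ L * (η * L) * L ^ 2 := by gcongr
    linarith
  calc _ ≤ a * L ^ 2 * (6 * fx) := by gcongr
    _ = a * fx / 4 * (24 * L ^ 2) := by ring
    _ ≤ a * fx / 4 * (η * fx) := by gcongr
    _ = η * (a / 2) ^ 2 := by rw [← hfx]; ring
    _ ≤ _ := by gcongr

lemma i13 {Q s F v σ a L fx η C cX cY T d : ℝ} (hC : 1 ≤ C) (s0 : 0 ≤ s) (sQ : s ^ 2 = Q)
    (Q2 : Q ≤ 2) (hvC : 176 * C ^ 4 ≤ v) (hηv : 1 ≤ η * v) (hF : v ^ 40 ≤ F)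
    (hL : 176 * C ^ 4 ≤ L) (hη : 1 ≤ η * L) (ha : L ^ 40 ≤ a) (fx0 : 0 < fx) (hfx : fx ^ 2 = a)
    (σ2 : 2 ≤ σ) (hσ : σ ≤ 2 + 8 * s * v) (c1 : 2 * F - a ≤ 22 * s * (v * F))
    (c2 : a - 2 * F ≤ 11 * s * (L * a)) (dbl : 11 * s * cX ≤ 1 / 2 → cY ≤ 2 * cX)
    (hv : v ≤ C * cY) (hv' : cY ≤ C * v) (hX : cX ≤ C * L) (hX' : L ≤ C * cX)
    (hT : 16 < T * v) (mono : Q ≤ 2 * T → cX ≤ cY) (hd : |d| ≤ 2 * s * (L + C ^ 2 * v))
    (h : Q ^ 2 * F ≤ 16) :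
    v ^ 2 * Q * (1 + Q * F) ≤ η * √(1 + Q * F) ∧ v ^ 8 * Q ≤ η ∧ |F * σ - a| ≤ η * a ∧
      |2 * F - a| ≤ η * a ∧ σ ≤ 2 + η ∧ v ≤ 44 * C ^ 4 * L ∧ Q ≤ η ∧ Q < T / 4 ∧
      a * L ^ 2 * (1 + Q * F) ≤ η * (F * σ) ^ 2 ∧ (1 + Q * F) ^ 2 ≤ 44 * C ^ 4 * a ∧
      |2 * F - a| ≤ 44 * C ^ 4 * a * L * s ∧ |d| ≤ 44 * C ^ 4 * L * s := by
  have C0 : 0 ≤ C := by linarith
  have C2 : 1 ≤ C ^ 2 := one_le_pow₀ hC
  have C4 : C ^ 2 ≤ C ^ 4 := pw hC (by norm_num)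
  have C1 : C ≤ C ^ 2 := by simpa using pw hC (show 1 ≤ 2 by norm_num)
  have L1 : 1 ≤ L := by linarith
  have v1 : 1 ≤ v := by linarith
  have v0 : 0 < v := by linarith
  have h0 : 0 < η := (mul_pos_iff_of_pos_right v0).1 (by linarith)
  have Q0 : 0 ≤ Q := by rw [← sQ]; positivity
  have F0 : 0 < F := lt_of_lt_of_le (by positivity) hF
  have a1 : 1 ≤ a := (one_le_pow₀ L1).trans ha
  obtain ⟨t2, t2', rb, q1, ra⟩ := n1 (C2.trans C4) s0 sQ Q2 hvC hηv hF h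
  have t0 : 0 ≤ s * v := by positivity
  have t3 : s * v ≤ s * v * C ^ 4 := le_mul_of_one_le_right t0 (C2.trans C4)
  have rg : Q ≤ η := (le_mul_of_one_le_left Q0 (one_le_pow₀ v1)).trans rb
  have rh : Q < T / 4 := lt_of_mul_lt_mul_right (by linarith) v0.le
  have m1 := mono (by linarith)
  have m2 : L ≤ C ^ 2 * v := by
    linarith [mul_le_mul_of_nonneg_left (m1.trans hv') C0]
  have m3 := dbl (by
    linarith [mul_le_mul_of_nonneg_left (m1.trans hv') s0,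
      mul_le_mul_of_nonneg_left (C1.trans C4) t0])
  have m4 : v ≤ 2 * C ^ 2 * L := by
    linarith [mul_le_mul_of_nonneg_left m3 C0, mul_le_mul_of_nonneg_left hX C0]
  have m5 : F ≤ a := by
    linarith [mul_le_mul_of_nonneg_right (t3.trans (show s * v * C ^ 4 ≤ 1 / 88 by linarith)) F0.le]
  have sL : 0 ≤ s * L * a := by positivity
  have m6 : |2 * F - a| ≤ 44 * C ^ 2 * (s * L) * a := by
    have : s * (v * F) ≤ s * (2 * C ^ 2 * L * a) := by gcongr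
    exact abs_le.2 ⟨by linarith [mul_le_mul_of_nonneg_left C2 sL], by linarith⟩
  have m7 : C ^ 2 * (s * L) ≤ s * v * C ^ 4 := by
    have : C ^ 2 * (s * L) ≤ C ^ 2 * (s * (C ^ 2 * v)) := by gcongr
    linarith
  have m8 : |2 * F - a| ≤ η / 2 * a :=
    m6.trans (mul_le_mul_of_nonneg_right (by linarith) (by linarith))
  have m8' : |2 * F - a| ≤ 1 / 2 * a :=
    m6.trans (mul_le_mul_of_nonneg_right (by linarith) (by linarith))
  have m9 : σ - 2 ≤ η / 2 := by linarith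
  have ψ1 : (Q * F) ^ 2 ≤ 16 * a := by linarith [mul_le_mul_of_nonneg_right h F0.le]
  have ψ2 : (1 + Q * F) ^ 2 ≤ 34 * a := by linarith [sq_nonneg (1 - Q * F)]
  have ηa : 0 ≤ η * a := by positivity
  have e1 : F * (σ - 2) ≤ a * (η / 2) := mul_le_mul m5 m9 (by linarith) (by linarith)
  have e2 : 0 ≤ F * (σ - 2) := mul_nonneg F0.le (by linarith)
  have e3 : C ^ 2 * L ≤ C ^ 4 * L := by gcongr
  have e4 : L ≤ C ^ 4 * L := le_mul_of_one_le_left (by linarith) (C2.trans C4)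
  have e5 : a ≤ C ^ 4 * a := le_mul_of_one_le_left (by linarith) (C2.trans C4)
  have k8 := abs_le.1 m8
  have k8' := abs_le.1 m8'
  refine ⟨ra, rb, abs_le.2 ⟨by linarith, by linarith⟩, m8.trans (by linarith), by linarith,
    by linarith, rg, rh, n2' (by linarith) hη ha fx0 hfx ψ2 (by linarith), by linarith,
    m6.trans (by linarith [mul_le_mul_of_nonneg_left C4 sL]), hd.trans ?_⟩
  have e6 : C ^ 2 * v ≤ C ^ 2 * (2 * C ^ 2 * L) := by gcongr
  have e7 : 2 * s * (L + C ^ 2 * v) ≤ 2 * s * (3 * C ^ 4 * L) := by gcongr; linarith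
  have e8 : 0 ≤ C ^ 4 * L * s := by positivity
  linarith

lemma i14 {Q F v a L fx fp η C : ℝ} (hC : 1 ≤ C) (Q0 : 0 ≤ Q)
    (hvC : 176 * C ^ 4 ≤ v) (hηv : 1 ≤ η * v) (hF : v ^ 40 ≤ F)
    (hL : 176 * C ^ 4 ≤ L) (hη : 1 ≤ η * L) (ha : L ^ 40 ≤ a) (fx0 : 0 < fx) (hfx : fx ^ 2 = a)
    (fp0 : 0 ≤ fp) (alt : L ≤ C ^ 2 * v ∨ fp = fx * L) (h : 1 < Q ^ 2 * F) :
    (v + L) ^ 8 ≤ η * (Q * F * v + fp) ∧ v ^ 8 ≤ η * (Q * F * v) := by
  have C2 : 1 ≤ C ^ 2 := one_le_pow₀ hC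
  have C4 : C ^ 2 ≤ C ^ 4 := pw hC (by norm_num)
  have L1 : 1 ≤ L := by linarith
  have v1 : 1 ≤ v := by linarith
  have h0 : 0 < η := by nlinarith
  have F0 : 0 < F := lt_of_lt_of_le (by positivity) hF
  have ψ0 : 0 ≤ Q * F := by positivity
  have e1 : v ^ 20 ≤ Q * F := le_of_sq_le_sq (by
    rw [← pow_mul]; exact hF.trans (by linarith [mul_le_mul_of_nonneg_right h.le F0.le])) ψ0
  have e2 : L ^ 20 ≤ fx := le_of_sq_le_sq (by rw [← pow_mul, hfx]; exact ha) fx0.le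
  have e3 : v ^ 20 ≤ η * (Q * F * v) := by nlinarith [mul_le_mul_of_nonneg_left hηv ψ0]
  have e4 : v + L ≤ v ^ 2 → (v + L) ^ 8 ≤ η * (Q * F * v + fp) := fun hh => by
    have : (v + L) ^ 8 ≤ (v ^ 2) ^ 8 := by gcongr
    rw [← pow_mul] at this
    nlinarith [pw v1 (show 2 * 8 ≤ 20 by norm_num), mul_nonneg h0.le fp0]
  refine ⟨?_, (pw v1 (by norm_num)).trans e3⟩
  rcases alt with hh | hh
  · exact e4 (by nlinarith)
  · rcases le_total L v with g | g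
    · exact e4 (by nlinarith)
    · have : (v + L) ^ 8 ≤ (L ^ 2) ^ 8 := by gcongr; nlinarith
      rw [← pow_mul] at this
      have e5 : 0 ≤ η * (Q * F * v) := by positivity
      rw [hh]
      nlinarith [pw L1 (show 2 * 8 ≤ 20 by norm_num), mul_le_mul_of_nonneg_left hη fx0.le]

lemma i15 {Q F v η N : ℝ} (Q0 : 0 ≤ Q) (v1 : 1 ≤ v) (hηv : 1 ≤ η * v) (hF : v ^ 40 ≤ F)
    (h1 : N ≤ 1 / η * v ^ 2) (h2 : Q * F ≤ N) : Q ^ 2 * F ≤ 1 := by
  have h0 : 0 < η := by nlinarith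
  have F0 : 0 < F := lt_of_lt_of_le (by positivity) hF
  have e1 : 1 / η ≤ v := by rw [div_le_iff₀ h0]; linarith
  have e2 : Q * F ≤ v ^ 3 := by nlinarith [mul_le_mul_of_nonneg_right e1 (sq_nonneg v)]
  have e3 : (Q * F) ^ 2 ≤ (v ^ 3) ^ 2 := by gcongr
  rw [← pow_mul] at e3
  refine le_of_mul_le_mul_right ?_ F0
  nlinarith [pw v1 (show 3 * 2 ≤ 40 by norm_num)]

/-- Facts on the profile. -/
lemma prof (hf : f.Ok) {Q : ℝ} (hQ : 0 ≤ Q) :
    0 ≤ f.Om Q ∧ √(f.Om Q) ≤ 8 * √Q ∧ Q * deriv f.Om Q ≤ 8 * √Q * √(f.Om Q) ∧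
    (f.lam * √Q * √(f.Om Q) ≤ Q * deriv f.Om Q ∧ f.lam * √Q ≤ √(f.Om Q)) ∧
    (Q ≤ f.t0 ^ 2 → Q * deriv f.Om Q = f.Om Q ∧ f.Om Q = 64 * Q) ∧
    (Q ≤ 2 * f.t0 ^ 2 → 4 * √Q * √(f.Om Q) ≤ Q * deriv f.Om Q ∧ 4 * √Q ≤ √(f.Om Q)) ∧
    (f.t1 ^ 2 ≤ Q → Q * deriv f.Om Q ≤ f.lam * √Q * √(f.Om Q)) := by
  obtain ⟨hl, -, -, -, -, -, -, -, ht0, ht1, -, -, -, -, hs, hlin, hP⟩ := hf
  rcases hQ.eq_or_lt with rfl | hQ0
  · have : f.Om 0 = 0 := by simpa using hlin 0 (sq_nonneg _)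
    simp [this]
  obtain ⟨p1, p2, -, p4, p5, p6, -, -, p9, p10⟩ := hP Q hQ0
  have O0 : 0 < f.Om Q := lt_of_lt_of_le (by positivity) p1
  have r2 : √(f.Om Q) ^ 2 = f.Om Q := Real.sq_sqrt O0.le
  have s2 : √Q ^ 2 = Q := Real.sq_sqrt hQ
  have r0 := Real.sqrt_nonneg (f.Om Q)
  have s0 := Real.sqrt_nonneg Q
  have d0 : 0 ≤ Q * deriv f.Om Q := by positivity
  have a1 : √(f.Om Q) ≤ 8 * √Q := le_of_sq_le_sq (by rw [mul_pow, r2, s2]; linarith) (by positivity)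
  have g : ∀ k : ℝ, k ^ 2 * f.Om Q ≤ Q * deriv f.Om Q ^ 2 →
      k * √Q * √(f.Om Q) ≤ Q * deriv f.Om Q ∧ k * √Q ≤ √(f.Om Q) := fun k hk => by
    have b1 : k * √Q * √(f.Om Q) ≤ Q * deriv f.Om Q := le_of_sq_le_sq (by
      rw [mul_pow, mul_pow, r2, s2]; linarith [mul_le_mul_of_nonneg_left hk hQ]) d0
    exact ⟨b1, le_of_mul_le_mul_right (by linarith) (Real.sqrt_pos.2 O0)⟩
  refine ⟨O0.le, a1, by linarith [mul_le_mul_of_nonneg_right a1 r0], g _ p6, fun h => ?_,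
    fun h => g 4 (by linarith [p9 h]), fun h => le_of_sq_le_sq ?_ (by positivity)⟩
  · have e1 : HasDerivWithinAt f.Om (deriv f.Om Q) (Iic Q) Q :=
      ((hs.differentiable (by simp)) Q).hasDerivAt.hasDerivWithinAt
    have e2 : HasDerivWithinAt f.Om 64 (Iic Q) Q := by
      have : HasDerivWithinAt (fun q : ℝ => 64 * q) (64 * 1) (Iic Q) Q :=
        ((hasDerivAt_id Q).const_mul 64).hasDerivWithinAt
      rw [mul_one] at this
      exact this.congr (fun q hq => hlin q (hq.trans h)) (hlin Q h)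
    rw [(uniqueDiffWithinAt_Iic Q).eq_deriv _ e1 e2, hlin Q h]
    exact ⟨mul_comm _ _, rfl⟩
  · rw [mul_pow, mul_pow, mul_pow, r2, s2]
    have := (p10 h).1
    linarith [congrArg (fun t => Q * t) this]

lemma dy_anti (K : ℕ) {L : ℝ} (hL : 0 < L) (J : ℕ) {y y' : ℝ} (h : y ≤ y') :
    dy K L J 0 y' ≤ dy K L J 0 y := by
  unfold dy
  gcongr

lemma big {v c e d F C C₂ L : ℝ} {K : ℕ} (hK : 20 ≤ K) (hC : 1 ≤ C) (hC₂ : 1 ≤ C₂)
    (v0 : 0 ≤ v) (c1 : 1 ≤ c) (h1 : v ≤ C * c) (hL : C ^ 40 * C₂ ≤ L) (he : e ≤ 1)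
    (h2 : c ^ (2 * K) * Real.exp (-(L * max e 0)) ≤ C₂ * d) (h3 : Real.exp (2 * L) * d ≤ F) :
    v ^ 40 ≤ F := by
  have L0 : 0 ≤ L := le_trans (by positivity) hL
  have a1 : Real.exp (-L) ≤ Real.exp (-(L * max e 0)) :=
    Real.exp_le_exp.2 (neg_le_neg (mul_le_of_le_one_right L0 (max_le he zero_le_one)))
  have a2 : c ^ 40 * Real.exp (-L) ≤ C₂ * d :=
    (mul_le_mul (pw c1 (by omega)) a1 (Real.exp_pos _).le (by positivity)).trans h2
  have d0 : 0 ≤ d := (mul_pos_iff_of_pos_left (by linarith)).1 (lt_of_lt_of_le (by positivity) a2)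
    |>.le
  have a3 : C ^ 40 * C₂ ≤ Real.exp L := by linarith [Real.add_one_le_exp L]
  calc v ^ 40 ≤ (C * c) ^ 40 := by gcongr
    _ = C ^ 40 * (c ^ 40 * Real.exp (-L)) * Real.exp L := by
      rw [mul_pow, mul_assoc, mul_assoc, ← Real.exp_add]; simp
    _ ≤ C ^ 40 * (C₂ * d) * Real.exp L := by gcongr
    _ = C ^ 40 * C₂ * Real.exp L * d := by ring
    _ ≤ Real.exp L * Real.exp L * d := by gcongr
    _ = Real.exp (2 * L) * d := by rw [← Real.exp_add, two_mul]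
    _ ≤ F := h3

end Ww2

open Ww2 in
theorem s_w2 (h0 : S_w0) (hq : S_wq) (hm : S_wm) : S_w2 := by
  intro n ι f hf
  obtain ⟨C, hC, hm⟩ := hm n ι f hf
  have hf' := hf
  obtain ⟨hl, hl', -, -, -, -, -, -, ht0, ht1, ht2, -, -, hK, -⟩ := hf'
  obtain ⟨C₂, hC₂, hmom⟩ := s_mom f.K 0 (by omega)
  have C0 : 0 ≤ C := by linarith
  have C2 : 1 ≤ C ^ 2 := one_le_pow₀ hC
  have C4 : C ^ 2 ≤ C ^ 4 := pw hC (by norm_num)
  refine ⟨44 * C ^ 4, by linarith, fun η hη => ?_⟩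
  obtain ⟨k, hk⟩ : ∃ k, k = f.lam * f.t0 / 2 := ⟨_, rfl⟩
  have k0 : 0 < k := by rw [hk]; positivity
  have k1 : 16 * k ≤ f.t0 := by rw [hk]; nlinarith only [hl', ht0]
  have k2 : k ≤ 1 := by linarith
  refine (((h0 n ι f hf).and hm).and (Ev.ok f one_pos
    (176 * C ^ 4 + 1 / (η * k ^ 2) + 1 / k ^ 2 + C ^ 40 * C₂))).mono ?_
  rintro c ⟨⟨⟨-, hx, hp, -, hch⟩, hm1, hm2⟩, hL, hL1, hsg, -, hp0, -⟩ p hpO
  have L0 : 0 < c.L0 := by linarith
  have u1 : 0 < 1 / (η * k ^ 2) := by positivity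
  have u2 : 0 < 1 / k ^ 2 := by positivity
  have u3 : 0 ≤ C ^ 40 * C₂ := by positivity
  have l1 : 176 * C ^ 4 ≤ c.L0 := by linarith
  have l2 : 1 ≤ η * k ^ 2 * c.L0 := by
    rw [mul_comm, ← div_le_iff₀ (by positivity)]; linarith
  have l3 : 1 ≤ k ^ 2 * c.L0 := by
    rw [mul_comm, ← div_le_iff₀ (by positivity)]; linarith
  have l4 : C ^ 40 * C₂ ≤ c.L0 := by linarith
  have l5 : k ^ 2 ≤ k := by nlinarith only [k0, k2]
  have l6 : 1 ≤ η * c.L0 := l2.trans (by gcongr; exact mul_le_of_le_one_right hη.le (by linarith))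
  obtain ⟨a0, hLX, hfx, -⟩ := hx p.1
  obtain ⟨q1, q2, F0, hv, σ2, -, -, -, -, -, -, fp0, -⟩ := hp p
  obtain ⟨m1, m2, -, m4, -⟩ := hm1 p
  obtain ⟨x1, x2, x3⟩ := hm2 (‖p.1‖ ^ 2)
  obtain ⟨g1, g2, g3⟩ := geo p hp0 hpO
  have z0 := norm_nonneg (zz p)
  have Q0 : 0 ≤ QQ c p := le_trans (by positivity) q1
  have Q2 : QQ c p ≤ 2 := by nlinarith only [q2, g1, z0]
  obtain ⟨O0, o1, o2, o3, o4, o5, o6⟩ := prof hf Q0
  have s0 := Real.sqrt_nonneg (QQ c p)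
  have r0 := Real.sqrt_nonneg (f.Om (QQ c p))
  have sQ : √(QQ c p) ^ 2 = QQ c p := Real.sq_sqrt Q0
  have zs : 2 * ‖zz p‖ ≤ 3 * √(QQ c p) :=
    le_of_sq_le_sq (by rw [mul_pow, mul_pow, sQ]; linarith) (by positivity)
  have v1 : 1 ≤ vv f c p := hL1.trans hv
  have X1 : 1 ≤ LX f c p.1 := hL1.trans hLX
  have ηv : 1 ≤ η * vv f c p := l6.trans (by gcongr)
  have ηL : 1 ≤ η * LX f c p.1 := l6.trans (by gcongr)
  obtain ⟨-, -, y3, -, -, y6, -, y8, -⟩ :=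
    hmom c.L0 c.J (1 - c.sg - uu p - √(f.Om (QQ c p))) hL1
  obtain ⟨-, -, w3, -, -, w6, -, -, w9⟩ := hmom c.L0 c.J (1 - c.sg - ‖p.1‖ ^ 2) hL1
  have hF : vv f c p ^ 40 ≤ FF f c p :=
    big hK hC hC₂ (by linarith) (hL1.trans y6) m2 l4
      (by have : 0 ≤ uu p := sq_nonneg _; linarith) y3 m4
  have d0 : 0 ≤ dy f.K c.L0 c.J 0 (1 - c.sg - ‖p.1‖ ^ 2) :=
    Finset.sum_nonneg fun j _ => by positivity
  have ha : LX f c p.1 ^ 40 ≤ aX f c p.1 :=
    big hK hC hC₂ (by linarith) (hL1.trans w6) x2 l4 (by linarith [sq_nonneg ‖p.1‖]) w3 (by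
      unfold aX
      rw [x3]
      refine mul_le_mul_of_nonneg_right ?_ d0
      linarith [Real.exp_le_exp.2 (show 2 * c.L0 ≤ 2 * c.L0 + 1 by linarith),
        Real.exp_pos (2 * c.L0 + 1)])
  have fx0 : 0 < fX f c p.1 := Real.exp_pos _
  have σu : sig f c p ≤ 2 + 8 * √(QQ c p) * vv f c p := sig_le L0 p O0 (by positivity) o2
  have σl : f.lam * √(QQ c p) * vv f c p ≤ sig f c p := le_sig L0 p O0 (by positivity) o3.1 o3.2
  obtain ⟨c1, c2⟩ := cmp L0 p O0 (h := 11 * √(QQ c p)) (by linarith)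
  have dbl : 11 * √(QQ c p) * cl c.L0 c.J (1 - c.sg - ‖p.1‖ ^ 2) ≤ 1 / 2 →
      cl c.L0 c.J (1 - c.sg - uu p - √(f.Om (QQ c p))) ≤
        2 * cl c.L0 c.J (1 - c.sg - ‖p.1‖ ^ 2) := fun h => w9 _ (le_trans (by
    have := abs_le.1 g2
    exact mul_le_mul_of_nonneg_right (abs_le.2 ⟨by linarith, by linarith⟩) (by linarith)) h)
  have mono : (QQ c p ≤ 2 * f.t0 ^ 2 ∨ (QQ c p ≤ 2 * f.t1 ^ 2 ∧ 0 ≤ zd p (mv p))) →
      1 - c.sg - uu p - √(f.Om (QQ c p)) ≤ 1 - c.sg - ‖p.1‖ ^ 2 := by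
    rintro (h | ⟨h, h'⟩)
    · linarith [(o5 h).2, (abs_le.1 g2).1]
    · have e1 : √(QQ c p) ≤ 2 * f.lam := le_of_sq_le_sq (by rw [sQ]; nlinarith only [h, ht0, ht1, ht2]) (by linarith only [hl])
      linarith [g3 h', o3.2, mul_le_mul_of_nonneg_right e1 s0]
  have hLv : 1 - c.sg - uu p - √(f.Om (QQ c p)) ≤ 1 - c.sg - ‖p.1‖ ^ 2 →
      LX f c p.1 ≤ C ^ 2 * vv f c p := fun h => by
    unfold LX
    linarith [mul_le_mul_of_nonneg_left ((y8 _ h).trans m1) C0]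
  refine ⟨i1 v1 ηv hF, i1 X1 ηL ha, ηv, ηL, by linarith, by linarith, fun h => ?_, fun h => ?_,
    fun h => ?_, fun h => ?_, fun h => ⟨(hLv (mono h)).trans ?_, ?_⟩,
    i12 hC s0 sQ F0 v1 (l1.trans hLX) ηL ha σu (by linarith) dbl m2 x1, fun h => ?_,
    fun h => ?_, fun N _ h1 h2 => i15 Q0 v1 ηv hF h1 h2⟩
  · have := sig_jen L0 p O0 (by linarith) (o4 h).1
    obtain ⟨b1, -, -, b4⟩ := bfacts (show 0 < vv f c p by linarith) O0
    exact i7 b1 (by rw [b4, (o4 h).2]) this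
  · linarith [le_sig L0 p O0 (by positivity) (o5 h).1 (o5 h).2]
  · linarith [sig_le L0 p O0 (by positivity) (o6 h)]
  · have e1 : f.t0 / 2 ≤ √(QQ c p) := Real.le_sqrt_of_sq_le (by linarith)
    have e2 : k * vv f c p ≤ sig f c p := by
      refine le_trans ?_ σl
      rw [hk, mul_div_assoc]
      gcongr
    have e3 : 1 ≤ η * k ^ 2 * vv f c p := l2.trans (by gcongr)
    refine ⟨e3.trans ?_, ?_⟩
    · rw [mul_assoc]
      exact mul_le_mul_of_nonneg_left (le_trans (by gcongr) e2) hη.le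
    · calc _ ≤ η * k ^ 2 * vv f c p * vv f c p := le_mul_of_one_le_left (by linarith) e3
        _ = η * (k * vv f c p) ^ 2 := by ring
        _ ≤ _ := by gcongr
  · gcongr
    linarith
  · unfold aX
    rw [x3, Real.exp_add]
    have e1 := (mul_le_mul_of_nonneg_left (dy_anti f.K L0 c.J (mono h))
      (Real.exp_pos (2 * c.L0)).le).trans m4
    have e2 : 2 * Real.exp 1 ≤ 44 * C ^ 4 := by linarith [Real.exp_one_lt_three]
    calc _ = 2 * Real.exp 1 * (Real.exp (2 * c.L0) * dy f.K c.L0 c.J 0 (1 - c.sg - ‖p.1‖ ^ 2)) := by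
          ring
      _ ≤ _ := mul_le_mul e2 e1 (by positivity) (by positivity)
  · refine i13 hC s0 sQ Q2 (l1.trans hv) ηv hF (l1.trans hLX) ηL ha fx0 hfx σ2 σu (by linarith) c2
      dbl m2 m1 x1 x2 ?_ (fun h => y8 _ (mono (Or.inl h))) ?_ h
    · have e1 : (16 * k) ^ 2 * c.L0 ≤ f.t0 ^ 2 * vv f c p := by gcongr
      linarith
    · have e1 := ell_sub L0 f.K c.sg c.J (uu p) (‖p.1‖ ^ 2)
      have e2 := ell_sub L0 f.K c.sg c.J (‖p.1‖ ^ 2) (uu p)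
      have e3 : LU f.K c.L0 c.sg c.J (uu p) ≤ C ^ 2 * vv f c p := by
        linarith [(hm2 (uu p)).2.1, mul_le_mul_of_nonneg_left
          ((y8 (1 - c.sg - uu p) (by linarith)).trans m1) C0]
      have e4 : 0 ≤ LU f.K c.L0 c.sg c.J (uu p) := by
        have e5 := (hmom c.L0 c.J (1 - c.sg - uu p) hL1).2.2.2.2.2.1
        exact ((mul_pos_iff_of_pos_left (show 0 < C by linarith)).1
          (by linarith [(hm2 (uu p)).1])).le
      have e6 := abs_le.1 g2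
      have e7 : LU f.K c.L0 c.sg c.J (uu p) * (uu p - ‖p.1‖ ^ 2) ≤
          C ^ 2 * vv f c p * (4 * √(QQ c p)) :=
        (mul_le_mul_of_nonneg_left (by linarith) e4).trans
          (mul_le_mul_of_nonneg_right e3 (by positivity))
      have e8 : LX f c p.1 * (‖p.1‖ ^ 2 - uu p) ≤ LX f c p.1 * (4 * √(QQ c p)) :=
        mul_le_mul_of_nonneg_left (by linarith) (by linarith)
      have e9 : 0 ≤ √(QQ c p) * LX f c p.1 := by positivity
      have e10 : 0 ≤ √(QQ c p) * (C ^ 2 * vv f c p) := by positivity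
      unfold lu lX
      unfold LX at e8 e9 ⊢
      exact abs_le.2 ⟨by linarith, by linarith⟩
  · refine i14 hC Q0 (l1.trans hv) ηv hF (l1.trans hLX) ηL ha fx0 hfx fp0 ?_ (not_le.1 h)
    rcases le_or_gt (QQ c p) (2 * f.t0 ^ 2) with g | g
    · exact Or.inl (hLv (mono (Or.inl g)))
    · have e1 := ((hch p).2.2.1 (by linarith [sq_nonneg f.t0])).eq_of_nhds
      right
      unfold fp
      rw [e1, Pi.one_apply, one_mul]

end Vale.Agent.P088
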