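import Vale.Agent.P088.StW
import Vale.Agent.P088.SbLin

/-!
# P088: symbol bounds for the full weight
-/

open MeasureTheory Set Metric Filter
open scoped ContDiff Topology

noncomputable section
namespace Vale.Agent.P088
open Vale.Agent.P136 (D Dp Dm Sm Tst D_add_at D_mul_at D_const_mul_at D_congr)

namespace Ww3

section gen
variable {X : Type} [NormedAddCommGroup X] [NormedSpace ℝ X] {κ : Type} {v : κ → X} {p : X}
  {k : ℕ} {w L K : ℝ} {f g : X → ℝ}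

theorem val (h : SB v k w L f p) : |f p| ≤ w := by
  simpa [SbAlg.Ds_nil] using h [] (Nat.zero_le _)

theorem rescale (hK : 1 ≤ K) (hL : 0 ≤ L) (h : SB v k w (K * L) f p) :
    SB v k (K ^ k * w) L f p := fun l hl => by
  refine (h l hl).trans ?_
  have h1 : K ^ l.length ≤ K ^ k := pow_le_pow_right₀ hK hl
  have h2 := mul_nonneg (SbAlg.nonneg h) (pow_nonneg hL l.length)
  rw [mul_pow]
  nlinarith

theorem sub_dir {κ' : Type} (e : κ' → κ) (h : SB v k w L f p) :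
    SB (fun i => v (e i)) k w L f p := fun l hl => by
  have := h (l.map e) (by simpa using hl)
  rwa [Ds, List.foldr_map, List.length_map] at this

theorem zero (hw : 0 ≤ w) (hL : 0 ≤ L) (h : f =ᶠ[𝓝 p] fun _ => 0) : SB v k w L f p :=
  SbAlg.congr h.symm (SbAlg.mono hL (SbAlg.const hL 0) le_rfl (by simpa using hw) le_rfl)

theorem D_addf (hf : Sm f) (hg : Sm g) (a : X) :
    D a (fun x => f x + g x) = fun x => D a f x + D a g x :=
  funext fun x => D_add_at (hf.dAt x) (hg.dAt x) a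

theorem DD_add (hf : Sm f) (hg : Sm g) (a b : X) :
    D a (D b fun x => f x + g x) = fun x => D a (D b f) x + D a (D b g) x := by
  rw [D_addf hf hg, D_addf (hf.D b) (hg.D b)]

theorem D_mul_le (hf : Sm f) (hg : Sm g) (a : X) {a0 a1 b0 b1 : ℝ} (h0 : |f p| ≤ a0)
    (h1 : |D a f p| ≤ a1) (k0 : |g p| ≤ b0) (k1 : |D a g p| ≤ b1) :
    |D a (fun x => f x * g x) p| ≤ a0 * b1 + a1 * b0 := by
  rw [D_mul_at (hf.dAt p) (hg.dAt p)]
  refine (abs_add_le _ _).trans (add_le_add ?_ ?_) <;> rw [abs_mul]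
  · exact mul_le_mul h0 k1 (abs_nonneg _) ((abs_nonneg _).trans h0)
  · exact mul_le_mul h1 k0 (abs_nonneg _) ((abs_nonneg _).trans h1)

theorem DD_mul_le (hf : Sm f) (hg : Sm g) (a b : X) {a0 a1 a2 b0 b1 b2 : ℝ} (h0 : |f p| ≤ a0)
    (h1 : |D a f p| ≤ a1) (h1' : |D b f p| ≤ a1) (h2 : |D a (D b f) p| ≤ a2) (k0 : |g p| ≤ b0)
    (k1 : |D a g p| ≤ b1) (k1' : |D b g p| ≤ b1) (k2 : |D a (D b g) p| ≤ b2) :
    |D a (D b fun x => f x * g x) p| ≤ a0 * b2 + 2 * (a1 * b1) + a2 * b0 := by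
  have e : D b (fun x => f x * g x) = fun x => f x * D b g x + D b f x * g x :=
    funext fun x => D_mul_at (hf.dAt x) (hg.dAt x) b
  rw [e, D_addf (hf.mul (hg.D b)) ((hf.D b).mul hg)]
  refine (abs_add_le _ _).trans ((add_le_add (D_mul_le hf (hg.D b) a h0 h1 k1' k2)
    (D_mul_le (hf.D b) hg a h1' h2 k0 k1)).trans (le_of_eq (by ring)))

theorem pw (hK : 1 ≤ K) {a b : ℕ} (hab : a ≤ b) {W W' : ℝ} (h0 : 0 ≤ W) (h : W ≤ W') :
    K ^ a * W ≤ K ^ b * W' :=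
  mul_le_mul (pow_le_pow_right₀ hK hab) h h0 (pow_nonneg (zero_le_one.trans hK) _)

theorem two (hK : 2 ≤ K) (a : ℕ) {W : ℝ} (h0 : 0 ≤ W) : K ^ a * W + K ^ a * W ≤ K ^ (a + 1) * W := by
  have := mul_nonneg (pow_nonneg (zero_le_two.trans hK) a) h0
  rw [pow_succ]
  nlinarith

end gen

variable {n : ℕ}

theorem toX {k : ℕ} {w L : ℝ} {f : X2 n → ℝ} {p : X2 n} (h : SB exy k w L f p) :
    SB ex k w L f p := sub_dir Sum.inl h

theorem sm_fst {g : En n → ℝ} (hg : Sm g) : Sm fun q : X2 n => g q.1 := hg.comp contDiff_fst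

theorem D_fst {g : En n → ℝ} (hg : Sm g) (a : X2 n) :
    D a (fun q : X2 n => g q.1) = fun q => D a.1 g q.1 := by
  funext q
  exact congrArg (fun T : X2 n →L[ℝ] ℝ => T a)
    ((hg.dAt q.1).hasFDerivAt.comp q (hasFDerivAt_fst (𝕜 := ℝ))).fderiv

theorem Dy_fst {g : En n → ℝ} (hg : Sm g) (a : Fin n) :
    D (ey a) (fun q : X2 n => g q.1) = fun _ => 0 := by
  rw [D_fst hg]
  funext q
  simp [D, ey]

theorem sb_fst {g : En n → ℝ} (hg : Sm g) {k : ℕ} {w L : ℝ} {p : X2 n} (hL : 0 ≤ L)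
    (h : SB ee k w L g p.1) : SB exy k w L (fun q : X2 n => g q.1) p := by
  classical
  have := SbLin.lin0 (v := exy) (v' := ee) (ContinuousLinearMap.fst ℝ (En n) (En n)) 0
    (t := fun i j => if i = Sum.inl j then 1 else 0) (A := 1) (w := w) (k := k) (f := g) (p := p)
    hL (fun i => by rcases i with a | a <;> simp [exy, ex, ey])
    (fun i => by rcases i with a | a <;> simp [apply_ite]) hg.contDiffAt (by simpa using h)
  simpa using this

variable {ι : Type}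

/-- The facts used at the point `p`, with one constant. -/
structure H (f : Fx) (c : Cx n ι) (K : ℝ) (p : X2 n) : Prop where
  hK : 64 ≤ K
  cw : |f.Cw| ≤ K
  sPsi : Sm (Psi f c)
  svv : Sm (vv f c)
  slu : Sm (lu f c)
  schf : Sm (chf f c)
  sfX : Sm (fX f c)
  sLX : Sm (LX f c)
  v1 : 1 ≤ vv f c p
  X1 : 1 ≤ LX f c p.1
  F0 : 0 < FF f c p
  s2 : 2 ≤ sig f c p
  Q0 : 0 ≤ QQ c p
  fp0 : 0 ≤ fp f c p
  vQ : vv f c p * √(QQ c p) ≤ K * sig f c p
  v4 : vv f c p ^ 4 ≤ FF f c p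
  zone : (ff f c =ᶠ[𝓝 p] fun _ => 0) ∧ (fp f c =ᶠ[𝓝 p] fun _ => 0) ∨
    (LX f c p.1 ≤ K * vv f c p ∧ fX f c p.1 * vv f c p ^ 2 ≤ K * FF f c p ∧
      FF f c p ≤ K * z0 f c p) ∨ chf f c =ᶠ[𝓝 p] 1
  bvv : SB exy 6 (K * vv f c p) (vv f c p) (vv f c) p
  blu : SB1 exy 6 K (vv f c p) (lu f c) p
  bchf : SB exy 6 K 1 (chf f c) p
  bP1 : ∀ i, |D (exy i) (Psi f c) p| ≤ K * z0 f c p
  bP2 : ∀ i j, SB exy 4 (K * AA f c p) (vv f c p) (D (exy i) (D (exy j) (Psi f c))) p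
  bfX : SB ee 6 (K * fX f c p.1) (LX f c p.1) (fX f c) p.1
  bLX : SB ee 6 (K * LX f c p.1) (LX f c p.1) (LX f c) p.1

variable {f : Fx} {c : Cx n ι} {K : ℝ} {p : X2 n}

theorem fx0 (f : Fx) (c : Cx n ι) (x : En n) : 0 < fX f c x := Real.exp_pos _

namespace H
variable (h : H f c K p)
include h

theorem K1 : 1 ≤ K := by linarith [h.hK]
theorem K2 : 2 ≤ K := by linarith [h.hK]
theorem K0 : 0 ≤ K := by linarith [h.hK]
theorem v0 : 0 ≤ vv f c p := by linarith [h.v1]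
theorem X0 : 0 ≤ LX f c p.1 := by linarith [h.X1]
theorem vS : vv f c p ≤ SS f c p := by unfold SS; linarith [h.X1]
theorem XS : LX f c p.1 ≤ SS f c p := by unfold SS; linarith [h.v1]
theorem S0 : 0 ≤ SS f c p := h.v0.trans h.vS
theorem FA : FF f c p ≤ AA f c p := le_mul_of_one_le_right h.F0.le (by nlinarith [h.s2])
theorem A0 : 0 ≤ AA f c p := h.F0.le.trans h.FA
theorem z00 : 0 ≤ z0 f c p :=
  mul_nonneg (mul_nonneg h.F0.le (by linarith [h.s2])) (Real.sqrt_nonneg _)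
theorem fS0 : 0 ≤ fp f c p * SS f c p := mul_nonneg h.fp0 h.S0
theorem AH : AA f c p ≤ HX f c p := le_add_of_nonneg_right h.fS0
theorem fH : fp f c p * SS f c p ≤ HX f c p := le_add_of_nonneg_left h.A0
theorem H0 : 0 ≤ HX f c p := h.A0.trans h.AH
theorem v2 : vv f c p * vv f c p ≤ AA f c p := by
  have h1 : vv f c p ^ 2 ≤ vv f c p ^ 4 := pow_le_pow_right₀ h.v1 (by norm_num)
  nlinarith [h.v4, h.FA]
theorem P0 : 0 ≤ Psi f c p := mul_nonneg h.Q0 h.F0.le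
theorem zz : z0 f c p ≤ z0 f c p * vv f c p := le_mul_of_one_le_right h.z00 h.v1

theorem my_le : Psi f c p * vv f c p ≤ K * z0 f c p := by
  have h1 := mul_le_mul_of_nonneg_left h.vQ (mul_nonneg h.F0.le (Real.sqrt_nonneg (QQ c p)))
  have h2 : Psi f c p = √(QQ c p) * √(QQ c p) * FF f c p := by rw [Real.mul_self_sqrt h.Q0]; rfl
  rw [h2]
  unfold z0 al
  linarith

theorem zv_le : z0 f c p * vv f c p ≤ K * AA f c p := by
  have h1 := mul_le_mul_of_nonneg_left h.vQ (mul_nonneg h.F0.le (by linarith [h.s2] : 0 ≤ sig f c p))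
  unfold z0 al AA
  linarith

theorem sff : Sm (ff f c) := h.schf.mul (sm_fst h.sfX)
theorem sg2 : Sm fun x => fX f c x * LX f c x := h.sfX.mul h.sLX
omit h in
theorem efp : fp f c = fun q => chf f c q * (fX f c q.1 * LX f c q.1) :=
  funext fun _ => mul_assoc _ _ _
theorem sfp : Sm (fp f c) := by rw [efp]; exact h.schf.mul (sm_fst h.sg2)
theorem sph : Sm (ph0 f c) := h.sPsi.add (h.slu.cmul _)
theorem smy : Sm (my f c) := h.sPsi.mul h.svv

theorem b1 : SB exy 6 (K ^ 1 * fX f c p.1) (LX f c p.1) (fun q : X2 n => fX f c q.1) p :=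
  sb_fst h.sfX h.X0 (by rw [pow_one]; exact h.bfX)

theorem b2 : SB exy 6 (K ^ 3 * (fX f c p.1 * LX f c p.1)) (LX f c p.1)
    (fun q : X2 n => fX f c q.1 * LX f c q.1) p := by
  refine sb_fst h.sg2 h.X0 (SbAlg.mono h.X0 (SbAlg.mul h.X0 h.sfX.contDiffAt h.sLX.contDiffAt
    h.bfX h.bLX) le_rfl ?_ le_rfl)
  have h1 := mul_nonneg (mul_nonneg (sq_nonneg K) (fx0 f c p.1).le) h.X0
  nlinarith [h.hK]

/-- the middle zone -/
theorem mid {g : X2 n → ℝ} (hg : Sm g) {w : ℝ} {a : ℕ} (hX : LX f c p.1 ≤ K * vv f c p)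
    (hb : SB exy 6 (K ^ a * w) (LX f c p.1) g p) (b : ℕ) (hab : b = a + 8) :
    SB exy 6 (K ^ b * w) (vv f c p) (fun q => chf f c q * g q) p := by
  subst hab
  have h1 : 1 ≤ K * vv f c p := h.X1.trans hX
  have h2 := rescale h.K1 h.v0 (SbAlg.mul (zero_le_one.trans h1) h.schf.contDiffAt hg.contDiffAt
    (SbAlg.mono zero_le_one h.bchf le_rfl le_rfl h1) (SbAlg.mono h.X0 hb le_rfl le_rfl hX))
  refine SbAlg.mono h.v0 h2 le_rfl ?_ le_rfl
  have h3 := mul_nonneg (pow_nonneg h.K0 7) (SbAlg.nonneg hb)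
  have h4 : K ^ (a + 8) * w = K * (K ^ 7 * (K ^ a * w)) := by ring
  rw [h4]
  nlinarith [h.hK]

omit h in
theorem out {g : X2 n → ℝ} (ho : chf f c =ᶠ[𝓝 p] 1) : g =ᶠ[𝓝 p] fun q => chf f c q * g q :=
  ho.mono fun q hq => by simp only [hq, Pi.one_apply, one_mul]

omit h in
theorem fp_out (ho : chf f c =ᶠ[𝓝 p] 1) : fp f c p = fX f c p.1 * LX f c p.1 := by
  rw [fp, ho.eq_of_nhds, Pi.one_apply, one_mul]

theorem ffa (i j : Fin n) :
    SB ex 4 (K ^ 10 * HX f c p) (SS f c p) (D (ex i) (D (ex j) (ff f c))) p := by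
  rcases h.zone with ⟨h1, -⟩ | ⟨h1, h2, -⟩ | h1
  · have := SbAlg.deriv i (SbAlg.deriv j (zero (v := ex) (k := 6) le_rfl h.S0 h1))
    exact SbAlg.mono h.S0 this le_rfl (by simpa using mul_nonneg (pow_nonneg h.K0 10) h.H0) le_rfl
  · have := SbAlg.deriv i (SbAlg.deriv j (toX (h.mid (sm_fst h.sfX) h1 h.b1 9 rfl)))
    refine SbAlg.mono h.v0 this le_rfl ?_ h.vS
    have h3 := mul_le_mul_of_nonneg_left h2 (pow_nonneg h.K0 9)
    have h4 := pw h.K1 (le_refl 10) h.F0.le (h.FA.trans h.AH)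
    linarith
  · have := SbAlg.deriv i (SbAlg.deriv j (toX (SbAlg.congr (out h1) h.b1)))
    refine SbAlg.mono h.X0 this le_rfl ?_ h.XS
    have h3 := pw h.K1 (by norm_num : 1 ≤ 10) (mul_nonneg h.fp0 h.X0)
      ((mul_le_mul_of_nonneg_left h.XS h.fp0).trans h.fH)
    rw [fp_out h1] at h3
    linarith

theorem ffb (a : Fin n) (i : Fin n ⊕ Fin n) :
    SB exy 4 (K ^ 10 * AA f c p) (vv f c p) (D (ey a) (D (exy i) (ff f c))) p := by
  have h0 := mul_nonneg (pow_nonneg h.K0 10) h.A0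
  rcases h.zone with ⟨h1, -⟩ | ⟨h1, h2, -⟩ | h1
  · have := SbAlg.deriv (Sum.inr a) (SbAlg.deriv i (zero (v := exy) (k := 6) le_rfl h.v0 h1))
    exact SbAlg.mono h.v0 this le_rfl (by simpa using h0) le_rfl
  · have := SbAlg.deriv (Sum.inr a) (SbAlg.deriv i (h.mid (sm_fst h.sfX) h1 h.b1 9 rfl))
    refine SbAlg.mono h.v0 this le_rfl ?_ le_rfl
    have h3 := mul_le_mul_of_nonneg_left h2 (pow_nonneg h.K0 9)
    have h4 := pw h.K1 (le_refl 10) h.F0.le h.FA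
    linarith
  · refine zero h0 h.v0 ?_
    have := SbAlg.D_ev (SbAlg.D_ev (out (g := fun q => fX f c q.1) h1) (exy i)) (ey a)
    rw [D_fst h.sfX, Dy_fst (h.sfX.D _)] at this
    exact this.symm

theorem ffc (i : Fin n) : |D (ex i) (ff f c) p| ≤ K ^ 11 * (z0 f c p + vv f c p + fp f c p) ∧
    |D (ey i) (ff f c) p| ≤ K ^ 11 * (z0 f c p + vv f c p) := by
  have h0 := pow_nonneg h.K0 11
  have h5 := mul_nonneg h0 h.z00
  have h6 := mul_nonneg h0 h.v0
  have h7 := mul_nonneg h0 h.fp0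
  rcases h.zone with ⟨h1, -⟩ | ⟨h1, h2, h3⟩ | h1
  · rw [D_congr h1, D_congr h1, P136.D_const, P136.D_const, abs_zero]
    constructor <;> linarith
  · have key : ∀ j, |D (exy j) (ff f c) p| ≤ K ^ 11 * z0 f c p := fun j => by
      refine (val (SbAlg.deriv j (h.mid (sm_fst h.sfX) h1 h.b1 9 rfl))).trans ?_
      have h4 : fX f c p.1 * vv f c p ≤ fX f c p.1 * vv f c p ^ 2 :=
        mul_le_mul_of_nonneg_left (by nlinarith [h.v1]) (fx0 f c p.1).le
      have h8 := mul_le_mul_of_nonneg_left (h4.trans h2) (pow_nonneg h.K0 9)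
      have h9 := mul_le_mul_of_nonneg_left h3 (pow_nonneg h.K0 10)
      linarith
    exact ⟨(key (Sum.inl i)).trans (by linarith), (key (Sum.inr i)).trans (by linarith)⟩
  · constructor
    · refine (val (SbAlg.deriv (Sum.inl i) (SbAlg.congr (out h1) h.b1))).trans ?_
      have h3 := pw h.K1 (by norm_num : 1 ≤ 11) h.fp0 le_rfl
      rw [fp_out h1] at h3 h7 ⊢
      linarith
    · have := D_congr (out (g := fun q => fX f c q.1) h1) (ey i)
      rw [Dy_fst h.sfX] at this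
      have e : D (ey i) (ff f c) p = 0 := this.symm
      rw [e, abs_zero]
      linarith

theorem fpd (i j : Fin n) : |D (ex i) (D (ex j) (fp f c)) p| ≤ K ^ 13 * (HX f c p * SS f c p) := by
  have h0 := mul_nonneg (pow_nonneg h.K0 13) (mul_nonneg h.H0 h.S0)
  rcases h.zone with ⟨-, h1⟩ | ⟨h1, h2, -⟩ | h1
  · have := val (SbAlg.deriv i (SbAlg.deriv j (zero (v := ex) (k := 6) le_rfl h.S0 h1)))
    exact this.trans (by simpa using h0)
  · have := val (SbAlg.deriv i (SbAlg.deriv j (toX (h.mid (sm_fst h.sg2) h1 h.b2 11 rfl))))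
    rw [efp]
    refine this.trans ?_
    have h3 := mul_le_mul_of_nonneg_left h1 (mul_nonneg (pow_nonneg h.K0 11)
      (mul_nonneg (fx0 f c p.1).le (sq_nonneg (vv f c p))))
    have h4 := mul_le_mul_of_nonneg_left h2 (mul_nonneg (pow_nonneg h.K0 12) h.v0)
    have h5 := pw h.K1 (le_refl 13) (mul_nonneg h.F0.le h.v0)
      (mul_le_mul (h.FA.trans h.AH) h.vS h.v0 h.H0)
    linarith
  · have := val (SbAlg.deriv i (SbAlg.deriv j (toX (SbAlg.congr (out h1) h.b2))))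
    rw [efp]
    refine this.trans ?_
    have h3 := pw h.K1 (by norm_num : 3 ≤ 13) (mul_nonneg (mul_nonneg h.fp0 h.X0) h.X0)
      (mul_le_mul ((mul_le_mul_of_nonneg_left h.XS h.fp0).trans h.fH) h.XS h.X0 h.H0)
    rw [fp_out h1] at h3
    linarith

theorem fpe (i : Fin n) :
    |D (ex i) (fp f c) p| ≤ K ^ 14 * (z0 f c p * vv f c p + fp f c p * SS f c p) := by
  have h0 := pow_nonneg h.K0 14
  have h5 := mul_nonneg h0 (h.z00.trans h.zz)
  have h6 := mul_nonneg h0 h.fS0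
  rcases h.zone with ⟨-, h1⟩ | ⟨h1, h2, h3⟩ | h1
  · rw [D_congr h1, P136.D_const, abs_zero]
    linarith
  · have := val (SbAlg.deriv (Sum.inl i) (h.mid (sm_fst h.sg2) h1 h.b2 11 rfl))
    rw [← efp] at this
    refine this.trans ?_
    have h4 := mul_le_mul_of_nonneg_left h1 (mul_nonneg (pow_nonneg h.K0 11)
      (mul_nonneg (fx0 f c p.1).le h.v0))
    have h7 := mul_le_mul_of_nonneg_left h2 (pow_nonneg h.K0 12)
    have h8 := mul_le_mul_of_nonneg_left h3 (pow_nonneg h.K0 13)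
    have h9 := mul_le_mul_of_nonneg_left h.zz h0
    linarith
  · have := val (SbAlg.deriv (Sum.inl i) (SbAlg.congr (out h1) h.b2))
    rw [← efp, ← fp_out h1] at this
    refine this.trans ?_
    have h3 := pw h.K1 (by norm_num : 3 ≤ 14) (mul_nonneg h.fp0 h.X0)
      (mul_le_mul_of_nonneg_left h.XS h.fp0)
    linarith

end H

namespace H
variable (h : H f c K p)
include h

theorem Dph (a : X2 n) :
    D a (ph0 f c) = fun q => D a (Psi f c) q + f.Cw * D a (lu f c) q := by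
  funext q
  rw [← D_const_mul_at (h.slu.dAt q)]
  exact D_add_at (h.sPsi.dAt q) ((h.slu.cmul _).dAt q) a

theorem blu1 (i : Fin n ⊕ Fin n) : SB exy 5 (K ^ 2 * vv f c p) (vv f c p)
    (fun q => f.Cw * D (exy i) (lu f c) q) p := by
  refine SbAlg.mono h.v0 (SbAlg.cmul (h.slu.D _).contDiffAt (SbAlg.deriv1 i h.blu) f.Cw) le_rfl ?_
    le_rfl
  have := mul_le_mul_of_nonneg_right h.cw (mul_nonneg h.K0 h.v0)
  linarith

theorem pha (i j : Fin n ⊕ Fin n) :
    SB exy 4 (K ^ 3 * AA f c p) (vv f c p) (D (exy i) (D (exy j) (ph0 f c))) p := by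
  rw [h.Dph, D_addf (h.sPsi.D _) ((h.slu.D _).cmul _)]
  refine SbAlg.mono h.v0 (SbAlg.add ((h.sPsi.D _).D _).contDiffAt
    (((h.slu.D _).cmul _).D _).contDiffAt (h.bP2 i j) (SbAlg.deriv i (h.blu1 j))) le_rfl ?_ le_rfl
  have h1 := pw h.K1 (by norm_num : 1 ≤ 2) h.A0 le_rfl
  have h2 := pw h.K1 (le_refl 2) (mul_nonneg h.v0 h.v0) h.v2
  have h3 := two h.K2 2 h.A0
  norm_num only at h3
  linarith

theorem phb (i : Fin n ⊕ Fin n) :
    |D (exy i) (ph0 f c) p| ≤ K ^ 11 * (z0 f c p + vv f c p) := by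
  rw [h.Dph]
  refine (abs_add_le _ _).trans ?_
  have h1 := pw h.K1 (by norm_num : 1 ≤ 11) h.z00 le_rfl
  have h2 := pw h.K1 (by norm_num : 2 ≤ 11) h.v0 le_rfl
  linarith [h.bP1 i, val (h.blu1 i)]

theorem mya (i : Fin n ⊕ Fin n) :
    |D (exy i) (my f c) p| ≤ K ^ 14 * (z0 f c p * vv f c p) := by
  refine (D_mul_le h.sPsi h.svv _ (abs_of_nonneg h.P0).le (h.bP1 i) (abs_of_nonneg h.v0).le
    (val (SbAlg.deriv i h.bvv))).trans ?_
  have h0 := h.z00.trans h.zz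
  have h1 := mul_le_mul_of_nonneg_left h.my_le (mul_nonneg h.K0 h.v0)
  have h2 := pw h.K1 (by norm_num : 1 ≤ 2) h0 le_rfl
  have h3 := two h.K2 2 h0
  have h4 := pw h.K1 (by norm_num : 2 + 1 ≤ 14) h0 le_rfl
  linarith

theorem myb (i j : Fin n ⊕ Fin n) :
    |D (exy i) (D (exy j) (my f c)) p| ≤ K ^ 13 * (AA f c p * vv f c p) := by
  refine (DD_mul_le h.sPsi h.svv _ _ (abs_of_nonneg h.P0).le (h.bP1 i) (h.bP1 j) (val (h.bP2 i j))
    (abs_of_nonneg h.v0).le (val (SbAlg.deriv i h.bvv)) (val (SbAlg.deriv j h.bvv))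
    (val (SbAlg.deriv i (SbAlg.deriv j h.bvv)))).trans ?_
  have h0 := mul_nonneg h.A0 h.v0
  have h1 := mul_le_mul_of_nonneg_left h.my_le (mul_nonneg h.K0 (mul_nonneg h.v0 h.v0))
  have h2 := mul_le_mul_of_nonneg_left h.zv_le (mul_nonneg (sq_nonneg K) h.v0)
  have h3 := pw h.K1 (by norm_num : 1 ≤ 3) h0 le_rfl
  have h4 := two h.K2 3 h0
  have h5 := two h.K2 4 h0
  have h6 := pw h.K1 (by norm_num : 4 + 1 ≤ 13) h0 le_rfl
  norm_num only at h4 h5 h6
  linarith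

theorem w3 : W3 f c (K ^ 15) p := by
  have ephi : phi f c = fun q => ph0 f c q + ff f c q := rfl
  have emx : mx f c = fun q => my f c q + fp f c q := rfl
  have zv0 := h.z00.trans h.zz
  refine ⟨fun i j => ?_, fun a i => ?_, fun i => ⟨?_, ?_⟩, fun i j => ⟨?_, ?_⟩, ?_, ?_, ?_,
    fun i => ⟨?_, ?_⟩⟩
  · rw [ephi, DD_add h.sph h.sff]
    refine SbAlg.mono h.S0 (SbAlg.add ((h.sph.D _).D _).contDiffAt ((h.sff.D _).D _).contDiffAt
      (SbAlg.mono h.v0 (toX (h.pha (Sum.inl i) (Sum.inl j))) le_rfl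
        (pw h.K1 (by norm_num : 3 ≤ 10) h.A0 h.AH) h.vS) (h.ffa i j)) le_rfl ?_ le_rfl
    exact (two h.K2 10 h.H0).trans (pw h.K1 (by norm_num) h.H0 le_rfl)
  · rw [ephi, DD_add h.sph h.sff]
    refine SbAlg.mono h.v0 (SbAlg.add ((h.sph.D _).D _).contDiffAt ((h.sff.D _).D _).contDiffAt
      (SbAlg.mono h.v0 (h.pha (Sum.inr a) i) le_rfl
        (pw h.K1 (by norm_num : 3 ≤ 10) h.A0 le_rfl) le_rfl) (h.ffb a i)) le_rfl ?_ le_rfl
    exact (two h.K2 10 h.A0).trans (pw h.K1 (by norm_num) h.A0 le_rfl)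
  · have h0 := add_nonneg h.z00 h.v0
    have h1 := add_nonneg h0 h.fp0
    rw [ephi, D_addf h.sph h.sff]
    refine (abs_add_le _ _).trans ((add_le_add ((h.phb (Sum.inl i)).trans
      (pw h.K1 le_rfl h0 (le_add_of_nonneg_right h.fp0))) (h.ffc i).1).trans ?_)
    exact (two h.K2 11 h1).trans (pw h.K1 (by norm_num) h1 le_rfl)
  · have h0 := add_nonneg h.z00 h.v0
    rw [ephi, D_addf h.sph h.sff]
    refine (abs_add_le _ _).trans ((add_le_add (h.phb (Sum.inr i)) (h.ffc i).2).trans ?_)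
    exact (two h.K2 11 h0).trans (pw h.K1 (by norm_num) h0 le_rfl)
  · have h0 := mul_nonneg h.H0 h.S0
    rw [emx, DD_add h.smy h.sfp, mul_assoc]
    refine (abs_add_le _ _).trans ((add_le_add ((h.myb (Sum.inl i) (Sum.inl j)).trans
      (pw h.K1 le_rfl (mul_nonneg h.A0 h.v0) (mul_le_mul h.AH h.vS h.v0 h.H0))) (h.fpd i j)).trans ?_)
    exact (two h.K2 13 h0).trans (pw h.K1 (by norm_num) h0 le_rfl)
  · rw [mul_assoc]
    exact (h.myb (Sum.inr i) (Sum.inr j)).trans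
      (pw h.K1 (by norm_num) (mul_nonneg h.A0 h.v0) le_rfl)
  · have := pw h.K1 (by norm_num : 1 ≤ 15) h.z00 le_rfl
    rw [pow_one] at this
    exact h.my_le.trans this
  · have := pw h.K1 (by norm_num : 1 ≤ 15) h.A0 le_rfl
    rw [pow_one] at this
    exact h.zv_le.trans this
  · have h1 := mul_le_mul_of_nonneg_left (h.zz.trans h.zv_le) h.K0
    have h2 := pw h.K1 (le_refl 2) h.A0 h.AH
    have h3 := pw h.K1 (by norm_num : 0 ≤ 2) h.fp0
      ((le_mul_of_one_le_right h.fp0 (h.v1.trans h.vS)).trans h.fH)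
    have h4 := (two h.K2 2 h.H0).trans (pw h.K1 (by norm_num : 2 + 1 ≤ 15) h.H0 le_rfl)
    have h5 := h.my_le
    unfold mx
    linarith
  · have h0 := add_nonneg zv0 h.fS0
    rw [emx, D_addf h.smy h.sfp]
    refine (abs_add_le _ _).trans ((add_le_add ((h.mya (Sum.inl i)).trans
      (pw h.K1 le_rfl zv0 (le_add_of_nonneg_right h.fS0))) (h.fpe i)).trans ?_)
    exact two h.K2 14 h0
  · exact (h.mya (Sum.inr i)).trans (pw h.K1 (by norm_num) zv0 le_rfl)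

end H

theorem mkH (hf : f.Ok) {C1 Cx' C2 om L : ℝ} (c1 : 1 ≤ C1) (cx : 1 ≤ Cx') (c2 : 1 ≤ C2)
    (hc : c.Ok f om L) (w0 : W0 f c) (w1 : W1 f c C1 p) (wx : W1x f c Cx' p.1)
    (w2 : W2 f c C2 1 p) : H f c (64 + C1 + Cx' + C2 + f.Cw + 1 / f.lam + 1 / f.t0) p := by
  obtain ⟨hl, -, -, -, -, -, -, -, ht, -, -, hCw, -⟩ := hf
  obtain ⟨⟨-, -, -, -, sQ, -, -, svv, -, sPsi, -, -, slu, -, schf, -, -, -, -, -, -, -, -, -, -, -,
    -, -, -, -, -, -, -, -, -, -, -, -, sLX, -, sfX, -⟩, wX, wP, -, wZ⟩ := w0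
  obtain ⟨-, bvv, -, -, -, -, blu, -, -, bchf, bP, -⟩ := w1
  obtain ⟨-, bfX, bLX, -⟩ := wx
  obtain ⟨v20, -, -, -, -, vQ, -, -, -, -, zB, -⟩ := w2
  obtain ⟨hQ, -, F0, hv, s2, -, -, -, -, -, -, fp0, -⟩ := wP p
  obtain ⟨-, hX, fa, -⟩ := wX p.1
  have il : 0 < 1 / f.lam := by positivity
  have it : 0 < 1 / f.t0 := by positivity
  set K := 64 + C1 + Cx' + C2 + f.Cw + 1 / f.lam + 1 / f.t0 with hK
  have v1 : 1 ≤ vv f c p := hc.2.1.trans hv
  have X1 : 1 ≤ LX f c p.1 := hc.2.1.trans hX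
  have v0 : 0 ≤ vv f c p := by linarith
  have X0 : 0 ≤ LX f c p.1 := by linarith
  have Q0 : 0 ≤ QQ c p := le_trans (by positivity) hQ
  have k1 : C1 ≤ K := by linarith
  have kx : Cx' ≤ K := by linarith
  have k2 : C2 ≤ K := by linarith
  have z00 : 0 ≤ z0 f c p := mul_nonneg (mul_nonneg F0.le (by linarith)) (Real.sqrt_nonneg _)
  have A0 : 0 ≤ AA f c p := mul_nonneg F0.le (sq_nonneg _)
  have v4 : vv f c p ^ 4 ≤ FF f c p :=
    (pow_le_pow_right₀ v1 (by norm_num : 4 ≤ 20)).trans (by linarith)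
  refine ⟨by linarith, by rw [abs_of_nonneg (by linarith)]; linarith, sPsi, svv, slu, schf, sfX,
    sLX, v1, X1, F0, s2, Q0, fp0, ?_, v4, ?_,
    SbAlg.mono v0 bvv le_rfl (mul_le_mul_of_nonneg_right k1 v0) le_rfl,
    fun l h1 h2 => (blu l h1 h2).trans (mul_le_mul_of_nonneg_right k1 (pow_nonneg v0 _)),
    SbAlg.mono zero_le_one bchf le_rfl k1 le_rfl,
    fun i => (bP i).1.trans (mul_le_mul_of_nonneg_right k1 z00),
    fun i j => SbAlg.mono v0 ((bP i).2 j) le_rfl (mul_le_mul_of_nonneg_right k1 A0) le_rfl,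
    SbAlg.mono X0 bfX le_rfl (mul_le_mul_of_nonneg_right kx (fx0 f c _).le) le_rfl,
    SbAlg.mono X0 bLX le_rfl (mul_le_mul_of_nonneg_right kx X0) le_rfl⟩
  · have h1 := mul_le_mul_of_nonneg_left vQ il.le
    have h2 : 1 / f.lam * (f.lam * vv f c p * √(QQ c p)) = vv f c p * √(QQ c p) := by field_simp
    have h3 : 1 / f.lam * sig f c p ≤ K * sig f c p :=
      mul_le_mul_of_nonneg_right (by linarith) (by linarith)
    linarith
  · by_cases hA : QQ c p < f.t0 ^ 2 / 4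
    · refine Or.inl ⟨((wZ p).1 hA).1.mono fun q hq => ?_, ?_⟩
      · have e : ph0 f c q + ff f c q = ph0 f c q := hq
        linarith
      · exact (sQ.cont.continuousAt.eventually_lt continuousAt_const hA).mono
          fun q hq => ((wZ q).1 hq).2
    by_cases hB : QQ c p ≤ 2 * f.t0 ^ 2
    · obtain ⟨h1, h2⟩ := zB (Or.inl hB)
      refine Or.inr (Or.inl ⟨h1.trans (mul_le_mul_of_nonneg_right k2 v0), ?_, ?_⟩)
      · refine le_trans (abs_le_of_sq_le_sq' ?_ (by positivity)).2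
          (mul_le_mul_of_nonneg_right k2 F0.le)
        have h3 : aX f c p.1 * vv f c p ^ 4 ≤ C2 * FF f c p * FF f c p :=
          mul_le_mul h2 v4 (by positivity) (by positivity)
        have h4 : C2 * (FF f c p * FF f c p) ≤ C2 * C2 * (FF f c p * FF f c p) :=
          mul_le_mul_of_nonneg_right (by nlinarith) (by positivity)
        rw [mul_pow, fa]
        nlinarith
      · have h3 : f.t0 / 2 ≤ √(QQ c p) := Real.le_sqrt_of_sq_le (by linarith)
        have h4 : 2 * (f.t0 / 2) ≤ sig f c p * √(QQ c p) :=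
          mul_le_mul s2 h3 (by positivity) (by linarith)
        have h6 := mul_le_mul_of_nonneg_left h4 (mul_nonneg it.le F0.le)
        have h7 : 1 / f.t0 * FF f c p * (2 * (f.t0 / 2)) = FF f c p := by field_simp
        have h8 : 1 / f.t0 * z0 f c p ≤ K * z0 f c p := mul_le_mul_of_nonneg_right (by linarith) z00
        have h9 : z0 f c p = FF f c p * sig f c p * √(QQ c p) := rfl
        nlinarith
    · exact Or.inr (Or.inr ((wZ p).2.2.1 (by nlinarith [sq_nonneg f.t0])))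

end Ww3

theorem s_w3 (h0 : S_w0) (_hq : S_wq) (h1 : S_w1) (hx : S_w1x) (h2 : S_w2) : S_w3 := by
  intro n ι f hf
  obtain ⟨C1, c1, e1⟩ := h1 n ι f hf
  obtain ⟨Cx', cx, ex'⟩ := hx n ι f hf
  obtain ⟨C2, c2, e2⟩ := h2 n ι f hf
  have il : 0 < 1 / f.lam := one_div_pos.2 hf.1
  have it : 0 < 1 / f.t0 := one_div_pos.2 hf.2.2.2.2.2.2.2.2.1
  have hCw : 1 ≤ f.Cw := hf.2.2.2.2.2.2.2.2.2.2.2.1
  refine ⟨(64 + C1 + Cx' + C2 + f.Cw + 1 / f.lam + 1 / f.t0) ^ 15, one_le_pow₀ (by linarith), ?_⟩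
  refine ((((h0 n ι f hf).and e1).and ex').and ((e2 1 one_pos).and (Ev.ok f one_pos 0))).mono ?_
  rintro c ⟨⟨⟨w0, w1⟩, wx⟩, w2, hc⟩ p hp
  refine (Ww3.mkH hf c1 cx c2 hc w0 (w1 p hp) (wx _ ?_) (w2 p hp)).w3
  have h3 := norm_sub_norm_le p.1 c.p0
  have h4 : ‖c.p0‖ = 1 := hc.2.2.2.2.1
  linarith [hp.1]

end Vale.Agent.P088
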