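import Vale.Agent.P088.Ww4b

/-!
# P088: lower bounds for the gradient of the weight
-/

open scoped Topology

noncomputable section
namespace Vale.Agent.P088
namespace Ww4

lemma div_le {A r m η : ℝ} (hA : 0 < A) (hr : 0 ≤ r) (hm : 0 ≤ η * m) (h : A ^ 2 ≤ η * m * r) :
    A ^ 2 / (r + A) ≤ η * m := by
  rw [div_le_iff₀ (by positivity)]
  linarith [mul_nonneg hm hA.le]

lemma nk {P F v s L a r z C δ k : ℝ} (hF : 1 ≤ F) (hv : 1 ≤ v) (hs : 2 ≤ s) (hC : 1 ≤ C)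
    (hk : 1 ≤ k) (hP : k * v < P) (hL0 : 0 ≤ L) (hL : L ≤ C * v) (ha : a ≤ C * F)
    (hF20 : v ^ 20 ≤ δ * F) (hδ : C * δ ≤ 1) (hz : z ^ 2 = F * s ^ 2 * P)
    (hG : z ^ 2 ≤ C * (r + v ^ 2)) : k * (a * L ^ 2 * (1 + P)) ≤ C ^ 4 * (P * v) * r := by
  have hP1 : 1 ≤ P := by nlinarith
  have a1 : C * v ^ 2 ≤ F * P := by
    have b1 : v ^ 2 ≤ δ * F := (pow_le_pow_right₀ hv (by norm_num)).trans hF20
    have b2 : C * v ^ 2 ≤ C * (δ * F) := by gcongr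
    have b3 : C * δ * F ≤ 1 * F := by gcongr
    have b4 : F * 1 ≤ F * P := by gcongr
    linarith
  have a2 : F * P ≤ C * r / 3 := by
    have b1 : 2 ^ 2 ≤ s ^ 2 := pow_le_pow_left₀ (by norm_num) hs 2
    have b2 : 2 ^ 2 * (F * P) ≤ s ^ 2 * (F * P) := by gcongr
    linarith
  have hr : 0 ≤ C * r / 3 := le_trans (by positivity) a2
  calc k * (a * L ^ 2 * (1 + P)) ≤ k * (C * F * (C * v) ^ 2 * (P + P)) := by gcongr
    _ = 2 * C ^ 3 * (P * v) * F * (k * v) := by ring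
    _ ≤ 2 * C ^ 3 * (P * v) * F * P := by gcongr
    _ = 2 * C ^ 3 * (P * v) * (F * P) := by ring
    _ ≤ 3 * C ^ 3 * (P * v) * (C * r / 3) := by gcongr; norm_num
    _ = C ^ 4 * (P * v) * r := by ring

/-- All the bounds, as a statement about real numbers. -/
lemma core {Q q F v s L a fp r r' GX GY T C δ η : ℝ} {R : Prop} (hq : q ^ 2 = Q)
    (hQ2 : Q ≤ 2) (hF0 : 0 < F) (hv : 1 ≤ v) (hs : 2 ≤ s) (hs1 : s ≤ 3 + 8 * v * q) (hL : 1 ≤ L)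
    (ha : 0 < a) (hr : 0 ≤ r) (hr' : 0 ≤ r') (hfp : 0 ≤ fp) (hfp2 : fp ^ 2 ≤ a * L ^ 2)
    (hC : 1 ≤ C) (hδ0 : 0 ≤ δ) (hT0 : 0 < T) (hT1 : T ≤ 1)
    (hδ1 : 10 ^ 6 * C ^ 6 * δ ≤ 1 * T ^ 3) (hδ : 10 ^ 6 * C ^ 6 * δ ≤ η * T ^ 3)
    (hF20 : v ^ 20 ≤ δ * F) (hL20 : L ^ 20 ≤ δ * a) (hδv : 1 ≤ δ * v)
    (hR : R → L ≤ C * v ∧ a ≤ C * F) (hR2 : Q ≤ 2 * T → R)
    (hnR : ¬R → (Q * F * v + fp) ^ 2 ≤ C * r ∧ fp ^ 2 = a * L ^ 2)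
    (hN16 : Q ^ 2 * F ≤ 16 → Q < T / 4) (hf0 : Q < T / 4 → fp = 0)
    (hN1 : ¬Q ^ 2 * F ≤ 1 → (v + L) ^ 8 ≤ δ * (Q * F * v + fp) ∧ v ^ 8 ≤ δ * (Q * F * v))
    (hG : Q ≤ 2 * T → (F * s * q) ^ 2 ≤ C * (r + v ^ 2) ∧ (F * s * q) ^ 2 ≤ C * (r' + v ^ 2))
    (hX1 : T / 4 ≤ Q ∧ r ≤ 1 * (F * T * v ^ 6) → GX = (F * s) ^ 2)
    (hX2 : ¬(T / 4 ≤ Q ∧ r ≤ 1 * (F * T * v ^ 6)) → GX = (Q * F * v + fp) * r)
    (hY1 : T / 4 ≤ Q ∧ r' ≤ 1 * (F * T * v ^ 6) → GY = (F * s) ^ 2)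
    (hY2 : ¬(T / 4 ≤ Q ∧ r' ≤ 1 * (F * T * v ^ 6)) → GY = Q * F * v * r') :
    (Q ≤ 2 * T → (F * s * q) ^ 2 ≤ C ^ 4 * (r + v ^ 2) ∧
      (F * s * q) ^ 2 ≤ C ^ 4 * (r' + v ^ 2)) ∧
    (¬Q ^ 2 * F ≤ 1 → (¬(T / 4 ≤ Q ∧ r ≤ 1 * (F * T * v ^ 6)) →
        (F * s ^ 2 + fp * (v + L)) ^ 2 ≤ η * (Q * F * v + fp) * r ∧
        F * s * (v + L) ^ 4 ≤ η * r) ∧
      (¬(T / 4 ≤ Q ∧ r' ≤ 1 * (F * T * v ^ 6)) → (F * s ^ 2) ^ 2 ≤ η * (Q * F * v) * r' ∧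
        F * s * v ^ 4 ≤ η * r') ∧
      (F * s ^ 2) ^ 2 * v ^ 2 ≤ η * (Q * F * v) * GX ∧
      (F * s ^ 2) ^ 2 * v ^ 2 ≤ η * (Q * F * v) * GY) ∧
    (T ≤ Q → (¬(T / 4 ≤ Q ∧ r ≤ 1 * (F * T * v ^ 6)) → F * s * (v + L) ^ 2 ≤ η * r ∧
        (F * s) ^ 2 / (r + F * s) ≤ η * (Q * F * v + fp) ∧
        F * s * (F * s ^ 2 + fp * (v + L)) ≤ η * (Q * F * v + fp) * r) ∧
      (¬(T / 4 ≤ Q ∧ r' ≤ 1 * (F * T * v ^ 6)) → F * s * v ^ 2 ≤ η * r' ∧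
        (F * s) ^ 2 / (r' + F * s) ≤ η * (Q * F * v))) ∧
    (∀ k, 1 ≤ k → Q ^ 2 * F ≤ 16 → ¬Q * F ≤ k * v →
      k * (a * L ^ 2 * (1 + Q * F)) ≤ C ^ 4 * (Q * F * v + fp) * r ∧
      k * (a * L ^ 2 * (1 + Q * F)) ≤ C ^ 4 * (Q * F * v) * r') ∧
    (¬Q ^ 2 * F ≤ 1 → a * L ^ 2 ≤ C ^ 4 * GX) ∧
    L ^ 2 ≤ C ^ 4 * (v ^ 2 + (Q * F * v + fp)) := by
  have hQ : 0 ≤ Q := hq ▸ sq_nonneg q
  have hη : 0 ≤ η * T ^ 3 := le_trans (by positivity) hδ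
  have hη0 : 0 ≤ η := nonneg_of_mul_nonneg_left hη (by positivity)
  have hT3 : T ^ 3 ≤ 1 := pow_le_one₀ hT0.le hT1
  have hd1 : 10 ^ 6 * C ^ 6 * δ ≤ 1 := by linarith
  have hdη : 10 ^ 6 * C ^ 6 * δ ≤ η := hδ.trans (mul_le_of_le_one_right hη0 hT3)
  have c0 : δ ≤ C ^ 6 * δ := le_mul_of_one_le_left hδ0 (one_le_pow₀ hC)
  have c1 : C * δ ≤ C ^ 6 * δ := mul_le_mul_of_nonneg_right (le_self_pow₀ hC (by norm_num)) hδ0
  have hδ2 : δ ≤ 1 := by linarith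
  have hCk : ∀ k, k ≤ 4 → C ^ k ≤ C ^ 4 := fun k hk => pow_le_pow_right₀ hC hk
  have hC4 : C ≤ C ^ 4 := le_self_pow₀ hC (by norm_num)
  have hvF : ∀ k, k ≤ 20 → v ^ k ≤ F := fun k hk =>
    ((pow_le_pow_right₀ hv hk).trans hF20).trans (mul_le_of_le_one_left hF0.le hδ2)
  have hF : 1 ≤ F := by simpa using hvF 0 (by norm_num)
  have hq2 : q ≤ 3 / 2 := (abs_le_of_sq_le_sq' (by linarith) (by norm_num)).2
  have hs15 : s ≤ 15 * v := by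
    have := mul_le_mul_of_nonneg_left hq2 (by linarith : 0 ≤ v)
    linarith
  have hs2 : s ^ 2 ≤ 18 + 128 * v ^ 2 * Q := by
    have : s ^ 2 ≤ (3 + 8 * v * q) ^ 2 := pow_le_pow_left₀ (by linarith) hs1 2
    rw [← hq]
    linarith [sq_nonneg (3 - 8 * v * q)]
  have hmy : 0 ≤ Q * F * v := by positivity
  have hvC : v ≤ C * v := le_mul_of_one_le_left (by linarith) hC
  have hz : (F * s * q) ^ 2 = (F * s) ^ 2 * Q := by rw [← hq]; ring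
  have hBC : (v + L ≤ 2 * C * v ∧ fp ≤ C ^ 2 * (F * v)) ∨ (Q * F * v + fp) ^ 2 ≤ C * r := by
    by_cases h : R
    · obtain ⟨h1, h2⟩ := hR h
      refine Or.inl ⟨by linarith, (abs_le_of_sq_le_sq' (hfp2.trans ?_) (by positivity)).2⟩
      calc a * L ^ 2 ≤ C * F * (C * v) ^ 2 := by gcongr
        _ = C ^ 3 * (F * 1) * v ^ 2 := by ring
        _ ≤ C ^ 4 * (F * F) * v ^ 2 := by gcongr; norm_num
        _ = (C ^ 2 * (F * v)) ^ 2 := by ring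
    · exact Or.inr (hnR h).1
  have oX : ∀ η', 10 ^ 6 * C ^ 6 * δ ≤ η' * T ^ 3 → ¬Q ^ 2 * F ≤ 1 →
      ¬(T / 4 ≤ Q ∧ r ≤ 1 * (F * T * v ^ 6)) → _ := fun η' h0 h1 h2 =>
    off (S := v + L) hQ hF hv hs hs15 hs2 hC hδ0 hδv hT0 hT1 hd1 h0 (not_le.1 h1) hr hfp
      (hN1 h1).2 (hN1 h1).1 (by linarith) h2
      (fun h => ⟨hf0 h, by linarith [(hR (hR2 (by linarith))).1],
        hz ▸ (hG (by linarith)).1⟩) hBC
  have oY : ¬Q ^ 2 * F ≤ 1 → ¬(T / 4 ≤ Q ∧ r' ≤ 1 * (F * T * v ^ 6)) →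
      (F * s ^ 2) ^ 2 ≤ η * (Q * F * v) * r' ∧ F * s * v ^ 4 ≤ η * r' ∧
      (F * s ^ 2) ^ 2 * v ^ 2 ≤ η * (Q * F * v) * ((Q * F * v) * r') := fun h1 h2 => by
    simpa using off (S := v) (fp := 0) hQ hF hv hs hs15 hs2 hC hδ0 hδv hT0 hT1 hd1 hδ
      (not_le.1 h1) hr' le_rfl (hN1 h1).2 (by simpa using (hN1 h1).2) hv h2
      (fun h => ⟨rfl, by linarith, hz ▸ (hG (by linarith)).2⟩)
      (Or.inl ⟨by linarith, by positivity⟩)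
  have hon : ¬Q ^ 2 * F ≤ 1 → (F * s ^ 2) ^ 2 * v ^ 2 ≤ η * (Q * F * v) * (F * s) ^ 2 := by
    intro h
    have a1 : v ^ 4 ≤ δ * (Q * F * v) := (pow_le_pow_right₀ hv (by norm_num)).trans (hN1 h).2
    have a2 : 225 * δ * (Q * F * v) ≤ η * (Q * F * v) :=
      mul_le_mul_of_nonneg_right (by linarith) hmy
    calc (F * s ^ 2) ^ 2 * v ^ 2 = s ^ 2 * v ^ 2 * (F * s) ^ 2 := by ring
      _ ≤ (15 * v) ^ 2 * v ^ 2 * (F * s) ^ 2 := by gcongr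
      _ ≤ η * (Q * F * v) * (F * s) ^ 2 :=
        mul_le_mul_of_nonneg_right (by linarith) (by positivity)
  have hal : 0 < F * s := by positivity
  have hal2 : F * s ≤ F * s ^ 2 := by
    have : s ≤ s ^ 2 := le_self_pow₀ (by linarith) (by norm_num)
    gcongr
  have hH : F * s ≤ F * s ^ 2 + fp * (v + L) :=
    hal2.trans (le_add_of_nonneg_right (by positivity))
  have hFal : F ≤ F * s := le_mul_of_one_le_right hF0.le (by linarith)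
  refine ⟨fun h => ⟨(hG h).1.trans (by gcongr), (hG h).2.trans (by gcongr)⟩, fun h => ?_,
    fun h => ?_, fun k hk h16 hk' => ?_, fun h => ?_, ?_⟩
  · refine ⟨fun h2 => ⟨(oX η hδ h h2).1, (oX η hδ h h2).2.1⟩,
      fun h2 => ⟨(oY h h2).1, (oY h h2).2.1⟩, ?_, ?_⟩
    · by_cases h2 : T / 4 ≤ Q ∧ r ≤ 1 * (F * T * v ^ 6)
      · rw [hX1 h2]; exact hon h
      · rw [hX2 h2]; exact (oX η hδ h h2).2.2
    · by_cases h2 : T / 4 ≤ Q ∧ r' ≤ 1 * (F * T * v ^ 6)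
      · rw [hY1 h2]; exact hon h
      · rw [hY2 h2]; exact (oY h h2).2.2
  · have h1 : ¬Q ^ 2 * F ≤ 1 := fun h1 => by linarith [hN16 (by linarith)]
    refine ⟨fun h2 => ?_, fun h2 => ?_⟩
    · obtain ⟨b1, b2, -⟩ := oX η hδ h1 h2
      refine ⟨le_trans ?_ b2, div_le hal hr (by positivity) (le_trans ?_ b1), le_trans ?_ b1⟩
      · exact mul_le_mul_of_nonneg_left (pow_le_pow_right₀ (by linarith) (by norm_num)) hal.le
      · exact pow_le_pow_left₀ hal.le hH 2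
      · rw [sq (F * s ^ 2 + fp * (v + L))]
        exact mul_le_mul_of_nonneg_right hH (by positivity)
    · obtain ⟨b1, b2, -⟩ := oY h1 h2
      refine ⟨le_trans ?_ b2, div_le hal hr' (by positivity) (le_trans ?_ b1)⟩
      · exact mul_le_mul_of_nonneg_left (pow_le_pow_right₀ hv (by norm_num)) hal.le
      · exact pow_le_pow_left₀ hal.le hal2 2
  · have b1 := hN16 h16
    have b2 : Q ≤ 2 * T := by linarith
    obtain ⟨b3, b4⟩ := hR (hR2 b2)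
    have b5 : (F * s * q) ^ 2 = F * s ^ 2 * (Q * F) := by rw [hz]; ring
    rw [hf0 b1, add_zero]
    exact ⟨nk hF hv hs hC hk (not_le.1 hk') (by linarith) b3 b4 hF20 (by linarith) b5 (hG b2).1,
      nk hF hv hs hC hk (not_le.1 hk') (by linarith) b3 b4 hF20 (by linarith) b5 (hG b2).2⟩
  · have b0 : F ^ 2 ≤ (F * s) ^ 2 := pow_le_pow_left₀ hF0.le hFal 2
    by_cases hc : R
    · obtain ⟨h1, h2⟩ := hR hc
      have b1 : F ^ 2 ≤ GX := by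
        by_cases h3 : T / 4 ≤ Q ∧ r ≤ 1 * (F * T * v ^ 6)
        · rw [hX1 h3]; exact b0
        · rw [hX2 h3]
          have := (oX 1 hδ1 h h3).1
          linarith [pow_le_pow_left₀ hal.le hH 2]
      calc a * L ^ 2 ≤ C * F * (C * v) ^ 2 := by gcongr
        _ = C ^ 3 * (F * v ^ 2) := by ring
        _ ≤ C ^ 4 * (F * F) := by gcongr; exacts [by norm_num, hvF 2 (by norm_num)]
        _ ≤ C ^ 4 * GX := by rw [← sq]; gcongr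
    · obtain ⟨h1, h2⟩ := hnR hc
      have b1 : a * L ^ 2 ≤ C * r :=
        h2 ▸ (pow_le_pow_left₀ hfp (by linarith : fp ≤ Q * F * v + fp) 2).trans h1
      have b2 : r ≤ GX := by
        by_cases h3 : T / 4 ≤ Q ∧ r ≤ 1 * (F * T * v ^ 6)
        · rw [hX1 h3]
          calc r ≤ 1 * (F * T * v ^ 6) := h3.2
            _ ≤ 1 * (F * 1 * F) := by gcongr; exact hvF 6 (by norm_num)
            _ ≤ (F * s) ^ 2 := by linarith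
        · rw [hX2 h3]
          refine le_mul_of_one_le_left hr ?_
          have a1 : 1 ≤ δ * (Q * F * v + fp) := (one_le_pow₀ (by linarith)).trans (hN1 h).1
          exact a1.trans (mul_le_of_le_one_left (by positivity) hδ2)
      exact b1.trans (mul_le_mul hC4 b2 hr (by positivity))
  · by_cases hc : R
    · calc L ^ 2 ≤ (C * v) ^ 2 := by gcongr; exact (hR hc).1
        _ = C ^ 2 * v ^ 2 := by ring
        _ ≤ C ^ 4 * (v ^ 2 + (Q * F * v + fp)) :=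
          mul_le_mul (hCk 2 (by norm_num)) (by linarith) (by positivity) (by positivity)
    · have b1 : L ^ 2 ≤ a :=
        ((pow_le_pow_right₀ hL (by norm_num)).trans hL20).trans (mul_le_of_le_one_left ha.le hδ2)
      have b2 : L ^ 2 ≤ fp := by
        refine (abs_le_of_sq_le_sq' ?_ hfp).2
        rw [(hnR hc).2, sq (L ^ 2)]
        gcongr
      exact le_trans (by linarith [sq_nonneg v])
        (le_mul_of_one_le_left (by positivity) (one_le_pow₀ hC))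

end Ww4

open Ww4 in
theorem s_w4 (h0 : S_w0) (hq : S_wq) (hh : S_hess) (h1 : S_w1) (_hx : S_w1x) (h2 : S_w2)
    (_h3 : S_w3) : S_w4 := by
  intro n ι f hf
  obtain ⟨Cq, -, hq⟩ := hq n
  obtain ⟨C1, hC1, h1⟩ := h1 n ι f hf
  obtain ⟨C2, hC2, h2⟩ := h2 n ι f hf
  obtain ⟨hT0, hT1⟩ := t0_le hf
  have hCw : 1 ≤ f.Cw := hf.2.2.2.2.2.2.2.2.2.2.2.1
  have hn : (0 : ℝ) ≤ n := Nat.cast_nonneg n
  obtain ⟨B, hB⟩ : ∃ B, B = n + f.Cw + C1 + C2 := ⟨_, rfl⟩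
  have hB1 : 1 ≤ B := by linarith
  obtain ⟨C, hC⟩ : ∃ C, C = 30000 * B ^ 4 := ⟨_, rfl⟩
  have hB4 : B ≤ B ^ 4 := le_self_pow₀ hB1 (by norm_num)
  have hBC : B ≤ C := by linarith
  have hC1' : 1 ≤ C := hB1.trans hBC
  refine ⟨C ^ 4, one_le_pow₀ hC1', fun η hη => ?_⟩
  obtain ⟨δ, hδ⟩ : ∃ δ, δ = min η 1 * (f.t0 ^ 2) ^ 3 / (10 ^ 6 * C ^ 6) := ⟨_, rfl⟩
  have hδ0 : 0 < δ := by rw [hδ]; positivity
  have hδe : 10 ^ 6 * C ^ 6 * δ = min η 1 * (f.t0 ^ 2) ^ 3 := by rw [hδ]; field_simp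
  have hδ1 : 10 ^ 6 * C ^ 6 * δ ≤ 1 * (f.t0 ^ 2) ^ 3 := by
    rw [hδe]; gcongr; exact min_le_right _ _
  have hδη : 10 ^ 6 * C ^ 6 * δ ≤ η * (f.t0 ^ 2) ^ 3 := by
    rw [hδe]; gcongr; exact min_le_left _ _
  have hq0 : (0 : ℝ) < 1 / (10000 * (n + 1)) := by positivity
  have hqn : (n : ℝ) * (1 / (10000 * (n + 1))) ≤ 1 / 10000 := by
    rw [mul_one_div, div_le_div_iff₀ (by positivity) (by norm_num)]; linarith
  have hsm : 14400 * B ^ 5 * δ ≤ (f.t0 ^ 2) ^ 2 := by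
    have a1 : B ^ 5 ≤ C ^ 6 :=
      (pow_le_pow_left₀ (by linarith) hBC 5).trans (pow_le_pow_right₀ hC1' (by norm_num))
    have a2 : B ^ 5 * δ ≤ C ^ 6 * δ := by gcongr
    have a3 : (f.t0 ^ 2) ^ 3 ≤ (f.t0 ^ 2) ^ 2 := pow_le_pow_of_le_one hT0.le hT1 (by norm_num)
    have a4 : 0 ≤ C ^ 6 * δ := by positivity
    linarith
  refine (((((h0 n ι f hf).and (hq ι f hf _ hq0)).and h1).and (h2 δ hδ0)).and
    (Ev.ok f one_pos 1)).mono ?_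
  rintro c ⟨⟨⟨⟨hW, hQ⟩, h1⟩, h2⟩, hc⟩ p hp
  have hxi : ∀ i, |p.1 i| ≤ 2 := fun i => by
    have a1 : |p.1 i| ≤ ‖p.1‖ := by simpa using PiLp.norm_apply_le p.1 i
    have a2 := norm_le_norm_add_norm_sub' p.1 c.p0
    linarith [hp.1, hc.2.2.2.2.1]
  obtain ⟨g1, g2⟩ := g12 hf hc.1 hxi hW (hQ p hp) (h1 p hp) (h2 p hp)
    (fun w => (hh n ι f c hf hW p w w).1) hB1 (by linarith) (by linarith) (by linarith)
    (by linarith) hq0.le hqn hδ0.le hsm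
  rw [← hC] at g1
  obtain ⟨-, hX, hP, -, hE⟩ := hW
  obtain ⟨hz1, -, hF, hv, hs, hrx, hry, -, -, -, -, hfp, -⟩ := hP p
  obtain ⟨ha, hL, hfa, -⟩ := hX p.1
  obtain ⟨w1, w2, w3, -, w5, -, -, -, -, -, w11, -, w13, w14, -⟩ := h2 p hp
  have hQ0 : 0 ≤ QQ c p := le_trans (by positivity) hz1
  have hv1 : 1 ≤ vv f c p := hc.1.trans hv
  have hL1 : 1 ≤ LX f c p.1 := hc.1.trans hL
  have hfL : (fX f c p.1 * LX f c p.1) ^ 2 = aX f c p.1 * LX f c p.1 ^ 2 := by rw [mul_pow, hfa]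
  have hC2' : C2 ≤ C := by linarith
  exact core (R := QQ c p ≤ 2 * f.t0 ^ 2 ∨ (QQ c p ≤ 2 * f.t1 ^ 2 ∧ 0 ≤ zd p (mv p)))
    (GX := GX f c p) (GY := GY f c p) (Real.sq_sqrt hQ0)
    (hQ p hp).2.2.2.2.2.2.2.2.2.2.1 hF hv1 hs w5 hL1 ha hrx hry hfp
    (hfL ▸ pow_le_pow_left₀ hfp (fp_le (by linarith)) 2) hC1' hδ0.le hT0 hT1 hδ1 hδη w1 w2 w3
    (fun h => ⟨(w11 h).1.trans (by gcongr), (w11 h).2.trans (by gcongr)⟩) Or.inl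
    (fun h => ⟨(g2 h).trans (by
      have : 1 ≤ B ^ 4 := one_le_pow₀ hB1
      exact mul_le_mul_of_nonneg_right (by linarith) hrx), by
      have a1 : chf f c p = 1 :=
        ((hE p).2.2.1 (by linarith [not_le.1 (not_or.1 h).1])).eq_of_nhds
      rw [← hfL, fp, a1, one_mul]⟩)
    (fun h => (w13 h).2.2.2.2.2.2.2.1) (fun h => ((hE p).1 h).2) w14 g1
    (fun h => if_pos h) (fun h => if_neg h) (fun h => if_pos h) (fun h => if_neg h)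

end Vale.Agent.P088
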