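import Vale.Agent.P088.StW

/-!
# P088: elementary inequalities for the lower bounds of the gradient of the weight
-/

noncomputable section
namespace Vale.Agent.P088
namespace Ww4

variable {n : ℕ}

lemma cs (a b : Fin n → ℝ) : (∑ i, a i * b i) ^ 2 ≤ n2 a * n2 b :=
  Finset.sum_mul_sq_le_sq_mul_sq _ a b

lemma n2_nonneg (a : Fin n → ℝ) : 0 ≤ n2 a := Finset.sum_nonneg fun _ _ => sq_nonneg _

lemma sq_le_n2 (a : Fin n → ℝ) (i : Fin n) : a i ^ 2 ≤ n2 a :=
  Finset.single_le_sum (f := fun i => a i ^ 2) (fun _ _ => sq_nonneg _) (Finset.mem_univ i)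

lemma sum_le {a b : Fin n → ℝ} {A B : ℝ} (ha : ∀ i, |a i| ≤ A) (hb : ∀ i, |b i| ≤ B) :
    |∑ i, a i * b i| ≤ n * (A * B) := by
  refine (Finset.abs_sum_le_sum_abs _ _).trans ?_
  have : ∀ i ∈ (Finset.univ : Finset (Fin n)), |a i * b i| ≤ A * B := fun i _ => by
    rw [abs_mul]
    exact mul_le_mul (ha i) (hb i) (abs_nonneg _) ((abs_nonneg _).trans (ha i))
  simpa using Finset.sum_le_card_nsmul _ _ _ this

/-- Pairing the gradient with `z`. -/
lemma g1abs {z zt m e h ξ : Fin n → ℝ} {my w s al q η h0 R : ℝ}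
    (hξ : ∀ i, ξ i = (my + w) * m i + s * (al * zt i) + al / 2 * e i + h i)
    (hs : s = 1 ∨ s = -1) (hQ : ∑ i, zt i * z i = q ^ 2) (hz : n2 z ≤ 2 * q ^ 2)
    (hm : n2 m ≤ 6) (he : ∀ i, |e i| ≤ η * q ^ 2) (hh : ∀ i, |h i| ≤ h0) (hR : n2 ξ ≤ R ^ 2)
    (hR0 : 0 ≤ R) (hmy : 4 * my ≤ al * q) (hmy0 : 0 ≤ my) (hw : 0 ≤ w) (hq : 0 ≤ q) (hq2 : q ≤ 2)
    (hal : 0 ≤ al) (hη : n * η ≤ 1 / 100) (hh0 : 0 ≤ h0) :
    al * q ≤ 20 * R + 35 * w + 20 * (n * h0) := by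
  have hnh : 0 ≤ (n : ℝ) * h0 := by positivity
  rcases hq.eq_or_lt with h0q | hq'
  · rw [← h0q]; nlinarith
  have hzi : ∀ i, |z i| ≤ 2 * q := fun i =>
    abs_le_of_sq_le_sq' (by nlinarith [sq_le_n2 z i]) (by positivity) |> abs_le.2
  have hA : |∑ i, z i * ξ i| ≤ 2 * q * R := by
    refine abs_le.2 (abs_le_of_sq_le_sq' ?_ (by positivity))
    have h1 := cs z ξ
    have h2 : n2 z * n2 ξ ≤ 2 * q ^ 2 * R ^ 2 :=
      mul_le_mul hz hR (n2_nonneg _) (by positivity)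
    nlinarith [mul_nonneg (sq_nonneg q) (sq_nonneg R)]
  have hB : |∑ i, z i * m i| ≤ 7 / 2 * q := by
    refine abs_le.2 (abs_le_of_sq_le_sq' ?_ (by positivity))
    have h1 := cs z m
    have h2 : n2 z * n2 m ≤ 2 * q ^ 2 * 6 :=
      mul_le_mul hz hm (n2_nonneg _) (by positivity)
    nlinarith [sq_nonneg q]
  have hE := sum_le hzi he
  have hH := sum_le hzi hh
  have hsum : ∑ i, z i * ξ i = (my + w) * ∑ i, z i * m i + s * (al * q ^ 2) +
      al / 2 * ∑ i, z i * e i + ∑ i, z i * h i := by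
    rw [← hQ]
    simp only [Finset.mul_sum, ← Finset.sum_add_distrib]
    exact Finset.sum_congr rfl fun i _ => by rw [hξ i]; ring
  have hE' : al / 2 * |∑ i, z i * e i| ≤ al * q ^ 2 / 50 := by
    have h1 : (n : ℝ) * (2 * q * (η * q ^ 2)) ≤ q ^ 2 / 25 := by
      have : (n : ℝ) * (2 * q * (η * q ^ 2)) = (n * η) * (2 * q) * q ^ 2 := by ring
      rw [this]
      have h2 : (n * η) * (2 * q) ≤ 1 / 100 * 4 :=
        mul_le_mul hη (by linarith) (by positivity) (by norm_num)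
      nlinarith [sq_nonneg q]
    have := mul_le_mul_of_nonneg_left (hE.trans h1) (by positivity : 0 ≤ al / 2)
    linarith
  have hB' : (my + w) * |∑ i, z i * m i| ≤ 7 / 8 * (al * q ^ 2) + 7 / 2 * q * w := by
    have h1 := mul_le_mul_of_nonneg_left hB (by positivity : 0 ≤ my + w)
    have h2 := mul_le_mul_of_nonneg_left hmy hq
    nlinarith
  have key : al * q ^ 2 ≤ |∑ i, z i * ξ i| + (my + w) * |∑ i, z i * m i| +
      al / 2 * |∑ i, z i * e i| + |∑ i, z i * h i| := by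
    have a1 := mul_le_mul_of_nonneg_left (le_abs_self (∑ i, z i * m i))
      (by positivity : 0 ≤ my + w)
    have a2 := mul_le_mul_of_nonneg_left (neg_abs_le (∑ i, z i * m i))
      (by positivity : 0 ≤ my + w)
    have a3 := mul_le_mul_of_nonneg_left (le_abs_self (∑ i, z i * e i))
      (by positivity : 0 ≤ al / 2)
    have a4 := mul_le_mul_of_nonneg_left (neg_abs_le (∑ i, z i * e i))
      (by positivity : 0 ≤ al / 2)
    have a5 := le_abs_self (∑ i, z i * ξ i)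
    have a6 := neg_abs_le (∑ i, z i * ξ i)
    have a7 := le_abs_self (∑ i, z i * h i)
    have a8 := neg_abs_le (∑ i, z i * h i)
    rcases hs with rfl | rfl <;> linarith
  have h3 : q * (al * q) ≤ q * (20 * R + 35 * w + 20 * (n * h0)) := by
    nlinarith [mul_nonneg hal (sq_nonneg q), mul_nonneg hq hR0, mul_nonneg hq hw,
      mul_nonneg hq hnh]
  exact le_of_mul_le_mul_left h3 hq'

/-- Pairing the gradient with the midpoint. -/
lemma g2abs {z zt m e x ξ : Fin n → ℝ} {my w al q η fp r : ℝ}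
    (hξ : ∀ i, ξ i = (my + w) * m i - al * zt i + al / 2 * e i + fp * x i)
    (hz : n2 z ≤ 2 * q ^ 2) (hm : n2 m ≤ 6) (hm' : 1 / 10 ≤ n2 m)
    (hzt : ∀ i, |zt i - z i| ≤ η * q) (he : ∀ i, |e i| ≤ η * q ^ 2) (hx : 1 / 8 ≤ ∑ i, m i * x i)
    (hr : n2 ξ ≤ 2 * r) (hal9 : al * q ≤ 9 * my)
    (hc : ∑ i, z i * m i ≤ 0 ∨ al * q ≤ 3 / 20 * my) (hmy0 : 0 ≤ my) (hw : 0 ≤ w) (hq : 0 ≤ q)
    (hq2 : q ≤ 2) (hal : 0 ≤ al) (hfp : 0 ≤ fp) (hη0 : 0 ≤ η) (hη : n * η ≤ 1 / 10000) :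
    (my + fp) ^ 2 ≤ 30000 * r := by
  have hmi : ∀ i, |m i| ≤ 3 := fun i =>
    abs_le_of_sq_le_sq' (by nlinarith [sq_le_n2 m i]) (by positivity) |> abs_le.2
  have hE := sum_le hmi he
  have hZ := sum_le hmi hzt
  have hsum : ∑ i, m i * ξ i = (my + w) * n2 m - al * ∑ i, z i * m i -
      al * ∑ i, m i * (zt i - z i) + al / 2 * ∑ i, m i * e i + fp * ∑ i, m i * x i := by
    simp only [n2, Finset.mul_sum, ← Finset.sum_add_distrib, ← Finset.sum_sub_distrib]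
    exact Finset.sum_congr rfl fun i _ => by rw [hξ i]; ring
  have hnq : (n * η) * (al * q) ≤ 1 / 10000 * (9 * my) :=
    mul_le_mul hη hal9 (by positivity) (by norm_num)
  have h1 : al * ∑ i, m i * (zt i - z i) ≤ 3 / 10000 * (9 * my) := by
    have := mul_le_mul_of_nonneg_left ((le_abs_self _).trans hZ) hal
    nlinarith
  have h2 : -(3 / 10000 * (9 * my)) ≤ al / 2 * ∑ i, m i * e i := by
    have a1 := mul_le_mul_of_nonneg_left ((neg_le_neg hE).trans (neg_abs_le _))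
      (by positivity : 0 ≤ al / 2)
    have a2 : (n * η) * (al * q) * q ≤ (n * η) * (al * q) * 2 :=
      mul_le_mul_of_nonneg_left hq2 (by positivity)
    nlinarith
  have h3 : al * ∑ i, z i * m i ≤ my * (n2 m / 2 + 9 / 400) := by
    rcases hc with hc | hc
    · exact (mul_nonpos_of_nonneg_of_nonpos hal hc).trans (by positivity)
    · refine (abs_le_of_sq_le_sq' ?_ (by positivity)).2
      have a1 := cs z m
      have a2 : n2 z * n2 m ≤ 2 * q ^ 2 * n2 m := mul_le_mul_of_nonneg_right hz (n2_nonneg _)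
      have a3 : (al * q) ^ 2 ≤ (3 / 20 * my) ^ 2 := pow_le_pow_left₀ (by positivity) hc 2
      have a4 : al ^ 2 * (∑ i, z i * m i) ^ 2 ≤ al ^ 2 * (2 * q ^ 2 * n2 m) :=
        mul_le_mul_of_nonneg_left (a1.trans a2) (sq_nonneg _)
      have a5 : (al * q) ^ 2 * n2 m ≤ (3 / 20 * my) ^ 2 * n2 m :=
        mul_le_mul_of_nonneg_right a3 (n2_nonneg _)
      have a6 : 0 ≤ my ^ 2 * (n2 m / 2 - 9 / 400) ^ 2 := by positivity
      nlinarith
  have h4 : (my + fp) / 50 ≤ ∑ i, m i * ξ i := by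
    have a1 : 0 ≤ w * n2 m := mul_nonneg hw (n2_nonneg _)
    have a2 := mul_le_mul_of_nonneg_left hx hfp
    have a3 := mul_le_mul_of_nonneg_left hm' hmy0
    nlinarith
  have h5 : ((my + fp) / 50) ^ 2 ≤ (∑ i, m i * ξ i) ^ 2 := pow_le_pow_left₀ (by positivity) h4 2
  have h6 := cs m ξ
  have h7 : n2 m * n2 ξ ≤ 6 * (2 * r) := mul_le_mul hm hr (n2_nonneg _) (by norm_num)
  nlinarith

/-- The region near the diagonal. -/
lemma offA {Q F v s S r C δ η : ℝ} (hQ : 0 ≤ Q) (hF : 1 ≤ F) (hv : 1 ≤ v) (hs : 2 ≤ s)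
    (hs2 : s ^ 2 ≤ 18 + 128 * v ^ 2 * Q) (hC : 1 ≤ C) (hδ0 : 0 ≤ δ) (hδv : 1 ≤ δ * v)
    (hδ1 : 1000 * C ^ 5 * δ ≤ 1) (hδ : 1000 * C ^ 5 * δ ≤ η) (hN : 1 < Q ^ 2 * F)
    (hv8 : v ^ 8 ≤ δ * (Q * F * v)) (hS0 : 0 ≤ S) (hS : S ≤ 2 * C * v)
    (hA : (F * s) ^ 2 * Q ≤ C * (r + v ^ 2)) :
    (F * s ^ 2) ^ 2 ≤ η * (Q * F * v) * r ∧ F * s * S ^ 4 ≤ η * r ∧
      (F * s ^ 2) ^ 2 * v ^ 2 ≤ η * (Q * F * v) * ((Q * F * v) * r) := by
  have hv0 : 0 < v := by linarith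
  have hF0 : 0 < F := by linarith
  have hC0 : 0 < C := by linarith
  have hs0 : 0 < s := by linarith
  obtain ⟨P, hP⟩ : ∃ P, P = Q * F := ⟨_, rfl⟩
  have hP0 : 0 ≤ P := hP ▸ mul_nonneg hQ hF0.le
  have hC5 : C ≤ C ^ 5 := le_self_pow₀ hC (by norm_num)
  have hCd : C * δ ≤ C ^ 5 * δ := mul_le_mul_of_nonneg_right hC5 hδ0
  have hη : 1000 * (C * δ) ≤ η := by linarith
  have hCd0 : 0 ≤ C * δ := by positivity
  have hη0 : 0 ≤ η := by linarith
  have h7 : v ^ 7 ≤ δ * P := by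
    have : v * v ^ 7 ≤ v * (δ * P) := by rw [hP]; linarith
    exact le_of_mul_le_mul_left this hv0
  have hk : ∀ k, k ≤ 7 → v ^ k ≤ δ * P := fun k hk => (pow_le_pow_right₀ hv hk).trans h7
  have hQP : 1 ≤ Q * P := by rw [hP]; linarith
  have hz : (F * s) ^ 2 * Q = F * s ^ 2 * P := by rw [hP]; ring
  have hr : F * s ^ 2 * P ≤ 2 * C * r := by
    have a1 : C * v ^ 2 ≤ C * (δ * P) := mul_le_mul_of_nonneg_left (hk 2 (by norm_num)) hC0.le
    have a2 : C * δ * P ≤ 1 * P := mul_le_mul_of_nonneg_right (by linarith) hP0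
    have a3 : 4 ≤ F * s ^ 2 := by
      have b1 : 2 ^ 2 ≤ s ^ 2 := pow_le_pow_left₀ (by norm_num) hs 2
      have b2 : 1 * s ^ 2 ≤ F * s ^ 2 := mul_le_mul_of_nonneg_right hF (by positivity)
      linarith
    have a4 : 4 * P ≤ F * s ^ 2 * P := mul_le_mul_of_nonneg_right a3 hP0
    linarith
  have fin : ∀ X Y : ℝ, 0 ≤ Y → 2 * C * X ≤ Y * (F * s ^ 2 * P) → X ≤ Y * r := by
    intro X Y hY h
    have := mul_le_mul_of_nonneg_left hr hY
    have h2 : 2 * C * X ≤ 2 * C * (Y * r) := by linarith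
    exact le_of_mul_le_mul_left h2 (by positivity)
  have hFs : 0 ≤ F * s ^ 2 := by positivity
  refine ⟨fin _ _ (by positivity) ?_, fin _ _ hη0 ?_, ?_⟩
  · have b1 : 2 * C * s ^ 2 ≤ η * (Q * P * v) := by
      have a1 : 36 * C ≤ η / 2 * (Q * P * v) := by
        have c1 : C * 1 ≤ C * (δ * v) := mul_le_mul_of_nonneg_left hδv hC0.le
        have c2 : 1000 * (C * δ) * v ≤ η * v := mul_le_mul_of_nonneg_right hη hv0.le
        have c3 : 1 * (η * v) ≤ Q * P * (η * v) :=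
          mul_le_mul_of_nonneg_right hQP (by positivity)
        linarith
      have a2 : 256 * C * (v ^ 2 * Q) ≤ η / 2 * (Q * P * v) := by
        have c1 : v ≤ δ * P := by simpa using hk 1 (by norm_num)
        have c2 : C * v ≤ C * (δ * P) := mul_le_mul_of_nonneg_left c1 hC0.le
        have c3 : 1000 * (C * δ) * P ≤ η * P := mul_le_mul_of_nonneg_right hη hP0
        have c4 : 512 * (C * v) ≤ η * P := by linarith [mul_nonneg hCd0 hP0]
        have c5 := mul_le_mul_of_nonneg_right c4 (by positivity : 0 ≤ v * Q)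
        linarith
      have a3 := mul_le_mul_of_nonneg_left hs2 (by positivity : 0 ≤ 2 * C)
      linarith
    have b2 := mul_le_mul_of_nonneg_left b1 (by positivity : 0 ≤ F * (F * s ^ 2))
    calc 2 * C * (F * s ^ 2) ^ 2 = F * (F * s ^ 2) * (2 * C * s ^ 2) := by ring
      _ ≤ F * (F * s ^ 2) * (η * (Q * P * v)) := b2
      _ = η * (Q * F * v) * (F * s ^ 2 * P) := by ring
  · have b1 : S ^ 4 ≤ (2 * C * v) ^ 4 := pow_le_pow_left₀ hS0 hS 4
    have b2 : 32 * C ^ 5 * v ^ 4 ≤ η * (s * P) := by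
      have c1 : C ^ 5 * v ^ 4 ≤ C ^ 5 * (δ * P) :=
        mul_le_mul_of_nonneg_left (hk 4 (by norm_num)) (by positivity)
      have c2 : 1000 * C ^ 5 * δ * P ≤ η * P := mul_le_mul_of_nonneg_right hδ hP0
      have c3 : 1 * (η * P) ≤ s * (η * P) :=
        mul_le_mul_of_nonneg_right (by linarith) (by positivity)
      have c4 : 0 ≤ C ^ 5 * (δ * P) := by positivity
      linarith
    calc 2 * C * (F * s * S ^ 4) ≤ 2 * C * (F * s * (2 * C * v) ^ 4) := by gcongr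
      _ = F * s * (32 * C ^ 5 * v ^ 4) := by ring
      _ ≤ F * s * (η * (s * P)) := by gcongr
      _ = η * (F * s ^ 2 * P) := by ring
  · rw [← mul_assoc]
    refine fin _ _ (by positivity) ?_
    have b1 : 2 * C * s ^ 2 ≤ η * (Q * P * P) := by
      have a1 : 36 * C ≤ η / 2 * (Q * P * P) := by
        have c0 : 1 ≤ δ * P := by simpa using hk 0 (by norm_num)
        have c1 : C * 1 ≤ C * (δ * P) := mul_le_mul_of_nonneg_left c0 hC0.le
        have c2 : 1000 * (C * δ) * P ≤ η * P := mul_le_mul_of_nonneg_right hη hP0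
        have c3 : 1 * (η * P) ≤ Q * P * (η * P) :=
          mul_le_mul_of_nonneg_right hQP (by positivity)
        linarith
      have a2 : 256 * C * (v ^ 2 * Q) ≤ η / 2 * (Q * P * P) := by
        have c0 : 1 ≤ P := by
          have : 1 ≤ δ * P := by simpa using hk 0 (by norm_num)
          have c' : 1 * δ ≤ C * δ := mul_le_mul_of_nonneg_right hC hδ0
          have c : δ * P ≤ 1 * P := mul_le_mul_of_nonneg_right (by linarith) hP0
          linarith
        have c2 : C * v ^ 2 ≤ C * (δ * P) :=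
          mul_le_mul_of_nonneg_left (hk 2 (by norm_num)) hC0.le
        have c3 : 1000 * (C * δ) * P ≤ η * P := mul_le_mul_of_nonneg_right hη hP0
        have c6 : 1 * (η * P) ≤ P * (η * P) := mul_le_mul_of_nonneg_right c0 (by positivity)
        have c4 : 512 * (C * v ^ 2) ≤ η * P * P := by linarith [mul_nonneg hCd0 hP0]
        have c5 := mul_le_mul_of_nonneg_right c4 hQ
        linarith
      have a3 := mul_le_mul_of_nonneg_left hs2 (by positivity : 0 ≤ 2 * C)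
      linarith
    have b2 := mul_le_mul_of_nonneg_left b1 (by positivity : 0 ≤ F * (F * s ^ 2) * v ^ 2)
    calc 2 * C * ((F * s ^ 2) ^ 2 * v ^ 2) = F * (F * s ^ 2) * v ^ 2 * (2 * C * s ^ 2) := by ring
      _ ≤ F * (F * s ^ 2) * v ^ 2 * (η * (Q * P * P)) := b2
      _ = η * (Q * F * v) * (Q * F * v) * (F * s ^ 2 * P) := by rw [hP]; ring

/-- Away from the diagonal and from the critical points. -/
lemma offF {Q F v r T K δ η H : ℝ} (hF : 1 ≤ F) (hv : 1 ≤ v) (hT0 : 0 < T) (hQ : T / 4 ≤ Q)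
    (hδ0 : 0 ≤ δ) (hδv : 1 ≤ δ * v) (hr : F * T * v ^ 6 ≤ r) (hH0 : 0 ≤ H)
    (hH : H ≤ K * (F * v ^ 2)) (hK : 4 * K ^ 2 * δ ≤ η * T ^ 2) :
    H ^ 2 ≤ η * (Q * F * v) * r := by
  have hη : 0 ≤ η * T ^ 2 := le_trans (by positivity) hK
  have hη0 : 0 ≤ η := nonneg_of_mul_nonneg_left hη (by positivity)
  have h3 : v ≤ v ^ 3 := le_self_pow₀ hv (by norm_num)
  have b1 : 4 * K ^ 2 ≤ η * T ^ 2 * v ^ 3 := by
    have c1 : 4 * K ^ 2 * 1 ≤ 4 * K ^ 2 * (δ * v) := mul_le_mul_of_nonneg_left hδv (by positivity)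
    have c2 : 4 * K ^ 2 * δ * v ≤ η * T ^ 2 * v := mul_le_mul_of_nonneg_right hK (by positivity)
    have c3 := mul_le_mul_of_nonneg_left h3 hη
    linarith
  calc H ^ 2 ≤ (K * (F * v ^ 2)) ^ 2 := pow_le_pow_left₀ hH0 hH 2
    _ = 4 * K ^ 2 * (F ^ 2 * v ^ 4 / 4) := by ring
    _ ≤ η * T ^ 2 * v ^ 3 * (F ^ 2 * v ^ 4 / 4) := by gcongr
    _ = η * (T / 4 * F * v) * (F * T * v ^ 6) := by ring
    _ ≤ η * (Q * F * v) * r := by
      have : 0 ≤ Q := by linarith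
      gcongr

/-- All regions, away from the critical points. -/
lemma off {Q F v s S fp r T C δ η : ℝ} (hQ : 0 ≤ Q) (hF : 1 ≤ F) (hv : 1 ≤ v) (hs : 2 ≤ s)
    (hs1 : s ≤ 15 * v) (hs2 : s ^ 2 ≤ 18 + 128 * v ^ 2 * Q) (hC : 1 ≤ C) (hδ0 : 0 ≤ δ)
    (hδv : 1 ≤ δ * v) (hT0 : 0 < T) (hT1 : T ≤ 1) (hδ1 : 10 ^ 6 * C ^ 6 * δ ≤ 1)
    (hδ : 10 ^ 6 * C ^ 6 * δ ≤ η * T ^ 3) (hN : 1 < Q ^ 2 * F) (hr0 : 0 ≤ r) (hfp : 0 ≤ fp)
    (hv8 : v ^ 8 ≤ δ * (Q * F * v)) (hS8 : S ^ 8 ≤ δ * (Q * F * v + fp)) (hS1 : 1 ≤ S)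
    (hoff : ¬(T / 4 ≤ Q ∧ r ≤ 1 * (F * T * v ^ 6)))
    (hA : Q < T / 4 → fp = 0 ∧ S ≤ 2 * C * v ∧ (F * s) ^ 2 * Q ≤ C * (r + v ^ 2))
    (hBC : (S ≤ 2 * C * v ∧ fp ≤ C ^ 2 * (F * v)) ∨ (Q * F * v + fp) ^ 2 ≤ C * r) :
    (F * s ^ 2 + fp * S) ^ 2 ≤ η * (Q * F * v + fp) * r ∧ F * s * S ^ 4 ≤ η * r ∧
      (F * s ^ 2) ^ 2 * v ^ 2 ≤ η * (Q * F * v) * ((Q * F * v + fp) * r) := by
  have hη : 0 ≤ η * T ^ 3 := le_trans (by positivity) hδ
  have hη0 : 0 ≤ η := nonneg_of_mul_nonneg_left hη (by positivity)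
  have hT : ∀ k, k ≤ 3 → 10 ^ 6 * C ^ 6 * δ ≤ η * T ^ k := fun k hk =>
    hδ.trans (mul_le_mul_of_nonneg_left (pow_le_pow_of_le_one hT0.le hT1 hk) hη0)
  have hCk : ∀ k, k ≤ 6 → C ^ k * δ ≤ C ^ 6 * δ := fun k hk =>
    mul_le_mul_of_nonneg_right (pow_le_pow_right₀ hC hk) hδ0
  have hC6 : 0 ≤ C ^ 6 * δ := by positivity
  have hmy : 0 ≤ Q * F * v := by positivity
  by_cases hQT : Q < T / 4
  · obtain ⟨rfl, h2, h3⟩ := hA hQT
    have a1 := hCk 5 (by norm_num)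
    have a2 := hT 0 (by norm_num)
    simpa using offA (η := η) hQ hF hv hs hs2 hC hδ0 hδv (by linarith) (by linarith) hN hv8
      (by linarith) h2 h3
  have hQT' : T / 4 ≤ Q := not_lt.1 hQT
  have hr : F * T * v ^ 6 ≤ r := by
    by_contra h
    exact hoff ⟨hQT', by linarith⟩
  have hAA : F * s ^ 2 ≤ 225 * (F * v ^ 2) := by
    have : s ^ 2 ≤ (15 * v) ^ 2 := pow_le_pow_left₀ (by linarith) hs1 2
    linarith [mul_le_mul_of_nonneg_left this (by linarith : 0 ≤ F)]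
  have hmono : η * (Q * F * v) * r ≤ η * (Q * F * v + fp) * r := by gcongr; linarith
  have hal : F * s ≤ 15 * (F * v) := by
    linarith [mul_le_mul_of_nonneg_left hs1 (by linarith : 0 ≤ F)]
  have c0 := hCk 0 (by norm_num)
  have c1 := hCk 1 (by norm_num)
  have t0 := hT 0 (by norm_num)
  have t1 := hT 1 (by norm_num)
  have t2 := hT 2 (by norm_num)
  simp only [pow_zero, pow_one, one_mul, mul_one] at c0 c1 t0 t1
  refine ⟨?_, ?_, ?_⟩
  · rcases hBC with ⟨h1, h2⟩ | h1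
    · refine le_trans (offF (K := 227 * C ^ 3) hF hv hT0 hQT' hδ0 hδv hr (by positivity) ?_ ?_)
        hmono
      · have a1 : fp * S ≤ C ^ 2 * (F * v) * (2 * C * v) :=
          mul_le_mul h2 h1 (by linarith) (by positivity)
        have a2 : 1 * (F * v ^ 2) ≤ C ^ 3 * (F * v ^ 2) :=
          mul_le_mul_of_nonneg_right (one_le_pow₀ hC) (by positivity)
        linarith
      · linarith
    · have a1 := offF (η := η) (K := 450) (H := 2 * (F * s ^ 2)) hF hv hT0 hQT' hδ0 hδv hr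
        (by positivity) (by linarith) (by linarith)
      have a2 : fp ^ 2 ≤ C * r :=
        (pow_le_pow_left₀ hfp (by linarith : fp ≤ Q * F * v + fp) 2).trans h1
      have a3 : S ^ 2 ≤ δ * (Q * F * v + fp) := (pow_le_pow_right₀ hS1 (by norm_num)).trans hS8
      have a4 : fp ^ 2 * S ^ 2 ≤ C * r * (δ * (Q * F * v + fp)) :=
        mul_le_mul a2 a3 (by positivity) (by positivity)
      have a5 : 4 * (C * δ) * ((Q * F * v + fp) * r) ≤ η * ((Q * F * v + fp) * r) :=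
        mul_le_mul_of_nonneg_right (by linarith) (by positivity)
      linarith [sq_nonneg (F * s ^ 2 - fp * S)]
  · rcases hBC with ⟨h1, -⟩ | h1
    · have c4 := hCk 4 (by norm_num)
      have a1 : 240 * C ^ 4 ≤ η * T * v := by
        have b1 : C ^ 4 * 1 ≤ C ^ 4 * (δ * v) := mul_le_mul_of_nonneg_left hδv (by positivity)
        have b2 : 240 * (C ^ 4 * δ) * v ≤ η * T * v :=
          mul_le_mul_of_nonneg_right (by linarith) (by positivity)
        linarith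
      calc F * s * S ^ 4 ≤ 15 * (F * v) * (2 * C * v) ^ 4 := by gcongr
        _ = 240 * C ^ 4 * (F * v ^ 5) := by ring
        _ ≤ η * T * v * (F * v ^ 5) := by gcongr
        _ = η * (F * T * v ^ 6) := by ring
        _ ≤ η * r := by gcongr
    · have a1 : T * (F * s) ≤ 60 * (Q * F * v + fp) := by
        have b1 := mul_le_mul_of_nonneg_left hal hT0.le
        have b2 : T / 4 * (F * v) ≤ Q * (F * v) :=
          mul_le_mul_of_nonneg_right hQT' (by positivity)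
        linarith
      have a3 : S ^ 4 ≤ δ * (Q * F * v + fp) := (pow_le_pow_right₀ hS1 (by norm_num)).trans hS8
      have a4 : T * (F * s * S ^ 4) ≤ T * (η * r) := by
        calc T * (F * s * S ^ 4) = T * (F * s) * S ^ 4 := by ring
          _ ≤ 60 * (Q * F * v + fp) * (δ * (Q * F * v + fp)) := by gcongr
          _ = 60 * δ * (Q * F * v + fp) ^ 2 := by ring
          _ ≤ 60 * δ * (C * r) := by gcongr
          _ = 60 * (C * δ) * r := by ring
          _ ≤ η * T * r := mul_le_mul_of_nonneg_right (by linarith) hr0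
          _ = T * (η * r) := by ring
      exact le_of_mul_le_mul_left a4 hT0
  · have a1 : 810000 ≤ η * T ^ 3 * v ^ 2 := by
      have b1 : v ≤ v ^ 2 := le_self_pow₀ hv (by norm_num)
      have b2 : 10 ^ 6 * δ * v ≤ η * T ^ 3 * v :=
        mul_le_mul_of_nonneg_right (by linarith) (by positivity)
      have b3 := mul_le_mul_of_nonneg_left b1 hη
      linarith
    have a2 : T * v ^ 6 ≤ r := by
      have : 1 * (T * v ^ 6) ≤ F * (T * v ^ 6) := mul_le_mul_of_nonneg_right hF (by positivity)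
      linarith
    calc (F * s ^ 2) ^ 2 * v ^ 2 ≤ (225 * (F * v ^ 2)) ^ 2 * v ^ 2 := by gcongr
      _ = 810000 * (F ^ 2 * v ^ 6 / 16) := by ring
      _ ≤ η * T ^ 3 * v ^ 2 * (F ^ 2 * v ^ 6 / 16) := by gcongr
      _ = η * (T / 4 * F * v) * ((T / 4 * F * v) * (T * v ^ 6)) := by ring
      _ ≤ η * (Q * F * v) * ((Q * F * v + fp) * r) := by
        have : T / 4 * F * v ≤ Q * F * v := by gcongr
        gcongr
        linarith

end Ww4
end Vale.Agent.P088
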