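import Vale.Agent.P088.Ww4a

/-!
# P088: the gradient of the weight
-/

open scoped Topology

noncomputable section
namespace Vale.Agent.P088
namespace Ww4
open Vale.Agent.P136 (D Sm D_add_at D_mul_at D_const_mul_at D_congr D_exp_at D_const)

variable {n : ℕ} {ι : Type} {f : Fx} {c : Cx n ι} {p : X2 n}

lemma rx_eq : rx f c p = bil (g1 c p) (dx (phi f c) p) (dx (phi f c) p) := by
  simp only [rx, rho, dir, XX, bil, g1, dx, onX, Finset.sum_mul]
  exact Finset.sum_congr rfl fun i _ => Finset.sum_congr rfl fun j _ => by ring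

lemma ry_eq : ry f c p = bil (g2 c p) (dyy (phi f c) p) (dyy (phi f c) p) := by
  simp only [ry, rho, dir, XX, bil, g2, dyy, onY, Finset.sum_mul]
  exact Finset.sum_congr rfl fun i _ => Finset.sum_congr rfl fun j _ => by ring

lemma D_fst {g : En n → ℝ} (hg : Sm g) (w p : X2 n) :
    D w (fun p : X2 n => g p.1) p = D w.1 g p.1 := by
  have h := (hg.dAt p.1).hasFDerivAt.comp p (hasFDerivAt_fst (𝕜 := ℝ) (p := p))
  have h2 : fderiv ℝ (fun p : X2 n => g p.1) p = _ := h.fderiv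
  simp only [D, h2]
  rfl

lemma n2_zz (p : X2 n) : n2 (fun i => zz p i) = ‖zz p‖ ^ 2 := by
  rw [EuclideanSpace.real_norm_sq_eq]; rfl

lemma chf_mem : 0 ≤ chf f c p ∧ chf f c p ≤ 1 := by
  have h1 := Real.smoothTransition.le_one (2 - 4 * QQ c p / f.t0 ^ 2)
  have h2 := Real.smoothTransition.nonneg (2 - 4 * QQ c p / f.t0 ^ 2)
  simp only [chf, cut]
  constructor <;> linarith

/-- The structure of the gradient. -/
lemma grad {Cq C δ : ℝ} (hW : W0 f c) (hQ : WQ c Cq δ p) (h1 : W1 f c C p)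
    (hH : ∀ w, D w (Psi f c) p = my f c p * D w uu p + al f c p / 2 * D w (QQ c) p) :
    ∃ e e' g g' : Fin n → ℝ,
      (∀ i, dx (phi f c) p i = (my f c p + f.Cw * (LU f.K c.L0 c.sg c.J (uu p) / 2)) * mv p i +
        -1 * (al f c p * zt c p i) + al f c p / 2 * e i + (g i + fp f c p * p.1 i)) ∧
      (∀ i, dyy (phi f c) p i = (my f c p + f.Cw * (LU f.K c.L0 c.sg c.J (uu p) / 2)) * mv p i +
        1 * (al f c p * zt c p i) + al f c p / 2 * e' i + g' i) ∧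
      (∀ i, |e i| ≤ δ * QQ c p) ∧ (∀ i, |e' i| ≤ δ * QQ c p) ∧
      (∀ i, |g i| ≤ C * fX f c p.1) ∧ (∀ i, |g' i| ≤ C * fX f c p.1) ∧
      (QQ c p < f.t0 ^ 2 / 4 ∨ f.t0 ^ 2 / 2 < QQ c p → ∀ i, g i = 0 ∧ g' i = 0) := by
  obtain ⟨hS, hX, -, -, hE⟩ := hW
  obtain ⟨-, -, -, -, -, -, -, -, -, sPsi, -, -, slu, sph0, schf, sff, -, -, -, -, -, -, -, -, -,
    -, -, -, -, -, -, -, -, -, -, -, -, -, -, slX, sfX, -⟩ := hS
  obtain ⟨hu, -, -, -, -, hq, -⟩ := hQ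
  obtain ⟨-, -, -, -, -, -, -, -, -, hchf, -, hlu, -⟩ := h1
  have hf0 : 0 < fX f c p.1 := Real.exp_pos _
  have d0 : ∀ w, D w (ph0 f c) p = my f c p * D w uu p + al f c p / 2 * D w (QQ c) p +
      f.Cw * D w (lu f c) p := fun w => by
    have a1 := D_add_at (sPsi.dAt p) ((slu.cmul f.Cw).dAt p) w
    rw [D_const_mul_at (slu.dAt p), hH] at a1
    exact a1
  have sf1 : Sm fun p : X2 n => fX f c p.1 := ContDiff.comp (g := fX f c) sfX contDiff_fst
  have d1 : ∀ w, D w (phi f c) p = D w (ph0 f c) p +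
      (D w (chf f c) p * fX f c p.1 + chf f c p * (fX f c p.1 * D w.1 (lX f c) p.1)) := fun w => by
    have a1 := D_add_at (sph0.dAt p) (sff.dAt p) w
    have a2 := D_mul_at (schf.dAt p) (sf1.dAt p) w
    rw [D_fst sfX] at a2
    have a3 := D_exp_at (slX.dAt p.1) w.1
    have a4 : D w.1 (fX f c) p.1 = fX f c p.1 * D w.1 (lX f c) p.1 := a3
    have a5 : D w (ff f c) p = chf f c p * D w.1 (fX f c) p.1 + D w (chf f c) p * fX f c p.1 := a2
    have a6 : D w (phi f c) p = D w (ph0 f c) p + D w (ff f c) p := a1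
    rw [a6, a5, a4]; ring
  have dx1 : ∀ i, D (ex i) (phi f c) p = D (ex i) (ph0 f c) p +
      (D (ex i) (chf f c) p * fX f c p.1 + fp f c p * p.1 i) := fun i => by
    have : D (ex i : X2 n).1 (lX f c) p.1 = LX f c p.1 * p.1 i := (hX p.1).2.2.2.2 i
    rw [d1, this, fp]; ring
  have dy1 : ∀ i, D (ey i) (phi f c) p = D (ey i) (ph0 f c) p +
      D (ey i) (chf f c) p * fX f c p.1 := fun i => by
    have : D (ey i : X2 n).1 (lX f c) p.1 = 0 := by simp [ey, D]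
    rw [d1, this]; ring
  refine ⟨fun i => D (ex i) (QQ c) p + 2 * zt c p i, fun i => D (ey i) (QQ c) p - 2 * zt c p i,
    fun i => D (ex i) (chf f c) p * fX f c p.1, fun i => D (ey i) (chf f c) p * fX f c p.1,
    fun i => ?_, fun i => ?_, fun i => (hq i).1, fun i => (hq i).2, fun i => ?_, fun i => ?_,
    fun h i => ?_⟩
  · rw [dx, dx1, d0, (hu i).1, (hlu i).1]; ring
  · rw [dyy, dy1, d0, (hu i).2, (hlu i).2]; ring
  · have := hchf [Sum.inl i] (by simp)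
    rw [abs_mul, abs_of_pos hf0]
    exact mul_le_mul_of_nonneg_right (by simpa [Ds, exy] using this) hf0.le
  · have := hchf [Sum.inr i] (by simp)
    rw [abs_mul, abs_of_pos hf0]
    exact mul_le_mul_of_nonneg_right (by simpa [Ds, exy] using this) hf0.le
  · rcases h with h | h
    · obtain ⟨a1, a2⟩ := (hE p).1 h
      have b1 := dx1 i
      have b2 := dy1 i
      rw [D_congr a1] at b1 b2
      rw [a2] at b1
      constructor <;> linarith
    · have a1 := (hE p).2.2.1 h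
      have b : ∀ w, D w (chf f c) p = 0 := fun w => by
        rw [D_congr a1]; exact D_const 1 w p
      simp [b]

lemma t0_le (hf : f.Ok) : 0 < f.t0 ^ 2 ∧ f.t0 ^ 2 ≤ 1 := by
  obtain ⟨-, h2, -, -, -, -, -, -, h9, h10, h11, -⟩ := hf
  exact ⟨by positivity, pow_le_one₀ h9.le (by linarith)⟩

lemma fp_le (hL : 0 ≤ LX f c p.1) : fp f c p ≤ fX f c p.1 * LX f c p.1 := by
  have hf0 : 0 < fX f c p.1 := Real.exp_pos _
  have := mul_le_mul_of_nonneg_right (chf_mem (f := f) (c := c) (p := p)).2 (mul_nonneg hf0.le hL)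
  rw [fp]; linarith

lemma fin1 {z R w r v B : ℝ} (hz : 0 ≤ z) (h : z ≤ 40 * R + 70 * w) (hR : R ^ 2 = 2 * r)
    (hw0 : 0 ≤ w) (hw : 2 * w ≤ B ^ 2 * v) (hB : 1 ≤ B) (hr : 0 ≤ r) :
    z ^ 2 ≤ 30000 * B ^ 4 * (r + v ^ 2) := by
  have a1 : z ^ 2 ≤ (40 * R + 70 * w) ^ 2 := pow_le_pow_left₀ hz h 2
  have a2 : (2 * w) ^ 2 ≤ (B ^ 2 * v) ^ 2 := pow_le_pow_left₀ (by linarith) hw 2
  have a3 : 1 * r ≤ B ^ 4 * r := mul_le_mul_of_nonneg_right (one_le_pow₀ hB) hr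
  have a4 : 0 ≤ B ^ 4 * v ^ 2 := by positivity
  linarith [sq_nonneg (40 * R - 70 * w)]

lemma small1 {fx F B T δ v N : ℝ} (hfx : 0 ≤ fx) (hF : 0 < F) (hB : 1 ≤ B) (hT : 0 < T)
    (ha : fx ^ 2 ≤ B * F) (hF1 : 1 ≤ δ * F) (hδ : 14400 * B ^ 5 * δ ≤ T ^ 2) (hN : N ≤ B)
    (hv : 1 ≤ v) : 40 * (N * (3 * B * fx * v)) ≤ T * F * v := by
  have a1 : 120 * B ^ 2 * fx ≤ T * F := by
    refine (abs_le_of_sq_le_sq' ?_ (by positivity)).2
    calc (120 * B ^ 2 * fx) ^ 2 = 14400 * B ^ 4 * fx ^ 2 * 1 := by ring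
      _ ≤ 14400 * B ^ 4 * (B * F) * (δ * F) := by gcongr
      _ = 14400 * B ^ 5 * δ * F ^ 2 := by ring
      _ ≤ T ^ 2 * F ^ 2 := by gcongr
      _ = (T * F) ^ 2 := by ring
  calc 40 * (N * (3 * B * fx * v)) ≤ 40 * (B * (3 * B * fx * v)) := by gcongr
    _ = 120 * B ^ 2 * fx * v := by ring
    _ ≤ T * F * v := by gcongr

/-- The two basic lower bounds. -/
lemma g12 {Cq C1 C2 δq δ B : ℝ} (hf : f.Ok) (hL0 : 1 ≤ c.L0) (hx : ∀ i, |p.1 i| ≤ 2)
    (hW : W0 f c) (hQ : WQ c Cq δq p) (h1 : W1 f c C1 p) (h2 : W2 f c C2 δ p)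
    (hH : ∀ w, D w (Psi f c) p = my f c p * D w uu p + al f c p / 2 * D w (QQ c) p)
    (hB : 1 ≤ B) (hn : (n : ℝ) ≤ B) (hCw : f.Cw ≤ B) (hC1 : C1 ≤ B)
    (hC2 : C2 ≤ B) (hδq0 : 0 ≤ δq) (hδq : n * δq ≤ 1 / 10000) (hδ0 : 0 ≤ δ)
    (hδ : 14400 * B ^ 5 * δ ≤ (f.t0 ^ 2) ^ 2) :
    (QQ c p ≤ 2 * f.t0 ^ 2 → z0 f c p ^ 2 ≤ 30000 * B ^ 4 * (rx f c p + vv f c p ^ 2) ∧
      z0 f c p ^ 2 ≤ 30000 * B ^ 4 * (ry f c p + vv f c p ^ 2)) ∧
    (¬(QQ c p ≤ 2 * f.t0 ^ 2 ∨ (QQ c p ≤ 2 * f.t1 ^ 2 ∧ 0 ≤ zd p (mv p))) →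
      mx f c p ^ 2 ≤ 30000 * rx f c p) := by
  obtain ⟨e, e', g, g', hx1, hy1, he, he', hg, hg', hg0⟩ := grad hW hQ h1 hH
  obtain ⟨hT0, hT1⟩ := t0_le hf
  obtain ⟨-, hX, hP, -, hE⟩ := hW
  obtain ⟨hz1, -, hF, hv, hs, hrx, hry, -, -, -, -, hfp, -, -, -, -, -, hb⟩ := hP p
  obtain ⟨-, hL, hfa, -⟩ := hX p.1
  obtain ⟨-, -, -, hzt, -, -, -, -, hm1, hm2, hQ2, hmx⟩ := hQ
  obtain ⟨-, -, -, -, -, -, -, -, -, -, -, -, hU0, hU, -⟩ := h1
  obtain ⟨w1, -, w3, -, w5, -, -, w8, w9, -, w11, -⟩ := h2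
  obtain ⟨-, hlam, -, -, -, -, -, -, -, -, -, hCw1, -⟩ := hf
  have hQ0 : 0 ≤ QQ c p := le_trans (by positivity) hz1
  obtain ⟨q, hq⟩ : ∃ q, q = √(QQ c p) := ⟨_, rfl⟩
  have hq0 : 0 ≤ q := hq ▸ Real.sqrt_nonneg _
  have hqq : q ^ 2 = QQ c p := hq ▸ Real.sq_sqrt hQ0
  have hq2 : q ≤ 2 := (abs_le_of_sq_le_sq' (by linarith) (by norm_num)).2
  have hz : n2 (fun i => zz p i) ≤ 2 * q ^ 2 := by rw [n2_zz]; linarith
  have hm : n2 (mv p) ≤ 6 := by linarith [(hb (mv p)).2.2.2.2.1]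
  have hm' : 1 / 10 ≤ n2 (mv p) := by linarith [(hb (mv p)).2.2.2.2.2]
  have hnx : n2 (dx (phi f c) p) ≤ 2 * rx f c p := by
    rw [rx_eq]; linarith [(hb (dx (phi f c) p)).1]
  have hny : n2 (dyy (phi f c) p) ≤ 2 * ry f c p := by
    rw [ry_eq]; linarith [(hb (dyy (phi f c) p)).2.2.1]
  have hv1 : 1 ≤ vv f c p := hL0.trans hv
  have hL1 : 1 ≤ LX f c p.1 := hL0.trans hL
  have hf0 : 0 < fX f c p.1 := Real.exp_pos _
  have hmy : my f c p = q ^ 2 * FF f c p * vv f c p := by rw [hqq]; rfl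
  have hal : al f c p = FF f c p * sig f c p := rfl
  have hz0 : z0 f c p = al f c p * q := by rw [hq]; rfl
  have hmy0 : 0 ≤ my f c p := by rw [hmy]; positivity
  have hal0 : 0 ≤ al f c p := by rw [hal]; positivity
  have hw0 : 0 ≤ f.Cw * (LU f.K c.L0 c.sg c.J (uu p) / 2) := by positivity
  rw [← hq] at w5 w8 w9 hzt
  rw [← hqq] at he he'
  have hFq : 0 ≤ FF f c p * q := by positivity
  constructor
  · intro hA
    have hw : 2 * (f.Cw * (LU f.K c.L0 c.sg c.J (uu p) / 2)) ≤ B ^ 2 * vv f c p := by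
      have a1 : C1 * vv f c p ≤ B * vv f c p := by gcongr
      have a2 : f.Cw * LU f.K c.L0 c.sg c.J (uu p) ≤ B * (B * vv f c p) :=
        mul_le_mul hCw (hU.trans a1) hU0 (by linarith)
      linarith
    have h4 : 4 * my f c p ≤ al f c p * q := by
      have := mul_le_mul_of_nonneg_left (w8 hA) hFq
      rw [hmy, hal]; linarith
    obtain ⟨h0, hh0, hhx, hhy, hsm⟩ : ∃ h0 : ℝ, 0 ≤ h0 ∧ (∀ i, |g i + fp f c p * p.1 i| ≤ h0) ∧
        (∀ i, |g' i| ≤ h0) ∧ 40 * (n * h0) ≤ al f c p * q := by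
      by_cases hc : QQ c p < f.t0 ^ 2 / 4
      · refine ⟨0, le_rfl, fun i => ?_, fun i => ?_, by simpa using mul_nonneg hal0 hq0⟩
        · simp [(hg0 (Or.inl hc) i).1, ((hE p).1 hc).2]
        · simp [(hg0 (Or.inl hc) i).2]
      obtain ⟨b1, b2⟩ := w11 (Or.inl hA)
      have b3 : C1 * fX f c p.1 ≤ B * fX f c p.1 * vv f c p := by
        have : C1 * fX f c p.1 ≤ B * fX f c p.1 := by gcongr
        exact this.trans (le_mul_of_one_le_right (by positivity) hv1)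
      have b4 : fp f c p ≤ B * fX f c p.1 * vv f c p := by
        have a1 : C2 * vv f c p ≤ B * vv f c p := by gcongr
        have a2 := mul_le_mul_of_nonneg_left (b1.trans a1) hf0.le
        linarith [fp_le (f := f) (c := c) (p := p) (by linarith)]
      have b5 : 0 ≤ B * fX f c p.1 * vv f c p := by positivity
      refine ⟨3 * B * fX f c p.1 * vv f c p, by positivity, fun i => ?_, fun i => ?_, ?_⟩
      · refine (abs_add_le _ _).trans ?_
        rw [abs_mul, abs_of_nonneg hfp]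
        have := mul_le_mul b4 (hx i) (abs_nonneg _) b5
        linarith [hg i]
      · linarith [hg' i]
      · have a1 : fX f c p.1 ^ 2 ≤ B * FF f c p := by
          rw [hfa]; exact b2.trans (by gcongr)
        have a2 := small1 hf0.le hF hB hT0 a1 ((one_le_pow₀ hv1).trans w1) hδ hn hv1
        have a3 : f.t0 ^ 2 / 4 * (FF f c p * vv f c p) ≤ q ^ 2 * (FF f c p * vv f c p) :=
          mul_le_mul_of_nonneg_right (by linarith) (by positivity)
        rw [hmy] at h4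
        linarith
    have hQe : ∑ i, zt c p i * zz p i = q ^ 2 := hqq.symm
    have hδq' : n * δq ≤ 1 / 100 := by linarith
    have k1 := g1abs (R := √(2 * rx f c p)) hx1 (Or.inr rfl) hQe hz hm he hhx
      (by rw [Real.sq_sqrt (by positivity)]; exact hnx) (Real.sqrt_nonneg _) h4 hmy0 hw0 hq0 hq2
      hal0 hδq' hh0
    have k2 := g1abs (R := √(2 * ry f c p)) hy1 (Or.inl rfl) hQe hz hm he' hhy
      (by rw [Real.sq_sqrt (by positivity)]; exact hny) (Real.sqrt_nonneg _) h4 hmy0 hw0 hq0 hq2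
      hal0 hδq' hh0
    rw [hz0]
    exact ⟨fin1 (by positivity) (by linarith) (Real.sq_sqrt (by positivity)) hw0 hw hB hrx,
      fin1 (by positivity) (by linarith) (Real.sq_sqrt (by positivity)) hw0 hw hB hry⟩
  · intro hB'
    rw [not_or, not_le, not_and_or, not_le, not_le] at hB'
    obtain ⟨hB1, hB2⟩ := hB'
    have hg1 := hg0 (Or.inr (by linarith))
    have a0 : 120 ≤ q * vv f c p := by
      have a1 : f.t0 ^ 2 ≤ q := by nlinarith only [hB1, hqq, hq0, hq2, hT0]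
      have a2 : 1 * δ ≤ B ^ 5 * δ := mul_le_mul_of_nonneg_right (one_le_pow₀ hB) hδ0
      have a3 : (f.t0 ^ 2) ^ 2 ≤ f.t0 ^ 2 := pow_le_of_le_one hT0.le hT1 (by norm_num)
      have a4 : 120 * δ * vv f c p ≤ q * vv f c p :=
        mul_le_mul_of_nonneg_right (by linarith) (by positivity)
      linarith
    have a1 : 120 * (FF f c p * q) ≤ my f c p := by
      have := mul_le_mul_of_nonneg_right a0 hFq
      rw [hmy]; linarith
    refine g2abs (z := fun i => zz p i) (zt := zt c p) (e := e) (x := fun i => p.1 i)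
      (my := my f c p) (fp := fp f c p) (w := f.Cw * (LU f.K c.L0 c.sg c.J (uu p) / 2))
      (al := al f c p) (q := q) (η := δq) (fun i => ?_) hz hm hm'
      (fun i => (hzt i).2.2.2) he hmx hnx ?_ ?_ hmy0 hw0 hq0 hq2 hal0 hfp hδq0 hδq
    · rw [hx1, (hg1 i).1]; ring
    · have := mul_le_mul_of_nonneg_left w5 hFq
      rw [hal]; rw [hmy] at a1 ⊢; linarith
    · rcases hB2 with h | h
      · right
        have b1 := mul_le_mul_of_nonneg_left (w9 (by nlinarith only [h, sq_nonneg f.t1])) hFq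
        have b2 := mul_le_mul_of_nonneg_right hlam hmy0
        rw [hal]; rw [hmy] at a1 b2 ⊢; linarith
      · exact Or.inl h.le

end Ww4
end Vale.Agent.P088
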