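import Vale.Agent.P088.Ww6a

/-!
# P088: symbol bounds for the singular part of the multiplier
-/

open MeasureTheory Set Metric
open scoped ContDiff Topology

noncomputable section
namespace Vale.Agent.P088
open Vale.Agent.P136 (D Dp Dm Sm Tst)

namespace Ww6

variable {n : ℕ} {ι : Type} {f : Fx} {c : Cx n ι} {p : X2 n} {Cq C : ℝ}

/-- The facts shared by the two sides. -/
structure Com (f : Fx) (c : Cx n ι) (p : X2 n) (Cq C : ℝ) : Prop where
  ok : f.Ok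
  q1 : 1 ≤ Cq
  qC : Cq ≤ C
  sSt : Sm (St f c)
  sal : Sm (al f c)
  szt : ∀ i, Sm fun p => zt c p i
  sphi : Sm (phi f c)
  F0 : 0 < FF f c p
  v1 : 1 ≤ vv f c p
  s2 : 2 ≤ sig f c p
  St0 : |St f c p| ≤ 2 * FF f c p * vv f c p * f.T0
  lam : f.lam * vv f c p * √(QQ c p) ≤ sig f c p
  far : f.t0 ≤ √(QQ c p)
  Q2 : √(QQ c p) ≤ 2
  z0 : ∀ i, |zt c p i| ≤ Cq * √(QQ c p)
  z1 : ∀ i, SB1 exy 6 Cq 1 (fun p => zt c p i) p
  m1 : ∀ i, SB exy 6 Cq 1 (fun p => mv p i) p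
  G0 : ∀ i j, |Gm c p i j| ≤ Cq
  a1 : SB exy 6 (C * al f c p) (vv f c p) (al f c) p
  St1 : SB exy 6 (C * FF f c p * vv f c p) (vv f c p) (St f c) p

/-- The data of one side. -/
structure Side (e : Fin n → Fin n ⊕ Fin n) (γ : Fin n → Fin n → X2 n → ℝ) (p : X2 n) : Prop where
  sm : SmM γ
  sb : ∀ i j, SB (fun i => exy (e i)) 3 2 1 (γ i j) p
  pos : ∀ ζ, n2 ζ / 2 ≤ bil (fun i j => γ i j p) ζ ζ

theorem sm_mv (i : Fin n) : Sm fun p : X2 n => mv p i := by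
  change ContDiff ℝ ∞ fun p : X2 n => ((1 / 2 : ℝ) • (p.1 + p.2)) i
  fun_prop

theorem side_aux {γ : MatF n} (hs : SmM γ) (hn : Near 8 1 γ) (T : X2 n →L[ℝ] En n)
    {v : Fin n → X2 n} (hT : ∀ i, T (v i) = ee i) (i j : Fin n) :
    SB v 3 2 1 (fun q => γ i j (T q)) p := by
  have h1 : SC ee 8 (1 + 1) 1 (fun y => (γ i j y - if i = j then 1 else 0) +
      if i = j then 1 else 0) (T p + 0) :=
    SC.add ⟨((hs i j).sub contDiff_const).contDiffAt, hn i j _⟩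
      (SC.const zero_le_one (by split_ifs <;> simp))
  have h2 := SbLin.lin0 (v := v) (v' := ee) T 0 (t := fun a b => if a = b then 1 else 0) (A := 1)
    zero_le_one (fun a => by simp [hT]) (fun a => by simp [apply_ite abs]) h1.cd h1.sb
  simp only [sub_add_cancel, add_zero, mul_one] at h2
  exact SbAlg.mono zero_le_one h2 (by norm_num) (by norm_num) le_rfl

variable {e : Fin n → Fin n ⊕ Fin n} {γ : Fin n → Fin n → X2 n → ℝ} {R : ℝ}

theorem Com.a0 (h : Com f c p Cq C) : 0 < al f c p := mul_pos h.F0 (by linarith [h.s2])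

theorem d0 (h : Com f c p Cq C) (hs : Side e γ p)
    (hR : rho (fun i => exy (e i)) γ (phi f c) p + al f c p = R) :
    al f c p ≤ R ∧ ∀ i, |D (exy (e i)) (phi f c) p| ≤ 2 * √R := by
  have e1 : rho (fun i => exy (e i)) γ (phi f c) p = bil (fun i j => γ i j p)
      (fun i => D (exy (e i)) (phi f c) p) fun i => D (exy (e i)) (phi f c) p := by
    simp only [rho, dir, XX, bil, Finset.sum_mul]
    exact Finset.sum_congr rfl fun i _ => Finset.sum_congr rfl fun j _ => by ring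
  have h1 := hs.pos fun i => D (exy (e i)) (phi f c) p
  have h2 : 0 ≤ n2 fun i => D (exy (e i)) (phi f c) p := Finset.sum_nonneg fun _ _ => sq_nonneg _
  have a0 := h.a0
  refine ⟨by linarith, fun i => ?_⟩
  have h3 : D (exy (e i)) (phi f c) p ^ 2 ≤ n2 fun i => D (exy (e i)) (phi f c) p :=
    Finset.single_le_sum (f := fun i => D (exy (e i)) (phi f c) p ^ 2) (fun _ _ => sq_nonneg _)
      (Finset.mem_univ i)
  refine abs_le_of_sq_le_sq' ?_ (by positivity) |> abs_le.2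
  rw [mul_pow, Real.sq_sqrt (by linarith)]
  linarith

theorem Com.ww (h : Com f c p Cq C) : 2 * FF f c p * vv f c p * f.T0 * (Cq * √(QQ c p)) ≤
    2 * Cq * f.tau * al f c p := by
  obtain ⟨l0, -, -, -, T0, -, -, -, t0, t1, -⟩ := h.ok
  have h1 : vv f c p * √(QQ c p) ≤ sig f c p / f.lam := by
    rw [le_div_iff₀ l0]
    linarith [h.lam]
  have h2 : f.T0 / f.lam ≤ f.tau := by unfold Fx.tau; linarith
  have F0 := h.F0
  have q1 := h.q1
  have s2 := h.s2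
  calc _ = 2 * Cq * FF f c p * f.T0 * (vv f c p * √(QQ c p)) := by ring
    _ ≤ 2 * Cq * FF f c p * f.T0 * (sig f c p / f.lam) := by gcongr
    _ = 2 * Cq * (f.T0 / f.lam) * al f c p := by unfold al; ring
    _ ≤ _ := by have := h.a0; gcongr

theorem Com.vs (h : Com f c p Cq C) : vv f c p ≤ sig f c p / (f.lam * f.t0) := by
  obtain ⟨l0, -, -, -, -, -, -, -, t0, -⟩ := h.ok
  rw [le_div_iff₀ (by positivity)]
  have := mul_le_mul_of_nonneg_left h.far (by have := h.v1; positivity : 0 ≤ f.lam * vv f c p)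
  linarith [h.lam]

/-- The quotient for one side. -/
def qs (f : Fx) (c : Cx n ι) (e : Fin n → Fin n ⊕ Fin n) (γ : Fin n → Fin n → X2 n → ℝ)
    (i : Fin n) : X2 n → ℝ :=
  quo γ (fun i p => mv p i) (fun i p => zt c p i) (fun i => D (exy (e i)) (phi f c)) (St f c)
    (al f c) i

theorem pt {K : ℝ} (hK : CoreP n 0 (2 * Cq) K) (K0 : 0 ≤ K) (h : Com f c p Cq C) (hs : Side e γ p)
    (hR : rho (fun i => exy (e i)) γ (phi f c) p + al f c p = R) (i : Fin n) :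
    |qs f c e γ i p| ≤ K * (2 * Cq) * f.tau * al f c p / √R := by
  obtain ⟨aR, hd⟩ := d0 h hs hR
  have q1 := h.q1
  have a0 := h.a0
  have H := hK (fun i => exy (e i)) p 1 _ _ R γ _ _ _ _ _ zero_le_one (by linarith) hR
    (fun i j => ⟨(hs.sm i j).contDiffAt, sb_zero ((abs_le_of_sb (hs.sb i j)).trans (by linarith))⟩)
    (fun i => ⟨(sm_mv i).contDiffAt, sb_zero ((abs_le_of_sb (h.m1 i)).trans (by linarith))⟩)
    (fun i => ⟨(h.szt i).contDiffAt, sb_zero (h.z0 i)⟩)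
    (fun i => ⟨(h.sphi.D _).contDiffAt, sb_zero ((hd i).trans (by gcongr; linarith))⟩)
    ⟨h.sSt.contDiffAt, sb_zero h.St0⟩
    ⟨h.sal.contDiffAt, sb_zero (by rw [abs_of_pos a0]; nlinarith)⟩ i
  refine (abs_le_of_sb H).trans (div_le_div_of_nonneg_right ?_ (Real.sqrt_nonneg _))
  have := mul_le_mul_of_nonneg_left h.ww K0
  linarith

theorem gen {K H S : ℝ} (hK : CoreP n 3 (2 * C) K) (K0 : 0 ≤ K) (h : Com f c p Cq C)
    (hs : Side e γ p) (hR : rho (fun i => exy (e i)) γ (phi f c) p + al f c p = R) (H0 : 0 ≤ H)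
    (vS : vv f c p ≤ S)
    (hH : ∀ i j, SB (fun i => exy (e i)) 4 (C * H) S (D (exy (e i)) (D (exy (e j)) (phi f c))) p)
    (i : Fin n) : SB (fun i => exy (e i)) 3 (K * (2 * C * C / (f.lam * f.t0)) * al f c p / √R)
      (H / √R + S) (qs f c e γ i) p := by
  obtain ⟨aR, hd⟩ := d0 h hs hR
  have q1 := h.q1
  have qC := h.qC
  have a0 := h.a0
  have v1 := h.v1
  have F0 := h.F0
  have s0 : 0 < √R := Real.sqrt_pos.2 (by linarith)
  have hq : 0 ≤ H / √R := by positivity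
  have H1 := hK (fun i => exy (e i)) p (H / √R + S) (C * FF f c p * vv f c p) (2 * C) R γ _ _ _ _ _
    (by linarith) (by linarith) hR
    (fun i j => ⟨(hs.sm i j).contDiffAt,
      SbAlg.mono zero_le_one (hs.sb i j) le_rfl (by linarith) (by linarith)⟩)
    (fun i => ⟨(sm_mv i).contDiffAt,
      SbAlg.mono zero_le_one (sb_res e (h.m1 i)) (by norm_num) (by linarith) (by linarith)⟩)
    (fun i => ⟨(h.szt i).contDiffAt, SbComp.sb_of ((h.z0 i).trans (by nlinarith [h.Q2]))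
      (SbComp.sb1_mono (sb1_scale (sb1_res e (h.z1 i)) zero_le_one (by linarith) (by linarith)
        (w' := 2 * C) (by nlinarith)) (by linarith) (by norm_num) le_rfl)⟩)
    (fun i => ⟨(h.sphi.D _).contDiffAt, SbComp.sb_of ((hd i).trans (by gcongr; linarith))
      (SbComp.sb1_succ fun j => SbAlg.mono (by linarith) (hH j i) (by norm_num) (by
        have e1 : √R * (H / √R) = H := mul_div_cancel₀ _ s0.ne'
        have e2 : 0 ≤ C * (√R * S) := by have : 0 ≤ S := by linarith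
                                         have : 0 ≤ C := by linarith
                                         positivity
        have e3 : 0 ≤ C * H := mul_nonneg (by linarith) H0
        calc C * H ≤ 2 * (C * H) + 2 * (C * (√R * S)) := by linarith
          _ = 2 * C * (√R * (H / √R)) + 2 * (C * (√R * S)) := by rw [e1]; ring
          _ = _ := by ring) (by linarith))⟩)
    ⟨h.sSt.contDiffAt, SbAlg.mono (by linarith) (sb_res e h.St1) (by norm_num) le_rfl (by linarith)⟩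
    ⟨h.sal.contDiffAt, SbAlg.mono (by linarith) (sb_res e h.a1) (by norm_num) (by nlinarith)
      (by linarith)⟩ i
  refine SbAlg.mono (by linarith) H1 le_rfl (div_le_div_of_nonneg_right ?_ s0.le) le_rfl
  rw [mul_assoc K]
  refine mul_le_mul_of_nonneg_left ?_ K0
  have C0 : 0 ≤ C := by linarith
  calc _ = 2 * C * C * FF f c p * vv f c p := by ring
    _ ≤ 2 * C * C * FF f c p * (sig f c p / (f.lam * f.t0)) := by gcongr; exact h.vs
    _ = _ := by unfold al; ring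

theorem scale {v R a M : ℝ} (v1 : 1 ≤ v) (R0 : 0 < R) (a0 : 0 < a) (M0 : 0 < M)
    (hM : v ^ 8 * R ≤ 1 / M ^ 2 * a ^ 2) : M * v ^ 2 ≤ a / √R := by
  rw [le_div_iff₀ (Real.sqrt_pos.2 R0)]
  refine (abs_le_of_sq_le_sq' ?_ a0.le).2
  have e1 : v ^ 4 ≤ v ^ 8 := pow_le_pow_right₀ v1 (by norm_num)
  rw [one_div, ← div_eq_inv_mul, le_div_iff₀ (by positivity)] at hM
  calc _ = v ^ 4 * √R ^ 2 * M ^ 2 := by ring
    _ ≤ v ^ 8 * R * M ^ 2 := by
      rw [Real.sq_sqrt R0.le]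
      gcongr
    _ ≤ _ := hM

theorem critD {H S Cn L : ℝ} (h : Com f c p Cq C) (hs : Side e γ p)
    (hR : rho (fun i => exy (e i)) γ (phi f c) p + al f c p = R) (H0 : 0 ≤ H) (n1 : 1 ≤ Cn)
    (vS : vv f c p ≤ S)
    (hH : ∀ i j, SB (fun i => exy (e i)) 4 (C * H) S (D (exy (e i)) (D (exy (e j)) (phi f c))) p)
    (eL : √R * L = al f c p) (SL : S ≤ L) (hL : C * H * S ≤ al f c p * L)
    (hh : ∀ i j, |D (exy (e i)) (D (exy (e j)) (phi f c)) p -
      al f c p * (Gm c p i j - zt c p i * zt c p j / QQ c p)| ≤ (1 + Cn) * al f c p) (i : Fin n) :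
    SB (fun i => exy (e i)) 4 ((2 * Cq + Cq ^ 2 + 2 + Cn) * √R) L
      (D (exy (e i)) (phi f c)) p := by
  obtain ⟨aR, hd⟩ := d0 h hs hR
  obtain ⟨-, -, -, -, -, -, -, -, t0, -⟩ := h.ok
  have q1 := h.q1
  have C1 : 1 ≤ C := q1.trans h.qC
  have a0 := h.a0
  have v1 := h.v1
  have q2 := sq_nonneg Cq
  have sQ : 0 < √(QQ c p) := t0.trans_le h.far
  have Q0 : 0 < QQ c p := Real.sqrt_pos.1 sQ
  refine SbComp.sb_of ((hd i).trans (mul_le_mul_of_nonneg_right (by linarith)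
    (Real.sqrt_nonneg _))) (SbComp.sb1_succ fun j => ?_)
  rw [mul_assoc, eL]
  refine SbComp.sb_of ?_ (SbComp.sb1_mono (sb1_scale (sb1_of (hH j i)) (by linarith)
    (by positivity) SL hL) (by linarith) (by norm_num)
    (le_mul_of_one_le_left a0.le (by linarith)))
  have e1 : |zt c p j * zt c p i / QQ c p| ≤ Cq ^ 2 := by
    rw [abs_div, abs_mul, abs_of_pos Q0, div_le_iff₀ Q0]
    refine (mul_le_mul (h.z0 j) (h.z0 i) (abs_nonneg _) (by positivity)).trans (le_of_eq ?_)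
    linear_combination Cq ^ 2 * Real.mul_self_sqrt Q0.le
  have e2 : |al f c p * (Gm c p j i - zt c p j * zt c p i / QQ c p)| ≤
      al f c p * (Cq + Cq ^ 2) := by
    rw [abs_mul, abs_of_pos a0]
    exact mul_le_mul_of_nonneg_left ((abs_sub _ _).trans (add_le_add (h.G0 j i) e1)) a0.le
  have e3 := (abs_sub_abs_le_abs_sub _ _).trans (hh j i)
  have e4 : 0 ≤ (Cq + 1) * al f c p := by positivity
  linarith

theorem critQ {K B L : ℝ} (hK : CoreP n 3 B K) (K0 : 0 ≤ K) (h : Com f c p Cq C) (hs : Side e γ p)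
    (hR : rho (fun i => exy (e i)) γ (phi f c) p + al f c p = R) (hB : 2 * Cq ≤ B)
    (L1 : 1 ≤ f.t0 * L) (L2 : C * vv f c p ≤ f.T0 * L) (L3 : C * vv f c p ≤ L)
    (hD : ∀ i, SB (fun i => exy (e i)) 4 (B * √R) L (D (exy (e i)) (phi f c)) p) (i : Fin n) :
    SB (fun i => exy (e i)) 3 (K * (2 * Cq) * f.tau * al f c p / √R) L (qs f c e γ i) p := by
  obtain ⟨aR, -⟩ := d0 h hs hR
  obtain ⟨-, -, -, -, T0, -⟩ := h.ok
  have q1 := h.q1
  have C1 : 1 ≤ C := q1.trans h.qC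
  have a0 := h.a0
  have v1 := h.v1
  have F0 := h.F0
  have vL : vv f c p ≤ L := (le_mul_of_one_le_left (by linarith) C1).trans L3
  have L0 : 0 ≤ L := by linarith
  have aB : al f c p ≤ B * R := aR.trans (le_mul_of_one_le_left (by linarith) (by linarith))
  have H1 := hK (fun i => exy (e i)) p L (2 * FF f c p * vv f c p * f.T0) (Cq * √(QQ c p)) R γ
    _ _ _ _ _ L0 (by linarith) hR
    (fun i j => ⟨(hs.sm i j).contDiffAt,
      SbAlg.mono zero_le_one (hs.sb i j) le_rfl (by linarith) (by linarith)⟩)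
    (fun i => ⟨(sm_mv i).contDiffAt,
      SbAlg.mono zero_le_one (sb_res e (h.m1 i)) (by norm_num) (by linarith) (by linarith)⟩)
    (fun i => ⟨(h.szt i).contDiffAt, SbComp.sb_of (h.z0 i)
      (SbComp.sb1_mono (sb1_scale (sb1_res e (h.z1 i)) zero_le_one (by linarith) (by linarith)
        (w' := Cq * √(QQ c p)) (by
          rw [mul_assoc]
          exact mul_le_mul_of_nonneg_left (L1.trans (mul_le_mul_of_nonneg_right h.far L0))
            (by linarith))) L0 (by norm_num) le_rfl)⟩)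
    (fun i => ⟨(h.sphi.D _).contDiffAt, SbAlg.mono L0 (hD i) (by norm_num) le_rfl le_rfl⟩)
    ⟨h.sSt.contDiffAt, SbComp.sb_of h.St0 (SbComp.sb1_mono (sb1_scale (sb1_of (sb_res e h.St1))
      (by linarith) (by positivity) vL (w' := 2 * FF f c p * vv f c p * f.T0) (by
        have e1 := mul_le_mul_of_nonneg_left L2 (by positivity : 0 ≤ FF f c p * vv f c p)
        have e2 : 0 ≤ FF f c p * vv f c p * (f.T0 * L) := by positivity
        linarith)) L0 (by norm_num) le_rfl)⟩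
    ⟨h.sal.contDiffAt, SbComp.sb_of ((abs_of_pos a0).trans_le aB)
      (SbComp.sb1_mono (sb1_scale (sb1_of (sb_res e h.a1)) (by linarith) (by positivity) vL
        (w' := al f c p) (by linarith [mul_le_mul_of_nonneg_left L3 a0.le])) L0 (by norm_num) aB)⟩ i
  refine SbAlg.mono L0 H1 le_rfl (div_le_div_of_nonneg_right ?_ (Real.sqrt_nonneg _)) le_rfl
  have := mul_le_mul_of_nonneg_left h.ww K0
  linarith

theorem crit {K H S Cn M : ℝ} (hK : CoreP n 3 (2 * Cq + Cq ^ 2 + 2 + Cn) K) (K0 : 0 ≤ K)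
    (h : Com f c p Cq C) (hs : Side e γ p)
    (hR : rho (fun i => exy (e i)) γ (phi f c) p + al f c p = R) (H0 : 0 ≤ H) (n1 : 1 ≤ Cn)
    (vS : vv f c p ≤ S)
    (hH : ∀ i j, SB (fun i => exy (e i)) 4 (C * H) S (D (exy (e i)) (D (exy (e j)) (phi f c))) p)
    (M1 : C ≤ M * f.T0) (M2 : 1 ≤ M * f.t0) (M3 : C ^ 3 * Cn ≤ M)
    (hM : vv f c p ^ 8 * R ≤ 1 / M ^ 2 * al f c p ^ 2) (Sv : S ≤ C * vv f c p)
    (Hv : H ≤ C * (Cn * al f c p) * vv f c p)
    (hh : ∀ i j, |D (exy (e i)) (D (exy (e j)) (phi f c)) p -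
      al f c p * (Gm c p i j - zt c p i * zt c p j / QQ c p)| ≤ (1 + Cn) * al f c p) (i : Fin n) :
    SB (fun i => exy (e i)) 3 (K * (2 * Cq) * f.tau * al f c p / √R) (al f c p / √R)
      (qs f c e γ i) p ∧
    SB (fun i => exy (e i)) 4 ((2 * Cq + Cq ^ 2 + 2 + Cn) * √R) (al f c p / √R)
      (D (exy (e i)) (phi f c)) p := by
  obtain ⟨aR, -⟩ := d0 h hs hR
  obtain ⟨-, -, -, -, T0, -, -, -, t0, -⟩ := h.ok
  have C1 : 1 ≤ C := h.q1.trans h.qC
  have a0 := h.a0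
  have v1 := h.v1
  have q2 := sq_nonneg Cq
  have R0 : 0 < R := by linarith
  have CM : C ≤ M := by
    have : C ^ 1 * 1 ≤ C ^ 3 * Cn := by gcongr; norm_num
    linarith
  have ML := scale v1 R0 a0 (by linarith) hM
  have eL : √R * (al f c p / √R) = al f c p := mul_div_cancel₀ _ (Real.sqrt_pos.2 R0).ne'
  generalize al f c p / √R = L at ML eL ⊢
  have Mv : M * vv f c p ≤ L :=
    (mul_le_mul_of_nonneg_left (le_self_pow₀ v1 two_ne_zero) (by linarith)).trans ML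
  have Cv : C * vv f c p ≤ L := (mul_le_mul_of_nonneg_right CM (by linarith)).trans Mv
  have ML' : M ≤ L := (le_mul_of_one_le_right (by linarith) v1).trans Mv
  have hD := critD h hs hR H0 n1 vS hH eL (Sv.trans Cv) (by
    calc C * H * S ≤ C * (C * (Cn * al f c p) * vv f c p) * (C * vv f c p) := by
          have : 0 ≤ S := by linarith
          gcongr
      _ = al f c p * (C ^ 3 * Cn * vv f c p ^ 2) := by ring
      _ ≤ al f c p * (M * vv f c p ^ 2) := by gcongr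
      _ ≤ _ := by gcongr) hh
  refine ⟨critQ hK K0 h hs hR (by linarith) ?_ ?_ Cv hD i, hD i⟩
  · linarith [mul_le_mul_of_nonneg_left ML' t0.le]
  · linarith [mul_le_mul_of_nonneg_left Mv T0.le,
      mul_le_mul_of_nonneg_right M1 (zero_le_one.trans v1)]

theorem vpb (n : ℕ) (ι : Type) {f : Fx} (hf : f.Ok) {C : ℝ} (C1 : 1 ≤ C) : ∃ K : ℝ, 0 ≤ K ∧
    ∀ (c : Cx n ι) (p : X2 n) (Cq : ℝ), Com f c p Cq C → (∀ q, 2 ≤ sig f c q) →
      SC exy 3 (C * vv f c p) (vv f c p) (vv f c) p →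
      SC exy 3 (C * sig f c p) (vv f c p) (sig f c) p → SC exy 3 C (vv f c p) (thI f c) p →
      SC exy 3 C (vv f c p) (thO f c) p → SB exy 3 K (vv f c p) (vp f c) p := by
  obtain ⟨l0, -, e0, -, -, -, -, -, t0, -⟩ := hf
  obtain ⟨I, I1, hI⟩ := inv_bd 3
  obtain ⟨A, hA⟩ : ∃ A : ℝ, A = 2 ^ 3 * C * (1 + I * C ^ 3) +
    2 ^ 3 * (1 + C) * (2 ^ 3 * (2 ^ 3 * C * C) * (f.T0 ^ 2 / f.e1)) := ⟨_, rfl⟩
  have A0 : 0 ≤ A := by rw [hA]; positivity
  refine ⟨2 ^ 3 * (2 ^ 3 * (2 ^ 3 * 2 * C) * A) * (I * C ^ 3) / (f.lam * f.t0), by positivity,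
    fun c p Cq h s2 hv hs hi ho => ?_⟩
  have L0 : 0 ≤ vv f c p := zero_le_one.trans h.v1
  have s0 : 0 < sig f c p := by linarith [s2 p]
  have h1 := hI _ _ exy _ C p _ L0 C1 s0 hs
  have h2 := h1.mono L0 (w' := I * C ^ 3) (div_le_self (by positivity) (by linarith [s2 p]))
  have h3 := ((hi.mul L0 ((SC.const L0 (c := 1 / 2) (w := 1) (by norm_num [abs_of_pos])).add h2)).add
    (((SC.const L0 (c := 1) (w := 1) (by simp)).sub hi).mul L0 ((ho.mul L0 ho).mul L0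
      (SC.const L0 (c := f.T0 ^ 2 / f.e1) (abs_of_nonneg (by positivity)).le)))).mono L0 hA.ge
  have h4 := ((((SC.const L0 (c := 2) (w := 2) (by simp)).mul L0 hv).mul L0 h3).mul L0 h1).mono L0
    (w' := 2 ^ 3 * (2 ^ 3 * (2 ^ 3 * 2 * C) * A) * (I * C ^ 3) / (f.lam * f.t0)) (by
      have e1 : vv f c p / sig f c p ≤ 1 / (f.lam * f.t0) := by
        rw [div_le_iff₀ s0, one_div, ← div_eq_inv_mul]
        exact h.vs
      calc _ = 2 ^ 3 * (2 ^ 3 * (2 ^ 3 * 2 * C) * A) * (I * C ^ 3) * (vv f c p / sig f c p) := by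
            ring
        _ ≤ 2 ^ 3 * (2 ^ 3 * (2 ^ 3 * 2 * C) * A) * (I * C ^ 3) * (1 / (f.lam * f.t0)) := by gcongr
        _ = _ := by ring)
  refine SbAlg.congr (Filter.Eventually.of_forall fun x => ?_) h4.sb
  have : sig f c x ≠ 0 := by linarith [s2 x] |> fun H : 0 < sig f c x => H.ne'
  simp only [vp, cA]
  field_simp

theorem com (hf : f.Ok) (L1 : 1 ≤ c.L0) {C₁ C₂ η η' : ℝ} (q1 : 1 ≤ Cq) (qC : Cq ≤ C) (hC : C₁ ≤ C)
    (h0 : W0 f c) (hq : WQ c Cq η p) (h1 : W1 f c C₁ p) (h2 : W2 f c C₂ η' p)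
    (hp : p ∈ Far f c) : Com f c p Cq C := by
  obtain ⟨⟨-, -, -, szt, -, -, -, -, -, -, sal, -, -, -, -, -, -, sphi, -, -, -, -, -, -, -, -, sSt,
    -⟩, -, hp0, -⟩ := h0
  obtain ⟨-, -, F0, v1, s2, -, -, -, -, c0, c1, -⟩ := hp0 p
  obtain ⟨-, -, -, hz, hG, -, -, -, -, -, Q2, -⟩ := hq
  have v0 : 0 ≤ vv f c p := by linarith
  have a0 : 0 ≤ al f c p := mul_nonneg F0.le (by linarith)
  refine ⟨hf, q1, qC, sSt, sal, szt, sphi, F0, L1.trans v1, s2, ?_, h2.2.2.2.2.2.1,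
    Real.le_sqrt_of_sq_le hp, Real.sqrt_le_iff.2 ⟨zero_le_two, by linarith⟩, fun i => (hz i).1,
    fun i => (hz i).2.1, fun i => (hz i).2.2.1,
    fun i j => abs_le_of_sb (f := fun p => Gm c p i j) (hG i j).2.1,
    SbAlg.mono v0 h1.2.2.2.1 le_rfl (by gcongr) le_rfl,
    SbAlg.mono v0 h1.2.2.2.2.2.1 le_rfl (by gcongr) le_rfl⟩
  rw [St, abs_of_nonneg (by positivity)]
  gcongr

theorem tau_le (hf : f.Ok) : 0 < f.tau ∧ f.tau ≤ 1 := by
  obtain ⟨l0, l1, e0, e1, T0, T1, -, -, t0, t1, t2, -⟩ := hf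
  have h1 : f.T0 / f.lam ≤ 1 / 2 := by
    rw [div_le_iff₀ l0]
    have : f.e1 * f.lam ^ 2 ≤ 1 * (f.lam * 1) := by
      rw [sq]
      gcongr <;> linarith
    linarith
  have h2 : 0 < f.T0 / f.lam := by positivity
  unfold Fx.tau
  constructor <;> linarith

end Ww6

open Ww6 in
theorem s_w6 (h0 : S_w0) (hq : S_wq) (h1 : S_w1) (h2 : S_w2) (h3 : S_w3) (h5 : S_w5) : S_w6 := by
  intro n
  obtain ⟨Cq, q1, hq⟩ := hq n
  obtain ⟨Cn, n1, h5⟩ := h5 n
  have q2 := sq_nonneg Cq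
  obtain ⟨K₀, k0, hK₀⟩ := core n 0 (B := 2 * Cq) (by linarith)
  obtain ⟨K₂, k2, hK₂⟩ := core n 3 (B := 2 * Cq + Cq ^ 2 + 2 + Cn) (by linarith)
  have p0 : 0 ≤ K₀ * (2 * Cq) := by positivity
  have p2 : 0 ≤ K₂ * (2 * Cq) := by positivity
  refine ⟨K₀ * (2 * Cq) + K₂ * (2 * Cq) + (2 * Cq + Cq ^ 2 + 2 + Cn), by linarith,
    fun ι f hf => ?_⟩
  obtain ⟨C₁, c1, h1⟩ := h1 n ι f hf
  obtain ⟨C₂, -, h2⟩ := h2 n ι f hf
  obtain ⟨C₃, c3, h3⟩ := h3 n ι f hf
  obtain ⟨C₅, c5, h5⟩ := h5 ι f hf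
  obtain ⟨C, hC⟩ : ∃ C, C = C₁ + C₃ + C₅ + Cq := ⟨_, rfl⟩
  have C1 : 1 ≤ C := by linarith
  have d1 : C₁ ≤ C := by linarith
  have d3 : C₃ ≤ C := by linarith
  have d5 : C₅ ≤ C := by linarith
  obtain ⟨K₁, k1, hK₁⟩ := core n 3 (B := 2 * C) (by linarith)
  obtain ⟨Kv, kv, hKv⟩ := vpb n ι hf C1
  obtain ⟨τ0, τ1⟩ := tau_le hf
  have ⟨l0, _, _, _, T0, _, _, _, t0, _⟩ := hf
  obtain ⟨M, hM⟩ : ∃ M, M = C / f.T0 + 1 / f.t0 + C ^ 3 * Cn := ⟨_, rfl⟩
  have m1 : 0 ≤ C / f.T0 := by positivity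
  have m2 : 0 ≤ 1 / f.t0 := by positivity
  have m3 : 1 ≤ C ^ 3 * Cn := one_le_mul_of_one_le_of_one_le (one_le_pow₀ C1) n1
  have M1 : C ≤ M * f.T0 := (div_le_iff₀ T0).1 (by linarith)
  have M2 : 1 ≤ M * f.t0 := (div_le_iff₀ t0).1 (by linarith)
  have M3 : C ^ 3 * Cn ≤ M := by linarith
  have η1 : 1 / M ^ 2 ≤ 1 := (div_le_one (by nlinarith)).2 (one_le_pow₀ (by linarith))
  have p1 : 0 ≤ K₁ * (2 * C * C / (f.lam * f.t0)) := by positivity
  refine ⟨1 + Kv + K₁ * (2 * C * C / (f.lam * f.t0)), by linarith, ?_⟩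
  refine (((((((h0 n ι f hf).and (hq ι f hf 1 one_pos)).and h1).and (h2 1 one_pos)).and h3).and
    (h5 (1 / M ^ 2) (by have : 0 < M := by linarith
                        positivity))).and (Ev.ok f one_pos 0)).mono ?_
  rintro c ⟨⟨⟨⟨⟨⟨w0, wq⟩, w1⟩, w2⟩, w3⟩, w5⟩, -, L1, -, -, -, s1, -, n1', s2, -, n2', -⟩ p hp hF i
  have h := com hf L1 q1 (C := C) (by linarith) d1 w0 (wq p hp) (w1 p hp) (w2 p hp) hF
  obtain ⟨⟨-, -, -, -, -, -, -, svv, ssig, -, -, -, -, -, -, -, -, -, sI, sO, -, -, -, -, -, -, -, -,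
    -, -, -, -, -, -, -, -, -, -, -, -, -, sx1, -, sy1, -⟩, hx0, hp0, -⟩ := w0
  obtain ⟨-, -, F0, -, -, -, -, -, -, -, -, fp0, -, -, -, -, -, hb⟩ := hp0 p
  have sX : Side Sum.inl (onX c.γ₁) p := ⟨sx1, side_aux s1 n1' (ContinuousLinearMap.fst ℝ _ _)
    fun _ => rfl, fun ζ => (hb ζ).1⟩
  have sY : Side Sum.inr (onY c.γ₂) p := ⟨sy1, side_aux s2 n2' (ContinuousLinearMap.snd ℝ _ _)
    fun _ => rfl, fun ζ => (hb ζ).2.2.1⟩
  have v0 : 0 ≤ vv f c p := zero_le_one.trans h.v1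
  have a0 := h.a0
  have vS : vv f c p ≤ SS f c p := le_add_of_nonneg_right (by linarith [(hx0 p.1).2.1])
  have A0 : 0 ≤ AA f c p := mul_nonneg F0.le (sq_nonneg _)
  have H0 : 0 ≤ HX f c p := add_nonneg A0 (mul_nonneg fp0 (v0.trans vS))
  have hHx : ∀ i j, SB ex 4 (C * HX f c p) (SS f c p) (D (ex i) (D (ex j) (phi f c))) p :=
    fun i j => SbAlg.mono (v0.trans vS) ((w3 p hp).1 i j) le_rfl (by gcongr) le_rfl
  have hHy : ∀ i j, SB ey 4 (C * AA f c p) (vv f c p) (D (ey i) (D (ey j) (phi f c))) p :=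
    fun i j => SbAlg.mono v0 (sb_res Sum.inr ((w3 p hp).2.1 i (Sum.inr j))) le_rfl (by gcongr) le_rfl
  obtain ⟨-, u2, u3, -, -, -, -, u8, u9, -⟩ := w1 p hp
  have hv := hKv c p Cq h (fun q => (hp0 q).2.2.2.2.1)
    ⟨svv.contDiffAt, SbAlg.mono v0 u2 (by norm_num) (by gcongr) le_rfl⟩
    ⟨ssig.contDiffAt, SbAlg.mono v0 u3 (by norm_num) (by have := h.s2; gcongr) le_rfl⟩
    ⟨sI.contDiffAt, SbAlg.mono zero_le_one u8 (by norm_num) d1 h.v1⟩
    ⟨sO.contDiffAt, SbAlg.mono zero_le_one u9 (by norm_num) d1 h.v1⟩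
  have y0 : 0 ≤ my f c p := mul_nonneg (mul_nonneg (le_trans (by positivity) (hp0 p).1) F0.le) v0
  have nτ : Cn * f.tau * al f c p ≤ Cn * al f c p := by
    rw [mul_assoc]
    exact mul_le_mul_of_nonneg_left (mul_le_of_le_one_left a0.le τ1) (by linarith)
  have hη : (1 / M ^ 2 + Cn * f.tau) * al f c p ≤ (1 + Cn) * al f c p := by
    linarith [mul_le_mul_of_nonneg_right η1 a0.le]
  refine ⟨⟨(pt hK₀ (by linarith) h sX rfl i).trans ?_, (pt hK₀ (by linarith) h sY rfl i).trans ?_,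
    (le_abs_self _).trans ((abs_le_of_sb hv).trans (by linarith)),
    SbAlg.mono v0 hv le_rfl (by linarith) le_rfl,
    SbAlg.mono (add_nonneg (by positivity) (v0.trans vS))
      (gen hK₁ (by linarith) h sX rfl H0 vS hHx i) le_rfl ?_ le_rfl,
    SbAlg.mono (by positivity) (gen hK₁ (by linarith) h sY rfl A0 le_rfl hHy i) le_rfl ?_ le_rfl⟩,
    fun hs => ?_, fun hs => ?_⟩
  · change _ / √(rx f c p + al f c p) ≤ _
    gcongr
    linarith
  · change _ / √(ry f c p + al f c p) ≤ _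
    gcongr
    linarith
  · change _ / √(rx f c p + al f c p) ≤ _
    gcongr
    linarith
  · change _ / √(ry f c p + al f c p) ≤ _
    gcongr
    linarith
  · obtain ⟨-, -, -, -, g1, -, g2, g3, -, g4, g5, -⟩ := (w5 p hp).1 hs
    have e1 : my f c p ≤ Cn * al f c p := ((le_add_of_nonneg_right fp0).trans g3).trans nτ
    obtain ⟨r1, r2⟩ := crit hK₂ (by linarith) h sX (R := rx f c p + al f c p) rfl H0 n1 vS hHx M1 M2
      M3 g4 (g1.trans (by gcongr)) (g5.trans (by gcongr)) (fun i j => (g2 i j).trans hη) i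
    exact ⟨SbAlg.mono (by positivity) r1 le_rfl (by gcongr; linarith) le_rfl,
      SbAlg.mono (by positivity) r2 le_rfl
        (mul_le_mul_of_nonneg_right (by linarith) (Real.sqrt_nonneg _)) le_rfl⟩
  · obtain ⟨-, -, -, g2, g3, -, g4, g5, -⟩ := (w5 p hp).2 hs
    have e1 : my f c p ≤ Cn * al f c p := g3.trans nτ
    obtain ⟨r1, r2⟩ := crit hK₂ (by linarith) h sY (R := ry f c p + al f c p) rfl A0 n1 le_rfl hHy
      M1 M2 M3 g4 (le_mul_of_one_le_left v0 C1) (g5.trans (by gcongr))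
      (fun i j => (g2 i j).trans hη) i
    exact ⟨SbAlg.mono (by positivity) r1 le_rfl (by gcongr; linarith) le_rfl,
      SbAlg.mono (by positivity) r2 le_rfl
        (mul_le_mul_of_nonneg_right (by linarith) (Real.sqrt_nonneg _)) le_rfl⟩

end Vale.Agent.P088
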