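import Vale.Agent.P088.StW
import Vale.Agent.P088.SbAlg
import Vale.Agent.P088.SbComp
import Vale.Agent.P088.SbLin

/-!
# P088: the symbol calculus for the singular part of the multiplier
-/

open MeasureTheory Set Metric
open scoped ContDiff Topology

noncomputable section
namespace Vale.Agent.P088
open Vale.Agent.P136 (D Dp Dm Sm Tst)

namespace Ww6

section gen
variable {X : Type} [NormedAddCommGroup X] [NormedSpace ℝ X] {κ : Type} {v : κ → X} {p : X}
  {k : ℕ} {L w w' : ℝ} {f g : X → ℝ}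

/-- Smooth with a symbol bound. -/
structure SC (v : κ → X) (k : ℕ) (w L : ℝ) (f : X → ℝ) (p : X) : Prop where
  cd : ContDiffAt ℝ ∞ f p
  sb : SB v k w L f p

theorem SC.nn (h : SC v k w L f p) : 0 ≤ w := SbAlg.nonneg h.sb

theorem SC.mono (hL : 0 ≤ L) (h : SC v k w L f p) (hw : w ≤ w') : SC v k w' L f p :=
  ⟨h.cd, SbAlg.mono hL h.sb le_rfl hw le_rfl⟩

theorem SC.const (hL : 0 ≤ L) {c : ℝ} (hc : |c| ≤ w) : SC v k w L (fun _ => c) p :=
  ⟨contDiffAt_const, SbAlg.mono hL (SbAlg.const hL c) le_rfl hc le_rfl⟩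

theorem SC.mul (hL : 0 ≤ L) (h : SC v k w L f p) (h' : SC v k w' L g p) :
    SC v k (2 ^ k * w * w') L (fun x => f x * g x) p :=
  ⟨h.cd.mul h'.cd, SbAlg.mul hL h.cd h'.cd h.sb h'.sb⟩

theorem SC.add (h : SC v k w L f p) (h' : SC v k w' L g p) :
    SC v k (w + w') L (fun x => f x + g x) p :=
  ⟨h.cd.add h'.cd, SbAlg.add h.cd h'.cd h.sb h'.sb⟩

theorem SC.sub (h : SC v k w L f p) (h' : SC v k w' L g p) :
    SC v k (w + w') L (fun x => f x - g x) p :=
  ⟨h.cd.sub h'.cd, SbAlg.sub h.cd h'.cd h.sb h'.sb⟩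

theorem SC.sum {n : ℕ} (hL : 0 ≤ L) {F : Fin n → X → ℝ} (h : ∀ j, SC v k w L (F j) p) :
    SC v k (n * w) L (fun x => ∑ j, F j x) p := by
  refine ⟨ContDiffAt.sum fun j _ => (h j).cd, ?_⟩
  have := SbAlg.sum hL Finset.univ F (fun _ => w) (fun j _ => (h j).cd) fun j _ => (h j).sb
  rwa [Finset.sum_const, Finset.card_univ, Fintype.card_fin, nsmul_eq_mul] at this

theorem sb_zero (h : |f p| ≤ w) : SB v 0 w L f p := fun l hl => by
  obtain rfl := List.length_eq_zero_iff.1 (Nat.le_zero.1 hl)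
  simpa [Ds] using h

theorem abs_le_of_sb (h : SB v k w L f p) : |f p| ≤ w := by
  simpa [Ds] using h [] (Nat.zero_le _)

theorem sb1_of (h : SB v k w L f p) : SB1 v k w L f p := fun l _ hl => h l hl

theorem sb1_scale {L' : ℝ} (h : SB1 v k w L f p) (hL : 0 ≤ L) (hw : 0 ≤ w) (hL' : L ≤ L')
    (hwL : w * L ≤ w' * L') : SB1 v k w' L' f p := fun l h0 hl => by
  refine (h l h0 hl).trans ?_
  obtain ⟨m, hm⟩ := Nat.exists_eq_succ_of_ne_zero (mt List.length_eq_zero_iff.1 h0)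
  rw [hm, pow_succ', pow_succ', ← mul_assoc, ← mul_assoc]
  exact mul_le_mul hwL (pow_le_pow_left₀ hL hL' m) (pow_nonneg hL m)
    ((mul_nonneg hw hL).trans hwL)

theorem Ds_map {κ' : Type} (e : κ' → κ) (l : List κ') :
    Ds (fun i => v (e i)) l f = Ds v (l.map e) f := by
  induction l with
  | nil => rfl
  | cons i l ih => rw [List.map_cons, SbAlg.Ds_cons, SbAlg.Ds_cons, ih]

theorem sb_res {κ' : Type} (e : κ' → κ) (h : SB v k w L f p) :
    SB (fun i => v (e i)) k w L f p := fun l hl => by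
  have := h (l.map e) (by simpa using hl)
  rwa [List.length_map, ← Ds_map] at this

theorem sb1_res {κ' : Type} (e : κ' → κ) (h : SB1 v k w L f p) :
    SB1 (fun i => v (e i)) k w L f p := fun l h0 hl => by
  have := h (l.map e) (by simpa using h0) (by simpa using hl)
  rwa [List.length_map, ← Ds_map] at this

theorem inv_bd (k : ℕ) : ∃ C : ℝ, 1 ≤ C ∧ ∀ (X : Type) [NormedAddCommGroup X] [NormedSpace ℝ X]
    (κ : Type) (v : κ → X) (L B : ℝ) (p : X) (f : X → ℝ), 0 ≤ L → 1 ≤ B → 0 < f p →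
    SC v k (B * f p) L f p → SC v k (C * B ^ k / f p) L (fun x => (f x)⁻¹) p := by
  obtain ⟨C, hC, H⟩ := s_sbComp s_sbAlg k
  exact ⟨C, hC, fun X _ _ κ v L B p f hL hB h0 h => ⟨h.cd.inv h0.ne',
    ((H X κ v L _ p f hL h.cd (sb1_of h.sb)).2.2.1 B hB h0 le_rfl).1⟩⟩

theorem SC.bil {n : ℕ} (hL : 0 ≤ L) {γ : Fin n → Fin n → X → ℝ} {a b : Fin n → X → ℝ}
    {w₁ w₂ w₃ : ℝ} (hγ : ∀ i j, SC v k w₁ L (γ i j) p) (ha : ∀ i, SC v k w₂ L (a i) p)
    (hb : ∀ i, SC v k w₃ L (b i) p) :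
    SC v k (n * (n * (2 ^ k * (2 ^ k * w₁ * w₂) * w₃))) L
      (fun x => bil (fun i j => γ i j x) (fun i => a i x) fun i => b i x) p :=
  SC.sum hL fun i => SC.sum hL fun j => ((hγ i j).mul hL (ha i)).mul hL (hb j)

end gen

/-- The quotient defining the singular part. -/
def quo {n : ℕ} (γ : Fin n → Fin n → X2 n → ℝ) (m z d : Fin n → X2 n → ℝ) (St al : X2 n → ℝ)
    (i : Fin n) (x : X2 n) : ℝ :=
  St x * tri (fun i j => γ i j x) (fun i => m i x) (fun i => z i x) (fun i => d i x) i /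
    ((∑ i, (∑ j, γ i j x * d j x) * d i x) + al x)

def CoreP (n k : ℕ) (B K : ℝ) : Prop :=
  ∀ (v : Fin n → X2 n) (p : X2 n) (L wS wz R : ℝ) (γ : Fin n → Fin n → X2 n → ℝ)
    (m z d : Fin n → X2 n → ℝ) (St al : X2 n → ℝ), 0 ≤ L → 0 < R →
    (∑ i, (∑ j, γ i j p * d j p) * d i p) + al p = R → (∀ i j, SC v k B L (γ i j) p) →
    (∀ i, SC v k B L (m i) p) → (∀ i, SC v k wz L (z i) p) → (∀ i, SC v k (B * √R) L (d i) p) →
    SC v k wS L St p → SC v k (B * R) L al p →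
    ∀ i, SB v k (K * (wS * wz) / √R) L (quo γ m z d St al i) p

theorem core (n k : ℕ) {B : ℝ} (hB : 1 ≤ B) : ∃ K, 1 ≤ K ∧ CoreP n k B K := by
  obtain ⟨C, hC, H⟩ := inv_bd k
  obtain ⟨B', hB'⟩ : ∃ B' : ℝ, B' = n * (2 ^ k * (n * (2 ^ k * B * B)) * B) + B := ⟨_, rfl⟩
  have B0 : 0 ≤ B := by linarith
  have B1 : 1 ≤ B' := by
    have : 0 ≤ (n : ℝ) * (2 ^ k * (n * (2 ^ k * B * B)) * B) := by positivity
    linarith
  obtain ⟨K, hK⟩ : ∃ K : ℝ, K = 2 ^ k * (2 ^ k * (3 * (n * (n * (2 ^ k * 2 ^ k * 2 ^ k)) * B ^ 3))) *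
    (C * B' ^ k) := ⟨_, rfl⟩
  have K0 : 0 ≤ K := by rw [hK]; positivity
  refine ⟨K + 1, by linarith, fun v p L wS wz R γ m z d St al hL R0 hR hγ hm hz hd hS ha i => ?_⟩
  have s0 : 0 < √R := Real.sqrt_pos.2 R0
  have ss : √R * √R = R := Real.mul_self_sqrt R0.le
  have hr := (SC.sum hL fun i => (SC.sum hL fun j => (hγ i j).mul hL (hd j)).mul hL (hd i)).add ha
  have hi := H _ _ v L B' p (fun x => (∑ i, (∑ j, γ i j x * d j x) * d i x) + al x) hL B1
    (by rw [hR]; exact R0) (hr.mono hL (le_of_eq (by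
      rw [hR, hB']
      linear_combination (n * (2 ^ k * (n * (2 ^ k * B * B)) * B)) * ss)))
  have ht := (((SC.bil hL hγ hz hd).mul hL (hm i)).add ((SC.bil hL hγ hm hd).mul hL (hz i))).sub
    ((SC.bil hL hγ hm hz).mul hL (hd i))
  have hq := ((hS.mul hL ht).mul hL hi).mono hL (w' := (K + 1) * (wS * wz) / √R) (by
    rw [hR]
    have e : K * (wS * wz) / √R ≤ (K + 1) * (wS * wz) / √R := by
      have := hS.nn
      have := (hz i).nn
      gcongr
      linarith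
    refine le_trans (le_of_eq ?_) e
    rw [hK, eq_div_iff s0.ne']
    field_simp
    rw [Real.sq_sqrt R0.le]
    ring)
  exact SbAlg.congr (Filter.Eventually.of_forall fun x => (div_eq_mul_inv _ _).symm) hq.sb

end Ww6

end Vale.Agent.P088
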