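import Vale.Agent.P088.StI
import Vale.Agent.P088.SbComp

/-!
# P088: cutoff functions near the diagonal
-/

open MeasureTheory Set Metric Filter
open scoped ContDiff Topology

noncomputable section
namespace Vale.Agent.P088
open Vale.Agent.P136 (D Dp Dm Sm Tst D_add_at D_mul_at D_const D_const_mul_at)

namespace Ww7

variable {n : ℕ} {ι : Type} {f : Fx} {c : Cx n ι} {p : X2 n} {F G : X2 n → ℝ} {C C' : ℝ}

theorem mono (hv : 0 ≤ vv f c p) (h : CutB f c C F p) (hC : C ≤ C') : CutB f c C' F p :=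
  ⟨fun i => ⟨(h.1 i).1.trans hC, fun j => ((h.1 i).2 j).trans hC⟩,
    fun i => (h.2 i).trans (mul_le_mul_of_nonneg_right hC hv)⟩

theorem aff (hF : Sm F) (h : CutB f c C F p) (a b : ℝ) :
    CutB f c (|a| * C) (fun q => b + a * F q) p := by
  have e : ∀ u, D u (fun q => b + a * F q) = fun q => a * D u F q := fun u => funext fun q => by
    rw [D_add_at (differentiableAt_const b) ((hF.cmul a).dAt q), D_const, zero_add,
      D_const_mul_at (hF.dAt q)]
  simp only [CutB, e, D_const_mul_at ((hF.D _).dAt p), abs_mul, mul_assoc]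
  exact ⟨fun i => ⟨mul_le_mul_of_nonneg_left (h.1 i).1 (abs_nonneg a), fun j =>
    mul_le_mul_of_nonneg_left ((h.1 i).2 j) (abs_nonneg a)⟩,
    fun i => mul_le_mul_of_nonneg_left (h.2 i) (abs_nonneg a)⟩

theorem two (hQ : 0 ≤ QQ c p) (h : CutB f c C F p) (h' : CutB f c C' G p) (i j) :
    |D (exy i) F p| * |D (exy j) G p| * QQ c p ≤ C * C' := by
  have := mul_le_mul (h.1 i).1 (h'.1 j).1 (by positivity) (le_trans (by positivity) (h.1 i).1)
  rwa [mul_mul_mul_comm, Real.mul_self_sqrt hQ] at this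

theorem mul {a b : ℝ} (hQ : 0 ≤ QQ c p) (hv : 0 ≤ vv f c p) (hC : 0 ≤ C) (hC' : 0 ≤ C')
    (hF : Sm F) (hG : Sm G) (h : CutB f c C F p) (h' : CutB f c C' G p) (ha : |F p| ≤ a)
    (hb : |G p| ≤ b) : CutB f c (a * C' + 2 * (C * C') + C * b) (fun q => F q * G q) p := by
  have e : ∀ u, D u (fun q => F q * G q) = fun q => F q * D u G q + D u F q * G q :=
    fun u => funext fun q => D_mul_at (hF.dAt q) (hG.dAt q) u
  have k : ∀ {x y t s A B : ℝ}, 0 ≤ s → |x| * s ≤ A → |y| * s ≤ B → |t| * s ≤ 2 * (C * C') →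
      |F p * y + t + x * G p| * s ≤ a * B + 2 * (C * C') + A * b := by
    intro x y t s A B hs hx hy ht
    have k1 := mul_le_mul ha hy (by positivity) ((abs_nonneg _).trans ha)
    have k2 := mul_le_mul hx hb (abs_nonneg _) (le_trans (by positivity) hx)
    have k3 := mul_le_mul_of_nonneg_right (abs_add_three (F p * y) t (x * G p)) hs
    rw [abs_mul, abs_mul] at k3
    linarith
  have hz : ∀ s : ℝ, |(0 : ℝ)| * s ≤ 2 * (C * C') := fun s => by rw [abs_zero, zero_mul]; positivity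
  rw [CutB]
  simp only [e]
  refine ⟨fun i => ⟨?_, fun j => ?_⟩, fun i => ?_⟩
  · simpa only [add_zero] using k (Real.sqrt_nonneg _) (h.1 i).1 (h'.1 i).1 (hz _)
  · rw [D_add_at ((hF.mul (hG.D _)).dAt p) (((hF.D _).mul hG).dAt p),
      D_mul_at (hF.dAt p) ((hG.D _).dAt p), D_mul_at ((hF.D _).dAt p) (hG.dAt p), ← add_assoc,
      add_assoc (F p * _)]
    refine k hQ ((h.1 i).2 j) ((h'.1 i).2 j)
      ((mul_le_mul_of_nonneg_right (abs_add_le _ _) hQ).trans ?_)
    rw [abs_mul, abs_mul]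
    linarith [two hQ h h' i j, two hQ h h' j i]
  · have k1 := mul_le_mul ha (h'.2 i) (abs_nonneg _) ((abs_nonneg _).trans ha)
    have k2 := mul_le_mul (h.2 i) hb (abs_nonneg _) (mul_nonneg hC hv)
    refine (abs_add_le _ _).trans ?_
    rw [abs_mul, abs_mul]
    nlinarith [mul_nonneg (mul_nonneg hC hC') hv]

theorem chain {g : ℝ → ℝ} (hg : ContDiff ℝ ∞ g) (hF : Sm F) (u : X2 n) :
    D u (fun q => g (F q)) = fun q => deriv g (F q) * D u F q := funext fun q => by
  have := ((hg.differentiable (by simp) (F q)).hasDerivAt.comp_hasFDerivAt q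
    (hF.dAt q).hasFDerivAt).fderiv
  rw [D, show (fun q => g (F q)) = g ∘ F from rfl, this]
  rfl

theorem sm1 : ContDiff ℝ ∞ (deriv cut) := SbComp.cut_smooth.iterate_deriv 1

theorem chain2 (hF : Sm F) (u w : X2 n) : D u (D w fun q => cut (F q)) p =
    deriv cut (F p) * D u (D w F) p + deriv (deriv cut) (F p) * (D u F p * D w F p) := by
  rw [chain SbComp.cut_smooth hF, D_mul_at (f := fun q => deriv cut (F q))
    (Sm.dAt (sm1.comp hF) p) ((hF.D w).dAt p), chain sm1 hF, mul_assoc]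

theorem van {x : ℝ} (h : x ∉ Icc (1 : ℝ) 2) : deriv cut x = 0 ∧ deriv (deriv cut) x = 0 := by
  obtain ⟨a, ha⟩ : ∃ a : ℝ, cut =ᶠ[𝓝 x] fun _ => a := by
    rcases not_and_or.1 h with h | h
    · refine ⟨1, ?_⟩
      filter_upwards [Iio_mem_nhds (not_le.1 h)] with y hy
      exact Real.smoothTransition.one_of_one_le (by linarith [mem_Iio.1 hy])
    · refine ⟨0, ?_⟩
      filter_upwards [Ioi_mem_nhds (not_le.1 h)] with y hy
      exact Real.smoothTransition.zero_of_nonpos (by linarith [mem_Ioi.1 hy])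
  exact ⟨by rw [ha.deriv_eq, deriv_const], by rw [ha.deriv.deriv_eq]; simp⟩

theorem bd : ∃ M : ℝ, 1 ≤ M ∧ ∀ y, |deriv cut y| ≤ M ∧ |deriv (deriv cut) y| ≤ M := by
  obtain ⟨a, ha⟩ := SbComp.cut_bd 1
  obtain ⟨b, hb⟩ := SbComp.cut_bd 2
  rw [iteratedDeriv_one] at ha
  rw [iteratedDeriv_succ, iteratedDeriv_one] at hb
  exact ⟨max 1 (max a b), le_max_left _ _, fun y => ⟨(ha y).trans (by simp), (hb y).trans (by simp)⟩⟩

theorem comp {M B N : ℝ} (hM : ∀ y, |deriv cut y| ≤ M ∧ |deriv (deriv cut) y| ≤ M)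
    (hQ : 0 ≤ QQ c p) (hv : 0 ≤ vv f c p) (hB : 0 ≤ B) (hN : 0 < N) (hF : Sm F)
    (h : CutB f c (B * F p) F p) :
    CutB f c (M * (2 * B + 2 * B * (2 * B))) (fun q => cut (F q / N)) p ∧ (N ≤ F p ∨
      ∀ u, D u (fun q => cut (F q / N)) p = 0 ∧ ∀ w, D u (D w fun q => cut (F q / N)) p = 0) := by
  have hM0 : 0 ≤ M := (abs_nonneg _).trans (hM 0).1
  have hK : Sm fun q => F q / N := hF.div_const N
  by_cases hx : F p / N ∈ Icc (1 : ℝ) 2
  · refine ⟨?_, Or.inl ((one_le_div hN).1 hx.1)⟩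
    have h1 := aff hF h N⁻¹ 0
    simp only [zero_add, ← div_eq_inv_mul] at h1
    have h2 := mono hv h1 (C' := 2 * B) (by
      rw [abs_of_pos (inv_pos.2 hN), mul_left_comm, ← div_eq_inv_mul, mul_comm 2]
      exact mul_le_mul_of_nonneg_left hx.2 hB)
    have h3 : M * (2 * B) ≤ M * (2 * B + 2 * B * (2 * B)) :=
      mul_le_mul_of_nonneg_left (le_add_of_nonneg_right (by positivity)) hM0
    refine ⟨fun i => ⟨?_, fun j => ?_⟩, fun i => ?_⟩
    · rw [chain SbComp.cut_smooth hK, abs_mul, mul_assoc]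
      exact (mul_le_mul (hM _).1 (h2.1 i).1 (by positivity) hM0).trans h3
    · rw [chain2 hK]
      refine (mul_le_mul_of_nonneg_right (abs_add_le _ _) hQ).trans ?_
      rw [add_mul, abs_mul, abs_mul, abs_mul, mul_assoc, mul_assoc, mul_add]
      exact add_le_add (mul_le_mul (hM _).1 ((h2.1 i).2 j) (by positivity) hM0)
        (mul_le_mul (hM _).2 (two hQ h2 h2 i j) (by positivity) hM0)
    · rw [chain SbComp.cut_smooth hK, abs_mul]
      exact (mul_le_mul (hM _).1 (h2.2 i) (abs_nonneg _) hM0).trans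
        ((mul_assoc _ _ _).ge.trans (mul_le_mul_of_nonneg_right h3 hv))
  · have h1 : ∀ u, D u (fun q => cut (F q / N)) p = 0 ∧
        ∀ w, D u (D w fun q => cut (F q / N)) p = 0 := fun u =>
      ⟨by rw [chain SbComp.cut_smooth hK]; simp only [(van hx).1, zero_mul],
        fun w => by rw [chain2 hK, (van hx).1, (van hx).2, zero_mul, zero_mul, zero_add]⟩
    refine ⟨?_, Or.inr h1⟩
    simp only [CutB, (h1 _).1, (h1 _).2, abs_zero, zero_mul]
    exact ⟨fun _ => ⟨by positivity, fun _ => by positivity⟩, fun _ => by positivity⟩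

theorem cut01 (x : ℝ) : |cut x| ≤ 1 ∧ |1 + -1 * cut x| ≤ 1 := by
  have h1 : 0 ≤ cut x := Real.smoothTransition.nonneg _
  have h2 : cut x ≤ 1 := Real.smoothTransition.le_one _
  exact ⟨abs_le.2 ⟨by linarith, h2⟩, abs_le.2 ⟨by linarith, by linarith⟩⟩

end Ww7

theorem s_w7 (h0 : S_w0) (hq : S_wq) (h1 : S_w1) (h2 : S_w2) : S_w7 := by
  intro n ι f hf
  obtain ⟨M, hM1, hM⟩ := Ww7.bd
  obtain ⟨Cq, hCq, hq⟩ := hq n
  obtain ⟨C1, hC1, h1⟩ := h1 n ι f hf
  obtain ⟨C2, -, h2⟩ := h2 n ι f hf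
  obtain ⟨B, hB⟩ : ∃ B, B = 9 * C1 + 2 * (Cq * (9 * C1)) + Cq := ⟨_, rfl⟩
  have hB1 : 9 * C1 ≤ B := by rw [hB, add_assoc]; exact le_add_of_nonneg_right (by positivity)
  obtain ⟨A, hA⟩ : ∃ A, A = M * (2 * B + 2 * B * (2 * B)) := ⟨_, rfl⟩
  have hA1 : 1 ≤ A := hA ▸ one_le_mul_of_one_le_of_one_le hM1 (by nlinarith)
  have hA2 : A ≤ A ^ 2 := by nlinarith
  have hA4 : A ^ 2 ≤ A ^ 4 := pow_le_pow_right₀ hA1 (by norm_num)
  refine ⟨4 * A ^ 4, by linarith, (((h0 n ι f hf).and ((hq ι f hf 1 one_pos).and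
    (h1.and (h2 1 one_pos)))).and (Ev.ok f one_pos 0)).mono ?_⟩
  rintro c ⟨⟨w0, wq, w1, w2⟩, -, hL, -⟩ p hp hN N r N1 r1 -
  obtain ⟨⟨-, -, -, -, sQ, -, sF, -, -, sP, -⟩, wx, wp, -⟩ := w0
  obtain ⟨q0, -, pF, pv, ps, -⟩ := wp p
  have pQ : 0 ≤ QQ c p := le_trans (by positivity) q0
  have pv1 : 1 ≤ vv f c p := hL.trans pv
  have pv0 : 0 ≤ vv f c p := by linarith
  have pP : 0 ≤ Psi f c p := mul_nonneg pQ pF.le
  obtain ⟨-, -, -, a4, a5, -⟩ := (w2 p hp).2.2.2.2.2.2.2.2.2.2.2.2.1 hN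
  have pa : FF f c p ≤ aX f c p.1 := by linarith [(abs_le.1 a4).2]
  obtain ⟨-, -, -, -, -, -, -, -, -, -, b1, -, -, -, b2⟩ := w1 p hp
  obtain ⟨-, -, q1, -, -, -, -, q2, -⟩ := wq p hp
  have hP : CutB f c (9 * C1 * Psi f c p) (Psi f c) p := by
    have k0 : 0 ≤ C1 * Psi f c p := by positivity
    refine ⟨fun i => ⟨?_, fun j => ?_⟩, fun i => (b2 i).1.trans ?_⟩
    · refine (mul_le_mul_of_nonneg_right (b1 i).1 (Real.sqrt_nonneg _)).trans ?_
      have : C1 * z0 f c p * √(QQ c p) = C1 * Psi f c p * sig f c p := by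
        rw [z0, al, Psi, mul_assoc, mul_assoc _ (√_), Real.mul_self_sqrt pQ]
        ring
      rw [this]
      nlinarith
    · have := (b1 i).2 j [] (by simp)
      rw [List.length_nil, pow_zero, mul_one] at this
      refine (mul_le_mul_of_nonneg_right this pQ).trans ?_
      have : C1 * AA f c p * QQ c p = C1 * Psi f c p * sig f c p ^ 2 := by
        rw [AA, Psi]
        ring
      rw [this]
      nlinarith [mul_le_mul_of_nonneg_left (show sig f c p ^ 2 ≤ 9 by nlinarith) k0]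
    · nlinarith [mul_nonneg k0 pv0]
  have hQ : CutB f c (Cq * QQ c p) (QQ c) p := by
    refine ⟨fun i => ⟨?_, fun j => ?_⟩, fun i => (q2 i).1.trans ?_⟩
    · refine (mul_le_mul_of_nonneg_right (q1 i).1 (Real.sqrt_nonneg _)).trans ?_
      rw [mul_assoc, Real.mul_self_sqrt pQ]
    · have := (q1 i).2 j [] (by simp)
      rw [List.length_nil, pow_zero, mul_one] at this
      exact mul_le_mul_of_nonneg_right this pQ
    · rw [mul_right_comm]
      exact mul_le_mul_of_nonneg_right (one_le_mul_of_one_le_of_one_le hCq pv1) pQ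
  have hν := Ww7.mul pQ pv0 (by positivity) (by positivity) sQ sP hQ hP (abs_of_nonneg pQ).le
    (abs_of_nonneg pP).le
  have e : (fun q => QQ c q * Psi f c q) = fun q => QQ c q ^ 2 * FF f c q := by
    funext q
    rw [Psi, sq, mul_assoc]
  rw [e] at hν
  obtain ⟨c1, c2⟩ := Ww7.comp (B := B) hM pQ pv0 (by linarith) (zero_lt_one.trans_le N1) sP
    (Ww7.mono pv0 hP (mul_le_mul_of_nonneg_right hB1 pP))
  obtain ⟨d1, d2⟩ := Ww7.comp (B := B) hM pQ pv0 (by linarith) (zero_lt_one.trans_le r1)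
    ((sQ.pow 2).mul sF) (Ww7.mono pv0 hν (le_of_eq (by rw [hB, Psi]; ring)))
  rw [← hA] at c1 d1
  change CutB f c A (cq f c N) p at c1
  change CutB f c A (cn f c r) p at d1
  have s1 : Sm (cq f c N) := SbComp.cut_smooth.comp (sP.div_const N)
  have s2 : Sm (cn f c r) := SbComp.cut_smooth.comp (((sQ.pow 2).mul sF).div_const r)
  have m1 := Ww7.mul pQ pv0 (by positivity) (by positivity) ((Sm.const 1).add (s1.cmul (-1))) s2
    (Ww7.aff s1 c1 (-1) 1) d1 (Ww7.cut01 _).2 (Ww7.cut01 _).1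
  simp only [abs_neg, abs_one, one_mul, mul_one, neg_mul, ← sub_eq_add_neg] at m1
  have pX := (wx p.1).1
  have fin : ∀ {x y : ℝ}, x ≤ y * FF f c p → y ≤ A ^ 4 → x ≤ 4 * A ^ 4 * aX f c p.1 :=
    fun hx hy => hx.trans (mul_le_mul (by linarith) pa pF.le (by positivity))
  have sq1 : ∀ {G : X2 n → ℝ}, CutB f c A G p → ∀ i, D (exy i) G p ^ 2 * QQ c p ≤ A ^ 2 :=
    fun h i => by simpa only [abs_mul_abs_self, sq] using Ww7.two pQ h h i i
  refine ⟨Ww7.mono pv0 c1 (by linarith), Ww7.mono pv0 d1 (by linarith),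
    Ww7.mono pv0 m1 (by nlinarith), fun i => ⟨?_, ?_, fun j => ⟨?_, ?_⟩⟩⟩
  · rcases c2 with h | h
    · refine fin ((mul_le_mul_of_nonneg_left h (sq_nonneg _)).trans ?_) hA4
      rw [Psi, ← mul_assoc]
      exact mul_le_mul_of_nonneg_right (sq1 c1 i) pF.le
    · rw [show D (exy i) (cq f c N) p = 0 from (h _).1, zero_pow two_ne_zero, zero_mul]
      positivity
  · rcases d2 with h | h
    · refine fin ((le_mul_of_one_le_right (by positivity) (r1.trans h)).trans ?_) le_rfl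
      rw [← mul_assoc]
      refine mul_le_mul_of_nonneg_right ?_ pF.le
      have := pow_le_pow_left₀ (by positivity) (sq1 d1 i) 2
      rwa [mul_pow, ← pow_mul, ← pow_mul] at this
    · rw [show D (exy i) (cn f c r) p = 0 from (h _).1, zero_pow four_ne_zero]
      positivity
  · rcases c2 with h | h
    · refine fin ((mul_le_mul_of_nonneg_left h (abs_nonneg _)).trans ?_) (hA2.trans hA4)
      rw [Psi, ← mul_assoc]
      exact mul_le_mul_of_nonneg_right ((c1.1 i).2 j) pF.le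
    · rw [show D (exy i) (D (exy j) (cq f c N)) p = 0 from (h _).2 _, abs_zero, zero_mul]
      positivity
  · rcases d2 with h | h
    · refine fin ((le_mul_of_one_le_right (by positivity) (r1.trans h)).trans ?_) hA4
      rw [← mul_assoc]
      refine mul_le_mul_of_nonneg_right ?_ pF.le
      have := pow_le_pow_left₀ (by positivity) ((d1.1 i).2 j) 2
      rwa [mul_pow, sq_abs] at this
    · rw [show D (exy i) (D (exy j) (cn f c r)) p = 0 from (h _).2 _, zero_pow two_ne_zero]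
      positivity

end Vale.Agent.P088
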