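import Vale.Agent.P088.Ww8a

/-!
# P088: facts in the innermost zone
-/

open MeasureTheory Set Metric Filter
open scoped ContDiff Topology

noncomputable section
namespace Vale.Agent.P088
open Vale.Agent.P136 (D Dp Dm Sm Tst D_add_at D_sub_at D_mul_at D_const D_const_mul_at D_sum_at)

namespace Ww8

variable {n : ℕ} {ι : Type} {f : Fx} {c : Cx n ι} {E : MatF n} {p : X2 n}

/-- The square of the frame. -/
def Hm (E : MatF n) (i j : Fin n) (x : En n) : ℝ := ∑ a, E a i x * E a j x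

theorem sm_Hm (hE : SmM E) (i j : Fin n) : Sm (Hm E i j) := Sm.sum fun a _ => (hE a i).mul (hE a j)

theorem Hm_comm (E : MatF n) (i j : Fin n) (x : En n) : Hm E i j x = Hm E j i x :=
  Finset.sum_congr rfl fun _ _ => mul_comm _ _

theorem sm_wv (hf : Sm (fX f c)) (hE : SmM E) : ContDiff ℝ ∞ (wv f c E) :=
  contDiff_euclidean.2 fun a => (sm_fst hf).mul (sm_lin (hE a))

theorem wv_sq (h : fX f c p.1 ^ 2 = aX f c p.1) :
    ‖wv f c E p‖ ^ 2 = aX f c p.1 * ∑ i, (∑ l, Hm E i l p.1 * zz p l) * zz p i := by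
  rw [EuclideanSpace.real_norm_sq_eq, ← h]
  simp only [wv, Hm, mul_pow, ← Finset.mul_sum]
  congr 1
  simp only [sq, Finset.sum_mul, Finset.mul_sum]
  rw [Finset.sum_comm]
  refine Finset.sum_congr rfl fun i _ => ?_
  rw [Finset.sum_comm]
  exact Finset.sum_congr rfl fun l _ => Finset.sum_congr rfl fun a _ => by ring

theorem D_wv (ha : Sm (aX f c)) (hE : SmM E) (h : ∀ x, fX f c x ^ 2 = aX f c x) (j : Fin n)
    (p : X2 n) : D (ey j) (fun q => ‖wv f c E q‖ ^ 2 / 2) p =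
      ∑ l, aX f c p.1 * Hm E j l p.1 * zz p l := by
  have s1 := fun i => sm_lin (sm_Hm hE i)
  have s2 : Sm fun q : X2 n => ∑ i, (∑ l, Hm E i l q.1 * zz q l) * zz q i :=
    Sm.sum fun i _ => (s1 i).mul (sm_zz i)
  have e : (fun q => ‖wv f c E q‖ ^ 2 / 2) = fun q =>
      2⁻¹ * (aX f c q.1 * ∑ i, (∑ l, Hm E i l q.1 * zz q l) * zz q i) := funext fun q => by
    rw [wv_sq (h _), div_eq_inv_mul]
  rw [e, D_const_mul_at (((sm_fst ha).mul s2).dAt p), D_mul_at ((sm_fst ha).dAt p) (s2.dAt p),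
    D_fst ha, D_sum_at _ fun i _ => ((s1 i).mul (sm_zz i)).dAt p]
  simp only [fun i => D_mul_at ((s1 i).dAt p) ((sm_zz i).dAt p), D_lin (sm_Hm hE _), D_zz,
    zero_mul, add_zero, mul_ite, mul_one, mul_zero, Finset.sum_add_distrib, Finset.sum_ite_eq',
    Finset.mem_univ, if_true, Hm_comm E _ j, mul_assoc, ← Finset.mul_sum]
  ring

theorem D_thw (w0 : W0 f c) (hE : SmM E) (hQ : QQ c p < f.t0 ^ 2 / 4) :
    thw f c E p = QQ c p * FF f c p + f.Cw * (lu f c p - lX f c p.1) - ‖wv f c E p‖ ^ 2 / 2 ∧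
    ∀ j, D (ey j) (thw f c E) p = QQ c p * D (ey j) (FF f c) p + D (ey j) (QQ c) p * FF f c p +
      f.Cw * D (ey j) (lu f c) p - aX f c p.1 * ∑ l, Hm E j l p.1 * zz p l ∧
    ∀ i, D (ey i) (D (ey j) (thw f c E)) p = QQ c p * D (ey i) (D (ey j) (FF f c)) p +
      D (ey i) (QQ c) p * D (ey j) (FF f c) p + (D (ey j) (QQ c) p * D (ey i) (FF f c) p +
        D (ey i) (D (ey j) (QQ c)) p * FF f c p) + f.Cw * D (ey i) (D (ey j) (lu f c)) p -
      aX f c p.1 * Hm E i j p.1 := by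
  obtain ⟨⟨-, -, -, -, sQ, -, sF, -, -, -, -, -, sl, -, -, -, -, -, -, -, -, -, -, -, -, -, -, -, -,
    -, -, -, -, -, -, -, -, sa, -, sX, sf, -⟩, wx, -, -, wl⟩ := w0
  have e : thw f c E =ᶠ[𝓝 p] fun q => QQ c q * FF f c q + f.Cw * lu f c q - f.Cw * lX f c q.1 -
      ‖wv f c E q‖ ^ 2 / 2 := ((wl p).1 hQ).1.mono fun q hq => by rw [thw, hq, ph0, Psi]
  have sN : Sm fun q => ‖wv f c E q‖ ^ 2 / 2 := ((sm_wv sf hE).norm_sq ℝ).div_const 2
  have s1 := (sQ.mul sF).add (sl.cmul f.Cw)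
  have s2 := (sm_fst sX).cmul f.Cw
  refine ⟨by rw [e.self_of_nhds]; ring, fun j => ?_⟩
  have e1 : D (ey j) (thw f c E) =ᶠ[𝓝 p] fun q => QQ c q * D (ey j) (FF f c) q +
      D (ey j) (QQ c) q * FF f c q + f.Cw * D (ey j) (lu f c) q -
        ∑ l, aX f c q.1 * Hm E j l q.1 * zz q l := (SbAlg.D_ev e _).mono fun q hq => by
    rw [hq, D_sub_at ((s1.sub s2).dAt q) (sN.dAt q), D_sub_at (s1.dAt q) (s2.dAt q),
      D_add_at ((sQ.mul sF).dAt q) ((sl.cmul _).dAt q), D_mul_at (sQ.dAt q) (sF.dAt q),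
      D_const_mul_at (sl.dAt q), D_const_mul_at ((sm_fst sX).dAt q), D_fst sX,
      D_wv sa hE fun x => (wx x).2.2.1, mul_zero, sub_zero]
  refine ⟨by simp only [e1.self_of_nhds, Finset.mul_sum, mul_assoc], fun i => ?_⟩
  have s3 := sQ.mul (sF.D (ey j))
  have s4 := (sQ.D (ey j)).mul sF
  have s5 := (sl.D (ey j)).cmul f.Cw
  have s6 := fun l => sa.mul (sm_Hm hE j l)
  rw [P136.D_congr e1, D_sub_at (((s3.add s4).add s5).dAt p) ((sm_lin s6).dAt p),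
    D_add_at ((s3.add s4).dAt p) (s5.dAt p), D_add_at (s3.dAt p) (s4.dAt p),
    D_mul_at (sQ.dAt p) ((sF.D _).dAt p), D_mul_at ((sQ.D _).dAt p) (sF.dAt p),
    D_const_mul_at ((sl.D _).dAt p), D_lin s6, Hm_comm]

theorem partB {Cq C1 C2 K η k : ℝ} (w0 : W0 f c) (wq : WQ c Cq η p) (w1 : W1 f c C1 p)
    (w2 : W2 f c C2 η p) (hN : p ∈ Nr f c 16) (hK : 1 ≤ K) (kq : Cq ≤ K) (k1 : C1 ≤ K)
    (k2 : C2 ≤ K) (kw : |f.Cw| ≤ K) (n3 : 4 * n ^ 3 * Cq ≤ K) (n4 : 8 * n ^ 4 * Cq ≤ K)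
    (n5 : 16 * n ^ 5 * Cq ≤ K) (hq : 0 ≤ Cq) (hη : K ^ 6 * η ≤ 1 / 64) (hη' : η ≤ 1 / 4)
    (hL : 1 ≤ c.L0) (hk : 1 ≤ k) (hkv : 2 * k ≤ vv f c p) (hP : Psi f c p ≤ 2 * k * vv f c p)
    (hE : FrOk c E 1) : |thw f c E p| ≤ 1 ∧ ‖wv f c E p‖ ^ 2 ≤ 4 * Psi f c p ∧
    Psi f c p ≤ ‖wv f c E p‖ ^ 2 ∧ ∀ i, |D (ey i) (thw f c E) p| ≤ 21 * K ^ 3 * k * vv f c p ^ 2 ∧
      ∀ j, |D (ey i) (D (ey j) (thw f c E)) p| ≤ 13 * K ^ 3 * k * vv f c p ^ 2 * fX f c p.1 := by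
  obtain ⟨a0, aL, af, -⟩ := w0.2.1 p.1
  obtain ⟨q0, -, pF, -, -, -, -, -, -, -, -, -, -, -, -, gG, -⟩ := w0.2.2.1 p
  obtain ⟨u1, -, -, -, -, -, -, -, -, -, u2, -, u3, -⟩ := w2
  obtain ⟨-, v1, -, v2, -, -, -, v3, -, -, v4, v5⟩ := u3 hN
  obtain ⟨-, -, q1, q2, q3, q4, q5, -⟩ := wq
  obtain ⟨bF, -, -, -, -, -, bl, -⟩ := w1
  obtain ⟨d0, d1⟩ := D_thw w0 hE.1 v3
  have pQ : 0 ≤ QQ c p := le_trans (by positivity) q0
  have L0 : 0 ≤ LX f c p.1 := by linarith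
  have hv : 1 ≤ vv f c p := by linarith
  have uL := (u2 (.inl (by linarith [sq_nonneg f.t0]))).1
  replace uL : LX f c p.1 ≤ K * vv f c p := uL.trans (by gcongr)
  have ht := Real.sqrt_nonneg (QQ c p)
  have hQ := Real.sq_sqrt pQ
  generalize √(QQ c p) = t at *
  replace v4 : |2 * FF f c p - aX f c p.1| ≤ K * aX f c p.1 * LX f c p.1 * t :=
    v4.trans (by gcongr)
  replace v5 : |lu f c p - lX f c p.1| ≤ K * LX f c p.1 * t := v5.trans (by gcongr)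
  replace v2 : |2 * FF f c p - aX f c p.1| ≤ 1 / 4 * aX f c p.1 := v2.trans (by gcongr)
  have hF : aX f c p.1 ≤ 4 * FF f c p := by linarith [(abs_le.1 v2).1]
  have hF' : FF f c p ≤ aX f c p.1 := by linarith [(abs_le.1 v2).2]
  have hs : K ^ 3 * vv f c p ^ 4 * t ≤ 1 / 8 := by
    refine le_of_sq_le_sq ?_ (by norm_num)
    have := mul_le_mul_of_nonneg_left v1 (by positivity : 0 ≤ K ^ 6)
    rw [← hQ] at this
    linarith
  have hz : ∀ l, |zz p l| ≤ 2 * t := fun l => (PiLp.norm_apply_le (zz p) l).trans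
    (le_of_sq_le_sq (by linarith) (by positivity))
  have bE : ∀ a i, |E a i p.1| ≤ 2 := fun a i => by
    have h1 : |E a i p.1 - if a = i then 1 else 0| ≤ 1 * 1 ^ 0 := hE.2.1 a i p.1 [] (by simp)
    rw [abs_le] at h1 ⊢
    split_ifs at h1 <;> constructor <;> linarith [h1.1, h1.2]
  have bG : ∀ i j, |Gm c p i j| ≤ Cq := fun i j =>
    ((q3 i j).2.1 [] (by simp)).trans_eq (by simp)
  have g0 : ∀ i j, |Gm c p i j - Hm E i j p.1| ≤ n * (n * (n * (2 * 2) * t) * Cq) :=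
    GH (E := fun a i => E a i p.1) (hE.2.2 p.1) gG bE bG fun i j =>
      (q3 i j).2.2.2.trans (mul_le_of_le_one_left ht (by linarith))
  have g1 : ∀ i, |zt c p i - ∑ l, Hm E i l p.1 * zz p l| ≤ 8 * n ^ 4 * Cq * t ^ 2 := fun i => by
    rw [zt, ← Finset.sum_sub_distrib]
    simp only [← sub_mul]
    exact (sum_bd fun l => amul (g0 i l) (hz l)).trans_eq (by ring)
  have g2 : |t ^ 2 - ∑ i, (∑ l, Hm E i l p.1 * zz p l) * zz p i| ≤ K * t ^ 3 := by
    rw [hQ, QQ, ← Finset.sum_sub_distrib]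
    simp only [← sub_mul]
    refine (sum_bd fun i => amul (g1 i) (hz i)).trans ?_
    linarith [mul_le_mul_of_nonneg_right n5 (pow_nonneg ht 3)]
  rw [Psi, ← hQ] at hP
  have hP' : t ^ 2 * FF f c p ≤ vv f c p ^ 2 := by nlinarith
  obtain ⟨r1, r2, r3⟩ := R0 hK hv ht hs a0 kw v2 v4 uL v5 g2 hP'
  have f1 : ∀ i, |D (ey i) (FF f c) p| ≤ K * FF f c p * vv f c p := fun i => by
    have h1 : |D (ey i) (FF f c) p| ≤ C1 * FF f c p * vv f c p ^ 1 := bF [.inr i] (by simp)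
    rw [pow_one] at h1
    exact h1.trans (by gcongr)
  have f2 : ∀ i, |D (ey i) (QQ c) p| ≤ K * t := fun i => (q1 (.inr i)).1.trans (by gcongr)
  rw [d0, wv_sq af, Psi, ← hQ]
  refine ⟨r1, r2, r3, fun i => ⟨?_, fun j => ?_⟩⟩
  · have h1 : |D (ey i) (lu f c) p| ≤ C1 * vv f c p ^ 1 := bl [.inr i] (by simp) (by simp)
    rw [pow_one] at h1
    rw [(d1 i).1, ← hQ]
    refine R1 hK hv hk ht a0 hF kw v4 uL hP (f1 i) ((q4 i).2.trans ?_)
      ((q2 i).1.trans (by gcongr)) (h1.trans (by gcongr)) ((g1 i).trans (by gcongr))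
    rw [hQ]
    exact mul_le_of_le_one_left pQ (by linarith)
  · have h1 : |D (ey i) (D (ey j) (lu f c)) p| ≤ C1 * vv f c p ^ 2 :=
      bl [.inr i, .inr j] (by simp) (by simp)
    have h2 : |D (ey i) (D (ey j) (FF f c)) p| ≤ C1 * FF f c p * vv f c p ^ 2 :=
      bF [.inr i, .inr j] (by simp)
    have h3 : vv f c p ≤ fX f c p.1 := by
      refine le_of_sq_le_sq ?_ (Real.exp_pos _).le
      have := mul_le_mul_of_nonneg_right hη' pF.le
      linarith [pow_le_pow_right₀ hv (by norm_num : 2 ≤ 20)]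
    rw [(d1 j).2 i, ← hQ]
    refine R2 hK hv hk ht h3 af hF hF' kw v4 uL hP hP' (f1 i) (f1 j) (h2.trans (by gcongr)) (f2 i)
      (f2 j) ((q5 i j).2.2.trans (mul_le_of_le_one_left ht (by linarith))) ((bG i j).trans kq)
      ((g0 i j).trans ?_) (h1.trans (by gcongr))
    linarith [mul_le_mul_of_nonneg_right n3 ht]

theorem partA {C1 C2 η k : ℝ} (w0 : W0 f c) (w1 : W1 f c C1 p) (w2 : W2 f c C2 η p)
    (hN : p ∈ Nr f c 16) (h1 : 1 ≤ C1) (hη : η ≤ 1 / 4) (hk : 1 ≤ k) (hkv : 2 * k ≤ vv f c p)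
    (hP : Psi f c p ≤ 2 * k * vv f c p) :
    ∃ R, 0 ≤ R ∧ R ^ 2 * (k * vv f c p) = aX f c p.1 ∧ vv f c p ≤ R ∧
      SB exy 2 (9 * C1 * vv f c p) (vv f c p) (vv f c) p ∧
      SB exy 2 (9 * C1 * (k * vv f c p)) R (Psi f c) p ∧
      ∀ i, SB exy 1 (9 * C1 * (k * vv f c p) * vv f c p) R (D (ex i + ey i) (Psi f c)) p := by
  obtain ⟨a0, -⟩ := w0.2.1 p.1
  obtain ⟨q0, -, pF, -, ps, -⟩ := w0.2.2.1 p
  obtain ⟨u1, -, -, -, -, -, -, -, -, -, -, -, u3, -⟩ := w2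
  obtain ⟨-, -, -, v2, v3, -⟩ := u3 hN
  obtain ⟨-, bv, -, -, -, -, -, -, -, -, b1, -, -, -, b2⟩ := w1
  have pQ : 0 ≤ QQ c p := le_trans (by positivity) q0
  have pP : 0 ≤ Psi f c p := mul_nonneg pQ pF.le
  have hv : 1 ≤ vv f c p := by linarith
  have v0 : 0 < vv f c p := by linarith
  have kv : 0 < k * vv f c p := by positivity
  have hF : FF f c p ≤ aX f c p.1 := by
    linarith [(abs_le.1 v2).2, mul_le_mul_of_nonneg_right hη a0.le]
  have hR := Real.sq_sqrt (div_pos a0 kv).le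
  have R0 := Real.sqrt_nonneg (aX f c p.1 / (k * vv f c p))
  generalize √(aX f c p.1 / (k * vv f c p)) = R at hR R0
  rw [eq_div_iff kv.ne'] at hR
  have s2 : sig f c p ^ 2 ≤ 9 := by nlinarith
  have hA : AA f c p ≤ 9 * aX f c p.1 := by
    rw [AA]
    nlinarith
  have hz : z0 f c p ≤ 9 * (k * vv f c p) * R := by
    refine le_of_sq_le_sq ?_ (by positivity)
    have e : z0 f c p ^ 2 = AA f c p * Psi f c p := by
      rw [z0, mul_pow, Real.sq_sqrt pQ, al, AA, Psi]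
      ring
    have e' : (9 * (k * vv f c p) * R) ^ 2 = 81 * (aX f c p.1 * (k * vv f c p)) := by
      rw [← hR]
      ring
    rw [e, e']
    nlinarith [mul_le_mul hA hP pP (by positivity), mul_pos a0 kv]
  have c0 : 0 ≤ C1 := by linarith
  have hz' := mul_le_mul_of_nonneg_left hz c0
  have hP' := mul_le_mul_of_nonneg_left hP c0
  have m1 := mul_le_mul_of_nonneg_right h1 kv.le
  refine ⟨R, R0, hR, ?_, SbAlg.mono v0.le bv (by norm_num) (by nlinarith) le_rfl,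
    fun l hl => ?_, fun i l hl => ?_⟩
  · refine le_of_sq_le_sq (le_of_mul_le_mul_right ?_ kv) R0
    have h2 := mul_le_mul_of_nonneg_right hη pF.le
    have h3 := mul_le_mul_of_nonneg_right hkv (pow_nonneg v0.le 3)
    have h4 := pow_le_pow_right₀ hv (by norm_num : 4 ≤ 20)
    have h5 := pow_nonneg v0.le 4
    linarith
  · match l, hl with
    | [], _ =>
      refine (abs_of_nonneg pP).trans_le ?_
      rw [List.length_nil, pow_zero]
      linarith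
    | [i], _ =>
      refine (b1 i).1.trans ?_
      rw [List.length_singleton, pow_one]
      linarith
    | [i, j], _ =>
      have h2 : |D (exy i) (D (exy j) (Psi f c)) p| ≤ C1 * AA f c p * vv f c p ^ 0 :=
        (b1 i).2 j [] (by simp)
      refine h2.trans ?_
      have h3 := mul_le_mul_of_nonneg_left hA c0
      rw [← hR] at h3
      change _ ≤ _ * R ^ 2
      linarith
  · match l, hl with
    | [], _ =>
      refine (b2 i).1.trans ?_
      rw [List.length_nil, pow_zero]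
      nlinarith [mul_le_mul_of_nonneg_right hP' v0.le, mul_pos kv v0]
    | [j], _ =>
      refine ((b2 i).2 j).1.trans ?_
      rw [List.length_singleton, pow_one]
      linarith [mul_le_mul_of_nonneg_right hz' v0.le]

end Ww8

theorem s_w8 (h0 : S_w0) (hq : S_wq) (h1 : S_w1) (h2 : S_w2) : S_w8 := by
  intro n ι f hf
  obtain ⟨Cq, hCq, hq⟩ := hq n
  obtain ⟨C1, hC1, h1⟩ := h1 n ι f hf
  obtain ⟨C2, hC2, h2⟩ := h2 n ι f hf
  obtain ⟨A, hA, hcut⟩ := Ww8.cutA (9 * C1) (by linarith)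
  obtain ⟨K, hK⟩ : ∃ K, K = Cq + C1 + C2 + |f.Cw| + 4 * n ^ 3 * Cq + 8 * n ^ 4 * Cq +
    16 * n ^ 5 * Cq := ⟨_, rfl⟩
  have p0 := abs_nonneg f.Cw
  have p3 : 0 ≤ 4 * (n : ℝ) ^ 3 * Cq := by positivity
  have p4 : 0 ≤ 8 * (n : ℝ) ^ 4 * Cq := by positivity
  have p5 : 0 ≤ 16 * (n : ℝ) ^ 5 * Cq := by positivity
  have hK1 : 1 ≤ K := by linarith
  have hK3 : 1 ≤ K ^ 3 := one_le_pow₀ hK1
  have hK6 : 1 ≤ K ^ 6 := one_le_pow₀ hK1
  have hA2 : A ≤ A ^ 2 := by nlinarith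
  obtain ⟨η, η0, η1, η2⟩ : ∃ η : ℝ, 0 < η ∧ K ^ 6 * η ≤ 1 / 64 ∧ η ≤ 1 / 4 :=
    ⟨1 / (64 * K ^ 6), by positivity, le_of_eq (by field_simp),
      one_div_le_one_div_of_le (by norm_num) (by linarith)⟩
  refine ⟨A ^ 2 + 21 * K ^ 3, by linarith, fun k hk => (((h0 n ι f hf).and ((hq ι f hf η η0).and
    (h1.and (h2 η η0)))).and (Ev.ok f one_pos (2 * k))).mono ?_⟩
  rintro c ⟨⟨w0, wq, w1, w2⟩, hL, hL1, -⟩
  have ⟨⟨_, _, _, _, _, _, _, sv, _, sP, _, _, _, _, _, _, _, sφ, _, _, _, _, _, _, _, _, _, _, _,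
    _, _, _, _, _, _, _, _, _, _, sX, sf, _⟩, wx, wp, _⟩ := w0
  have hv : ∀ q, 2 * k ≤ vv f c q := fun q => hL.trans (wp q).2.2.2.1
  have v0 : ∀ q, 0 < vv f c q := fun q => by linarith [hv q]
  have kv : ∀ q, 0 < k * vv f c q := fun q => mul_pos (by linarith) (v0 q)
  have ss : Sm fun q => Psi f c q / (k * vv f c q) := ContDiff.div sP (sv.cmul k) fun q => (kv q).ne'
  refine ⟨SbComp.cut_smooth.comp ss, fun p hp => ?_, fun E hE => ⟨Ww8.sm_wv sf hE,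
    (sφ.sub ((Ww8.sm_fst sX).cmul _)).sub (((Ww8.sm_wv sf hE).norm_sq ℝ).div_const 2)⟩,
    fun p hp hN => ?_⟩
  · have h3 : 2 < Psi f c p / (k * vv f c p) := by
      rw [lt_div_iff₀ (kv p), ← mul_assoc]
      exact not_le.1 hp
    filter_upwards [ss.cont.continuousAt.eventually (lt_mem_nhds h3)] with q hq
    exact Real.smoothTransition.zero_of_nonpos (by linarith)
  have hP : Psi f c p ≤ 2 * k * vv f c p := hN
  have v1 : 1 ≤ vv f c p := by linarith [hv p]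
  have N1 : p ∈ Nr f c 1 := (w2 p hp).2.2.2.2.2.2.2.2.2.2.2.2.2.2 (vv f c p ^ 2) (one_le_pow₀ v1)
    (le_mul_of_one_le_left (sq_nonneg _) ((one_le_div η0).2 (by linarith)))
    (by nlinarith [hv p])
  have N16 : p ∈ Nr f c 16 := le_trans N1 (by norm_num : (1 : ℝ) ≤ 16)
  obtain ⟨R, R0, hR, b0, b1, b2, b3⟩ := Ww8.partA w0 (w1 p hp) (w2 p hp) N16 hC1 η2 hk (hv p) hP
  obtain ⟨c1, c2⟩ := hcut n _ _ k R p sP sv v0 (by linarith) b0 b1 b2 b3
  have a0 := (wx p.1).1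
  have hKa : 0 ≤ K ^ 3 * aX f c p.1 := by positivity
  refine ⟨N1, fun i => ⟨?_, fun j => ?_⟩, fun i => ⟨?_, fun j => ?_⟩, fun E hE => ?_⟩
  · have h3 : |D (exy i) (chk f c k) p| ≤ A * R ^ 1 := c1 [i] (by simp)
    have h4 := mul_le_mul_of_nonneg_right (pow_le_pow_left₀ (abs_nonneg _) h3 2) (kv p).le
    rw [sq_abs, pow_one, mul_pow, mul_assoc, hR] at h4
    linarith
  · have h3 : |D (exy i) (D (exy j) (chk f c k)) p| ≤ A * R ^ 2 := c1 [i, j] (by simp)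
    have h4 := mul_le_mul_of_nonneg_right h3 (kv p).le
    rw [mul_assoc, hR] at h4
    linarith [mul_le_mul_of_nonneg_right hA2 a0.le]
  · have h3 : |D (ex i + ey i) (chk f c k) p| ≤ A * vv f c p * R ^ 0 := c2 i [] (by simp)
    rw [pow_zero, mul_one] at h3
    exact h3.trans (mul_le_mul_of_nonneg_right (by linarith) (v0 p).le)
  · have h3 : |D (exy j) (D (ex i + ey i) (chk f c k)) p| ≤ A * vv f c p * R ^ 1 :=
      c2 i [j] (by simp)
    have h4 := mul_le_mul_of_nonneg_right (pow_le_pow_left₀ (abs_nonneg _) h3 2)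
      (zero_le_one.trans hk)
    have h5 : (A * vv f c p * R ^ 1) ^ 2 * k = A ^ 2 * aX f c p.1 * vv f c p := by
      rw [← hR]
      ring
    rw [sq_abs, h5] at h4
    linarith [mul_nonneg hKa (v0 p).le]
  · obtain ⟨r1, r2, r3, r4⟩ := Ww8.partB w0 (wq p hp) (w1 p hp) (w2 p hp) N16 hK1 (by linarith)
      (by linarith) (by linarith) (by linarith) (by linarith) (by linarith) (by linarith)
      (by linarith) η1 η2 hL1 hk (hv p) hP hE
    have f0 : 0 < fX f c p.1 := Real.exp_pos _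
    refine ⟨r1, r2, r3, fun i => ⟨(r4 i).1.trans ?_, fun j => ((r4 i).2 j).trans ?_⟩⟩
    · gcongr
      linarith
    · gcongr
      linarith

end Vale.Agent.P088
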