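import Vale.Agent.P088.StN
import Vale.Agent.P088.SbAlg
import Vale.Agent.P088.SbComp

/-!
# P088: the innermost zone, auxiliary estimates
-/

open MeasureTheory Set Metric Filter
open scoped ContDiff Topology

noncomputable section
namespace Vale.Agent.P088
open Vale.Agent.P136 (D Dp Dm Sm Tst D_add_at D_sub_at D_mul_at D_const D_const_mul_at D_sum_at)

namespace Ww8

variable {n : ℕ}

theorem amul {x y a b : ℝ} (h : |x| ≤ a) (h' : |y| ≤ b) : |x * y| ≤ a * b := by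
  rw [abs_mul]
  exact mul_le_mul h h' (abs_nonneg _) ((abs_nonneg _).trans h)

theorem sum_bd {x : Fin n → ℝ} {b : ℝ} (h : ∀ i, |x i| ≤ b) : |∑ i, x i| ≤ n * b := by
  refine (Finset.abs_sum_le_sum_abs _ _).trans ((Finset.sum_le_sum fun i _ => h i).trans_eq ?_)
  simp

/-- The cutoff in the variable `P / (k v)`. -/
theorem cutA (B : ℝ) (hB : 1 ≤ B) : ∃ A : ℝ, 1 ≤ A ∧ ∀ (n : ℕ) (P v : X2 n → ℝ) (k R : ℝ)
    (p : X2 n), Sm P → Sm v → (∀ q, 0 < v q) → 0 < k → v p ≤ R →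
    SB exy 2 (B * v p) (v p) v p → SB exy 2 (B * (k * v p)) R P p →
    (∀ i, SB exy 1 (B * (k * v p) * v p) R (D (ex i + ey i) P) p) →
    SB exy 2 A R (fun q => cut (P q / (k * v q))) p ∧
      ∀ i, SB exy 1 (A * v p) R (D (ex i + ey i) fun q => cut (P q / (k * v q))) p := by
  obtain ⟨c, hc, hC⟩ := s_sbComp s_sbAlg 2
  choose m hm using fun j => SbComp.cut_bd (j + 1)
  obtain ⟨M, hM, hM'⟩ := SbComp.unif 2 m
  obtain ⟨W, hW⟩ : ∃ W, W = 4 * c * B ^ 3 := ⟨_, rfl⟩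
  have hW1 : 1 ≤ W := by
    rw [hW]
    nlinarith [one_le_pow₀ hB (n := 3)]
  have h1 : 1 ≤ c * W ^ 2 := one_le_mul_of_one_le_of_one_le hc (one_le_pow₀ hW1)
  have h2 : 0 ≤ 2 * (c * (M * W ^ 2)) * (6 * c * B ^ 3) := by positivity
  refine ⟨c * W ^ 2 + 2 * (c * (M * W ^ 2)) * (6 * c * B ^ 3), by linarith,
    fun n P v k R p sP sv pv hk hR bv bP bT => ?_⟩
  have v0 := pv p
  have R0 : 0 ≤ R := v0.le.trans hR
  have su : Sm fun q => (v q)⁻¹ := ContDiff.inv sv fun q => (pv q).ne'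
  have bu := ((hC _ _ exy _ _ p v v0.le sv.contDiffAt fun l _ hl => bv l hl).2.2.1 B hB v0
    le_rfl).1
  have bu' := SbAlg.mono v0.le bu le_rfl le_rfl hR
  have e : (fun q => P q / (k * v q)) = fun q => k⁻¹ * (P q * (v q)⁻¹) := funext fun q => by
    rw [div_eq_mul_inv, mul_inv]
    ring
  have ss : Sm fun q => P q / (k * v q) := e ▸ (sP.mul su).cmul _
  have bs : SB exy 2 W R (fun q => P q / (k * v q)) p := by
    rw [e]
    refine SbAlg.mono R0 (SbAlg.cmul (sP.mul su).contDiffAt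
      (SbAlg.mul R0 sP.contDiffAt su.contDiffAt bP bu') k⁻¹) le_rfl (le_of_eq ?_) le_rfl
    rw [hW, abs_of_pos (inv_pos.2 hk)]
    field_simp
    ring
  have hs := hC _ _ exy _ _ p _ R0 ss.contDiffAt fun l _ hl => bs l hl
  refine ⟨SbAlg.mono R0 (hs.2.2.2 W hW1 le_rfl) le_rfl (by linarith) le_rfl, fun i => ?_⟩
  have s1 : ContDiff ℝ ∞ (deriv cut) := SbComp.cut_smooth.iterate_deriv 1
  have b1 := SbAlg.mono R0 (hs.1 (deriv cut) (M * W ^ 2) s1.contDiffAt fun j hj => by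
    rw [← iteratedDeriv_succ']
    exact mul_le_mul ((hm j _).trans (hM' j hj)) (pow_le_pow_right₀ hW1 hj) (by positivity)
      (by positivity)) one_le_two le_rfl le_rfl
  have b2 : SB exy 1 (c * B ^ 2 / v p * v p + c * B ^ 2 / v p * v p) R
      (D (ex i + ey i) fun q => (v q)⁻¹) p := by
    have b3 := SbAlg.add (su.D _).contDiffAt (su.D _).contDiffAt (SbAlg.deriv (.inl i) bu)
      (SbAlg.deriv (.inr i) bu)
    exact SbAlg.mono v0.le (SbAlg.congr (Eventually.of_forall fun q => (map_add _ _ _).symm) b3)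
      le_rfl le_rfl hR
  have b4 : SB exy 1 (6 * c * B ^ 3 * v p) R (D (ex i + ey i) fun q => P q / (k * v q)) p := by
    have e1 : (D (ex i + ey i) fun q => P q / (k * v q)) = fun q => k⁻¹ *
        (P q * D (ex i + ey i) (fun q => (v q)⁻¹) q + D (ex i + ey i) P q * (v q)⁻¹) := by
      funext q
      rw [e, D_const_mul_at ((sP.mul su).dAt q), D_mul_at (sP.dAt q) (su.dAt q)]
    rw [e1]
    refine SbAlg.mono R0 (SbAlg.cmul ((sP.mul (su.D _)).add ((sP.D _).mul su)).contDiffAt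
      (SbAlg.add (sP.mul (su.D _)).contDiffAt ((sP.D _).mul su).contDiffAt
        (SbAlg.mul R0 sP.contDiffAt (su.D _).contDiffAt
          (SbAlg.mono R0 bP one_le_two le_rfl le_rfl) b2)
        (SbAlg.mul R0 (sP.D _).contDiffAt su.contDiffAt (bT i)
          (SbAlg.mono R0 bu' one_le_two le_rfl le_rfl))) k⁻¹) le_rfl (le_of_eq ?_) le_rfl
    rw [abs_of_pos (inv_pos.2 hk)]
    field_simp
    ring
  refine SbAlg.mono R0 (SbAlg.congr (SbComp.chain ss.contDiffAt SbComp.cut_smooth.contDiffAt _)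
    (SbAlg.mul R0 (s1.comp ss).contDiffAt (ss.D _).contDiffAt b1 b4)) le_rfl ?_ le_rfl
  nlinarith [mul_nonneg (zero_le_one.trans h1) v0.le]

/-- Comparison of the inverse matrix with the square of a frame. -/
theorem GH {E g g' G : Fin n → Fin n → ℝ} {C ε : ℝ}
    (hE : ∀ a b, ∑ i, ∑ j, E a i * g i j * E b j = if a = b then 1 else 0)
    (hG : ∀ i j, ∑ l, g' i l * G l j = if i = j then 1 else 0) (bE : ∀ a i, |E a i| ≤ 2)
    (bG : ∀ i j, |G i j| ≤ C) (bg : ∀ i j, |g i j - g' i j| ≤ ε) (i j : Fin n) :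
    |G i j - ∑ a, E a i * E a j| ≤ n * (n * (n * (2 * 2) * ε) * C) := by
  have h1 : Matrix.of E * Matrix.of g * (Matrix.of E).transpose = 1 := by
    ext a b
    rw [Matrix.one_apply, ← hE, Finset.sum_comm]
    simp only [Matrix.mul_apply, Matrix.of_apply, Matrix.transpose_apply, Finset.sum_mul]
  have h2 : Matrix.of g' * Matrix.of G = 1 := by
    ext a b
    rw [Matrix.one_apply, ← hG]
    rfl
  rw [mul_eq_one_comm, ← Matrix.mul_assoc] at h1
  have h3 : Matrix.of G - (Matrix.of E).transpose * Matrix.of E =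
      (Matrix.of E).transpose * Matrix.of E * (Matrix.of g - Matrix.of g') * Matrix.of G := by
    rw [Matrix.mul_sub, Matrix.sub_mul, h1, Matrix.mul_assoc _ (Matrix.of g'), h2, Matrix.one_mul,
      Matrix.mul_one]
  refine le_of_eq_of_le (congrArg abs (congrFun (congrFun h3 i) j)) ?_
  exact sum_bd fun l => amul (sum_bd fun m => amul (sum_bd fun a => amul (bE a i) (bE a m))
    (bg m l)) (bG l j)

theorem D_fst {g : En n → ℝ} (hg : Sm g) (i : Fin n) (p : X2 n) :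
    D (ey i) (fun q => g q.1) p = 0 := by
  have h := ((hg.dAt p.1).hasFDerivAt.comp p hasFDerivAt_fst).fderiv
  rw [D, show (fun q : X2 n => g q.1) = g ∘ Prod.fst from rfl, h]
  exact map_zero (fderiv ℝ g p.1)

theorem sm_fst {g : En n → ℝ} (hg : Sm g) : Sm fun q : X2 n => g q.1 := hg.comp contDiff_fst

theorem sm_zz (l : Fin n) : Sm fun q : X2 n => zz q l := by
  unfold zz Sm
  fun_prop

theorem D_zz (i l : Fin n) (p : X2 n) :
    D (ey i) (fun q => zz q l) p = if l = i then 1 else 0 := by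
  have h := ((EuclideanSpace.proj (𝕜 := ℝ) l).comp (ContinuousLinearMap.snd ℝ (En n) (En n) -
    ContinuousLinearMap.fst ℝ (En n) (En n))).fderiv (x := p)
  refine (congrArg (fun A : X2 n →L[ℝ] ℝ => A (ey i)) h).trans ?_
  simp [ey, ee]

theorem sm_lin {m : Fin n → En n → ℝ} (hm : ∀ l, Sm (m l)) :
    Sm fun q : X2 n => ∑ l, m l q.1 * zz q l :=
  Sm.sum fun l _ => (sm_fst (hm l)).mul (sm_zz l)

theorem D_lin {m : Fin n → En n → ℝ} (hm : ∀ l, Sm (m l)) (i : Fin n) (p : X2 n) :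
    D (ey i) (fun q => ∑ l, m l q.1 * zz q l) p = m i p.1 := by
  rw [D_sum_at _ fun l _ => ((sm_fst (hm l)).mul (sm_zz l)).dAt p]
  simp only [fun l => D_mul_at ((sm_fst (hm l)).dAt p) ((sm_zz l).dAt p), D_fst (hm _), D_zz,
    zero_mul, add_zero, mul_ite, mul_one, mul_zero, Finset.sum_ite_eq', Finset.mem_univ, if_true]

section real
variable {K v t L a F k φ w : ℝ}

theorem R0 {Qx d : ℝ} (hK : 1 ≤ K) (hv : 1 ≤ v) (ht : 0 ≤ t) (hs : K ^ 3 * v ^ 4 * t ≤ 1 / 8)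
    (ha : 0 < a) (hw : |w| ≤ K) (h1 : |2 * F - a| ≤ 1 / 4 * a) (h2 : |2 * F - a| ≤ K * a * L * t)
    (hL : L ≤ K * v) (h3 : |d| ≤ K * L * t) (h4 : |t ^ 2 - Qx| ≤ K * t ^ 3)
    (h5 : t ^ 2 * F ≤ v ^ 2) :
    |t ^ 2 * F + w * d - a * Qx / 2| ≤ 1 ∧ a * Qx ≤ 4 * (t ^ 2 * F) ∧ t ^ 2 * F ≤ a * Qx := by
  have s : ∀ i j : ℕ, i ≤ 3 → j ≤ 4 → K ^ i * v ^ j * t ≤ 1 / 8 := fun i j hi hj =>
    le_trans (by gcongr) hs
  have t2 := sq_nonneg t
  have a1 := abs_le.1 h1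
  have b1 : a * t ^ 2 ≤ 4 * v ^ 2 := by nlinarith
  have b2 : |t ^ 2 - Qx| ≤ 1 / 8 * t ^ 2 := h4.trans (by nlinarith [s 1 0 (by omega) (by omega)])
  have b3 := abs_le.1 (amul (abs_of_pos ha).le b2)
  refine ⟨?_, by nlinarith, by nlinarith⟩
  have hKt : 0 ≤ K * t := by positivity
  have c0 : K * L * t ≤ K ^ 2 * v * t := by nlinarith [mul_le_mul_of_nonneg_left hL hKt]
  have c1 := abs_le.1 (amul (abs_of_nonneg t2).le h2)
  have c2 := abs_le.1 (amul (abs_of_pos ha).le h4)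
  have c3 := abs_le.1 (amul hw (h3.trans c0))
  have c4 := mul_le_mul b1 c0
  have c5 := mul_le_mul_of_nonneg_right b1 hKt
  have c6 := mul_le_mul_of_nonneg_left c0 (mul_nonneg ha.le t2)
  have c7 := mul_le_mul_of_nonneg_right b1 (by positivity : 0 ≤ K ^ 2 * v * t)
  have s1 := s 2 3 (by omega) (by omega)
  have s2 := s 1 2 (by omega) (by omega)
  have s3 := s 3 1 (by omega) (by omega)
  rw [abs_le]
  constructor <;> linarith [c1.1, c1.2, c2.1, c2.2, c3.1, c3.2]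

theorem R1 {Fi Qi li z y : ℝ} (hK : 1 ≤ K) (hv : 1 ≤ v) (hk : 1 ≤ k) (ht : 0 ≤ t) (ha : 0 < a)
    (hF : a ≤ 4 * F) (hw : |w| ≤ K) (h2 : |2 * F - a| ≤ K * a * L * t) (hL : L ≤ K * v)
    (h5 : t ^ 2 * F ≤ 2 * k * v) (e1 : |Fi| ≤ K * F * v) (e2 : |Qi - 2 * z| ≤ t ^ 2)
    (e3 : |z| ≤ K * t) (e4 : |li| ≤ K * v) (e5 : |z - y| ≤ K * t ^ 2) :
    |t ^ 2 * Fi + Qi * F + w * li - a * y| ≤ 21 * K ^ 3 * k * v ^ 2 := by
  have t2 := sq_nonneg t
  have F0 : 0 ≤ F := by linarith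
  have s : ∀ i j l : ℕ, i ≤ 3 → j ≤ 1 → l ≤ 2 → K ^ i * k ^ j * v ^ l ≤ K ^ 3 * k ^ 1 * v ^ 2 :=
    fun i j l hi hj hl => by gcongr
  have b1 : a * t ^ 2 ≤ 8 * k * v := by nlinarith
  have c0 : K * a * L * t ≤ K * a * (K * v) * t := by gcongr
  have c1 := abs_le.1 (amul (abs_of_nonneg t2).le e1)
  have c2 := abs_le.1 (amul e2 (abs_of_nonneg F0).le)
  have c3 := abs_le.1 (amul e3 (h2.trans c0))
  have c4 := abs_le.1 (amul (abs_of_pos ha).le e5)
  have c5 := abs_le.1 (amul hw e4)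
  have d1 := mul_le_mul_of_nonneg_left h5 (by positivity : 0 ≤ K * v)
  have d2 := mul_le_mul_of_nonneg_left b1 (by positivity : 0 ≤ K ^ 3 * v)
  have d3 := mul_le_mul_of_nonneg_left b1 (by positivity : 0 ≤ K)
  have s1 := s 1 1 2 (by omega) (by omega) (by omega)
  have s2 := s 0 1 1 (by omega) (by omega) (by omega)
  have s3 := s 1 1 1 (by omega) (by omega) (by omega)
  have s4 := s 2 0 1 (by omega) (by omega) (by omega)
  rw [abs_le]
  constructor <;> linarith [c1.1, c1.2, c2.1, c2.2, c3.1, c3.2, c4.1, c4.2, c5.1, c5.2]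

theorem R2 {Fi Fj Fij Qi Qj Qij l G H : ℝ} (hK : 1 ≤ K) (hv : 1 ≤ v) (hk : 1 ≤ k) (ht : 0 ≤ t)
    (hφ : v ≤ φ) (ha : φ ^ 2 = a) (hF : a ≤ 4 * F) (hF' : F ≤ a) (hw : |w| ≤ K)
    (h2 : |2 * F - a| ≤ K * a * L * t) (hL : L ≤ K * v) (h5 : t ^ 2 * F ≤ 2 * k * v)
    (h6 : t ^ 2 * F ≤ v ^ 2) (e1 : |Fi| ≤ K * F * v) (e1' : |Fj| ≤ K * F * v)
    (e2 : |Fij| ≤ K * F * v ^ 2) (e3 : |Qi| ≤ K * t) (e3' : |Qj| ≤ K * t)
    (e4 : |Qij - 2 * G| ≤ t) (e5 : |G| ≤ K) (e6 : |G - H| ≤ K * t) (e7 : |l| ≤ K * v ^ 2) :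
    |t ^ 2 * Fij + Qi * Fj + (Qj * Fi + Qij * F) + w * l - a * H| ≤
      13 * K ^ 3 * k * v ^ 2 * φ := by
  have t2 := sq_nonneg t
  have φ1 : 1 ≤ φ := hv.trans hφ
  have a0 : 0 ≤ a := ha ▸ sq_nonneg φ
  have F0 : 0 ≤ F := by linarith
  have s : ∀ i j l m : ℕ, i ≤ 3 → j ≤ 1 → l ≤ 2 → m ≤ 1 →
      K ^ i * k ^ j * v ^ l * φ ^ m ≤ K ^ 3 * k ^ 1 * v ^ 2 * φ ^ 1 :=
    fun i j l m hi hj hl hm => by gcongr
  have b0 : φ * t ≤ 2 * v := by
    refine le_of_sq_le_sq ?_ (by positivity)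
    rw [mul_pow, ha]
    nlinarith
  have b1 : a * t ≤ 2 * v * φ := by nlinarith [mul_le_mul_of_nonneg_left b0 (by linarith : 0 ≤ φ)]
  have b2 : F * t ≤ 2 * v * φ := (mul_le_mul_of_nonneg_right hF' ht).trans b1
  have c0 : K * a * L * t ≤ K * a * (K * v) * t := by gcongr
  have c1 := abs_le.1 (amul (abs_of_nonneg t2).le e2)
  have c2 := abs_le.1 (amul e3 e1')
  have c3 := abs_le.1 (amul e3' e1)
  have c4 := abs_le.1 (amul e4 (abs_of_nonneg F0).le)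
  have c5 := abs_le.1 (amul e5 (h2.trans c0))
  have c6 := abs_le.1 (amul (abs_of_nonneg a0).le e6)
  have c7 := abs_le.1 (amul hw e7)
  have d1 := mul_le_mul_of_nonneg_left h5 (by positivity : 0 ≤ K * v ^ 2)
  have d2 := mul_le_mul_of_nonneg_left hφ (by positivity : 0 ≤ K * k * v ^ 2)
  have d3 := mul_le_mul_of_nonneg_left b2 (by positivity : 0 ≤ K ^ 2 * v)
  have d4 := mul_le_mul_of_nonneg_left b1 (by positivity : 0 ≤ K ^ 3 * v)
  have d5 := mul_le_mul_of_nonneg_left b1 (by positivity : 0 ≤ K)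
  have s1 := s 1 1 2 1 (by omega) (by omega) (by omega) (by omega)
  have s2 := s 2 0 2 1 (by omega) (by omega) (by omega) (by omega)
  have s3 := s 0 0 1 1 (by omega) (by omega) (by omega) (by omega)
  have s4 := s 3 0 2 1 (by omega) (by omega) (by omega) (by omega)
  have s5 := s 1 0 1 1 (by omega) (by omega) (by omega) (by omega)
  have s6 := s 2 0 2 0 (by omega) (by omega) (by omega) (by omega)
  rw [abs_le]
  constructor <;> linarith [c1.1, c1.2, c2.1, c2.2, c3.1, c3.2, c4.1, c4.2, c5.1, c5.2, c6.1, c6.2,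
    c7.1, c7.2]

end real

end Ww8

end Vale.Agent.P088
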