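import Vale.Agent.P088.StW

/-!
# P088: multilinear estimates for the covariant Hessians
-/

noncomputable section
namespace Vale.Agent.P088
namespace Wwh

variable {n : ℕ}

/-- Euclidean pairing. -/
def dot (a b : Fin n → ℝ) : ℝ := ∑ i, a i * b i

/-- Trilinear form. -/
def tr3 (Γ : Fin n → Fin n → Fin n → ℝ) (a b c : Fin n → ℝ) : ℝ :=
  ∑ i, ∑ k, ∑ l, Γ i k l * a i * b k * c l

/-- The Christoffel part of the covariant Hessian. -/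
def Gam (γ : Fin n → Fin n → ℝ) (d : Fin n → Fin n → Fin n → ℝ) : Fin n → Fin n → Fin n → ℝ :=
  fun i k l => ∑ j, (γ i j * d j k l - 1 / 2 * (γ j l * d j i k))

/-- The identity matrix. -/
def Id (n : ℕ) : Fin n → Fin n → ℝ := fun i j => if i = j then 1 else 0

section bounds
variable {M x y z u : ℝ} {a b c : Fin n → ℝ} {γ : Fin n → Fin n → ℝ}
  {d : Fin n → Fin n → Fin n → ℝ}

lemma sum_le (hM : (n : ℝ) ≤ M) {f : Fin n → ℝ} (hx : 0 ≤ x) (h : ∀ i, |f i| ≤ x) :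
    |∑ i, f i| ≤ M * x := by
  refine (Finset.abs_sum_le_sum_abs _ _).trans ((Finset.sum_le_sum fun i _ => h i).trans ?_)
  simp only [Finset.sum_const, Finset.card_univ, Fintype.card_fin, nsmul_eq_mul]
  exact mul_le_mul_of_nonneg_right hM hx

lemma e1 (h : ‖a‖ ≤ x) (i : Fin n) : |a i| ≤ x := (norm_le_pi_norm a i).trans h
lemma e2 (h : ‖γ‖ ≤ x) (i j : Fin n) : |γ i j| ≤ x := e1 ((norm_le_pi_norm γ i).trans h) j
lemma e3 (h : ‖d‖ ≤ x) (i j k : Fin n) : |d i j k| ≤ x := e2 ((norm_le_pi_norm d i).trans h) j k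
lemma o1 (hx : 0 ≤ x) (h : ∀ i, |a i| ≤ x) : ‖a‖ ≤ x := (pi_norm_le_iff_of_nonneg hx).2 h
lemma o2 (hx : 0 ≤ x) (h : ∀ i j, |γ i j| ≤ x) : ‖γ‖ ≤ x :=
  (pi_norm_le_iff_of_nonneg hx).2 fun i => o1 hx (h i)
lemma o3 (hx : 0 ≤ x) (h : ∀ i j k, |d i j k| ≤ x) : ‖d‖ ≤ x :=
  (pi_norm_le_iff_of_nonneg hx).2 fun i => o2 hx (h i)

lemma ml {s t : ℝ} (hs : |s| ≤ x) (ht : |t| ≤ y) : |s * t| ≤ x * y := by
  rw [abs_mul]; exact mul_le_mul hs ht (abs_nonneg _) ((abs_nonneg _).trans hs)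

lemma dot_le (hM : (n : ℝ) ≤ M) (ha : ‖a‖ ≤ x) (hb : ‖b‖ ≤ y) : |dot a b| ≤ M * (x * y) :=
  sum_le hM (mul_nonneg ((norm_nonneg _).trans ha) ((norm_nonneg _).trans hb))
    fun i => ml (e1 ha i) (e1 hb i)

lemma up_le (hM : (n : ℝ) ≤ M) (hγ : ‖γ‖ ≤ x) (ha : ‖a‖ ≤ y) : ‖up γ a‖ ≤ M * (x * y) := by
  have h0 := mul_nonneg ((norm_nonneg _).trans hγ) ((norm_nonneg _).trans ha)
  exact o1 (mul_nonneg ((Nat.cast_nonneg n).trans hM) h0)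
    fun i => sum_le hM h0 fun j => ml (e2 hγ i j) (e1 ha j)

lemma bil_le (hM : (n : ℝ) ≤ M) (hγ : ‖γ‖ ≤ x) (ha : ‖a‖ ≤ y) (hb : ‖b‖ ≤ z) :
    |bil γ a b| ≤ M * (M * (x * y * z)) := by
  have h0 := mul_nonneg (mul_nonneg ((norm_nonneg _).trans hγ) ((norm_nonneg _).trans ha))
    ((norm_nonneg _).trans hb)
  exact sum_le hM (mul_nonneg ((Nat.cast_nonneg n).trans hM) h0)
    fun i => sum_le hM h0 fun j => ml (ml (e2 hγ i j) (e1 ha i)) (e1 hb j)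

lemma tr3_le (hM : (n : ℝ) ≤ M) (hd : ‖d‖ ≤ x) (ha : ‖a‖ ≤ y) (hb : ‖b‖ ≤ z) (hc : ‖c‖ ≤ u) :
    |tr3 d a b c| ≤ M * (M * (M * (x * y * z * u))) := by
  have h0 := mul_nonneg (mul_nonneg (mul_nonneg ((norm_nonneg _).trans hd)
    ((norm_nonneg _).trans ha)) ((norm_nonneg _).trans hb)) ((norm_nonneg _).trans hc)
  have hM0 := (Nat.cast_nonneg n).trans hM
  exact sum_le hM (mul_nonneg hM0 (mul_nonneg hM0 h0)) fun i => sum_le hM (mul_nonneg hM0 h0)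
    fun k => sum_le hM h0 fun l => ml (ml (ml (e3 hd i k l) (e1 ha i)) (e1 hb k)) (e1 hc l)

lemma Gam_le (hM : (n : ℝ) ≤ M) (hγ : ‖γ‖ ≤ x) (hd : ‖d‖ ≤ y) :
    ‖Gam γ d‖ ≤ M * (2 * (x * y)) := by
  have h0 := mul_nonneg ((norm_nonneg _).trans hγ) ((norm_nonneg _).trans hd)
  refine o3 (mul_nonneg ((Nat.cast_nonneg n).trans hM) (by linarith))
    fun i k l => sum_le hM (by linarith) fun j => ?_
  have h1 := abs_le.1 (ml (e2 hγ i j) (e3 hd j k l))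
  have h2 := abs_le.1 (ml (e2 hγ j l) (e3 hd j i k))
  rw [abs_le]; constructor <;> linarith [h1.1, h1.2, h2.1, h2.2]

lemma nadd {E : Type} [SeminormedAddGroup E] {p q : E} (hp : ‖p‖ ≤ x) (hq : ‖q‖ ≤ y) :
    ‖p + q‖ ≤ x + y := (norm_add_le _ _).trans (add_le_add hp hq)

lemma nsub {E : Type} [SeminormedAddCommGroup E] {p q : E} (hp : ‖p‖ ≤ x) (hq : ‖q‖ ≤ y) :
    ‖p - q‖ ≤ x + y := (norm_sub_le _ _).trans (add_le_add hp hq)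

lemma sc (hM : 1 ≤ M) (r : ℕ) (hr : r ≤ 6) (hy : 0 ≤ y) (h : x ≤ y) : M ^ r * x ≤ M ^ 6 * y :=
  (mul_le_mul_of_nonneg_left h (by positivity)).trans
    (mul_le_mul_of_nonneg_right (pow_le_pow_right₀ hM hr) hy)

end bounds

section lin
variable (γ γ' : Fin n → Fin n → ℝ) (a b c a' b' c' : Fin n → ℝ)
  (d d' : Fin n → Fin n → Fin n → ℝ)

lemma bil_add_l : bil γ (a + a') b = bil γ a b + bil γ a' b := by
  simp only [bil, Pi.add_apply, ← Finset.sum_add_distrib]; congr; ext; congr; ext; ring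
lemma bil_add_r : bil γ a (b + b') = bil γ a b + bil γ a b' := by
  simp only [bil, Pi.add_apply, ← Finset.sum_add_distrib]; congr; ext; congr; ext; ring
lemma bil_sub_l : bil γ (a - a') b = bil γ a b - bil γ a' b := by
  simp only [bil, Pi.sub_apply, ← Finset.sum_sub_distrib]; congr; ext; congr; ext; ring
lemma bil_sub_r : bil γ a (b - b') = bil γ a b - bil γ a b' := by
  simp only [bil, Pi.sub_apply, ← Finset.sum_sub_distrib]; congr; ext; congr; ext; ring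
lemma bil_add_m : bil (γ + γ') a b = bil γ a b + bil γ' a b := by
  simp only [bil, Pi.add_apply, ← Finset.sum_add_distrib]; congr; ext; congr; ext; ring
lemma bil_sub_m : bil (γ - γ') a b = bil γ a b - bil γ' a b := by
  simp only [bil, Pi.sub_apply, ← Finset.sum_sub_distrib]; congr; ext; congr; ext; ring
lemma bil_smul_m (t : ℝ) : bil (t • γ) a b = t * bil γ a b := by
  simp only [bil, Pi.smul_apply, smul_eq_mul, Finset.mul_sum]; congr; ext; congr; ext; ring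
lemma bil_smul_l (t : ℝ) : bil γ (t • a) b = t * bil γ a b := by
  simp only [bil, Pi.smul_apply, smul_eq_mul, Finset.mul_sum]; congr; ext; congr; ext; ring
lemma bil_tr : bil (fun i j => γ j i) a b = bil γ b a := by
  unfold bil; rw [Finset.sum_comm]; congr; ext; congr; ext; ring
lemma bil_sym (h : ∀ i j, γ i j = γ j i) : bil γ a b = bil γ b a := by
  rw [← bil_tr]; congr; ext i j; exact h j i
lemma up_sub : up γ (a - b) = up γ a - up γ b := by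
  ext i; simp only [up, Pi.sub_apply, ← Finset.sum_sub_distrib]; congr; ext; ring
lemma up_sub_m : up (γ - γ') a = up γ a - up γ' a := by
  ext i; simp only [up, Pi.sub_apply, ← Finset.sum_sub_distrib]; congr; ext; ring
lemma up_Id : up (Id n) a = a := by ext i; simp [up, Id]
lemma bil_Id : bil (Id n) a b = dot a b := by simp [bil, Id, dot]
lemma bil_eq : bil γ a b = dot a (up γ b) := by
  simp only [bil, dot, up, Finset.mul_sum]; congr; ext; congr; ext; ring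

lemma bil_up (hs : ∀ i j, γ i j = γ j i) (h : ∀ i j, ∑ l, γ i l * γ' l j = Id n i j) :
    bil γ' (up γ a) b = dot a b := by
  rw [← bil_Id]
  simp only [bil, up, ← h, Finset.sum_mul, Finset.mul_sum]
  rw [Finset.sum_congr rfl fun _ _ => Finset.sum_comm, Finset.sum_comm]
  refine Finset.sum_congr rfl fun l _ => ?_
  rw [Finset.sum_comm]
  refine Finset.sum_congr rfl fun j _ => Finset.sum_congr rfl fun i _ => ?_
  rw [hs i l]; ring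

lemma Gam_sub : Gam γ' d' - Gam γ d = Gam (γ' - γ) d' + Gam γ (d' - d) := by
  ext i k l
  simp only [Gam, Pi.sub_apply, Pi.add_apply, ← Finset.sum_add_distrib, ← Finset.sum_sub_distrib]
  congr; ext; ring

lemma tr3_tel : tr3 d' a' a' c' + tr3 d a a c = tr3 (d' - d) a' a' c' + tr3 d (a' - a) a' c' +
    tr3 d a (a' - a) c' + tr3 d a a (c + c') := by
  simp only [tr3, Pi.sub_apply, Pi.add_apply, ← Finset.sum_add_distrib]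
  congr; ext; congr; ext; congr; ext; ring

end lin

variable {M ε δ s w : ℝ} {g G γx γy A B C : Fin n → Fin n → ℝ}
  {dx dy : Fin n → Fin n → Fin n → ℝ} {Qx Qy ζ ζ' : Fin n → ℝ}

lemma num {v U : ℝ} (hM : 1 ≤ M) (e0 : 0 ≤ ε) (e1 : ε ≤ 1) (d0 : 0 ≤ δ) (d2 : δ ≤ 2)
    (s0 : 0 ≤ s) (s2 : s ≤ 2) (v0 : 0 ≤ v) (w0 : 0 ≤ w) (hv : v ≤ w + w)
    (hU : U = ε * s * v * w + (ε * s ^ 2 + δ) * w ^ 2) :
    M ^ 2 * ((ε * s + δ) * v * w) ≤ 2 * (M ^ 6 * U) ∧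
    M ^ 5 * ((ε * s + δ) ^ 2 * w ^ 2) ≤ 6 * (M ^ 6 * U) ∧
    M ^ 6 * (ε * s ^ 2 * w ^ 2) ≤ M ^ 6 * U ∧ M ^ 6 * (ε * s * v * w) ≤ M ^ 6 * U ∧
    M ^ 5 * (ε * s * (ε * s + δ) * w ^ 2) ≤ 2 * (M ^ 6 * U) ∧
    M ^ 6 * (s * (ε * s + δ) * w ^ 2) ≤ 2 * (M ^ 6 * U) ∧
    M ^ 5 * (ε * ε * s ^ 2 * w ^ 2) ≤ M ^ 6 * U ∧ 0 ≤ M ^ 6 * U := by
  have p1 : 0 ≤ ε * s * v * w := by positivity
  have p2 : 0 ≤ ε * s ^ 2 * w ^ 2 := by positivity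
  have p3 : 0 ≤ δ * w ^ 2 := by positivity
  have q1 := mul_le_mul_of_nonneg_left hv (mul_nonneg d0 w0)
  have q2 := mul_le_mul_of_nonneg_left s2 p3
  have q3 := mul_le_mul_of_nonneg_left d2 p3
  have q4 := mul_le_mul_of_nonneg_left e1 p2
  have q5 := mul_le_mul_of_nonneg_left e1 (mul_nonneg p3 s0)
  have U0 : 0 ≤ U := by rw [hU]; positivity
  have k : ∀ (r : ℕ) (c x : ℝ), r ≤ 6 → 0 ≤ c → x ≤ c * U → M ^ r * x ≤ c * (M ^ 6 * U) :=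
    fun r c x hr hc h => (sc hM r hr (mul_nonneg hc U0) h).trans (le_of_eq (by ring))
  refine ⟨k _ _ _ (by norm_num) (by norm_num) ?_, k _ _ _ (by norm_num) (by norm_num) ?_,
    sc hM _ le_rfl U0 ?_, sc hM _ le_rfl U0 ?_, k _ _ _ (by norm_num) (by norm_num) ?_,
    k _ _ _ le_rfl (by norm_num) ?_, sc hM _ (by norm_num) U0 ?_, by positivity⟩ <;>
  rw [hU] <;> linarith

lemma alg1 (hn : (n : ℝ) ≤ M) (hM : 1 ≤ M) (e0 : 0 ≤ ε) (e1 : ε ≤ 1) (d0 : 0 ≤ δ) (d2 : δ ≤ 2)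
    (s0 : 0 ≤ s) (s2 : s ≤ 2) (hg : ‖g‖ ≤ M) (hG : ‖G‖ ≤ M) (hx : ‖γx‖ ≤ M) (hy : ‖γy‖ ≤ M)
    (sg : ∀ i j, g i j = g j i) (sG : ∀ i j, G i j = G j i)
    (hi : ∀ i j, ∑ l, g i l * G l j = Id n i j) (hxg : ‖γx - g‖ ≤ ε * s + δ)
    (hyg : ‖γy - g‖ ≤ ε * s + δ) (hdx : ‖dx‖ ≤ ε) (hdy : ‖dy‖ ≤ ε) (hd : ‖dy - dx‖ ≤ ε * s + δ)
    (hQ : ‖Qy‖ ≤ M * s) (hQs : ‖Qx + Qy‖ ≤ ε * s ^ 2) (hB : ‖B + (2 : ℝ) • G‖ ≤ ε * s)
    (hC : ‖C - (2 : ℝ) • G‖ ≤ ε * s) (hS : ‖A + B + (fun i j => B j i) + C‖ ≤ ε * s ^ 2)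
    (hζ : ‖ζ‖ ≤ w) (hζ' : ‖ζ'‖ ≤ w) :
    |bil A (up γx ζ) (up γx ζ) + tr3 (Gam γx dx) ζ ζ Qx + (bil C (up γy ζ') (up γy ζ') +
      tr3 (Gam γy dy) ζ' ζ' Qy) + 2 * bil B (up γy ζ') (up γx ζ) - 2 * bil g (ζ' - ζ) (ζ' - ζ)| ≤
      200 * M ^ 6 * (ε * s * ‖ζ' - ζ‖ * w + (ε * s ^ 2 + δ) * w ^ 2) := by
  have hv := nsub hζ' hζ
  have w0 : 0 ≤ w := (norm_nonneg _).trans hζ
  obtain ⟨v, hv'⟩ : ∃ v, ‖ζ' - ζ‖ = v := ⟨_, rfl⟩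
  have v0 : 0 ≤ v := hv' ▸ norm_nonneg _
  have ha := up_le hn hx hζ
  have hb := up_le hn hy hζ'
  have hr := nsub (up_le hn hyg hζ') (up_le hn hxg hζ)
  have hk' : up γy ζ' - up γx ζ = up g (ζ' - ζ) + (up (γy - g) ζ' - up (γx - g) ζ) := by
    rw [up_sub, up_sub_m, up_sub_m]; abel
  have hk := nadd (up_le hn hg hv'.le) hr
  have h1 : bil G (up γy ζ' - up γx ζ) (up γy ζ' - up γx ζ) = bil g (ζ' - ζ) (ζ' - ζ) +
      2 * dot (ζ' - ζ) (up (γy - g) ζ' - up (γx - g) ζ) +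
      bil G (up (γy - g) ζ' - up (γx - g) ζ) (up (γy - g) ζ' - up (γx - g) ζ) := by
    rw [hk', bil_add_l, bil_add_r, bil_add_r, bil_sym G (_ - _) (up g _) sG,
      bil_up g G _ _ sg hi, bil_up g G _ _ sg hi, ← bil_eq]
    ring
  rw [← hk'] at hk
  have t1 := abs_le.1 (dot_le hn hv'.le hr)
  have t2 := abs_le.1 (bil_le hn hG hr hr)
  have t3 := abs_le.1 (bil_le hn hS ha ha)
  have t4 := abs_le.1 (bil_le hn hC hk ha)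
  have t5 := abs_le.1 (bil_le hn hC hb hk)
  have t6 := abs_le.1 (bil_le hn hB hk ha)
  have hxy : ‖γy - γx‖ ≤ ε * s + δ + (ε * s + δ) := by
    rw [← sub_sub_sub_cancel_right _ _ g]; exact nsub hyg hxg
  have hΓ := Gam_le hn hx hdx
  have t7 := abs_le.1 (tr3_le hn (nadd (Gam_le hn hxy hdy) (Gam_le hn hx hd)) hζ' hζ' hQ)
  have t8 := abs_le.1 (tr3_le hn hΓ hv'.le hζ' hQ)
  have t9 := abs_le.1 (tr3_le hn hΓ hζ hv'.le hQ)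
  have t10 := abs_le.1 (tr3_le hn hΓ hζ hζ hQs)
  rw [← Gam_sub] at t7
  have h2 := tr3_tel ζ Qx ζ' Qy (Gam γx dx) (Gam γy dy)
  have h3 := bil_sym G (up γx ζ) (up γy ζ') sG
  simp only [bil_add_m, bil_sub_m, bil_smul_m, bil_tr] at t3 t4 t5 t6
  rw [bil_sub_l, bil_sub_l] at t4 t6
  rw [bil_sub_r, bil_sub_r] at t5
  rw [bil_sub_l, bil_sub_r, bil_sub_r] at h1
  rw [hv'] at hv ⊢
  obtain ⟨u1, u2, u3, u4, u5, u6, u7, u8⟩ := num hM e0 e1 d0 d2 s0 s2 v0 w0 hv rfl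
  rw [mul_assoc, abs_le]
  generalize M ^ 6 * (ε * s * v * w + (ε * s ^ 2 + δ) * w ^ 2) = P at *
  constructor <;> linarith [t1.1, t1.2, t2.1, t2.2, t3.1, t3.2, t4.1, t4.2, t5.1, t5.2, t6.1, t6.2,
    t7.1, t7.2, t8.1, t8.2, t9.1, t9.2, t10.1, t10.2]

lemma alg2 (hn : (n : ℝ) ≤ M) (hM : 1 ≤ M) (e0 : 0 ≤ ε) (e1 : ε ≤ 1) (hx : ‖γx‖ ≤ M)
    (hy : ‖γy‖ ≤ M) (hx1 : ‖γx - Id n‖ ≤ ε) (hy1 : ‖γy - Id n‖ ≤ ε) (hg1 : ‖g - Id n‖ ≤ ε)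
    (hdx : ‖dx‖ ≤ ε) (hdy : ‖dy‖ ≤ ε) (hQ : ‖Qy‖ ≤ M) (hζ : ‖ζ‖ ≤ w) (hζ' : ‖ζ'‖ ≤ w) :
    |bil ((1 / 2 : ℝ) • Id n) (up γx ζ) (up γx ζ) + tr3 (Gam γx dx) ζ ζ Qy +
      (bil ((1 / 2 : ℝ) • Id n) (up γy ζ') (up γy ζ') + tr3 (Gam γy dy) ζ' ζ' Qy) +
      2 * bil ((1 / 2 : ℝ) • Id n) (up γy ζ') (up γx ζ) - 1 / 2 * bil g (ζ + ζ') (ζ + ζ')| ≤
      200 * M ^ 6 * ε * w ^ 2 := by
  have w0 : 0 ≤ w := (norm_nonneg _).trans hζ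
  have hW := nadd hζ hζ'
  have ht := nadd (up_le hn hx1 hζ) (up_le hn hy1 hζ')
  have h0 : up γx ζ + up γy ζ' = (ζ + ζ') + (up (γx - Id n) ζ + up (γy - Id n) ζ') := by
    rw [up_sub_m, up_sub_m, up_Id, up_Id]; abel
  have sI : ∀ i j, Id n i j = Id n j i := fun i j => by simp [Id, eq_comm]
  have h1 : bil (Id n) _ _ = bil (Id n) _ _ := congrArg (fun z => bil (Id n) z z) h0
  rw [bil_add_l, bil_add_r, bil_add_r, bil_add_l, bil_add_r _ (ζ + ζ'), bil_add_r _ _ (ζ + ζ'),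
    bil_sym _ (up _ _ + up _ _) (ζ + ζ') sI, bil_sym _ (up γx ζ) (up γy ζ') sI] at h1
  have t1 := abs_le.1 (dot_le hn hW ht)
  have t2 := abs_le.1 (dot_le hn ht ht)
  have t3 := abs_le.1 (bil_le hn hg1 hW hW)
  have t4 := abs_le.1 (tr3_le hn (Gam_le hn hx hdx) hζ hζ hQ)
  have t5 := abs_le.1 (tr3_le hn (Gam_le hn hy hdy) hζ' hζ' hQ)
  rw [← bil_Id] at t1 t2
  rw [bil_sub_m] at t3
  have U0 : 0 ≤ ε * w ^ 2 := by positivity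
  have u1 := sc hM 2 (by norm_num) U0 le_rfl
  have u2 := sc hM 3 (by norm_num) U0 (x := ε * ε * w ^ 2) (by nlinarith)
  have u8 : 0 ≤ M ^ 6 * (ε * w ^ 2) := by positivity
  simp only [bil_smul_m]
  rw [abs_le]
  constructor <;> linarith [t1.1, t1.2, t2.1, t2.2, t3.1, t3.2, t4.1, t4.2, t5.1, t5.2]

lemma alg3 {ρ : ℝ} (hn : (n : ℝ) ≤ M) (hM : 1 ≤ M) (hxg : ‖γx - g‖ ≤ ρ) (hyg : ‖γy - g‖ ≤ ρ)
    (hQ : ‖Qy‖ ≤ M) (hζ : ‖ζ‖ ≤ w) (hζ' : ‖ζ'‖ ≤ w) :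
    |bil γx Qy ζ + bil γy Qy ζ' - bil g Qy (ζ + ζ')| ≤ 200 * M ^ 6 * ρ * w := by
  have U0 : 0 ≤ ρ * w := mul_nonneg ((norm_nonneg _).trans hxg) ((norm_nonneg _).trans hζ)
  have t1 := abs_le.1 (bil_le hn hxg hQ hζ)
  have t2 := abs_le.1 (bil_le hn hyg hQ hζ')
  have u1 := sc hM 3 (by norm_num) U0 le_rfl
  have u8 : 0 ≤ M ^ 6 * (ρ * w) := by positivity
  rw [bil_sub_m] at t1 t2
  rw [bil_add_r, abs_le]
  constructor <;> linarith [t1.1, t1.2, t2.1, t2.2]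

lemma alg4 {z : Fin n → ℝ} (hn : (n : ℝ) ≤ M) (hM : 1 ≤ M) (e0 : 0 ≤ ε) (d0 : 0 ≤ δ) (s0 : 0 ≤ s)
    (hg : ‖g‖ ≤ M) (hxg : ‖γx - g‖ ≤ ε * s + δ) (hyg : ‖γy - g‖ ≤ ε * s + δ)
    (hQx : ‖Qx‖ ≤ M * s) (hQ : ‖Qy‖ ≤ M * s) (h1 : ‖Qx + (2 : ℝ) • z‖ ≤ ε * s ^ 2)
    (h2 : ‖Qy - (2 : ℝ) • z‖ ≤ ε * s ^ 2) (hζ : ‖ζ‖ ≤ w) (hζ' : ‖ζ'‖ ≤ w) :
    |bil γx Qx ζ + bil γy Qy ζ' - 2 * bil g z (ζ' - ζ)| ≤
      200 * M ^ 6 * (ε * s ^ 2 + δ * s) * w := by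
  have w0 : 0 ≤ w := (norm_nonneg _).trans hζ
  have U0 : 0 ≤ (ε * s ^ 2 + δ * s) * w := by positivity
  have t1 := abs_le.1 (bil_le hn hxg hQx hζ)
  have t2 := abs_le.1 (bil_le hn hyg hQ hζ')
  have t3 := abs_le.1 (bil_le hn hg h1 hζ)
  have t4 := abs_le.1 (bil_le hn hg h2 hζ')
  have u1 := sc hM 3 (by norm_num) U0 le_rfl
  have u2 := sc hM 3 (by norm_num) U0 (x := ε * s ^ 2 * w)
    (by nlinarith [mul_nonneg (mul_nonneg d0 s0) w0])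
  have u8 : 0 ≤ M ^ 6 * ((ε * s ^ 2 + δ * s) * w) := by positivity
  rw [bil_sub_m] at t1 t2
  rw [bil_add_l, bil_smul_l] at t3
  rw [bil_sub_l, bil_smul_l] at t4
  rw [bil_sub_r, abs_le]
  constructor <;> linarith [t1.1, t1.2, t2.1, t2.2, t3.1, t3.2, t4.1, t4.2]

end Wwh
end Vale.Agent.P088
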