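import Vale.Agent.P088.WwmA

/-!
# P088: symbol bounds for the functions of `x` alone (`s_wm` is in `WwmA`)
-/

open MeasureTheory Set Metric
open scoped ContDiff Topology

noncomputable section
namespace Vale.Agent.P088
open Vale.Agent.P136 (D Dp Dm Sm Tst)

namespace Wwm

variable {n : ℕ}

theorem sm_nsq : Sm fun y : En n => ‖y‖ ^ 2 := contDiff_norm_sq ℝ

theorem sm_coord (i : Fin n) : Sm fun y : En n => y i :=
  (EuclideanSpace.proj (𝕜 := ℝ) i).contDiff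

theorem D_coord (i j : Fin n) :
    D (ee i) (fun y : En n => y j) = fun _ => if i = j then 1 else 0 := by
  funext x
  have := (EuclideanSpace.proj (𝕜 := ℝ) j).fderiv (x := x)
  unfold D
  rw [show (fun y : En n => y j) = EuclideanSpace.proj (𝕜 := ℝ) j from rfl, this]
  simp [ee, eq_comm]

theorem D_nsq (i : Fin n) : D (ee i) (fun y : En n => ‖y‖ ^ 2) = fun y => 2 * y i := by
  funext x
  unfold D
  rw [(hasStrictFDerivAt_norm_sq x).hasFDerivAt.fderiv]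
  simp [ee, EuclideanSpace.inner_single_right]

theorem sb_nsq {x : En n} (hx : ‖x‖ ≤ 2) : SB1 ee 6 4 1 (fun y : En n => ‖y‖ ^ 2) x := by
  refine SbComp.sb1_succ fun i => ?_
  rw [D_nsq]
  refine SbComp.sb_of ?_ (SbComp.sb1_succ fun j => ?_)
  · have := (PiLp.norm_apply_le x i).trans hx
    rw [Real.norm_eq_abs] at this
    rw [abs_mul, abs_two]
    linarith
  · have e : D (ee j) (fun y : En n => 2 * y i) = fun _ => 2 * if j = i then 1 else 0 := by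
      funext y
      rw [P136.D_const_mul_at ((sm_coord i).dAt y), D_coord]
    rw [e]
    refine SbAlg.mono zero_le_one (SbAlg.const zero_le_one _) le_rfl ?_ le_rfl
    split_ifs <;> norm_num

theorem sb1_cmul {X : Type} [NormedAddCommGroup X] [NormedSpace ℝ X] {κ : Type} {v : κ → X}
    {p : X} {k : ℕ} {w L : ℝ} {g : X → ℝ} (hg : ContDiffAt ℝ ∞ g p) (h : SB1 v k w L g p)
    (c : ℝ) : SB1 v k (|c| * w) L (fun x => c * g x) p := by
  intro l hl hk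
  rw [(SbAlg.Ds_cmul hg c l).eq_of_nhds, abs_mul, mul_assoc]
  exact mul_le_mul_of_nonneg_left (h l hl hk) (abs_nonneg c)

theorem sb_exp : ∃ C : ℝ, 1 ≤ C ∧ ∀ (n : ℕ) (w : ℝ) (x : En n), 1 ≤ w → ‖x‖ ≤ 2 →
    SB ee 6 (C * Real.exp (w * ‖x‖ ^ 2 + 1)) (4 * w) (fun y => Real.exp (w * ‖y‖ ^ 2 + 1)) x := by
  obtain ⟨C, hC, hc⟩ := s_sbComp s_sbAlg 6
  refine ⟨C, hC, fun n w x hw hx => ?_⟩
  have hs : Sm fun y : En n => w * ‖y‖ ^ 2 + 1 := (sm_nsq.cmul w).add (Sm.const 1)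
  refine (hc (En n) _ ee (4 * w) 1 x _ (by linarith) hs.contDiffAt ?_).2.1 le_rfl
  have h1 := sb1_cmul sm_nsq.contDiffAt (sb_nsq hx) w
  have h2 : SB1 ee 6 (|w| * 4) 1 (fun y : En n => w * ‖y‖ ^ 2 + 1) x := by
    refine fun l hl hk => le_of_eq_of_le ?_ (h1 l hl hk)
    obtain ⟨l', i, rfl⟩ := (List.eq_nil_or_concat' l).resolve_left hl
    rw [SbAlg.Ds_concat, SbAlg.Ds_concat]
    congr 2
    funext y
    rw [P136.D_add_at ((sm_nsq.cmul w).dAt y) ((Sm.const 1).dAt y), P136.D_const, add_zero]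
  refine resc h2 fun m _ => ?_
  rw [abs_of_pos (by linarith), one_pow, mul_one, one_mul, mul_comm]
  exact le_self_pow₀ (by linarith) (by omega)

/-- Moments of the scalar weight. -/
def Su (K : ℕ) (L0 sg : ℝ) (J i : ℕ) (u : ℝ) : ℝ :=
  ∑ j ∈ Finset.range (J + 1), omj L0 j ^ i * (wj K L0 sg j * Real.exp (omj L0 j * u + 1))

theorem wj_pos (K : ℕ) {L0 : ℝ} (hL : 1 ≤ L0) (sg : ℝ) (j : ℕ) : 0 < wj K L0 sg j := by
  have := omj_one hL j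
  unfold wj
  positivity

theorem Su_pos (K : ℕ) {L0 : ℝ} (hL : 1 ≤ L0) (sg : ℝ) (J i : ℕ) (u : ℝ) :
    0 < Su K L0 sg J i u := by
  refine Finset.sum_pos (fun j _ => ?_) Finset.nonempty_range_add_one
  have := omj_one hL j
  have := wj_pos K hL sg j
  positivity

theorem aU_Su (K : ℕ) (L0 sg : ℝ) (J : ℕ) (u : ℝ) : aU K L0 sg J u = 2 * Su K L0 sg J 0 u := by
  simp only [aU, Su, pow_zero, one_mul]

theorem LU_Su (K : ℕ) (L0 sg : ℝ) (J : ℕ) (u : ℝ) :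
    LU K L0 sg J u = Su K L0 sg J 1 u / Su K L0 sg J 0 u := by
  simp only [LU_eq, Su, pow_zero, one_mul, pow_one]

theorem Su_deriv (K : ℕ) (L0 sg : ℝ) (J i : ℕ) (u : ℝ) :
    HasDerivAt (Su K L0 sg J i) (Su K L0 sg J (i + 1) u) u := by
  refine HasDerivAt.fun_sum fun j _ => ?_
  have h := (((((hasDerivAt_id u).const_mul (omj L0 j)).add_const 1).exp).const_mul
    (wj K L0 sg j)).const_mul (omj L0 j ^ i)
  refine h.congr_deriv ?_
  simp only [id]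
  ring

theorem Su_cs (K : ℕ) {L0 : ℝ} (hL : 1 ≤ L0) (sg : ℝ) (J : ℕ) (u : ℝ) :
    Su K L0 sg J 1 u ^ 2 ≤ Su K L0 sg J 0 u * Su K L0 sg J 2 u := by
  refine Finset.sum_sq_le_sum_mul_sum_of_sq_le_mul _ (fun j _ => ?_) (fun j _ => ?_)
    fun j _ => le_of_eq (by ring)
  all_goals
    have := omj_one hL j
    have := wj_pos K hL sg j
    positivity

theorem LU_deriv (K : ℕ) {L0 : ℝ} (hL : 1 ≤ L0) (sg : ℝ) (J : ℕ) (u : ℝ) :
    ∃ d : ℝ, 0 ≤ d ∧ HasDerivAt (LU K L0 sg J) d u := by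
  have h0 := Su_pos K hL sg J 0 u
  have h := (Su_deriv K L0 sg J 1 u).fun_div (Su_deriv K L0 sg J 0 u) h0.ne'
  rw [← funext (LU_Su K L0 sg J)] at h
  refine ⟨_, div_nonneg ?_ (sq_nonneg _), h⟩
  have := Su_cs K hL sg J u
  nlinarith

theorem sm_Su (K : ℕ) (L0 sg : ℝ) (J i : ℕ) : Sm fun y : En n => Su K L0 sg J i (‖y‖ ^ 2) :=
  Sm.sum fun _ _ => (((sm_nsq.cmul _).add (Sm.const 1)).exp.cmul _).cmul _

theorem sb_Su (K : ℕ) (hK : 1 ≤ K) : ∃ C : ℝ, 1 ≤ C ∧ ∀ (n : ℕ) (L0 sg : ℝ) (J : ℕ) (x : En n),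
    1 ≤ L0 → ‖x‖ ≤ 2 → ∀ i ≤ 1,
      SB ee 6 (C * LU K L0 sg J (‖x‖ ^ 2) ^ i * Su K L0 sg J 0 (‖x‖ ^ 2)) (LU K L0 sg J (‖x‖ ^ 2))
        (fun y => Su K L0 sg J i (‖y‖ ^ 2)) x := by
  obtain ⟨C₁, hC₁, h₁⟩ := cmp K hK
  obtain ⟨C₂, hC₂, h₂⟩ := sb_exp
  refine ⟨C₂ * 4 ^ 6 * C₁, one_le_mul_of_one_le_of_one_le (by linarith) hC₁, ?_⟩
  intro n L0 sg J x hL hx i hi l hl
  obtain ⟨-, -, a3⟩ := h₁ L0 J _ _ _ hL (Real.exp_pos (2 * L0 + 1))
    (aU_cmp K hL sg (‖x‖ ^ 2)) (Su K L0 sg J 0 (‖x‖ ^ 2)) (LU K L0 sg J (‖x‖ ^ 2)) (by simp [Su])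
    (by rw [LU_Su]; simp only [Su, pow_one])
  have a4 : Su K L0 sg J (i + l.length) (‖x‖ ^ 2) ≤ _ := a3 (i + l.length) (by omega)
  have e := (SbLin.Ds_sum (v := ee) (p := x) (Finset.range (J + 1))
    (f := fun j y => Real.exp (omj L0 j * ‖y‖ ^ 2 + 1)) (fun j => omj L0 j ^ i * wj K L0 sg j)
    (fun j => ((sm_nsq.cmul _).add (Sm.const 1)).exp.contDiffAt) l).eq_of_nhds
  simp only [mul_assoc (omj L0 _ ^ i)] at e
  calc |Ds ee l (fun y => Su K L0 sg J i (‖y‖ ^ 2)) x|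
      = |∑ j ∈ Finset.range (J + 1), omj L0 j ^ i * (wj K L0 sg j *
          Ds ee l (fun y => Real.exp (omj L0 j * ‖y‖ ^ 2 + 1)) x)| := congrArg abs e
    _ ≤ ∑ j ∈ Finset.range (J + 1), C₂ * 4 ^ 6 * (omj L0 j ^ (i + l.length) *
          (wj K L0 sg j * Real.exp (omj L0 j * ‖x‖ ^ 2 + 1))) := by
      refine (Finset.abs_sum_le_sum_abs _ _).trans (Finset.sum_le_sum fun j _ => ?_)
      have o1 := omj_one hL j
      have o2 := wj_pos K hL sg j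
      have b := h₂ n _ x o1 hx l hl
      have b2 : (4 : ℝ) ^ l.length ≤ 4 ^ 6 := pow_le_pow_right₀ (by norm_num) hl
      rw [abs_mul, abs_mul, abs_of_pos o2, abs_of_pos (by positivity : 0 < omj L0 j ^ i)]
      calc _ ≤ omj L0 j ^ i * (wj K L0 sg j *
            (C₂ * Real.exp (omj L0 j * ‖x‖ ^ 2 + 1) * (4 * omj L0 j) ^ l.length)) := by gcongr
        _ = C₂ * 4 ^ l.length * (omj L0 j ^ (i + l.length) *
            (wj K L0 sg j * Real.exp (omj L0 j * ‖x‖ ^ 2 + 1))) := by ring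
        _ ≤ _ := by gcongr
    _ = C₂ * 4 ^ 6 * Su K L0 sg J (i + l.length) (‖x‖ ^ 2) := by rw [Su, Finset.mul_sum]
    _ ≤ C₂ * 4 ^ 6 * (C₁ * LU K L0 sg J (‖x‖ ^ 2) ^ (i + l.length) *
          Su K L0 sg J 0 (‖x‖ ^ 2)) := mul_le_mul_of_nonneg_left a4 (by positivity)
    _ = _ := by ring

theorem log_bd {a C c L0 y : ℝ} {K : ℕ} {d : ℝ} (ha : 0 < a) (e : a = 2 * Real.exp (2 * L0 + 1) * d)
    (hd : d ≤ C * c ^ (2 * K) * Real.exp (c * max (-y) 0)) (hy : -y ≤ 4) (hC : 1 ≤ C)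
    (hL : 1 ≤ L0) (hc : L0 ≤ c) : Real.log a ≤ (8 + C + 2 * K) * c := by
  rw [Real.log_le_iff_le_exp ha, e]
  have c0 : 0 < c := by linarith
  have h1 : (2 : ℝ) ≤ Real.exp 1 := by linarith [Real.add_one_le_exp 1]
  have h2 : C ≤ Real.exp C := by linarith [Real.add_one_le_exp C]
  have h3 : c ^ (2 * K) ≤ Real.exp (((2 * K : ℕ) : ℝ) * c) := by
    rw [Real.exp_nat_mul]
    exact pow_le_pow_left₀ c0.le (by linarith [Real.add_one_le_exp c]) _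
  have h4 : Real.exp (c * max (-y) 0) ≤ Real.exp (c * 4) :=
    Real.exp_le_exp.2 (mul_le_mul_of_nonneg_left (max_le hy (by norm_num)) c0.le)
  calc 2 * Real.exp (2 * L0 + 1) * d
      ≤ 2 * Real.exp (2 * L0 + 1) * (C * c ^ (2 * K) * Real.exp (c * max (-y) 0)) := by gcongr
    _ ≤ Real.exp 1 * Real.exp (2 * L0 + 1) *
        (Real.exp C * Real.exp (((2 * K : ℕ) : ℝ) * c) * Real.exp (c * 4)) := by gcongr
    _ = Real.exp (1 + (2 * L0 + 1) + (C + ((2 * K : ℕ) : ℝ) * c + c * 4)) := by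
      simp only [Real.exp_add]
    _ ≤ _ := by
      refine Real.exp_le_exp.2 ?_
      push_cast
      nlinarith

end Wwm

open Wwm in
theorem s_w1x (h0 : S_w0) (hm : S_wm) : S_w1x := by
  intro n ι f hf
  have hK : 1 ≤ f.K := le_trans (by norm_num) hf.2.2.2.2.2.2.2.2.2.2.2.2.2.1
  obtain ⟨C₁, hC₁, h₁⟩ := sb_Su f.K hK
  obtain ⟨C₂, hC₂, h₂⟩ := s_sbComp s_sbAlg 6
  obtain ⟨C₃, hC₃, h₃⟩ := hm n ι f hf
  obtain ⟨C₄, hC₄, h₄⟩ := s_mom f.K 0 hK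
  have p6 : 1 ≤ C₁ ^ 6 := one_le_pow₀ hC₁
  have p7 : 1 ≤ C₂ * C₁ ^ 6 := one_le_mul_of_one_le_of_one_le hC₂ p6
  have p8 : C₁ ≤ C₁ * (C₂ * C₁ ^ 6) := le_mul_of_one_le_right (by linarith) p7
  have p9 : C₂ * C₁ ^ 6 ≤ C₁ * (C₂ * C₁ ^ 6) := le_mul_of_one_le_left (by linarith) hC₁
  have p10 : 0 ≤ (8 + C₄ + 2 * f.K) * C₃ := by positivity
  obtain ⟨C, hC⟩ : ∃ C, C = 2 ^ 6 * (C₁ * (C₂ * C₁ ^ 6)) + (8 + C₄ + 2 * f.K) * C₃ := ⟨_, rfl⟩
  refine ⟨C, by linarith, ?_⟩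
  refine (((h0 n ι f hf).and h₃).and (Ev.ok f one_pos 1)).mono ?_
  rintro c ⟨⟨⟨w1, w2, -⟩, -, hu⟩, hc⟩ x hx
  have hL : 1 ≤ c.L0 := hc.1
  obtain ⟨-, -, -, -, -, -, -, -, -, -, -, -, -, -, -, -, -, -, -, -, -, -, -, -, -, -, -, -, -, -,
    -, -, -, -, -, -, -, sa, sL, sl, -⟩ := w1
  obtain ⟨a0, a1, -, -, -⟩ := w2 x
  have l0 : 0 ≤ LX f c x := by linarith
  have ea : aX f c = fun y => 2 * Su f.K c.L0 c.sg c.J 0 (‖y‖ ^ 2) :=
    funext fun y => aU_Su _ _ _ _ _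
  have b0 : SB ee 6 (C₁ * aX f c x) (LX f c x) (aX f c) x := by
    have := SbAlg.cmul (sm_Su f.K c.L0 c.sg c.J 0).contDiffAt
      (h₁ n c.L0 c.sg c.J x hL hx 0 zero_le_one) 2
    rw [← ea] at this
    refine SbAlg.mono l0 this le_rfl (le_of_eq ?_) le_rfl
    rw [ea, abs_two]
    ring
  obtain ⟨i1, i2, i3⟩ := (h₂ (En n) _ ee _ _ x _ l0 sa.contDiffAt (to1 b0)).2.2.1 C₁ hC₁ a0 le_rfl
  have ef : fX f c = fun y => √(aX f c y) := by
    funext y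
    rw [← (w2 y).2.2.1, Real.sqrt_sq (show 0 ≤ fX f c y from (Real.exp_pos _).le)]
  have eL : LX f c = fun y => 2 * Su f.K c.L0 c.sg c.J 1 (‖y‖ ^ 2) * (aX f c y)⁻¹ := by
    funext y
    rw [LX, LU_Su, ea, ← div_eq_mul_inv, mul_div_mul_left _ _ two_ne_zero]
  have el : lX f c = fun y => 1 / 2 * Real.log (aX f c y) := by
    funext y
    rw [lX, ell, aX]
    ring
  refine ⟨SbAlg.mono l0 b0 le_rfl (mul_le_mul_of_nonneg_right (by linarith) a0.le) le_rfl,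
    ?_, ?_, ?_, fun ξ => ?_, ?_⟩
  · rw [ef]
    exact SbAlg.mono l0 i2 le_rfl (mul_le_mul_of_nonneg_right (by linarith) (Real.sqrt_nonneg _))
      le_rfl
  · have s1 := sm_Su (n := n) f.K c.L0 c.sg c.J 1
    have := SbAlg.mul (g := fun y => (aX f c y)⁻¹) l0 (s1.cmul 2).contDiffAt
      (sa.contDiffAt.inv a0.ne')
      (SbAlg.cmul s1.contDiffAt (h₁ n c.L0 c.sg c.J x hL hx 1 le_rfl) 2) i1
    rw [← eL] at this
    refine SbAlg.mono l0 this le_rfl ?_ le_rfl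
    have e : 2 ^ 6 * (|2| * (C₁ * LU f.K c.L0 c.sg c.J (‖x‖ ^ 2) ^ 1 *
        Su f.K c.L0 c.sg c.J 0 (‖x‖ ^ 2))) * (C₂ * C₁ ^ 6 / aX f c x) =
        2 ^ 6 * (C₁ * (C₂ * C₁ ^ 6)) * LX f c x := by
      have := (Su_pos f.K hL c.sg c.J 0 (‖x‖ ^ 2)).ne'
      rw [ea, abs_two, LX]
      field_simp
    rw [e]
    exact mul_le_mul_of_nonneg_right (by linarith) l0
  · rw [el]
    refine SbComp.sb1_mono (sb1_cmul (sa.contDiffAt.log a0.ne') i3 (1 / 2)) l0 le_rfl ?_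
    rw [abs_of_pos (by norm_num)]
    linarith
  · obtain ⟨d, hd, hD⟩ := LU_deriv f.K hL c.sg c.J (‖x‖ ^ 2)
    have e1 : ∀ i, D (ee i) (LX f c) x = d * (2 * x i) := by
      intro i
      have h := (hD.comp_hasFDerivAt x (sm_nsq.dAt x).hasFDerivAt).fderiv
      have h' := congrFun (D_nsq i) x
      unfold D at h' ⊢
      rw [show LX f c = LU f.K c.L0 c.sg c.J ∘ fun y : En n => ‖y‖ ^ 2 from rfl, h, ← h']
      rfl
    have e2 : ∀ i j, D (ee i) (D (ee j) (lX f c)) x * ξ i * ξ j =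
        (if i = j then LX f c x * ξ i ^ 2 else 0) + 2 * d * ((x i * ξ i) * (x j * ξ j)) := by
      intro i j
      rw [funext fun y => (w2 y).2.2.2.2 j, P136.D_mul_at (sL.dAt x) ((sm_coord j).dAt x),
        D_coord, e1]
      by_cases h : i = j
      · subst h
        simp only [if_true]
        ring
      · simp only [h, if_false]
        ring
    simp only [e2, Finset.sum_add_distrib, Finset.sum_ite_eq, Finset.mem_univ, if_true,
      ← Finset.mul_sum, ← Finset.sum_mul, n2]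
    nlinarith [mul_nonneg hd (mul_self_nonneg (∑ i, x i * ξ i))]
  · obtain ⟨u1, -, u2⟩ := hu (‖x‖ ^ 2)
    obtain ⟨-, -, -, m1, -, m2, -⟩ := h₄ c.L0 c.J (1 - c.sg - ‖x‖ ^ 2) hL
    have hx2 : ‖x‖ ^ 2 ≤ 4 := by nlinarith [norm_nonneg x]
    have := log_bd a0 u2 m1 (by linarith [hc.2.2.2.1]) hC₄ hL m2
    calc _ ≤ _ := this
      _ ≤ (8 + C₄ + 2 * f.K) * (C₃ * LX f c x) := mul_le_mul_of_nonneg_left u1 (by positivity)
      _ = (8 + C₄ + 2 * f.K) * C₃ * LX f c x := by ring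
      _ ≤ _ := mul_le_mul_of_nonneg_right (by linarith) l0

end Vale.Agent.P088
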