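import Vale.Agent.P088.StW
import Vale.Agent.P088.SbLin
import Vale.Agent.P088.SbComp
import Vale.Agent.P088.Mom

/-!
# P088: comparison of the weight with the dyadic sums
-/

open MeasureTheory Set Metric
open scoped ContDiff Topology

noncomputable section
namespace Vale.Agent.P088
open Vale.Agent.P136 (D Dp Dm Sm Tst)

namespace Wwm

theorem omj_one {L0 : ℝ} (h : 1 ≤ L0) (j : ℕ) : 1 ≤ omj L0 j :=
  one_le_mul_of_one_le_of_one_le h (one_le_pow₀ one_le_two)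

/-- The terms of the dyadic sum. -/
def tj (K : ℕ) (L0 y : ℝ) (j : ℕ) : ℝ := omj L0 j ^ (2 * K) * Real.exp (-(omj L0 j * y))

theorem dy_eq (K : ℕ) (L0 : ℝ) (J i : ℕ) (y : ℝ) :
    dy K L0 J i y = ∑ j ∈ Finset.range (J + 1), omj L0 j ^ i * tj K L0 y j := by
  refine Finset.sum_congr rfl fun j _ => ?_
  simp only [tj, omj, pow_add]
  ring

theorem wj_exp (K : ℕ) (L0 sg u s b : ℝ) (j : ℕ) :
    wj K L0 sg j * Real.exp (omj L0 j * u + b) =
      Real.exp (2 * L0 + (b - omj L0 j * s)) * tj K L0 (1 - sg - u - s) j := by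
  simp only [wj, tj]
  rw [mul_assoc, ← Real.exp_add, mul_left_comm, ← Real.exp_add]
  congr 2
  ring

theorem tj_pos (K : ℕ) {L0 : ℝ} (h : 1 ≤ L0) (y : ℝ) (j : ℕ) : 0 < tj K L0 y j := by
  have := omj_one h j
  unfold tj
  positivity

/-- Moments of weights that are comparable with the dyadic terms. -/
theorem cmp (K : ℕ) (hK : 1 ≤ K) : ∃ C : ℝ, 1 ≤ C ∧ ∀ (L0 : ℝ) (J : ℕ) (y a : ℝ) (E : ℕ → ℝ),
    1 ≤ L0 → 0 < a → (∀ j, a * tj K L0 y j ≤ E j ∧ E j ≤ 3 * a * tj K L0 y j) → ∀ F v : ℝ,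
    F = ∑ j ∈ Finset.range (J + 1), E j →
    v = (∑ j ∈ Finset.range (J + 1), omj L0 j * E j) / F →
    cl L0 J y ≤ C * v ∧ v ≤ C * cl L0 J y ∧
      ∀ i ≤ 12, ∑ j ∈ Finset.range (J + 1), omj L0 j ^ i * E j ≤ C * v ^ i * F := by
  obtain ⟨C, hC, h⟩ := s_mom K 12 hK
  have h3 : 1 ≤ 3 * C := by linarith
  refine ⟨(3 * C) ^ 13, one_le_pow₀ h3, fun L0 J y a E hL ha hE F v hF hv => ?_⟩
  obtain ⟨m1, m2, -, -, -, m3, -⟩ := h L0 J y hL
  have lo : ∀ i, a * dy K L0 J i y ≤ ∑ j ∈ Finset.range (J + 1), omj L0 j ^ i * E j := by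
    intro i
    rw [dy_eq, Finset.mul_sum]
    refine Finset.sum_le_sum fun j _ => ?_
    rw [mul_left_comm]
    exact mul_le_mul_of_nonneg_left (hE j).1 (pow_nonneg (by linarith [omj_one hL j]) _)
  have hi : ∀ i, ∑ j ∈ Finset.range (J + 1), omj L0 j ^ i * E j ≤ 3 * a * dy K L0 J i y := by
    intro i
    rw [dy_eq, Finset.mul_sum]
    refine Finset.sum_le_sum fun j _ => ?_
    rw [mul_left_comm]
    exact mul_le_mul_of_nonneg_left (hE j).2 (pow_nonneg (by linarith [omj_one hL j]) _)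
  have hF0 : 0 < F := by
    rw [hF]
    exact Finset.sum_pos (fun j _ => (mul_pos ha (tj_pos K hL y j)).trans_le (hE j).1)
      Finset.nonempty_range_add_one
  have l0 := lo 0
  have l1 := lo 1
  have u0 := hi 0
  simp only [pow_zero, one_mul, pow_one, ← hF] at l0 l1 u0
  have hv' : ∑ j ∈ Finset.range (J + 1), omj L0 j * E j = v * F := by
    rw [hv, div_mul_cancel₀ _ hF0.ne']
  rw [hv'] at l1
  have hc : 0 < cl L0 J y := by linarith
  have key : ∀ i ≤ 12, ∑ j ∈ Finset.range (J + 1), omj L0 j ^ i * E j ≤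
      3 * C * cl L0 J y ^ i * F := by
    intro i hi'
    calc _ ≤ 3 * a * dy K L0 J i y := hi i
      _ ≤ 3 * a * (C * cl L0 J y ^ i * dy K L0 J 0 y) :=
        mul_le_mul_of_nonneg_left (m1 i hi') (by positivity)
      _ = 3 * C * cl L0 J y ^ i * (a * dy K L0 J 0 y) := by ring
      _ ≤ _ := mul_le_mul_of_nonneg_left l0 (by positivity)
  have c1 : cl L0 J y ≤ 3 * C * v := by
    refine le_of_mul_le_mul_right ?_ hF0
    calc cl L0 J y * F ≤ cl L0 J y * (3 * a * dy K L0 J 0 y) :=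
        mul_le_mul_of_nonneg_left u0 hc.le
      _ = 3 * a * (cl L0 J y * dy K L0 J 0 y) := by ring
      _ ≤ 3 * a * (C * dy K L0 J 1 y) := mul_le_mul_of_nonneg_left m2 (by positivity)
      _ = 3 * C * (a * dy K L0 J 1 y) := by ring
      _ ≤ 3 * C * (v * F) := mul_le_mul_of_nonneg_left l1 (by positivity)
      _ = _ := by ring
  have c2 : v ≤ 3 * C * cl L0 J y := by
    refine le_of_mul_le_mul_right ?_ hF0
    have := key 1 (by norm_num)
    simp only [pow_one] at this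
    rwa [hv'] at this
  have hv0 : 0 < v := (pos_iff_pos_of_mul_pos (hc.trans_le c1)).1 (by positivity)
  have hp : 3 * C ≤ (3 * C) ^ 13 := le_self_pow₀ h3 (by norm_num)
  refine ⟨c1.trans (mul_le_mul_of_nonneg_right hp hv0.le),
    c2.trans (mul_le_mul_of_nonneg_right hp hc.le), fun i hi' => (key i hi').trans ?_⟩
  refine mul_le_mul_of_nonneg_right ?_ hF0.le
  calc 3 * C * cl L0 J y ^ i ≤ 3 * C * (3 * C * v) ^ i :=
      mul_le_mul_of_nonneg_left (pow_le_pow_left₀ hc.le c1 i) (by positivity)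
    _ = (3 * C) ^ (i + 1) * v ^ i := by ring
    _ ≤ _ := mul_le_mul_of_nonneg_right (pow_le_pow_right₀ h3 (by omega)) (by positivity)

theorem om_facts {f : Fx} (hf : f.Ok) {q : ℝ} (hq : 0 ≤ q) :
    f.lam ^ 2 * q ≤ f.Om q ∧ f.Om q ≤ 64 * q := by
  obtain ⟨-, -, -, -, -, -, -, -, -, -, -, -, -, -, -, h1, h2⟩ := hf
  rcases hq.eq_or_lt with rfl | hq
  · rw [h1 0 (sq_nonneg _)]; simp
  · exact ⟨(h2 q hq).1, (h2 q hq).2.1⟩

theorem sqrt_bd {w h : ℝ} (hw : 0 ≤ w) (hh : 0 ≤ h) :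
    w * √h ≤ √(1 + w ^ 2 * h) ∧ √(1 + w ^ 2 * h) ≤ 1 + w * √h := by
  have e : (w * √h) ^ 2 = w ^ 2 * h := by rw [mul_pow, Real.sq_sqrt hh]
  have h0 : 0 ≤ w * √h := by positivity
  refine ⟨Real.le_sqrt_of_sq_le (by linarith), Real.sqrt_le_iff.2 ⟨by linarith, by nlinarith⟩⟩

section sb
variable {X : Type} [NormedAddCommGroup X] [NormedSpace ℝ X] {κ : Type} {v : κ → X} {p : X}

theorem resc {k : ℕ} {w L w' L' : ℝ} {g : X → ℝ} (h : SB1 v k w L g p)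
    (e : ∀ m, m < k → w * L ^ (m + 1) ≤ w' * L' ^ (m + 1)) : SB1 v k w' L' g p := by
  intro l hl hk
  obtain ⟨m, hm⟩ := Nat.exists_eq_succ_of_ne_zero (List.length_eq_zero_iff.not.2 hl)
  refine (h l hl hk).trans ?_
  rw [hm]
  exact e m (by omega)

theorem to1 {k : ℕ} {w L : ℝ} {g : X → ℝ} (h : SB v k w L g p) : SB1 v k w L g p :=
  fun l _ hk => h l hk

/-- The square root of `1 + ω² h`. -/
theorem sb_sqrt : ∃ C : ℝ, 1 ≤ C ∧ ∀ (X : Type) [NormedAddCommGroup X] [NormedSpace ℝ X]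
    (κ : Type) (v : κ → X) (p : X) (h : X → ℝ) (w A : ℝ), Sm h → 1 ≤ w → 1 ≤ A → 0 ≤ h p →
    h p ≤ 128 → SB v 6 A 1 h p → (∀ i, |D (v i) h p| ≤ A * √(h p)) →
    SB1 v 6 (C * A ^ 6) w (fun x => √(1 + w ^ 2 * h x)) p := by
  obtain ⟨C, hC, hc⟩ := s_sbComp s_sbAlg 6
  refine ⟨C * (12 ^ 4) ^ 6, one_le_mul_of_one_le_of_one_le hC (by norm_num), ?_⟩
  intro X _ _ κ v p h w A hs hw hA h0 h1 hb hd
  have hg : Sm fun x => 1 + w ^ 2 * h x := (Sm.const 1).add (hs.cmul _)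
  obtain ⟨r, hr⟩ : ∃ r, r = √(1 + w ^ 2 * h p) := ⟨_, rfl⟩
  have hw2 : 1 ≤ w ^ 2 := one_le_pow₀ hw
  have g1 : 1 ≤ 1 + w ^ 2 * h p := by nlinarith
  have r1 : 1 ≤ r := by rw [hr]; exact Real.one_le_sqrt.2 g1
  have r2 : r ^ 2 = 1 + w ^ 2 * h p := by rw [hr, Real.sq_sqrt (by linarith)]
  have r3 : r ≤ 12 * w := by
    rw [hr]
    exact Real.sqrt_le_iff.2 ⟨by linarith, by nlinarith⟩
  have r4 : w * √(h p) ≤ r := by rw [hr]; exact (sqrt_bd (by linarith) h0).1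
  have hL : 1 / 12 ≤ w / r := by
    rw [div_le_div_iff₀ (by norm_num) (by linarith)]
    linarith
  have hD : ∀ i, D (v i) (fun x => 1 + w ^ 2 * h x) = fun x => w ^ 2 * D (v i) h x := by
    intro i
    funext x
    rw [P136.D_add_at ((Sm.const 1).dAt x) ((hs.cmul _).dAt x), P136.D_const,
      P136.D_const_mul_at (hs.dAt x), zero_add]
  have s1 : SB1 v 6 (12 ^ 4 * A * r ^ 2) (w / r) (fun x => 1 + w ^ 2 * h x) p := by
    refine SbComp.sb1_succ fun i => ?_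
    rw [hD]
    refine SbComp.sb_of ?_ ?_
    · rw [abs_mul, abs_of_pos (by positivity : 0 < w ^ 2)]
      have e : 12 ^ 4 * A * r ^ 2 * (w / r) = 12 ^ 4 * (A * w * r) := by field_simp
      have : 0 ≤ A * w * r := by positivity
      calc w ^ 2 * |D (v i) h p| ≤ w ^ 2 * (A * √(h p)) :=
          mul_le_mul_of_nonneg_left (hd i) (by positivity)
        _ = A * w * (w * √(h p)) := by ring
        _ ≤ A * w * r := mul_le_mul_of_nonneg_left r4 (by positivity)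
        _ ≤ _ := by rw [e]; linarith
    · refine resc (to1 (SbAlg.cmul (hs.D _).contDiffAt (SbAlg.deriv i hb) (w ^ 2))) fun m hm => ?_
      rw [abs_of_pos (by positivity : 0 < w ^ 2)]
      have e : 12 ^ 4 * A * r ^ 2 * (w / r) * (w / r) ^ (m + 1) =
          w ^ 2 * A * (12 ^ 4 * (w / r) ^ m) := by
        rw [pow_succ (w / r) m]
        field_simp
      have e2 : 1 ≤ 12 ^ 4 * (w / r) ^ m :=
        calc (1 : ℝ) = 12 ^ 4 * (1 / 12) ^ 4 := by norm_num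
          _ ≤ 12 ^ 4 * (1 / 12) ^ m := mul_le_mul_of_nonneg_left
            (pow_le_pow_of_le_one (by norm_num) (by norm_num) (by omega)) (by norm_num)
          _ ≤ _ := mul_le_mul_of_nonneg_left (pow_le_pow_left₀ (by norm_num) hL m) (by norm_num)
      rw [e, one_pow, mul_one, mul_one]
      exact le_mul_of_one_le_right (by positivity) e2
  have s2 := ((hc X κ v (w / r) _ p _ (by positivity) hg.contDiffAt s1).2.2.1 (12 ^ 4 * A)
    (by linarith) (by linarith) (by rw [r2])).2.1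
  refine resc (to1 s2) fun m _ => ?_
  rw [← hr]
  have e : C * (12 ^ 4 * A) ^ 6 * r * (w / r) ^ (m + 1) =
      C * (12 ^ 4) ^ 6 * A ^ 6 * w ^ (m + 1) / r ^ m := by
    rw [div_pow, pow_succ r]
    field_simp
  rw [e]
  exact div_le_self (by positivity) (one_le_pow₀ r1)

end sb

theorem om_bd {F : ℝ → ℝ} (hF : ContDiff ℝ ∞ F) (w : ℝ) :
    ∃ A : ℝ, 1 ≤ A ∧ ∀ j ≤ 6, ∀ q ∈ Icc (0 : ℝ) 2, |iteratedDeriv j F q| * w ^ j ≤ A := by
  have h : ∀ j : ℕ, ∃ M : ℝ, ∀ q ∈ Icc (0 : ℝ) 2, |iteratedDeriv j F q| * w ^ j ≤ M := by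
    intro j
    have hc : Continuous fun q => |iteratedDeriv j F q| * w ^ j :=
      (hF.continuous_iteratedDeriv j (by exact_mod_cast le_top)).abs.mul continuous_const
    obtain ⟨M, hM⟩ := isCompact_Icc.exists_bound_of_continuousOn
      (s := Icc (0 : ℝ) 2) hc.continuousOn
    exact ⟨M, fun q hq => (le_abs_self _).trans (hM q hq)⟩
  choose M hM using h
  obtain ⟨A, hA, hb⟩ := SbComp.unif 6 M
  exact ⟨A, hA, fun j hj q hq => (hM j q hq).trans (hb j hj)⟩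

/-- The symbol bound for `bj`. -/
theorem sb_bj (n : ℕ) (f : Fx) (hf : f.Ok) {C : ℝ} (hC : 1 ≤ C) : ∃ C' : ℝ, 1 ≤ C' ∧
    ∀ (ι : Type) (c : Cx n ι) (η : ℝ) (p : X2 n), 1 ≤ c.L0 → Sm (QQ c) → 0 ≤ QQ c p →
      WQ c C η p → ∀ j, SB1 exy 6 C' (omj c.L0 j) (bj f c j) p := by
  obtain ⟨C₁, hC₁, h₁⟩ := sb_sqrt
  obtain ⟨C₂, hC₂, h₂⟩ := s_sbComp s_sbAlg 6
  have hl : 0 < f.lam := hf.1
  have hl' : f.lam ≤ 1 / 8 := hf.2.1
  have hO : ContDiff ℝ ∞ f.Om := hf.2.2.2.2.2.2.2.2.2.2.2.2.2.2.1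
  obtain ⟨A, hA, hb⟩ := om_bd hO (2 * C)
  have hA' : 1 ≤ C₂ * A / f.lam := by
    rw [le_div_iff₀ hl]
    nlinarith
  refine ⟨C₁ * (C₂ * A / f.lam) ^ 6, one_le_mul_of_one_le_of_one_le hC₁ (one_le_pow₀ hA'),
    fun ι c η p hL hs h0 hw j => ?_⟩
  obtain ⟨-, -, w1, -, -, -, -, -, -, -, w2, -⟩ := hw
  obtain ⟨o1, o2⟩ := om_facts hf h0
  have q2 : √(QQ c p) ≤ 2 := Real.sqrt_le_iff.2 ⟨by norm_num, by linarith⟩
  have s1 : SB1 exy 6 (2 * C) 1 (QQ c) p := by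
    refine SbComp.sb1_succ fun i => SbComp.sb_of ?_ (SbComp.sb1_succ fun l => ?_)
    · have := (w1 i).1
      nlinarith
    · exact SbAlg.mono zero_le_one ((w1 l).2 i) (by norm_num) (by linarith) le_rfl
  have s2 := (h₂ (X2 n) _ exy 1 _ p _ zero_le_one hs.contDiffAt s1).1 f.Om A hO.contDiffAt
    fun j hj => hb j hj _ ⟨h0, w2⟩
  have hA2 : C₂ * A ≤ C₂ * A / f.lam := by
    rw [le_div_iff₀ hl]
    exact mul_le_of_le_one_right (by positivity) (by linarith)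
  refine h₁ (X2 n) _ exy p (fun x => f.Om (QQ c x)) _ _ (hO.comp hs) (omj_one hL j) hA'
    (le_trans (by positivity) o1) (by linarith)
    (SbAlg.mono zero_le_one s2 le_rfl hA2 le_rfl) fun i => ?_
  rw [← (SbComp.chain hs.contDiffAt hO.contDiffAt (exy i)).eq_of_nhds, abs_mul]
  have b1 := hb 1 (by norm_num) _ ⟨h0, w2⟩
  rw [iteratedDeriv_one, pow_one] at b1
  have b2 : f.lam * √(QQ c p) ≤ √(f.Om (QQ c p)) :=
    Real.le_sqrt_of_sq_le (by rw [mul_pow, Real.sq_sqrt h0]; exact o1)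
  have b3 := abs_nonneg (deriv f.Om (QQ c p))
  have b4 := Real.sqrt_nonneg (QQ c p)
  calc |deriv f.Om (QQ c p)| * |D (exy i) (QQ c) p|
      ≤ |deriv f.Om (QQ c p)| * (C * √(QQ c p)) := mul_le_mul_of_nonneg_left (w1 i).1 b3
    _ ≤ |deriv f.Om (QQ c p)| * (2 * C) * √(QQ c p) := by
      nlinarith [mul_nonneg (mul_nonneg b3 (zero_le_one.trans hC)) b4]
    _ ≤ C₂ * A * √(QQ c p) := mul_le_mul_of_nonneg_right (b1.trans (by nlinarith)) b4
    _ = C₂ * A / f.lam * (f.lam * √(QQ c p)) := by field_simp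
    _ ≤ _ := mul_le_mul_of_nonneg_left b2 (by positivity)

theorem aU_term (K : ℕ) (L0 sg u : ℝ) (j : ℕ) :
    wj K L0 sg j * Real.exp (omj L0 j * u + 1) =
      Real.exp (2 * L0 + 1) * tj K L0 (1 - sg - u) j := by
  simpa using wj_exp K L0 sg u 0 1 j

theorem LU_eq (K : ℕ) (L0 sg : ℝ) (J : ℕ) (u : ℝ) : LU K L0 sg J u =
    (∑ j ∈ Finset.range (J + 1), omj L0 j * (wj K L0 sg j * Real.exp (omj L0 j * u + 1))) /
      ∑ j ∈ Finset.range (J + 1), wj K L0 sg j * Real.exp (omj L0 j * u + 1) := by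
  rw [LU, aU, mul_div_mul_left _ _ two_ne_zero]

theorem aU_cmp (K : ℕ) {L0 : ℝ} (hL : 1 ≤ L0) (sg u : ℝ) (j : ℕ) :
    Real.exp (2 * L0 + 1) * tj K L0 (1 - sg - u) j ≤ wj K L0 sg j * Real.exp (omj L0 j * u + 1) ∧
    wj K L0 sg j * Real.exp (omj L0 j * u + 1) ≤
      3 * Real.exp (2 * L0 + 1) * tj K L0 (1 - sg - u) j := by
  rw [aU_term]
  have := mul_pos (Real.exp_pos (2 * L0 + 1)) (tj_pos K hL (1 - sg - u) j)
  exact ⟨le_rfl, by linarith⟩

end Wwm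

open Wwm in
theorem s_wm (h0 : S_w0) (hq : S_wq) : S_wm := by
  intro n ι f hf
  have hK : 1 ≤ f.K := le_trans (by norm_num) hf.2.2.2.2.2.2.2.2.2.2.2.2.2.1
  obtain ⟨C₁, hC₁, h₁⟩ := cmp f.K hK
  obtain ⟨C₂, hC₂, h₂⟩ := hq n
  obtain ⟨C₃, hC₃, h₃⟩ := sb_bj n f hf hC₂
  refine ⟨C₁ * C₃, one_le_mul_of_one_le_of_one_le hC₁ hC₃, ?_⟩
  have up : ∀ {a b : ℝ}, a ≤ C₁ * b → 0 ≤ b → a ≤ C₁ * C₃ * b := fun h hb =>
    h.trans (mul_le_mul_of_nonneg_right (le_mul_of_one_le_right (by linarith) hC₃) hb)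
  refine (((h0 n ι f hf).and (h₂ ι f hf 1 one_pos)).and (Ev.ok f one_pos 1)).mono ?_
  rintro c ⟨⟨⟨w1, w2, w3, -⟩, hw⟩, hc⟩
  have hL : 1 ≤ c.L0 := hc.1
  have hcl : ∀ y, 0 ≤ cl c.L0 c.J y := fun y => le_trans (by linarith) (le_max_left _ _)
  refine ⟨fun p => ?_, fun u => ?_⟩
  · obtain ⟨q1, -, q2, q3, -⟩ := w3 p
    have hQ : 0 ≤ QQ c p := le_trans (by positivity) q1
    have hO : 0 ≤ f.Om (QQ c p) := le_trans (by positivity) (om_facts hf hQ).1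
    have hE : ∀ j, Real.exp (2 * c.L0) * tj f.K c.L0 (1 - c.sg - uu p - √(f.Om (QQ c p))) j ≤
        Ej f c j p ∧ Ej f c j p ≤
        Real.exp (2 * c.L0 + 1) * tj f.K c.L0 (1 - c.sg - uu p - √(f.Om (QQ c p))) j := by
      intro j
      obtain ⟨b1, b2⟩ := sqrt_bd (zero_le_one.trans (omj_one hL j)) hO
      have ht := (tj_pos f.K hL (1 - c.sg - uu p - √(f.Om (QQ c p))) j).le
      rw [Ej, wj_exp f.K c.L0 c.sg (uu p) √(f.Om (QQ c p)), bj]
      exact ⟨mul_le_mul_of_nonneg_right (Real.exp_le_exp.2 (by linarith)) ht,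
        mul_le_mul_of_nonneg_right (Real.exp_le_exp.2 (by linarith)) ht⟩
    have e3 : Real.exp (2 * c.L0 + 1) ≤ 3 * Real.exp (2 * c.L0) := by
      rw [Real.exp_add, mul_comm]
      exact mul_le_mul_of_nonneg_right Real.exp_one_lt_three.le (Real.exp_pos _).le
    obtain ⟨a1, a2, a3⟩ := h₁ c.L0 c.J _ _ (fun j => Ej f c j p) hL (Real.exp_pos (2 * c.L0))
      (fun j => ⟨(hE j).1, (hE j).2.trans
        (mul_le_mul_of_nonneg_right e3 (tj_pos f.K hL _ j).le)⟩) (FF f c p) (vv f c p) rfl rfl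
    have hv : 0 ≤ vv f c p := by linarith
    refine ⟨up a1 hv, up a2 (hcl _), fun i hi => ?_, ?_, ?_, fun j => ?_⟩
    · have := a3 i hi
      rw [mul_assoc] at this ⊢
      exact up this (by positivity)
    · rw [dy_eq, Finset.mul_sum]
      exact Finset.sum_le_sum fun j _ => by rw [pow_zero, one_mul]; exact (hE j).1
    · rw [dy_eq, Finset.mul_sum]
      exact Finset.sum_le_sum fun j _ => by rw [pow_zero, one_mul]; exact (hE j).2
    · by_cases hp : p ∈ Om2 c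
      · exact Or.inl (SbComp.sb1_mono (h₃ ι c 1 p hL w1.2.2.2.2.1 hQ (hw p hp) j)
          (zero_le_one.trans (omj_one hL j)) le_rfl (le_mul_of_one_le_left (by linarith) hC₁))
      · exact Or.inr hp
  · obtain ⟨a1, a2, -⟩ := h₁ c.L0 c.J _ _ _ hL (Real.exp_pos (2 * c.L0 + 1))
      (aU_cmp f.K hL c.sg u) _ _ rfl (LU_eq f.K c.L0 c.sg c.J u)
    have hv : 0 ≤ LU f.K c.L0 c.sg c.J u :=
      nonneg_of_mul_nonneg_right ((hcl _).trans a1) (by linarith)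
    refine ⟨up a1 hv, up a2 (hcl _), ?_⟩
    rw [aU, dy_eq, mul_assoc, Finset.mul_sum _ _ (Real.exp _)]
    simp only [aU_term, pow_zero, one_mul]

end Vale.Agent.P088
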