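import Vale.Agent.P088.StW
import Vale.Agent.P088.SbLin
import Vale.Agent.P088.SbComp

/-!
# P088: derivatives of `u` and `Q`
-/

open MeasureTheory Set Metric Filter
open scoped ContDiff Topology InnerProductSpace

noncomputable section
namespace Vale.Agent.P088
open Vale.Agent.P136 (D Dp Dm Sm Tst D_add_at D_mul_at D_sum_at D_const D_sub_at D_const_mul_at)
namespace Wwq
variable {n : ℕ}

def zL (j : Fin n) : X2 n →L[ℝ] ℝ :=
  (EuclideanSpace.proj j).comp (ContinuousLinearMap.snd ℝ _ _ - ContinuousLinearMap.fst ℝ _ _)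

def mT (n : ℕ) : X2 n →L[ℝ] En n :=
  (1 / 2 : ℝ) • (ContinuousLinearMap.fst ℝ _ _ + ContinuousLinearMap.snd ℝ _ _)

def mL (j : Fin n) : X2 n →L[ℝ] ℝ := (EuclideanSpace.proj j).comp (mT n)

theorem D_clm (T : X2 n →L[ℝ] ℝ) (v : X2 n) : D v T = fun _ => T v :=
  funext fun _ => by simp [D]

theorem sm_z (j : Fin n) : Sm fun q : X2 n => zz q j := (zL j).contDiff

theorem D_z (j : Fin n) (v p : X2 n) : D v (fun q => zz q j) p = zz v j :=
  congrFun (D_clm (zL j) v) p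

theorem D_m (j : Fin n) (v : X2 n) : D v (fun q => mv q j) = fun _ => mv v j := D_clm (mL j) v

theorem z_ex (i j : Fin n) : zz (ex i) j = -if j = i then 1 else 0 := by
  simp [zz, ex, ee]

theorem z_ey (i j : Fin n) : zz (ey i) j = if j = i then 1 else 0 := by
  simp [zz, ey, ee]

theorem z_exy (i j : Fin n) : zz (ex i + ey i) j = 0 := by simp [zz, ex, ey]

theorem m_exy (i : Fin n ⊕ Fin n) (j : Fin n) :
    mv (exy i) j = if Sum.elim id id i = j then 1 / 2 else 0 := by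
  rcases i with i | i <;> simp [mv, mid, exy, ex, ey, ee, eq_comm]

theorem sb_clm (T : X2 n →L[ℝ] ℝ) {w L : ℝ} {p : X2 n} (hL : 0 ≤ L) (h0 : |T p| ≤ w)
    (h1 : ∀ i, |T (exy i)| ≤ w * L) (k : ℕ) : SB exy k w L T p :=
  SbAlg.mono hL (SbComp.sb_of h0 (SbComp.sb1_succ (k := k) fun i => by
    rw [D_clm]
    exact SbAlg.mono hL (SbAlg.const hL _) le_rfl (h1 i) le_rfl)) k.le_succ le_rfl le_rfl

theorem abs_z (p : X2 n) (j : Fin n) : |zz p j| ≤ ‖zz p‖ := PiLp.norm_apply_le (zz p) j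

theorem sb_z {s L : ℝ} {p : X2 n} (hL : 0 ≤ L) (h0 : ‖zz p‖ ≤ s) (h1 : 1 ≤ s * L) (k : ℕ)
    (j : Fin n) : SB exy k s L (fun q => zz q j) p :=
  sb_clm (zL j) hL ((abs_z p j).trans h0) (fun i => le_trans (by
    show |zz (exy i) j| ≤ 1
    rcases i with i | i
    · rw [show exy (.inl i) = ex i from rfl, z_ex]; split_ifs <;> simp
    · rw [show exy (.inr i) = ey i from rfl, z_ey]; split_ifs <;> simp) h1) k

theorem sb_z0 (p : X2 n) (j : Fin n) : SB exy 0 ‖zz p‖ 1 (fun q => zz q j) p := fun l hl => by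
  rw [List.length_eq_zero_iff.1 (Nat.le_zero.1 hl)]
  simpa [Ds] using abs_z p j

theorem sb_val {k : ℕ} {w L : ℝ} {f : X2 n → ℝ} {p : X2 n} (h : SB exy k w L f p) : |f p| ≤ w := by
  simpa [Ds] using h [] (Nat.zero_le _)

abbrev MF (n : ℕ) : Type := Fin n → Fin n → X2 n → ℝ

def lin (H : MF n) (i : Fin n) : X2 n → ℝ := fun p => ∑ j, H i j p * zz p j

def quad (H : MF n) : X2 n → ℝ := fun p => ∑ i, lin H i p * zz p i

def DM (v : X2 n) (H : MF n) : MF n := fun i j => D v (H i j)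

variable {H : MF n} {k : ℕ} {w s L : ℝ} {p : X2 n}

theorem sm_DM (hH : SmM H) (v : X2 n) : SmM (DM v H) := fun i j => (hH i j).D v

theorem sm_lin (hH : SmM H) (i : Fin n) : Sm (lin H i) :=
  Sm.sum fun j _ => (hH i j).mul (sm_z j)

theorem sm_quad (hH : SmM H) : Sm (quad H) := Sm.sum fun i _ => (sm_lin hH i).mul (sm_z i)

theorem sb_sum {F : Fin n → X2 n → ℝ} (hk : k ≤ 8) (hL : 0 ≤ L) (hF : ∀ j, Sm (F j))
    (h : ∀ j, SB exy k w L (F j) p) (hz : ∀ j, SB exy k s L (fun q => zz q j) p) :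
    SB exy k (n * 256 * w * s) L (fun q => ∑ j, F j q * zz q j) p := by
  refine SbAlg.mono hL (SbAlg.sum hL Finset.univ _ (fun _ => 256 * w * s)
    (fun j _ => ((hF j).mul (sm_z j)).contDiffAt) fun j _ => SbAlg.mono hL (SbAlg.mul hL
      (hF j).contDiffAt (sm_z j).contDiffAt (h j) (hz j)) le_rfl ?_ le_rfl) le_rfl
    (le_of_eq (by simp; ring)) le_rfl
  have h1 := SbAlg.nonneg (h j)
  have h2 := SbAlg.nonneg (hz j)
  have h3 : (2 : ℝ) ^ k ≤ 256 := (pow_le_pow_right₀ one_le_two hk).trans (by norm_num)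
  gcongr

theorem sb_lin (hk : k ≤ 8) (hL : 0 ≤ L) (hH : SmM H) (h : ∀ i j, SB exy k w L (H i j) p)
    (hz : ∀ j, SB exy k s L (fun q => zz q j) p) (i : Fin n) :
    SB exy k (n * 256 * w * s) L (lin H i) p := sb_sum hk hL (hH i) (h i) hz

theorem sb_quad (hk : k ≤ 8) (hL : 0 ≤ L) (hH : SmM H) (h : ∀ i j, SB exy k w L (H i j) p)
    (hz : ∀ j, SB exy k s L (fun q => zz q j) p) :
    SB exy k (n * 256 * (n * 256 * w * s) * s) L (quad H) p :=
  sb_sum hk hL (sm_lin hH) (sb_lin hk hL hH h hz) hz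

theorem lin_le (hH : SmM H) (h : ∀ i j, SB exy k w 1 (H i j) p) (i : Fin n) :
    |lin H i p| ≤ n * 256 * w * ‖zz p‖ :=
  sb_val (sb_lin (k := 0) (by norm_num) zero_le_one hH
    (fun i j => SbAlg.mono zero_le_one (h i j) (Nat.zero_le _) le_rfl le_rfl) (sb_z0 p) i)

theorem quad_le (hH : SmM H) (h : ∀ i j, SB exy k w 1 (H i j) p) :
    |quad H p| ≤ (n * 256) ^ 2 * w * ‖zz p‖ ^ 2 :=
  (sb_val (sb_quad (k := 0) (by norm_num) zero_le_one hH
    (fun i j => SbAlg.mono zero_le_one (h i j) (Nat.zero_le _) le_rfl le_rfl) (sb_z0 p))).trans_eq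
    (by ring)

theorem D_quad_le (hH : SmM H) (h : ∀ i j, SB exy (k + 1) w 1 (H i j) p) (h1 : ‖zz p‖ ≤ 1)
    (a : Fin n ⊕ Fin n) : |D (exy a) (quad H) p| ≤ (n * 256) ^ 2 * w * ‖zz p‖ := by
  have key : ∀ s, 0 < s → ‖zz p‖ ≤ s → s ≤ 1 → |D (exy a) (quad H) p| ≤ (n * 256) ^ 2 * w * s :=
    fun s s0 s1 s2 => by
      have hL : (0 : ℝ) ≤ s⁻¹ := by positivity
      refine (sb_val (SbAlg.deriv (k := 0) a (sb_quad (by norm_num) hL hH (fun i j =>
        SbAlg.mono zero_le_one (h i j) (by omega) le_rfl ((one_le_inv₀ s0).2 s2))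
        (sb_z hL s1 (mul_inv_cancel₀ s0.ne').ge _)))).trans_eq ?_
      field_simp
  rcases (norm_nonneg (zz p)).lt_or_eq with h0 | h0
  · exact key _ h0 le_rfl h1
  · rw [← h0] at key ⊢
    refine ge_of_tendsto (f := fun s : ℝ => (n * 256) ^ 2 * w * s) (x := 𝓝[>] 0)
      ((tendsto_id.mono_left nhdsWithin_le_nhds).const_mul _) ?_
    filter_upwards [Ioo_mem_nhdsGT zero_lt_one] with s hs using key s hs.1 hs.1.le hs.2.le

theorem D_lin (hH : SmM H) (v : X2 n) (i : Fin n) (p : X2 n) :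
    D v (lin H i) p = lin (DM v H) i p + ∑ j, H i j p * zz v j := by
  unfold lin
  rw [D_sum_at _ fun j _ => ((hH i j).mul (sm_z j)).dAt p, ← Finset.sum_add_distrib]
  refine Finset.sum_congr rfl fun j _ => ?_
  rw [D_mul_at ((hH i j).dAt p) ((sm_z j).dAt p), D_z, add_comm]
  rfl

theorem D_quad (hH : SmM H) (hs : SymM H) (v p : X2 n) :
    D v (quad H) p = quad (DM v H) p + 2 * ∑ i, lin H i p * zz v i := by
  have h1 : ∑ i, (∑ j, H i j p * zz v j) * zz p i = ∑ i, lin H i p * zz v i := by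
    simp only [lin, Finset.sum_mul]
    rw [Finset.sum_comm]
    exact Finset.sum_congr rfl fun i _ => Finset.sum_congr rfl fun j _ => by rw [hs j i]; ring
  unfold quad
  rw [D_sum_at _ fun j _ => ((sm_lin hH j).mul (sm_z j)).dAt p, two_mul]
  nth_rewrite 1 [← h1]
  simp only [← Finset.sum_add_distrib]
  refine Finset.sum_congr rfl fun j _ => ?_
  rw [D_mul_at ((sm_lin hH j).dAt p) ((sm_z j).dAt p), D_z, D_lin hH]
  ring

theorem sym_DM (hs : SymM H) (v : X2 n) : SymM (DM v H) := fun i j => by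
  simp only [DM, hs i j]

theorem Dx_quad (hH : SmM H) (hs : SymM H) (i : Fin n) :
    D (ex i) (quad H) = fun p => quad (DM (ex i) H) p - 2 * lin H i p := funext fun p => by
  simp [D_quad hH hs, z_ex, sub_eq_add_neg]

theorem Dy_quad (hH : SmM H) (hs : SymM H) (i : Fin n) :
    D (ey i) (quad H) = fun p => quad (DM (ey i) H) p + 2 * lin H i p := funext fun p => by
  simp [D_quad hH hs, z_ey]

theorem Dw_quad (hH : SmM H) (hs : SymM H) (i : Fin n) :
    D (ex i + ey i) (quad H) = quad (DM (ex i + ey i) H) := funext fun p => by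
  simp [D_quad hH hs, z_exy]

theorem sb_DM (h : ∀ i j, SB exy (k + 1) w 1 (H i j) p) (a : Fin n ⊕ Fin n) (i j : Fin n) :
    SB exy k w 1 (DM (exy a) H i j) p := by
  have := SbAlg.deriv a (h i j)
  rw [mul_one] at this
  exact this

theorem sb_w (hH : SmM H) (h : ∀ a i j, SB exy k w 1 (DM (exy a) H i j) p) (l i j : Fin n) :
    SB exy k (2 * w) 1 (DM (ex l + ey l) H i j) p := by
  have := SbAlg.add ((hH i j).D _).contDiffAt ((hH i j).D _).contDiffAt (h (.inl l) i j)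
    (h (.inr l) i j)
  rw [← two_mul] at this
  exact SbAlg.congr (Eventually.of_forall fun q => ((fderiv ℝ (H i j) q).map_add _ _).symm) this

theorem D_uu (v : X2 n) : D v (uu : X2 n → ℝ) = fun p => 2 * ∑ j, mv p j * mv v j := by
  have : (uu : X2 n → ℝ) = fun q => ∑ j, mv q j * mv q j := funext fun q => by
    rw [uu, EuclideanSpace.real_norm_sq_eq]
    simp [mv, sq]
  funext p
  have hs : ∀ j, Sm fun q : X2 n => mv q j := fun j => (mL j).contDiff
  rw [this, D_sum_at _ fun j _ => ((hs j).mul (hs j)).dAt p, Finset.mul_sum]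
  refine Finset.sum_congr rfl fun j _ => ?_
  rw [D_mul_at ((hs j).dAt p) ((hs j).dAt p), D_m]
  ring

theorem D_uu' (a : Fin n ⊕ Fin n) :
    D (exy a) (uu : X2 n → ℝ) = fun p => mv p (Sum.elim id id a) := by
  rw [D_uu]
  funext p
  simp only [m_exy, mul_ite, mul_zero, Finset.sum_ite_eq, Finset.mem_univ, if_true]
  ring

/-- Composition with the midpoint map. -/
theorem sb_mid {g : En n → ℝ} (hg : Sm g) (h : SB ee k w 1 g (mid p)) :
    SB exy k w 1 (fun q => g (mid q)) p := by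
  have := SbLin.lin0 (v := exy) (v' := ee) (mT n) 0
    (t := fun a j => if Sum.elim id id a = j then 1 / 2 else 0) (A := 1) (f := g) (p := p)
    zero_le_one (fun a => by
      rcases a with a | a <;> simp [mT, exy, ex, ey, ite_smul]) (fun a => by
      simp only [apply_ite abs, abs_zero, Finset.sum_ite_eq, Finset.mem_univ, if_true]
      norm_num [abs_of_pos]) hg.contDiffAt (by rw [add_zero]; exact h)
  simp only [add_zero, mul_one] at this
  exact this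

theorem near_mid {γ : MatF n} (hγ : SmM γ) (h : Near 8 w γ) (hw : w ≤ 1) (i j : Fin n) (p : X2 n) :
    SB exy 8 w 1 (fun q => γ i j (mid q) - if i = j then 1 else 0) p ∧
      SB exy 8 2 1 (fun q => γ i j (mid q)) p ∧
      ∀ a, SB exy 7 w 1 (D (exy a) fun q => γ i j (mid q)) p := by
  have h1 := sb_mid ((hγ i j).sub (Sm.const _)) (h i j (mid p))
  have hs : Sm fun q : X2 n => γ i j (mid q) := (hγ i j).comp (mT n).contDiff
  refine ⟨h1, ?_, fun a => ?_⟩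
  · refine SbAlg.mono zero_le_one (SbAlg.congr (Eventually.of_forall fun q => sub_add_cancel _ _)
      (SbAlg.add (hs.sub (Sm.const _)).contDiffAt contDiffAt_const h1
        (SbAlg.const zero_le_one _))) le_rfl ?_ le_rfl
    split_ifs <;> simp <;> linarith
  · refine SbAlg.congr (Eventually.of_forall fun q => ?_) (by simpa using SbAlg.deriv a h1)
    rw [D_sub_at (hs.dAt q) (differentiableAt_const _), D_const, sub_zero]

theorem lip {γ : MatF n} (hγ : SmM γ) (h : Near 8 w γ) (i j : Fin n) (x y : En n) :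
    |γ i j y - γ i j x| ≤ n * w * ‖y - x‖ := by
  have e : x + ∑ l, (y - x) l • ee l = y := by
    have := (EuclideanSpace.basisFun (Fin n) ℝ).sum_repr (y - x)
    simp only [EuclideanSpace.basisFun_repr, EuclideanSpace.basisFun_apply] at this
    unfold ee
    rw [this, add_sub_cancel]
  have := SbLin.taylor ee (fun y => γ i j y - if i = j then 1 else 0) x (fun l => (y - x) l) 1 w
    (fun _ _ => ((hγ i j).sub (Sm.const _)).contDiffAt)
    (fun s _ l hl => by simpa using h i j _ l (by omega))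
    (fun l h1 h2 => absurd (List.length_eq_zero_iff.1 (by omega)) h1) le_rfl
  rw [e, sub_sub_sub_cancel_right, pow_one] at this
  refine this.trans ?_
  rw [mul_comm (n : ℝ), mul_assoc]
  refine mul_le_mul_of_nonneg_left ?_ (SbAlg.nonneg (h i j x))
  simpa using Finset.sum_le_card_nsmul Finset.univ (fun l => |(y - x) l|) ‖y - x‖
    fun l _ => PiLp.norm_apply_le (y - x) l

theorem geo {p0 : En n} (h0 : ‖p0‖ = 1) (h1 : ‖p.1 - p0‖ ≤ 1 / 2) (h2 : ‖p.2 - p0‖ ≤ 1 / 2) :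
    ‖zz p‖ ≤ 1 ∧ 1 / 4 ≤ ∑ i, mv p i ^ 2 ∧ ∑ i, mv p i ^ 2 ≤ 9 / 4 ∧ (∀ i, |mv p i| ≤ 2) ∧
      1 / 8 ≤ ∑ i, mv p i * p.1 i ∧ ‖p.2 - mid p‖ ≤ ‖zz p‖ ∧ ‖p.1 - mid p‖ ≤ ‖zz p‖ := by
  have hz : ‖zz p‖ ≤ 1 := by
    have := norm_sub_le_norm_sub_add_norm_sub p.2 p0 p.1
    rw [norm_sub_rev p0] at this
    exact this.trans (by linarith)
  have hb : ∀ a : ℝ, 0 ≤ a → a ≤ 1 → 1 / 2 ≤ ‖(1 - a) • p.1 + a • p.2‖ ∧
      ‖(1 - a) • p.1 + a • p.2‖ ≤ 3 / 2 := fun a a0 a1 => by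
    have e : (1 - a) • p.1 + a • p.2 - p0 = (1 - a) • (p.1 - p0) + a • (p.2 - p0) := by module
    have := norm_add_le ((1 - a) • (p.1 - p0)) (a • (p.2 - p0))
    rw [← e, norm_smul, norm_smul, Real.norm_of_nonneg a0, Real.norm_of_nonneg (by linarith)] at this
    have h3 := abs_le.1 (abs_norm_sub_norm_le ((1 - a) • p.1 + a • p.2) p0)
    constructor <;> nlinarith [h3.1, h3.2]
  have hm := hb (1 / 2) (by norm_num) (by norm_num)
  rw [show (1 - 1 / 2 : ℝ) • p.1 + (1 / 2 : ℝ) • p.2 = mid p by unfold mid; module] at hm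
  have e1 : ∑ i, mv p i ^ 2 = ‖mid p‖ ^ 2 := (EuclideanSpace.real_norm_sq_eq _).symm
  have e2 : ‖p.2 - mid p‖ = 1 / 2 * ‖zz p‖ := by
    rw [show p.2 - mid p = (1 / 2 : ℝ) • zz p by unfold mid zz; module, norm_smul]; norm_num
  have e3 : ‖p.1 - mid p‖ = 1 / 2 * ‖zz p‖ := by
    rw [show p.1 - mid p = (-1 / 2 : ℝ) • zz p by unfold mid zz; module, norm_smul]; norm_num
  have e4 : ∑ i, mv p i * p.1 i = ⟪p.1, mid p⟫_ℝ := by simp [mv, PiLp.inner_apply]
  have h5 := (hb (1 / 4) (by norm_num) (by norm_num)).1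
  rw [show (1 - 1 / 4 : ℝ) • p.1 + (1 / 4 : ℝ) • p.2 = (1 / 2 : ℝ) • (p.1 + mid p) by
    unfold mid; module, norm_smul] at h5
  have h6 := norm_add_sq_real p.1 (mid p)
  have h7 := norm_sub_sq_real p.1 (mid p)
  have h8 := norm_nonneg (zz p)
  refine ⟨hz, by nlinarith [hm.1], by nlinarith [hm.1, hm.2], fun i =>
    (PiLp.norm_apply_le (mid p) i).trans (by linarith [hm.2]), ?_, by linarith, by linarith⟩
  rw [e3] at h7
  norm_num at h5
  nlinarith

theorem kk {a b B t r c : ℝ} (t0 : 0 ≤ t) (t1 : t ≤ 2 * r) (B0 : 0 ≤ B) (hc : 2 * B ≤ c)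
    (h1 : a ≤ b * t) (h2 : b ≤ B) : a ≤ c * r :=
  h1.trans ((mul_le_mul h2 t1 t0 B0).trans (by nlinarith))

theorem partA {r C : ℝ} (hH : SmM H) (b1 : ∀ i j, SB exy 8 2 1 (H i j) p) (z1 : ‖zz p‖ ≤ 1)
    (t1 : ‖zz p‖ ≤ 2 * r) (hC : 10 * (n * 256 + 1) ^ 2 = C) :
    (∀ i, |D (exy i) (quad H) p| ≤ C * r ∧ ∀ j, SB exy 5 C 1 (D (exy i) (D (exy j) (quad H))) p) ∧
      ∀ i, |lin H i p| ≤ C * r ∧ SB1 exy 6 C 1 (lin H i) p := by
  have n0 : (0 : ℝ) ≤ n := n.cast_nonneg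
  have n2 := sq_nonneg (n : ℝ)
  have sz := sb_z (p := p) zero_le_one z1 (mul_one (1 : ℝ)).ge 8
  have k3 := fun a b => kk (a := a) (b := b) (B := 5 * (n * 256 + 1) ^ 2) (c := C) (norm_nonneg _)
    t1 (by positivity) (by linarith)
  refine ⟨fun i => ⟨k3 _ _ (D_quad_le hH b1 z1 i) (by linarith), fun j => ?_⟩,
    fun i => ⟨k3 _ _ (lin_le hH b1 i) (by linarith), fun l _ hl => ?_⟩⟩
  · exact SbAlg.mono zero_le_one (SbAlg.deriv i (SbAlg.deriv j
      (sb_quad le_rfl zero_le_one hH b1 sz))) (by norm_num) (by linarith) le_rfl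
  · exact SbAlg.mono zero_le_one (sb_lin le_rfl zero_le_one hH b1 sz i)
      (by norm_num) (by linarith) le_rfl l hl

theorem partB {r Q ε η : ℝ} (hH : SmM H) (hs : SymM H)
    (b2 : ∀ a i j, SB exy 7 ε 1 (DM (exy a) H i j) p) (z1 : ‖zz p‖ ≤ 1) (t1 : ‖zz p‖ ≤ 2 * r)
    (t2 : ‖zz p‖ ^ 2 ≤ 2 * Q) (hε : 0 ≤ ε) (hη : 8 * (n * 256 + 1) ^ 2 * ε ≤ η) :
    (∀ i, |D (ex i) (quad H) p + 2 * lin H i p| ≤ η * Q ∧
      |D (ey i) (quad H) p - 2 * lin H i p| ≤ η * Q) ∧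
    (∀ i j, |D (ex i) (D (ex j) (quad H)) p - 2 * H i j p| ≤ η * r ∧
      |D (ey i) (D (ex j) (quad H)) p + 2 * H i j p| ≤ η * r ∧
      |D (ey i) (D (ey j) (quad H)) p - 2 * H i j p| ≤ η * r) ∧
    ∀ i, |D (ex i + ey i) (quad H) p| ≤ η * Q ∧ ∀ j,
      |D (exy j) (D (ex i + ey i) (quad H)) p| ≤ η * r ∧
      (∀ l, |D (ex l + ey l) (D (ex i + ey i) (quad H)) p| ≤ η * Q) ∧
      ∀ l, SB exy 3 η 1 (D (exy l) (D (exy j) (D (ex i + ey i) (quad H)))) p := by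
  have e0 : 0 ≤ n * ε := by positivity
  have e1 : 0 ≤ (n : ℝ) ^ 2 * ε := by positivity
  have b3 := sb_w hH b2
  have k1 := fun a b => kk (a := a) (b := b) (B := 4 * (n * 256 + 1) ^ 2 * ε) (c := η)
    (norm_nonneg _) t1 (by positivity) (by linarith)
  have k2 := fun a b => kk (a := a) (b := b) (B := 4 * (n * 256 + 1) ^ 2 * ε) (c := η)
    (sq_nonneg _) t2 (by positivity) (by linarith)
  have hD : ∀ a j, D (exy a) (D (ex j) (quad H)) p =
      D (exy a) (quad (DM (ex j) H)) p - 2 * D (exy a) (lin H j) p ∧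
      D (exy a) (D (ey j) (quad H)) p =
      D (exy a) (quad (DM (ey j) H)) p + 2 * D (exy a) (lin H j) p := fun a j => by
    rw [Dx_quad hH hs, Dy_quad hH hs,
      D_sub_at ((sm_quad (sm_DM hH _)).dAt p) (((sm_lin hH j).cmul 2).dAt p),
      D_add_at ((sm_quad (sm_DM hH _)).dAt p) (((sm_lin hH j).cmul 2).dAt p),
      D_const_mul_at ((sm_lin hH j).dAt p)]
    exact ⟨rfl, rfl⟩
  have k4 : ∀ (a b : Fin n ⊕ Fin n) (j : Fin n) (σ : ℝ), |σ| = 2 →
      |D (exy a) (quad (DM (exy b) H)) p + σ * lin (DM (exy a) H) j p| ≤ η * r :=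
    fun a b j σ hσ => by
      refine k1 _ ((n * 256) ^ 2 * ε + 2 * (n * 256 * ε)) ((abs_add_le _ _).trans ?_) (by linarith)
      rw [abs_mul, hσ]
      linarith [D_quad_le (sm_DM hH _) (b2 b) z1 a, lin_le (sm_DM hH _) (b2 a) j]
  refine ⟨fun i => ⟨?_, ?_⟩, fun i j => ⟨?_, ?_, ?_⟩,
    fun i => ⟨?_, fun j => ⟨?_, fun l => ?_, fun l => ?_⟩⟩⟩
  · rw [Dx_quad hH hs, sub_add_cancel]
    exact k2 _ _ (quad_le (sm_DM hH _) (b2 (.inl i))) (by linarith)
  · rw [Dy_quad hH hs, add_sub_cancel_right]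
    exact k2 _ _ (quad_le (sm_DM hH _) (b2 (.inr i))) (by linarith)
  · refine le_trans (le_of_eq (congrArg abs ?_)) (k4 (.inl i) (.inl j) j (-2) (by norm_num))
    have := (hD (.inl i) j).1
    rw [D_lin hH] at this
    simp only [exy, Sum.elim_inl, z_ex, mul_neg, mul_ite, mul_one, mul_zero, Finset.sum_neg_distrib,
      Finset.sum_ite_eq', Finset.mem_univ, if_true, hs j i] at this ⊢
    rw [this]
    ring
  · refine le_trans (le_of_eq (congrArg abs ?_)) (k4 (.inr i) (.inl j) j (-2) (by norm_num))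
    have := (hD (.inr i) j).1
    rw [D_lin hH] at this
    simp only [exy, Sum.elim_inl, Sum.elim_inr, z_ey, mul_ite, mul_one, mul_zero,
      Finset.sum_ite_eq', Finset.mem_univ, if_true, hs j i] at this ⊢
    rw [this]
    ring
  · refine le_trans (le_of_eq (congrArg abs ?_)) (k4 (.inr i) (.inr j) j 2 (by norm_num))
    have := (hD (.inr i) j).2
    rw [D_lin hH] at this
    simp only [exy, Sum.elim_inr, z_ey, mul_ite, mul_one, mul_zero,
      Finset.sum_ite_eq', Finset.mem_univ, if_true, hs j i] at this ⊢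
    rw [this]
    ring
  · rw [Dw_quad hH hs]
    exact k2 _ _ (quad_le (sm_DM hH _) (b3 i)) (by linarith)
  · rw [Dw_quad hH hs]
    exact k1 _ _ (D_quad_le (sm_DM hH _) (b3 i) z1 j) (by linarith)
  · rw [Dw_quad hH hs, Dw_quad (sm_DM hH _) (sym_DM hs _)]
    exact k2 _ _ (quad_le (sm_DM (sm_DM hH _) _) (sb_w (sm_DM hH _) (sb_DM (b3 i)) l))
      (by linarith)
  · rw [Dw_quad hH hs]
    exact SbAlg.mono zero_le_one (SbAlg.deriv l (SbAlg.deriv j (sb_quad (by norm_num) zero_le_one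
      (sm_DM hH _) (b3 i) (sb_z zero_le_one z1 (mul_one (1 : ℝ)).ge 7)))) (by norm_num)
      (by linarith) le_rfl

theorem partC {r ε η : ℝ} (hH : SmM H)
    (b : ∀ i j, SB exy 8 ε 1 (fun q => H i j q - if i = j then 1 else 0) p)
    (t1 : ‖zz p‖ ≤ 2 * r) (hε : 0 ≤ ε) (hη : 8 * (n * 256 + 1) ^ 2 * ε ≤ η) (i : Fin n) :
    |lin H i p - zz p i| ≤ η * r := by
  have e0 : 0 ≤ n * ε := by positivity
  have e1 : 0 ≤ (n : ℝ) ^ 2 * ε := by positivity
  have := lin_le (H := fun i j q => H i j q - if i = j then 1 else 0)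
    (fun i j => (hH i j).sub (Sm.const _)) b i
  simp only [lin, sub_mul, Finset.sum_sub_distrib, ite_mul, one_mul, zero_mul,
    Finset.sum_ite_eq, Finset.mem_univ, if_true] at this
  exact kk (B := 4 * (n * 256 + 1) ^ 2 * ε) (norm_nonneg _) t1 (by positivity) (by linarith) this
    (by linarith)

theorem partD {r ε η : ℝ} {γ : MatF n} (hγ : SmM γ) (h : Near 8 ε γ) {x y : En n}
    (hy : ‖y - x‖ ≤ ‖zz p‖) (t1 : ‖zz p‖ ≤ 2 * r) (hε : 0 ≤ ε)
    (hη : 8 * (n * 256 + 1) ^ 2 * ε ≤ η) (i j : Fin n) : |γ i j y - γ i j x| ≤ η * r := by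
  have e0 : 0 ≤ n * ε := by positivity
  have e1 : 0 ≤ (n : ℝ) ^ 2 * ε := by positivity
  exact kk (B := 4 * (n * 256 + 1) ^ 2 * ε) (norm_nonneg _) t1 (by positivity) (by linarith)
    ((lip hγ h i j x y).trans (mul_le_mul_of_nonneg_left hy e0)) (by linarith)

theorem sb_m {C : ℝ} (i : Fin n) (h : |mv p i| ≤ 2) (hC : 2 ≤ C) :
    SB exy 6 C 1 (fun p => mv p i) p := by
  refine SbAlg.mono zero_le_one (sb_clm (mL i) zero_le_one h (fun a => ?_) 6) le_rfl hC le_rfl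
  show |mv (exy a) i| ≤ 2 * 1
  rw [m_exy]
  split_ifs <;> norm_num [abs_of_pos]

theorem numE {b S δ : ℝ} (h : |b - S| ≤ δ * S) (hδ : δ ≤ 1 / 5) (m1 : 1 / 4 ≤ S)
    (m2 : S ≤ 9 / 4) : 1 / 5 ≤ b ∧ b ≤ 3 := by
  have := abs_le.1 h
  constructor <;> nlinarith [this.1, this.2]

end Wwq

open Wwq

theorem s_wq (h0 : S_w0) : S_wq := by
  intro n
  obtain ⟨C₁, om₀, C1, om0, hinv⟩ := SbLin.inv n 8
  have n0 : (0 : ℝ) ≤ n := n.cast_nonneg
  have hC : (2 : ℝ) ≤ 10 * (n * 256 + 1) ^ 2 := by nlinarith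
  refine ⟨10 * (n * 256 + 1) ^ 2, by linarith, fun ι f hf η hη => ?_⟩
  obtain ⟨ε, hε, ε1, ε2⟩ : ∃ ε : ℝ, 0 < ε ∧ ε ≤ 1 / 5 ∧ 8 * (n * 256 + 1) ^ 2 * ε ≤ η :=
    ⟨min (1 / 5) (η / (8 * (n * 256 + 1) ^ 2)), by positivity, min_le_left _ _, by
      rw [← le_div_iff₀' (by positivity)]; exact min_le_right _ _⟩
  obtain ⟨o, o0, o1, hCo⟩ : ∃ o : ℝ, 0 < o ∧ o ≤ om₀ ∧ C₁ * o ≤ ε :=
    ⟨min om₀ (ε / C₁), lt_min om0 (div_pos hε (by linarith)), min_le_left _ _, by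
      rw [← le_div_iff₀' (by linarith)]; exact min_le_right _ _⟩
  refine ((h0 n ι f hf).and (Ev.ok f o0 0)).mono fun c ⟨hW, hc⟩ p hp => ?_
  obtain ⟨-, -, -, -, p0, -, -, -, g1, g2, g3, -⟩ := hc
  obtain ⟨G1, G2, G3, -, G5⟩ := hinv c.γ₂ _ g1 g2 o1 g3
  replace g3 := g3.mono ((le_mul_of_one_le_left o0.le C1).trans hCo)
  replace G3 := G3.mono hCo
  obtain ⟨z1, m1, m2, m3, m4, m5, m6⟩ := geo p0 hp.1 hp.2
  obtain ⟨q1, q2, -⟩ := hW.2.2.1 p
  have hb := G5 (mid p) (mv p)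
  clear hW hinv G5
  have sG : SmM fun i j q => Gm c q i j := fun i j => (G1 i j).comp (mT n).contDiff
  have yG : SymM fun i j q => Gm c q i j := fun i j => funext fun q => congrFun (G2 i j) (mid q)
  have nG := fun i j => near_mid G1 G3 (ε1.trans (by norm_num)) i j p
  have Q0 : 0 ≤ QQ c p := le_trans (by positivity) q1
  have t2 : ‖zz p‖ ^ 2 ≤ 2 * QQ c p := by linarith
  have t1 : ‖zz p‖ ≤ 2 * √(QQ c p) := (sq_le_sq₀ (norm_nonneg _) (by positivity)).1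
    (by rw [mul_pow, Real.sq_sqrt Q0]; linarith)
  obtain ⟨a1, a2⟩ := partA sG (fun i j => (nG i j).2.1) z1 t1 rfl
  obtain ⟨a3, a4, a5⟩ := partB sG yG (fun a i j => (nG i j).2.2 a) z1 t1 t2 hε.le ε2
  have a6 := partC sG (fun i j => (nG i j).1) t1 hε.le ε2
  have a7 := numE hb (hCo.trans ε1) m1 m2
  have a8 : QQ c p ≤ 2 := q2.trans (by
    linarith [pow_le_one₀ (n := 2) (norm_nonneg (zz p)) z1])
  exact ⟨fun i => ⟨congrFun (D_uu' (.inl i)) p, congrFun (D_uu' (.inr i)) p⟩,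
    fun i j => by rw [D_uu', D_m, m_exy], a1,
    fun i => ⟨(a2 i).1, (a2 i).2, sb_m i (m3 i) hC, a6 i⟩,
    fun i j => ⟨SbAlg.mono zero_le_one (near_mid g1 g3 (ε1.trans (by norm_num)) i j p).2.1
      (by norm_num) hC le_rfl, SbAlg.mono zero_le_one (nG i j).2.1 (by norm_num) hC le_rfl,
      partD g1 g3 m5 t1 hε.le ε2 i j, partD g1 g3 m6 t1 hε.le ε2 i j⟩,
    a3, a4, a5, a7.1, a7.2, a8, m4⟩

end Vale.Agent.P088
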