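import Vale.Agent.P088.XYa

/-!
# P088: Caccioppoli inequalities in `y` under the constraint
-/

open MeasureTheory Set
open scoped ContDiff Topology

noncomputable section
namespace Vale.Agent.P088
namespace XY
open Vale.Agent.P136 IdT

variable {n : ℕ} {ι : Type} {f : Fx} {c : Cx n ι} {p : X2 n}

lemma D_onY {g : En n → ℝ} (hg : Sm g) (j : Fin n) (p : X2 n) :
    D (ey j) (fun q : X2 n => g q.2) p = D (ee j) g p.2 :=
  congrArg (fun L : X2 n →L[ℝ] ℝ => L (ey j))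
    ((hg.dAt p.2).hasFDerivAt.comp p hasFDerivAt_snd).fderiv

lemma D_fst {g : En n → ℝ} (hg : Sm g) (j : Fin n) (p : X2 n) :
    D (ey j) (fun q : X2 n => g q.1) p = 0 :=
  (congrArg (fun L : X2 n →L[ℝ] ℝ => L (ey j))
    ((hg.dAt p.1).hasFDerivAt.comp p hasFDerivAt_fst).fderiv).trans (by simp [ey])

lemma sm_fst {g : En n → ℝ} (hg : Sm g) : Sm fun q : X2 n => g q.1 :=
  ContDiff.comp (g := g) hg contDiff_fst

lemma sm_snd {g : En n → ℝ} (hg : Sm g) : Sm fun q : X2 n => g q.2 :=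
  ContDiff.comp (g := g) hg contDiff_snd

lemma near {γ : MatF n} (hγ : SmM γ) (h : Near 8 1 γ) (i j : Fin n) (p : X2 n) :
    |onY γ i j p| ≤ 2 ∧ ∀ a, |D (ey a) (onY γ i j) p| ≤ 1 ∧
      ∀ b, |D (ey b) (D (ey a) (onY γ i j)) p| ≤ 1 := by
  have e : ∀ a, D (ee a) (fun y => γ i j y - if i = j then 1 else 0) = D (ee a) (γ i j) :=
    fun a => funext fun x => by simp only [D, fderiv_sub_const]
  have e2 : ∀ a, D (ey a) (onY γ i j) = fun q : X2 n => D (ee a) (γ i j) q.2 := fun a =>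
    funext (D_onY (hγ i j) a)
  refine ⟨?_, fun a => ⟨?_, fun b => ?_⟩⟩
  · have := abs_le.1 (show |γ i j p.2 - if i = j then 1 else 0| ≤ 1 by
      simpa [Ds] using h i j p.2 [] (by simp))
    rw [onY, abs_le]
    split_ifs at this <;> constructor <;> linarith [this.1, this.2]
  · rw [e2, ← e]
    simpa [Ds] using h i j p.2 [a] (by simp)
  · rw [e2, D_onY ((hγ i j).D _), ← e]
    simpa [Ds] using h i j p.2 [b, a] (by simp)

lemma sm_cn (hQ : Sm (QQ c)) (hF : Sm (FF f c)) (r : ℝ) : Sm (cn f c r) :=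
  Real.smoothTransition.contDiff.comp (contDiff_const.sub (((hQ.pow 2).mul hF).div_const r))

lemma cn_mem (r : ℝ) : 0 ≤ cn f c r p ∧ cn f c r p ≤ 1 :=
  ⟨Real.smoothTransition.nonneg _, Real.smoothTransition.le_one _⟩

lemma cn_one {r : ℝ} (hr : 0 < r) (h : p ∈ Nr f c r) : cn f c r p = 1 :=
  Real.smoothTransition.one_of_one_le (by linarith [(div_le_one hr).2 h])

lemma cn_zero (hQ : Sm (QQ c)) (hF : Sm (FF f c)) {r : ℝ} (hr : 0 < r) (θ : X2 n → ℝ)
    (h : p ∉ Nr f c (2 * r)) : (fun q => θ q * cn f c r q) =ᶠ[𝓝 p] 0 := by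
  filter_upwards [continuousAt_const.eventually_lt ((hQ.pow 2).mul hF).cont.continuousAt
    (not_le.1 h)] with q hq
  have : cn f c r q = 0 :=
    Real.smoothTransition.zero_of_nonpos (by linarith [(le_div_iff₀ hr).2 hq.le])
  simp [this]

lemma meas_Nr (hQ : Sm (QQ c)) (hF : Sm (FF f c)) (r : ℝ) : MeasurableSet (Nr f c r) :=
  (isClosed_le ((hQ.pow 2).mul hF).cont continuous_const).measurableSet

lemma set_le {θ χ G : X2 n → ℝ} {S : Set (X2 n)} (hS : MeasurableSet S)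
    (hi : Integrable fun p => θ p * χ p * G p) (h1 : ∀ p ∈ S, χ p = 1)
    (h0 : ∀ p, 0 ≤ θ p * χ p * G p) : ∫ p in S, θ p * G p ≤ ∫ p, θ p * χ p * G p := by
  refine le_trans (le_of_eq (setIntegral_congr_fun hS fun p hp => ?_))
    (setIntegral_le_integral hi (ae_of_all _ h0))
  simp only [h1 p hp, mul_one]

/-- The pointwise facts near the diagonal. -/
lemma facts {C2 C3 C7 r : ℝ} (hC2 : 1 ≤ C2) (hC3 : 1 ≤ C3) (hC7 : 1 ≤ C7) (hW : W0 f c)
    (hc : c.Ok f 1 1) (h2 : W2 f c C2 (1 / 400) p) (h3 : W3 f c C3 p) (h7 : W7 f c C7 p)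
    (hp : p ∈ Nr f c 16) (hr : 1 ≤ r) (hr' : r ≤ 8) :
    ‖zz p‖ < 1 / 10 ∧ 1 ≤ aX f c p.1 ∧ 1 + Psi f c p ≤ C2 * fX f c p.1 ∧ 1 ≤ fX f c p.1 ∧
      co ey (onY c.γ₂) (phi f c) (cn f c r) p ≤
        14 * (n * n * (20 * C3 ^ 2 * C2 ^ 2 + C7)) * (aX f c p.1 * (1 + Psi f c p)) := by
  obtain ⟨hS, hX, hP, -⟩ := hW
  obtain ⟨-, -, -, -, sQ, -, sF, -, -, -, -, -, -, -, -, -, -, sφ, -⟩ := hS
  obtain ⟨hz1, -, hF, hv, hs, -⟩ := hP p
  obtain ⟨ha, hL, hfa, -⟩ := hX p.1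
  obtain ⟨-, w2, -, -, -, -, -, -, -, -, -, -, w13, -⟩ := h2
  obtain ⟨-, -, -, n4, n5, n6, n7, -, -, n10, -⟩ := w13 hp
  obtain ⟨-, d2, d1, -⟩ := h3
  obtain ⟨-, -, -, d7⟩ := h7 hp 1 r le_rfl hr hr'
  have hf0 : 0 < fX f c p.1 := Real.exp_pos _
  have hL1 : 1 ≤ LX f c p.1 := hc.1.trans hL
  have hv0 : 0 ≤ vv f c p := by linarith [hc.1]
  have hLa : LX f c p.1 ^ 2 ≤ aX f c p.1 :=
    ((pow_le_pow_right₀ hL1 (by norm_num)).trans w2).trans (by linarith)
  have ha1 : 1 ≤ aX f c p.1 := (one_le_pow₀ hL1).trans hLa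
  have hQ0 : 0 ≤ QQ c p := le_trans (by positivity) hz1
  have hΨ : 0 ≤ Psi f c p := mul_nonneg hQ0 hF.le
  have hFa : FF f c p ≤ aX f c p.1 := by linarith [(abs_le.1 n4).2]
  have hAA : AA f c p ≤ 9 * aX f c p.1 := by
    have : sig f c p ^ 2 ≤ 3 ^ 2 := pow_le_pow_left₀ (by linarith) (by linarith) 2
    have := mul_le_mul hFa this (by positivity) ha.le
    rw [AA]; linarith
  have hz : z0 f c p ^ 2 = AA f c p * Psi f c p := by
    rw [z0, mul_pow, Real.sq_sqrt hQ0, al, AA, Psi]; ring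
  obtain ⟨A, hA⟩ : ∃ A, A = aX f c p.1 * (1 + Psi f c p) := ⟨_, rfl⟩
  have haA : aX f c p.1 ≤ A := hA ▸ le_mul_of_one_le_right ha.le (by linarith)
  have hA0 : 0 ≤ A := ha.le.trans haA
  have hC23 : 0 ≤ C3 ^ 2 * C2 ^ 2 * A := by positivity
  have h7a : C7 * aX f c p.1 ≤ (20 * C3 ^ 2 * C2 ^ 2 + C7) * A := by
    have : C7 * aX f c p.1 ≤ C7 * A := by gcongr
    linarith
  have h71 : 1 ≤ C7 * aX f c p.1 := one_le_mul_of_one_le_of_one_le hC7 ha1
  have ab : ∀ {x : ℝ}, x ^ 2 ≤ C7 * aX f c p.1 → |x| ≤ C7 * aX f c p.1 := fun h =>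
    abs_le.2 (abs_le_of_sq_le_sq' (h.trans (le_self_pow₀ h71 (by norm_num))) (by linarith))
  have hC7A : 0 ≤ C7 * A := by positivity
  have hγ := hc.2.2.2.2.2.2.2.2.1
  have hn := near hγ hc.2.2.2.2.2.2.2.2.2.2.1
  refine ⟨?_, ha1, ?_, ?_, ?_⟩
  · exact lt_of_pow_lt_pow_left₀ 2 (by norm_num) (by linarith)
  · refine (abs_le_of_sq_le_sq' (n10.trans ?_) (by positivity)).2
    rw [mul_pow, hfa]
    exact mul_le_mul_of_nonneg_right (le_self_pow₀ hC2 (by norm_num)) ha.le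
  · exact (abs_le_of_sq_le_sq' (by linarith) hf0.le).2
  rw [← hA]
  refine (co_le (T := (20 * C3 ^ 2 * C2 ^ 2 + C7) * A) (fun i j => sm_snd (hγ i j)) sφ
    (sm_cn sQ sF r) (h71.trans h7a) (fun i j => (hn i j p).1)
    (fun i j => ((hn i j p).2 i).1.trans one_le_two)
    (abs_le.2 ⟨by linarith [(cn_mem (f := f) (c := c) (p := p) r).1], (cn_mem r).2⟩)
    (fun i => ?_) (fun i j => ?_) (fun i => ?_) fun i j => ?_).trans (le_of_eq ?_)
  · have a1 : D (ey i) (phi f c) p ^ 2 ≤ (C3 * (z0 f c p + vv f c p)) ^ 2 :=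
      sq_le_sq' (abs_le.1 (d1 i).2).1 (abs_le.1 (d1 i).2).2
    have a2 : vv f c p ^ 2 ≤ C2 ^ 2 * aX f c p.1 := by
      refine (pow_le_pow_left₀ hv0 n6 2).trans ?_
      rw [mul_pow]; gcongr
    have a3 : z0 f c p ^ 2 ≤ C2 ^ 2 * (9 * aX f c p.1 * Psi f c p) := by
      rw [hz]
      exact (mul_le_mul_of_nonneg_right hAA hΨ).trans
        (le_mul_of_one_le_left (by positivity) (one_le_pow₀ hC2))
    have a4 : (z0 f c p + vv f c p) ^ 2 ≤ 20 * C2 ^ 2 * A := by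
      have b1 : 0 ≤ C2 ^ 2 * aX f c p.1 := by positivity
      have b2 : 0 ≤ C2 ^ 2 * (aX f c p.1 * Psi f c p) := by positivity
      rw [hA]
      linarith [sq_nonneg (z0 f c p - vv f c p)]
    have a5 := mul_le_mul_of_nonneg_left a4 (sq_nonneg C3)
    linarith
  · have a1 : |D (ey i) (D (ey j) (phi f c)) p| ≤ C3 * AA f c p := by
      simpa [Ds, exy] using d2 i (Sum.inr j) [] (by simp)
    have a2 : C3 * AA f c p ≤ C3 * (9 * A) := by gcongr; linarith
    have a3 : C3 * 1 * A ≤ C3 ^ 2 * C2 ^ 2 * A := by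
      gcongr
      exacts [le_self_pow₀ hC3 (by norm_num), one_le_pow₀ hC2]
    linarith
  · have a1 := (d7 (Sum.inr i)).2.1
    exact ((le_abs_self _).trans (ab (by rw [← pow_mul]; exact a1))).trans h7a
  · exact (ab ((d7 (Sum.inr i)).2.2 (Sum.inr j)).2).trans h7a
  · simp only [Fintype.card_fin]; ring

end XY

open Vale.Agent.P136 IdT XY in
theorem s_XY (h0 : S_w0) (h2 : S_w2) (h3 : S_w3) (h7 : S_w7) (hCI : S_CI) : S_XY := by
  intro n ι _ f hf
  obtain ⟨C2, hC2, h2⟩ := h2 n ι f hf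
  obtain ⟨C3, hC3, h3⟩ := h3 n ι f hf
  obtain ⟨C7, hC7, h7⟩ := h7 n ι f hf
  have hMb : 0 ≤ f.Mb := hf.2.2.2.2.2.2.2.2.2.2.2.2.1
  obtain ⟨M, hM⟩ : ∃ M : ℝ, M = 14 * (n * n * (20 * C3 ^ 2 * C2 ^ 2 + C7)) := ⟨_, rfl⟩
  have hM0 : 0 ≤ M := by rw [hM]; positivity
  obtain ⟨K, hK⟩ : ∃ K : ℝ, K = n * Fintype.card ι * f.Mb + n * n := ⟨_, rfl⟩
  have hK0 : 0 ≤ K := by rw [hK]; positivity
  obtain ⟨A, hA⟩ : ∃ A : ℝ, A = 4 * ((Fintype.card ι * K) ^ 2 + Fintype.card ι * K + M) :=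
    ⟨_, rfl⟩
  obtain ⟨B, hB⟩ : ∃ B : ℝ, B = 4 * ((Fintype.card (ι × Fin n) * K) ^ 2 +
    Fintype.card (ι × Fin n) * K + M * C2) := ⟨_, rfl⟩
  have hA0 : 0 ≤ A := by rw [hA]; positivity
  have hB0 : 0 ≤ B := by rw [hB]; positivity
  refine ⟨1 + A + B * A, by linarith [mul_nonneg hB0 hA0],
    (((((h0 n ι f hf).and (h2 (1 / 400) (by norm_num))).and h3).and h7).and
      (Ev.ok f one_pos 1)).mono ?_⟩
  rintro c ⟨⟨⟨⟨hW, h2⟩, h3⟩, h7⟩, hc⟩ g q ⟨hg, hL⟩
  have hF := fun p hp hp' r a b => facts (p := p) (r := r) hC2 hC3 hC7 hW hc (h2 p hp) (h3 p hp)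
    (h7 p hp) hp' a b
  rw [← hM] at hF
  obtain ⟨hS, hX, hP, -⟩ := hW
  obtain ⟨-, -, -, -, sQ, -, sF, -, -, -, -, -, -, -, -, -, -, sφ, -, -, -, -, snl, -, -, -, -, -,
    -, -, -, -, -, -, -, -, -, sa, sL, -, sf, -, -, sγ, syγ⟩ := hS
  have tg : ∀ s, Tst (g s) := fun s => (hg s).1
  have t1 : ∀ s j, Tst (Dp (phi f c) (ey j) (g s)) := fun s j => Tst.Dp sφ (tg s) _
  have sb : ∀ a s s', Sm fun p : X2 n => -c.b a s s' p.2 := fun a s s' =>
    (sm_snd (hc.2.2.2.2.2.2.2.2.2.2.2.1 a s s')).neg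
  have hb := hc.2.2.2.2.2.2.2.2.2.2.2.2
  have hb0 : ∀ a s s' (p : X2 n), |-c.b a s s' p.2| ≤ f.Mb := fun a s s' p => by
    simpa [Ds] using hb a s s' p.2 [] (by simp)
  have hb1 : ∀ a s s' j (p : X2 n), |D (ey j) (fun p : X2 n => -c.b a s s' p.2) p| ≤ f.Mb :=
    fun a s s' j p => by
    rw [D_neg, D_onY (hc.2.2.2.2.2.2.2.2.2.2.2.1 a s s'), abs_neg]
    simpa [Ds] using hb a s s' p.2 [j] (by simp)
  have hn := near hc.2.2.2.2.2.2.2.2.1 hc.2.2.2.2.2.2.2.2.2.2.1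
  have hLg : ∀ p : X2 n, ‖zz p‖ < 1 / 10 → ∀ s, Lp' ey (onY c.γ₂) (phi f c) (g s) p =
      ∑ a, ∑ s', -c.b a s s' p.2 * Dp (phi f c) (ey a) (g s') p := fun p hp s => by
    have := hL p (Or.inr hp.le) s
    simp only [L2b] at this
    simp only [neg_mul, Finset.sum_neg_distrib]
    linarith
  have hout : ∀ p, p ∉ Om2 c → ∀ s, p ∉ tsupport (g s) := fun p hp s h => hp ((hg s).2.2.1 h).1
  have hell : ∀ p ζ, n2 ζ / 2 ≤ bil (fun i j => onY c.γ₂ i j p) ζ ζ := fun p ζ =>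
    ((hP p).2.2.2.2.2.2.2.2.2.2.2.2.2.2.2.2.2 ζ).2.2.1
  have n0 : ∀ ζ : Fin n → ℝ, 0 ≤ n2 ζ := fun ζ => Finset.sum_nonneg fun _ _ => sq_nonneg _
  have sθ1 : Sm fun x => LX f c x ^ 2 := sL.pow 2
  have hf0 : ∀ x, 0 < aX f c x * fX f c x := fun x => mul_pos (hX x).1 (Real.exp_pos _)
  have sθ2 : Sm fun x => LX f c x ^ 2 / (aX f c x * fX f c x) :=
    ContDiff.div sθ1 (sa.mul sf) fun x => (hf0 x).ne'
  have k1 : IPy f c g ≤ A * NN f c g := by
    rw [hA]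
    refine le_trans (Finset.sum_le_sum fun s _ => set_le (χ := cn f c 8) (meas_Nr sQ sF 8)
      (Tst.mul_left ((sm_fst sθ1).mul (sm_cn sQ sF 8))
        (Tst.sum _ fun i _ => (t1 s i).sq)).integrable
      (fun p hp => cn_one (by norm_num) hp) fun p =>
        mul_nonneg (mul_nonneg (sq_nonneg _) (cn_mem 8).1) (n0 _))
      (cacc hCI sγ syγ sφ tg ((sm_fst sθ1).mul (sm_cn sQ sF 8))
        (fun p => mul_nonneg (sq_nonneg _) (cn_mem 8).1) snl.cont (meas_Nr sQ sF 16) hK0 hell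
        (fun p hp => cn_zero sQ sF (by norm_num) _ (by norm_num; exact hp)) fun p hp => ?_)
    by_cases ho : p ∈ Om2 c
    swap
    · exact Or.inl fun s => image_eq_zero_of_notMem_tsupport (hout p ho s)
    obtain ⟨a1, a2, -, -, a3⟩ := hF p ho hp 8 (by norm_num) le_rfl
    have a4 : 0 ≤ Psi f c p := mul_nonneg (le_trans (by positivity) (hP p).1) (hP p).2.2.1.le
    refine Or.inr ⟨?_, ?_, fun E U hE hU s => ?_⟩
    · refine (mul_le_of_le_one_right (sq_nonneg _) (cn_mem 8).2).trans ?_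
      exact (le_mul_of_one_le_left (sq_nonneg _) a2).trans
        (le_mul_of_one_le_right (by positivity) (by linarith))
    · rw [co_mul sγ (sm_fst sθ1) (sm_cn sQ sF 8) (D_fst sθ1), nl]
      linarith [mul_le_mul_of_nonneg_left a3 (sq_nonneg (LX f c p.1))]
    · have b0 : 0 ≤ U := (abs_nonneg _).trans (hU s)
      rw [hLg p a1]
      refine (sum2 fun a s' => mul_bd (hb0 a s s' p) (hE s' a)).trans ?_
      rcases Nat.eq_zero_or_pos n with rfl | hn0
      · simp [hK]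
      have b1 : 0 ≤ E := (abs_nonneg _).trans (hE s ⟨0, hn0⟩)
      rw [hK, Fintype.card_fin]
      have b2 : (0 : ℝ) ≤ n * n * (E + U) := by positivity
      have b3 : (0 : ℝ) ≤ n * Fintype.card ι * f.Mb * U := by positivity
      linarith
  have k2 : IP2 f c g ≤ B * IPy f c g := by
    have sw := (sm_fst sθ2).mul (sm_cn sQ sF 4)
    have w0 : ∀ p : X2 n, 0 ≤ LX f c p.1 ^ 2 / (aX f c p.1 * fX f c p.1) * cn f c 4 p := fun p =>
      mul_nonneg (div_nonneg (sq_nonneg _) (hf0 _).le) (cn_mem 4).1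
    have key := cacc hCI (u := fun j : ι × Fin n => Dp (phi f c) (ey j.2) (g j.1)) (K := K)
      (M := M * C2) sγ syγ sφ (fun j => t1 j.1 j.2) sw w0 (sm_fst sθ1).cont (meas_Nr sQ sF 8) hK0
      hell (fun p hp => cn_zero sQ sF (by norm_num) _ (by norm_num; exact hp)) fun p hp => by
      by_cases ho : p ∈ Om2 c
      swap
      · exact Or.inl fun j =>
          image_eq_zero_of_notMem_tsupport fun h => hout p ho j.1 (tsupport_Dp _ _ _ h)
      obtain ⟨a1, a2, a5, a6, a3⟩ := hF p ho (le_trans hp (by norm_num : (8 : ℝ) ≤ 16)) 4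
        (by norm_num) (by norm_num)
      refine Or.inr ⟨?_, ?_, fun E U hE hU j => ?_⟩
      · exact (mul_le_of_le_one_right (div_nonneg (sq_nonneg _) (hf0 _).le) (cn_mem 4).2).trans
          (div_le_self (sq_nonneg _) (one_le_mul_of_one_le_of_one_le a2 a6))
      · rw [co_mul sγ (sm_fst sθ2) (sm_cn sQ sF 4) (D_fst sθ2), div_mul_eq_mul_div,
          div_le_iff₀ (hf0 _)]
        have b1 : M * (aX f c p.1 * (1 + Psi f c p)) ≤ M * (aX f c p.1 * (C2 * fX f c p.1)) := by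
          gcongr
        linarith [mul_le_mul_of_nonneg_left (a3.trans b1) (sq_nonneg (LX f c p.1))]
      · have e1 : Lp' ey (onY c.γ₂) (phi f c) (g j.1) =ᶠ[𝓝 p] fun p =>
            ∑ a, ∑ s', -c.b a j.1 s' p.2 * Dp (phi f c) (ey a) (g s') p := by
          have hz : Continuous fun p : X2 n => ‖zz p‖ := (continuous_snd.sub continuous_fst).norm
          filter_upwards [hz.continuousAt.eventually_lt continuousAt_const a1] with p hp
          exact hLg p hp j.1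
        rw [L_Dp sγ sφ (tg _).sm, Dp_congr e1,
          Dp_sum _ fun a _ => Sm.sum fun s' _ => (sb a j.1 s').mul (t1 s' a).sm]
        simp only [fun a => Dp_sum (φ := phi f c) Finset.univ
          (fun s' _ => (sb a j.1 s').mul (t1 s' a).sm), fun a s' => Dp_mul (φ := phi f c)
          (sb a j.1 s') (t1 s' a).sm]
        refine (abs_sub _ _).trans ((add_le_add
          (sum2 fun a s' => (abs_add_le _ _).trans (add_le_add
            (mul_bd (hb0 a j.1 s' p) (hE (s', a) j.2)) (mul_bd (hb1 a j.1 s' j.2 p) (hU (s', a)))))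
          (sum2 fun i l => (abs_add_le _ _).trans (add_le_add
            (mul_bd ((hn i l p).2 j.2).1 (hE (j.1, l) i))
            (mul_bd (((hn i l p).2 j.2).2 i) (hU (j.1, l)))))).trans (le_of_eq ?_))
        rw [hK, Fintype.card_fin]; ring
    rw [← hB, Fintype.sum_prod_type, Fintype.sum_prod_type] at key
    refine le_trans (Finset.sum_le_sum fun s _ => ?_) (key.trans (le_of_eq ?_))
    · refine (set_le (χ := cn f c 4) (meas_Nr sQ sF 4) (Tst.mul_left sw (Tst.sum _ fun i _ =>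
        Tst.sum _ fun j _ => (Tst.Dp sφ (t1 s j) _).sq)).integrable
        (fun p hp => cn_one (by norm_num) hp) fun p => mul_nonneg (w0 p) (by positivity)).trans
        (le_of_eq ?_)
      simp only [n2]
      rw [← integral_finsetSum _ fun j _ => (Tst.mul_left sw (Tst.sum _ fun i _ =>
        (Tst.Dp sφ (t1 s j) (ey i)).sq)).integrable]
      refine integral_congr_ae (ae_of_all _ fun p => ?_)
      simp only [← Finset.mul_sum]
      rw [Finset.sum_comm]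
    · congr 1
      refine Finset.sum_congr rfl fun s _ => ?_
      rw [← integral_finsetSum _ fun j _ =>
        (Tst.mul_left (sm_fst sθ1) (t1 s j).sq).integrable.integrableOn]
      simp only [← Finset.mul_sum]
      rfl
  have k0 : 0 ≤ NN f c g := Finset.sum_nonneg fun s _ => integral_nonneg fun p => by
    have a4 : 0 ≤ Psi f c p := mul_nonneg (le_trans (by positivity) (hP p).1) (hP p).2.2.1.le
    have := (hX p.1).1
    exact mul_nonneg (by rw [nl]; positivity) (sq_nonneg _)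
  have k3 := mul_le_mul_of_nonneg_left k1 hB0
  have k4 := mul_nonneg hA0 k0
  have k5 := mul_nonneg hB0 k4
  constructor <;> linarith

end Vale.Agent.P088
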