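import Vale.Agent.P088.StI
import Vale.Agent.P088.IdTool

/-!
# P088: an abstract Caccioppoli inequality
-/

open MeasureTheory Set
open scoped ContDiff Topology

noncomputable section
namespace Vale.Agent.P088
namespace XY
open Vale.Agent.P136 IdT

lemma sum2 {κ κ' : Type} [Fintype κ] [Fintype κ'] {t : κ → κ' → ℝ} {c : ℝ}
    (h : ∀ i j, |t i j| ≤ c) :
    |∑ i, ∑ j, t i j| ≤ Fintype.card κ * Fintype.card κ' * c := by
  calc |∑ i, ∑ j, t i j| ≤ ∑ i, ∑ j, |t i j| := (Finset.abs_sum_le_sum_abs _ _).trans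
        (Finset.sum_le_sum fun i _ => Finset.abs_sum_le_sum_abs _ _)
    _ ≤ ∑ _i : κ, ∑ _j : κ', c :=
        Finset.sum_le_sum fun i _ => Finset.sum_le_sum fun j _ => h i j
    _ = _ := by simp [mul_assoc]

lemma mul_bd {a b A B : ℝ} (ha : |a| ≤ A) (hb : |b| ≤ B) : |a * b| ≤ A * B := by
  rw [abs_mul]
  exact mul_le_mul ha hb (abs_nonneg _) ((abs_nonneg _).trans ha)

lemma young {J : Type} [Fintype J] {u l : J → ℝ} {d : J → ℝ} {K : ℝ}
    (hd : ∀ j, 0 ≤ d j) (h : ∀ j, |l j| ≤ K * (√(∑ j, d j) + √(∑ j, u j ^ 2))) :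
    -∑ j, u j * l j ≤ 1 / 4 * ∑ j, d j +
      ((Fintype.card J * K) ^ 2 + Fintype.card J * K) * ∑ j, u j ^ 2 := by
  have h0 : 0 ≤ ∑ j, u j ^ 2 := Finset.sum_nonneg fun _ _ => sq_nonneg _
  have h1 : ∀ j, |u j| ≤ √(∑ j, u j ^ 2) := fun j => Real.abs_le_sqrt
    (Finset.single_le_sum (f := fun j => u j ^ 2) (fun _ _ => sq_nonneg _) (Finset.mem_univ j))
  have h2 : |∑ j, u j * l j| ≤
      ∑ _j : J, √(∑ j, u j ^ 2) * (K * (√(∑ j, d j) + √(∑ j, u j ^ 2))) :=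
    (Finset.abs_sum_le_sum_abs _ _).trans (Finset.sum_le_sum fun j _ => mul_bd (h1 j) (h j))
  rw [Finset.sum_const, nsmul_eq_mul, Finset.card_univ] at h2
  have h3 := Real.sq_sqrt h0
  have h4 := Real.sq_sqrt (Finset.sum_nonneg fun j (_ : j ∈ Finset.univ) => hd j)
  have h5 := neg_abs_le (∑ j, u j * l j)
  generalize √(∑ j, u j ^ 2) = U at *
  generalize √(∑ j, d j) = E at *
  rw [← h3, ← h4]
  linarith [sq_nonneg (E / 2 - Fintype.card J * K * U)]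

section gen
variable {X : Type} [NormedAddCommGroup X] [NormedSpace ℝ X] {κ : Type} [Fintype κ]
  {v : κ → X} {γ : κ → κ → X → ℝ} {φ g θ χ : X → ℝ}

/-- The zero-order coefficient. -/
def co (v : κ → X) (γ : κ → κ → X → ℝ) (φ w : X → ℝ) (p : X) : ℝ :=
  2 * w p * rho v γ φ p - w p * dgd v γ φ p - 2 * dir v (XX v γ φ) w p + 1 / 2 * dgd v γ w p

lemma Dp_comm (hφ : Sm φ) (hg : Sm g) (a b : X) : Dp φ a (Dp φ b g) = Dp φ b (Dp φ a g) := by
  have e : ∀ a b x, Dp φ a (Dp φ b g) x = D a (D b g) x + D b φ x * D a g x +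
      D a (D b φ) x * g x + D a φ x * (D b g x + D b φ x * g x) := fun a b x => by
    have h1 := D_add_at ((hg.D b).dAt x) (((hφ.D b).mul hg).dAt x) a
    rw [D_mul_at ((hφ.D b).dAt x) (hg.dAt x)] at h1
    have h2 : D a (Dp φ b g) x = _ := h1
    rw [Dp, h2, Dp]; ring
  funext x
  rw [e, e, D_comm hg a b, D_comm hφ a b]; ring

lemma Dp_congr {g' : X → ℝ} {p : X} (h : g =ᶠ[𝓝 p] g') (a : X) : Dp φ a g p = Dp φ a g' p := by
  rw [Dp, Dp, D_congr h, h.eq_of_nhds]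

lemma L_Dp (hγ : SmM γ) (hφ : Sm φ) (hg : Sm g) (a p : X) :
    Lp' v γ φ (Dp φ a g) p = Dp φ a (Lp' v γ φ g) p - ∑ i, ∑ l,
      (D a (γ i l) p * Dp φ (v i) (Dp φ (v l) g) p +
        D (v i) (D a (γ i l)) p * Dp φ (v l) g p) := by
  have s1 : ∀ l, Sm (Dp φ (v l) g) := fun l => Sm.Dp hφ hg _
  have s2 : ∀ i l, Sm fun p => γ i l p * Dp φ (v l) g p := fun i l => (hγ i l).mul (s1 l)
  have s3 : ∀ i, Sm fun p => ∑ l, γ i l p * Dp φ (v l) g p := fun i => Sm.sum fun l _ => s2 i l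
  have s4 : ∀ i l, Sm fun p => γ i l p * Dp φ (v l) (Dp φ a g) p := fun i l =>
    (hγ i l).mul (Sm.Dp hφ (Sm.Dp hφ hg _) _)
  have s5 : ∀ i l, Sm fun p => D a (γ i l) p * Dp φ (v l) g p := fun i l =>
    ((hγ i l).D a).mul (s1 l)
  have e1 : ∀ i, Dp φ a (fun p => ∑ l, γ i l p * Dp φ (v l) g p) = fun p =>
      ∑ l, (γ i l p * Dp φ (v l) (Dp φ a g) p + D a (γ i l) p * Dp φ (v l) g p) := fun i => by
    funext p
    rw [Dp_sum _ fun l _ => s2 i l]
    refine Finset.sum_congr rfl fun l _ => ?_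
    rw [Dp_mul (hγ i l) (s1 l), Dp_comm hφ hg]
  have e2 : Dp φ a (Lp' v γ φ g) p =
      ∑ i, Dp φ a (Dp φ (v i) fun p => ∑ l, γ i l p * Dp φ (v l) g p) p :=
    Dp_sum _ (fun i _ => Sm.Dp hφ (s3 i) _) _ _
  rw [e2, ← Finset.sum_sub_distrib]
  refine Finset.sum_congr rfl fun i _ => ?_
  rw [Dp_comm hφ (s3 i), e1, Dp_sum _ fun l _ => (s4 i l).add (s5 i l),
    Dp_sum _ fun l _ => s4 i l, ← Finset.sum_sub_distrib]
  refine Finset.sum_congr rfl fun l _ => ?_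
  rw [Dp_add (s4 i l) (s5 i l), Dp_mul ((hγ i l).D a) (s1 l)]
  ring

lemma dgd_eq (hγ : SmM γ) (hg : Sm g) (p : X) : dgd v γ g p =
    ∑ i, ∑ j, (γ i j p * D (v i) (D (v j) g) p + D (v i) (γ i j) p * D (v j) g p) := by
  refine Finset.sum_congr rfl fun i _ => ?_
  have := D_sum_at Finset.univ (f := fun j q => γ i j q * D (v j) g q)
    (fun j _ => ((hγ i j).mul (hg.D _)).dAt p) (v i)
  exact this.trans (Finset.sum_congr rfl fun j _ => D_mul_at ((hγ i j).dAt p) ((hg.D _).dAt p) _)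

lemma co_mul (hγ : SmM γ) (hθ : Sm θ) (hχ : Sm χ) (h0 : ∀ i p, D (v i) θ p = 0) (p : X) :
    co v γ φ (fun q => θ q * χ q) p = θ p * co v γ φ χ p := by
  have e : ∀ {F : X → ℝ}, Sm F → ∀ i, D (v i) (fun q => θ q * F q) = fun q => θ q * D (v i) F q :=
    fun hF i => funext fun q => by rw [D_mul_at (hθ.dAt q) (hF.dAt q), h0, zero_mul, add_zero]
  simp only [co, dgd_eq hγ (hθ.mul hχ), dgd_eq hγ hχ, dir, e hχ, e (hχ.D _)]
  simp only [mul_add, mul_sub, Finset.mul_sum]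
  congr 1
  · congr 1
    · ring_nf
    · exact Finset.sum_congr rfl fun i _ => by ring
  · exact Finset.sum_congr rfl fun i _ => Finset.sum_congr rfl fun j _ => by ring

lemma co_zero (hγ : SmM γ) (hχ : Sm χ) {p : X} (h : χ =ᶠ[𝓝 p] 0) : co v γ φ χ p = 0 := by
  have e1 : ∀ a, D a χ =ᶠ[𝓝 p] fun _ => 0 := fun a =>
    h.eventually_nhds.mono fun q hq => (D_congr hq a).trans (D_const 0 a q)
  have e2 : ∀ a b, D a (D b χ) p = 0 := fun a b => (D_congr (e1 b) a).trans (D_const 0 a p)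
  have e3 : ∀ a, D a χ p = 0 := fun a => (e1 a).eq_of_nhds
  have e4 : χ p = 0 := h.eq_of_nhds
  simp [co, dgd_eq hγ hχ, dir, e2, e3, e4]

lemma co_le (hγ : SmM γ) (hφ : Sm φ) (hχ : Sm χ) {p : X} {T : ℝ} (hT : 1 ≤ T)
    (g0 : ∀ i j, |γ i j p| ≤ 2) (g1 : ∀ i j, |D (v i) (γ i j) p| ≤ 2) (c0 : |χ p| ≤ 1)
    (f1 : ∀ i, D (v i) φ p ^ 2 ≤ T) (f2 : ∀ i j, |D (v i) (D (v j) φ) p| ≤ T)
    (c1 : ∀ i, D (v i) χ p ^ 2 ≤ T) (c2 : ∀ i j, |D (v i) (D (v j) χ) p| ≤ T) :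
    co v γ φ χ p ≤ 14 * (Fintype.card κ * Fintype.card κ * T) := by
  have ab : ∀ {x : ℝ}, x ^ 2 ≤ T → |x| ≤ T := fun h =>
    abs_le.2 (abs_le_of_sq_le_sq' (h.trans (le_self_pow₀ hT (by norm_num))) (by linarith))
  have pr : ∀ {x y : ℝ}, x ^ 2 ≤ T → y ^ 2 ≤ T → |x * y| ≤ T := fun {x y} h h' =>
    abs_le.2 ⟨by linarith [sq_nonneg (x + y)], by linarith [sq_nonneg (x - y)]⟩
  have hd : ∀ {F : X → ℝ}, (∀ i, D (v i) F p ^ 2 ≤ T) → |dir v (XX v γ φ) F p| ≤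
      Fintype.card κ * Fintype.card κ * (2 * T) := fun h => by
    simp only [dir, XX, Finset.sum_mul, mul_assoc (γ _ _ p)]
    exact sum2 fun i j => mul_bd (g0 i j) (pr (f1 j) (h i))
  have hg : ∀ {F : X → ℝ}, Sm F → (∀ i, D (v i) F p ^ 2 ≤ T) →
      (∀ i j, |D (v i) (D (v j) F) p| ≤ T) →
      |dgd v γ F p| ≤ Fintype.card κ * Fintype.card κ * (2 * T + 2 * T) := fun hF h h' => by
    rw [dgd_eq hγ hF]
    exact sum2 fun i j => (abs_add_le _ _).trans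
      (add_le_add (mul_bd (g0 i j) (h' i j)) (mul_bd (g1 i j) (ab (h j))))
  have a1 := abs_le.1 (mul_bd c0 (hd f1))
  have a2 := abs_le.1 (mul_bd c0 (hg hφ f1 f2))
  have a3 := abs_le.1 (hd c1)
  have a4 := abs_le.1 (hg hχ c1 c2)
  rw [co, rho]
  linarith [a1.2, a2.1, a3.1, a4.2]

lemma sm_co (hγ : SmM γ) (hφ : Sm φ) (hχ : Sm χ) : Sm (co v γ φ χ) :=
  ((((hχ.cmul 2).mul (sm_rho hγ hφ)).sub (hχ.mul (sm_dgd hγ hφ))).sub
    ((sm_dir (sm_XX hγ hφ) hχ).cmul 2)).add ((sm_dgd hγ hχ).cmul (1 / 2))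

end gen

/-- The abstract inequality. -/
lemma cacc (hCI : S_CI) {n : ℕ} {J : Type} [Fintype J] {γ : Fin n → Fin n → X2 n → ℝ}
    {φ w h : X2 n → ℝ} {u : J → X2 n → ℝ} {S : Set (X2 n)} {K M : ℝ} (hγ : SmM γ) (hs : SymM γ)
    (hφ : Sm φ) (hu : ∀ j, Tst (u j)) (hw : Sm w) (hw0 : ∀ p, 0 ≤ w p) (hh : Continuous h)
    (hS : MeasurableSet S) (hK : 0 ≤ K)
    (hell : ∀ p ζ, n2 ζ / 2 ≤ bil (fun i j => γ i j p) ζ ζ) (hout : ∀ p ∉ S, w =ᶠ[𝓝 p] 0)
    (hin : ∀ p ∈ S, (∀ j, u j p = 0) ∨ (w p ≤ h p ∧ co ey γ φ w p ≤ M * h p ∧ ∀ E U : ℝ,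
      (∀ j i, |Dp φ (ey i) (u j) p| ≤ E) → (∀ j, |u j p| ≤ U) →
      ∀ j, |Lp' ey γ φ (u j) p| ≤ K * (E + U))) :
    ∑ j, ∫ p, w p * n2 (fun i => Dp φ (ey i) (u j) p) ≤
      4 * ((Fintype.card J * K) ^ 2 + Fintype.card J * K + M) *
        ∑ j, ∫ p in S, h p * u j p ^ 2 := by
  obtain ⟨A, hA⟩ : ∃ A, A = (Fintype.card J * K) ^ 2 + Fintype.card J * K := ⟨_, rfl⟩
  have hA0 : 0 ≤ A := by rw [hA]; positivity
  rw [← hA]
  have t1 : ∀ j i, Tst (Dp φ (ey i) (u j)) := fun j i => Tst.Dp hφ (hu j) _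
  have i1 : ∀ j, Integrable fun p => w p * n2 (fun i => Dp φ (ey i) (u j) p) := fun j =>
    (Tst.mul_left hw (Tst.sum _ fun i _ => (t1 j i).sq)).integrable
  have i2 : ∀ j, Integrable fun p => w p * u j p * Lp' ey γ φ (u j) p := fun j =>
    (Tst.mul_left (hw.mul (hu j).sm) (tst_Lp hγ hφ (hu j))).integrable
  have i3 : ∀ j, Integrable fun p => co ey γ φ w p * u j p ^ 2 := fun j =>
    (Tst.mul_left (sm_co hγ hφ hw) (hu j).sq).integrable
  have i4 : ∀ j, Integrable (S.indicator fun p => h p * u j p ^ 2) := fun j =>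
    (Tst.integrable_cmul hh (hu j).sq).indicator hS
  have n0 : ∀ ζ : Fin n → ℝ, 0 ≤ n2 ζ := fun ζ => Finset.sum_nonneg fun _ _ => sq_nonneg _
  have k1 : ∀ j, 1 / 2 * ∫ p, w p * n2 (fun i => Dp φ (ey i) (u j) p) ≤
      ∫ p, (-(w p * u j p * Lp' ey γ φ (u j) p) + co ey γ φ w p * u j p ^ 2) := fun j => by
    rw [integral_add (i2 j).fun_neg (i3 j), integral_neg, ← integral_const_mul]
    refine le_trans (integral_mono ((i1 j).const_mul _) (Tst.mul_left hw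
      (tst_quad hγ (fun i => (t1 j i).sm) (t1 j))).integrable fun p => ?_)
      (hCI (X2 n) volume (Fin n) ey γ φ (u j) w hγ hs hφ (hu j) hw).2.1.le
    have := mul_le_mul_of_nonneg_left (hell p fun i => Dp φ (ey i) (u j) p) (hw0 p)
    simp only [bil] at this ⊢
    linarith
  have k2 : ∀ p, ∑ j, (-(w p * u j p * Lp' ey γ φ (u j) p) + co ey γ φ w p * u j p ^ 2) ≤
      ∑ j, (1 / 4 * (w p * n2 (fun i => Dp φ (ey i) (u j) p)) +
        (A + M) * S.indicator (fun p => h p * u j p ^ 2) p) := fun p => by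
    by_cases hp : p ∈ S
    · simp only [indicator_of_mem hp]
      rcases hin p hp with h1 | ⟨h1, h2, h3⟩
      · refine Finset.sum_le_sum fun j _ => ?_
        have := mul_nonneg (hw0 p) (n0 fun i => Dp φ (ey i) (u j) p)
        simp only [h1 j]
        linarith
      have h0 : 0 ≤ ∑ j, u j p ^ 2 := Finset.sum_nonneg fun _ _ => sq_nonneg _
      have a1 := young (u := fun j => u j p) (l := fun j => Lp' ey γ φ (u j) p)
        (d := fun j => n2 fun i => Dp φ (ey i) (u j) p) (K := K) (fun j => n0 _)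
        (h3 _ _ (fun j i => Real.abs_le_sqrt ((Finset.single_le_sum
          (f := fun i => Dp φ (ey i) (u j) p ^ 2) (fun _ _ => sq_nonneg _)
          (Finset.mem_univ i)).trans (Finset.single_le_sum
            (f := fun j => n2 fun i => Dp φ (ey i) (u j) p) (fun _ _ => n0 _)
            (Finset.mem_univ j))))
          fun j => Real.abs_le_sqrt (Finset.single_le_sum (f := fun j => u j p ^ 2)
            (fun _ _ => sq_nonneg _) (Finset.mem_univ j)))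
      rw [← hA] at a1
      have a2 := mul_le_mul_of_nonneg_left a1 (hw0 p)
      have a3 := mul_le_mul_of_nonneg_right h2 h0
      have a4 := mul_le_mul_of_nonneg_right h1 (mul_nonneg hA0 h0)
      simp only [Finset.sum_add_distrib, Finset.sum_neg_distrib, mul_assoc (w p),
        ← Finset.mul_sum]
      linarith
    · have a1 : w p = 0 := (hout p hp).eq_of_nhds
      simp [indicator_of_notMem hp, a1, co_zero hγ hw (hout p hp)]
  have k3 := integral_mono (integrable_finsetSum _ fun j _ => (i2 j).fun_neg.fun_add (i3 j))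
    (integrable_finsetSum _ fun j _ => ((i1 j).const_mul _).fun_add ((i4 j).const_mul _)) k2
  rw [integral_finsetSum _ fun j _ => (i2 j).fun_neg.fun_add (i3 j),
    integral_finsetSum _ fun j _ => ((i1 j).const_mul _).fun_add ((i4 j).const_mul _)] at k3
  simp only [fun j => integral_add ((i1 j).const_mul (1 / 4)) ((i4 j).const_mul (A + M)),
    integral_const_mul, integral_indicator hS, Finset.sum_add_distrib, ← Finset.mul_sum] at k3
  have k4 := Finset.sum_le_sum fun j (_ : j ∈ Finset.univ) => k1 j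
  rw [← Finset.mul_sum] at k4
  linarith

end XY
end Vale.Agent.P088
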